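import Crest.Prelude.Def_AsymptoticConvexity

set_option autoImplicit false

/-!
General lemmas on asymptotic uniform convexity:
* `noAUC_of_states`: a bounded set of states such that from each state one can move, inside any
  closed finite-codimensional subspace, by a vector of norm at least `δ` and (almost) land in a
  state again, forbids equivalent AUC norms.
* `exists_near_of_l2`: a sequence with an upper `ℓ²` estimate is eventually close to every closed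
  finite-codimensional subspace.
* `noAUC_of_tree`: the countably branching tree version.
-/

namespace Crest.Agent.AUCLemma

open Crest.AnalysisR

section core

variable {X : Type*} [NormedAddCommGroup X] [NormedSpace ℝ X]

/-- closed finite-codimensional subspace, as a set -/
def Cof (F : Set X) : Prop :=
  ∃ S : Submodule ℝ X, (S : Set X) = F ∧ IsClosed F ∧ FiniteDimensional ℝ (X ⧸ S)

/-- convexity step: if `N (x + t • y) ≥ 1 + c` with `N x = 1` then for all `τ ≥ t`,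
`N (x + τ • y) ≥ 1 + c`. -/
theorem step_mono (N : X → ℝ) (hsub : ∀ x y : X, N (x + y) ≤ N x + N y)
    (hhom : ∀ (a : ℝ) (x : X), N (a • x) = |a| * N x) {x y : X} (hx : N x = 1)
    {t c τ : ℝ} (ht : 0 < t) (hc : 0 ≤ c) (hτ : t ≤ τ) (h : c ≤ N (x + t • y) - 1) :
    1 + c ≤ N (x + τ • y) := by
  have hτ0 : 0 < τ := lt_of_lt_of_le ht hτ
  have hr1 : t / τ ≤ 1 := (div_le_one hτ0).2 hτ
  have hr0 : 0 < t / τ := div_pos ht hτ0
  have key : x + t • y = (1 - t / τ) • x + (t / τ) • (x + τ • y) := by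
    rw [smul_add, smul_smul, div_mul_cancel₀ _ hτ0.ne', ← add_assoc, ← add_smul]
    simp
  have h1 : N (x + t • y) ≤ (1 - t / τ) * 1 + (t / τ) * N (x + τ • y) := by
    rw [key]
    refine (hsub _ _).trans ?_
    rw [hhom, hhom, abs_of_nonneg (by linarith), abs_of_pos hr0, hx]
  have h2 : t / τ * (1 + c) ≤ t / τ * N (x + τ • y) := by
    have : c * (t / τ) ≤ c := by nlinarith
    nlinarith
  exact le_of_mul_le_mul_left h2 hr0

theorem noAUC_core (N : X → ℝ) (hsub : ∀ x y : X, N (x + y) ≤ N x + N y)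
    (hhom : ∀ (a : ℝ) (x : X), N (a • x) = |a| * N x) {a b : ℝ} (ha : 0 < a)
    (hab : ∀ x : X, a * ‖x‖ ≤ N x ∧ N x ≤ b * ‖x‖)
    (K : Set X) {B δ : ℝ} (hδ : 0 < δ) (hB : ∀ x ∈ K, ‖x‖ ≤ B) (hne : ∃ x ∈ K, x ≠ 0)
    (hstep : ∀ x ∈ K, ∀ F : Set X, Cof F → ∀ ε : ℝ, 0 < ε →
      ∃ y ∈ F, δ ≤ ‖y‖ ∧ ∃ x' ∈ K, ‖x' - (x + y)‖ ≤ ε)
    (hauc : ∀ t : ℝ, 0 < t → ∃ c : ℝ, 0 < c ∧ ∀ x : X, N x = 1 → ∃ F : Set X, Cof F ∧
      ∀ y ∈ F, N y = 1 → c ≤ N (x + t • y) - 1) : False := by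
  obtain ⟨x₀, hx₀K, hx₀⟩ := hne
  have hx₀n : 0 < ‖x₀‖ := norm_pos_iff.2 hx₀
  have hb : 0 < b := by
    have h1 := (hab x₀).1
    have h2 := (hab x₀).2
    have h3 : 0 < a * ‖x₀‖ := mul_pos ha hx₀n
    by_contra hb
    push Not at hb
    have : b * ‖x₀‖ ≤ 0 := mul_nonpos_of_nonpos_of_nonneg hb hx₀n.le
    linarith
  have hB0 : 0 < B := lt_of_lt_of_le hx₀n (hB x₀ hx₀K)
  have hNbd : ∀ x ∈ K, N x ≤ b * B := fun x hx =>
    (hab x).2.trans (mul_le_mul_of_nonneg_left (hB x hx) hb.le)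
  set t : ℝ := a * δ / (b * B) with ht
  have htpos : 0 < t := by positivity
  obtain ⟨c, hc, hcF⟩ := hauc t htpos
  -- the supremum of N on K
  set M : ℝ := sSup (N '' K) with hM
  have hbdd : BddAbove (N '' K) := ⟨b * B, by rintro _ ⟨x, hx, rfl⟩; exact hNbd x hx⟩
  have hN0 : 0 < N x₀ := lt_of_lt_of_le (mul_pos ha hx₀n) (hab x₀).1
  have hMpos : 0 < M := lt_of_lt_of_le hN0 (le_csSup hbdd ⟨x₀, hx₀K, rfl⟩)
  have hlt : M / (1 + c / 2) < M := by
    rw [div_lt_iff₀ (by linarith)]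
    nlinarith
  obtain ⟨_, ⟨x, hxK, rfl⟩, hxM⟩ := exists_lt_of_lt_csSup (Set.Nonempty.image N ⟨x₀, hx₀K⟩) hlt
  have hNx : 0 < N x := lt_trans (by positivity) hxM
  -- normalise
  have hu : N ((N x)⁻¹ • x) = 1 := by
    rw [hhom, abs_of_pos (inv_pos.2 hNx), inv_mul_cancel₀ hNx.ne']
  obtain ⟨F, hF, hFy⟩ := hcF _ hu
  set ε : ℝ := c * M / (8 * b * (1 + c)) with hε
  have hεpos : 0 < ε := by positivity
  obtain ⟨y, hyF, hyδ, x', hx'K, hx'⟩ := hstep x hxK F hF ε hεpos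
  have hyn : 0 < ‖y‖ := lt_of_lt_of_le hδ hyδ
  have hNy : 0 < N y := lt_of_lt_of_le (mul_pos ha hyn) (hab y).1
  have hyunit : N ((N y)⁻¹ • y) = 1 := by
    rw [hhom, abs_of_pos (inv_pos.2 hNy), inv_mul_cancel₀ hNy.ne']
  have hyF' : (N y)⁻¹ • y ∈ F := by
    obtain ⟨S, hS, -, -⟩ := hF
    rw [← hS] at hyF ⊢
    exact S.smul_mem _ hyF
  have h1 := hFy _ hyF' hyunit
  have hratio : t ≤ N y / N x := by
    rw [le_div_iff₀ hNx]
    have h2 : t * N x ≤ t * (b * B) := mul_le_mul_of_nonneg_left (hNbd x hxK) htpos.le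
    have h3 : t * (b * B) = a * δ := by
      rw [ht]; field_simp
    have h4 : a * δ ≤ a * ‖y‖ := mul_le_mul_of_nonneg_left hyδ ha.le
    linarith [(hab y).1]
  have h5 := step_mono N hsub hhom hu htpos hc.le hratio h1
  have h6 : N (x + y) = N x * N ((N x)⁻¹ • x + (N y / N x) • ((N y)⁻¹ • y)) := by
    have : x + y = N x • ((N x)⁻¹ • x + (N y / N x) • ((N y)⁻¹ • y)) := by
      rw [smul_add, smul_smul, smul_smul, smul_smul, mul_inv_cancel₀ hNx.ne', one_smul]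
      have : N x * (N y / N x) * (N y)⁻¹ = 1 := by field_simp
      rw [this, one_smul]
    rw [this, hhom, abs_of_pos hNx]
  have h7 : (1 + c) * N x ≤ N (x + y) := by
    rw [h6, mul_comm]
    exact mul_le_mul_of_nonneg_left h5 hNx.le
  have h8 : N (x + y) ≤ N x' + b * ε := by
    have : x + y = x' + (-(x' - (x + y))) := by abel
    calc N (x + y) = N (x' + (-(x' - (x + y)))) := by rw [← this]
      _ ≤ N x' + N (-(x' - (x + y))) := hsub _ _
      _ ≤ N x' + b * ‖-(x' - (x + y))‖ := by linarith [(hab (-(x' - (x + y)))).2]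
      _ ≤ N x' + b * ε := by
        rw [norm_neg]
        linarith [mul_le_mul_of_nonneg_left hx' hb.le]
  have h9 : N x' ≤ M := le_csSup hbdd ⟨x', hx'K, rfl⟩
  have h10 : M < (1 + c / 2) * N x := by
    rw [div_lt_iff₀ (by linarith)] at hxM
    linarith
  -- (1+c) N x ≤ M + b ε, with M < (1+c/2) N x
  have h11 : b * ε = c * M / (8 * (1 + c)) := by
    rw [hε]; field_simp
  have h12 : c * M / (8 * (1 + c)) ≤ c * M / 8 := by
    apply div_le_div_of_nonneg_left (by positivity) (by norm_num)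
    nlinarith
  have h13 : N x ≤ M := le_csSup hbdd ⟨x, hxK, rfl⟩
  -- (1+c) N x ≤ M + cM/8 ; M < (1+c/2) N x ⇒ ...
  have h14 : (1 + c) * N x ≤ M + b * ε := by linarith
  have h15 : (c / 2) * N x < b * ε := by nlinarith
  -- b ε = cM/(8(1+c)) < c (1+c/2) N x/(8(1+c)) < c N x / 8
  have h16 : c * M / (8 * (1 + c)) ≤ c * N x / 8 := by
    rw [div_le_div_iff₀ (by positivity) (by norm_num)]
    have : M ≤ (1 + c) * N x := by nlinarith
    nlinarith [mul_le_mul_of_nonneg_left this hc.le]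
  nlinarith

/-- A sequence of vectors with an upper `ℓ²` estimate has functionals tending to zero along it. -/
theorem tendsto_zero_of_l2 {y : ℕ → X} {C : ℝ}
    (hl2 : ∀ (A : Finset ℕ) (r : ℕ → ℝ), ‖∑ n ∈ A, r n • y n‖ ≤ C * Real.sqrt (∑ n ∈ A, r n ^ 2))
    (φ : X →L[ℝ] ℝ) : Filter.Tendsto (fun n => φ (y n)) Filter.atTop (nhds 0) := by
  have hs : Summable (fun n => (φ (y n)) ^ 2) := by
    apply summable_of_sum_le (c := (‖φ‖ * C) ^ 2) (fun n => sq_nonneg _)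
    intro A
    set s : ℝ := ∑ n ∈ A, (φ (y n)) ^ 2 with hsdef
    have hs0 : 0 ≤ s := Finset.sum_nonneg fun n _ => sq_nonneg _
    have h1 := hl2 A (fun n => φ (y n))
    have h2 : s = φ (∑ n ∈ A, (φ (y n)) • y n) := by
      rw [map_sum, hsdef]
      refine Finset.sum_congr rfl fun n _ => ?_
      rw [map_smul, smul_eq_mul, sq]
    have h3 : s ≤ ‖φ‖ * (C * Real.sqrt s) := by
      calc s = φ (∑ n ∈ A, (φ (y n)) • y n) := h2
        _ ≤ ‖φ (∑ n ∈ A, (φ (y n)) • y n)‖ := Real.le_norm_self _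
        _ ≤ ‖φ‖ * ‖∑ n ∈ A, (φ (y n)) • y n‖ := φ.le_opNorm _
        _ ≤ ‖φ‖ * (C * Real.sqrt s) := mul_le_mul_of_nonneg_left h1 (norm_nonneg _)
    have h4 : s = Real.sqrt s * Real.sqrt s := (Real.mul_self_sqrt hs0).symm
    rcases hs0.eq_or_lt with h0 | h0
    · rw [← h0]; positivity
    · have hsq : 0 < Real.sqrt s := Real.sqrt_pos.2 h0
      have h5 : Real.sqrt s ≤ ‖φ‖ * C := by
        have : Real.sqrt s * Real.sqrt s ≤ (‖φ‖ * C) * Real.sqrt s := by linarith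
        exact le_of_mul_le_mul_right this hsq
      calc s = Real.sqrt s ^ 2 := (Real.sq_sqrt hs0).symm
        _ ≤ (‖φ‖ * C) ^ 2 := pow_le_pow_left₀ hsq.le h5 2
  have h := hs.tendsto_atTop_zero
  have h2 : Filter.Tendsto (fun n => Real.sqrt ((φ (y n)) ^ 2)) Filter.atTop (nhds 0) := by
    have := (Real.continuous_sqrt.tendsto 0).comp h
    simpa [Function.comp_def] using this
  rw [tendsto_zero_iff_abs_tendsto_zero]
  refine h2.congr fun n => ?_
  simp [Real.sqrt_sq_eq_abs]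

/-- A weakly null sequence is eventually close to every closed finite-codimensional subspace. -/
theorem exists_near_of_weakNull {y : ℕ → X}
    (hw : ∀ φ : X →L[ℝ] ℝ, Filter.Tendsto (fun n => φ (y n)) Filter.atTop (nhds 0))
    {F : Set X} (hF : Cof F) {ε : ℝ} (hε : 0 < ε) :
    ∃ n₀ : ℕ, ∀ n ≥ n₀, ∃ z ∈ F, ‖y n - z‖ < ε := by
  obtain ⟨S, rfl, hcl, hfd⟩ := hF
  haveI : IsClosed (S : Set X) := hcl
  -- the quotient is a finite-dimensional normed space
  have hlim : Filter.Tendsto (fun n => (S.mkQ (y n) : X ⧸ S)) Filter.atTop (nhds 0) := by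
    let e := Module.finBasis ℝ (X ⧸ S)
    let E := e.equivFun.toContinuousLinearEquiv
    have h1 : Filter.Tendsto (fun n => E (S.mkQ (y n))) Filter.atTop (nhds 0) := by
      rw [tendsto_pi_nhds]
      intro i
      let φ : X →L[ℝ] ℝ :=
        (ContinuousLinearMap.proj i).comp (E.toContinuousLinearMap.comp S.mkQL)
      have := hw φ
      simpa [φ] using this
    have h2 := (E.symm.continuous.tendsto 0).comp h1
    simp only [map_zero] at h2
    refine h2.congr fun n => ?_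
    simp
  rw [tendsto_zero_iff_norm_tendsto_zero] at hlim
  obtain ⟨n₀, hn₀⟩ := (hlim.eventually_lt_const hε).exists_forall_of_atTop
  refine ⟨n₀, fun n hn => ?_⟩
  have h3 := hn₀ n hn
  obtain ⟨m, hm, hm'⟩ := Submodule.Quotient.norm_mk_lt (S := S) (S.mkQ (y n)) (ε := ε - ‖S.mkQ (y n)‖) (by linarith)
  refine ⟨y n - m, ?_, ?_⟩
  · have : S.mkQ (y n - m) = 0 := by
      rw [map_sub, sub_eq_zero]
      exact hm.symm
    rw [Submodule.mkQ_apply, Submodule.Quotient.mk_eq_zero] at this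
    exact this
  · simpa using (by linarith : ‖m‖ < ε)

end core

/-- The state version of the obstruction, for `RealBanach` records. -/
theorem noAUC_of_states (E : RealBanach) (K : Set E.X) {B δ : ℝ} (hδ : 0 < δ)
    (hB : ∀ x ∈ K, E.norm x ≤ B) (hne : ∃ x ∈ K, 0 < E.norm x)
    (hstep : letI := E.normed; ∀ x ∈ K, ∀ F : Set E.X, E.IsCof F → ∀ ε : ℝ, 0 < ε →
      ∃ y ∈ F, δ ≤ E.norm y ∧ ∃ x' ∈ K, E.norm (x' - (x + y)) ≤ ε)
    (N : E.X → ℝ) (hN : E.IsEquivNorm N) : ¬ E.IsAUC N := by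
  letI := E.normed
  letI := E.space
  intro hauc
  obtain ⟨hsub, hhom, a, b, ha, hab⟩ := hN
  refine noAUC_core (X := E.X) N hsub hhom ha hab K hδ hB ?_ hstep hauc
  obtain ⟨x, hx, hx0⟩ := hne
  exact ⟨x, hx, norm_pos_iff.1 hx0⟩

/-- Tree version: vectors `d s` indexed by the countably branching tree, with bounded root-path
sums `P s` (`P [] = d []`-like start, `P (n :: s) = P s + d (n :: s)`), norms of `d (n :: s)` at
least `δ`, and each family of siblings weakly null. -/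
theorem noAUC_of_tree {X : Type*} [NormedAddCommGroup X] [NormedSpace ℝ X]
    (P : List ℕ → X) {B δ : ℝ} (hδ : 0 < δ)
    (hB : ∀ s, ‖P s‖ ≤ B) (hne : ∃ s, P s ≠ 0)
    (hd : ∀ n s, δ ≤ ‖P (n :: s) - P s‖)
    (hw : ∀ s, ∀ φ : X →L[ℝ] ℝ,
      Filter.Tendsto (fun n => φ (P (n :: s) - P s)) Filter.atTop (nhds 0))
    (N : X → ℝ) (hsub : ∀ x y : X, N (x + y) ≤ N x + N y)
    (hhom : ∀ (a : ℝ) (x : X), N (a • x) = |a| * N x) {a b : ℝ} (ha : 0 < a)
    (hab : ∀ x : X, a * ‖x‖ ≤ N x ∧ N x ≤ b * ‖x‖)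
    (hauc : ∀ t : ℝ, 0 < t → ∃ c : ℝ, 0 < c ∧ ∀ x : X, N x = 1 → ∃ F : Set X, Cof F ∧
      ∀ y ∈ F, N y = 1 → c ≤ N (x + t • y) - 1) : False := by
  refine noAUC_core N hsub hhom ha hab (Set.range P) (B := B) (half_pos hδ) ?_ ?_ ?_ hauc
  · rintro _ ⟨s, rfl⟩; exact hB s
  · obtain ⟨s, hs⟩ := hne; exact ⟨_, ⟨s, rfl⟩, hs⟩
  · rintro _ ⟨s, rfl⟩ F hF ε hε
    obtain ⟨n₀, hn₀⟩ := exists_near_of_weakNull (hw s) hF (ε := min ε (δ / 2)) (by positivity)
    obtain ⟨z, hz, hz'⟩ := hn₀ n₀ le_rfl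
    refine ⟨z, hz, ?_, P (n₀ :: s), ⟨_, rfl⟩, ?_⟩
    · have h1 := hd n₀ s
      have h2 : ‖P (n₀ :: s) - P s‖ ≤ ‖P (n₀ :: s) - P s - z‖ + ‖z‖ := by
        have := norm_add_le (P (n₀ :: s) - P s - z) z
        simpa using this
      have h3 : ‖P (n₀ :: s) - P s - z‖ < δ / 2 := lt_of_lt_of_le hz' (min_le_right _ _)
      linarith
    · have : P (n₀ :: s) - (P s + z) = P (n₀ :: s) - P s - z := by abel
      rw [this]
      exact (lt_of_lt_of_le hz' (min_le_left _ _)).le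

/-- Tree version for `RealBanach` records. -/
theorem noAUC_of_tree' (E : RealBanach) (P : List ℕ → E.X) {B δ : ℝ} (hδ : 0 < δ)
    (hB : ∀ s, E.norm (P s) ≤ B) (hne : ∃ s, 0 < E.norm (P s))
    (hd : letI := E.normed; ∀ n s, δ ≤ E.norm (P (n :: s) - P s))
    (hw : letI := E.normed; letI := E.space; ∀ s, ∀ φ : E.X →L[ℝ] ℝ,
      Filter.Tendsto (fun n => φ (P (n :: s) - P s)) Filter.atTop (nhds 0))
    (N : E.X → ℝ) (hN : E.IsEquivNorm N) : ¬ E.IsAUC N := by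
  letI := E.normed
  letI := E.space
  intro hauc
  obtain ⟨hsub, hhom, a, b, ha, hab⟩ := hN
  refine noAUC_of_tree (X := E.X) P hδ hB ?_ hd hw N hsub hhom ha hab hauc
  obtain ⟨s, hs⟩ := hne
  exact ⟨s, norm_pos_iff.1 hs⟩

end Crest.Agent.AUCLemma
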