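import Crest.Agent.BCPert

set_option autoImplicit false

namespace Crest.Agent.BC

open Finset MeasureTheory Filter

namespace Base

variable {β : ℝ}

theorem nx_eq (M : ℕ) (hM : 0 < M) : nx (1 / (M : ℝ) ^ 2) = 1 / (M : ℝ) ^ 5 := by
  have hM' : (0 : ℝ) < M := by exact_mod_cast hM
  unfold nx
  have h : Real.sqrt (1 / (M : ℝ) ^ 2) = 1 / (M : ℝ) := by
    rw [Real.sqrt_div zero_le_one, Real.sqrt_one, Real.sqrt_sq hM'.le]
  rw [h]
  field_simp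

theorem sqrt_eq (M : ℕ) (hM : 0 < M) : Real.sqrt (1 / (M : ℝ) ^ 2) = 1 / (M : ℝ) := by
  have hM' : (0 : ℝ) < M := by exact_mod_cast hM
  rw [Real.sqrt_div zero_le_one, Real.sqrt_one, Real.sqrt_sq hM'.le]

theorem NN_eq (M : ℕ) (hM : 0 < M) : NN (1 / (M : ℝ) ^ 2) = M ^ 4 := by
  have hM' : (0 : ℝ) < M := by exact_mod_cast hM
  unfold NN
  have : 1 / (1 / (M : ℝ) ^ 2) ^ 2 = ((M ^ 4 : ℕ) : ℝ) := by
    push_cast
    field_simp
  rw [this, Nat.floor_natCast]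

theorem TT_spec (h1 : 1 < β) (R : ℝ) (hR : 0 < R) :
    (β⁻¹) ^ (TT β R) ≤ (1 - β⁻¹) * nx R := by
  have hβ0 : 0 < β := by linarith
  have hlt : β⁻¹ < 1 := inv_lt_one_of_one_lt₀ h1
  have hnx : 0 < nx R := by unfold nx; positivity
  have hy : 0 < (1 - β⁻¹) * nx R := mul_pos (by linarith) hnx
  have h2 : Real.logb β (1 / ((1 - β⁻¹) * nx R)) ≤ (TT β R : ℝ) := Nat.le_ceil _
  rw [Real.logb_le_iff_le_rpow h1 (by positivity), Real.rpow_natCast] at h2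
  rw [inv_pow, ← one_div]
  rw [div_le_iff₀ hy] at h2
  rw [div_le_iff₀ (by positivity)]
  linarith

theorem TT_small (h1 : 1 < β) (δ : ℝ) (hδ : 0 < δ) :
    ∀ᶠ M : ℕ in atTop, (TT β (1 / (M : ℝ) ^ 2) : ℝ) ≤ δ * M := by
  have hβ0 : 0 < β := by linarith
  have hlt : β⁻¹ < 1 := inv_lt_one_of_one_lt₀ h1
  have hlog : 0 < Real.log β := Real.log_pos h1
  have hp : 0 < 1 - β⁻¹ := by linarith
  have hp1 : 1 - β⁻¹ ≤ 1 := by
    have : 0 < β⁻¹ := by positivity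
    linarith
  -- log M / M → 0
  have hl : Tendsto (fun M : ℕ => Real.log (M : ℝ) / (M : ℝ)) atTop (nhds 0) := by
    have h2 : Tendsto (fun x : ℝ => Real.log x / x) atTop (nhds 0) := by
      have := Real.isLittleO_log_id_atTop.tendsto_div_nhds_zero
      simpa using this
    exact h2.comp tendsto_natCast_atTop_atTop
  have hc : Tendsto (fun M : ℕ => (1 + (-Real.log (1 - β⁻¹)) / Real.log β) / (M : ℝ)) atTop
      (nhds 0) := tendsto_const_div_atTop_nhds_zero_nat _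
  have hsum : Tendsto (fun M : ℕ => (5 / Real.log β) * (Real.log (M : ℝ) / (M : ℝ)) +
      (1 + (-Real.log (1 - β⁻¹)) / Real.log β) / (M : ℝ)) atTop (nhds 0) := by
    have := (hl.const_mul (5 / Real.log β)).add hc
    simpa using this
  have hev := hsum.eventually (ge_mem_nhds hδ)
  filter_upwards [hev, eventually_gt_atTop 0] with M hM hM0
  have hM' : (0 : ℝ) < M := by exact_mod_cast hM0
  have hM1 : (1 : ℝ) ≤ M := by exact_mod_cast hM0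
  unfold TT
  rw [nx_eq M hM0]
  have harg : 1 / ((1 - β⁻¹) * (1 / (M : ℝ) ^ 5)) = (M : ℝ) ^ 5 / (1 - β⁻¹) := by
    field_simp
  rw [harg]
  have hge1 : 1 ≤ (M : ℝ) ^ 5 / (1 - β⁻¹) := by
    rw [le_div_iff₀ hp]
    have : (1 : ℝ) ≤ (M : ℝ) ^ 5 := one_le_pow₀ hM1
    linarith
  have hnn : 0 ≤ Real.logb β ((M : ℝ) ^ 5 / (1 - β⁻¹)) := Real.logb_nonneg h1 hge1
  have h3 := (Nat.ceil_lt_add_one hnn).le
  refine h3.trans ?_
  have h4 : Real.logb β ((M : ℝ) ^ 5 / (1 - β⁻¹)) =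
      (5 * Real.log M - Real.log (1 - β⁻¹)) / Real.log β := by
    unfold Real.logb
    rw [Real.log_div (by positivity) hp.ne', Real.log_pow]
    norm_num
  rw [h4]
  have h5 : (5 / Real.log β) * (Real.log (M : ℝ) / (M : ℝ)) +
      (1 + (-Real.log (1 - β⁻¹)) / Real.log β) / (M : ℝ) =
      ((5 * Real.log M - Real.log (1 - β⁻¹)) / Real.log β + 1) / M := by
    field_simp
    ring
  rw [h5, div_le_iff₀ hM'] at hM
  exact hM

theorem cos_ne_zero_of_isIntegral (y : ℝ) (hy : IsIntegral ℤ y) :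
    Real.cos (2 * Real.pi * y) ≠ 0 := by
  intro h
  rw [Real.cos_eq_zero_iff] at h
  obtain ⟨k, hk⟩ := h
  have hpi : Real.pi ≠ 0 := Real.pi_ne_zero
  have hy2 : y = ((((2 * k + 1 : ℤ) : ℚ) / 4 : ℚ) : ℝ) := by
    push_cast
    have : 2 * Real.pi * y = 2 * Real.pi * ((2 * (k : ℝ) + 1) / 4) := by
      rw [hk]; ring
    exact mul_left_cancel₀ (by positivity) this
  have h2 : IsIntegral ℤ (((2 * k + 1 : ℤ) : ℚ) / 4 : ℚ) := by
    rw [hy2] at hy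
    have h3 : ((((2 * k + 1 : ℤ) : ℚ) / 4 : ℚ) : ℝ) = algebraMap ℚ ℝ (((2 * k + 1 : ℤ) : ℚ) / 4) := by
      simp
    rw [h3] at hy
    exact (isIntegral_algebraMap_iff (algebraMap ℚ ℝ).injective).mp hy
  obtain ⟨n, hn⟩ := IsIntegrallyClosed.isIntegral_iff.mp h2
  have h4 : (n : ℚ) = ((2 * k + 1 : ℤ) : ℚ) / 4 := by simpa using hn
  have h5 : (n : ℚ) * 4 = ((2 * k + 1 : ℤ) : ℚ) := by rw [h4]; ring
  have h6 : n * 4 = 2 * k + 1 := by exact_mod_cast h5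
  omega

theorem isIntegral_zpow (hβ : IsIntegral ℤ β) (hβi : IsIntegral ℤ β⁻¹) (i : ℤ) :
    IsIntegral ℤ (β ^ i) := by
  obtain ⟨n, rfl | rfl⟩ := i.eq_nat_or_neg
  · rw [zpow_natCast]; exact hβ.pow n
  · rw [zpow_neg, zpow_natCast, ← inv_pow]; exact hβi.pow n

theorem pt_symm {ζ : ℂ} {x w : ℝ} {z : ℂ} (h : Pt β ζ x w z) : Pt β ζ⁻¹ w x z := by
  refine ⟨fun i => ?_, h.iw, h.ix⟩
  obtain ⟨k, hk⟩ := h.int (-i)
  refine ⟨k, ?_⟩
  rw [← hk, neg_neg, inv_zpow', add_comm (w * β ^ i)]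

theorem mu_exists (h1 : 1 < β) (hβ : IsIntegral ℤ β) (hβi : IsIntegral ℤ β⁻¹) {ζ : ℂ}
    (hζ : ‖ζ‖ = 1) {x w : ℝ} {z : ℂ} (hP : Pt β ζ x w z) (hz : ‖z‖ ≤ 1 / 16) :
    ∃ μ : ℝ, 0 < μ ∧ ∀ i : ℤ, μ ≤ |Real.cos (2 * Real.pi * (x * β ^ i))| := by
  have hβ0 : 0 < β := by linarith
  have hne : ∀ i : ℤ, 0 < |Real.cos (2 * Real.pi * (x * β ^ i))| := fun i =>
    abs_pos.mpr (cos_ne_zero_of_isIntegral _ (hP.ix.mul (isIntegral_zpow hβ hβi i)))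
  -- choose K
  obtain ⟨K, hK⟩ : ∃ K : ℕ, 56 * (|x| + |w|) < β ^ K := pow_unbounded_of_one_lt _ h1
  obtain ⟨i₀, -, hi₀⟩ := Finset.exists_min_image (Finset.Icc (-(K : ℤ)) K)
    (fun i => |Real.cos (2 * Real.pi * (x * β ^ i))|) ⟨0, by simp⟩
  refine ⟨min (|Real.cos (2 * Real.pi * (x * β ^ i₀))|) (Real.exp (-(40 * (1 / 7) ^ 2))),
    lt_min (hne i₀) (Real.exp_pos _), fun i => ?_⟩
  have hKpos : 0 < β ^ K := pow_pos hβ0 K
  have hsmall : ∀ a : ℝ, |a| ≤ |x| + |w| → ∀ n : ℤ, n < -(K : ℤ) → |a * β ^ n| ≤ 1 / 56 := by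
    intro a ha n hn
    rw [abs_mul, abs_of_pos (zpow_pos hβ0 n)]
    have h2 : β ^ n ≤ β ^ (-(K : ℤ)) := zpow_le_zpow_right₀ h1.le hn.le
    rw [zpow_neg, zpow_natCast] at h2
    calc |a| * β ^ n ≤ (|x| + |w|) * (β ^ K)⁻¹ :=
          mul_le_mul ha h2 (zpow_pos hβ0 n).le (by positivity)
      _ ≤ 1 / 56 := by
          rw [← div_eq_mul_inv, div_le_iff₀ hKpos]; linarith
  have hexp : ∀ y : ℝ, |y| ≤ 1 / 7 → Real.exp (-(40 * (1 / 7) ^ 2)) ≤ Real.exp (-(40 * y ^ 2)) := by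
    intro y hy
    apply Real.exp_le_exp.mpr
    have : y ^ 2 ≤ (1 / 7) ^ 2 := by
      rw [← sq_abs y]; exact pow_le_pow_left₀ (abs_nonneg y) hy 2
    linarith
  by_cases h : i ∈ Finset.Icc (-(K : ℤ)) K
  · exact (min_le_left _ _).trans (hi₀ i h)
  · refine (min_le_right _ _).trans ?_
    rw [Finset.mem_Icc, not_and_or, not_le, not_le] at h
    rcases h with h | h
    · have h2 := hsmall x (by have := abs_nonneg w; linarith) i h
      have h3 : |x * β ^ i| ≤ 1 / 7 := h2.trans (by norm_num)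
      exact (hexp _ h3).trans (Pert.abs_cos_near (x * β ^ i) (x * β ^ i) 0 (Or.inl (by simp)) h3)
    · have h2 := hsmall w (by have := abs_nonneg x; linarith) (-i) (by omega)
      obtain ⟨k, hk⟩ := hP.int i
      have h4 : |2 * (z * ζ ^ i).re| ≤ 1 / 8 := by
        rw [abs_mul]
        have h5 : |(z * ζ ^ i).re| ≤ ‖z * ζ ^ i‖ := Complex.abs_re_le_norm _
        rw [norm_mul, norm_zpow, hζ, one_zpow, mul_one] at h5
        rw [abs_of_pos (by norm_num : (0 : ℝ) < 2)]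
        linarith
      have h3 : |w * β ^ (-i) + 2 * (z * ζ ^ i).re| ≤ 1 / 7 := by
        refine (abs_add_le _ _).trans ?_
        linarith
      exact (hexp _ h3).trans (Pert.abs_cos_near (x * β ^ i) (w * β ^ (-i) + 2 * (z * ζ ^ i).re) k
        (Or.inr (by linarith)) h3)

theorem phi_ne_zero (h1 : 1 < β) {φ : ℝ → ℝ} {C : ℝ} (h : CF β φ C) (x : ℝ) {μ : ℝ} (hμ : 0 < μ)
    (hx : ∀ i : ℤ, μ ≤ |Real.cos (2 * Real.pi * (x * β ^ i))|) (n : ℕ) :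
    0 < |φ (x * β ^ n)| := by
  have hβ0 : 0 < β := by linarith
  have ht := Pert.phi_tendsto h1 h (x * β ^ n)
  have hev := ht.eventually (lt_mem_nhds (show (0 : ℝ) < 1 by norm_num))
  obtain ⟨K, hK⟩ := hev.exists
  rw [Pert.phi_down' h1 h (x * β ^ n) K, abs_mul, Finset.abs_prod]
  apply mul_pos hK
  apply Finset.prod_pos
  intro i _
  have h2 : x * β ^ n * β ^ (-(K : ℤ) + i + 1) = x * β ^ ((n : ℤ) + (-(K : ℤ) + i + 1)) := by
    rw [zpow_add₀ hβ0.ne' (n : ℤ), zpow_natCast, mul_assoc]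
  rw [h2]
  exact lt_of_lt_of_le hμ (hx _)

theorem norm_one_sub_pow_mul {ζ : ℂ} (hζ : ‖ζ‖ = 1) (d m : ℕ) :
    ‖1 - ζ ^ (m * d)‖ ≤ m * ‖1 - ζ ^ d‖ := by
  induction m with
  | zero => simp
  | succ m ih =>
    have h : 1 - ζ ^ ((m + 1) * d) = (1 - ζ ^ (m * d)) + ζ ^ (m * d) * (1 - ζ ^ d) := by
      rw [Nat.succ_mul, pow_add]; ring
    rw [h]
    refine (norm_add_le _ _).trans ?_
    rw [norm_mul, norm_pow, hζ, one_pow, one_mul]
    push_cast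
    linarith

/-- the first lattice point -/
theorem first (hS : StepMuStmt) (h1 : 1 < β) (hβ : IsIntegral ℤ β) (hβi : IsIntegral ℤ β⁻¹) {ζ : ℂ}
    (hζ : ‖ζ‖ = 1) {D : ℕ → ℕ} (hD : DirProp ζ D) (hP : Pt β ζ 1 1 1) :
    ∃ (x w : ℝ) (z : ℂ) (H : ℕ) (μ : ℝ), Pt β ζ x w z ∧ 1 ≤ |x| ∧ |x| ≤ β ^ H ∧ |w| ≤ β ^ H ∧
      ‖z‖ ≤ 1 / 16 ∧ 2 ≤ β ^ H ∧ 0 < μ ∧
      (∀ i : ℤ, μ ≤ |Real.cos (2 * Real.pi * (x * β ^ i))| ∧
        μ ≤ |Real.cos (2 * Real.pi * (w * β ^ i))|) := by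
  have hβ0 : 0 < β := by linarith
  have hlt : β⁻¹ < 1 := inv_lt_one_of_one_lt₀ h1
  have hβi0 : 0 < β⁻¹ := by positivity
  obtain ⟨T, hT⟩ : ∃ T : ℕ, (β⁻¹) ^ T < (1 - β⁻¹) * (1 / 16) :=
    exists_pow_lt_of_lt_one (mul_pos (by linarith) (by norm_num)) hlt
  obtain ⟨S, hSS⟩ : ∃ S : ℕ, 2 < β ^ S := pow_unbounded_of_one_lt _ h1
  -- m copies of D N, with m = 2 T + S
  obtain ⟨N, hN⟩ : ∃ N : ℕ, ((2 * T + S + 1 : ℕ) : ℝ) * (2 * Real.pi) * 16 ≤ N := exists_nat_ge _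
  have hN1 : 1 ≤ N + 1 := by omega
  obtain ⟨hD1, hD2, hD3⟩ := hD.1 (N + 1) hN1
  set d := D (N + 1) with hd
  set m := 2 * T + S + 1 with hm
  have hj1 : m ≤ m * d := Nat.le_mul_of_pos_right _ hD1
  have hnorm : ‖1 - ζ ^ (m * d)‖ ≤ 1 / 16 := by
    refine (norm_one_sub_pow_mul hζ d m).trans ?_
    have h2 : (m : ℝ) * ‖1 - ζ ^ d‖ ≤ (m : ℝ) * (2 * Real.pi / (((N + 1 : ℕ) : ℝ) + 1)) :=
      mul_le_mul_of_nonneg_left hD3 (Nat.cast_nonneg _)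
    refine h2.trans ?_
    have h3 : (0 : ℝ) < ((N + 1 : ℕ) : ℝ) + 1 := by positivity
    rw [← mul_div_assoc, div_le_iff₀ h3]
    push_cast
    linarith
  have hβj : 2 ≤ β ^ (m * d) := by
    refine hSS.le.trans (pow_le_pow_right₀ h1.le ?_)
    omega
  have := hS β ζ h1 hβ hβi hζ 1 1 1 0 0 hP (by simp) (by simp) (by simp)
    (fun i => ⟨abs_nonneg _, abs_nonneg _⟩) (m * d) T (1 / 16) (by norm_num)
    (by omega) hβj hT.le (by rw [one_mul]; exact hnorm)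
  obtain ⟨a1, a2, a3, a4, -⟩ := this
  rw [one_mul] at a1 a2 a3
  rw [zero_add] at a3 a4
  have hz : ‖(1 : ℂ) * (1 - ζ ^ (m * d))‖ ≤ 1 / 16 := by rw [one_mul]; exact hnorm
  obtain ⟨μ1, hμ1, hμ1'⟩ := mu_exists h1 hβ hβi hζ a1 hz
  obtain ⟨μ2, hμ2, hμ2'⟩ := mu_exists h1 hβ hβi (by rw [norm_inv, hζ, inv_one]) (pt_symm a1) hz
  exact ⟨_, _, _, m * d, min μ1 μ2, a1, a2, a3, a4, hz, hβj, lt_min hμ1 hμ2,
    fun i => ⟨(min_le_left _ _).trans (hμ1' i), (min_le_right _ _).trans (hμ2' i)⟩⟩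

end Base

open Base in
theorem base : BaseStmt := by
  intro hS β ζ φ C D h1 hβ hβi hζ hCF hD hP ε hε
  obtain ⟨x, w, z, H, μ, hPt, hx1, hxH, hwH, hz, hβH, hμ, hcos⟩ := first hS h1 hβ hβi hζ hD hP
  have hβ0 : 0 < β := by linarith
  have hlt : β⁻¹ < 1 := inv_lt_one_of_one_lt₀ h1
  -- δ
  set δ : ℝ := min (1 / 100) (ε / 100) with hδ
  have hδ0 : 0 < δ := lt_min (by norm_num) (by positivity)
  have hδ1 : δ ≤ 1 / 100 := min_le_left _ _
  have hδ2 : δ ≤ ε / 100 := min_le_right _ _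
  have e1 := TT_small h1 δ hδ0
  have e2 : ∀ᶠ M : ℕ in atTop, (H : ℝ) + 1 ≤ δ * M := by
    have : Tendsto (fun M : ℕ => δ * (M : ℝ)) atTop atTop :=
      tendsto_natCast_atTop_atTop.const_mul_atTop hδ0
    exact this.eventually_ge_atTop _
  have e3 : ∀ᶠ M : ℕ in atTop, 40 / μ + 1 / (ε * (μ / 2)) + 1 / ε + 100 ≤ (M : ℝ) :=
    tendsto_natCast_atTop_atTop.eventually_ge_atTop _
  obtain ⟨M, hM1, hM2, hM3⟩ := (e1.and (e2.and e3)).exists
  have hp1 : 0 < 40 / μ := by positivity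
  have hp2 : 0 < 1 / (ε * (μ / 2)) := by positivity
  have hp3 : 0 < 1 / ε := by positivity
  have hM100 : (100 : ℝ) ≤ M := by linarith
  have hM0 : 0 < M := by
    have : (0 : ℝ) < M := by linarith
    exact_mod_cast this
  have hM' : (0 : ℝ) < M := by linarith
  have hMsq : (M : ℝ) ≤ (M : ℝ) ^ 2 := by nlinarith
  set R : ℝ := 1 / (M : ℝ) ^ 2 with hR
  have hR0 : 0 < R := by positivity
  have hRM : R ≤ 1 / M := by
    rw [hR]; exact one_div_le_one_div_of_le hM' hMsq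
  have hMμ : 1 / (M : ℝ) ≤ μ / 40 := by
    rw [div_le_div_iff₀ hM' (by norm_num), one_mul]
    have : 40 / μ ≤ M := by linarith
    rw [div_le_iff₀ hμ] at this
    linarith
  have hMε : 1 / (M : ℝ) ≤ ε := by
    have : 1 / ε ≤ M := by linarith
    rw [div_le_iff₀ hε] at this
    rw [div_le_iff₀ hM']
    linarith
  have hMεμ : 1 / (M : ℝ) ≤ ε * (μ / 2) := by
    have : 1 / (ε * (μ / 2)) ≤ M := by linarith
    rw [div_le_iff₀ (by positivity)] at this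
    rw [div_le_iff₀ hM']
    linarith
  set T := TT β R with hT
  set N := M ^ 3 with hN
  have hN1 : 1 ≤ N := Nat.one_le_pow _ _ hM0
  obtain ⟨hD1, hD2, hD3⟩ := hD.1 N hN1
  set d := D N with hd
  set ℓ := 2 * (H + T) with hℓ
  set m := ℓ / d + 1 with hm
  have hj1 : ℓ ≤ m * d := by
    have := Nat.lt_succ_iff.mp (Nat.lt_succ_of_lt (Nat.lt_mul_of_div_lt (Nat.lt_succ_self (ℓ / d)) hD1))
    rw [hm]
    calc ℓ ≤ d * (ℓ / d + 1) := by
          have := Nat.lt_mul_div_succ ℓ hD1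
          omega
      _ = _ := by ring
  have hj2 : m * d ≤ ℓ + d := by
    rw [hm, Nat.add_mul, one_mul]
    have := Nat.div_mul_le_self ℓ d
    omega
  have hmℓ : m ≤ ℓ + 1 := by
    rw [hm]
    have := Nat.div_le_self ℓ d
    omega
  have hℓR : (ℓ : ℝ) + 2 ≤ 4 * δ * M := by
    rw [hℓ]; push_cast; linarith
  have hT1 : (T : ℝ) ≤ δ * M := hM1
  have hnorm1 : ‖1 - ζ ^ (m * d)‖ ≤ R := by
    refine (norm_one_sub_pow_mul hζ d m).trans ?_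
    have h2 : (m : ℝ) * ‖1 - ζ ^ d‖ ≤ (4 * δ * M) * (2 * Real.pi / ((N : ℝ) + 1)) := by
      apply mul_le_mul _ hD3 (norm_nonneg _) (by positivity)
      have : (m : ℝ) ≤ (ℓ : ℝ) + 1 := by exact_mod_cast hmℓ
      linarith
    refine h2.trans ?_
    have h3 : (0 : ℝ) < (N : ℝ) + 1 := by positivity
    rw [← mul_div_assoc, hR, div_le_div_iff₀ h3 (by positivity), hN]
    push_cast
    have hpi := Real.pi_lt_four
    have h5 : 4 * δ * (2 * Real.pi) ≤ 1 := by nlinarith [Real.pi_pos]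
    have h6 : 4 * δ * M * (2 * Real.pi) * (M : ℝ) ^ 2 = (4 * δ * (2 * Real.pi)) * (M : ℝ) ^ 3 := by ring
    rw [h6]
    have h7 : (0 : ℝ) < (M : ℝ) ^ 3 := by positivity
    nlinarith
  have hnorm2 : ‖z * (1 - ζ ^ (m * d))‖ ≤ R := by
    rw [norm_mul]
    calc ‖z‖ * ‖1 - ζ ^ (m * d)‖ ≤ 1 * R :=
          mul_le_mul (hz.trans (by norm_num)) hnorm1 (norm_nonneg _) (by norm_num)
      _ = R := one_mul R
  have hβj : 2 ≤ β ^ (m * d) := by
    refine hβH.trans (pow_le_pow_right₀ h1.le ?_)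
    omega
  have hTs : (β⁻¹) ^ T ≤ (1 - β⁻¹) * R := by
    refine (TT_spec h1 R hR0).trans ?_
    apply mul_le_mul_of_nonneg_left _ (by linarith)
    rw [hR, nx_eq M hM0]
    apply one_div_le_one_div_of_le (by positivity)
    exact pow_le_pow_right₀ (by linarith) (by norm_num)
  obtain ⟨b1, b2, b3, b4, b5⟩ := hS β ζ h1 hβ hβi hζ x w z H μ hPt hx1 hxH hwH hcos (m * d) T R hR0
    hj1 hβj hTs hnorm2
  have hμR : μ / 2 ≤ μ - 20 * R := by linarith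
  have b6 : ∀ i : ℤ, μ / 2 ≤ |Real.cos (2 * Real.pi * (x * (1 - β ^ (m * d)) * β ^ i))| ∧
      μ / 2 ≤ |Real.cos (2 * Real.pi * (w * (1 - (β⁻¹) ^ (m * d)) * β ^ i))| := fun i =>
    ⟨hμR.trans (b5 i).1, hμR.trans (b5 i).2⟩
  have g1 := phi_ne_zero h1 hCF _ (half_pos hμ) (fun i => (b6 i).1) (NN R)
  have g2 := phi_ne_zero h1 hCF _ (half_pos hμ) (fun i => (b6 i).2) (NN R)
  have hNN : NN R = M ^ 4 := NN_eq M hM0
  have hNle : N ≤ NN R := by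
    rw [hNN, hN]; exact Nat.pow_le_pow_right hM0 (by norm_num)
  have hDle : d ≤ D (NN R) := hD.2 N (NN R) hN1 hNle
  have hd1 : (1 : ℝ) ≤ (d : ℝ) := by exact_mod_cast hD1
  have hj2' : ((m * d : ℕ) : ℝ) ≤ (ℓ : ℝ) + d := by exact_mod_cast hj2
  have hdN : (d : ℝ) ≤ (M : ℝ) ^ 3 := by
    have : (d : ℝ) ≤ (N : ℝ) := by exact_mod_cast hD2
    rw [hN] at this
    push_cast at this
    exact this
  -- constant c
  set c : ℝ := 2 * (H : ℝ) + 2 * ℓ + 2 + 2 * T with hc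
  have hc0 : 0 ≤ c := by positivity
  have hcM : c ≤ 12 * δ * M := by
    rw [hc]; linarith
  have hsum : 2 * (((H + m * d : ℕ) : ℝ) + T) ≤ c * d := by
    push_cast
    push_cast at hj2'
    rw [hc]
    nlinarith [Nat.cast_nonneg (α := ℝ) H, Nat.cast_nonneg (α := ℝ) ℓ, Nat.cast_nonneg (α := ℝ) T]
  refine ⟨_, _, _, H + m * d, R, μ / 2, min (|φ (x * (1 - β ^ (m * d)) * β ^ NN R)|)
    (|φ (w * (1 - (β⁻¹) ^ (m * d)) * β ^ NN R)|), c, ⟨⟨b1, b2, hnorm2, b3, b4, b6,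
      ⟨min_le_left _ _, min_le_right _ _⟩⟩, hR0, hc0, lt_min g1 g2, ?_, ?_⟩, half_pos hμ,
      hRM.trans hMε, ?_, ?_⟩
  · refine hsum.trans ?_
    apply mul_le_mul_of_nonneg_left _ hc0
    exact_mod_cast hDle
  · have h2 : (2 * (H + m * d + T) : ℝ) ≤ (M : ℝ) ^ 4 := by
      push_cast at hsum
      push_cast at hj2'
      have h3 : (M : ℝ) ^ 4 = M * (M : ℝ) ^ 3 := by ring
      have h4 : (2 * ((H : ℝ) + m * d + T)) ≤ 12 * δ * M * (M : ℝ) ^ 3 := by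
        refine hsum.trans ?_
        exact mul_le_mul hcM hdN (by positivity) (by positivity)
      have h5 : 0 < M * (M : ℝ) ^ 3 := by positivity
      rw [h3]
      nlinarith
    rw [hNN]
    exact_mod_cast h2
  · rw [hR, sqrt_eq M hM0, mul_one_div, div_le_iff₀ hM']
    nlinarith
  · rw [hR, sqrt_eq M hM0]
    exact hMεμ

end Crest.Agent.BC
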