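import Mathlib
import Crest.Prelude.Def_BernoulliConv

/-!
# Row 104 (S0137): Bernoulli convolutions of quartic Salem numbers are singular
Interface (helper4), namespace `Crest.Agent.BC`.

`ν = bernoulliConvolution β⁻¹`, `φ t = ∫ e(t x) dν = ∏_{k ≥ 0} cos (2 π t β^{-k})`.
For `q = ∏_l (1 - X^{j_l}) ∈ ℤ[X]` put `x = q(β)`, `w = q(β⁻¹)`, `z = q(ζ)` (`ζ = e^{iθ}` the unimodular
conjugate).  Then `x β^i + w β^{-i} + 2 Re (z ζ^i) ∈ ℤ` for all `i ∈ ℤ`.  A step `q ↦ q (1 - X^j)` with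
`ζ^j` very close to `1` squares (roughly) `|φ (x β^n)|` but cubes `|z|`.  So one finds `x` with
`|z| = R`, `|φ (x β^n)| ≥ R^η` for `n ≤ R^{-2}`; then
`T = (1 / (M a)) ∑_{n < M} e (x β^{Λ+n} t)`, `M = R^{-3/2}`, `a = φ (x β^Λ)`, tends to `1` in `L²(ν)` and to
`0` in `L²([-L, L], dt)`.
-/

set_option autoImplicit false

namespace Crest.Agent.BC

open Finset MeasureTheory Filter

/-- lattice point (element of `ℤ[β]` with its conjugates) -/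
structure Pt (β : ℝ) (ζ : ℂ) (x w : ℝ) (z : ℂ) : Prop where
  int : ∀ i : ℤ, ∃ k : ℤ, x * β ^ i + w * β ^ (-i) + 2 * (z * ζ ^ i).re = k
  ix : IsIntegral ℤ x
  iw : IsIntegral ℤ w

/-- `φ` behaves like `φ t = ∏_{k ≥ 0} cos (2 π t β^{-k})`. -/
structure CF (β : ℝ) (φ : ℝ → ℝ) (C : ℝ) : Prop where
  step : ∀ t, φ (β * t) = Real.cos (2 * Real.pi * (β * t)) * φ t
  even : ∀ t, φ (-t) = φ t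
  le_one : ∀ t, |φ t| ≤ 1
  near : ∀ t, |1 - φ t| ≤ C * t ^ 2

/-- (CHAR) the characteristic function.  With `c = β⁻¹`: the partial sums `∑_{n < N} ± c^n` have
characteristic function `∏_{n < N} cos (2 π t c^n)` (independence under `Measure.infinitePi`),
dominated convergence; `φ t = ∫ cos (2 π t x) dν`, support in `[-L, L]`, `L = 1/(1-c)`,
`|1 - cos u| ≤ u²/2`. -/
def CharStmt : Prop := ∀ β : ℝ, 1 < β → ∃ (φ : ℝ → ℝ) (L C : ℝ), 0 < L ∧ 0 ≤ C ∧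
  IsProbabilityMeasure (Crest.AnalysisR.bernoulliConvolution β⁻¹) ∧
  (Crest.AnalysisR.bernoulliConvolution β⁻¹) (Set.Icc (-L) L)ᶜ = 0 ∧ CF β φ C ∧
  ∀ t : ℝ, ∫ x : ℝ, Complex.exp (2 * Real.pi * t * x * Complex.I)
    ∂(Crest.AnalysisR.bernoulliConvolution β⁻¹) = (φ t : ℂ)

/-- (SING) singularity criterion.  `T x = (1/(M a)) ∑_{n<M} e (ξ n x)`;
`∫ |T - 1|² dν ≤ (1 + ε) - 2 (1 - ε) + 1 = 3 ε`, `∫_{-L}^{L} |T|² dx ≤ (2 L M + C M) / (M a)² ≤ (2 L + C) ε`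
(`|∫_{-L}^{L} e(u x) dx| ≤ 1/(π |u|)`).  Chebyshev: `E = {|T| ≥ 1/2}` has `ν Eᶜ ≤ 12 ε`,
`vol (E ∩ [-L, L]) ≤ 4 (2 L + C) ε`; if `ρ ≤ ν` and `ρ ≤ vol` then `ρ = 0`
(`Measure.mutuallySingular_of_disjoint` or directly by Borel–Cantelli). -/
def SingStmt : Prop := ∀ (ν : Measure ℝ) (L C : ℝ) (φ : ℝ → ℝ), IsProbabilityMeasure ν → 0 < L →
  ν (Set.Icc (-L) L)ᶜ = 0 →
  (∀ t : ℝ, ∫ x : ℝ, Complex.exp (2 * Real.pi * t * x * Complex.I) ∂ν = (φ t : ℂ)) →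
  (∀ ε : ℝ, 0 < ε → ∃ (M : ℕ) (ξ : ℕ → ℝ) (a : ℝ), 0 < M ∧ a ≠ 0 ∧ 1 ≤ ε * ((M : ℝ) * a ^ 2) ∧
    |∑ n ∈ range M, φ (ξ n) - (M : ℝ) * a| ≤ ε * |(M : ℝ) * a| ∧
    ∑ n ∈ range M, ∑ m ∈ range M, φ (ξ n - ξ m) ≤ (1 + ε) * ((M : ℝ) * a) ^ 2 ∧
    (∀ n < M, ∀ m < M, n ≠ m → ξ n ≠ ξ m) ∧
    ∑ n ∈ range M, ∑ m ∈ (range M).erase n, 1 / |ξ n - ξ m| ≤ C * (M : ℝ)) →
  ν.MutuallySingular volume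

/-- (TRACE) algebra.  `minpoly ℚ β` is monic, irreducible of degree 4, has integer coefficients
(`minpoly.isIntegrallyClosed_eq_field_fractions'`), roots `β, β⁻¹, ζ, ζ⁻¹` (`±1` are not roots because of
irreducibility, real roots are excluded, roots are simple and closed under conjugation), so
`(X² - u X + 1)(X² - v X + 1)`, `u = β + β⁻¹`, `v = ζ + ζ⁻¹`, `u + v, u v ∈ ℤ`; the sequence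
`t i = β^i + β^{-i} + ζ^i + ζ^{-i}` is symmetric, satisfies an integer linear recurrence with
integer initial values. -/
def TraceStmt : Prop := ∀ β : ℝ, Crest.AnalysisR.IsQuarticSalem β →
  IsIntegral ℤ β⁻¹ ∧ ∃ ζ : ℂ, ‖ζ‖ = 1 ∧ Pt β ζ 1 1 1

/-- properties of the best approximation function -/
def DirProp (ζ : ℂ) (D : ℕ → ℕ) : Prop :=
  (∀ N, 1 ≤ N → 1 ≤ D N ∧ D N ≤ N ∧ ‖1 - ζ ^ (D N)‖ ≤ 2 * Real.pi / ((N : ℝ) + 1)) ∧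
  (∀ N N', 1 ≤ N → N ≤ N' → D N ≤ D N')

/-- (DIR) Dirichlet (`Real.exists_nat_abs_mul_sub_round_le`); `D N` = the smallest
`k ∈ [1, N]` minimising `‖1 - ζ ^ k‖`, which makes `D` monotone. -/
def DirStmt : Prop := ∀ ζ : ℂ, ‖ζ‖ = 1 → ∃ D : ℕ → ℕ, DirProp ζ D

/-- the data attached to a good lattice point -/
structure Dat (β : ℝ) (ζ : ℂ) (φ : ℝ → ℝ) (x w : ℝ) (z : ℂ) (H N : ℕ) (R μ g : ℝ) : Prop where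
  pt : Pt β ζ x w z
  x1 : 1 ≤ |x|
  zR : ‖z‖ ≤ R
  xH : |x| ≤ β ^ H
  wH : |w| ≤ β ^ H
  mu : ∀ i : ℤ, μ ≤ |Real.cos (2 * Real.pi * (x * β ^ i))| ∧
    μ ≤ |Real.cos (2 * Real.pi * (w * β ^ i))|
  gg : g ≤ |φ (x * β ^ N)| ∧ g ≤ |φ (w * β ^ N)|

/-- (STEPMU) pointwise part of a step.  Write `X i = x β^i`, `W i = w β^i`, `h = j / 2 ≥ H + T`.
The new sequences are `X' i = X i - X (i+j)`, `W' i = W i - W (i-j)`.  For `i ≤ -h`: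
`|X i| ≤ β^{H-h} ≤ R'`; for `i > -h`, mod 1, `X' i ≡ -W(-i) + W(-i-j) - 2 Re (z (1-ζ^j) ζ^i)` with
`|W(-i-j)| ≤ R'`; for `i ≤ h`: `|W (i-j)| ≤ R'`; for `i > h`: `W' i ≡ X(j-i) - X(-i) - 2 Re (z (1-ζ^j) ζ^{-i})`,
`|X(-i)| ≤ R'`.  (`|cos a - cos b| ≤ |a - b|`.) -/
def StepMuStmt : Prop := ∀ (β : ℝ) (ζ : ℂ), 1 < β → IsIntegral ℤ β → IsIntegral ℤ β⁻¹ → ‖ζ‖ = 1 →
  ∀ (x w : ℝ) (z : ℂ) (H : ℕ) (μ : ℝ), Pt β ζ x w z → 1 ≤ |x| → |x| ≤ β ^ H → |w| ≤ β ^ H →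
    (∀ i : ℤ, μ ≤ |Real.cos (2 * Real.pi * (x * β ^ i))| ∧
      μ ≤ |Real.cos (2 * Real.pi * (w * β ^ i))|) →
  ∀ (j T : ℕ) (R' : ℝ), 0 < R' → 2 * (H + T) ≤ j → 2 ≤ β ^ j →
    (β⁻¹) ^ T ≤ (1 - β⁻¹) * R' → ‖z * (1 - ζ ^ j)‖ ≤ R' →
    Pt β ζ (x * (1 - β ^ j)) (w * (1 - (β⁻¹) ^ j)) (z * (1 - ζ ^ j)) ∧ 1 ≤ |x * (1 - β ^ j)| ∧
    |x * (1 - β ^ j)| ≤ β ^ (H + j) ∧ |w * (1 - (β⁻¹) ^ j)| ≤ β ^ (H + j) ∧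
    (∀ i : ℤ, μ - 20 * R' ≤ |Real.cos (2 * Real.pi * (x * (1 - β ^ j) * β ^ i))| ∧
      μ - 20 * R' ≤ |Real.cos (2 * Real.pi * (w * (1 - (β⁻¹) ^ j) * β ^ i))|)

/-- (STEP) full step, from (STEPMU) and the perturbation lemmas of `BCPert.lean`.
`φ (x' β^{N'}) = φ (x' β^{-h}) ∏_{-h < i ≤ N'} cos (2 π X' i)`; `x' β^{-h} = x β^{-h} - x β^{j-h}` with
`|x β^{-h}| ≤ (1-β⁻¹) R'`: `|φ (x' β^{-h})| ≥ |φ (x β^{j-h})| / 2 ≥ g / 2` (`j - h ≤ N`); for `-h < i ≤ h`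
compare with `∏ |cos (2 π W(-i))| ≥ |φ (w β^{h-1})| ≥ g` (perturbations sum to `≤ (4N+3) R'`); for `h < i ≤ N'` the
argument is within `4 R'` of an integer and `N' R'^2 ≤ 1`.  Similarly
`φ (w' β^{N'}) = φ (w' β^h) ∏_{h < i ≤ N'} cos (2 π W' i)`, `w' β^h = w β^h - w β^{h-j}`, compare with `φ (w β^h)`; for
`h < i ≤ j + h` with `∏ |cos (2 π X(j-i))| ≥ |φ (x β^{j-h-1})| ≥ g`; rest small. -/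
def StepStmt : Prop := ∀ (β : ℝ) (ζ : ℂ) (φ : ℝ → ℝ) (C : ℝ), 1 < β → IsIntegral ℤ β →
  IsIntegral ℤ β⁻¹ → ‖ζ‖ = 1 → CF β φ C →
  ∀ (x w : ℝ) (z : ℂ) (H N : ℕ) (R μ g : ℝ), Dat β ζ φ x w z H N R μ g → 0 < μ → 0 ≤ g →
  ∀ (j T N' : ℕ) (R' : ℝ), 0 < R' → 2 * (H + T) ≤ j → j ≤ 2 * N → 2 ≤ β ^ j →
    (β⁻¹) ^ T ≤ (1 - β⁻¹) * R' → R * ‖1 - ζ ^ j‖ ≤ R' → (N' : ℝ) * R' ^ 2 ≤ 1 →
    100 * ((N : ℝ) + 1) * R' ≤ μ →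
    Dat β ζ φ (x * (1 - β ^ j)) (w * (1 - (β⁻¹) ^ j)) (z * (1 - ζ ^ j)) (H + j) N' R' (μ - 20 * R')
      (Real.exp (-1000) * g ^ 2)

/-- next `R` -/
noncomputable def nx (R : ℝ) : ℝ := R ^ 2 * Real.sqrt R

/-- range of `n` -/
noncomputable def NN (R : ℝ) : ℕ := ⌊1 / R ^ 2⌋₊

/-- tail length: `(β⁻¹) ^ TT ≤ (1 - β⁻¹) * nx R` -/
noncomputable def TT (β R : ℝ) : ℕ := ⌈Real.logb β (1 / ((1 - β⁻¹) * nx R))⌉₊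

/-- invariant of the iteration -/
structure Inv (β : ℝ) (ζ : ℂ) (φ : ℝ → ℝ) (D : ℕ → ℕ) (x w : ℝ) (z : ℂ) (H : ℕ) (R μ g c : ℝ) :
    Prop where
  dat : Dat β ζ φ x w z H (NN R) R μ g
  R0 : 0 < R
  c0 : 0 ≤ c
  g0 : 0 < g
  cD : 2 * ((H : ℝ) + TT β R) ≤ c * D (NN R)
  HN : 2 * (H + TT β R) ≤ NN R

/-- (ITER) iteration of the step.  One step: `R' = nx R`, `N = NN R`, `m = ⌈2 (H + TT β R) / D N⌉ ≤ c + 1`,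
`j = m * D N ∈ [2 (H + T), 2 N]`, `‖1 - ζ^j‖ ≤ m ‖1 - ζ^{D N}‖ ≤ 2 π (c + 1) R²`, `N' = NN R'`,
`c' = 3 c + 2 + 2 TT β R'` (uses `D N ≤ D N'`), `μ' = μ - 20 R'`, `g' = e^{-1000} g²`.
`log (1/R') = (5/2) log (1/R)` while `log (1/g') = 2 log (1/g) + 1000`, hence `R^η ≤ g` finally;
`H' = H + j ≤ 3 N ≤ 3 R^{-2} = 3 R'^{-4/5}`. -/
def IterStmt : Prop := StepStmt → ∀ (β : ℝ) (ζ : ℂ) (φ : ℝ → ℝ) (C : ℝ) (D : ℕ → ℕ), 1 < β →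
  IsIntegral ℤ β → IsIntegral ℤ β⁻¹ → ‖ζ‖ = 1 → CF β φ C → DirProp ζ D →
  ∃ ε₀ : ℝ, 0 < ε₀ ∧ ∀ (x w : ℝ) (z : ℂ) (H : ℕ) (R μ g c : ℝ), Inv β ζ φ D x w z H R μ g c →
    0 < μ → R ≤ ε₀ → c * Real.sqrt R ≤ ε₀ → Real.sqrt R ≤ ε₀ * μ →
    ∀ η : ℝ, 0 < η → ∀ R₁ : ℝ, 0 < R₁ → ∃ (x' w' : ℝ) (z' : ℂ) (H' : ℕ) (R' g' : ℝ),
      Dat β ζ φ x' w' z' H' (NN R') R' (μ / 2) g' ∧ 0 < R' ∧ R' ≤ R₁ ∧ R' ^ η ≤ g' ∧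
      (H' : ℝ) ≤ 3 * R' ^ (-(4 / 5) : ℝ)

/-- (BASE) starting point.  First `Q = (1-β^{j₀}, 1-β^{-j₀}, 1-ζ^{j₀})` with `‖1-ζ^{j₀}‖ ≤ 1/16`,
`β^{j₀} ≥ 2`; `μ_Q = inf_{i ∈ ℤ} |cos|> 0` (an algebraic integer is never `≡ 1/4 mod 1/2`; the tails are
within `3/16` of integers).  Then for `N` large, `R = N^{-2/3}`, `T = TT β R`, `ℓ = 2 (H_Q + T)`,
`m = ⌈ℓ / D N⌉`, `j = m * D N`, apply (STEPMU) to `Q`; `NN R ≥ N`, so `D N ≤ D (NN R)` and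
`c = 2 H_Q + 2 ℓ + 2 + 2 T = O(log N)`; `μ ≥ μ_Q / 2`; `g > 0` since all cosines are `≥ μ` and `φ → 1` at `0`. -/
def BaseStmt : Prop := StepMuStmt → ∀ (β : ℝ) (ζ : ℂ) (φ : ℝ → ℝ) (C : ℝ) (D : ℕ → ℕ), 1 < β →
  IsIntegral ℤ β → IsIntegral ℤ β⁻¹ → ‖ζ‖ = 1 → CF β φ C → DirProp ζ D → Pt β ζ 1 1 1 →
  ∀ ε : ℝ, 0 < ε → ∃ (x w : ℝ) (z : ℂ) (H : ℕ) (R μ g c : ℝ), Inv β ζ φ D x w z H R μ g c ∧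
    0 < μ ∧ R ≤ ε ∧ c * Real.sqrt R ≤ ε ∧ Real.sqrt R ≤ ε * μ

/-- (FINAL) the test functions.  `T` with `(β⁻¹)^T ≤ (1-β⁻¹) R`, `Λ = H + T ≤ 4 R^{-4/5}`, `M = ⌊R^{-3/2}⌋`,
`ξ n = x β^{Λ+n}`, `a = φ (x β^Λ)`, `|a| ≥ g`.  For `i > Λ`, `x β^i` is within `3 R` of an integer, so
`φ (ξ n) = a ∏_{Λ<i≤Λ+n} cos (2 π x β^i) = a (1 + O(M R²))`.  For `n - m = γ ≥ 2 Λ`:
`φ (ξ n - ξ m) = φ (x β^{γ-Λ} - x β^{-Λ}) ∏_{γ-Λ < i ≤ Λ+n} cos (2 π (x β^i - x β^{i-γ}))`, first factor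
`≤ |a| (1 + o(1))`, second `≤ ∏_{-Λ < i ≤ Λ} |cos (2 π x β^i)| (1 + 6 π R/μ)^{2Λ} ≤ |a| (1 + o(1))`.  For
`|n - m| < 2 Λ` use `|φ| ≤ 1` and `4 Λ ≤ ε M a²`.  Separation: `|ξ n - ξ m| ≥ β^n (1 - β⁻¹)` for `m < n`. -/
def FinalStmt : Prop := ∀ (β : ℝ) (ζ : ℂ) (φ : ℝ → ℝ) (C μ : ℝ), 1 < β → ‖ζ‖ = 1 → CF β φ C → 0 < μ →
  (∀ η : ℝ, 0 < η → ∀ R₁ : ℝ, 0 < R₁ → ∃ (x w : ℝ) (z : ℂ) (H : ℕ) (R g : ℝ),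
      Dat β ζ φ x w z H (NN R) R μ g ∧ 0 < R ∧ R ≤ R₁ ∧ R ^ η ≤ g ∧
      (H : ℝ) ≤ 3 * R ^ (-(4 / 5) : ℝ)) →
  ∃ C' : ℝ, ∀ ε : ℝ, 0 < ε → ∃ (M : ℕ) (ξ : ℕ → ℝ) (a : ℝ), 0 < M ∧ a ≠ 0 ∧
    1 ≤ ε * ((M : ℝ) * a ^ 2) ∧
    |∑ n ∈ range M, φ (ξ n) - (M : ℝ) * a| ≤ ε * |(M : ℝ) * a| ∧
    ∑ n ∈ range M, ∑ m ∈ range M, φ (ξ n - ξ m) ≤ (1 + ε) * ((M : ℝ) * a) ^ 2 ∧
    (∀ n < M, ∀ m < M, n ≠ m → ξ n ≠ ξ m) ∧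
    ∑ n ∈ range M, ∑ m ∈ (range M).erase n, 1 / |ξ n - ξ m| ≤ C' * (M : ℝ)

/-- the final assembly -/
theorem assemble (hChar : CharStmt) (hSing : SingStmt) (hTr : TraceStmt) (hDir : DirStmt)
    (hStepMu : StepMuStmt) (hStep : StepStmt) (hIter : IterStmt) (hBase : BaseStmt)
    (hFin : FinalStmt) (β : ℝ) (hβ : Crest.AnalysisR.IsQuarticSalem β) :
    (Crest.AnalysisR.bernoulliConvolution β⁻¹).MutuallySingular (volume : Measure ℝ) := by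
  have h1 : 1 < β := hβ.1
  have h2 : IsIntegral ℤ β := hβ.2.1
  obtain ⟨h3, ζ, hζ, hPt⟩ := hTr β hβ
  obtain ⟨D, hD⟩ := hDir ζ hζ
  obtain ⟨φ, L, C, hL, _, hprob, hsupp, hCF, hchar⟩ := hChar β h1
  obtain ⟨ε₀, hε₀, hI⟩ := hIter hStep β ζ φ C D h1 h2 h3 hζ hCF hD
  obtain ⟨x, w, z, H, R, μ, g, c, hInv, hμ, hR, hc, hRμ⟩ :=
    hBase hStepMu β ζ φ C D h1 h2 h3 hζ hCF hD hPt ε₀ hε₀
  obtain ⟨C', hC'⟩ := hFin β ζ φ C (μ / 2) h1 hζ hCF (by positivity)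
    (hI x w z H R μ g c hInv hμ hR hc hRμ)
  exact hSing _ L C' φ hprob hL hsupp hchar hC'

end Crest.Agent.BC
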