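import Mathlib
import Crest.Prelude.Def_BernoulliConv
import Crest.Agent.BCDefs

/-! Row 104 (S0137), module CHAR: the characteristic function of the Bernoulli convolution. -/

set_option autoImplicit false

namespace Crest.Agent.BC

open Finset MeasureTheory Filter Topology
open Crest.AnalysisR

namespace Char

instance fair_prob : IsProbabilityMeasure fairCoin := by
  constructor
  simp [fairCoin, ENNReal.inv_two_add_inv_two]

/-- signed term -/
noncomputable def tm (c : ℝ) (n : ℕ) (b : Bool) : ℝ := if b then c ^ n else -(c ^ n)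

lemma abs_tm {c : ℝ} (hc : 0 ≤ c) (n : ℕ) (b : Bool) : |tm c n b| = c ^ n := by
  unfold tm
  split_ifs
  · exact abs_of_nonneg (pow_nonneg hc n)
  · rw [abs_neg]; exact abs_of_nonneg (pow_nonneg hc n)

lemma summable_tm {c : ℝ} (hc : 0 ≤ c) (hc1 : c < 1) (e : ℕ → Bool) :
    Summable (fun n => tm c n (e n)) := by
  refine Summable.of_norm_bounded (summable_geometric_of_lt_one hc hc1) ?_
  intro n
  rw [Real.norm_eq_abs, abs_tm hc]

/-- partial sums -/
noncomputable def SN (c : ℝ) (N : ℕ) (e : ℕ → Bool) : ℝ := ∑ n ∈ range N, tm c n (e n)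

lemma measurable_SN (c : ℝ) (N : ℕ) : Measurable (SN c N) := by
  unfold SN
  refine Finset.measurable_sum _ ?_
  intro n _
  exact (Measurable.of_discrete (f := tm c n)).comp (measurable_pi_apply n)

lemma tendsto_SN {c : ℝ} (hc : 0 ≤ c) (hc1 : c < 1) (e : ℕ → Bool) :
    Tendsto (fun N => SN c N e) atTop (𝓝 (signedPowerSum c e)) :=
  (summable_tm hc hc1 e).hasSum.tendsto_sum_nat

lemma measurable_S {c : ℝ} (hc : 0 ≤ c) (hc1 : c < 1) : Measurable (signedPowerSum c) := by
  refine measurable_of_tendsto_metrizable (f := fun N => SN c N) (fun N => measurable_SN c N) ?_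
  rw [tendsto_pi_nhds]
  exact fun e => tendsto_SN hc hc1 e

lemma abs_S_le {c : ℝ} (hc : 0 ≤ c) (hc1 : c < 1) (e : ℕ → Bool) :
    |signedPowerSum c e| ≤ 1 / (1 - c) := by
  have h := tsum_of_norm_bounded (f := fun n => tm c n (e n)) (hasSum_geometric_of_lt_one hc hc1)
    (fun n => by rw [Real.norm_eq_abs, abs_tm hc])
  rw [one_div]
  exact h

lemma integral_fair (g : Bool → ℂ) :
    ∫ b, g b ∂fairCoin = (g true + g false) / 2 := by
  unfold fairCoin
  rw [integral_add_measure, integral_smul_measure, integral_smul_measure, integral_dirac,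
    integral_dirac]
  · simp only [ENNReal.toReal_inv, ENNReal.toReal_ofNat]
    rw [Complex.real_smul, Complex.real_smul]
    push_cast
    ring
  · refine Integrable.smul_measure ?_ (by simp)
    exact integrable_dirac (by simp)
  · refine Integrable.smul_measure ?_ (by simp)
    exact integrable_dirac (by simp)

lemma integral_tm (c : ℝ) (t : ℝ) (n : ℕ) :
    ∫ b, Complex.exp (2 * Real.pi * t * (tm c n b : ℝ) * Complex.I) ∂fairCoin
      = (Real.cos (2 * Real.pi * (t * c ^ n)) : ℂ) := by
  rw [integral_fair]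
  simp only [tm, if_true, Bool.false_eq_true, if_false]
  rw [Complex.ofReal_cos, Complex.cos]
  push_cast
  congr 2
  · congr 1; ring
  · congr 1; ring

lemma char_SN (c : ℝ) (t : ℝ) (N : ℕ) :
    ∫ e, Complex.exp (2 * Real.pi * t * (SN c N e : ℝ) * Complex.I)
      ∂(Measure.infinitePi (fun _ : ℕ => fairCoin))
      = ((∏ n ∈ range N, Real.cos (2 * Real.pi * (t * c ^ n)) : ℝ) : ℂ) := by
  have h1 : ∀ e : ℕ → Bool, Complex.exp (2 * Real.pi * t * (SN c N e : ℝ) * Complex.I)
      = (fun y : (i : (range N : Finset ℕ)) → Bool =>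
          ∏ i : (range N : Finset ℕ), Complex.exp (2 * Real.pi * t * (tm c i (y i) : ℝ) * Complex.I))
        ((range N).restrict e) := by
    intro e
    simp only [Finset.restrict]
    rw [← Complex.exp_sum]
    congr 1
    unfold SN
    rw [← Finset.sum_coe_sort (range N) (fun n => tm c n (e n))]
    push_cast
    rw [Finset.mul_sum, Finset.sum_mul]
  simp_rw [h1]
  rw [integral_restrict_infinitePi (μ := fun _ : ℕ => fairCoin)
    (f := fun y : (i : (range N : Finset ℕ)) → Bool =>
      ∏ i : (range N : Finset ℕ), Complex.exp (2 * Real.pi * t * (tm c i (y i) : ℝ) * Complex.I))]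
  · rw [integral_fintype_prod_eq_prod (ι := (range N : Finset ℕ)) (E := fun _ => Bool)
      (μ := fun _ : (range N : Finset ℕ) => fairCoin)
      (f := fun (i : (range N : Finset ℕ)) (b : Bool) =>
        Complex.exp (2 * Real.pi * t * (tm c (i : ℕ) b : ℝ) * Complex.I))]
    simp_rw [integral_tm]
    rw [Finset.prod_coe_sort (range N) (fun n => (Real.cos (2 * Real.pi * (t * c ^ n)) : ℂ))]
    push_cast
    rfl
  · exact (Measurable.of_discrete).aestronglyMeasurable

/-- the product -/
noncomputable def prd (c t : ℝ) (N : ℕ) : ℝ := ∏ n ∈ range N, Real.cos (2 * Real.pi * (t * c ^ n))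

/-- complex characteristic function -/
noncomputable def Phi (c t : ℝ) : ℂ :=
  ∫ x : ℝ, Complex.exp (2 * Real.pi * t * x * Complex.I) ∂(bernoulliConvolution c)

lemma Phi_eq {c : ℝ} (hc : 0 ≤ c) (hc1 : c < 1) (t : ℝ) :
    Phi c t = ∫ e, Complex.exp (2 * Real.pi * t * (signedPowerSum c e : ℝ) * Complex.I)
      ∂(Measure.infinitePi (fun _ : ℕ => fairCoin)) := by
  unfold Phi bernoulliConvolution
  rw [integral_map (measurable_S hc hc1).aemeasurable]
  refine Continuous.aestronglyMeasurable ?_
  fun_prop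

lemma tendsto_prd {c : ℝ} (hc : 0 ≤ c) (hc1 : c < 1) (t : ℝ) :
    Tendsto (fun N => ((prd c t N : ℝ) : ℂ)) atTop (𝓝 (Phi c t)) := by
  rw [Phi_eq hc hc1]
  have h1 : (fun N => ((prd c t N : ℝ) : ℂ)) = fun N =>
      ∫ e, Complex.exp (2 * Real.pi * t * (SN c N e : ℝ) * Complex.I)
      ∂(Measure.infinitePi (fun _ : ℕ => fairCoin)) := by
    funext N
    rw [char_SN]
    rfl
  rw [h1]
  refine tendsto_integral_of_dominated_convergence (fun _ => (1 : ℝ)) ?_ ?_ ?_ ?_
  · intro N
    refine Measurable.aestronglyMeasurable ?_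
    have := measurable_SN c N
    fun_prop
  · exact integrable_const _
  · intro N
    refine ae_of_all _ ?_
    intro e
    rw [Complex.norm_exp]
    simp
  · refine ae_of_all _ ?_
    intro e
    have h2 := tendsto_SN hc hc1 e
    have h3 : Continuous (fun x : ℝ => Complex.exp (2 * Real.pi * t * x * Complex.I)) := by
      fun_prop
    exact (h3.tendsto _).comp h2

lemma tendsto_prd_re {c : ℝ} (hc : 0 ≤ c) (hc1 : c < 1) (t : ℝ) :
    Tendsto (fun N => prd c t N) atTop (𝓝 (Phi c t).re) := by
  have h := (Complex.continuous_re.tendsto _).comp (tendsto_prd hc hc1 t)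
  exact h

lemma Phi_real {c : ℝ} (hc : 0 ≤ c) (hc1 : c < 1) (t : ℝ) :
    Phi c t = (((Phi c t).re : ℝ) : ℂ) := by
  have h1 : Tendsto (fun N => ((prd c t N : ℝ) : ℂ)) atTop (𝓝 (((Phi c t).re : ℝ) : ℂ)) :=
    (Complex.continuous_ofReal.tendsto _).comp (tendsto_prd_re hc hc1 t)
  exact tendsto_nhds_unique (tendsto_prd hc hc1 t) h1

lemma abs_one_sub_prd (c t : ℝ) (N : ℕ) :
    |prd c t N| ≤ 1 ∧ |1 - prd c t N| ≤
      ∑ n ∈ range N, |1 - Real.cos (2 * Real.pi * (t * c ^ n))| := by
  induction N with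
  | zero => simp [prd]
  | succ N ih =>
    have h1 : prd c t (N + 1) = prd c t N * Real.cos (2 * Real.pi * (t * c ^ N)) := by
      unfold prd; rw [Finset.prod_range_succ]
    rw [h1, Finset.sum_range_succ]
    obtain ⟨h2, h3⟩ := ih
    have h4 : |Real.cos (2 * Real.pi * (t * c ^ N))| ≤ 1 := Real.abs_cos_le_one _
    constructor
    · rw [abs_mul]
      exact mul_le_one₀ h2 (abs_nonneg _) h4
    · have h5 : 1 - prd c t N * Real.cos (2 * Real.pi * (t * c ^ N))
          = (1 - prd c t N) + prd c t N * (1 - Real.cos (2 * Real.pi * (t * c ^ N))) := by ring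
      rw [h5]
      refine le_trans (abs_add_le _ _) ?_
      refine add_le_add h3 ?_
      rw [abs_mul]
      calc _ ≤ 1 * |1 - Real.cos (2 * Real.pi * (t * c ^ N))| :=
            mul_le_mul_of_nonneg_right h2 (abs_nonneg _)
        _ = _ := one_mul _

lemma abs_one_sub_cos (u : ℝ) : |1 - Real.cos u| ≤ u ^ 2 / 2 := by
  rw [abs_of_nonneg (by linarith [Real.cos_le_one u])]
  have := Real.one_sub_sq_div_two_le_cos (x := u)
  linarith

lemma near_prd {c : ℝ} (hc : 0 ≤ c) (hc1 : c < 1) (t : ℝ) (N : ℕ) :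
    |1 - prd c t N| ≤ (2 * Real.pi ^ 2 / (1 - c)) * t ^ 2 := by
  refine le_trans (abs_one_sub_prd c t N).2 ?_
  have h1 : ∀ n ∈ range N, |1 - Real.cos (2 * Real.pi * (t * c ^ n))|
      ≤ (2 * Real.pi ^ 2 * t ^ 2) * c ^ n := by
    intro n _
    refine le_trans (abs_one_sub_cos _) ?_
    have h2 : (c ^ n) ^ 2 ≤ c ^ n := by
      have h3 : c ^ n ≤ 1 := pow_le_one₀ hc hc1.le
      have h4 : 0 ≤ c ^ n := pow_nonneg hc n
      nlinarith
    have h5 : (2 * Real.pi * (t * c ^ n)) ^ 2 / 2 = (2 * Real.pi ^ 2 * t ^ 2) * (c ^ n) ^ 2 := by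
      ring
    rw [h5]
    exact mul_le_mul_of_nonneg_left h2 (by positivity)
  refine le_trans (Finset.sum_le_sum h1) ?_
  rw [← Finset.mul_sum]
  have h6 : ∑ n ∈ range N, c ^ n ≤ 1 / (1 - c) := by
    have h7 := (summable_geometric_of_lt_one hc hc1).sum_le_tsum (range N)
      (fun n _ => pow_nonneg hc n)
    rw [tsum_geometric_of_lt_one hc hc1] at h7
    rw [one_div]; exact h7
  calc _ ≤ (2 * Real.pi ^ 2 * t ^ 2) * (1 / (1 - c)) :=
        mul_le_mul_of_nonneg_left h6 (by positivity)
    _ = _ := by ring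

end Char

open Char in
theorem char : CharStmt := by
  intro β hβ
  have hc : 0 ≤ β⁻¹ := by positivity
  have hc1 : β⁻¹ < 1 := inv_lt_one_of_one_lt₀ hβ
  have h1c : 0 < 1 - β⁻¹ := by linarith
  refine ⟨fun t => (Phi β⁻¹ t).re, 1 / (1 - β⁻¹), 2 * Real.pi ^ 2 / (1 - β⁻¹), by positivity,
    by positivity, ?_, ?_, ?_, ?_⟩
  · unfold bernoulliConvolution
    exact Measure.isProbabilityMeasure_map (measurable_S hc hc1).aemeasurable
  · unfold bernoulliConvolution
    rw [Measure.map_apply (measurable_S hc hc1) measurableSet_Icc.compl]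
    have : signedPowerSum β⁻¹ ⁻¹' (Set.Icc (-(1 / (1 - β⁻¹))) (1 / (1 - β⁻¹)))ᶜ = ∅ := by
      ext e
      simp only [Set.mem_preimage, Set.mem_compl_iff, Set.mem_Icc, Set.mem_empty_iff_false,
        iff_false, not_not]
      exact abs_le.mp (abs_S_le hc hc1 e)
    rw [this, measure_empty]
  · constructor
    · intro t
      have h1 := tendsto_prd_re hc hc1 (β * t)
      have h2 : Tendsto (fun N => prd β⁻¹ (β * t) (N + 1)) atTop (𝓝 (Phi β⁻¹ (β * t)).re) :=
        h1.comp (tendsto_add_atTop_nat 1)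
      have h3 : (fun N => prd β⁻¹ (β * t) (N + 1)) =
          fun N => Real.cos (2 * Real.pi * (β * t)) * prd β⁻¹ t N := by
        funext N
        unfold prd
        rw [Finset.prod_range_succ', mul_comm]
        congr 1
        · simp
        · refine Finset.prod_congr rfl ?_
          intro n _
          congr 2
          rw [pow_succ]
          have : β ≠ 0 := by positivity
          field_simp
      rw [h3] at h2
      exact tendsto_nhds_unique h2 ((tendsto_prd_re hc hc1 t).const_mul _)
    · intro t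
      have h1 := tendsto_prd_re hc hc1 (-t)
      have h2 : (fun N => prd β⁻¹ (-t) N) = fun N => prd β⁻¹ t N := by
        funext N
        unfold prd
        refine Finset.prod_congr rfl ?_
        intro n _
        rw [← Real.cos_neg]
        congr 1
        ring
      rw [h2] at h1
      exact tendsto_nhds_unique h1 (tendsto_prd_re hc hc1 t)
    · intro t
      exact le_of_tendsto (tendsto_prd_re hc hc1 t).abs
        (Eventually.of_forall fun N => (abs_one_sub_prd _ t N).1)
    · intro t
      exact le_of_tendsto ((tendsto_prd_re hc hc1 t).const_sub 1).abs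
        (Eventually.of_forall fun N => near_prd hc hc1 t N)
  · intro t
    exact Phi_real hc hc1 t

end Crest.Agent.BC
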