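import Crest.Agent.BCDefs

set_option autoImplicit false

namespace Crest.Agent.BC

open Finset

theorem dir_exists (ζ : ℂ) (hζ : ‖ζ‖ = 1) (N : ℕ) (hN : 1 ≤ N) :
    ∃ k : ℕ, 1 ≤ k ∧ k ≤ N ∧ ‖1 - ζ ^ k‖ ≤ 2 * Real.pi / ((N : ℝ) + 1) := by
  obtain ⟨k, hk0, hkN, hk⟩ := Real.exists_nat_abs_mul_sub_round_le (ζ.arg / (2 * Real.pi)) hN
  refine ⟨k, hk0, hkN, ?_⟩
  have hpi := Real.two_pi_pos
  set r : ℤ := round ((k : ℝ) * (ζ.arg / (2 * Real.pi))) with hr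
  set δ : ℝ := (k : ℝ) * (ζ.arg / (2 * Real.pi)) - r with hδ
  have h1 : ζ ^ k = Complex.exp (Complex.I * ((2 * Real.pi * δ : ℝ) : ℂ)) := by
    have h2 : ζ = Complex.exp (ζ.arg * Complex.I) := by
      have := Complex.norm_mul_exp_arg_mul_I ζ
      rw [hζ] at this
      simpa using this.symm
    have h3 : ζ ^ k = Complex.exp ((k : ℂ) * (ζ.arg * Complex.I)) := by
      rw [Complex.exp_nat_mul, ← h2]
    rw [h3, Complex.exp_eq_exp_iff_exists_int]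
    refine ⟨r, ?_⟩
    have h4 : (2 * Real.pi * δ : ℝ) = (k : ℝ) * ζ.arg - r * (2 * Real.pi) := by
      rw [hδ]; field_simp
    rw [h4]
    push_cast
    ring
  rw [h1, norm_sub_rev]
  refine (Real.norm_exp_I_mul_ofReal_sub_one_le).trans ?_
  rw [Real.norm_eq_abs, abs_mul, abs_of_pos hpi]
  calc 2 * Real.pi * |δ| ≤ 2 * Real.pi * (1 / ((N : ℝ) + 1)) :=
        mul_le_mul_of_nonneg_left hk hpi.le
    _ = _ := by ring

theorem dir : DirStmt := by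
  classical
  intro ζ hζ
  have hex : ∀ N : ℕ, 1 ≤ N → ∃ k : ℕ, (1 ≤ k ∧ k ≤ N) ∧
      ∀ m ∈ Finset.Icc 1 N, ‖1 - ζ ^ k‖ ≤ ‖1 - ζ ^ m‖ := by
    intro N hN
    obtain ⟨k, hk, hmin⟩ := Finset.exists_min_image (Finset.Icc 1 N) (fun k => ‖1 - ζ ^ k‖)
      ⟨1, Finset.mem_Icc.mpr ⟨le_refl _, hN⟩⟩
    exact ⟨k, Finset.mem_Icc.mp hk, hmin⟩
  refine ⟨fun N => if h : 1 ≤ N then Nat.find (hex N h) else 0, ?_, ?_⟩
  · intro N hN
    simp only [hN, dif_pos]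
    have hs := Nat.find_spec (hex N hN)
    refine ⟨hs.1.1, hs.1.2, ?_⟩
    obtain ⟨k, hk1, hkN, hk⟩ := dir_exists ζ hζ N hN
    exact (hs.2 k (Finset.mem_Icc.mpr ⟨hk1, hkN⟩)).trans hk
  · intro N N' hN hNN'
    have hN' : 1 ≤ N' := hN.trans hNN'
    simp only [hN, hN', dif_pos]
    have hs := Nat.find_spec (hex N hN)
    have hs' := Nat.find_spec (hex N' hN')
    by_cases h : Nat.find (hex N' hN') ≤ N
    · apply Nat.find_min'
      refine ⟨⟨hs'.1.1, h⟩, ?_⟩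
      intro m hm
      rw [Finset.mem_Icc] at hm
      exact hs'.2 m (Finset.mem_Icc.mpr ⟨hm.1, hm.2.trans hNN'⟩)
    · exact hs.1.2.trans (not_le.mp h).le

end Crest.Agent.BC
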