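import Crest.Agent.BCStep

set_option autoImplicit false

namespace Crest.Agent.BC

open Finset MeasureTheory Filter

namespace Fin0

open Pert Step

/-- near the resting phase -/
theorem congF {β : ℝ} {ζ : ℂ} {x w : ℝ} {z : ℂ} (h1 : 1 < β) (hζ : ‖ζ‖ = 1) (h : Pt β ζ x w z)
    (R : ℝ) (hz : ‖z‖ ≤ R) (e : ℤ) (hw : |w| * β ^ (-e) ≤ R) :
    ∃ (K : ℤ) (δ : ℝ), x * β ^ e = K - δ ∧ |δ| ≤ 3 * R := by
  have hβ : 0 < β := by linarith
  obtain ⟨k, hk⟩ := h.int e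
  refine ⟨k, w * β ^ (-e) + 2 * (z * ζ ^ e).re, ?_, ?_⟩
  · rw [← hk]; ring
  · have h3 : |(z * ζ ^ e).re| ≤ R := by
      refine (Complex.abs_re_le_norm _).trans ?_
      rw [norm_mul, zpow_norm_one hζ, mul_one]
      exact hz
    refine (abs_add_le _ _).trans ?_
    rw [abs_mul, abs_of_pos (zpow_pos hβ _), abs_mul, abs_of_pos (show (0 : ℝ) < 2 by norm_num)]
    linarith

/-- pair bound -/
theorem pair {β C : ℝ} {φ : ℝ → ℝ} {ζ : ℂ} (h1 : 1 < β) (hζ : ‖ζ‖ = 1) (hφ : CF β φ C)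
    {x w : ℝ} {z : ℂ} {H N : ℕ} {R μ g : ℝ} (hD : Dat β ζ φ x w z H N R μ g) (hμ : 0 < μ)
    (hR0 : 0 < R) {T Λ : ℕ} (hΛ : Λ = H + T)
    (hT : (β⁻¹) ^ T ≤ (1 - β⁻¹) * R) (γ m : ℕ) (hγ : 2 * Λ ≤ γ) :
    |φ (x * β ^ (Λ + (m + γ)) - x * β ^ (Λ + m))| * |φ (x * β ^ (-(Λ : ℤ)))| ≤
      Real.exp (2 * Real.pi * R / μ + 12 * Real.pi * Λ * R / μ) * φ (x * β ^ (Λ : ℤ)) ^ 2 := by
  have hβ : 0 < β := by linarith
  have hlt : β⁻¹ < 1 := inv_lt_one_of_one_lt₀ h1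
  have hTR : (β⁻¹) ^ T ≤ R := hT.trans (by nlinarith [inv_pos.mpr hβ])
  set y := x * (1 - β ^ (-(γ : ℤ))) with hy
  have e1 : x * β ^ (Λ + (m + γ)) - x * β ^ (Λ + m) = y * β ^ (((γ : ℤ) + Λ) + m) := by
    rw [hy, mul_assoc, sub_mul, one_mul, ← zpow_add₀ hβ.ne',
      show -(γ : ℤ) + ((γ : ℤ) + Λ + m) = ((Λ + m : ℕ) : ℤ) by push_cast; ring,
      show (γ : ℤ) + Λ + m = ((Λ + (m + γ) : ℕ) : ℤ) by push_cast; ring,
      zpow_natCast, zpow_natCast]
    ring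
  rw [e1]
  have c1 := phi_mono h1 hφ y ((γ : ℤ) + Λ) ((γ : ℤ) + Λ + m) (by omega)
  have c2 : φ (y * β ^ ((γ : ℤ) + Λ)) = φ (y * β ^ ((γ : ℤ) - Λ)) *
      ∏ i ∈ range (2 * Λ), Real.cos (2 * Real.pi * (y * β ^ ((γ : ℤ) - Λ + i + 1))) := by
    have := phi_up h1 hφ y ((γ : ℤ) - Λ) (2 * Λ)
    rw [← this]
    congr 3
    push_cast; ring
  have c3 : |φ (y * β ^ ((γ : ℤ) - Λ))| ≤ Real.exp (2 * Real.pi * R / μ) * |φ (x * β ^ (Λ : ℤ))| := by
    have e2 : y * β ^ ((γ : ℤ) - Λ) = x * β ^ ((γ : ℤ) - Λ) - x * β ^ (-(Λ : ℤ)) := by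
      rw [hy, mul_assoc, sub_mul, one_mul, ← zpow_add₀ hβ.ne',
        show -(γ : ℤ) + ((γ : ℤ) - Λ) = -(Λ : ℤ) by ring]
      ring
    rw [e2]
    have h2 := phi_pert_upper h1 hφ (x * β ^ ((γ : ℤ) - Λ)) (x * β ^ (-(Λ : ℤ))) μ R hμ ?_ ?_
    · refine h2.trans ?_
      apply mul_le_mul_of_nonneg_left _ (Real.exp_pos _).le
      exact phi_mono h1 hφ x (Λ : ℤ) ((γ : ℤ) - Λ) (by omega)
    · intro i _
      have e3 : x * β ^ ((γ : ℤ) - Λ) * β ^ i = x * β ^ ((γ : ℤ) - Λ + i) := by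
        rw [mul_assoc, ← zpow_add₀ hβ.ne']
      rw [e3]
      exact (hD.mu _).1
    · rw [abs_mul, abs_of_pos (zpow_pos hβ _)]
      exact tail h1 hD.xH _ hT _ (by omega)
  have c4 : ∏ i ∈ range (2 * Λ), |Real.cos (2 * Real.pi * (y * β ^ ((γ : ℤ) - Λ + i + 1)))| ≤
      Real.exp (12 * Real.pi * Λ * R / μ) *
        ∏ i ∈ range (2 * Λ), |Real.cos (2 * Real.pi * (x * β ^ (-(Λ : ℤ) + i + 1)))| := by
    refine (prod_upper (range (2 * Λ)) _
      (fun i : ℕ => |Real.cos (2 * Real.pi * (x * β ^ (-(Λ : ℤ) + i + 1)))|)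
      (fun _ => 6 * Real.pi * R) μ hμ ?_ ?_ ?_ ?_).trans ?_
    · intro i _; positivity
    · intro i _; exact (hD.mu _).1
    · intro i _; exact abs_nonneg _
    · intro i _
      have hw : |w| * β ^ (-((γ : ℤ) - Λ + i + 1)) ≤ R := tail h1 hD.wH _ hTR _ (by omega)
      obtain ⟨K, δ, hK, hδ⟩ := congF h1 hζ hD.pt R hD.zR ((γ : ℤ) - Λ + i + 1) hw
      have e4 : y * β ^ ((γ : ℤ) - Λ + i + 1) = K - (x * β ^ (-(Λ : ℤ) + i + 1) + δ) := by
        rw [hy, mul_assoc, sub_mul, one_mul, ← zpow_add₀ hβ.ne',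
          show -(γ : ℤ) + ((γ : ℤ) - Λ + i + 1) = -(Λ : ℤ) + i + 1 by ring, mul_sub, hK]
        ring
      have := abs_cos_le _ _ _ K (Or.inr e4)
      refine this.trans ?_
      have h5 : 2 * Real.pi * |δ| ≤ 2 * Real.pi * (3 * R) :=
        mul_le_mul_of_nonneg_left hδ Real.two_pi_pos.le
      linarith
    · apply mul_le_mul_of_nonneg_right _ (Finset.prod_nonneg (fun i _ => abs_nonneg _))
      apply Real.exp_le_exp.mpr
      rw [Finset.sum_const, Finset.card_range, nsmul_eq_mul]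
      apply le_of_eq
      push_cast; ring
  have c5 : |φ (x * β ^ (-(Λ : ℤ)))| *
      ∏ i ∈ range (2 * Λ), |Real.cos (2 * Real.pi * (x * β ^ (-(Λ : ℤ) + i + 1)))| =
      |φ (x * β ^ (Λ : ℤ))| := by
    rw [← Finset.abs_prod, ← abs_mul]
    have := phi_up h1 hφ x (-(Λ : ℤ)) (2 * Λ)
    rw [← this]
    congr 4
    push_cast; ring
  rw [Real.exp_add, ← sq_abs (φ (x * β ^ (Λ : ℤ)))]
  calc _ ≤ |φ (y * β ^ ((γ : ℤ) + Λ))| * |φ (x * β ^ (-(Λ : ℤ)))| :=
        mul_le_mul_of_nonneg_right c1 (abs_nonneg _)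
    _ = |φ (y * β ^ ((γ : ℤ) - Λ))| *
        ((∏ i ∈ range (2 * Λ), |Real.cos (2 * Real.pi * (y * β ^ ((γ : ℤ) - Λ + i + 1)))|) *
        |φ (x * β ^ (-(Λ : ℤ)))|) := by rw [c2, abs_mul, Finset.abs_prod]; ring
    _ ≤ (Real.exp (2 * Real.pi * R / μ) * |φ (x * β ^ (Λ : ℤ))|) *
        ((Real.exp (12 * Real.pi * Λ * R / μ) *
        ∏ i ∈ range (2 * Λ), |Real.cos (2 * Real.pi * (x * β ^ (-(Λ : ℤ) + i + 1)))|) *
        |φ (x * β ^ (-(Λ : ℤ)))|) := by
        exact mul_le_mul c3 (mul_le_mul_of_nonneg_right c4 (abs_nonneg _))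
          (mul_nonneg (Finset.prod_nonneg (fun i _ => abs_nonneg _)) (abs_nonneg _)) (by positivity)
    _ = Real.exp (2 * Real.pi * R / μ) * |φ (x * β ^ (Λ : ℤ))| *
        (Real.exp (12 * Real.pi * Λ * R / μ) * (|φ (x * β ^ (-(Λ : ℤ)))| *
        ∏ i ∈ range (2 * Λ), |Real.cos (2 * Real.pi * (x * β ^ (-(Λ : ℤ) + i + 1)))|)) := by ring
    _ = _ := by rw [c5]; ring

/-- single bound -/
theorem single {β C : ℝ} {φ : ℝ → ℝ} {ζ : ℂ} (h1 : 1 < β) (hζ : ‖ζ‖ = 1) (hφ : CF β φ C)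
    {x w : ℝ} {z : ℂ} {H N : ℕ} {R μ g : ℝ} (hD : Dat β ζ φ x w z H N R μ g)
    (hR0 : 0 < R) {T Λ : ℕ} (hΛ : Λ = H + T)
    (hT : (β⁻¹) ^ T ≤ (1 - β⁻¹) * R) (n : ℕ) (hn : (n : ℝ) * (180 * R ^ 2) ≤ 1) :
    |φ (x * β ^ (Λ + n)) - φ (x * β ^ (Λ : ℤ))| ≤ (n : ℝ) * (180 * R ^ 2) * |φ (x * β ^ (Λ : ℤ))| := by
  have hβ : 0 < β := by linarith
  have hlt : β⁻¹ < 1 := inv_lt_one_of_one_lt₀ h1
  have hTR : (β⁻¹) ^ T ≤ R := hT.trans (by nlinarith [inv_pos.mpr hβ])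
  have hpi := Real.pi_lt_d2
  have hpi0 := Real.pi_gt_three
  have e1 : φ (x * β ^ (Λ + n)) = φ (x * β ^ (Λ : ℤ)) *
      ∏ i ∈ range n, Real.cos (2 * Real.pi * (x * β ^ ((Λ : ℤ) + i + 1))) := by
    rw [← phi_up h1 hφ x (Λ : ℤ) n, ← zpow_natCast]
    push_cast
    rfl
  rcases Nat.eq_zero_or_pos n with h0 | hnpos
  · subst h0; simp
  have hfac : ∀ i ∈ range n, 1 - 180 * R ^ 2 ≤ Real.cos (2 * Real.pi * (x * β ^ ((Λ : ℤ) + i + 1))) := by
    intro i _
    have hw : |w| * β ^ (-((Λ : ℤ) + i + 1)) ≤ R := tail h1 hD.wH _ hTR _ (by omega)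
    obtain ⟨K, δ, hK, hδ⟩ := congF h1 hζ hD.pt R hD.zR ((Λ : ℤ) + i + 1) hw
    rw [hK]
    have e2 : 2 * Real.pi * ((K : ℝ) - δ) = -(2 * Real.pi * δ) + K * (2 * Real.pi) := by ring
    rw [e2, Real.cos_add_int_mul_two_pi, Real.cos_neg]
    have h2 := Real.one_sub_sq_div_two_le_cos (x := 2 * Real.pi * δ)
    refine le_trans ?_ h2
    have h3 : δ ^ 2 ≤ 9 * R ^ 2 := by
      rw [← sq_abs]
      calc |δ| ^ 2 ≤ (3 * R) ^ 2 := pow_le_pow_left₀ (abs_nonneg _) hδ 2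
        _ = _ := by ring
    have h4 : Real.pi ^ 2 ≤ 10 := by nlinarith
    have h5 : (2 * Real.pi * δ) ^ 2 / 2 = 2 * (Real.pi ^ 2 * δ ^ 2) := by ring
    rw [h5]
    have h6 : Real.pi ^ 2 * δ ^ 2 ≤ 10 * (9 * R ^ 2) :=
      mul_le_mul h4 h3 (sq_nonneg _) (by norm_num)
    linarith
  have hn1 : (1 : ℝ) ≤ n := by exact_mod_cast hnpos
  have hu1 : 180 * R ^ 2 ≤ 1 := by nlinarith [sq_nonneg R]
  have hlow : 1 - (n : ℝ) * (180 * R ^ 2) ≤
      ∏ i ∈ range n, Real.cos (2 * Real.pi * (x * β ^ ((Λ : ℤ) + i + 1))) := by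
    have h2 := prod_one_sub_ge (range n) (fun _ => 180 * R ^ 2) (fun _ _ => by positivity)
      (fun _ _ => hu1)
    rw [Finset.sum_const, Finset.card_range, nsmul_eq_mul] at h2
    refine h2.trans ?_
    exact Finset.prod_le_prod (fun _ _ => by linarith) hfac
  have hup : ∏ i ∈ range n, Real.cos (2 * Real.pi * (x * β ^ ((Λ : ℤ) + i + 1))) ≤ 1 := by
    apply Finset.prod_le_one
    · intro i hi
      have := hfac i hi
      linarith
    · intro i _; exact Real.cos_le_one _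
  rw [e1]
  have e3 : φ (x * β ^ (Λ : ℤ)) * ∏ i ∈ range n, Real.cos (2 * Real.pi * (x * β ^ ((Λ : ℤ) + i + 1))) -
      φ (x * β ^ (Λ : ℤ)) = (∏ i ∈ range n, Real.cos (2 * Real.pi * (x * β ^ ((Λ : ℤ) + i + 1))) - 1) *
      φ (x * β ^ (Λ : ℤ)) := by ring
  rw [e3, abs_mul]
  apply mul_le_mul_of_nonneg_right _ (abs_nonneg _)
  rw [abs_le]
  constructor
  · linarith
  · have : 0 ≤ (n : ℝ) * (180 * R ^ 2) := by positivity
    linarith

theorem exp_le_of_half (E : ℝ) (hE0 : 0 ≤ E) (hE : E ≤ 1 / 2) : Real.exp E ≤ 1 + 2 * E := by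
  have h1 := Real.add_one_le_exp (-E)
  have h2 : Real.exp E * Real.exp (-E) = 1 := by rw [← Real.exp_add]; simp
  have h3 := Real.exp_pos E
  have h4 : Real.exp E * (1 - E) ≤ 1 := by nlinarith
  by_contra hcon
  push Not at hcon
  nlinarith

theorem sep {β : ℝ} (h1 : 1 < β) (x : ℝ) (hx : 1 ≤ |x|) (Λ n m : ℕ) (hnm : n ≠ m) :
    (1 - β⁻¹) * β ^ m ≤ |x * β ^ (Λ + n) - x * β ^ (Λ + m)| := by
  have hβ : 0 < β := by linarith
  have hlt : β⁻¹ < 1 := inv_lt_one_of_one_lt₀ h1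
  have hc : 0 < 1 - β⁻¹ := by linarith
  have e1 : x * β ^ (Λ + n) - x * β ^ (Λ + m) = x * β ^ Λ * (β ^ n - β ^ m) := by
    rw [pow_add, pow_add]; ring
  rw [e1, abs_mul, abs_mul, abs_of_pos (pow_pos hβ Λ)]
  have h2 : (1 : ℝ) ≤ β ^ Λ := one_le_pow₀ h1.le
  have h3 : (1 - β⁻¹) * β ^ m ≤ |β ^ n - β ^ m| := by
    have hbm : 0 < β ^ m := pow_pos hβ m
    rcases lt_or_gt_of_ne hnm with h | h
    · obtain ⟨k, rfl⟩ := Nat.exists_eq_add_of_lt h
      have h4 : β ^ n ≤ β⁻¹ * β ^ (n + k + 1) := by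
        rw [pow_succ, ← mul_assoc, mul_comm, ← mul_assoc, mul_inv_cancel₀ hβ.ne', one_mul]
        exact pow_le_pow_right₀ h1.le (by omega)
      rw [abs_sub_comm]
      refine le_trans ?_ (le_abs_self _)
      linarith
    · obtain ⟨k, rfl⟩ := Nat.exists_eq_add_of_lt h
      have h4 : β * β ^ m ≤ β ^ (m + k + 1) := by
        rw [← pow_succ']
        exact pow_le_pow_right₀ h1.le (by omega)
      refine le_trans ?_ (le_abs_self _)
      have h5 : 1 - β⁻¹ ≤ β - 1 := by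
        have : β⁻¹ * β = 1 := inv_mul_cancel₀ hβ.ne'
        nlinarith [mul_pos hβ hβ]
      nlinarith
  have h6 : 0 ≤ |β ^ n - β ^ m| := abs_nonneg _
  calc (1 - β⁻¹) * β ^ m ≤ |β ^ n - β ^ m| := h3
    _ = 1 * 1 * |β ^ n - β ^ m| := by ring
    _ ≤ |x| * β ^ Λ * |β ^ n - β ^ m| := by
        apply mul_le_mul_of_nonneg_right _ h6
        exact mul_le_mul hx h2 (by norm_num) (abs_nonneg _)

theorem sepsum {β : ℝ} (h1 : 1 < β) (x : ℝ) (hx : 1 ≤ |x|) (Λ M : ℕ) :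
    ∑ n ∈ range M, ∑ m ∈ (range M).erase n, 1 / |x * β ^ (Λ + n) - x * β ^ (Λ + m)| ≤
      1 / (1 - β⁻¹) ^ 2 * (M : ℝ) := by
  have hβ : 0 < β := by linarith
  have hlt : β⁻¹ < 1 := inv_lt_one_of_one_lt₀ h1
  have hc : 0 < 1 - β⁻¹ := by linarith
  have h2 : ∀ n ∈ range M, ∑ m ∈ (range M).erase n, 1 / |x * β ^ (Λ + n) - x * β ^ (Λ + m)| ≤
      1 / (1 - β⁻¹) ^ 2 := by
    intro n _
    calc ∑ m ∈ (range M).erase n, 1 / |x * β ^ (Λ + n) - x * β ^ (Λ + m)|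
        ≤ ∑ m ∈ (range M).erase n, |1 / (1 - β⁻¹)| * (β⁻¹) ^ m := by
          apply Finset.sum_le_sum
          intro m hm
          have hnm : n ≠ m := (Finset.ne_of_mem_erase hm).symm
          have h3 := sep h1 x hx Λ n m hnm
          have h4 : 0 < (1 - β⁻¹) * β ^ m := by positivity
          refine (one_div_le_one_div_of_le h4 h3).trans (le_of_eq ?_)
          rw [abs_of_pos (by positivity), inv_pow]
          field_simp
      _ ≤ ∑ m ∈ range M, |1 / (1 - β⁻¹)| * (β⁻¹) ^ m := by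
          apply Finset.sum_le_sum_of_subset_of_nonneg (Finset.erase_subset _ _)
          intro m _ _
          positivity
      _ ≤ |1 / (1 - β⁻¹)| / (1 - β⁻¹) := geo_sum_le h1 _ M
      _ = 1 / (1 - β⁻¹) ^ 2 := by
          rw [abs_of_pos (by positivity)]
          field_simp
  refine (Finset.sum_le_card_nsmul _ _ _ h2).trans ?_
  rw [Finset.card_range, nsmul_eq_mul, mul_comm]

/-- the double sum -/
theorem dsum (M Λ : ℕ) (f : ℕ → ℕ → ℝ) (P : ℝ) (hP : 0 ≤ P)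
    (h1 : ∀ n m, f n m ≤ 1) (h2 : ∀ n m, m + 2 * Λ ≤ n → f n m ≤ P)
    (h3 : ∀ n m, n + 2 * Λ ≤ m → f n m ≤ P) :
    ∑ n ∈ range M, ∑ m ∈ range M, f n m ≤ (M : ℝ) ^ 2 * P + (M : ℝ) * (4 * Λ) := by
  classical
  have hrow : ∀ n ∈ range M, ∑ m ∈ range M, f n m ≤ (M : ℝ) * P + 4 * Λ := by
    intro n _
    have h4 : ∀ m ∈ range M, f n m ≤ P + (if m ∈ Finset.Ico (n - 2 * Λ) (n + 2 * Λ) then 1 else 0) := by
      intro m _
      by_cases hm : m ∈ Finset.Ico (n - 2 * Λ) (n + 2 * Λ)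
      · rw [if_pos hm]
        have := h1 n m
        linarith
      · rw [if_neg hm, add_zero]
        rw [Finset.mem_Ico, not_and_or] at hm
        rcases hm with hm | hm
        · exact h2 n m (by omega)
        · exact h3 n m (by omega)
    refine (Finset.sum_le_sum h4).trans ?_
    rw [Finset.sum_add_distrib, Finset.sum_const, Finset.card_range, nsmul_eq_mul]
    have h5 : ∑ m ∈ range M, (if m ∈ Finset.Ico (n - 2 * Λ) (n + 2 * Λ) then (1 : ℝ) else 0) ≤ 4 * Λ := by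
      rw [← Finset.sum_filter, Finset.sum_const, nsmul_eq_mul, mul_one]
      have h6 : ((range M).filter (fun m => m ∈ Finset.Ico (n - 2 * Λ) (n + 2 * Λ))).card ≤ 4 * Λ := by
        refine (Finset.card_le_card (t := Finset.Ico (n - 2 * Λ) (n + 2 * Λ)) ?_).trans ?_
        · intro m hm
          exact (Finset.mem_filter.mp hm).2
        · rw [Nat.card_Ico]; omega
      exact_mod_cast h6
    linarith
  refine (Finset.sum_le_card_nsmul _ _ _ hrow).trans ?_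
  rw [Finset.card_range, nsmul_eq_mul]
  apply le_of_eq
  ring

theorem alg1 (C μ u F a2 E : ℝ) (hu : 0 ≤ u) (hu1 : u ≤ 1) (hC : 0 ≤ C) (hμ : 0 < μ)
    (hF : 0 ≤ F) (ha2 : 0 ≤ a2) (hCu : C * u ≤ 1 / 2)
    (hE : E ≤ 1 + 320 * u / μ) (h3 : F * (1 - C * u) ≤ E * a2) :
    F ≤ (1 + (320 / μ + 2 * C + 640 * C / μ) * u) * a2 := by
  have hCu0 : 0 ≤ C * u := by positivity
  have h3' : F * (1 - C * u) ≤ (1 + 320 * u / μ) * a2 :=
    h3.trans (mul_le_mul_of_nonneg_right hE ha2)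
  have h4 : (1 : ℝ) ≤ (1 + 2 * (C * u)) * (1 - C * u) := by nlinarith
  have h5 : F ≤ (1 + 2 * (C * u)) * ((1 + 320 * u / μ) * a2) := by
    calc F = F * 1 := by ring
      _ ≤ F * ((1 + 2 * (C * u)) * (1 - C * u)) := mul_le_mul_of_nonneg_left h4 hF
      _ = (1 + 2 * (C * u)) * (F * (1 - C * u)) := by ring
      _ ≤ _ := mul_le_mul_of_nonneg_left h3' (by positivity)
  refine h5.trans ?_
  rw [← mul_assoc]
  apply mul_le_mul_of_nonneg_right _ ha2
  have e1 : (1 + 2 * (C * u)) * (1 + 320 * u / μ) =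
      1 + (320 / μ + 2 * C) * u + 640 * C / μ * (u * u) := by
    field_simp
    ring
  rw [e1]
  have h6 : u * u ≤ u := mul_le_of_le_one_left hu hu1
  have h7 : 640 * C / μ * (u * u) ≤ 640 * C / μ * u :=
    mul_le_mul_of_nonneg_left h6 (by positivity)
  linarith

theorem alg2 (M a2 a K ε ε₀ Λ u : ℝ) (hM : 0 ≤ M) (ha : a2 = a ^ 2) (h8 : K * u ≤ ε / 2)
    (hεε : ε ≤ ε₀) (h9 : 4 * Λ ≤ ε / 2 * (M * a2)) :
    M ^ 2 * ((1 + K * u) * a2) + M * (4 * Λ) ≤ (1 + ε₀) * (M * a) ^ 2 := by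
  subst ha
  have h11 : M * (4 * Λ) ≤ M * (ε / 2 * (M * a ^ 2)) :=
    mul_le_mul_of_nonneg_left h9 hM
  have h12 : M ^ 2 * ((1 + K * u) * a ^ 2) ≤ M ^ 2 * ((1 + ε / 2) * a ^ 2) := by
    apply mul_le_mul_of_nonneg_left _ (by positivity)
    apply mul_le_mul_of_nonneg_right _ (by positivity)
    linarith
  have h13 : M ^ 2 * ((1 + ε / 2) * a ^ 2) + M * (ε / 2 * (M * a ^ 2)) =
      (1 + ε) * (M * a) ^ 2 := by ring
  have h14 : (1 + ε) * (M * a) ^ 2 ≤ (1 + ε₀) * (M * a) ^ 2 := by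
    apply mul_le_mul_of_nonneg_right _ (sq_nonneg _)
    linarith
  linarith

end Fin0

set_option maxHeartbeats 4000000 in
open Fin0 Pert Step in
theorem final : FinalStmt := by
  intro β ζ φ C μ h1 hζ hφ hμ hgood
  have hβ : 0 < β := by linarith
  have hlt : β⁻¹ < 1 := inv_lt_one_of_one_lt₀ h1
  have hc : 0 < 1 - β⁻¹ := by linarith
  have hlogβ : 0 < Real.log β := Real.log_pos h1
  refine ⟨1 / (1 - β⁻¹) ^ 2, ?_⟩
  intro ε₀ hε₀
  set ε := min ε₀ 1 with hε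
  have hεpos : 0 < ε := lt_min hε₀ one_pos
  have hε1 : ε ≤ 1 := min_le_right _ _
  have hεε : ε ≤ ε₀ := min_le_left _ _
  set K1 := (5 + |Real.log (1 / (1 - β⁻¹))|) / Real.log β + 2 with hK1
  have hK1pos : 0 < K1 := by positivity
  set K2 := 320 / μ + 2 * |C| + 640 * |C| / μ with hK2
  have hK2pos : 0 ≤ K2 := by positivity
  set u0 := min (min (1 / 5) (ε / 180)) (min (1 / K1) (min (ε / (2 * K2 + 1))
    (min (μ / 320) (1 / (2 * |C| + 1))))) with hu0
  have hu0pos : 0 < u0 := by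
    rw [hu0]
    refine lt_min (lt_min (by norm_num) (by positivity)) (lt_min (by positivity)
      (lt_min (by positivity) (lt_min (by positivity) (by positivity))))
  obtain ⟨x, w, z, H, R, g, hD, hR0, hR1, hRg, hH⟩ := hgood (1 / 10) (by norm_num) (u0 ^ 5) (by positivity)
  -- `u`
  obtain ⟨u, hu, huR, huu⟩ : ∃ u : ℝ, 0 < u ∧ u ^ 5 = R ∧ u ≤ u0 := by
    refine ⟨R ^ (1 / 5 : ℝ), by positivity, ?_, ?_⟩
    · rw [← Real.rpow_natCast, ← Real.rpow_mul hR0.le]; norm_num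
    · have : (u0 ^ 5) ^ (1 / 5 : ℝ) = u0 := by
        rw [← Real.rpow_natCast, ← Real.rpow_mul hu0pos.le]; norm_num
      rw [← this]
      exact Real.rpow_le_rpow hR0.le hR1 (by norm_num)
  have k1 : u ≤ 1 / 5 := huu.trans ((min_le_left _ _).trans (min_le_left _ _))
  have k2 : 180 * u ≤ ε := by
    have : u ≤ ε / 180 := huu.trans ((min_le_left _ _).trans (min_le_right _ _))
    rw [le_div_iff₀ (by norm_num)] at this
    linarith
  have k3 : K1 * u ≤ 1 := by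
    have : u ≤ 1 / K1 := huu.trans ((min_le_right _ _).trans (min_le_left _ _))
    rw [le_div_iff₀ hK1pos] at this
    linarith
  have k4 : (2 * K2 + 1) * u ≤ ε := by
    have : u ≤ ε / (2 * K2 + 1) :=
      huu.trans ((min_le_right _ _).trans ((min_le_right _ _).trans (min_le_left _ _)))
    rw [le_div_iff₀ (by positivity)] at this
    linarith
  have k5 : 320 * u ≤ μ := by
    have : u ≤ μ / 320 := huu.trans ((min_le_right _ _).trans ((min_le_right _ _).trans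
      ((min_le_right _ _).trans (min_le_left _ _))))
    rw [le_div_iff₀ (by norm_num)] at this
    linarith
  have k6 : (2 * |C| + 1) * u ≤ 1 := by
    have : u ≤ 1 / (2 * |C| + 1) := huu.trans ((min_le_right _ _).trans ((min_le_right _ _).trans
      ((min_le_right _ _).trans (min_le_right _ _))))
    rw [le_div_iff₀ (by positivity)] at this
    linarith
  -- `v = 1 / u`
  set v := u⁻¹ with hv
  have hvu : v * u = 1 := inv_mul_cancel₀ hu.ne'
  have hv5 : 5 ≤ v := by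
    rw [hv, le_inv_comm₀ (by norm_num) hu]
    linarith
  have hvpos : 0 < v := by linarith
  have hg0 : 0 < g := lt_of_lt_of_le (by positivity) hRg
  have hgu : u ≤ g ^ 2 := by
    have e1 : (R ^ (1 / 10 : ℝ)) ^ 2 = u := by
      rw [← Real.rpow_natCast, ← Real.rpow_mul hR0.le, ← huR, ← Real.rpow_natCast,
        ← Real.rpow_mul hu.le]
      norm_num
    rw [← e1]
    exact pow_le_pow_left₀ (by positivity) hRg 2
  have hH4 : (H : ℝ) ≤ 3 * v ^ 4 := by
    have e1 : R ^ (-(4 / 5) : ℝ) = v ^ 4 := by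
      rw [← huR, ← Real.rpow_natCast, ← Real.rpow_mul hu.le, hv, inv_pow, ← Real.rpow_natCast,
        ← Real.rpow_neg hu.le]
      norm_num
    rwa [e1] at hH
  -- `T`
  obtain ⟨T, hT, hT4⟩ : ∃ T : ℕ, (β⁻¹) ^ T ≤ (1 - β⁻¹) * R ∧ (T : ℝ) ≤ v ^ 4 := by
    set y := Real.logb β (1 / ((1 - β⁻¹) * R)) with hy
    have hcR : 0 < (1 - β⁻¹) * R := by positivity
    refine ⟨⌈y⌉₊, ?_, ?_⟩
    · have h2 : 1 / ((1 - β⁻¹) * R) ≤ β ^ ⌈y⌉₊ := by
        have h3 : β ^ y = 1 / ((1 - β⁻¹) * R) :=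
          Real.rpow_logb hβ h1.ne' (by positivity)
        rw [← h3, ← Real.rpow_natCast]
        exact Real.rpow_le_rpow_of_exponent_le h1.le (Nat.le_ceil y)
      rw [inv_pow, inv_le_comm₀ (by positivity) hcR, ← one_div]
      exact h2
    · have hyle : y ≤ (|Real.log (1 / (1 - β⁻¹))| + 5 * v) / Real.log β := by
        rw [hy, Real.logb]
        apply div_le_div_of_nonneg_right _ hlogβ.le
        have e1 : (1 / ((1 - β⁻¹) * R)) = (1 / (1 - β⁻¹)) * v ^ 5 := by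
          rw [← huR, hv]; field_simp
        rw [e1, Real.log_mul (by positivity) (by positivity), Real.log_pow]
        have h3 : Real.log v ≤ v := by
          have := Real.log_le_sub_one_of_pos hvpos
          linarith
        have h4 := le_abs_self (Real.log (1 / (1 - β⁻¹)))
        push_cast
        linarith
      have hceil : (⌈y⌉₊ : ℝ) ≤ max y 0 + 1 := by
        have := Nat.ceil_lt_add_one (le_max_right y 0)
        have h5 : ⌈y⌉₊ ≤ ⌈max y 0⌉₊ := Nat.ceil_mono (le_max_left _ _)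
        have h6 : (⌈y⌉₊ : ℝ) ≤ (⌈max y 0⌉₊ : ℝ) := by exact_mod_cast h5
        linarith
      have hmax : max y 0 ≤ (|Real.log (1 / (1 - β⁻¹))| + 5 * v) / Real.log β :=
        max_le hyle (by positivity)
      have h7 : (|Real.log (1 / (1 - β⁻¹))| + 5 * v) / Real.log β + 1 ≤ K1 * v := by
        rw [hK1, add_mul]
        have h8 : (|Real.log (1 / (1 - β⁻¹))| + 5 * v) / Real.log β ≤
            (5 + |Real.log (1 / (1 - β⁻¹))|) / Real.log β * v := by
          rw [div_mul_eq_mul_div]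
          apply div_le_div_of_nonneg_right _ hlogβ.le
          nlinarith [abs_nonneg (Real.log (1 / (1 - β⁻¹)))]
        linarith
      have h9 : K1 ≤ v := by
        have : K1 * u ≤ v * u := by rw [hvu]; exact k3
        exact le_of_mul_le_mul_right this hu
      have h10 : K1 * v ≤ v ^ 4 := by
        calc K1 * v ≤ v * v := mul_le_mul_of_nonneg_right h9 hvpos.le
          _ = v ^ 2 := by ring
          _ ≤ v ^ 4 := pow_le_pow_right₀ (by linarith) (by norm_num)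
      linarith
  set Λ := H + T with hΛ
  have hΛ4 : (Λ : ℝ) ≤ 4 * v ^ 4 := by
    rw [hΛ]; push_cast; linarith
  set M := ⌊v ^ 7⌋₊ with hM
  have hM1 : (M : ℝ) ≤ v ^ 7 := Nat.floor_le (by positivity)
  have hv7 : (2 : ℝ) ≤ v ^ 7 := by
    calc (2 : ℝ) ≤ 5 ^ 7 := by norm_num
      _ ≤ v ^ 7 := pow_le_pow_left₀ (by norm_num) hv5 7
  have hM2 : v ^ 7 / 2 ≤ (M : ℝ) := by
    have := Nat.lt_floor_add_one (v ^ 7)
    rw [← hM] at this
    linarith
  have hMpos : (0 : ℝ) < M := by linarith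
  have hRv : R * v ^ 5 = 1 := by
    rw [← huR, ← mul_pow, mul_comm u v, hvu, one_pow]
  have hΛN : Λ ≤ NN R := by
    unfold NN
    apply Nat.le_floor
    have e1 : 1 / R ^ 2 = v ^ 10 := by
      rw [div_eq_iff (by positivity)]
      calc (1 : ℝ) = (R * v ^ 5) ^ 2 := by rw [hRv]; norm_num
        _ = _ := by ring
    rw [e1]
    refine hΛ4.trans ?_
    calc 4 * v ^ 4 ≤ v ^ 6 * v ^ 4 := by
          apply mul_le_mul_of_nonneg_right _ (by positivity)
          calc (4 : ℝ) ≤ 5 ^ 6 := by norm_num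
            _ ≤ v ^ 6 := pow_le_pow_left₀ (by norm_num) hv5 6
      _ = v ^ 10 := by ring
  set a := φ (x * β ^ (Λ : ℤ)) with ha
  have hag : g ≤ |a| := by
    refine hD.gg.1.trans ?_
    have := phi_mono h1 hφ x (Λ : ℤ) (NN R : ℤ) (by exact_mod_cast hΛN)
    rwa [zpow_natCast β (NN R)] at this
  have ha0 : a ≠ 0 := by
    intro h0
    rw [h0, abs_zero] at hag
    linarith
  have hau : u ≤ a ^ 2 := by
    rw [← sq_abs]
    exact hgu.trans (pow_le_pow_left₀ hg0.le hag 2)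
  have hMa : v ^ 6 / 2 ≤ (M : ℝ) * a ^ 2 := by
    calc v ^ 6 / 2 = (v ^ 7 / 2) * u := by
          have : v ^ 7 = v ^ 6 * v := by ring
          rw [this]
          calc v ^ 6 / 2 = v ^ 6 * (v * u) / 2 := by rw [hvu]; ring
            _ = _ := by ring
      _ ≤ (M : ℝ) * a ^ 2 := mul_le_mul hM2 hau hu.le hMpos.le
  have hε180 : 180 ≤ ε * v := by
    calc (180 : ℝ) = 180 * (v * u) := by rw [hvu]; ring
      _ = (180 * u) * v := by ring
      _ ≤ ε * v := mul_le_mul_of_nonneg_right k2 hvpos.le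
  have hεMa : 90 * v ^ 5 ≤ ε * ((M : ℝ) * a ^ 2) := by
    calc 90 * v ^ 5 = 180 * (v ^ 5 / 2) := by ring
      _ ≤ (ε * v) * (v ^ 5 / 2) := mul_le_mul_of_nonneg_right hε180 (by positivity)
      _ = ε * (v ^ 6 / 2) := by ring
      _ ≤ _ := mul_le_mul_of_nonneg_left hMa hεpos.le
  have hMR : (M : ℝ) * (180 * R ^ 2) ≤ ε := by
    calc (M : ℝ) * (180 * R ^ 2) ≤ v ^ 7 * (180 * R ^ 2) :=
          mul_le_mul_of_nonneg_right hM1 (by positivity)
      _ = 180 * u ^ 3 := by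
          rw [← huR]
          calc v ^ 7 * (180 * (u ^ 5) ^ 2) = 180 * u ^ 3 * (v * u) ^ 7 := by ring
            _ = _ := by rw [hvu]; ring
      _ ≤ 180 * u := by
          have : u ^ 3 ≤ u ^ 1 := pow_le_pow_of_le_one hu.le (by linarith) (by norm_num)
          rw [pow_one] at this
          linarith
      _ ≤ ε := k2
  refine ⟨M, fun n => x * β ^ (Λ + n), a, by exact_mod_cast hMpos, ha0, ?_, ?_, ?_, ?_, ?_⟩
  · have h2 : 1 ≤ 90 * v ^ 5 := by
      have : (1 : ℝ) ≤ v ^ 5 := one_le_pow₀ (by linarith)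
      linarith
    refine h2.trans (hεMa.trans ?_)
    exact mul_le_mul_of_nonneg_right hεε (by positivity)
  · have h2 : ∑ n ∈ range M, φ (x * β ^ (Λ + n)) - (M : ℝ) * a =
        ∑ n ∈ range M, (φ (x * β ^ (Λ + n)) - a) := by
      rw [Finset.sum_sub_distrib, Finset.sum_const, Finset.card_range, nsmul_eq_mul]
    rw [h2]
    refine (Finset.abs_sum_le_sum_abs _ _).trans ?_
    have h3 : ∀ n ∈ range M, |φ (x * β ^ (Λ + n)) - a| ≤ ε * |a| := by
      intro n hn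
      have hnM : (n : ℝ) ≤ M := by
        have := (Finset.mem_range.mp hn).le
        exact_mod_cast this
      have h4 : (n : ℝ) * (180 * R ^ 2) ≤ (M : ℝ) * (180 * R ^ 2) :=
        mul_le_mul_of_nonneg_right hnM (by positivity)
      refine (single h1 hζ hφ hD hR0 hΛ hT n (h4.trans (hMR.trans hε1))).trans ?_
      exact mul_le_mul_of_nonneg_right (h4.trans hMR) (abs_nonneg _)
    refine (Finset.sum_le_card_nsmul _ _ _ h3).trans ?_
    rw [Finset.card_range, nsmul_eq_mul, abs_mul, abs_of_pos hMpos]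
    have h5 : ε * |a| ≤ ε₀ * |a| := mul_le_mul_of_nonneg_right hεε (abs_nonneg _)
    calc (M : ℝ) * (ε * |a|) ≤ (M : ℝ) * (ε₀ * |a|) := mul_le_mul_of_nonneg_left h5 hMpos.le
      _ = _ := by ring
  · -- pairs
    have hu1 : u ≤ 1 := by linarith
    have hR2 : R ≤ u := by
      rw [← huR]
      calc u ^ 5 ≤ u ^ 1 := pow_le_pow_of_le_one hu.le hu1 (by norm_num)
        _ = u := pow_one u
    have hlow : 1 - |C| * u ≤ |φ (x * β ^ (-(Λ : ℤ)))| := by
      have h2 := hφ.near (x * β ^ (-(Λ : ℤ)))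
      have hTR : (β⁻¹) ^ T ≤ R := hT.trans (by nlinarith [inv_pos.mpr hβ])
      have h3 : |x * β ^ (-(Λ : ℤ))| ≤ R := by
        rw [abs_mul, abs_of_pos (zpow_pos hβ _)]
        exact tail h1 hD.xH _ hTR _ (by omega)
      have h4 : (x * β ^ (-(Λ : ℤ))) ^ 2 ≤ u := by
        rw [← sq_abs]
        calc |x * β ^ (-(Λ : ℤ))| ^ 2 ≤ R ^ 2 := pow_le_pow_left₀ (abs_nonneg _) h3 2
          _ = R * R := by ring
          _ ≤ u * 1 := mul_le_mul hR2 (by linarith) hR0.le hu.le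
          _ = u := by ring
      have h5 : C * (x * β ^ (-(Λ : ℤ))) ^ 2 ≤ |C| * u :=
        mul_le_mul (le_abs_self C) h4 (sq_nonneg _) (abs_nonneg _)
      have h6 : 1 - φ (x * β ^ (-(Λ : ℤ))) ≤ |C| * u := (le_abs_self _).trans (h2.trans h5)
      have h7 := le_abs_self (φ (x * β ^ (-(Λ : ℤ))))
      linarith
    set E := 2 * Real.pi * R / μ + 12 * Real.pi * Λ * R / μ with hE
    have hΛR : (Λ : ℝ) * R ≤ 4 * u := by
      calc (Λ : ℝ) * R ≤ (4 * v ^ 4) * R := mul_le_mul_of_nonneg_right hΛ4 hR0.le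
        _ = 4 * u := by
          rw [← huR]
          calc 4 * v ^ 4 * u ^ 5 = 4 * u * (v * u) ^ 4 := by ring
            _ = 4 * u := by rw [hvu]; ring
    have hE1 : E ≤ 160 * u / μ := by
      rw [hE, ← add_div]
      apply div_le_div_of_nonneg_right _ hμ.le
      have hpi := Real.pi_lt_d2
      have hpi0 := Real.pi_gt_three
      have e1 : 2 * Real.pi * R + 12 * Real.pi * Λ * R = Real.pi * (2 * R + 12 * (Λ * R)) := by ring
      rw [e1]
      have h3 : 2 * R + 12 * (Λ * R) ≤ 50 * u := by linarith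
      calc Real.pi * (2 * R + 12 * (Λ * R)) ≤ 3.15 * (50 * u) :=
            mul_le_mul hpi.le h3 (by positivity) (by norm_num)
        _ ≤ 160 * u := by linarith
    have hE0 : 0 ≤ E := by rw [hE]; positivity
    have hEh : E ≤ 1 / 2 := by
      refine hE1.trans ?_
      rw [div_le_iff₀ hμ]
      linarith
    have hexpE : Real.exp E ≤ 1 + 320 * u / μ := by
      refine (exp_le_of_half E hE0 hEh).trans ?_
      have : 2 * (160 * u / μ) = 320 * u / μ := by ring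
      linarith
    have hCu : |C| * u ≤ 1 / 2 := by linarith
    have ha2 : 0 ≤ a ^ 2 := sq_nonneg a
    have hpair : ∀ m γ : ℕ, 2 * Λ ≤ γ →
        φ (x * β ^ (Λ + (m + γ)) - x * β ^ (Λ + m)) ≤ (1 + K2 * u) * a ^ 2 := by
      intro m γ hγ
      have h2 := pair h1 hζ hφ hD hμ hR0 hΛ hT γ m hγ
      rw [← ha, ← hE] at h2
      refine (le_abs_self _).trans ?_
      have h3 : |φ (x * β ^ (Λ + (m + γ)) - x * β ^ (Λ + m))| * (1 - |C| * u) ≤
          Real.exp E * a ^ 2 := (mul_le_mul_of_nonneg_left hlow (abs_nonneg _)).trans h2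
      exact alg1 |C| μ u _ (a ^ 2) (Real.exp E) hu.le hu1 (abs_nonneg C) hμ (abs_nonneg _) ha2 hCu
        hexpE h3
    have hds := dsum M Λ (fun n m => φ (x * β ^ (Λ + n) - x * β ^ (Λ + m))) ((1 + K2 * u) * a ^ 2)
      (by positivity) (fun n m => (le_abs_self _).trans (hφ.le_one _))
      (by
        intro n m hnm
        obtain ⟨k, rfl⟩ := Nat.exists_eq_add_of_le hnm
        have := hpair m (2 * Λ + k) (by omega)
        have e1 : m + 2 * Λ + k = m + (2 * Λ + k) := by ring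
        rw [e1]
        exact this)
      (by
        intro n m hnm
        obtain ⟨k, rfl⟩ := Nat.exists_eq_add_of_le hnm
        have := hpair n (2 * Λ + k) (by omega)
        have e1 : n + 2 * Λ + k = n + (2 * Λ + k) := by ring
        rw [e1, ← hφ.even, neg_sub]
        exact this)
    refine hds.trans ?_
    have h8 : K2 * u ≤ ε / 2 := by linarith
    have h9 : (4 * (Λ : ℝ)) ≤ ε / 2 * ((M : ℝ) * a ^ 2) := by
      have h10 : 4 * (Λ : ℝ) ≤ 45 * v ^ 5 := by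
        calc 4 * (Λ : ℝ) ≤ 4 * (4 * v ^ 4) := by linarith
          _ = 16 * v ^ 4 * 1 := by ring
          _ ≤ 45 * v ^ 4 * v := by
              apply mul_le_mul _ (by linarith) (by norm_num) (by positivity)
              have : 0 ≤ v ^ 4 := by positivity
              linarith
          _ = 45 * v ^ 5 := by ring
      linarith
    exact alg2 M (a ^ 2) a K2 ε ε₀ Λ u hMpos.le rfl h8 hεε h9
  · intro n _ m _ hnm heq
    have h2 := sep h1 x hD.x1 Λ n m hnm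
    have heq' : x * β ^ (Λ + n) = x * β ^ (Λ + m) := heq
    rw [heq', sub_self, abs_zero] at h2
    have : 0 < (1 - β⁻¹) * β ^ m := by positivity
    linarith
  · exact sepsum h1 x hD.x1 Λ M

end Crest.Agent.BC
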