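import Crest.Agent.BCDefs

set_option autoImplicit false

namespace Crest.Agent.BC

open Finset MeasureTheory Filter

namespace Iter

variable {β : ℝ}

theorem nx_pow8 {s : ℝ} (hs : 0 < s) : nx (s ^ 8) = s ^ 20 := by
  unfold nx
  have h : Real.sqrt (s ^ 8) = s ^ 4 := by
    rw [show s ^ 8 = (s ^ 4) ^ 2 by ring, Real.sqrt_sq (by positivity)]
  rw [h]; ring

theorem sqrt_pow8 {s : ℝ} (hs : 0 < s) : Real.sqrt (s ^ 8) = s ^ 4 := by
  rw [show s ^ 8 = (s ^ 4) ^ 2 by ring, Real.sqrt_sq (by positivity)]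

theorem nx_pow20 {s : ℝ} (hs : 0 < s) : nx (s ^ 20) = s ^ 50 := by
  unfold nx
  have h : Real.sqrt (s ^ 20) = s ^ 10 := by
    rw [show s ^ 20 = (s ^ 10) ^ 2 by ring, Real.sqrt_sq (by positivity)]
  rw [h]; ring

theorem sqrt_pow20 {s : ℝ} (hs : 0 < s) : Real.sqrt (s ^ 20) = s ^ 10 := by
  rw [show s ^ 20 = (s ^ 10) ^ 2 by ring, Real.sqrt_sq (by positivity)]

/-- β > 1: property of `TT` -/
theorem TT_spec (h1 : 1 < β) (R : ℝ) (hR : 0 < R) :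
    (β⁻¹) ^ (TT β R) ≤ (1 - β⁻¹) * nx R := by
  have hβ0 : 0 < β := by linarith
  have hlt : β⁻¹ < 1 := inv_lt_one_of_one_lt₀ h1
  have hnx : 0 < nx R := by unfold nx; positivity
  have hy : 0 < (1 - β⁻¹) * nx R := mul_pos (by linarith) hnx
  have h2 : Real.logb β (1 / ((1 - β⁻¹) * nx R)) ≤ (TT β R : ℝ) := Nat.le_ceil _
  rw [Real.logb_le_iff_le_rpow h1 (by positivity), Real.rpow_natCast] at h2
  rw [inv_pow, ← one_div]
  rw [div_le_iff₀ hy] at h2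
  rw [div_le_iff₀ (by positivity)]
  linarith

/-- the constant `K'` -/
noncomputable def KK (β : ℝ) : ℝ := 50 / Real.log β + (-Real.log (1 - β⁻¹)) / Real.log β + 1

theorem KK_pos (h1 : 1 < β) : 0 < KK β := by
  have hβ0 : 0 < β := by linarith
  have hlt : β⁻¹ < 1 := inv_lt_one_of_one_lt₀ h1
  have hlog : 0 < Real.log β := Real.log_pos h1
  have hp : 0 < 1 - β⁻¹ := by linarith
  have hp1 : 1 - β⁻¹ ≤ 1 := by
    have : 0 < β⁻¹ := by positivity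
    linarith
  have h2 : Real.log (1 - β⁻¹) ≤ 0 := Real.log_nonpos hp.le hp1
  have h3 : 0 ≤ (-Real.log (1 - β⁻¹)) / Real.log β := div_nonneg (by linarith) hlog.le
  unfold KK
  positivity

theorem TT_bound (h1 : 1 < β) {s : ℝ} (hs : 0 < s) (hs1 : s ≤ 1) :
    (TT β (s ^ 20) : ℝ) * s ≤ KK β := by
  have hβ0 : 0 < β := by linarith
  have hlt : β⁻¹ < 1 := inv_lt_one_of_one_lt₀ h1
  have hlog : 0 < Real.log β := Real.log_pos h1
  have hp : 0 < 1 - β⁻¹ := by linarith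
  have hp1 : 1 - β⁻¹ ≤ 1 := by
    have : 0 < β⁻¹ := by positivity
    linarith
  have hl : Real.log (1 - β⁻¹) ≤ 0 := Real.log_nonpos hp.le hp1
  unfold TT
  rw [nx_pow20 hs]
  have hs50 : s ^ 50 ≤ 1 := pow_le_one₀ hs.le hs1
  have hy : 0 < (1 - β⁻¹) * s ^ 50 := mul_pos hp (by positivity)
  have hge1 : 1 ≤ 1 / ((1 - β⁻¹) * s ^ 50) := by
    rw [le_div_iff₀ hy, one_mul]
    calc (1 - β⁻¹) * s ^ 50 ≤ 1 * 1 := mul_le_mul hp1 hs50 (by positivity) (by norm_num)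
      _ = 1 := one_mul 1
  have hnn : 0 ≤ Real.logb β (1 / ((1 - β⁻¹) * s ^ 50)) := Real.logb_nonneg h1 hge1
  have h3 := (Nat.ceil_lt_add_one hnn).le
  have h4 : Real.logb β (1 / ((1 - β⁻¹) * s ^ 50)) =
      (-Real.log (1 - β⁻¹) - 50 * Real.log s) / Real.log β := by
    unfold Real.logb
    rw [Real.log_div one_ne_zero hy.ne', Real.log_one, Real.log_mul hp.ne' (by positivity),
      Real.log_pow]
    push_cast
    ring
  rw [h4] at h3
  have h5 : -Real.log s ≤ 1 / s := by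
    have := Real.log_le_sub_one_of_pos (show 0 < 1 / s by positivity)
    rw [one_div, Real.log_inv] at this
    rw [one_div]
    linarith
  have h6 : (-Real.log s) * s ≤ 1 := by
    have := mul_le_mul_of_nonneg_right h5 hs.le
    rwa [one_div, inv_mul_cancel₀ hs.ne'] at this
  calc (⌈Real.logb β (1 / ((1 - β⁻¹) * s ^ 50))⌉₊ : ℝ) * s
      ≤ ((-Real.log (1 - β⁻¹) - 50 * Real.log s) / Real.log β + 1) * s := by
        apply mul_le_mul_of_nonneg_right _ hs.le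
        rw [h4]; exact h3
    _ = (-Real.log (1 - β⁻¹)) / Real.log β * s + 50 / Real.log β * ((-Real.log s) * s) + s := by
        ring
    _ ≤ (-Real.log (1 - β⁻¹)) / Real.log β * 1 + 50 / Real.log β * 1 + 1 := by
        have a1 : (-Real.log (1 - β⁻¹)) / Real.log β * s ≤ (-Real.log (1 - β⁻¹)) / Real.log β * 1 :=
          mul_le_mul_of_nonneg_left hs1 (div_nonneg (by linarith) hlog.le)
        have a2 : 50 / Real.log β * ((-Real.log s) * s) ≤ 50 / Real.log β * 1 :=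
          mul_le_mul_of_nonneg_left h6 (by positivity)
        linarith
    _ = KK β := by unfold KK; ring

theorem norm_one_sub_pow_mul {ζ : ℂ} (hζ : ‖ζ‖ = 1) (d m : ℕ) :
    ‖1 - ζ ^ (m * d)‖ ≤ m * ‖1 - ζ ^ d‖ := by
  induction m with
  | zero => simp
  | succ m ih =>
    have h : 1 - ζ ^ ((m + 1) * d) = (1 - ζ ^ (m * d)) + ζ ^ (m * d) * (1 - ζ ^ d) := by
      rw [Nat.succ_mul, pow_add]; ring
    rw [h]
    refine (norm_add_le _ _).trans ?_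
    rw [norm_mul, norm_pow, hζ, one_pow, one_mul]
    push_cast
    linarith

/-- the threshold for `s` -/
noncomputable def s₀ (β : ℝ) : ℝ := 1 / (100 * (1 + KK β))

theorem s₀_pos (h1 : 1 < β) : 0 < s₀ β := by
  have := KK_pos h1
  unfold s₀; positivity

theorem s₀_le (h1 : 1 < β) : s₀ β ≤ 1 / 100 := by
  have := KK_pos h1
  unfold s₀
  apply one_div_le_one_div_of_le (by norm_num)
  linarith

theorem KK_s₀ (h1 : 1 < β) : KK β * s₀ β ≤ 1 / 100 := by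
  have := KK_pos h1
  unfold s₀
  rw [mul_one_div, div_le_div_iff₀ (by positivity) (by norm_num)]
  linarith

theorem one_step (hS : StepStmt) (h1 : 1 < β) (hβ : IsIntegral ℤ β) (hβi : IsIntegral ℤ β⁻¹)
    {ζ : ℂ} (hζ : ‖ζ‖ = 1) {φ : ℝ → ℝ} {C : ℝ} (hCF : CF β φ C) {D : ℕ → ℕ} (hD : DirProp ζ D)
    {x w : ℝ} {z : ℂ} {H : ℕ} {s μ g c : ℝ} (hs : 0 < s) (hI : Inv β ζ φ D x w z H (s ^ 8) μ g c)
    (hμ : 0 < μ) (hsle : s ≤ s₀ β) (hc : c * s ^ 4 ≤ (s₀ β) ^ 8) (hsμ : s ^ 4 ≤ (s₀ β) ^ 8 * μ) :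
    ∃ (x' w' : ℝ) (z' : ℂ) (H' : ℕ) (c' : ℝ),
      Inv β ζ φ D x' w' z' H' (s ^ 20) (μ - 20 * s ^ 20) (Real.exp (-1000) * g ^ 2) c' ∧
      c' * s ^ 10 ≤ (s₀ β) ^ 8 ∧ s ^ 10 ≤ (s₀ β) ^ 8 * (μ - 20 * s ^ 20) ∧
      0 < μ - 20 * s ^ 20 ∧ (H' : ℝ) ≤ 3 / s ^ 16 := by
  have hβ0 : 0 < β := by linarith
  have hlt : β⁻¹ < 1 := inv_lt_one_of_one_lt₀ h1
  have hβi0 : 0 < β⁻¹ := by positivity
  have ht0 := s₀_pos h1
  have ht1 := s₀_le h1
  have hKs := KK_s₀ h1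
  have hK := KK_pos h1
  set t := s₀ β with ht
  have hs100 : s ≤ 1 / 100 := hsle.trans ht1
  have hs1 : s ≤ 1 := by linarith
  have ht8 : t ^ 8 ≤ 1 / 10000 := by
    calc t ^ 8 ≤ (1 / 100) ^ 8 := pow_le_pow_left₀ ht0.le ht1 8
      _ ≤ 1 / 10000 := by norm_num
  have hs4 : s ^ 4 ≤ 1 / 10000 := by
    calc s ^ 4 ≤ (1 / 100) ^ 4 := pow_le_pow_left₀ hs.le hs100 4
      _ ≤ 1 / 10000 := by norm_num
  have hs4' : 0 < s ^ 4 := by positivity
  have hs16 : 0 < s ^ 16 := by positivity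
  have hs16' : s ^ 16 ≤ 1 / 10000 := by
    calc s ^ 16 ≤ (1 / 100) ^ 16 := pow_le_pow_left₀ hs.le hs100 16
      _ ≤ 1 / 10000 := by norm_num
  have hs20 : 0 < s ^ 20 := by positivity
  have hs8 : s ^ 8 ≤ t ^ 8 := pow_le_pow_left₀ hs.le hsle 8
  have hs80 : 0 < s ^ 8 := by positivity
  obtain ⟨hdat, -, hc0, hg0, hcD, hHN⟩ := hI
  set N := NN (s ^ 8) with hN
  have hNeq : 1 / (s ^ 8) ^ 2 = 1 / s ^ 16 := by rw [← pow_mul]
  have hNfl : (N : ℝ) ≤ 1 / s ^ 16 := by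
    rw [hN]; unfold NN; rw [hNeq]
    exact Nat.floor_le (by positivity)
  have hNfl2 : 1 / s ^ 16 ≤ (N : ℝ) + 1 := by
    rw [hN]; unfold NN; rw [hNeq]
    exact (Nat.lt_floor_add_one _).le
  have hN1 : 1 ≤ N := by
    rw [hN]; unfold NN; rw [hNeq]
    apply Nat.le_floor
    rw [Nat.cast_one, le_div_iff₀ hs16]
    linarith
  obtain ⟨hD1, hD2, hD3⟩ := hD.1 N hN1
  set d := D N with hd
  set T := TT β (s ^ 8) with hT
  set ℓ := 2 * (H + T) with hℓ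
  set m := ℓ / d + 1 with hm
  set j := m * d with hj
  have hj1 : ℓ ≤ j := by
    rw [hj, hm]
    calc ℓ ≤ d * (ℓ / d + 1) := by
          have := Nat.lt_mul_div_succ ℓ hD1
          omega
      _ = _ := by ring
  have hj2 : j ≤ ℓ + d := by
    rw [hj, hm, Nat.add_mul, one_mul]
    have := Nat.div_mul_le_self ℓ d
    omega
  have hd1 : (1 : ℝ) ≤ (d : ℝ) := by exact_mod_cast hD1
  have hd0 : (0 : ℝ) < (d : ℝ) := by linarith
  have hℓc : (ℓ : ℝ) ≤ c * d := by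
    rw [hℓ]; push_cast; exact hcD
  have hmc : (m : ℝ) ≤ c + 1 := by
    rw [hm]; push_cast
    have h2 : ((ℓ / d : ℕ) : ℝ) ≤ (ℓ : ℝ) / d := Nat.cast_div_le
    have h3 : (ℓ : ℝ) / d ≤ c := by rw [div_le_iff₀ hd0]; exact hℓc
    linarith
  have hTs : (β⁻¹) ^ T ≤ (1 - β⁻¹) * s ^ 20 := by
    have := TT_spec h1 (s ^ 8) hs80
    rwa [nx_pow8 hs] at this
  have hs20' : s ^ 20 ≤ 1 / 10000 := by
    calc s ^ 20 ≤ (1 / 100) ^ 20 := pow_le_pow_left₀ hs.le hs100 20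
      _ ≤ 1 / 10000 := by norm_num
  have hβT : 2 ≤ β ^ T := by
    have h2 : (β⁻¹) ^ T ≤ 1 / 2 := by
      refine hTs.trans ?_
      nlinarith
    rw [inv_pow] at h2
    have h3 : 0 < β ^ T := by positivity
    rw [inv_le_comm₀ h3 (by norm_num)] at h2
    simpa using h2
  have hβj : 2 ≤ β ^ j := by
    refine hβT.trans (pow_le_pow_right₀ h1.le ?_)
    omega
  have hjN : j ≤ 2 * N := by omega
  have hpi := Real.pi_lt_four
  have hpi0 := Real.pi_pos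
  have hnorm : s ^ 8 * ‖1 - ζ ^ j‖ ≤ s ^ 20 := by
    have h2 : ‖1 - ζ ^ j‖ ≤ (c + 1) * (2 * Real.pi * s ^ 16) := by
      refine (norm_one_sub_pow_mul hζ d m).trans ?_
      apply mul_le_mul hmc _ (norm_nonneg _) (by linarith)
      refine hD3.trans ?_
      rw [div_le_iff₀ (by positivity)]
      have h3 : 1 ≤ s ^ 16 * ((N : ℝ) + 1) := by
        rw [div_le_iff₀ hs16] at hNfl2
        linarith
      nlinarith
    have h3 : (c + 1) * s ^ 4 * (2 * Real.pi) ≤ 1 := by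
      have : (c + 1) * s ^ 4 ≤ 2 / 10000 := by linarith
      nlinarith
    calc s ^ 8 * ‖1 - ζ ^ j‖ ≤ s ^ 8 * ((c + 1) * (2 * Real.pi * s ^ 16)) :=
          mul_le_mul_of_nonneg_left h2 hs80.le
      _ = s ^ 20 * ((c + 1) * s ^ 4 * (2 * Real.pi)) := by ring
      _ ≤ s ^ 20 * 1 := mul_le_mul_of_nonneg_left h3 hs20.le
      _ = s ^ 20 := mul_one _
  set N' := NN (s ^ 20) with hN'
  have hN'eq : 1 / (s ^ 20) ^ 2 = 1 / s ^ 40 := by rw [← pow_mul]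
  have hN'R : (N' : ℝ) * (s ^ 20) ^ 2 ≤ 1 := by
    have h2 : (N' : ℝ) ≤ 1 / (s ^ 20) ^ 2 := by
      rw [hN']; unfold NN; exact Nat.floor_le (by positivity)
    rwa [le_div_iff₀ (by positivity)] at h2
  have h20 : s ^ 20 ≤ s ^ 4 * s ^ 16 := by rw [← pow_add]
  have hμ100 : 100 * ((N : ℝ) + 1) * s ^ 20 ≤ μ := by
    have h2 : (N : ℝ) * s ^ 16 ≤ 1 := by rwa [le_div_iff₀ hs16] at hNfl
    have h3 : 100 * ((N : ℝ) + 1) * s ^ 20 = 100 * ((N : ℝ) * s ^ 16 + s ^ 16) * s ^ 4 := by ring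
    rw [h3]
    have h4 : 100 * ((N : ℝ) * s ^ 16 + s ^ 16) ≤ 200 := by linarith
    calc 100 * ((N : ℝ) * s ^ 16 + s ^ 16) * s ^ 4 ≤ 200 * s ^ 4 :=
          mul_le_mul_of_nonneg_right h4 hs4'.le
      _ ≤ 200 * (t ^ 8 * μ) := by linarith
      _ ≤ μ := by nlinarith
  have hdat' := hS β ζ φ C h1 hβ hβi hζ hCF x w z H N (s ^ 8) μ g hdat hμ hg0.le j T N' (s ^ 20)
    hs20 hj1 hjN hβj hTs hnorm hN'R hμ100
  -- new constant
  set T' := TT β (s ^ 20) with hT'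
  have hT'b : (T' : ℝ) * s ≤ KK β := TT_bound h1 hs hs1
  have hj2' : (j : ℝ) ≤ (ℓ : ℝ) + d := by exact_mod_cast hj2
  have hNN' : N ≤ N' := by
    rw [hN, hN']; unfold NN
    rw [hNeq, hN'eq]
    apply Nat.floor_mono
    apply one_div_le_one_div_of_le (by positivity)
    exact pow_le_pow_of_le_one hs.le hs1 (by norm_num)
  have hDle : d ≤ D N' := hD.2 N N' hN1 hNN'
  have hDle' : (d : ℝ) ≤ (D N' : ℝ) := by exact_mod_cast hDle
  have hH0 : (0 : ℝ) ≤ H := Nat.cast_nonneg _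
  have hT0 : (0 : ℝ) ≤ T := Nat.cast_nonneg _
  have hT'0 : (0 : ℝ) ≤ T' := Nat.cast_nonneg _
  have hHc : 2 * (H : ℝ) ≤ c * d := by linarith
  have hHj : (H : ℝ) + j ≤ 5 / 2 / s ^ 16 := by
    have h2 : 2 * (H : ℝ) ≤ N := by
      have : 2 * H ≤ N := by omega
      exact_mod_cast this
    have h3 : (j : ℝ) ≤ 2 * N := by exact_mod_cast hjN
    calc (H : ℝ) + j ≤ 5 / 2 * N := by linarith
      _ ≤ 5 / 2 * (1 / s ^ 16) := by linarith
      _ = 5 / 2 / s ^ 16 := by ring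
  have hμ20 : 20 * s ^ 20 ≤ μ / 2 := by
    have h2 : s ^ 20 ≤ s ^ 4 * 1 := by
      refine h20.trans (mul_le_mul_of_nonneg_left (by linarith) hs4'.le)
    nlinarith
  refine ⟨_, _, _, H + j, 3 * c + 2 + 2 * T', ⟨hdat', hs20, by positivity, by positivity, ?_, ?_⟩,
    ?_, ?_, by linarith, ?_⟩
  · push_cast
    calc 2 * ((H : ℝ) + j + T') ≤ (3 * c + 2 + 2 * T') * d := by nlinarith
      _ ≤ _ := mul_le_mul_of_nonneg_left hDle' (by positivity)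
  · change 2 * (H + j + T') ≤ NN (s ^ 20)
    unfold NN
    rw [hN'eq]
    apply Nat.le_floor
    push_cast
    have h2 : (T' : ℝ) ≤ 1 / s ^ 16 := by
      rw [le_div_iff₀ hs16]
      have h3 : (T' : ℝ) * s ^ 16 = ((T' : ℝ) * s) * s * s ^ 14 := by ring
      have h4 : KK β * s ≤ 1 := by
        have := mul_le_mul_of_nonneg_left hsle hK.le
        linarith
      have h5 : ((T' : ℝ) * s) * s ≤ 1 := (mul_le_mul_of_nonneg_right hT'b hs.le).trans h4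
      have h6 : s ^ 14 ≤ 1 := pow_le_one₀ hs.le hs1
      rw [h3]
      calc ((T' : ℝ) * s) * s * s ^ 14 ≤ 1 * 1 :=
            mul_le_mul h5 h6 (by positivity) (by norm_num)
        _ = 1 := one_mul 1
    have h3 : (7 : ℝ) / s ^ 16 ≤ 1 / s ^ 40 := by
      rw [div_le_div_iff₀ hs16 (by positivity)]
      have : s ^ 24 ≤ 1 / 7 := by
        calc s ^ 24 ≤ (1 / 100) ^ 24 := pow_le_pow_left₀ hs.le hs100 24
          _ ≤ 1 / 7 := by norm_num
      calc 7 * s ^ 40 = (7 * s ^ 24) * s ^ 16 := by ring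
        _ ≤ 1 * s ^ 16 := mul_le_mul_of_nonneg_right (by linarith) hs16.le
    have h4 : 2 * (5 / 2 / s ^ 16) + 2 * (1 / s ^ 16) = 7 / s ^ 16 := by ring
    linarith
  · have h2 : (3 * c + 2 + 2 * (T' : ℝ)) * s ^ 10 =
        3 * (c * s ^ 4) * s ^ 6 + s ^ 8 * (2 * s ^ 2 + 2 * (((T' : ℝ) * s) * s)) := by ring
    rw [h2]
    have h3 : KK β * s ≤ 1 / 100 := (mul_le_mul_of_nonneg_left hsle hK.le).trans hKs
    have h5 : ((T' : ℝ) * s) * s ≤ 1 / 100 := (mul_le_mul_of_nonneg_right hT'b hs.le).trans h3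
    have h6 : s ^ 6 ≤ 1 / 100 := by
      calc s ^ 6 ≤ (1 / 100) ^ 6 := pow_le_pow_left₀ hs.le hs100 6
        _ ≤ 1 / 100 := by norm_num
    have h7 : s ^ 2 ≤ 1 / 100 := by
      calc s ^ 2 ≤ (1 / 100) ^ 2 := pow_le_pow_left₀ hs.le hs100 2
        _ ≤ 1 / 100 := by norm_num
    have h8 : 0 < t ^ 8 := by positivity
    have h9 : 3 * (c * s ^ 4) * s ^ 6 ≤ 3 * t ^ 8 * (1 / 100) :=
      mul_le_mul (by linarith) h6 (by positivity) (by positivity)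
    have h10 : s ^ 8 * (2 * s ^ 2 + 2 * (((T' : ℝ) * s) * s)) ≤ t ^ 8 * (4 / 100) := by
      apply mul_le_mul hs8 (by linarith) (by positivity) h8.le
    linarith
  · have h2 : s ^ 10 = s ^ 6 * s ^ 4 := by ring
    have h6 : s ^ 6 ≤ 1 / 2 := by
      calc s ^ 6 ≤ (1 / 100) ^ 6 := pow_le_pow_left₀ hs.le hs100 6
        _ ≤ 1 / 2 := by norm_num
    have h8 : 0 < t ^ 8 := by positivity
    calc s ^ 10 = s ^ 6 * s ^ 4 := h2
      _ ≤ 1 / 2 * (t ^ 8 * μ) := mul_le_mul h6 hsμ hs4'.le (by norm_num)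
      _ = t ^ 8 * (μ / 2) := by ring
      _ ≤ t ^ 8 * (μ - 20 * s ^ 20) := mul_le_mul_of_nonneg_left (by linarith) h8.le
  · push_cast
    refine hHj.trans ?_
    apply div_le_div_of_nonneg_right (by norm_num) hs16.le

theorem iterate (hS : StepStmt) (h1 : 1 < β) (hβ : IsIntegral ℤ β) (hβi : IsIntegral ℤ β⁻¹)
    {ζ : ℂ} (hζ : ‖ζ‖ = 1) {φ : ℝ → ℝ} {C : ℝ} (hCF : CF β φ C) {D : ℕ → ℕ} (hD : DirProp ζ D)
    {x w : ℝ} {z : ℂ} {H : ℕ} {s μ g c : ℝ} (hs : 0 < s) (hI : Inv β ζ φ D x w z H (s ^ 8) μ g c)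
    (hμ : 0 < μ) (hsle : s ≤ s₀ β) (hc : c * s ^ 4 ≤ (s₀ β) ^ 8) (hsμ : s ^ 4 ≤ (s₀ β) ^ 8 * μ)
    (k : ℕ) :
    ∃ (x' w' : ℝ) (z' : ℂ) (H' : ℕ) (s' μ' g' c' : ℝ), 0 < s' ∧
      Inv β ζ φ D x' w' z' H' (s' ^ 8) μ' g' c' ∧ 0 < μ' ∧ s' ≤ s₀ β ∧ c' * s' ^ 4 ≤ (s₀ β) ^ 8 ∧
      s' ^ 4 ≤ (s₀ β) ^ 8 * μ' ∧ μ / 2 + 40 * s' ^ 8 ≤ μ' ∧
      -Real.log s' = (5 / 2) ^ k * (-Real.log s) ∧
      1000 - Real.log g' = 2 ^ k * (1000 - Real.log g) ∧
      (1 ≤ k → (H' : ℝ) ≤ 3 * (s' ^ 8) ^ (-(4 / 5) : ℝ)) := by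
  have ht0 := s₀_pos h1
  have ht1 := s₀_le h1
  induction k with
  | zero =>
    refine ⟨x, w, z, H, s, μ, g, c, hs, hI, hμ, hsle, hc, hsμ, ?_, by simp, by simp, by simp⟩
    have ht8 : (s₀ β) ^ 8 ≤ 1 / 10000 := by
      calc (s₀ β) ^ 8 ≤ (1 / 100) ^ 8 := pow_le_pow_left₀ ht0.le ht1 8
        _ ≤ 1 / 10000 := by norm_num
    have hs1 : s ^ 4 ≤ 1 := pow_le_one₀ hs.le (by linarith)
    have : s ^ 8 ≤ s ^ 4 * 1 := by
      calc s ^ 8 = s ^ 4 * s ^ 4 := by ring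
        _ ≤ s ^ 4 * 1 := mul_le_mul_of_nonneg_left hs1 (by positivity)
    nlinarith
  | succ k ih =>
    obtain ⟨x', w', z', H', s', μ', g', c', hs', hI', hμ', hsle', hc', hsμ', a1, a2, a3, -⟩ := ih
    obtain ⟨x'', w'', z'', H'', c'', b1, b2, b3, b4, b5⟩ :=
      one_step hS h1 hβ hβi hζ hCF hD hs' hI' hμ' hsle' hc' hsμ'
    have hs1' : s' ≤ 1 / 100 := hsle'.trans ht1
    set r := s' ^ 2 * Real.sqrt s' with hr
    have hr0 : 0 < r := by positivity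
    have hq : Real.sqrt s' ^ 2 = s' := Real.sq_sqrt hs'.le
    have hr4 : r ^ 4 = s' ^ 10 := by
      calc r ^ 4 = s' ^ 8 * (Real.sqrt s' ^ 2) ^ 2 := by rw [hr]; ring
        _ = s' ^ 10 := by rw [hq]; ring
    have hr8 : r ^ 8 = s' ^ 20 := by
      calc r ^ 8 = (r ^ 4) ^ 2 := by ring
        _ = s' ^ 20 := by rw [hr4]; ring
    have hrle : r ≤ s' := by
      have h2 : Real.sqrt s' ≤ 1 := by
        have h3 : Real.sqrt s' ≤ Real.sqrt 1 := Real.sqrt_le_sqrt (by linarith)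
        rwa [Real.sqrt_one] at h3
      calc r ≤ s' ^ 2 * 1 := mul_le_mul_of_nonneg_left h2 (by positivity)
        _ = s' * s' := by ring
        _ ≤ 1 * s' := mul_le_mul_of_nonneg_right (by linarith) hs'.le
        _ = s' := one_mul _
    refine ⟨x'', w'', z'', H'', r, μ' - 20 * s' ^ 20, Real.exp (-1000) * g' ^ 2, c'', hr0,
      by rw [hr8]; exact b1, b4, hrle.trans hsle', by rw [hr4]; exact b2, by rw [hr4]; exact b3,
      ?_, ?_, ?_, ?_⟩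
    · rw [hr8]
      have h2 : s' ^ 20 ≤ s' ^ 8 * (1 / 10000) := by
        calc s' ^ 20 = s' ^ 8 * s' ^ 12 := by ring
          _ ≤ s' ^ 8 * (1 / 10000) := by
              apply mul_le_mul_of_nonneg_left _ (by positivity)
              calc s' ^ 12 ≤ (1 / 100) ^ 12 := pow_le_pow_left₀ hs'.le hs1' 12
                _ ≤ 1 / 10000 := by norm_num
      have h3 : 0 < s' ^ 8 := by positivity
      linarith
    · rw [hr, Real.log_mul (by positivity) (by positivity), Real.log_pow, Real.log_sqrt hs'.le,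
        pow_succ]
      have : -((2 : ℕ) * Real.log s' + Real.log s' / 2) = (5 / 2) * (-Real.log s') := by
        push_cast; ring
      rw [this, a2]; ring
    · rw [Real.log_mul (Real.exp_pos _).ne' (by have := hI'.g0; positivity), Real.log_exp,
        Real.log_pow, pow_succ]
      push_cast
      linarith
    · intro _
      rw [hr8]
      refine b5.trans (le_of_eq ?_)
      rw [← Real.rpow_natCast, ← Real.rpow_natCast, ← Real.rpow_mul hs'.le]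
      have : ((20 : ℕ) : ℝ) * -(4 / 5) = -((16 : ℕ) : ℝ) := by norm_num
      rw [this, Real.rpow_neg hs'.le, div_eq_mul_inv]

end Iter

open Iter in
theorem iter : IterStmt := by
  intro hS β ζ φ C D h1 hβ hβi hζ hCF hD
  refine ⟨(s₀ β) ^ 8, pow_pos (s₀_pos h1) 8, ?_⟩
  intro x w z H R μ g c hI hμ hR hc hRμ η hη R₁ hR₁
  have ht0 := s₀_pos h1
  have ht1 := s₀_le h1
  have hR0 := hI.R0
  obtain ⟨s, hs, hsR⟩ : ∃ s : ℝ, 0 < s ∧ s ^ 8 = R := by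
    refine ⟨R ^ (1 / 8 : ℝ), by positivity, ?_⟩
    rw [← Real.rpow_natCast, ← Real.rpow_mul hR0.le]
    norm_num
  subst hsR
  rw [sqrt_pow8 hs] at hc hRμ
  have hsle : s ≤ s₀ β := le_of_pow_le_pow_left₀ (by norm_num) ht0.le hR
  have hs1 : s ≤ 1 / 100 := hsle.trans ht1
  have hL : 0 < -Real.log s := by
    have := Real.log_neg hs (by linarith)
    linarith
  set L := -Real.log s with hLdef
  set G := 1000 - Real.log g with hG
  obtain ⟨k, hk⟩ : ∃ k : ℕ, |G| / (8 * η * L) + |Real.log R₁| / (8 * L) < (5 / 4 : ℝ) ^ k :=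
    pow_unbounded_of_one_lt _ (by norm_num)
  -- use k + 1
  have hk1 : |G| / (8 * η * L) ≤ (5 / 4 : ℝ) ^ (k + 1) := by
    have : (5 / 4 : ℝ) ^ k ≤ (5 / 4 : ℝ) ^ (k + 1) := pow_le_pow_right₀ (by norm_num) (by omega)
    have h2 : 0 ≤ |Real.log R₁| / (8 * L) := by positivity
    linarith
  have hk2 : |Real.log R₁| / (8 * L) ≤ (5 / 4 : ℝ) ^ (k + 1) := by
    have : (5 / 4 : ℝ) ^ k ≤ (5 / 4 : ℝ) ^ (k + 1) := pow_le_pow_right₀ (by norm_num) (by omega)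
    have h2 : 0 ≤ |G| / (8 * η * L) := by positivity
    linarith
  rw [div_le_iff₀ (by positivity)] at hk1 hk2
  obtain ⟨x', w', z', H', s', μ', g', c', hs', hI', hμ', hsle', hc', hsμ', a1, a2, a3, a4⟩ :=
    iterate hS h1 hβ hβi hζ hCF hD hs hI hμ hsle hc hRμ (k + 1)
  have hlogR : Real.log (s' ^ 8) = -(8 * ((5 / 2) ^ (k + 1) * L)) := by
    rw [Real.log_pow, ← a2]; push_cast; ring
  have hpow : (5 / 2 : ℝ) ^ (k + 1) = 2 ^ (k + 1) * (5 / 4) ^ (k + 1) := by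
    rw [← mul_pow]; norm_num
  have h2k : (1 : ℝ) ≤ 2 ^ (k + 1) := one_le_pow₀ (by norm_num)
  have h54 : (0 : ℝ) < (5 / 4) ^ (k + 1) := by positivity
  have hs8 : 0 < s' ^ 8 := by positivity
  have hg' := hI'.g0
  refine ⟨x', w', z', H', s' ^ 8, g', ⟨hI'.dat.pt, hI'.dat.x1, hI'.dat.zR, hI'.dat.xH, hI'.dat.wH,
    fun i => ?_, hI'.dat.gg⟩, hs8, ?_, ?_, a4 (by omega)⟩
  · have hle : μ / 2 ≤ μ' := by linarith
    exact ⟨hle.trans (hI'.dat.mu i).1, hle.trans (hI'.dat.mu i).2⟩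
  · rw [← Real.log_le_log_iff hs8 hR₁, hlogR]
    have h2 : -|Real.log R₁| ≤ Real.log R₁ := neg_abs_le _
    have h3 : (5 / 4 : ℝ) ^ (k + 1) * (8 * L) ≤ 8 * ((5 / 2) ^ (k + 1) * L) := by
      rw [hpow]
      have : 0 < (5 / 4 : ℝ) ^ (k + 1) * (8 * L) := by positivity
      nlinarith
    linarith
  · rw [← Real.log_le_log_iff (by positivity) hg', Real.log_rpow hs8, hlogR]
    have h2 : G ≤ |G| := le_abs_self _
    have h3 : G ≤ (5 / 4 : ℝ) ^ (k + 1) * (8 * η * L) := h2.trans hk1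
    have h4 : 2 ^ (k + 1) * G ≤ 2 ^ (k + 1) * ((5 / 4 : ℝ) ^ (k + 1) * (8 * η * L)) :=
      mul_le_mul_of_nonneg_left h3 (by positivity)
    rw [hpow]
    nlinarith

end Crest.Agent.BC
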