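import Crest.Agent.BCDefs

set_option autoImplicit false

namespace Crest.Agent.BC

open Finset MeasureTheory Filter

namespace Pert

theorem prod_one_sub_ge {ι : Type*} (s : Finset ι) (u : ι → ℝ) (h0 : ∀ i ∈ s, 0 ≤ u i)
    (h1 : ∀ i ∈ s, u i ≤ 1) : 1 - ∑ i ∈ s, u i ≤ ∏ i ∈ s, (1 - u i) := by
  classical
  induction s using Finset.induction_on with
  | empty => simp
  | insert a s ha ih =>
    rw [Finset.sum_insert ha, Finset.prod_insert ha]
    have ih' := ih (fun i hi => h0 i (Finset.mem_insert_of_mem hi))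
      (fun i hi => h1 i (Finset.mem_insert_of_mem hi))
    have ha0 := h0 a (Finset.mem_insert_self _ _)
    have ha1 := h1 a (Finset.mem_insert_self _ _)
    have hs : 0 ≤ ∑ i ∈ s, u i :=
      Finset.sum_nonneg (fun i hi => h0 i (Finset.mem_insert_of_mem hi))
    have hmul := mul_le_mul_of_nonneg_left ih' (sub_nonneg.mpr ha1)
    nlinarith

/-- perturbation of products, lower bound -/
theorem prod_lower {ι : Type*} (s : Finset ι) (A B d : ι → ℝ) (μ : ℝ) (hμ : 0 < μ)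
    (hd : ∀ i ∈ s, 0 ≤ d i) (hB : ∀ i ∈ s, μ ≤ B i) (hA : ∀ i ∈ s, B i - d i ≤ A i)
    (hsum : ∑ i ∈ s, d i ≤ μ / 2) : 1 / 2 * ∏ i ∈ s, B i ≤ ∏ i ∈ s, A i := by
  have hu0 : ∀ i ∈ s, 0 ≤ d i / μ := fun i hi => div_nonneg (hd i hi) hμ.le
  have hle : ∀ i ∈ s, d i ≤ μ / 2 := fun i hi =>
    (Finset.single_le_sum (f := d) (fun k hk => hd k hk) hi).trans hsum
  have hu1 : ∀ i ∈ s, d i / μ ≤ 1 := by
    intro i hi
    rw [div_le_one hμ]
    have := hle i hi
    linarith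
  have h1 := prod_one_sub_ge s (fun i => d i / μ) hu0 hu1
  have h2 : ∑ i ∈ s, d i / μ ≤ 1 / 2 := by
    rw [← Finset.sum_div, div_le_iff₀ hμ]
    linarith
  have hBpos : 0 ≤ ∏ i ∈ s, B i := Finset.prod_nonneg (fun i hi => hμ.le.trans (hB i hi))
  calc 1 / 2 * ∏ i ∈ s, B i ≤ (∏ i ∈ s, (1 - d i / μ)) * ∏ i ∈ s, B i := by
        apply mul_le_mul_of_nonneg_right _ hBpos
        linarith
    _ = ∏ i ∈ s, ((1 - d i / μ) * B i) := by rw [Finset.prod_mul_distrib]
    _ ≤ ∏ i ∈ s, A i := by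
        apply Finset.prod_le_prod
        · intro i hi
          exact mul_nonneg (by have := hu1 i hi; linarith) (hμ.le.trans (hB i hi))
        · intro i hi
          refine le_trans ?_ (hA i hi)
          have h3 : d i ≤ d i / μ * B i := by
            rw [div_mul_eq_mul_div, le_div_iff₀ hμ]
            exact mul_le_mul_of_nonneg_left (hB i hi) (hd i hi)
          linarith

/-- perturbation of products, upper bound -/
theorem prod_upper {ι : Type*} (s : Finset ι) (A B d : ι → ℝ) (μ : ℝ) (hμ : 0 < μ)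
    (hd : ∀ i ∈ s, 0 ≤ d i) (hB : ∀ i ∈ s, μ ≤ B i) (hA0 : ∀ i ∈ s, 0 ≤ A i)
    (hA : ∀ i ∈ s, A i ≤ B i + d i) :
    ∏ i ∈ s, A i ≤ Real.exp ((∑ i ∈ s, d i) / μ) * ∏ i ∈ s, B i := by
  rw [Finset.sum_div, Real.exp_sum, ← Finset.prod_mul_distrib]
  apply Finset.prod_le_prod hA0
  intro i hi
  refine (hA i hi).trans ?_
  have hBp : 0 < B i := lt_of_lt_of_le hμ (hB i hi)
  have h3 : d i ≤ d i / μ * B i := by
    rw [div_mul_eq_mul_div, le_div_iff₀ hμ]
    exact mul_le_mul_of_nonneg_left (hB i hi) (hd i hi)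
  have h4 := Real.add_one_le_exp (d i / μ)
  nlinarith

theorem exp_neg_sq_le_cos (t : ℝ) (ht : |t| ≤ 1) : Real.exp (-t ^ 2) ≤ Real.cos t := by
  have h1 := Real.one_sub_sq_div_two_le_cos (x := t)
  refine le_trans ?_ h1
  have hs0 : 0 ≤ t ^ 2 := sq_nonneg t
  have hs1 : t ^ 2 ≤ 1 := by
    rw [← sq_abs]; exact pow_le_one₀ (abs_nonneg t) ht
  have h2 : Real.exp (-t ^ 2) ≤ 1 / (1 + t ^ 2) := by
    rw [Real.exp_neg, ← one_div]
    apply one_div_le_one_div_of_le (by linarith)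
    have := Real.add_one_le_exp (t ^ 2)
    linarith
  refine h2.trans ?_
  rw [div_le_iff₀ (by linarith)]
  nlinarith

/-- `|cos (2 π X)|` depends only on `X` mod 1 (up to sign). -/
theorem abs_cos_congr (X y : ℝ) (k : ℤ) (h : X = k + y ∨ X = k - y) :
    |Real.cos (2 * Real.pi * X)| = |Real.cos (2 * Real.pi * y)| := by
  rcases h with h | h
  · rw [h]
    have : 2 * Real.pi * ((k : ℝ) + y) = 2 * Real.pi * y + k * (2 * Real.pi) := by ring
    rw [this, Real.cos_add_int_mul_two_pi]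
  · rw [h]
    have : 2 * Real.pi * ((k : ℝ) - y) = -(2 * Real.pi * y) + k * (2 * Real.pi) := by ring
    rw [this, Real.cos_add_int_mul_two_pi, Real.cos_neg]

theorem cos_lip (a b : ℝ) : |Real.cos a - Real.cos b| ≤ |a - b| := by
  rw [Real.cos_sub_cos, abs_mul, abs_mul]
  have h1 : |Real.sin ((a + b) / 2)| ≤ 1 := Real.abs_sin_le_one _
  have h2 : |Real.sin ((a - b) / 2)| ≤ |(a - b) / 2| := Real.abs_sin_le_abs
  have h3 : |(a - b) / 2| = |a - b| / 2 := by rw [abs_div]; norm_num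
  have h4 : |(-2 : ℝ)| = 2 := by norm_num
  rw [h3] at h2
  rw [h4]
  nlinarith [abs_nonneg (Real.sin ((a + b) / 2)), abs_nonneg (Real.sin ((a - b) / 2))]

/-- pointwise perturbation -/
theorem abs_cos_ge (X y δ : ℝ) (k : ℤ) (h : X = k + (y + δ) ∨ X = k - (y + δ)) :
    |Real.cos (2 * Real.pi * y)| - 2 * Real.pi * |δ| ≤ |Real.cos (2 * Real.pi * X)| := by
  rw [abs_cos_congr X (y + δ) k h]
  have h1 := cos_lip (2 * Real.pi * (y + δ)) (2 * Real.pi * y)
  have h2 : |2 * Real.pi * (y + δ) - 2 * Real.pi * y| = 2 * Real.pi * |δ| := by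
    have : 2 * Real.pi * (y + δ) - 2 * Real.pi * y = 2 * Real.pi * δ := by ring
    rw [this, abs_mul, abs_of_pos Real.two_pi_pos]
  rw [h2] at h1
  have h3 := abs_sub_abs_le_abs_sub (Real.cos (2 * Real.pi * y)) (Real.cos (2 * Real.pi * (y + δ)))
  rw [abs_sub_comm] at h3
  linarith

theorem abs_cos_le (X y δ : ℝ) (k : ℤ) (h : X = k + (y + δ) ∨ X = k - (y + δ)) :
    |Real.cos (2 * Real.pi * X)| ≤ |Real.cos (2 * Real.pi * y)| + 2 * Real.pi * |δ| := by
  rw [abs_cos_congr X (y + δ) k h]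
  have h1 := cos_lip (2 * Real.pi * (y + δ)) (2 * Real.pi * y)
  have h2 : |2 * Real.pi * (y + δ) - 2 * Real.pi * y| = 2 * Real.pi * |δ| := by
    have : 2 * Real.pi * (y + δ) - 2 * Real.pi * y = 2 * Real.pi * δ := by ring
    rw [this, abs_mul, abs_of_pos Real.two_pi_pos]
  rw [h2] at h1
  have h3 := abs_sub_abs_le_abs_sub (Real.cos (2 * Real.pi * (y + δ))) (Real.cos (2 * Real.pi * y))
  linarith

/-- near an integer the cosine is close to one -/
theorem abs_cos_near (X y : ℝ) (k : ℤ) (h : X = k + y ∨ X = k - y) (hy : |y| ≤ 1 / 7) :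
    Real.exp (-(40 * y ^ 2)) ≤ |Real.cos (2 * Real.pi * X)| := by
  rw [abs_cos_congr X y k h]
  have hpi := Real.pi_lt_d2
  have hpi0 := Real.pi_gt_three
  have h1 : |2 * Real.pi * y| ≤ 1 := by
    rw [abs_mul, abs_of_pos Real.two_pi_pos]
    nlinarith [abs_nonneg y]
  refine le_trans ?_ ((exp_neg_sq_le_cos _ h1).trans (le_abs_self _))
  apply Real.exp_le_exp.mpr
  have : (2 * Real.pi * y) ^ 2 = 4 * Real.pi ^ 2 * y ^ 2 := by ring
  rw [this]
  have h2 : Real.pi ^ 2 ≤ 10 := by nlinarith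
  have h3 : 0 ≤ y ^ 2 := sq_nonneg y
  nlinarith

/-- product version -/
theorem prod_near {ι : Type*} (s : Finset ι) (A : ι → ℝ) (r : ℝ)
    (hA : ∀ i ∈ s, Real.exp (-r) ≤ A i) : Real.exp (-(s.card * r)) ≤ ∏ i ∈ s, A i := by
  have h1 : Real.exp (-(s.card * r)) = ∏ i ∈ s, Real.exp (-r) := by
    rw [Finset.prod_const, ← Real.exp_nat_mul]
    congr 1; ring
  rw [h1]
  exact Finset.prod_le_prod (fun i _ => (Real.exp_pos _).le) hA

section phi

variable {β C : ℝ} {φ : ℝ → ℝ}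

theorem phi_up (h1 : 1 < β) (h : CF β φ C) (x : ℝ) (m : ℤ) (k : ℕ) :
    φ (x * β ^ (m + k)) =
      φ (x * β ^ m) * ∏ i ∈ range k, Real.cos (2 * Real.pi * (x * β ^ (m + i + 1))) := by
  have hβ0 : β ≠ 0 := by positivity
  induction k with
  | zero => simp
  | succ k ih =>
    rw [Finset.prod_range_succ, ← mul_assoc, ← ih]
    have e1 : x * β ^ (m + ((k + 1 : ℕ) : ℤ)) = β * (x * β ^ (m + (k : ℤ))) := by
      have : m + ((k + 1 : ℕ) : ℤ) = (m + k) + 1 := by push_cast; ring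
      rw [this, zpow_add_one₀ hβ0]; ring
    rw [e1, h.step]
    have e2 : β * (x * β ^ (m + (k : ℤ))) = x * β ^ (m + (k : ℤ) + 1) := by
      rw [zpow_add_one₀ hβ0]; ring
    rw [e2, mul_comm]

theorem phi_mono (h1 : 1 < β) (h : CF β φ C) (x : ℝ) (m n : ℤ) (hmn : m ≤ n) :
    |φ (x * β ^ n)| ≤ |φ (x * β ^ m)| := by
  obtain ⟨k, rfl⟩ := Int.le.dest hmn
  rw [phi_up h1 h, abs_mul, Finset.abs_prod]
  apply mul_le_of_le_one_right (abs_nonneg _)
  apply Finset.prod_le_one (fun i _ => abs_nonneg _)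
  intro i _
  exact Real.abs_cos_le_one _

theorem phi_prod_ge (h1 : 1 < β) (h : CF β φ C) (x : ℝ) (m : ℤ) (k : ℕ) :
    |φ (x * β ^ (m + k))| ≤ ∏ i ∈ range k, |Real.cos (2 * Real.pi * (x * β ^ (m + i + 1)))| := by
  rw [phi_up h1 h, abs_mul, Finset.abs_prod]
  apply mul_le_of_le_one_left _ (h.le_one _)
  exact Finset.prod_nonneg (fun i _ => abs_nonneg _)

theorem phi_tendsto (h1 : 1 < β) (h : CF β φ C) (a : ℝ) :
    Tendsto (fun K : ℕ => |φ (a * β ^ (-(K : ℤ)))|) atTop (nhds 1) := by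
  have hβ0 : 0 < β := by linarith
  have h2 : Tendsto (fun K : ℕ => C * (a * (β⁻¹) ^ K) ^ 2) atTop (nhds 0) := by
    have h3 : Tendsto (fun K : ℕ => (β⁻¹) ^ K) atTop (nhds 0) :=
      tendsto_pow_atTop_nhds_zero_of_lt_one (by positivity) (inv_lt_one_of_one_lt₀ h1)
    have h4 := ((h3.const_mul a).pow 2).const_mul C
    simpa using h4
  have h5 : Tendsto (fun K : ℕ => φ (a * (β⁻¹) ^ K)) atTop (nhds 1) := by
    rw [tendsto_iff_dist_tendsto_zero]
    refine squeeze_zero (fun _ => dist_nonneg) (fun K => ?_) h2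
    rw [Real.dist_eq, abs_sub_comm]
    exact h.near _
  have h6 := h5.abs
  rw [abs_one] at h6
  refine h6.congr (fun K => ?_)
  rw [zpow_neg, zpow_natCast, inv_pow]

theorem geo_sum_le (h1 : 1 < β) (b : ℝ) (K : ℕ) :
    ∑ k ∈ range K, |b| * (β⁻¹) ^ k ≤ |b| / (1 - β⁻¹) := by
  have hβ0 : 0 < β := by linarith
  have hlt : β⁻¹ < 1 := inv_lt_one_of_one_lt₀ h1
  have hpos : 0 < 1 - β⁻¹ := by linarith
  rw [← Finset.mul_sum, div_eq_mul_inv]
  apply mul_le_mul_of_nonneg_left _ (abs_nonneg b)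
  rw [geom_sum_eq hlt.ne]
  have h2 : ((β⁻¹) ^ K - 1) / (β⁻¹ - 1) = (1 - (β⁻¹) ^ K) / (1 - β⁻¹) := by
    rw [← neg_div_neg_eq]; congr 1 <;> ring
  rw [h2, div_le_iff₀ hpos, inv_mul_cancel₀ hpos.ne']
  have : 0 ≤ (β⁻¹) ^ K := by positivity
  linarith

theorem phi_down' (h1 : 1 < β) (h : CF β φ C) (a : ℝ) (K : ℕ) :
    φ a = φ (a * β ^ (-(K : ℤ))) *
      ∏ i ∈ range K, Real.cos (2 * Real.pi * (a * β ^ (-(K : ℤ) + i + 1))) := by
  have := phi_up h1 h a (-(K : ℤ)) K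
  simpa using this

/-- lower bound for `φ (a - b)`, `b` tiny -/
theorem phi_pert_lower (h1 : 1 < β) (h : CF β φ C) (a b μ ρ : ℝ) (hμ : 0 < μ)
    (ha : ∀ i : ℤ, i ≤ 0 → μ ≤ |Real.cos (2 * Real.pi * (a * β ^ i))|)
    (hb : |b| ≤ (1 - β⁻¹) * ρ) (hρ : 2 * Real.pi * ρ ≤ μ / 2) :
    1 / 2 * |φ a| ≤ |φ (a - b)| := by
  have hβ0 : 0 < β := by linarith
  have hlt : β⁻¹ < 1 := inv_lt_one_of_one_lt₀ h1
  have hpos : 0 < 1 - β⁻¹ := by linarith
  have key : ∀ K : ℕ, 1 / 2 * |φ a| * |φ ((a - b) * β ^ (-(K : ℤ)))| ≤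
      |φ (a - b)| * |φ (a * β ^ (-(K : ℤ)))| := by
    intro K
    have e1 := phi_down' h1 h a K
    have e2 := phi_down' h1 h (a - b) K
    have hp : 1 / 2 * ∏ i ∈ range K, |Real.cos (2 * Real.pi * (a * β ^ (-(K : ℤ) + i + 1)))| ≤
        ∏ i ∈ range K, |Real.cos (2 * Real.pi * ((a - b) * β ^ (-(K : ℤ) + i + 1)))| := by
      apply prod_lower (range K) _ _
        (fun i => 2 * Real.pi * |b * β ^ (-(K : ℤ) + i + 1)|) μ hμ
      · intro i _; positivity
      · intro i hi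
        apply ha
        have := Finset.mem_range.mp hi
        omega
      · intro i _
        have := abs_cos_ge ((a - b) * β ^ (-(K : ℤ) + i + 1)) (a * β ^ (-(K : ℤ) + i + 1))
          (-(b * β ^ (-(K : ℤ) + i + 1))) 0 (Or.inl (by push_cast; ring))
        rw [abs_neg] at this
        exact this
      · rw [← Finset.mul_sum]
        have h3 : ∑ i ∈ range K, |b * β ^ (-(K : ℤ) + i + 1)| = ∑ k ∈ range K, |b| * (β⁻¹) ^ k := by
          rw [← Finset.sum_range_reflect]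
          apply Finset.sum_congr rfl
          intro i hi
          have hiK := Finset.mem_range.mp hi
          rw [abs_mul, abs_of_pos (zpow_pos hβ0 _), inv_pow, ← zpow_natCast β i, ← zpow_neg]
          congr 2
          omega
        rw [h3]
        have h4 := geo_sum_le h1 b K
        have h5 : |b| / (1 - β⁻¹) ≤ ρ := by
          rw [div_le_iff₀ hpos]; linarith
        have h6 : 2 * Real.pi * ∑ k ∈ range K, |b| * (β⁻¹) ^ k ≤ 2 * Real.pi * ρ :=
          mul_le_mul_of_nonneg_left (h4.trans h5) Real.two_pi_pos.le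
        linarith
    rw [e1, e2, abs_mul, abs_mul, Finset.abs_prod, Finset.abs_prod]
    have h7 := mul_le_mul_of_nonneg_left hp
      (mul_nonneg (abs_nonneg (φ (a * β ^ (-(K : ℤ))))) (abs_nonneg (φ ((a - b) * β ^ (-(K : ℤ))))))
    calc _ = |φ (a * β ^ (-(K : ℤ)))| * |φ ((a - b) * β ^ (-(K : ℤ)))| *
          (1 / 2 * ∏ i ∈ range K, |Real.cos (2 * Real.pi * (a * β ^ (-(K : ℤ) + i + 1)))|) := by ring
      _ ≤ _ := h7
      _ = _ := by ring
  have t1 := (phi_tendsto h1 h (a - b)).const_mul (1 / 2 * |φ a|)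
  have t2 := (phi_tendsto h1 h a).const_mul (|φ (a - b)|)
  rw [mul_one] at t1 t2
  exact le_of_tendsto_of_tendsto' t1 t2 key

/-- upper bound for `φ (a - b)`, `b` tiny -/
theorem phi_pert_upper (h1 : 1 < β) (h : CF β φ C) (a b μ ρ : ℝ) (hμ : 0 < μ)
    (ha : ∀ i : ℤ, i ≤ 0 → μ ≤ |Real.cos (2 * Real.pi * (a * β ^ i))|)
    (hb : |b| ≤ (1 - β⁻¹) * ρ) :
    |φ (a - b)| ≤ Real.exp (2 * Real.pi * ρ / μ) * |φ a| := by
  have hβ0 : 0 < β := by linarith
  have hlt : β⁻¹ < 1 := inv_lt_one_of_one_lt₀ h1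
  have hpos : 0 < 1 - β⁻¹ := by linarith
  have key : ∀ K : ℕ, |φ (a - b)| * |φ (a * β ^ (-(K : ℤ)))| ≤
      Real.exp (2 * Real.pi * ρ / μ) * |φ a| * |φ ((a - b) * β ^ (-(K : ℤ)))| := by
    intro K
    have e1 := phi_down' h1 h a K
    have e2 := phi_down' h1 h (a - b) K
    have hp : ∏ i ∈ range K, |Real.cos (2 * Real.pi * ((a - b) * β ^ (-(K : ℤ) + i + 1)))| ≤
        Real.exp (2 * Real.pi * ρ / μ) *
        ∏ i ∈ range K, |Real.cos (2 * Real.pi * (a * β ^ (-(K : ℤ) + i + 1)))| := by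
      refine (prod_upper (range K) _
        (fun i : ℕ => |Real.cos (2 * Real.pi * (a * β ^ (-(K : ℤ) + i + 1)))|)
        (fun i => 2 * Real.pi * |b * β ^ (-(K : ℤ) + i + 1)|) μ hμ ?_ ?_ ?_ ?_).trans ?_
      · intro i _; positivity
      · intro i hi
        apply ha
        have := Finset.mem_range.mp hi
        omega
      · intro i _; positivity
      · intro i _
        have := abs_cos_le ((a - b) * β ^ (-(K : ℤ) + i + 1)) (a * β ^ (-(K : ℤ) + i + 1))
          (-(b * β ^ (-(K : ℤ) + i + 1))) 0 (Or.inl (by push_cast; ring))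
        rw [abs_neg] at this
        exact this
      · apply mul_le_mul_of_nonneg_right _ (Finset.prod_nonneg (fun i _ => abs_nonneg _))
        apply Real.exp_le_exp.mpr
        apply div_le_div_of_nonneg_right _ hμ.le
        rw [← Finset.mul_sum]
        have h3 : ∑ i ∈ range K, |b * β ^ (-(K : ℤ) + i + 1)| = ∑ k ∈ range K, |b| * (β⁻¹) ^ k := by
          rw [← Finset.sum_range_reflect]
          apply Finset.sum_congr rfl
          intro i hi
          have hiK := Finset.mem_range.mp hi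
          rw [abs_mul, abs_of_pos (zpow_pos hβ0 _), inv_pow, ← zpow_natCast β i, ← zpow_neg]
          congr 2
          omega
        rw [h3]
        have h4 := geo_sum_le h1 b K
        have h5 : |b| / (1 - β⁻¹) ≤ ρ := by
          rw [div_le_iff₀ hpos]; linarith
        exact mul_le_mul_of_nonneg_left (h4.trans h5) Real.two_pi_pos.le
    rw [e1, e2, abs_mul, abs_mul, Finset.abs_prod, Finset.abs_prod]
    have h7 := mul_le_mul_of_nonneg_left hp
      (mul_nonneg (abs_nonneg (φ (a * β ^ (-(K : ℤ))))) (abs_nonneg (φ ((a - b) * β ^ (-(K : ℤ))))))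
    calc _ = |φ (a * β ^ (-(K : ℤ)))| * |φ ((a - b) * β ^ (-(K : ℤ)))| *
          (∏ i ∈ range K, |Real.cos (2 * Real.pi * ((a - b) * β ^ (-(K : ℤ) + i + 1)))|) := by ring
      _ ≤ _ := h7
      _ = _ := by ring
  have t1 := (phi_tendsto h1 h (a - b)).const_mul (Real.exp (2 * Real.pi * ρ / μ) * |φ a|)
  have t2 := (phi_tendsto h1 h a).const_mul (|φ (a - b)|)
  rw [mul_one] at t1 t2
  exact le_of_tendsto_of_tendsto' t2 t1 key

end phi

end Pert

end Crest.Agent.BC
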