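import Crest.Agent.BCDefs

set_option autoImplicit false

namespace Crest.Agent.BC

open Finset MeasureTheory Filter

namespace Sing0

/-- Borel–Cantelli criterion -/
theorem sing_of_sets (ν : Measure ℝ) (h : ∀ ε : ℝ, 0 < ε → ∃ E : Set ℝ, MeasurableSet E ∧
    ν Eᶜ ≤ ENNReal.ofReal ε ∧ volume E ≤ ENNReal.ofReal ε) : ν.MutuallySingular volume := by
  have h1 : ∀ k : ℕ, ∃ E : Set ℝ, MeasurableSet E ∧
    ν Eᶜ ≤ ENNReal.ofReal ((1 / 2) ^ k) ∧ volume E ≤ ENNReal.ofReal ((1 / 2) ^ k) :=
    fun k => h _ (by positivity)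
  choose E hE1 hE2 hE3 using h1
  have hsum : ∑' k : ℕ, ENNReal.ofReal ((1 / 2) ^ k) ≠ ⊤ := by
    rw [← ENNReal.ofReal_tsum_of_nonneg (fun k => by positivity)
      (summable_geometric_of_lt_one (by norm_num) (by norm_num))]
    exact ENNReal.ofReal_ne_top
  have h2 : volume (limsup E atTop) = 0 := by
    apply measure_limsup_atTop_eq_zero
    exact ne_top_of_le_ne_top hsum (ENNReal.tsum_le_tsum hE3)
  have h3 : ν (limsup (fun k => (E k)ᶜ) atTop) = 0 := by
    apply measure_limsup_atTop_eq_zero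
    exact ne_top_of_le_ne_top hsum (ENNReal.tsum_le_tsum hE2)
  refine ⟨(limsup E atTop)ᶜ, (MeasurableSet.measurableSet_limsup hE1).compl, ?_, ?_⟩
  · refine measure_mono_null ?_ h3
    intro x hx
    rw [Set.mem_compl_iff, mem_limsup_iff_frequently_mem, not_frequently] at hx
    rw [mem_limsup_iff_frequently_mem]
    exact hx.frequently
  · rw [compl_compl]; exact h2

theorem int_cos (L : ℝ) (hL : 0 < L) (u : ℝ) (hu : u ≠ 0) :
    ∫ x in Set.Icc (-L) L, Real.cos (2 * Real.pi * u * x) ≤ 1 / |u| := by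
  have hc : 2 * Real.pi * u ≠ 0 := mul_ne_zero Real.two_pi_pos.ne' hu
  rw [integral_Icc_eq_integral_Ioc, ← intervalIntegral.integral_of_le (by linarith),
    intervalIntegral.integral_comp_mul_left (fun x => Real.cos x) hc, integral_cos, smul_eq_mul]
  refine (le_abs_self _).trans ?_
  rw [abs_mul, abs_inv, abs_mul, abs_of_pos Real.two_pi_pos]
  have h1 : |Real.sin (2 * Real.pi * u * L) - Real.sin (2 * Real.pi * u * -L)| ≤ 2 := by
    refine (abs_sub _ _).trans ?_
    have := Real.abs_sin_le_one (2 * Real.pi * u * L)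
    have := Real.abs_sin_le_one (2 * Real.pi * u * -L)
    linarith
  have hu' : 0 < |u| := abs_pos.mpr hu
  have h2 : (2 * Real.pi * |u|)⁻¹ * |Real.sin (2 * Real.pi * u * L) - Real.sin (2 * Real.pi * u * -L)|
      ≤ (2 * Real.pi * |u|)⁻¹ * 2 := mul_le_mul_of_nonneg_left h1 (by positivity)
  refine h2.trans ?_
  have h3 : (2 * Real.pi * |u|)⁻¹ * 2 = 1 / |u| * (1 / Real.pi) := by
    field_simp
  rw [h3]
  have h4 : 1 / Real.pi ≤ 1 := by
    rw [div_le_one Real.pi_pos]
    linarith [Real.pi_gt_three]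
  exact mul_le_of_le_one_right (by positivity) h4

theorem sq_sum (M : ℕ) (ξ : ℕ → ℝ) (x : ℝ) :
    (∑ n ∈ range M, Real.cos (2 * Real.pi * ξ n * x)) ^ 2 +
      (∑ n ∈ range M, Real.sin (2 * Real.pi * ξ n * x)) ^ 2 =
    ∑ n ∈ range M, ∑ m ∈ range M, Real.cos (2 * Real.pi * (ξ n - ξ m) * x) := by
  rw [sq, sq, Finset.sum_mul_sum, Finset.sum_mul_sum, ← Finset.sum_add_distrib]
  apply Finset.sum_congr rfl
  intro n _
  rw [← Finset.sum_add_distrib]
  apply Finset.sum_congr rfl
  intro m _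
  rw [← Real.cos_sub]
  congr 1
  ring

theorem main (ν : Measure ℝ) (L C : ℝ) (φ : ℝ → ℝ) [IsProbabilityMeasure ν] (hL : 0 < L)
    (hsupp : ν (Set.Icc (-L) L)ᶜ = 0)
    (hφ : ∀ t : ℝ, ∫ x : ℝ, Real.cos (2 * Real.pi * t * x) ∂ν = φ t)
    (ε : ℝ) (hε : 0 < ε) (M : ℕ) (ξ : ℕ → ℝ) (a : ℝ) (hM : 0 < M) (ha : a ≠ 0)
    (h1 : 1 ≤ ε * ((M : ℝ) * a ^ 2))
    (h2 : |∑ n ∈ range M, φ (ξ n) - (M : ℝ) * a| ≤ ε * |(M : ℝ) * a|)
    (h3 : ∑ n ∈ range M, ∑ m ∈ range M, φ (ξ n - ξ m) ≤ (1 + ε) * ((M : ℝ) * a) ^ 2)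
    (h4 : ∀ n < M, ∀ m < M, n ≠ m → ξ n ≠ ξ m)
    (h5 : ∑ n ∈ range M, ∑ m ∈ (range M).erase n, 1 / |ξ n - ξ m| ≤ C * (M : ℝ)) :
    ∃ E : Set ℝ, MeasurableSet E ∧
    ν Eᶜ ≤ ENNReal.ofReal (12 * ε) ∧ volume E ≤ ENNReal.ofReal (4 * (2 * L + C) * ε) := by
  classical
  have hM' : (0 : ℝ) < M := by exact_mod_cast hM
  set A := (M : ℝ) * a with hA
  have hA0 : A ≠ 0 := mul_ne_zero hM'.ne' ha
  have hA2 : 0 < A ^ 2 := by positivity
  set P : ℝ → ℝ := fun x => ∑ n ∈ range M, Real.cos (2 * Real.pi * ξ n * x) with hP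
  set Q : ℝ → ℝ := fun x => ∑ n ∈ range M, Real.sin (2 * Real.pi * ξ n * x) with hQ
  set S : ℝ → ℝ := fun x => ∑ n ∈ range M, ∑ m ∈ range M, Real.cos (2 * Real.pi * (ξ n - ξ m) * x)
    with hS
  have hSPQ : ∀ x, S x = P x ^ 2 + Q x ^ 2 := fun x => (sq_sum M ξ x).symm
  have hcosInt : ∀ (ρ : Measure ℝ) [IsFiniteMeasure ρ] (u : ℝ),
      Integrable (fun x => Real.cos (2 * Real.pi * u * x)) ρ := by
    intro ρ _ u
    refine Integrable.of_bound (C := 1) ?_ ?_
    · exact (by fun_prop : Continuous (fun x : ℝ => Real.cos (2 * Real.pi * u * x))).aestronglyMeasurable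
    · filter_upwards with x
      rw [Real.norm_eq_abs]
      exact Real.abs_cos_le_one _
  have hPc : Continuous P := by rw [hP]; fun_prop
  have hSc : Continuous S := by rw [hS]; fun_prop
  have hPint : Integrable P ν := by
    rw [hP]; exact integrable_finset_sum _ (fun n _ => hcosInt ν _)
  have hSint : ∀ (ρ : Measure ℝ) [IsFiniteMeasure ρ], Integrable S ρ := by
    intro ρ _
    rw [hS]
    exact integrable_finset_sum _ (fun n _ => integrable_finset_sum _ (fun m _ => hcosInt ρ _))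
  have hPi : ∫ x, P x ∂ν = ∑ n ∈ range M, φ (ξ n) := by
    rw [hP, integral_finset_sum _ (fun n _ => hcosInt ν _)]
    exact Finset.sum_congr rfl (fun n _ => hφ _)
  have hSi : ∫ x, S x ∂ν = ∑ n ∈ range M, ∑ m ∈ range M, φ (ξ n - ξ m) := by
    rw [hS, integral_finset_sum _ (fun n _ => integrable_finset_sum _ (fun m _ => hcosInt ν _))]
    apply Finset.sum_congr rfl
    intro n _
    rw [integral_finset_sum _ (fun m _ => hcosInt ν _)]
    exact Finset.sum_congr rfl (fun m _ => hφ _)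
  set I := Set.Icc (-L) L with hI
  haveI : IsFiniteMeasure (volume.restrict I) := ⟨by
    rw [Measure.restrict_apply_univ, hI, Real.volume_Icc]; exact ENNReal.ofReal_lt_top⟩
  have hSv : ∫ x in I, S x ≤ (2 * L + C) * M := by
    have e1 : ∫ x in I, S x = ∑ n ∈ range M, ∑ m ∈ range M,
        ∫ x in I, Real.cos (2 * Real.pi * (ξ n - ξ m) * x) := by
      rw [hS, integral_finset_sum _ (fun n _ => integrable_finset_sum _ (fun m _ => hcosInt _ _))]
      apply Finset.sum_congr rfl
      intro n _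
      rw [integral_finset_sum _ (fun m _ => hcosInt _ _)]
    rw [e1]
    have e2 : ∀ n ∈ range M, ∑ m ∈ range M, ∫ x in I, Real.cos (2 * Real.pi * (ξ n - ξ m) * x) ≤
        2 * L + ∑ m ∈ (range M).erase n, 1 / |ξ n - ξ m| := by
      intro n hn
      rw [← Finset.add_sum_erase _ _ hn]
      apply add_le_add
      · apply le_of_eq
        simp only [sub_self, mul_zero, zero_mul, Real.cos_zero]
        rw [integral_const, smul_eq_mul, mul_one, measureReal_restrict_apply_univ, hI,
          Measure.real, Real.volume_Icc, ENNReal.toReal_ofReal (by linarith)]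
        ring
      · apply Finset.sum_le_sum
        intro m hm
        apply int_cos L hL
        rw [sub_ne_zero]
        exact h4 n (Finset.mem_range.mp hn) m (Finset.mem_range.mp (Finset.mem_of_mem_erase hm))
          (Finset.ne_of_mem_erase hm).symm
    refine (Finset.sum_le_sum e2).trans ?_
    rw [Finset.sum_add_distrib, Finset.sum_const, Finset.card_range, nsmul_eq_mul]
    linarith
  -- the function `f2 = S / A ^ 2`
  set f2 : ℝ → ℝ := fun x => S x / A ^ 2 with hf2
  set f1 : ℝ → ℝ := fun x => S x / A ^ 2 - 2 * (P x / A) + 1 with hf1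
  have hS0 : ∀ x, 0 ≤ S x := fun x => by rw [hSPQ]; positivity
  have hf20 : ∀ x, 0 ≤ f2 x := fun x => div_nonneg (hS0 x) hA2.le
  have hf1' : ∀ x, f1 x = (P x / A - 1) ^ 2 + (Q x / A) ^ 2 := by
    intro x
    rw [hf1]
    simp only
    rw [hSPQ]
    field_simp
    ring
  have hf10 : ∀ x, 0 ≤ f1 x := fun x => by rw [hf1']; positivity
  have hf2c : Continuous f2 := by rw [hf2]; fun_prop
  have hint1 : ∫ x, f1 x ∂ν ≤ 3 * ε := by
    have e1 : ∫ x, f1 x ∂ν = (∫ x, S x ∂ν) / A ^ 2 - 2 * ((∫ x, P x ∂ν) / A) + 1 := by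
      rw [hf1, integral_add, integral_sub, integral_div, integral_const_mul, integral_div]
      · simp
      · exact (hSint ν).div_const _
      · exact (hPint.div_const _).const_mul _
      · exact ((hSint ν).div_const _).sub ((hPint.div_const _).const_mul _)
      · exact integrable_const _
    rw [e1, hSi, hPi]
    have e2 : (∑ n ∈ range M, ∑ m ∈ range M, φ (ξ n - ξ m)) / A ^ 2 ≤ 1 + ε := by
      rw [div_le_iff₀ hA2]; exact h3
    have e3 : |(∑ n ∈ range M, φ (ξ n)) / A - 1| ≤ ε := by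
      have : (∑ n ∈ range M, φ (ξ n)) / A - 1 = (∑ n ∈ range M, φ (ξ n) - A) / A := by
        field_simp
      rw [this, abs_div, div_le_iff₀ (abs_pos.mpr hA0)]
      exact h2
    have e4 := (abs_le.mp e3).1
    linarith
  have hint2 : ∫ x in I, f2 x ≤ (2 * L + C) * ε := by
    rw [hf2, integral_div, div_le_iff₀ hA2]
    refine hSv.trans ?_
    have hC : 0 ≤ C * M := le_trans (Finset.sum_nonneg (fun n _ => Finset.sum_nonneg
      (fun m _ => by positivity))) h5
    have hC0 : 0 ≤ 2 * L + C := by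
      have : 0 ≤ C := by
        by_contra hcon
        push Not at hcon
        nlinarith
      linarith
    have e1 : (2 * L + C) * ε * A ^ 2 = (2 * L + C) * M * (ε * (M * a ^ 2)) := by
      rw [hA]; ring
    rw [e1]
    exact le_mul_of_one_le_right (by positivity) h1
  refine ⟨{x | 1 / 4 ≤ f2 x} ∩ I, ?_, ?_, ?_⟩
  · exact (measurableSet_le measurable_const hf2c.measurable).inter measurableSet_Icc
  · have e1 : ({x | 1 / 4 ≤ f2 x} ∩ I)ᶜ ⊆ {x | 1 / 4 ≤ f1 x} ∪ Iᶜ := by
      intro x hx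
      rw [Set.compl_inter] at hx
      rcases hx with hx | hx
      · left
        rw [Set.mem_compl_iff, Set.mem_setOf_eq, not_le] at hx
        rw [Set.mem_setOf_eq, hf1']
        have e2 : (P x / A) ^ 2 ≤ f2 x := by
          rw [hf2]
          simp only
          rw [hSPQ, div_pow]
          apply div_le_div_of_nonneg_right _ hA2.le
          linarith [sq_nonneg (Q x)]
        have e3 : (P x / A) ^ 2 < (1 / 2) ^ 2 := by
          refine lt_of_le_of_lt e2 (lt_of_lt_of_le hx ?_)
          norm_num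
        have e4 := (abs_lt_of_sq_lt_sq' e3 (by norm_num)).2
        have e5 : (1 / 2 : ℝ) ^ 2 ≤ (1 - P x / A) ^ 2 :=
          pow_le_pow_left₀ (by norm_num) (by linarith) 2
        have e6 : 0 ≤ (Q x / A) ^ 2 := sq_nonneg _
        have e7 : (P x / A - 1) ^ 2 = (1 - P x / A) ^ 2 := by ring
        rw [e7]
        norm_num at e5
        linarith
      · right; exact hx
    refine (measure_mono e1).trans ((measure_union_le _ _).trans ?_)
    rw [hsupp, add_zero]
    have e2 := mul_meas_ge_le_integral_of_nonneg (μ := ν) (f := f1)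
      (Eventually.of_forall hf10)
      (((hSint ν).div_const _).sub ((hPint.div_const _).const_mul _) |>.add (integrable_const _))
      (1 / 4)
    have e3 : ν.real {x | 1 / 4 ≤ f1 x} ≤ 12 * ε := by linarith
    rw [← ENNReal.ofReal_toReal (measure_ne_top ν _)]
    exact ENNReal.ofReal_le_ofReal e3
  · have e2 := mul_meas_ge_le_integral_of_nonneg (μ := volume.restrict I) (f := f2)
      (Eventually.of_forall hf20) ((hSint _).div_const _) (1 / 4)
    have e3 : (volume.restrict I).real {x | 1 / 4 ≤ f2 x} ≤ 4 * (2 * L + C) * ε := by linarith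
    rw [← Measure.restrict_apply (measurableSet_le measurable_const hf2c.measurable),
      ← ENNReal.ofReal_toReal (measure_ne_top (volume.restrict I) _)]
    exact ENNReal.ofReal_le_ofReal e3

end Sing0

open Sing0 in
theorem sing : SingStmt := by
  intro ν L C φ hprob hL hsupp hφ h
  have hφ' : ∀ t : ℝ, ∫ x : ℝ, Real.cos (2 * Real.pi * t * x) ∂ν = φ t := by
    intro t
    have h1 := congrArg Complex.re (hφ t)
    rw [Complex.ofReal_re] at h1
    rw [← h1]
    have hint : Integrable (fun x : ℝ => Complex.exp (2 * Real.pi * t * x * Complex.I)) ν := by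
      refine Integrable.of_bound (C := 1) ?_ ?_
      · exact (by fun_prop : Continuous
          (fun x : ℝ => Complex.exp (2 * Real.pi * t * x * Complex.I))).aestronglyMeasurable
      · filter_upwards with x
        have : (2 * Real.pi * t * x * Complex.I : ℂ) = ((2 * Real.pi * t * x : ℝ) : ℂ) * Complex.I := by
          push_cast; ring
        rw [this, Complex.norm_exp_ofReal_mul_I]
    have h2 := integral_re (𝕜 := ℂ) hint
    simp only [RCLike.re_eq_complex_re] at h2
    rw [← h2]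
    apply integral_congr_ae
    filter_upwards with x
    have : (2 * Real.pi * t * x * Complex.I : ℂ) = ((2 * Real.pi * t * x : ℝ) : ℂ) * Complex.I := by
      push_cast; ring
    rw [this, Complex.exp_ofReal_mul_I_re]
  apply sing_of_sets
  intro ε hε
  set K := 12 + |4 * (2 * L + C)| with hK
  have hK0 : 0 < K := by positivity
  obtain ⟨M, ξ, a, hM, ha, h1, h2, h3, h4, h5⟩ := h (ε / K) (by positivity)
  obtain ⟨E, hE, hE1, hE2⟩ := main ν L C φ hL hsupp hφ' (ε / K) (by positivity) M ξ a hM ha h1 h2 h3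
    h4 h5
  have e1 : 12 * (ε / K) ≤ ε := by
    rw [← mul_div_assoc, div_le_iff₀ hK0]
    have : 12 ≤ K := by rw [hK]; linarith [abs_nonneg (4 * (2 * L + C))]
    nlinarith
  have e2 : 4 * (2 * L + C) * (ε / K) ≤ ε := by
    rw [← mul_div_assoc, div_le_iff₀ hK0]
    have : 4 * (2 * L + C) ≤ K := by
      rw [hK]; linarith [le_abs_self (4 * (2 * L + C))]
    nlinarith
  exact ⟨E, hE, hE1.trans (ENNReal.ofReal_le_ofReal e1), hE2.trans (ENNReal.ofReal_le_ofReal e2)⟩

end Crest.Agent.BC
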