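import Crest.Agent.BCPert

set_option autoImplicit false

namespace Crest.Agent.BC

open Finset MeasureTheory Filter

namespace Step

open Pert

theorem zpow_norm_one {ζ : ℂ} (hζ : ‖ζ‖ = 1) (e : ℤ) : ‖ζ ^ e‖ = 1 := by
  rw [norm_zpow, hζ, one_zpow]

theorem congX {β : ℝ} {ζ : ℂ} {x w : ℝ} {z : ℂ} (h1 : 1 < β) (hζ : ‖ζ‖ = 1) (h : Pt β ζ x w z)
    (j : ℕ) (R' : ℝ) (hR : ‖z * (1 - ζ ^ j)‖ ≤ R') (e : ℤ) :
    ∃ (K : ℤ) (δ : ℝ), x * (1 - β ^ j) * β ^ e = K - (w * β ^ (-e) + δ) ∧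
      |δ| ≤ |w| * β ^ (-e - j) + 2 * R' := by
  have hβ : 0 < β := by linarith
  have hζ0 : ζ ≠ 0 := by
    intro h0; rw [h0, norm_zero] at hζ; norm_num at hζ
  obtain ⟨k1, hk1⟩ := h.int e
  obtain ⟨k2, hk2⟩ := h.int (e + j)
  refine ⟨k1 - k2, -(w * β ^ (-e - j)) + 2 * (z * (1 - ζ ^ j) * ζ ^ e).re, ?_, ?_⟩
  · have e1 : x * (1 - β ^ j) * β ^ e = x * β ^ e - x * β ^ (e + j) := by
      rw [zpow_add₀ hβ.ne', zpow_natCast]; ring
    have e2 : z * (1 - ζ ^ j) * ζ ^ e = z * ζ ^ e - z * ζ ^ (e + j) := by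
      rw [zpow_add₀ hζ0, zpow_natCast]; ring
    have e3 : -(e + (j : ℤ)) = -e - j := by ring
    rw [e3] at hk2
    rw [e1, e2, Complex.sub_re]
    push_cast
    rw [← hk1, ← hk2]
    ring
  · have h3 : |(z * (1 - ζ ^ j) * ζ ^ e).re| ≤ R' := by
      refine (Complex.abs_re_le_norm _).trans ?_
      rw [norm_mul, zpow_norm_one hζ, mul_one]
      exact hR
    have h4 : |w * β ^ (-e - j)| = |w| * β ^ (-e - j) := by
      rw [abs_mul, abs_of_pos (zpow_pos hβ _)]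
    calc _ ≤ |(-(w * β ^ (-e - j)))| + |2 * (z * (1 - ζ ^ j) * ζ ^ e).re| := abs_add_le _ _
      _ ≤ _ := by
        rw [abs_neg, h4, abs_mul, abs_of_pos (show (0 : ℝ) < 2 by norm_num)]
        linarith

theorem congW {β : ℝ} {ζ : ℂ} {x w : ℝ} {z : ℂ} (h1 : 1 < β) (hζ : ‖ζ‖ = 1) (h : Pt β ζ x w z)
    (j : ℕ) (R' : ℝ) (hR : ‖z * (1 - ζ ^ j)‖ ≤ R') (e : ℤ) :
    ∃ (K : ℤ) (δ : ℝ), w * (1 - (β⁻¹) ^ j) * β ^ e = K + (x * β ^ (j - e) + δ) ∧
      |δ| ≤ |x| * β ^ (-e) + 2 * R' := by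
  have hβ : 0 < β := by linarith
  have hζ0 : ζ ≠ 0 := by
    intro h0; rw [h0, norm_zero] at hζ; norm_num at hζ
  obtain ⟨k1, hk1⟩ := h.int (-e)
  obtain ⟨k2, hk2⟩ := h.int (j - e)
  refine ⟨k1 - k2, -(x * β ^ (-e)) - 2 * (z * (1 - ζ ^ j) * ζ ^ (-e)).re, ?_, ?_⟩
  · have e1 : w * (1 - (β⁻¹) ^ j) * β ^ e = w * β ^ e - w * β ^ (e - j) := by
      rw [zpow_sub₀ hβ.ne', zpow_natCast, inv_pow]; ring
    have e2 : z * (1 - ζ ^ j) * ζ ^ (-e) = z * ζ ^ (-e) - z * ζ ^ ((j : ℤ) - e) := by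
      rw [show ((j : ℤ) - e) = -e + j by ring, zpow_add₀ hζ0, zpow_natCast]; ring
    have e3 : -((j : ℤ) - e) = e - j := by ring
    rw [e3] at hk2
    rw [neg_neg] at hk1
    rw [e1, e2, Complex.sub_re]
    push_cast
    rw [← hk1, ← hk2]
    ring
  · have h3 : |(z * (1 - ζ ^ j) * ζ ^ (-e)).re| ≤ R' := by
      refine (Complex.abs_re_le_norm _).trans ?_
      rw [norm_mul, zpow_norm_one hζ, mul_one]
      exact hR
    have h4 : |x * β ^ (-e)| = |x| * β ^ (-e) := by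
      rw [abs_mul, abs_of_pos (zpow_pos hβ _)]
    calc _ = |(-(x * β ^ (-e))) + -(2 * (z * (1 - ζ ^ j) * ζ ^ (-e)).re)| := by
          rw [sub_eq_add_neg]
      _ ≤ |(-(x * β ^ (-e)))| + |(-(2 * (z * (1 - ζ ^ j) * ζ ^ (-e)).re))| := abs_add_le _ _
      _ ≤ _ := by
        rw [abs_neg, abs_neg, h4, abs_mul, abs_of_pos (show (0 : ℝ) < 2 by norm_num)]
        linarith

/-- tail bound: `|x| β^e ≤ R'` for `e ≤ -h` -/
theorem tail {β : ℝ} (h1 : 1 < β) {x : ℝ} {H T : ℕ} (hx : |x| ≤ β ^ H) (ρ : ℝ)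
    (hT : (β⁻¹) ^ T ≤ ρ) (e : ℤ) (he : e ≤ -((H : ℤ) + T)) : |x| * β ^ e ≤ ρ := by
  have hβ : 0 < β := by linarith
  calc |x| * β ^ e ≤ β ^ H * β ^ e := mul_le_mul_of_nonneg_right hx (zpow_pos hβ _).le
    _ = β ^ ((H : ℤ) + e) := by rw [zpow_add₀ hβ.ne', zpow_natCast]
    _ ≤ β ^ (-(T : ℤ)) := by
        apply zpow_le_zpow_right₀ h1.le
        omega
    _ = (β⁻¹) ^ T := by rw [zpow_neg, zpow_natCast, inv_pow]
    _ ≤ ρ := hT

/-- geometric sum of tails -/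
theorem geo_tail {β : ℝ} (h1 : 1 < β) {x : ℝ} {H T : ℕ} (hx : |x| ≤ β ^ H) (R' : ℝ)
    (hT : (β⁻¹) ^ T ≤ (1 - β⁻¹) * R') (e : ℤ) (he : e ≤ -((H : ℤ) + T)) (K : ℕ) :
    ∑ i ∈ range K, |x| * β ^ (e - i) ≤ R' := by
  have hβ : 0 < β := by linarith
  have hlt : β⁻¹ < 1 := inv_lt_one_of_one_lt₀ h1
  have hpos : 0 < 1 - β⁻¹ := by linarith
  have h2 := tail h1 hx _ hT e he
  have h3 : ∀ i ∈ range K, |x| * β ^ (e - i) = |(|x| * β ^ e)| * (β⁻¹) ^ i := by
    intro i _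
    rw [abs_of_nonneg (mul_nonneg (abs_nonneg _) (zpow_pos hβ _).le), zpow_sub₀ hβ.ne',
      zpow_natCast, inv_pow]
    ring
  rw [Finset.sum_congr rfl h3]
  refine (geo_sum_le h1 _ K).trans ?_
  rw [div_le_iff₀ hpos, abs_of_nonneg (mul_nonneg (abs_nonneg _) (zpow_pos hβ _).le)]
  linarith

/-- main estimate on the `x` side -/
theorem gx {β C : ℝ} {φ : ℝ → ℝ} {ζ : ℂ} (h1 : 1 < β) (hζ : ‖ζ‖ = 1) (hφ : CF β φ C)
    {x w : ℝ} {z : ℂ} {H N : ℕ} {R μ g : ℝ} (hD : Dat β ζ φ x w z H N R μ g) (hμ : 0 < μ)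
    (hg : 0 ≤ g) {j T N' : ℕ} {R' : ℝ} (hR0 : 0 < R') (hj1 : 2 * (H + T) ≤ j) (hj2 : j ≤ 2 * N)
    (hT : (β⁻¹) ^ T ≤ (1 - β⁻¹) * R') (hz : ‖z * (1 - ζ ^ j)‖ ≤ R') (hN' : (N' : ℝ) * R' ^ 2 ≤ 1)
    (hsm : 100 * ((N : ℝ) + 1) * R' ≤ μ) :
    Real.exp (-1000) * g ^ 2 ≤ |φ (x * (1 - β ^ j) * β ^ N')| := by
  have hβ : 0 < β := by linarith
  have hlt : β⁻¹ < 1 := inv_lt_one_of_one_lt₀ h1
  have hpos : 0 < 1 - β⁻¹ := by linarith
  have hμ1 : μ ≤ 1 := ((hD.mu 0).1).trans (Real.abs_cos_le_one _)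
  have hNn : (0 : ℝ) ≤ N := Nat.cast_nonneg N
  have hR1 : 100 * R' ≤ μ := by nlinarith
  have hTR : (β⁻¹) ^ T ≤ R' := hT.trans (by nlinarith [inv_pos.mpr hβ])
  have hpi := Real.pi_lt_d2
  have hpi0 := Real.pi_gt_three
  set h : ℕ := j / 2 with hh
  have hh1 : H + T ≤ h := by omega
  have hh2 : j ≤ 2 * h + 1 := by omega
  have hh3 : 2 * h ≤ j := by omega
  set x' := x * (1 - β ^ j) with hx'
  -- (1)
  have s1 : 1 / 2 * g ≤ |φ (x' * β ^ (-(h : ℤ)))| := by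
    have e1 : x' * β ^ (-(h : ℤ)) = -(x * β ^ ((j : ℤ) - h) - x * β ^ (-(h : ℤ))) := by
      rw [hx', show ((j : ℤ) - h) = j + (-(h : ℤ)) by ring, zpow_add₀ hβ.ne', zpow_natCast]; ring
    rw [e1, hφ.even]
    have h2 := phi_pert_lower h1 hφ (x * β ^ ((j : ℤ) - h)) (x * β ^ (-(h : ℤ))) μ R' hμ ?_ ?_ ?_
    · refine le_trans ?_ h2
      apply mul_le_mul_of_nonneg_left _ (by norm_num)
      refine hD.gg.1.trans ?_
      have := phi_mono h1 hφ x ((j : ℤ) - h) (N : ℤ) (by omega)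
      rwa [zpow_natCast] at this
    · intro i _
      have e2 : x * β ^ ((j : ℤ) - h) * β ^ i = x * β ^ ((j : ℤ) - h + i) := by
        rw [mul_assoc, ← zpow_add₀ hβ.ne']
      rw [e2]
      exact (hD.mu _).1
    · rw [abs_mul, abs_of_pos (zpow_pos hβ _)]
      exact tail h1 hD.xH _ hT _ (by omega)
    · nlinarith
  -- (2)
  have s2 : 1 / 2 * g ≤ ∏ i ∈ range (2 * h), |Real.cos (2 * Real.pi * (x' * β ^ (-(h : ℤ) + i + 1)))| := by
    have h3 : 1 / 2 * ∏ i ∈ range (2 * h), |Real.cos (2 * Real.pi * (w * β ^ (-(-(h : ℤ) + i + 1))))| ≤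
        ∏ i ∈ range (2 * h), |Real.cos (2 * Real.pi * (x' * β ^ (-(h : ℤ) + i + 1)))| := by
      apply prod_lower (range (2 * h)) _ _
        (fun i => 2 * Real.pi * (|w| * β ^ (-(-(h : ℤ) + i + 1) - j) + 2 * R')) μ hμ
      · intro i _
        have : 0 ≤ |w| * β ^ (-(-(h : ℤ) + i + 1) - j) := mul_nonneg (abs_nonneg _) (zpow_pos hβ _).le
        positivity
      · intro i _; exact (hD.mu _).2
      · intro i _
        obtain ⟨K, δ, hK, hδ⟩ := congX h1 hζ hD.pt j R' hz (-(h : ℤ) + i + 1)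
        have := abs_cos_ge _ (w * β ^ (-(-(h : ℤ) + i + 1))) δ K (Or.inr hK)
        refine le_trans ?_ this
        have h4 : 2 * Real.pi * |δ| ≤ 2 * Real.pi * (|w| * β ^ (-(-(h : ℤ) + i + 1) - j) + 2 * R') :=
          mul_le_mul_of_nonneg_left hδ Real.two_pi_pos.le
        linarith
      · rw [← Finset.mul_sum, Finset.sum_add_distrib]
        have h5 : ∑ i ∈ range (2 * h), |w| * β ^ (-(-(h : ℤ) + i + 1) - j) ≤ R' := by
          have := geo_tail h1 hD.wH R' hT ((h : ℤ) - 1 - j) (by omega) (2 * h)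
          refine le_trans (le_of_eq ?_) this
          apply Finset.sum_congr rfl
          intro i _
          congr 2
          ring
        have h6 : ∑ i ∈ range (2 * h), 2 * R' = 2 * h * (2 * R') := by
          rw [Finset.sum_const, Finset.card_range, nsmul_eq_mul]; push_cast; ring
        rw [h6]
        have h7 : (2 * (h : ℝ)) ≤ 2 * N := by
          have : 2 * h ≤ 2 * N := by omega
          exact_mod_cast this
        have h8 : ∑ i ∈ range (2 * h), |w| * β ^ (-(-(h : ℤ) + i + 1) - j) + 2 * h * (2 * R') ≤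
            (4 * N + 1) * R' := by nlinarith
        calc 2 * Real.pi * _ ≤ 2 * Real.pi * ((4 * N + 1) * R') :=
              mul_le_mul_of_nonneg_left h8 Real.two_pi_pos.le
          _ ≤ μ / 2 := by nlinarith
    refine le_trans ?_ h3
    apply mul_le_mul_of_nonneg_left _ (by norm_num)
    have h9 : ∏ i ∈ range (2 * h), |Real.cos (2 * Real.pi * (w * β ^ (-(-(h : ℤ) + i + 1))))| =
        ∏ i ∈ range (2 * h), |Real.cos (2 * Real.pi * (w * β ^ (-(h : ℤ) - 1 + i + 1)))| := by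
      rw [← Finset.prod_range_reflect]
      apply Finset.prod_congr rfl
      intro i hi
      have := Finset.mem_range.mp hi
      congr 5
      omega
    rw [h9]
    refine le_trans ?_ (phi_prod_ge h1 hφ w (-(h : ℤ) - 1) (2 * h))
    refine hD.gg.2.trans ?_
    have := phi_mono h1 hφ w (-(h : ℤ) - 1 + ((2 * h : ℕ) : ℤ)) (N : ℤ) (by omega)
    rwa [zpow_natCast] at this
  -- (3)
  have s3 : Real.exp (-640) ≤
      ∏ i ∈ range N', |Real.cos (2 * Real.pi * (x' * β ^ ((h : ℤ) + i + 1)))| := by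
    have h4 := prod_near (range N') (fun i : ℕ => |Real.cos (2 * Real.pi * (x' * β ^ ((h : ℤ) + i + 1)))|)
      (40 * (4 * R') ^ 2) ?_
    · refine le_trans ?_ h4
      apply Real.exp_le_exp.mpr
      rw [Finset.card_range]
      nlinarith
    · intro i _
      obtain ⟨K, δ, hK, hδ⟩ := congX h1 hζ hD.pt j R' hz ((h : ℤ) + i + 1)
      have h5 : |w| * β ^ (-((h : ℤ) + i + 1)) ≤ R' := tail h1 hD.wH _ hTR _ (by omega)
      have h6 : |w| * β ^ (-((h : ℤ) + i + 1) - j) ≤ R' := tail h1 hD.wH _ hTR _ (by omega)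
      have h7 : |w * β ^ (-((h : ℤ) + i + 1)) + δ| ≤ 4 * R' := by
        refine (abs_add_le _ _).trans ?_
        rw [abs_mul, abs_of_pos (zpow_pos hβ _)]
        linarith
      have h8 := abs_cos_near _ _ K (Or.inr hK) (by linarith)
      refine le_trans ?_ h8
      apply Real.exp_le_exp.mpr
      have h9 : (w * β ^ (-((h : ℤ) + i + 1)) + δ) ^ 2 ≤ (4 * R') ^ 2 := by
        rw [← sq_abs (w * β ^ (-((h : ℤ) + i + 1)) + δ)]
        exact pow_le_pow_left₀ (abs_nonneg _) h7 2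
      linarith
  -- combine
  have c1 : |φ (x' * β ^ ((h : ℤ) + N'))| ≤ |φ (x' * β ^ N')| := by
    have := phi_mono h1 hφ x' (N' : ℤ) ((h : ℤ) + N') (by omega)
    rwa [zpow_natCast] at this
  refine le_trans ?_ c1
  rw [phi_up h1 hφ x' h N', abs_mul, Finset.abs_prod]
  have c2 : φ (x' * β ^ (h : ℤ)) = φ (x' * β ^ (-(h : ℤ))) *
      ∏ i ∈ range (2 * h), Real.cos (2 * Real.pi * (x' * β ^ (-(h : ℤ) + i + 1))) := by
    have := phi_up h1 hφ x' (-(h : ℤ)) (2 * h)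
    rw [← this]
    congr 3
    push_cast; ring
  rw [c2, abs_mul, Finset.abs_prod]
  have hexp : Real.exp (-1000) ≤ Real.exp (-640) * (1 / 4) := by
    have : Real.exp (-1000) = Real.exp (-640) * Real.exp (-360) := by
      rw [← Real.exp_add]; norm_num
    rw [this]
    apply mul_le_mul_of_nonneg_left _ (Real.exp_pos _).le
    have h5 : Real.exp (-360) ≤ Real.exp (-3) := Real.exp_le_exp.mpr (by norm_num)
    have h6 : Real.exp (-3) ≤ 1 / (1 + 3) := by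
      rw [Real.exp_neg, ← one_div]
      apply one_div_le_one_div_of_le (by norm_num)
      have := Real.add_one_le_exp (3 : ℝ)
      linarith
    linarith
  calc Real.exp (-1000) * g ^ 2 ≤ Real.exp (-640) * (1 / 4) * g ^ 2 :=
        mul_le_mul_of_nonneg_right hexp (sq_nonneg g)
    _ = (1 / 2 * g) * (1 / 2 * g) * Real.exp (-640) := by ring
    _ ≤ _ := by
        apply mul_le_mul _ s3 (Real.exp_pos _).le (mul_nonneg (abs_nonneg _) (Finset.prod_nonneg (fun i _ => abs_nonneg _)))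
        exact mul_le_mul s1 s2 (by positivity) (abs_nonneg _)

/-- main estimate on the `w` side -/
theorem gw {β C : ℝ} {φ : ℝ → ℝ} {ζ : ℂ} (h1 : 1 < β) (hζ : ‖ζ‖ = 1) (hφ : CF β φ C)
    {x w : ℝ} {z : ℂ} {H N : ℕ} {R μ g : ℝ} (hD : Dat β ζ φ x w z H N R μ g) (hμ : 0 < μ)
    (hg : 0 ≤ g) {j T N' : ℕ} {R' : ℝ} (hR0 : 0 < R') (hj1 : 2 * (H + T) ≤ j) (hj2 : j ≤ 2 * N)
    (hj0 : 1 ≤ j)
    (hT : (β⁻¹) ^ T ≤ (1 - β⁻¹) * R') (hz : ‖z * (1 - ζ ^ j)‖ ≤ R') (hN' : (N' : ℝ) * R' ^ 2 ≤ 1)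
    (hsm : 100 * ((N : ℝ) + 1) * R' ≤ μ) :
    Real.exp (-1000) * g ^ 2 ≤ |φ (w * (1 - (β⁻¹) ^ j) * β ^ N')| := by
  have hβ : 0 < β := by linarith
  have hlt : β⁻¹ < 1 := inv_lt_one_of_one_lt₀ h1
  have hpos : 0 < 1 - β⁻¹ := by linarith
  have hμ1 : μ ≤ 1 := ((hD.mu 0).1).trans (Real.abs_cos_le_one _)
  have hNn : (0 : ℝ) ≤ N := Nat.cast_nonneg N
  have hR1 : 100 * R' ≤ μ := by nlinarith
  have hTR : (β⁻¹) ^ T ≤ R' := hT.trans (by nlinarith [inv_pos.mpr hβ])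
  have hpi := Real.pi_lt_d2
  have hpi0 := Real.pi_gt_three
  set h : ℕ := j / 2 with hh
  have hh1 : H + T ≤ h := by omega
  have hh2 : j ≤ 2 * h + 1 := by omega
  have hh3 : 2 * h ≤ j := by omega
  set w' := w * (1 - (β⁻¹) ^ j) with hw'
  -- (1)
  have s1 : 1 / 2 * g ≤ |φ (w' * β ^ (h : ℤ))| := by
    have e1 : w' * β ^ (h : ℤ) = w * β ^ (h : ℤ) - w * β ^ ((h : ℤ) - j) := by
      rw [hw', zpow_sub₀ hβ.ne', zpow_natCast, zpow_natCast, inv_pow]; ring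
    rw [e1]
    have h2 := phi_pert_lower h1 hφ (w * β ^ (h : ℤ)) (w * β ^ ((h : ℤ) - j)) μ R' hμ ?_ ?_ ?_
    · refine le_trans ?_ h2
      apply mul_le_mul_of_nonneg_left _ (by norm_num)
      refine hD.gg.2.trans ?_
      have := phi_mono h1 hφ w (h : ℤ) (N : ℤ) (by omega)
      rwa [zpow_natCast β N] at this
    · intro i _
      have e2 : w * β ^ (h : ℤ) * β ^ i = w * β ^ ((h : ℤ) + i) := by
        rw [mul_assoc, ← zpow_add₀ hβ.ne']
      rw [e2]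
      exact (hD.mu _).2
    · rw [abs_mul, abs_of_pos (zpow_pos hβ _)]
      exact tail h1 hD.wH _ hT _ (by omega)
    · nlinarith
  -- (2)
  have s2 : 1 / 2 * g ≤ ∏ i ∈ range j, |Real.cos (2 * Real.pi * (w' * β ^ ((h : ℤ) + i + 1)))| := by
    have h3 : 1 / 2 * ∏ i ∈ range j, |Real.cos (2 * Real.pi * (x * β ^ ((j : ℤ) - ((h : ℤ) + i + 1))))| ≤
        ∏ i ∈ range j, |Real.cos (2 * Real.pi * (w' * β ^ ((h : ℤ) + i + 1)))| := by
      apply prod_lower (range j) _ _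
        (fun i => 2 * Real.pi * (|x| * β ^ (-((h : ℤ) + i + 1)) + 2 * R')) μ hμ
      · intro i _
        have : 0 ≤ |x| * β ^ (-((h : ℤ) + i + 1)) := mul_nonneg (abs_nonneg _) (zpow_pos hβ _).le
        positivity
      · intro i _; exact (hD.mu _).1
      · intro i _
        obtain ⟨K, δ, hK, hδ⟩ := congW h1 hζ hD.pt j R' hz ((h : ℤ) + i + 1)
        have := abs_cos_ge _ (x * β ^ ((j : ℤ) - ((h : ℤ) + i + 1))) δ K (Or.inl hK)
        refine le_trans ?_ this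
        have h4 : 2 * Real.pi * |δ| ≤ 2 * Real.pi * (|x| * β ^ (-((h : ℤ) + i + 1)) + 2 * R') :=
          mul_le_mul_of_nonneg_left hδ Real.two_pi_pos.le
        linarith
      · rw [← Finset.mul_sum, Finset.sum_add_distrib]
        have h5 : ∑ i ∈ range j, |x| * β ^ (-((h : ℤ) + i + 1)) ≤ R' := by
          have := geo_tail h1 hD.xH R' hT (-(h : ℤ) - 1) (by omega) j
          refine le_trans (le_of_eq ?_) this
          apply Finset.sum_congr rfl
          intro i _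
          congr 2
          ring
        have h6 : ∑ i ∈ range j, 2 * R' = j * (2 * R') := by
          rw [Finset.sum_const, Finset.card_range, nsmul_eq_mul]
        rw [h6]
        have h7 : (j : ℝ) ≤ 2 * N := by exact_mod_cast hj2
        have h8 : ∑ i ∈ range j, |x| * β ^ (-((h : ℤ) + i + 1)) + j * (2 * R') ≤
            (4 * N + 1) * R' := by nlinarith
        calc 2 * Real.pi * _ ≤ 2 * Real.pi * ((4 * N + 1) * R') :=
              mul_le_mul_of_nonneg_left h8 Real.two_pi_pos.le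
          _ ≤ μ / 2 := by nlinarith
    refine le_trans ?_ h3
    apply mul_le_mul_of_nonneg_left _ (by norm_num)
    have h9 : ∏ i ∈ range j, |Real.cos (2 * Real.pi * (x * β ^ ((j : ℤ) - ((h : ℤ) + i + 1))))| =
        ∏ i ∈ range j, |Real.cos (2 * Real.pi * (x * β ^ (-(h : ℤ) - 1 + i + 1)))| := by
      rw [← Finset.prod_range_reflect]
      apply Finset.prod_congr rfl
      intro i hi
      have := Finset.mem_range.mp hi
      congr 5
      omega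
    rw [h9]
    refine le_trans ?_ (phi_prod_ge h1 hφ x (-(h : ℤ) - 1) j)
    refine hD.gg.1.trans ?_
    have := phi_mono h1 hφ x (-(h : ℤ) - 1 + (j : ℤ)) (N : ℤ) (by omega)
    rwa [zpow_natCast] at this
  -- (3)
  have s3 : Real.exp (-640) ≤
      ∏ i ∈ range N', |Real.cos (2 * Real.pi * (w' * β ^ (((h : ℤ) + j) + i + 1)))| := by
    have h4 := prod_near (range N')
      (fun i : ℕ => |Real.cos (2 * Real.pi * (w' * β ^ (((h : ℤ) + j) + i + 1)))|)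
      (40 * (4 * R') ^ 2) ?_
    · refine le_trans ?_ h4
      apply Real.exp_le_exp.mpr
      rw [Finset.card_range]
      nlinarith
    · intro i _
      obtain ⟨K, δ, hK, hδ⟩ := congW h1 hζ hD.pt j R' hz (((h : ℤ) + j) + i + 1)
      have h5 : |x| * β ^ ((j : ℤ) - (((h : ℤ) + j) + i + 1)) ≤ R' :=
        tail h1 hD.xH _ hTR _ (by omega)
      have h6 : |x| * β ^ (-(((h : ℤ) + j) + i + 1)) ≤ R' := tail h1 hD.xH _ hTR _ (by omega)
      have h7 : |x * β ^ ((j : ℤ) - (((h : ℤ) + j) + i + 1)) + δ| ≤ 4 * R' := by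
        refine (abs_add_le _ _).trans ?_
        rw [abs_mul, abs_of_pos (zpow_pos hβ _)]
        linarith
      have h8 := abs_cos_near _ _ K (Or.inl hK) (by linarith)
      refine le_trans ?_ h8
      apply Real.exp_le_exp.mpr
      have h9 : (x * β ^ ((j : ℤ) - (((h : ℤ) + j) + i + 1)) + δ) ^ 2 ≤ (4 * R') ^ 2 := by
        rw [← sq_abs (x * β ^ ((j : ℤ) - (((h : ℤ) + j) + i + 1)) + δ)]
        exact pow_le_pow_left₀ (abs_nonneg _) h7 2
      linarith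
  -- combine
  have c1 : |φ (w' * β ^ (((h : ℤ) + j) + N'))| ≤ |φ (w' * β ^ N')| := by
    have := phi_mono h1 hφ w' (N' : ℤ) (((h : ℤ) + j) + N') (by omega)
    rwa [zpow_natCast] at this
  refine le_trans ?_ c1
  rw [phi_up h1 hφ w' ((h : ℤ) + j) N', abs_mul, Finset.abs_prod]
  have c2 : φ (w' * β ^ ((h : ℤ) + j)) = φ (w' * β ^ (h : ℤ)) *
      ∏ i ∈ range j, Real.cos (2 * Real.pi * (w' * β ^ ((h : ℤ) + i + 1))) :=
    phi_up h1 hφ w' (h : ℤ) j
  rw [c2, abs_mul, Finset.abs_prod]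
  have hexp : Real.exp (-1000) ≤ Real.exp (-640) * (1 / 4) := by
    have : Real.exp (-1000) = Real.exp (-640) * Real.exp (-360) := by
      rw [← Real.exp_add]; norm_num
    rw [this]
    apply mul_le_mul_of_nonneg_left _ (Real.exp_pos _).le
    have h5 : Real.exp (-360) ≤ Real.exp (-3) := Real.exp_le_exp.mpr (by norm_num)
    have h6 : Real.exp (-3) ≤ 1 / (1 + 3) := by
      rw [Real.exp_neg, ← one_div]
      apply one_div_le_one_div_of_le (by norm_num)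
      have := Real.add_one_le_exp (3 : ℝ)
      linarith
    linarith
  calc Real.exp (-1000) * g ^ 2 ≤ Real.exp (-640) * (1 / 4) * g ^ 2 :=
        mul_le_mul_of_nonneg_right hexp (sq_nonneg g)
    _ = (1 / 2 * g) * (1 / 2 * g) * Real.exp (-640) := by ring
    _ ≤ _ := by
        apply mul_le_mul _ s3 (Real.exp_pos _).le (mul_nonneg (abs_nonneg _) (Finset.prod_nonneg (fun i _ => abs_nonneg _)))
        exact mul_le_mul s1 s2 (by positivity) (abs_nonneg _)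

end Step

theorem step (hMu : StepMuStmt) : StepStmt := by
  intro β ζ φ C h1 hi hi' hζ hφ x w z H N R μ g hD hμ hg j T N' R' hR0 hj1 hj2 hj3 hT hR hN' hsm
  have hz : ‖z * (1 - ζ ^ j)‖ ≤ R' := by
    rw [norm_mul]
    exact (mul_le_mul_of_nonneg_right hD.zR (norm_nonneg _)).trans hR
  have hj0 : 1 ≤ j := by
    by_contra h0
    have : j = 0 := by omega
    rw [this] at hj3
    norm_num at hj3
  obtain ⟨a1, a2, a3, a4, a5⟩ := hMu β ζ h1 hi hi' hζ x w z H μ hD.pt hD.x1 hD.xH hD.wH hD.mu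
    j T R' hR0 hj1 hj3 hT hz
  exact ⟨a1, a2, hz, a3, a4, a5,
    Step.gx h1 hζ hφ hD hμ hg hR0 hj1 hj2 hT hz hN' hsm,
    Step.gw h1 hζ hφ hD hμ hg hR0 hj1 hj2 hj0 hT hz hN' hsm⟩

end Crest.Agent.BC
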