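import Crest.Agent.BCStep

set_option autoImplicit false

namespace Crest.Agent.BC

open Finset MeasureTheory Filter Pert Step

theorem pt_mul {β : ℝ} {ζ : ℂ} {x w : ℝ} {z : ℂ} (h1 : 1 < β) (hi : IsIntegral ℤ β)
    (hi' : IsIntegral ℤ β⁻¹) (hζ : ‖ζ‖ = 1) (h : Pt β ζ x w z) (j : ℕ) :
    Pt β ζ (x * (1 - β ^ j)) (w * (1 - (β⁻¹) ^ j)) (z * (1 - ζ ^ j)) := by
  have hβ : 0 < β := by linarith
  have hζ0 : ζ ≠ 0 := by
    intro h0; rw [h0, norm_zero] at hζ; norm_num at hζ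
  refine ⟨?_, ?_, ?_⟩
  · intro i
    obtain ⟨k1, hk1⟩ := h.int i
    obtain ⟨k2, hk2⟩ := h.int (i + j)
    refine ⟨k1 - k2, ?_⟩
    have e1 : x * (1 - β ^ j) * β ^ i = x * β ^ i - x * β ^ (i + j) := by
      rw [zpow_add₀ hβ.ne', zpow_natCast]; ring
    have e2 : z * (1 - ζ ^ j) * ζ ^ i = z * ζ ^ i - z * ζ ^ (i + j) := by
      rw [zpow_add₀ hζ0, zpow_natCast]; ring
    have e3 : w * (1 - (β⁻¹) ^ j) * β ^ (-i) = w * β ^ (-i) - w * β ^ (-(i + (j : ℤ))) := by
      rw [show -(i + (j : ℤ)) = -i + -(j : ℤ) by ring, zpow_add₀ hβ.ne', zpow_neg β (j : ℤ),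
        zpow_natCast, inv_pow]
      ring
    rw [e1, e2, e3, Complex.sub_re]
    push_cast
    rw [← hk1, ← hk2]
    ring
  · exact h.ix.mul (isIntegral_one.sub (hi.pow j))
  · exact h.iw.mul (isIntegral_one.sub (hi'.pow j))

theorem stepMu : StepMuStmt := by
  intro β ζ h1 hi hi' hζ x w z H μ hpt hx1 hxH hwH hmu j T R' hR0 hj1 hj3 hT hz
  have hβ : 0 < β := by linarith
  have hlt : β⁻¹ < 1 := inv_lt_one_of_one_lt₀ h1
  have hTR : (β⁻¹) ^ T ≤ R' := hT.trans (by nlinarith [inv_pos.mpr hβ])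
  have hpi := Real.pi_lt_d2
  have hpi0 := Real.pi_gt_three
  have hbj : |1 - β ^ j| = β ^ j - 1 := by
    rw [abs_sub_comm, abs_of_nonneg (by linarith)]
  have hpow : 0 < β ^ j := by positivity
  have hpow' : 0 ≤ (β⁻¹) ^ j := by positivity
  have hpow1 : (β⁻¹) ^ j ≤ 1 := pow_le_one₀ (by positivity) hlt.le
  refine ⟨pt_mul h1 hi hi' hζ hpt j, ?_, ?_, ?_, ?_⟩
  · rw [abs_mul, hbj]
    nlinarith [abs_nonneg x]
  · rw [abs_mul, hbj, pow_add]
    apply mul_le_mul hxH (by linarith) (by linarith) (by positivity)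
  · rw [abs_mul, pow_add]
    have : |1 - (β⁻¹) ^ j| ≤ β ^ j := by
      rw [abs_of_nonneg (by linarith)]
      linarith
    exact mul_le_mul hwH this (abs_nonneg _) (by positivity)
  · set h : ℕ := j / 2 with hh
    have hh1 : H + T ≤ h := by omega
    have hh3 : 2 * h ≤ j := by omega
    intro e
    constructor
    · by_cases he : e ≤ -(h : ℤ)
      · -- x' β^e = x β^e - x β^(e+j)
        have e1 : x * (1 - β ^ j) * β ^ e = ((0 : ℤ) : ℝ) - (x * β ^ (e + j) + (-(x * β ^ e))) := by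
          rw [zpow_add₀ hβ.ne', zpow_natCast]; push_cast; ring
        have h2 := abs_cos_ge _ _ _ 0 (Or.inr e1)
        have h3 : |(-(x * β ^ e))| ≤ R' := by
          rw [abs_neg, abs_mul, abs_of_pos (zpow_pos hβ _)]
          exact tail h1 hxH _ hTR _ (by omega)
        have h4 := (hmu (e + j)).1
        nlinarith
      · obtain ⟨K, δ, hK, hδ⟩ := congX h1 hζ hpt j R' hz e
        have h2 := abs_cos_ge _ _ _ K (Or.inr hK)
        have h3 : |w| * β ^ (-e - j) ≤ R' := tail h1 hwH _ hTR _ (by omega)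
        have h4 := (hmu (-e)).2
        nlinarith
    · by_cases he : e ≤ (h : ℤ)
      · have e1 : w * (1 - (β⁻¹) ^ j) * β ^ e =
            ((0 : ℤ) : ℝ) + (w * β ^ e + (-(w * β ^ (e - j)))) := by
          rw [zpow_sub₀ hβ.ne', zpow_natCast, inv_pow]; push_cast; ring
        have h2 := abs_cos_ge _ _ _ 0 (Or.inl e1)
        have h3 : |(-(w * β ^ (e - j)))| ≤ R' := by
          rw [abs_neg, abs_mul, abs_of_pos (zpow_pos hβ _)]
          exact tail h1 hwH _ hTR _ (by omega)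
        have h4 := (hmu e).2
        nlinarith
      · obtain ⟨K, δ, hK, hδ⟩ := congW h1 hζ hpt j R' hz e
        have h2 := abs_cos_ge _ _ _ K (Or.inl hK)
        have h3 : |x| * β ^ (-e) ≤ R' := tail h1 hxH _ hTR _ (by omega)
        have h4 := (hmu (j - e)).1
        nlinarith

end Crest.Agent.BC
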