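import Crest.Agent.BCDefs

set_option autoImplicit false

namespace Crest.Agent.BC

open Finset MeasureTheory Filter

namespace Trace

theorem zeta_sq {ζ : ℂ} (hζ : ‖ζ‖ = 1) : ζ ^ 2 = ((2 * ζ.re : ℝ) : ℂ) * ζ - 1 := by
  have h1 : ζ.re * ζ.re + ζ.im * ζ.im = 1 := by
    have := Complex.normSq_eq_norm_sq ζ
    rw [hζ, Complex.normSq_apply] at this
    linarith
  apply Complex.ext
  · simp [pow_two, Complex.mul_re]; nlinarith
  · simp [pow_two, Complex.mul_im]; ring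

theorem re_rec {ζ : ℂ} (hζ : ‖ζ‖ = 1) (n : ℕ) :
    (ζ ^ (n + 2)).re = 2 * ζ.re * (ζ ^ (n + 1)).re - (ζ ^ n).re := by
  have : ζ ^ (n + 2) = ((2 * ζ.re : ℝ) : ℂ) * ζ ^ (n + 1) - ζ ^ n := by
    rw [pow_add, zeta_sq hζ]; ring
  rw [this, Complex.sub_re, Complex.re_ofReal_mul]

theorem aux {β : ℝ} {ζ : ℂ} {s p : ℤ} (hβ : β ≠ 0) (hζ : ‖ζ‖ = 1)
    (hs : β + β⁻¹ + 2 * ζ.re = s) (hp : (β + β⁻¹) * (2 * ζ.re) = p) (n : ℕ) :
    (∃ k : ℤ, β ^ n + β⁻¹ ^ n + 2 * (ζ ^ n).re = k) ∧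
    (∃ k : ℤ, β ^ (n + 1) + β⁻¹ ^ (n + 1) + 2 * (ζ ^ (n + 1)).re = k) ∧
    (∃ k : ℤ, (β + β⁻¹) * (β ^ n + β⁻¹ ^ n) + (2 * ζ.re) * (2 * (ζ ^ n).re) = k) ∧
    (∃ k : ℤ, (β + β⁻¹) * (β ^ (n + 1) + β⁻¹ ^ (n + 1)) +
      (2 * ζ.re) * (2 * (ζ ^ (n + 1)).re) = k) := by
  have hinv : β * β⁻¹ = 1 := mul_inv_cancel₀ hβ
  induction n with
  | zero =>
    refine ⟨⟨4, by norm_num⟩, ⟨s, by simpa using hs⟩, ⟨2 * s, ?_⟩, ⟨s ^ 2 - 2 * p, ?_⟩⟩
    · push_cast; rw [← hs]; simp; ring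
    · push_cast; rw [← hs, ← hp]; simp; ring
  | succ n ih =>
    obtain ⟨⟨k1, h1⟩, ⟨k2, h2⟩, ⟨k3, h3⟩, ⟨k4, h4⟩⟩ := ih
    have e1 : β ^ (n + 1 + 1) + β⁻¹ ^ (n + 1 + 1) =
        (β + β⁻¹) * (β ^ (n + 1) + β⁻¹ ^ (n + 1)) - (β ^ n + β⁻¹ ^ n) := by
      have a1 : β⁻¹ * β ^ (n + 1) = β ^ n := by
        rw [pow_succ']; rw [← mul_assoc, inv_mul_cancel₀ hβ, one_mul]
      have a2 : β * β⁻¹ ^ (n + 1) = β⁻¹ ^ n := by
        rw [pow_succ']; rw [← mul_assoc, mul_inv_cancel₀ hβ, one_mul]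
      have : (β + β⁻¹) * (β ^ (n + 1) + β⁻¹ ^ (n + 1)) = β * β ^ (n + 1) +
          β⁻¹ * β⁻¹ ^ (n + 1) + β⁻¹ * β ^ (n + 1) + β * β⁻¹ ^ (n + 1) := by ring
      rw [this, a1, a2, ← pow_succ', ← pow_succ']
      ring
    have e2 := re_rec hζ n
    have e2' : (ζ ^ (n + 1 + 1)).re = 2 * ζ.re * (ζ ^ (n + 1)).re - (ζ ^ n).re := e2
    refine ⟨⟨k2, h2⟩, ⟨k4 - k1, ?_⟩, ⟨k4, h4⟩, ⟨s * k4 - p * k2 - k3, ?_⟩⟩
    · rw [e1, e2']; push_cast; rw [← h4, ← h1]; ring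
    · rw [e1, e2']; push_cast; rw [← h4, ← h3, ← h2, ← hs, ← hp]; ring

end Trace

open Trace in
theorem trace : TraceStmt := by
  intro β ⟨h1, hint, hdeg, hroot, hall⟩
  have hβ0 : β ≠ 0 := by positivity
  have hinv : β * β⁻¹ = 1 := mul_inv_cancel₀ hβ0
  have hmap : minpoly ℚ β = (minpoly ℤ β).map (algebraMap ℤ ℚ) :=
    minpoly.isIntegrallyClosed_eq_field_fractions' ℚ hint
  set P := minpoly ℤ β with hP
  have hPm : P.Monic := minpoly.monic hint
  have hPd : P.natDegree = 4 := by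
    have := hdeg
    rw [hmap, hPm.natDegree_map] at this
    exact this
  -- evaluation
  have hev : ∀ {A : Type} [CommRing A] [Algebra ℚ A] (t : A),
      Polynomial.aeval t (minpoly ℚ β) =
        t ^ 4 + (P.coeff 3 : A) * t ^ 3 + (P.coeff 2 : A) * t ^ 2 + (P.coeff 1 : A) * t +
          (P.coeff 0 : A) := by
    intro A _ _ t
    have hd : (minpoly ℚ β).natDegree < 5 := by omega
    rw [Polynomial.aeval_eq_sum_range' hd]
    have hc4 : (minpoly ℚ β).coeff 4 = 1 := by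
      have := (minpoly.monic (hint.tower_top (A := ℚ))).coeff_natDegree
      rw [hdeg] at this
      exact this
    have hc : ∀ i, (minpoly ℚ β).coeff i = (P.coeff i : ℚ) := by
      intro i
      rw [hmap, Polynomial.coeff_map]; simp
    simp only [Finset.sum_range_succ, Finset.sum_range_zero, hc4]
    rw [hc 0, hc 1, hc 2, hc 3]
    simp only [Algebra.smul_def, map_intCast, map_one]
    ring
  set a := P.coeff 3
  set b := P.coeff 2
  set c := P.coeff 1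
  set d := P.coeff 0
  -- linear independence
  have hlinQ : ∀ q3 q2 q1 q0 : ℚ, (q3 : ℝ) * β ^ 3 + q2 * β ^ 2 + q1 * β + q0 = 0 →
      q3 = 0 ∧ q2 = 0 ∧ q1 = 0 ∧ q0 = 0 := by
    intro q3 q2 q1 q0 hq
    set Q : Polynomial ℚ := Polynomial.C q3 * Polynomial.X ^ 3 +
      Polynomial.C q2 * Polynomial.X ^ 2 + Polynomial.C q1 * Polynomial.X +
      Polynomial.C q0 with hQ
    have hQ0 : Q = 0 := by
      by_contra hne
      have h2 := minpoly.degree_le_of_ne_zero ℚ β hne (by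
        rw [hQ]; simpa using hq)
      have h3 : Q.degree ≤ 3 := by
        rw [hQ]; compute_degree
      rw [Polynomial.degree_eq_natDegree (minpoly.ne_zero (hint.tower_top (A := ℚ))), hdeg] at h2
      exact absurd (h2.trans h3) (by decide)
    have k0 : Q.coeff 0 = q0 := by rw [hQ]; simp
    have k1 : Q.coeff 1 = q1 := by rw [hQ]; simp [Polynomial.coeff_X, Polynomial.coeff_C]
    have k2 : Q.coeff 2 = q2 := by rw [hQ]; simp [Polynomial.coeff_X, Polynomial.coeff_C]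
    have k3 : Q.coeff 3 = q3 := by rw [hQ]; simp [Polynomial.coeff_X, Polynomial.coeff_C]
    rw [hQ0, Polynomial.coeff_zero] at k0 k1 k2 k3
    exact ⟨k3.symm, k2.symm, k1.symm, k0.symm⟩
  have hlin : ∀ q3 q2 q1 q0 : ℤ, (q3 : ℝ) * β ^ 3 + q2 * β ^ 2 + q1 * β + q0 = 0 →
      q3 = 0 ∧ q2 = 0 ∧ q1 = 0 ∧ q0 = 0 := by
    intro q3 q2 q1 q0 hq
    obtain ⟨a3, a2, a1, a0⟩ := hlinQ q3 q2 q1 q0 (by simpa using hq)
    exact ⟨by exact_mod_cast a3, by exact_mod_cast a2, by exact_mod_cast a1,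
      by exact_mod_cast a0⟩
  have r1 : β ^ 4 + a * β ^ 3 + b * β ^ 2 + c * β + d = 0 := by
    rw [← hev β]; exact minpoly.aeval ℚ β
  have r2 : 1 + a * β + b * β ^ 2 + c * β ^ 3 + d * β ^ 4 = 0 := by
    have := hev β⁻¹
    rw [hroot] at this
    have e : (1 + a * β + b * β ^ 2 + c * β ^ 3 + d * β ^ 4 : ℝ) = β ^ 4 *
        (β⁻¹ ^ 4 + a * β⁻¹ ^ 3 + b * β⁻¹ ^ 2 + c * β⁻¹ + d) := by
      field_simp
    rw [e, ← this, mul_zero]
  have r3 := hlin (d * a - c) (d * b - b) (d * c - a) (d * d - 1) (by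
    push_cast; linear_combination (d : ℝ) * r1 - r2)
  obtain ⟨q1, q2, q3, q4⟩ := r3
  have hd : d = 1 := by
    have : d = 1 ∨ d = -1 := by
      have : (d - 1) * (d + 1) = 0 := by linarith
      rcases mul_eq_zero.mp this with h | h
      · left; omega
      · right; omega
    rcases this with h | h
    · exact h
    · exfalso
      rw [h] at q1 q2
      have hc' : c = -a := by omega
      have hb' : b = 0 := by omega
      rw [h, hc', hb'] at r1
      push_cast at r1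
      have : (β ^ 2 - 1) * (β ^ 2 + a * β + 1) = 0 := by linear_combination r1
      rcases mul_eq_zero.mp this with h5 | h5
      · nlinarith
      · have := (hlin 0 1 a 1 (by push_cast; linarith)).2.1
        omega
  have hc : c = a := by rw [hd] at q1; omega
  rw [hd, hc] at r1
  push_cast at r1
  set u : ℝ := β + β⁻¹ with hu
  have hub : β ^ 2 - u * β + 1 = 0 := by
    rw [hu]; linear_combination -hinv
  have hu2 : u ^ 2 + a * u + b - 2 = 0 := by
    have e : β ^ 2 * (u ^ 2 + a * u + b - 2) = β ^ 4 + a * β ^ 3 + b * β ^ 2 + a * β + 1 := by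
      rw [hu]
      field_simp
      ring
    have h6 : β ^ 2 * (u ^ 2 + a * u + b - 2) = 0 := by rw [e]; exact r1
    rcases mul_eq_zero.mp h6 with h | h
    · exact absurd h (pow_ne_zero 2 hβ0)
    · exact h
  set v : ℝ := -a - u with hv
  have huv : u * v = b - 2 := by rw [hv]; linear_combination -hu2
  -- the root ζ
  obtain ⟨ζ, hζ⟩ : ∃ ζ : ℂ, 1 * (ζ * ζ) + (-(v : ℂ)) * ζ + 1 = 0 := by
    apply exists_quadratic_eq_zero one_ne_zero
    obtain ⟨t, ht⟩ := IsAlgClosed.exists_pow_nat_eq (discrim (1 : ℂ) (-(v : ℂ)) 1) (n := 2)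
      (by norm_num)
    exact ⟨t, by rw [← ht, sq]⟩
  have hζr : Polynomial.aeval ζ (minpoly ℚ β) = 0 := by
    rw [hev ζ, hd, hc]
    have h7 : (u : ℂ) + v = -a := by
      rw [hv]; push_cast; ring
    have h8 : (u : ℂ) * v = b - 2 := by exact_mod_cast congrArg (fun t : ℝ => (t : ℂ)) huv
    have e : ζ ^ 4 + (a : ℂ) * ζ ^ 3 + b * ζ ^ 2 + a * ζ + (1 : ℤ) =
        (ζ ^ 2 - u * ζ + 1) * (1 * (ζ * ζ) + (-(v : ℂ)) * ζ + 1) := by
      push_cast
      linear_combination (ζ ^ 3 + ζ) * (-h7) * (-1) * (-1) * (-1) + ζ ^ 2 * (-h8)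
    rw [e, hζ, mul_zero]
  have hnorm : ‖ζ‖ = 1 := by
    rcases hall ζ hζr with h | h | h
    · exfalso
      rw [h] at hζ
      have h9 : 1 * (β * β) + (-v) * β + 1 = 0 := by exact_mod_cast hζ
      have h10 : 2 * β ^ 2 + a * β + 2 = 0 := by
        rw [hv] at h9; linear_combination h9 + hub
      have := (hlin 0 2 a 2 (by push_cast; linarith)).2.1
      omega
    · exfalso
      rw [h] at hζ
      have h9 : 1 * (β⁻¹ * β⁻¹) + (-v) * β⁻¹ + 1 = 0 := by exact_mod_cast hζ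
      have h9' : 1 - v * β + β ^ 2 = 0 := by
        have e : 1 - v * β + β ^ 2 = β ^ 2 * (1 * (β⁻¹ * β⁻¹) + (-v) * β⁻¹ + 1) := by
          field_simp
          ring
        rw [e, h9, mul_zero]
      have h10 : 2 * β ^ 2 + a * β + 2 = 0 := by
        rw [hv] at h9'; linear_combination h9' + hub
      have := (hlin 0 2 a 2 (by push_cast; linarith)).2.1
      omega
    · exact h
  have hv2 : 2 * ζ.re = v := by
    have h11 := zeta_sq hnorm
    have hζ0 : ζ ≠ 0 := by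
      intro h0; rw [h0, norm_zero] at hnorm; norm_num at hnorm
    have h12 : (((2 * ζ.re : ℝ) : ℂ) - v) * ζ = 0 := by
      linear_combination hζ - h11
    rcases mul_eq_zero.mp h12 with h | h
    · have : ((2 * ζ.re : ℝ) : ℂ) = v := sub_eq_zero.mp h
      exact_mod_cast this
    · exact absurd h hζ0
  refine ⟨?_, ζ, hnorm, ?_, ?_, ?_⟩
  · refine ⟨P, hPm, ?_⟩
    have := hroot
    rw [hmap, Polynomial.aeval_map_algebraMap] at this
    exact this
  · intro i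
    have hs : β + β⁻¹ + 2 * ζ.re = ((-a : ℤ) : ℝ) := by
      rw [hv2, hv]; push_cast; ring
    have hp : (β + β⁻¹) * (2 * ζ.re) = ((b - 2 : ℤ) : ℝ) := by
      rw [hv2, ← hu, huv]; push_cast; ring
    obtain ⟨n, rfl | rfl⟩ := Int.eq_nat_or_neg i
    · obtain ⟨k, hk⟩ := (aux hβ0 hnorm hs hp n).1
      refine ⟨k, ?_⟩
      rw [← hk, zpow_neg, zpow_natCast, zpow_natCast, inv_pow]
      ring
    · obtain ⟨k, hk⟩ := (aux hβ0 hnorm hs hp n).1
      refine ⟨k, ?_⟩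
      have e : (ζ ^ (-(n : ℤ))).re = (ζ ^ n).re := by
        rw [zpow_neg, zpow_natCast, Complex.inv_re, Complex.normSq_eq_norm_sq, norm_pow, hnorm]
        simp
      rw [← hk, one_mul, one_mul, one_mul, e, neg_neg, zpow_neg, zpow_natCast, inv_pow]
      ring
  · exact isIntegral_one
  · exact isIntegral_one

end Crest.Agent.BC
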