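import Crest.Agent.CPPath

set_option autoImplicit false

namespace Crest.Agent.CP
open MeasureTheory PG

variable {Γ X : Type} [Group Γ] [Countable Γ] [MeasurableSpace X] [MulAction Γ X]

namespace Fold

omit [Countable Γ] in
theorem wval_eq_lift (ρ : AL → Γ) (ω : List (AL × Bool)) :
    wval ρ ω = FreeGroup.lift ρ (FreeGroup.mk ω) := by
  rw [FreeGroup.lift_mk]
  unfold wval lval
  congr 1
  apply List.map_congr_left
  intro c _
  cases c.2 <;> simp

omit [Countable Γ] in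
theorem wval_one (ρ : AL → Γ) (ω : List (AL × Bool)) (h : FreeGroup.mk ω = 1) :
    wval ρ ω = 1 := by
  rw [wval_eq_lift, h, map_one]

theorem mk_cancel (s : AL) (b : Bool) :
    FreeGroup.mk ([(s, b)] ++ [(s, !b)]) = (1 : FreeGroup AL) :=
  Quot.sound (FreeGroup.Red.Step.not (L₁ := []) (L₂ := []) (x := s) (b := b))

/-- the equivalence -/
def Eqv {ρ : AL → Γ} {ι : Type} (K : PG ρ X ι) (x : X) (i i' : ι) : Prop :=
  ∃ ω : List (AL × Bool), FreeGroup.mk ω = 1 ∧ K.Path ω (x, i) (x, i')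

theorem mk_winv (ω : List (AL × Bool)) : FreeGroup.mk (winv ω) = (FreeGroup.mk ω)⁻¹ := by
  rw [FreeGroup.inv_mk]
  rfl

omit [Countable Γ] in
theorem Eqv.symm {ρ : AL → Γ} {ι : Type} {K : PG ρ X ι} {x : X} {i i' : ι}
    (h : Eqv K x i i') : Eqv K x i' i := by
  obtain ⟨ω, h1, h2⟩ := h
  exact ⟨winv ω, by rw [mk_winv, h1, inv_one], (path_winv K ω _ _).2 h2⟩

omit [Countable Γ] in
theorem Eqv.trans {ρ : AL → Γ} {ι : Type} {K : PG ρ X ι} {x : X} {i i' i'' : ι}
    (h : Eqv K x i i') (h' : Eqv K x i' i'') : Eqv K x i i'' := by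
  obtain ⟨ω, h1, h2⟩ := h
  obtain ⟨ω', h1', h2'⟩ := h'
  refine ⟨ω ++ ω', ?_, (path_append K ω ω' _ _).2 ⟨_, h2, h2'⟩⟩
  rw [← FreeGroup.mul_mk, h1, h1', one_mul]

omit [Countable Γ] in
theorem Eqv.refl {ρ : AL → Γ} {ι : Type} {K : PG ρ X ι} {x : X} {i : ι}
    (h : (x, i) ∈ K.V) : Eqv K x i i := ⟨[], by rw [← FreeGroup.one_eq_mk], h, rfl⟩

omit [Countable Γ] in
theorem meas_eqv {ρ : AL → Γ} {ι : Type} [Countable ι]
    (hm : ∀ g : Γ, Measurable (fun x : X => g • x)) (K : PG ρ X ι) (i i' : ι) :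
    MeasurableSet {x | Eqv K x i i'} := by
  have : {x | Eqv K x i i'} = ⋃ ω : List (AL × Bool), {x | FreeGroup.mk ω = 1 ∧ K.Path ω (x, i) (x, i')} := by
    ext x
    simp only [Set.mem_ofPred_eq, Set.mem_iUnion]
    rfl
  rw [this]
  refine MeasurableSet.iUnion fun ω => ?_
  by_cases h : FreeGroup.mk ω = 1
  · have h2 := path_meas hm K ω i i'
    rw [wval_one ρ ω h] at h2
    simpa [h] using h2
  · simp [h]

/-- the set of codes in the class -/
def CS {ρ : AL → Γ} {ι : Type} (K : PG ρ X ι) (code : ι → ℕ) (x : X) (i : ι) : Set ℕ :=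
  {n | ∃ i', code i' = n ∧ (i' = i ∨ Eqv K x i i')}

/-- the folding map -/
noncomputable def ff {ρ : AL → Γ} {ι : Type} (K : PG ρ X ι) (code : ι → ℕ) (p : X × ι) : ℕ :=
  sInf (CS K code p.1 p.2)

omit [Countable Γ] in
theorem CS_ne {ρ : AL → Γ} {ι : Type} (K : PG ρ X ι) (code : ι → ℕ) (x : X) (i : ι) :
    (CS K code x i).Nonempty := ⟨code i, i, rfl, Or.inl rfl⟩

omit [Countable Γ] in
theorem ff_eq_iff {ρ : AL → Γ} {ι : Type} (K : PG ρ X ι) (code : ι → ℕ) (x : X) (i : ι) (k : ℕ) :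
    ff K code (x, i) = k ↔ k ∈ CS K code x i ∧ ∀ n < k, n ∉ CS K code x i := by
  constructor
  · intro h
    subst h
    exact ⟨Nat.sInf_mem (CS_ne K code x i), fun n hn => Nat.notMem_of_lt_sInf hn⟩
  · rintro ⟨h1, h2⟩
    apply le_antisymm
    · exact Nat.sInf_le h1
    · by_contra hlt
      exact h2 _ (not_le.1 hlt) (Nat.sInf_mem (CS_ne K code x i))

omit [Countable Γ] in
theorem meas_CS {ρ : AL → Γ} {ι : Type} [Countable ι]
    (hm : ∀ g : Γ, Measurable (fun x : X => g • x)) (K : PG ρ X ι) (code : ι → ℕ) (i : ι) (n : ℕ) :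
    MeasurableSet {x | n ∈ CS K code x i} := by
  have : {x | n ∈ CS K code x i} = ⋃ i' : ι, {x | code i' = n ∧ (i' = i ∨ Eqv K x i i')} := by
    ext x
    simp only [Set.mem_ofPred_eq, Set.mem_iUnion]
    rfl
  rw [this]
  refine MeasurableSet.iUnion fun i' => ?_
  by_cases h : code i' = n
  · by_cases h' : i' = i
    · simp [h, h']
    · have := meas_eqv hm K i i'
      simpa [h, h'] using this
  · simp [h]

omit [Countable Γ] in
theorem meas_ff {ρ : AL → Γ} {ι : Type} [Countable ι]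
    (hm : ∀ g : Γ, Measurable (fun x : X => g • x)) (K : PG ρ X ι) (code : ι → ℕ) (i : ι) (k : ℕ) :
    MeasurableSet {x | ff K code (x, i) = k} := by
  have : {x | ff K code (x, i) = k} =
      {x | k ∈ CS K code x i} ∩ ⋂ n : ℕ, ⋂ _ : n < k, {x | n ∈ CS K code x i}ᶜ := by
    ext x
    simp only [Set.mem_ofPred_eq, Set.mem_inter_iff, Set.mem_iInter, Set.mem_compl_iff]
    exact ff_eq_iff K code x i k
  rw [this]
  refine (meas_CS hm K code i k).inter ?_
  refine MeasurableSet.iInter fun n => MeasurableSet.iInter fun _ => ?_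
  exact (meas_CS hm K code i n).compl

omit [Countable Γ] in
theorem ff_eq_of_eqv {ρ : AL → Γ} {ι : Type} (K : PG ρ X ι) (code : ι → ℕ) (x : X) (i i' : ι)
    (h : Eqv K x i i') (hi : (x, i) ∈ K.V) (hi' : (x, i') ∈ K.V) :
    ff K code (x, i) = ff K code (x, i') := by
  have : CS K code x i = CS K code x i' := by
    ext n
    constructor
    · rintro ⟨i1, h1, h2⟩
      refine ⟨i1, h1, Or.inr ?_⟩
      rcases h2 with h2 | h2
      · subst h2; exact h.symm
      · exact h.symm.trans h2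
    · rintro ⟨i1, h1, h2⟩
      refine ⟨i1, h1, Or.inr ?_⟩
      rcases h2 with h2 | h2
      · subst h2; exact h
      · exact h.trans h2
  unfold ff
  simp only [this]

omit [Countable Γ] in
theorem eqv_of_ff_eq {ρ : AL → Γ} {ι : Type} (K : PG ρ X ι) (code : ι → ℕ)
    (hcode : Function.Injective code) (x : X) (i i' : ι)
    (hi : (x, i) ∈ K.V) (hi' : (x, i') ∈ K.V) (h : ff K code (x, i) = ff K code (x, i')) :
    Eqv K x i i' := by
  obtain ⟨i1, h1, h2⟩ := ((ff_eq_iff K code x i _).1 rfl).1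
  obtain ⟨i1', h1', h2'⟩ := ((ff_eq_iff K code x i' _).1 rfl).1
  have e : i1 = i1' := hcode (by rw [h1, h1', h])
  subst e
  have a : Eqv K x i i1 := by
    rcases h2 with h2 | h2
    · subst h2; exact Eqv.refl hi
    · exact h2
  have b : Eqv K x i' i1 := by
    rcases h2' with h2 | h2
    · subst h2; exact Eqv.refl hi'
    · exact h2
  exact a.trans b.symm

/-- the folded graph -/
noncomputable def FG {ρ : AL → Γ} {ι : Type} [Countable ι]
    (hm : ∀ g : Γ, Measurable (fun x : X => g • x)) (K : PG ρ X ι) (code : ι → ℕ)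
    (ho : code K.o = 0) : PG ρ X ℕ where
  V := {p | ∃ i, (p.1, i) ∈ K.V ∧ ff K code (p.1, i) = p.2}
  E := fun s => {e | ∃ j' k', (e.1, (j', k')) ∈ K.E s ∧ ff K code (e.1, j') = e.2.1 ∧
    ff K code ((ρ s)⁻¹ • e.1, k') = e.2.2}
  o := 0
  mV := by
    intro k
    have : {x : X | (x, k) ∈ {p : X × ℕ | ∃ i, (p.1, i) ∈ K.V ∧ ff K code (p.1, i) = p.2}} =
        ⋃ i, ({x | (x, i) ∈ K.V} ∩ {x | ff K code (x, i) = k}) := by
      ext x
      simp
    rw [this]
    exact MeasurableSet.iUnion fun i => (K.mV i).inter (meas_ff hm K code i k)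
  mE := by
    rintro s ⟨j, k⟩
    have : {x : X | (x, (j, k)) ∈ {e : X × (ℕ × ℕ) | ∃ j' k', (e.1, (j', k')) ∈ K.E s ∧
        ff K code (e.1, j') = e.2.1 ∧ ff K code ((ρ s)⁻¹ • e.1, k') = e.2.2}} =
        ⋃ j', ⋃ k', ({x | (x, (j', k')) ∈ K.E s} ∩ ({x | ff K code (x, j') = j} ∩
          (fun x : X => (ρ s)⁻¹ • x) ⁻¹' {x | ff K code (x, k') = k})) := by
      ext x
      simp
    rw [this]
    exact MeasurableSet.iUnion fun j' => MeasurableSet.iUnion fun k' =>
      (K.mE s (j', k')).inter ((meas_ff hm K code j' j).inter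
        ((hm _) (meas_ff hm K code k' k)))
  thick := by
    intro x
    refine ⟨K.o, K.thick x, ?_⟩
    rw [ff_eq_iff]
    refine ⟨⟨K.o, ho, Or.inl rfl⟩, fun n hn => absurd hn (Nat.not_lt_zero _)⟩
  src := by
    rintro s x j k ⟨j', k', h1, h2, h3⟩
    exact ⟨j', K.src _ _ _ _ h1, h2⟩
  tgt := by
    rintro s x j k ⟨j', k', h1, h2, h3⟩
    exact ⟨k', K.tgt _ _ _ _ h1, h3⟩

omit [Countable Γ] in
theorem FG_folded {ρ : AL → Γ} {ι : Type} [Countable ι]
    (hm : ∀ g : Γ, Measurable (fun x : X => g • x)) (K : PG ρ X ι) (code : ι → ℕ)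
    (ho : code K.o = 0) (hcode : Function.Injective code) : (FG hm K code ho).Folded := by
  rintro ⟨s, b⟩ u v v' h h'
  cases b with
  | true =>
    simp only [step, if_true] at h h'
    obtain ⟨hv, j1, k1, he1, hj1, hk1⟩ := h
    obtain ⟨hv', j2, k2, he2, hj2, hk2⟩ := h'
    have e : Eqv K u.1 j1 j2 := eqv_of_ff_eq K code hcode _ _ _ (K.src _ _ _ _ he1)
      (K.src _ _ _ _ he2) (by rw [hj1, hj2])
    obtain ⟨ω, hω1, hω2⟩ := e
    have e2 : Eqv K ((ρ s)⁻¹ • u.1) k1 k2 := by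
      refine ⟨(s, false) :: (ω ++ [(s, true)]), ?_, ?_⟩
      · have : FreeGroup.mk ((s, false) :: (ω ++ [(s, true)])) =
            FreeGroup.mk [(s, false)] * (FreeGroup.mk ω * FreeGroup.mk [(s, true)]) := by
          rw [FreeGroup.mul_mk, FreeGroup.mul_mk]; rfl
        rw [this, hω1, one_mul, FreeGroup.mul_mk]
        exact mk_cancel s false
      · refine ⟨(u.1, j1), ?_, ?_⟩
        · simp only [step, Bool.false_eq_true, if_false]
          exact ⟨trivial, he1⟩
        · rw [path_append]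
          refine ⟨(u.1, j2), hω2, ((ρ s)⁻¹ • u.1, k2), ?_, ?_⟩
          · simp only [step, if_true]
            exact ⟨trivial, he2⟩
          · exact ⟨K.tgt _ _ _ _ he2, rfl⟩
    have e3 := ff_eq_of_eqv K code _ _ _ e2 (K.tgt _ _ _ _ he1) (K.tgt _ _ _ _ he2)
    apply Prod.ext
    · rw [hv, hv']
    · simp only at hk1 hk2
      rw [← hk1, ← hk2, e3]
  | false =>
    simp only [step, Bool.false_eq_true, if_false] at h h'
    obtain ⟨hv, j1, k1, he1, hj1, hk1⟩ := h
    obtain ⟨hv', j2, k2, he2, hj2, hk2⟩ := h'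
    have hvv : v.1 = v'.1 := by
      have := hv.symm.trans hv'
      exact smul_left_cancel _ this
    simp only at he1 he2 hj1 hj2 hk1 hk2
    rw [← hvv] at he2 hj2 hk2
    have e : Eqv K ((ρ s)⁻¹ • v.1) k1 k2 := eqv_of_ff_eq K code hcode _ _ _ (K.tgt _ _ _ _ he1)
      (K.tgt _ _ _ _ he2) (by rw [hk1, hk2])
    obtain ⟨ω, hω1, hω2⟩ := e
    have e2 : Eqv K v.1 j1 j2 := by
      refine ⟨(s, true) :: (ω ++ [(s, false)]), ?_, ?_⟩
      · have : FreeGroup.mk ((s, true) :: (ω ++ [(s, false)])) =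
            FreeGroup.mk [(s, true)] * (FreeGroup.mk ω * FreeGroup.mk [(s, false)]) := by
          rw [FreeGroup.mul_mk, FreeGroup.mul_mk]; rfl
        rw [this, hω1, one_mul, FreeGroup.mul_mk]
        exact mk_cancel s true
      · refine ⟨((ρ s)⁻¹ • v.1, k1), ?_, ?_⟩
        · simp only [step, if_true]
          exact ⟨trivial, he1⟩
        · rw [path_append]
          refine ⟨((ρ s)⁻¹ • v.1, k2), hω2, (v.1, j2), ?_, ?_⟩
          · simp only [step, Bool.false_eq_true, if_false]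
            exact ⟨trivial, he2⟩
          · exact ⟨K.src _ _ _ _ he2, rfl⟩
    have e3 := ff_eq_of_eqv K code _ _ _ e2 (K.src _ _ _ _ he1) (K.src _ _ _ _ he2)
    apply Prod.ext
    · exact hvv
    · rw [← hj1, ← hj2, e3]

omit [Countable Γ] in
theorem FG_mor {ρ : AL → Γ} {ι : Type} [Countable ι]
    (hm : ∀ g : Γ, Measurable (fun x : X => g • x)) (K : PG ρ X ι) (code : ι → ℕ)
    (ho : code K.o = 0) : Mor K (FG hm K code ho) (ff K code) where
  meas := fun i k => meas_ff hm K code i k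
  o := by
    intro x
    show _ = 0
    rw [ff_eq_iff]
    exact ⟨⟨K.o, ho, Or.inl rfl⟩, fun n hn => absurd hn (Nat.not_lt_zero _)⟩
  V := fun x i h => ⟨i, h, rfl⟩
  E := fun s x j k h => ⟨j, k, h, rfl, rfl⟩

omit [Countable Γ] in
theorem lift_aux {ρ : AL → Γ} {ι : Type} [Countable ι]
    (hm : ∀ g : Γ, Measurable (fun x : X => g • x)) (K : PG ρ X ι) (code : ι → ℕ)
    (ho : code K.o = 0) (hcode : Function.Injective code) (c : AL → X × ℕ → ℝ)
    (ω : List (AL × Bool)) : ∀ (x : X) (i : ι) (v : X × ℕ) (t : ℝ),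
        (x, i) ∈ K.V → (FG hm K code ho).PS c ω (x, ff K code (x, i)) v t →
        ∃ (ω' : List (AL × Bool)) (i' : ι),
          K.PS (fun s w => c s (w.1, ff K code w)) ω' (x, i) (v.1, i') t ∧
          ff K code (v.1, i') = v.2 ∧ FreeGroup.mk ω' = FreeGroup.mk ω := by
  induction ω with
  | nil =>
    intro x i v t hi h
    obtain ⟨h1, h2, h3⟩ := h
    subst h2
    exact ⟨[], i, ⟨hi, rfl, h3⟩, rfl, rfl⟩
  | cons d ω ih =>
    intro x i v t hi h
    obtain ⟨w, t', hs, hr, ht⟩ := h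
    obtain ⟨s, b⟩ := d
    -- find the lifted edge
    have key : ∃ j' k', (x, j') ∈ K.V ∧ (w.1, k') ∈ K.V ∧ K.step (s, b) (x, j') (w.1, k') ∧
        ff K code (x, j') = ff K code (x, i) ∧ ff K code (w.1, k') = w.2 := by
      cases b with
      | true =>
        simp only [step, if_true] at hs ⊢
        obtain ⟨hv, j1, k1, he1, hj1, hk1⟩ := hs
        refine ⟨j1, k1, K.src _ _ _ _ he1, ?_, ⟨hv, he1⟩, hj1, ?_⟩
        · rw [hv]; exact K.tgt _ _ _ _ he1
        · rw [hv]; exact hk1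
      | false =>
        simp only [step, Bool.false_eq_true, if_false] at hs ⊢
        obtain ⟨hv, j1, k1, he1, hj1, hk1⟩ := hs
        refine ⟨k1, j1, ?_, K.src _ _ _ _ he1, ⟨hv, he1⟩, ?_, hj1⟩
        · have := K.tgt _ _ _ _ he1
          simp only at this
          rw [← hv] at this; exact this
        · simp only at hk1
          rw [← hv] at hk1; exact hk1
    obtain ⟨j', k', hj'V, hk'V, hstep, hj', hk'⟩ := key
    obtain ⟨π, hπ1, hπ2⟩ := eqv_of_ff_eq K code hcode x i j' hi hj'V hj'.symm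
    obtain ⟨t0, ht0⟩ := ps_exists K (fun s w => c s (w.1, ff K code w)) π _ _ hπ2
    have hm0 := ps_map K (FG hm K code ho) (ff K code) (FG_mor hm K code ho) c π _ _ t0 ht0
    have hnil : (FG hm K code ho).PS c [] (x, ff K code (x, i)) (x, ff K code (x, i)) 0 :=
      ⟨(FG_mor hm K code ho).V _ _ hi, rfl, rfl⟩
    have hu := ps_unique (FG hm K code ho) (FG_folded hm K code ho hcode) c π []
      (by rw [hπ1, ← FreeGroup.one_eq_mk]) _ _ _ _ _ hm0 hnil
    have ht00 : t0 = 0 := hu.2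
    have hw : (FG hm K code ho).PS c ω (w.1, ff K code (w.1, k')) v t' := by
      rw [hk']; exact hr
    obtain ⟨ω', i', h1, h2, h3⟩ := ih w.1 k' v t' hk'V hw
    refine ⟨π ++ (s, b) :: ω', i', ?_, h2, ?_⟩
    · rw [ps_append]
      refine ⟨(x, j'), t0, t, ht0, ⟨(w.1, k'), t', hstep, h1, ?_⟩, by rw [ht00, zero_add]⟩
      rw [ht]
      congr 1
      cases b with
      | true => simp [hj']
      | false => simp [hk']
    · rw [← FreeGroup.mul_mk, hπ1, one_mul]
      have e1 : FreeGroup.mk ((s, b) :: ω') = FreeGroup.mk [(s, b)] * FreeGroup.mk ω' := by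
        rw [FreeGroup.mul_mk]; rfl
      have e2 : FreeGroup.mk ((s, b) :: ω) = FreeGroup.mk [(s, b)] * FreeGroup.mk ω := by
        rw [FreeGroup.mul_mk]; rfl
      rw [e1, e2, h3]

theorem exists_code (ι : Type) [Countable ι] (o : ι) :
    ∃ code : ι → ℕ, Function.Injective code ∧ code o = 0 := by
  classical
  obtain ⟨g, hg⟩ := exists_injective_nat ι
  refine ⟨fun i => if i = o then 0 else g i + 1, ?_, by simp⟩
  intro a b h
  by_cases ha : a = o <;> by_cases hb : b = o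
  · rw [ha, hb]
  · simp [ha, hb] at h
  · simp [ha, hb] at h
  · simp only [ha, hb, if_false] at h
    exact hg (by omega)

end Fold

open Fold

omit [Countable Γ] in
/-- as `fold_exists`, with the extra last conjunct: same class => joined by a path trivial in the
free group -/
theorem fold_exists2 {ρ : AL → Γ} {ι : Type} [Countable ι]
    (hm : ∀ g : Γ, Measurable (fun x : X => g • x)) (K : PG ρ X ι) :
    ∃ (K' : PG ρ X ℕ) (f : X × ι → ℕ), K'.o = 0 ∧ K'.Folded ∧ Mor K K' f ∧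
      (∀ x k, (x, k) ∈ K'.V ↔ ∃ i, (x, i) ∈ K.V ∧ f (x, i) = k) ∧
      (∀ s x j k, (x, (j, k)) ∈ K'.E s ↔
        ∃ j' k', (x, (j', k')) ∈ K.E s ∧ f (x, j') = j ∧ f ((ρ s)⁻¹ • x, k') = k) ∧
      (∀ (c : AL → X × ℕ → ℝ) (ω : List (AL × Bool)) (x : X) (i : ι) (v : X × ℕ) (t : ℝ),
        (x, i) ∈ K.V → K'.PS c ω (x, f (x, i)) v t →
        ∃ (ω' : List (AL × Bool)) (i' : ι),
          K.PS (fun s w => c s (w.1, f w)) ω' (x, i) (v.1, i') t ∧ f (v.1, i') = v.2 ∧
          FreeGroup.mk ω' = FreeGroup.mk ω) ∧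
      (∀ x i i', (x, i) ∈ K.V → (x, i') ∈ K.V → f (x, i) = f (x, i') →
        ∃ ω : List (AL × Bool), FreeGroup.mk ω = 1 ∧ K.Path ω (x, i) (x, i')) := by
  obtain ⟨code, hcode, ho⟩ := exists_code ι K.o
  refine ⟨FG hm K code ho, ff K code, rfl, FG_folded hm K code ho hcode, FG_mor hm K code ho,
    fun x k => Iff.rfl, fun s x j k => Iff.rfl, ?_, ?_⟩
  · intro c ω x i v t hi h
    exact lift_aux hm K code ho hcode c ω x i v t hi h
  · intro x i i' hi hi' h
    exact eqv_of_ff_eq K code hcode x i i' hi hi' h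

/- ## M2 (CPFold.lean): folding.
`(y,i) ≈ (y,i')` iff some path `ω` joins them with `FreeGroup.mk ω = 1`; representative = minimal
code (`code : ι → ℕ` injective with `code o = 0`) in the class. -/
theorem fold_exists {ρ : AL → Γ} {ι : Type} [Countable ι]
    (hm : ∀ g : Γ, Measurable (fun x : X => g • x)) (K : PG ρ X ι) :
    ∃ (K' : PG ρ X ℕ) (f : X × ι → ℕ), K'.o = 0 ∧ K'.Folded ∧ Mor K K' f ∧
      (∀ x k, (x, k) ∈ K'.V ↔ ∃ i, (x, i) ∈ K.V ∧ f (x, i) = k) ∧
      (∀ s x j k, (x, (j, k)) ∈ K'.E s ↔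
        ∃ j' k', (x, (j', k')) ∈ K.E s ∧ f (x, j') = j ∧ f ((ρ s)⁻¹ • x, k') = k) ∧
      (∀ (c : AL → X × ℕ → ℝ) (ω : List (AL × Bool)) (x : X) (i : ι) (v : X × ℕ) (t : ℝ),
        (x, i) ∈ K.V → K'.PS c ω (x, f (x, i)) v t →
        ∃ (ω' : List (AL × Bool)) (i' : ι),
          K.PS (fun s w => c s (w.1, f w)) ω' (x, i) (v.1, i') t ∧ f (v.1, i') = v.2 ∧
          FreeGroup.mk ω' = FreeGroup.mk ω) := by
  obtain ⟨K', f, h1, h2, h3, h4, h5, h6, _⟩ := fold_exists2 hm K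
  exact ⟨K', f, h1, h2, h3, h4, h5, h6⟩

end Crest.Agent.CP
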