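import Crest.Agent.CPDefs

set_option autoImplicit false

namespace Crest.Agent.CP
open MeasureTheory

variable {Γ X : Type} [Group Γ] [Countable Γ] [MeasurableSpace X] [MulAction Γ X]
  {μ : Measure X} [IsProbabilityMeasure μ]

theorem mtp (hmp : ∀ g : Γ, MeasurePreserving (fun x : X => g • x) μ μ)
    {ι κ : Type} [Countable ι] [Countable κ] (F : X × ι → X × κ → ENNReal)
    (hF : ∀ i k (g : Γ), Measurable fun x => F (x, i) (g • x, k)) :
    ∑' (i : ι) (k : κ) (g : Γ), ∫⁻ x, F (x, i) (g • x, k) ∂μ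
      = ∑' (k : κ) (i : ι) (g : Γ), ∫⁻ x, F (g • x, i) (x, k) ∂μ := by
  rw [ENNReal.tsum_comm]
  refine tsum_congr fun k => tsum_congr fun i => ?_
  have h1 : ∀ g : Γ, ∫⁻ x, F (x, i) (g • x, k) ∂μ = ∫⁻ x, F (g⁻¹ • x, i) (x, k) ∂μ := by
    intro g
    have := (hmp g⁻¹).lintegral_comp (hF i k g)
    rw [← this]
    simp only [smul_inv_smul]
  simp only [h1]
  exact (Equiv.inv Γ).tsum_eq (fun g => ∫⁻ x, F (g • x, i) (x, k) ∂μ)

theorem rmt_ae (hmp : ∀ g : Γ, MeasurePreserving (fun x : X => g • x) μ μ)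
    (hfree : ∀ (g : Γ) (x : X), g • x = x → g = 1)
    {ι κ : Type} [Countable ι] [Countable κ] (A : Set (X × ι)) (B : Set (X × κ))
    (hA : MS A) (hB : MS B) (W : X × ι → X × κ → Prop)
    (hW : ∀ i k (g : Γ), MeasurableSet {x | W (x, i) (g • x, k)}) (m : ℕ)
    (N : Set X) (hN : μ N = 0)
    (h1 : ∀ u ∈ A, u.1 ∉ N → ∃ (g : Γ) (k : κ), W u (g • u.1, k) ∧ (g • u.1, k) ∈ B)
    (h2 : ∀ v ∈ B, {u | u ∈ A ∧ W u v}.encard ≤ m) :
    vol μ A ≤ m * vol μ B := by
  classical
  let F : X × ι → X × κ → ENNReal := fun u v => if u ∈ A ∧ v ∈ B ∧ W u v then 1 else 0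
  have hms : ∀ i k (g : Γ), MeasurableSet {x | (x, i) ∈ A ∧ (g • x, k) ∈ B ∧ W (x, i) (g • x, k)} :=
    fun i k g => (hA i).inter (((hmp g).measurable (hB k)).inter (hW i k g))
  have hF : ∀ i k (g : Γ), Measurable fun x => F (x, i) (g • x, k) := by
    intro i k g
    exact Measurable.ite (hms i k g) measurable_const measurable_const
  have hF' : ∀ i k (g : Γ), Measurable fun x => F (g • x, i) (x, k) := by
    intro i k g
    have h := (hF i k g⁻¹).comp (hmp g).measurable
    have h3 : (fun x => F (g • x, i) (x, k)) =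
        ((fun x => F (x, i) (g⁻¹ • x, k)) ∘ fun x : X => g • x) := by
      funext x
      simp
    rw [h3]; exact h
  have hm := mtp hmp F hF
  have hL : vol μ A ≤ ∑' (i : ι) (k : κ) (g : Γ), ∫⁻ x, F (x, i) (g • x, k) ∂μ := by
    unfold vol
    refine ENNReal.tsum_le_tsum fun i => ?_
    have h3 : ∑' (k : κ) (g : Γ), ∫⁻ x, F (x, i) (g • x, k) ∂μ =
        ∫⁻ x, ∑' (k : κ) (g : Γ), F (x, i) (g • x, k) ∂μ := by
      rw [lintegral_tsum (fun k => (Measurable.ennreal_tsum fun g => hF i k g).aemeasurable)]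
      refine tsum_congr fun k => ?_
      rw [lintegral_tsum (fun g => (hF i k g).aemeasurable)]
    rw [h3, ← lintegral_indicator_one (hA i)]
    refine lintegral_mono_ae ?_
    have hN' : ∀ᵐ x ∂μ, x ∉ N := measure_eq_zero_iff_ae_notMem.1 hN
    filter_upwards [hN'] with x hx
    by_cases hxA : (x, i) ∈ A
    · rw [Set.indicator_of_mem (show x ∈ {x | (x, i) ∈ A} from hxA)]
      obtain ⟨g, k, hW1, hB1⟩ := h1 (x, i) hxA hx
      calc (1 : X → ENNReal) x = F (x, i) (g • x, k) := by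
            simp only [F, Pi.one_apply]
            rw [if_pos ⟨hxA, hB1, hW1⟩]
        _ ≤ ∑' g : Γ, F (x, i) (g • x, k) := ENNReal.le_tsum g
        _ ≤ _ := ENNReal.le_tsum (f := fun k => ∑' g : Γ, F (x, i) (g • x, k)) k
    · rw [Set.indicator_of_notMem (show x ∉ {x | (x, i) ∈ A} from hxA)]
      exact bot_le
  have hR : ∑' (k : κ) (i : ι) (g : Γ), ∫⁻ x, F (g • x, i) (x, k) ∂μ ≤ m * vol μ B := by
    unfold vol
    rw [← ENNReal.tsum_mul_left]
    refine ENNReal.tsum_le_tsum fun k => ?_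
    have h3 : ∑' (i : ι) (g : Γ), ∫⁻ x, F (g • x, i) (x, k) ∂μ =
        ∫⁻ x, ∑' (i : ι) (g : Γ), F (g • x, i) (x, k) ∂μ := by
      rw [lintegral_tsum (fun i => (Measurable.ennreal_tsum fun g => hF' i k g).aemeasurable)]
      refine tsum_congr fun i => ?_
      rw [lintegral_tsum (fun g => (hF' i k g).aemeasurable)]
    rw [h3, ← lintegral_indicator_one (hB k), ← lintegral_const_mul _ (measurable_one.indicator (hB k))]
    refine lintegral_mono fun x => ?_
    by_cases hxB : (x, k) ∈ B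
    · rw [Set.indicator_of_mem (show x ∈ {x | (x, k) ∈ B} from hxB)]
      simp only [Pi.one_apply, mul_one]
      have h4 : ∑' (i : ι) (g : Γ), F (g • x, i) (x, k) =
          ∑' p : ι × Γ, ({p : ι × Γ | (p.2 • x, p.1) ∈ A ∧ W (p.2 • x, p.1) (x, k)}).indicator
            (fun _ => (1 : ENNReal)) p := by
        rw [ENNReal.tsum_prod']
        refine tsum_congr fun i => tsum_congr fun g => ?_
        simp only [F, Set.indicator_apply, Set.mem_setOf_eq, hxB, true_and]
      rw [h4, ← tsum_subtype, ENNReal.tsum_set_one]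
      have h5 := h2 (x, k) hxB
      have h6 : ({p : ι × Γ | (p.2 • x, p.1) ∈ A ∧ W (p.2 • x, p.1) (x, k)}).encard ≤
          {u | u ∈ A ∧ W u (x, k)}.encard := by
        refine Set.encard_le_encard_of_injOn (f := fun p : ι × Γ => (p.2 • x, p.1)) ?_ ?_
        · rintro ⟨i, g⟩ h
          exact h
        · rintro ⟨i, g⟩ _ ⟨i', g'⟩ _ h
          simp only [Prod.mk.injEq] at h
          have h7 : (g'⁻¹ * g) • x = x := by rw [mul_smul, h.1, inv_smul_smul]
          have h8 := hfree _ _ h7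
          rw [inv_mul_eq_one] at h8
          rw [h.2, h8]
      have h9 := h6.trans h5
      exact_mod_cast h9
    · have h4 : ∑' (i : ι) (g : Γ), F (g • x, i) (x, k) = 0 := by
        rw [ENNReal.tsum_eq_zero]
        intro i
        rw [ENNReal.tsum_eq_zero]
        intro g
        simp [F, hxB]
      rw [h4]
      exact bot_le
  exact hL.trans (hm.le.trans hR)

/-- relational mass transport: if every `u ∈ A` has a `W`-partner in `B` (in its orbit) and every
`v ∈ B` has at most `m` partners in `A`, then `vol A ≤ m * vol B`. -/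
theorem rmt (hmp : ∀ g : Γ, MeasurePreserving (fun x : X => g • x) μ μ)
    (hfree : ∀ (g : Γ) (x : X), g • x = x → g = 1)
    {ι κ : Type} [Countable ι] [Countable κ] (A : Set (X × ι)) (B : Set (X × κ))
    (hA : MS A) (hB : MS B) (W : X × ι → X × κ → Prop)
    (hW : ∀ i k (g : Γ), MeasurableSet {x | W (x, i) (g • x, k)}) (m : ℕ)
    (h1 : ∀ u ∈ A, ∃ (g : Γ) (k : κ), W u (g • u.1, k) ∧ (g • u.1, k) ∈ B)
    (h2 : ∀ v ∈ B, {u | u ∈ A ∧ W u v}.encard ≤ m) :
    vol μ A ≤ m * vol μ B :=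
  rmt_ae hmp hfree A B hA hB W hW m ∅ (by simp) (fun u hu _ => h1 u hu) h2

end Crest.Agent.CP
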