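import Crest.Agent.CPPath
import Crest.Agent.CPMass
import Crest.Agent.CPFold

/-!
# Row 191: batch addition of relator loops, part A: the graph with attached loops
-/

set_option autoImplicit false
set_option linter.unusedSectionVars false

namespace Crest.Agent.CP.Batch
open MeasureTheory PG

section volumes
variable {X : Type} [MeasurableSpace X] {μ : Measure X}

theorem vol_mono {ι : Type} {A B : Set (X × ι)} (h : A ⊆ B) : vol μ A ≤ vol μ B :=
  ENNReal.tsum_le_tsum fun _ => measure_mono fun _ hx => h hx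

theorem vol_union_le {ι : Type} (A B : Set (X × ι)) : vol μ (A ∪ B) ≤ vol μ A + vol μ B := by
  unfold vol
  rw [← ENNReal.tsum_add]
  refine ENNReal.tsum_le_tsum fun i => ?_
  exact (measure_mono (fun x hx => hx)).trans (measure_union_le _ _)

theorem vol_iUnion_fin_le {ι : Type} {n : ℕ} (B : Fin n → Set (X × ι)) :
    vol μ (⋃ m, B m) ≤ ∑ m, vol μ (B m) := by
  unfold vol
  rw [← tsum_fintype (L := .unconditional _), ENNReal.tsum_comm]
  refine ENNReal.tsum_le_tsum fun i => ?_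
  have : {x | (x, i) ∈ ⋃ m, B m} = ⋃ m, {x | (x, i) ∈ B m} := by ext x; simp
  rw [this]
  exact measure_iUnion_le _

/-- image of a slice-measurable set under a map of indices -/
def imS {κ lam : Type} (A : Set (X × κ)) (Φ : X × κ → lam) : Set (X × lam) :=
  {p | ∃ a, (p.1, a) ∈ A ∧ Φ (p.1, a) = p.2}

theorem imS_meas {κ lam : Type} [Countable κ] {A : Set (X × κ)} (hA : MS A) {Φ : X × κ → lam}
    (hΦ : ∀ a b, MeasurableSet {x | Φ (x, a) = b}) : MS (imS A Φ) := by
  intro b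
  have : {x | (x, b) ∈ imS A Φ} = ⋃ a, ({x | (x, a) ∈ A} ∩ {x | Φ (x, a) = b}) := by
    ext x; simp [imS]
  rw [this]
  exact MeasurableSet.iUnion fun a => (hA a).inter (hΦ a b)

theorem imS_vol {κ lam : Type} [Countable κ] [Countable lam] {A : Set (X × κ)} (hA : MS A)
    {Φ : X × κ → lam} (hΦ : ∀ a b, MeasurableSet {x | Φ (x, a) = b}) :
    vol μ (imS A Φ) ≤ vol μ A := by
  unfold vol
  calc ∑' b, μ {x | (x, b) ∈ imS A Φ}
      ≤ ∑' b, ∑' a, μ ({x | (x, a) ∈ A} ∩ {x | Φ (x, a) = b}) := by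
        refine ENNReal.tsum_le_tsum fun b => ?_
        have : {x | (x, b) ∈ imS A Φ} = ⋃ a, ({x | (x, a) ∈ A} ∩ {x | Φ (x, a) = b}) := by
          ext x; simp [imS]
        rw [this]
        exact measure_iUnion_le _
    _ = ∑' a, ∑' b, μ ({x | (x, a) ∈ A} ∩ {x | Φ (x, a) = b}) := ENNReal.tsum_comm
    _ = ∑' a, μ {x | (x, a) ∈ A} := by
        congr 1; ext a
        rw [← measure_iUnion]
        · congr 1; ext x; simp
        · intro b b' hbb
          refine Set.disjoint_left.2 ?_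
          rintro x ⟨-, h1⟩ ⟨-, h2⟩
          exact hbb (h1.symm.trans h2)
        · intro b; exact (hA a).inter (hΦ a b)

variable {Γ : Type} [Group Γ] [MulAction Γ X]

theorem trans_meas {κ : Type} (hm : ∀ g : Γ, Measurable (fun x : X => g • x)) {A : Set (X × κ)}
    (hA : MS A) (g : κ → Γ) : MS {p : X × κ | (g p.2 • p.1, p.2) ∈ A} := fun i =>
  hm (g i) (hA i)

theorem trans_vol {κ : Type} (hmp : ∀ g : Γ, MeasurePreserving (fun x : X => g • x) μ μ)
    {A : Set (X × κ)} (hA : MS A) (g : κ → Γ) :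
    vol μ {p : X × κ | (g p.2 • p.1, p.2) ∈ A} = vol μ A := by
  unfold vol
  congr 1; ext i
  exact (hmp (g i)).measure_preimage (hA i).nullMeasurableSet

end volumes

section words
variable {S L : Type} {R : ℕ}

theorem rw_zero' (r : L → ZMod R → S × Bool) (l : L) (i : ZMod R) : rw r l i 0 = [] := rfl

theorem rw_succ (r : L → ZMod R → S × Bool) (l : L) (i : ZMod R) (m : ℕ) :
    rw r l i (m + 1) = rw r l i m ++ [r l (i + (m : ZMod R))] := by
  simp [rw, List.range_succ]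

theorem rw_add' (r : L → ZMod R → S × Bool) (l : L) (i : ZMod R) (a b : ℕ) :
    rw r l i (a + b) = rw r l i a ++ rw r l (i + (a : ZMod R)) b := by
  induction b with
  | zero => simp [rw]
  | succ b ih =>
    rw [← Nat.add_assoc, rw_succ, ih, rw_succ, List.append_assoc]
    congr 3
    push_cast
    ring_nf

end words

section rel
variable {Γ X : Type} [Group Γ] {j R q : ℕ} [NeZero R] (D : RelData j R q Γ)

/-- value of the first `m` letters of the relator `l` starting at `i` -/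
def gv (l : XL) (i : ZMod R) (m : ℕ) : Γ := wval D.ρ (rw D.r l i m)

theorem gv_zero (l : XL) (i : ZMod R) : gv D l i 0 = 1 := by simp [gv, rw_zero']

theorem gv_succ (l : XL) (i : ZMod R) (m : ℕ) :
    gv D l i (m + 1) = gv D l i m * lval D.ρ (D.r l (i + (m : ZMod R))) := by
  simp [gv, rw_succ, wval_append, wval_cons]

theorem gv_R (l : XL) (i : ZMod R) : gv D l i R = 1 := by
  have key : ∀ k : ℕ, gv D l (k : ZMod R) R = 1 := by
    intro k
    induction k with
    | zero => simpa [gv] using D.rel l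
    | succ k ih =>
      have h1 : gv D l (k : ZMod R) (1 + R)
          = lval D.ρ (D.r l k) * gv D l ((k + 1 : ℕ) : ZMod R) R := by
        unfold gv
        rw [rw_add', wval_append]
        simp [rw, wval]
      have h2 : gv D l (k : ZMod R) (R + 1) = gv D l (k : ZMod R) R * lval D.ρ (D.r l k) := by
        rw [gv_succ]; simp
      rw [ih, Nat.add_comm, h1] at h2
      simpa using h2
  have := key i.val
  rwa [ZMod.natCast_zmod_val] at this

/-- index type of the graph with attached loops -/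
abbrev I1 (R : ℕ) := ℕ ⊕ (ℕ × XL × ZMod R × ℕ)

/-- index of the vertex at position `m` of the loop -/
def pos (a : ℕ) (l : XL) (i : ZMod R) (m : ℕ) : I1 R :=
  if m = 0 ∨ m = R then Sum.inl a else Sum.inr (a, l, i, m)

omit [NeZero R] in
theorem pos_zero (a : ℕ) (l : XL) (i : ZMod R) : pos a l i 0 = Sum.inl a := by simp [pos]
omit [NeZero R] in
theorem pos_R (a : ℕ) (l : XL) (i : ZMod R) : pos a l i R = Sum.inl a := by simp [pos]
omit [NeZero R] in
theorem pos_mid (a : ℕ) (l : XL) (i : ZMod R) (m : ℕ) (h0 : 0 < m) (h1 : m < R) :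
    pos a l i m = Sum.inr (a, l, i, m) := by
  have : ¬ (m = 0 ∨ m = R) := by omega
  simp [pos, this]

variable [MeasurableSpace X] [MulAction Γ X]

/-- vertices -/
def V1 (K : PG D.ρ X ℕ) (U : Set (X × (ℕ × XL × ZMod R))) : Set (X × I1 R) :=
  {p | (∃ a, p.2 = Sum.inl a ∧ (p.1, a) ∈ K.V) ∨
    (∃ a l i m, p.2 = Sum.inr (a, l, i, m) ∧ 0 < m ∧ m < R ∧ (gv D l i m • p.1, (a, l, i)) ∈ U)}

/-- edges -/
def E1 (K : PG D.ρ X ℕ) (U : Set (X × (ℕ × XL × ZMod R))) (s : AL) : Set (X × (I1 R × I1 R)) :=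
  {p | (∃ a b, p.2 = (Sum.inl a, Sum.inl b) ∧ (p.1, (a, b)) ∈ K.E s) ∨
    (∃ a l i m, (m < R ∧ D.r l (i + (m : ZMod R)) = (s, true) ∧
      p.2 = (pos a l i m, pos a l i (m + 1))) ∧ (gv D l i m • p.1, (a, l, i)) ∈ U) ∨
    (∃ a l i m, (m < R ∧ D.r l (i + (m : ZMod R)) = (s, false) ∧
      p.2 = (pos a l i (m + 1), pos a l i m)) ∧ (gv D l i (m + 1) • p.1, (a, l, i)) ∈ U)}

variable (hm : ∀ g : Γ, Measurable (fun x : X => g • x))

theorem V1_pos (K : PG D.ρ X ℕ) (U : Set (X × (ℕ × XL × ZMod R)))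
    (hU : ∀ y a l i, (y, (a, l, i)) ∈ U → (y, a) ∈ K.V) (x : X) (a : ℕ) (l : XL) (i : ZMod R)
    (m : ℕ) (h1 : m ≤ R) (h : (gv D l i m • x, (a, l, i)) ∈ U) :
    (x, pos a l i m) ∈ V1 D K U := by
  by_cases h0 : m = 0
  · subst h0
    rw [gv_zero, one_smul] at h
    exact Or.inl ⟨a, pos_zero a l i, hU _ _ _ _ h⟩
  · by_cases hR : m = R
    · subst hR
      rw [gv_R, one_smul] at h
      exact Or.inl ⟨a, pos_R a l i, hU _ _ _ _ h⟩
    · exact Or.inr ⟨a, l, i, m, pos_mid a l i m (by omega) (by omega), by omega, by omega, h⟩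

/-- the graph `K` with a loop attached for every element of `U` -/
def K1 (K : PG D.ρ X ℕ) (U : Set (X × (ℕ × XL × ZMod R))) (mU : MS U)
    (hU : ∀ y a l i, (y, (a, l, i)) ∈ U → (y, a) ∈ K.V) : PG D.ρ X (I1 R) where
  V := V1 D K U
  E := E1 D K U
  o := Sum.inl K.o
  mV := by
    rintro (a | ⟨a, l, i, m⟩)
    · have : {x | (x, (Sum.inl a : I1 R)) ∈ V1 D K U} = {x | (x, a) ∈ K.V} := by
        ext x; simp [V1]
      rw [this]; exact K.mV a
    · have : {x | (x, (Sum.inr (a, l, i, m) : I1 R)) ∈ V1 D K U}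
          = {x | 0 < m ∧ m < R} ∩ (fun x => gv D l i m • x) ⁻¹' {y | (y, (a, l, i)) ∈ U} := by
        ext x; simp [V1, and_assoc]
      rw [this]
      exact (MeasurableSet.const _).inter (hm _ (mU _))
  mE := by
    rintro s ⟨b, c⟩
    have : {x | (x, (b, c)) ∈ E1 D K U s}
        = (⋃ (a : ℕ) (a' : ℕ), ({x : X | (b, c) = ((Sum.inl a : I1 R), (Sum.inl a' : I1 R))} ∩
            {x | (x, (a, a')) ∈ K.E s})) ∪
          ((⋃ (a : ℕ) (l : XL) (i : ZMod R) (m : ℕ),
            ({x : X | m < R ∧ D.r l (i + (m : ZMod R)) = (s, true) ∧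
              (b, c) = (pos a l i m, pos a l i (m + 1))} ∩
              (fun x => gv D l i m • x) ⁻¹' {y | (y, (a, l, i)) ∈ U})) ∪
          (⋃ (a : ℕ) (l : XL) (i : ZMod R) (m : ℕ),
            ({x : X | m < R ∧ D.r l (i + (m : ZMod R)) = (s, false) ∧
              (b, c) = (pos a l i (m + 1), pos a l i m)} ∩
              (fun x => gv D l i (m + 1) • x) ⁻¹' {y | (y, (a, l, i)) ∈ U}))) := by
      ext x
      simp only [E1, Set.mem_ofPred_eq, Set.mem_union, Set.mem_iUnion, Set.mem_inter_iff,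
        Set.mem_preimage]
    rw [this]
    refine MeasurableSet.union ?_ (MeasurableSet.union ?_ ?_)
    · exact MeasurableSet.iUnion fun a => MeasurableSet.iUnion fun a' =>
        (MeasurableSet.const _).inter (K.mE s (a, a'))
    · exact MeasurableSet.iUnion fun a => MeasurableSet.iUnion fun l => MeasurableSet.iUnion fun i =>
        MeasurableSet.iUnion fun m => (MeasurableSet.const _).inter (hm _ (mU _))
    · exact MeasurableSet.iUnion fun a => MeasurableSet.iUnion fun l => MeasurableSet.iUnion fun i =>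
        MeasurableSet.iUnion fun m => (MeasurableSet.const _).inter (hm _ (mU _))
  thick x := Or.inl ⟨K.o, rfl, K.thick x⟩
  src := by
    rintro s x b c (⟨a, a', h1, h2⟩ | ⟨a, l, i, m, ⟨h1, h2, h3⟩, h4⟩ | ⟨a, l, i, m, ⟨h1, h2, h3⟩, h4⟩)
    · obtain ⟨rfl, rfl⟩ := Prod.mk.inj h1
      exact Or.inl ⟨a, rfl, K.src s x a a' h2⟩
    · obtain ⟨rfl, rfl⟩ := Prod.mk.inj h3
      exact V1_pos D K U hU x a l i m (by omega) h4
    · obtain ⟨rfl, rfl⟩ := Prod.mk.inj h3
      exact V1_pos D K U hU x a l i (m + 1) (by omega) h4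
  tgt := by
    rintro s x b c (⟨a, a', h1, h2⟩ | ⟨a, l, i, m, ⟨h1, h2, h3⟩, h4⟩ | ⟨a, l, i, m, ⟨h1, h2, h3⟩, h4⟩)
    · obtain ⟨rfl, rfl⟩ := Prod.mk.inj h1
      exact Or.inl ⟨a', rfl, K.tgt s x a a' h2⟩
    · obtain ⟨rfl, rfl⟩ := Prod.mk.inj h3
      refine V1_pos D K U hU _ a l i (m + 1) (by omega) ?_
      have : gv D l i (m + 1) • (D.ρ s)⁻¹ • x = gv D l i m • x := by
        rw [gv_succ, h2, smul_smul]; simp [lval]
      rw [this]; exact h4
    · obtain ⟨rfl, rfl⟩ := Prod.mk.inj h3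
      refine V1_pos D K U hU _ a l i m (by omega) ?_
      have : gv D l i m • (D.ρ s)⁻¹ • x = gv D l i (m + 1) • x := by
        rw [gv_succ, h2, smul_smul]; simp [lval]
      rw [this]; exact h4

variable (K : PG D.ρ X ℕ) (U : Set (X × (ℕ × XL × ZMod R))) (mU : MS U)
    (hU : ∀ y a l i, (y, (a, l, i)) ∈ U → (y, a) ∈ K.V)

/-- vertex at position `m` of the loop attached at `(y, a)` -/
def lv (y : X) (a : ℕ) (l : XL) (i : ZMod R) (m : ℕ) : X × I1 R :=
  ((gv D l i m)⁻¹ • y, pos a l i m)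

theorem lv_zero (y : X) (a : ℕ) (l : XL) (i : ZMod R) : lv D y a l i 0 = (y, Sum.inl a) := by
  simp [lv, gv_zero, pos_zero]

theorem lv_R (y : X) (a : ℕ) (l : XL) (i : ZMod R) : lv D y a l i R = (y, Sum.inl a) := by
  simp [lv, gv_R, pos_R]

theorem lv_step (y : X) (a : ℕ) (l : XL) (i : ZMod R) (m : ℕ) (hmR : m < R)
    (h : (y, (a, l, i)) ∈ U) :
    (K1 D hm K U mU hU).step (D.r l (i + (m : ZMod R))) (lv D y a l i m) (lv D y a l i (m + 1)) := by
  rcases hd : D.r l (i + (m : ZMod R)) with ⟨s, _ | _⟩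
  · simp only [PG.step, Bool.false_eq_true, if_false]
    refine ⟨?_, Or.inr (Or.inr ⟨a, l, i, m, ⟨hmR, hd, rfl⟩, ?_⟩)⟩
    · simp only [lv]
      rw [gv_succ, hd, mul_inv_rev, mul_smul]
      simp [lval]
    · simp only [lv]
      rw [smul_inv_smul]; exact h
  · simp only [PG.step, if_true]
    refine ⟨?_, Or.inr (Or.inl ⟨a, l, i, m, ⟨hmR, hd, rfl⟩, ?_⟩)⟩
    · simp only [lv]
      rw [gv_succ, hd, mul_inv_rev, mul_smul]
      simp [lval]
    · simp only [lv]
      rw [smul_inv_smul]; exact h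

theorem lv_mem (y : X) (a : ℕ) (l : XL) (i : ZMod R) (m : ℕ) (hmR : m ≤ R)
    (h : (y, (a, l, i)) ∈ U) : lv D y a l i m ∈ (K1 D hm K U mU hU).V := by
  refine V1_pos D K U hU _ a l i m hmR ?_
  rw [smul_inv_smul]; exact h

theorem lv_path (y : X) (a : ℕ) (l : XL) (i : ZMod R) (m n : ℕ) (hmR : m + n ≤ R)
    (h : (y, (a, l, i)) ∈ U) :
    (K1 D hm K U mU hU).Path (rw D.r l (i + (m : ZMod R)) n) (lv D y a l i m)
      (lv D y a l i (m + n)) := by
  induction n with
  | zero => exact ⟨lv_mem D hm K U mU hU y a l i m (by omega) h, rfl⟩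
  | succ n ih =>
    rw [rw_succ, path_append]
    refine ⟨_, ih (by omega), ?_⟩
    rw [path_single]
    have := lv_step D hm K U mU hU y a l i (m + n) (by omega) h
    rw [Nat.add_assoc] at this
    convert this using 2
    push_cast; ring

/-- step inversion -/
theorem K1_step_inv (d : AL × Bool) (p p' : X × I1 R) (h : (K1 D hm K U mU hU).step d p p') :
    (∃ a a', p.2 = Sum.inl a ∧ p'.2 = Sum.inl a' ∧ K.step d (p.1, a) (p'.1, a')) ∨
    (∃ y a l i m, m < R ∧ (y, (a, l, i)) ∈ U ∧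
      ((d = D.r l (i + (m : ZMod R)) ∧ p = lv D y a l i m ∧ p' = lv D y a l i (m + 1)) ∨
       (d = linv (D.r l (i + (m : ZMod R))) ∧ p = lv D y a l i (m + 1) ∧ p' = lv D y a l i m))) := by
  obtain ⟨x, b⟩ := p
  obtain ⟨x', b'⟩ := p'
  rcases d with ⟨s, _ | _⟩
  · simp only [PG.step, Bool.false_eq_true, if_false] at h
    obtain ⟨h0, h⟩ := h
    rcases h with ⟨a, a', h1, h2⟩ | ⟨a, l, i, m, ⟨h1, h2, h3⟩, h4⟩ | ⟨a, l, i, m, ⟨h1, h2, h3⟩, h4⟩
    · obtain ⟨rfl, rfl⟩ := Prod.mk.inj h1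
      refine Or.inl ⟨a', a, rfl, rfl, ?_⟩
      simp only [PG.step, Bool.false_eq_true, if_false]
      exact ⟨h0, h2⟩
    · obtain ⟨h5, h6⟩ := Prod.mk.inj h3
      simp only at h5 h6 h4
      subst h5 h6
      refine Or.inr ⟨gv D l i m • x', a, l, i, m, h1, h4, Or.inr ⟨by rw [h2]; rfl, ?_, ?_⟩⟩
      · simp only [lv, Prod.mk.injEq, and_true]
        rw [h0, gv_succ, h2, mul_inv_rev, mul_smul, inv_smul_smul]; simp [lval]
      · simp only [lv, Prod.mk.injEq, and_true]
        rw [inv_smul_smul]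
    · obtain ⟨h5, h6⟩ := Prod.mk.inj h3
      simp only at h5 h6 h4
      subst h5 h6
      refine Or.inr ⟨gv D l i (m + 1) • x', a, l, i, m, h1, h4, Or.inl ⟨by rw [h2], ?_, ?_⟩⟩
      · simp only [lv, Prod.mk.injEq, and_true]
        rw [h0, gv_succ, h2, mul_smul, inv_smul_smul]; simp [lval]
      · simp only [lv, Prod.mk.injEq, and_true]
        rw [inv_smul_smul]
  · simp only [PG.step, if_true] at h
    obtain ⟨h0, h⟩ := h
    rcases h with ⟨a, a', h1, h2⟩ | ⟨a, l, i, m, ⟨h1, h2, h3⟩, h4⟩ | ⟨a, l, i, m, ⟨h1, h2, h3⟩, h4⟩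
    · obtain ⟨rfl, rfl⟩ := Prod.mk.inj h1
      refine Or.inl ⟨a, a', rfl, rfl, ?_⟩
      simp only [PG.step, if_true]
      exact ⟨h0, h2⟩
    · obtain ⟨h5, h6⟩ := Prod.mk.inj h3
      simp only at h5 h6 h4
      subst h5 h6
      refine Or.inr ⟨gv D l i m • x, a, l, i, m, h1, h4, Or.inl ⟨by rw [h2], ?_, ?_⟩⟩
      · simp only [lv, Prod.mk.injEq, and_true]
        rw [inv_smul_smul]
      · simp only [lv, Prod.mk.injEq, and_true]
        rw [h0, gv_succ, h2, mul_inv_rev, mul_smul, inv_smul_smul]; simp [lval]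
    · obtain ⟨h5, h6⟩ := Prod.mk.inj h3
      simp only at h5 h6 h4
      subst h5 h6
      refine Or.inr ⟨gv D l i (m + 1) • x, a, l, i, m, h1, h4, Or.inr ⟨by rw [h2]; rfl, ?_, ?_⟩⟩
      · simp only [lv, Prod.mk.injEq, and_true]
        rw [inv_smul_smul]
      · simp only [lv, Prod.mk.injEq, and_true]
        rw [h0, gv_succ, h2, mul_smul, inv_smul_smul]; simp [lval]

/-- inclusion morphism -/
theorem K1_incl : Mor K (K1 D hm K U mU hU) (fun p => Sum.inl p.2) where
  meas i k := by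
    show MeasurableSet {x : X | (Sum.inl i : I1 R) = k}
    exact MeasurableSet.const _
  o x := rfl
  V x i h := Or.inl ⟨i, rfl, h⟩
  E s x a b h := Or.inl ⟨a, b, rfl, h⟩

end rel

end Crest.Agent.CP.Batch
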