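import Crest.Agent.CPPath
import Crest.Agent.CPMass
import Crest.Agent.CPFold
import Crest.Agent.CPBatchA

set_option autoImplicit false
set_option linter.unusedSectionVars false

namespace Crest.Agent.CP.Batch
open MeasureTheory PG

section gen
variable {Γ X : Type} [Group Γ] [MeasurableSpace X] [MulAction Γ X]
  {j R q : ℕ} [NeZero R] (D : RelData j R q Γ)
  (hm : ∀ g : Γ, Measurable (fun x : X => g • x))
  (K : PG D.ρ X ℕ) (U : Set (X × (ℕ × XL × ZMod R))) (mU : MS U)
  (hU : ∀ y a l i, (y, (a, l, i)) ∈ U → (y, a) ∈ K.V)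
  (c1 : AL → X × I1 R → ℝ)

/-- partial sums of the cochain along the loop -/
noncomputable def psum (y : X) (a : ℕ) (l : XL) (i : ZMod R) : ℕ → ℝ
  | 0 => 0
  | m + 1 => psum y a l i m +
      (if (D.r l (i + (m : ZMod R))).2 = true then
        c1 (D.r l (i + (m : ZMod R))).1 (lv D y a l i m)
      else - c1 (D.r l (i + (m : ZMod R))).1 (lv D y a l i (m + 1)))

theorem lv_ps (y : X) (a : ℕ) (l : XL) (i : ZMod R) (m n : ℕ) (hmR : m + n ≤ R)
    (h : (y, (a, l, i)) ∈ U) :
    (K1 D hm K U mU hU).PS c1 (rw D.r l (i + (m : ZMod R)) n) (lv D y a l i m)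
      (lv D y a l i (m + n)) (psum D c1 y a l i (m + n) - psum D c1 y a l i m) := by
  induction n with
  | zero => exact ⟨lv_mem D hm K U mU hU y a l i m (by omega) h, rfl, by simp⟩
  | succ n ih =>
    rw [rw_succ, ps_append]
    refine ⟨_, _, (if (D.r l (i + ((m + n : ℕ) : ZMod R))).2 = true then
        c1 (D.r l (i + ((m + n : ℕ) : ZMod R))).1 (lv D y a l i (m + n))
      else - c1 (D.r l (i + ((m + n : ℕ) : ZMod R))).1 (lv D y a l i (m + n + 1))),
      ih (by omega), ?_, ?_⟩
    · rw [ps_single]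
      have e : i + (m : ZMod R) + (n : ZMod R) = i + ((m + n : ℕ) : ZMod R) := by
        push_cast; ring
      rw [e]
      exact ⟨lv_step D hm K U mU hU y a l i (m + n) (by omega) h, rfl⟩
    · rw [← Nat.add_assoc]
      simp only [psum]
      ring

/-- state reached by a path of `K1` starting at a thick point -/
def QQ (x : X) (p : X × I1 R) (t : ℝ) : Prop :=
  (∃ (b : ℕ) (ω0 : List (AL × Bool)), p.2 = Sum.inl b ∧
    K.PS (fun s w => c1 s (w.1, Sum.inl w.2)) ω0 (x, K.o) (p.1, b) t) ∨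
  (∃ (y : X) (a : ℕ) (l : XL) (i : ZMod R) (m : ℕ) (ω0 : List (AL × Bool)) (t0 : ℝ),
    0 < m ∧ m < R ∧ (y, (a, l, i)) ∈ U ∧ p = lv D y a l i m ∧
    K.PS (fun s w => c1 s (w.1, Sum.inl w.2)) ω0 (x, K.o) (y, a) t0 ∧
    t = t0 + psum D c1 y a l i m)

theorem QQ_of (hR : ∀ y a l i, (y, (a, l, i)) ∈ U → psum D c1 y a l i R = 0)
    (x y : X) (a : ℕ) (l : XL) (i : ZMod R) (m : ℕ) (hmR : m ≤ R) (h : (y, (a, l, i)) ∈ U)
    (ω0 : List (AL × Bool)) (t0 : ℝ)
    (h0 : K.PS (fun s w => c1 s (w.1, Sum.inl w.2)) ω0 (x, K.o) (y, a) t0) :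
    QQ D K U c1 x (lv D y a l i m) (t0 + psum D c1 y a l i m) := by
  by_cases hm0 : m = 0
  · subst hm0
    rw [lv_zero]
    refine Or.inl ⟨a, ω0, rfl, ?_⟩
    simpa [psum] using h0
  · by_cases hmR' : m = R
    · subst hmR'
      rw [lv_R, hR y a l i h]
      refine Or.inl ⟨a, ω0, rfl, ?_⟩
      simpa using h0
    · exact Or.inr ⟨y, a, l, i, m, ω0, t0, by omega, by omega, h, rfl, h0, rfl⟩

theorem QQ_inv (hR : ∀ y a l i, (y, (a, l, i)) ∈ U → psum D c1 y a l i R = 0)
    (x y : X) (a : ℕ) (l : XL) (i : ZMod R) (m : ℕ) (hmR : m ≤ R) (h : (y, (a, l, i)) ∈ U)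
    (t : ℝ) (hQ : QQ D K U c1 x (lv D y a l i m) t) :
    ∃ (ω0 : List (AL × Bool)) (t0 : ℝ),
      K.PS (fun s w => c1 s (w.1, Sum.inl w.2)) ω0 (x, K.o) (y, a) t0 ∧
      t = t0 + psum D c1 y a l i m := by
  rcases hQ with ⟨b, ω0, h1, h2⟩ | ⟨y', a', l', i', m', ω0, t0, h1, h2, h3, h4, h5, h6⟩
  · by_cases hm0 : m = 0
    · subst hm0
      rw [lv_zero] at h1 h2
      simp only [Sum.inl.injEq] at h1
      subst h1
      exact ⟨ω0, t, h2, by simp [psum]⟩
    · by_cases hmR' : m = R
      · subst hmR'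
        rw [lv_R] at h1 h2
        simp only [Sum.inl.injEq] at h1
        subst h1
        exact ⟨ω0, t, h2, by rw [hR y a l i h]; simp⟩
      · exfalso
        have : (lv D y a l i m).2 = pos a l i m := rfl
        rw [this, pos_mid a l i m (by omega) (by omega)] at h1
        exact absurd h1 (by simp)
  · have e2 : pos a l i m = pos a' l' i' m' := congrArg Prod.snd h4
    have e1 : (gv D l i m)⁻¹ • y = (gv D l' i' m')⁻¹ • y' := congrArg Prod.fst h4
    rw [pos_mid a' l' i' m' h1 h2] at e2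
    by_cases hm0 : m = 0
    · subst hm0; rw [pos_zero] at e2; exact absurd e2 (by simp)
    · by_cases hmR' : m = R
      · subst hmR'; rw [pos_R] at e2; exact absurd e2 (by simp)
      · rw [pos_mid a l i m (by omega) (by omega)] at e2
        simp only [Sum.inr.injEq, Prod.mk.injEq] at e2
        obtain ⟨rfl, rfl, rfl, rfl⟩ := e2
        have : y = y' := by
          have := congrArg (fun z => gv D l i m • z) e1
          simpa using this
        subst this
        exact ⟨ω0, t0, h5, h6⟩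

theorem QQ_step (hR : ∀ y a l i, (y, (a, l, i)) ∈ U → psum D c1 y a l i R = 0)
    (x : X) (d : AL × Bool) (p w : X × I1 R) (t : ℝ) (hQ : QQ D K U c1 x p t)
    (hs : (K1 D hm K U mU hU).step d p w) :
    QQ D K U c1 x w (t + (if d.2 = true then c1 d.1 p else - c1 d.1 w)) := by
  rcases K1_step_inv D hm K U mU hU d p w hs with ⟨a, a', h1, h2, h3⟩ |
    ⟨y, a, l, i, m, h1, h2, ⟨h3, h4, h5⟩ | ⟨h3, h4, h5⟩⟩
  · obtain ⟨p1, p2⟩ := p
    obtain ⟨w1, w2⟩ := w
    simp only at h1 h2 h3
    subst h1 h2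
    rcases hQ with ⟨b, ω0, h4, h5⟩ | ⟨y', a', l', i', m', ω0, t0, h4, h5, h6, h7, h8, h9⟩
    · simp only [Sum.inl.injEq] at h4
      subst h4
      refine Or.inl ⟨a', ω0 ++ [d], rfl, ?_⟩
      rw [ps_append]
      refine ⟨_, _, _, h5, ?_, rfl⟩
      rw [ps_single]
      exact ⟨h3, rfl⟩
    · exfalso
      have := congrArg Prod.snd h7
      simp only [lv] at this
      rw [pos_mid a' l' i' m' h4 h5] at this
      exact absurd this (by simp)
  · subst h3 h4 h5
    obtain ⟨ω0, t0, h6, h7⟩ := QQ_inv D K U c1 hR x y a l i m (by omega) h2 t hQ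
    have := QQ_of D K U c1 hR x y a l i (m + 1) (by omega) h2 ω0 t0 h6
    convert this using 1
    rw [h7]
    simp only [psum]
    ring
  · subst h3 h4 h5
    obtain ⟨ω0, t0, h6, h7⟩ := QQ_inv D K U c1 hR x y a l i (m + 1) (by omega) h2 t hQ
    have := QQ_of D K U c1 hR x y a l i m (by omega) h2 ω0 t0 h6
    convert this using 1
    rw [h7]
    simp only [psum, linv]
    rcases hd : D.r l (i + (m : ZMod R)) with ⟨s, _ | _⟩ <;> simp <;> ring

theorem QQ_path (hR : ∀ y a l i, (y, (a, l, i)) ∈ U → psum D c1 y a l i R = 0)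
    (x : X) (ω : List (AL × Bool)) (p w : X × I1 R) (t t' : ℝ) (hQ : QQ D K U c1 x p t)
    (hs : (K1 D hm K U mU hU).PS c1 ω p w t') : QQ D K U c1 x w (t + t') := by
  induction ω generalizing p t t' with
  | nil =>
    obtain ⟨-, rfl, rfl⟩ := hs
    simpa using hQ
  | cons d ω ih =>
    obtain ⟨w', t'', h1, h2, rfl⟩ := hs
    have := ih w' _ t'' (QQ_step D hm K U mU hU c1 hR x d p w' t hQ h1) h2
    convert this using 1
    ring

/-- thick-thick sums in `K1` are sums in `K` -/
theorem K1_thick (hR : ∀ y a l i, (y, (a, l, i)) ∈ U → psum D c1 y a l i R = 0)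
    (x y : X) (ω : List (AL × Bool)) (t : ℝ)
    (hs : (K1 D hm K U mU hU).PS c1 ω (x, Sum.inl K.o) (y, Sum.inl K.o) t) :
    ∃ ω0, K.PS (fun s w => c1 s (w.1, Sum.inl w.2)) ω0 (x, K.o) (y, K.o) t := by
  have h0 : QQ D K U c1 x (x, Sum.inl K.o) 0 :=
    Or.inl ⟨K.o, [], rfl, K.thick x, rfl, rfl⟩
  have := QQ_path D hm K U mU hU c1 hR x ω _ _ 0 t h0 hs
  rw [zero_add] at this
  rcases this with ⟨b, ω0, h1, h2⟩ | ⟨y', a', l', i', m', ω0, t0, h4, h5, h6, h7, h8, h9⟩
  · simp only [Sum.inl.injEq] at h1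
    subst h1
    exact ⟨ω0, h2⟩
  · exfalso
    have := congrArg Prod.snd h7
    simp only [lv] at this
    rw [pos_mid a' l' i' m' h4 h5] at this
    exact absurd this (by simp)

end gen

end Crest.Agent.CP.Batch

namespace Crest.Agent.CP
open MeasureTheory PG Batch

variable {Γ X : Type} [Group Γ] [Countable Γ] [MeasurableSpace X] [MulAction Γ X]
  {μ : Measure X} [IsProbabilityMeasure μ]
  (hmp : ∀ g : Γ, MeasurePreserving (fun x : X => g • x) μ μ)
  (hfree : ∀ (g : Γ) (x : X), g • x = x → g = 1)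
  {j R q : ℕ} [NeZero R] (D : RelData j R q Γ)

include hmp hfree

/- ## M5 (CPBatch.lean): add the missing arcs (words `rw r l (i + (R-q)) q` from the end of the run
back to its start; fresh vertices, index type `ℕ ⊕ (...)`) of all runs in `U`, then fold. -/
theorem batch (K : PG D.ρ X ℕ) (P : Set (X × List (AL × Bool))) (C : Set (X × (ℕ × XL)))
    (hK : GoodC D μ K P C) (U : Set (X × (ℕ × XL × ZMod R))) (mU : MS U) (hUf : vol μ U ≠ ⊤)
    (hU : ∀ y j l i, (y, (j, l, i)) ∈ U → ∃ v, K.Path (rw D.r l i (R - q)) (y, j) v) :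
    ∃ (K' : PG D.ρ X ℕ) (f : X × ℕ → ℕ) (C' : Set (X × (ℕ × XL))),
      GoodC D μ K' P C' ∧ vol μ C' ≤ vol μ C + vol μ U ∧ Mor K K' f ∧
      (∀ y j l i, (y, (j, l, i)) ∈ U → K'.Path (rw D.r l i R) (y, f (y, j)) (y, f (y, j))) ∧
      Derives D K' (imE K f) := by
  have hm : ∀ g : Γ, Measurable (fun x : X => g • x) := fun g => (hmp g).measurable
  have hUV : ∀ y a l i, (y, (a, l, i)) ∈ U → (y, a) ∈ K.V := by
    intro y a l i h
    obtain ⟨v, hv⟩ := hU y a l i h
    exact path_src K hv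
  set K1' := K1 D hm K U mU hUV with hK1'
  obtain ⟨K', F, ho, hfold, hmor, hV, hE, hlift, hcls⟩ := fold_exists2 hm K1'
  -- the morphism from K
  have hFincl : Mor K K' (fun p => F (p.1, Sum.inl p.2)) := by
    refine ⟨fun i k => hmor.meas (Sum.inl i) k, fun x => hmor.o x, fun x i h => ?_, fun s x a b h => ?_⟩
    · exact hmor.V x (Sum.inl i) (Or.inl ⟨i, rfl, h⟩)
    · exact hmor.E s x (Sum.inl a) (Sum.inl b) (Or.inl ⟨a, b, rfl, h⟩)
  -- position of relator index 0
  let m0 : ZMod R → ℕ := fun i => (-i).val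
  have hm0 : ∀ i : ZMod R, m0 i < R := fun i => ZMod.val_lt _
  have hm0' : ∀ i : ZMod R, i + (m0 i : ZMod R) = 0 := by
    intro i; simp [m0]
  let A2 : Set (X × (ℕ × XL × ZMod R)) :=
    {p | (gv D p.2.2.1 p.2.2.2 (m0 p.2.2.2) • p.1, p.2) ∈ U}
  let Φ1 : X × (ℕ × XL) → ℕ × XL := fun p => (F (p.1, Sum.inl p.2.1), p.2.2)
  let Φ2 : X × (ℕ × XL × ZMod R) → ℕ × XL :=
    fun p => (F (p.1, pos p.2.1 p.2.2.1 p.2.2.2 (m0 p.2.2.2)), p.2.2.1)
  have hΦ1 : ∀ a b, MeasurableSet {x | Φ1 (x, a) = b} := by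
    intro a b
    have : {x | Φ1 (x, a) = b} = {x | F (x, Sum.inl a.1) = b.1} ∩ {x : X | a.2 = b.2} := by
      ext x; simp [Φ1, Prod.ext_iff]
    rw [this]
    exact (hmor.meas _ _).inter (MeasurableSet.const _)
  have hΦ2 : ∀ a b, MeasurableSet {x | Φ2 (x, a) = b} := by
    intro a b
    have : {x | Φ2 (x, a) = b} = {x | F (x, pos a.1 a.2.1 a.2.2 (m0 a.2.2)) = b.1} ∩
        {x : X | a.2.1 = b.2} := by
      ext x; simp [Φ2, Prod.ext_iff]
    rw [this]
    exact (hmor.meas _ _).inter (MeasurableSet.const _)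
  have mA2 : MS A2 := trans_meas hm mU (fun a => gv D a.2.1 a.2.2 (m0 a.2.2))
  have vA2 : vol μ A2 = vol μ U := trans_vol hmp mU (fun a => gv D a.2.1 a.2.2 (m0 a.2.2))
  set C' : Set (X × (ℕ × XL)) := imS C Φ1 ∪ imS A2 Φ2 with hC'
  have volC' : vol μ C' ≤ vol μ C + vol μ U :=
    (vol_union_le _ _).trans (add_le_add (imS_vol hK.mC hΦ1) (vA2 ▸ imS_vol mA2 hΦ2))
  -- loops in K'
  have hloop : ∀ y a l i, (y, (a, l, i)) ∈ U →
      K'.Path (rw D.r l i R) (y, F (y, Sum.inl a)) (y, F (y, Sum.inl a)) := by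
    intro y a l i h
    have h1 := lv_path D hm K U mU hUV y a l i 0 R (by omega) h
    have h2 := path_map K1' K' F hmor _ _ _ h1
    simpa [lv_zero, lv_R] using h2
  -- the closed loop starting at relator index 0
  have hcell : ∀ y a l i, (y, (a, l, i)) ∈ U → ∀ (c1 : AL → X × I1 R → ℝ),
      K1'.PS c1 (rw D.r l 0 R) (lv D y a l i (m0 i)) (lv D y a l i (m0 i))
        (psum D c1 y a l i R) := by
    intro y a l i h c1
    have h1 := lv_ps D hm K U mU hUV c1 y a l i (m0 i) (R - m0 i) (by have := hm0 i; omega) h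
    have h2 := lv_ps D hm K U mU hUV c1 y a l i 0 (m0 i) (by have := hm0 i; omega) h
    have e : m0 i + (R - m0 i) = R := by have := hm0 i; omega
    have e' : (0 : ZMod R) + ((R - m0 i : ℕ) : ZMod R) = i := by
      rw [Nat.cast_sub (hm0 i).le]
      have := hm0' i
      simp only [CharP.cast_eq_zero, zero_sub, zero_add]
      linear_combination -this
    rw [e, hm0' i, lv_R] at h1
    simp only [Nat.cast_zero, add_zero, zero_add, lv_zero] at h2
    have e3 : rw D.r l 0 R = rw D.r l 0 (R - m0 i) ++ rw D.r l i (m0 i) := by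
      have hRR : (R - m0 i) + m0 i = R := by have := hm0 i; omega
      have h3 := rw_add' D.r l 0 (R - m0 i) (m0 i)
      rw [hRR, e'] at h3
      exact h3
    rw [e3, ps_append]
    refine ⟨_, _, _, h1, h2, ?_⟩
    simp only [psum]
    ring
  have hCC : C' ⊆ Cell D K' := by
    rintro ⟨x, k, l⟩ (⟨⟨a, l'⟩, h1, h2⟩ | ⟨⟨a, l', i⟩, h1, h2⟩)
    · simp only [Φ1, Prod.mk.injEq] at h2
      obtain ⟨rfl, rfl⟩ := h2
      have := hK.CC h1
      exact path_map K K' _ hFincl _ _ _ this
    · simp only [Φ2, Prod.mk.injEq] at h2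
      obtain ⟨rfl, rfl⟩ := h2
      have h3 := ps_path K1' _ _ _ _ _ (hcell _ a l' i h1 (fun _ _ => 0))
      have h4 := path_map K1' K' F hmor _ _ _ h3
      simpa [Cell, lv] using h4
  -- generation
  have hgen : Gen D K' C' P := by
    intro c hc hp ω x y t ht
    have hthick : ∀ x, F (x, Sum.inl K.o) = K'.o := fun x => hmor.o x
    -- lift
    have ht' : K'.PS c ω (x, F (x, Sum.inl K.o)) (y, K'.o) t := by rw [hthick]; exact ht
    obtain ⟨ω', i', h1, h2, -⟩ := hlift c ω x (Sum.inl K.o) (y, K'.o) t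
      (K1'.thick x) ht'
    simp only at h1 h2
    obtain ⟨ω'', h3, h4⟩ := hcls y i' (Sum.inl K.o)
      (path_tgt K1' (ps_path K1' _ _ _ _ _ h1)) (K1'.thick y) (by rw [h2, hthick])
    obtain ⟨t'', h5⟩ := ps_exists K1' (fun s w => c s (w.1, F w)) _ _ _ h4
    have h6 := ps_map K1' K' F hmor c _ _ _ _ h5
    have h7 : t'' = 0 := by
      have h8 : K'.PS c [] (y, F (y, i')) (y, F (y, i')) 0 :=
        ⟨path_src K' (ps_path K' _ _ _ _ _ h6), rfl, rfl⟩
      exact (ps_unique K' hfold c ω'' [] (by rw [h3]; rfl) _ _ _ _ _ h6 h8).2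
    subst h7
    have h9 : K1'.PS (fun s w => c s (w.1, F w)) (ω' ++ ω'') (x, Sum.inl K.o)
        (y, Sum.inl K.o) t := by
      rw [ps_append]; exact ⟨_, _, _, h1, h5, by ring⟩
    have hR : ∀ y a l i, (y, (a, l, i)) ∈ U →
        psum D (fun s w => c s (w.1, F w)) y a l i R = 0 := by
      intro y a l i h
      have h10 := ps_map K1' K' F hmor c _ _ _ _ (hcell y a l i h (fun s w => c s (w.1, F w)))
      refine hc ((gv D l i (m0 i))⁻¹ • y) (F (lv D y a l i (m0 i))) l (Or.inr ⟨(a, l, i), ?_, rfl⟩) _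
        h10
      show (gv D l i (m0 i) • (gv D l i (m0 i))⁻¹ • y, (a, l, i)) ∈ U
      rw [smul_inv_smul]; exact h
    obtain ⟨ω0, h11⟩ := K1_thick D hm K U mU hUV _ hR x y (ω' ++ ω'') t h9
    refine hK.gen (fun s w => c s (w.1, F (w.1, Sum.inl w.2))) ?_ ?_ ω0 x y t h11
    · intro y a l h t ht
      have := ps_map K K' _ hFincl c _ _ _ _ ht
      exact hc y (F (y, Sum.inl a)) l (Or.inl ⟨(a, l), h, rfl⟩) t this
    · intro x w h v t ht
      have := ps_map K K' _ hFincl c _ _ _ _ ht
      simp only at this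
      rw [hthick] at this
      exact hp x w h _ t this
  -- finiteness of the volume
  have hfin : vol μ K'.V ≠ ⊤ := by
    have hsub : K'.V ⊆ imS K.V (fun p => F (p.1, Sum.inl p.2)) ∪
        ⋃ m : Fin R, imS {p : X × (ℕ × XL × ZMod R) |
          (gv D p.2.2.1 p.2.2.2 m • p.1, p.2) ∈ U}
          (fun p => F (p.1, pos p.2.1 p.2.2.1 p.2.2.2 m)) := by
      rintro ⟨x, k⟩ h
      obtain ⟨i, h1, h2⟩ := (hV x k).1 h
      rcases h1 with ⟨a, h3, h4⟩ | ⟨a, l, i', m, h3, h4, h5, h6⟩
      · simp only at h3 h4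
        subst h3
        exact Or.inl ⟨a, h4, h2⟩
      · simp only at h3 h6
        subst h3
        refine Or.inr (Set.mem_iUnion.2 ⟨⟨m, h5⟩, (a, l, i'), h6, ?_⟩)
        simp only
        rw [pos_mid a l i' m h4 h5]; exact h2
    refine ne_top_of_le_ne_top ?_ ((vol_mono hsub).trans ((vol_union_le _ _).trans
      (add_le_add (imS_vol K.mV (fun a b => hmor.meas (Sum.inl a) b)) ((vol_iUnion_fin_le _).trans
        (Finset.sum_le_sum fun m _ => (imS_vol (trans_meas hm mU
          (fun a => gv D a.2.1 a.2.2 m)) (fun a b => hmor.meas (pos a.1 a.2.1 a.2.2 m) b)).trans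
            (trans_vol hmp mU (fun a => gv D a.2.1 a.2.2 m)).le)))))
    simp only [Finset.sum_const, Finset.card_univ, Fintype.card_fin, nsmul_eq_mul]
    exact ENNReal.add_ne_top.2 ⟨hK.fin, ENNReal.mul_ne_top (by simp) hUf⟩
  -- directions in K1
  have hpr : K'.Pruned := by
    rintro ⟨x, k⟩ hv hne
    obtain ⟨i, h1, h2⟩ := (hV x k).1 hv
    have dirmap : ∀ d, K1'.Dir (x, i) d → K'.Dir (x, k) d := by
      rintro d ⟨w, hw⟩
      have := step_map K1' K' F hmor d _ _ hw
      simp only at this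
      rw [h2] at this
      exact ⟨_, this⟩
    rcases h1 with ⟨a, h3, h4⟩ | ⟨a, l, i', m, h3, h4, h5, h6⟩
    · simp only at h3 h4
      subst h3
      have hao : a ≠ K.o := by
        rintro rfl
        exact hne (h2.symm.trans (hmor.o x))
      obtain ⟨d, d', hdd, ⟨w, hw⟩, ⟨w', hw'⟩⟩ := hK.pruned (x, a) h4 hao
      refine ⟨d, d', hdd, dirmap d ⟨_, step_map K K1' _ (K1_incl D hm K U mU hUV) d _ _ hw⟩,
        dirmap d' ⟨_, step_map K K1' _ (K1_incl D hm K U mU hUV) d' _ _ hw'⟩⟩
    · simp only at h3 h6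
      subst h3
      have e0 : lv D (gv D l i' m • x) a l i' m = (x, Sum.inr (a, l, i', m)) := by
        simp [lv, pos_mid a l i' m h4 h5]
      have s1 := lv_step D hm K U mU hUV (gv D l i' m • x) a l i' m h5 h6
      rw [e0] at s1
      obtain ⟨n, rfl⟩ : ∃ n, m = n + 1 := ⟨m - 1, by omega⟩
      have s2 := lv_step D hm K U mU hUV (gv D l i' (n + 1) • x) a l i' n (by omega) h6
      rw [e0] at s2
      refine ⟨D.r l (i' + ((n + 1 : ℕ) : ZMod R)), linv (D.r l (i' + (n : ZMod R))), ?_,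
        dirmap _ ⟨_, s1⟩, dirmap _ ⟨_, step_symm K1' s2⟩⟩
      have := D.cyc l (i' + (n : ZMod R))
      push_cast
      rw [← add_assoc]
      exact this
  have hbg : K'.BG := by
    obtain ⟨L, hL1, hL2⟩ := hK.bg
    refine ⟨L + R, ?_, ?_⟩
    · intro x s
      obtain ⟨ω, h1, h2⟩ := hL1 x s
      refine ⟨ω, by omega, ?_⟩
      have := path_map K K' _ hFincl _ _ _ h2
      simp only at this
      rw [hFincl.o, hFincl.o] at this
      exact this
    · rintro ⟨x, k⟩ hv
      obtain ⟨i, h1, h2⟩ := (hV x k).1 hv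
      rcases h1 with ⟨a, h3, h4⟩ | ⟨a, l, i', m, h3, h4, h5, h6⟩
      · simp only at h3 h4
        subst h3
        obtain ⟨ω, y, h5, h6⟩ := hL2 (x, a) h4
        refine ⟨ω, y, by omega, ?_⟩
        have := path_map K K' _ hFincl _ _ _ h6
        simp only at this
        rw [hFincl.o y, h2] at this
        exact this
      · simp only at h3 h6
        subst h3
        have e0 : lv D (gv D l i' m • x) a l i' m = (x, Sum.inr (a, l, i', m)) := by
          simp [lv, pos_mid a l i' m h4 h5]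
        have p1 := lv_path D hm K U mU hUV (gv D l i' m • x) a l i' m (R - m) (by omega) h6
        rw [e0, show m + (R - m) = R by omega, lv_R] at p1
        obtain ⟨ω, y, h7, h8⟩ := hL2 (gv D l i' m • x, a) (hUV _ _ _ _ h6)
        refine ⟨rw D.r l (i' + (m : ZMod R)) (R - m) ++ ω, y, ?_, ?_⟩
        · simp [rw]; omega
        · rw [path_append]
          refine ⟨(gv D l i' m • x, F (gv D l i' m • x, Sum.inl a)), ?_, ?_⟩
          · have := path_map K1' K' F hmor _ _ _ p1
            simp only at this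
            rw [h2] at this
            exact this
          · have := path_map K K' _ hFincl _ _ _ h8
            simp only at this
            rw [hFincl.o y] at this
            exact this
  refine ⟨K', fun p => F (p.1, Sum.inl p.2), C', ⟨ho, hfold, hpr, hbg, hfin, hK.mP, hK.Pbd, ?_, ?_,
    hCC, hgen⟩, volC', hFincl, hloop, ?_⟩
  · intro x w h
    obtain ⟨y, hy⟩ := hK.Ppath x w h
    have := path_map K K' _ hFincl _ _ _ hy
    simp only at this
    rw [hFincl.o, hFincl.o] at this
    exact ⟨y, this⟩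
  · intro b
    exact ((imS_meas hK.mC hΦ1) b).union ((imS_meas mA2 hΦ2) b)
  · -- derivation
    intro S hS hder
    have key : ∀ y a l i, (y, (a, l, i)) ∈ U → ∀ m, m < R →
        eof (D.r l (i + (m : ZMod R))) ((lv D y a l i m).1, F (lv D y a l i m))
          ((lv D y a l i (m + 1)).1, F (lv D y a l i (m + 1))) ∈ S := by
      intro y a l i h
      let W : ZMod R → X × ℕ := fun t =>
        ((lv D y a l i (t - i).val).1, F (lv D y a l i (t - i).val))
      have hW : ∀ m : ℕ, m ≤ R → W (i + (m : ZMod R)) =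
          ((lv D y a l i m).1, F (lv D y a l i m)) := by
        intro m hmR
        rcases Nat.lt_or_ge m R with hlt | hge
        · have : (i + (m : ZMod R) - i).val = m := by
            rw [add_sub_cancel_left, ZMod.val_natCast, Nat.mod_eq_of_lt hlt]
          simp only [W, this]
        · have : m = R := by omega
          subst this
          have : (i + (m : ZMod m) - i).val = 0 := by simp
          simp only [W, this, lv_zero, lv_R]
      have hL : Loop D K' l W := by
        intro t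
        have e1 : t = i + (((t - i).val : ℕ) : ZMod R) := by
          rw [ZMod.natCast_zmod_val]; ring
        have hlt : (t - i).val < R := ZMod.val_lt _
        have h1 := step_map K1' K' F hmor _ _ _ (lv_step D hm K U mU hUV y a l i (t - i).val hlt h)
        have h2 := hW ((t - i).val + 1) (by omega)
        have h3 := hW (t - i).val (by omega)
        rw [← e1] at h3 h1
        have e2 : i + (((t - i).val + 1 : ℕ) : ZMod R) = t + 1 := by
          push_cast; rw [ZMod.natCast_zmod_val]; ring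
        rw [e2] at h2
        rw [h2, h3]; exact h1
      -- the first R - q edges are images of edges of K
      have hrun : ∀ m : ℕ, m < R - q →
          eof (D.r l (i + (m : ZMod R))) (W (i + (m : ZMod R))) (W (i + (m : ZMod R) + 1)) ∈ S := by
        intro m hmq
        apply hS
        obtain ⟨v, hv⟩ := hU y a l i h
        have e1 : rw D.r l i (R - q) = rw D.r l i m ++ ([D.r l (i + (m : ZMod R))] ++
            rw D.r l (i + ((m + 1 : ℕ) : ZMod R)) (R - q - (m + 1))) := by
          rw [← List.append_assoc, ← rw_succ, ← rw_add']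
          congr 1; omega
        rw [e1, path_append] at hv
        obtain ⟨w, hw1, hw2⟩ := hv
        rw [path_append] at hw2
        obtain ⟨w', hw2, -⟩ := hw2
        rw [path_single] at hw2
        have h1 := path_map K K' _ hFincl _ _ _ hw1
        have h1' := path_map K1' K' F hmor _ _ _
          (lv_path D hm K U mU hUV y a l i 0 m (by omega) h)
        simp only [Nat.cast_zero, add_zero, zero_add, lv_zero] at h1'
        have e2 := path_unique K' hfold _ _ _ _ h1 h1'
        have e3 : W (i + (m : ZMod R)) = (w.1, F (w.1, Sum.inl w.2)) := by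
          rw [hW m (by omega), ← e2]
        have h3 := step_map K K' _ hFincl _ _ _ hw2
        have h3' := hL (i + (m : ZMod R))
        rw [e3] at h3'
        have e4 : W (i + (m : ZMod R) + 1) = (w'.1, F (w'.1, Sum.inl w'.2)) :=
          hfold _ _ _ _ h3' h3
        rw [e3, e4]
        rcases hd : D.r l (i + (m : ZMod R)) with ⟨s, _ | _⟩
        · rw [hd] at hw2
          simp only [PG.step, Bool.false_eq_true, if_false] at hw2
          simp only [eof, Bool.false_eq_true, if_false]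
          refine ⟨w'.2, w.2, hw2.2, rfl, ?_⟩
          simp only
          rw [← hw2.1]
        · rw [hd] at hw2
          simp only [PG.step, if_true] at hw2
          simp only [eof, if_true]
          refine ⟨w.2, w'.2, hw2.2, rfl, ?_⟩
          simp only
          rw [← hw2.1]
      have hall := hder l W hL i hrun
      intro m hmR
      have := hall (i + (m : ZMod R))
      rw [hW m hmR.le] at this
      have h2 := hW (m + 1) hmR
      have e2 : i + ((m + 1 : ℕ) : ZMod R) = i + (m : ZMod R) + 1 := by push_cast; ring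
      rw [e2] at h2
      rw [h2] at this
      exact this
    rintro ⟨x, s, b, b'⟩ he
    obtain ⟨b1, b1', h1, h2, h3⟩ := (hE s x b b').1 he
    rcases h1 with ⟨a, a', h4, h5⟩ | ⟨a, l, i, m, ⟨h4, h5, h6⟩, h7⟩ | ⟨a, l, i, m, ⟨h4, h5, h6⟩, h7⟩
    · obtain ⟨rfl, rfl⟩ := Prod.mk.inj h4
      apply hS
      exact ⟨a, a', h5, h2.symm, h3.symm⟩
    · obtain ⟨rfl, rfl⟩ := Prod.mk.inj h6
      have h8 := key _ a l i h7 m h4
      rw [h5] at h8
      simp only [eof, if_true, lv] at h8
      have e1 : (gv D l i m)⁻¹ • gv D l i m • x = x := inv_smul_smul _ _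
      have e2 : (gv D l i (m + 1))⁻¹ • gv D l i m • x = (D.ρ s)⁻¹ • x := by
        rw [gv_succ, h5, mul_inv_rev, mul_smul, inv_smul_smul]; simp [lval]
      rw [e1, e2, h2, h3] at h8
      exact h8
    · obtain ⟨rfl, rfl⟩ := Prod.mk.inj h6
      have h8 := key _ a l i h7 m h4
      rw [h5] at h8
      simp only [eof, Bool.false_eq_true, if_false, lv] at h8
      have e1 : (gv D l i (m + 1))⁻¹ • gv D l i (m + 1) • x = x := inv_smul_smul _ _
      have e2 : (gv D l i m)⁻¹ • gv D l i (m + 1) • x = (D.ρ s)⁻¹ • x := by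
        rw [gv_succ, h5, mul_smul, inv_smul_smul]; simp [lval]
      rw [e1, e2, h2, h3] at h8
      exact h8

end Crest.Agent.CP
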