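import Crest.Agent.CPBernD

/-!
# Row 191: the free part of the Bernoulli shift
-/

set_option autoImplicit false

namespace Crest.Agent.CP
open MeasureTheory

namespace Bern

theorem bern_cyl {Γ : Type} (I : Finset (Γ × ℕ)) (b : Γ × ℕ → Bool) :
    bern Γ {ω | ∀ g ∈ I, ω g = b g} = (2 : ENNReal)⁻¹ ^ I.card := by
  have h := Measure.infinitePi_pi (μ := fun _ : Γ × ℕ => coin) (s := I) (t := fun g => {b g})
    (fun g _ => MeasurableSet.singleton _)
  have h2 : {ω : Om Γ | ∀ g ∈ I, ω g = b g} = Set.pi I (fun g => {b g}) := by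
    ext ω; simp [Set.pi]
  rw [h2, bern, h]
  simp [coin_singleton]

/-- the set of points fixed by a nontrivial element is null -/
theorem fix_null {Γ : Type} [Group Γ] (g : Γ) (hg : g ≠ 1) :
    bern Γ {ω | sh g ω = ω} = 0 := by
  classical
  have hle : ∀ n : ℕ, bern Γ {ω | sh g ω = ω} ≤ (2 : ENNReal)⁻¹ ^ n := by
    intro n
    set I : Finset (Γ × ℕ) := (Finset.range n).image (fun m => ((1 : Γ), m)) ∪
      (Finset.range n).image (fun m => (g⁻¹, m)) with hI
    have hcard : I.card = n + n := by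
      rw [hI, Finset.card_union_of_disjoint, Finset.card_image_of_injective,
        Finset.card_image_of_injective, Finset.card_range]
      · intro a b h; simpa using h
      · intro a b h; simpa using h
      · rw [Finset.disjoint_left]
        intro p hp hp'
        obtain ⟨m, -, rfl⟩ := Finset.mem_image.1 hp
        obtain ⟨m', -, h⟩ := Finset.mem_image.1 hp'
        simp only [Prod.mk.injEq] at h
        exact hg (inv_eq_one.1 h.1)
    have hsub : {ω : Om Γ | sh g ω = ω} ⊆ ⋃ v : Fin n → Bool,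
        {ω | ∀ p ∈ I, ω p = (fun p : Γ × ℕ => if h : p.2 < n then v ⟨p.2, h⟩ else false) p} := by
      intro ω hω
      rw [Set.mem_iUnion]
      refine ⟨fun m => ω (1, m), ?_⟩
      intro p hp
      rcases Finset.mem_union.1 hp with hp | hp
      · obtain ⟨m, hm, rfl⟩ := Finset.mem_image.1 hp
        have hm' := Finset.mem_range.1 hm
        simp [hm']
      · obtain ⟨m, hm, rfl⟩ := Finset.mem_image.1 hp
        have hm' := Finset.mem_range.1 hm
        have h1 := congrFun (show sh g ω = ω from hω) (1, m)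
        simp only [sh, mul_one] at h1
        simp [hm', h1]
    calc bern Γ {ω | sh g ω = ω} ≤ _ := measure_mono hsub
      _ ≤ ∑' v : Fin n → Bool, bern Γ {ω | ∀ p ∈ I, ω p =
          (fun p : Γ × ℕ => if h : p.2 < n then v ⟨p.2, h⟩ else false) p} := measure_iUnion_le _
      _ = ∑' v : Fin n → Bool, (2 : ENNReal)⁻¹ ^ (n + n) := by
          refine tsum_congr fun v => ?_
          rw [bern_cyl, hcard]
      _ = (2 : ENNReal) ^ n * (2 : ENNReal)⁻¹ ^ (n + n) := by
          rw [tsum_fintype, Finset.sum_const, Finset.card_univ, Fintype.card_fun]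
          simp
      _ = (2 : ENNReal)⁻¹ ^ n := by
          rw [pow_add, ← mul_assoc, ← mul_pow, ENNReal.mul_inv_cancel (by norm_num) (by norm_num),
            one_pow, one_mul]
  by_contra hne
  obtain ⟨n, hn⟩ := ENNReal.exists_inv_two_pow_lt hne
  exact absurd (hle n) (not_le.2 hn)

/-- the free part -/
def FP (Γ : Type) [Group Γ] : Set (Om Γ) := {ω | ∀ g : Γ, g ≠ 1 → sh g ω ≠ ω}

theorem meas_fix {Γ : Type} [Group Γ] [Countable Γ] (g : Γ) :
    MeasurableSet {ω : Om Γ | sh g ω = ω} := by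
  have : {ω : Om Γ | sh g ω = ω} = ⋂ p : Γ × ℕ, {ω | ω (g⁻¹ * p.1, p.2) = ω p} := by
    ext ω
    simp only [Set.mem_ofPred_eq, Set.mem_iInter]
    exact funext_iff
  rw [this]
  exact MeasurableSet.iInter fun p => measurableSet_eq_fun (measurable_pi_apply _)
    (measurable_pi_apply _)

theorem meas_FP {Γ : Type} [Group Γ] [Countable Γ] : MeasurableSet (FP Γ) := by
  have : FP Γ = ⋂ g : Γ, ({_ω | g = 1} ∪ {ω | sh g ω = ω}ᶜ) := by
    ext ω
    simp only [FP, Set.mem_ofPred_eq, Set.mem_iInter, Set.mem_union, Set.mem_compl_iff]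
    refine forall_congr' fun g => ?_
    by_cases h : g = 1 <;> simp [h]
  rw [this]
  exact MeasurableSet.iInter fun g => (MeasurableSet.const _).union (meas_fix g).compl

theorem null_FP {Γ : Type} [Group Γ] [Countable Γ] : bern Γ (FP Γ)ᶜ = 0 := by
  have : (FP Γ)ᶜ ⊆ ⋃ g : {g : Γ // g ≠ 1}, {ω | sh g.1 ω = ω} := by
    intro ω hω
    simp only [FP, Set.mem_compl_iff, Set.mem_ofPred_eq, not_forall, not_not] at hω
    obtain ⟨g, hg, h⟩ := hω
    exact Set.mem_iUnion.2 ⟨⟨g, hg⟩, h⟩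
  refine measure_mono_null this ?_
  rw [measure_iUnion_null_iff]
  intro g
  exact fix_null g.1 g.2

theorem sh_mem_FP {Γ : Type} [Group Γ] (g : Γ) (ω : Om Γ) (h : ω ∈ FP Γ) : sh g ω ∈ FP Γ := by
  intro k hk he
  apply h (g⁻¹ * k * g)
  · intro h1
    apply hk
    have : k = g * (g⁻¹ * k * g) * g⁻¹ := by group
    rw [this, h1]; group
  · rw [sh_mul, sh_mul, he, ← sh_mul, inv_mul_cancel, sh_one]

/-- the space -/
abbrev BX (Γ : Type) [Group Γ] : Type := {ω : Om Γ // ω ∈ FP Γ}

/-- the action -/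
instance actBX (Γ : Type) [Group Γ] : MulAction Γ (BX Γ) where
  smul g ω := ⟨sh g ω.1, sh_mem_FP g ω.1 ω.2⟩
  one_smul ω := Subtype.ext (sh_one ω.1)
  mul_smul g h ω := Subtype.ext (sh_mul g h ω.1)

theorem smul_val {Γ : Type} [Group Γ] (g : Γ) (ω : BX Γ) : (g • ω).1 = sh g ω.1 := rfl

/-- the measure -/
noncomputable def muBX (Γ : Type) [Group Γ] : Measure (BX Γ) := (bern Γ).comap Subtype.val

theorem muBX_apply {Γ : Type} [Group Γ] [Countable Γ] (S : Set (BX Γ)) :
    muBX Γ S = bern Γ (Subtype.val '' S) := comap_subtype_coe_apply meas_FP _ S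

theorem muBX_pre {Γ : Type} [Group Γ] [Countable Γ] (T : Set (Om Γ)) :
    muBX Γ (Subtype.val ⁻¹' T) = bern Γ T := by
  rw [muBX_apply, Subtype.image_preimage_val]
  refine measure_congr ?_
  have h1 : (FP Γ : Set (Om Γ)) =ᵐ[bern Γ] Set.univ := by
    rw [ae_eq_univ]; exact null_FP
  have h2 := Filter.EventuallyEq.inter h1 (Filter.EventuallyEq.refl (ae (bern Γ)) T)
  rw [Set.univ_inter] at h2
  exact h2

theorem exists_pre {Γ : Type} [Group Γ] [Countable Γ] (S : Set (BX Γ)) (hS : MeasurableSet S) :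
    ∃ T : Set (Om Γ), MeasurableSet T ∧ Subtype.val ⁻¹' T = S := by
  obtain ⟨T, hT, h⟩ := hS
  exact ⟨T, hT, h⟩

instance prob_BX (Γ : Type) [Group Γ] [Countable Γ] : IsProbabilityMeasure (muBX Γ) := by
  refine ⟨?_⟩
  have := muBX_pre (Γ := Γ) Set.univ
  rw [Set.preimage_univ] at this
  rw [this, measure_univ]

theorem mp_BX {Γ : Type} [Group Γ] [Countable Γ] (g : Γ) :
    MeasurePreserving (fun x : BX Γ => g • x) (muBX Γ) (muBX Γ) := by
  have hm : Measurable (fun x : BX Γ => g • x) :=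
    ((measurable_sh g).comp measurable_subtype_coe).subtype_mk
  refine ⟨hm, ?_⟩
  ext S hS
  rw [Measure.map_apply hm hS]
  obtain ⟨T, hT, rfl⟩ := exists_pre S hS
  have h1 : (fun x : BX Γ => g • x) ⁻¹' (Subtype.val ⁻¹' T) = Subtype.val ⁻¹' (sh g ⁻¹' T) := rfl
  rw [h1, muBX_pre, muBX_pre]
  exact (mp_sh g).measure_preimage hT.nullMeasurableSet

theorem free_BX {Γ : Type} [Group Γ] (g : Γ) (x : BX Γ) (h : g • x = x) : g = 1 := by
  by_contra hg
  exact x.2 g hg (congrArg Subtype.val h)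

theorem part_Om (Γ : Type) [Group Γ] (β : ENNReal) (hβ : 0 < β) :
    ∃ (N : ℕ) (f : Om Γ → Fin N), Measurable f ∧ ∀ k, bern Γ (f ⁻¹' {k}) ≤ β := by
  classical
  obtain ⟨n, hn⟩ : ∃ n : ℕ, (2 : ENNReal)⁻¹ ^ n < β :=
    ENNReal.exists_inv_two_pow_lt hβ.ne'
  let e : Fin n ↪ Γ × ℕ := ⟨fun i => (1, i.val), fun a b h => by simpa [Fin.ext_iff] using h⟩
  let E : (Fin n → Bool) ≃ Fin (Fintype.card (Fin n → Bool)) := Fintype.equivFin _
  refine ⟨Fintype.card (Fin n → Bool), fun ω => E (fun i => ω (e i)), ?_, ?_⟩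
  · have h1 : Measurable (fun ω : Om Γ => (fun i => ω (e i) : Fin n → Bool)) := by
      fun_prop
    exact (measurable_of_finite E).comp h1
  · intro k
    have h2 : (fun ω : Om Γ => E (fun i => ω (e i))) ⁻¹' {k} ⊆
        {ω | ∀ g ∈ Finset.univ.map e, ω g = (fun g : Γ × ℕ =>
          (if h : ∃ i, e i = g then (E.symm k) h.choose else false)) g} := by
      intro ω hω g hg
      simp only [Set.mem_preimage, Set.mem_singleton_iff] at hω
      obtain ⟨i, -, rfl⟩ := Finset.mem_map.1 hg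
      have hex : ∃ i', e i' = e i := ⟨i, rfl⟩
      show ω (e i) = if h : ∃ i', e i' = e i then (E.symm k) h.choose else false
      rw [dif_pos hex]
      have h3 : hex.choose = i := e.injective hex.choose_spec
      rw [h3, ← hω, Equiv.symm_apply_apply]
    calc bern Γ ((fun ω : Om Γ => E (fun i => ω (e i))) ⁻¹' {k})
        ≤ _ := measure_mono h2
      _ = (2 : ENNReal)⁻¹ ^ (Finset.univ.map e).card := bern_cyl _ _
      _ = (2 : ENNReal)⁻¹ ^ n := by simp
      _ ≤ β := hn.le

/-- everything except the gap; the gap is transferred from `Om Γ` -/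
theorem exists_of_gap (Γ : Type) [Group Γ] [Countable Γ] (x : Fin 100 → Γ)
    (hgap : ∀ S S' : Set (Om Γ), MeasurableSet S → MeasurableSet S' →
      ∑ i : Fin 100, (bern Γ (S ∩ {ω | sh (x i) ω ∈ S'})).toReal
        ≤ 100 * (bern Γ S).toReal * (bern Γ S').toReal
          + 20 * Real.sqrt ((bern Γ S).toReal * (bern Γ S').toReal)) :
    ∃ (X : Type) (_ : MeasurableSpace X) (_ : StandardBorelSpace X) (μ : Measure X)
      (_ : IsProbabilityMeasure μ) (_ : MulAction Γ X),
      (∀ g : Γ, MeasurePreserving (fun x : X => g • x) μ μ) ∧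
      (∀ (g : Γ) (x : X), g • x = x → g = 1) ∧
      Gap μ x ∧
      (∀ β : ENNReal, 0 < β → ∃ (N : ℕ) (f : X → Fin N), Measurable f ∧ ∀ k, μ (f ⁻¹' {k}) ≤ β) := by
  refine ⟨BX Γ, inferInstance, meas_FP.standardBorel, muBX Γ, inferInstance, inferInstance,
    mp_BX, free_BX, ?_, ?_⟩
  · intro S S' hS hS'
    obtain ⟨T, hT, rfl⟩ := exists_pre S hS
    obtain ⟨T', hT', rfl⟩ := exists_pre S' hS'
    have h1 : ∀ i, muBX Γ (Subtype.val ⁻¹' T ∩ {y : BX Γ | x i • y ∈ Subtype.val ⁻¹' T'})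
        = bern Γ (T ∩ {ω | sh (x i) ω ∈ T'}) := by
      intro i
      rw [← muBX_pre]
      rfl
    simp only [h1, muBX_pre]
    exact hgap T T' hT hT'
  · intro β hβ
    obtain ⟨N, f, hf, h⟩ := part_Om Γ β hβ
    refine ⟨N, fun y => f y.1, hf.comp measurable_subtype_coe, fun k => ?_⟩
    have := muBX_pre (Γ := Γ) (f ⁻¹' {k})
    rw [Set.preimage_preimage] at this
    exact this.trans_le (h k)

end Bern

end Crest.Agent.CP
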