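import Mathlib

/-!
# Row 191: the norm estimate for a free action of the free group (Kesten bound)
-/

set_option autoImplicit false

namespace Crest.Agent.CP
namespace BernA

variable {α : Type} [MulAction (FreeGroup (Fin 100)) α]

local notation "FF" => FreeGroup (Fin 100)

/-- representative of the orbit -/
noncomputable def rp (a : α) : α :=
  (Quotient.mk (MulAction.orbitRel FF α) a).out

lemma rp_spec (a : α) : ∃ w : FF, w • rp a = a := by
  have h : (MulAction.orbitRel FF α).r a (rp a) := by
    have := Quotient.mk_out (s := MulAction.orbitRel FF α) a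
    exact (MulAction.orbitRel FF α).symm this
  exact h

lemma rp_smul (g : FF) (a : α) : rp (g • a) = rp a := by
  unfold rp
  congr 1
  apply Quotient.sound
  exact ⟨g, rfl⟩

noncomputable def wd (a : α) : FF := (rp_spec a).choose

lemma wd_spec (a : α) : wd a • rp a = a := (rp_spec a).choose_spec

lemma wd_smul (hfree : ∀ (g : FF) (a : α), g • a = a → g = 1) (g : FF) (a : α) :
    wd (g • a) = g * wd a := by
  have h1 : wd (g • a) • rp a = (g * wd a) • rp a := by
    have := wd_spec (g • a)
    rw [rp_smul] at this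
    rw [this, mul_smul, wd_spec]
  have h2 : ((g * wd a)⁻¹ * wd (g • a)) • rp a = rp a := by
    rw [mul_smul, h1, inv_smul_smul]
  have h3 := hfree _ _ h2
  exact (inv_mul_eq_one.mp h3).symm

lemma head_or (i : Fin 100) (w : FF) :
    (FreeGroup.of i * w).toWord.head? = some (i, true) ∨ w.toWord.head? = some (i, false) := by
  have h1 : (FreeGroup.of i * w).toWord = FreeGroup.reduce ((i, true) :: w.toWord) := by
    conv_lhs => rw [← FreeGroup.mk_toWord (x := w)]
    show (FreeGroup.mk ((i, true) :: w.toWord)).toWord = _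
    rw [FreeGroup.toWord_mk]
  rw [h1, FreeGroup.reduce.cons, FreeGroup.reduce_toWord]
  cases hw : w.toWord with
  | nil => left; rfl
  | cons hd tl =>
    obtain ⟨x, b⟩ := hd
    by_cases hc : i = x ∧ true = !b
    · right
      obtain ⟨h2, h3⟩ := hc
      subst h2
      cases b
      · rfl
      · simp at h3
    · left
      simp only [hc, if_false]
      rfl

open Classical in
theorem core (hfree : ∀ (g : FF) (a : α), g • a = a → g = 1) (s t : Finset α) (f g : α → ℝ)
    (hf : ∀ a, a ∉ t → f a = 0) :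
    ∑ i : Fin 100, ∑ a ∈ s, f (FreeGroup.of i • a) * g a
      ≤ 20 * Real.sqrt (∑ a ∈ t, f a ^ 2) * Real.sqrt (∑ a ∈ s, g a ^ 2) := by
  set Pp : Fin 100 → α → Prop := fun i b => (wd b).toWord.head? = some (i, true) with hPp
  set Pm : Fin 100 → α → Prop := fun i b => (wd b).toWord.head? = some (i, false) with hPm
  set U : Finset (Fin 100 × α) := Finset.univ ×ˢ s with hU
  have e1 : ∑ i : Fin 100, ∑ a ∈ s, f (FreeGroup.of i • a) * g a
      = ∑ z ∈ U, f (FreeGroup.of z.1 • z.2) * g z.2 := by
    rw [hU, Finset.sum_product]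
  rw [e1]
  have e2 : ∑ z ∈ U, f (FreeGroup.of z.1 • z.2) * g z.2 ≤
      ∑ z ∈ U, (if Pp z.1 (FreeGroup.of z.1 • z.2) then |f (FreeGroup.of z.1 • z.2)| else 0) * |g z.2|
      + ∑ z ∈ U, |f (FreeGroup.of z.1 • z.2)| * (if Pm z.1 z.2 then |g z.2| else 0) := by
    rw [← Finset.sum_add_distrib]
    apply Finset.sum_le_sum
    intro z _
    have h0 : f (FreeGroup.of z.1 • z.2) * g z.2 ≤ |f (FreeGroup.of z.1 • z.2)| * |g z.2| := by
      rw [← abs_mul]; exact le_abs_self _
    have hnn : 0 ≤ |f (FreeGroup.of z.1 • z.2)| * |g z.2| := by positivity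
    have hor : Pp z.1 (FreeGroup.of z.1 • z.2) ∨ Pm z.1 z.2 := by
      simp only [hPp, hPm]
      rw [wd_smul hfree]
      exact head_or z.1 (wd z.2)
    rcases hor with h | h
    · rw [if_pos h]
      have : 0 ≤ |f (FreeGroup.of z.1 • z.2)| * (if Pm z.1 z.2 then |g z.2| else 0) := by
        apply mul_nonneg (abs_nonneg _)
        split_ifs
        · exact abs_nonneg _
        · exact le_rfl
      linarith
    · rw [if_pos h]
      have : 0 ≤ (if Pp z.1 (FreeGroup.of z.1 • z.2) then |f (FreeGroup.of z.1 • z.2)| else 0)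
          * |g z.2| := by
        apply mul_nonneg _ (abs_nonneg _)
        split_ifs
        · exact abs_nonneg _
        · exact le_rfl
      linarith
  have hg2 : ∑ z ∈ U, |g z.2| ^ 2 = 100 * ∑ a ∈ s, g a ^ 2 := by
    rw [hU, Finset.sum_product]
    simp [sq_abs]
  -- sums over shifted points
  have shift : ∀ (i : Fin 100) (F : α → ℝ), (∀ b, 0 ≤ F b) → (∀ b, b ∉ t → F b = 0) →
      ∑ a ∈ s, F (FreeGroup.of i • a) ≤ ∑ b ∈ t, F b := by
    intro i F hF0 hFt
    have h1 : ∑ a ∈ s, F (FreeGroup.of i • a)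
        = ∑ b ∈ s.image (fun a => FreeGroup.of i • a), F b := by
      rw [Finset.sum_image]
      intro a _ b _ hab
      exact MulAction.injective _ hab
    rw [h1]
    calc ∑ b ∈ s.image (fun a => FreeGroup.of i • a), F b
        ≤ ∑ b ∈ s.image (fun a => FreeGroup.of i • a) ∪ t, F b :=
          Finset.sum_le_sum_of_subset_of_nonneg Finset.subset_union_left (fun b _ _ => hF0 b)
      _ = ∑ b ∈ t, F b := by
          symm
          apply Finset.sum_subset Finset.subset_union_right
          intro b _ hb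
          exact hFt b hb
  have hfp : ∑ z ∈ U, (if Pp z.1 (FreeGroup.of z.1 • z.2) then |f (FreeGroup.of z.1 • z.2)|
      else 0) ^ 2 ≤ ∑ b ∈ t, f b ^ 2 := by
    rw [hU, Finset.sum_product]
    calc ∑ i : Fin 100, ∑ a ∈ s, (if Pp i (FreeGroup.of i • a) then |f (FreeGroup.of i • a)|
          else 0) ^ 2
        ≤ ∑ i : Fin 100, ∑ b ∈ t, (if Pp i b then f b ^ 2 else 0) := by
          apply Finset.sum_le_sum
          intro i _
          have h1 := shift i (fun b => if Pp i b then f b ^ 2 else 0)
            (fun b => by split_ifs; exacts [sq_nonneg _, le_rfl])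
            (fun b hb => by rw [hf b hb]; simp)
          refine le_trans (le_of_eq ?_) h1
          apply Finset.sum_congr rfl
          intro a _
          split_ifs
          · rw [sq_abs]
          · simp
      _ = ∑ b ∈ t, ∑ i : Fin 100, (if Pp i b then f b ^ 2 else 0) := Finset.sum_comm
      _ ≤ ∑ b ∈ t, f b ^ 2 := by
          apply Finset.sum_le_sum
          intro b _
          rw [← Finset.sum_filter, Finset.sum_const, nsmul_eq_mul]
          have hc : (Finset.univ.filter fun i => Pp i b).card ≤ 1 := by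
            rw [Finset.card_le_one]
            intro i hi j hj
            simp only [Finset.mem_filter, Finset.mem_univ, true_and, hPp] at hi hj
            rw [hi] at hj
            simpa using hj
          have hc' : ((Finset.univ.filter fun i => Pp i b).card : ℝ) ≤ 1 := by exact_mod_cast hc
          nlinarith [sq_nonneg (f b)]
  have hfa : ∑ z ∈ U, |f (FreeGroup.of z.1 • z.2)| ^ 2 ≤ 100 * ∑ b ∈ t, f b ^ 2 := by
    rw [hU, Finset.sum_product]
    calc ∑ i : Fin 100, ∑ a ∈ s, |f (FreeGroup.of i • a)| ^ 2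
        ≤ ∑ i : Fin 100, ∑ b ∈ t, f b ^ 2 := by
          apply Finset.sum_le_sum
          intro i _
          have h1 := shift i (fun b => f b ^ 2) (fun b => sq_nonneg _)
            (fun b hb => by rw [hf b hb]; simp)
          refine le_trans (le_of_eq ?_) h1
          apply Finset.sum_congr rfl
          intro a _
          rw [sq_abs]
      _ = 100 * ∑ b ∈ t, f b ^ 2 := by simp
  have hgm : ∑ z ∈ U, (if Pm z.1 z.2 then |g z.2| else 0) ^ 2 ≤ ∑ a ∈ s, g a ^ 2 := by
    rw [hU, Finset.sum_product, Finset.sum_comm]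
    apply Finset.sum_le_sum
    intro b _
    have h1 : ∑ i : Fin 100, (if Pm i b then |g b| else 0) ^ 2
        = ∑ i : Fin 100, (if Pm i b then g b ^ 2 else 0) := by
      apply Finset.sum_congr rfl
      intro i _
      split_ifs
      · rw [sq_abs]
      · simp
    show ∑ i : Fin 100, (if Pm i b then |g b| else 0) ^ 2 ≤ _
    rw [h1, ← Finset.sum_filter, Finset.sum_const, nsmul_eq_mul]
    have hc : (Finset.univ.filter fun i => Pm i b).card ≤ 1 := by
      rw [Finset.card_le_one]
      intro i hi j hj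
      simp only [Finset.mem_filter, Finset.mem_univ, true_and, hPm] at hi hj
      rw [hi] at hj
      simpa using hj
    have hc' : ((Finset.univ.filter fun i => Pm i b).card : ℝ) ≤ 1 := by exact_mod_cast hc
    nlinarith [sq_nonneg (g b)]
  have h10 : ∀ y : ℝ, Real.sqrt (100 * y) = 10 * Real.sqrt y := by
    intro y
    rw [Real.sqrt_mul (by norm_num), show (100 : ℝ) = 10 ^ 2 by norm_num,
      Real.sqrt_sq (by norm_num)]
  have t1 : ∑ z ∈ U, (if Pp z.1 (FreeGroup.of z.1 • z.2) then |f (FreeGroup.of z.1 • z.2)| else 0)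
      * |g z.2| ≤ Real.sqrt (∑ a ∈ t, f a ^ 2) * (10 * Real.sqrt (∑ a ∈ s, g a ^ 2)) := by
    refine le_trans (Real.sum_mul_le_sqrt_mul_sqrt U _ _) ?_
    rw [hg2, h10]
    exact mul_le_mul_of_nonneg_right (Real.sqrt_le_sqrt hfp) (by positivity)
  have t2 : ∑ z ∈ U, |f (FreeGroup.of z.1 • z.2)| * (if Pm z.1 z.2 then |g z.2| else 0)
      ≤ (10 * Real.sqrt (∑ a ∈ t, f a ^ 2)) * Real.sqrt (∑ a ∈ s, g a ^ 2) := by
    refine le_trans (Real.sum_mul_le_sqrt_mul_sqrt U _ _) ?_
    rw [← h10]
    exact mul_le_mul (Real.sqrt_le_sqrt hfa) (Real.sqrt_le_sqrt hgm) (by positivity)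
      (by positivity)
  calc _ ≤ _ := e2
    _ ≤ Real.sqrt (∑ a ∈ t, f a ^ 2) * (10 * Real.sqrt (∑ a ∈ s, g a ^ 2)) +
        (10 * Real.sqrt (∑ a ∈ t, f a ^ 2)) * Real.sqrt (∑ a ∈ s, g a ^ 2) := add_le_add t1 t2
    _ = _ := by ring

theorem free_norm (hfree : ∀ (g : FF) (a : α), g • a = a → g = 1) (f g : α →₀ ℝ) :
    ∑ i : Fin 100, g.sum (fun a c => f (FreeGroup.of i • a) * c)
      ≤ 20 * Real.sqrt (f.sum fun _ c => c ^ 2) * Real.sqrt (g.sum fun _ c => c ^ 2) := by
  have h := core hfree g.support f.support f g (fun a ha => Finsupp.notMem_support_iff.mp ha)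
  exact h

end BernA
end Crest.Agent.CP
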