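import Crest.Agent.CPBernW
import Crest.Agent.CPBernA

/-!
# Row 191: the gap inequality for the Bernoulli measure
-/

set_option autoImplicit false

namespace Crest.Agent.CP.Bern.Walsh
open MeasureTheory
open scoped symmDiff

section act
variable {F ι : Type} [Group F] [MulAction F ι]

/-- the embedding `p ↦ g • p` -/
def emb (g : F) : ι ↪ ι := (MulAction.toPerm g : Equiv.Perm ι).toEmbedding

theorem emb_apply (g : F) (p : ι) : emb g p = g • p := rfl

/-- the shift -/
def sh (g : F) (ω : ι → Bool) : ι → Bool := fun p => ω (g⁻¹ • p)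

theorem W_sh (g : F) (A : Finset ι) (ω : ι → Bool) : W A (sh g ω) = W (A.map (emb g⁻¹)) ω := by
  unfold W sh
  rw [Finset.prod_map]
  rfl

theorem sh_mp (g : F) : MeasurePreserving (sh g) (bern ι) (bern ι) := by
  refine ⟨?_, ?_⟩
  · exact measurable_pi_lambda _ (fun p => measurable_pi_apply _)
  · have := Measure.map_infinitePi_infinitePi_of_inj (P := fun _ : ι => coin)
      (f := fun p : ι => g⁻¹ • p) (MulAction.injective g⁻¹)
    exact this

/-- nonempty finite subsets -/
abbrev NF (ι : Type) := {A : Finset ι // A.Nonempty}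

instance : MulAction F (NF ι) where
  smul g A := ⟨A.1.map (emb g), A.2.map⟩
  one_smul A := by
    apply Subtype.ext
    show A.1.map (emb 1) = A.1
    ext p; simp [emb_apply]
  mul_smul g h A := by
    apply Subtype.ext
    show A.1.map (emb (g * h)) = (A.1.map (emb h)).map (emb g)
    ext p; simp [emb_apply, mul_smul]

theorem NF_smul (g : F) (A : NF ι) : (g • A).1 = A.1.map (emb g) := rfl

theorem NF_free [IsMulTorsionFree F] (hfree : ∀ (g : F) (p : ι), g • p = p → g = 1)
    (g : F) (A : NF ι) (h : g • A = A) : g = 1 := by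
  obtain ⟨p, hp⟩ := A.2
  have hmem : ∀ k : ℕ, g ^ k • p ∈ A.1 := by
    intro k
    induction k with
    | zero => simpa using hp
    | succ k ih =>
      have h1 : emb g (g ^ k • p) ∈ A.1.map (emb g) := Finset.mem_map_of_mem _ ih
      have h2 : A.1.map (emb g) = A.1 := by rw [← NF_smul, h]
      rw [h2, emb_apply, ← mul_smul, ← pow_succ'] at h1
      exact h1
  have hninj : ¬ Function.Injective (fun k : ℕ => (⟨g ^ k • p, hmem k⟩ : A.1)) :=
    not_injective_infinite_finite _
  rw [Function.not_injective_iff] at hninj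
  obtain ⟨k, l, hkl, hne⟩ := hninj
  have hkl' : g ^ k • p = g ^ l • p := congrArg Subtype.val hkl
  rcases lt_or_gt_of_ne hne with hlt | hlt
  · have : g ^ (l - k) • p = p := by
      have h3 : g ^ l = g ^ k * g ^ (l - k) := by rw [← pow_add]; congr 1; omega
      rw [h3, mul_smul] at hkl'
      exact (MulAction.injective (g ^ k) hkl').symm
    have := hfree _ _ this
    exact (pow_eq_one_iff_left (by omega)).mp this
  · have : g ^ (k - l) • p = p := by
      have h3 : g ^ k = g ^ l * g ^ (k - l) := by rw [← pow_add]; congr 1; omega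
      rw [h3, mul_smul] at hkl'
      exact (MulAction.injective (g ^ l) hkl')
    have := hfree _ _ this
    exact (pow_eq_one_iff_left (by omega)).mp this

/-- the Walsh expansion of the shifted function -/
theorem E_sh (g : F) (d : Finset ι →₀ ℝ) (ω : ι → Bool) :
    E d (sh g ω) = E (d.mapDomain (fun A => A.map (emb g⁻¹))) ω := by
  unfold E
  rw [Finsupp.sum_mapDomain_index]
  · exact Finsupp.sum_congr (fun A _ => by rw [W_sh])
  · intro A; simp
  · intro A x y; ring

theorem map_emb_inj (g : F) : Function.Injective (fun A : Finset ι => A.map (emb g)) :=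
  Finset.map_injective _

theorem mapDomain_at (g : F) (d : Finset ι →₀ ℝ) (A : Finset ι) :
    (d.mapDomain (fun A => A.map (emb g⁻¹))) A = d (A.map (emb g)) := by
  have h : A = (A.map (emb g)).map (emb g⁻¹) := by
    ext p; simp [emb_apply]
  conv_lhs => rw [h]
  exact Finsupp.mapDomain_apply (map_emb_inj g⁻¹) d (A.map (emb g))

theorem sum_split (c : Finset ι →₀ ℝ) (h : Finset ι → ℝ) :
    c.sum (fun A r => r * h A) =
      c ∅ * h ∅ + (c.subtypeDomain (fun A => A.Nonempty)).sum (fun A r => r * h A.1) := by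
  classical
  induction c using Finsupp.induction_linear with
  | zero => simp
  | add c d hc hd =>
    rw [Finsupp.sum_add_index' (by simp) (by intros; ring), hc, hd, Finsupp.subtypeDomain_add,
      Finsupp.sum_add_index' (by simp) (by intros; ring)]
    simp only [Finsupp.add_apply]; ring
  | single A r =>
    rw [Finsupp.sum_single_index (by simp)]
    by_cases hA : A.Nonempty
    · have h1 : (Finsupp.single A r).subtypeDomain (fun A => A.Nonempty) =
          Finsupp.single (⟨A, hA⟩ : NF ι) r := by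
        ext B
        simp only [Finsupp.subtypeDomain_apply, Finsupp.single_apply, Subtype.ext_iff]
      rw [h1, Finsupp.sum_single_index (by simp)]
      have h2 : A ≠ ∅ := hA.ne_empty
      simp [Finsupp.single_apply, h2]
    · have h0 : A = ∅ := Finset.not_nonempty_iff_eq_empty.mp hA
      subst h0
      have h1 : (Finsupp.single (∅ : Finset ι) r).subtypeDomain (fun A => A.Nonempty) = 0 := by
        ext B
        have : (∅ : Finset ι) ≠ B.1 := (B.2.ne_empty).symm
        simp [Finsupp.subtypeDomain_apply, Finsupp.single_apply, this]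
      rw [h1]; simp

/-- measures of the cylinder sets in terms of the coefficients -/
theorem meas_eq_coeff {S : Set (ι → Bool)} (hS : MeasurableSet S) (c : Finset ι →₀ ℝ)
    (hc : ∀ ω, S.indicator (fun _ => (1 : ℝ)) ω = E c ω) : ((bern ι) S).toReal = c ∅ := by
  rw [← E_int c]
  simp_rw [← hc]
  rw [integral_indicator hS, setIntegral_const]
  simp [Measure.real]

theorem meas_inter {S T : Set (ι → Bool)} (hS : MeasurableSet S) (hT : MeasurableSet T)
    (c d : Finset ι →₀ ℝ)
    (hc : ∀ ω, S.indicator (fun _ => (1 : ℝ)) ω = E c ω)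
    (hd : ∀ ω, T.indicator (fun _ => (1 : ℝ)) ω = E d ω) :
    ((bern ι) (S ∩ T)).toReal = c.sum (fun A r => r * d A) := by
  rw [← E_mul_int c d]
  simp_rw [← hc, ← hd]
  have : ∀ ω, S.indicator (fun _ => (1 : ℝ)) ω * T.indicator (fun _ => (1 : ℝ)) ω =
      (S ∩ T).indicator (fun _ => (1 : ℝ)) ω := by
    intro ω
    by_cases hω : ω ∈ S <;> by_cases hω' : ω ∈ T <;> simp [hω, hω']
  simp_rw [this]
  rw [integral_indicator (hS.inter hT), setIntegral_const]
  simp [Measure.real]

end act

section gap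
variable {ι : Type} [MulAction (FreeGroup (Fin 100)) ι]

local notation "FG" => FreeGroup (Fin 100)

theorem gap_cyl (hfree : ∀ (g : FG) (p : ι), g • p = p → g = 1)
    {S S' : Set (ι → Bool)} (hS : S ∈ Cyl ι) (hS' : S' ∈ Cyl ι) :
    ∑ i : Fin 100, ((bern ι) (S ∩ {ω | sh (FreeGroup.of i) ω ∈ S'})).toReal
      ≤ 100 * ((bern ι) S).toReal * ((bern ι) S').toReal +
        20 * Real.sqrt (((bern ι) S).toReal * ((bern ι) S').toReal) := by
  classical
  obtain ⟨hSm, c, hc⟩ := hS
  obtain ⟨hSm', d, hd⟩ := hS'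
  have h1 : ∀ i : Fin 100, ((bern ι) (S ∩ {ω | sh (FreeGroup.of i) ω ∈ S'})).toReal =
      c ∅ * d ∅ + (c.subtypeDomain (fun A => A.Nonempty)).sum
        (fun A r => (d.subtypeDomain (fun A => A.Nonempty)) ((FreeGroup.of i : FG) • A) * r) := by
    intro i
    have hT : MeasurableSet {ω : ι → Bool | sh (FreeGroup.of i : FG) ω ∈ S'} :=
      (sh_mp (FreeGroup.of i)).measurable hSm'
    have hTc : ∀ ω, ({ω : ι → Bool | sh (FreeGroup.of i : FG) ω ∈ S'}).indicator
        (fun _ => (1 : ℝ)) ω = E (d.mapDomain (fun A => A.map (emb (FreeGroup.of i : FG)⁻¹))) ω := by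
      intro ω
      rw [← E_sh, ← hd]
      rfl
    rw [meas_inter hSm hT c _ hc hTc, sum_split]
    congr 1
    · rw [mapDomain_at]; simp
    · refine Finsupp.sum_congr (fun A _ => ?_)
      rw [mapDomain_at, mul_comm]
      rfl
  simp_rw [h1]
  rw [Finset.sum_add_distrib]
  have h2 := Crest.Agent.CP.BernA.free_norm (α := NF ι) (NF_free hfree) (d.subtypeDomain (fun A => A.Nonempty))
    (c.subtypeDomain (fun A => A.Nonempty))
  have hcS : c ∅ = ((bern ι) S).toReal := (meas_eq_coeff hSm c hc).symm
  have hdS : d ∅ = ((bern ι) S').toReal := (meas_eq_coeff hSm' d hd).symm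
  have hsq : ∀ (e : Finset ι →₀ ℝ) (T : Set (ι → Bool)), MeasurableSet T →
      (∀ ω, T.indicator (fun _ => (1 : ℝ)) ω = E e ω) →
      (e.subtypeDomain (fun A => A.Nonempty)).sum (fun _ r => r ^ 2) ≤ ((bern ι) T).toReal := by
    intro e T hT he
    have h3 := meas_inter hT hT e e he he
    rw [Set.inter_self] at h3
    rw [h3]
    have h4 := sum_split e (fun A => e A)
    rw [h4]
    have h5 : (e.subtypeDomain (fun A => A.Nonempty)).sum (fun A r => r * e A.1) =
        (e.subtypeDomain (fun A => A.Nonempty)).sum (fun _ r => r ^ 2) := by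
      refine Finsupp.sum_congr (fun A _ => ?_)
      rw [Finsupp.subtypeDomain_apply]; ring
    rw [h5]
    nlinarith [mul_self_nonneg (e ∅)]
  have hc2 := hsq c S hSm hc
  have hd2 := hsq d S' hSm' hd
  rw [hcS, hdS]
  simp only [Finset.sum_const, Finset.card_univ, Fintype.card_fin, nsmul_eq_mul]
  have h6 : Real.sqrt ((d.subtypeDomain (fun A => A.Nonempty)).sum (fun _ r => r ^ 2)) ≤
      Real.sqrt (((bern ι) S').toReal) := Real.sqrt_le_sqrt hd2
  have h7 : Real.sqrt ((c.subtypeDomain (fun A => A.Nonempty)).sum (fun _ r => r ^ 2)) ≤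
      Real.sqrt (((bern ι) S).toReal) := Real.sqrt_le_sqrt hc2
  have h8 : Real.sqrt (((bern ι) S).toReal * ((bern ι) S').toReal) =
      Real.sqrt (((bern ι) S).toReal) * Real.sqrt (((bern ι) S').toReal) :=
    Real.sqrt_mul ENNReal.toReal_nonneg _
  rw [h8]
  have h9 : Real.sqrt ((d.subtypeDomain (fun A => A.Nonempty)).sum (fun _ r => r ^ 2)) *
      Real.sqrt ((c.subtypeDomain (fun A => A.Nonempty)).sum (fun _ r => r ^ 2)) ≤
      Real.sqrt (((bern ι) S').toReal) * Real.sqrt (((bern ι) S).toReal) :=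
    mul_le_mul h6 h7 (Real.sqrt_nonneg _) (Real.sqrt_nonneg _)
  push_cast
  nlinarith [h2, h9]

theorem gap_gen (hfree : ∀ (g : FG) (p : ι), g • p = p → g = 1)
    {S S' : Set (ι → Bool)} (hS : MeasurableSet S) (hS' : MeasurableSet S') :
    ∑ i : Fin 100, ((bern ι) (S ∩ {ω | sh (FreeGroup.of i) ω ∈ S'})).toReal
      ≤ 100 * ((bern ι) S).toReal * ((bern ι) S').toReal +
        20 * Real.sqrt (((bern ι) S).toReal * ((bern ι) S').toReal) := by
  classical
  set μ := bern ι with hμ
  have key : ∀ ε : ℝ, 0 < ε →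
      ∑ i : Fin 100, (μ (S ∩ {ω | sh (FreeGroup.of i) ω ∈ S'})).toReal
      ≤ 100 * ((μ S).toReal + ε) * ((μ S').toReal + ε) +
        20 * Real.sqrt (((μ S).toReal + ε) * ((μ S').toReal + ε)) + 200 * ε := by
    intro ε hε
    obtain ⟨C, hC, hCS⟩ := Cyl_dense hS (ENNReal.ofReal_pos.mpr hε)
    obtain ⟨C', hC', hCS'⟩ := Cyl_dense hS' (ENNReal.ofReal_pos.mpr hε)
    have a1 : (μ (C ∆ S)).toReal ≤ ε := by
      have := ENNReal.toReal_mono ENNReal.ofReal_ne_top hCS.le
      rwa [ENNReal.toReal_ofReal hε.le] at this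
    have a2 : (μ (C' ∆ S')).toReal ≤ ε := by
      have := ENNReal.toReal_mono ENNReal.ofReal_ne_top hCS'.le
      rwa [ENNReal.toReal_ofReal hε.le] at this
    have b1 : (μ C).toReal ≤ (μ S).toReal + ε := by
      have : μ C ≤ μ S + μ (C ∆ S) := by
        refine (measure_mono ?_).trans (measure_union_le _ _)
        intro ω hω
        by_cases h : ω ∈ S
        · exact Or.inl h
        · exact Or.inr (Or.inl ⟨hω, h⟩)
      have := ENNReal.toReal_mono (by finiteness) this
      rw [ENNReal.toReal_add (by finiteness) (by finiteness)] at this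
      linarith
    have b2 : (μ C').toReal ≤ (μ S').toReal + ε := by
      have : μ C' ≤ μ S' + μ (C' ∆ S') := by
        refine (measure_mono ?_).trans (measure_union_le _ _)
        intro ω hω
        by_cases h : ω ∈ S'
        · exact Or.inl h
        · exact Or.inr (Or.inl ⟨hω, h⟩)
      have := ENNReal.toReal_mono (by finiteness) this
      rw [ENNReal.toReal_add (by finiteness) (by finiteness)] at this
      linarith
    have c1 : ∀ i : Fin 100, (μ (S ∩ {ω | sh (FreeGroup.of i : FG) ω ∈ S'})).toReal ≤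
        (μ (C ∩ {ω | sh (FreeGroup.of i : FG) ω ∈ C'})).toReal + 2 * ε := by
      intro i
      have hpre : μ {ω | sh (FreeGroup.of i : FG) ω ∈ C' ∆ S'} = μ (C' ∆ S') :=
        (sh_mp (FreeGroup.of i : FG)).measure_preimage
          (hC'.1.symmDiff hS').nullMeasurableSet
      have : μ (S ∩ {ω | sh (FreeGroup.of i : FG) ω ∈ S'}) ≤
          μ (C ∩ {ω | sh (FreeGroup.of i : FG) ω ∈ C'}) + μ (C ∆ S) + μ (C' ∆ S') := by
        rw [← hpre]
        refine (measure_mono ?_).trans ((measure_union_le _ _).trans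
          (add_le_add_left (measure_union_le _ _) _))
        rintro ω ⟨h1, h2⟩
        by_cases h3 : ω ∈ C
        · by_cases h4 : sh (FreeGroup.of i : FG) ω ∈ C'
          · exact Or.inl (Or.inl ⟨h3, h4⟩)
          · exact Or.inr (Or.inr ⟨h2, h4⟩)
        · exact Or.inl (Or.inr (Or.inr ⟨h1, h3⟩))
      have := ENNReal.toReal_mono (by finiteness) this
      rw [ENNReal.toReal_add (by finiteness) (by finiteness),
        ENNReal.toReal_add (by finiteness) (by finiteness)] at this
      linarith
    have d1 := gap_cyl hfree hC hC'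
    have e1 : ∑ i : Fin 100, (μ (S ∩ {ω | sh (FreeGroup.of i : FG) ω ∈ S'})).toReal ≤
        ∑ i : Fin 100, ((μ (C ∩ {ω | sh (FreeGroup.of i : FG) ω ∈ C'})).toReal + 2 * ε) :=
      Finset.sum_le_sum (fun i _ => c1 i)
    rw [Finset.sum_add_distrib] at e1
    simp only [Finset.sum_const, Finset.card_univ, Fintype.card_fin, nsmul_eq_mul] at e1
    push_cast at e1
    have n1 : 0 ≤ (μ C).toReal := ENNReal.toReal_nonneg
    have n2 : 0 ≤ (μ C').toReal := ENNReal.toReal_nonneg
    have n3 : 0 ≤ (μ S).toReal := ENNReal.toReal_nonneg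
    have n4 : 0 ≤ (μ S').toReal := ENNReal.toReal_nonneg
    have f1 : (μ C).toReal * (μ C').toReal ≤ ((μ S).toReal + ε) * ((μ S').toReal + ε) :=
      mul_le_mul b1 b2 n2 (by linarith)
    have f2 := Real.sqrt_le_sqrt f1
    nlinarith [d1, e1, f1, f2]
  have hcont : Filter.Tendsto (fun ε : ℝ => 100 * ((μ S).toReal + ε) * ((μ S').toReal + ε) +
        20 * Real.sqrt (((μ S).toReal + ε) * ((μ S').toReal + ε)) + 200 * ε)
      (nhdsWithin 0 (Set.Ioi 0)) (nhds (100 * ((μ S).toReal + 0) * ((μ S').toReal + 0) +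
        20 * Real.sqrt (((μ S).toReal + 0) * ((μ S').toReal + 0)) + 200 * 0)) := by
    have : Continuous (fun ε : ℝ => 100 * ((μ S).toReal + ε) * ((μ S').toReal + ε) +
        20 * Real.sqrt (((μ S).toReal + ε) * ((μ S').toReal + ε)) + 200 * ε) := by fun_prop
    exact this.continuousAt.tendsto.mono_left nhdsWithin_le_nhds
  have := ge_of_tendsto hcont (Filter.eventually_of_mem self_mem_nhdsWithin (fun ε hε => key ε hε))
  simpa using this

end gap

end Crest.Agent.CP.Bern.Walsh

namespace Crest.Agent.CP.Bern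
open MeasureTheory

/-- the gap for the shift on `(Γ × ℕ) → Bool` -/
theorem gap_omega {Γ : Type} [Group Γ] [Countable Γ] (x : Fin 100 → Γ)
    (hx : Function.Injective (FreeGroup.lift x)) (S S' : Set (Om Γ))
    (hS : MeasurableSet S) (hS' : MeasurableSet S') :
    ∑ i : Fin 100, (bern Γ (S ∩ {ω | sh (x i) ω ∈ S'})).toReal
      ≤ 100 * (bern Γ S).toReal * (bern Γ S').toReal +
        20 * Real.sqrt ((bern Γ S).toReal * (bern Γ S').toReal) := by
  letI : MulAction (FreeGroup (Fin 100)) (Γ × ℕ) :=
    { smul := fun g p => (FreeGroup.lift x g * p.1, p.2)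
      one_smul := fun p => by
        show (FreeGroup.lift x 1 * p.1, p.2) = p
        rw [map_one, one_mul]
      mul_smul := fun g h p => by
        show (FreeGroup.lift x (g * h) * p.1, p.2) = (FreeGroup.lift x g * (FreeGroup.lift x h * p.1), p.2)
        rw [map_mul, mul_assoc] }
  have hfree : ∀ (g : FreeGroup (Fin 100)) (p : Γ × ℕ), g • p = p → g = 1 := by
    intro g p h
    have h1 : FreeGroup.lift x g * p.1 = p.1 := congrArg Prod.fst h
    have h2 : FreeGroup.lift x g = 1 := mul_eq_right.mp h1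
    exact hx (by rw [h2, map_one])
  have := Walsh.gap_gen hfree hS hS'
  have hsh : ∀ (i : Fin 100) (ω : Γ × ℕ → Bool), Walsh.sh (FreeGroup.of i : FreeGroup (Fin 100)) ω =
      sh (x i) ω := by
    intro i ω
    funext p
    show ω (FreeGroup.lift x (FreeGroup.of i)⁻¹ * p.1, p.2) = ω ((x i)⁻¹ * p.1, p.2)
    rw [map_inv, FreeGroup.lift_apply_of]
  simp_rw [hsh] at this
  exact this

end Crest.Agent.CP.Bern
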