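import Crest.Agent.CPDefs
import Crest.Agent.CPBernB
import Crest.Agent.CPBernG

set_option autoImplicit false

namespace Crest.Agent.CP
open MeasureTheory

/- ## M18 (CPBern.lean): the expensive action (free part of the Bernoulli shift) with the gap.
Gap proof: Walsh functions `χ_A(ω) = ∏_{g∈A} ±1` for finite `A ⊂ Γ`; `F = ⟨x_i⟩` free acts freely on
nonempty finite subsets of `Γ`; `Σ_i Σ_A F(x_i A) G(A) ≤ 2√100 ‖F‖‖G‖` by splitting
according to whether the reduced `F`-word of `A` starts with `x_i` / `x_i⁻¹` (Cauchy–Schwarz);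
cylinder functions are dense (`exists_measure_symmDiff_lt_of_generateFrom_isSetSemiring`...). -/
theorem exists_bernoulli (Γ : Type) [Group Γ] [Countable Γ] (x : Fin 100 → Γ)
    (hx : Function.Injective (FreeGroup.lift x)) :
    ∃ (X : Type) (_ : MeasurableSpace X) (_ : StandardBorelSpace X) (μ : Measure X)
      (_ : IsProbabilityMeasure μ) (_ : MulAction Γ X),
      (∀ g : Γ, MeasurePreserving (fun x : X => g • x) μ μ) ∧
      (∀ (g : Γ) (x : X), g • x = x → g = 1) ∧
      Gap μ x ∧
      (∀ β : ENNReal, 0 < β → ∃ (N : ℕ) (f : X → Fin N), Measurable f ∧ ∀ k, μ (f ⁻¹' {k}) ≤ β) :=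
  Bern.exists_of_gap Γ x (fun S S' h h' => Bern.gap_omega x hx S S' h h')

end Crest.Agent.CP
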