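import Crest.Agent.CPDefs

/-!
# Row 191: shared definitions for the Bernoulli action (CPBern, CPBernA, CPBernB)
-/

set_option autoImplicit false

namespace Crest.Agent.CP
open MeasureTheory

namespace Bern

/-- fair coin -/
noncomputable def coin : Measure Bool := (2⁻¹ : ENNReal) • (Measure.dirac true + Measure.dirac false)

instance : IsProbabilityMeasure coin := by
  refine ⟨?_⟩
  simp only [coin, Measure.smul_apply, Measure.add_apply, measure_univ, smul_eq_mul]
  rw [one_add_one_eq_two]
  exact ENNReal.inv_mul_cancel (by norm_num) (by norm_num)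

theorem coin_singleton (b : Bool) : coin {b} = 2⁻¹ := by
  cases b <;> simp [coin]

/-- base space of the Bernoulli shift: coins indexed by `Γ × ℕ` -/
abbrev Om (Γ : Type) : Type := Γ × ℕ → Bool

/-- product of fair coins -/
noncomputable def bern (Γ : Type) : Measure (Om Γ) := Measure.infinitePi fun _ : Γ × ℕ => coin

instance (Γ : Type) : IsProbabilityMeasure (bern Γ) := by unfold bern; infer_instance

/-- the shift -/
def sh {Γ : Type} [Group Γ] (g : Γ) (ω : Om Γ) : Om Γ := fun p => ω (g⁻¹ * p.1, p.2)

theorem sh_one {Γ : Type} [Group Γ] (ω : Om Γ) : sh (1 : Γ) ω = ω := by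
  funext p; simp [sh]

theorem sh_mul {Γ : Type} [Group Γ] (g h : Γ) (ω : Om Γ) : sh (g * h) ω = sh g (sh h ω) := by
  funext p; simp [sh, mul_assoc]

theorem measurable_sh {Γ : Type} [Group Γ] (g : Γ) : Measurable (sh (Γ := Γ) g) := by
  unfold sh
  exact measurable_pi_lambda _ fun p => measurable_pi_apply _

theorem mp_sh {Γ : Type} [Group Γ] (g : Γ) : MeasurePreserving (sh g) (bern Γ) (bern Γ) := by
  refine ⟨measurable_sh g, ?_⟩
  have hinj : Function.Injective (fun p : Γ × ℕ => ((g⁻¹ * p.1, p.2) : Γ × ℕ)) := by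
    rintro ⟨a, n⟩ ⟨b, m⟩ h
    simp only [Prod.mk.injEq, mul_right_inj] at h
    exact Prod.ext h.1 h.2
  exact Measure.map_infinitePi_infinitePi_of_inj (P := fun _ : Γ × ℕ => coin) hinj

end Bern

end Crest.Agent.CP
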