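import Crest.Agent.CPBernD

/-!
# Row 191: Walsh functions for the Bernoulli measure
-/

set_option autoImplicit false

namespace Crest.Agent.CP.Bern.Walsh
open MeasureTheory
open scoped symmDiff

variable {ι : Type}

/-- product of fair coins over an arbitrary index type -/
noncomputable def bern (ι : Type) : Measure (ι → Bool) := Measure.infinitePi (fun _ : ι => coin)

instance (ι : Type) : IsProbabilityMeasure (bern ι) := by unfold bern; infer_instance

/-- sign of a bit -/
noncomputable def sg (b : Bool) : ℝ := if b then 1 else -1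

/-- Walsh function -/
noncomputable def W (A : Finset ι) (ω : ι → Bool) : ℝ := ∏ a ∈ A, sg (ω a)

theorem sg_mul_self (b : Bool) : sg b * sg b = 1 := by cases b <;> simp [sg]

theorem W_empty (ω : ι → Bool) : W ∅ ω = 1 := by simp [W]

theorem W_sq (A : Finset ι) (ω : ι → Bool) : W A ω * W A ω = 1 := by
  unfold W
  rw [← Finset.prod_mul_distrib]
  exact Finset.prod_eq_one (fun a _ => sg_mul_self _)

theorem W_mul [DecidableEq ι] (A B : Finset ι) (ω : ι → Bool) :
    W A ω * W B ω = W (A ∆ B) ω := by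
  have h1 : W A ω = W (A \ B) ω * W (A ∩ B) ω := by
    unfold W
    rw [← Finset.prod_union (Finset.disjoint_sdiff_inter A B), Finset.sdiff_union_inter]
  have h2 : W B ω = W (B \ A) ω * W (A ∩ B) ω := by
    unfold W
    rw [Finset.inter_comm A B, ← Finset.prod_union (Finset.disjoint_sdiff_inter B A),
      Finset.sdiff_union_inter]
  have h3 : W (A ∆ B) ω = W (A \ B) ω * W (B \ A) ω := by
    unfold W
    have : A ∆ B = (A \ B) ∪ (B \ A) := rfl
    rw [this, Finset.prod_union]
    exact disjoint_sdiff_sdiff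
  rw [h1, h2, h3]
  have := W_sq (A ∩ B) ω
  calc W (A \ B) ω * W (A ∩ B) ω * (W (B \ A) ω * W (A ∩ B) ω)
      = W (A \ B) ω * W (B \ A) ω * (W (A ∩ B) ω * W (A ∩ B) ω) := by ring
    _ = _ := by rw [this, mul_one]

theorem W_meas (A : Finset ι) : Measurable (W A) := by
  unfold W
  refine Finset.measurable_prod _ (fun a _ => ?_)
  exact (measurable_of_countable sg).comp (measurable_pi_apply a)

theorem W_abs (A : Finset ι) (ω : ι → Bool) : ‖W A ω‖ = 1 := by
  have h := W_sq A ω
  rw [Real.norm_eq_abs]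
  have h2 : |W A ω| * |W A ω| = 1 := by rw [← abs_mul, h, abs_one]
  nlinarith [abs_nonneg (W A ω)]

theorem W_integrable (A : Finset ι) : Integrable (W A) (bern ι) := by
  refine Integrable.of_bound (W_meas A).aestronglyMeasurable 1 ?_
  exact Filter.Eventually.of_forall (fun ω => (W_abs A ω).le)

/-- flip one coordinate -/
noncomputable def flipc [DecidableEq ι] (a : ι) (ω : ι → Bool) : ι → Bool :=
  fun i => (if i = a then Bool.not else id) (ω i)

theorem coin_not : coin.map Bool.not = coin := by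
  unfold coin
  rw [Measure.map_smul, Measure.map_add _ _ (measurable_of_countable _), Measure.map_dirac,
    Measure.map_dirac, add_comm]
  rfl

theorem flip_mp [DecidableEq ι] (a : ι) :
    MeasurePreserving (flipc a) (bern ι) (bern ι) := by
  have hm : ∀ i : ι, Measurable (if i = a then Bool.not else (id : Bool → Bool)) :=
    fun i => measurable_of_countable _
  refine ⟨?_, ?_⟩
  · unfold flipc
    exact measurable_pi_lambda _ (fun i => (hm i).comp (measurable_pi_apply i))
  · have := Measure.infinitePi_map_pi (μ := fun _ : ι => coin) (Y := fun _ => Bool)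
      (f := fun i => if i = a then Bool.not else id) hm
    unfold bern
    refine this.trans ?_
    congr 1
    funext i
    by_cases h : i = a
    · simp only [h, if_true]; exact coin_not
    · simp only [h, if_false]; exact Measure.map_id

theorem W_flip [DecidableEq ι] (A : Finset ι) (a : ι) (ha : a ∈ A) (ω : ι → Bool) :
    W A (flipc a ω) = - W A ω := by
  unfold W
  rw [← Finset.mul_prod_erase A _ ha, ← Finset.mul_prod_erase A (fun b => sg (ω b)) ha]
  have h1 : sg (flipc a ω a) = - sg (ω a) := by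
    unfold flipc sg
    cases h : ω a <;> simp
  have h2 : ∏ x ∈ A.erase a, sg (flipc a ω x) = ∏ x ∈ A.erase a, sg (ω x) := by
    refine Finset.prod_congr rfl (fun x hx => ?_)
    have : x ≠ a := Finset.ne_of_mem_erase hx
    simp [flipc, this]
  rw [h1, h2]; ring

theorem W_int (A : Finset ι) (hA : A.Nonempty) : ∫ ω, W A ω ∂(bern ι) = 0 := by
  classical
  obtain ⟨a, ha⟩ := hA
  have hmp := flip_mp (ι := ι) a
  have h : ∫ ω, W A (flipc a ω) ∂(bern ι) = ∫ ω, W A ω ∂(bern ι) := by
    conv_rhs => rw [← hmp.map_eq]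
    exact (integral_map hmp.measurable.aemeasurable (W_meas A).aestronglyMeasurable).symm
  have h2 : ∫ ω, W A (flipc a ω) ∂(bern ι) = - ∫ ω, W A ω ∂(bern ι) := by
    rw [← integral_neg]
    exact integral_congr_ae (Filter.Eventually.of_forall (fun ω => W_flip A a ha ω))
  linarith

theorem W_mul_int [DecidableEq ι] (A B : Finset ι) :
    ∫ ω, W A ω * W B ω ∂(bern ι) = if A = B then 1 else 0 := by
  have h : ∀ ω, W A ω * W B ω = W (A ∆ B) ω := W_mul A B
  simp_rw [h]
  by_cases hAB : A = B
  · subst hAB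
    simp [W_empty]
  · rw [if_neg hAB]
    refine W_int _ ?_
    rw [Finset.nonempty_iff_ne_empty]
    intro h0
    exact hAB (symmDiff_eq_bot.mp h0)

/-- Walsh expansion -/
noncomputable def E (c : Finset ι →₀ ℝ) (ω : ι → Bool) : ℝ := c.sum (fun A r => r * W A ω)

theorem E_int (c : Finset ι →₀ ℝ) : ∫ ω, E c ω ∂(bern ι) = c ∅ := by
  classical
  unfold E Finsupp.sum
  rw [integral_finsetSum _ (fun A _ => (W_integrable A).const_mul _)]
  simp_rw [integral_const_mul]
  rw [Finset.sum_eq_single ∅]
  · simp [W_empty]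
  · intro A _ hA
    rw [W_int A (Finset.nonempty_iff_ne_empty.mpr hA), mul_zero]
  · intro h
    rw [Finsupp.notMem_support_iff.mp h, zero_mul]

theorem E_mul_int (c d : Finset ι →₀ ℝ) :
    ∫ ω, E c ω * E d ω ∂(bern ι) = c.sum (fun A r => r * d A) := by
  classical
  have h : ∀ ω, E c ω * E d ω =
      ∑ A ∈ c.support, ∑ B ∈ d.support, (c A * d B) * (W A ω * W B ω) := by
    intro ω
    unfold E Finsupp.sum
    rw [Finset.sum_mul_sum]
    refine Finset.sum_congr rfl (fun A _ => Finset.sum_congr rfl (fun B _ => by ring))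
  have hint : ∀ A B : Finset ι, Integrable (fun ω => (c A * d B) * (W A ω * W B ω)) (bern ι) := by
    intro A B
    have : (fun ω => (c A * d B) * (W A ω * W B ω)) = fun ω => (c A * d B) * W (A ∆ B) ω := by
      funext ω; rw [W_mul]
    rw [this]
    exact (W_integrable _).const_mul _
  simp_rw [h]
  rw [integral_finsetSum _ (fun A _ => integrable_finsetSum _ (fun B _ => hint A B))]
  unfold Finsupp.sum
  refine Finset.sum_congr rfl (fun A _ => ?_)
  rw [integral_finsetSum _ (fun B _ => hint A B)]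
  simp_rw [integral_const_mul, W_mul_int]
  simp only [mul_ite, mul_one, mul_zero]
  rw [Finset.sum_ite_eq]
  by_cases hA : A ∈ d.support
  · rw [if_pos hA]
  · rw [if_neg hA, Finsupp.notMem_support_iff.mp hA, mul_zero]

/-- the ring of sets whose indicator has a finite Walsh expansion -/
def Cyl (ι : Type) : Set (Set (ι → Bool)) :=
  {S | MeasurableSet S ∧ ∃ c : Finset ι →₀ ℝ, ∀ ω, S.indicator (fun _ => (1 : ℝ)) ω = E c ω}

/-- span of the Walsh functions -/
noncomputable def V (ι : Type) : Submodule ℝ ((ι → Bool) → ℝ) :=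
  Submodule.span ℝ (Set.range (fun A : Finset ι => W A))

theorem mem_V_iff (f : (ι → Bool) → ℝ) : f ∈ V ι ↔ ∃ c : Finset ι →₀ ℝ, ∀ ω, f ω = E c ω := by
  unfold V
  rw [Finsupp.mem_span_range_iff_exists_finsupp]
  constructor
  · rintro ⟨c, hc⟩
    refine ⟨c, fun ω => ?_⟩
    rw [← hc]
    unfold E Finsupp.sum
    rw [Finset.sum_apply]
    rfl
  · rintro ⟨c, hc⟩
    refine ⟨c, ?_⟩
    funext ω
    rw [hc ω]
    unfold E Finsupp.sum
    rw [Finset.sum_apply]
    rfl

theorem V_mul {f g : (ι → Bool) → ℝ} (hf : f ∈ V ι) (hg : g ∈ V ι) : f * g ∈ V ι := by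
  classical
  unfold V at *
  induction hf using Submodule.span_induction with
  | mem x hx =>
    obtain ⟨A, rfl⟩ := hx
    induction hg using Submodule.span_induction with
    | mem y hy =>
      obtain ⟨B, rfl⟩ := hy
      refine Submodule.subset_span ⟨A ∆ B, ?_⟩
      funext ω
      exact (W_mul A B ω).symm
    | zero => simp
    | add x y _ _ hx hy => rw [mul_add]; exact Submodule.add_mem _ hx hy
    | smul a x _ hx => rw [mul_smul_comm]; exact Submodule.smul_mem _ _ hx
  | zero => simp
  | add x y _ _ hx hy => rw [add_mul]; exact Submodule.add_mem _ hx hy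
  | smul a x _ hx => rw [smul_mul_assoc]; exact Submodule.smul_mem _ _ hx

theorem V_one : (fun _ => (1 : ℝ)) ∈ V ι := by
  refine Submodule.subset_span ⟨∅, ?_⟩
  funext ω
  exact W_empty ω

theorem mem_Cyl_iff (S : Set (ι → Bool)) :
    S ∈ Cyl ι ↔ MeasurableSet S ∧ S.indicator (fun _ => (1 : ℝ)) ∈ V ι := by
  rw [mem_V_iff]; rfl

theorem Cyl_compl {S : Set (ι → Bool)} (h : S ∈ Cyl ι) : Sᶜ ∈ Cyl ι := by
  rw [mem_Cyl_iff] at *
  refine ⟨h.1.compl, ?_⟩
  have : Sᶜ.indicator (fun _ => (1 : ℝ)) = (fun _ => (1 : ℝ)) - S.indicator (fun _ => (1 : ℝ)) := by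
    funext ω
    by_cases hω : ω ∈ S <;> simp [hω]
  rw [this]
  exact Submodule.sub_mem _ V_one h.2

theorem Cyl_inter {S T : Set (ι → Bool)} (h : S ∈ Cyl ι) (h' : T ∈ Cyl ι) : S ∩ T ∈ Cyl ι := by
  rw [mem_Cyl_iff] at *
  refine ⟨h.1.inter h'.1, ?_⟩
  have : (S ∩ T).indicator (fun _ => (1 : ℝ)) =
      S.indicator (fun _ => (1 : ℝ)) * T.indicator (fun _ => (1 : ℝ)) := by
    funext ω
    by_cases hω : ω ∈ S <;> by_cases hω' : ω ∈ T <;> simp [hω, hω']
  rw [this]
  exact V_mul h.2 h'.2

theorem Cyl_isSetRing : IsSetRing (Cyl ι) where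
  empty_mem := by
    rw [mem_Cyl_iff]
    refine ⟨MeasurableSet.empty, ?_⟩
    rw [Set.indicator_empty]
    exact Submodule.zero_mem _
  union_mem := by
    intro S T hS hT
    have := Cyl_compl (Cyl_inter (Cyl_compl hS) (Cyl_compl hT))
    rwa [Set.compl_inter, compl_compl, compl_compl] at this
  sdiff_mem := by
    intro S T hS hT
    rw [Set.sdiff_eq]
    exact Cyl_inter hS (Cyl_compl hT)

theorem Cyl_coord (i : ι) (B : Set Bool) : (fun ω : ι → Bool => ω i) ⁻¹' B ∈ Cyl ι := by
  classical
  rw [mem_Cyl_iff]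
  refine ⟨(measurable_pi_apply i) (Set.Countable.measurableSet (Set.to_countable B)), ?_⟩
  set a : ℝ := if true ∈ B then 1 else 0
  set b : ℝ := if false ∈ B then 1 else 0
  have : ((fun ω : ι → Bool => ω i) ⁻¹' B).indicator (fun _ => (1 : ℝ)) =
      ((a + b) / 2) • (fun _ : ι → Bool => (1 : ℝ)) + ((a - b) / 2) • (W {i}) := by
    funext ω
    by_cases h1 : true ∈ B <;> by_cases h2 : false ∈ B <;> cases h : ω i <;>
      simp [Set.indicator, a, b, W, sg, h, h1, h2] <;> norm_num
  rw [this]
  exact Submodule.add_mem _ (Submodule.smul_mem _ _ V_one)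
    (Submodule.smul_mem _ _ (Submodule.subset_span ⟨{i}, rfl⟩))

theorem generate_Cyl :
    (MeasurableSpace.pi : MeasurableSpace (ι → Bool)) = MeasurableSpace.generateFrom (Cyl ι) := by
  refine le_antisymm ?_ ?_
  · refine iSup_le (fun i => ?_)
    rintro _ ⟨B, _, rfl⟩
    exact MeasurableSpace.measurableSet_generateFrom (Cyl_coord i B)
  · exact MeasurableSpace.generateFrom_le (fun S hS => hS.1)

theorem Cyl_dense {S : Set (ι → Bool)} (hS : MeasurableSet S) {ε : ENNReal} (hε : 0 < ε) :
    ∃ T ∈ Cyl ι, (bern ι) (T ∆ S) < ε := by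
  refine exists_measure_symmDiff_lt_of_generateFrom_isSetRing Cyl_isSetRing ?_ generate_Cyl hS hε
  refine ⟨{Set.univ}, Set.countable_singleton _, ?_, by simp⟩
  rw [Set.singleton_subset_iff]
  have := Cyl_compl (Cyl_isSetRing (ι := ι)).empty_mem
  rwa [Set.compl_empty] at this

end Crest.Agent.CP.Bern.Walsh
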