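import Crest.Agent.CPDefs
import Crest.Prelude.Def_Cost

set_option autoImplicit false

namespace Crest.Agent.CP
open MeasureTheory

namespace Cheap

/-- the level-shifting action on `X × ZMod M` -/
@[reducible] def act (Γ X : Type) [Group Γ] [MulAction Γ X] (M : ℕ) (δ : Γ →* Multiplicative ℤ) :
    MulAction Γ (X × ZMod M) where
  smul g y := (g • y.1, ((Multiplicative.toAdd (δ g) : ℤ) : ZMod M) + y.2)
  one_smul y := by
    show ((1 : Γ) • y.1, ((Multiplicative.toAdd (δ (1 : Γ)) : ℤ) : ZMod M) + y.2) = y
    simp
  mul_smul g h y := by
    show ((g * h) • y.1, ((Multiplicative.toAdd (δ (g * h)) : ℤ) : ZMod M) + y.2)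
      = (g • h • y.1, ((Multiplicative.toAdd (δ g) : ℤ) : ZMod M)
          + (((Multiplicative.toAdd (δ h) : ℤ) : ZMod M) + y.2))
    rw [mul_smul, map_mul, toAdd_mul]
    push_cast
    rw [add_assoc]

noncomputable def levelMeas (M : ℕ) : Measure (ZMod M) := (M : ENNReal)⁻¹ • Measure.count

lemma levelMeas_singleton (M : ℕ) (c : ZMod M) : levelMeas M {c} = (M : ENNReal)⁻¹ := by
  simp [levelMeas]

lemma levelMeas_prob (M : ℕ) (hM : 0 < M) : IsProbabilityMeasure (levelMeas M) := by
  haveI : NeZero M := ⟨hM.ne'⟩
  constructor
  rw [levelMeas, Measure.smul_apply, Measure.count_univ, smul_eq_mul]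
  simp only [ENat.card_eq_coe_fintype_card, ZMod.card]
  rw [show ((M : ℕ∞) : ENNReal) = (M : ENNReal) from by simp]
  exact ENNReal.inv_mul_cancel (by exact_mod_cast hM.ne') (ENNReal.natCast_ne_top M)

lemma levelMeas_shift (M : ℕ) (c : ZMod M) :
    MeasurePreserving (fun k => c + k) (levelMeas M) (levelMeas M) := by
  have h := measurePreserving_add_left (Measure.count : Measure (ZMod M)) c
  refine ⟨h.measurable, ?_⟩
  rw [levelMeas, Measure.map_smul, h.map_eq]

/-- the graphing -/
noncomputable def graph (Γ X : Type) (M : ℕ) [One Γ] (a : Γ) (x : XL → Γ) :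
    ℕ → Γ × Set (X × ZMod M) := fun i =>
  if h : i < Fintype.card (Option XL) then
    match (Fintype.equivFin (Option XL)).symm ⟨i, h⟩ with
    | none => (a, Set.univ)
    | some l => (x l, {y | y.2 = 0})
  else (1, ∅)

/-- weights of the letters -/
noncomputable def wt (M : ℕ) : Option XL → ENNReal
  | none => 1
  | some _ => (M : ENNReal)⁻¹

end Cheap

open Cheap

/- ## M17b (CPCheap.lean): the cheap actions.
`Y = X × ZMod M` (`a` shifts the level); graphing: `a` everywhere, all `x_l` on level 0. -/
theorem cheap {X : Type} [MeasurableSpace X] [StandardBorelSpace X] (Γ : Type) [Group Γ] [Countable Γ]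
    (a : Γ) (x : XL → Γ)
    (hgen : Subgroup.closure (Set.range x ∪ {a}) = ⊤)
    (hconj : ∀ l, a * x l * a⁻¹ ∈ Subgroup.closure (Set.range x))
    (δ : Γ →* Multiplicative ℤ) (hδa : δ a = Multiplicative.ofAdd 1) (hδx : ∀ l, δ (x l) = 1)
    (μ : Measure X) [IsProbabilityMeasure μ] [MulAction Γ X]
    (hmp : ∀ g : Γ, MeasurePreserving (fun x : X => g • x) μ μ)
    (hfree : ∀ (g : Γ) (x : X), g • x = x → g = 1) (M : ℕ) (hM : 0 < M) :
    ∃ (Y : Type) (_ : MeasurableSpace Y) (_ : StandardBorelSpace Y) (ν : MeasureTheory.Measure Y)
      (_ : MeasureTheory.IsProbabilityMeasure ν) (_ : MulAction Γ Y),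
      Crest.Dynamics.IsFreePMPAction Γ Y ν ∧
      Crest.Dynamics.actionCost Γ Y ν ≤ 1 + 101 / (M : ENNReal) := by
  haveI : NeZero M := ⟨hM.ne'⟩
  haveI := levelMeas_prob M hM
  letI act' : MulAction Γ (X × ZMod M) := act Γ X M δ
  have hact : ∀ (g : Γ) (y : X × ZMod M),
      g • y = (g • y.1, ((Multiplicative.toAdd (δ g) : ℤ) : ZMod M) + y.2) := fun g y => rfl
  refine ⟨X × ZMod M, inferInstance, inferInstance, μ.prod (levelMeas M), inferInstance, act',
    ⟨?_, ?_⟩, ?_⟩
  · intro g
    exact (hmp g).prod (levelMeas_shift M _)
  · intro g hg
    have : {y : X × ZMod M | g • y = y} = ∅ := by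
      ext y
      simp only [Set.mem_setOf_eq, Set.mem_empty_iff_false, iff_false]
      intro h
      rw [hact] at h
      exact hg (hfree g y.1 (congrArg Prod.fst h))
    rw [this, measure_empty]
  · -- cost
    have hlev : (μ.prod (levelMeas M)) {y : X × ZMod M | y.2 = 0} = (M : ENNReal)⁻¹ := by
      have : {y : X × ZMod M | y.2 = 0} = Set.univ ×ˢ {(0 : ZMod M)} := by
        ext y; simp
      rw [this, Measure.prod_prod, measure_univ, one_mul, levelMeas_singleton]
    have hmeas : MeasurableSet {y : X × ZMod M | y.2 = 0} :=
      measurable_snd (measurableSet_singleton (0 : ZMod M))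
    refine le_trans (sInf_le ⟨graph Γ X M a x, ?_, rfl⟩) ?_
    · -- generates
      refine ⟨?_, ∅, measure_empty, ?_⟩
      · intro i
        unfold graph
        split_ifs with h
        · cases h2 : (Fintype.equivFin (Option XL)).symm ⟨i, h⟩ with
          | none => exact MeasurableSet.univ
          | some l => exact hmeas
        · exact MeasurableSet.empty
      · intro y _ g
        set E := Relation.EqvGen (Crest.Dynamics.GraphingStep (graph Γ X M a x)) with hE
        have hs : ∀ o : Option XL, ∃ i : ℕ, graph Γ X M a x i =
            (match o with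
            | none => (a, Set.univ)
            | some l => (x l, {y | y.2 = 0})) := by
          intro o
          refine ⟨(Fintype.equivFin (Option XL) o : ℕ), ?_⟩
          unfold graph
          rw [dif_pos (Fintype.equivFin (Option XL) o).isLt]
          simp only [Fin.eta, Equiv.symm_apply_apply]
        have ha : ∀ y : X × ZMod M, E y (a • y) := by
          intro y
          obtain ⟨i, hi⟩ := hs none
          refine Relation.EqvGen.rel _ _ ⟨i, ?_, ?_⟩
          · rw [hi]; trivial
          · rw [hi]
        have hx0 : ∀ (l : XL) (y : X × ZMod M), y.2 = 0 → E y (x l • y) := by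
          intro l y hy
          obtain ⟨i, hi⟩ := hs (some l)
          refine Relation.EqvGen.rel _ _ ⟨i, ?_, ?_⟩
          · rw [hi]; exact hy
          · rw [hi]
        have hδS : ∀ f ∈ Subgroup.closure (Set.range x), δ f = 1 := by
          intro f hf
          have : Subgroup.closure (Set.range x) ≤ δ.ker := by
            rw [Subgroup.closure_le]
            rintro _ ⟨l, rfl⟩
            exact hδx l
          exact this hf
        have hx_level : ∀ f ∈ Subgroup.closure (Set.range x), ∀ y : X × ZMod M,
            (f • y).2 = y.2 := by
          intro f hf y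
          rw [hact, hδS f hf]
          simp
        -- from level c generators to level c closure
        have hclos : ∀ c : ZMod M, (∀ (l : XL) (y : X × ZMod M), y.2 = c → E y (x l • y)) →
            ∀ f ∈ Subgroup.closure (Set.range x), ∀ y : X × ZMod M, y.2 = c → E y (f • y) := by
          intro c hc f hf
          induction hf using Subgroup.closure_induction with
          | mem f hf =>
            obtain ⟨l, rfl⟩ := hf
            exact hc l
          | one => intro y _; rw [one_smul]; exact Relation.EqvGen.refl _
          | mul f g hf hg ihf ihg =>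
            intro y hy
            rw [mul_smul]
            exact Relation.EqvGen.trans _ _ _ (ihg y hy)
              (ihf _ (by rw [hx_level g hg]; exact hy))
          | inv f hf ih =>
            intro y hy
            have h1 := ih (f⁻¹ • y) (by
              rw [hx_level f⁻¹ (Subgroup.inv_mem _ hf)]; exact hy)
            rw [smul_inv_smul] at h1
            exact Relation.EqvGen.symm _ _ h1
        have hlevels : ∀ k : ℕ, ∀ (l : XL) (y : X × ZMod M), y.2 = -(k : ZMod M) →
            E y (x l • y) := by
          intro k
          induction k with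
          | zero => intro l y hy; exact hx0 l y (by simpa using hy)
          | succ k ih =>
            intro l y hy
            have hay : (a • y).2 = -(k : ZMod M) := by
              rw [hact, hδa, hy]
              simp
            have h1 := hclos _ ih _ (hconj l) (a • y) hay
            have h2 : (a * x l * a⁻¹) • a • y = a • x l • y := by
              rw [← mul_smul, ← mul_smul]
              congr 1
              group
            rw [h2] at h1
            exact Relation.EqvGen.trans _ _ _ (ha y)
              (Relation.EqvGen.trans _ _ _ h1 (Relation.EqvGen.symm _ _ (ha _)))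
        have hxall : ∀ (l : XL) (y : X × ZMod M), E y (x l • y) := by
          intro l y
          refine hlevels (-y.2).val l y ?_
          rw [ZMod.natCast_val, ZMod.cast_id', id, neg_neg]
        have hg : g ∈ Subgroup.closure (Set.range x ∪ {a}) := by rw [hgen]; trivial
        revert y
        induction hg using Subgroup.closure_induction with
        | mem f hf =>
          intro y _
          rcases hf with ⟨l, rfl⟩ | hf
          · exact hxall l y
          · rw [Set.mem_singleton_iff] at hf
            rw [hf]; exact ha y
        | one => intro y _; rw [one_smul]; exact Relation.EqvGen.refl _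
        | mul f g _ _ ihf ihg =>
          intro y hy
          rw [mul_smul]
          exact Relation.EqvGen.trans _ _ _ (ihg y hy) (ihf _ (by simp))
        | inv f _ ih =>
          intro y hy
          have h1 := ih (f⁻¹ • y) (by simp)
          rw [smul_inv_smul] at h1
          exact Relation.EqvGen.symm _ _ h1
    · -- cost bound
      unfold Crest.Dynamics.graphingCost
      rw [tsum_eq_sum (s := Finset.range (Fintype.card (Option XL)))]
      · rw [Finset.sum_range]
        have h1 : ∀ i : Fin (Fintype.card (Option XL)),
            (μ.prod (levelMeas M)) (graph Γ X M a x (i : ℕ)).2 =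
              wt M ((Fintype.equivFin (Option XL)).symm i) := by
          intro i
          unfold graph
          rw [dif_pos i.isLt]
          simp only [Fin.eta]
          cases (Fintype.equivFin (Option XL)).symm i with
          | none => exact measure_univ
          | some l => exact hlev
        rw [Finset.sum_congr rfl (fun i _ => h1 i)]
        rw [Equiv.sum_comp (Fintype.equivFin (Option XL)).symm (wt M)]
        rw [Fintype.sum_option]
        simp only [wt, Finset.sum_const, Finset.card_univ, Fintype.card_option, Fintype.card_fin]
        rw [nsmul_eq_mul, div_eq_mul_inv]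
        norm_num
      · intro i hi
        rw [Finset.mem_range, not_lt] at hi
        unfold graph
        rw [dif_neg (not_lt.mpr hi)]
        exact measure_empty

end Crest.Agent.CP
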