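import Crest.Agent.CPDefs

set_option autoImplicit false

namespace Crest.Agent.CP
open MeasureTheory

namespace Cheeger

theorem vol_lt (a : ENNReal) :
    (volume.restrict (Set.Ioi (0 : ℝ))) {t : ℝ | ENNReal.ofReal t < a} = a := by
  have hms : MeasurableSet {t : ℝ | ENNReal.ofReal t < a} :=
    measurableSet_lt ENNReal.measurable_ofReal measurable_const
  rw [Measure.restrict_apply hms]
  by_cases ha : a = ⊤
  · subst ha
    have : {t : ℝ | ENNReal.ofReal t < ⊤} ∩ Set.Ioi 0 = Set.Ioi (0 : ℝ) := by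
      ext t; simp
    rw [this]; simp
  · have : {t : ℝ | ENNReal.ofReal t < a} ∩ Set.Ioi 0 = Set.Ioo 0 a.toReal := by
      ext t
      simp only [Set.mem_inter_iff, Set.mem_ofPred_eq, Set.mem_Ioi, Set.mem_Ioo]
      constructor
      · rintro ⟨h1, h2⟩
        exact ⟨h2, (ENNReal.ofReal_lt_iff_lt_toReal h2.le ha).1 h1⟩
      · rintro ⟨h1, h2⟩
        exact ⟨(ENNReal.ofReal_lt_iff_lt_toReal h1.le ha).2 h2, h1⟩
    rw [this, Real.volume_Ioo, sub_zero, ENNReal.ofReal_toReal ha]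

/-- layer cake formula for `ENNReal`-valued functions -/
theorem layer {α : Type} [MeasurableSpace α] (ν : Measure α) [SFinite ν] (h : α → ENNReal)
    (hh : Measurable h) :
    ∫⁻ a, h a ∂ν = ∫⁻ t in Set.Ioi (0 : ℝ), ν {a | ENNReal.ofReal t < h a} := by
  have hset : MeasurableSet {p : α × ℝ | ENNReal.ofReal p.2 < h p.1} :=
    measurableSet_lt (ENNReal.measurable_ofReal.comp measurable_snd) (hh.comp measurable_fst)
  calc ∫⁻ a, h a ∂ν
      = ∫⁻ a, (volume.restrict (Set.Ioi (0 : ℝ))) (Prod.mk a ⁻¹' {p : α × ℝ | ENNReal.ofReal p.2 < h p.1}) ∂ν := by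
        congr 1; ext a; exact (vol_lt (h a)).symm
    _ = (ν.prod (volume.restrict (Set.Ioi (0 : ℝ)))) {p : α × ℝ | ENNReal.ofReal p.2 < h p.1} :=
        (Measure.prod_apply hset).symm
    _ = ∫⁻ t in Set.Ioi (0 : ℝ), ν ((fun a => (a, t)) ⁻¹' {p : α × ℝ | ENNReal.ofReal p.2 < h p.1}) :=
        Measure.prod_apply_symm hset
    _ = _ := rfl

theorem point (x y : ENNReal) : 6 * (x * y) ≤ 8 * min (x ^ 2) (y ^ 2) + x ^ 2 + y ^ 2 := by
  by_cases hx : x = ⊤
  · subst hx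
    by_cases hy : y = 0
    · subst hy; simp
    · have : (⊤ : ENNReal) ^ 2 = ⊤ := by simp
      rw [this]; simp
  by_cases hy : y = ⊤
  · subst hy
    have : (⊤ : ENNReal) ^ 2 = ⊤ := by simp
    rw [this]; simp
  lift x to NNReal using hx
  lift y to NNReal using hy
  norm_cast
  rw [← NNReal.coe_le_coe]
  push_cast
  rcases le_total ((x : ℝ) ^ 2) ((y : ℝ) ^ 2) with h | h
  · rw [min_eq_left h]
    nlinarith [sq_nonneg (3 * (x : ℝ) - y)]
  · rw [min_eq_right h]
    nlinarith [sq_nonneg (3 * (y : ℝ) - x)]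

theorem lint_comp {Ω E : Type} [MeasurableSpace Ω] [MeasurableSpace E] (lam : Measure Ω)
    (ε : Measure E) (src : E → Ω) (hs : Measurable src)
    (h1 : ∀ Y, MeasurableSet Y → ε (src ⁻¹' Y) ≤ 100 * lam Y)
    (f : Ω → ENNReal) (hf : Measurable f) :
    ∫⁻ e, f (src e) ∂ε ≤ 100 * ∫⁻ u, f u ∂lam := by
  rw [← lintegral_map hf hs, ← lintegral_const_mul _ hf]
  have : Measure.map src ε ≤ (100 : ENNReal) • lam := by
    refine Measure.le_iff.2 fun Y hY => ?_
    rw [Measure.map_apply hs hY]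
    simpa using h1 Y hY
  calc ∫⁻ a, f a ∂(Measure.map src ε) ≤ ∫⁻ a, f a ∂((100 : ENNReal) • lam) :=
        lintegral_mono' this le_rfl
    _ = _ := by rw [lintegral_smul_measure, lintegral_const_mul _ hf]; rfl

theorem additive {Ω E : Type} [MeasurableSpace Ω] [MeasurableSpace E] (lam : Measure Ω)
    [SFinite lam] (ε : Measure E) [SFinite ε] (src tgt : E → Ω) (hs : Measurable src) (ht : Measurable tgt)
    (h1 : ∀ Y, MeasurableSet Y → ε (src ⁻¹' Y) ≤ 100 * lam Y)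
    (h2 : ∀ Y, MeasurableSet Y → ε (tgt ⁻¹' Y) ≤ 100 * lam Y)
    (iso : ∀ Y Z, MeasurableSet Y → MeasurableSet Z →
      ε (src ⁻¹' Y ∩ tgt ⁻¹' Z) ≤ 11 * (lam Y + lam Z))
    (f g : Ω → ENNReal) (hf : Measurable f) (hg : Measurable g) :
    6 * ∫⁻ e, f (src e) * g (tgt e) ∂ε ≤ 188 * (∫⁻ u, f u ^ 2 ∂lam + ∫⁻ u, g u ^ 2 ∂lam) := by
  have hf2 : Measurable fun u => f u ^ 2 := hf.pow_const 2
  have hg2 : Measurable fun u => g u ^ 2 := hg.pow_const 2
  have hmin : Measurable fun e => min (f (src e) ^ 2) (g (tgt e) ^ 2) :=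
    (hf2.comp hs).min (hg2.comp ht)
  have hM : ∫⁻ e, min (f (src e) ^ 2) (g (tgt e) ^ 2) ∂ε
      ≤ 11 * (∫⁻ u, f u ^ 2 ∂lam + ∫⁻ u, g u ^ 2 ∂lam) := by
    rw [layer ε _ hmin, layer lam _ hf2, layer lam _ hg2, ← lintegral_add_left, ← lintegral_const_mul]
    · refine lintegral_mono fun t => ?_
      have hY : MeasurableSet {u | ENNReal.ofReal t < f u ^ 2} :=
        measurableSet_lt measurable_const hf2
      have hZ : MeasurableSet {u | ENNReal.ofReal t < g u ^ 2} :=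
        measurableSet_lt measurable_const hg2
      refine le_trans (measure_mono ?_) (iso _ _ hY hZ)
      intro e he
      have he' : ENNReal.ofReal t < min (f (src e) ^ 2) (g (tgt e) ^ 2) := he
      exact ⟨(lt_min_iff.1 he').1, (lt_min_iff.1 he').2⟩
    · have m1 : Measurable fun t : ℝ => lam {a | ENNReal.ofReal t < f a ^ 2} := by
        have : MeasurableSet {p : Ω × ℝ | ENNReal.ofReal p.2 < f p.1 ^ 2} :=
          measurableSet_lt (ENNReal.measurable_ofReal.comp measurable_snd) (hf2.comp measurable_fst)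
        exact measurable_measure_prodMk_right this
      have m2 : Measurable fun t : ℝ => lam {a | ENNReal.ofReal t < g a ^ 2} := by
        have : MeasurableSet {p : Ω × ℝ | ENNReal.ofReal p.2 < g p.1 ^ 2} :=
          measurableSet_lt (ENNReal.measurable_ofReal.comp measurable_snd) (hg2.comp measurable_fst)
        exact measurable_measure_prodMk_right this
      exact m1.add m2
    · have : MeasurableSet {p : Ω × ℝ | ENNReal.ofReal p.2 < f p.1 ^ 2} :=
        measurableSet_lt (ENNReal.measurable_ofReal.comp measurable_snd) (hf2.comp measurable_fst)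
      exact measurable_measure_prodMk_right this
  have hA := lint_comp lam ε src hs h1 _ hf2
  have hB := lint_comp lam ε tgt ht h2 _ hg2
  have m3 : Measurable fun e => f (src e) ^ 2 := hf2.comp hs
  have m4 : Measurable fun e => g (tgt e) ^ 2 := hg2.comp ht
  calc 6 * ∫⁻ e, f (src e) * g (tgt e) ∂ε
      = ∫⁻ e, 6 * (f (src e) * g (tgt e)) ∂ε :=
        (lintegral_const_mul _ ((hf.comp hs).mul (hg.comp ht))).symm
    _ ≤ ∫⁻ e, (8 * min (f (src e) ^ 2) (g (tgt e) ^ 2) + f (src e) ^ 2 + g (tgt e) ^ 2) ∂ε :=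
        lintegral_mono fun e => point _ _
    _ = 8 * ∫⁻ e, min (f (src e) ^ 2) (g (tgt e) ^ 2) ∂ε + ∫⁻ e, f (src e) ^ 2 ∂ε
        + ∫⁻ e, g (tgt e) ^ 2 ∂ε := by
        rw [lintegral_add_right _ m4, lintegral_add_right _ m3, lintegral_const_mul _ hmin]
    _ ≤ 8 * (11 * (∫⁻ u, f u ^ 2 ∂lam + ∫⁻ u, g u ^ 2 ∂lam)) + 100 * ∫⁻ u, f u ^ 2 ∂lam
        + 100 * ∫⁻ u, g u ^ 2 ∂lam := by gcongr
    _ = 188 * (∫⁻ u, f u ^ 2 ∂lam + ∫⁻ u, g u ^ 2 ∂lam) := by ring

end Cheeger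

open Cheeger

/- ## M11 (CPCheeger.lean): isoperimetry ⇒ norm bound.
Proof: with `N = ∫f²+∫g²`, `D = ∫_E (f(src)²+g(tgt)²) ≤ 100 N`, `P = ∫_E f(src) g(tgt)`,
`∫_E min(f²,g²) ≤ 11 N` (layer cake); pointwise `6 f g ≤ 8 min(f²,g²) + f² + g²`, so
`6 P ≤ 188 N`; then rescale `f, g`. -/
theorem cheeger {Ω E : Type} [MeasurableSpace Ω] [MeasurableSpace E] (lam : Measure Ω)
    [SFinite lam] (ε : Measure E) [SFinite ε] (src tgt : E → Ω) (hs : Measurable src) (ht : Measurable tgt)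
    (h1 : ∀ Y, MeasurableSet Y → ε (src ⁻¹' Y) ≤ 100 * lam Y)
    (h2 : ∀ Y, MeasurableSet Y → ε (tgt ⁻¹' Y) ≤ 100 * lam Y)
    (iso : ∀ Y Z, MeasurableSet Y → MeasurableSet Z →
      ε (src ⁻¹' Y ∩ tgt ⁻¹' Z) ≤ 11 * (lam Y + lam Z))
    (f g : Ω → ENNReal) (hf : Measurable f) (hg : Measurable g)
    (hf2 : ∫⁻ u, f u ^ 2 ∂lam ≠ ⊤) (hg2 : ∫⁻ u, g u ^ 2 ∂lam ≠ ⊤) :
    (∫⁻ e, f (src e) * g (tgt e) ∂ε) ^ 2 ≤ 63 ^ 2 * (∫⁻ u, f u ^ 2 ∂lam) * ∫⁻ u, g u ^ 2 ∂lam := by
  have mf2 : Measurable fun u => f u ^ 2 := hf.pow_const 2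
  have mg2 : Measurable fun u => g u ^ 2 := hg.pow_const 2
  by_cases hF0 : ∫⁻ u, f u ^ 2 ∂lam = 0
  · have h3 := lint_comp lam ε src hs h1 _ mf2
    have m5 : Measurable fun e => f (src e) ^ 2 := mf2.comp hs
    rw [hF0, mul_zero, nonpos_iff_eq_zero, lintegral_eq_zero_iff m5] at h3
    have : ∫⁻ e, f (src e) * g (tgt e) ∂ε = 0 := by
      have m6 : Measurable fun e => f (src e) * g (tgt e) := (hf.comp hs).mul (hg.comp ht)
      rw [lintegral_eq_zero_iff m6]
      filter_upwards [h3] with e he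
      have : f (src e) ^ 2 = 0 := he
      have : f (src e) = 0 := by simpa using this
      simp [this]
    rw [this]; simp
  by_cases hG0 : ∫⁻ u, g u ^ 2 ∂lam = 0
  · have h3 := lint_comp lam ε tgt ht h2 _ mg2
    have m5 : Measurable fun e => g (tgt e) ^ 2 := mg2.comp ht
    rw [hG0, mul_zero, nonpos_iff_eq_zero, lintegral_eq_zero_iff m5] at h3
    have : ∫⁻ e, f (src e) * g (tgt e) ∂ε = 0 := by
      have m6 : Measurable fun e => f (src e) * g (tgt e) := (hf.comp hs).mul (hg.comp ht)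
      rw [lintegral_eq_zero_iff m6]
      filter_upwards [h3] with e he
      have : g (tgt e) ^ 2 = 0 := he
      have : g (tgt e) = 0 := by simpa using this
      simp [this]
    rw [this]; simp
  set F := (∫⁻ u, f u ^ 2 ∂lam).toReal with hF
  set G := (∫⁻ u, g u ^ 2 ∂lam).toReal with hG
  have hFe : ∫⁻ u, f u ^ 2 ∂lam = ENNReal.ofReal F := (ENNReal.ofReal_toReal hf2).symm
  have hGe : ∫⁻ u, g u ^ 2 ∂lam = ENNReal.ofReal G := (ENNReal.ofReal_toReal hg2).symm
  have hFpos : 0 < F := ENNReal.toReal_pos hF0 hf2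
  have hGpos : 0 < G := ENNReal.toReal_pos hG0 hg2
  -- scaling factor
  obtain ⟨c, hc, hcF, hcG⟩ : ∃ c : ℝ, 0 < c ∧ c ^ 2 * F = Real.sqrt (F * G) ∧
      (c⁻¹) ^ 2 * G = Real.sqrt (F * G) := by
    refine ⟨Real.sqrt (Real.sqrt (G / F)), by positivity, ?_, ?_⟩
    · rw [Real.sq_sqrt (by positivity), Real.sqrt_div' _ hFpos.le, Real.sqrt_mul hFpos.le]
      have := Real.sq_sqrt hFpos.le
      have h0 : Real.sqrt F ≠ 0 := by positivity
      field_simp
      nlinarith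
    · rw [inv_pow, Real.sq_sqrt (by positivity), Real.sqrt_div' _ hFpos.le, Real.sqrt_mul hFpos.le]
      have := Real.sq_sqrt hGpos.le
      have h0 : Real.sqrt F ≠ 0 := by positivity
      have h0' : Real.sqrt G ≠ 0 := by positivity
      field_simp
      nlinarith
  set t := ENNReal.ofReal c with htdef
  have ht0 : t ≠ 0 := by simp [htdef, hc]
  have htt : t ≠ ⊤ := ENNReal.ofReal_ne_top
  have htinv : t⁻¹ = ENNReal.ofReal c⁻¹ := (ENNReal.ofReal_inv_of_pos hc).symm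
  have key := additive lam ε src tgt hs ht h1 h2 iso (fun u => t * f u) (fun u => t⁻¹ * g u)
    (hf.const_mul t) (hg.const_mul t⁻¹)
  have e1 : ∫⁻ e, t * f (src e) * (t⁻¹ * g (tgt e)) ∂ε = ∫⁻ e, f (src e) * g (tgt e) ∂ε := by
    congr 1; ext e
    calc t * f (src e) * (t⁻¹ * g (tgt e)) = (t * t⁻¹) * (f (src e) * g (tgt e)) := by ring
      _ = _ := by rw [ENNReal.mul_inv_cancel ht0 htt, one_mul]
  have e2 : ∫⁻ u, (t * f u) ^ 2 ∂lam = ENNReal.ofReal (Real.sqrt (F * G)) := by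
    simp only [mul_pow]
    rw [lintegral_const_mul _ mf2, hFe, htdef, ← ENNReal.ofReal_pow hc.le,
      ← ENNReal.ofReal_mul (by positivity), hcF]
  have e3 : ∫⁻ u, (t⁻¹ * g u) ^ 2 ∂lam = ENNReal.ofReal (Real.sqrt (F * G)) := by
    simp only [mul_pow]
    rw [lintegral_const_mul _ mg2, hGe, htinv, ← ENNReal.ofReal_pow (by positivity),
      ← ENNReal.ofReal_mul (by positivity), hcG]
  rw [e1, e2, e3, ← ENNReal.ofReal_add (by positivity) (by positivity)] at key
  rw [hFe, hGe]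
  set P := ∫⁻ e, f (src e) * g (tgt e) ∂ε with hP
  have hPt : P ≠ ⊤ := by
    intro h
    rw [h] at key
    have : (188 : ENNReal) * ENNReal.ofReal (Real.sqrt (F * G) + Real.sqrt (F * G)) = ⊤ := by
      refine top_le_iff.1 (le_trans ?_ key)
      simp
    exact ENNReal.mul_ne_top (by simp) ENNReal.ofReal_ne_top this
  have hPe : P = ENNReal.ofReal P.toReal := (ENNReal.ofReal_toReal hPt).symm
  set p := P.toReal with hp
  have hp0 : 0 ≤ p := ENNReal.toReal_nonneg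
  rw [hPe] at key ⊢
  have key' : 6 * p ≤ 188 * (Real.sqrt (F * G) + Real.sqrt (F * G)) := by
    have h6 : (6 : ENNReal) = ENNReal.ofReal 6 := by simp
    have h188 : (188 : ENNReal) = ENNReal.ofReal 188 := by simp
    rw [h6, h188, ← ENNReal.ofReal_mul (by norm_num), ← ENNReal.ofReal_mul (by norm_num)] at key
    exact (ENNReal.ofReal_le_ofReal_iff (by positivity)).1 key
  have h63 : (63 : ENNReal) ^ 2 = ENNReal.ofReal (63 ^ 2) := by
    rw [ENNReal.ofReal_pow (by norm_num)]; simp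
  rw [h63, ← ENNReal.ofReal_pow hp0, ← ENNReal.ofReal_mul (by norm_num),
    ← ENNReal.ofReal_mul (by positivity)]
  apply ENNReal.ofReal_le_ofReal
  have hs0 := Real.sqrt_nonneg (F * G)
  have hs2 := Real.sq_sqrt (show 0 ≤ F * G by positivity)
  nlinarith

end Crest.Agent.CP
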