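import Crest.Agent.CPPath

set_option autoImplicit false
set_option linter.unusedSectionVars false

namespace Crest.Agent.CP
open MeasureTheory PG

variable {Γ X : Type} [Group Γ] [Countable Γ] [MeasurableSpace X] [MulAction Γ X]

/-! ### words -/

section words
variable {S : Type}

theorem linv_linv (c : S × Bool) : linv (linv c) = c := by
  unfold linv; simp

theorem winv_winv (w : List (S × Bool)) : winv (winv w) = w := by
  unfold winv
  rw [List.map_reverse, List.reverse_reverse, List.map_map]
  have : (linv ∘ linv : S × Bool → S × Bool) = id := by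
    funext c; exact linv_linv c
  rw [this, List.map_id]

theorem winv_append (a b : List (S × Bool)) : winv (a ++ b) = winv b ++ winv a := by
  unfold winv; simp

theorem winv_cons (c : S × Bool) (w : List (S × Bool)) : winv (c :: w) = winv w ++ [linv c] := by
  unfold winv; simp

theorem red_winv {w : List (S × Bool)} (h : Red w) : Red (winv w) := by
  unfold Red winv at *
  rw [List.isChain_reverse, List.isChain_map]
  refine h.imp ?_
  intro a b hab hc
  apply hab
  rw [hc, linv_linv]

theorem red_append {a b : List (S × Bool)} :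
    Red (a ++ b) ↔ Red a ∧ Red b ∧ ∀ x ∈ a.getLast?, ∀ y ∈ b.head?, y ≠ linv x := by
  unfold Red
  exact List.isChain_append

theorem red_left {a b : List (S × Bool)} (h : Red (a ++ b)) : Red a := (red_append.mp h).1
theorem red_right {a b : List (S × Bool)} (h : Red (a ++ b)) : Red b := (red_append.mp h).2.1

end words

section core
variable {ρ : AL → Γ}

theorem step_vals (K : PG ρ X ℕ) (d : AL × Bool) (u v : X × ℕ) (h : K.step d u v) :
    u ∈ K.V ∧ v ∈ K.V := by
  obtain ⟨s, b⟩ := d
  unfold PG.step at h
  cases b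
  · simp only [Bool.false_eq_true, if_false] at h
    refine ⟨?_, ?_⟩
    · have := K.tgt s _ _ _ h.2
      rw [← h.1] at this; exact this
    · exact K.src s _ _ _ h.2
  · simp only [if_true] at h
    refine ⟨?_, ?_⟩
    · exact K.src s _ _ _ h.2
    · have := K.tgt s _ _ _ h.2
      rw [← h.1] at this; exact this

theorem step_linv (K : PG ρ X ℕ) (d : AL × Bool) (u v : X × ℕ) :
    K.step (linv d) v u ↔ K.step d u v := by
  obtain ⟨s, b⟩ := d
  unfold PG.step linv
  cases b <;> simp

/-- edges of the core -/
def coreE (K : PG ρ X ℕ) (s : AL) : Set (X × (ℕ × ℕ)) :=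
  {e | e ∈ K.E s ∧ ∃ ω1 ω2 x1 x2, Red (ω1 ++ (s, true) :: ω2) ∧
    K.Path ω1 (x1, K.o) (e.1, e.2.1) ∧ K.Path ω2 ((ρ s)⁻¹ • e.1, e.2.2) (x2, K.o)}

/-- vertices of the core -/
def coreV (K : PG ρ X ℕ) : Set (X × ℕ) :=
  {v | v ∈ K.V ∧ (v.2 = K.o ∨ (∃ s k, (v.1, (v.2, k)) ∈ coreE K s) ∨
    (∃ s i, (ρ s • v.1, (i, v.2)) ∈ coreE K s))}

theorem coreE_meas (hm : ∀ g : Γ, Measurable (fun x : X => g • x)) (K : PG ρ X ℕ) (s : AL) :
    MS (coreE K s) := by
  rintro ⟨j, k⟩
  have h1 : {x | (x, (j, k)) ∈ coreE K s} = {x | (x, (j, k)) ∈ K.E s} ∩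
      ⋃ (ω1 : List (AL × Bool)) (ω2 : List (AL × Bool)) (_ : Red (ω1 ++ (s, true) :: ω2)),
        ((fun x : X => wval ρ ω1 • x) ⁻¹' {y | K.Path ω1 (y, K.o) ((wval ρ ω1)⁻¹ • y, j)} ∩
         (fun x : X => (ρ s)⁻¹ • x) ⁻¹' {y | K.Path ω2 (y, k) ((wval ρ ω2)⁻¹ • y, K.o)}) := by
    ext x
    simp only [coreE, Set.mem_inter_iff, Set.mem_iUnion, Set.mem_preimage, Set.mem_ofPred_eq,
      exists_prop]
    constructor
    · rintro ⟨h1, ω1, ω2, x1, x2, hr, hp1, hp2⟩
      refine ⟨h1, ω1, ω2, hr, ?_, ?_⟩
      · have hpos := path_pos K ω1 _ _ hp1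
        simp only at hpos
        have : wval ρ ω1 • x = x1 := by rw [hpos, smul_inv_smul]
        rw [this, ← hpos]; exact hp1
      · have hpos := path_pos K ω2 _ _ hp2
        simp only at hpos
        rw [← hpos]; exact hp2
    · rintro ⟨h1, ω1, ω2, hr, hp1, hp2⟩
      refine ⟨h1, ω1, ω2, wval ρ ω1 • x, (wval ρ ω2)⁻¹ • (ρ s)⁻¹ • x, hr, ?_, hp2⟩
      rw [inv_smul_smul] at hp1
      exact hp1
  rw [h1]
  refine (K.mE s (j, k)).inter ?_
  refine MeasurableSet.iUnion fun ω1 => MeasurableSet.iUnion fun ω2 => MeasurableSet.iUnion fun _ => ?_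
  exact (hm _ (path_meas hm K ω1 K.o j)).inter (hm _ (path_meas hm K ω2 k K.o))

theorem coreV_meas (hm : ∀ g : Γ, Measurable (fun x : X => g • x)) (K : PG ρ X ℕ) :
    MS (coreV K) := by
  intro i
  have h1 : {x | (x, i) ∈ coreV K} = {x | (x, i) ∈ K.V} ∩ ({x | i = K.o} ∪
      ((⋃ (s : AL) (k : ℕ), {x | (x, (i, k)) ∈ coreE K s}) ∪
       (⋃ (s : AL) (k : ℕ), (fun x : X => ρ s • x) ⁻¹' {y | (y, (k, i)) ∈ coreE K s}))) := by
    ext x
    simp only [coreV, Set.mem_inter_iff, Set.mem_iUnion, Set.mem_preimage, Set.mem_ofPred_eq,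
      Set.mem_union]
  rw [h1]
  refine (K.mV i).inter (MeasurableSet.union (MeasurableSet.const _) (MeasurableSet.union ?_ ?_))
  · exact MeasurableSet.iUnion fun s => MeasurableSet.iUnion fun k => coreE_meas hm K s (i, k)
  · exact MeasurableSet.iUnion fun s => MeasurableSet.iUnion fun k =>
      hm _ (coreE_meas hm K s (k, i))

/-- the core -/
def coreG (hm : ∀ g : Γ, Measurable (fun x : X => g • x)) (K : PG ρ X ℕ) : PG ρ X ℕ where
  V := coreV K
  E := coreE K
  o := K.o
  mV := coreV_meas hm K
  mE := coreE_meas hm K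
  thick x := ⟨K.thick x, Or.inl rfl⟩
  src s x j k h := ⟨K.src s x j k h.1, Or.inr (Or.inl ⟨s, k, h⟩)⟩
  tgt s x j k h := by
    refine ⟨K.tgt s x j k h.1, Or.inr (Or.inr ⟨s, j, ?_⟩)⟩
    show (ρ s • (ρ s)⁻¹ • x, (j, k)) ∈ coreE K s
    rw [smul_inv_smul]; exact h

variable (hm : ∀ g : Γ, Measurable (fun x : X => g • x)) (K : PG ρ X ℕ)

theorem core_step_of {d : AL × Bool} {u v : X × ℕ} (h : (coreG hm K).step d u v) :
    K.step d u v := by
  unfold PG.step at h ⊢
  split_ifs at h ⊢ with hd
  · exact ⟨h.1, h.2.1⟩
  · exact ⟨h.1, h.2.1⟩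

/-- a step on a reduced thick-thick path is in the core -/
theorem core_step (ω1 ω2 : List (AL × Bool)) (d : AL × Bool) (x y : X) (u v : X × ℕ)
    (hr : Red (ω1 ++ d :: ω2)) (h1 : K.Path ω1 (x, K.o) u) (hs : K.step d u v)
    (h2 : K.Path ω2 v (y, K.o)) : (coreG hm K).step d u v := by
  obtain ⟨s, b⟩ := d
  cases b
  · have hs' := hs
    unfold PG.step at hs ⊢
    simp only [Bool.false_eq_true, if_false] at hs ⊢
    refine ⟨hs.1, hs.2, winv ω2, winv ω1, y, x, ?_, ?_, ?_⟩
    · have := red_winv hr
      rw [winv_append, winv_cons] at this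
      simpa [linv] using this
    · exact (path_winv K ω2 _ _).mpr h2
    · have h3 := (path_winv K ω1 _ _).mpr h1
      have : u = ((ρ s)⁻¹ • v.1, u.2) := Prod.ext hs.1 rfl
      rw [this] at h3; exact h3
  · unfold PG.step at hs ⊢
    simp only [if_true] at hs ⊢
    refine ⟨hs.1, hs.2, ω1, ω2, x, y, hr, h1, ?_⟩
    have : v = ((ρ s)⁻¹ • u.1, v.2) := Prod.ext hs.1 rfl
    rw [this] at h2; exact h2

/-- a middle segment of a reduced thick-thick path is in the core -/
theorem core_segment (ω1 ω2 ω3 : List (AL × Bool)) (x y : X) (u v : X × ℕ)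
    (hu : u ∈ coreV K)
    (hr : Red (ω1 ++ (ω2 ++ ω3))) (h1 : K.Path ω1 (x, K.o) u) (h2 : K.Path ω2 u v)
    (h3 : K.Path ω3 v (y, K.o)) : (coreG hm K).Path ω2 u v := by
  induction ω2 generalizing ω1 u with
  | nil =>
    obtain ⟨_, rfl⟩ := h2
    exact ⟨hu, rfl⟩
  | cons d ω2 ih =>
    obtain ⟨w, hs, hp⟩ := h2
    have h4 : K.Path (ω2 ++ ω3) w (y, K.o) := (path_append K _ _ _ _).mpr ⟨v, hp, h3⟩
    have hcs := core_step hm K ω1 (ω2 ++ ω3) d x y u w (by simpa using hr) h1 hs h4
    refine ⟨w, hcs, ?_⟩
    refine ih (ω1 ++ [d]) w (step_vals _ d u w hcs).2 (by simpa using hr) ?_ hp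
    refine (path_append K _ _ _ _).mpr ⟨u, h1, w, hs, ?_, rfl⟩
    exact (step_vals K d u w hs).2

theorem core_path (ω : List (AL × Bool)) (x y : X) (hr : Red ω)
    (h : K.Path ω (x, K.o) (y, K.o)) : (coreG hm K).Path ω (x, K.o) (y, K.o) := by
  refine core_segment hm K [] ω [] x y _ _ ?_ (by simpa using hr) ?_ h ?_
  · exact ⟨K.thick x, Or.inl rfl⟩
  · exact ⟨K.thick x, rfl⟩
  · exact ⟨K.thick y, rfl⟩

/-- cyclically reduced loops are in the core -/
theorem core_loop (hF : K.Folded) (n : ℕ) : ∀ (ω p : List (AL × Bool)) (v : X × ℕ) (y : X),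
    p.length = n → Red (ω ++ ω) → ω ≠ [] → K.Path ω v v → Red p → K.Path p v (y, K.o) →
    (coreG hm K).Path ω v v := by
  induction n with
  | zero =>
    intro ω p v y hn hr hne hp hrp hpp
    have hp0 : p = [] := List.length_eq_zero_iff.mp hn
    subst hp0
    obtain ⟨_, rfl⟩ := hpp
    exact core_path hm K ω y y (red_left hr) hp
  | succ n ih =>
    intro ω p v y hn hr hne hp hrp hpp
    obtain ⟨d, p', rfl⟩ : ∃ d p', p = d :: p' := by
      cases p with
      | nil => simp at hn
      | cons d p' => exact ⟨d, p', rfl⟩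
    have hn' : p'.length = n := by simpa using hn
    obtain ⟨w, hsd, hpp'⟩ := hpp
    have hrp' : Red p' := by
      have : Red ([d] ++ p') := by simpa using hrp
      exact red_right this
    -- first letter of ω
    obtain ⟨c, ω', rfl⟩ : ∃ c ω', ω = c :: ω' := by
      cases ω with
      | nil => exact absurd rfl hne
      | cons c ω' => exact ⟨c, ω', rfl⟩
    by_cases hdc : d = c
    · subst hdc
      obtain ⟨w', hsd', hp'⟩ := hp
      have hww : w' = w := hF d v w' w hsd' hsd
      subst hww
      have hloop : K.Path (ω' ++ [d]) w' w' :=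
        (path_append K _ _ _ _).mpr ⟨v, hp', w', hsd, (step_vals K d v w' hsd).2, rfl⟩
      have hred : Red ((ω' ++ [d]) ++ (ω' ++ [d])) := by
        have h1 : Red (([d] ++ ω') ++ ([d] ++ ω')) := by simpa using hr
        have h2 : Red (ω' ++ ([d] ++ ω')) := by
          have : Red ([d] ++ (ω' ++ ([d] ++ ω'))) := by simpa using h1
          exact red_right this
        have h3 : Red (ω' ++ [d]) := by
          have : Red ((ω' ++ [d]) ++ ω') := by simpa using h2
          exact red_left this
        -- glue
        have h4 : Red ((ω' ++ [d]) ++ ω') := by simpa using h2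
        rw [← List.append_assoc]
        rw [red_append]
        refine ⟨by simpa using h4, by simp [Red], ?_⟩
        intro a ha b hb
        simp only [List.head?_cons, Option.mem_def, Option.some.injEq] at hb
        subst hb
        by_cases hω : ω' = []
        · subst hω
          simp only [List.nil_append, List.append_nil] at ha
          simp only [List.getLast?_singleton, Option.mem_def, Option.some.injEq] at ha
          subst ha
          have h5 : Red ([d] ++ [d]) := by simpa using hr
          exact (red_append.mp h5).2.2 d (by simp) d (by simp)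
        · have h6 : (ω' ++ [d] ++ ω').getLast? = ω'.getLast? := by
            rw [List.getLast?_append_of_ne_nil _ hω]
          rw [h6] at ha
          exact (red_append.mp h3).2.2 a ha d (by simp)
      have hres := ih (ω' ++ [d]) p' w' y hn' hred (by simp) hloop hrp' hpp'
      obtain ⟨v', ha, hb⟩ := (path_append (coreG hm K) _ _ _ _).mp hres
      obtain ⟨w'', hs2, _, hw''⟩ := hb
      subst hw''
      have hvv : v' = v := by
        have h7 := core_step_of hm K hs2
        have h8 := (step_linv K d v' w'').mpr h7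
        have h9 := (step_linv K d v w'').mpr hsd
        exact hF _ _ _ _ h8 h9
      subst hvv
      exact ⟨w'', hs2, ha⟩
    · -- last letter
      obtain ⟨ω'', e, hω⟩ : ∃ ω'' e, c :: ω' = ω'' ++ [e] :=
        ⟨(c :: ω').dropLast, (c :: ω').getLast (by simp), (List.dropLast_append_getLast (by simp)).symm⟩
      by_cases hde : d = linv e
      · rw [hω] at hp hr ⊢
        obtain ⟨w', hp1, hp2⟩ := (path_append K _ _ _ _).mp hp
        obtain ⟨v2, hs2, _, hv2⟩ := hp2
        subst hv2
        have hww : w' = w := by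
          have h8 := (step_linv K e w' v2).mpr hs2
          rw [← hde] at h8
          exact hF _ _ _ _ h8 hsd
        subst hww
        have hloop : K.Path ([e] ++ ω'') w' w' := by
          refine ⟨v2, hs2, ?_⟩
          simpa using hp1
        have hred : Red (([e] ++ ω'') ++ ([e] ++ ω'')) := by
          have h1 : Red (ω'' ++ ([e] ++ (ω'' ++ [e]))) := by simpa using hr
          have h2 : Red ([e] ++ (ω'' ++ [e])) := red_right h1
          have h2' : Red (([e] ++ ω'') ++ [e]) := by simpa using h2
          have h3 : Red ([e] ++ ω'') := red_left h2'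
          have h4 : Red ((ω'' ++ [e]) ++ ω'') := by
            have : Red (((ω'' ++ [e]) ++ ω'') ++ [e]) := by simpa using hr
            exact red_left this
          have h5 : Red (([e] ++ ω'')) := h3
          rw [← List.append_assoc, red_append]
          refine ⟨by simpa using h2', ?_, ?_⟩
          · have : Red (ω'' ++ ([e] ++ ω'')) := by simpa using h4
            exact red_left this
          · intro a ha b hb
            have ha' : a = e := by
              simp only [List.getLast?_append, List.getLast?_singleton, Option.mem_def] at ha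
              simpa using ha.symm
            subst ha'
            exact (red_append.mp h3).2.2 a (by simp) b hb
        have hres := ih ([e] ++ ω'') p' w' y hn' hred (by simp) hloop hrp' hpp'
        obtain ⟨v', ha, hb⟩ := hres
        have hvv : v' = v2 := hF e w' v' v2 (core_step_of hm K ha) hs2
        subst hvv
        refine (path_append (coreG hm K) _ _ _ _).mpr ⟨w', ?_, v', ha, ?_, rfl⟩
        · simpa using hb
        · exact (step_vals _ e w' v' ha).2
      · -- direct: winv p ++ ω ++ p is reduced
        have hpp : K.Path (d :: p') v (y, K.o) := ⟨w, hsd, hpp'⟩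
        have hwp : K.Path (winv (d :: p')) (y, K.o) v := (path_winv K _ _ _).mpr hpp
        have hv : v ∈ K.V := (step_vals K d v w hsd).1
        have hbig : Red (winv (d :: p') ++ ((c :: ω') ++ (d :: p'))) := by
          rw [red_append]
          refine ⟨red_winv hrp, ?_, ?_⟩
          · rw [red_append]
            refine ⟨red_left hr, hrp, ?_⟩
            intro a ha b hb
            rw [hω] at ha
            have ha' : a = e := by
              simp only [List.getLast?_append, List.getLast?_singleton, Option.mem_def] at ha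
              simpa using ha.symm
            subst ha'
            simp only [List.head?_cons, Option.mem_def, Option.some.injEq] at hb
            subst hb
            exact hde
          · intro a ha b hb
            rw [winv_cons] at ha
            have ha' : a = linv d := by
              simp only [List.getLast?_append, List.getLast?_singleton, Option.mem_def] at ha
              simpa using ha.symm
            subst ha'
            simp only [List.cons_append, List.head?_cons, Option.mem_def, Option.some.injEq] at hb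
            subst hb
            rw [linv_linv]
            exact fun h => hdc h.symm
        -- v is a core vertex: the first step of the loop is a core step
        have hp' := hp
        obtain ⟨w1, hs1, hp1⟩ := hp'
        have hcs := core_step hm K (winv (d :: p')) (ω' ++ (d :: p')) c y y v w1
          (by simpa using hbig) hwp hs1 ((path_append K _ _ _ _).mpr ⟨v, hp1, hpp⟩)
        exact core_segment hm K (winv (d :: p')) (c :: ω') (d :: p') y y v v
          (step_vals _ c v w1 hcs).1 hbig hwp hp hpp

end core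

/- ## M3 (CPCore.lean): core = edges on reduced thick–thick paths. -/
theorem core_exists {ρ : AL → Γ} (hm : ∀ g : Γ, Measurable (fun x : X => g • x))
    (K : PG ρ X ℕ) (hF : K.Folded) (hBG : K.BG) :
    ∃ K' : PG ρ X ℕ, K'.o = K.o ∧ K'.V ⊆ K.V ∧ (∀ s, K'.E s ⊆ K.E s) ∧ K'.Folded ∧ K'.Pruned ∧
      K'.BG ∧
      (∀ ω x y, Red ω → K.Path ω (x, K.o) (y, K.o) → K'.Path ω (x, K.o) (y, K.o)) ∧
      (∀ s x j k, (x, (j, k)) ∈ K'.E s → ∃ ω1 ω2 x1 x2, Red (ω1 ++ (s, true) :: ω2) ∧
        K.Path ω1 (x1, K.o) (x, j) ∧ K.Path ω2 ((ρ s)⁻¹ • x, k) (x2, K.o)) ∧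
      (∀ (ω : List (AL × Bool)) (v : X × ℕ), Red (ω ++ ω) → ω ≠ [] → K.Path ω v v →
        K'.Path ω v v) := by
  -- every thin core vertex is an interior vertex of a reduced thick-thick path
  have key : ∀ v ∈ coreV K, v.2 ≠ K.o → ∃ (α β : List (AL × Bool)) (c d : AL × Bool) (x y : X),
      Red ((α ++ [c]) ++ (d :: β)) ∧ K.Path (α ++ [c]) (x, K.o) v ∧ K.Path (d :: β) v (y, K.o) := by
    rintro ⟨x0, i0⟩ ⟨hv, h⟩ hne
    simp only at hne h
    rcases h with h | ⟨s, k, hE, ω1, ω2, x1, x2, hr, hp1, hp2⟩ | ⟨s, k, hE, ω1, ω2, x1, x2, hr, hp1, hp2⟩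
    · exact absurd h hne
    · simp only at hE hp1 hp2
      have hω1 : ω1 ≠ [] := by
        rintro rfl
        obtain ⟨_, h⟩ := hp1
        exact hne (congrArg Prod.snd h).symm
      refine ⟨ω1.dropLast, ω2, ω1.getLast hω1, (s, true), x1, x2, ?_, ?_, ?_⟩
      · rw [List.dropLast_append_getLast]; exact hr
      · rw [List.dropLast_append_getLast]; exact hp1
      · refine ⟨((ρ s)⁻¹ • x0, k), ?_, hp2⟩
        unfold PG.step; simp only [if_true]
        exact ⟨trivial, hE⟩
    · simp only at hE hp1 hp2
      rw [inv_smul_smul] at hp2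
      have hω2 : ω2 ≠ [] := by
        rintro rfl
        obtain ⟨_, h⟩ := hp2
        exact hne (congrArg Prod.snd h)
      obtain ⟨d, β, rfl⟩ : ∃ d β, ω2 = d :: β := by
        cases ω2 with
        | nil => exact absurd rfl hω2
        | cons d β => exact ⟨d, β, rfl⟩
      refine ⟨ω1, β, (s, true), d, x1, x2, by simpa using hr, ?_, hp2⟩
      refine (path_append K _ _ _ _).mpr ⟨(ρ s • x0, k), hp1, (x0, i0), ?_, hv, rfl⟩
      unfold PG.step; simp only [if_true]
      exact ⟨(inv_smul_smul _ _).symm, hE⟩
  have last_of : ∀ (α : List (AL × Bool)) (c : AL × Bool), c ∈ (α ++ [c]).getLast? := by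
    intro α c; simp
  refine ⟨coreG hm K, rfl, fun v hv => hv.1, fun s e he => he.1, ?_, ?_, ?_, ?_, ?_, ?_⟩
  · -- folded
    intro d u v v' h h'
    exact hF d u v v' (core_step_of hm K h) (core_step_of hm K h')
  · -- pruned
    intro v hv hne
    obtain ⟨α, β, c, d, x, y, hr, hp1, hp2⟩ := key v hv hne
    obtain ⟨w0, hα, w1, hsc, _, hw1⟩ := (path_append K _ _ _ _).mp hp1
    subst hw1
    have hp2' := hp2
    obtain ⟨w2, hsd, hβ⟩ := hp2'
    have hd := (red_append.mp hr).2.2 c (last_of α c) d (by simp)
    refine ⟨d, linv c, hd, ⟨w2, ?_⟩, ⟨w0, ?_⟩⟩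
    · exact core_step hm K (α ++ [c]) β d x y w1 w2 hr hp1 hsd hβ
    · rw [step_linv]
      exact core_step hm K α (d :: β) c x y w0 w1 (by simpa using hr) hα hsc hp2
  · -- BG
    obtain ⟨L, hL1, hL2⟩ := hBG
    refine ⟨L, ?_, ?_⟩
    · intro x s
      obtain ⟨ω, hlen, hp⟩ := hL1 x s
      obtain ⟨b, hrb, _, hbl, hpb⟩ := path_reduce K hF ω _ _ hp
      exact ⟨b, hbl.trans hlen, core_path hm K b _ _ hrb hpb⟩
    · intro v hv
      by_cases hvo : v.2 = K.o
      · refine ⟨[], v.1, by simp, ?_⟩
        have : v = (v.1, (coreG hm K).o) := Prod.ext rfl hvo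
        exact ⟨hv, this⟩
      · obtain ⟨α, β, c, d, x, y, hr, hp1, hp2⟩ := key v hv hvo
        obtain ⟨ω, y', hlen, hp⟩ := hL2 v hv.1
        obtain ⟨b, hrb, _, hbl, hpb⟩ := path_reduce K hF ω _ _ hp
        refine ⟨b, y', hbl.trans hlen, ?_⟩
        obtain ⟨e, b', rfl⟩ : ∃ e b', b = e :: b' := by
          cases b with
          | nil =>
            obtain ⟨_, h⟩ := hpb
            exact absurd (congrArg Prod.snd h) hvo
          | cons e b' => exact ⟨e, b', rfl⟩
        have hd := (red_append.mp hr).2.2 c (last_of α c) d (by simp)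
        by_cases hec : e = linv c
        · -- use β⁻¹
          have hr2 : Red (winv (d :: β) ++ ((e :: b') ++ [])) := by
            rw [List.append_nil, red_append]
            refine ⟨red_winv (red_right hr), hrb, ?_⟩
            intro a ha b hb
            rw [winv_cons] at ha
            have ha' : a = linv d := by
              simp only [List.getLast?_append, List.getLast?_singleton, Option.mem_def] at ha
              simpa using ha.symm
            subst ha'
            simp only [List.head?_cons, Option.mem_def, Option.some.injEq] at hb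
            subst hb
            rw [linv_linv, hec]
            exact fun h => hd h.symm
          exact core_segment hm K (winv (d :: β)) (e :: b') [] y y' v _ hv hr2
            ((path_winv K _ _ _).mpr hp2) hpb ⟨K.thick y', rfl⟩
        · have hr2 : Red ((α ++ [c]) ++ ((e :: b') ++ [])) := by
            rw [List.append_nil, red_append]
            refine ⟨red_left hr, hrb, ?_⟩
            intro a ha b hb
            have ha' : a = c := by
              simp only [List.getLast?_append, List.getLast?_singleton, Option.mem_def] at ha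
              simpa using ha.symm
            subst ha'
            simp only [List.head?_cons, Option.mem_def, Option.some.injEq] at hb
            subst hb
            exact hec
          exact core_segment hm K (α ++ [c]) (e :: b') [] x y' v _ hv hr2 hp1 hpb
            ⟨K.thick y', rfl⟩
  · intro ω x y hr hp
    exact core_path hm K ω x y hr hp
  · intro s x j k h
    exact h.2
  · intro ω v hr hne hp
    obtain ⟨L, hL1, hL2⟩ := hBG
    have hv : v ∈ K.V := by
      cases ω with
      | nil => exact absurd rfl hne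
      | cons c ω' =>
        obtain ⟨w, hs, _⟩ := hp
        exact (step_vals K c v w hs).1
    obtain ⟨p, y, _, hpp⟩ := hL2 v hv
    obtain ⟨b, hrb, _, _, hpb⟩ := path_reduce K hF p _ _ hpp
    exact core_loop hm K hF _ ω b v y rfl hr hne hp hrb hpb

end Crest.Agent.CP
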