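import Mathlib

/-!
# Row 191 (S0291): basic definitions (group side and volume)
-/

set_option autoImplicit false

namespace Crest.Agent.CP

open MeasureTheory

section vol
variable {X : Type} [MeasurableSpace X] {ι κ : Type}

/-- slice-measurable subset of `X × ι` -/
def MS (A : Set (X × ι)) : Prop := ∀ i, MeasurableSet {x | (x, i) ∈ A}

/-- volume of a subset of `X × ι` (`ι` countable): sum of the measures of the slices -/
noncomputable def vol (μ : Measure X) (A : Set (X × ι)) : ENNReal :=
  ∑' i, μ {x | (x, i) ∈ A}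

end vol

section words
variable {S : Type}

/-- inverse letter -/
def linv (c : S × Bool) : S × Bool := (c.1, !c.2)

/-- inverse word -/
def winv (w : List (S × Bool)) : List (S × Bool) := (w.map linv).reverse

/-- value of a letter -/
def lval {Γ : Type} [Group Γ] (ρ : S → Γ) (c : S × Bool) : Γ := if c.2 then ρ c.1 else (ρ c.1)⁻¹

/-- value of a word (usual order) -/
def wval {Γ : Type} [Group Γ] (ρ : S → Γ) (w : List (S × Bool)) : Γ := (w.map (lval ρ)).prod

/-- reduced word -/
def Red (w : List (S × Bool)) : Prop := w.IsChain (fun c d => d ≠ linv c)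

/-- the subword of length `k` starting at offset `i` of the cyclic relator `r l` -/
def rw {L : Type} {R : ℕ} (r : L → ZMod R → S × Bool) (l : L) (i : ZMod R) (k : ℕ) :
    List (S × Bool) := (List.range k).map (fun m : ℕ => r l (i + (m : ZMod R)))

end words

/-- x-letters: `none = z` is the separator, `some i = x_i` -/
abbrev XL := Option (Fin 100)
/-- all letters: `none = a` is the stable letter -/
abbrev AL := Option XL

/-- Relator data: everything about the group that the main theorem needs. -/
structure RelData (j R q : ℕ) (Γ : Type) [Group Γ] where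
  ρ : AL → Γ
  ρ_inj : Function.Injective ρ
  ρ_ne : ∀ s, ρ s ≠ 1
  /-- no generator is the inverse of a generator -/
  ρ_ne_inv : ∀ s s', ρ s ≠ (ρ s')⁻¹
  gen : Subgroup.closure (Set.range ρ) = ⊤
  r : XL → ZMod R → AL × Bool
  rel : ∀ l, wval ρ (rw r l 0 R) = 1
  cyc : ∀ l i, r l (i + 1) ≠ linv (r l i)
  pp : ∀ l l' i i', (∀ m : ℕ, m < q → r l (i + m) = r l' (i' + m)) → l = l' ∧ i = i'
  pp' : ∀ l l' i i', ¬ ∀ m : ℕ, m < q → r l (i + m) = linv (r l' (i' - m))
  dp : ∀ ω : List (AL × Bool), ω ≠ [] → Red ω → wval ρ ω = 1 →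
    ∃ l i, rw r l i (R - q + 1) <:+: ω ∨ winv (rw r l i (R - q + 1)) <:+: ω
  rich : ∀ l (t : Fin j → Fin 100), ∃ i : ZMod R, ∀ m : Fin j,
    r l (i + ((m : ℕ) : ZMod R)) = (some (some (t m)), true)
  /-- the positions of two different `t`'s do not matter; `q` is small compared with `R` -/
  hqR : 8 * q + 8 ≤ R
  hq1 : 1 ≤ q
  hqj : j ≤ q

/-- Gap for the letters `x_0, …, x_99` -/
def Gap {Γ X : Type} [Group Γ] [MulAction Γ X] [MeasurableSpace X] (μ : Measure X)
    (x : Fin 100 → Γ) : Prop :=
  ∀ S S' : Set X, MeasurableSet S → MeasurableSet S' →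
    ∑ i : Fin 100, (μ (S ∩ {y | x i • y ∈ S'})).toReal
      ≤ 100 * (μ S).toReal * (μ S').toReal + 20 * Real.sqrt ((μ S).toReal * (μ S').toReal)

end Crest.Agent.CP
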