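import Crest.Agent.CPDehnC

/-!
# Row 191: Dehn lemma
-/

set_option autoImplicit false

namespace Crest.Agent.CP
namespace Dehn

open HNN DT

/-- general words -/
def gw (D : DT) (ds es : List DT) : List (AL × Bool) :=
  D.word ++ (ds.flatMap (fun d => (none, false) :: d.word) ++
    es.flatMap (fun e => (none, true) :: e.word))

lemma exists_decomp (ω : List (AL × Bool)) : ∃ D ds es, ω = gw D ds es := by
  induction ω with
  | nil => exact ⟨leaf [], [], [], rfl⟩
  | cons c ω ih =>
    obtain ⟨D, ds, es, rfl⟩ := ih
    obtain ⟨s, b⟩ := c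
    cases s with
    | some l =>
      cases D with
      | leaf g => exact ⟨leaf ((l, b) :: g), ds, es, rfl⟩
      | node g U V => exact ⟨node ((l, b) :: g) U V, ds, es, rfl⟩
    | none =>
      cases b
      · exact ⟨leaf [], D :: ds, es, by simp [gw, DT.word, up_nil]⟩
      · cases ds with
        | nil => exact ⟨leaf [], [], D :: es, by simp [gw, DT.word, up_nil]⟩
        | cons d ds => exact ⟨node [] D d, ds, es, by simp [gw, DT.word, up_nil]⟩

variable {W : XL → List (XL × Bool)} {n q q0 : ℕ}

lemma wval_word (hφ : Function.Injective (phi W)) (t : DT) :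
    wval (rho (phi W) hφ) t.word = inc (phi W) hφ (t.val W) := by
  induction t with
  | leaf g => exact HNN.wval_up (phi W) hφ g
  | node g U V ihU ihV =>
    simp only [DT.word, DT.val]
    rw [HNN.wval_append, HNN.wval_cons, HNN.wval_append, HNN.wval_cons, ihU, ihV, HNN.wval_up,
      map_mul, map_mul, ← HNN.conj]
    simp only [lval, HNN.rho_none, if_true]
    rw [if_neg (by simp)]
    group

lemma chain_of_fst {β : Type} (R : ℤˣ × β → ℤˣ × β → Prop) (hR : ∀ a b, a.1 = b.1 → R a b)
    (u : ℤˣ) (L : List (ℤˣ × β)) (hL : ∀ a ∈ L, a.1 = u) : L.IsChain R := by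
  induction L with
  | nil => exact List.isChain_nil
  | cons a L ih =>
    cases L with
    | nil => exact List.isChain_singleton _
    | cons b L =>
      rw [List.isChain_cons_cons]
      refine ⟨hR _ _ ?_, ih fun c hc => hL c (List.mem_cons_of_mem _ hc)⟩
      rw [hL a (by simp), hL b (by simp)]

/-- the abstract Dehn lemma -/
theorem good_ne_one (hW : WOK W n) (hφ : Function.Injective (phi W)) (hSP : SP W q0)
    (hq0 : 2 ≤ q0) (hq : 2 * q0 + 4 ≤ q) (hqn : q ≤ n) (ω : List (AL × Bool)) (hω : Good W n q ω)
    (h1 : wval (rho (phi W) hφ) ω = 1) : ω = [] := by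
  obtain ⟨D, ds, es, rfl⟩ := exists_decomp ω
  have hD : D.word <:+: gw D ds es := ⟨[], _, by simp only [gw, List.nil_append]; rfl⟩
  -- the reduced word in Britton's sense
  set L : List (ℤˣ × FreeGroup XL) := ds.map (fun d => ((-1 : ℤˣ), d.val W)) ++
    es.map (fun e => ((1 : ℤˣ), e.val W)) with hL
  have hchain : L.IsChain (fun a b => a.2 ∈ HNNExtension.toSubgroup ⊤ (phi W).range a.1 →
      a.1 = b.1) := by
    rw [hL, List.isChain_append]
    have hR0 : ∀ a b : ℤˣ × FreeGroup XL, a.1 = b.1 →
      (fun a b : ℤˣ × FreeGroup XL => a.2 ∈ HNNExtension.toSubgroup ⊤ (phi W).range a.1 →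
        a.1 = b.1) a b := fun a b h _ => h
    refine ⟨chain_of_fst _ hR0 (-1) _ ?_, chain_of_fst _ hR0 1 _ ?_, ?_⟩
    · intro a ha
      obtain ⟨d, _, rfl⟩ := List.mem_map.1 ha
      rfl
    · intro a ha
      obtain ⟨d, _, rfl⟩ := List.mem_map.1 ha
      rfl
    · intro a ha b hb hab
      exfalso
      -- the last `d`, the first `e`
      rw [Option.mem_def, List.getLast?_map, Option.map_eq_some_iff] at ha
      obtain ⟨d, hd, rfl⟩ := ha
      rw [Option.mem_def, List.head?_map, Option.map_eq_some_iff] at hb
      obtain ⟨e, he, rfl⟩ := hb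
      simp only [HNNExtension.toSubgroup_neg_one] at hab
      rw [List.getLast?_eq_some_iff] at hd
      obtain ⟨ds', rfl⟩ := hd
      rw [List.head?_eq_some_iff] at he
      obtain ⟨es', rfl⟩ := he
      have hinf : (none, false) :: (d.word ++ [((none : AL), true)])
          <:+: gw D (ds' ++ [d]) (e :: es') :=
        ⟨D.word ++ ds'.flatMap (fun d => (none, false) :: d.word), e.word ++
          es'.flatMap (fun e => (none, true) :: e.word), by simp [gw]⟩
      have hdi : d.word <:+: gw D (ds' ++ [d]) (e :: es') :=
        List.IsInfix.trans ⟨[(none, false)], [(none, true)], by simp⟩ hinf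
      have hred := red_infix hω.1 hinf
      cases d with
      | leaf g =>
        have hg0 : g ≠ [] := by
          rintro rfl
          simp only [DT.word, up_nil, List.nil_append] at hred
          unfold Red at hred
          rw [List.isChain_cons_cons] at hred
          exact hred.1 rfl
        exact not_mem hW (by omega) hqn hω g hdi hg0 hab
      | node g U V =>
        have hg0 : g ≠ [] := by
          rintro rfl
          simp only [DT.word, up_nil, List.nil_append, List.cons_append] at hred
          unfold Red at hred
          rw [List.isChain_cons_cons] at hred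
          exact hred.1 rfl
        have hgi : up g <:+: gw D (ds' ++ [node g U V]) (e :: es') :=
          List.IsInfix.trans ⟨[], (none, true) :: (U.word ++ (none, false) :: V.word),
            by simp [DT.word]⟩ hdi
        exact not_mem hW (by omega) hqn hω g hgi hg0
          (node_mem hW hSP (main hW hSP hq0 hq hqn _ (hω.infix hdi)) hab)
  let w : HNNExtension.NormalWord.ReducedWord (FreeGroup XL) ⊤ (phi W).range :=
    { head := D.val W
      toList := L
      chain := hchain }
  have hprod : w.prod (eqv (phi W) hφ) = wval (rho (phi W) hφ) (gw D ds es) := by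
    have hd : ∀ ds : List DT, wval (rho (phi W) hφ) (ds.flatMap (fun d => (none, false) :: d.word))
        = ((ds.map (fun d => ((-1 : ℤˣ), d.val W))).map
          (fun x => (HNNExtension.t : Gam (phi W) hφ) ^ (x.1 : ℤ) * inc (phi W) hφ x.2)).prod := by
      intro ds
      induction ds with
      | nil => rfl
      | cons d ds ih =>
        rw [List.flatMap_cons, HNN.wval_append, ih, HNN.wval_cons, wval_word]
        simp [lval]
    have he : ∀ es : List DT, wval (rho (phi W) hφ) (es.flatMap (fun d => (none, true) :: d.word))
        = ((es.map (fun d => ((1 : ℤˣ), d.val W))).map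
          (fun x => (HNNExtension.t : Gam (phi W) hφ) ^ (x.1 : ℤ) * inc (phi W) hφ x.2)).prod := by
      intro ds
      induction ds with
      | nil => rfl
      | cons d ds ih =>
        rw [List.flatMap_cons, HNN.wval_append, ih, HNN.wval_cons, wval_word]
        simp [lval]
    unfold gw
    rw [HNN.wval_append, HNN.wval_append, hd, he, wval_word]
    simp only [HNNExtension.NormalWord.ReducedWord.prod, w, hL, List.map_append, List.prod_append]
  have hnil : L = [] := by
    have := HNNExtension.ReducedWord.toList_eq_nil_of_mem_of_range (eqv (phi W) hφ) w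
      (by rw [hprod, h1]; exact Subgroup.one_mem _)
    exact this
  rw [hL, List.append_eq_nil_iff, List.map_eq_nil_iff, List.map_eq_nil_iff] at hnil
  obtain ⟨rfl, rfl⟩ := hnil
  have hgw : gw D [] [] = D.word := by simp [gw]
  rw [hgw] at hω h1 ⊢
  rw [wval_word] at h1
  have h2 : D.val W = 1 := by
    apply inc_injective (phi W) hφ
    rw [h1, map_one]
  cases D with
  | leaf g =>
    have hr : Red g := red_of_up hω.1
    simp only [DT.val] at h2
    have h3 := toWord_mk_of_red hr
    rw [h2, FreeGroup.toWord_one] at h3
    rw [← h3]; rfl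
  | node g U V =>
    exfalso
    have h3 := node_len (main hW hSP hq0 hq hqn _ hω)
    rw [h2, FreeGroup.toWord_one] at h3
    simp only [List.length_nil] at h3
    omega

/-! ### cyclic words -/

lemma rw_length {S L : Type} {R : ℕ} (r : L → ZMod R → S × Bool) (l : L) (i : ZMod R) (k : ℕ) :
    (rw r l i k).length = k := by simp [rw]

lemma rw_add {S L : Type} {R : ℕ} (r : L → ZMod R → S × Bool) (l : L) (i : ZMod R) (k m : ℕ) :
    rw r l i (k + m) = rw r l i k ++ rw r l (i + (k : ZMod R)) m := by
  unfold rw
  rw [List.range_add, List.map_append, List.map_map]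
  congr 1
  apply List.map_congr_left
  intro a _
  simp only [Function.comp]
  congr 1
  push_cast
  ring

/-- infixes of the doubled relator are cyclic subwords -/
lemma infix_dbl (R : ℕ) [NeZero R] (hR : ∀ l, (relWord W l).length = R) (l : XL)
    (z : List (AL × Bool)) (hz : z <:+: dbl W l) : ∃ i, z = rw (rel W R hR) l i z.length := by
  obtain ⟨A, B, hAB⟩ := hz
  refine ⟨(A.length : ZMod R), ?_⟩
  apply List.ext_getElem
  · rw [rw_length]
  · intro m h1 h2
    have hlen : A.length + m < (dbl W l).length := by
      rw [← hAB]; simp only [List.length_append]; omega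
    have e1 : z[m] = (dbl W l)[A.length + m] := by
      simp only [← hAB]
      rw [List.getElem_append_left (by simp only [List.length_append]; omega),
        List.getElem_append_right (by omega)]
      simp
    have e2 : (rw (rel W R hR) l (A.length : ZMod R) z.length)[m]
        = rel W R hR l ((A.length : ZMod R) + (m : ZMod R)) := by
      simp [rw]
    rw [e1, e2, rel_apply]
    have hval : ((A.length : ZMod R) + (m : ZMod R)).val = (A.length + m) % R := by
      rw [← Nat.cast_add, ZMod.val_natCast]
    have hd : (dbl W l).length = R + R := by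
      unfold dbl; rw [List.length_append, hR]
    simp only [hval]
    unfold dbl
    by_cases h : A.length + m < R
    · rw [List.getElem_append_left (by rw [hR]; exact h)]
      congr 1
      exact (Nat.mod_eq_of_lt h).symm
    · push Not at h
      rw [List.getElem_append_right (by rw [hR]; exact h)]
      congr 1
      rw [hR, Nat.mod_eq_sub_mod h, Nat.mod_eq_of_lt (by omega)]

/-- the Dehn property -/
theorem dp (hW : WOK W n) (hφ : Function.Injective (phi W)) (hSP : SP W q0)
    (hq0 : 2 ≤ q0) (hq : 2 * q0 + 4 ≤ q) (hqn : q ≤ n) (R : ℕ) [NeZero R] (hRn : R = n + 3)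
    (hR : ∀ l, (relWord W l).length = R) :
    ∀ ω : List (AL × Bool), ω ≠ [] → Red ω → wval (rho (phi W) hφ) ω = 1 →
      ∃ l i, rw (rel W R hR) l i (R - q + 1) <:+: ω ∨
        winv (rw (rel W R hR) l i (R - q + 1)) <:+: ω := by
  intro ω hω0 hred hval
  by_contra hcon
  push Not at hcon
  apply hω0
  refine good_ne_one hW hφ hSP hq0 hq hqn ω ⟨hred, ?_⟩ hval
  intro z hz hp
  by_contra hlen
  push Not at hlen
  obtain ⟨l, h | h⟩ := hp
  · obtain ⟨i, hi⟩ := infix_dbl R hR l z h
    have h2 : z.length = (R - q + 1) + (z.length - (R - q + 1)) := by omega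
    rw [h2, rw_add] at hi
    apply (hcon l i).1
    exact List.IsInfix.trans ⟨[], _, by rw [List.nil_append]; exact hi.symm⟩ hz
  · obtain ⟨i, hi⟩ := infix_dbl R hR l (winv z) h
    rw [winv_length] at hi
    have h2 : z.length = (R - q + 1) + (z.length - (R - q + 1)) := by omega
    rw [h2, rw_add] at hi
    have h3 := congrArg winv hi
    rw [winv_winv, winv_append] at h3
    apply (hcon l i).2
    exact List.IsInfix.trans ⟨_, [], by rw [List.append_nil]; exact h3.symm⟩ hz

end Dehn
end Crest.Agent.CP
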