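import Crest.Agent.CPWd

/-!
# Row 191: Dehn lemma, part A: common prefixes and reduced products in the free group
-/

set_option autoImplicit false

namespace Crest.Agent.CP
namespace Dehn

section lists
variable {β : Type} [DecidableEq β]

/-- length of the longest common prefix -/
def cpl : List β → List β → ℕ
  | a :: u, b :: v => if a = b then cpl u v + 1 else 0
  | _, _ => 0

lemma cpl_comm (u v : List β) : cpl u v = cpl v u := by
  induction u generalizing v with
  | nil => cases v <;> simp [cpl]
  | cons a u ih =>
    cases v with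
    | nil => simp [cpl]
    | cons b v =>
      by_cases h : a = b
      · subst h; simp [cpl, ih v]
      · have h' : ¬ b = a := fun h1 => h h1.symm
        simp [cpl, h, h']

lemma cpl_split (u v : List β) : ∃ p u' v', u = p ++ u' ∧ v = p ++ v' ∧ p.length = cpl u v ∧
    (∀ a u'' b v'', u' = a :: u'' → v' = b :: v'' → a ≠ b) := by
  induction u generalizing v with
  | nil => exact ⟨[], [], v, by simp [cpl]⟩
  | cons a u ih =>
    cases v with
    | nil => exact ⟨[], a :: u, [], by simp [cpl]⟩
    | cons b v =>
      by_cases h : a = b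
      · subst h
        obtain ⟨p, u', v', h1, h2, h3, h4⟩ := ih v
        refine ⟨a :: p, u', v', by rw [h1]; rfl, by rw [h2]; rfl, by simp [cpl, h3], h4⟩
      · refine ⟨[], a :: u, b :: v, rfl, rfl, by simp [cpl, h], ?_⟩
        intro a' u'' b' v'' h1 h2
        injection h1 with h1 _
        injection h2 with h2 _
        rw [← h1, ← h2]; exact h

lemma le_cpl (p u v : List β) : p.length ≤ cpl (p ++ u) (p ++ v) := by
  induction p with
  | nil => simp
  | cons a p ih => simp [cpl, ih]

lemma cpl_le_left (u v : List β) : cpl u v ≤ u.length := by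
  obtain ⟨p, u', v', h1, h2, h3, h4⟩ := cpl_split u v
  rw [← h3, h1]; simp

lemma cpl_le_right (u v : List β) : cpl u v ≤ v.length := by
  rw [cpl_comm]; exact cpl_le_left v u

lemma cpl_self (u : List β) : cpl u u = u.length := by
  induction u with
  | nil => simp [cpl]
  | cons a u ih => simp [cpl, ih]

/-- splitting at a prescribed length below the common prefix length -/
lemma split_of_le (u v : List β) (k : ℕ) (hk : k ≤ cpl u v) :
    ∃ p u' v', u = p ++ u' ∧ v = p ++ v' ∧ p.length = k := by
  obtain ⟨p, u', v', h1, h2, h3, h4⟩ := cpl_split u v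
  refine ⟨p.take k, p.drop k ++ u', p.drop k ++ v', ?_, ?_, ?_⟩
  · rw [← List.append_assoc, List.take_append_drop, h1]
  · rw [← List.append_assoc, List.take_append_drop, h2]
  · rw [List.length_take]; omega

lemma le_cpl_of (u v p u' v' : List β) (h1 : u = p ++ u') (h2 : v = p ++ v') :
    p.length ≤ cpl u v := by
  rw [h1, h2]; exact le_cpl p u' v'

/-- ultrametric inequality -/
lemma cpl_ultra (u v w : List β) (k : ℕ) (h1 : k ≤ cpl u v) (h2 : k ≤ cpl v w) : k ≤ cpl u w := by
  obtain ⟨p, u', v', a1, a2, a3⟩ := split_of_le u v k h1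
  obtain ⟨p', v'', w', b1, b2, b3⟩ := split_of_le v w k h2
  have hpp : p = p' := by
    have : p ++ v' = p' ++ v'' := by rw [← a2, ← b1]
    exact (List.append_inj this (by rw [a3, b3])).1
  subst hpp
  have := le_cpl_of u w p u' w' a1 b2
  omega

lemma cpl_ultra_lt (u v w : List β) (h : cpl u w < cpl v w) : cpl u v ≤ cpl u w := by
  by_contra hc
  push Not at hc
  have := cpl_ultra u v w (cpl u w + 1) (by omega) (by omega)
  omega

end lists

section red
variable {α : Type}

lemma linv_linv (c : α × Bool) : linv (linv c) = c := by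
  obtain ⟨a, b⟩ := c; cases b <;> rfl

lemma winv_append (u v : List (α × Bool)) : winv (u ++ v) = winv v ++ winv u := by
  simp [winv]

lemma winv_winv (u : List (α × Bool)) : winv (winv u) = u := by
  simp only [winv, List.map_reverse, List.reverse_reverse, List.map_map]
  conv_rhs => rw [← List.map_id u]
  congr 1
  funext c
  exact linv_linv c

lemma winv_length (u : List (α × Bool)) : (winv u).length = u.length := by simp [winv]

lemma winv_nil : winv ([] : List (α × Bool)) = [] := rfl

lemma winv_cons (c : α × Bool) (u : List (α × Bool)) : winv (c :: u) = winv u ++ [linv c] := by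
  simp [winv]

lemma red_iff (w : List (α × Bool)) : Red w ↔ FreeGroup.IsReduced w := by
  unfold Red FreeGroup.IsReduced
  have : (fun c d : α × Bool => d ≠ linv c) = (fun a b : α × Bool => a.1 = b.1 → a.2 = b.2) := by
    funext c d
    obtain ⟨a, b⟩ := c
    obtain ⟨a', b'⟩ := d
    simp only [linv, ne_eq, Prod.mk.injEq, not_and, eq_iff_iff]
    constructor
    · intro h h1
      have := h h1.symm
      cases b <;> cases b' <;> simp_all
    · intro h h1
      have := h h1.symm
      cases b <;> cases b' <;> simp_all
  rw [this]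

lemma red_infix {u v : List (α × Bool)} (h : Red v) (hu : u <:+: v) : Red u :=
  List.IsChain.infix h hu

variable [DecidableEq α]

lemma red_toWord (x : FreeGroup α) : Red x.toWord := (red_iff _).2 FreeGroup.isReduced_toWord

lemma toWord_mk_of_red {w : List (α × Bool)} (h : Red w) : (FreeGroup.mk w).toWord = w := by
  rw [FreeGroup.toWord_mk]
  exact ((red_iff w).1 h).reduce_eq

lemma toWord_inv (x : FreeGroup α) : (x⁻¹).toWord = winv x.toWord := FreeGroup.toWord_inv x

lemma red_winv {w : List (α × Bool)} (h : Red w) : Red (winv w) := by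
  have := toWord_inv (FreeGroup.mk w)
  rw [toWord_mk_of_red h] at this
  rw [← this]
  exact red_toWord _

lemma mk_winv (w : List (α × Bool)) : FreeGroup.mk (winv w) = (FreeGroup.mk w)⁻¹ := by
  rw [FreeGroup.inv_mk]; rfl

lemma red_append {u v : List (α × Bool)} (hu : Red u) (hv : Red v)
    (h : ∀ c u', u = u' ++ [c] → ∀ d v', v = d :: v' → d ≠ linv c) : Red (u ++ v) := by
  unfold Red at *
  rw [List.isChain_append]
  refine ⟨hu, hv, ?_⟩
  intro c hc d hd
  obtain ⟨u', hu'⟩ : ∃ u', u = u' ++ [c] := by
    rw [Option.mem_def, List.getLast?_eq_some_iff] at hc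
    exact hc
  obtain ⟨v', hv'⟩ : ∃ v', v = d :: v' := by
    rw [Option.mem_def, List.head?_eq_some_iff] at hd
    exact hd
  exact h c u' hu' d v' hv'

/-- product of two elements of the free group, splitting off the cancelled part -/
lemma mul_split (x y : FreeGroup α) : ∃ x' p y', x.toWord = x' ++ winv p ∧ y.toWord = p ++ y' ∧
    (x * y).toWord = x' ++ y' ∧ p.length = cpl (x⁻¹).toWord y.toWord := by
  obtain ⟨p, u', y', h1, h2, h3, h4⟩ := cpl_split (x⁻¹).toWord y.toWord
  have hx : x.toWord = winv u' ++ winv p := by
    rw [← winv_append, ← h1, toWord_inv, winv_winv]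
  refine ⟨winv u', p, y', hx, h2, ?_, h3⟩
  have hred : Red (winv u' ++ y') := by
    refine red_append ?_ ?_ ?_
    · exact red_infix (red_toWord x) ⟨[], winv p, by rw [hx]; simp⟩
    · exact red_infix (red_toWord y) ⟨p, [], by rw [h2]; simp⟩
    · intro c u'' hc d v' hd hdc
      have hu' : u' = linv c :: winv u'' := by
        have := congrArg winv hc
        rw [winv_winv, winv_append] at this
        rw [this]; rfl
      exact h4 _ _ _ _ hu' hd hdc.symm
  have hmul : x * y = FreeGroup.mk (winv u' ++ y') := by
    conv_lhs => rw [← FreeGroup.mk_toWord (x := x), ← FreeGroup.mk_toWord (x := y)]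
    rw [hx, h2, ← FreeGroup.mul_mk, ← FreeGroup.mul_mk, ← FreeGroup.mul_mk, mk_winv p]
    group
  rw [hmul, toWord_mk_of_red hred]

lemma length_le_cpl (x y : FreeGroup α) :
    x.toWord.length ≤ cpl x.toWord (x * y).toWord + cpl (x⁻¹).toWord y.toWord := by
  obtain ⟨x', p, y', h1, h2, h3, h4⟩ := mul_split x y
  have := le_cpl_of x.toWord (x * y).toWord x' (winv p) y' h1 h3
  have h5 : x.toWord.length = x'.length + p.length := by
    rw [h1, List.length_append, winv_length]
  omega

end red

end Dehn
end Crest.Agent.CP
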