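import Crest.Agent.CPDehnA

/-!
# Row 191: Dehn lemma, part B: the substitution and the synchronisation lemma
-/

set_option autoImplicit false

namespace Crest.Agent.CP
namespace Dehn

variable {α : Type} {W : α → List (α × Bool)} {n : ℕ}

lemma blk_length (hW : WOK W n) (c : α × Bool) : (blk W c).length = n := by
  unfold blk
  split_ifs
  · exact hW.len _
  · rw [winv_length]; exact hW.len _

lemma blk_linv (c : α × Bool) : blk W (linv c) = winv (blk W c) := by
  obtain ⟨l, b⟩ := c
  cases b
  · simp [blk, linv, winv_winv]
  · simp [blk, linv]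

lemma winv_head? {w : List (α × Bool)} {c : α × Bool} (h : w.getLast? = some c) :
    (winv w).head? = some (linv c) := by
  rw [List.getLast?_eq_some_iff] at h
  obtain ⟨v, rfl⟩ := h
  rw [winv_append]; rfl

lemma winv_getLast? {w : List (α × Bool)} {c : α × Bool} (h : w.head? = some c) :
    (winv w).getLast? = some (linv c) := by
  rw [List.head?_eq_some_iff] at h
  obtain ⟨v, rfl⟩ := h
  rw [winv_cons]; simp

lemma blk_head (hW : WOK W n) (c : α × Bool) : (blk W c).head? = some c := by
  obtain ⟨l, b⟩ := c
  cases b
  · have := winv_head? (hW.last l)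
    simpa [blk, linv] using this
  · simpa [blk] using hW.head l

lemma blk_last (hW : WOK W n) (c : α × Bool) : (blk W c).getLast? = some c := by
  obtain ⟨l, b⟩ := c
  cases b
  · have := winv_getLast? (hW.head l)
    simpa [blk, linv] using this
  · simpa [blk] using hW.last l

lemma red_of_pos {w : List (α × Bool)} (h : ∀ c ∈ w, c.2 = true) : Red w := by
  unfold Red
  induction w with
  | nil => exact List.isChain_nil
  | cons c w ih =>
    cases w with
    | nil => exact List.isChain_singleton _
    | cons d w =>
      rw [List.isChain_cons_cons]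
      refine ⟨?_, ih fun c hc => h c (List.mem_cons_of_mem _ hc)⟩
      intro hd
      have h1 := h c (by simp)
      have h2 := h d (by simp)
      rw [hd] at h2
      simp [linv, h1] at h2

lemma phw_cons (c : α × Bool) (h : List (α × Bool)) : phw W (c :: h) = blk W c ++ phw W h := by
  simp [phw]

lemma phw_nil : phw W [] = [] := rfl

lemma phw_length (hW : WOK W n) (h : List (α × Bool)) : (phw W h).length = n * h.length := by
  induction h with
  | nil => simp [phw]
  | cons c h ih => rw [phw_cons, List.length_append, blk_length hW, ih, List.length_cons]; ring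

lemma phw_append (u v : List (α × Bool)) : phw W (u ++ v) = phw W u ++ phw W v := by
  simp [phw]

lemma phw_head (hW : WOK W n) (c : α × Bool) (h : List (α × Bool)) :
    (phw W (c :: h)).head? = some c := by
  rw [phw_cons, List.head?_append, blk_head hW]; rfl

lemma phi_mk (h : List (α × Bool)) : phi W (FreeGroup.mk h) = FreeGroup.mk (phw W h) := by
  induction h with
  | nil =>
    rw [phw_nil]
    have : (FreeGroup.mk [] : FreeGroup α) = 1 := rfl
    rw [this, map_one]
  | cons c h ih =>
    have h1 : (FreeGroup.mk (c :: h) : FreeGroup α) = FreeGroup.mk [c] * FreeGroup.mk h := by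
      rw [FreeGroup.mul_mk]; rfl
    rw [h1, map_mul, ih, phw_cons, ← FreeGroup.mul_mk]
    congr 1
    obtain ⟨l, b⟩ := c
    cases b
    · have : (FreeGroup.mk [(l, false)] : FreeGroup α) = (FreeGroup.of l)⁻¹ := rfl
      rw [this, map_inv]
      unfold phi
      rw [FreeGroup.lift_apply_of]
      simp only [blk]
      rw [FreeGroup.inv_mk]
      rfl
    · have : (FreeGroup.mk [(l, true)] : FreeGroup α) = FreeGroup.of l := rfl
      rw [this]
      unfold phi
      rw [FreeGroup.lift_apply_of]
      simp only [blk]
      rfl

variable [DecidableEq α]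

lemma blk_red (hW : WOK W n) (c : α × Bool) : Red (blk W c) := by
  unfold blk
  split_ifs
  · exact red_of_pos (hW.pos _)
  · exact red_winv (red_of_pos (hW.pos _))

lemma phw_red (hW : WOK W n) {h : List (α × Bool)} (hh : Red h) : Red (phw W h) := by
  induction h with
  | nil => exact List.isChain_nil
  | cons c h ih =>
    rw [phw_cons]
    refine red_append (blk_red hW c) (ih (red_infix hh ⟨[c], [], by simp⟩)) ?_
    intro c' u' hc d v' hd
    have h1 := blk_last hW c
    rw [hc] at h1
    simp only [List.getLast?_append, List.getLast?_singleton, Option.some_or,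
      Option.some.injEq] at h1
    subst h1
    cases h with
    | nil => simp [phw] at hd
    | cons e h =>
      have h2 := phw_head hW e h
      rw [hd] at h2
      simp only [List.head?_cons, Option.some.injEq] at h2
      subst h2
      have h3 := hh
      unfold Red at h3
      rw [List.isChain_cons_cons] at h3
      exact h3.1

lemma toWord_phi (hW : WOK W n) (x : FreeGroup α) : (phi W x).toWord = phw W x.toWord := by
  have h1 : phi W x = FreeGroup.mk (phw W x.toWord) := by
    rw [← phi_mk, FreeGroup.mk_toWord]
  rw [h1, toWord_mk_of_red (phw_red hW (red_toWord x))]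

lemma toWord_phi_length (hW : WOK W n) (x : FreeGroup α) :
    (phi W x).toWord.length = n * x.toWord.length := by
  rw [toWord_phi hW, phw_length hW]

lemma phi_injective (hW : WOK W n) : Function.Injective (phi W) := by
  rw [injective_iff_map_eq_one]
  intro x hx
  have h1 := toWord_phi_length hW x
  rw [hx] at h1
  have h2 : (1 : FreeGroup α).toWord = [] := FreeGroup.toWord_one
  rw [h2] at h1
  have h3 : x.toWord.length = 0 := by
    have h4 := hW.npos
    simp only [List.length_nil] at h1
    rcases Nat.mul_eq_zero.1 h1.symm with h | h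
    · omega
    · exact h
  have h4 : x.toWord = [] := List.length_eq_zero_iff.1 h3
  exact FreeGroup.toWord_eq_nil_iff.1 h4

/-- key lemma: synchronisation -/
lemma key (hW : WOK W n) {q0 : ℕ} (hSP : SP W q0) (g T τ ρ : FreeGroup α)
    (hτ : τ ∈ (phi W).range) (hρ : ρ ∈ (phi W).range)
    (h1 : q0 + cpl (g⁻¹).toWord T.toWord ≤ cpl τ.toWord T.toWord)
    (h2 : g.toWord.length + q0 ≤ cpl ρ.toWord (g * T).toWord + cpl (g⁻¹).toWord T.toWord) :
    g ∈ (phi W).range := by
  obtain ⟨g', C, T', e1, e2, e3, e4⟩ := mul_split g T
  -- the common prefix of τ and T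
  obtain ⟨p, τ', T1, f1, f2, f3⟩ := split_of_le τ.toWord T.toWord (q0 + C.length)
    (by rw [e4]; exact h1)
  -- C is a prefix of p
  have hpC : ∃ z, p = C ++ z := by
    have h3 : C ++ T' = p ++ T1 := by rw [← e2, ← f2]
    rw [List.append_eq_append_iff] at h3
    rcases h3 with ⟨a, ha, _⟩ | ⟨a, ha, _⟩
    · exact ⟨a, ha⟩
    · refine ⟨[], ?_⟩
      have h5 := congrArg List.length ha
      rw [List.length_append] at h5
      have h6 : a = [] := List.length_eq_zero_iff.1 (by omega)
      rw [ha, h6]; simp
  obtain ⟨z, hz⟩ := hpC
  have hzl : z.length = q0 := by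
    have := congrArg List.length hz
    rw [List.length_append, f3] at this
    omega
  have hT' : T' = z ++ T1 := by
    have h3 : C ++ T' = C ++ (z ++ T1) := by
      rw [← e2, f2, hz, List.append_assoc]
    exact List.append_cancel_left h3
  -- the common prefix of ρ and g * T
  have hgl : g.toWord.length = g'.length + C.length := by
    rw [e1, List.length_append, winv_length]
  obtain ⟨p2, ρ', y', k1, k2, k3⟩ := split_of_le ρ.toWord (g * T).toWord (g'.length + q0)
    (by omega)
  have hp2 : p2 = g' ++ z := by
    have h3 : (g' ++ z) ++ T1 = p2 ++ y' := by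
      rw [← k2, e3, hT', List.append_assoc]
    exact ((List.append_inj h3 (by rw [List.length_append, hzl, k3])).1).symm
  obtain ⟨a, ha⟩ := hτ
  obtain ⟨b, hb⟩ := hρ
  have hA : phw W b.toWord = g' ++ z ++ ρ' := by
    rw [← toWord_phi hW, hb, k1, hp2]
  have hB : phw W a.toWord = C ++ z ++ τ' := by
    rw [← toWord_phi hW, ha, f1, hz]
  have := hSP b.toWord a.toWord g' z ρ' C τ' (red_toWord b) (red_toWord a) (by omega) hA hB
  have hg : g = FreeGroup.mk g' * (FreeGroup.mk C)⁻¹ := by
    conv_lhs => rw [← FreeGroup.mk_toWord (x := g)]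
    rw [e1, ← FreeGroup.mul_mk, mk_winv]
  rw [hg]; exact this

end Dehn
end Crest.Agent.CP
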