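import Crest.Agent.CPDefs

/-!
# Row 191: the ascending HNN extension of `F = FreeGroup XL`

`Gam φ hφ = ⟨F, a | a f a⁻¹ = φ f⟩` for an injective endomorphism `φ` of `F`.
-/

set_option autoImplicit false

namespace Crest.Agent.CP
namespace HNN

variable (φ : FreeGroup XL →* FreeGroup XL) (hφ : Function.Injective φ)

/-- `F ≃* φ.range` as subgroups of `F` -/
noncomputable def eqv : (⊤ : Subgroup (FreeGroup XL)) ≃* φ.range :=
  (Subgroup.topEquiv).trans (MonoidHom.ofInjective hφ)

lemma eqv_coe (f : (⊤ : Subgroup (FreeGroup XL))) :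
    ((eqv φ hφ f : φ.range) : FreeGroup XL) = φ (f : FreeGroup XL) := rfl

/-- the ascending HNN extension -/
abbrev Gam : Type := HNNExtension (FreeGroup XL) ⊤ φ.range (eqv φ hφ)

/-- the stable letter -/
noncomputable abbrev a : Gam φ hφ := HNNExtension.t

/-- the inclusion of `F` -/
noncomputable abbrev inc : FreeGroup XL →* Gam φ hφ := HNNExtension.of

/-- `a f a⁻¹ = φ f` -/
lemma conj (f : FreeGroup XL) : a φ hφ * inc φ hφ f * (a φ hφ)⁻¹ = inc φ hφ (φ f) := by
  have h := HNNExtension.equiv_eq_conj (A := (⊤ : Subgroup (FreeGroup XL))) (B := φ.range)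
    (φ := eqv φ hφ) ⟨f, Subgroup.mem_top f⟩
  rw [eqv_coe] at h
  exact h.symm

/-- `a⁻¹ φ(f) a = f` -/
lemma conj' (f : FreeGroup XL) : (a φ hφ)⁻¹ * inc φ hφ (φ f) * a φ hφ = inc φ hφ f := by
  rw [← conj]; group

lemma inc_injective : Function.Injective (inc φ hφ) := HNNExtension.of_injective _

/-- the height homomorphism -/
noncomputable def ht : Gam φ hφ →* Multiplicative ℤ :=
  HNNExtension.lift 1 (Multiplicative.ofAdd 1) (by intro f; simp)

lemma ht_a : ht φ hφ (a φ hφ) = Multiplicative.ofAdd 1 := HNNExtension.lift_t _ _ _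

lemma ht_inc (f : FreeGroup XL) : ht φ hφ (inc φ hφ f) = 1 := by
  have := HNNExtension.lift_of (1 : FreeGroup XL →* Multiplicative ℤ)
    (Multiplicative.ofAdd 1) (A := (⊤ : Subgroup (FreeGroup XL))) (B := φ.range)
    (φ := eqv φ hφ) (by intro f; simp) f
  exact this

/-- the letters -/
noncomputable def rho : AL → Gam φ hφ
  | none => a φ hφ
  | some l => inc φ hφ (FreeGroup.of l)

@[simp] lemma rho_none : rho φ hφ none = a φ hφ := rfl
@[simp] lemma rho_some (l : XL) : rho φ hφ (some l) = inc φ hφ (FreeGroup.of l) := rfl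

lemma ht_rho_some (l : XL) : ht φ hφ (rho φ hφ (some l)) = 1 := ht_inc φ hφ _

lemma of_ne_one (l : XL) : (FreeGroup.of l : FreeGroup XL) ≠ 1 := FreeGroup.of_ne_one l

/-- the exponent-sum homomorphism on the free group -/
noncomputable def expSum : FreeGroup XL →* Multiplicative ℤ :=
  FreeGroup.lift (fun _ => Multiplicative.ofAdd 1)

lemma of_ne_inv (l l' : XL) : (FreeGroup.of l : FreeGroup XL) ≠ (FreeGroup.of l')⁻¹ := by
  intro h
  have h1 := congrArg expSum h
  rw [map_inv] at h1
  simp only [expSum, FreeGroup.lift_apply_of] at h1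
  have h2 := congrArg Multiplicative.toAdd h1
  simp at h2

lemma rho_ne (s : AL) : rho φ hφ s ≠ 1 := by
  cases s with
  | none =>
    intro h
    have h1 := congrArg (ht φ hφ) h
    rw [rho_none, ht_a, map_one (ht φ hφ)] at h1
    have h2 := congrArg Multiplicative.toAdd h1
    simp at h2
  | some l =>
    intro h
    rw [rho_some] at h
    have h1 : inc φ hφ (FreeGroup.of l) = inc φ hφ 1 := by rw [h, map_one]
    exact of_ne_one l (inc_injective φ hφ h1)

lemma rho_inj : Function.Injective (rho φ hφ) := by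
  intro s s' h
  cases s with
  | none =>
    cases s' with
    | none => rfl
    | some l =>
      exfalso
      have h1 := congrArg (ht φ hφ) h
      rw [rho_none, ht_a, ht_rho_some] at h1
      have h2 := congrArg Multiplicative.toAdd h1
      simp at h2
  | some l =>
    cases s' with
    | none =>
      exfalso
      have h1 := congrArg (ht φ hφ) h
      rw [rho_none, ht_a, ht_rho_some] at h1
      have h2 := congrArg Multiplicative.toAdd h1
      simp at h2
    | some l' =>
      rw [rho_some, rho_some] at h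
      exact congrArg some (FreeGroup.of_injective (inc_injective φ hφ h))

lemma rho_ne_inv (s s' : AL) : rho φ hφ s ≠ (rho φ hφ s')⁻¹ := by
  intro h
  have h1 := congrArg (ht φ hφ) h
  rw [map_inv] at h1
  cases s with
  | none =>
    cases s' with
    | none =>
      rw [rho_none, ht_a] at h1
      have h2 := congrArg Multiplicative.toAdd h1
      simp at h2
    | some l =>
      rw [rho_none, ht_a, ht_rho_some] at h1
      have h2 := congrArg Multiplicative.toAdd h1
      simp at h2
  | some l =>
    cases s' with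
    | none =>
      rw [rho_none, ht_a, ht_rho_some] at h1
      have h2 := congrArg Multiplicative.toAdd h1
      simp at h2
    | some l' =>
      rw [rho_some, rho_some, ← map_inv] at h
      exact of_ne_inv l l' (inc_injective φ hφ h)

lemma closure_inc : Subgroup.closure (Set.range fun l => rho φ hφ (some l)) = (inc φ hφ).range := by
  have h1 : (Set.range fun l => rho φ hφ (some l))
      = inc φ hφ '' (Set.range (FreeGroup.of : XL → FreeGroup XL)) := by
    ext g
    constructor
    · rintro ⟨l, rfl⟩; exact ⟨_, ⟨l, rfl⟩, rfl⟩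
    · rintro ⟨_, ⟨l, rfl⟩, rfl⟩; exact ⟨l, rfl⟩
  rw [h1, ← MonoidHom.map_closure, FreeGroup.closure_range_of, ← MonoidHom.range_eq_map]

lemma gen : Subgroup.closure (Set.range (rho φ hφ)) = ⊤ := by
  rw [eq_top_iff]
  intro g _
  have hsub : (inc φ hφ).range ≤ Subgroup.closure (Set.range (rho φ hφ)) := by
    rw [← closure_inc]
    apply Subgroup.closure_mono
    rintro _ ⟨l, rfl⟩
    exact ⟨some l, rfl⟩
  induction g using HNNExtension.induction_on with
  | of g => exact hsub ⟨g, rfl⟩
  | t => exact Subgroup.subset_closure ⟨none, rfl⟩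
  | mul x y hx hy => exact Subgroup.mul_mem _ (hx trivial) (hy trivial)
  | inv x hx => exact Subgroup.inv_mem _ (hx trivial)

lemma conj_mem (l : XL) : rho φ hφ none * rho φ hφ (some l) * (rho φ hφ none)⁻¹ ∈
    Subgroup.closure (Set.range fun l => rho φ hφ (some l)) := by
  rw [closure_inc, rho_none, rho_some, conj]
  exact ⟨_, rfl⟩

instance countable_Gam : Countable (Gam φ hφ) := by
  have hsurj : Function.Surjective (FreeGroup.lift (rho φ hφ)) := by
    rw [← MonoidHom.range_eq_top, FreeGroup.range_lift_eq_closure, gen]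
  exact hsurj.countable

lemma lift_injective :
    Function.Injective (FreeGroup.lift (fun i : Fin 100 => rho φ hφ (some (some i)))) := by
  have h1 : (FreeGroup.lift (fun i : Fin 100 => rho φ hφ (some (some i))))
      = (inc φ hφ).comp (FreeGroup.map (some : Fin 100 → XL)) := by
    ext i
    simp [rho_some]
  rw [h1]
  exact (inc_injective φ hφ).comp (FreeGroup.map_injective (Option.some_injective _))

/-! ### values of words -/

lemma wval_nil {Γ : Type} [Group Γ] {S : Type} (ρ : S → Γ) : wval ρ ([] : List (S × Bool)) = 1 := rfl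

lemma wval_cons {Γ : Type} [Group Γ] {S : Type} (ρ : S → Γ) (c : S × Bool) (w : List (S × Bool)) :
    wval ρ (c :: w) = lval ρ c * wval ρ w := by
  simp [wval]

lemma wval_append {Γ : Type} [Group Γ] {S : Type} (ρ : S → Γ) (u v : List (S × Bool)) :
    wval ρ (u ++ v) = wval ρ u * wval ρ v := by
  simp [wval]

/-- embed an `XL`-word as an `AL`-word -/
def up (w : List (XL × Bool)) : List (AL × Bool) := w.map (fun c => (some c.1, c.2))

lemma wval_up (w : List (XL × Bool)) :
    wval (rho φ hφ) (up w) = inc φ hφ (FreeGroup.mk w) := by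
  induction w with
  | nil => simp [up, wval, ← FreeGroup.one_eq_mk]
  | cons c w ih =>
    have h1 : up (c :: w) = (some c.1, c.2) :: up w := rfl
    rw [h1, wval_cons, ih]
    have h2 : (FreeGroup.mk (c :: w) : FreeGroup XL) = FreeGroup.mk [c] * FreeGroup.mk w := by
      rw [FreeGroup.mul_mk]; rfl
    rw [h2, map_mul]
    congr 1
    obtain ⟨l, b⟩ := c
    cases b
    · show (if (false : Bool) = true then inc φ hφ (FreeGroup.of l) else (inc φ hφ (FreeGroup.of l))⁻¹) = _
      rw [if_neg (by simp), ← map_inv]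
      congr 1
    · show (if (true : Bool) = true then inc φ hφ (FreeGroup.of l) else (inc φ hφ (FreeGroup.of l))⁻¹) = _
      rw [if_pos rfl]
      congr 1

/-- the relator value: `φ(x_l) a x_l⁻¹ a⁻¹ = 1` -/
lemma wval_relator (l : XL) (W : List (XL × Bool)) (hW : φ (FreeGroup.of l) = FreeGroup.mk W) :
    wval (rho φ hφ) (up W ++ [(none, true), (some l, false), (none, false)]) = 1 := by
  rw [wval_append, wval_up, ← hW, ← conj]
  simp only [wval_cons, wval_nil, lval, rho_none, rho_some]
  simp

/-! ### cyclic words from lists -/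

/-- cyclic word associated with a list of length `R` -/
def cycOf {S : Type} (R : ℕ) [NeZero R] (ω : List S) (hω : ω.length = R) : ZMod R → S :=
  fun i => ω[i.val]'(by rw [hω]; exact ZMod.val_lt i)

lemma rw_zero {S L : Type} (R : ℕ) [NeZero R] (ω : L → List (S × Bool))
    (hω : ∀ l, (ω l).length = R) (l : L) :
    rw (fun l => cycOf R (ω l) (hω l)) l 0 R = ω l := by
  apply List.ext_getElem
  · simp [rw, hω l]
  · intro n h1 h2
    have hn : n < R := by simpa [rw] using h1
    simp only [rw, List.getElem_map, List.getElem_range, cycOf, zero_add]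
    congr 1
    exact ZMod.val_natCast_of_lt hn

/-- the relator of `l` as a list: `W_l a x_l⁻¹ a⁻¹` -/
def relWord (W : XL → List (XL × Bool)) (l : XL) : List (AL × Bool) :=
  up (W l) ++ [(none, true), (some l, false), (none, false)]

lemma relWord_length (W : XL → List (XL × Bool)) (l : XL) :
    (relWord W l).length = (W l).length + 3 := by
  simp [relWord, up]

/-- the relators as cyclic words -/
def rel (W : XL → List (XL × Bool)) (R : ℕ) [NeZero R] (hR : ∀ l, (relWord W l).length = R) :
    XL → ZMod R → AL × Bool := fun l => cycOf R (relWord W l) (hR l)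

lemma rel_apply (W : XL → List (XL × Bool)) (R : ℕ) [NeZero R]
    (hR : ∀ l, (relWord W l).length = R) (l : XL) (i : ZMod R) :
    rel W R hR l i = (relWord W l)[i.val]'(by rw [hR]; exact ZMod.val_lt i) := rfl

/-- the whole group statement from the word facts -/
theorem exists_of_words (j R q : ℕ) [NeZero R] (hφ : Function.Injective φ)
    (W : XL → List (XL × Bool)) (hW : ∀ l, φ (FreeGroup.of l) = FreeGroup.mk (W l))
    (hR : ∀ l, (relWord W l).length = R)
    (cyc : ∀ l i, rel W R hR l (i + 1) ≠ linv (rel W R hR l i))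
    (pp : ∀ l l' i i', (∀ m : ℕ, m < q → rel W R hR l (i + m) = rel W R hR l' (i' + m)) →
      l = l' ∧ i = i')
    (pp' : ∀ l l' i i', ¬ ∀ m : ℕ, m < q →
      rel W R hR l (i + m) = linv (rel W R hR l' (i' - m)))
    (dp : ∀ ω : List (AL × Bool), ω ≠ [] → Red ω → wval (rho φ hφ) ω = 1 →
      ∃ l i, rw (rel W R hR) l i (R - q + 1) <:+: ω ∨
        winv (rw (rel W R hR) l i (R - q + 1)) <:+: ω)
    (rich : ∀ l (t : Fin j → Fin 100), ∃ i : ZMod R, ∀ m : Fin j,
      rel W R hR l (i + ((m : ℕ) : ZMod R)) = (some (some (t m)), true))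
    (hqR : 8 * q + 8 ≤ R) (hq1 : 1 ≤ q) (hqj : j ≤ q) :
    ∃ (R : ℕ) (_ : NeZero R) (Γ : Type) (_ : Group Γ) (_ : Countable Γ)
      (D : RelData j R q Γ),
      (∀ l, D.ρ none * D.ρ (some l) * (D.ρ none)⁻¹ ∈
        Subgroup.closure (Set.range fun l => D.ρ (some l))) ∧
      (∃ δ : Γ →* Multiplicative ℤ, δ (D.ρ none) = Multiplicative.ofAdd 1 ∧
        ∀ l, δ (D.ρ (some l)) = 1) ∧
      Function.Injective (FreeGroup.lift (fun i : Fin 100 => D.ρ (some (some i)))) :=
  ⟨R, inferInstance, Gam φ hφ, inferInstance, countable_Gam φ hφ,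
    { ρ := rho φ hφ
      ρ_inj := rho_inj φ hφ
      ρ_ne := rho_ne φ hφ
      ρ_ne_inv := rho_ne_inv φ hφ
      gen := gen φ hφ
      r := rel W R hR
      rel := fun l => by
        show wval (rho φ hφ) (rw (fun l => cycOf R (relWord W l) (hR l)) l 0 R) = 1
        rw [rw_zero R (relWord W) hR l]
        exact wval_relator φ hφ l (W l) (hW l)
      cyc := cyc
      pp := pp
      pp' := pp'
      dp := dp
      rich := rich
      hqR := hqR
      hq1 := hq1
      hqj := hqj },
    conj_mem φ hφ, ⟨ht φ hφ, ht_a φ hφ, ht_rho_some φ hφ⟩, lift_injective φ hφ⟩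

end HNN
end Crest.Agent.CP
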