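import Crest.Agent.CPDehnB
import Crest.Agent.CPHNN

/-!
# Row 191: Dehn lemma, part C: Dyck trees
-/

set_option autoImplicit false

namespace Crest.Agent.CP
namespace Dehn

open HNN

lemma up_append (u v : List (XL × Bool)) : up (u ++ v) = up u ++ up v := by simp [up]

lemma up_length (u : List (XL × Bool)) : (up u).length = u.length := by simp [up]

lemma up_nil : up [] = [] := rfl

lemma up_cons (c : XL × Bool) (u : List (XL × Bool)) : up (c :: u) = (some c.1, c.2) :: up u := rfl

lemma up_winv (u : List (XL × Bool)) : up (winv u) = winv (up u) := by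
  simp [up, winv, linv]

lemma red_of_up {u : List (XL × Bool)} (h : Red (up u)) : Red u := by
  unfold Red up at *
  rw [List.isChain_map] at h
  refine h.imp ?_
  intro c d hcd h1
  apply hcd
  rw [h1]; rfl

/-- Dyck words as trees: `g a U a⁻¹ V` -/
inductive DT
  | leaf (g : List (XL × Bool))
  | node (g : List (XL × Bool)) (U V : DT)

namespace DT

def word : DT → List (AL × Bool)
  | leaf g => up g
  | node g U V => up g ++ (none, true) :: (U.word ++ (none, false) :: V.word)

noncomputable def val (W : XL → List (XL × Bool)) : DT → FreeGroup XL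
  | leaf g => FreeGroup.mk g
  | node g U V => FreeGroup.mk g * (phi W (U.val W) * V.val W)

def hd : DT → List (XL × Bool)
  | leaf g => g
  | node g _ _ => g

lemma word_hd (t : DT) : ∃ rest, t.word = up t.hd ++ rest := by
  cases t with
  | leaf g => exact ⟨[], by simp [word, hd]⟩
  | node g U V => exact ⟨_, rfl⟩

end DT

open DT

/-- the doubled relator -/
def dbl (W : XL → List (XL × Bool)) (l : XL) : List (AL × Bool) := relWord W l ++ relWord W l

/-- pieces of relators -/
def Pc (W : XL → List (XL × Bool)) (z : List (AL × Bool)) : Prop :=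
  ∃ l, z <:+: dbl W l ∨ winv z <:+: dbl W l

/-- Dehn-reduced words -/
def Good (W : XL → List (XL × Bool)) (n q : ℕ) (ω : List (AL × Bool)) : Prop :=
  Red ω ∧ ∀ z, z <:+: ω → Pc W z → z.length + q ≤ n + 3

lemma Good.infix {W : XL → List (XL × Bool)} {n q : ℕ} {ω ω' : List (AL × Bool)}
    (h : Good W n q ω) (h' : ω' <:+: ω) : Good W n q ω' :=
  ⟨red_infix h.1 h', fun z hz hp => h.2 z (hz.trans h') hp⟩

variable {W : XL → List (XL × Bool)} {n q q0 : ℕ}

lemma Pc.winv {z : List (AL × Bool)} (h : Pc W z) : Pc W (winv z) := by
  obtain ⟨l, h | h⟩ := h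
  · exact ⟨l, Or.inr (by rw [winv_winv]; exact h)⟩
  · exact ⟨l, Or.inl h⟩

/-- prefixes of blocks are pieces -/
lemma pc_blk {p r : List (XL × Bool)} {c : XL × Bool} (h : blk W c = p ++ r) : Pc W (up p) := by
  obtain ⟨l, b⟩ := c
  cases b
  · have h1 : W l = winv r ++ winv p := by
      have h2 : winv (W l) = p ++ r := by simpa [blk] using h
      rw [← winv_append, ← h2, winv_winv]
    refine ⟨l, Or.inr ⟨up (winv r), [(none, true), (some l, false), (none, false)] ++ relWord W l,
      ?_⟩⟩
    have h3 : relWord W l = up (winv r) ++ winv (up p)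
        ++ [(none, true), (some l, false), (none, false)] := by
      rw [relWord, h1, up_append, up_winv p]
    unfold dbl
    conv_rhs => lhs; rw [h3]
    simp [List.append_assoc]
  · have h1 : W l = p ++ r := by simpa [blk] using h
    refine ⟨l, Or.inl ⟨[], up r ++ [(none, true), (some l, false), (none, false)] ++ relWord W l,
      ?_⟩⟩
    have h3 : relWord W l = up p ++ up r
        ++ [(none, true), (some l, false), (none, false)] := by
      rw [relWord, h1, up_append]
    unfold dbl
    conv_rhs => lhs; rw [h3]
    simp [List.append_assoc]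

lemma G0 (hW : WOK W n) (hq : 4 ≤ q) (hqn : q ≤ n) (u : FreeGroup XL) (w : List (XL × Bool))
    (hc : n + 3 < cpl (phw W u.toWord) w + q) :
    ∃ p r, w = p ++ r ∧ p.length = n + 4 - q ∧ Pc W (up p) := by
  obtain ⟨p, u', r, h1, h2, h3⟩ := split_of_le (phw W u.toWord) w (n + 4 - q) (by omega)
  cases hu : u.toWord with
  | nil =>
    rw [hu, phw_nil] at h1
    have := congrArg List.length h1
    simp only [List.length_nil, List.length_append] at this
    omega
  | cons c h =>
    rw [hu, phw_cons] at h1
    have hpb : ∃ r', blk W c = p ++ r' := by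
      rw [List.append_eq_append_iff] at h1
      rcases h1 with ⟨a, ha, _⟩ | ⟨a, ha, _⟩
      · have h5 := congrArg List.length ha
        rw [List.length_append, blk_length hW] at h5
        have h6 : a = [] := List.length_eq_zero_iff.1 (by omega)
        exact ⟨[], by rw [ha, h6]; simp⟩
      · exact ⟨a, ha⟩
    obtain ⟨r', hr'⟩ := hpb
    exact ⟨p, r, h2, h3, pc_blk hr'⟩

lemma G1 (hW : WOK W n) (hq : 4 ≤ q) (hqn : q ≤ n) {ω : List (AL × Bool)} (hω : Good W n q ω)
    (u : FreeGroup XL) (w : List (XL × Bool)) (hw : up w <:+: ω) :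
    cpl (phw W u.toWord) w + q ≤ n + 3 := by
  by_contra hc
  push Not at hc
  obtain ⟨p, r, h1, h2, h3⟩ := G0 hW hq hqn u w hc
  have h4 : up p <:+: ω := by
    refine List.IsInfix.trans ⟨[], up r, ?_⟩ hw
    rw [h1, up_append]; simp
  have := hω.2 (up p) h4 h3
  rw [up_length] at this
  omega

lemma G1' (hW : WOK W n) (hq : 4 ≤ q) (hqn : q ≤ n) {ω : List (AL × Bool)} (hω : Good W n q ω)
    (u : FreeGroup XL) (w : List (XL × Bool)) (hw : up w <:+: ω) :
    cpl (phw W u.toWord) (winv w) + q ≤ n + 3 := by
  by_contra hc
  push Not at hc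
  obtain ⟨p, r, h1, h2, h3⟩ := G0 hW hq hqn u (winv w) hc
  have hw' : w = winv r ++ winv p := by rw [← winv_append, ← h1, winv_winv]
  have h4 : up (winv p) <:+: ω := by
    refine List.IsInfix.trans ⟨up (winv r), [], ?_⟩ hw
    rw [hw', up_append]; simp
  have h5 := h3.winv
  rw [← up_winv] at h5
  have := hω.2 (up (winv p)) h4 h5
  rw [up_length, winv_length] at this
  omega

/-- an `F`-infix of a good word is not in the image of `phi`, unless it is empty -/
lemma not_mem (hW : WOK W n) (hq : 4 ≤ q) (hqn : q ≤ n) {ω : List (AL × Bool)}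
    (hω : Good W n q ω) (g : List (XL × Bool)) (hg : up g <:+: ω) (hg0 : g ≠ []) :
    FreeGroup.mk g ∉ (phi W).range := by
  rintro ⟨h, hh⟩
  have hgr : Red g := red_of_up (red_infix hω.1 hg)
  have h1 : g = phw W h.toWord := by
    rw [← toWord_phi hW, hh, toWord_mk_of_red hgr]
  have h2 := G1 hW hq hqn hω h g hg
  rw [← h1, cpl_self] at h2
  have h3 : g.length = n * h.toWord.length := by
    conv_lhs => rw [h1]
    rw [phw_length hW]
  have h4 : h.toWord.length ≠ 0 := by
    intro h5
    rw [h5, Nat.mul_zero] at h3
    exact hg0 (List.length_eq_zero_iff.1 h3)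
  have h6 : n ≤ n * h.toWord.length := Nat.le_mul_of_pos_right n (Nat.pos_of_ne_zero h4)
  omega

/-- the single letter case of the gap inequality -/
lemma G2 {ω : List (AL × Bool)} (hω : Good W n q ω) (c : XL × Bool) (g g1 : List (XL × Bool))
    (h : up g ++ (none, true) :: (up [c] ++ (none, false) :: up g1) <:+: ω) :
    cpl (blk W c) (winv g) + cpl (winv (blk W c)) g1 + q ≤ n := by
  obtain ⟨p1, A, B, h1, h2, h3, -⟩ := cpl_split (blk W c) (winv g)
  obtain ⟨p2, C, D, k1, k2, k3, -⟩ := cpl_split (winv (blk W c)) g1
  rw [← h3, ← k3]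
  have hg : g = winv B ++ winv p1 := by rw [← winv_append, ← h2, winv_winv]
  have hz : up (winv p1) ++ (none, true) :: (up [c] ++ (none, false) :: up p2) <:+: ω := by
    refine List.IsInfix.trans ⟨up (winv B), up D, ?_⟩ h
    rw [hg, k2, up_append, up_append]
    simp [List.append_assoc]
  have hp : Pc W (up (winv p1) ++ (none, true) :: (up [c] ++ (none, false) :: up p2)) := by
    obtain ⟨l, b⟩ := c
    cases b
    · have e1 : W l = winv A ++ winv p1 := by
        have h5 : winv (W l) = p1 ++ A := by simpa [blk] using h1
        rw [← winv_append, ← h5, winv_winv]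
      have e2 : W l = p2 ++ C := by
        have h5 : winv (winv (W l)) = p2 ++ C := by simpa [blk] using k1
        rw [← h5, winv_winv]
      refine ⟨l, Or.inl ⟨up (winv A), up C ++ [(none, true), (some l, false), (none, false)], ?_⟩⟩
      unfold dbl relWord
      conv_rhs => 
        congr
        · rw [e1]
        · rw [e2]
      rw [up_append, up_append]
      simp [up_cons, up_nil, List.append_assoc]
    · have e1 : W l = p1 ++ A := by simpa [blk] using h1
      have e2 : W l = winv C ++ winv p2 := by
        have h5 : winv (W l) = p2 ++ C := by simpa [blk] using k1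
        rw [← winv_append, ← h5, winv_winv]
      refine ⟨l, Or.inr ⟨up (winv C), up A ++ [(none, true), (some l, false), (none, false)], ?_⟩⟩
      unfold dbl relWord
      conv_rhs => 
        congr
        · rw [e2]
        · rw [e1]
      rw [up_append, up_append]
      rw [winv_append, winv_cons, winv_append, winv_cons, up_winv p1, winv_winv, ← up_winv p2]
      simp [up_cons, up_nil, List.append_assoc, linv, winv_cons, winv_nil]
  have := hω.2 _ hz hp
  simp only [List.length_append, List.length_cons, up_length, winv_length, List.length_nil] at this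
  omega

/-- the inductive property of Dyck trees -/
def Q (W : XL → List (XL × Bool)) (q0 : ℕ) : DT → Prop
  | leaf _ => True
  | node g U V => q0 + cpl ((FreeGroup.mk g)⁻¹).toWord (phi W (U.val W) * V.val W).toWord ≤
      cpl (phi W (U.val W)).toWord (phi W (U.val W) * V.val W).toWord

lemma node_len {g : List (XL × Bool)} {U V : DT} (h : Q W q0 (node g U V)) :
    q0 ≤ ((node g U V).val W).toWord.length := by
  simp only [Q] at h
  simp only [DT.val]
  set T := phi W (U.val W) * V.val W
  obtain ⟨g', p, T', e1, e2, e3, e4⟩ := mul_split (FreeGroup.mk g) T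
  rw [e3, List.length_append]
  have h1 := cpl_le_right (phi W (U.val W)).toWord T.toWord
  have h2 : T.toWord.length = p.length + T'.length := by rw [e2, List.length_append]
  omega

lemma node_mem (hW : WOK W n) (hSP : SP W q0) {g : List (XL × Bool)} {U V : DT}
    (h : Q W q0 (node g U V)) (hm : (node g U V).val W ∈ (phi W).range) :
    FreeGroup.mk g ∈ (phi W).range := by
  simp only [Q] at h
  simp only [DT.val] at hm
  set T := phi W (U.val W) * V.val W with hT
  refine key hW hSP (FreeGroup.mk g) T (phi W (U.val W)) (FreeGroup.mk g * T) ⟨_, rfl⟩ hm h ?_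
  obtain ⟨g', p, T', e1, e2, e3, e4⟩ := mul_split (FreeGroup.mk g) T
  rw [cpl_self, e3, List.length_append]
  have h1 := cpl_le_right (phi W (U.val W)).toWord T.toWord
  have h2 : T.toWord.length = p.length + T'.length := by rw [e2, List.length_append]
  have h3 : (FreeGroup.mk g).toWord.length = g'.length + p.length := by
    rw [e1, List.length_append, winv_length]
  omega

/-- values of good nonempty Dyck words -/
lemma val_cases (hq0 : 2 ≤ q0) {U : DT} (hU : Good W n q U.word) (hU0 : U.word ≠ [])
    (hQ : Q W q0 U) : 2 ≤ (U.val W).toWord.length ∨ ∃ c, U = leaf [c] := by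
  cases U with
  | leaf g =>
    have hr : Red g := red_of_up hU.1
    have h1 : (DT.val W (leaf g)).toWord = g := by
      simp only [DT.val]
      exact toWord_mk_of_red hr
    rw [h1]
    match g, hU0 with
    | [], h => exact absurd rfl h
    | [c], _ => exact Or.inr ⟨c, rfl⟩
    | c :: d :: g', _ => left; simp
  | node g U V => left; exact hq0.trans (node_len hQ)

/-- the gap inequality -/
lemma gap (hW : WOK W n) (hq0 : 2 ≤ q0) (hq : 2 * q0 + 4 ≤ q) (hqn : q ≤ n)
    {g : List (XL × Bool)} {U V : DT} (hω : Good W n q (node g U V).word) (hQ : Q W q0 U) :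
    cpl (phi W (U.val W)).toWord ((FreeGroup.mk g)⁻¹).toWord +
      cpl ((phi W (U.val W))⁻¹).toWord (FreeGroup.mk V.hd).toWord + 2 * q0
      ≤ (phi W (U.val W)).toWord.length := by
  obtain ⟨rest, hrest⟩ := word_hd V
  have hword : (node g U V).word
      = up g ++ (none, true) :: (U.word ++ (none, false) :: (up V.hd ++ rest)) := by
    rw [← hrest]; rfl
  have hg : up g <:+: (node g U V).word := ⟨[], _, by rw [hword, List.nil_append]⟩
  have hv : up V.hd <:+: (node g U V).word :=
    ⟨up g ++ (none, true) :: (U.word ++ [(none, false)]), rest, by rw [hword]; simp⟩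
  have hUi : U.word <:+: (node g U V).word :=
    ⟨up g ++ [(none, true)], (none, false) :: (up V.hd ++ rest), by rw [hword]; simp⟩
  have hgr : Red g := red_of_up (red_infix hω.1 hg)
  have hvr : Red V.hd := red_of_up (red_infix hω.1 hv)
  have hU0 : U.word ≠ [] := by
    intro h0
    have h1 : [((none : AL), true), (none, false)] <:+: (node g U V).word :=
      ⟨up g, up V.hd ++ rest, by rw [hword, h0]; simp⟩
    have h2 := red_infix hω.1 h1
    unfold Red at h2
    rw [List.isChain_cons_cons] at h2
    exact h2.1 rfl
  rw [toWord_inv, toWord_inv, toWord_mk_of_red hgr, toWord_mk_of_red hvr]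
  rcases val_cases hq0 (hω.infix hUi) hU0 hQ with h2 | ⟨c, hc⟩
  · have h3 := G1' hW (by omega) hqn hω (U.val W) g hg
    have h4 := G1 hW (by omega) hqn hω ((U.val W)⁻¹) V.hd hv
    rw [toWord_phi_length hW]
    rw [← toWord_phi hW] at h3
    rw [← toWord_phi hW, map_inv, toWord_inv] at h4
    have h5 : n * 2 ≤ n * (U.val W).toWord.length := Nat.mul_le_mul_left n h2
    omega
  · have hred1 : Red [c] := List.isChain_singleton _
    have h3 : (U.val W).toWord = [c] := by
      rw [hc]
      simp only [DT.val]
      exact toWord_mk_of_red hred1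
    have h4 : (phi W (U.val W)).toWord = blk W c := by
      rw [toWord_phi hW, h3]; simp [phw]
    rw [h4, blk_length hW]
    have h5 := G2 hω c g V.hd ⟨[], rest, by
      rw [hword, hc]; simp [DT.word]⟩
    omega

/-- main induction -/
theorem main (hW : WOK W n) (hSP : SP W q0) (hq0 : 2 ≤ q0) (hq : 2 * q0 + 4 ≤ q) (hqn : q ≤ n)
    (t : DT) (ht : Good W n q t.word) : Q W q0 t := by
  induction t with
  | leaf g => exact trivial
  | node g U V ihU ihV =>
    have hUi : U.word <:+: (node g U V).word :=
      ⟨up g ++ [(none, true)], (none, false) :: V.word, by simp [DT.word]⟩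
    have hVi : V.word <:+: (node g U V).word :=
      ⟨up g ++ (none, true) :: (U.word ++ [(none, false)]), [], by simp [DT.word]⟩
    have hQU := ihU (ht.infix hUi)
    have hQV := ihV (ht.infix hVi)
    have hgap := gap hW hq0 hq hqn ht hQU
    simp only [Q]
    set σ := phi W (U.val W) with hσ
    set T := σ * V.val W with hT
    have hlen := length_le_cpl σ (V.val W)
    rw [← hT] at hlen
    -- claim: `cpl σ⁻¹ V.val < cpl σ⁻¹ hd + q0`
    have hcl : cpl (σ⁻¹).toWord (V.val W).toWord
        ≤ cpl (σ⁻¹).toWord (FreeGroup.mk V.hd).toWord + q0 := by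
      cases V with
      | leaf g1 => simp [DT.val, DT.hd]
      | node g1 U' V' =>
        simp only [DT.hd, DT.val]
        have hg1 : g1 ≠ [] := by
          intro h0
          have h1 : [((none : AL), false), (none, true)] <:+: (node g U (node g1 U' V')).word :=
            ⟨up g ++ (none, true) :: U.word, U'.word ++ (none, false) :: V'.word, by
              simp [DT.word, h0, up_nil]⟩
          have h2 := red_infix ht.1 h1
          unfold Red at h2
          rw [List.isChain_cons_cons] at h2
          exact h2.1 rfl
        have hg1i : up g1 <:+: (node g U (node g1 U' V')).word :=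
          ⟨up g ++ (none, true) :: (U.word ++ [(none, false)]),
            (none, true) :: (U'.word ++ (none, false) :: V'.word), by
              simp [DT.word, List.append_assoc]⟩
        have hnm := not_mem hW (by omega) hqn ht g1 hg1i hg1
        simp only [Q] at hQV
        set T' := phi W (U'.val W) * V'.val W with hT'
        by_contra hcon
        push Not at hcon
        apply hnm
        refine key hW hSP (FreeGroup.mk g1) T' (phi W (U'.val W)) (σ⁻¹) ⟨_, rfl⟩
          (Subgroup.inv_mem _ ⟨_, rfl⟩) hQV ?_
        obtain ⟨g', p, T'', e1, e2, e3, e4⟩ := mul_split (FreeGroup.mk g1) T'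
        have h3 : (FreeGroup.mk g1).toWord.length = g'.length + p.length := by
          rw [e1, List.length_append, winv_length]
        have h5 : g'.length ≤ cpl (FreeGroup.mk g1 * T').toWord (FreeGroup.mk g1).toWord :=
          le_cpl_of _ _ g' T'' (winv p) e3 e1
        by_cases h6 : g'.length ≤ cpl (σ⁻¹).toWord (FreeGroup.mk g1).toWord
        · omega
        · exfalso
          push Not at h6
          have h7 := cpl_ultra (σ⁻¹).toWord (FreeGroup.mk g1 * T').toWord
            (FreeGroup.mk g1).toWord (cpl (σ⁻¹).toWord (FreeGroup.mk g1).toWord + 1)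
            (by omega) (by omega)
          omega
    have h8 : cpl ((FreeGroup.mk g)⁻¹).toWord T.toWord
        ≤ cpl ((FreeGroup.mk g)⁻¹).toWord σ.toWord := by
      by_contra hcon
      push Not at hcon
      have h9 := cpl_ultra ((FreeGroup.mk g)⁻¹).toWord T.toWord σ.toWord
        (cpl ((FreeGroup.mk g)⁻¹).toWord σ.toWord + 1) (by omega) (by
          rw [cpl_comm T.toWord, cpl_comm ((FreeGroup.mk g)⁻¹).toWord]
          omega)
      omega
    rw [cpl_comm ((FreeGroup.mk g)⁻¹).toWord σ.toWord] at h8
    omega

end Dehn
end Crest.Agent.CP
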