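import Crest.Agent.CPDefs

/-!
# Row 191: the word part of the potential argument
-/

set_option autoImplicit false

namespace Crest.Agent.CP

section
variable {S Γ : Type} [Group Γ] (ρ : S → Γ)

theorem wval_nil' : wval ρ ([] : List (S × Bool)) = 1 := rfl

theorem wval_append' (a b : List (S × Bool)) : wval ρ (a ++ b) = wval ρ a * wval ρ b := by
  simp [wval]

theorem wval_single (d : S × Bool) : wval ρ [d] = lval ρ d := by simp [wval]

theorem rw_succ_last {L : Type} {R : ℕ} (r : L → ZMod R → S × Bool) (l : L) (i : ZMod R) (k : ℕ) :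
    rw r l i (k + 1) = rw r l i k ++ [r l (i + (k : ZMod R))] := by
  simp [rw, List.range_succ]

theorem rw_succ_first {L : Type} {R : ℕ} (r : L → ZMod R → S × Bool) (l : L) (i : ZMod R) (k : ℕ) :
    rw r l i (k + 1) = r l i :: rw r l (i + 1) k := by
  unfold rw
  rw [List.range_succ_eq_map, List.map_cons, List.map_map]
  congr 1
  · simp
  · apply List.map_congr_left
    intro m _
    simp only [Function.comp]
    congr 1
    push_cast
    ring

theorem rw_length {L : Type} {R : ℕ} (r : L → ZMod R → S × Bool) (l : L) (i : ZMod R) (k : ℕ) :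
    (rw r l i k).length = k := by simp [rw]

theorem winv_appendB (a b : List (S × Bool)) : winv (a ++ b) = winv b ++ winv a := by
  simp [winv]

theorem winv_length' (a : List (S × Bool)) : (winv a).length = a.length := by simp [winv]

theorem winv_rw_succ {L : Type} {R : ℕ} (r : L → ZMod R → S × Bool) (l : L) (i : ZMod R) (k : ℕ) :
    winv (rw r l i (k + 1)) = winv (rw r l (i + 1) k) ++ [linv (r l i)] := by
  rw [rw_succ_first]
  simp [winv]

/-- if `w ++ [d]` is an infix of `ω ++ [e]` then `w` is an infix of `ω` -/
theorem infix_drop_last {α : Type} (w ω : List α) (d e : α) (h : (w ++ [d]) <:+: (ω ++ [e])) :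
    w <:+: ω := by
  obtain ⟨A, B, hAB⟩ := h
  rcases List.eq_nil_or_concat B with hB | ⟨B', b, hB⟩
  · subst hB
    have h1 : (A ++ w) ++ [d] = ω ++ [e] := by simpa using hAB
    have h2 : A ++ w = ω := (List.append_inj' h1 (by simp)).1
    exact ⟨A, [], by simp [h2]⟩
  · subst hB
    have h1 : (A ++ (w ++ [d]) ++ B') ++ [b] = ω ++ [e] := by simpa using hAB
    have h2 : A ++ (w ++ [d]) ++ B' = ω := (List.append_inj' h1 (by simp)).1
    exact ⟨A, [d] ++ B', by simp [← h2]⟩

end

theorem run_of_word {Γ : Type} [Group Γ] {j R q : ℕ} [NeZero R] (D : RelData j R q Γ)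
    (ω : List (AL × Bool)) (hred : Red ω) (s : AL) (hval : wval D.ρ ω = D.ρ s)
    (hlen : 2 ≤ ω.length) :
    ∃ l i, rw D.r l i (R - q) <:+: ω ∨ winv (rw D.r l i (R - q)) <:+: ω := by
  classical
  rcases List.eq_nil_or_concat ω with h | ⟨ω', b, hb⟩
  · subst h; simp at hlen
  by_cases hbs : b = (s, true)
  · -- ω = ω' ++ [(s,true)], ω' trivial
    have hω : ω = ω' ++ [b] := by simpa using hb
    have hv : wval D.ρ ω' = 1 := by
      rw [hω, wval_append', wval_single, hbs] at hval
      simpa [lval] using hval
    have hne : ω' ≠ [] := by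
      intro h; rw [hω, h] at hlen; simp at hlen
    have hr : Red ω' := by
      rw [hω] at hred
      exact List.IsChain.left_of_append hred
    obtain ⟨l, i, h⟩ := D.dp ω' hne hr hv
    have hsub : ω' <:+: ω := ⟨[], [b], by simp [hω]⟩
    rcases h with h | h
    · refine ⟨l, i, Or.inl ?_⟩
      rw [rw_succ_last] at h
      exact ((List.prefix_append _ _).isInfix.trans h).trans hsub
    · refine ⟨l, i + 1, Or.inr ?_⟩
      rw [winv_rw_succ] at h
      exact ((List.prefix_append _ _).isInfix.trans h).trans hsub
  · have hω : ω = ω' ++ [b] := by simpa using hb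
    have hr : Red (ω ++ [(s, false)]) := by
      unfold Red
      rw [List.isChain_append]
      refine ⟨hred, by simp, ?_⟩
      intro x hx y hy
      rw [hω] at hx
      simp at hx hy
      subst hx; subst hy
      intro h
      apply hbs
      have : linv (linv b) = b := by simp [linv]
      rw [← this, ← h]
      simp [linv]
    have hv : wval D.ρ (ω ++ [(s, false)]) = 1 := by
      rw [wval_append', wval_single, hval]
      simp [lval]
    obtain ⟨l, i, h⟩ := D.dp _ (by simp) hr hv
    rcases h with h | h
    · refine ⟨l, i, Or.inl ?_⟩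
      rw [rw_succ_last] at h
      exact infix_drop_last _ _ _ _ h
    · refine ⟨l, i + 1, Or.inr ?_⟩
      rw [winv_rw_succ] at h
      exact infix_drop_last _ _ _ _ h

end Crest.Agent.CP
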