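import Crest.Agent.CPPath
import Crest.Agent.CPMainB

/-!
# Row 191: closed loops of relators as functions on `ZMod R`
-/

set_option autoImplicit false

namespace Crest.Agent.CP
open MeasureTheory PG

variable {Γ X : Type} [Group Γ] [MeasurableSpace X] [MulAction Γ X]
  {j R q : ℕ} [NeZero R] (D : RelData j R q Γ)

theorem step_src_mem {ρ : AL → Γ} {ι : Type} (K : PG ρ X ι) (d : AL × Bool)
    (u v : X × ι) (h : K.step d u v) : u ∈ K.V := by
  unfold step at h
  split_ifs at h with h1
  · exact K.src _ _ _ _ h.2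
  · have := K.tgt _ _ _ _ h.2
    rw [← h.1] at this
    exact this

theorem step_tgt_mem {ρ : AL → Γ} {ι : Type} (K : PG ρ X ι) (d : AL × Bool)
    (u v : X × ι) (h : K.step d u v) : v ∈ K.V := by
  unfold step at h
  split_ifs at h with h1
  · have := K.tgt _ _ _ _ h.2
    rw [← h.1] at this
    exact this
  · exact K.src _ _ _ _ h.2

theorem step_linvL {ρ : AL → Γ} {ι : Type} (K : PG ρ X ι) (d : AL × Bool)
    (u v : X × ι) : K.step (linv d) v u ↔ K.step d u v := by
  rcases d with ⟨s, b⟩
  cases b <;> simp [step, linv]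

/-- a path along the loop -/
theorem path_of_loop {ι : Type} (K : PG D.ρ X ι) (l : XL) (u : ZMod R → X × ι)
    (hu : Loop D K l u) (i : ZMod R) (k : ℕ) :
    K.Path (rw D.r l i k) (u i) (u (i + (k : ZMod R))) := by
  induction k with
  | zero =>
    have : rw D.r l i 0 = [] := rfl
    rw [this]
    refine ⟨step_src_mem K _ _ _ (hu i), by simp⟩
  | succ k ih =>
    rw [rw_succ_last, path_append]
    refine ⟨_, ih, ?_⟩
    refine ⟨u (i + (k : ZMod R) + 1), hu _, step_tgt_mem K _ _ _ (hu _), ?_⟩
    congr 1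
    push_cast
    ring

theorem cell_of_loop {ι : Type} (K : PG D.ρ X ι) (l : XL) (u : ZMod R → X × ι)
    (hu : Loop D K l u) : K.Path (rw D.r l 0 R) (u 0) (u 0) := by
  have := path_of_loop D K l u hu 0 R
  simpa using this

/-- the vertices of a path -/
theorem path_vertices {ρ : AL → Γ} {ι : Type} (K : PG ρ X ι) (w : List (AL × Bool)) :
    ∀ (a b : X × ι), K.Path w a b → ∃ f : ℕ → X × ι, f 0 = a ∧ f w.length = b ∧
      ∀ (m : ℕ) (hm : m < w.length), K.step (w[m]) (f m) (f (m + 1)) := by
  induction w with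
  | nil =>
    intro a b h
    exact ⟨fun _ => a, rfl, h.2, fun m hm => by simp at hm⟩
  | cons d w ih =>
    rintro a b ⟨c, hc, hcb⟩
    obtain ⟨f, h0, h1, h2⟩ := ih c b hcb
    refine ⟨fun m => if m = 0 then a else f (m - 1), by simp, by simpa using h1, ?_⟩
    intro m hm
    rcases m with _ | m
    · simpa [h0] using hc
    · have := h2 m (by simpa using hm)
      simpa using this

theorem loop_of_cell {ι : Type} (K : PG D.ρ X ι) (l : XL) (v : X × ι)
    (h : K.Path (rw D.r l 0 R) v v) : ∃ u : ZMod R → X × ι, Loop D K l u ∧ u 0 = v := by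
  obtain ⟨f, h0, h1, h2⟩ := path_vertices K _ v v h
  rw [rw_length] at h1
  have hR : 0 < R := Nat.pos_of_ne_zero (NeZero.ne R)
  refine ⟨fun m => f m.val, ?_, by simp [h0]⟩
  intro m
  have hm : m.val < R := ZMod.val_lt m
  have h3 := h2 m.val (by rw [rw_length]; exact hm)
  have h4 : (rw D.r l 0 R)[m.val]'(by rw [rw_length]; exact hm) = D.r l m := by
    simp [rw]
  rw [h4] at h3
  have h5 : f (m + 1).val = f (m.val + 1) := by
    by_cases hlt : m.val + 1 < R
    · congr 1
      rw [ZMod.val_add_of_lt, ZMod.val_one_eq_one_mod, Nat.mod_eq_of_lt]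
      · omega
      · rw [ZMod.val_one_eq_one_mod, Nat.mod_eq_of_lt (by omega)]
        exact hlt
    · have he : m.val + 1 = R := by omega
      rw [he, h1, ← h0]
      congr 1
      have : m + 1 = 0 := by
        have h6 : ((m.val + 1 : ℕ) : ZMod R) = 0 := by rw [he]; simp
        push_cast at h6
        rwa [ZMod.natCast_zmod_val] at h6
      rw [this, ZMod.val_zero]
  show K.step (D.r l m) (f m.val) (f (m + 1).val)
  rw [h5]
  exact h3

/-- the loop is determined by its base vertex in a folded graph -/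
theorem loop_unique {ι : Type} (K : PG D.ρ X ι) (hF : K.Folded) (l : XL)
    (u u' : ZMod R → X × ι) (hu : Loop D K l u) (hu' : Loop D K l u') (i : ZMod R)
    (h : u i = u' i) : u = u' := by
  funext m
  have h1 := path_of_loop D K l u hu i (m - i).val
  have h2 := path_of_loop D K l u' hu' i (m - i).val
  rw [ZMod.natCast_zmod_val] at h1 h2
  rw [show i + (m - i) = m by ring] at h1 h2
  rw [← h] at h2
  exact path_unique K hF _ _ _ _ h1 h2

theorem loop_pos {ι : Type} (K : PG D.ρ X ι) (l : XL)
    (u : ZMod R → X × ι) (hu : Loop D K l u) (m : ZMod R) :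
    (u m).1 = (wval D.ρ (rw D.r l 0 m.val))⁻¹ • (u 0).1 := by
  have h1 := path_of_loop D K l u hu 0 m.val
  rw [ZMod.natCast_zmod_val, zero_add] at h1
  exact path_pos K _ _ _ h1

end Crest.Agent.CP
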