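import Crest.Agent.CPPath
import Crest.Agent.CPMass

/-!
# Row 191: small volume lemmas, partition lemma, and the word part of the potential argument
-/

set_option autoImplicit false

namespace Crest.Agent.CP
open MeasureTheory PG

section volume
variable {X : Type} [MeasurableSpace X] {μ : Measure X} {ι κ : Type}

theorem vol_mono {A B : Set (X × ι)} (h : A ⊆ B) : vol μ A ≤ vol μ B := by
  unfold vol
  exact ENNReal.tsum_le_tsum fun i => measure_mono fun x hx => h hx

theorem vol_union_le (A B : Set (X × ι)) : vol μ (A ∪ B) ≤ vol μ A + vol μ B := by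
  unfold vol
  rw [← ENNReal.tsum_add]
  refine ENNReal.tsum_le_tsum fun i => ?_
  have : {x | (x, i) ∈ A ∪ B} = {x | (x, i) ∈ A} ∪ {x | (x, i) ∈ B} := by
    ext x; simp
  rw [this]
  exact measure_union_le _ _

theorem vol_le_diff_add (A B : Set (X × ι)) : vol μ A ≤ vol μ B + vol μ (A \ B) := by
  refine le_trans (vol_mono ?_) (vol_union_le B (A \ B))
  intro x hx
  by_cases h : x ∈ B
  · exact Or.inl h
  · exact Or.inr ⟨hx, h⟩

/-- partition of a set of finite volume into finitely many pieces of small volume -/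
theorem partition_small
    (htiny : ∀ β : ENNReal, 0 < β → ∃ (N : ℕ) (f : X → Fin N), Measurable f ∧
      ∀ k, μ (f ⁻¹' {k}) ≤ β)
    [Countable κ] (U : Set (X × κ)) (mU : MS U) (hU : vol μ U ≠ ⊤) (β : ENNReal) (hβ : 0 < β) :
    ∃ (N : ℕ) (Us : ℕ → Set (X × κ)), (∀ n, MS (Us n)) ∧ (∀ n, vol μ (Us n) ≤ β) ∧
      (∀ n, Us n ⊆ U) ∧ ∀ u ∈ U, ∃ n < N, u ∈ Us n := by
  classical
  -- finite set of indices with small tail
  obtain ⟨F, hF⟩ : ∃ F : Finset κ, ∑' i : {i // i ∉ F}, μ {x | (x, (i : κ)) ∈ U} < β := by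
    have h := ENNReal.tendsto_tsum_compl_atTop_zero (f := fun i => μ {x | (x, i) ∈ U}) hU
    have h2 := (h.eventually (gt_mem_nhds hβ)).exists
    obtain ⟨F, hF⟩ := h2
    exact ⟨F, hF⟩
  obtain ⟨N, f, hf, hfβ⟩ := htiny β hβ
  -- pieces: index 0 = tail; others indexed by (i ∈ F, k : Fin N)
  let e := (Fintype.equivFin ({i // i ∈ F} × Fin N))
  let M := Fintype.card ({i // i ∈ F} × Fin N)
  let Us : ℕ → Set (X × κ) := fun n =>
    if h0 : n = 0 then {u | u ∈ U ∧ u.2 ∉ F}
    else if h : n - 1 < M then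
      {u | u ∈ U ∧ u.2 = ((e.symm ⟨n - 1, h⟩).1 : κ) ∧ f u.1 = (e.symm ⟨n - 1, h⟩).2}
    else ∅
  refine ⟨M + 1, Us, ?_, ?_, ?_, ?_⟩
  · intro n i
    by_cases h0 : n = 0
    · simp only [Us, h0, dif_pos]
      by_cases hi : i ∈ F
      · convert MeasurableSet.empty (α := X) using 1
        ext x; simp [hi]
      · convert mU i using 1
        ext x; simp [hi]
    · by_cases h : n - 1 < M
      · simp only [Us, dif_neg h0, dif_pos h]
        by_cases hi : i = ((e.symm ⟨n - 1, h⟩).1 : κ)
        · have : {x | (x, i) ∈ {u | u ∈ U ∧ u.2 = ((e.symm ⟨n - 1, h⟩).1 : κ) ∧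
              f u.1 = (e.symm ⟨n - 1, h⟩).2}} =
              {x | (x, i) ∈ U} ∩ f ⁻¹' {(e.symm ⟨n - 1, h⟩).2} := by
            ext x; simp [hi]
          rw [this]
          exact (mU i).inter (hf (measurableSet_singleton _))
        · convert MeasurableSet.empty (α := X) using 1
          ext x; simp [hi]
      · simp only [Us, dif_neg h0, dif_neg h]
        simp
  · intro n
    by_cases h0 : n = 0
    · simp only [Us, h0, dif_pos]
      refine le_trans (le_of_eq ?_) hF.le
      unfold vol
      have hc : ∑' i : {i // i ∉ F}, μ {x | (x, (i : κ)) ∈ U}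
          = ∑' i, ({i | i ∉ F} : Set κ).indicator (fun i => μ {x | (x, i) ∈ U}) i :=
        tsum_subtype ({i | i ∉ F} : Set κ) (fun i => μ {x | (x, i) ∈ U})
      rw [hc]
      refine tsum_congr fun i => ?_
      by_cases hi : i ∈ F
      · rw [Set.indicator_of_notMem (by simpa using hi)]
        have : {x | (x, i) ∈ {u : X × κ | u ∈ U ∧ u.2 ∉ F}} = ∅ := by
          ext x; simp [hi]
        rw [this, measure_empty]
      · rw [Set.indicator_of_mem (by simpa using hi)]
        congr 1
        ext x; simp [hi]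
    · by_cases h : n - 1 < M
      · simp only [Us, dif_neg h0, dif_pos h]
        unfold vol
        rw [tsum_eq_single ((e.symm ⟨n - 1, h⟩).1 : κ)]
        · refine le_trans (measure_mono ?_) (hfβ (e.symm ⟨n - 1, h⟩).2)
          intro x hx
          exact hx.2.2
        · intro i hi
          have : {x | (x, i) ∈ {u : X × κ | u ∈ U ∧ u.2 = ((e.symm ⟨n - 1, h⟩).1 : κ) ∧
              f u.1 = (e.symm ⟨n - 1, h⟩).2}} = ∅ := by
            ext x; simp [hi]
          rw [this, measure_empty]
      · simp only [Us, dif_neg h0, dif_neg h]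
        unfold vol
        simp
  · intro n u hu
    by_cases h0 : n = 0
    · simp only [Us, h0, dif_pos] at hu
      exact hu.1
    · by_cases h : n - 1 < M
      · simp only [Us, dif_neg h0, dif_pos h] at hu
        exact hu.1
      · simp only [Us, dif_neg h0, dif_neg h] at hu
        exact absurd hu (by simp)
  · intro u hu
    by_cases hF' : u.2 ∈ F
    · let p : {i // i ∈ F} × Fin N := (⟨u.2, hF'⟩, f u.1)
      refine ⟨(e p : ℕ) + 1, by have := (e p).2; omega, ?_⟩
      have h0 : ¬ ((e p : ℕ) + 1 = 0) := by omega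
      have h : (e p : ℕ) + 1 - 1 < M := by
        have := (e p).2
        show (e p : ℕ) < M
        exact this
      have hU' : Us ((e p : ℕ) + 1) = {u | u ∈ U ∧ u.2 = ((e.symm ⟨(e p : ℕ) + 1 - 1, h⟩).1 : κ) ∧
          f u.1 = (e.symm ⟨(e p : ℕ) + 1 - 1, h⟩).2} := by
        simp only [Us, dif_neg h0, dif_pos h]
      rw [hU']
      have hep : e.symm ⟨(e p : ℕ) + 1 - 1, h⟩ = p := by
        have : (⟨(e p : ℕ) + 1 - 1, h⟩ : Fin M) = e p := by
          apply Fin.ext; simp
        rw [this, Equiv.symm_apply_apply]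
      refine ⟨hu, ?_, ?_⟩
      · rw [hep]
      · rw [hep]
    · refine ⟨0, by omega, ?_⟩
      simp only [Us, dif_pos]
      exact ⟨hu, hF'⟩

end volume

end Crest.Agent.CP
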