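import Crest.Agent.CPPath
import Crest.Agent.CPMass
import Crest.Agent.CPLoop
import Crest.Agent.CPMainA

/-!
# Row 191: volume of derived edges
-/

set_option autoImplicit false

namespace Crest.Agent.CP
open MeasureTheory PG

variable {Γ X : Type} [Group Γ] [Countable Γ] [MeasurableSpace X] [MulAction Γ X]
  {μ : Measure X} [IsProbabilityMeasure μ]
  (hmp : ∀ g : Γ, MeasurePreserving (fun x : X => g • x) μ μ)
  (hfree : ∀ (g : Γ) (x : X), g • x = x → g = 1)
  {j R q : ℕ} [NeZero R] (D : RelData j R q Γ)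

theorem vol_iUnion_le {ι : Type} (A : ℕ → Set (X × ι)) :
    vol μ (⋃ t, A t) ≤ ∑' t, vol μ (A t) := by
  unfold vol
  rw [ENNReal.tsum_comm]
  refine ENNReal.tsum_le_tsum fun i => ?_
  have : {x | (x, i) ∈ ⋃ t, A t} = ⋃ t, {x | (x, i) ∈ A t} := by
    ext x; simp
  rw [this]
  exact measure_iUnion_le _

theorem vol_iUnion_disj {ι : Type} (A : ℕ → Set (X × ι)) (mA : ∀ t, MS (A t))
    (hd : ∀ t t', t ≠ t' → ∀ u, u ∈ A t → u ∉ A t') :
    vol μ (⋃ t, A t) = ∑' t, vol μ (A t) := by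
  unfold vol
  rw [ENNReal.tsum_comm]
  refine tsum_congr fun i => ?_
  have : {x | (x, i) ∈ ⋃ t, A t} = ⋃ t, {x | (x, i) ∈ A t} := by
    ext x; simp
  rw [this]
  refine measure_iUnion ?_ (fun t => mA t i)
  intro t t' htt'
  exact Set.disjoint_left.2 fun x h1 h2 => hd t t' htt' _ h1 h2

include hfree in
theorem smul_eq_meas (g h : Γ) : MeasurableSet {x : X | g • x = h • x} := by
  by_cases hgh : g = h
  · simp [hgh]
  · convert MeasurableSet.empty (α := X) using 1
    ext x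
    simp only [Set.mem_empty_iff_false, iff_false]
    intro hx
    apply hgh
    have h1 : (h⁻¹ * g) • x = x := by
      have : g • x = h • x := hx
      rw [mul_smul, this, inv_smul_smul]
    have h2 := hfree _ _ h1
    rw [inv_mul_eq_one] at h2
    exact h2.symm

include hmp hfree in
theorem step_measD {ρ : AL → Γ} (K : PG ρ X ℕ) (d : AL × Bool) (g g' : Γ) (a b : ℕ) :
    MeasurableSet {x | K.step d (g • x, a) (g' • x, b)} := by
  unfold step
  split_ifs with h
  · have : {x : X | g' • x = (ρ d.1)⁻¹ • g • x ∧ (g • x, (a, b)) ∈ K.E d.1} =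
        {x : X | g' • x = ((ρ d.1)⁻¹ * g) • x} ∩ (fun x : X => g • x) ⁻¹' {x | (x, (a, b)) ∈ K.E d.1} := by
      ext x; simp [mul_smul]
    simp only
    rw [this]
    exact (smul_eq_meas hfree _ _).inter ((hmp g).measurable (K.mE _ _))
  · have : {x : X | g • x = (ρ d.1)⁻¹ • g' • x ∧ (g' • x, (b, a)) ∈ K.E d.1} =
        {x : X | g • x = ((ρ d.1)⁻¹ * g') • x} ∩ (fun x : X => g' • x) ⁻¹' {x | (x, (b, a)) ∈ K.E d.1} := by
      ext x; simp [mul_smul]
    simp only
    rw [this]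
    exact (smul_eq_meas hfree _ _).inter ((hmp g').measurable (K.mE _ _))

include hmp hfree in
theorem path_meas' {ρ : AL → Γ} (K : PG ρ X ℕ) (w : List (AL × Bool)) (g g' : Γ) (a b : ℕ) :
    MeasurableSet {x | K.Path w (g • x, a) (g' • x, b)} := by
  by_cases h : g' = (wval ρ w)⁻¹ * g
  · have h1 := path_meas (fun g => (hmp g).measurable) K w a b
    have h2 := (hmp g).measurable h1
    have : {x | K.Path w (g • x, a) (g' • x, b)} =
        (fun x : X => g • x) ⁻¹' {x | K.Path w (x, a) ((wval ρ w)⁻¹ • x, b)} := by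
      ext x
      show K.Path w (g • x, a) (g' • x, b) ↔ K.Path w (g • x, a) ((wval ρ w)⁻¹ • (g • x), b)
      rw [h, mul_smul]
    rw [this]
    exact h2
  · convert MeasurableSet.empty (α := X) using 1
    ext x
    simp only [Set.mem_empty_iff_false, iff_false]
    intro hx
    apply h
    have hp := path_pos K _ _ _ hx
    simp only at hp
    have h1 : (((wval ρ w)⁻¹ * g)⁻¹ * g') • x = x := by
      rw [mul_smul, hp, ← mul_smul, ← mul_smul, mul_assoc, inv_mul_cancel, one_smul]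
    have h2 := hfree _ _ h1
    rw [inv_mul_eq_one] at h2
    exact h2.symm

/-- `e` is the edge at offset `m` of the loop of the cell `c` -/
def EdgeAt (K : PG D.ρ X ℕ) (c : X × (ℕ × XL)) (m : ZMod R) (e : X × (AL × ℕ × ℕ)) : Prop :=
  ∃ u : ZMod R → X × ℕ, Loop D K c.2.2 u ∧ u 0 = (c.1, c.2.1) ∧
    e = eof (D.r c.2.2 m) (u m) (u (m + 1))

/-- group elements along the loop -/
def gAt (l : XL) (k : ℕ) : Γ := (wval D.ρ (rw D.r l 0 k))⁻¹

theorem edgeAt_iff (K : PG D.ρ X ℕ) (hF : K.Folded) (y : X) (a : ℕ) (l : XL) (m : ZMod R)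
    (e : X × (AL × ℕ × ℕ)) : EdgeAt D K (y, (a, l)) m e ↔
      K.Path (rw D.r l 0 R) (y, a) (y, a) ∧ ∃ b b' : ℕ,
        K.Path (rw D.r l 0 m.val) (y, a) (gAt D l m.val • y, b) ∧
        K.step (D.r l m) (gAt D l m.val • y, b) (gAt D l (m.val + 1) • y, b') ∧
        e = eof (D.r l m) (gAt D l m.val • y, b) (gAt D l (m.val + 1) • y, b') := by
  constructor
  · rintro ⟨u, hu, h0, he⟩
    have hu' : Loop D K l u := hu
    have h0' : u 0 = (y, a) := h0
    have hc := cell_of_loop D K l u hu'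
    rw [h0'] at hc
    refine ⟨hc, (u m).2, (u (m + 1)).2, ?_, ?_, ?_⟩
    all_goals
      have h1 := path_of_loop D K l u hu' 0 m.val
      rw [ZMod.natCast_zmod_val, zero_add, h0'] at h1
      have h2 := path_of_loop D K l u hu' 0 (m.val + 1)
      have h3 : ((m.val + 1 : ℕ) : ZMod R) = m + 1 := by
        push_cast; rw [ZMod.natCast_zmod_val]
      rw [h3, zero_add, h0'] at h2
      have p1 : (u m).1 = gAt D l m.val • y := path_pos K _ _ _ h1
      have p2 : (u (m + 1)).1 = gAt D l (m.val + 1) • y := path_pos K _ _ _ h2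
      rw [← p1]
    · exact h1
    · rw [← p2]
      exact hu' m
    · rw [← p2]
      exact he
  · rintro ⟨hc, b, b', h1, h2, he⟩
    obtain ⟨u, hu, h0⟩ := loop_of_cell D K l (y, a) hc
    refine ⟨u, hu, h0, ?_⟩
    have h3 := path_of_loop D K l u hu 0 m.val
    rw [ZMod.natCast_zmod_val, zero_add, h0] at h3
    have h4 := path_unique K hF _ _ _ _ h3 h1
    have h5 := hu m
    rw [h4] at h5
    have h6 := hF _ _ _ _ h5 h2
    show e = eof (D.r l m) (u m) (u (m + 1))
    rw [h4, h6]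
    exact he

include hmp hfree in
theorem edgeAt_meas (K : PG D.ρ X ℕ) (hF : K.Folded) (g h : Γ) (a : ℕ) (l : XL) (m : ZMod R)
    (k : AL × ℕ × ℕ) : MeasurableSet {x | EdgeAt D K (g • x, (a, l)) m (h • x, k)} := by
  have : {x | EdgeAt D K (g • x, (a, l)) m (h • x, k)} =
      {x | K.Path (rw D.r l 0 R) (g • x, a) (g • x, a)} ∩ ⋃ b : ℕ, ⋃ b' : ℕ,
        ({x | K.Path (rw D.r l 0 m.val) (g • x, a) ((gAt D l m.val * g) • x, b)} ∩
        {x | K.step (D.r l m) ((gAt D l m.val * g) • x, b) ((gAt D l (m.val + 1) * g) • x, b')} ∩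
        {x | (h • x, k) = eof (D.r l m) ((gAt D l m.val * g) • x, b)
          ((gAt D l (m.val + 1) * g) • x, b')}) := by
    ext x
    simp only [Set.mem_inter_iff, Set.mem_iUnion]
    show EdgeAt D K (g • x, (a, l)) m (h • x, k) ↔ _
    rw [edgeAt_iff D K hF]
    simp only [mul_smul]
    constructor
    · rintro ⟨h1, b, b', h2, h3, h4⟩
      exact ⟨h1, b, b', ⟨h2, h3⟩, h4⟩
    · rintro ⟨h1, b, b', ⟨h2, h3⟩, h4⟩
      exact ⟨h1, b, b', h2, h3, h4⟩
  rw [this]
  refine (path_meas' hmp hfree K _ _ _ _ _).inter ?_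
  refine MeasurableSet.iUnion fun b => MeasurableSet.iUnion fun b' => ?_
  refine ((path_meas' hmp hfree K _ _ _ _ _).inter (step_measD hmp hfree K _ _ _ _ _)).inter ?_
  unfold eof
  split_ifs with hd
  · by_cases hk : k = ((D.r l m).1, b, b')
    · have : {x : X | (h • x, k) = ((gAt D l m.val * g) • x, ((D.r l m).1, b, b'))} =
          {x : X | h • x = (gAt D l m.val * g) • x} := by
        ext x; simp [hk]
      simp only
      rw [this]
      exact smul_eq_meas hfree _ _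
    · convert MeasurableSet.empty (α := X) using 1
      ext x; simp [hk]
  · by_cases hk : k = ((D.r l m).1, b', b)
    · have : {x : X | (h • x, k) = ((gAt D l (m.val + 1) * g) • x, ((D.r l m).1, b', b))} =
          {x : X | h • x = (gAt D l (m.val + 1) * g) • x} := by
        ext x; simp [hk]
      simp only
      rw [this]
      exact smul_eq_meas hfree _ _
    · convert MeasurableSet.empty (α := X) using 1
      ext x; simp [hk]

theorem edgeAt_orbit (K : PG D.ρ X ℕ) (hF : K.Folded) (c : X × (ℕ × XL)) (m : ZMod R)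
    (e : X × (AL × ℕ × ℕ)) (h : EdgeAt D K c m e) : ∃ g : Γ, e.1 = g • c.1 := by
  obtain ⟨y, a, l⟩ := c
  rw [edgeAt_iff D K hF] at h
  obtain ⟨_, b, b', _, _, he⟩ := h
  rw [he]
  unfold eof
  split_ifs
  · exact ⟨_, rfl⟩
  · exact ⟨_, rfl⟩


/-- some edge at offset `m` lies in `T` -/
def InAt (K : PG D.ρ X ℕ) (T : Set (X × (AL × ℕ × ℕ))) (c : X × (ℕ × XL)) (m : ZMod R) : Prop :=
  ∃ e, EdgeAt D K c m e ∧ e ∈ T

/-- the run of `R - q` edges starting at offset `i` lies in `T` -/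
def RunIn (K : PG D.ρ X ℕ) (T : Set (X × (AL × ℕ × ℕ))) (c : X × (ℕ × XL)) (i : ZMod R) : Prop :=
  ∀ m : Fin (R - q), InAt D K T c (i + ((m : ℕ) : ZMod R))

/-- some edge of the loop is not in `T` -/
def OutAt (K : PG D.ρ X ℕ) (T : Set (X × (AL × ℕ × ℕ))) (c : X × (ℕ × XL)) : Prop :=
  ∃ m, InAt D K Tᶜ c m

theorem edgeAt_unique (K : PG D.ρ X ℕ) (hF : K.Folded) (c : X × (ℕ × XL)) (m : ZMod R)
    (e e' : X × (AL × ℕ × ℕ)) (h : EdgeAt D K c m e) (h' : EdgeAt D K c m e') : e = e' := by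
  obtain ⟨u, hu, h0, he⟩ := h
  obtain ⟨u', hu', h0', he'⟩ := h'
  have := loop_unique D K hF c.2.2 u u' hu hu' 0 (by rw [h0, h0'])
  subst this
  rw [he, he']

theorem edgeAt_exists (K : PG D.ρ X ℕ) (c : X × (ℕ × XL)) (hc : c ∈ Cell D K) (m : ZMod R) :
    ∃ e, EdgeAt D K c m e := by
  obtain ⟨u, hu, h0⟩ := loop_of_cell D K c.2.2 (c.1, c.2.1) hc
  exact ⟨_, u, hu, h0, rfl⟩

theorem edgeAt_ES (K : PG D.ρ X ℕ) (c : X × (ℕ × XL)) (m : ZMod R)
    (e : X × (AL × ℕ × ℕ)) (h : EdgeAt D K c m e) : e ∈ K.ES := by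
  obtain ⟨u, hu, h0, he⟩ := h
  have := hu m
  rw [he]
  unfold step at this
  unfold eof
  split_ifs at this ⊢ with h1
  · exact this.2
  · exact this.2

include hmp hfree in
theorem inAt_meas (K : PG D.ρ X ℕ) (hF : K.Folded) (T : Set (X × (AL × ℕ × ℕ))) (mT : MS T)
    (a : ℕ) (l : XL) (m : ZMod R) : MeasurableSet {x | InAt D K T (x, (a, l)) m} := by
  have : {x | InAt D K T (x, (a, l)) m} = ⋃ h : Γ, ⋃ k : AL × ℕ × ℕ,
      ({x | EdgeAt D K (x, (a, l)) m (h • x, k)} ∩ (fun x : X => h • x) ⁻¹' {x | (x, k) ∈ T}) := by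
    ext x
    simp only [Set.mem_iUnion]
    constructor
    · rintro ⟨e, h1, h2⟩
      obtain ⟨h, hh⟩ := edgeAt_orbit D K hF _ _ _ h1
      have he : e = (h • x, e.2) := by rw [← hh]
      rw [he] at h1 h2
      exact ⟨h, e.2, h1, h2⟩
    · rintro ⟨h, k, h1, h2⟩
      exact ⟨_, h1, h2⟩
  rw [this]
  refine MeasurableSet.iUnion fun h => MeasurableSet.iUnion fun k => ?_
  refine MeasurableSet.inter ?_ ((hmp h).measurable (mT k))
  have := edgeAt_meas hmp hfree D K hF 1 h a l m k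
  simpa using this

theorem MS.compl' {ι : Type} {T : Set (X × ι)} (h : MS T) : MS Tᶜ := fun i => (h i).compl

include hmp hfree in
theorem runIn_meas (K : PG D.ρ X ℕ) (hF : K.Folded) (T : Set (X × (AL × ℕ × ℕ))) (mT : MS T)
    (a : ℕ) (l : XL) (i : ZMod R) : MeasurableSet {x | RunIn D K T (x, (a, l)) i} := by
  have : {x | RunIn D K T (x, (a, l)) i} = ⋂ m : Fin (R - q),
      {x | InAt D K T (x, (a, l)) (i + ((m : ℕ) : ZMod R))} := by
    ext x; simp [RunIn]
  rw [this]
  exact MeasurableSet.iInter fun m => inAt_meas hmp hfree D K hF T mT a l _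

/-- one derivation stage -/
def nextD (K : PG D.ρ X ℕ) (T : Set (X × (AL × ℕ × ℕ))) : Set (X × (AL × ℕ × ℕ)) :=
  T ∪ {e | ∃ c ∈ Cell D K, (∃ i, RunIn D K T c i) ∧ ∃ m, EdgeAt D K c m e}

include hmp in
theorem cell_measD (K : PG D.ρ X ℕ) : MS (Cell D K) := by
  rintro ⟨i, l⟩
  have h := path_meas (fun g => (hmp g).measurable) K (rw D.r l 0 R) i i
  rw [D.rel l] at h
  simpa [Cell] using h

include hmp hfree in
theorem nextD_meas (K : PG D.ρ X ℕ) (hF : K.Folded) (T : Set (X × (AL × ℕ × ℕ))) (mT : MS T) :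
    MS (nextD D K T) := by
  intro k
  have : {x | (x, k) ∈ nextD D K T} = {x | (x, k) ∈ T} ∪ ⋃ g : Γ, ⋃ a : ℕ, ⋃ l : XL,
      ⋃ i : ZMod R, ⋃ m : ZMod R, ((fun x : X => g • x) ⁻¹' ({x | (x, (a, l)) ∈ Cell D K} ∩
        {x | RunIn D K T (x, (a, l)) i}) ∩ {x | EdgeAt D K (g • x, (a, l)) m ((1 : Γ) • x, k)}) := by
    ext x
    simp only [Set.mem_union, Set.mem_iUnion]
    constructor
    · rintro (h | ⟨c, hc, ⟨i, hi⟩, m, hm⟩)
      · exact Or.inl h
      · right
        obtain ⟨g, hg⟩ := edgeAt_orbit D K hF _ _ _ hm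
        have hx : c.1 = g⁻¹ • x := by
          rw [eq_inv_smul_iff]; exact hg.symm
        obtain ⟨y, a, l⟩ := c
        simp only at hx
        subst hx
        refine ⟨g⁻¹, a, l, i, m, ⟨hc, hi⟩, ?_⟩
        show EdgeAt D K (g⁻¹ • x, (a, l)) m ((1 : Γ) • x, k)
        rw [one_smul]; exact hm
    · rintro (h | ⟨g, a, l, i, m, ⟨h1, h2⟩, h3⟩)
      · exact Or.inl h
      · right
        have h3' : EdgeAt D K (g • x, (a, l)) m ((1 : Γ) • x, k) := h3
        rw [one_smul] at h3'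
        exact ⟨_, h1, ⟨i, h2⟩, m, h3'⟩
  rw [this]
  refine (mT k).union ?_
  refine MeasurableSet.iUnion fun g => MeasurableSet.iUnion fun a => MeasurableSet.iUnion fun l =>
    MeasurableSet.iUnion fun i => MeasurableSet.iUnion fun m => ?_
  refine MeasurableSet.inter ((hmp g).measurable ?_) (edgeAt_meas hmp hfree D K hF _ _ _ _ _ _)
  exact (cell_measD hmp D K (a, l)).inter (runIn_meas hmp hfree D K hF T mT a l i)

/-- cells firing at stage `T` -/
def fireD (K : PG D.ρ X ℕ) (T : Set (X × (AL × ℕ × ℕ))) : Set (X × (ℕ × XL)) :=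
  {c | c ∈ Cell D K ∧ (∃ i, RunIn D K T c i) ∧ ∃ m, InAt D K Tᶜ c m}

include hmp hfree in
theorem fireD_meas (K : PG D.ρ X ℕ) (hF : K.Folded) (T : Set (X × (AL × ℕ × ℕ))) (mT : MS T) :
    MS (fireD D K T) := by
  rintro ⟨a, l⟩
  have : {x | (x, (a, l)) ∈ fireD D K T} = {x | (x, (a, l)) ∈ Cell D K} ∩
      ((⋃ i : ZMod R, {x | RunIn D K T (x, (a, l)) i}) ∩
      ⋃ m : ZMod R, {x | InAt D K Tᶜ (x, (a, l)) m}) := by
    ext x
    simp only [Set.mem_inter_iff, Set.mem_iUnion]
    rfl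
  rw [this]
  exact (cell_measD hmp D K (a, l)).inter
    ((MeasurableSet.iUnion fun i => runIn_meas hmp hfree D K hF T mT a l i).inter
    (MeasurableSet.iUnion fun m => inAt_meas hmp hfree D K hF _ mT.compl' a l m))

include hmp hfree in
theorem stage_vol (K : PG D.ρ X ℕ) (hF : K.Folded) (T : Set (X × (AL × ℕ × ℕ))) (mT : MS T) :
    vol μ (nextD D K T \ T) ≤ q * vol μ (fireD D K T) := by
  have hmn := nextD_meas hmp hfree D K hF T mT
  refine rmt hmp hfree (nextD D K T \ T) (fireD D K T)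
    (fun i => (hmn i).diff (mT i)) (fireD_meas hmp hfree D K hF T mT)
    (fun e c => ∃ m, EdgeAt D K c m e) ?_ q ?_ ?_
  · rintro i ⟨a, l⟩ g
    have : {x | ∃ m, EdgeAt D K (g • x, (a, l)) m (x, i)} =
        ⋃ m : ZMod R, {x | EdgeAt D K (g • x, (a, l)) m ((1 : Γ) • x, i)} := by
      ext x; simp
    rw [this]
    exact MeasurableSet.iUnion fun m => edgeAt_meas hmp hfree D K hF _ _ _ _ _ _
  · rintro e ⟨he, heT⟩
    rcases he with he | ⟨c, hc, hi, m, hm⟩
    · exact absurd he heT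
    · obtain ⟨g, hg⟩ := edgeAt_orbit D K hF _ _ _ hm
      have hx : c.1 = g⁻¹ • e.1 := by
        rw [eq_inv_smul_iff]; exact hg.symm
      refine ⟨g⁻¹, c.2, ?_, ?_⟩
      · rw [← hx]; exact ⟨m, hm⟩
      · rw [← hx]
        exact ⟨hc, hi, m, e, hm, heT⟩
  · classical
    rintro c ⟨hc, ⟨i, hi⟩, _⟩
    have hRq : R - (R - q) ≤ q := by omega
    -- all the new edges sit at the `q` last offsets
    choose E hE using fun m => edgeAt_exists D K c hc m
    have hsub : {e | e ∈ nextD D K T \ T ∧ ∃ m, EdgeAt D K c m e} ⊆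
        ((Finset.univ : Finset (Fin q)).image
          (fun k : Fin q => E (i + ((R - q + (k : ℕ) : ℕ) : ZMod R))) : Finset _) := by
      rintro e ⟨⟨_, heT⟩, m, hm⟩
      have hk := ZMod.val_lt (m - i)
      have hmi : m = i + (((m - i).val : ℕ) : ZMod R) := by
        rw [ZMod.natCast_zmod_val]; ring
      by_cases hlt : (m - i).val < R - q
      · exfalso
        obtain ⟨e', h1, h2⟩ := hi ⟨(m - i).val, hlt⟩
        apply heT
        have h3 : EdgeAt D K c m e' := by
          have := h1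
          simp only at this
          rw [← hmi] at this
          exact this
        rw [edgeAt_unique D K hF c m e e' hm h3]
        exact h2
      · rw [Finset.mem_coe, Finset.mem_image]
        refine ⟨⟨(m - i).val - (R - q), by omega⟩, Finset.mem_univ _, ?_⟩
        have h4 : R - q + ((m - i).val - (R - q)) = (m - i).val := by omega
        simp only [h4]
        rw [← hmi]
        exact edgeAt_unique D K hF c m _ _ (hE m) hm
    refine (Set.encard_le_encard hsub).trans ?_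
    rw [Set.encard_coe_eq_coe_finsetCard]
    have := Finset.card_image_le (s := (Finset.univ : Finset (Fin q)))
      (f := fun k : Fin q => E (i + ((R - q + (k : ℕ) : ℕ) : ZMod R)))
    rw [Finset.card_univ, Fintype.card_fin] at this
    exact_mod_cast this

include hmp hfree in
theorem der_vol (K : PG D.ρ X ℕ) (hF : K.Folded) (hfin : vol μ K.V ≠ ⊤)
    (S0 : Set (X × (AL × ℕ × ℕ))) (mS : MS S0) (hS : S0 ⊆ K.ES) (hd : Derives D K S0) :
    vol μ K.ES ≤ vol μ S0 + q * vol μ (Cell D K) := by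
  let T : ℕ → Set (X × (AL × ℕ × ℕ)) := fun t => Nat.rec S0 (fun _ A => nextD D K A) t
  have hT0 : T 0 = S0 := rfl
  have hTs : ∀ t, T (t + 1) = nextD D K (T t) := fun t => rfl
  have mT : ∀ t, MS (T t) := by
    intro t
    induction t with
    | zero => exact mS
    | succ t ih => rw [hTs]; exact nextD_meas hmp hfree D K hF _ ih
  have hmono1 : ∀ t, T t ⊆ T (t + 1) := by
    intro t; rw [hTs]; exact Set.subset_union_left
  have hmono : ∀ t t', t ≤ t' → T t ⊆ T t' := by
    intro t t' h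
    induction h with
    | refl => exact le_refl _
    | step _ ih => exact ih.trans (hmono1 _)
  -- all edges are in the union
  have hall : K.ES ⊆ ⋃ t, T t := by
    refine hd _ (Set.subset_iUnion T 0) ?_
    intro l u hu i hrun m
    have hex : ∀ m' : ℕ, m' < R - q → ∃ t, eof (D.r l (i + (m' : ZMod R)))
        (u (i + (m' : ZMod R))) (u (i + (m' : ZMod R) + 1)) ∈ T t := by
      intro m' hm'
      exact Set.mem_iUnion.1 (hrun m' hm')
    choose! τ hτ using hex
    obtain ⟨t, ht⟩ : ∃ t, ∀ m' < R - q, τ m' ≤ t :=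
      ⟨(Finset.range (R - q)).sup τ, fun m' hm' => Finset.le_sup (Finset.mem_range.2 hm')⟩
    refine Set.mem_iUnion.2 ⟨t + 1, ?_⟩
    rw [hTs]
    right
    refine ⟨((u 0).1, ((u 0).2, l)), cell_of_loop D K l u hu, ⟨i, ?_⟩, m, u, hu, rfl, rfl⟩
    intro m'
    refine ⟨_, ⟨u, hu, rfl, rfl⟩, ?_⟩
    exact hmono _ _ (ht m' m'.2) (hτ m' m'.2)
  have hsub : K.ES ⊆ S0 ∪ ⋃ t, (T (t + 1) \ T t) := by
    intro e he
    obtain ⟨t, ht⟩ := Set.mem_iUnion.1 (hall he)
    obtain ⟨n0, hfs, hfm⟩ : ∃ n, e ∈ T n ∧ ∀ m < n, e ∉ T m := by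
      by_contra hcon
      push Not at hcon
      have : ∀ n, e ∉ T n := by
        intro n
        induction n using Nat.strong_induction_on with
        | _ n ih =>
          intro h
          obtain ⟨m, hm, hm'⟩ := hcon n h
          exact ih m hm hm'
      exact this t ht
    rcases n0 with _ | n
    · left
      exact hfs
    · right
      exact Set.mem_iUnion.2 ⟨n, hfs, hfm n (by omega)⟩
  have hdisj : ∀ t t', t ≠ t' → ∀ c, c ∈ fireD D K (T t) → c ∉ fireD D K (T t') := by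
    have key : ∀ t t', t < t' → ∀ c, c ∈ fireD D K (T t) → c ∉ fireD D K (T t') := by
      rintro t t' htt' c ⟨hc, hi, _⟩ ⟨_, _, m, e, he, heT⟩
      apply heT
      refine hmono (t + 1) t' htt' ?_
      rw [hTs]
      right
      exact ⟨c, hc, hi, m, he⟩
    intro t t' htt' c h1 h2
    rcases Nat.lt_or_gt_of_ne htt' with h | h
    · exact key t t' h c h1 h2
    · exact key t' t h c h2 h1
  calc vol μ K.ES ≤ vol μ (S0 ∪ ⋃ t, (T (t + 1) \ T t)) := vol_mono hsub
    _ ≤ vol μ S0 + vol μ (⋃ t, (T (t + 1) \ T t)) := vol_union_le _ _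
    _ ≤ vol μ S0 + ∑' t, vol μ (T (t + 1) \ T t) := by gcongr; exact vol_iUnion_le _
    _ ≤ vol μ S0 + ∑' t, q * vol μ (fireD D K (T t)) := by
        gcongr with t
        exact stage_vol hmp hfree D K hF (T t) (mT t)
    _ = vol μ S0 + q * vol μ (⋃ t, fireD D K (T t)) := by
        rw [ENNReal.tsum_mul_left, vol_iUnion_disj _ (fun t => fireD_meas hmp hfree D K hF _ (mT t))
          hdisj]
    _ ≤ vol μ S0 + q * vol μ (Cell D K) := by
        gcongr
        refine vol_mono ?_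
        intro c hc
        obtain ⟨t, ht⟩ := Set.mem_iUnion.1 hc
        exact ht.1


include hmp hfree in
/-- volume of the image of the edges -/
theorem imE_vol {ρ : AL → Γ} (K K' : PG ρ X ℕ) (f : X × ℕ → ℕ) (hf : Mor K K' f) :
    MS (imE K f) ∧ imE K f ⊆ K'.ES ∧ vol μ (imE K f) ≤ vol μ K.ES := by
  have hmf : ∀ (g : Γ) (k b : ℕ), MeasurableSet {x : X | b = f (g • x, k)} := by
    intro g k b
    have := (hmp g).measurable (hf.meas k b)
    have h2 : {x : X | b = f (g • x, k)} = (fun x : X => g • x) ⁻¹' {x | f (x, k) = b} := by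
      ext x; exact eq_comm
    rw [h2]
    exact this
  have hpiece : ∀ (s : AL) (a b i k : ℕ), MeasurableSet ({x | (x, (i, k)) ∈ K.E s} ∩
      ({x | a = f (x, i)} ∩ {x | b = f ((ρ s)⁻¹ • x, k)})) := by
    intro s a b i k
    refine (K.mE s _).inter (MeasurableSet.inter ?_ (hmf _ _ _))
    have := hmf 1 i a
    simpa using this
  have hslice : ∀ (s : AL) (a b : ℕ), {x | (x, (s, a, b)) ∈ imE K f} =
      ⋃ i : ℕ, ⋃ k : ℕ, ({x | (x, (i, k)) ∈ K.E s} ∩
      ({x | a = f (x, i)} ∩ {x | b = f ((ρ s)⁻¹ • x, k)})) := by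
    intro s a b
    ext x
    simp only [Set.mem_iUnion]
    constructor
    · rintro ⟨i, k, h1, h2, h3⟩
      exact ⟨i, k, h1, h2, h3⟩
    · rintro ⟨i, k, h1, h2, h3⟩
      exact ⟨i, k, h1, h2, h3⟩
  refine ⟨?_, ?_, ?_⟩
  · rintro ⟨s, a, b⟩
    rw [hslice]
    exact MeasurableSet.iUnion fun i => MeasurableSet.iUnion fun k => hpiece s a b i k
  · rintro ⟨x, s, a, b⟩ ⟨i, k, h1, h2, h3⟩
    simp only at h1 h2 h3
    have := hf.E s x i k h1
    rw [← h2, ← h3] at this
    exact this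
  · unfold vol
    rw [ENNReal.tsum_prod', ENNReal.tsum_prod']
    refine ENNReal.tsum_le_tsum fun s => ?_
    have hES : ∀ ik : ℕ × ℕ, {x | (x, (s, ik)) ∈ K.ES} = {x | (x, (ik.1, ik.2)) ∈ K.E s} := by
      intro ik; rfl
    calc ∑' ab : ℕ × ℕ, μ {x | (x, (s, ab)) ∈ imE K f}
        ≤ ∑' ab : ℕ × ℕ, ∑' ik : ℕ × ℕ, μ ({x | (x, (ik.1, ik.2)) ∈ K.E s} ∩
          ({x | ab.1 = f (x, ik.1)} ∩ {x | ab.2 = f ((ρ s)⁻¹ • x, ik.2)})) := by
          refine ENNReal.tsum_le_tsum fun ab => ?_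
          have h := hslice s ab.1 ab.2
          have h' : {x | (x, (s, ab)) ∈ imE K f} = ⋃ ik : ℕ × ℕ,
              ({x | (x, (ik.1, ik.2)) ∈ K.E s} ∩
              ({x | ab.1 = f (x, ik.1)} ∩ {x | ab.2 = f ((ρ s)⁻¹ • x, ik.2)})) := by
            show {x | (x, (s, ab.1, ab.2)) ∈ imE K f} = _
            rw [h]
            ext x
            simp only [Set.mem_iUnion]
            constructor
            · rintro ⟨i, k, h⟩; exact ⟨(i, k), h⟩
            · rintro ⟨ik, h⟩; exact ⟨ik.1, ik.2, h⟩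
          rw [h']
          exact measure_iUnion_le _
      _ = ∑' ik : ℕ × ℕ, ∑' ab : ℕ × ℕ, μ ({x | (x, (ik.1, ik.2)) ∈ K.E s} ∩
          ({x | ab.1 = f (x, ik.1)} ∩ {x | ab.2 = f ((ρ s)⁻¹ • x, ik.2)})) := ENNReal.tsum_comm
      _ = ∑' ik : ℕ × ℕ, μ {x | (x, (s, ik)) ∈ K.ES} := by
          refine tsum_congr fun ik => ?_
          rw [← measure_iUnion]
          · congr 1
            ext x
            simp only [Set.mem_iUnion]
            constructor
            · rintro ⟨ab, h, _⟩; exact h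
            · intro h
              exact ⟨(f (x, ik.1), f ((ρ s)⁻¹ • x, ik.2)), h, rfl, rfl⟩
          · intro ab ab' hne
            refine Set.disjoint_left.2 ?_
            rintro x ⟨_, h1, h2⟩ ⟨_, h3, h4⟩
            apply hne
            have h1' : ab.1 = f (x, ik.1) := h1
            have h2' : ab.2 = f ((ρ s)⁻¹ • x, ik.2) := h2
            have h3' : ab'.1 = f (x, ik.1) := h3
            have h4' : ab'.2 = f ((ρ s)⁻¹ • x, ik.2) := h4
            exact Prod.ext (by rw [h1', h3']) (by rw [h2', h4'])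
          · intro ab
            exact hpiece s ab.1 ab.2 ik.1 ik.2

end Crest.Agent.CP
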