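import Crest.Agent.CPPath
import Crest.Agent.CPMass
import Crest.Agent.CPMainA
import Crest.Agent.CPMainB

set_option autoImplicit false

namespace Crest.Agent.CP
open MeasureTheory PG

namespace Excess

variable {Γ X : Type} [Group Γ] [Countable Γ] [MeasurableSpace X] [MulAction Γ X]
  {μ : Measure X}

theorem vol_inter_add_diff {ι : Type} (A B : Set (X × ι)) (mB : MS B) :
    vol μ (A ∩ B) + vol μ (A \ B) = vol μ A := by
  unfold vol
  rw [← ENNReal.tsum_add]
  refine tsum_congr fun i => ?_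
  exact measure_inter_add_diff {x | (x, i) ∈ A} (mB i)

/-- leafwise distance to `Y` -/
noncomputable def dY {ρ : AL → Γ} (K : PG ρ X ℕ) (Y : Set (X × ℕ)) (v : X × ℕ) : ℕ :=
  sInf {n | ∃ ω : List (AL × Bool), ω.length = n ∧ ∃ y ∈ Y, K.Path ω v y}

theorem dY_le {ρ : AL → Γ} {K : PG ρ X ℕ} {Y : Set (X × ℕ)} {v y : X × ℕ}
    {ω : List (AL × Bool)} (hy : y ∈ Y) (h : K.Path ω v y) : dY K Y v ≤ ω.length :=
  Nat.sInf_le ⟨ω, rfl, y, hy, h⟩

theorem dY_spec {ρ : AL → Γ} {K : PG ρ X ℕ} {Y : Set (X × ℕ)} {v : X × ℕ}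
    (h : ∃ (ω : List (AL × Bool)) (y : X × ℕ), y ∈ Y ∧ K.Path ω v y) :
    ∃ ω : List (AL × Bool), ω.length = dY K Y v ∧ ∃ y ∈ Y, K.Path ω v y := by
  obtain ⟨ω, y, hy, hp⟩ := h
  exact Nat.sInf_mem (s := {n | ∃ ω : List (AL × Bool), ω.length = n ∧ ∃ y ∈ Y, K.Path ω v y})
    ⟨ω.length, ω, rfl, y, hy, hp⟩

theorem reach_meas (hm : ∀ g : Γ, Measurable (fun x : X => g • x)) {ρ : AL → Γ} (K : PG ρ X ℕ)
    (Y : Set (X × ℕ)) (mY : MS Y) (i : ℕ) (ω : List (AL × Bool)) :
    MeasurableSet {x | ∃ y ∈ Y, K.Path ω (x, i) y} := by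
  have : {x | ∃ y ∈ Y, K.Path ω (x, i) y} = ⋃ k : ℕ,
      ({x | K.Path ω (x, i) ((wval ρ ω)⁻¹ • x, k)} ∩
        (fun x : X => (wval ρ ω)⁻¹ • x) ⁻¹' {x | (x, k) ∈ Y}) := by
    ext x
    simp only [Set.mem_iUnion]
    constructor
    · rintro ⟨y, hy, hp⟩
      have h1 := path_pos K _ _ _ hp
      have h2 : y = ((wval ρ ω)⁻¹ • x, y.2) := by rw [← h1]
      rw [h2] at hy hp
      exact ⟨y.2, hp, hy⟩
    · rintro ⟨k, hp, hy⟩
      exact ⟨_, hy, hp⟩
  rw [this]
  exact MeasurableSet.iUnion fun k => (path_meas hm K ω i k).inter (hm _ (mY k))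

theorem dY_meas (hm : ∀ g : Γ, Measurable (fun x : X => g • x)) {ρ : AL → Γ} (K : PG ρ X ℕ)
    (Y : Set (X × ℕ)) (mY : MS Y) (i : ℕ) : Measurable fun x => dY K Y (x, i) := by
  have hR : ∀ n : ℕ, MeasurableSet {x | ∃ ω : List (AL × Bool), ω.length ≤ n ∧
      ∃ y ∈ Y, K.Path ω (x, i) y} := by
    intro n
    have : {x | ∃ ω : List (AL × Bool), ω.length ≤ n ∧ ∃ y ∈ Y, K.Path ω (x, i) y} =
        ⋃ ω : {ω : List (AL × Bool) // ω.length ≤ n}, {x | ∃ y ∈ Y, K.Path ω.1 (x, i) y} := by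
      ext x
      simp only [Set.mem_iUnion]
      constructor
      · rintro ⟨ω, h1, h2⟩; exact ⟨⟨ω, h1⟩, h2⟩
      · rintro ⟨⟨ω, h1⟩, h2⟩; exact ⟨ω, h1, h2⟩
    rw [this]
    exact MeasurableSet.iUnion fun ω => reach_meas hm K Y mY i ω.1
  have hA : MeasurableSet {x | ∃ ω : List (AL × Bool), ∃ y ∈ Y, K.Path ω (x, i) y} := by
    have : {x | ∃ ω : List (AL × Bool), ∃ y ∈ Y, K.Path ω (x, i) y} =
        ⋃ ω : List (AL × Bool), {x | ∃ y ∈ Y, K.Path ω (x, i) y} := by
      ext x; simp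
    rw [this]
    exact MeasurableSet.iUnion fun ω => reach_meas hm K Y mY i ω
  have hle : ∀ n : ℕ, MeasurableSet {x | dY K Y (x, i) ≤ n} := by
    intro n
    have : {x | dY K Y (x, i) ≤ n} = {x | ∃ ω : List (AL × Bool), ω.length ≤ n ∧
      ∃ y ∈ Y, K.Path ω (x, i) y} ∪ {x | ∃ ω : List (AL × Bool), ∃ y ∈ Y, K.Path ω (x, i) y}ᶜ := by
      ext x
      constructor
      · intro h
        by_cases hx : ∃ ω : List (AL × Bool), ∃ y ∈ Y, K.Path ω (x, i) y
        · left
          obtain ⟨ω, y, hy, hp⟩ := hx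
          obtain ⟨ω', h1, h2⟩ := dY_spec ⟨ω, y, hy, hp⟩
          exact ⟨ω', by rw [h1]; exact h, h2⟩
        · right; exact hx
      · rintro (⟨ω, h1, y, hy, hp⟩ | h)
        · exact (dY_le hy hp).trans h1
        · have : {n | ∃ ω : List (AL × Bool), ω.length = n ∧ ∃ y ∈ Y, K.Path ω (x, i) y} = ∅ := by
            ext n
            simp only [Set.mem_empty_iff_false, iff_false]
            rintro ⟨ω, _, hy⟩
            exact h ⟨ω, hy⟩
          show sInf {n | ∃ ω : List (AL × Bool), ω.length = n ∧ ∃ y ∈ Y, K.Path ω (x, i) y} ≤ n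
          rw [this, Nat.sInf_empty]
          exact Nat.zero_le _
    rw [this]
    exact (hR n).union hA.compl
  refine measurable_to_nat fun x => ?_
  by_cases h0 : dY K Y (x, i) = 0
  · have : (fun x => dY K Y (x, i)) ⁻¹' {dY K Y (x, i)} = {y | dY K Y (y, i) ≤ 0} := by
      ext y
      simp [h0]
    rw [this]; exact hle 0
  · have : (fun x => dY K Y (x, i)) ⁻¹' {dY K Y (x, i)} =
        {y | dY K Y (y, i) ≤ dY K Y (x, i)} \ {y | dY K Y (y, i) ≤ dY K Y (x, i) - 1} := by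
      ext y
      constructor
      · intro h
        have h' : dY K Y (y, i) = dY K Y (x, i) := h
        refine ⟨h'.le, fun h2 => ?_⟩
        have h2' : dY K Y (y, i) ≤ dY K Y (x, i) - 1 := h2
        omega
      · rintro ⟨h1, h2⟩
        have h1' : dY K Y (y, i) ≤ dY K Y (x, i) := h1
        have h2' : ¬ dY K Y (y, i) ≤ dY K Y (x, i) - 1 := h2
        show dY K Y (y, i) = dY K Y (x, i)
        omega
    rw [this]; exact (hle _).diff (hle _)

/-- thick vertices of an orbit are connected -/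
theorem thick_conn {ρ : AL → Γ} (hgen : Subgroup.closure (Set.range ρ) = ⊤) (K : PG ρ X ℕ)
    (hBG : K.BG) (g : Γ) : ∀ x : X, ∃ ω : List (AL × Bool), K.Path ω (x, K.o) (g • x, K.o) := by
  obtain ⟨L, h1, _⟩ := hBG
  have hg : g ∈ Subgroup.closure (Set.range ρ) := by rw [hgen]; trivial
  induction hg using Subgroup.closure_induction with
  | mem g h =>
    obtain ⟨s, rfl⟩ := h
    intro x
    obtain ⟨ω, _, h⟩ := h1 (ρ s • x) s
    rw [inv_smul_smul] at h
    exact ⟨winv ω, (path_winv K _ _ _).2 h⟩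
  | one =>
    intro x
    exact ⟨[], K.thick x, by rw [one_smul]⟩
  | mul g h _ _ ih1 ih2 =>
    intro x
    obtain ⟨ω1, h1⟩ := ih2 x
    obtain ⟨ω2, h2⟩ := ih1 (h • x)
    refine ⟨ω1 ++ ω2, ?_⟩
    rw [path_append]
    refine ⟨_, h1, ?_⟩
    rw [mul_smul]
    exact h2
  | inv g _ ih =>
    intro x
    obtain ⟨ω, h⟩ := ih (g⁻¹ • x)
    rw [smul_inv_smul] at h
    exact ⟨winv ω, (path_winv K _ _ _).2 h⟩

end Excess

variable {Γ X : Type} [Group Γ] [Countable Γ] [MeasurableSpace X] [MulAction Γ X]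
  {μ : Measure X} [IsProbabilityMeasure μ]
  (hmp : ∀ g : Γ, MeasurePreserving (fun x : X => g • x) μ μ)
  (hfree : ∀ (g : Γ) (x : X), g • x = x → g = 1)
  {j R q : ℕ} [NeZero R] (D : RelData j R q Γ)

include hmp hfree

/- ## M9 (CPExcess.lean) -/
theorem ergodic_of_gap (x : Fin 100 → Γ) (hG : Gap μ x) (S : Set X) (hS : MeasurableSet S)
    (hinv : ∀ i, ∀ y, x i • y ∈ S ↔ y ∈ S) : μ S = 0 ∨ μ S = 1 := by
  have key : ∀ T : Set X, MeasurableSet T → (∀ i, ∀ y, x i • y ∈ T ↔ y ∈ T) →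
      (μ T).toReal = 0 ∨ 4 / 5 ≤ (μ T).toReal := by
    intro T hT hi
    have h := hG T T hT hT
    have h1 : ∀ i, T ∩ {y | x i • y ∈ T} = T := by
      intro i
      ext y
      simp only [Set.mem_inter_iff, Set.mem_setOf_eq]
      rw [hi i y]
      tauto
    simp only [h1, Finset.sum_const, Finset.card_univ, Fintype.card_fin, nsmul_eq_mul] at h
    have h0 : 0 ≤ (μ T).toReal := ENNReal.toReal_nonneg
    rw [Real.sqrt_mul_self h0] at h
    push_cast at h
    rcases h0.eq_or_lt with h2 | h2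
    · left; exact h2.symm
    · right
      by_contra h3
      push Not at h3
      nlinarith
  have h1 := key S hS hinv
  have h2 := key Sᶜ hS.compl (fun i y => not_congr (hinv i y))
  have h3 : (μ S).toReal + (μ Sᶜ).toReal = 1 := by
    rw [← ENNReal.toReal_add (measure_ne_top _ _) (measure_ne_top _ _), measure_add_measure_compl hS]
    simp
  rcases h1 with h1 | h1
  · left
    exact (ENNReal.toReal_eq_zero_iff _).1 h1 |>.resolve_right (measure_ne_top _ _)
  · right
    rcases h2 with h2 | h2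
    · have h4 : (μ S).toReal = 1 := by linarith
      rw [← ENNReal.toReal_eq_one_iff]
      exact h4
    · exfalso; linarith

/-- edges inside `Y` -/
theorem subset_excess {ρ : AL → Γ} (hgen : Subgroup.closure (Set.range ρ) = ⊤)
    (hG : Gap μ (fun i => (ρ (some (some i)))⁻¹)) (K : PG ρ X ℕ) (hBG : K.BG)
    (hfin : vol μ K.V ≠ ⊤) (hfin' : vol μ K.ES ≠ ⊤)
    (Y : Set (X × ℕ)) (mY : MS Y) (hY : Y ⊆ K.V) (hpos : vol μ Y ≠ 0) :
    vol μ {e | e ∈ K.ES ∧ (e.1, e.2.2.1) ∈ Y ∧ ((ρ e.2.1)⁻¹ • e.1, e.2.2.2) ∈ Y} + vol μ K.V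
      ≤ vol μ Y + vol μ K.ES := by
  have hm : ∀ g : Γ, Measurable (fun x : X => g • x) := fun g => (hmp g).measurable
  -- the set of leaves meeting `Y`
  let G : Set X := {x | ∃ (g : Γ) (i : ℕ), (g • x, i) ∈ Y}
  have mG : MeasurableSet G := by
    have : G = ⋃ g : Γ, ⋃ i : ℕ, (fun x : X => g • x) ⁻¹' {x | (x, i) ∈ Y} := by
      ext x; simp [G]
    rw [this]
    exact MeasurableSet.iUnion fun g => MeasurableSet.iUnion fun i => hm g (mY i)
  have hGinv : ∀ (h : Γ) (y : X), h • y ∈ G ↔ y ∈ G := by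
    intro h y
    constructor
    · rintro ⟨g, i, hg⟩
      exact ⟨g * h, i, by rw [mul_smul]; exact hg⟩
    · rintro ⟨g, i, hg⟩
      exact ⟨g * h⁻¹, i, by rw [mul_smul, inv_smul_smul]; exact hg⟩
  have hGne : μ G ≠ 0 := by
    intro h0
    apply hpos
    unfold vol
    rw [ENNReal.tsum_eq_zero]
    intro i
    refine measure_mono_null ?_ h0
    intro x hx
    exact ⟨1, i, by rw [one_smul]; exact hx⟩
  have hG1 : μ G = 1 := by
    rcases ergodic_of_gap hmp hfree _ hG G mG (fun i y => hGinv _ y) with h | h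
    · exact absurd h hGne
    · exact h
  have hN : μ Gᶜ = 0 := by
    rw [measure_compl mG (measure_ne_top _ _), hG1]; simp
  -- inside edges
  set I := {e : X × (AL × ℕ × ℕ) | e ∈ K.ES ∧ (e.1, e.2.2.1) ∈ Y ∧
    ((ρ e.2.1)⁻¹ • e.1, e.2.2.2) ∈ Y} with hI
  have mES : MS K.ES := by
    rintro ⟨s, a, b⟩
    exact K.mE s (a, b)
  have mI : MS I := by
    rintro ⟨s, a, b⟩
    have : {x | (x, (s, a, b)) ∈ I} = {x | (x, (a, b)) ∈ K.E s} ∩ ({x | (x, a) ∈ Y} ∩
        (fun x : X => (ρ s)⁻¹ • x) ⁻¹' {x | (x, b) ∈ Y}) := rfl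
    rw [this]
    exact (K.mE s _).inter ((mY a).inter (hm _ (mY b)))
  have hdist := Excess.dY_meas hm K Y mY
  have hrm : vol μ (K.V \ Y) ≤ (1 : ℕ) * vol μ (K.ES \ I) := by
    refine rmt_ae hmp hfree (K.V \ Y) (K.ES \ I) (fun i => (K.mV i).diff (mY i))
      (fun i => (mES i).diff (mI i))
      (fun v e => e ∈ K.ES ∧ ((v = (e.1, e.2.2.1) ∧
          Excess.dY K Y ((ρ e.2.1)⁻¹ • e.1, e.2.2.2) < Excess.dY K Y v) ∨
        (v = ((ρ e.2.1)⁻¹ • e.1, e.2.2.2) ∧
          Excess.dY K Y (e.1, e.2.2.1) < Excess.dY K Y v))) ?_ 1 Gᶜ hN ?_ ?_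
    · rintro i ⟨s, a, b⟩ g
      have hlt : ∀ (h h' : Γ) (k k' : ℕ), MeasurableSet {x : X | Excess.dY K Y (h • x, k) <
          Excess.dY K Y (h' • x, k')} := fun h h' k k' =>
        measurableSet_lt ((hdist k).comp (hm h)) ((hdist k').comp (hm h'))
      have heq : ∀ h : Γ, MeasurableSet {x : X | x = h • x} := by
        intro h
        by_cases h1 : h = 1
        · simp [h1]
        · convert MeasurableSet.empty (α := X) using 1
          ext x
          simp only [Set.mem_empty_iff_false, iff_false]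
          intro hx
          exact h1 (hfree h x hx.symm)
      have : {x | (fun (v : X × ℕ) (e : X × (AL × ℕ × ℕ)) => e ∈ K.ES ∧ ((v = (e.1, e.2.2.1) ∧
          Excess.dY K Y ((ρ e.2.1)⁻¹ • e.1, e.2.2.2) < Excess.dY K Y v) ∨
        (v = ((ρ e.2.1)⁻¹ • e.1, e.2.2.2) ∧
          Excess.dY K Y (e.1, e.2.2.1) < Excess.dY K Y v))) (x, i) (g • x, (s, a, b))} =
          (fun x : X => g • x) ⁻¹' {x | (x, (a, b)) ∈ K.E s} ∩
          ((({x : X | x = g • x} ∩ {x : X | i = a}) ∩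
            {x : X | Excess.dY K Y (((ρ s)⁻¹ * g) • x, b) < Excess.dY K Y ((1 : Γ) • x, i)}) ∪
          (({x : X | x = ((ρ s)⁻¹ * g) • x} ∩ {x : X | i = b}) ∩
            {x : X | Excess.dY K Y (g • x, a) < Excess.dY K Y ((1 : Γ) • x, i)})) := by
        ext x
        simp only [Set.mem_setOf_eq, Set.mem_inter_iff, Set.mem_union, Set.mem_preimage,
          Prod.mk.injEq, mul_smul, one_smul]
        rfl
      rw [this]
      refine (hm g (K.mE s _)).inter (MeasurableSet.union ?_ ?_)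
      · exact ((heq _).inter (MeasurableSet.const _)).inter (hlt _ _ _ _)
      · exact ((heq _).inter (MeasurableSet.const _)).inter (hlt _ _ _ _)
    · rintro ⟨x, i⟩ ⟨hv, hvY⟩ hx
      have hxG : x ∈ G := by simpa using hx
      -- a path to `Y`
      have hreach : ∃ (ω : List (AL × Bool)) (y : X × ℕ), y ∈ Y ∧ K.Path ω (x, i) y := by
        obtain ⟨g, k, hk⟩ := hxG
        obtain ⟨L, h1, h2⟩ := id hBG
        obtain ⟨ω1, y1, _, hp1⟩ := h2 (x, i) hv
        obtain ⟨ω2, y2, _, hp2⟩ := h2 (g • x, k) (hY hk)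
        have e1 := path_pos K _ _ _ hp1
        have e2 := path_pos K _ _ _ hp2
        simp only at e1 e2
        have e3 : y2 = ((wval ρ ω2)⁻¹ * g * wval ρ ω1) • y1 := by
          rw [e2, e1, mul_smul, mul_smul, smul_inv_smul]
        obtain ⟨ω3, hp3⟩ := Excess.thick_conn hgen K hBG ((wval ρ ω2)⁻¹ * g * wval ρ ω1) y1
        rw [← e3] at hp3
        refine ⟨ω1 ++ (ω3 ++ winv ω2), (g • x, k), hk, ?_⟩
        rw [path_append]
        refine ⟨_, hp1, ?_⟩
        rw [path_append]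
        exact ⟨_, hp3, (path_winv K _ _ _).2 hp2⟩
      obtain ⟨ω, hlen, y, hy, hp⟩ := Excess.dY_spec hreach
      rcases ω with _ | ⟨d, ω⟩
      · exact absurd (by rw [hp.2]; exact hy) hvY
      · obtain ⟨w, hw1, hw2⟩ := hp
        have hdw : Excess.dY K Y w < Excess.dY K Y (x, i) := by
          have := Excess.dY_le hy hw2
          rw [← hlen]
          simp only [List.length_cons]
          omega
        unfold step at hw1
        split_ifs at hw1 with hd
        · have hw1' : w.1 = (ρ d.1)⁻¹ • x := hw1.1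
          have hw2' : (x, (i, w.2)) ∈ K.E d.1 := hw1.2
          have hwe : ((ρ d.1)⁻¹ • x, w.2) = w := by rw [← hw1']
          refine ⟨1, (d.1, i, w.2), ?_, ?_, ?_⟩
          · simp only [one_smul]
            refine ⟨hw2', Or.inl ⟨trivial, ?_⟩⟩
            rw [hwe]; exact hdw
          · simp only [one_smul]; exact hw2'
          · rintro ⟨_, h2, _⟩
            simp only [one_smul] at h2
            exact hvY h2
        · have hw1' : x = (ρ d.1)⁻¹ • w.1 := hw1.1
          have hw2' : (w.1, (w.2, i)) ∈ K.E d.1 := hw1.2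
          have hwx : ρ d.1 • x = w.1 := by rw [hw1', smul_inv_smul]
          refine ⟨ρ d.1, (d.1, w.2, i), ?_, ?_, ?_⟩
          · simp only [hwx]
            refine ⟨hw2', Or.inr ⟨?_, hdw⟩⟩
            rw [← hw1']
          · simp only [hwx]; exact hw2'
          · rintro ⟨_, _, h3⟩
            simp only [hwx] at h3
            rw [← hw1'] at h3
            exact hvY h3
    · intro e he
      refine Set.encard_le_one_iff.2 ?_
      rintro v v' ⟨_, _, hv⟩ ⟨_, _, hv'⟩
      rcases hv with ⟨h1, h2⟩ | ⟨h1, h2⟩ <;> rcases hv' with ⟨h3, h4⟩ | ⟨h3, h4⟩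
      · rw [h1, h3]
      · exfalso
        rw [← h3] at h2
        rw [← h1] at h4
        omega
      · exfalso
        rw [← h3] at h2
        rw [← h1] at h4
        omega
      · rw [h1, h3]
  have hVY : vol μ Y + vol μ (K.V \ Y) = vol μ K.V := by
    have := Excess.vol_inter_add_diff (μ := μ) K.V Y mY
    rw [Set.inter_eq_self_of_subset_right hY] at this
    exact this
  have hEI : vol μ I + vol μ (K.ES \ I) = vol μ K.ES := by
    have := Excess.vol_inter_add_diff (μ := μ) K.ES I mI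
    rw [Set.inter_eq_self_of_subset_right (fun e he => he.1)] at this
    exact this
  rw [Nat.cast_one, one_mul] at hrm
  calc vol μ I + vol μ K.V = vol μ I + (vol μ Y + vol μ (K.V \ Y)) := by rw [hVY]
    _ ≤ vol μ I + (vol μ Y + vol μ (K.ES \ I)) := by gcongr
    _ = vol μ Y + (vol μ I + vol μ (K.ES \ I)) := by ring
    _ = vol μ Y + vol μ K.ES := by rw [hEI]

end Crest.Agent.CP
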