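import Crest.Agent.CPDefs

/-!
# Row 191 (S0291): labelled graph fields over a free action
Convention: an edge labelled `s` from `(y,j)` goes to `((ρ s)⁻¹ • y, k)`; so a path labelled `ω`
starting over `y` ends over `(wval ρ ω)⁻¹ • y`.
-/

set_option autoImplicit false

namespace Crest.Agent.CP

open MeasureTheory

/-- labelled graph field with index type `ι`; `o` is the thick index. -/
structure PG {Γ : Type} [Group Γ] (ρ : AL → Γ) (X : Type) [MulAction Γ X] [MeasurableSpace X]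
    (ι : Type) where
  V : Set (X × ι)
  E : AL → Set (X × (ι × ι))
  o : ι
  mV : MS V
  mE : ∀ s, MS (E s)
  thick : ∀ x, (x, o) ∈ V
  src : ∀ s x j k, (x, (j, k)) ∈ E s → (x, j) ∈ V
  tgt : ∀ s x j k, (x, (j, k)) ∈ E s → ((ρ s)⁻¹ • x, k) ∈ V

namespace PG

variable {Γ : Type} [Group Γ] {ρ : AL → Γ} {X : Type} [MulAction Γ X] [MeasurableSpace X]
  {ι : Type}

/-- one step reading the letter `c` -/
def step (K : PG ρ X ι) (c : AL × Bool) (u v : X × ι) : Prop :=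
  if c.2 = true then v.1 = (ρ c.1)⁻¹ • u.1 ∧ (u.1, (u.2, v.2)) ∈ K.E c.1
  else u.1 = (ρ c.1)⁻¹ • v.1 ∧ (v.1, (v.2, u.2)) ∈ K.E c.1

/-- path reading the word `ω` -/
def Path (K : PG ρ X ι) : List (AL × Bool) → X × ι → X × ι → Prop
  | [], u, v => u ∈ K.V ∧ u = v
  | d :: ω, u, v => ∃ w, K.step d u w ∧ K.Path ω w v

/-- path reading `ω` with sum `t` of the cochain `c` -/
def PS (K : PG ρ X ι) (c : AL → X × ι → ℝ) : List (AL × Bool) → X × ι → X × ι → ℝ → Prop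
  | [], u, v, t => u ∈ K.V ∧ u = v ∧ t = 0
  | d :: ω, u, v, t => ∃ w t', K.step d u w ∧ K.PS c ω w v t' ∧
      t = (if d.2 = true then c d.1 u else - c d.1 w) + t'

/-- folded: deterministic in both directions -/
def Folded (K : PG ρ X ι) : Prop := ∀ d u v v', K.step d u v → K.step d u v' → v = v'

/-- the letter `d` can be read at `u` -/
def Dir (K : PG ρ X ι) (u : X × ι) (d : AL × Bool) : Prop := ∃ v, K.step d u v

/-- thin vertices have at least two directions -/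
def Pruned (K : PG ρ X ι) : Prop :=
  ∀ v ∈ K.V, v.2 ≠ K.o → ∃ d d', d ≠ d' ∧ K.Dir v d ∧ K.Dir v d'

/-- boundedly generating -/
def BG (K : PG ρ X ι) : Prop :=
  ∃ L : ℕ, (∀ x s, ∃ ω : List (AL × Bool), ω.length ≤ L ∧ K.Path ω (x, K.o) ((ρ s)⁻¹ • x, K.o)) ∧
    ∀ v ∈ K.V, ∃ (ω : List (AL × Bool)) (y : X), ω.length ≤ L ∧ K.Path ω v (y, K.o)

/-- edge set -/
def ES (K : PG ρ X ι) : Set (X × (AL × ι × ι)) := {e | (e.1, e.2.2) ∈ K.E e.2.1}

/-- the edge traversed by a step -/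
def eof (d : AL × Bool) (u v : X × ι) : X × (AL × ι × ι) :=
  if d.2 = true then (u.1, (d.1, u.2, v.2)) else (v.1, (d.1, v.2, u.2))

/-- thin vertices -/
def Thin (K : PG ρ X ι) : Set (X × ι) := {v | v ∈ K.V ∧ v.2 ≠ K.o}

/-- special vertices: thick, or at least three directions -/
def Special (K : PG ρ X ι) (v : X × ι) : Prop :=
  v.2 = K.o ∨ ∃ d1 d2 d3, d1 ≠ d2 ∧ d1 ≠ d3 ∧ d2 ≠ d3 ∧ K.Dir v d1 ∧ K.Dir v d2 ∧ K.Dir v d3

/-- morphisms (given by `f : X × ι → κ`) -/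
structure Mor {κ : Type} (K : PG ρ X ι) (K' : PG ρ X κ) (f : X × ι → κ) : Prop where
  meas : ∀ i k, MeasurableSet {x | f (x, i) = k}
  o : ∀ x, f (x, K.o) = K'.o
  V : ∀ x i, (x, i) ∈ K.V → (x, f (x, i)) ∈ K'.V
  E : ∀ s x j k, (x, (j, k)) ∈ K.E s → (x, (f (x, j), f ((ρ s)⁻¹ • x, k))) ∈ K'.E s

/-- image of the edge set under a morphism -/
def imE {κ : Type} (K : PG ρ X ι) (f : X × ι → κ) : Set (X × (AL × κ × κ)) :=
  {e | ∃ j k, (e.1, (j, k)) ∈ K.E e.2.1 ∧ e.2.2.1 = f (e.1, j) ∧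
    e.2.2.2 = f ((ρ e.2.1)⁻¹ • e.1, k)}

section rel
variable {j R q : ℕ} [NeZero R] (D : RelData j R q Γ)

/-- complete cells (base vertex, relator) -/
def Cell (K : PG D.ρ X ι) : Set (X × (ι × XL)) :=
  {c | K.Path (rw D.r c.2.2 0 R) (c.1, c.2.1) (c.1, c.2.1)}

/-- `u` is the closed loop of the relator `l` -/
def Loop (K : PG D.ρ X ι) (l : XL) (u : ZMod R → X × ι) : Prop :=
  ∀ m, K.step (D.r l m) (u m) (u (m + 1))

/-- type A cells: some window of `2q` edges whose interior vertices are not special -/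
def TypeA (K : PG D.ρ X ι) : Set (X × (ι × XL)) :=
  {c | ∃ u : ZMod R → X × ι, Loop D K c.2.2 u ∧ u 0 = (c.1, c.2.1) ∧
    ∃ i : ZMod R, ∀ m : ℕ, 0 < m → m < 2 * q → ¬ K.Special (u (i + (m : ZMod R)))}

/-- generation certificate -/
def Gen (K : PG D.ρ X ι) (C : Set (X × (ι × XL))) (P : Set (X × List (AL × Bool))) : Prop :=
  ∀ c : AL → X × ι → ℝ,
    (∀ y j l, (y, (j, l)) ∈ C → ∀ t, K.PS c (rw D.r l 0 R) (y, j) (y, j) t → t = 0) →
    (∀ x w, (x, w) ∈ P → ∀ v t, K.PS c w (x, K.o) v t → t = 0) →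
    ∀ ω x y t, K.PS c ω (x, K.o) (y, K.o) t → t = 0

/-- `GoodC K P C`: folded, pruned, boundedly generating, finite volume, certified by `C`, `P`. -/
structure GoodC (μ : Measure X) (K : PG D.ρ X ℕ) (P : Set (X × List (AL × Bool)))
    (C : Set (X × (ℕ × XL))) : Prop where
  o0 : K.o = 0
  folded : K.Folded
  pruned : K.Pruned
  bg : K.BG
  fin : vol μ K.V ≠ ⊤
  mP : MS P
  Pbd : ∃ B : ℕ, ∀ x w, (x, w) ∈ P → w.length ≤ B
  Ppath : ∀ x w, (x, w) ∈ P → ∃ y, K.Path w (x, K.o) (y, K.o)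
  mC : MS C
  CC : C ⊆ Cell D K
  gen : Gen D K C P

/-- a set of edges closed under derivation by nearly complete cells -/
def DerClosed (K : PG D.ρ X ι) (S : Set (X × (AL × ι × ι))) : Prop :=
  ∀ l (u : ZMod R → X × ι), Loop D K l u → ∀ i : ZMod R,
    (∀ m : ℕ, m < R - q →
      eof (D.r l (i + (m : ZMod R))) (u (i + (m : ZMod R))) (u (i + (m : ZMod R) + 1)) ∈ S) →
    ∀ m, eof (D.r l m) (u m) (u (m + 1)) ∈ S

/-- all edges of `K` are derived from `S0` -/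
def Derives (K : PG D.ρ X ι) (S0 : Set (X × (AL × ι × ι))) : Prop :=
  ∀ S, S0 ⊆ S → DerClosed D K S → K.ES ⊆ S

end rel

end PG

end Crest.Agent.CP
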