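import Crest.Agent.CPDefs

/-!
# Row 191: shared definitions for CPWords (helper1) and CPDehn (helper9)
-/

set_option autoImplicit false

namespace Crest.Agent.CP

variable {α : Type}

/-- image of a letter under the substitution `W` -/
def blk (W : α → List (α × Bool)) (c : α × Bool) : List (α × Bool) :=
  if c.2 = true then W c.1 else winv (W c.1)

/-- image of a word under the substitution `W` -/
def phw (W : α → List (α × Bool)) (h : List (α × Bool)) : List (α × Bool) := h.flatMap (blk W)

/-- the endomorphism of the free group -/
def phi (W : α → List (α × Bool)) : FreeGroup α →* FreeGroup α :=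
  FreeGroup.lift fun l => FreeGroup.mk (W l)

/-- positive words of equal length `n`; `W l` begins and ends with `l` -/
structure WOK (W : α → List (α × Bool)) (n : ℕ) : Prop where
  len : ∀ l, (W l).length = n
  npos : 1 ≤ n
  pos : ∀ l, ∀ c ∈ W l, c.2 = true
  head : ∀ l, (W l).head? = some (l, true)
  last : ∀ l, (W l).getLast? = some (l, true)

/-- synchronisation property of the substitution -/
def SP (W : α → List (α × Bool)) (q0 : ℕ) : Prop :=
  ∀ h h' A z B A' B' : List (α × Bool), Red h → Red h' → q0 ≤ z.length →
    phw W h = A ++ z ++ B → phw W h' = A' ++ z ++ B' →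
    FreeGroup.mk A * (FreeGroup.mk A')⁻¹ ∈ (phi W).range

end Crest.Agent.CP
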