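import Crest.Agent.CPDefs
import Crest.Agent.CPWd
import Crest.Agent.CPHNN

/-!
# Row 191: the concrete words `W l` and their combinatorics
-/

set_option autoImplicit false

namespace Crest.Agent.CP
namespace Words

/-! ### digits -/

/-- the `k`-th digit of the `i`-th word -/
noncomputable def dig (m i k : ℕ) : Fin 100 :=
  if h : i < 100 ^ m ∧ k < m then
    (finFunctionFinEquiv.symm (⟨i, h.1⟩ : Fin (100 ^ m)) : Fin m → Fin 100) ⟨k, h.2⟩ else 0

lemma dig_inj (m i i' : ℕ) (hi : i < 100 ^ m) (hi' : i' < 100 ^ m)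
    (h : ∀ k < m, dig m i k = dig m i' k) : i = i' := by
  have h1 : (finFunctionFinEquiv.symm (⟨i, hi⟩ : Fin (100 ^ m)) : Fin m → Fin 100)
      = finFunctionFinEquiv.symm (⟨i', hi'⟩ : Fin (100 ^ m)) := by
    funext k
    have h2 := h k.1 k.2
    unfold dig at h2
    rw [dif_pos ⟨hi, k.2⟩, dif_pos ⟨hi', k.2⟩] at h2
    exact h2
  have h3 := finFunctionFinEquiv.symm.injective h1
  exact congrArg Fin.val h3

lemma dig_surj (m : ℕ) (t : Fin m → Fin 100) :
    ∃ i, i < 100 ^ m ∧ ∀ (k : ℕ) (hk : k < m), dig m i k = t ⟨k, hk⟩ := by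
  refine ⟨(finFunctionFinEquiv t : Fin (100 ^ m)).1, (finFunctionFinEquiv t).2, fun k hk => ?_⟩
  unfold dig
  rw [dif_pos ⟨(finFunctionFinEquiv t).2, hk⟩]
  have h1 : (⟨(finFunctionFinEquiv t : Fin (100 ^ m)).1, (finFunctionFinEquiv t).2⟩ :
      Fin (100 ^ m)) = finFunctionFinEquiv t := rfl
  rw [h1, Equiv.symm_apply_apply]

/-- first code letter -/
def e1 : XL → Fin 100 | none => 0 | some _ => 1
/-- second code letter -/
def e2 : XL → Fin 100 | none => 0 | some i => i

lemma e_inj {l l' : XL} (h1 : e1 l = e1 l') (h2 : e2 l = e2 l') : l = l' := by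
  cases l with
  | none =>
    cases l' with
    | none => rfl
    | some i => simp [e1] at h1
  | some i =>
    cases l' with
    | none => simp [e1] at h1
    | some i' => simp only [e2] at h2; rw [h2]

/-- length of the words -/
def len (m : ℕ) : ℕ := (m + 4) * 100 ^ m + 2

/-- the letters of `W l` -/
noncomputable def Wf (m : ℕ) (l : XL) (s : ℕ) : XL :=
  if s = 0 ∨ s = len m - 1 then l
  else if (s - 1) % (m + 4) < 2 then none
  else if (s - 1) % (m + 4) = 2 then some (e1 l)
  else if (s - 1) % (m + 4) = 3 then some (e2 l)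
  else some (dig m ((s - 1) / (m + 4)) ((s - 1) % (m + 4) - 4))

/-- the words -/
noncomputable def W (m : ℕ) (l : XL) : List (XL × Bool) :=
  (List.range (len m)).map fun s => (Wf m l s, true)

lemma Wf_zero (m : ℕ) (l : XL) : Wf m l 0 = l := by simp [Wf]
lemma Wf_last (m : ℕ) (l : XL) : Wf m l (len m - 1) = l := by simp [Wf]

lemma block_lt (m i u : ℕ) (hi : i < 100 ^ m) (hu : u < m + 4) :
    1 + (m + 4) * i + u + 1 < len m := by
  unfold len
  have : (m + 4) * (i + 1) ≤ (m + 4) * 100 ^ m := Nat.mul_le_mul_left _ hi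
  nlinarith

lemma Wf_at (m : ℕ) (l : XL) (i u : ℕ) (hi : i < 100 ^ m) (hu : u < m + 4) :
    Wf m l (1 + (m + 4) * i + u) =
      if u < 2 then none else if u = 2 then some (e1 l) else if u = 3 then some (e2 l)
      else some (dig m i (u - 4)) := by
  have h0 := block_lt m i u hi hu
  have h1 : 1 + (m + 4) * i + u - 1 = (m + 4) * i + u := by omega
  have h2 : ((m + 4) * i + u) % (m + 4) = u := by
    rw [Nat.mul_add_mod]; exact Nat.mod_eq_of_lt hu
  have h3 : ((m + 4) * i + u) / (m + 4) = i := by
    rw [Nat.mul_add_div (by omega), Nat.div_eq_of_lt hu, add_zero]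
  unfold Wf
  rw [if_neg (by omega), h1, h2, h3]

lemma exists_block (m s : ℕ) (h1 : 1 ≤ s) (h2 : s + 1 < len m) :
    ∃ i u, i < 100 ^ m ∧ u < m + 4 ∧ s = 1 + (m + 4) * i + u := by
  refine ⟨(s - 1) / (m + 4), (s - 1) % (m + 4), ?_, Nat.mod_lt _ (by omega), ?_⟩
  · rw [Nat.div_lt_iff_lt_mul (by omega)]
    unfold len at h2
    rw [mul_comm]
    omega
  · have := Nat.div_add_mod (s - 1) (m + 4)
    omega

lemma W_length (m : ℕ) (l : XL) : (W m l).length = len m := by simp [W]

lemma W_get (m : ℕ) (l : XL) (s : ℕ) (hs : s < len m) : (W m l)[s]? = some (Wf m l s, true) := by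
  unfold W
  rw [List.getElem?_map, List.getElem?_range hs]
  rfl

lemma len_pos (m : ℕ) : 2 ≤ len m := by unfold len; omega

lemma WOK_W (m : ℕ) : WOK (W m) (len m) where
  len := W_length m
  npos := by have := len_pos m; omega
  pos := by
    intro l c hc
    unfold W at hc
    rw [List.mem_map] at hc
    obtain ⟨s, _, rfl⟩ := hc
    rfl
  head := by
    intro l
    rw [List.head?_eq_getElem?, W_get m l 0 (by have := len_pos m; omega), Wf_zero]
  last := by
    intro l
    rw [List.getLast?_eq_getElem?, W_length, W_get m l _ (by have := len_pos m; omega), Wf_last]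

/-! ### letters of `phw W h` -/

lemma linv_snd {S : Type} (c : S × Bool) : (linv c).2 = !c.2 := rfl

lemma winv_length {S : Type} (w : List (S × Bool)) : (winv w).length = w.length := by
  simp [winv]

lemma winv_get {S : Type} (w : List (S × Bool)) (s : ℕ) (hs : s < w.length) :
    (winv w)[s]? = (w[w.length - 1 - s]?).map linv := by
  unfold winv
  rw [List.getElem?_reverse (by simpa using hs), List.length_map, List.getElem?_map]

lemma blk_length (m : ℕ) (c : XL × Bool) : (blk (W m) c).length = len m := by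
  unfold blk
  split_ifs
  · exact W_length m _
  · rw [winv_length, W_length]

lemma blk_true (m : ℕ) (l : XL) : blk (W m) (l, true) = W m l := rfl
lemma blk_false (m : ℕ) (l : XL) : blk (W m) (l, false) = winv (W m l) := rfl

lemma blk_false_get (m : ℕ) (l : XL) (s : ℕ) (hs : s < len m) :
    (blk (W m) (l, false))[s]? = some (Wf m l (len m - 1 - s), false) := by
  rw [blk_false, winv_get _ _ (by rw [W_length]; exact hs), W_length,
    W_get m l _ (by omega)]
  rfl

lemma phw_length (m : ℕ) (h : List (XL × Bool)) : (phw (W m) h).length = len m * h.length := by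
  induction h with
  | nil => simp [phw]
  | cons c h ih =>
    have : phw (W m) (c :: h) = blk (W m) c ++ phw (W m) h := by simp [phw]
    rw [this, List.length_append, ih, blk_length, List.length_cons]
    ring

lemma phw_get (m : ℕ) (h : List (XL × Bool)) (a s : ℕ) (hs : s < len m) :
    (phw (W m) h)[len m * a + s]? = (h[a]?).bind fun c => (blk (W m) c)[s]? := by
  induction h generalizing a with
  | nil => simp [phw]
  | cons c h ih =>
    have h1 : phw (W m) (c :: h) = blk (W m) c ++ phw (W m) h := by simp [phw]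
    rw [h1]
    cases a with
    | zero =>
      rw [List.getElem?_append_left (by rw [blk_length]; omega)]
      simp
    | succ a =>
      rw [List.getElem?_append_right (by rw [blk_length]; nlinarith), blk_length]
      have h2 : len m * (a + 1) + s - len m = len m * a + s := by
        rw [Nat.mul_succ]; omega
      rw [h2, ih a, List.getElem?_cons_succ]

lemma phw_append (m : ℕ) (h h' : List (XL × Bool)) :
    phw (W m) (h ++ h') = phw (W m) h ++ phw (W m) h' := by simp [phw]

/-- the location of a positive letter -/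
lemma pos_letter (m : ℕ) (h : List (XL × Bool)) (p : ℕ) (x : XL)
    (hp : (phw (W m) h)[p]? = some (x, true)) :
    ∃ l, h[p / len m]? = some (l, true) ∧ Wf m l (p % len m) = x := by
  have hpos := len_pos m
  have h1 : p = len m * (p / len m) + p % len m := (Nat.div_add_mod p (len m)).symm
  have h2 : p % len m < len m := Nat.mod_lt _ (by omega)
  rw [h1, phw_get m h _ _ h2] at hp
  cases hc : h[p / len m]? with
  | none => rw [hc] at hp; simp at hp
  | some c =>
    rw [hc] at hp
    obtain ⟨l, b⟩ := c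
    cases b with
    | false =>
      simp only [Option.bind_some] at hp
      rw [blk_false_get m l _ h2] at hp
      simp at hp
    | true =>
      simp only [Option.bind_some] at hp
      rw [blk_true, W_get m l _ h2] at hp
      refine ⟨l, rfl, ?_⟩
      simpa using hp

/-- the pattern of block `k` of `W l`, preceded by a letter different from the separator, in the
function `f` at position `p` -/
def Pat (m : ℕ) (f : ℕ → Option (XL × Bool)) (p : ℕ) (l : XL) (k : ℕ) : Prop :=
  (∃ y : Fin 100, f p = some (some y, true)) ∧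
    ∀ u < m + 4, f (p + 1 + u) = some (Wf m l (1 + (m + 4) * k + u), true)

lemma exists_pat (m : ℕ) (hm : 1 ≤ m) (l : XL) (s : ℕ) (hs : s + (2 * m + 9) ≤ len m) :
    ∃ k, 1 ≤ k ∧ k < 100 ^ m ∧ s ≤ (m + 4) * k ∧ (m + 4) * k + (m + 5) ≤ s + (2 * m + 9) ∧
      Pat m (fun p => (W m l)[p]?) ((m + 4) * k) l k := by
  have key : ∃ k, 1 ≤ k ∧ s ≤ (m + 4) * k ∧ (m + 4) * k ≤ s + (m + 4) := by
    by_cases h0 : s = 0
    · exact ⟨1, le_rfl, by omega, by omega⟩
    · refine ⟨(s - 1) / (m + 4) + 1, Nat.le_add_left 1 _, ?_, ?_⟩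
      · have := Nat.div_add_mod (s - 1) (m + 4)
        have h2 := Nat.mod_lt (s - 1) (show 0 < m + 4 by omega)
        rw [Nat.mul_succ]
        omega
      · have := Nat.div_add_mod (s - 1) (m + 4)
        rw [Nat.mul_succ]
        omega
  obtain ⟨k, h1, h2, h3⟩ := key
  have hk : k < 100 ^ m := by
    unfold len at hs
    by_contra hcon
    push Not at hcon
    have : (m + 4) * 100 ^ m ≤ (m + 4) * k := Nat.mul_le_mul_left _ hcon
    have h4 : (m + 4) * k + (m + 5) ≤ (m + 4) * 100 ^ m + 2 := by omega
    omega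
  refine ⟨k, h1, hk, h2, by omega, ?_, ?_⟩
  · obtain ⟨k', rfl⟩ : ∃ k', k = k' + 1 := ⟨k - 1, by omega⟩
    have hk' : k' < 100 ^ m := by omega
    have e : (m + 4) * (k' + 1) = 1 + (m + 4) * k' + (m + 3) := by ring
    refine ⟨dig m k' (m + 3 - 4), ?_⟩
    show (W m l)[(m + 4) * (k' + 1)]? = _
    rw [e, W_get m l _ (by have := block_lt m k' (m + 3) hk' (by omega); omega),
      Wf_at m l k' (m + 3) hk' (by omega), if_neg (by omega), if_neg (by omega), if_neg (by omega)]
  · intro u hu
    have e : (m + 4) * k + 1 + u = 1 + (m + 4) * k + u := by ring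
    show (W m l)[(m + 4) * k + 1 + u]? = _
    rw [e, W_get m l _ (by have := block_lt m k u hk hu; omega)]

/-- parsing -/
lemma parse (m : ℕ) (hm : 1 ≤ m) (h : List (XL × Bool)) (p : ℕ) (l : XL) (k : ℕ)
    (hk : k < 100 ^ m) (hpat : Pat m (fun p => (phw (W m) h)[p]?) p l k) :
    ∃ a, h[a]? = some (l, true) ∧ p + 1 = len m * a + (1 + (m + 4) * k) := by
  obtain ⟨⟨y, hy⟩, hu⟩ := hpat
  have hpos := len_pos m
  have hlen : 2 * (m + 4) ≤ len m := by
    unfold len
    have h1 : 100 ≤ 100 ^ m := by
      calc 100 = 100 ^ 1 := by norm_num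
        _ ≤ 100 ^ m := Nat.pow_le_pow_right (by norm_num) hm
    nlinarith
  -- the letters
  have A0 : (phw (W m) h)[p + 1]? = some (none, true) := by
    have := hu 0 (by omega)
    rw [Wf_at m l k 0 hk (by omega), if_pos (by omega)] at this
    simpa using this
  have A1 : (phw (W m) h)[p + 2]? = some (none, true) := by
    have := hu 1 (by omega)
    rw [Wf_at m l k 1 hk (by omega), if_pos (by omega)] at this
    simpa using this
  have A2 : (phw (W m) h)[p + 3]? = some (some (e1 l), true) := by
    have := hu 2 (by omega)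
    rw [Wf_at m l k 2 hk (by omega), if_neg (by omega), if_pos rfl] at this
    simpa using this
  obtain ⟨l', hl', hs'⟩ := pos_letter m h (p + 1) none A0
  set a := (p + 1) / len m with ha
  set s := (p + 1) % len m with hs
  have hps : p + 1 = len m * a + s := (Nat.div_add_mod (p + 1) (len m)).symm
  have hslt : s < len m := Nat.mod_lt _ (by omega)
  -- letter at `len m * a + x`
  have L : ∀ x < len m, (phw (W m) h)[len m * a + x]? = some (Wf m l' x, true) := by
    intro x hx
    rw [phw_get m h a x hx, hl']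
    simp only [Option.bind_some]
    rw [blk_true, W_get m l' x hx]
  have W1 : ∀ l'' : XL, Wf m l'' 1 = none := by
    intro l''
    have := Wf_at m l'' 0 0 (by positivity) (by omega)
    simpa using this
  have W2 : ∀ l'' : XL, Wf m l'' 2 = none := by
    intro l''
    have := Wf_at m l'' 0 1 (by positivity) (by omega)
    simpa using this
  rcases Nat.eq_zero_or_pos s with h0 | h0
  · exfalso
    have e : p + 3 = len m * a + 2 := by omega
    rw [e, L 2 (by omega), W2] at A2
    simp at A2
  rcases Nat.lt_or_ge (s + 1) (len m) with h1 | h1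
  · obtain ⟨i, u, hi, hu', hsi⟩ := exists_block m s h0 h1
    have hW := Wf_at m l' i u hi hu'
    rw [← hsi, hs'] at hW
    have hu2 : u < 2 := by
      by_contra hcon
      rw [if_neg hcon] at hW
      split_ifs at hW
    have hu0 : u = 0 := by
      by_contra hcon
      have hu1 : u = 1 := by omega
      subst hu1
      have e : p = len m * a + (1 + (m + 4) * i + 0) := by omega
      have hy' : (phw (W m) h)[p]? = some (some y, true) := hy
      rw [e, L _ (by omega), Wf_at m l' i 0 hi (by omega), if_pos (by omega)] at hy'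
      simp at hy'
    subst hu0
    -- compare
    have cmp : ∀ u < m + 4, Wf m l' (1 + (m + 4) * i + u) = Wf m l (1 + (m + 4) * k + u) := by
      intro u hu1
      have h2 := hu u hu1
      have e : p + 1 + u = len m * a + (1 + (m + 4) * i + u) := by omega
      have hb := block_lt m i u hi hu1
      have h3 : (phw (W m) h)[p + 1 + u]? = some (Wf m l (1 + (m + 4) * k + u), true) := h2
      rw [e, L _ (by omega)] at h3
      simpa using h3
    have c1 := cmp 2 (by omega)
    rw [Wf_at m l' i 2 hi (by omega), Wf_at m l k 2 hk (by omega)] at c1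
    have c2 := cmp 3 (by omega)
    rw [Wf_at m l' i 3 hi (by omega), Wf_at m l k 3 hk (by omega)] at c2
    have hll : l' = l := by
      apply e_inj
      · simpa using c1
      · simpa using c2
    have hik : i = k := by
      apply dig_inj m i k hi hk
      intro v hv
      have c3 := cmp (v + 4) (by omega)
      rw [Wf_at m l' i (v + 4) hi (by omega), Wf_at m l k (v + 4) hk (by omega),
        if_neg (by omega), if_neg (by omega), if_neg (by omega), if_neg (by omega),
        if_neg (by omega), if_neg (by omega)] at c3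
      simpa using c3
    refine ⟨a, ?_, ?_⟩
    · rw [hl', hll]
    · rw [hps, hsi, hik]; ring
  · exfalso
    have hs1 : s = len m - 1 := by omega
    have e1' : p + 2 = len m * (a + 1) + 0 := by rw [Nat.mul_succ]; omega
    have e2' : p + 3 = len m * (a + 1) + 1 := by rw [Nat.mul_succ]; omega
    obtain ⟨l'', hl'', hs''⟩ := pos_letter m h (p + 3) _ A2
    have d : (p + 3) / len m = a + 1 := by
      rw [e2', Nat.mul_add_div (by omega), Nat.div_eq_of_lt (by omega), add_zero]
    have d2 : (p + 3) % len m = 1 := by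
      rw [e2', Nat.mul_add_mod, Nat.mod_eq_of_lt (by omega)]
    rw [d2, W1] at hs''
    simp at hs''

/-! ### values -/

lemma winv_append {S : Type} (u v : List (S × Bool)) : winv (u ++ v) = winv v ++ winv u := by
  simp [winv]

lemma winv_winv {S : Type} (u : List (S × Bool)) : winv (winv u) = u := by
  unfold winv
  rw [List.map_reverse, List.reverse_reverse, List.map_map]
  have : (linv ∘ linv : S × Bool → S × Bool) = id := by
    funext c
    simp [linv]
  rw [this, List.map_id]

lemma mk_winv {S : Type} (u : List (S × Bool)) :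
    FreeGroup.mk (winv u) = (FreeGroup.mk u)⁻¹ := by
  rw [FreeGroup.inv_mk]
  rfl

lemma blk_linv (m : ℕ) (c : XL × Bool) : blk (W m) (linv c) = winv (blk (W m) c) := by
  obtain ⟨l, b⟩ := c
  cases b
  · show blk (W m) (l, true) = _
    rw [blk_true, blk_false, winv_winv]
  · rfl

lemma phw_winv (m : ℕ) (h : List (XL × Bool)) :
    phw (W m) (winv h) = winv (phw (W m) h) := by
  induction h with
  | nil => simp [phw, winv]
  | cons c h ih =>
    have h1 : winv (c :: h) = winv h ++ [linv c] := by simp [winv]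
    have h2 : phw (W m) (c :: h) = blk (W m) c ++ phw (W m) h := by simp [phw]
    have h3 : phw (W m) [linv c] = blk (W m) (linv c) := by simp [phw]
    rw [h1, phw_append, ih, h2, winv_append, h3, blk_linv]

lemma phi_mk (m : ℕ) (h : List (XL × Bool)) :
    phi (W m) (FreeGroup.mk h) = FreeGroup.mk (phw (W m) h) := by
  induction h with
  | nil => simp [phw, ← FreeGroup.one_eq_mk]
  | cons c h ih =>
    have h1 : (FreeGroup.mk (c :: h) : FreeGroup XL) = FreeGroup.mk [c] * FreeGroup.mk h := by
      rw [FreeGroup.mul_mk]; rfl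
    have h2 : phw (W m) (c :: h) = blk (W m) c ++ phw (W m) h := by simp [phw]
    rw [h1, map_mul, ih, h2, ← FreeGroup.mul_mk]
    congr 1
    obtain ⟨l, b⟩ := c
    unfold phi
    rw [FreeGroup.lift_mk]
    cases b
    · simp only [List.map_cons, List.map_nil, List.prod_singleton, cond_false]
      rw [blk_false, mk_winv]
    · simp only [List.map_cons, List.map_nil, List.prod_singleton, cond_true]
      rw [blk_true]

/-- letters of a subword -/
lemma sub_get {S : Type} (A z B : List S) (i : ℕ) (hi : i < z.length) :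
    (A ++ z ++ B)[A.length + i]? = z[i]? := by
  rw [List.getElem?_append_left (by rw [List.length_append]; omega),
    List.getElem?_append_right (by omega)]
  congr 1
  omega

lemma prefix_val (m : ℕ) (h : List (XL × Bool)) (a σ : ℕ) (l : XL) (P Q : List (XL × Bool))
    (ha : h[a]? = some (l, true)) (hσ : σ ≤ len m) (hPQ : phw (W m) h = P ++ Q)
    (hP : P.length = len m * a + σ) :
    FreeGroup.mk P = phi (W m) (FreeGroup.mk (h.take a)) * FreeGroup.mk ((W m l).take σ) := by
  have hlt : a < h.length := by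
    by_contra hcon
    push Not at hcon
    rw [List.getElem?_eq_none hcon] at ha
    simp at ha
  have hget : h[a] = (l, true) := by
    rw [List.getElem?_eq_getElem hlt] at ha
    simpa using ha
  have h1 : h = h.take a ++ ((l, true) :: h.drop (a + 1)) := by
    conv_lhs => rw [← List.take_append_drop a h, List.drop_eq_getElem_cons hlt, hget]
  have h2 : phw (W m) h = (phw (W m) (h.take a) ++ (W m l).take σ) ++
      ((W m l).drop σ ++ phw (W m) (h.drop (a + 1))) := by
    conv_lhs => rw [h1, phw_append]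
    have h3 : phw (W m) ((l, true) :: h.drop (a + 1)) = W m l ++ phw (W m) (h.drop (a + 1)) := by
      simp [phw, blk_true]
    rw [h3]
    conv_lhs => rw [← List.take_append_drop σ (W m l)]
    simp only [List.append_assoc]
  have h4 : P = phw (W m) (h.take a) ++ (W m l).take σ := by
    have h5 := h2
    rw [hPQ] at h5
    refine (List.append_inj h5 ?_).1
    rw [hP, List.length_append, phw_length, List.length_take, List.length_take, W_length,
      min_eq_left hσ, min_eq_left hlt.le]
  rw [h4, ← FreeGroup.mul_mk, phi_mk]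

lemma sub_pat (m : ℕ) (A z B : List (XL × Bool)) (u : ℕ) (l : XL) (k : ℕ)
    (hp : Pat m (fun p => z[p]?) u l k) :
    Pat m (fun p => (A ++ z ++ B)[p]?) (A.length + u) l k := by
  obtain ⟨⟨y, hy⟩, hu⟩ := hp
  have key : ∀ (i : ℕ) (x : XL × Bool), z[i]? = some x →
      (A ++ z ++ B)[A.length + i]? = some x := by
    intro i x hx
    have hlt : i < z.length := by
      by_contra hcon
      push Not at hcon
      rw [List.getElem?_eq_none hcon] at hx
      simp at hx
    rw [sub_get A z B i hlt, hx]
  refine ⟨⟨y, key u _ hy⟩, fun v hv => ?_⟩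
  have := key _ _ (hu v hv)
  show (A ++ z ++ B)[A.length + u + 1 + v]? = _
  rw [← this]
  congr 1
  omega

lemma SP_pos (m : ℕ) (hm : 1 ≤ m) (h h' A z B A' B' : List (XL × Bool))
    (e : phw (W m) h = A ++ z ++ B) (e' : phw (W m) h' = A' ++ z ++ B')
    (u : ℕ) (l : XL) (k : ℕ) (hk : k < 100 ^ m) (hp : Pat m (fun p => z[p]?) u l k) :
    FreeGroup.mk A * (FreeGroup.mk A')⁻¹ ∈ (phi (W m)).range := by
  have hult : u < z.length := by
    obtain ⟨⟨y, hy⟩, _⟩ := hp
    by_contra hcon
    push Not at hcon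
    have hy' : z[u]? = some (some y, true) := hy
    rw [List.getElem?_eq_none hcon] at hy'
    simp at hy'
  have hσ : 1 + (m + 4) * k ≤ len m := by
    have := block_lt m k 0 hk (by omega)
    omega
  have key : ∀ (h A B : List (XL × Bool)), phw (W m) h = A ++ z ++ B →
      ∃ g, FreeGroup.mk A * FreeGroup.mk (z.take (u + 1)) =
        phi (W m) g * FreeGroup.mk ((W m l).take (1 + (m + 4) * k)) := by
    intro h A B e
    have h1 := sub_pat m A z B u l k hp
    rw [← e] at h1
    obtain ⟨a, ha, hpa⟩ := parse m hm h _ l k hk h1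
    refine ⟨FreeGroup.mk (h.take a), ?_⟩
    rw [FreeGroup.mul_mk]
    apply prefix_val m h a _ l (A ++ z.take (u + 1)) (z.drop (u + 1) ++ B) ha hσ
    · rw [e]
      conv_lhs => rw [← List.take_append_drop (u + 1) z]
      simp only [List.append_assoc]
    · rw [List.length_append, List.length_take, min_eq_left (by omega), ← hpa]
      ring
  obtain ⟨g, hg⟩ := key h A B e
  obtain ⟨g', hg'⟩ := key h' A' B' e'
  refine ⟨g * g'⁻¹, ?_⟩
  rw [map_mul, map_inv]
  have h1 : FreeGroup.mk A = phi (W m) g * FreeGroup.mk ((W m l).take (1 + (m + 4) * k)) *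
      (FreeGroup.mk (z.take (u + 1)))⁻¹ := by rw [← hg]; group
  have h2 : FreeGroup.mk A' = phi (W m) g' * FreeGroup.mk ((W m l).take (1 + (m + 4) * k)) *
      (FreeGroup.mk (z.take (u + 1)))⁻¹ := by rw [← hg']; group
  rw [h1, h2]
  group

lemma window (m : ℕ) (hm : 1 ≤ m) (h A z B : List (XL × Bool))
    (e : phw (W m) h = A ++ z ++ B) (hz : 2 * (2 * m + 9) ≤ z.length) :
    ∃ u l k, k < 100 ^ m ∧
      (Pat m (fun p => z[p]?) u l k ∨ Pat m (fun p => (winv z)[p]?) u l k) := by
  have hpos := len_pos m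
  have hlen : 2 * (2 * m + 9) ≤ len m := by
    unfold len
    have h1 : 100 ≤ 100 ^ m := by
      calc 100 = 100 ^ 1 := by norm_num
        _ ≤ 100 ^ m := Nat.pow_le_pow_right (by norm_num) hm
    nlinarith
  obtain ⟨a, s, hs1, hs2, hs3⟩ : ∃ a s, s + (2 * m + 9) ≤ len m ∧ A.length ≤ len m * a + s ∧
      len m * a + s + (2 * m + 9) ≤ A.length + z.length := by
    have h1 := Nat.div_add_mod A.length (len m)
    have h2 := Nat.mod_lt A.length (show 0 < len m by omega)
    by_cases hc : A.length % len m + (2 * m + 9) ≤ len m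
    · exact ⟨A.length / len m, A.length % len m, hc, by omega, by omega⟩
    · refine ⟨A.length / len m + 1, 0, by omega, ?_, ?_⟩
      · rw [Nat.mul_succ]; omega
      · rw [Nat.mul_succ]; omega
  have hlt : a < h.length := by
    have h1 := phw_length m h
    rw [e, List.length_append, List.length_append] at h1
    by_contra hcon
    push Not at hcon
    have : len m * h.length ≤ len m * a := Nat.mul_le_mul_left _ hcon
    omega
  obtain ⟨c, hc⟩ : ∃ c, h[a]? = some c := ⟨_, List.getElem?_eq_getElem hlt⟩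
  have L : ∀ x, s ≤ x → x < s + (2 * m + 9) →
      z[len m * a + x - A.length]? = (blk (W m) c)[x]? := by
    intro x hx1 hx2
    rw [← sub_get A z B _ (by omega), ← e]
    have e2 : A.length + (len m * a + x - A.length) = len m * a + x := by omega
    rw [e2, phw_get m h a x (by omega), hc]
    rfl
  obtain ⟨l, b⟩ := c
  cases b with
  | true =>
    obtain ⟨k, hk1, hk, hk2, hk3, ⟨y, hy⟩, hu⟩ := exists_pat m hm l s hs1
    refine ⟨len m * a + (m + 4) * k - A.length, l, k, hk, Or.inl ⟨⟨y, ?_⟩, fun v hv => ?_⟩⟩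
    · show z[len m * a + (m + 4) * k - A.length]? = _
      rw [L _ hk2 (by omega), blk_true]
      exact hy
    · show z[len m * a + (m + 4) * k - A.length + 1 + v]? = _
      have e2 : len m * a + (m + 4) * k - A.length + 1 + v
          = len m * a + ((m + 4) * k + 1 + v) - A.length := by omega
      rw [e2, L _ (by omega) (by omega), blk_true]
      exact hu v hv
  | false =>
    obtain ⟨k, hk1, hk, hk2, hk3, ⟨y, hy⟩, hu⟩ :=
      exists_pat m hm l (len m - s - (2 * m + 9)) (by omega)
    have M : ∀ v < m + 5, (winv z)[z.length + A.length + (m + 4) * k - len m * (a + 1) + v]? =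
        some (Wf m l ((m + 4) * k + v), true) := by
      intro v hv
      have hmul : len m * (a + 1) = len m * a + len m := Nat.mul_succ _ _
      rw [winv_get z _ (by omega)]
      have e2 : z.length - 1 - (z.length + A.length + (m + 4) * k - len m * (a + 1) + v)
          = len m * a + (len m - 1 - ((m + 4) * k + v)) - A.length := by omega
      rw [e2, L _ (by omega) (by omega), blk_false_get m l _ (by omega)]
      have e3 : len m - 1 - (len m - 1 - ((m + 4) * k + v)) = (m + 4) * k + v := by omega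
      rw [e3]
      rfl
    refine ⟨z.length + A.length + (m + 4) * k - len m * (a + 1), l, k, hk,
      Or.inr ⟨⟨y, ?_⟩, fun v hv => ?_⟩⟩
    · have h1 := M 0 (by omega)
      have h2 : (W m l)[(m + 4) * k]? = some (some y, true) := hy
      rw [W_get m l _ (by omega)] at h2
      rw [add_zero, add_zero, h2] at h1
      exact h1
    · have h1 := M (1 + v) (by omega)
      have e2 : (m + 4) * k + (1 + v) = 1 + (m + 4) * k + v := by ring
      rw [e2] at h1
      rw [← h1]
      show (winv z)[_]? = (winv z)[_]?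
      congr 1
      omega

theorem SP_W (m : ℕ) (hm : 1 ≤ m) (q0 : ℕ) (hq : 2 * (2 * m + 9) ≤ q0) : SP (W m) q0 := by
  intro h h' A z B A' B' _ _ hz e e'
  obtain ⟨u, l, k, hk, hp | hp⟩ := window m hm h A z B e (hq.trans hz)
  · exact SP_pos m hm h h' A z B A' B' e e' u l k hk hp
  · have e1 : phw (W m) (winv h) = winv B ++ winv z ++ winv A := by
      rw [phw_winv, e]; simp only [winv_append, List.append_assoc]
    have e1' : phw (W m) (winv h') = winv B' ++ winv z ++ winv A' := by
      rw [phw_winv, e']; simp only [winv_append, List.append_assoc]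
    have h1 := SP_pos m hm _ _ _ _ _ _ _ e1 e1' u l k hk hp
    rw [mk_winv, mk_winv, inv_inv] at h1
    obtain ⟨g, hg⟩ := h1
    refine ⟨FreeGroup.mk h * g * (FreeGroup.mk h')⁻¹, ?_⟩
    rw [map_mul, map_mul, map_inv, phi_mk, phi_mk, e, e', hg]
    simp only [← FreeGroup.mul_mk]
    group

/-! ### the cyclic relators -/

lemma cmp_inj (m : ℕ) (l l' : XL) (i k : ℕ) (hi : i < 100 ^ m) (hk : k < 100 ^ m)
    (cmp : ∀ u < m + 4, Wf m l' (1 + (m + 4) * i + u) = Wf m l (1 + (m + 4) * k + u)) :
    l' = l ∧ i = k := by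
  have c1 := cmp 2 (by omega)
  rw [Wf_at m l' i 2 hi (by omega), Wf_at m l k 2 hk (by omega)] at c1
  have c2 := cmp 3 (by omega)
  rw [Wf_at m l' i 3 hi (by omega), Wf_at m l k 3 hk (by omega)] at c2
  refine ⟨?_, ?_⟩
  · apply e_inj
    · simpa using c1
    · simpa using c2
  · apply dig_inj m i k hi hk
    intro v hv
    have c3 := cmp (v + 4) (by omega)
    rw [Wf_at m l' i (v + 4) hi (by omega), Wf_at m l k (v + 4) hk (by omega),
      if_neg (by omega), if_neg (by omega), if_neg (by omega), if_neg (by omega),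
      if_neg (by omega), if_neg (by omega)] at c3
    simpa using c3

section cyc
variable (m R : ℕ) [NeZero R] (hR : ∀ l, (HNN.relWord (W m) l).length = R)

include hR in
lemma R_eq : R = len m + 3 := by
  rw [← hR none, HNN.relWord_length, W_length]

lemma rel_nat (l : XL) (s : ℕ) (hs : s < R) :
    (HNN.relWord (W m) l)[s]? = some (HNN.rel (W m) R hR l ((s : ℕ) : ZMod R)) := by
  rw [HNN.rel_apply, List.getElem?_eq_getElem (by rw [hR]; exact hs)]
  congr 2
  exact (ZMod.val_natCast_of_lt hs).symm

lemma rel1 (l : XL) (s : ℕ) (hs : s < len m) :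
    HNN.rel (W m) R hR l ((s : ℕ) : ZMod R) = (some (Wf m l s), true) := by
  have h1 := rel_nat m R hR l s (by rw [R_eq m R hR]; omega)
  unfold HNN.relWord HNN.up at h1
  rw [List.getElem?_append_left (by rw [List.length_map, W_length]; exact hs),
    List.getElem?_map, W_get m l s hs] at h1
  simpa using h1.symm

lemma rel_tail (l : XL) (v : ℕ) (hv : v < 3) :
    ([(none, true), (some l, false), (none, false)] : List (AL × Bool))[v]? =
      some (HNN.rel (W m) R hR l ((len m + v : ℕ) : ZMod R)) := by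
  have h1 := rel_nat m R hR l (len m + v) (by rw [R_eq m R hR]; omega)
  unfold HNN.relWord HNN.up at h1
  rw [List.getElem?_append_right (by rw [List.length_map, W_length]; omega),
    List.length_map, W_length, Nat.add_sub_cancel_left] at h1
  exact h1

lemma rel2 (l : XL) : HNN.rel (W m) R hR l ((len m : ℕ) : ZMod R) = (none, true) := by
  have := rel_tail m R hR l 0 (by omega)
  simpa using this.symm

lemma rel3 (l : XL) : HNN.rel (W m) R hR l ((len m + 1 : ℕ) : ZMod R) = (some l, false) := by
  have := rel_tail m R hR l 1 (by omega)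
  simpa using this.symm

lemma rel4 (l : XL) : HNN.rel (W m) R hR l ((len m + 2 : ℕ) : ZMod R) = (none, false) := by
  have := rel_tail m R hR l 2 (by omega)
  simpa using this.symm

lemma val_cases (x : ZMod R) : ∃ s, s < R ∧ x = ((s : ℕ) : ZMod R) :=
  ⟨x.val, ZMod.val_lt x, (ZMod.natCast_zmod_val x).symm⟩

/-- a positive `x`-letter of the relator lies in `W l` -/
lemma pos_rel (l : XL) (s : ℕ) (hs : s < R) (y : XL)
    (h : HNN.rel (W m) R hR l ((s : ℕ) : ZMod R) = (some y, true)) :
    s < len m ∧ Wf m l s = y := by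
  have hRe := R_eq m R hR
  rcases Nat.lt_or_ge s (len m) with h1 | h1
  · rw [rel1 m R hR l s h1] at h
    refine ⟨h1, ?_⟩
    simpa using h
  · exfalso
    obtain h2 | h2 | h2 : s = len m ∨ s = len m + 1 ∨ s = len m + 2 := by omega
    · subst h2; rw [rel2] at h; simp at h
    · subst h2; rw [rel3] at h; simp at h
    · subst h2; rw [rel4] at h; simp at h

/-- a negative `x`-letter -/
lemma neg_rel (l : XL) (s : ℕ) (hs : s < R) (y : XL)
    (h : HNN.rel (W m) R hR l ((s : ℕ) : ZMod R) = (some y, false)) : s = len m + 1 := by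
  have hRe := R_eq m R hR
  rcases Nat.lt_or_ge s (len m) with h1 | h1
  · rw [rel1 m R hR l s h1] at h
    simp at h
  · obtain h2 | h2 | h2 : s = len m ∨ s = len m + 1 ∨ s = len m + 2 := by omega
    · subst h2; rw [rel2] at h; simp at h
    · exact h2
    · subst h2; rw [rel4] at h; simp at h

theorem cyc_W (l : XL) (x : ZMod R) :
    HNN.rel (W m) R hR l (x + 1) ≠ linv (HNN.rel (W m) R hR l x) := by
  have hRe := R_eq m R hR
  have hpos := len_pos m
  obtain ⟨s, hs, rfl⟩ := val_cases R x
  have e : ((s : ℕ) : ZMod R) + 1 = ((s + 1 : ℕ) : ZMod R) := by push_cast; ring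
  rw [e]
  rcases Nat.lt_or_ge s (len m) with h1 | h1
  · rw [rel1 m R hR l s h1]
    rcases Nat.lt_or_ge (s + 1) (len m) with h2 | h2
    · rw [rel1 m R hR l _ h2]; simp [linv]
    · have : s + 1 = len m := by omega
      rw [this, rel2]; simp [linv]
  · obtain h2 | h2 | h2 : s = len m ∨ s = len m + 1 ∨ s = len m + 2 := by omega
    · subst h2; rw [rel2, rel3]; simp [linv]
    · subst h2; rw [rel3, show len m + 1 + 1 = len m + 2 from rfl, rel4]; simp [linv]
    · subst h2
      have e2 : ((len m + 2 + 1 : ℕ) : ZMod R) = ((0 : ℕ) : ZMod R) := by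
        rw [show len m + 2 + 1 = R by omega, ZMod.natCast_self, Nat.cast_zero]
      rw [rel4, e2, rel1 m R hR l 0 (by omega)]
      simp [linv]

include hR in
lemma cyc_window (hm : 1 ≤ m) (i : ZMod R) :
    ∃ u k, 1 ≤ k ∧ k < 100 ^ m ∧ u + (m + 5) ≤ 4 * m + 21 ∧
      i + ((u : ℕ) : ZMod R) = (((m + 4) * k : ℕ) : ZMod R) := by
  have hRe := R_eq m R hR
  obtain ⟨s, hs, rfl⟩ := val_cases R i
  by_cases h1 : s + (2 * m + 9) ≤ len m
  · obtain ⟨k, hk1, hk, hk2, hk3, _⟩ := exists_pat m hm none s h1
    refine ⟨(m + 4) * k - s, k, hk1, hk, by omega, ?_⟩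
    rw [← Nat.cast_add]
    congr 1
    omega
  · have h100 : 1 < 100 ^ m := by
      calc 1 < 100 ^ 1 := by norm_num
        _ ≤ 100 ^ m := Nat.pow_le_pow_right (by norm_num) hm
    refine ⟨R - s + (m + 4), 1, le_rfl, h100, by omega, ?_⟩
    rw [← Nat.cast_add]
    have e : s + (R - s + (m + 4)) = R + (m + 4) * 1 := by omega
    rw [e, Nat.cast_add, ZMod.natCast_self, zero_add]

/-- letters around block `k` -/
lemma rel_blk (l : XL) (k v : ℕ) (hk : k < 100 ^ m) (hv : v < m + 5) :
    HNN.rel (W m) R hR l (((m + 4) * k + v : ℕ) : ZMod R) =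
      (some (Wf m l ((m + 4) * k + v)), true) := by
  apply rel1
  have := block_lt m k (m + 3) hk (by omega)
  omega

lemma Wf_pre (hm : 1 ≤ m) (l : XL) (k : ℕ) (hk1 : 1 ≤ k) (hk : k < 100 ^ m) :
    ∃ y : Fin 100, Wf m l ((m + 4) * k) = some y := by
  obtain ⟨k', rfl⟩ : ∃ k', k = k' + 1 := ⟨k - 1, by omega⟩
  have hk' : k' < 100 ^ m := by omega
  have e : (m + 4) * (k' + 1) = 1 + (m + 4) * k' + (m + 3) := by ring
  refine ⟨dig m k' (m + 3 - 4), ?_⟩
  rw [e, Wf_at m l k' (m + 3) hk' (by omega), if_neg (by omega), if_neg (by omega),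
    if_neg (by omega)]

lemma cyc_parse (hm : 1 ≤ m) (l l' : XL) (k : ℕ) (hk : k < 100 ^ m) (x : ZMod R) (y : Fin 100)
    (hy : HNN.rel (W m) R hR l' x = (some (some y), true))
    (hu : ∀ v < m + 4, HNN.rel (W m) R hR l' (x + ((1 + v : ℕ) : ZMod R)) =
      (some (Wf m l (1 + (m + 4) * k + v)), true)) :
    l' = l ∧ x = (((m + 4) * k : ℕ) : ZMod R) := by
  have hRe := R_eq m R hR
  have hpos := len_pos m
  have hlen : 2 * (m + 4) ≤ len m := by
    unfold len
    have h1 : 100 ≤ 100 ^ m := by
      calc 100 = 100 ^ 1 := by norm_num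
        _ ≤ 100 ^ m := Nat.pow_le_pow_right (by norm_num) hm
    nlinarith
  have W2 : ∀ l'' : XL, Wf m l'' 2 = none := by
    intro l''
    have := Wf_at m l'' 0 1 (by positivity) (by omega)
    simpa using this
  obtain ⟨s, hs, hxs⟩ := val_cases R (x + 1)
  have hx : ∀ v : ℕ, x + ((1 + v : ℕ) : ZMod R) = ((s + v : ℕ) : ZMod R) := by
    intro v
    push_cast
    rw [← add_assoc, hxs]
  have A0 := hu 0 (by omega)
  rw [hx, Wf_at m l k 0 hk (by omega), if_pos (by omega), add_zero] at A0
  obtain ⟨hs1, hs2⟩ := pos_rel m R hR l' s hs none A0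
  rcases Nat.eq_zero_or_pos s with h0 | h0
  · exfalso
    have A2 := hu 2 (by omega)
    rw [hx, h0, zero_add, rel1 m R hR l' 2 (by omega), W2, Wf_at m l k 2 hk (by omega),
      if_neg (by omega), if_pos rfl] at A2
    simp at A2
  rcases Nat.lt_or_ge (s + 1) (len m) with h1 | h1
  · obtain ⟨i, u, hi, hu', hsi⟩ := exists_block m s h0 h1
    have hW := Wf_at m l' i u hi hu'
    rw [← hsi, hs2] at hW
    have hu2 : u < 2 := by
      by_contra hcon
      rw [if_neg hcon] at hW
      split_ifs at hW
    have hu0 : u = 0 := by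
      by_contra hcon
      have hu1 : u = 1 := by omega
      subst hu1
      have e : x = ((1 + (m + 4) * i + 0 : ℕ) : ZMod R) := by
        have : x = ((s : ℕ) : ZMod R) - 1 := by rw [← hxs]; ring
        rw [this, hsi]
        push_cast
        ring
      rw [e, rel1 m R hR l' _ (by omega), Wf_at m l' i 0 hi (by omega), if_pos (by omega)] at hy
      simp at hy
    subst hu0
    have cmp : ∀ v < m + 4, Wf m l' (1 + (m + 4) * i + v) = Wf m l (1 + (m + 4) * k + v) := by
      intro v hv
      have h2 := hu v hv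
      have hb := block_lt m i v hi hv
      rw [hx, hsi, rel1 m R hR l' _ (by omega)] at h2
      simpa using h2
    obtain ⟨c1, c2⟩ := cmp_inj m l l' i k hi hk cmp
    refine ⟨c1, ?_⟩
    have : x = ((s : ℕ) : ZMod R) - 1 := by rw [← hxs]; ring
    rw [this, hsi, c2]
    push_cast
    ring
  · exfalso
    have A1 := hu 1 (by omega)
    rw [hx, show s + 1 = len m by omega, rel2] at A1
    simp at A1

theorem pp_W (hm : 1 ≤ m) (q : ℕ) (hq : 4 * m + 21 ≤ q) (l l' : XL) (i i' : ZMod R)
    (h : ∀ v : ℕ, v < q → HNN.rel (W m) R hR l (i + v) = HNN.rel (W m) R hR l' (i' + v)) :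
    l = l' ∧ i = i' := by
  obtain ⟨u, k, hk1, hk, hu, hiu⟩ := cyc_window m R hR hm i
  obtain ⟨y, hy⟩ := Wf_pre m hm l k hk1 hk
  have key : ∀ v < m + 5, HNN.rel (W m) R hR l' (i' + ((u : ℕ) : ZMod R) + ((v : ℕ) : ZMod R)) =
      (some (Wf m l ((m + 4) * k + v)), true) := by
    intro v hv
    rw [← rel_blk m R hR l k v hk hv]
    have h1 := h (u + v) (by omega)
    have e1 : i + ((u + v : ℕ) : ZMod R) = (((m + 4) * k + v : ℕ) : ZMod R) := by
      rw [Nat.cast_add, ← add_assoc, hiu, ← Nat.cast_add]
    have e2 : i' + ((u + v : ℕ) : ZMod R) = i' + ((u : ℕ) : ZMod R) + ((v : ℕ) : ZMod R) := by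
      rw [Nat.cast_add, ← add_assoc]
    rw [e1, e2] at h1
    exact h1.symm
  have h0 := key 0 (by omega)
  rw [Nat.cast_zero, add_zero, add_zero, hy] at h0
  obtain ⟨c1, c2⟩ := cyc_parse m R hR hm l l' k hk _ y h0 (fun v hv => by
    rw [key (1 + v) (by omega)]
    congr 3
    ring)
  refine ⟨c1.symm, ?_⟩
  rw [← hiu] at c2
  exact (add_right_cancel c2).symm

theorem pp'_W (hm : 1 ≤ m) (q : ℕ) (hq : 4 * m + 21 ≤ q) (l l' : XL) (i i' : ZMod R) :
    ¬ ∀ v : ℕ, v < q → HNN.rel (W m) R hR l (i + v) = linv (HNN.rel (W m) R hR l' (i' - v)) := by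
  intro h
  have hRe := R_eq m R hR
  obtain ⟨u, k, hk1, hk, hu, hiu⟩ := cyc_window m R hR hm i
  have key : ∀ v < m + 5, ∃ s, s = len m + 1 ∧
      i' - ((u + v : ℕ) : ZMod R) = ((s : ℕ) : ZMod R) := by
    intro v hv
    obtain ⟨s, hs, hxs⟩ := val_cases R (i' - ((u + v : ℕ) : ZMod R))
    refine ⟨s, ?_, hxs⟩
    have h1 := h (u + v) (by omega)
    have e1 : i + ((u + v : ℕ) : ZMod R) = (((m + 4) * k + v : ℕ) : ZMod R) := by
      rw [Nat.cast_add, ← add_assoc, hiu, ← Nat.cast_add]
    rw [e1, rel_blk m R hR l k v hk hv, hxs] at h1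
    have h2 := congrArg linv h1
    have h3 : ∀ c : AL × Bool, linv (linv c) = c := by intro c; simp [linv]
    rw [h3] at h2
    exact neg_rel m R hR l' s hs _ h2.symm
  obtain ⟨s, hs, h1⟩ := key 0 (by omega)
  obtain ⟨s', hs', h2⟩ := key 1 (by omega)
  rw [hs] at h1
  rw [hs', ← h1] at h2
  have h3 : (1 : ZMod R) = 0 := by
    have := sub_right_inj.mp h2
    push_cast at this
    linear_combination this
  have h4 : ((1 : ℕ) : ZMod R) = ((0 : ℕ) : ZMod R) := by simpa using h3
  have h5 := congrArg ZMod.val h4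
  rw [ZMod.val_natCast_of_lt (by omega), ZMod.val_natCast_of_lt (by omega)] at h5
  omega

theorem rich_W (j : ℕ) (hj : j ≤ m) (l : XL) (t : Fin j → Fin 100) :
    ∃ i : ZMod R, ∀ v : Fin j,
      HNN.rel (W m) R hR l (i + ((v : ℕ) : ZMod R)) = (some (some (t v)), true) := by
  obtain ⟨k, hk, hd⟩ := dig_surj m (fun x => if h : x.1 < j then t ⟨x.1, h⟩ else 0)
  refine ⟨((1 + (m + 4) * k + 4 : ℕ) : ZMod R), fun v => ?_⟩
  have hv := v.2
  have e : ((1 + (m + 4) * k + 4 : ℕ) : ZMod R) + ((v : ℕ) : ZMod R) =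
      ((1 + (m + 4) * k + (v.1 + 4) : ℕ) : ZMod R) := by
    push_cast
    ring
  have hb := block_lt m k (v.1 + 4) hk (by omega)
  rw [e, rel1 m R hR l _ (by omega), Wf_at m l k (v.1 + 4) hk (by omega), if_neg (by omega),
    if_neg (by omega), if_neg (by omega)]
  have h1 := hd v.1 (by omega)
  have e2 : v.1 + 4 - 4 = v.1 := by omega
  rw [e2, h1]
  show ((some (some (if h : v.1 < j then t ⟨v.1, h⟩ else 0)), true) : AL × Bool) = _
  rw [dif_pos hv]

end cyc

/-- numbers for `m = j + 1` -/
lemma numbers (j : ℕ) (hj : 1 ≤ j) : 8 * (40 * j + 400) + 8 ≤ len (j + 1) + 3 := by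
  unfold len
  have h1 : 100 ^ 2 ≤ 100 ^ (j + 1) := Nat.pow_le_pow_right (by norm_num) (by omega)
  have h2 : (j + 1 + 4) * 100 ^ 2 ≤ (j + 1 + 4) * 100 ^ (j + 1) := Nat.mul_le_mul_left _ h1
  generalize (j + 1 + 4) * 100 ^ (j + 1) = M at h2 ⊢
  norm_num at h2
  linarith

end Words
end Crest.Agent.CP
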