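import Crest.Agent.CPDefs
import Crest.Agent.CPHNN
import Crest.Agent.CPWords
import Crest.Agent.CPDehn

set_option autoImplicit false

namespace Crest.Agent.CP
open MeasureTheory

/-- M15-M17a together (CPGroup.lean). -/
theorem exists_relData (j : ℕ) (hj : 1 ≤ j) :
    ∃ (R : ℕ) (_ : NeZero R) (Γ : Type) (_ : Group Γ) (_ : Countable Γ)
      (D : RelData j R (40 * j + 400) Γ),
      (∀ l, D.ρ none * D.ρ (some l) * (D.ρ none)⁻¹ ∈
        Subgroup.closure (Set.range fun l => D.ρ (some l))) ∧
      (∃ δ : Γ →* Multiplicative ℤ, δ (D.ρ none) = Multiplicative.ofAdd 1 ∧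
        ∀ l, δ (D.ρ (some l)) = 1) ∧
      Function.Injective (FreeGroup.lift (fun i : Fin 100 => D.ρ (some (some i)))) := by
  have hm : 1 ≤ j + 1 := by omega
  have hWOK := Words.WOK_W (j + 1)
  have hφ : Function.Injective (phi (Words.W (j + 1))) := Dehn.phi_injective hWOK
  have hnum := Words.numbers j hj
  haveI : NeZero (Words.len (j + 1) + 3) := ⟨by omega⟩
  have hR : ∀ l, (HNN.relWord (Words.W (j + 1)) l).length = Words.len (j + 1) + 3 := by
    intro l
    rw [HNN.relWord_length, Words.W_length]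
  refine HNN.exists_of_words (phi (Words.W (j + 1))) j (Words.len (j + 1) + 3) (40 * j + 400) hφ
    (Words.W (j + 1)) ?_ hR ?_ ?_ ?_ ?_ ?_ hnum (by omega) (by omega)
  · intro l
    unfold phi
    rw [FreeGroup.lift_apply_of]
  · exact Words.cyc_W (j + 1) _ hR
  · exact Words.pp_W (j + 1) _ hR hm _ (by omega)
  · exact Words.pp'_W (j + 1) _ hR hm _ (by omega)
  · exact Dehn.dp hWOK hφ (Words.SP_W (j + 1) hm (4 * j + 22) (by omega)) (by omega) (by omega)
      (by omega) _ rfl hR
  · exact Words.rich_W (j + 1) _ hR j (by omega)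

end Crest.Agent.CP
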