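import Crest.Agent.CPPath
import Crest.Agent.CPMass
import Crest.Agent.CPFold
import Crest.Agent.CPCore
import Crest.Prelude.Def_Cost

set_option autoImplicit false
set_option linter.unusedSectionVars false

namespace Crest.Agent.CP
open MeasureTheory PG

namespace Init

/-! ### words -/

theorem wval_append {Γ S : Type} [Group Γ] (ρ : S → Γ) (u v : List (S × Bool)) :
    wval ρ (u ++ v) = wval ρ u * wval ρ v := by
  simp [wval]

theorem wval_winv {Γ S : Type} [Group Γ] (ρ : S → Γ) (u : List (S × Bool)) :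
    wval ρ (winv u) = (wval ρ u)⁻¹ := by
  induction u with
  | nil => simp [wval, winv]
  | cons c u ih =>
    have h1 : winv (c :: u) = winv u ++ [linv c] := by simp [winv]
    have h2 : wval ρ (c :: u) = lval ρ c * wval ρ u := by simp [wval]
    rw [h1, wval_append, ih, h2, mul_inv_rev]
    congr 1
    obtain ⟨s, b⟩ := c
    cases b <;> simp [wval, linv, lval]

theorem wval_eq_lift {Γ S : Type} [Group Γ] (ρ : S → Γ) (w : List (S × Bool)) :
    wval ρ w = FreeGroup.lift ρ (FreeGroup.mk w) := by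
  rw [FreeGroup.lift_mk]
  unfold wval lval
  congr 1
  apply List.map_congr_left
  rintro ⟨s, b⟩ _
  cases b <;> simp

theorem red_of_isReduced {S : Type} (w : List (S × Bool)) (h : FreeGroup.IsReduced w) : Red w := by
  unfold Red
  unfold FreeGroup.IsReduced at h
  refine h.imp ?_
  rintro ⟨s, b⟩ ⟨s', b'⟩ h h'
  simp only [linv, Prod.mk.injEq] at h'
  simp only at h
  have := h h'.1.symm
  rw [this] at h'
  simp at h'

theorem exists_red_word {Γ S : Type} [Group Γ] (ρ : S → Γ) (hgen : Subgroup.closure (Set.range ρ) = ⊤)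
    (g : Γ) : ∃ w, Red w ∧ wval ρ w = g := by
  classical
  have hg : g ∈ (FreeGroup.lift ρ).range := by
    rw [FreeGroup.range_lift_eq_closure, hgen]; trivial
  obtain ⟨z, hz⟩ := hg
  refine ⟨z.toWord, red_of_isReduced _ (FreeGroup.isReduced_toWord), ?_⟩
  rw [wval_eq_lift, FreeGroup.mk_toWord, hz]

/-! ### the graph of a family of words -/

section G0
variable {Γ X : Type} [Group Γ] [MeasurableSpace X] [MulAction Γ X]
variable (ρ : AL → Γ) {I : Type} [Countable I] (A : I → Set X) (w : I → List (AL × Bool))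

/-- index of the `t`-th vertex of the path of `p` -/
def idx (p : I) (t : ℕ) : Option (I × ℕ) := if t = 0 ∨ t = (w p).length then none else some (p, t)

/-- value of the first `t` letters -/
def tv (p : I) (t : ℕ) : Γ := wval ρ ((w p).take t)

/-- the `t`-th vertex of the path of `p` starting at `x` -/
def vert (p : I) (t : ℕ) (x : X) : X × Option (I × ℕ) := ((tv ρ w p t)⁻¹ • x, idx w p t)

theorem tv_succ (p : I) (t : ℕ) (d : AL × Bool) (h : (w p)[t]? = some d) :
    tv ρ w p (t + 1) = tv ρ w p t * lval ρ d := by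
  unfold tv
  rw [List.take_add_one, h, wval_append]
  simp [wval]

theorem tv_zero (p : I) : tv ρ w p 0 = 1 := by simp [tv, wval]

theorem lt_of_some {p : I} {t : ℕ} {d : AL × Bool} (h : (w p)[t]? = some d) :
    t < (w p).length := by
  rw [List.getElem?_eq_some_iff] at h
  exact h.1

def V0 : Set (X × Option (I × ℕ)) :=
  {v | v.2 = none ∨ ∃ p t, v.2 = some (p, t) ∧ 0 < t ∧ t < (w p).length ∧ tv ρ w p t • v.1 ∈ A p}

def E0 (s : AL) : Set (X × (Option (I × ℕ) × Option (I × ℕ))) :=
  {e | ∃ p t, ((w p)[t]? = some (s, true) ∧ e.2 = (idx w p t, idx w p (t + 1)) ∧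
      tv ρ w p t • e.1 ∈ A p) ∨
    ((w p)[t]? = some (s, false) ∧ e.2 = (idx w p (t + 1), idx w p t) ∧
      tv ρ w p (t + 1) • e.1 ∈ A p)}

theorem mem_V0 (p : I) (t : ℕ) (y : X) (ht : t ≤ (w p).length) (h : tv ρ w p t • y ∈ A p) :
    (y, idx w p t) ∈ V0 ρ A w := by
  unfold idx
  split_ifs with h1
  · exact Or.inl rfl
  · push_neg at h1
    exact Or.inr ⟨p, t, rfl, Nat.pos_of_ne_zero h1.1, lt_of_le_of_ne ht h1.2, h⟩

variable (hA : ∀ p, MeasurableSet (A p)) (hm : ∀ g : Γ, Measurable (fun x : X => g • x))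

theorem V0_meas (hA : ∀ p, MeasurableSet (A p)) (hm : ∀ g : Γ, Measurable (fun x : X => g • x)) :
    MS (V0 ρ A w) := by
  intro i
  have h1 : {x | (x, i) ∈ V0 ρ A w} = {x | i = none} ∪ ⋃ (p : I) (t : ℕ)
      (_ : i = some (p, t) ∧ 0 < t ∧ t < (w p).length), (fun x : X => tv ρ w p t • x) ⁻¹' (A p) := by
    ext x
    simp only [V0, Set.mem_union, Set.mem_iUnion, Set.mem_preimage, exists_prop]
    constructor
    · rintro (h | ⟨p, t, h1, h2, h3, h4⟩)
      · exact Or.inl h
      · exact Or.inr ⟨p, t, ⟨h1, h2, h3⟩, h4⟩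
    · rintro (h | ⟨p, t, ⟨h1, h2, h3⟩, h4⟩)
      · exact Or.inl h
      · exact Or.inr ⟨p, t, h1, h2, h3, h4⟩
  rw [h1]
  refine (MeasurableSet.const _).union ?_
  exact MeasurableSet.iUnion fun p => MeasurableSet.iUnion fun t => MeasurableSet.iUnion fun _ =>
    hm _ (hA p)

theorem E0_meas (hA : ∀ p, MeasurableSet (A p)) (hm : ∀ g : Γ, Measurable (fun x : X => g • x))
    (s : AL) : MS (E0 ρ A w s) := by
  intro i
  have h1 : {x | (x, i) ∈ E0 ρ A w s} = ⋃ (p : I) (t : ℕ),
      ((⋃ (_ : (w p)[t]? = some (s, true) ∧ i = (idx w p t, idx w p (t + 1))),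
        (fun x : X => tv ρ w p t • x) ⁻¹' (A p)) ∪
      (⋃ (_ : (w p)[t]? = some (s, false) ∧ i = (idx w p (t + 1), idx w p t)),
        (fun x : X => tv ρ w p (t + 1) • x) ⁻¹' (A p))) := by
    ext x
    simp only [E0, Set.mem_union, Set.mem_iUnion, Set.mem_preimage, exists_prop]
    constructor
    · rintro ⟨p, t, ⟨h1, h2, h3⟩ | ⟨h1, h2, h3⟩⟩
      · exact ⟨p, t, Or.inl ⟨⟨h1, h2⟩, h3⟩⟩
      · exact ⟨p, t, Or.inr ⟨⟨h1, h2⟩, h3⟩⟩
    · rintro ⟨p, t, ⟨⟨h1, h2⟩, h3⟩ | ⟨⟨h1, h2⟩, h3⟩⟩
      · exact ⟨p, t, Or.inl ⟨h1, h2, h3⟩⟩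
      · exact ⟨p, t, Or.inr ⟨h1, h2, h3⟩⟩
  rw [h1]
  refine MeasurableSet.iUnion fun p => MeasurableSet.iUnion fun t => MeasurableSet.union ?_ ?_
  · exact MeasurableSet.iUnion fun _ => hm _ (hA p)
  · exact MeasurableSet.iUnion fun _ => hm _ (hA p)

/-- the graph -/
def G0 (hA : ∀ p, MeasurableSet (A p)) (hm : ∀ g : Γ, Measurable (fun x : X => g • x)) :
    PG ρ X (Option (I × ℕ)) where
  V := V0 ρ A w
  E := E0 ρ A w
  o := none
  mV := V0_meas ρ A w hA hm
  mE := E0_meas ρ A w hA hm
  thick x := Or.inl rfl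
  src := by
    rintro s x j k ⟨p, t, ⟨h1, h2, h3⟩ | ⟨h1, h2, h3⟩⟩
    · simp only [Prod.mk.injEq] at h2
      rw [h2.1]
      exact mem_V0 ρ A w p t x (lt_of_some w h1).le h3
    · simp only [Prod.mk.injEq] at h2
      rw [h2.1]
      exact mem_V0 ρ A w p (t + 1) x (lt_of_some w h1) h3
  tgt := by
    rintro s x j k ⟨p, t, ⟨h1, h2, h3⟩ | ⟨h1, h2, h3⟩⟩
    · simp only [Prod.mk.injEq] at h2
      rw [h2.2]
      refine mem_V0 ρ A w p (t + 1) _ (lt_of_some w h1) ?_
      rw [tv_succ ρ w p t _ h1, mul_smul]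
      simp only [lval, if_true, smul_inv_smul]
      exact h3
    · simp only [Prod.mk.injEq] at h2
      rw [h2.2]
      refine mem_V0 ρ A w p t _ (lt_of_some w h1).le ?_
      simp only at h3
      rw [tv_succ ρ w p t _ h1, mul_smul] at h3
      simpa [lval] using h3

/-- steps along the words -/
theorem G0_step (p : I) (t : ℕ) (d : AL × Bool) (h : (w p)[t]? = some d) (x : X) (hx : x ∈ A p) :
    (G0 ρ A w hA hm).step d (vert ρ w p t x) (vert ρ w p (t + 1) x) := by
  obtain ⟨s, b⟩ := d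
  have hs := tv_succ ρ w p t _ h
  cases b
  · unfold PG.step
    simp only [Bool.false_eq_true, if_false]
    refine ⟨?_, p, t, Or.inr ⟨h, rfl, ?_⟩⟩
    · simp only [vert]
      rw [hs]
      simp [lval, mul_smul]
    · simp only [vert, smul_inv_smul]
      exact hx
  · unfold PG.step
    simp only [if_true]
    refine ⟨?_, p, t, Or.inl ⟨h, rfl, ?_⟩⟩
    · simp only [vert]
      rw [hs]
      simp [lval, mul_smul]
    · simp only [vert, smul_inv_smul]
      exact hx

theorem vert_zero (p : I) (x : X) : vert ρ w p 0 x = (x, none) := by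
  simp [vert, tv_zero, idx]

theorem vert_len (p : I) (x : X) :
    vert ρ w p (w p).length x = ((wval ρ (w p))⁻¹ • x, none) := by
  simp [vert, tv, idx]

theorem vert_mem (p : I) (t : ℕ) (ht : t ≤ (w p).length) (x : X) (hx : x ∈ A p) :
    vert ρ w p t x ∈ (G0 ρ A w hA hm).V := by
  refine mem_V0 ρ A w p t _ ht ?_
  rw [smul_inv_smul]; exact hx

/-- contribution of the `t`-th letter -/
def dS (c : AL → X × Option (I × ℕ) → ℝ) (p : I) (x : X) (t : ℕ) : ℝ :=
  match (w p)[t]? with
    | some (s, true) => c s (vert ρ w p t x)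
    | some (s, false) => - c s (vert ρ w p (t + 1) x)
    | none => 0

/-- the sum of a cochain along the first `t` letters -/
def S0 (c : AL → X × Option (I × ℕ) → ℝ) (p : I) (x : X) : ℕ → ℝ
  | 0 => 0
  | t + 1 => S0 c p x t + dS ρ w c p x t

theorem path_take (p : I) (x : X) (hx : x ∈ A p) (c : AL → X × Option (I × ℕ) → ℝ) (t : ℕ) :
    t ≤ (w p).length → (G0 ρ A w hA hm).PS c ((w p).take t) (x, none) (vert ρ w p t x)
      (S0 ρ w c p x t) := by
  induction t with
  | zero =>
    intro _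
    rw [vert_zero]
    exact ⟨Or.inl rfl, rfl, rfl⟩
  | succ t ih =>
    intro ht
    have h1 := ih (by omega)
    have hget : (w p)[t]? = some ((w p)[t]'(by omega)) := List.getElem?_eq_getElem (by omega)
    have h2 : (G0 ρ A w hA hm).PS c [(w p)[t]'(by omega)] (vert ρ w p t x)
        (vert ρ w p (t + 1) x) (dS ρ w c p x t) := by
      refine ⟨vert ρ w p (t + 1) x, 0, G0_step ρ A w hA hm p t _ hget x hx,
        ⟨vert_mem ρ A w hA hm p (t + 1) ht x hx, rfl, rfl⟩, ?_⟩
      unfold dS
      rw [hget]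
      obtain ⟨s, b⟩ := (w p)[t]'(by omega)
      cases b <;> simp
    rw [List.take_add_one, hget]
    exact (ps_append _ _ _ _ _ _ _).mpr ⟨_, _, _, h1, h2, rfl⟩

/-- the potential -/
noncomputable def pot (c : AL → X × Option (I × ℕ) → ℝ) (v : X × Option (I × ℕ)) : ℝ :=
  match v.2 with
  | none => 0
  | some (p, t) => S0 ρ w c p (tv ρ w p t • v.1) t

theorem pot_none (c : AL → X × Option (I × ℕ) → ℝ) (y : X) : pot ρ w c (y, none) = 0 := rfl

theorem pot_vert (c : AL → X × Option (I × ℕ) → ℝ)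
    (hz : ∀ p x, x ∈ A p → S0 ρ w c p x (w p).length = 0)
    (p : I) (t : ℕ) (x : X) (hx : x ∈ A p) : pot ρ w c (vert ρ w p t x) = S0 ρ w c p x t := by
  unfold vert idx
  split_ifs with h
  · rcases h with rfl | rfl
    · rfl
    · rw [hz p x hx]; rfl
  · simp only [pot, smul_inv_smul]

theorem pot_edge (c : AL → X × Option (I × ℕ) → ℝ)
    (hz : ∀ p x, x ∈ A p → S0 ρ w c p x (w p).length = 0)
    (s : AL) (y : X) (j k : Option (I × ℕ)) (h : (y, (j, k)) ∈ E0 ρ A w s) :
    c s (y, j) = pot ρ w c ((ρ s)⁻¹ • y, k) - pot ρ w c (y, j) := by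
  obtain ⟨p, t, ⟨h1, h2, h3⟩ | ⟨h1, h2, h3⟩⟩ := h
  · simp only [Prod.mk.injEq] at h2
    simp only at h3
    have hv : (y, j) = vert ρ w p t (tv ρ w p t • y) := by
      rw [vert, inv_smul_smul, h2.1]
    have hv' : ((ρ s)⁻¹ • y, k) = vert ρ w p (t + 1) (tv ρ w p t • y) := by
      rw [vert, h2.2, tv_succ ρ w p t _ h1]
      simp [lval, mul_smul]
    rw [hv', hv, pot_vert ρ A w c hz p _ _ h3, pot_vert ρ A w c hz p _ _ h3]
    simp only [S0, dS, h1]
    ring
  · simp only [Prod.mk.injEq] at h2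
    simp only at h3
    have hv : (y, j) = vert ρ w p (t + 1) (tv ρ w p (t + 1) • y) := by
      rw [vert, inv_smul_smul, h2.1]
    have hv' : ((ρ s)⁻¹ • y, k) = vert ρ w p t (tv ρ w p (t + 1) • y) := by
      rw [vert, h2.2, tv_succ ρ w p t _ h1]
      simp [lval, mul_smul]
    rw [hv', hv, pot_vert ρ A w c hz p _ _ h3, pot_vert ρ A w c hz p _ _ h3]
    simp only [S0, dS, h1]
    ring

theorem ps_exact (c : AL → X × Option (I × ℕ) → ℝ)
    (hz : ∀ p x, x ∈ A p → S0 ρ w c p x (w p).length = 0)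
    (ω : List (AL × Bool)) (u v : X × Option (I × ℕ)) (t : ℝ)
    (h : (G0 ρ A w hA hm).PS c ω u v t) : t = pot ρ w c v - pot ρ w c u := by
  induction ω generalizing u t with
  | nil =>
    obtain ⟨_, rfl, rfl⟩ := h
    ring
  | cons d ω ih =>
    obtain ⟨z, t', hs, hp, rfl⟩ := h
    rw [ih z t' hp]
    obtain ⟨s, b⟩ := d
    obtain ⟨y, j⟩ := u
    obtain ⟨y', k⟩ := z
    unfold PG.step at hs
    cases b
    · simp only [Bool.false_eq_true, if_false] at hs ⊢
      obtain ⟨h1, h2⟩ := hs
      rw [pot_edge ρ A w c hz s y' k j h2, ← h1]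
      ring
    · simp only [if_true] at hs ⊢
      obtain ⟨h1, h2⟩ := hs
      rw [pot_edge ρ A w c hz s y j k h2, ← h1]
      ring

end G0


section assemble
variable {Γ X : Type} [Group Γ] [Countable Γ] [MeasurableSpace X] [MulAction Γ X]
  {μ : Measure X} [IsProbabilityMeasure μ]
variable {ρ : AL → Γ}

/-- monotonicity of sums -/
theorem ps_sub {ι : Type} (K K' : PG ρ X ι) (hV : K'.V ⊆ K.V) (hE : ∀ s, K'.E s ⊆ K.E s)
    (c : AL → X × ι → ℝ) (ω : List (AL × Bool)) (u v : X × ι) (t : ℝ) (h : K'.PS c ω u v t) :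
    K.PS c ω u v t := by
  induction ω generalizing u t with
  | nil => exact ⟨hV h.1, h.2.1, h.2.2⟩
  | cons d ω ih =>
    obtain ⟨z, t', hs, hp, rfl⟩ := h
    refine ⟨z, t', ?_, ih z t' hp, rfl⟩
    unfold PG.step at hs ⊢
    split_ifs at hs ⊢ with hd
    · exact ⟨hs.1, hE _ hs.2⟩
    · exact ⟨hs.1, hE _ hs.2⟩

theorem vol_fold {ι : Type} [Countable ι] (K : PG ρ X ι) (K' : PG ρ X ℕ) (f : X × ι → ℕ)
    (hMor : Mor K K' f) (hV : ∀ x k, (x, k) ∈ K'.V ↔ ∃ i, (x, i) ∈ K.V ∧ f (x, i) = k) :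
    vol μ K'.V ≤ vol μ K.V := by
  unfold vol
  have h1 : ∀ k, μ {x | (x, k) ∈ K'.V} ≤ ∑' i, μ ({x | (x, i) ∈ K.V} ∩ {x | f (x, i) = k}) := by
    intro k
    refine le_trans (measure_mono ?_) (measure_iUnion_le _)
    intro x hx
    obtain ⟨i, h1, h2⟩ := (hV x k).mp hx
    exact Set.mem_iUnion.mpr ⟨i, h1, h2⟩
  refine le_trans (ENNReal.tsum_le_tsum h1) ?_
  rw [ENNReal.tsum_comm]
  refine ENNReal.tsum_le_tsum fun i => ?_
  have h2 : ∑' k, μ ({x | (x, i) ∈ K.V} ∩ {x | f (x, i) = k}) ≤
      μ (⋃ k, ({x | (x, i) ∈ K.V} ∩ {x | f (x, i) = k})) := by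
    refine tsum_meas_le_meas_iUnion_of_disjoint μ (fun k => (K.mV i).inter (hMor.meas i k)) ?_
    intro k k' hkk'
    refine Set.disjoint_left.mpr ?_
    rintro x ⟨_, h1⟩ ⟨_, h2⟩
    exact hkk' (h1.symm.trans h2)
  refine le_trans h2 (measure_mono ?_)
  intro x hx
  obtain ⟨k, hk⟩ := Set.mem_iUnion.mp hx
  exact hk.1

variable {j R q : ℕ} [NeZero R] (D : RelData j R q Γ)

theorem assemble {I : Type} [Countable I]
    (A : I → Set X) (w : I → List (AL × Bool)) (hA : ∀ p, MeasurableSet (A p))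
    (hm : ∀ g : Γ, Measurable (fun x : X => g • x))
    (hred : ∀ p, Red (w p)) (B : ℕ) (hB : ∀ p, (w p).length ≤ B)
    (F : Finset I) (hF : ∀ p, p ∉ F → A p = ∅) (L : ℕ)
    (hconn : ∀ x s, ∃ ω : List (AL × Bool), ω.length ≤ L ∧
      (G0 D.ρ A w hA hm).Path ω (x, none) ((D.ρ s)⁻¹ • x, none)) :
    ∃ (K : PG D.ρ X ℕ) (P : Set (X × List (AL × Bool))),
      GoodC D μ K P ∅ ∧ vol μ P ≤ ∑' p, μ (A p) := by
  classical
  obtain ⟨K1, f, ho1, hF1, hMor, hV1, hE1, hlift, htriv⟩ := fold_exists2 hm (G0 D.ρ A w hA hm)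
  have hfo : ∀ x, f (x, none) = K1.o := fun x => hMor.o x
  have hfull : ∀ p x, x ∈ A p → ∀ c, (G0 D.ρ A w hA hm).PS c (w p) (x, none)
      ((wval D.ρ (w p))⁻¹ • x, none) (S0 D.ρ w c p x (w p).length) := by
    intro p x hx c
    have := path_take D.ρ A w hA hm p x hx c (w p).length le_rfl
    rw [List.take_length, vert_len] at this
    exact this
  have hBG1 : K1.BG := by
    refine ⟨max L B, ?_, ?_⟩
    · intro x s
      obtain ⟨ω, hl, hp⟩ := hconn x s
      refine ⟨ω, hl.trans (le_max_left _ _), ?_⟩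
      have := path_map _ K1 f hMor ω _ _ hp
      simp only at this
      rw [hfo, hfo] at this
      exact this
    · rintro ⟨x, k⟩ hv
      obtain ⟨i, hi, hfi⟩ := (hV1 x k).mp hv
      rcases hi with hi | ⟨p, t, hi, ht0, ht, hA'⟩
      · simp only at hi
        subst hi
        refine ⟨[], x, by simp, hv, ?_⟩
        rw [← hfi, hfo]
      · simp only at hi hA'
        subst hi
        have h1 := path_take D.ρ A w hA hm p _ hA' (fun _ _ => 0) t ht.le
        have h2 := ps_path _ _ _ _ _ _ h1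
        have h3 : vert D.ρ w p t (tv D.ρ w p t • x) = (x, some (p, t)) := by
          unfold vert idx
          rw [inv_smul_smul, if_neg]
          push Not
          exact ⟨ht0.ne', ht.ne⟩
        rw [h3] at h2
        have h4 := (path_winv _ _ _ _).mpr h2
        have h5 := path_map _ K1 f hMor _ _ _ h4
        simp only at h5
        rw [hfi, hfo] at h5
        refine ⟨winv ((w p).take t), tv D.ρ w p t • x, ?_, h5⟩
        rw [winv_length]
        refine le_trans ?_ (le_max_right _ _)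
        refine le_trans ?_ (hB p)
        simp
  obtain ⟨K2, ho2, hV2, hE2, hF2, hPr2, hBG2, hkeep, _, _⟩ := core_exists hm K1 hF1 hBG1
  refine ⟨K2, {e | ∃ p, e.2 = w p ∧ e.1 ∈ A p}, ?_, ?_⟩
  · have hPpath : ∀ p x, x ∈ A p → K2.Path (w p) (x, K2.o) ((wval D.ρ (w p))⁻¹ • x, K2.o) := by
      intro p x hx
      have h1 := ps_path _ _ _ _ _ _ (hfull p x hx (fun _ _ => 0))
      have h2 := path_map _ K1 f hMor _ _ _ h1
      simp only at h2
      rw [hfo, hfo] at h2
      rw [ho2]
      exact hkeep _ _ _ (hred p) h2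
    refine
    { o0 := ho2.trans ho1
      folded := hF2
      pruned := hPr2
      bg := hBG2
      fin := ?_
      mP := ?_
      Pbd := ⟨B, ?_⟩
      Ppath := ?_
      mC := fun i => by simp
      CC := Set.empty_subset _
      gen := ?_ }
    · -- finite volume
      have h1 : vol μ K2.V ≤ vol μ K1.V :=
        ENNReal.tsum_le_tsum fun i => measure_mono fun x hx => hV2 hx
      have h2 := vol_fold (μ := μ) _ K1 f hMor hV1
      have h3 : vol μ (G0 D.ρ A w hA hm).V ≠ ⊤ := by
        unfold vol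
        rw [tsum_eq_sum (s := Finset.insertNone (F ×ˢ Finset.range B))]
        · exact (ENNReal.sum_lt_top.mpr fun i _ => measure_lt_top _ _).ne
        · intro i hi
          have : {x | (x, i) ∈ (G0 D.ρ A w hA hm).V} = ∅ := by
            ext x
            simp only [Set.mem_empty_iff_false, iff_false]
            rintro (h | ⟨p, t, h, h1, h2, h3⟩)
            · apply hi
              simp only at h
              rw [h]
              exact Finset.none_mem_insertNone
            · apply hi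
              simp only at h
              rw [h]
              rw [Finset.some_mem_insertNone, Finset.mem_product, Finset.mem_range]
              refine ⟨?_, lt_of_lt_of_le h2 (hB p)⟩
              by_contra hp
              rw [hF p hp] at h3
              exact h3
          rw [this, measure_empty]
      exact ne_top_of_le_ne_top h3 (h1.trans h2)
    · intro w'
      have : {x | (x, w') ∈ {e : X × List (AL × Bool) | ∃ p, e.2 = w p ∧ e.1 ∈ A p}} =
          ⋃ (p : I) (_ : w' = w p), A p := by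
        ext x
        simp
      rw [this]
      exact MeasurableSet.iUnion fun p => MeasurableSet.iUnion fun _ => hA p
    · rintro x w' ⟨p, h1, h2⟩
      simp only at h1
      rw [h1]; exact hB p
    · rintro x w' ⟨p, h1, h2⟩
      simp only at h1 h2
      subst h1
      exact ⟨_, hPpath p x h2⟩
    · -- generation
      intro c _ hP ω x y t ht
      set c0 : AL → X × Option (I × ℕ) → ℝ := fun s w => c s (w.1, f w) with hc0
      have hz : ∀ p x, x ∈ A p → S0 D.ρ w c0 p x (w p).length = 0 := by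
        intro p x hx
        have h1 := hfull p x hx c0
        have h2 := ps_map _ K1 f hMor c _ _ _ _ h1
        simp only at h2
        rw [hfo, hfo, ← ho2] at h2
        obtain ⟨t2, h3⟩ := ps_exists K2 c _ _ _ (hPpath p x hx)
        have h4 := hP x (w p) ⟨p, rfl, hx⟩ _ _ h3
        subst h4
        have h5 := ps_sub K1 K2 hV2 hE2 c _ _ _ _ h3
        exact (ps_unique K1 hF1 c _ _ rfl _ _ _ _ _ h2 h5).2
      have h1 := ps_sub K1 K2 hV2 hE2 c _ _ _ _ ht
      rw [ho2, ← hfo x] at h1
      obtain ⟨ω', i', h2, h3, h4⟩ := hlift c ω x none _ t (Or.inl rfl) h1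
      simp only at h2 h3
      have h5 := ps_exact D.ρ A w hA hm c0 hz _ _ _ _ h2
      have hVi : (y, i') ∈ (G0 D.ρ A w hA hm).V := path_tgt _ (ps_path _ _ _ _ _ _ h2)
      obtain ⟨β, hβ1, hβ2⟩ := htriv y i' none hVi (Or.inl rfl) (by rw [h3, hfo, hfo])
      obtain ⟨tβ, h6⟩ := ps_exists _ c0 _ _ _ hβ2
      have h7 := ps_exact D.ρ A w hA hm c0 hz _ _ _ _ h6
      have h8 := ps_map _ K1 f hMor c _ _ _ _ h6
      simp only at h8
      rw [h3, hfo, hfo] at h8
      have h9 : K1.PS c [] (y, K1.o) (y, K1.o) 0 := ⟨K1.thick y, rfl, rfl⟩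
      have h10 := (ps_unique K1 hF1 c _ _ (by rw [hβ1]; rfl) _ _ _ _ _ h8 h9).2
      rw [pot_none] at h5 h7
      linarith
  · -- volume of P
    unfold vol
    have h1 : ∀ w', μ {x | (x, w') ∈ {e : X × List (AL × Bool) | ∃ p, e.2 = w p ∧ e.1 ∈ A p}} ≤
        ∑' p, if w' = w p then μ (A p) else 0 := by
      intro w'
      have : {x | (x, w') ∈ {e : X × List (AL × Bool) | ∃ p, e.2 = w p ∧ e.1 ∈ A p}} ⊆
          ⋃ p, (if w' = w p then A p else ∅) := by
        rintro x ⟨p, h1, h2⟩
        refine Set.mem_iUnion.mpr ⟨p, ?_⟩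
        simp only at h1 h2
        rw [if_pos h1]; exact h2
      refine le_trans (measure_mono this) (le_trans (measure_iUnion_le _) ?_)
      refine ENNReal.tsum_le_tsum fun p => ?_
      split_ifs
      · exact le_rfl
      · simp
    refine le_trans (ENNReal.tsum_le_tsum h1) ?_
    rw [ENNReal.tsum_comm]
    refine ENNReal.tsum_le_tsum fun p => ?_
    rw [tsum_ite_eq]

end assemble


section chains
variable {Γ X : Type} [Group Γ] [MulAction Γ X] (Φ : ℕ → Γ × Set X)

/-- chains of steps of the graphing -/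
def Ch : List (ℕ × Bool) → X → X → Prop
  | [], x, y => x = y
  | e :: l, x, y => ∃ z, (if e.2 = true then x ∈ (Φ e.1).2 ∧ z = (Φ e.1).1 • x
      else z ∈ (Φ e.1).2 ∧ x = (Φ e.1).1 • z) ∧ Ch l z y

theorem ch_append (l l' : List (ℕ × Bool)) (x y z : X) (h : Ch Φ l x y) (h' : Ch Φ l' y z) :
    Ch Φ (l ++ l') x z := by
  induction l generalizing x with
  | nil => rw [Ch] at h; subst h; exact h'
  | cons e l ih =>
    obtain ⟨u, h1, h2⟩ := h
    exact ⟨u, h1, ih u h2⟩

theorem ch_symm (l : List (ℕ × Bool)) (x y : X) (h : Ch Φ l x y) :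
    ∃ l', Ch Φ l' y x := by
  induction l generalizing x with
  | nil => rw [Ch] at h; exact ⟨[], h.symm⟩
  | cons e l ih =>
    obtain ⟨u, h1, h2⟩ := h
    obtain ⟨l', h3⟩ := ih u h2
    obtain ⟨i, b⟩ := e
    refine ⟨l' ++ [(i, !b)], ch_append Φ _ _ _ _ _ h3 ⟨x, ?_, rfl⟩⟩
    cases b
    · simpa using h1
    · simpa using h1

theorem ch_of_eqvGen (x y : X) (h : Relation.EqvGen (Crest.Dynamics.GraphingStep Φ) x y) :
    ∃ l, Ch Φ l x y := by
  induction h with
  | rel x y h =>
    obtain ⟨i, h1, h2⟩ := h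
    exact ⟨[(i, true)], y, by simpa using ⟨h1, h2⟩, rfl⟩
  | refl x => exact ⟨[], rfl⟩
  | symm x y _ ih =>
    obtain ⟨l, hl⟩ := ih
    exact ch_symm Φ l x y hl
  | trans x y z _ _ ih1 ih2 =>
    obtain ⟨l, hl⟩ := ih1
    obtain ⟨l', hl'⟩ := ih2
    exact ⟨_, ch_append Φ _ _ _ _ _ hl hl'⟩

theorem ch_meas [MeasurableSpace X] (hm : ∀ g : Γ, Measurable (fun x : X => g • x))
    (hΦ : ∀ i, MeasurableSet (Φ i).2) [Countable Γ]
    (hfree : ∀ (g : Γ) (x : X), g • x = x → g = 1) (l : List (ℕ × Bool)) (g : Γ) :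
    MeasurableSet {x | Ch Φ l x (g • x)} := by
  induction l generalizing g with
  | nil =>
    by_cases hg : g = 1
    · have : {x : X | Ch Φ [] x (g • x)} = Set.univ := by
        ext x; simp [Ch, hg]
      rw [this]; exact MeasurableSet.univ
    · have : {x : X | Ch Φ [] x (g • x)} = ∅ := by
        ext x
        simp only [Ch, Set.mem_empty_iff_false, iff_false]
        intro h
        exact hg (hfree g x h.symm)
      rw [this]; exact MeasurableSet.empty
  | cons e l ih =>
    obtain ⟨i, b⟩ := e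
    cases b
    · have : {x | Ch Φ ((i, false) :: l) x (g • x)} = (fun x : X => (Φ i).1⁻¹ • x) ⁻¹'
          ((Φ i).2 ∩ {z | Ch Φ l z ((g * (Φ i).1) • z)}) := by
        ext x
        simp only [Ch, Set.mem_preimage, Set.mem_inter_iff, Bool.false_eq_true, if_false]
        constructor
        · rintro ⟨z, ⟨h1, h2⟩, h3⟩
          have hz : (Φ i).1⁻¹ • x = z := by rw [h2, inv_smul_smul]
          rw [hz]
          refine ⟨h1, ?_⟩
          show Ch Φ l z ((g * (Φ i).1) • z)
          rw [mul_smul, ← h2]; exact h3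
        · rintro ⟨h1, h2⟩
          refine ⟨_, ⟨h1, (smul_inv_smul _ _).symm⟩, ?_⟩
          have h3 : Ch Φ l ((Φ i).1⁻¹ • x) ((g * (Φ i).1) • (Φ i).1⁻¹ • x) := h2
          rw [mul_smul, smul_inv_smul] at h3
          exact h3
      rw [this]
      exact hm _ ((hΦ i).inter (ih _))
    · have : {x | Ch Φ ((i, true) :: l) x (g • x)} = (Φ i).2 ∩ (fun x : X => (Φ i).1 • x) ⁻¹'
          {z | Ch Φ l z ((g * (Φ i).1⁻¹) • z)} := by
        ext x
        simp only [Ch, Set.mem_preimage, Set.mem_inter_iff, if_true]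
        constructor
        · rintro ⟨z, ⟨h1, h2⟩, h3⟩
          refine ⟨h1, ?_⟩
          show Ch Φ l ((Φ i).1 • x) ((g * (Φ i).1⁻¹) • (Φ i).1 • x)
          rw [mul_smul, inv_smul_smul, ← h2]; exact h3
        · rintro ⟨h1, h2⟩
          refine ⟨_, ⟨h1, rfl⟩, ?_⟩
          have h3 : Ch Φ l ((Φ i).1 • x) ((g * (Φ i).1⁻¹) • (Φ i).1 • x) := h2
          rw [mul_smul, inv_smul_smul] at h3
          exact h3
      rw [this]
      exact (hΦ i).inter (hm _ (ih _))

end chains

end Init

open Init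

variable {Γ X : Type} [Group Γ] [Countable Γ] [MeasurableSpace X] [MulAction Γ X]
  {μ : Measure X} [IsProbabilityMeasure μ]
  (hmp : ∀ g : Γ, MeasurePreserving (fun x : X => g • x) μ μ)
  (hfree : ∀ (g : Γ) (x : X), g • x = x → g = 1)
  {j R q : ℕ} [NeZero R] (D : RelData j R q Γ)

include hmp hfree

/- ## M14 (CPInit.lean): from a cheap graphing to a good graph field -/
theorem init_graph (Φ : ℕ → Γ × Set X) (hΦ : ∀ i, MeasurableSet (Φ i).2)
    (hgen : ∀ (x : X) (g : Γ), Relation.EqvGen (Crest.Dynamics.GraphingStep Φ) x (g • x))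
    (hcost : Crest.Dynamics.graphingCost μ Φ < 1 + 1 / 1000) :
    ∃ (K : PG D.ρ X ℕ) (P : Set (X × List (AL × Bool))),
      GoodC D μ K P ∅ ∧ vol μ P ≤ 1 + 1 / 1000 := by
  classical
  have hm : ∀ g : Γ, Measurable (fun x : X => g • x) := fun g => (hmp g).measurable
  -- good points
  set S : AL → ℕ → Set X := fun s n => ⋃ (l : List (ℕ × Bool))
    (_ : (∀ e ∈ l, e.1 < n) ∧ l.length ≤ n), {x | Ch Φ l x ((D.ρ s)⁻¹ • x)} with hS
  have hSm : ∀ s n, MeasurableSet (S s n) := fun s n =>
    MeasurableSet.iUnion fun l => MeasurableSet.iUnion fun _ => ch_meas Φ hm hΦ hfree l _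
  have hSmono : ∀ s, Monotone (S s) := by
    intro s n n' hnn x hx
    simp only [hS, Set.mem_iUnion] at hx ⊢
    obtain ⟨l, ⟨h1, h2⟩, h3⟩ := hx
    exact ⟨l, ⟨fun e he => lt_of_lt_of_le (h1 e he) hnn, h2.trans hnn⟩, h3⟩
  have hSall : ∀ s x, ∃ n, x ∈ S s n := by
    intro s x
    obtain ⟨l, hl⟩ := ch_of_eqvGen Φ x _ (hgen x ((D.ρ s)⁻¹))
    refine ⟨(l.map (fun e => e.1 + 1)).sum + l.length, ?_⟩
    simp only [hS, Set.mem_iUnion]
    refine ⟨l, ⟨?_, by omega⟩, hl⟩
    intro e he
    have : e.1 + 1 ≤ (l.map (fun e => e.1 + 1)).sum :=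
      List.single_le_sum (by simp) _ (List.mem_map.mpr ⟨e, he, rfl⟩)
    omega
  have htend : ∀ s, Filter.Tendsto (fun n => μ ((S s n)ᶜ)) Filter.atTop (nhds 0) := by
    intro s
    have h1 : ⋂ n, (S s n)ᶜ = ∅ := by
      ext x
      simp only [Set.mem_iInter, Set.mem_compl_iff, Set.mem_empty_iff_false, iff_false, not_forall,
        not_not]
      exact hSall s x
    have h2 := tendsto_measure_iInter_atTop (μ := μ) (s := fun n => (S s n)ᶜ)
      (fun n => (hSm s n).compl.nullMeasurableSet)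
      (fun n n' h => Set.compl_subset_compl.mpr (hSmono s h)) ⟨0, measure_ne_top _ _⟩
    rw [h1, measure_empty] at h2
    exact h2
  have htend2 : Filter.Tendsto (fun n => ∑ s : AL, μ ((S s n)ᶜ)) Filter.atTop (nhds 0) := by
    have := tendsto_finsetSum (Finset.univ : Finset AL) (fun s _ => htend s)
    simpa using this
  set δ : ENNReal := (1 + 1 / 1000) - Crest.Dynamics.graphingCost μ Φ with hδ
  have hδ0 : 0 < δ := tsub_pos_of_lt hcost
  obtain ⟨n, hn⟩ := ((tendsto_order.mp htend2).2 δ hδ0).exists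
  -- words
  have hword : ∀ i, ∃ w, Red w ∧ wval D.ρ w = ((Φ i).1)⁻¹ := fun i =>
    exists_red_word D.ρ D.gen _
  choose W hWred hWval using hword
  set A : ℕ ⊕ AL → Set X := fun p => match p with
    | Sum.inl i => if i < n then (Φ i).2 else ∅
    | Sum.inr s => (S s n)ᶜ with hA
  set w : ℕ ⊕ AL → List (AL × Bool) := fun p => match p with
    | Sum.inl i => if i < n then W i else []
    | Sum.inr s => [(s, true)] with hw
  have hAm : ∀ p, MeasurableSet (A p) := by
    rintro (i | s)
    · simp only [hA]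
      split_ifs
      · exact hΦ i
      · exact MeasurableSet.empty
    · exact (hSm s n).compl
  set B : ℕ := (Finset.range n).sup (fun i => (W i).length) + 1 with hB
  have hWB : ∀ i, i < n → (W i).length ≤ B := by
    intro i hi
    have : (W i).length ≤ (Finset.range n).sup (fun i => (W i).length) :=
      Finset.le_sup (f := fun i => (W i).length) (Finset.mem_range.mpr hi)
    omega
  have hpath : ∀ (l : List (ℕ × Bool)) (x y : X), (∀ e ∈ l, e.1 < n) → Ch Φ l x y →
      ∃ ω : List (AL × Bool), ω.length ≤ l.length * B ∧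
        (G0 D.ρ A w hAm hm).Path ω (x, none) (y, none) := by
    intro l
    induction l with
    | nil =>
      intro x y _ h
      rw [Ch] at h
      subst h
      exact ⟨[], by simp, Or.inl rfl, rfl⟩
    | cons e l ih =>
      intro x y he h
      obtain ⟨z, h1, h2⟩ := h
      obtain ⟨ω, hl, hp⟩ := ih z y (fun e' he' => he e' (List.mem_cons_of_mem _ he')) h2
      obtain ⟨i, b⟩ := e
      have hi : i < n := he (i, b) List.mem_cons_self
      have hstep : ∀ u : X, u ∈ (Φ i).2 →
          (G0 D.ρ A w hAm hm).Path (W i) (u, none) ((Φ i).1 • u, none) := by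
        intro u hu
        have hu' : u ∈ A (Sum.inl i) := by simp only [hA]; rw [if_pos hi]; exact hu
        have hwi : w (Sum.inl i) = W i := by simp only [hw]; rw [if_pos hi]
        have h3 := path_take D.ρ A w hAm hm (Sum.inl i) u hu' (fun _ _ => 0)
          (w (Sum.inl i)).length le_rfl
        rw [List.take_length, vert_len] at h3
        have h4 := ps_path _ _ _ _ _ _ h3
        rw [hwi, hWval, inv_inv] at h4
        exact h4
      have hlen : ((i, b) :: l).length * B = l.length * B + B := by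
        rw [List.length_cons]; ring
      cases b
      · simp only [Bool.false_eq_true, if_false] at h1
        refine ⟨winv (W i) ++ ω, ?_, (path_append _ _ _ _ _).mpr ⟨(z, none), ?_, hp⟩⟩
        · rw [List.length_append, winv_length, hlen]
          have := hWB i hi
          omega
        · rw [path_winv, h1.2]
          exact hstep z h1.1
      · simp only [if_true] at h1
        refine ⟨W i ++ ω, ?_, (path_append _ _ _ _ _).mpr ⟨(z, none), ?_, hp⟩⟩
        · rw [List.length_append, hlen]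
          have := hWB i hi
          omega
        · rw [h1.2]
          exact hstep x h1.1
  obtain ⟨K, P, hK, hP⟩ := assemble (μ := μ) D A w hAm hm (by
      rintro (i | s)
      · simp only [hw]
        split_ifs
        · exact hWred i
        · simp [Red]
      · simp [hw, Red]) B (by
      rintro (i | s)
      · simp only [hw]
        split_ifs with h
        · exact hWB i h
        · simp
      · simp [hw, hB]) ((Finset.range n).disjSum Finset.univ) (by
      rintro (i | s) h
      · rw [Finset.inl_mem_disjSum, Finset.mem_range] at h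
        simp only [hA]; rw [if_neg h]
      · rw [Finset.inr_mem_disjSum] at h
        exact absurd (Finset.mem_univ s) h) (n * B + 1) (by
      intro x s
      by_cases hx : x ∈ S s n
      · simp only [hS, Set.mem_iUnion] at hx
        obtain ⟨l, ⟨h1, h2⟩, h3⟩ := hx
        obtain ⟨ω, hl, hp⟩ := hpath l x _ h1 h3
        refine ⟨ω, ?_, hp⟩
        have : l.length * B ≤ n * B := Nat.mul_le_mul_right _ h2
        omega
      · refine ⟨[(s, true)], by simp, ?_⟩
        have h3 := path_take D.ρ A w hAm hm (Sum.inr s) x (by simp only [hA]; exact hx)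
          (fun _ _ => 0) (w (Sum.inr s)).length le_rfl
        rw [List.take_length, vert_len] at h3
        have h4 := ps_path _ _ _ _ _ _ h3
        simpa [hw, wval, lval] using h4)
  refine ⟨K, P, hK, hP.trans ?_⟩
  rw [tsum_eq_sum (s := (Finset.range n).disjSum (Finset.univ : Finset AL))]
  · rw [Finset.sum_disjSum]
    have h1 : ∑ i ∈ Finset.range n, μ (A (Sum.inl i)) ≤ Crest.Dynamics.graphingCost μ Φ := by
      unfold Crest.Dynamics.graphingCost
      refine le_trans (Finset.sum_le_sum fun i hi => ?_) (ENNReal.sum_le_tsum (Finset.range n))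
      simp only [hA]
      rw [if_pos (Finset.mem_range.mp hi)]
    refine le_trans (add_le_add h1 hn.le) ?_
    rw [hδ, add_tsub_cancel_of_le hcost.le]
  · rintro (i | s) h
    · rw [Finset.inl_mem_disjSum, Finset.mem_range] at h
      simp only [hA]; rw [if_neg h]; exact measure_empty
    · rw [Finset.inr_mem_disjSum] at h
      exact absurd (Finset.mem_univ s) h

end Crest.Agent.CP
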