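import Crest.Agent.CPPath
import Crest.Agent.CPMass
import Crest.Agent.CPExcess

set_option autoImplicit false

namespace Crest.Agent.CP
open MeasureTheory PG

variable {Γ X : Type} [Group Γ] [Countable Γ] [MeasurableSpace X] [MulAction Γ X]
  {μ : Measure X} [IsProbabilityMeasure μ]
  (hmp : ∀ g : Γ, MeasurePreserving (fun x : X => g • x) μ μ)
  (hfree : ∀ (g : Γ) (x : X), g • x = x → g = 1)
  {j R q : ℕ} [NeZero R] (D : RelData j R q Γ)

namespace Iso

open Classical in
theorem lvl1 (n : ENNReal) :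
    ∑' t : ℕ, (if ((t : ENNReal) + 1 ≤ n) then (1 : ENNReal) else 0) ≤ n := by
  have key : ∀ N : ℕ, (∑ t ∈ Finset.range N, (if ((t : ENNReal) + 1 ≤ n) then (1 : ENNReal) else 0))
      ≤ n ∧ (∑ t ∈ Finset.range N, (if ((t : ENNReal) + 1 ≤ n) then (1 : ENNReal) else 0)) ≤ N := by
    intro N
    induction N with
    | zero => simp
    | succ N ih =>
      rw [Finset.sum_range_succ]
      split_ifs with h
      · refine ⟨le_trans (add_le_add ih.2 le_rfl) h, ?_⟩
        push_cast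
        exact add_le_add ih.2 le_rfl
      · rw [add_zero]
        refine ⟨ih.1, ih.2.trans ?_⟩
        push_cast
        exact le_self_add
  exact ENNReal.tsum_le_of_sum_range_le fun N => (key N).1

open Classical in
theorem lvl2 (n : ℕ) (a b : ENNReal) (ha : (n : ENNReal) ≤ a) (hb : (n : ENNReal) ≤ b) :
    (n : ENNReal) ≤ ∑' t : ℕ, (if ((t : ENNReal) + 1 ≤ a ∧ (t : ENNReal) + 1 ≤ b)
      then (1 : ENNReal) else 0) := by
  calc (n : ENNReal) = ∑ t ∈ Finset.range n, (if ((t : ENNReal) + 1 ≤ a ∧ (t : ENNReal) + 1 ≤ b)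
      then (1 : ENNReal) else 0) := by
        rw [Finset.sum_congr rfl (g := fun _ => (1 : ENNReal))]
        · simp
        · intro t ht
          rw [Finset.mem_range] at ht
          have h : (t : ENNReal) + 1 ≤ n := by
            have : ((t + 1 : ℕ) : ENNReal) ≤ n := by exact_mod_cast ht
            simpa using this
          rw [if_pos ⟨h.trans ha, h.trans hb⟩]
    _ ≤ _ := ENNReal.sum_le_tsum _

open Classical in
/-- fibre count -/
noncomputable def cnt {κ : Type} (Y : Set (X × κ)) (x : X) : ENNReal :=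
  ∑' k, (if (x, k) ∈ Y then (1 : ENNReal) else 0)

theorem cnt_meas {κ : Type} [Countable κ] (Y : Set (X × κ)) (mY : MS Y) :
    Measurable (cnt Y) := by
  classical
  refine Measurable.tsum fun k => ?_
  exact Measurable.ite (mY k) measurable_const measurable_const

theorem cnt_int {κ : Type} [Countable κ] (Y : Set (X × κ)) (mY : MS Y) :
    ∫⁻ x, cnt Y x ∂μ = vol μ Y := by
  classical
  unfold cnt vol
  rw [lintegral_tsum]
  · congr 1
    funext k
    rw [← lintegral_indicator_one (mY k)]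
    congr 1
  · intro k
    exact (Measurable.ite (mY k) measurable_const measurable_const).aemeasurable

theorem sum_lvl {κ : Type} [Countable κ] (Y : Set (X × κ)) (mY : MS Y) :
    ∑' t : ℕ, μ {x | (t : ENNReal) + 1 ≤ cnt Y x} ≤ vol μ Y := by
  classical
  rw [← cnt_int Y mY]
  have hm : ∀ t : ℕ, MeasurableSet {x | (t : ENNReal) + 1 ≤ cnt Y x} := fun t =>
    measurableSet_le measurable_const (cnt_meas Y mY)
  calc ∑' t : ℕ, μ {x | (t : ENNReal) + 1 ≤ cnt Y x}
      = ∑' t : ℕ, ∫⁻ x, (if ((t : ENNReal) + 1 ≤ cnt Y x) then (1 : ENNReal) else 0) ∂μ := by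
        congr 1
        funext t
        rw [← lintegral_indicator_one (hm t)]
        congr 1
        funext x
        simp [Set.indicator_apply]
    _ = ∫⁻ x, ∑' t : ℕ, (if ((t : ENNReal) + 1 ≤ cnt Y x) then (1 : ENNReal) else 0) ∂μ := by
        rw [lintegral_tsum]
        intro t
        exact (Measurable.ite (hm t) measurable_const measurable_const).aemeasurable
    _ ≤ ∫⁻ x, cnt Y x ∂μ := lintegral_mono fun x => lvl1 _

/-- one letter -/
theorem one_letter (hm : ∀ g : Γ, Measurable (fun x : X => g • x)) {ρ : AL → Γ} (K : PG ρ X ℕ)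
    (hF : K.Folded) (Y Z : Set (X × ℕ)) (mY : MS Y) (mZ : MS Z) (s : AL) :
    ∑' p : ℕ × ℕ, μ {x | (x, p) ∈ K.E s ∧ (x, p.1) ∈ Y ∧ ((ρ s)⁻¹ • x, p.2) ∈ Z} ≤
      ∑' t : ℕ, μ ({x | (t : ENNReal) + 1 ≤ cnt Y x} ∩
        {x | (ρ s)⁻¹ • x ∈ {x | (t : ENNReal) + 1 ≤ cnt Z x}}) := by
  classical
  have hmS : ∀ p : ℕ × ℕ, MeasurableSet {x | (x, p) ∈ K.E s ∧ (x, p.1) ∈ Y ∧
      ((ρ s)⁻¹ • x, p.2) ∈ Z} := fun p =>
    (K.mE s p).inter ((mY p.1).inter ((hm _) (mZ p.2)))
  have hmA : ∀ t : ℕ, MeasurableSet ({x | (t : ENNReal) + 1 ≤ cnt Y x} ∩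
        {x | (ρ s)⁻¹ • x ∈ {x | (t : ENNReal) + 1 ≤ cnt Z x}}) := fun t =>
    (measurableSet_le measurable_const (cnt_meas Y mY)).inter
      ((hm _) (measurableSet_le measurable_const (cnt_meas Z mZ)))
  calc ∑' p : ℕ × ℕ, μ {x | (x, p) ∈ K.E s ∧ (x, p.1) ∈ Y ∧ ((ρ s)⁻¹ • x, p.2) ∈ Z}
      = ∑' p : ℕ × ℕ, ∫⁻ x, (if ((x, p) ∈ K.E s ∧ (x, p.1) ∈ Y ∧ ((ρ s)⁻¹ • x, p.2) ∈ Z)
          then (1 : ENNReal) else 0) ∂μ := by
        congr 1
        funext p
        rw [← lintegral_indicator_one (hmS p)]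
        congr 1
        funext x
        simp only [Set.indicator_apply, Set.mem_ofPred_eq, Pi.one_apply]
    _ = ∫⁻ x, ∑' p : ℕ × ℕ, (if ((x, p) ∈ K.E s ∧ (x, p.1) ∈ Y ∧ ((ρ s)⁻¹ • x, p.2) ∈ Z)
          then (1 : ENNReal) else 0) ∂μ := by
        rw [lintegral_tsum]
        intro p
        exact (Measurable.ite (hmS p) measurable_const measurable_const).aemeasurable
    _ ≤ ∫⁻ x, ∑' t : ℕ, (if ((t : ENNReal) + 1 ≤ cnt Y x ∧
          (t : ENNReal) + 1 ≤ cnt Z ((ρ s)⁻¹ • x)) then (1 : ENNReal) else 0) ∂μ := by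
        apply lintegral_mono
        intro x
        simp only
        apply ENNReal.summable.tsum_le_of_sum_le
        intro F
        rw [← Finset.sum_filter, Finset.sum_const, nsmul_eq_mul, mul_one]
        set G := F.filter (fun p : ℕ × ℕ => (x, p) ∈ K.E s ∧ (x, p.1) ∈ Y ∧
          ((ρ s)⁻¹ • x, p.2) ∈ Z) with hG
        have hGm : ∀ p ∈ G, (x, p) ∈ K.E s ∧ (x, p.1) ∈ Y ∧ ((ρ s)⁻¹ • x, p.2) ∈ Z := by
          intro p hp
          rw [hG, Finset.mem_filter] at hp
          exact hp.2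
        apply lvl2
        · have hinj : Set.InjOn (fun p : ℕ × ℕ => p.1) (G : Set (ℕ × ℕ)) := by
            intro p hp p' hp' h
            have h1 := (hGm p hp).1
            have h2 := (hGm p' hp').1
            have s1 : K.step (s, true) (x, p.1) ((ρ s)⁻¹ • x, p.2) := by
              simp only [step, if_true]; exact ⟨trivial, h1⟩
            have s2 : K.step (s, true) (x, p.1) ((ρ s)⁻¹ • x, p'.2) := by
              simp only [step, if_true]
              refine ⟨trivial, ?_⟩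
              simp only at h
              rw [h]; exact h2
            have := hF _ _ _ _ s1 s2
            exact Prod.ext h (Prod.mk.inj this).2
          unfold cnt
          calc (G.card : ENNReal) = ((G.image (fun p : ℕ × ℕ => p.1)).card : ENNReal) := by
                rw [Finset.card_image_of_injOn hinj]
            _ = ∑ k ∈ G.image (fun p : ℕ × ℕ => p.1), (if (x, k) ∈ Y then (1 : ENNReal) else 0) := by
                rw [Finset.sum_congr rfl (g := fun _ => (1 : ENNReal))]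
                · simp
                · intro k hk
                  rw [Finset.mem_image] at hk
                  obtain ⟨p, hp, rfl⟩ := hk
                  rw [if_pos (hGm p hp).2.1]
            _ ≤ _ := ENNReal.sum_le_tsum _
        · have hinj : Set.InjOn (fun p : ℕ × ℕ => p.2) (G : Set (ℕ × ℕ)) := by
            intro p hp p' hp' h
            have h1 := (hGm p hp).1
            have h2 := (hGm p' hp').1
            have s1 : K.step (s, false) ((ρ s)⁻¹ • x, p.2) (x, p.1) := by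
              simp only [step, Bool.false_eq_true, if_false]; exact ⟨trivial, h1⟩
            have s2 : K.step (s, false) ((ρ s)⁻¹ • x, p.2) (x, p'.1) := by
              simp only [step, Bool.false_eq_true, if_false]
              refine ⟨trivial, ?_⟩
              simp only at h
              rw [h]; exact h2
            have := hF _ _ _ _ s1 s2
            exact Prod.ext (Prod.mk.inj this).2 h
          unfold cnt
          calc (G.card : ENNReal) = ((G.image (fun p : ℕ × ℕ => p.2)).card : ENNReal) := by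
                rw [Finset.card_image_of_injOn hinj]
            _ = ∑ k ∈ G.image (fun p : ℕ × ℕ => p.2),
                (if ((ρ s)⁻¹ • x, k) ∈ Z then (1 : ENNReal) else 0) := by
                rw [Finset.sum_congr rfl (g := fun _ => (1 : ENNReal))]
                · simp
                · intro k hk
                  rw [Finset.mem_image] at hk
                  obtain ⟨p, hp, rfl⟩ := hk
                  rw [if_pos (hGm p hp).2.2]
            _ ≤ _ := ENNReal.sum_le_tsum _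
    _ = ∑' t : ℕ, ∫⁻ x, (if ((t : ENNReal) + 1 ≤ cnt Y x ∧
          (t : ENNReal) + 1 ≤ cnt Z ((ρ s)⁻¹ • x)) then (1 : ENNReal) else 0) ∂μ := by
        rw [lintegral_tsum]
        intro t
        exact (Measurable.ite (hmA t) measurable_const measurable_const).aemeasurable
    _ = _ := by
        congr 1
        funext t
        rw [← lintegral_indicator_one (hmA t)]
        congr 1
        funext x
        simp only [Set.indicator_apply, Set.mem_inter_iff, Set.mem_ofPred_eq, Pi.one_apply]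

theorem real_ineq (a b : ℝ) (ha : 0 ≤ a) (hb : 0 ≤ b) (ha' : a ≤ 1 / 50) (hb' : b ≤ 1 / 50) :
    100 * a * b + 20 * Real.sqrt (a * b) ≤ 11 * (a + b) := by
  have h1 : Real.sqrt (a * b) ≤ (a + b) / 2 := by
    apply Real.sqrt_le_iff.2
    constructor
    · positivity
    · nlinarith [sq_nonneg (a - b)]
  have h2 : 100 * a * b ≤ a + b := by nlinarith
  linarith

include hmp

theorem small_case {ρ : AL → Γ}
    (hG : Gap μ (fun i => (ρ (some (some i)))⁻¹)) (K : PG ρ X ℕ) (hF : K.Folded)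
    (Y Z : Set (X × ℕ)) (mY : MS Y) (mZ : MS Z)
    (hy : vol μ Y ≤ 1 / 50) (hz : vol μ Z ≤ 1 / 50) :
    ∑ i : Fin 100, ∑' p : ℕ × ℕ, μ {x | (x, p) ∈ K.E (some (some i)) ∧ (x, p.1) ∈ Y ∧
      ((ρ (some (some i)))⁻¹ • x, p.2) ∈ Z} ≤ 11 * (vol μ Y + vol μ Z) := by
  classical
  have hm : ∀ g : Γ, Measurable (fun x : X => g • x) := fun g => (hmp g).measurable
  set A : ℕ → Set X := fun t => {x | (t : ENNReal) + 1 ≤ cnt Y x} with hA
  set B : ℕ → Set X := fun t => {x | (t : ENNReal) + 1 ≤ cnt Z x} with hB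
  have mA : ∀ t, MeasurableSet (A t) := fun t =>
    measurableSet_le measurable_const (cnt_meas Y mY)
  have mB : ∀ t, MeasurableSet (B t) := fun t =>
    measurableSet_le measurable_const (cnt_meas Z mZ)
  have hAs : ∑' t, μ (A t) ≤ vol μ Y := sum_lvl Y mY
  have hBs : ∑' t, μ (B t) ≤ vol μ Z := sum_lvl Z mZ
  have key : ∀ t, ∑ i : Fin 100, μ (A t ∩ {x | (ρ (some (some i)))⁻¹ • x ∈ B t}) ≤
      11 * (μ (A t) + μ (B t)) := by
    intro t
    have h1 : μ (A t) ≤ 1 / 50 := (ENNReal.le_tsum t).trans (hAs.trans hy)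
    have h2 : μ (B t) ≤ 1 / 50 := (ENNReal.le_tsum t).trans (hBs.trans hz)
    have e50 : (1 / 50 : ENNReal).toReal = 1 / 50 := by
      simp
    have g1 : (μ (A t)).toReal ≤ 1 / 50 := by
      rw [← e50]
      exact ENNReal.toReal_mono (by simp) h1
    have g2 : (μ (B t)).toReal ≤ 1 / 50 := by
      rw [← e50]
      exact ENNReal.toReal_mono (by simp) h2
    have g3 := hG (A t) (B t) (mA t) (mB t)
    have g4 := g3.trans (real_ineq _ _ ENNReal.toReal_nonneg ENNReal.toReal_nonneg g1 g2)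
    have e1 : (∑ i : Fin 100, μ (A t ∩ {x | (ρ (some (some i)))⁻¹ • x ∈ B t})).toReal =
        ∑ i : Fin 100, (μ (A t ∩ {x | (ρ (some (some i)))⁻¹ • x ∈ B t})).toReal :=
      ENNReal.toReal_sum (fun i _ => measure_ne_top _ _)
    have e2 : (11 * (μ (A t) + μ (B t))).toReal = 11 * ((μ (A t)).toReal + (μ (B t)).toReal) := by
      rw [ENNReal.toReal_mul, ENNReal.toReal_add (measure_ne_top _ _) (measure_ne_top _ _)]
      simp
    rw [← ENNReal.toReal_le_toReal]
    · rw [e1, e2]; exact g4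
    · exact ENNReal.sum_ne_top.2 (fun i _ => measure_ne_top _ _)
    · exact ENNReal.mul_ne_top (by simp) (ENNReal.add_ne_top.2 ⟨measure_ne_top _ _, measure_ne_top _ _⟩)
  calc ∑ i : Fin 100, ∑' p : ℕ × ℕ, μ {x | (x, p) ∈ K.E (some (some i)) ∧ (x, p.1) ∈ Y ∧
      ((ρ (some (some i)))⁻¹ • x, p.2) ∈ Z}
      ≤ ∑ i : Fin 100, ∑' t : ℕ, μ (A t ∩ {x | (ρ (some (some i)))⁻¹ • x ∈ B t}) :=
        Finset.sum_le_sum fun i _ => one_letter hm K hF Y Z mY mZ _
    _ = ∑' t : ℕ, ∑ i : Fin 100, μ (A t ∩ {x | (ρ (some (some i)))⁻¹ • x ∈ B t}) := by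
        rw [Summable.tsum_finsetSum]
        intro i _
        exact ENNReal.summable
    _ ≤ ∑' t : ℕ, 11 * (μ (A t) + μ (B t)) := ENNReal.tsum_le_tsum key
    _ = 11 * (∑' t, μ (A t) + ∑' t, μ (B t)) := by
        rw [ENNReal.tsum_mul_left, ENNReal.tsum_add]
    _ ≤ 11 * (vol μ Y + vol μ Z) := by
        gcongr

end Iso

open Iso

include hmp hfree

/- ## M10 (CPIso.lean): richness: number of rich x-edges from `Y` to `Z` -/
theorem iso {ρ : AL → Γ} (hgen : Subgroup.closure (Set.range ρ) = ⊤)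
    (hG : Gap μ (fun i => (ρ (some (some i)))⁻¹)) (K : PG ρ X ℕ) (hF : K.Folded) (hBG : K.BG)
    (hfin : vol μ K.V ≠ ⊤) (hex : vol μ K.ES ≤ vol μ K.V + 1 / 500)
    (Y Z : Set (X × ℕ)) (mY : MS Y) (mZ : MS Z) (hY : Y ⊆ K.V) (hZ : Z ⊆ K.V) :
    vol μ {e | e ∈ K.ES ∧ (∃ i : Fin 100, e.2.1 = some (some i)) ∧ (e.1, e.2.2.1) ∈ Y ∧
        ((ρ e.2.1)⁻¹ • e.1, e.2.2.2) ∈ Z}
      ≤ 11 * (vol μ Y + vol μ Z) := by
  classical
  by_cases hc : vol μ Y ≤ 1 / 50 ∧ vol μ Z ≤ 1 / 50
  · refine le_trans (le_of_eq ?_) (small_case hmp hG K hF Y Z mY mZ hc.1 hc.2)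
    unfold vol
    rw [ENNReal.tsum_prod', tsum_fintype, Fintype.sum_option, Fintype.sum_option]
    have h0 : ∑' b : ℕ × ℕ, μ {x : X | (x, (none, b)) ∈ {e : X × (AL × ℕ × ℕ) | e ∈ K.ES ∧
        (∃ i : Fin 100, e.2.1 = some (some i)) ∧ (e.1, e.2.2.1) ∈ Y ∧
        ((ρ e.2.1)⁻¹ • e.1, e.2.2.2) ∈ Z}} = 0 := by
      rw [ENNReal.tsum_eq_zero]
      intro b
      simp
    have h1 : ∑' b : ℕ × ℕ, μ {x : X | (x, (some none, b)) ∈ {e : X × (AL × ℕ × ℕ) | e ∈ K.ES ∧
        (∃ i : Fin 100, e.2.1 = some (some i)) ∧ (e.1, e.2.2.1) ∈ Y ∧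
        ((ρ e.2.1)⁻¹ • e.1, e.2.2.2) ∈ Z}} = 0 := by
      rw [ENNReal.tsum_eq_zero]
      intro b
      simp
    rw [h0, h1, zero_add, zero_add]
    apply Finset.sum_congr rfl
    intro i _
    congr 1
    funext p
    congr 1
    ext x
    simp only [Set.mem_ofPred_eq, ES]
    constructor
    · rintro ⟨a, _, b, c⟩
      exact ⟨a, b, c⟩
    · rintro ⟨a, b, c⟩
      exact ⟨a, ⟨i, rfl⟩, b, c⟩
  · -- large case
    have hyz : (1 / 50 : ENNReal) ≤ vol μ Y + vol μ Z := by
      rw [not_and_or, not_le, not_le] at hc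
      rcases hc with h | h
      · exact h.le.trans le_self_add
      · exact h.le.trans le_add_self
    have hfinE : vol μ K.ES ≠ ⊤ := by
      refine ne_top_of_le_ne_top ?_ hex
      exact ENNReal.add_ne_top.2 ⟨hfin, by simp⟩
    have hU : MS (Y ∪ Z) := fun i => by
      have := (mY i).union (mZ i)
      exact this
    have hle : vol μ (Y ∪ Z) ≤ vol μ Y + vol μ Z := by
      unfold vol
      rw [← ENNReal.tsum_add]
      exact ENNReal.tsum_le_tsum fun i => measure_union_le _ _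
    have hYle : vol μ Y ≤ vol μ (Y ∪ Z) :=
      ENNReal.tsum_le_tsum fun i => measure_mono fun x hx => Or.inl hx
    have hZle : vol μ Z ≤ vol μ (Y ∪ Z) :=
      ENNReal.tsum_le_tsum fun i => measure_mono fun x hx => Or.inr hx
    have hpos : vol μ (Y ∪ Z) ≠ 0 := by
      intro h
      rw [h] at hYle hZle
      have h1 : vol μ Y = 0 := le_antisymm hYle (zero_le)
      have h2 : vol μ Z = 0 := le_antisymm hZle (zero_le)
      rw [h1, h2, add_zero] at hyz
      simp at hyz
    have h := subset_excess hmp hfree hgen hG K hBG hfin hfinE (Y ∪ Z) hU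
      (Set.union_subset hY hZ) hpos
    have h2 : vol μ {e | e ∈ K.ES ∧ (e.1, e.2.2.1) ∈ Y ∪ Z ∧ ((ρ e.2.1)⁻¹ • e.1, e.2.2.2) ∈ Y ∪ Z}
        ≤ vol μ (Y ∪ Z) + 1 / 500 := by
      have h3 := h.trans (add_le_add le_rfl hex)
      rw [add_comm (vol μ K.V), ← add_assoc] at h3
      exact (ENNReal.add_le_add_iff_right hfin).1 h3
    calc vol μ {e | e ∈ K.ES ∧ (∃ i : Fin 100, e.2.1 = some (some i)) ∧ (e.1, e.2.2.1) ∈ Y ∧
        ((ρ e.2.1)⁻¹ • e.1, e.2.2.2) ∈ Z}
        ≤ vol μ {e | e ∈ K.ES ∧ (e.1, e.2.2.1) ∈ Y ∪ Z ∧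
          ((ρ e.2.1)⁻¹ • e.1, e.2.2.2) ∈ Y ∪ Z} := by
          refine ENNReal.tsum_le_tsum fun i => measure_mono ?_
          rintro x ⟨a, _, b, c⟩
          exact ⟨a, Or.inl b, Or.inr c⟩
      _ ≤ vol μ (Y ∪ Z) + 1 / 500 := h2
      _ ≤ (vol μ Y + vol μ Z) + (vol μ Y + vol μ Z) := by
          refine add_le_add hle (le_trans ?_ hyz)
          apply ENNReal.div_le_div_left
          norm_num
      _ ≤ 11 * (vol μ Y + vol μ Z) := by
          rw [← two_mul]
          gcongr
          norm_num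

end Crest.Agent.CP
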