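import Mathlib

/-!
# Row 191: Hilbert space part of the kernel lemma
-/

set_option autoImplicit false

namespace Crest.Agent.CP

open ContinuousLinearMap

section hilb
variable {H K : Type} [NormedAddCommGroup H] [InnerProductSpace ℝ H] [CompleteSpace H]
  [NormedAddCommGroup K] [InnerProductSpace ℝ K] [CompleteSpace K]

local notation "⟪" x ", " y "⟫" => inner ℝ x y

/-- `1 - C⁻¹ Θ* Θ` -/
noncomputable def TT (Θ : H →L[ℝ] K) (C : ℝ) : H →L[ℝ] H :=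
  1 - C⁻¹ • ((adjoint Θ) ∘L Θ)

theorem TT_apply (Θ : H →L[ℝ] K) (C : ℝ) (f : H) :
    TT Θ C f = f - C⁻¹ • (adjoint Θ (Θ f)) := by
  simp [TT]

theorem inner_TT (Θ : H →L[ℝ] K) (C : ℝ) (f g : H) :
    ⟪TT Θ C f, g⟫ = ⟪f, g⟫ - C⁻¹ * ⟪Θ f, Θ g⟫ := by
  rw [TT_apply, inner_sub_left, inner_smul_left, adjoint_inner_left]
  simp

theorem inner_TT_symm (Θ : H →L[ℝ] K) (C : ℝ) (f g : H) :
    ⟪TT Θ C f, g⟫ = ⟪f, TT Θ C g⟫ := by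
  rw [inner_TT, real_inner_comm (TT Θ C g) f, inner_TT, real_inner_comm g f,
    real_inner_comm (Θ g) (Θ f)]

theorem inner_TT_nonneg (Θ : H →L[ℝ] K) (C : ℝ) (hC : 0 < C)
    (hΘ : ∀ f, ‖Θ f‖ ^ 2 ≤ C * ‖f‖ ^ 2) (f : H) : 0 ≤ ⟪TT Θ C f, f⟫ := by
  rw [inner_TT, real_inner_self_eq_norm_sq, real_inner_self_eq_norm_sq, sub_nonneg]
  rw [inv_mul_le_iff₀ hC]
  exact hΘ f

theorem norm_TT_sq (Θ : H →L[ℝ] K) (C : ℝ) (hC : 0 < C)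
    (hΘ' : ∀ g, ‖adjoint Θ g‖ ^ 2 ≤ C * ‖g‖ ^ 2) (f : H) :
    ‖TT Θ C f‖ ^ 2 ≤ ‖f‖ ^ 2 - C⁻¹ * ‖Θ f‖ ^ 2 := by
  have h1 : ‖TT Θ C f‖ ^ 2 = ‖f‖ ^ 2 - 2 * (C⁻¹ * ‖Θ f‖ ^ 2) + C⁻¹ ^ 2 * ‖adjoint Θ (Θ f)‖ ^ 2 := by
    rw [TT_apply, norm_sub_sq_real, inner_smul_right, norm_smul, mul_pow,
      adjoint_inner_right, real_inner_self_eq_norm_sq]
    simp
  have h2 := hΘ' (Θ f)
  have h3 : C⁻¹ ^ 2 * ‖adjoint Θ (Θ f)‖ ^ 2 ≤ C⁻¹ * ‖Θ f‖ ^ 2 := by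
    calc C⁻¹ ^ 2 * ‖adjoint Θ (Θ f)‖ ^ 2 ≤ C⁻¹ ^ 2 * (C * ‖Θ f‖ ^ 2) :=
          mul_le_mul_of_nonneg_left h2 (by positivity)
      _ = C⁻¹ * ‖Θ f‖ ^ 2 := by field_simp
  rw [h1]; linarith

theorem norm_TT_le (Θ : H →L[ℝ] K) (C : ℝ) (hC : 0 < C)
    (hΘ' : ∀ g, ‖adjoint Θ g‖ ^ 2 ≤ C * ‖g‖ ^ 2) (f : H) : ‖TT Θ C f‖ ≤ ‖f‖ := by
  have h := norm_TT_sq Θ C hC hΘ' f
  have h2 : 0 ≤ C⁻¹ * ‖Θ f‖ ^ 2 := by positivity
  exact le_of_sq_le_sq (by linarith) (norm_nonneg _)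

theorem norm_TT_pow_le (Θ : H →L[ℝ] K) (C : ℝ) (hC : 0 < C)
    (hΘ' : ∀ g, ‖adjoint Θ g‖ ^ 2 ≤ C * ‖g‖ ^ 2) (m : ℕ) (f : H) :
    ‖(TT Θ C ^ m) f‖ ≤ ‖f‖ := by
  induction m with
  | zero => simp
  | succ m ih =>
    rw [pow_succ', mul_apply_eq_comp]
    exact (norm_TT_le Θ C hC hΘ' _).trans ih

theorem inner_TT_pow_symm (Θ : H →L[ℝ] K) (C : ℝ) (m : ℕ) (f g : H) :
    ⟪(TT Θ C ^ m) f, g⟫ = ⟪f, (TT Θ C ^ m) g⟫ := by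
  induction m generalizing f g with
  | zero => simp
  | succ m ih =>
    calc ⟪(TT Θ C ^ (m + 1)) f, g⟫ = ⟪TT Θ C ((TT Θ C ^ m) f), g⟫ := by
          rw [pow_succ', mul_apply_eq_comp]
      _ = ⟪f, (TT Θ C ^ m) (TT Θ C g)⟫ := by rw [inner_TT_symm, ih]
      _ = ⟪f, (TT Θ C ^ (m + 1)) g⟫ := by rw [pow_succ, mul_apply_eq_comp]

theorem inner_TT_pow_two_mul (Θ : H →L[ℝ] K) (C : ℝ) (m : ℕ) (f : H) :
    ⟪(TT Θ C ^ (2 * m)) f, f⟫ = ‖(TT Θ C ^ m) f‖ ^ 2 := by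
  rw [two_mul, pow_add, mul_apply_eq_comp, inner_TT_pow_symm,
    real_inner_self_eq_norm_sq]

theorem inner_TT_pow_nonneg (Θ : H →L[ℝ] K) (C : ℝ) (hC : 0 < C)
    (hΘ : ∀ f, ‖Θ f‖ ^ 2 ≤ C * ‖f‖ ^ 2) (m : ℕ) (f : H) :
    0 ≤ ⟪(TT Θ C ^ m) f, f⟫ := by
  obtain ⟨k, hk | hk⟩ := Nat.even_or_odd' m
  · rw [hk, inner_TT_pow_two_mul]; positivity
  · rw [hk, two_mul, add_assoc, pow_add, mul_apply_eq_comp, inner_TT_pow_symm,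
      pow_succ', mul_apply_eq_comp]
    exact inner_TT_nonneg Θ C hC hΘ _

theorem inner_TT_pow_le (Θ : H →L[ℝ] K) (C : ℝ) (hC : 0 < C)
    (hΘ' : ∀ g, ‖adjoint Θ g‖ ^ 2 ≤ C * ‖g‖ ^ 2) (m : ℕ) (f : H) :
    ⟪(TT Θ C ^ m) f, f⟫ ≤ ‖f‖ ^ 2 := by
  calc ⟪(TT Θ C ^ m) f, f⟫ ≤ ‖(TT Θ C ^ m) f‖ * ‖f‖ := real_inner_le_norm _ _
    _ ≤ ‖f‖ * ‖f‖ := mul_le_mul_of_nonneg_right (norm_TT_pow_le Θ C hC hΘ' m f) (norm_nonneg _)
    _ = ‖f‖ ^ 2 := by ring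

/-- partial sums of powers -/
noncomputable def SS (Θ : H →L[ℝ] K) (C : ℝ) (m : ℕ) : H →L[ℝ] H :=
  ∑ k ∈ Finset.range m, TT Θ C ^ k

theorem sub_TT_pow (Θ : H →L[ℝ] K) (C : ℝ) (m : ℕ) (f : H) :
    f - (TT Θ C ^ m) f = C⁻¹ • adjoint Θ (Θ (SS Θ C m f)) := by
  induction m with
  | zero => simp [SS]
  | succ m ih =>
    have h1 : SS Θ C (m + 1) = SS Θ C m + TT Θ C ^ m := by
      simp [SS, Finset.sum_range_succ]
    rw [h1, add_apply, map_add, map_add, smul_add, ← ih, pow_succ',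
      mul_apply_eq_comp, TT_apply]
    abel

theorem TT_comm (Θ : H →L[ℝ] K) (C : ℝ) (m : ℕ) (f : H) :
    Θ ((TT Θ C ^ m) f) = (TT (adjoint Θ) C ^ m) (Θ f) := by
  induction m generalizing f with
  | zero => simp
  | succ m ih =>
    rw [pow_succ, mul_apply_eq_comp, ih, pow_succ, mul_apply_eq_comp]
    congr 1
    rw [TT_apply, TT_apply, adjoint_adjoint, map_sub, map_smul]

theorem SS_comm (Θ : H →L[ℝ] K) (C : ℝ) (m : ℕ) (f : H) :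
    Θ (SS Θ C m f) = SS (adjoint Θ) C m (Θ f) := by
  simp only [SS, sum_apply, map_sum]
  exact Finset.sum_congr rfl fun k _ => TT_comm Θ C k f

/-- diagonal identity, domain side -/
theorem diagB (Θ : H →L[ℝ] K) (C : ℝ) (m : ℕ) (f : H) :
    ‖f‖ ^ 2 - ⟪(TT Θ C ^ m) f, f⟫ = C⁻¹ * ⟪Θ (SS Θ C m f), Θ f⟫ := by
  rw [← real_inner_self_eq_norm_sq, ← inner_sub_left, sub_TT_pow, inner_smul_left,
    adjoint_inner_left]
  simp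

/-- diagonal identity, target side -/
theorem diagA (Θ : H →L[ℝ] K) (C : ℝ) (m : ℕ) (g : K) :
    ‖g‖ ^ 2 - ⟪(TT (adjoint Θ) C ^ m) g, g⟫ = C⁻¹ * ⟪adjoint Θ g, adjoint (Θ ∘L SS Θ C m) g⟫ := by
  rw [← real_inner_self_eq_norm_sq, ← inner_sub_left, sub_TT_pow, inner_smul_left,
    adjoint_adjoint]
  have h := SS_comm (adjoint Θ) C m g
  rw [adjoint_adjoint] at h
  rw [h, adjoint_inner_right]
  simp

theorem norm_SS_le (Θ : H →L[ℝ] K) (C : ℝ) (hC : 0 < C)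
    (hΘ' : ∀ g, ‖adjoint Θ g‖ ^ 2 ≤ C * ‖g‖ ^ 2) (m : ℕ) (f : H) :
    ‖SS Θ C m f‖ ≤ m * ‖f‖ := by
  simp only [SS, sum_apply]
  calc ‖∑ k ∈ Finset.range m, (TT Θ C ^ k) f‖ ≤ ∑ k ∈ Finset.range m, ‖(TT Θ C ^ k) f‖ :=
        norm_sum_le _ _
    _ ≤ ∑ k ∈ Finset.range m, ‖f‖ := Finset.sum_le_sum fun k _ => norm_TT_pow_le Θ C hC hΘ' k f
    _ = m * ‖f‖ := by simp

open Filter Topology in
/-- powers tend to zero in norm when the projection to the kernel is orthogonal to `f` -/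
theorem tendsto_norm_TT (Θ : H →L[ℝ] K) (C : ℝ) (hC : 0 < C)
    (hΘ' : ∀ g, ‖adjoint Θ g‖ ^ 2 ≤ C * ‖g‖ ^ 2) (f : H)
    (hf : ∀ p : H, Θ p = 0 → ⟪p, f⟫ = 0) :
    Tendsto (fun m => ‖(TT Θ C ^ m) f‖ ^ 2) atTop (𝓝 0) := by
  obtain ⟨U, hU⟩ : ∃ U : H →L[ℝ] H, U = TT Θ C ^ 2 := ⟨_, rfl⟩
  have hUa : ∀ x, U x = TT Θ C (TT Θ C x) := by
    intro x; rw [hU, pow_two, mul_apply_eq_comp]
  have hT1 : ‖U‖ ≤ 1 := by
    refine ContinuousLinearMap.opNorm_le_bound _ zero_le_one fun x => ?_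
    rw [one_mul, hU]; exact norm_TT_pow_le Θ C hC hΘ' 2 x
  have key := ContinuousLinearMap.tendsto_birkhoffAverage_orthogonalProjection U hT1 f
  obtain ⟨P, hPm, hP⟩ : ∃ P : H, U P = P ∧
      (((U.eqLocus (1 : H →L[ℝ] H)).orthogonalProjectionOnto f : _) : H) = P := by
    refine ⟨_, ?_, rfl⟩
    have h0 := ((U.eqLocus (1 : H →L[ℝ] H)).orthogonalProjectionOnto f).2
    rw [LinearMap.mem_eqLocus] at h0
    exact h0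
  rw [hP] at key
  have hPker : Θ P = 0 := by
    have h1 : ‖P‖ ^ 2 ≤ ‖P‖ ^ 2 - C⁻¹ * ‖Θ P‖ ^ 2 := by
      calc ‖P‖ ^ 2 = ‖TT Θ C (TT Θ C P)‖ ^ 2 := by rw [← hUa, hPm]
        _ ≤ ‖TT Θ C P‖ ^ 2 := by
            have := norm_TT_le Θ C hC hΘ' (TT Θ C P)
            exact pow_le_pow_left₀ (norm_nonneg _) this 2
        _ ≤ _ := norm_TT_sq Θ C hC hΘ' _
    have h2 : C⁻¹ * ‖Θ P‖ ^ 2 ≤ 0 := by linarith
    have h3 : ‖Θ P‖ ^ 2 ≤ 0 := by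
      by_contra h
      push Not at h
      have : 0 < C⁻¹ * ‖Θ P‖ ^ 2 := by positivity
      linarith
    have h4 : ‖Θ P‖ = 0 := by
      have := sq_nonneg ‖Θ P‖
      exact pow_eq_zero_iff (two_ne_zero) |>.1 (le_antisymm h3 this)
    exact norm_eq_zero.1 h4
  have hP0 : ⟪P, f⟫ = 0 := hf _ hPker
  have hlim : Tendsto (fun n : ℕ => ⟪birkhoffAverage ℝ (U : H → H) _root_.id n f, f⟫)
      atTop (𝓝 0) := by
    rw [← hP0]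
    exact key.inner tendsto_const_nhds
  have hit : ∀ (k : ℕ), (U : H → H)^[k] f = (TT Θ C ^ (2 * k)) f := by
    intro k
    induction k with
    | zero => simp
    | succ k ih =>
      rw [Function.iterate_succ_apply', ih, hUa, show 2 * (k + 1) = (2 * k + 1) + 1 by ring,
        pow_succ', mul_apply_eq_comp, pow_succ', mul_apply_eq_comp]
  have hform : ∀ n : ℕ, ⟪birkhoffAverage ℝ (U : H → H) _root_.id n f, f⟫
      = (n : ℝ)⁻¹ * ∑ k ∈ Finset.range n, ‖(TT Θ C ^ k) f‖ ^ 2 := by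
    intro n
    rw [birkhoffAverage, inner_smul_left, birkhoffSum, sum_inner]
    simp only [id, map_inv₀, conj_trivial]
    congr 1
    refine Finset.sum_congr rfl fun k _ => ?_
    rw [hit]
    exact inner_TT_pow_two_mul Θ C k f
  simp only [hform] at hlim
  have hlim' := hlim.comp (tendsto_add_atTop_nat 1)
  refine squeeze_zero (fun m => by positivity) (fun m => ?_) hlim'
  simp only [Function.comp]
  have hanti : ∀ k ∈ Finset.range (m + 1), ‖(TT Θ C ^ m) f‖ ^ 2 ≤ ‖(TT Θ C ^ k) f‖ ^ 2 := by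
    intro k hk
    have hk' : k ≤ m := Nat.lt_succ_iff.1 (Finset.mem_range.1 hk)
    obtain ⟨l, rfl⟩ := Nat.exists_eq_add_of_le hk'
    rw [add_comm, pow_add, mul_apply_eq_comp]
    exact pow_le_pow_left₀ (norm_nonneg _) (norm_TT_pow_le Θ C hC hΘ' l _) 2
  have := Finset.sum_le_sum hanti
  simp only [Finset.sum_const, Finset.card_range, nsmul_eq_mul] at this
  have hpos : (0 : ℝ) < ((m + 1 : ℕ) : ℝ) := by positivity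
  rw [le_inv_mul_iff₀ hpos]
  exact this

end hilb

end Crest.Agent.CP
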