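import Mathlib

/-!
# Row 191: matrix operators on `ℓ²`
-/

set_option autoImplicit false

namespace Crest.Agent.CP

open ContinuousLinearMap

/-- real `ℓ²` -/
abbrev HH (β : Type) := lp (fun _ : β => ℝ) 2

section mat
variable {α β : Type}

local notation "⟪" x ", " y "⟫" => inner ℝ x y

theorem HH_inner (f g : HH β) : ⟪f, g⟫ = ∑' u, f u * g u := by
  rw [lp.inner_eq_tsum]
  refine tsum_congr fun u => ?_
  simp [mul_comm]

theorem HH_summable_sq (f : HH β) : Summable fun u => f u ^ 2 := by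
  have := lp.summable_inner (𝕜 := ℝ) f f
  refine this.congr fun u => ?_
  simp [pow_two]

theorem HH_norm_sq (f : HH β) : ‖f‖ ^ 2 = ∑' u, f u ^ 2 := by
  rw [← real_inner_self_eq_norm_sq, HH_inner]
  exact tsum_congr fun u => (pow_two _).symm

theorem HH_ofReal (f : HH β) : ENNReal.ofReal (‖f‖ ^ 2) = ∑' u, ENNReal.ofReal (f u ^ 2) := by
  rw [HH_norm_sq, ENNReal.ofReal_tsum_of_nonneg (fun u => sq_nonneg _) (HH_summable_sq f)]

theorem mem_HH_of (g : α → ℝ) (h : ∑' v, ENNReal.ofReal (g v ^ 2) ≠ ⊤) :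
    Memℓp (E := fun _ : α => ℝ) g 2 := by
  refine memℓp_gen ?_
  have h1 := ENNReal.summable_toReal h
  refine h1.congr fun v => ?_
  rw [ENNReal.toReal_ofReal (sq_nonneg _)]
  simp

variable (θ : α → β → ℝ) (c : ℝ) (d : ℕ)

theorem mat_bound (hc : ∀ v u, |θ v u| ≤ c)
    (hd1 : ∀ v, {u | θ v u ≠ 0}.encard ≤ d) (hd2 : ∀ u, {v | θ v u ≠ 0}.encard ≤ d)
    (f : β → ℝ) :
    ∑' v, ENNReal.ofReal ((∑ᶠ u, θ v u * f u) ^ 2)
      ≤ ENNReal.ofReal ((c * d) ^ 2) * ∑' u, ENNReal.ofReal (f u ^ 2) := by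
  classical
  have hrow : ∀ v, ENNReal.ofReal ((∑ᶠ u, θ v u * f u) ^ 2)
      ≤ ∑' u, Set.indicator {p : α × β | θ p.1 p.2 ≠ 0}
          (fun p => ENNReal.ofReal (d * (c ^ 2 * f p.2 ^ 2))) (v, u) := by
    intro v
    obtain ⟨hfin, hcard⟩ := Set.encard_le_coe_iff_finite_ncard_le.1 (hd1 v)
    have hs : (Function.support fun u => θ v u * f u) ⊆ (hfin.toFinset : Set β) := by
      intro u hu
      simp only [Set.Finite.coe_toFinset, Set.mem_ofPred_eq]
      exact left_ne_zero_of_mul hu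
    rw [finsum_eq_sum_of_support_subset _ hs]
    have h1 : (∑ u ∈ hfin.toFinset, θ v u * f u) ^ 2
        ≤ ∑ u ∈ hfin.toFinset, (d * (c ^ 2 * f u ^ 2)) := by
      calc (∑ u ∈ hfin.toFinset, θ v u * f u) ^ 2
          ≤ hfin.toFinset.card * ∑ u ∈ hfin.toFinset, (θ v u * f u) ^ 2 :=
            sq_sum_le_card_mul_sum_sq
        _ ≤ d * ∑ u ∈ hfin.toFinset, (c ^ 2 * f u ^ 2) := by
            refine mul_le_mul ?_ ?_ (Finset.sum_nonneg fun u _ => sq_nonneg _) (by positivity)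
            · rw [← Set.ncard_eq_toFinset_card _ hfin]
              exact_mod_cast hcard
            · refine Finset.sum_le_sum fun u _ => ?_
              rw [mul_pow]
              refine mul_le_mul_of_nonneg_right ?_ (sq_nonneg _)
              exact sq_le_sq' (by have := neg_abs_le (θ v u); linarith [hc v u])
                ((le_abs_self _).trans (hc v u))
        _ = _ := by rw [Finset.mul_sum]
    calc ENNReal.ofReal ((∑ u ∈ hfin.toFinset, θ v u * f u) ^ 2)
        ≤ ENNReal.ofReal (∑ u ∈ hfin.toFinset, (d * (c ^ 2 * f u ^ 2))) :=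
          ENNReal.ofReal_le_ofReal h1
      _ = ∑ u ∈ hfin.toFinset, ENNReal.ofReal (d * (c ^ 2 * f u ^ 2)) :=
          ENNReal.ofReal_sum_of_nonneg fun u _ => by positivity
      _ = ∑ u ∈ hfin.toFinset, Set.indicator {p : α × β | θ p.1 p.2 ≠ 0}
          (fun p => ENNReal.ofReal (d * (c ^ 2 * f p.2 ^ 2))) (v, u) := by
          refine Finset.sum_congr rfl fun u hu => ?_
          rw [Set.indicator_of_mem]
          simpa using hu
      _ ≤ _ := ENNReal.sum_le_tsum _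
  calc ∑' v, ENNReal.ofReal ((∑ᶠ u, θ v u * f u) ^ 2)
      ≤ ∑' v, ∑' u, Set.indicator {p : α × β | θ p.1 p.2 ≠ 0}
          (fun p => ENNReal.ofReal (d * (c ^ 2 * f p.2 ^ 2))) (v, u) :=
        ENNReal.tsum_le_tsum hrow
    _ = ∑' u, ∑' v, Set.indicator {p : α × β | θ p.1 p.2 ≠ 0}
          (fun p => ENNReal.ofReal (d * (c ^ 2 * f p.2 ^ 2))) (v, u) := ENNReal.tsum_comm
    _ ≤ ∑' u, d * ENNReal.ofReal (d * (c ^ 2 * f u ^ 2)) := by
        refine ENNReal.tsum_le_tsum fun u => ?_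
        have h2 : ∀ v, Set.indicator {p : α × β | θ p.1 p.2 ≠ 0}
            (fun p => ENNReal.ofReal (d * (c ^ 2 * f p.2 ^ 2))) (v, u)
            = Set.indicator {v | θ v u ≠ 0} (fun _ => (1 : ENNReal)) v
              * ENNReal.ofReal (d * (c ^ 2 * f u ^ 2)) := by
          intro v
          by_cases h : θ v u ≠ 0
          · rw [Set.indicator_of_mem (show (v, u) ∈ {p : α × β | θ p.1 p.2 ≠ 0} from h),
              Set.indicator_of_mem (show v ∈ {v | θ v u ≠ 0} from h), one_mul]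
          · rw [Set.indicator_of_notMem (show (v, u) ∉ {p : α × β | θ p.1 p.2 ≠ 0} from h),
              Set.indicator_of_notMem (show v ∉ {v | θ v u ≠ 0} from h), zero_mul]
        simp_rw [h2]
        rw [ENNReal.tsum_mul_right]
        refine mul_le_mul_left ?_ _
        rw [← tsum_subtype, ENNReal.tsum_set_one]
        exact_mod_cast hd2 u
    _ = ENNReal.ofReal ((c * d) ^ 2) * ∑' u, ENNReal.ofReal (f u ^ 2) := by
        rw [← ENNReal.tsum_mul_left]
        refine tsum_congr fun u => ?_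
        rw [← ENNReal.ofReal_mul (by positivity)]
        have : (d : ENNReal) = ENNReal.ofReal d := by simp
        rw [this, ← ENNReal.ofReal_mul (by positivity)]
        congr 1
        ring

theorem exists_matOp (hc0 : 0 ≤ c) (hc : ∀ v u, |θ v u| ≤ c)
    (hd1 : ∀ v, {u | θ v u ≠ 0}.encard ≤ d) (hd2 : ∀ u, {v | θ v u ≠ 0}.encard ≤ d) :
    ∃ Θ : HH β →L[ℝ] HH α, (∀ (f : HH β) v, (Θ f) v = ∑ᶠ u, θ v u * f u) ∧
      ∀ f, ‖Θ f‖ ^ 2 ≤ (c * d) ^ 2 * ‖f‖ ^ 2 := by
  classical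
  have hmem : ∀ f : HH β, Memℓp (E := fun _ : α => ℝ) (fun v => ∑ᶠ u, θ v u * f u) 2 := by
    intro f
    refine mem_HH_of _ (ne_top_of_le_ne_top ?_ (mat_bound θ c d hc hd1 hd2 f))
    rw [← HH_ofReal]
    exact ENNReal.mul_ne_top ENNReal.ofReal_ne_top ENNReal.ofReal_ne_top
  have hfs : ∀ (f : β → ℝ) v, (Function.support fun u => θ v u * f u).Finite := by
    intro f v
    obtain ⟨hfin, -⟩ := Set.encard_le_coe_iff_finite_ncard_le.1 (hd1 v)
    exact hfin.subset fun u hu => left_ne_zero_of_mul hu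
  let L : HH β →ₗ[ℝ] HH α :=
    { toFun := fun f => ⟨fun v => ∑ᶠ u, θ v u * f u, hmem f⟩
      map_add' := by
        intro f g
        ext v
        show ∑ᶠ u, θ v u * (f + g : HH β) u = (∑ᶠ u, θ v u * f u) + ∑ᶠ u, θ v u * g u
        rw [← finsum_add_distrib (hfs f v) (hfs g v)]
        refine finsum_congr fun u => ?_
        rw [lp.coeFn_add, Pi.add_apply, mul_add]
      map_smul' := by
        intro a f
        ext v
        show ∑ᶠ u, θ v u * (a • f : HH β) u = a * ∑ᶠ u, θ v u * f u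
        have h1 := mul_finsum (fun u => θ v u * f u) a
        refine Eq.trans ?_ h1.symm
        refine finsum_congr fun u => ?_
        rw [lp.coeFn_smul, Pi.smul_apply, smul_eq_mul]
        ring }
  have hbd : ∀ f, ‖L f‖ ^ 2 ≤ (c * d) ^ 2 * ‖f‖ ^ 2 := by
    intro f
    have h := mat_bound θ c d hc hd1 hd2 f
    rw [← HH_ofReal] at h
    have h2 : ENNReal.ofReal (‖L f‖ ^ 2) ≤ ENNReal.ofReal ((c * d) ^ 2 * ‖f‖ ^ 2) := by
      rw [HH_ofReal, ENNReal.ofReal_mul (by positivity)]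
      exact h
    exact (ENNReal.ofReal_le_ofReal_iff (by positivity)).1 h2
  refine ⟨L.mkContinuous (c * d) fun f => ?_, fun f v => rfl, hbd⟩
  have h3 := hbd f
  rw [← mul_pow] at h3
  exact le_of_sq_le_sq h3 (by positivity)

theorem adj_apply (hd2 : ∀ u, {v | θ v u ≠ 0}.encard ≤ d)
    (Θ : HH β →L[ℝ] HH α) (hΘ : ∀ (f : HH β) v, (Θ f) v = ∑ᶠ u, θ v u * f u)
    (g : HH α) (u : β) : (adjoint Θ g) u = ∑ᶠ v, θ v u * g v := by
  classical
  have h1 : (adjoint Θ g) u = ⟪lp.single 2 u (1 : ℝ), adjoint Θ g⟫ := by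
    rw [lp.inner_single_left]; simp
  rw [h1, adjoint_inner_right, HH_inner]
  have h2 : ∀ v, (Θ (lp.single 2 u (1 : ℝ))) v = θ v u := by
    intro v
    rw [hΘ, finsum_eq_single _ u]
    · simp
    · intro w hw
      rw [lp.single_apply_ne _ _ _ hw, mul_zero]
  simp_rw [h2]
  rw [tsum_eq_finsum]
  obtain ⟨hfin, -⟩ := Set.encard_le_coe_iff_finite_ncard_le.1 (hd2 u)
  exact hfin.subset fun v hv => left_ne_zero_of_mul hv

theorem mat_single [DecidableEq β] (Θ : HH β →L[ℝ] HH α)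
    (hΘ : ∀ (f : HH β) v, (Θ f) v = ∑ᶠ u, θ v u * f u) (u : β) (v : α) :
    (Θ (lp.single 2 u (1 : ℝ))) v = θ v u := by
  rw [hΘ, finsum_eq_single _ u]
  · simp
  · intro w hw
    rw [lp.single_apply_ne _ _ _ hw, mul_zero]

end mat

end Crest.Agent.CP
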