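import Crest.Agent.CPMass
import Crest.Agent.CPKernelA
import Crest.Agent.CPKernelB

set_option autoImplicit false

namespace Crest.Agent.CP
open MeasureTheory ContinuousLinearMap

local notation "⟪" x ", " y "⟫" => inner ℝ x y

section delta
variable {β : Type}

open Classical in
/-- basis vector -/
noncomputable def dl (u : β) : HH β := lp.single 2 u (1 : ℝ)

theorem inner_dl_left (u : β) (f : HH β) : ⟪dl u, f⟫ = f u := by
  classical
  unfold dl
  rw [lp.inner_single_left]; simp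

theorem inner_dl_right (u : β) (f : HH β) : ⟪f, dl u⟫ = f u := by
  rw [real_inner_comm, inner_dl_left]

theorem dl_self (u : β) : (dl u) u = 1 := by
  classical
  unfold dl
  rw [lp.single_apply_self]

theorem dl_ne (u v : β) (h : v ≠ u) : (dl u) v = 0 := by
  classical
  unfold dl
  rw [lp.single_apply_ne _ _ _ h]

theorem norm_dl_sq (u : β) : ‖dl u‖ ^ 2 = 1 := by
  rw [← real_inner_self_eq_norm_sq, inner_dl_left, dl_self]

theorem mat_dl {α : Type} (θ : α → β → ℝ) (Θ : HH β →L[ℝ] HH α)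
    (hΘ : ∀ (f : HH β) v, (Θ f) v = ∑ᶠ u, θ v u * f u) (u : β) (v : α) :
    (Θ (dl u)) v = θ v u := by
  rw [hΘ, finsum_eq_single _ u]
  · rw [dl_self, mul_one]
  · intro w hw
    rw [dl_ne _ _ hw, mul_zero]

end delta

section ennreal

theorem ofReal_add_neg {α : Type} (F : α → ℝ) (hF : (Function.support F).Finite)
    (h0 : 0 ≤ ∑' v, F v) :
    ENNReal.ofReal (∑' v, F v) + ∑' v, ENNReal.ofReal (- F v) = ∑' v, ENNReal.ofReal (F v) := by
  classical
  have h1 : ∑' v, F v = ∑ v ∈ hF.toFinset, F v :=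
    tsum_eq_sum fun v hv => by simpa using hv
  have h2 : ∑' v, ENNReal.ofReal (- F v) = ∑ v ∈ hF.toFinset, ENNReal.ofReal (- F v) :=
    tsum_eq_sum fun v hv => by
      have : F v = 0 := by simpa using hv
      simp [this]
  have h3 : ∑' v, ENNReal.ofReal (F v) = ∑ v ∈ hF.toFinset, ENNReal.ofReal (F v) :=
    tsum_eq_sum fun v hv => by
      have : F v = 0 := by simpa using hv
      simp [this]
  have h4 : ∀ x : ℝ, ENNReal.ofReal x = ENNReal.ofReal (max x 0) := by
    intro x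
    rcases le_total x 0 with h | h
    · rw [max_eq_right h, ENNReal.ofReal_of_nonpos h, ENNReal.ofReal_zero]
    · rw [max_eq_left h]
  rw [h2, h3, h1]
  have h5 : ∑ v ∈ hF.toFinset, ENNReal.ofReal (- F v)
      = ENNReal.ofReal (∑ v ∈ hF.toFinset, max (- F v) 0) := by
    rw [ENNReal.ofReal_sum_of_nonneg fun v _ => le_max_right _ _]
    exact Finset.sum_congr rfl fun v _ => h4 _
  have h6 : ∑ v ∈ hF.toFinset, ENNReal.ofReal (F v)
      = ENNReal.ofReal (∑ v ∈ hF.toFinset, max (F v) 0) := by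
    rw [ENNReal.ofReal_sum_of_nonneg fun v _ => le_max_right _ _]
    exact Finset.sum_congr rfl fun v _ => h4 _
  rw [h5, h6, ← ENNReal.ofReal_add (by rw [← h1]; exact h0)
    (Finset.sum_nonneg fun v _ => le_max_right _ _), ← Finset.sum_add_distrib]
  congr 1
  refine Finset.sum_congr rfl fun v _ => ?_
  rcases le_total (F v) 0 with h | h
  · rw [max_eq_right h, max_eq_left (by linarith)]; ring
  · rw [max_eq_left h, max_eq_right (by linarith)]; ring

end ennreal

variable {Γ X : Type} [Group Γ] [Countable Γ] [MeasurableSpace X] [MulAction Γ X]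
  {μ : Measure X} [IsProbabilityMeasure μ]

theorem tsum_orbit {M : Type} [AddCommMonoid M] [TopologicalSpace M] [T2Space M]
    (hfree : ∀ (g : Γ) (x : X), g • x = x → g = 1) {κ : Type} (x : X)
    (F : X × κ → M) (hF : ∀ u, F u ≠ 0 → ∃ g : Γ, u.1 = g • x) :
    ∑' u, F u = ∑' p : κ × Γ, F (p.2 • x, p.1) := by
  have hinj : Function.Injective (fun p : κ × Γ => ((p.2 • x, p.1) : X × κ)) := by
    rintro ⟨k, g⟩ ⟨k', g'⟩ h
    simp only [Prod.mk.injEq] at h ⊢
    refine ⟨h.2, ?_⟩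
    have := hfree (g'⁻¹ * g) x (by rw [mul_smul, h.1, inv_smul_smul])
    rw [inv_mul_eq_one] at this
    exact this.symm
  have hsupp : Function.support F ⊆ Set.range (fun p : κ × Γ => ((p.2 • x, p.1) : X × κ)) := by
    intro u hu
    obtain ⟨g, hg⟩ := hF u hu
    exact ⟨(u.2, g), by simp only; rw [← hg]⟩
  exact (hinj.tsum_eq hsupp).symm

/-- measurable family of `ℓ²` vectors -/
def MFam (Γ : Type) [Group Γ] [MulAction Γ X] {ι : Type} (f : X → HH (X × ι)) : Prop :=
  ∀ (h : Γ) (i : ι), Measurable fun x => (f x) (h • x, i)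

theorem finsum_eq_tsum' {α : Type} (F : α → ℝ) (h : (Function.support F).Finite) :
    ∑ᶠ u, F u = ∑' u, F u :=
  (tsum_eq_finsum (L := .unconditional _) h).symm

theorem MFam_mat (hm : ∀ g : Γ, Measurable (fun x : X => g • x))
    (hfree : ∀ (g : Γ) (x : X), g • x = x → g = 1)
    {ι κ : Type} [Countable ι] (θ : X × κ → X × ι → ℝ)
    (hθm : ∀ (i : ι) (k : κ) (g : Γ), Measurable fun x => θ (x, k) (g • x, i))
    (hθ0 : ∀ v u, θ v u ≠ 0 → ∃ g : Γ, u.1 = g • v.1) (d : ℕ)
    (hd1 : ∀ v, {u | θ v u ≠ 0}.encard ≤ d)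
    (Θ : HH (X × ι) →L[ℝ] HH (X × κ))
    (hΘ : ∀ (f : HH (X × ι)) v, (Θ f) v = ∑ᶠ u, θ v u * f u)
    (f : X → HH (X × ι)) (hf : MFam Γ f) : MFam Γ fun x => Θ (f x) := by
  intro h k
  have h1 : ∀ x, (Θ (f x)) (h • x, k)
      = ∑' p : ι × Γ, θ (h • x, k) (p.2 • x, p.1) * (f x) (p.2 • x, p.1) := by
    intro x
    rw [hΘ, finsum_eq_tsum']
    · refine tsum_orbit hfree x (fun u => θ (h • x, k) u * (f x) u) ?_
      intro u hu
      obtain ⟨g, hg⟩ := hθ0 _ _ (left_ne_zero_of_mul hu)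
      exact ⟨g * h, by rw [hg, mul_smul]⟩
    · obtain ⟨hfin, -⟩ := Set.encard_le_coe_iff_finite_ncard_le.1 (hd1 (h • x, k))
      exact hfin.subset fun u hu => left_ne_zero_of_mul hu
  simp_rw [h1]
  refine Measurable.tsum fun p => ?_
  refine Measurable.mul ?_ (hf p.2 p.1)
  have h2 := (hθm p.1 k (p.2 * h⁻¹)).comp (hm h)
  have h3 : (fun x => θ (h • x, k) (p.2 • x, p.1))
      = (fun x => θ (x, k) ((p.2 * h⁻¹) • x, p.1)) ∘ (fun x => h • x) := by
    funext x
    simp only [Function.comp, mul_smul, inv_smul_smul]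
  rw [h3]; exact h2

theorem MFam_dl (hfree : ∀ (g : Γ) (x : X), g • x = x → g = 1)
    {ι : Type} (i : ι) : MFam Γ fun x : X => (dl (x, i) : HH (X × ι)) := by
  intro h i'
  by_cases hh : h = 1 ∧ i' = i
  · obtain ⟨rfl, rfl⟩ := hh
    simp only [one_smul, dl_self]
    exact measurable_const
  · have : ∀ x : X, (dl (x, i) : HH (X × ι)) (h • x, i') = 0 := by
      intro x
      refine dl_ne _ _ fun he => hh ?_
      simp only [Prod.mk.injEq] at he
      exact ⟨hfree h x he.1, he.2⟩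
    simp_rw [this]
    exact measurable_const

theorem MFam_TT {ι κ : Type} (Θ : HH (X × ι) →L[ℝ] HH (X × κ)) (C : ℝ)
    (h1 : ∀ f : X → HH (X × ι), MFam Γ f → MFam Γ fun x => Θ (f x))
    (h2 : ∀ f : X → HH (X × κ), MFam Γ f → MFam Γ fun x => adjoint Θ (f x))
    (m : ℕ) (f : X → HH (X × ι)) (hf : MFam Γ f) : MFam Γ fun x => (TT Θ C ^ m) (f x) := by
  induction m with
  | zero => simpa using hf
  | succ m ih =>
    intro h i
    have h3 : ∀ x, ((TT Θ C ^ (m + 1)) (f x)) (h • x, i)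
        = ((TT Θ C ^ m) (f x)) (h • x, i)
          - C⁻¹ * (adjoint Θ (Θ ((TT Θ C ^ m) (f x)))) (h • x, i) := by
      intro x
      rw [pow_succ', mul_apply_eq_comp, TT_apply, lp.coeFn_sub, Pi.sub_apply, lp.coeFn_smul,
        Pi.smul_apply, smul_eq_mul]
    simp_rw [h3]
    exact (ih h i).sub (measurable_const.mul (h2 _ (h1 _ ih) h i))

theorem MFam_SS {ι κ : Type} (Θ : HH (X × ι) →L[ℝ] HH (X × κ)) (C : ℝ)
    (h1 : ∀ f : X → HH (X × ι), MFam Γ f → MFam Γ fun x => Θ (f x))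
    (h2 : ∀ f : X → HH (X × κ), MFam Γ f → MFam Γ fun x => adjoint Θ (f x))
    (m : ℕ) (f : X → HH (X × ι)) (hf : MFam Γ f) : MFam Γ fun x => SS Θ C m (f x) := by
  intro h i
  have h3 : ∀ x, (SS Θ C m (f x)) (h • x, i)
      = ∑ k ∈ Finset.range m, ((TT Θ C ^ k) (f x)) (h • x, i) := by
    intro x
    rw [SS, sum_apply, lp.coeFn_sum, Finset.sum_apply]
  simp_rw [h3]
  exact Finset.measurable_sum _ fun k _ => MFam_TT Θ C h1 h2 k f hf h i

theorem lint_double {ι κ : Type} [Countable ι] [Countable κ] (f : ι → κ → X → ENNReal)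
    (hf : ∀ i k, Measurable (f i k)) :
    ∫⁻ x, ∑' i, ∑' k, f i k x ∂μ = ∑' i, ∑' k, ∫⁻ x, f i k x ∂μ := by
  rw [lintegral_tsum fun i => (Measurable.tsum fun k => hf i k).aemeasurable]
  refine tsum_congr fun i => ?_
  rw [lintegral_tsum fun k => (hf i k).aemeasurable]

/-- the approximate inequality -/
theorem kernel_approx (hmp : ∀ g : Γ, MeasurePreserving (fun x : X => g • x) μ μ)
    (hfree : ∀ (g : Γ) (x : X), g • x = x → g = 1)
    {ι κ : Type} [Countable ι] [Countable κ]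
    (B : Set (X × ι)) (A : Set (X × κ)) (hB : MS B) (hA : MS A)
    (hAf : vol μ A ≠ ⊤)
    (θ : X × κ → X × ι → ℝ)
    (hθm : ∀ (i : ι) (k : κ) (g : Γ), Measurable fun x => θ (x, k) (g • x, i))
    (hθ0 : ∀ v u, θ v u ≠ 0 → v ∈ A ∧ u ∈ B ∧ ∃ g : Γ, u.1 = g • v.1)
    (c : ℝ) (hθc : ∀ v u, |θ v u| ≤ c)
    (d : ℕ) (hd1 : ∀ v, {u | θ v u ≠ 0}.encard ≤ d) (hd2 : ∀ u, {v | θ v u ≠ 0}.encard ≤ d)
    (Θ : HH (X × ι) →L[ℝ] HH (X × κ))
    (hΘ : ∀ (f : HH (X × ι)) v, (Θ f) v = ∑ᶠ u, θ v u * f u)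
    (C : ℝ) (hC : 0 < C) (hΘn : ∀ f, ‖Θ f‖ ^ 2 ≤ C * ‖f‖ ^ 2)
    (hΘn' : ∀ g, ‖adjoint Θ g‖ ^ 2 ≤ C * ‖g‖ ^ 2) (m : ℕ) :
    (∀ i, Measurable fun x => ‖(TT Θ C ^ m) (dl (x, i))‖ ^ 2) ∧
    vol μ B ≤ vol μ A +
      ∑' i, ∫⁻ x, {x | (x, i) ∈ B}.indicator
        (fun x => ENNReal.ofReal (‖(TT Θ C ^ m) (dl (x, i))‖ ^ 2)) x ∂μ := by
  classical
  have hm : ∀ g : Γ, Measurable (fun x : X => g • x) := fun g => (hmp g).measurable
  have hθ0' : ∀ v u, θ v u ≠ 0 → ∃ g : Γ, u.1 = g • v.1 := fun v u h => (hθ0 v u h).2.2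
  have hadj : ∀ (g : HH (X × κ)) u, (adjoint Θ g) u = ∑ᶠ v, θ v u * g v :=
    fun g u => adj_apply θ d hd2 Θ hΘ g u
  have hF1 : ∀ f : X → HH (X × ι), MFam Γ f → MFam Γ fun x => Θ (f x) :=
    fun f hf => MFam_mat hm hfree θ hθm hθ0' d hd1 Θ hΘ f hf
  have hθm' : ∀ (k : κ) (i : ι) (g : Γ), Measurable fun x => θ (g • x, k) (x, i) := by
    intro k i g
    have h2 := (hθm i k g⁻¹).comp (hm g)
    have h3 : (fun x => θ (g • x, k) (x, i))
        = (fun x => θ (x, k) (g⁻¹ • x, i)) ∘ (fun x => g • x) := by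
      funext x
      simp only [Function.comp, inv_smul_smul]
    rw [h3]; exact h2
  have hF2 : ∀ f : X → HH (X × κ), MFam Γ f → MFam Γ fun x => adjoint Θ (f x) := by
    intro f hf
    refine MFam_mat hm hfree (fun u v => θ v u) (fun k i g => hθm' k i g) ?_ d hd2
      (adjoint Θ) hadj f hf
    intro u v h
    obtain ⟨g, hg⟩ := hθ0' v u h
    exact ⟨g⁻¹, by rw [hg, inv_smul_smul]⟩
  -- entries
  set n := 2 * m with hn
  set M : X × κ → X × ι → ℝ := fun v u => (Θ (SS Θ C n (dl u))) v with hM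
  set F : X × κ → X × ι → ℝ := fun v u => C⁻¹ * (θ v u * M v u) with hFdef
  have hFs1 : ∀ v, (Function.support fun u => F v u).Finite := by
    intro v
    obtain ⟨hfin, -⟩ := Set.encard_le_coe_iff_finite_ncard_le.1 (hd1 v)
    exact hfin.subset fun u hu => left_ne_zero_of_mul (right_ne_zero_of_mul hu)
  have hFs2 : ∀ u, (Function.support fun v => F v u).Finite := by
    intro u
    obtain ⟨hfin, -⟩ := Set.encard_le_coe_iff_finite_ncard_le.1 (hd2 u)
    exact hfin.subset fun v hv => left_ne_zero_of_mul (right_ne_zero_of_mul hv)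
  have hwB : ∀ u, 1 - ⟪(TT Θ C ^ n) (dl u), dl u⟫ = ∑' v, F v u := by
    intro u
    have h := diagB Θ C n (dl u)
    rw [norm_dl_sq] at h
    rw [h, HH_inner, ← tsum_mul_left]
    refine tsum_congr fun v => ?_
    rw [mat_dl θ Θ hΘ]
    simp only [hFdef, hM]; ring
  have hwA : ∀ v, 1 - ⟪(TT (adjoint Θ) C ^ n) (dl v), dl v⟫ = ∑' u, F v u := by
    intro v
    have h := diagA Θ C n (dl v)
    rw [norm_dl_sq] at h
    rw [h, HH_inner, ← tsum_mul_left]
    refine tsum_congr fun u => ?_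
    have h1 : (adjoint Θ (dl v)) u = θ v u := by
      rw [← inner_dl_left u, adjoint_inner_right, inner_dl_right, mat_dl θ Θ hΘ]
    have h2 : (adjoint (Θ ∘L SS Θ C n) (dl v)) u = M v u := by
      rw [← inner_dl_left u, adjoint_inner_right, inner_dl_right]
      rfl
    rw [h1, h2]
  have hB0 : ∀ u, 0 ≤ ∑' v, F v u := by
    intro u
    rw [← hwB u]
    have := inner_TT_pow_le Θ C hC hΘn' n (dl u)
    rw [norm_dl_sq] at this
    linarith
  have hadjadj : ∀ f, ‖adjoint (adjoint Θ) f‖ ^ 2 ≤ C * ‖f‖ ^ 2 := by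
    intro f; rw [adjoint_adjoint]; exact hΘn f
  have hA0 : ∀ v, 0 ≤ ∑' u, F v u := by
    intro v
    rw [← hwA v]
    have := inner_TT_pow_le (adjoint Θ) C hC hadjadj n (dl v)
    rw [norm_dl_sq] at this
    linarith
  have hA1 : ∀ v, ∑' u, F v u ≤ 1 := by
    intro v
    rw [← hwA v]
    have := inner_TT_pow_nonneg (adjoint Θ) C hC hΘn' n (dl v)
    linarith
  have hBid : ∀ u, (∑' v, F v u) + ‖(TT Θ C ^ m) (dl u)‖ ^ 2 = 1 := by
    intro u
    rw [← hwB u, hn, inner_TT_pow_two_mul]; ring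
  -- measurability
  have hMm : ∀ (k : κ) (i : ι) (g : Γ), Measurable fun x => M (g • x, k) (x, i) := by
    intro k i g
    exact hF1 _ (MFam_SS Θ C hF1 hF2 n _ (MFam_dl hfree i)) g k
  have hFm' : ∀ (k : κ) (i : ι) (g : Γ), Measurable fun x => F (g • x, k) (x, i) := by
    intro k i g
    exact measurable_const.mul ((hθm' k i g).mul (hMm k i g))
  have hFm : ∀ (k : κ) (i : ι) (g : Γ), Measurable fun x => F (x, k) (g • x, i) := by
    intro k i g
    have h2 := (hFm' k i g⁻¹).comp (hm g)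
    have h3 : (fun x => F (x, k) (g • x, i))
        = (fun x => F (g⁻¹ • x, k) (x, i)) ∘ (fun x => g • x) := by
      funext x
      simp only [Function.comp, inv_smul_smul]
    rw [h3]; exact h2
  -- orbit sums
  have horb1 : ∀ (G : ℝ → ENNReal) (_ : G 0 = 0) (x : X) (k : κ),
      ∑' u, G (F (x, k) u) = ∑' i, ∑' g : Γ, G (F (x, k) (g • x, i)) := by
    intro G hG x k
    rw [tsum_orbit hfree x (fun u => G (F (x, k) u)), ENNReal.tsum_prod']
    intro u hu
    have : θ (x, k) u ≠ 0 := by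
      intro h0
      apply hu
      simp only [hFdef, h0, zero_mul, mul_zero, hG]
    exact hθ0' _ _ this
  have horb2 : ∀ (G : ℝ → ENNReal) (_ : G 0 = 0) (x : X) (i : ι),
      ∑' v, G (F v (x, i)) = ∑' k, ∑' g : Γ, G (F (g • x, k) (x, i)) := by
    intro G hG x i
    rw [tsum_orbit hfree x (fun v => G (F v (x, i))), ENNReal.tsum_prod']
    intro v hv
    have : θ v (x, i) ≠ 0 := by
      intro h0
      apply hv
      simp only [hFdef, h0, zero_mul, mul_zero, hG]
    obtain ⟨g, hg⟩ := hθ0' _ _ this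
    exact ⟨g⁻¹, by simp only at hg; rw [hg, inv_smul_smul]⟩
  have hmtp : ∀ (G : ℝ → ENNReal) (_ : Measurable G) (_ : G 0 = 0),
      ∑' k, ∫⁻ x, ∑' u, G (F (x, k) u) ∂μ = ∑' i, ∫⁻ x, ∑' v, G (F v (x, i)) ∂μ := by
    intro G hGm hG
    have h := mtp hmp (fun v u => G (F v u)) (fun k i g => hGm.comp (hFm k i g))
    calc ∑' k, ∫⁻ x, ∑' u, G (F (x, k) u) ∂μ
        = ∑' k, ∑' i, ∑' g : Γ, ∫⁻ x, G (F (x, k) (g • x, i)) ∂μ := by
          refine tsum_congr fun k => ?_
          simp_rw [horb1 G hG]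
          exact lint_double (fun i (g : Γ) x => G (F (x, k) (g • x, i)))
            fun i g => hGm.comp (hFm k i g)
      _ = ∑' i, ∑' k, ∑' g : Γ, ∫⁻ x, G (F (g • x, k) (x, i)) ∂μ := h
      _ = ∑' i, ∫⁻ x, ∑' v, G (F v (x, i)) ∂μ := by
          refine tsum_congr fun i => ?_
          simp_rw [horb2 G hG]
          exact (lint_double (fun k (g : Γ) x => G (F (g • x, k) (x, i)))
            fun k g => hGm.comp (hFm' k i g)).symm
  -- combine
  have hNfin : ∑' i, ∫⁻ x, ∑' v, ENNReal.ofReal (- F v (x, i)) ∂μ ≠ ⊤ := by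
    rw [← hmtp (fun t => ENNReal.ofReal (-t)) (by fun_prop) (by simp)]
    have hbd : ∀ v u, |F v u| ≤ C⁻¹ * (|c| * (Real.sqrt C * n)) := by
      intro v u
      simp only [hFdef, abs_mul]
      have h1 : |M v u| ≤ Real.sqrt C * n := by
        have h2 : M v u = ⟪Θ (SS Θ C n (dl u)), dl v⟫ := (inner_dl_right _ _).symm
        have hd1' : ‖(dl v : HH (X × κ))‖ = 1 := by
          have := norm_dl_sq v
          nlinarith [norm_nonneg (dl v)]
        have hd2' : ‖(dl u : HH (X × ι))‖ = 1 := by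
          have := norm_dl_sq u
          nlinarith [norm_nonneg (dl u)]
        rw [h2]
        refine (abs_real_inner_le_norm _ _).trans ?_
        rw [hd1', mul_one]
        have h3 := hΘn (SS Θ C n (dl u))
        have h4 := norm_SS_le Θ C hC hΘn' n (dl u)
        rw [hd2', mul_one] at h4
        have h5 : ‖Θ (SS Θ C n (dl u))‖ ^ 2 ≤ (Real.sqrt C * n) ^ 2 := by
          rw [mul_pow, Real.sq_sqrt hC.le]
          exact h3.trans (mul_le_mul_of_nonneg_left
            (pow_le_pow_left₀ (norm_nonneg _) h4 2) hC.le)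
        exact le_of_sq_le_sq h5 (by positivity)
      rw [abs_of_pos (inv_pos.2 hC)]
      refine mul_le_mul_of_nonneg_left ?_ (inv_pos.2 hC).le
      exact mul_le_mul ((hθc v u).trans (le_abs_self c)) h1 (abs_nonneg _) (abs_nonneg _)
    set KK := C⁻¹ * (|c| * (Real.sqrt C * n)) with hKK
    have hrow : ∀ v, ∑' u, ENNReal.ofReal (- F v u)
        ≤ A.indicator (fun _ => (d : ENNReal) * ENNReal.ofReal KK) v := by
      intro v
      by_cases hv : v ∈ A
      · rw [Set.indicator_of_mem hv]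
        calc ∑' u, ENNReal.ofReal (- F v u)
            ≤ ∑' u, Set.indicator {u | θ v u ≠ 0} (fun _ => (1 : ENNReal)) u
                * ENNReal.ofReal KK := by
              refine ENNReal.tsum_le_tsum fun u => ?_
              by_cases h : θ v u ≠ 0
              · rw [Set.indicator_of_mem (show u ∈ {u | θ v u ≠ 0} from h), one_mul]
                exact ENNReal.ofReal_le_ofReal ((neg_le_abs _).trans (hbd v u))
              · have h0 : θ v u = 0 := not_not.1 h
                have h1 : F v u = 0 := by simp [hFdef, h0]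
                rw [h1]; simp
          _ = (∑' u, Set.indicator {u | θ v u ≠ 0} (fun _ => (1 : ENNReal)) u)
                * ENNReal.ofReal KK := ENNReal.tsum_mul_right
          _ ≤ d * ENNReal.ofReal KK := by
              refine mul_le_mul_left ?_ _
              rw [← tsum_subtype, ENNReal.tsum_set_one]
              exact_mod_cast hd1 v
      · rw [Set.indicator_of_notMem hv]
        have h1 : ∀ u, F v u = 0 := by
          intro u
          have h0 : θ v u = 0 := by
            by_contra h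
            exact hv (hθ0 v u h).1
          simp [hFdef, h0]
        simp [h1]
    have hle : ∑' k, ∫⁻ x, ∑' u, ENNReal.ofReal (- F (x, k) u) ∂μ
        ≤ (d * ENNReal.ofReal KK) * vol μ A := by
      rw [vol, ← ENNReal.tsum_mul_left]
      refine ENNReal.tsum_le_tsum fun k => ?_
      calc ∫⁻ x, ∑' u, ENNReal.ofReal (- F (x, k) u) ∂μ
          ≤ ∫⁻ x, {x | (x, k) ∈ A}.indicator (fun _ => (d : ENNReal) * ENNReal.ofReal KK) x ∂μ := by
            refine lintegral_mono fun x => ?_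
            refine (hrow (x, k)).trans (le_of_eq ?_)
            rfl
        _ = (d * ENNReal.ofReal KK) * μ {x | (x, k) ∈ A} := by
            rw [lintegral_indicator (hA k), lintegral_const, Measure.restrict_apply_univ]
    refine ne_top_of_le_ne_top ?_ hle
    exact ENNReal.mul_ne_top (ENNReal.mul_ne_top (by simp) ENNReal.ofReal_ne_top) hAf
  have hWB : ∑' i, ∫⁻ x, ENNReal.ofReal (∑' v, F v (x, i)) ∂μ
      + ∑' i, ∫⁻ x, ∑' v, ENNReal.ofReal (- F v (x, i)) ∂μ
      = ∑' i, ∫⁻ x, ∑' v, ENNReal.ofReal (F v (x, i)) ∂μ := by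
    rw [← ENNReal.tsum_add]
    refine tsum_congr fun i => ?_
    rw [← lintegral_add_right]
    · refine lintegral_congr fun x => ?_
      exact ofReal_add_neg _ (hFs2 (x, i)) (hB0 (x, i))
    · have h1 : ∀ x, ∑' v, ENNReal.ofReal (- F v (x, i))
          = ∑' k, ∑' g : Γ, ENNReal.ofReal (- F (g • x, k) (x, i)) :=
        fun x => horb2 (fun t => ENNReal.ofReal (-t)) (by simp) x i
      simp_rw [h1]
      exact Measurable.tsum fun k => Measurable.tsum fun g => (hFm' k i g).neg.ennreal_ofReal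
  have hWA : ∑' k, ∫⁻ x, ENNReal.ofReal (∑' u, F (x, k) u) ∂μ
      + ∑' k, ∫⁻ x, ∑' u, ENNReal.ofReal (- F (x, k) u) ∂μ
      = ∑' k, ∫⁻ x, ∑' u, ENNReal.ofReal (F (x, k) u) ∂μ := by
    rw [← ENNReal.tsum_add]
    refine tsum_congr fun k => ?_
    rw [← lintegral_add_right]
    · refine lintegral_congr fun x => ?_
      exact ofReal_add_neg _ (hFs1 (x, k)) (hA0 (x, k))
    · have h1 : ∀ x, ∑' u, ENNReal.ofReal (- F (x, k) u)
          = ∑' i, ∑' g : Γ, ENNReal.ofReal (- F (x, k) (g • x, i)) :=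
        fun x => horb1 (fun t => ENNReal.ofReal (-t)) (by simp) x k
      simp_rw [h1]
      exact Measurable.tsum fun i => Measurable.tsum fun g => (hFm k i g).neg.ennreal_ofReal
  have hmtpN := hmtp (fun t => ENNReal.ofReal (-t)) (by fun_prop) (by simp)
  have hmtpP := hmtp (fun t => ENNReal.ofReal t) (by fun_prop) (by simp)
  have hW : ∑' i, ∫⁻ x, ENNReal.ofReal (∑' v, F v (x, i)) ∂μ
      = ∑' k, ∫⁻ x, ENNReal.ofReal (∑' u, F (x, k) u) ∂μ := by
    rw [hmtpN, hmtpP, ← hWB] at hWA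
    exact ((ENNReal.add_left_inj hNfin).1 hWA).symm
  have hWAle : ∑' k, ∫⁻ x, ENNReal.ofReal (∑' u, F (x, k) u) ∂μ ≤ vol μ A := by
    rw [vol]
    refine ENNReal.tsum_le_tsum fun k => ?_
    calc ∫⁻ x, ENNReal.ofReal (∑' u, F (x, k) u) ∂μ
        ≤ ∫⁻ x, {x | (x, k) ∈ A}.indicator (fun _ => (1 : ENNReal)) x ∂μ := by
          refine lintegral_mono fun x => ?_
          by_cases hv : (x, k) ∈ A
          · rw [Set.indicator_of_mem (show x ∈ {x | (x, k) ∈ A} from hv)]
            rw [← ENNReal.ofReal_one]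
            exact ENNReal.ofReal_le_ofReal (hA1 (x, k))
          · have h1 : ∀ u, F (x, k) u = 0 := by
              intro u
              have h0 : θ (x, k) u = 0 := by
                by_contra h
                exact hv (hθ0 _ u h).1
              simp [hFdef, h0]
            simp [h1]
      _ = μ {x | (x, k) ∈ A} := by
          rw [lintegral_indicator (hA k), lintegral_const, Measure.restrict_apply_univ, one_mul]
  have hPm : ∀ i, Measurable fun x => ‖(TT Θ C ^ m) (dl (x, i))‖ ^ 2 := by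
    intro i
    have h1 : ∀ x, ‖(TT Θ C ^ m) (dl (x, i))‖ ^ 2 = ((TT Θ C ^ n) (dl (x, i))) ((1 : Γ) • x, i) := by
      intro x
      rw [← inner_TT_pow_two_mul, inner_dl_right, one_smul]
    simp_rw [h1]
    exact MFam_TT Θ C hF1 hF2 n _ (MFam_dl hfree i) 1 i
  refine ⟨hPm, ?_⟩
  calc vol μ B ≤ ∑' i, ∫⁻ x, ENNReal.ofReal (∑' v, F v (x, i)) ∂μ +
      ∑' i, ∫⁻ x, {x | (x, i) ∈ B}.indicator
        (fun x => ENNReal.ofReal (‖(TT Θ C ^ m) (dl (x, i))‖ ^ 2)) x ∂μ := by
        rw [← ENNReal.tsum_add, vol]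
        refine ENNReal.tsum_le_tsum fun i => ?_
        rw [← lintegral_add_right _ ((hPm i).ennreal_ofReal.indicator (hB i))]
        calc μ {x | (x, i) ∈ B} = ∫⁻ x, {x | (x, i) ∈ B}.indicator (fun _ => (1 : ENNReal)) x ∂μ := by
              rw [lintegral_indicator (hB i), lintegral_const, Measure.restrict_apply_univ, one_mul]
          _ ≤ _ := by
              refine lintegral_mono fun x => ?_
              by_cases hx : x ∈ {x | (x, i) ∈ B}
              · simp only [Set.indicator_of_mem hx]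
                rw [← ENNReal.ofReal_add (hB0 _) (by positivity), hBid, ENNReal.ofReal_one]
              · simp only [Set.indicator_of_notMem hx]
                exact bot_le
    _ ≤ _ := by
        rw [hW]
        gcongr

theorem kernel_lemma (hmp : ∀ g : Γ, MeasurePreserving (fun x : X => g • x) μ μ)
    (hfree : ∀ (g : Γ) (x : X), g • x = x → g = 1)
    {ι κ : Type} [Countable ι] [Countable κ]
    (B : Set (X × ι)) (A : Set (X × κ)) (hB : MS B) (hA : MS A)
    (hBf : vol μ B ≠ ⊤) (hAf : vol μ A ≠ ⊤)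
    (θ : X × κ → X × ι → ℝ)
    (hθm : ∀ (i : ι) (k : κ) (g : Γ), Measurable fun x => θ (x, k) (g • x, i))
    (hθ0 : ∀ v u, θ v u ≠ 0 → v ∈ A ∧ u ∈ B ∧ ∃ g : Γ, u.1 = g • v.1)
    (c : ℝ) (hθc : ∀ v u, |θ v u| ≤ c)
    (d : ℕ) (hd1 : ∀ v, {u | θ v u ≠ 0}.encard ≤ d) (hd2 : ∀ u, {v | θ v u ≠ 0}.encard ≤ d)
    (hker : ∀ f : X × ι → ℝ, (∃ x : X, ∀ u, f u ≠ 0 → u ∈ B ∧ ∃ g : Γ, u.1 = g • x) →
      Summable (fun u => f u ^ 2) → (∀ v, ∑ᶠ u, θ v u * f u = 0) → f = 0) :
    vol μ B ≤ vol μ A := by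
  classical
  obtain ⟨Θ, hΘ, hΘb⟩ := exists_matOp θ |c| d (abs_nonneg c)
    (fun v u => (hθc v u).trans (le_abs_self c)) hd1 hd2
  obtain ⟨Θ', hΘ', hΘb'⟩ := exists_matOp (fun u v => θ v u) |c| d (abs_nonneg c)
    (fun u v => (hθc v u).trans (le_abs_self c)) hd2 hd1
  have hadj : ∀ g, adjoint Θ g = Θ' g := by
    intro g
    ext u
    rw [adj_apply θ d hd2 Θ hΘ g u, hΘ']
  set C := (|c| * d) ^ 2 + 1 with hCdef
  have hC : 0 < C := by positivity
  have hΘn : ∀ f, ‖Θ f‖ ^ 2 ≤ C * ‖f‖ ^ 2 := by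
    intro f
    refine (hΘb f).trans (mul_le_mul_of_nonneg_right ?_ (by positivity))
    rw [hCdef]; linarith
  have hΘn' : ∀ g, ‖adjoint Θ g‖ ^ 2 ≤ C * ‖g‖ ^ 2 := by
    intro g
    rw [hadj]
    refine (hΘb' g).trans (mul_le_mul_of_nonneg_right ?_ (by positivity))
    rw [hCdef]; linarith
  have key := fun m => kernel_approx (μ := μ) hmp hfree B A hB hA hAf θ hθm hθ0 c hθc d hd1 hd2
    Θ hΘ C hC hΘn hΘn' m
  -- pointwise limit
  have hlim : ∀ u ∈ B, Filter.Tendsto (fun m => ‖(TT Θ C ^ m) (dl u)‖ ^ 2) Filter.atTop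
      (nhds 0) := by
    intro u hu
    refine tendsto_norm_TT Θ C hC hΘn' (dl u) ?_
    intro p hp
    rw [inner_dl_right]
    set S : Set (X × ι) := {w | w ∈ B ∧ ∃ g : Γ, w.1 = g • u.1} with hS
    have hz := hker (S.indicator (fun w => p w)) ⟨u.1, fun w hw => ?_⟩ ?_ ?_
    · have h1 := congrFun hz u
      rw [Set.indicator_of_mem (show u ∈ S from ⟨hu, 1, (one_smul _ _).symm⟩)] at h1
      exact h1
    · have : w ∈ S := by
        by_contra h
        exact hw (Set.indicator_of_notMem h _)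
      exact this
    · refine Summable.of_nonneg_of_le (fun w => sq_nonneg _) (fun w => ?_) (HH_summable_sq p)
      by_cases h : w ∈ S
      · rw [Set.indicator_of_mem h]
      · rw [Set.indicator_of_notMem h]; simp only [ne_eq, OfNat.ofNat_ne_zero, not_false_eq_true,
          zero_pow]; positivity
    · intro v
      by_cases hv : ∃ g : Γ, v.1 = g • u.1
      · obtain ⟨g, hg⟩ := hv
        have h1 : ∀ w, θ v w * S.indicator (fun w => p w) w = θ v w * p w := by
          intro w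
          by_cases hw : θ v w = 0
          · rw [hw, zero_mul, zero_mul]
          · obtain ⟨-, hwB, h, hh⟩ := hθ0 v w hw
            rw [Set.indicator_of_mem (show w ∈ S from ⟨hwB, h * g, by rw [hh, hg, mul_smul]⟩)]
        rw [finsum_congr h1, ← hΘ p v, hp]
        rfl
      · have h1 : ∀ w, θ v w * S.indicator (fun w => p w) w = 0 := by
          intro w
          by_cases hw : θ v w = 0
          · rw [hw, zero_mul]
          · obtain ⟨-, -, h, hh⟩ := hθ0 v w hw
            rw [Set.indicator_of_notMem, mul_zero]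
            rintro ⟨-, g, hg⟩
            refine hv ⟨h⁻¹ * g, ?_⟩
            rw [mul_smul, ← hg, hh, inv_smul_smul]
        rw [finsum_congr h1, finsum_zero]
  have hnorm1 : ∀ m (u : X × ι), ‖(TT Θ C ^ m) (dl u)‖ ^ 2 ≤ 1 := by
    intro m u
    rw [← norm_dl_sq u]
    exact pow_le_pow_left₀ (norm_nonneg _) (norm_TT_pow_le Θ C hC hΘn' m _) 2
  have hI : ∀ i, Filter.Tendsto (fun m => ∫⁻ x, {x | (x, i) ∈ B}.indicator
        (fun x => ENNReal.ofReal (‖(TT Θ C ^ m) (dl (x, i))‖ ^ 2)) x ∂μ) Filter.atTop (nhds 0) := by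
    intro i
    have := tendsto_lintegral_of_dominated_convergence (μ := μ)
      (F := fun m x => {x | (x, i) ∈ B}.indicator
        (fun x => ENNReal.ofReal (‖(TT Θ C ^ m) (dl (x, i))‖ ^ 2)) x) (f := fun _ => 0)
      (fun _ => 1) (fun m => ((key m).1 i).ennreal_ofReal.indicator (hB i))
      (fun m => Filter.Eventually.of_forall fun x => ?_) (by simp)
      (Filter.Eventually.of_forall fun x => ?_)
    · simpa using this
    · show {x | (x, i) ∈ B}.indicator
        (fun x => ENNReal.ofReal (‖(TT Θ C ^ m) (dl (x, i))‖ ^ 2)) x ≤ 1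
      by_cases hx : x ∈ {x | (x, i) ∈ B}
      · rw [Set.indicator_of_mem hx, ← ENNReal.ofReal_one]
        exact ENNReal.ofReal_le_ofReal (hnorm1 m _)
      · rw [Set.indicator_of_notMem hx]
        exact bot_le
    · by_cases hx : x ∈ {x | (x, i) ∈ B}
      · simp only [Set.indicator_of_mem hx]
        rw [← ENNReal.ofReal_zero]
        exact (ENNReal.continuous_ofReal.tendsto 0).comp (hlim _ hx)
      · simp only [Set.indicator_of_notMem hx]
        exact tendsto_const_nhds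
  have hT : Filter.Tendsto (fun m => ∑' i, ∫⁻ x, {x | (x, i) ∈ B}.indicator
        (fun x => ENNReal.ofReal (‖(TT Θ C ^ m) (dl (x, i))‖ ^ 2)) x ∂μ) Filter.atTop (nhds 0) := by
    letI : MeasurableSpace ι := ⊤
    have := tendsto_lintegral_of_dominated_convergence (μ := (Measure.count : Measure ι))
      (F := fun m i => ∫⁻ x, {x | (x, i) ∈ B}.indicator
        (fun x => ENNReal.ofReal (‖(TT Θ C ^ m) (dl (x, i))‖ ^ 2)) x ∂μ) (f := fun _ => 0)
      (fun i => μ {x | (x, i) ∈ B}) (fun m => measurable_from_top)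
      (fun m => Filter.Eventually.of_forall fun i => ?_) ?_
      (Filter.Eventually.of_forall fun i => hI i)
    · simpa [lintegral_count] using this
    · calc ∫⁻ x, {x | (x, i) ∈ B}.indicator
            (fun x => ENNReal.ofReal (‖(TT Θ C ^ m) (dl (x, i))‖ ^ 2)) x ∂μ
          ≤ ∫⁻ x, {x | (x, i) ∈ B}.indicator (fun _ => (1 : ENNReal)) x ∂μ := by
            refine lintegral_mono fun x => Set.indicator_le_indicator ?_
            rw [← ENNReal.ofReal_one]
            exact ENNReal.ofReal_le_ofReal (hnorm1 m _)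
        _ = μ {x | (x, i) ∈ B} := by
            rw [lintegral_indicator (hB i), lintegral_const, Measure.restrict_apply_univ, one_mul]
    · rw [lintegral_count]; exact hBf
  have hfin := (hT.const_add (vol μ A))
  rw [add_zero] at hfin
  exact ge_of_tendsto' hfin fun m => (key m).2

end Crest.Agent.CP
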