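import Crest.Agent.CPMainD

/-!
# Row 191: the potential argument and the contradiction
-/

set_option autoImplicit false

namespace Crest.Agent.CP
open MeasureTheory PG

variable {Γ X : Type} [Group Γ] [Countable Γ] [MeasurableSpace X] [MulAction Γ X]
  {μ : Measure X} [IsProbabilityMeasure μ]
  (hmp : ∀ g : Γ, MeasurePreserving (fun x : X => g • x) μ μ)
  (hfree : ∀ (g : Γ) (x : X), g • x = x → g = 1)
  {j R q : ℕ} [NeZero R] (D : RelData j R q Γ)

include hmp hfree in
/-- processing all runs of `K` -/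
theorem dom_all (hj : 100 * (101 * (63 ^ j * (4 + 24 * q))) * 1000 ≤ 100 ^ j)
    (hG : Gap μ (fun i => (D.ρ (some (some i)))⁻¹))
    (htiny : ∀ β : ENNReal, 0 < β → ∃ (N : ℕ) (f : X → Fin N), Measurable f ∧ ∀ k, μ (f ⁻¹' {k}) ≤ β)
    {K0 : PG D.ρ X ℕ} {P : Set (X × List (AL × Bool))} (hP : vol μ P ≤ 1 + 1 / 1000)
    (hfin0 : vol μ K0.ES ≠ ⊤)
    (hmin : ∀ K, Cls D μ K → vol μ K0.ES ≤ vol μ K.ES + 1 / 100000)
    {K : PG D.ρ X ℕ} {f : X × ℕ → ℕ} (hK : Dom D μ K0 P K f) :
    ∃ (K' : PG D.ρ X ℕ) (g : X × ℕ → ℕ), Mor K K' g ∧ Dom D μ K0 P K' (fun u => g (u.1, f u)) ∧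
      (∀ y a l i, (∃ v, K.Path (rw D.r l i (R - q)) (y, a) v) →
        K'.Path (rw D.r l i R) (y, g (y, a)) (y, g (y, a))) := by
  obtain ⟨N, Us, hU1, hU2, hU3, hU4⟩ := partition_small htiny
    {u : X × (ℕ × XL × ZMod R) | ∃ v, K.Path (rw D.r u.2.2.1 u.2.2.2 (R - q)) (u.1, u.2.1) v}
    (runs_meas hmp D K) (runs_vol D K hK.good.fin) (1 / 100000)
    (ENNReal.div_pos (by norm_num) (by norm_num))
  have key : ∀ n : ℕ, ∃ (K' : PG D.ρ X ℕ) (g : X × ℕ → ℕ), Mor K K' g ∧
      Dom D μ K0 P K' (fun u => g (u.1, f u)) ∧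
      (∀ m < n, ∀ y a l i, (y, (a, l, i)) ∈ Us m →
        K'.Path (rw D.r l i R) (y, g (y, a)) (y, g (y, a))) := by
    intro n
    induction n with
    | zero =>
      refine ⟨K, fun u => u.2, ?_, hK, ?_⟩
      · refine ⟨?_, fun x => rfl, fun x i h => h, fun s x i k h => h⟩
        intro i k
        by_cases h : i = k
        · simp [h]
        · simp [h]
      · intro m hm; omega
    | succ n ih =>
      obtain ⟨K1, g1, hg1, hD1, hr1⟩ := ih
      obtain ⟨hm', hv'⟩ := image_vol hmp hfree (Us n) (hU1 n) g1 hg1.meas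
      obtain ⟨K2, g2, hg2, hD2, hr2⟩ := dom_step hmp hfree D hj hG hP hfin0 hmin hD1
        {u : X × (ℕ × XL × ZMod R) | ∃ a, (u.1, (a, u.2.2.1, u.2.2.2)) ∈ Us n ∧
          g1 (u.1, a) = u.2.1} hm' (hv'.trans (hU2 n)) (by
            rintro y b l i ⟨a, ha, hb⟩
            obtain ⟨v, hv⟩ := hU3 n ha
            have := path_map K K1 g1 hg1 _ _ _ hv
            have hb' : g1 (y, a) = b := hb
            rw [← hb']
            exact ⟨_, this⟩)
      refine ⟨K2, fun u => g2 (u.1, g1 u), Mor.comp' hg1 hg2, hD2, ?_⟩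
      intro m hm y a l i h
      rcases Nat.lt_succ_iff_lt_or_eq.1 hm with h' | h'
      · have := hr1 m h' y a l i h
        exact path_map K1 K2 g2 hg2 _ _ _ this
      · subst h'
        exact hr2 y (g1 (y, a)) l i ⟨a, h, rfl⟩
  obtain ⟨K', g, h1, h2, h3⟩ := key N
  refine ⟨K', g, h1, h2, ?_⟩
  intro y a l i h
  obtain ⟨n, hn, hn'⟩ := hU4 (y, (a, l, i)) h
  exact h3 n hn y a l i hn'


theorem rw_add {S L : Type} {R : ℕ} (r : L → ZMod R → S × Bool) (l : L) (i : ZMod R) (a b : ℕ) :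
    rw r l i (a + b) = rw r l i a ++ rw r l (i + (a : ZMod R)) b := by
  unfold rw
  rw [List.range_add, List.map_append, List.map_map]
  congr 1
  apply List.map_congr_left
  intro m _
  simp only [Function.comp]
  congr 1
  push_cast
  ring

/-- leafwise distance in `K` between `(x, o)` and `((ρ s)⁻¹ x, o)` -/
noncomputable def dst (K : PG D.ρ X ℕ) (s : AL) (x : X) : ℕ :=
  sInf {n | ∃ ω : List (AL × Bool), ω.length = n ∧ K.Path ω (x, K.o) ((D.ρ s)⁻¹ • x, K.o)}

omit [Countable Γ] [NeZero R] in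
theorem dst_spec {K : PG D.ρ X ℕ} (hBG : K.BG) (s : AL) (x : X) :
    ∃ ω : List (AL × Bool), ω.length = dst D K s x ∧
      K.Path ω (x, K.o) ((D.ρ s)⁻¹ • x, K.o) := by
  obtain ⟨L, h1, _⟩ := hBG
  obtain ⟨ω, _, h⟩ := h1 x s
  exact Nat.sInf_mem (s := {n | ∃ ω : List (AL × Bool), ω.length = n ∧
    K.Path ω (x, K.o) ((D.ρ s)⁻¹ • x, K.o)}) ⟨ω.length, ω, rfl, h⟩

omit [Countable Γ] [NeZero R] in
theorem dst_le {K : PG D.ρ X ℕ} {s : AL} {x : X} {ω : List (AL × Bool)}
    (h : K.Path ω (x, K.o) ((D.ρ s)⁻¹ • x, K.o)) : dst D K s x ≤ ω.length :=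
  Nat.sInf_le ⟨ω, rfl, h⟩

include hmp hfree in
omit [Countable Γ] [IsProbabilityMeasure μ] [NeZero R] in
theorem dst_meas (K : PG D.ρ X ℕ) (hBG : K.BG) (s : AL) :
    Measurable (dst D K s) := by
  have hle : ∀ n, MeasurableSet {x | dst D K s x ≤ n} := by
    intro n
    have : {x | dst D K s x ≤ n} = ⋃ ω : {ω : List (AL × Bool) // ω.length ≤ n},
        {x | K.Path ω.1 (x, K.o) ((D.ρ s)⁻¹ • x, K.o)} := by
      ext x
      simp only [Set.mem_iUnion]
      constructor
      · intro h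
        obtain ⟨ω, h1, h2⟩ := dst_spec D hBG s x
        exact ⟨⟨ω, h1 ▸ h⟩, h2⟩
      · rintro ⟨⟨ω, hω⟩, h⟩
        exact (dst_le D h).trans hω
    rw [this]
    refine MeasurableSet.iUnion fun ω => ?_
    by_cases hv : wval D.ρ ω.1 = D.ρ s
    · rw [← hv]
      exact path_meas (fun g => (hmp g).measurable) K _ _ _
    · convert MeasurableSet.empty (α := X) using 1
      ext x
      simp only [Set.mem_empty_iff_false, iff_false]
      intro h
      have hp := path_pos K _ _ _ h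
      simp only at hp
      apply hv
      have : (D.ρ s * (wval D.ρ ω.1)⁻¹) • x = x := by
        rw [mul_smul, ← hp, smul_inv_smul]
      have h1 := hfree _ _ this
      exact (mul_inv_eq_one.1 h1).symm
  refine measurable_to_nat fun x => ?_
  have : dst D K s ⁻¹' {dst D K s x} = {y | dst D K s y ≤ dst D K s x} \
      {y | dst D K s y ≤ dst D K s x - 1 ∧ dst D K s x ≠ 0} := by
    ext y
    simp only [Set.mem_preimage, Set.mem_singleton_iff, Set.mem_diff]
    constructor
    · intro h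
      refine ⟨h.le, ?_⟩
      rintro ⟨h1, h2⟩
      omega
    · rintro ⟨h1, h2⟩
      have h1' : dst D K s y ≤ dst D K s x := h1
      have h2' : ¬ (dst D K s y ≤ dst D K s x - 1 ∧ dst D K s x ≠ 0) := h2
      push Not at h2'
      by_contra hne
      have hlt : dst D K s y < dst D K s x := lt_of_le_of_ne h1' hne
      have := h2' (by omega)
      omega
  rw [this]
  refine (hle _).diff ?_
  by_cases h0 : dst D K s x = 0
  · simp [h0]
  · simp only [ne_eq, h0, not_false_eq_true, and_true]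
    exact hle _

omit [Countable Γ] in
/-- distances do not increase, and drop when `≥ 2` -/
theorem dst_drop {K K' : PG D.ρ X ℕ} {g : X × ℕ → ℕ} (hg : Mor K K' g)
    (hF : K.Folded) (hF' : K'.Folded) (hBG : K.BG)
    (hr : ∀ y a l i, (∃ v, K.Path (rw D.r l i (R - q)) (y, a) v) →
        K'.Path (rw D.r l i R) (y, g (y, a)) (y, g (y, a)))
    (hfree : ∀ (g : Γ) (x : X), g • x = x → g = 1)
    (s : AL) (x : X) :
    dst D K' s x + (if 2 ≤ dst D K s x then 1 else 0) ≤ dst D K s x := by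
  obtain ⟨ω, h1, h2⟩ := dst_spec D hBG s x
  split_ifs with hd
  · -- reduced word
    obtain ⟨b, hb1, hb2, hb3, hb4⟩ := path_reduce K hF ω _ _ h2
    have hblen : b.length = dst D K s x := le_antisymm (hb3.trans h1.le) (dst_le D hb4)
    have hval : wval D.ρ b = D.ρ s := by
      have hp := path_pos K _ _ _ hb4
      simp only at hp
      have : (D.ρ s * (wval D.ρ b)⁻¹) • x = x := by
        rw [mul_smul, ← hp, smul_inv_smul]
      exact (mul_inv_eq_one.1 (hfree _ _ this)).symm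
    obtain ⟨l, i, hrun⟩ := run_of_word D b hb1 s hval (by omega)
    have hqR := D.hqR
    have hRq : R = (R - q) + q := by omega
    rcases hrun with ⟨A, B, hAB⟩ | ⟨A, B, hAB⟩
    · rw [← hAB, List.append_assoc, path_append] at hb4
      obtain ⟨u, hu1, hu2⟩ := hb4
      rw [path_append] at hu2
      obtain ⟨v, hv1, hv2⟩ := hu2
      have hloop := hr u.1 u.2 l i ⟨v, hv1⟩
      have h3 := path_map K K' g hg _ _ _ hv1
      have hsplit : rw D.r l i R = rw D.r l i (R - q) ++ rw D.r l (i + ((R - q : ℕ) : ZMod R)) q := by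
        have h9 := rw_add D.r l i (R - q) q
        rw [← hRq] at h9
        exact h9
      rw [hsplit, path_append] at hloop
      obtain ⟨w, hw1, hw2⟩ := hloop
      have hw : w = (v.1, g v) := path_unique K' hF' _ _ _ _ hw1 h3
      rw [hw] at hw2
      have h4 := (path_winv K' _ _ _).2 hw2
      have h5 : K'.Path (A ++ (winv (rw D.r l (i + ((R - q : ℕ) : ZMod R)) q) ++ B))
          (x, K'.o) ((D.ρ s)⁻¹ • x, K'.o) := by
        rw [path_append]
        refine ⟨(u.1, g u), ?_, ?_⟩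
        · have := path_map K K' g hg _ _ _ hu1
          simp only [hg.o] at this
          exact this
        · rw [path_append]
          refine ⟨(v.1, g v), h4, ?_⟩
          have := path_map K K' g hg _ _ _ hv2
          simp only [hg.o] at this
          exact this
      have h6 := dst_le D h5
      have h7 : b.length = A.length + (R - q) + B.length := by
        rw [← hAB]; simp [rw_length]; ring
      rw [List.length_append, List.length_append, winv_length', rw_length] at h6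
      omega
    · rw [← hAB, List.append_assoc, path_append] at hb4
      obtain ⟨u, hu1, hu2⟩ := hb4
      rw [path_append] at hu2
      obtain ⟨v, hv1, hv2⟩ := hu2
      rw [path_winv] at hv1
      have hloop := hr v.1 v.2 l i ⟨u, hv1⟩
      have h3 := path_map K K' g hg _ _ _ hv1
      have hsplit : rw D.r l i R = rw D.r l i (R - q) ++ rw D.r l (i + ((R - q : ℕ) : ZMod R)) q := by
        have h9 := rw_add D.r l i (R - q) q
        rw [← hRq] at h9
        exact h9
      rw [hsplit, path_append] at hloop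
      obtain ⟨w, hw1, hw2⟩ := hloop
      have hw : w = (u.1, g u) := path_unique K' hF' _ _ _ _ hw1 h3
      rw [hw] at hw2
      have h5 : K'.Path (A ++ (rw D.r l (i + ((R - q : ℕ) : ZMod R)) q ++ B))
          (x, K'.o) ((D.ρ s)⁻¹ • x, K'.o) := by
        rw [path_append]
        refine ⟨(u.1, g u), ?_, ?_⟩
        · have := path_map K K' g hg _ _ _ hu1
          simp only [hg.o] at this
          exact this
        · rw [path_append]
          refine ⟨(v.1, g v), hw2, ?_⟩
          have := path_map K K' g hg _ _ _ hv2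
          simp only [hg.o] at this
          exact this
      have h6 := dst_le D h5
      have h7 : b.length = A.length + (R - q) + B.length := by
        rw [← hAB]; simp [rw_length, winv_length']; ring
      rw [List.length_append, List.length_append, rw_length] at h6
      omega
  · rw [add_zero, ← h1]
    have := path_map K K' g hg _ _ _ h2
    simp only [hg.o] at this
    exact dst_le D this


/-- the potential -/
noncomputable def pot (μ : Measure X) (K : PG D.ρ X ℕ) : ENNReal :=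
  ∑ s : AL, ∫⁻ x, (dst D K s x : ENNReal) ∂μ

omit [Countable Γ] [NeZero R] in
theorem pot_ne_top {K : PG D.ρ X ℕ} (hBG : K.BG) : pot D μ K ≠ ⊤ := by
  obtain ⟨L, h1, _⟩ := hBG
  unfold pot
  rw [ne_eq, ENNReal.sum_eq_top]
  push Not
  intro s _
  have : ∫⁻ x, (dst D K s x : ENNReal) ∂μ ≤ ∫⁻ _, (L : ENNReal) ∂μ := by
    refine lintegral_mono fun x => ?_
    obtain ⟨ω, h2, h3⟩ := h1 x s
    exact Nat.cast_le.2 ((dst_le D h3).trans h2)
  refine ne_top_of_le_ne_top ?_ this
  simp

include hmp hfree in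
/-- measure of `dst = 1` -/
theorem dst_one (hG : Gap μ (fun i => (D.ρ (some (some i)))⁻¹))
    {K : PG D.ρ X ℕ} (hBG : K.BG)
    (hfin : vol μ K.V ≠ ⊤) (hex : vol μ K.ES ≤ vol μ K.V + 1 / 500) :
    ∑ s : AL, μ {x | dst D K s x = 1} ≤ 1 + 1 / 500 := by
  classical
  have hES : vol μ K.ES ≠ ⊤ := ne_top_of_le_ne_top (ENNReal.add_ne_top.2 ⟨hfin, by finiteness⟩) hex
  have hY1 : vol μ {u : X × ℕ | u.2 = K.o} = 1 := by
    unfold vol
    rw [tsum_eq_single K.o]
    · simp
    · intro i hi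
      simp [hi]
  have h := subset_excess hmp hfree D.gen hG K hBG hfin hES {u : X × ℕ | u.2 = K.o} (by
      intro i
      by_cases hi : i = K.o
      · simp [hi]
      · simp [hi]) (by
      rintro ⟨x, i⟩ hi
      have hi' : i = K.o := hi
      rw [hi']
      exact K.thick x) (by rw [hY1]; norm_num)
  rw [hY1] at h
  have h2 : vol μ {e | e ∈ K.ES ∧ (e.1, e.2.2.1) ∈ {u : X × ℕ | u.2 = K.o} ∧
      ((D.ρ e.2.1)⁻¹ • e.1, e.2.2.2) ∈ {u : X × ℕ | u.2 = K.o}} ≤ 1 + 1 / 500 := by
    have h3 : vol μ {e | e ∈ K.ES ∧ (e.1, e.2.2.1) ∈ {u : X × ℕ | u.2 = K.o} ∧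
      ((D.ρ e.2.1)⁻¹ • e.1, e.2.2.2) ∈ {u : X × ℕ | u.2 = K.o}} + vol μ K.V
        ≤ (1 + 1 / 500) + vol μ K.V := by
      refine h.trans ?_
      calc 1 + vol μ K.ES ≤ 1 + (vol μ K.V + 1 / 500) := by gcongr
        _ = _ := by ring
    exact (ENNReal.add_le_add_iff_right hfin).1 h3
  refine le_trans ?_ h2
  have h4 : ∀ s : AL, μ {x | dst D K s x = 1} ≤
      μ {x | (x, (s, K.o, K.o)) ∈ {e | e ∈ K.ES ∧ (e.1, e.2.2.1) ∈ {u : X × ℕ | u.2 = K.o} ∧
        ((D.ρ e.2.1)⁻¹ • e.1, e.2.2.2) ∈ {u : X × ℕ | u.2 = K.o}}} := by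
    intro s
    refine measure_mono fun x hx => ?_
    obtain ⟨ω, h5, h6⟩ := dst_spec D hBG s x
    have hx' : dst D K s x = 1 := hx
    rw [hx'] at h5
    obtain ⟨d, rfl⟩ := List.length_eq_one_iff.1 h5
    obtain ⟨w, hw1, hw2⟩ := h6
    have hw3 : w = ((D.ρ s)⁻¹ • x, K.o) := hw2.2
    rw [hw3] at hw1
    have hval : lval D.ρ d = D.ρ s := by
      have hp := path_pos K [d] (x, K.o) ((D.ρ s)⁻¹ • x, K.o)
        ⟨_, hw1, by rw [hw3] at hw2; exact hw2⟩
      rw [wval_single] at hp
      simp only at hp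
      have : (D.ρ s * (lval D.ρ d)⁻¹) • x = x := by
        rw [mul_smul, ← hp, smul_inv_smul]
      exact (mul_inv_eq_one.1 (hfree _ _ this)).symm
    have hd : d = (s, true) := by
      rcases d with ⟨s', b⟩
      cases b with
      | true =>
        have : D.ρ s' = D.ρ s := by simpa [lval] using hval
        rw [D.ρ_inj this]
      | false =>
        exfalso
        have : (D.ρ s')⁻¹ = D.ρ s := by simpa [lval] using hval
        exact D.ρ_ne_inv s s' this.symm
    rw [hd] at hw1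
    have hE : (x, (K.o, K.o)) ∈ K.E s := by
      have := hw1
      unfold step at this
      simp only [if_true] at this
      exact this.2
    exact ⟨hE, rfl, rfl⟩
  calc ∑ s : AL, μ {x | dst D K s x = 1} ≤ ∑ s : AL, μ {x | (x, (s, K.o, K.o)) ∈
        {e | e ∈ K.ES ∧ (e.1, e.2.2.1) ∈ {u : X × ℕ | u.2 = K.o} ∧
        ((D.ρ e.2.1)⁻¹ • e.1, e.2.2.2) ∈ {u : X × ℕ | u.2 = K.o}}} :=
        Finset.sum_le_sum fun s _ => h4 s
    _ ≤ vol μ {e | e ∈ K.ES ∧ (e.1, e.2.2.1) ∈ {u : X × ℕ | u.2 = K.o} ∧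
        ((D.ρ e.2.1)⁻¹ • e.1, e.2.2.2) ∈ {u : X × ℕ | u.2 = K.o}} := by
        have h7 := ENNReal.sum_le_tsum (f := fun i : AL × ℕ × ℕ => μ {x | (x, i) ∈
          {e | e ∈ K.ES ∧ (e.1, e.2.2.1) ∈ {u : X × ℕ | u.2 = K.o} ∧
            ((D.ρ e.2.1)⁻¹ • e.1, e.2.2.2) ∈ {u : X × ℕ | u.2 = K.o}}})
          ((Finset.univ : Finset AL).image fun s => (s, K.o, K.o))
        rw [Finset.sum_image (by intro a _ b _ hab; simpa using hab)] at h7
        exact h7

include hmp hfree in
theorem main_contradiction (hj : 100 * (101 * (63 ^ j * (4 + 24 * q))) * 1000 ≤ 100 ^ j)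
    (hG : Gap μ (fun i => (D.ρ (some (some i)))⁻¹))
    (htiny : ∀ β : ENNReal, 0 < β → ∃ (N : ℕ) (f : X → Fin N), Measurable f ∧ ∀ k, μ (f ⁻¹' {k}) ≤ β)
    (K : PG D.ρ X ℕ) (P : Set (X × List (AL × Bool)))
    (hK : GoodC D μ K P ∅) (hP : vol μ P ≤ 1 + 1 / 1000) : False := by
  classical
  -- a competitor exists
  have hex := excess_small hmp hfree D hK hP (by simp [vol])
  obtain ⟨K1, hK1, _⟩ := peel_cls hmp hfree D hj hG (goodC_mono hmp D hK) hP hex
  -- near-minimal competitor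
  have hEfin : ∀ K, Cls D μ K → vol μ K.ES ≠ ⊤ := by
    rintro K ⟨P', h1, h2, h3⟩
    have := excess_small hmp hfree D h1 h2 (h3.trans (by
      rw [ENNReal.div_le_iff (by norm_num) (by norm_num), ← ENNReal.mul_div_right_comm,
        ENNReal.le_div_iff_mul_le (by norm_num) (by norm_num)]
      norm_num))
    exact ne_top_of_le_ne_top (ENNReal.add_ne_top.2 ⟨h1.fin, by finiteness⟩) this
  set m := sInf {t | ∃ K, Cls D μ K ∧ vol μ K.ES = t} with hm
  have hm1 : m ≠ ⊤ := ne_top_of_le_ne_top (hEfin K1 hK1) (sInf_le ⟨K1, hK1, rfl⟩)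
  have hlt : m < m + 1 / 100000 :=
    ENNReal.lt_add_right hm1 (by simp)
  obtain ⟨_, ⟨K0, hK0, rfl⟩, hK0m⟩ := sInf_lt_iff.1 hlt
  have hmin : ∀ K, Cls D μ K → vol μ K0.ES ≤ vol μ K.ES + 1 / 100000 := by
    intro K hK
    refine hK0m.le.trans ?_
    gcongr
    exact sInf_le ⟨K, hK, rfl⟩
  obtain ⟨P0, hg0, hP0, hc0⟩ := hK0
  have hfin0 : vol μ K0.ES ≠ ⊤ := hEfin K0 ⟨P0, hg0, hP0, hc0⟩
  have hex0 := excess_small hmp hfree D hg0 hP0 (hc0.trans (by
      rw [ENNReal.div_le_iff (by norm_num) (by norm_num), ← ENNReal.mul_div_right_comm,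
        ENNReal.le_div_iff_mul_le (by norm_num) (by norm_num)]
      norm_num))
  have hD0 : Dom D μ K0 P0 K0 (fun u => u.2) := by
    refine ⟨hg0, ⟨?_, fun x => rfl, fun x i h => h, fun s x i k h => h⟩, ?_, hex0⟩
    · intro i k
      by_cases h : i = k
      · simp [h]
      · simp [h]
    · intro S hS _
      refine le_trans ?_ hS
      rintro ⟨x, s, a, b⟩ h
      exact ⟨a, b, h, rfl, rfl⟩
  -- near-minimal potential
  set T := sInf {t | ∃ K f, Dom D μ K0 P0 K f ∧ pot D μ K = t} with hT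
  have hT1 : T ≠ ⊤ := ne_top_of_le_ne_top (pot_ne_top D hg0.bg) (sInf_le ⟨K0, _, hD0, rfl⟩)
  have hTlt : T < T + 1 := ENNReal.lt_add_right hT1 (by simp)
  obtain ⟨_, ⟨K2, f2, hK2, rfl⟩, hK2T⟩ := sInf_lt_iff.1 hTlt
  obtain ⟨K3, g, hg, hD3, hr⟩ := dom_all hmp hfree D hj hG htiny hP0 hfin0 hmin hK2
  have hT3 : T ≤ pot D μ K3 := sInf_le ⟨K3, _, hD3, rfl⟩
  -- the drop
  have hdrop : pot D μ K3 + ∑ s : AL, μ {x | 2 ≤ dst D K2 s x} ≤ pot D μ K2 := by
    unfold pot
    rw [← Finset.sum_add_distrib]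
    refine Finset.sum_le_sum fun s _ => ?_
    have hms : MeasurableSet {x | 2 ≤ dst D K2 s x} :=
      (dst_meas hmp hfree D K2 hK2.good.bg s) (measurableSet_Ici (a := 2))
    rw [← lintegral_indicator_one hms, ← lintegral_add_right _ (measurable_one.indicator hms)]
    refine lintegral_mono fun x => ?_
    have h1 := dst_drop D hg hK2.good.folded hD3.good.folded hK2.good.bg hr hfree s x
    simp only [Set.indicator_apply]
    have h2 : ((dst D K3 s x + (if 2 ≤ dst D K2 s x then 1 else 0) : ℕ) : ENNReal)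
        ≤ (dst D K2 s x : ENNReal) := by exact_mod_cast h1
    push_cast at h2
    simpa using h2
  have hone := dst_one hmp hfree D hG hK2.good.bg hK2.good.fin hK2.ex
  have hsum : (102 : ENNReal) ≤ ∑ s : AL, μ {x | 2 ≤ dst D K2 s x} +
      ∑ s : AL, μ {x | dst D K2 s x = 1} := by
    rw [← Finset.sum_add_distrib]
    have : ∀ s : AL, (1 : ENNReal) ≤ μ {x | 2 ≤ dst D K2 s x} + μ {x | dst D K2 s x = 1} := by
      intro s
      calc (1 : ENNReal) = μ Set.univ := by simp
        _ ≤ μ ({x | 2 ≤ dst D K2 s x} ∪ {x | dst D K2 s x = 1}) := by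
            refine measure_mono fun x _ => ?_
            have h0 : dst D K2 s x ≠ 0 := by
              intro h0
              obtain ⟨ω, h1, h2⟩ := dst_spec D hK2.good.bg s x
              rw [h0, List.length_eq_zero_iff] at h1
              subst h1
              have h3 : (x, K2.o) = ((D.ρ s)⁻¹ • x, K2.o) := h2.2
              have h4 : (D.ρ s)⁻¹ • x = x := (Prod.mk.inj h3).1.symm
              have h5 := hfree _ _ h4
              exact D.ρ_ne s (inv_eq_one.1 h5)
            by_cases h1 : dst D K2 s x = 1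
            · exact Or.inr h1
            · left
              show 2 ≤ dst D K2 s x
              omega
        _ ≤ _ := measure_union_le _ _
    calc (102 : ENNReal) = ∑ _ : AL, (1 : ENNReal) := by simp
      _ ≤ _ := Finset.sum_le_sum fun s _ => this s
  have h3 : (102 : ENNReal) ≤ ∑ s : AL, μ {x | 2 ≤ dst D K2 s x} + 2 := by
    refine hsum.trans ?_
    gcongr
    refine hone.trans ?_
    calc (1 : ENNReal) + 1 / 500 ≤ 1 + 1 := by
          gcongr
          rw [ENNReal.div_le_iff (by norm_num) (by norm_num)]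
          norm_num
      _ = 2 := by norm_num
  have h4 : (100 : ENNReal) ≤ ∑ s : AL, μ {x | 2 ≤ dst D K2 s x} := by
    have : (100 : ENNReal) + 2 ≤ ∑ s : AL, μ {x | 2 ≤ dst D K2 s x} + 2 := by
      refine le_trans (le_of_eq ?_) h3
      norm_num
    exact (ENNReal.add_le_add_iff_right (by simp)).1 this
  have h5 : T + 100 ≤ T + 1 := by
    calc T + 100 ≤ pot D μ K3 + ∑ s : AL, μ {x | 2 ≤ dst D K2 s x} := by gcongr
      _ ≤ pot D μ K2 := hdrop
      _ ≤ T + 1 := hK2T.le
  have h6 : (100 : ENNReal) ≤ 1 := (ENNReal.add_le_add_iff_left hT1).1 h5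
  exact absurd h6 (by norm_num)

end Crest.Agent.CP
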