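import Crest.Agent.CPPeelB

set_option autoImplicit false
set_option linter.unusedSectionVars false

/-!
# Row 191, peel, part C: windows are not in the core; volume count
-/

namespace Crest.Agent.CP.Peel
open MeasureTheory PG

variable {Γ X : Type} [Group Γ] [Countable Γ] [MeasurableSpace X] [MulAction Γ X]

section win
variable {j R q : ℕ} [NeZero R] (D : RelData j R q Γ)
  (hm : ∀ g : Γ, Measurable (fun x : X => g • x))
  (hfree : ∀ (g : Γ) (x : X), g • x = x → g = 1)

/-- no reduced path of `K1` starting at a thick vertex reads a window edge -/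
theorem no_window (K : PG D.ρ X ℕ) (hF : K.Folded) {l : XL} {w : ZMod R → X × ℕ} {i : ZMod R}
    (h : Can D K l w i) (n : ℕ) (hn : n < 2 * q) :
    ∀ (ω : List (AL × Bool)) (x1 : X), Red (ω ++ [D.r l (i + (n : ZMod R))]) →
      (K1 D K (m_mk' hm hfree D K)).Path ω (x1, K.o) (w (i + (n : ZMod R))) →
      ¬ (K1 D K (m_mk' hm hfree D K)).step (D.r l (i + (n : ZMod R))) (w (i + (n : ZMod R)))
        (w (i + (n : ZMod R) + 1)) := by
  induction n with
  | zero =>
    intro ω x1 _ _ hs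
    rw [k1_step] at hs
    apply hs.2
    simp only [Nat.cast_zero, add_zero]
    exact Or.inl ⟨l, i, w, h, rfl, rfl⟩
  | succ n ih =>
    intro ω x1 hr hp hs
    have hns := h.2.1 (n + 1) (by omega) hn
    have hω : ω ≠ [] := by
      rintro rfl
      obtain ⟨_, he⟩ := hp
      exact hns (Or.inl (congrArg Prod.snd he).symm)
    obtain ⟨ω', e, rfl⟩ : ∃ ω' e, ω = ω' ++ [e] :=
      ⟨ω.dropLast, ω.getLast hω, (List.dropLast_append_getLast hω).symm⟩
    obtain ⟨z, hp1, v, hse, _, rfl⟩ := (path_append _ _ _ _ _).mp hp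
    have hne : D.r l (i + ((n + 1 : ℕ) : ZMod R)) ≠ linv e := by
      refine (red_append.mp hr).2.2 e ?_ _ ?_
      · simp
      · simp
    have hcast : i + ((n + 1 : ℕ) : ZMod R) = i + (n : ZMod R) + 1 := by push_cast; ring
    have hcyc : D.r l (i + ((n + 1 : ℕ) : ZMod R)) ≠ linv (D.r l (i + (n : ZMod R))) := by
      rw [hcast]; exact D.cyc l _
    have hse' := (k1_step D K _ _ _ _).mp hse
    have hloop := h.1 (i + (n : ZMod R))
    rw [← hcast] at hloop
    have hee : e = D.r l (i + (n : ZMod R)) := by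
      by_contra hc
      apply hns
      refine Or.inr ⟨linv e, linv (D.r l (i + (n : ZMod R))), D.r l (i + ((n + 1 : ℕ) : ZMod R)),
        ?_, hne.symm, hcyc.symm, ?_, ?_, ?_⟩
      · intro h1
        apply hc
        rw [← linv_linv e, h1, linv_linv]
      · exact ⟨z, (step_linv K _ _ _).mpr hse'.1⟩
      · exact ⟨_, (step_linv K _ _ _).mpr hloop⟩
      · exact ⟨_, h.1 _⟩
    subst hee
    have hz : z = w (i + (n : ZMod R)) :=
      hF _ _ _ _ ((step_linv K _ _ _).mpr hse'.1) ((step_linv K _ _ _).mpr hloop)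
    subst hz
    refine ih (by omega) ω' x1 (red_left hr) hp1 ?_
    rw [← hcast]
    exact hse

/-- window edges are not in the core -/
theorem window_not_core (K K' : PG D.ρ X ℕ) (hF : K.Folded)
    (hE : ∀ s, K'.E s ⊆ (K1 D K (m_mk' hm hfree D K)).E s)
    (hcore : ∀ s x j k, (x, (j, k)) ∈ K'.E s → ∃ ω1 ω2 x1 x2, Red (ω1 ++ (s, true) :: ω2) ∧
        (K1 D K (m_mk' hm hfree D K)).Path ω1 (x1, K.o) (x, j) ∧
        (K1 D K (m_mk' hm hfree D K)).Path ω2 ((D.ρ s)⁻¹ • x, k) (x2, K.o))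
    {l : XL} {w : ZMod R → X × ℕ} {i : ZMod R}
    (h : Can D K l w i) (n : ℕ) (hn : n < 2 * q) :
    eof (D.r l (i + (n : ZMod R))) (w (i + (n : ZMod R))) (w (i + (n : ZMod R) + 1)) ∉ K'.ES := by
  intro he
  have hs0 := h.1 (i + (n : ZMod R))
  obtain ⟨s, b, hsb⟩ : ∃ s b, D.r l (i + (n : ZMod R)) = (s, b) := ⟨_, _, rfl⟩
  have hnw := no_window D hm hfree K hF h n hn
  rw [hsb] at he hs0 hnw
  cases b
  · -- opposite direction
    simp only [PG.eof, PG.ES, Bool.false_eq_true, if_false, Set.mem_ofPred_eq] at he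
    obtain ⟨ω1, ω2, x1, x2, hr, hp1, hp2⟩ := hcore s _ _ _ he
    have hpos : w (i + (n : ZMod R)) = ((D.ρ s)⁻¹ • (w (i + (n : ZMod R) + 1)).1,
        (w (i + (n : ZMod R))).2) := by
      unfold PG.step at hs0
      simp only [Bool.false_eq_true, if_false] at hs0
      exact Prod.ext hs0.1 rfl
    refine hnw (winv ω2) x2 ?_ ?_ ?_
    · have h1 := red_winv hr
      rw [winv_append, winv_cons] at h1
      have h2 : linv ((s, true) : AL × Bool) = (s, false) := rfl
      rw [h2] at h1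
      exact red_left h1
    · rw [path_winv, hpos]; exact hp2
    · unfold PG.step
      simp only [Bool.false_eq_true, if_false]
      refine ⟨congrArg Prod.fst hpos, hE s he⟩
  · simp only [PG.eof, PG.ES, if_true, Set.mem_ofPred_eq] at he
    obtain ⟨ω1, ω2, x1, x2, hr, hp1, hp2⟩ := hcore s _ _ _ he
    refine hnw ω1 x1 ?_ hp1 ?_
    · have : Red ((ω1 ++ [(s, true)]) ++ ω2) := by simpa using hr
      exact red_left this
    · unfold PG.step at hs0 ⊢
      simp only [if_true] at hs0 ⊢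
      exact ⟨hs0.1, hE s he⟩

/-- the same edge gives the same canonical window and position -/
theorem window_inj (K : PG D.ρ X ℕ) (hF : K.Folded) {l l' : XL} {w w' : ZMod R → X × ℕ}
    {i i' : ZMod R} (h : Can D K l w i) (h' : Can D K l' w' i') {n n' : ℕ} (hn : n < 2 * q)
    (hn' : n' < 2 * q)
    (he : eof (D.r l (i + (n : ZMod R))) (w (i + (n : ZMod R))) (w (i + (n : ZMod R) + 1))
      = eof (D.r l' (i' + (n' : ZMod R))) (w' (i' + (n' : ZMod R))) (w' (i' + (n' : ZMod R) + 1))) :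
    l = l' ∧ w = w' ∧ n = n' := by
  have hs := h.1 (i + (n : ZMod R))
  have hs' := h'.1 (i' + (n' : ZMod R))
  -- either same or opposite direction
  have hcases : (D.r l (i + (n : ZMod R)) = D.r l' (i' + (n' : ZMod R)) ∧
      w (i + (n : ZMod R)) = w' (i' + (n' : ZMod R))) ∨
      (D.r l (i + (n : ZMod R)) = linv (D.r l' (i' + (n' : ZMod R))) ∧
      w (i + (n : ZMod R)) = w' (i' + (n' : ZMod R) + 1)) := by
    obtain ⟨s, b, hsb⟩ : ∃ s b, D.r l (i + (n : ZMod R)) = (s, b) := ⟨_, _, rfl⟩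
    obtain ⟨s', b', hsb'⟩ : ∃ s b, D.r l' (i' + (n' : ZMod R)) = (s, b) := ⟨_, _, rfl⟩
    rw [hsb] at he hs
    rw [hsb'] at he hs'
    rw [hsb, hsb']
    have hp := path_pos K [(s, b)] _ _ ((path_single K _ _ _).mpr hs)
    have hp' := path_pos K [(s', b')] _ _ ((path_single K _ _ _).mpr hs')
    cases b <;> cases b' <;> simp only [PG.eof, if_true, Bool.false_eq_true, if_false,
      Prod.mk.injEq] at he <;> obtain ⟨h1, h2, h3, h4⟩ := he <;> subst h2
    · left
      refine ⟨rfl, ?_⟩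
      refine Prod.ext ?_ h4
      unfold PG.step at hs hs'
      simp only [Bool.false_eq_true, if_false] at hs hs'
      rw [hs.1, hs'.1, h1]
    · right
      refine ⟨rfl, ?_⟩
      refine Prod.ext ?_ h4
      unfold PG.step at hs hs'
      simp only [Bool.false_eq_true, if_false, if_true] at hs hs'
      rw [hs.1, hs'.1, h1]
    · right
      refine ⟨rfl, ?_⟩
      exact Prod.ext h1 h3
    · left
      refine ⟨rfl, ?_⟩
      exact Prod.ext h1 h3
  rcases hcases with ⟨h1, h2⟩ | ⟨h1, h2⟩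
  · obtain ⟨rfl, h4, rfl⟩ := rigid1 D hF h'.1 h'.2.1 h.1 hn' h1 h2
    have hii := can_unique D h h'
    subst hii
    refine ⟨rfl, rfl, ?_⟩
    have h5 : (n : ZMod R) = (n' : ZMod R) := by simpa using h4
    have hqR := D.hqR
    have h6 := congrArg ZMod.val h5
    rwa [ZMod.val_natCast_of_lt (by omega), ZMod.val_natCast_of_lt (by omega)] at h6
  · exact (rigid2 D hF h'.1 h'.2.1 h.1 hn' h1 h2).elim

theorem cell_survives (K K' : PG D.ρ X ℕ) (hF : K.Folded)
    (hE : ∀ s, K'.E s ⊆ (K1 D K (m_mk' hm hfree D K)).E s)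
    (hloop : ∀ (ω : List (AL × Bool)) (v : X × ℕ), Red (ω ++ ω) → ω ≠ [] →
      (K1 D K (m_mk' hm hfree D K)).Path ω v v → K'.Path ω v v)
    {l : XL} {u : ZMod R → X × ℕ} (hu : Loop D K l u) :
    Loop D K' l u ∨ ∃ i, Can D K l u i := by
  by_cases hex : ∃ p, Mk D K (D.r l p) (u p) (u (p + 1))
  · obtain ⟨p, hp⟩ := hex
    exact Or.inr ⟨p, can_of_mk D hF hu hp⟩
  · left
    push Not at hex
    have h1 : Loop D (K1 D K (m_mk' hm hfree D K)) l u := by
      intro p
      rw [k1_step]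
      exact ⟨hu p, hex p⟩
    have h2 := cell_of_loop D _ l u h1
    have hR : 0 < R := Nat.pos_of_ne_zero (NeZero.ne R)
    have h3 : K'.Path (rw D.r l 0 R) (u 0) (u 0) := by
      refine hloop _ _ ?_ ?_ h2
      · have h4 := rw_red D l 0 (R + R)
        rw [rw_add'] at h4
        simpa using h4
      · intro h4
        have h5 := congrArg List.length h4
        rw [rw_len] at h5
        simp at h5
        omega
    obtain ⟨u', h4, h5⟩ := loop_of_cell D K' l (u 0) h3
    have hsub : ∀ d a b, K'.step d a b → K.step d a b := by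
      intro d a b hs
      have : (K1 D K (m_mk' hm hfree D K)).step d a b := by
        unfold PG.step at hs ⊢
        split_ifs at hs ⊢ with hd
        · exact ⟨hs.1, hE _ hs.2⟩
        · exact ⟨hs.1, hE _ hs.2⟩
      exact ((k1_step D K _ _ _ _).mp this).1
    have h6 : Loop D K l u' := fun m => hsub _ _ _ (h4 m)
    have h7 := loop_unique D K hF l u' u h6 hu 0 h5
    rw [← h7]; exact h4

end win

end Crest.Agent.CP.Peel

namespace Crest.Agent.CP
open MeasureTheory PG

variable {Γ X : Type} [Group Γ] [Countable Γ] [MeasurableSpace X] [MulAction Γ X]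
  {μ : Measure X} [IsProbabilityMeasure μ]
  (hmp : ∀ g : Γ, MeasurePreserving (fun x : X => g • x) μ μ)
  (hfree : ∀ (g : Γ) (x : X), g • x = x → g = 1)
  {j R q : ℕ} [NeZero R] (D : RelData j R q Γ)

namespace Peel

theorem vol_mono' {ι : Type} {A B : Set (X × ι)} (h : A ⊆ B) : vol μ A ≤ vol μ B :=
  ENNReal.tsum_le_tsum fun _ => measure_mono fun _ hx => h hx

theorem vol_diff {ι : Type} {A B : Set (X × ι)} (h : A ⊆ B) (hA : MS A) :
    vol μ A + vol μ (B \ A) = vol μ B := by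
  unfold vol
  rw [← ENNReal.tsum_add]
  refine tsum_congr fun i => ?_
  rw [add_comm, ← measure_union ?_ (hA i)]
  · congr 1
    ext x
    simp only [Set.mem_union, Set.mem_ofPred_eq, Set.mem_sdiff]
    constructor
    · rintro (⟨h1, _⟩ | h1)
      · exact h1
      · exact h h1
    · intro h1
      by_cases h2 : (x, i) ∈ A
      · exact Or.inr h2
      · exact Or.inl ⟨h1, h2⟩
  · rw [Set.disjoint_left]
    rintro x ⟨_, h1⟩ h2
    exact h1 h2

theorem vol_fin {ι : Type} (A : Set (X × ι)) (n : ℕ) :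
    vol μ {u : X × (ι × Fin n) | (u.1, u.2.1) ∈ A} = n * vol μ A := by
  unfold vol
  rw [ENNReal.tsum_prod']
  simp only [Set.mem_ofPred_eq]
  simp only [tsum_fintype, Finset.sum_const, Finset.card_univ, Fintype.card_fin, nsmul_eq_mul]
  rw [ENNReal.tsum_mul_left]

theorem es_meas {ρ : AL → Γ} (K : PG ρ X ℕ) : MS K.ES := by
  rintro ⟨s, a, b⟩
  exact K.mE s (a, b)

include hmp hfree

theorem window_count (K K' : PG D.ρ X ℕ) (hF : K.Folded)
    (hE' : ∀ s, K'.E s ⊆ K.E s)
    (hwin : ∀ {l : XL} {w : ZMod R → X × ℕ} {i : ZMod R}, Can D K l w i → ∀ n : ℕ, n < 2 * q →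
      eof (D.r l (i + (n : ZMod R))) (w (i + (n : ZMod R))) (w (i + (n : ZMod R) + 1)) ∉ K'.ES) :
    vol μ K'.ES + 2 * q * vol μ (TypeA D K) ≤ vol μ K.ES := by
  have hm : ∀ g : Γ, Measurable (fun x : X => g • x) := fun g => (hmp g).measurable
  have hsub : K'.ES ⊆ K.ES := fun e he => hE' _ he
  have h1 : vol μ {u : X × ((ℕ × XL) × Fin (2 * q)) | (u.1, u.2.1) ∈ TypeA D K}
      ≤ (1 : ℕ) * vol μ (K.ES \ K'.ES) := by
    refine rmt hmp hfree _ _ ?_ ?_ (fun u e => ∃ (i : ZMod R) (w : ZMod R → X × ℕ),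
      Can D K u.2.1.2 w i ∧ w 0 = (u.1, u.2.1.1) ∧
      eof (D.r u.2.1.2 (i + (((u.2.2 : Fin (2 * q)) : ℕ) : ZMod R)))
        (w (i + (((u.2.2 : Fin (2 * q)) : ℕ) : ZMod R)))
        (w (i + (((u.2.2 : Fin (2 * q)) : ℕ) : ZMod R) + 1)) = e) ?_ 1 ?_ ?_
    · rintro ⟨⟨k, l⟩, n⟩
      exact m_typeA hm hfree D K (k, l)
    · rintro ⟨s, a, b⟩
      exact (K.mE s (a, b)).diff (K'.mE s (a, b))
    · rintro ⟨⟨k, l⟩, n⟩ ⟨s, a, b⟩ g
      simp only
      have : {x : X | ∃ (i : ZMod R) (w : ZMod R → X × ℕ), Can D K l w i ∧ w 0 = (x, k) ∧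
          eof (D.r l (i + ((n : ℕ) : ZMod R))) (w (i + ((n : ℕ) : ZMod R)))
            (w (i + ((n : ℕ) : ZMod R) + 1)) = (g • x, s, a, b)}
          = ⋃ i : ZMod R, {x : X | ∃ w : ZMod R → X × ℕ, Can D K l w i ∧ (w 0 = (x, k) ∧
          eof (D.r l (i + ((n : ℕ) : ZMod R))) (w (i + ((n : ℕ) : ZMod R)))
            (w (i + ((n : ℕ) : ZMod R) + 1)) = (g • x, s, a, b))} := by
        ext x
        simp only [Set.mem_ofPred_eq, Set.mem_iUnion]
      rw [this]
      refine MeasurableSet.iUnion fun i => ?_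
      refine m_ex hm hfree D K l i (fun w x => w 0 = (x, k) ∧
          eof (D.r l (i + ((n : ℕ) : ZMod R))) (w (i + ((n : ℕ) : ZMod R)))
            (w (i + ((n : ℕ) : ZMod R) + 1)) = (g • x, s, a, b)) ?_ ?_
      · intro g' f
        refine MeasurableSet.inter ?_ ?_
        · have := m_pair_eq hm hfree (g' 0) 1 (f 0) k
          simp only [one_smul] at this
          exact this
        · obtain ⟨s', b', hsb⟩ : ∃ s b, D.r l (i + ((n : ℕ) : ZMod R)) = (s, b) := ⟨_, _, rfl⟩
          rw [hsb]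
          cases b'
          · simp only [PG.eof, Bool.false_eq_true, if_false, Prod.mk.injEq]
            exact MeasurableSet.inter (m_eq hfree _ _) (MeasurableSet.const _)
          · simp only [PG.eof, if_true, Prod.mk.injEq]
            exact MeasurableSet.inter (m_eq hfree _ _) (MeasurableSet.const _)
      · intro w x hw
        exact ⟨0, 1, by rw [hw.1, one_smul]⟩
    · rintro ⟨x, ⟨⟨k, l⟩, n⟩⟩ hu
      simp only [Set.mem_ofPred_eq] at hu
      obtain ⟨w, i, hc, h0⟩ := (typeA_iff D K x k l).mp hu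
      -- the edge
      have hs := hc.1 (i + ((n : ℕ) : ZMod R))
      have hw0 : (w 0).1 = (1 : Γ) • x := by rw [h0, one_smul]
      obtain ⟨g1, hg1⟩ := loop_orbit D hc.1 hw0 (i + ((n : ℕ) : ZMod R))
      obtain ⟨g2, hg2⟩ := loop_orbit D hc.1 hw0 (i + ((n : ℕ) : ZMod R) + 1)
      have hnot := hwin hc n n.2
      obtain ⟨s', b', hsb⟩ : ∃ s b, D.r l (i + ((n : ℕ) : ZMod R)) = (s, b) := ⟨_, _, rfl⟩
      rw [hsb] at hs hnot
      cases b'
      · refine ⟨g2, (s', (w (i + ((n : ℕ) : ZMod R) + 1)).2, (w (i + ((n : ℕ) : ZMod R))).2),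
          ⟨i, w, hc, h0, ?_⟩, ?_, ?_⟩
        · simp only
          rw [hsb]
          simp only [PG.eof, Bool.false_eq_true, if_false, hg2]
        · unfold PG.step at hs
          simp only [Bool.false_eq_true, if_false] at hs
          rw [← hg2]; exact hs.2
        · simp only [PG.eof, Bool.false_eq_true, if_false] at hnot
          rw [← hg2]; exact hnot
      · refine ⟨g1, (s', (w (i + ((n : ℕ) : ZMod R))).2, (w (i + ((n : ℕ) : ZMod R) + 1)).2),
          ⟨i, w, hc, h0, ?_⟩, ?_, ?_⟩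
        · simp only
          rw [hsb]
          simp only [PG.eof, if_true, hg1]
        · unfold PG.step at hs
          simp only [if_true] at hs
          rw [← hg1]; exact hs.2
        · simp only [PG.eof, if_true] at hnot
          rw [← hg1]; exact hnot
    · intro e he
      rw [Nat.cast_one, Set.encard_le_one_iff]
      rintro ⟨x, ⟨⟨k, l⟩, n⟩⟩ ⟨x', ⟨⟨k', l'⟩, n'⟩⟩ ⟨_, i, w, hc, h0, h1⟩ ⟨_, i', w', hc', h0', h1'⟩
      simp only at hc h0 h1 hc' h0' h1'
      obtain ⟨rfl, rfl, h5⟩ := window_inj D K hF hc hc' n.2 n'.2 (h1.trans h1'.symm)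
      have h6 := h0.symm.trans h0'
      simp only [Prod.mk.injEq] at h6
      obtain ⟨rfl, rfl⟩ := h6
      have h7 : n = n' := Fin.ext h5
      rw [h7]
  rw [Nat.cast_one, one_mul, vol_fin] at h1
  rw [← vol_diff hsub (es_meas K')]
  gcongr
  exact_mod_cast h1

end Peel

include hmp hfree

open Peel in
/- ## M4 (CPPeel.lean) -/
theorem peel' (K : PG D.ρ X ℕ) (P : Set (X × List (AL × Bool)))
    (hK : GoodC D μ K P (Cell D K)) :
    ∃ (K' : PG D.ρ X ℕ) (P' : Set (X × List (AL × Bool))),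
      GoodC D μ K' P' (Cell D K') ∧ vol μ P' ≤ vol μ P ∧
      vol μ K'.ES + 2 * q * vol μ (TypeA D K) ≤ vol μ K.ES ∧
      vol μ (Cell D K') ≤ vol μ (Cell D K \ TypeA D K) := by
  have hm : ∀ g : Γ, Measurable (fun x : X => g • x) := fun g => (hmp g).measurable
  have hF := hK.folded
  have hrr := reroute_peel hm hfree D K hF
  have hF1 : (K1 D K (m_mk' hm hfree D K)).Folded := by
    intro d u v v' h h'
    exact hF d u v v' ((k1_step D K _ _ _ _).mp h).1 ((k1_step D K _ _ _ _).mp h').1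
  have hBG1 : (K1 D K (m_mk' hm hfree D K)).BG := reroute_bg hrr hK.bg
  obtain ⟨K', ho, hV, hE, hF', hP', hBG', hred, hcore, hloop⟩ :=
    core_exists hm (K1 D K (m_mk' hm hfree D K)) hF1 hBG1
  have hcell : ∀ l u, Loop D K l u → Loop D K' l u ∨
      ∃ i : ZMod R, (K1 D K (m_mk' hm hfree D K)).Path (rw D.r l (i + 1) (R - 1)) (u (i + 1)) (u i) ∧
        Bq D K (D.r l i) (u i) (u (i + 1)) (winv (rw D.r l (i + 1) (R - 1))) := by
    intro l u hu
    rcases cell_survives D hm hfree K K' hF hE hloop hu with h | ⟨i, hi⟩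
    · exact Or.inl h
    · refine Or.inr ⟨i, k1_rest' D K _ hF hi, ?_⟩
      exact Or.inr (Or.inl ⟨l, i, ⟨u, hi, rfl⟩, rfl, rfl⟩)
  obtain ⟨P', mP', hN, hpath, hvol, hgen⟩ := reroute_gen hmp hfree D K _ K' P hK hrr ho hV hE
    hred hcell
  have hsub : ∀ d a b, K'.step d a b → (K1 D K (m_mk' hm hfree D K)).step d a b := by
    intro d a b hs
    unfold PG.step at hs ⊢
    split_ifs at hs ⊢ with hd
    · exact ⟨hs.1, hE _ hs.2⟩
    · exact ⟨hs.1, hE _ hs.2⟩
  have hcellsub : Cell D K' ⊆ Cell D K \ TypeA D K := by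
    rintro ⟨x, ⟨k, l⟩⟩ hc
    obtain ⟨u, hu, h0⟩ := loop_of_cell D K' l (x, k) hc
    have hu1 : Loop D (K1 D K (m_mk' hm hfree D K)) l u := fun m => hsub _ _ _ (hu m)
    have hu2 : Loop D K l u := fun m => ((k1_step D K _ _ _ _).mp (hu1 m)).1
    refine ⟨?_, ?_⟩
    · have := cell_of_loop D K l u hu2
      rw [h0] at this
      exact this
    · intro hA
      obtain ⟨w, i, hcan, hw0⟩ := (typeA_iff D K x k l).mp hA
      have : w = u := loop_unique D K hF l w u hcan.1 hu2 0 (hw0.trans h0.symm)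
      subst this
      have h3 := (k1_step D K _ _ _ _).mp (hu1 i)
      exact h3.2 (Or.inl ⟨l, i, w, hcan, rfl, rfl⟩)
  refine ⟨K', P', ⟨?_, hF', hP', hBG', ?_, mP', hN, hpath, ?_, subset_rfl, hgen⟩, hvol, ?_, ?_⟩
  · rw [ho]; exact hK.o0
  · refine ne_top_of_le_ne_top hK.fin (vol_mono' hV)
  · -- measurability of the cells
    rintro ⟨k, l⟩
    have := path_meas hm K' (rw D.r l 0 R) k k
    rw [D.rel l] at this
    simpa [Cell] using this
  · refine window_count hmp hfree D K K' hF (fun s e he => (hE s he).1) ?_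
    intro l w i hc n hn
    exact window_not_core D hm hfree K K' hF hE hcore hc n hn
  · exact vol_mono' hcellsub

end Crest.Agent.CP
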