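import Crest.Agent.CPPath
import Crest.Agent.CPMass
import Crest.Agent.CPCore
import Crest.Agent.CPPeelC

set_option autoImplicit false

namespace Crest.Agent.CP
open MeasureTheory PG

variable {Γ X : Type} [Group Γ] [Countable Γ] [MeasurableSpace X] [MulAction Γ X]
  {μ : Measure X} [IsProbabilityMeasure μ]
  (hmp : ∀ g : Γ, MeasurePreserving (fun x : X => g • x) μ μ)
  (hfree : ∀ (g : Γ) (x : X), g • x = x → g = 1)
  {j R q : ℕ} [NeZero R] (D : RelData j R q Γ)

include hmp hfree

/- ## M4 (CPPeel.lean): remove the first edge `e_c` of the (canonical) window of every type A cell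
`c`, then take the core.  Traversal lemma: a reduced path with thick ends, or a cyclically reduced
loop, containing any window edge contains the whole window (interior vertices are thin with
exactly two directions), in one of the two directions; so by `pp`/`pp'` a cell containing a window
edge of `c` is `c` itself, at the same offset; windows of different cells are disjoint; `e_c` occurs once
in `c`; every other cell survives.  Gen: extend a cochain on `K'` by 0 on the pruned edges and by
`e_c := -(rest of the loop)`.  `P'` = rerouted and reduced words. -/
theorem peel (K : PG D.ρ X ℕ) (P : Set (X × List (AL × Bool)))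
    (hK : GoodC D μ K P (Cell D K)) :
    ∃ (K' : PG D.ρ X ℕ) (P' : Set (X × List (AL × Bool))),
      GoodC D μ K' P' (Cell D K') ∧ vol μ P' ≤ vol μ P ∧
      vol μ K'.ES + 2 * q * vol μ (TypeA D K) ≤ vol μ K.ES ∧
      vol μ (Cell D K') ≤ vol μ (Cell D K \ TypeA D K) :=
  peel' hmp hfree D K P hK

end Crest.Agent.CP
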