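import Crest.Agent.CPRIB

set_option autoImplicit false

namespace Crest.Agent.CP
open MeasureTheory PG

section defs
variable {Γ X : Type} [Group Γ] [MeasurableSpace X] [MulAction Γ X]
  {j R q : ℕ} [NeZero R] (D : RelData j R q Γ)
  (K : PG D.ρ X ℕ) (P : Set (X × List (AL × Bool))) (C : Set (X × (ℕ × XL)))

/-- index type of the relations -/
abbrev RIx := (ℕ × XL) ⊕ (List (AL × Bool) ⊕ ℕ)

/-- the set of relations -/
def RA : Set (X × RIx) := {v | match v.2 with
  | Sum.inl c => (v.1, c) ∈ C
  | Sum.inr (Sum.inl w) => (v.1, w) ∈ P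
  | Sum.inr (Sum.inr i) => (v.1, i) ∈ K.Thin}

open Classical in
/-- the matrix of the relations -/
noncomputable def th (v : X × RIx) (e : Edg X) : ℝ := match v.2 with
  | Sum.inl c => if (v.1, c) ∈ C then trR K (rw D.r c.2 0 R).reverse (v.1, c.1) e else 0
  | Sum.inr (Sum.inl w) => if (v.1, w) ∈ P then trR K w.reverse (v.1, K.o) e else 0
  | Sum.inr (Sum.inr i) => if (v.1, i) ∈ K.Thin then Dm K (v.1, i) e else 0

end defs

theorem vol_sum3 {X : Type} [MeasurableSpace X] (μ : Measure X) {α β γ : Type}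
    (A : Set (X × (α ⊕ (β ⊕ γ)))) :
    vol μ A = vol μ {v : X × α | (v.1, (Sum.inl v.2 : α ⊕ (β ⊕ γ))) ∈ A}
      + vol μ {v : X × β | (v.1, (Sum.inr (Sum.inl v.2) : α ⊕ (β ⊕ γ))) ∈ A}
      + vol μ {v : X × γ | (v.1, (Sum.inr (Sum.inr v.2) : α ⊕ (β ⊕ γ))) ∈ A} := by
  unfold vol
  rw [Summable.tsum_sum ENNReal.summable ENNReal.summable,
    Summable.tsum_sum ENNReal.summable ENNReal.summable, add_assoc]
  rfl

theorem vol_mono' {X : Type} [MeasurableSpace X] (μ : Measure X) {α : Type}
    {A B : Set (X × α)} (h : A ⊆ B) : vol μ A ≤ vol μ B :=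
  ENNReal.tsum_le_tsum fun _ => measure_mono fun _ hx => h hx

variable {Γ X : Type} [Group Γ] [Countable Γ] [MeasurableSpace X] [MulAction Γ X]
  {μ : Measure X} [IsProbabilityMeasure μ]
  (hmp : ∀ g : Γ, MeasurePreserving (fun x : X => g • x) μ μ)
  (hfree : ∀ (g : Γ) (x : X), g • x = x → g = 1)
  {j R q : ℕ} [NeZero R] (D : RelData j R q Γ)

/-- `vol V = 1 + vol Thin` -/
theorem vol_V_eq {ρ : AL → Γ} (K : PG ρ X ℕ) : vol μ K.V = 1 + vol μ K.Thin := by
  classical
  unfold vol
  rw [ENNReal.tsum_eq_add_tsum_ite K.o, ENNReal.tsum_eq_add_tsum_ite (f := fun i => μ {x | (x, i) ∈ K.Thin}) K.o]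
  have h1 : {x | (x, K.o) ∈ K.V} = Set.univ := by ext x; simp [K.thick x]
  have h2 : {x | (x, K.o) ∈ K.Thin} = ∅ := by ext x; simp [PG.Thin]
  rw [h1, h2, measure_univ, measure_empty, zero_add]
  congr 1
  refine tsum_congr fun i => ?_
  by_cases h : i = K.o
  · rw [if_pos h, if_pos h]
  · rw [if_neg h, if_neg h]
    congr 1
    ext x
    simp [PG.Thin, h]

/-- volume of the edge set of a folded graph -/
theorem vol_ES_le {ρ : AL → Γ} (K : PG ρ X ℕ) (hF : K.Folded) :
    vol μ K.ES ≤ Fintype.card AL * vol μ K.V := by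
  classical
  unfold vol
  rw [ENNReal.tsum_prod' (f := fun i : AL × (ℕ × ℕ) => μ {x | (x, i) ∈ K.ES}), tsum_fintype]
  have h : ∀ s : AL, ∑' i : ℕ × ℕ, μ {x | (x, (s, i)) ∈ K.ES} ≤ ∑' i, μ {x | (x, i) ∈ K.V} := by
    intro s
    rw [ENNReal.tsum_prod' (f := fun i : ℕ × ℕ => μ {x | (x, (s, i)) ∈ K.ES})]
    refine ENNReal.tsum_le_tsum fun i => ?_
    rw [← measure_iUnion]
    · refine measure_mono ?_
      intro x hx
      obtain ⟨k, hk⟩ := Set.mem_iUnion.1 hx
      exact K.src s x i k hk
    · intro k k' hkk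
      rw [Function.onFun, Set.disjoint_left]
      intro x h1 h2
      apply hkk
      have k1 := step_edge K (e := (x, (s, i, k))) h1
      have k2 := step_edge K (e := (x, (s, i, k'))) h2
      have := hF _ _ _ _ k1 k2
      simpa [etgt] using this
    · intro k
      exact K.mE s (i, k)
  calc ∑ s : AL, ∑' i : ℕ × ℕ, μ {x | (x, (s, i)) ∈ K.ES}
      ≤ ∑ _s : AL, ∑' i, μ {x | (x, i) ∈ K.V} := Finset.sum_le_sum fun s _ => h s
    _ = _ := by rw [Finset.sum_const, nsmul_eq_mul]; rfl

section main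
variable (K : PG D.ρ X ℕ) (P : Set (X × List (AL × Bool)))
    (C : Set (X × (ℕ × XL))) (hK : GoodC D μ K P C)
include hK

omit [Countable Γ] [IsProbabilityMeasure μ] in
theorem th_col (B : ℕ) (hB : ∀ x w, (x, w) ∈ P → w.length ≤ B) (F : Finset (List (AL × Bool)))
    (hFi : ∀ w : List (AL × Bool), w.length ≤ B → w ∈ F) (e : Edg X) :
    {v | th D K P C v e ≠ 0}.encard ≤ ((Fintype.card XL * R + F.card * B + 2 : ℕ) : ℕ∞) := by
  classical
  have hsub : {v | th D K P C v e ≠ 0} ⊆
      {v : X × RIx | ∃ u : X × (ℕ × XL), v = (u.1, Sum.inl u.2) ∧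
          trR K (rw D.r u.2.2 0 R).reverse (u.1, u.2.1) e ≠ 0} ∪
      ({v : X × RIx | ∃ u : X × List (AL × Bool), v = (u.1, Sum.inr (Sum.inl u.2)) ∧
          u ∈ P ∧ trR K u.2.reverse (u.1, K.o) e ≠ 0} ∪
       {v : X × RIx | ∃ u : X × ℕ, v = (u.1, Sum.inr (Sum.inr u.2)) ∧ Dm K u e ≠ 0}) := by
    rintro ⟨x, c | w | i⟩ hv
    · left
      refine ⟨(x, c), rfl, ?_⟩
      simp only [th, Set.mem_ofPred_eq] at hv
      rcases eq_or_ne (trR K (rw D.r c.2 0 R).reverse (x, c.1) e) 0 with h | h
      · rw [h] at hv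
        simp at hv
      · exact h
    · right; left
      refine ⟨(x, w), rfl, ?_⟩
      simp only [th, Set.mem_ofPred_eq] at hv
      by_cases hP : (x, w) ∈ P
      · rw [if_pos hP] at hv; exact ⟨hP, hv⟩
      · rw [if_neg hP] at hv; exact absurd rfl hv
    · right; right
      refine ⟨(x, i), rfl, ?_⟩
      simp only [th, Set.mem_ofPred_eq] at hv
      rcases eq_or_ne (Dm K (x, i) e) 0 with h | h
      · rw [h] at hv
        simp at hv
      · exact h
  refine (Set.encard_le_encard hsub).trans ((Set.encard_union_le _ _).trans ?_)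
  rw [add_assoc, Nat.cast_add]
  refine add_le_add ?_ ((Set.encard_union_le _ _).trans ?_)
  · refine encard_le_of_image _ (fun v : X × RIx => match v.2 with
      | Sum.inl c => c.2 | _ => none) Finset.univ R (by simp) ?_
    intro l _
    have himg : {a : X × RIx | a ∈ {v : X × RIx | ∃ u : X × (ℕ × XL), v = (u.1, Sum.inl u.2) ∧
          trR K (rw D.r u.2.2 0 R).reverse (u.1, u.2.1) e ≠ 0} ∧
          (match a.2 with | Sum.inl c => c.2 | _ => none) = l} ⊆
        (fun u : X × ℕ => ((u.1, Sum.inl (u.2, l)) : X × RIx)) ''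
          {u | trR K (rw D.r l 0 R).reverse u e ≠ 0} := by
      rintro a ⟨⟨u, rfl, hu⟩, hl⟩
      simp only at hl
      subst hl
      exact ⟨(u.1, u.2.1), hu, rfl⟩
    refine (Set.encard_le_encard himg).trans ((Set.encard_image_le _ _).trans ?_)
    refine (trR_col hK.folded _ e).trans ?_
    simp [CP.rw]
  · rw [Nat.cast_add]
    refine add_le_add ?_ ?_
    · refine encard_le_of_image _ (fun v : X × RIx => match v.2 with
        | Sum.inr (Sum.inl w) => w | _ => []) F B ?_ ?_
      · rintro a ⟨u, rfl, hu, -⟩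
        exact hFi _ (hB _ _ hu)
      · intro w _
        have himg : {a : X × RIx | a ∈ {v : X × RIx | ∃ u : X × List (AL × Bool),
              v = (u.1, Sum.inr (Sum.inl u.2)) ∧
              u ∈ P ∧ trR K u.2.reverse (u.1, K.o) e ≠ 0} ∧
              (match a.2 with | Sum.inr (Sum.inl w) => w | _ => []) = w} ⊆
            (fun u : X × ℕ => ((u.1, Sum.inr (Sum.inl w)) : X × RIx)) ''
              {u | trR K w.reverse u e ≠ 0 ∧ w.length ≤ B} := by
          rintro a ⟨⟨u, rfl, hu, hu2⟩, hl⟩
          simp only at hl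
          subst hl
          exact ⟨(u.1, K.o), ⟨hu2, hB _ _ hu⟩, rfl⟩
        refine (Set.encard_le_encard himg).trans ((Set.encard_image_le _ _).trans ?_)
        by_cases hw : w.length ≤ B
        · refine (Set.encard_le_encard (fun u hu => hu.1)).trans
            ((trR_col hK.folded w.reverse e).trans ?_)
          rw [List.length_reverse]
          exact_mod_cast hw
        · have : {u | trR K w.reverse u e ≠ 0 ∧ w.length ≤ B} = ∅ := by
            ext u; simp [hw]
          rw [this]; simp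
    · have himg : {v : X × RIx | ∃ u : X × ℕ, v = (u.1, Sum.inr (Sum.inr u.2)) ∧ Dm K u e ≠ 0} ⊆
          (fun u : X × ℕ => ((u.1, Sum.inr (Sum.inr u.2)) : X × RIx)) '' {u | Dm K u e ≠ 0} := by
        rintro a ⟨u, rfl, hu⟩
        exact ⟨u, hu, rfl⟩
      refine (Set.encard_le_encard himg).trans ((Set.encard_image_le _ _).trans ?_)
      exact Dm_col e

omit [Countable Γ] [IsProbabilityMeasure μ] in
theorem th_row (B : ℕ) (hB : ∀ x w, (x, w) ∈ P → w.length ≤ B) (v : X × RIx) :
    {e | th D K P C v e ≠ 0}.encard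
      ≤ ((R + B + (Fintype.card AL * 1 + Fintype.card AL * 1) : ℕ) : ℕ∞) := by
  classical
  obtain ⟨x, c | w | i⟩ := v
  · by_cases h : (x, c) ∈ C
    · have h1 : {e | th D K P C (x, Sum.inl c) e ≠ 0}
          = {e | trR K (rw D.r c.2 0 R).reverse (x, c.1) e ≠ 0} := by
        ext e; simp only [th, if_pos h]
      rw [h1]
      refine (trR_row hK.folded _ _).trans ?_
      simp only [CP.rw, List.length_reverse, List.length_map, List.length_range]
      exact_mod_cast (by omega : R ≤ R + B + (Fintype.card AL * 1 + Fintype.card AL * 1))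
    · have h1 : {e | th D K P C (x, Sum.inl c) e ≠ 0} = ∅ := by
        ext e; simp only [th, if_neg h]; simp
      rw [h1]; simp
  · by_cases h : (x, w) ∈ P
    · have h1 : {e | th D K P C (x, Sum.inr (Sum.inl w)) e ≠ 0}
          = {e | trR K w.reverse (x, K.o) e ≠ 0} := by
        ext e; simp only [th, if_pos h]
      rw [h1]
      refine (trR_row hK.folded _ _).trans ?_
      rw [List.length_reverse]
      have := hB _ _ h
      exact_mod_cast (by omega : w.length ≤ R + B + (Fintype.card AL * 1 + Fintype.card AL * 1))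
    · have h1 : {e | th D K P C (x, Sum.inr (Sum.inl w)) e ≠ 0} = ∅ := by
        ext e; simp only [th, if_neg h]; simp
      rw [h1]; simp
  · have h1 : {e | th D K P C (x, Sum.inr (Sum.inr i)) e ≠ 0} ⊆ {e | Dm K (x, i) e ≠ 0} := by
      intro e he
      simp only [th, Set.mem_ofPred_eq] at he ⊢
      rcases eq_or_ne (Dm K (x, i) e) 0 with h | h
      · rw [h] at he
        simp at he
      · exact h
    refine (Set.encard_le_encard h1).trans ((Dm_row hK.folded _).trans ?_)
    exact_mod_cast (by omega : Fintype.card AL * 1 + Fintype.card AL * 1 ≤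
      R + B + (Fintype.card AL * 1 + Fintype.card AL * 1))

omit [Countable Γ] [IsProbabilityMeasure μ] in
theorem th_abs (B : ℕ) (hB : ∀ x w, (x, w) ∈ P → w.length ≤ B) (v : X × RIx) (e : Edg X) :
    |th D K P C v e| ≤ (R : ℝ) + B + 2 := by
  classical
  have hR : (0 : ℝ) ≤ R := by positivity
  have hB0 : (0 : ℝ) ≤ B := by positivity
  obtain ⟨x, c | w | i⟩ := v
  · simp only [th]
    split_ifs with h
    · refine (trR_abs_le _ _ _).trans ?_
      simp only [CP.rw, List.length_reverse, List.length_map, List.length_range]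
      linarith
    · simp; linarith
  · simp only [th]
    split_ifs with h
    · refine (trR_abs_le _ _ _).trans ?_
      rw [List.length_reverse]
      have : (w.length : ℝ) ≤ B := by exact_mod_cast hB _ _ h
      linarith
    · simp; linarith
  · simp only [th]
    split_ifs with h
    · exact (Dm_abs_le _ _).trans (by linarith)
    · simp; linarith

omit [Countable Γ] [IsProbabilityMeasure μ] [NeZero R] hK in
theorem th_supp (v : X × RIx) (e : Edg X) (h : th D K P C v e ≠ 0) :
    v ∈ RA D K P C ∧ e ∈ K.ES ∧ ∃ g : Γ, e.1 = g • v.1 := by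
  classical
  obtain ⟨x, c | w | i⟩ := v
  · simp only [th] at h
    by_cases hC : (x, c) ∈ C
    · rw [if_pos hC] at h
      obtain ⟨a, d, hh⟩ := trR_supp _ _ _ h
      exact ⟨hC, hh.1, hit_orbit hh⟩
    · rw [if_neg hC] at h; exact absurd rfl h
  · simp only [th] at h
    by_cases hC : (x, w) ∈ P
    · rw [if_pos hC] at h
      obtain ⟨a, d, hh⟩ := trR_supp _ _ _ h
      exact ⟨hC, hh.1, hit_orbit hh⟩
    · rw [if_neg hC] at h; exact absurd rfl h
  · simp only [th] at h
    by_cases hC : (x, i) ∈ K.Thin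
    · rw [if_pos hC] at h
      exact ⟨hC, (Dm_supp h).1, Dm_orbit h⟩
    · rw [if_neg hC] at h; exact absurd rfl h

include hmp hfree in
omit [Countable Γ] [IsProbabilityMeasure μ] [NeZero R] in
theorem th_meas (i : AL × ℕ × ℕ) (k : RIx) (g : Γ) :
    Measurable fun x => th D K P C (x, k) (g • x, i) := by
  classical
  have hm : ∀ g : Γ, Measurable (fun x : X => g • x) := fun g => (hmp g).measurable
  obtain c | w | m := k
  · simp only [th]
    exact Measurable.ite (hK.mC c) (trR_meas hm hfree _ _ _ _) measurable_const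
  · simp only [th]
    exact Measurable.ite (hK.mP w) (trR_meas hm hfree _ _ _ _) measurable_const
  · simp only [th]
    refine Measurable.ite ?_ (Dm_meas hm hfree _ _ _) measurable_const
    have : {x | (x, m) ∈ K.Thin} = {x | (x, m) ∈ K.V} ∩ {x | m ≠ K.o} := rfl
    rw [this]
    exact (K.mV m).inter (MeasurableSet.const _)

omit [Countable Γ] [IsProbabilityMeasure μ] [NeZero R] in
theorem RA_MS : MS (RA D K P C) := by
  intro k
  obtain c | w | m := k
  · exact hK.mC c
  · exact hK.mP w
  · have : {x | (x, m) ∈ K.Thin} = {x | (x, m) ∈ K.V} ∩ {x | m ≠ K.o} := rfl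
    show MeasurableSet {x | (x, m) ∈ K.Thin}
    rw [this]
    exact (K.mV m).inter (MeasurableSet.const _)

omit [Countable Γ] [IsProbabilityMeasure μ] [NeZero R] hK in
theorem RA_vol : vol μ (RA D K P C) = vol μ C + vol μ P + vol μ K.Thin := by
  rw [vol_sum3]
  rfl

omit [IsProbabilityMeasure μ] [Countable Γ] in
theorem ker_zero (f : Edg X → ℝ) (hf : ∀ e, f e ≠ 0 → e ∈ K.ES)
    (hsum : Summable fun e => f e ^ 2)
    (h0 : ∀ v, ∑ᶠ e, th D K P C v e * f e = 0) : f = 0 := by
  classical
  have hF := hK.folded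
  -- all thick-to-thick sums vanish
  have hgen := hK.gen (coch f)
    (by
      intro y i l hc t ht
      have h1 := ps_eq_trR hF f hf (rw D.r l 0 R).reverse (y, i) (y, i) t
        (by rw [List.reverse_reverse]; exact ht)
      rw [h1]
      have h2 := h0 (y, Sum.inl (i, l))
      simp only [th, if_pos hc] at h2
      exact h2)
    (by
      intro x w hw v t ht
      have h1 := ps_eq_trR hF f hf w.reverse (x, K.o) v t
        (by rw [List.reverse_reverse]; exact ht)
      rw [h1]
      have h2 := h0 (x, Sum.inr (Sum.inl w))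
      simp only [th, if_pos hw] at h2
      exact h2)
  -- potential
  obtain ⟨L, -, hL⟩ := hK.bg
  have hch : ∀ v : X × ℕ, ∃ (ω : List (AL × Bool)) (y : X) (t : ℝ),
      ω.length ≤ L ∧ (v ∈ K.V → K.PS (coch f) ω v (y, K.o) t) := by
    intro v
    by_cases hv : v ∈ K.V
    · obtain ⟨ω, y, h1, h2⟩ := hL v hv
      obtain ⟨t, ht⟩ := ps_exists K (coch f) ω v _ h2
      exact ⟨ω, y, t, h1, fun _ => ht⟩
    · exact ⟨[], v.1, 0, Nat.zero_le _, fun h => absurd h hv⟩
  choose ω y G hωL hG using hch
  have hthick : ∀ v ∈ K.V, v.2 = K.o → G v = 0 := by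
    intro v hv ho
    have h1 := hG v hv
    obtain ⟨x, i⟩ := v
    simp only at ho
    subst ho
    exact hgen _ _ _ _ h1
  have hedge : ∀ e ∈ K.ES, f e = G (esrc e) - G (etgt D.ρ e) := by
    intro e he
    have hst := step_edge K he
    have hs := hG _ (step_src K hst)
    have ht := hG _ (step_tgt K hst)
    have h1 : K.PS (coch f) (winv (ω (esrc e)) ++ ([(e.2.1, true)] ++ ω (etgt D.ρ e)))
        (y (esrc e), K.o) (y (etgt D.ρ e), K.o)
        (-G (esrc e) + (coch f e.2.1 (esrc e) + G (etgt D.ρ e))) := by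
      rw [ps_append]
      refine ⟨esrc e, _, _, (ps_winv K _ _ _ _ _).2 (by rw [neg_neg]; exact hs), ?_, rfl⟩
      rw [ps_append]
      refine ⟨etgt D.ρ e, _, _, (ps_single K _ _ _ _ _).2 ⟨hst, rfl⟩, ht, ?_⟩
      simp
    have h2 := hgen _ _ _ _ h1
    rw [coch_eq hF f hf he] at h2
    linarith
  -- `G` is in `ℓ²`
  have hFin : {l : List (AL × Bool) | l.length ≤ L}.Finite := List.finite_length_le _ _
  set th' : X × ℕ → Edg X → ℝ := fun v e =>
    if v ∈ K.V then trR K (ω v).reverse v e else 0 with hth'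
  have hb1 : ∀ v, {e | th' v e ≠ 0}.encard ≤ ((L + hFin.toFinset.card * L : ℕ) : ℕ∞) := by
    intro v
    have h1 : {e | th' v e ≠ 0} ⊆ {e | trR K (ω v).reverse v e ≠ 0} := by
      intro e he
      simp only [hth', Set.mem_ofPred_eq] at he ⊢
      by_cases hv : v ∈ K.V
      · rw [if_pos hv] at he; exact he
      · rw [if_neg hv] at he; exact absurd rfl he
    refine (Set.encard_le_encard h1).trans ((trR_row hF _ _).trans ?_)
    rw [List.length_reverse]
    have := hωL v
    exact_mod_cast (by omega : (ω v).length ≤ L + hFin.toFinset.card * L)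
  have hb2 : ∀ e, {v | th' v e ≠ 0}.encard ≤ ((L + hFin.toFinset.card * L : ℕ) : ℕ∞) := by
    intro e
    have h1 := encard_le_of_image {v | th' v e ≠ 0} ω hFin.toFinset L
      (fun v _ => by simpa using hωL v) (by
        intro w hw
        have h2 : {a | a ∈ {v | th' v e ≠ 0} ∧ ω a = w} ⊆ {v | trR K w.reverse v e ≠ 0} := by
          rintro v ⟨hv, rfl⟩
          simp only [hth', Set.mem_ofPred_eq] at hv ⊢
          by_cases hv' : v ∈ K.V
          · rw [if_pos hv'] at hv; exact hv
          · rw [if_neg hv'] at hv; exact absurd rfl hv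
        refine (Set.encard_le_encard h2).trans ((trR_col hF _ _).trans ?_)
        rw [List.length_reverse]
        have h3 : w.length ≤ L := by simpa using hw
        exact_mod_cast h3)
    refine h1.trans ?_
    exact_mod_cast (by omega : hFin.toFinset.card * L ≤ L + hFin.toFinset.card * L)
  have hGval : ∀ v, (if v ∈ K.V then G v else 0) = ∑ᶠ e, th' v e * f e := by
    intro v
    by_cases hv : v ∈ K.V
    · rw [if_pos hv]
      have h1 := ps_eq_trR hF f hf (ω v).reverse v _ (G v)
        (by rw [List.reverse_reverse]; exact hG v hv)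
      rw [h1]
      simp only [hth', if_pos hv]
    · rw [if_neg hv]
      simp only [hth', if_neg hv, zero_mul, finsum_zero]
  have hfsum : ∑' e, ENNReal.ofReal (f e ^ 2) ≠ ⊤ := by
    rw [← ENNReal.ofReal_tsum_of_nonneg (fun e => sq_nonneg _) hsum]
    exact ENNReal.ofReal_ne_top
  have hth'c : ∀ v e, |th' v e| ≤ (L : ℝ) := by
    intro v e
    simp only [hth']
    split_ifs
    · refine (trR_abs_le _ _ _).trans ?_
      rw [List.length_reverse]; exact_mod_cast hωL v
    · simp
  have hGsum : ∑' v, ENNReal.ofReal ((if v ∈ K.V then G v else 0) ^ 2) ≠ ⊤ := by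
    simp_rw [hGval]
    refine ne_top_of_le_ne_top ?_ (mat_bound th' L _ hth'c hb1 hb2 f)
    exact ENNReal.mul_ne_top ENNReal.ofReal_ne_top hfsum
  -- the boundary operator
  obtain ⟨Δ, hΔ, -⟩ := exists_matOp (Dm K) 2 (Fintype.card AL * 1 + Fintype.card AL * 1)
    (by norm_num) Dm_abs_le (Dm_row hF) (fun e => (Dm_col e).trans (by
      have : 1 ≤ Fintype.card AL := Fintype.card_pos
      exact_mod_cast (by omega : 2 ≤ Fintype.card AL * 1 + Fintype.card AL * 1)))
  set F' : HH (Edg X) := ⟨f, mem_HH_of f hfsum⟩ with hF'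
  set G' : HH (X × ℕ) := ⟨fun v => if v ∈ K.V then G v else 0, mem_HH_of _ hGsum⟩ with hG'
  have hF'a : ∀ e, F' e = f e := fun e => rfl
  have hG'a : ∀ v, G' v = if v ∈ K.V then G v else 0 := fun v => rfl
  have hadj : ∀ e ∈ K.ES, (ContinuousLinearMap.adjoint Δ G') e = f e := by
    intro e he
    rw [adj_apply (Dm K) (Fintype.card AL * 1 + Fintype.card AL * 1)
      (fun e => (Dm_col e).trans (by
        have : 1 ≤ Fintype.card AL := Fintype.card_pos
        exact_mod_cast (by omega : 2 ≤ Fintype.card AL * 1 + Fintype.card AL * 1))) Δ hΔ]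
    rw [Dm_adj (K := K) (fun v => G' v) he, hG'a, hG'a,
      if_pos (step_src K (step_edge K he)), if_pos (step_tgt K (step_edge K he))]
    exact (hedge e he).symm
  have hin1 : inner ℝ (ContinuousLinearMap.adjoint Δ G') F' = ∑' e, f e ^ 2 := by
    rw [HH_inner]
    refine tsum_congr fun e => ?_
    rw [hF'a]
    by_cases he : e ∈ K.ES
    · rw [hadj e he]; ring
    · have : f e = 0 := by
        by_contra h
        exact he (hf e h)
      rw [this]; ring
  have hin2 : inner ℝ (ContinuousLinearMap.adjoint Δ G') F' = 0 := by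
    rw [ContinuousLinearMap.adjoint_inner_left, HH_inner]
    have : ∀ v, G' v * (Δ F') v = 0 := by
      intro v
      rw [hG'a]
      by_cases hv : v ∈ K.V
      · rw [if_pos hv]
        by_cases ho : v.2 = K.o
        · rw [hthick v hv ho, zero_mul]
        · have h1 := h0 (v.1, Sum.inr (Sum.inr v.2))
          simp only [th] at h1
          rw [hΔ]
          have h2 : (v.1, v.2) ∈ K.Thin := ⟨hv, ho⟩
          simp only [if_pos h2] at h1
          have h3 : ∑ᶠ u, Dm K v u * F' u = 0 := h1
          rw [h3, mul_zero]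
      · rw [if_neg hv, zero_mul]
    simp_rw [this]
    exact tsum_zero
  rw [hin1] at hin2
  have h3 := (hasSum_zero_iff_of_nonneg (fun e => sq_nonneg (f e))).1
    (by rw [← hin2]; exact hsum.hasSum)
  funext e
  have h4 := congrFun h3 e
  simpa using h4

end main

include hmp hfree

/- ## M8 (CPRI.lean): relation inequality (from `kernel_lemma`): `Θ f = (sum of f on cells of C,
sum on the paths of P, (d* f) on thin vertices)`; if `f ∈ ℓ²(edges of one leaf)` is killed then
`f = dG`, `G = 0` on thick vertices, `G ∈ ℓ²` by BG, `‖f‖² = ⟨d*f, G⟩ = 0`. -/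
theorem relation_inequality (K : PG D.ρ X ℕ) (P : Set (X × List (AL × Bool)))
    (C : Set (X × (ℕ × XL))) (hK : GoodC D μ K P C) (hP : vol μ P ≠ ⊤) :
    vol μ K.ES + 1 ≤ vol μ C + vol μ P + vol μ K.V := by
  classical
  obtain ⟨B, hB⟩ := hK.Pbd
  have hFin : {l : List (AL × Bool) | l.length ≤ B}.Finite := List.finite_length_le _ _
  have hC : vol μ C ≠ ⊤ := by
    have h1 : vol μ C ≤ Fintype.card XL * vol μ K.V := by
      have h2 : vol μ C ≤ vol μ {c : X × (ℕ × XL) | (c.1, c.2.1) ∈ K.V} := by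
        refine vol_mono' μ fun c hc => ?_
        have := hK.CC hc
        exact path_src K this
      refine h2.trans (le_of_eq ?_)
      unfold vol
      rw [ENNReal.tsum_prod' (f := fun i : ℕ × XL =>
        μ {x | (x, i) ∈ {c : X × (ℕ × XL) | (c.1, c.2.1) ∈ K.V}}), ← ENNReal.tsum_mul_left]
      refine tsum_congr fun i => ?_
      rw [tsum_fintype]
      simp
    exact ne_top_of_le_ne_top (ENNReal.mul_ne_top (by simp) hK.fin) h1
  have hES : vol μ K.ES ≠ ⊤ :=
    ne_top_of_le_ne_top (ENNReal.mul_ne_top (by simp) hK.fin) (vol_ES_le K hK.folded)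
  have hT : vol μ K.Thin ≠ ⊤ := by
    refine ne_top_of_le_ne_top hK.fin ?_
    exact vol_mono' μ fun v hv => hv.1
  have hA : vol μ (RA D K P C) ≠ ⊤ := by
    rw [RA_vol]
    exact ENNReal.add_ne_top.2 ⟨ENNReal.add_ne_top.2 ⟨hC, hP⟩, hT⟩
  set d := (Fintype.card XL * R + hFin.toFinset.card * B + 2)
    + (R + B + (Fintype.card AL * 1 + Fintype.card AL * 1)) with hd
  have key := kernel_lemma (μ := μ) hmp hfree K.ES (RA D K P C)
    (fun i => K.mE i.1 i.2) (RA_MS D K P C hK) hES hA (th D K P C)
    (fun i k g => th_meas hmp hfree D K P C hK i k g)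
    (fun v u h => th_supp D K P C v u h) (R + B + 2) (fun v u => th_abs D K P C hK B hB v u) d
    (fun v => (th_row D K P C hK B hB v).trans (by exact_mod_cast (by omega)))
    (fun e => (th_col D K P C hK B hB hFin.toFinset (fun w hw => by simpa using hw) e).trans
      (by exact_mod_cast (by omega)))
    (fun f hf hs h0 => ker_zero D K P C hK f
      (fun e he => (hf.choose_spec e he).1) hs h0)
  rw [vol_V_eq]
  calc vol μ K.ES + 1 ≤ vol μ (RA D K P C) + 1 := by gcongr
    _ = _ := by rw [RA_vol]; ring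

end Crest.Agent.CP
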