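import Crest.Agent.CPPath
import Crest.Agent.CPMass
import Crest.Agent.CPIso
import Crest.Agent.CPCheeger

set_option autoImplicit false

namespace Crest.Agent.CP
open MeasureTheory PG

namespace Walk

section gen
variable {X : Type} [MeasurableSpace X] {κ : Type} [Countable κ] [MeasurableSpace κ]
  [MeasurableSingletonClass κ] (μ : Measure X) [SFinite μ]

theorem ms_meas {A : Set (X × κ)} (hA : MS A) : MeasurableSet A := by
  have : A = ⋃ k : κ, {x | (x, k) ∈ A} ×ˢ {k} := by
    ext ⟨x, k⟩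
    simp
  rw [this]
  exact MeasurableSet.iUnion fun k => (hA k).prod (measurableSet_singleton k)

theorem meas_ms {A : Set (X × κ)} (hA : MeasurableSet A) : MS A := fun k =>
  (measurable_id.prodMk measurable_const : Measurable fun x : X => (x, k)) hA

theorem prod_vol {A : Set (X × κ)} (hA : MeasurableSet A) :
    (μ.prod Measure.count) A = vol μ A := by
  rw [Measure.prod_apply_symm hA, lintegral_count]
  rfl

theorem lint_prod (f : X × κ → ENNReal) (hf : Measurable f) :
    ∫⁻ z, f z ∂(μ.prod Measure.count) = ∑' k, ∫⁻ x, f (x, k) ∂μ := by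
  rw [lintegral_prod_symm' f hf, lintegral_count]

end gen

theorem ind_tsum (A B : ℕ → Prop) [DecidablePred A] [DecidablePred B]
    [Decidable (∃ k, A k ∧ B k)] (h : ∀ k k', A k → A k' → k = k') :
    (if ∃ k, A k ∧ B k then (1 : ENNReal) else 0)
      = ∑' k, (if A k then (if B k then 1 else 0) else 0) := by
  by_cases hA : ∃ k, A k
  · obtain ⟨k0, hk0⟩ := hA
    rw [tsum_eq_single k0]
    · rw [if_pos hk0]
      by_cases hB : B k0
      · rw [if_pos hB, if_pos ⟨k0, hk0, hB⟩]
      · rw [if_neg hB, if_neg]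
        rintro ⟨k, h1, h2⟩
        rw [h k k0 h1 hk0] at h2
        exact hB h2
    · intro k hk
      rw [if_neg]
      intro h1
      exact hk (h k k0 h1 hk0)
  · rw [if_neg (fun ⟨k, h1, _⟩ => hA ⟨k, h1⟩)]
    symm
    rw [ENNReal.tsum_eq_zero]
    intro k
    rw [if_neg (fun h1 => hA ⟨k, h1⟩)]

/-- Cauchy–Schwarz -/
theorem cs {Ω : Type} [MeasurableSpace Ω] (lam : Measure Ω) (f g : Ω → ENNReal)
    (hf : Measurable f) (hg : Measurable g) :
    (∫⁻ u, f u * g u ∂lam) ^ 2 ≤ (∫⁻ u, f u ^ 2 ∂lam) * ∫⁻ u, g u ^ 2 ∂lam := by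
  have h := ENNReal.lintegral_mul_le_Lp_mul_Lq lam (p := 2) (q := 2)
    Real.HolderConjugate.two_two hf.aemeasurable hg.aemeasurable
  have h2 := pow_le_pow_left' h 2
  refine h2.trans (le_of_eq ?_)
  rw [mul_pow]
  have h3 : ∀ x : ENNReal, (x ^ (1 / (2 : ℝ))) ^ 2 = x := by
    intro x
    rw [← ENNReal.rpow_natCast, ← ENNReal.rpow_mul]
    norm_num
  rw [h3, h3]
  simp only [ENNReal.rpow_two]

section op
variable {Γ X : Type} [Group Γ] [Countable Γ] [MeasurableSpace X] [MulAction Γ X]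
  {ρ : AL → Γ} (K : PG ρ X ℕ)

open Classical in
/-- push operator -/
noncomputable def op (g : X × ℕ → ENNReal) (u : X × ℕ) : ENNReal :=
  ∑ i : Fin 100, ∑' k, (if (u.1, (u.2, k)) ∈ K.E (some (some i))
    then g ((ρ (some (some i)))⁻¹ • u.1, k) else 0)

/-- number of walks ending in `N` -/
noncomputable def wk (N : Set (X × ℕ)) : ℕ → X × ℕ → ENNReal
  | 0 => N.indicator (fun _ => 1)
  | m + 1 => op K (wk N m)

omit [Countable Γ] in
theorem op_meas (hm : ∀ g : Γ, Measurable (fun x : X => g • x)) (g : X × ℕ → ENNReal)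
    (hg : Measurable g) : Measurable (op K g) := by
  classical
  refine measurable_from_prod_countable_left fun j => ?_
  unfold op
  refine Finset.measurable_sum _ fun i _ => Measurable.tsum fun k => ?_
  refine Measurable.ite (K.mE (some (some i)) (j, k)) ?_ measurable_const
  exact hg.comp ((hm _).prodMk measurable_const)

omit [Countable Γ] in
theorem wk_meas (hm : ∀ g : Γ, Measurable (fun x : X => g • x)) (N : Set (X × ℕ)) (mN : MS N)
    (m : ℕ) : Measurable (wk K N m) := by
  induction m with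
  | zero => exact measurable_const.indicator (ms_meas mN)
  | succ m ih => exact op_meas K hm _ ih

open Classical in
omit [Countable Γ] in
theorem wk_eq (hF : K.Folded) (N : Set (X × ℕ)) (hN : N ⊆ K.V) (m : ℕ) (u : X × ℕ) :
    wk K N m u = ∑ t : Fin m → Fin 100, (if ∃ v, v ∈ N ∧
        K.Path (List.ofFn fun a => ((some (some (t a)), true) : AL × Bool)) u v
          then (1 : ENNReal) else 0) := by
  induction m generalizing u with
  | zero =>
    rw [Fintype.sum_unique]
    simp only [wk, List.ofFn_zero, path_nil]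
    by_cases hu : u ∈ N
    · rw [Set.indicator_of_mem hu, if_pos ⟨u, hu, hN hu, rfl⟩]
    · rw [Set.indicator_of_notMem hu, if_neg]
      rintro ⟨v, hv, -, rfl⟩
      exact hu hv
  | succ m ih =>
    rw [← (Fin.consEquiv (fun _ : Fin (m + 1) => Fin 100)).sum_comp, Fintype.sum_prod_type]
    show op K (wk K N m) u = _
    unfold op
    refine Finset.sum_congr rfl fun i _ => ?_
    have h1 : ∀ t' : Fin m → Fin 100,
        (if ∃ v, v ∈ N ∧ K.Path (List.ofFn fun a => ((some (some
          ((Fin.consEquiv (fun _ : Fin (m + 1) => Fin 100)) (i, t') a)), true) : AL × Bool)) u v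
          then (1 : ENNReal) else 0)
        = ∑' k, (if (u.1, (u.2, k)) ∈ K.E (some (some i)) then
            (if ∃ v, v ∈ N ∧ K.Path (List.ofFn fun a => ((some (some (t' a)), true) : AL × Bool))
              ((ρ (some (some i)))⁻¹ • u.1, k) v then (1 : ENNReal) else 0) else 0) := by
      intro t'
      rw [← ind_tsum]
      · congr 1
        simp only [Fin.consEquiv_apply, List.ofFn_succ, Fin.cons_zero, Fin.cons_succ, eq_iff_iff]
        constructor
        · rintro ⟨v, hv, w, hst, hp⟩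
          simp only [PG.step, if_true] at hst
          refine ⟨w.2, hst.2, v, hv, ?_⟩
          rw [← hst.1]; exact hp
        · rintro ⟨k, hE, v, hv, hp⟩
          refine ⟨v, hv, _, ?_, hp⟩
          simp only [PG.step, if_true]
          exact ⟨trivial, hE⟩
      · intro k k' h1 h2
        have s1 : K.step (some (some i), true) u ((ρ (some (some i)))⁻¹ • u.1, k) := by
          simp only [PG.step, if_true]; exact ⟨trivial, h1⟩
        have s2 : K.step (some (some i), true) u ((ρ (some (some i)))⁻¹ • u.1, k') := by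
          simp only [PG.step, if_true]; exact ⟨trivial, h2⟩
        have := hF _ _ _ _ s1 s2
        simpa using this
    rw [Finset.sum_congr rfl fun t' _ => h1 t', ← Summable.tsum_finsetSum fun _ _ => ENNReal.summable]
    refine tsum_congr fun k => ?_
    by_cases hE : (u.1, (u.2, k)) ∈ K.E (some (some i))
    · simp only [if_pos hE]
      exact ih _
    · simp only [if_neg hE, Finset.sum_const_zero]

end op

section edges
variable {Γ X : Type} [Group Γ] [Countable Γ] [MeasurableSpace X] [MulAction Γ X]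
  {ρ : AL → Γ} (K : PG ρ X ℕ)

/-- rich edges -/
def RE : Set (X × (AL × ℕ × ℕ)) := {e | e ∈ K.ES ∧ ∃ i : Fin 100, e.2.1 = some (some i)}

theorem sum_rich (F : AL → ENNReal) (h1 : F none = 0) (h2 : F (some none) = 0) :
    ∑ s, F s = ∑ i : Fin 100, F (some (some i)) := by
  rw [Fintype.sum_option, Fintype.sum_option, h1, h2, zero_add, zero_add]

omit [Group Γ] [Countable Γ] [MulAction Γ X] in
theorem vol_rich (μ : Measure X) (A : Set (X × (AL × ℕ × ℕ)))
    (hA : ∀ e ∈ A, ∃ i : Fin 100, e.2.1 = some (some i)) :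
    vol μ A = ∑ i : Fin 100, ∑' (j : ℕ) (k : ℕ), μ {x | (x, (some (some i), j, k)) ∈ A} := by
  unfold vol
  rw [ENNReal.tsum_prod' (f := fun i : AL × (ℕ × ℕ) => μ {x | (x, i) ∈ A}), tsum_fintype]
  have h0 : ∀ s : AL, ∑' i : ℕ × ℕ, μ {x | (x, (s, i)) ∈ A}
      = ∑' (j : ℕ) (k : ℕ), μ {x | (x, (s, j, k)) ∈ A} := fun s =>
    ENNReal.tsum_prod' (f := fun i : ℕ × ℕ => μ {x | (x, (s, i)) ∈ A})
  rw [Finset.sum_congr rfl fun s _ => h0 s]
  refine sum_rich _ ?_ ?_
  · have : ∀ j k, {x | (x, ((none : AL), j, k)) ∈ A} = ∅ := by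
      intro j k
      ext x
      simp only [Set.mem_ofPred_eq, Set.mem_empty_iff_false, iff_false]
      intro h
      obtain ⟨i, hi⟩ := hA _ h
      simp at hi
    simp [this]
  · have : ∀ j k, {x | (x, ((some none : AL), j, k)) ∈ A} = ∅ := by
      intro j k
      ext x
      simp only [Set.mem_ofPred_eq, Set.mem_empty_iff_false, iff_false]
      intro h
      obtain ⟨i, hi⟩ := hA _ h
      simp at hi
    simp [this]

omit [Countable Γ] in
theorem src_bound (μ : Measure X) (hF : K.Folded) (Y : Set (X × ℕ)) (mY : MS Y) :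
    vol μ {e : X × (AL × ℕ × ℕ) | (e.1, e.2.2.1) ∈ Y ∧ e ∈ RE K} ≤ 100 * vol μ Y := by
  rw [vol_rich μ _ fun e he => he.2.2]
  have h : ∀ i : Fin 100, ∑' (j : ℕ) (k : ℕ), μ {x | (x, (some (some i), j, k)) ∈
      {e : X × (AL × ℕ × ℕ) | (e.1, e.2.2.1) ∈ Y ∧ e ∈ RE K}} ≤ vol μ Y := by
    intro i
    refine ENNReal.tsum_le_tsum fun j => ?_
    rw [← measure_iUnion]
    · refine measure_mono ?_
      intro x hx
      obtain ⟨k, hk⟩ := Set.mem_iUnion.1 hx
      exact hk.1
    · intro k k' hkk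
      rw [Function.onFun, Set.disjoint_left]
      rintro x ⟨-, h1, -⟩ ⟨-, h2, -⟩
      apply hkk
      have s1 : K.step (some (some i), true) (x, j) ((ρ (some (some i)))⁻¹ • x, k) := by
        simp only [PG.step, if_true]; exact ⟨trivial, h1⟩
      have s2 : K.step (some (some i), true) (x, j) ((ρ (some (some i)))⁻¹ • x, k') := by
        simp only [PG.step, if_true]; exact ⟨trivial, h2⟩
      have := hF _ _ _ _ s1 s2
      simpa using this
    · intro k
      have : {x | (x, (some (some i), j, k)) ∈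
          {e : X × (AL × ℕ × ℕ) | (e.1, e.2.2.1) ∈ Y ∧ e ∈ RE K}}
          = {x | (x, j) ∈ Y} ∩ {x | (x, (j, k)) ∈ K.E (some (some i))} := by
        ext x
        simp only [Set.mem_ofPred_eq, RE, Set.mem_inter_iff, ES]
        constructor
        · rintro ⟨h1, h2, -⟩; exact ⟨h1, h2⟩
        · rintro ⟨h1, h2⟩; exact ⟨h1, h2, i, rfl⟩
      rw [this]
      exact (mY j).inter (K.mE _ (j, k))
  calc _ ≤ ∑ _i : Fin 100, vol μ Y := Finset.sum_le_sum fun i _ => h i
    _ = _ := by simp

omit [Countable Γ] in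
theorem tgt_bound (μ : Measure X) (hmp : ∀ g : Γ, MeasurePreserving (fun x : X => g • x) μ μ)
    (hF : K.Folded) (Y : Set (X × ℕ)) (mY : MS Y) :
    vol μ {e : X × (AL × ℕ × ℕ) | ((ρ e.2.1)⁻¹ • e.1, e.2.2.2) ∈ Y ∧ e ∈ RE K}
      ≤ 100 * vol μ Y := by
  rw [vol_rich μ _ fun e he => he.2.2]
  have h : ∀ i : Fin 100, ∑' (j : ℕ) (k : ℕ), μ {x | (x, (some (some i), j, k)) ∈
      {e : X × (AL × ℕ × ℕ) | ((ρ e.2.1)⁻¹ • e.1, e.2.2.2) ∈ Y ∧ e ∈ RE K}} ≤ vol μ Y := by
    intro i
    rw [ENNReal.tsum_comm]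
    refine ENNReal.tsum_le_tsum fun k => ?_
    rw [← (hmp (ρ (some (some i)))⁻¹).measure_preimage (mY k).nullMeasurableSet, ← measure_iUnion]
    · refine measure_mono ?_
      intro x hx
      obtain ⟨j, hj⟩ := Set.mem_iUnion.1 hx
      exact hj.1
    · intro j j' hjj
      rw [Function.onFun, Set.disjoint_left]
      rintro x ⟨-, h1, -⟩ ⟨-, h2, -⟩
      apply hjj
      have s1 : K.step (some (some i), false) ((ρ (some (some i)))⁻¹ • x, k) (x, j) := by
        simp only [PG.step, Bool.false_eq_true, if_false]; exact ⟨trivial, h1⟩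
      have s2 : K.step (some (some i), false) ((ρ (some (some i)))⁻¹ • x, k) (x, j') := by
        simp only [PG.step, Bool.false_eq_true, if_false]; exact ⟨trivial, h2⟩
      have := hF _ _ _ _ s1 s2
      simpa using this
    · intro j
      have : {x | (x, (some (some i), j, k)) ∈
          {e : X × (AL × ℕ × ℕ) | ((ρ e.2.1)⁻¹ • e.1, e.2.2.2) ∈ Y ∧ e ∈ RE K}}
          = (fun x => (ρ (some (some i)))⁻¹ • x) ⁻¹' {x | (x, k) ∈ Y}
            ∩ {x | (x, (j, k)) ∈ K.E (some (some i))} := by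
        ext x
        simp only [Set.mem_ofPred_eq, RE, Set.mem_inter_iff, ES, Set.mem_preimage]
        constructor
        · rintro ⟨h1, h2, -⟩; exact ⟨h1, h2⟩
        · rintro ⟨h1, h2⟩; exact ⟨h1, h2, i, rfl⟩
      rw [this]
      exact ((hmp _).measurable (mY k)).inter (K.mE _ (j, k))
  calc _ ≤ ∑ _i : Fin 100, vol μ Y := Finset.sum_le_sum fun i _ => h i
    _ = _ := by simp

end edges

end Walk

variable {Γ X : Type} [Group Γ] [Countable Γ] [MeasurableSpace X] [MulAction Γ X]
  {μ : Measure X} [IsProbabilityMeasure μ]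
  (hmp : ∀ g : Γ, MeasurePreserving (fun x : X => g • x) μ μ)
  (hfree : ∀ (g : Γ) (x : X), g • x = x → g = 1)
  {j R q : ℕ} [NeZero R] (D : RelData j R q Γ)

include hmp hfree

open Walk in
/-- one step of the walk operator -/
theorem Walk.op_bound {ρ : AL → Γ} (hgen : Subgroup.closure (Set.range ρ) = ⊤)
    (hG : Gap μ (fun i => (ρ (some (some i)))⁻¹)) (K : PG ρ X ℕ) (hF : K.Folded) (hBG : K.BG)
    (hfin : vol μ K.V ≠ ⊤) (hex : vol μ K.ES ≤ vol μ K.V + 1 / 500)
    (f g : X × ℕ → ENNReal) (hf : Measurable f) (hg : Measurable g)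
    (hf2 : ∫⁻ u, f u ^ 2 ∂(μ.prod Measure.count) ≠ ⊤)
    (hg2 : ∫⁻ u, g u ^ 2 ∂(μ.prod Measure.count) ≠ ⊤) :
    (∫⁻ u, f u * op K g u ∂(μ.prod Measure.count)) ^ 2
      ≤ 63 ^ 2 * (∫⁻ u, f u ^ 2 ∂(μ.prod Measure.count))
        * ∫⁻ u, g u ^ 2 ∂(μ.prod Measure.count) := by
  classical
  have hm : ∀ g : Γ, Measurable (fun x : X => g • x) := fun g => (hmp g).measurable
  letI iM : MeasurableSpace (AL × ℕ × ℕ) := ⊤
  haveI : MeasurableSingletonClass (AL × ℕ × ℕ) := ⟨fun _ => trivial⟩
  have mRE : MS (RE K) := by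
    rintro ⟨s, i, k⟩
    have : {x | (x, (s, i, k)) ∈ RE K}
        = {x | (x, (i, k)) ∈ K.E s} ∩ {x | ∃ i : Fin 100, s = some (some i)} := rfl
    rw [this]
    exact (K.mE s (i, k)).inter (MeasurableSet.const _)
  have mRE' : MeasurableSet (RE K) := ms_meas mRE
  set ε : Measure (X × (AL × ℕ × ℕ)) := (μ.prod Measure.count).restrict (RE K) with hε
  have hεv : ∀ A : Set (X × (AL × ℕ × ℕ)), MeasurableSet A → ε A = vol μ (A ∩ RE K) := by
    intro A hA
    rw [hε, Measure.restrict_apply hA, prod_vol μ (hA.inter mRE')]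
  have hsm : Measurable (fun e : X × (AL × ℕ × ℕ) => ((e.1, e.2.2.1) : X × ℕ)) :=
    measurable_from_prod_countable_left fun y =>
      (measurable_id.prodMk measurable_const : Measurable fun x : X => (x, y.2.1))
  have htm : Measurable (fun e : X × (AL × ℕ × ℕ) =>
      (((ρ e.2.1)⁻¹ • e.1, e.2.2.2) : X × ℕ)) :=
    measurable_from_prod_countable_left fun y =>
      ((hm _).prodMk measurable_const : Measurable fun x : X => ((ρ y.1)⁻¹ • x, y.2.2))
  have key := cheeger (μ.prod (Measure.count : Measure ℕ)) ε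
    (fun e : X × (AL × ℕ × ℕ) => ((e.1, e.2.2.1) : X × ℕ))
    (fun e : X × (AL × ℕ × ℕ) => (((ρ e.2.1)⁻¹ • e.1, e.2.2.2) : X × ℕ)) hsm htm
    (by
      intro Y hY
      rw [hεv _ (hsm hY), prod_vol μ hY]
      exact src_bound K μ hF Y (meas_ms hY))
    (by
      intro Y hY
      rw [hεv _ (htm hY), prod_vol μ hY]
      exact tgt_bound K μ hmp hF Y (meas_ms hY))
    (by
      intro Y Z hY hZ
      rw [hεv _ ((hsm hY).inter (htm hZ)), prod_vol μ hY, prod_vol μ hZ]
      have hYV : MS (Y ∩ K.V) := fun i => (meas_ms hY i).inter (K.mV i)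
      have hZV : MS (Z ∩ K.V) := fun i => (meas_ms hZ i).inter (K.mV i)
      have h1 := iso hmp hfree hgen hG K hF hBG hfin hex (Y ∩ K.V) (Z ∩ K.V) hYV hZV
        Set.inter_subset_right Set.inter_subset_right
      have h2 : vol μ (Y ∩ K.V) ≤ vol μ Y :=
        ENNReal.tsum_le_tsum fun _ => measure_mono fun _ hx => hx.1
      have h3 : vol μ (Z ∩ K.V) ≤ vol μ Z :=
        ENNReal.tsum_le_tsum fun _ => measure_mono fun _ hx => hx.1
      refine le_trans (le_trans ?_ h1) ?_
      · refine ENNReal.tsum_le_tsum fun k => measure_mono ?_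
        rintro x ⟨⟨hx1, hx2⟩, hx3, hx4⟩
        exact ⟨hx3, hx4, ⟨hx1, K.src _ _ _ _ hx3⟩, ⟨hx2, K.tgt _ _ _ _ hx3⟩⟩
      · gcongr)
    f g hf hg hf2 hg2
  refine le_trans (le_of_eq ?_) key
  congr 1
  -- the two bilinear forms agree
  have hprod : Measurable (fun e : X × (AL × ℕ × ℕ) =>
      f (e.1, e.2.2.1) * g ((ρ e.2.1)⁻¹ • e.1, e.2.2.2)) := (hf.comp hsm).mul (hg.comp htm)
  rw [hε, ← lintegral_indicator mRE', lint_prod μ _ (hprod.indicator mRE'),
    lint_prod μ (fun u => f u * op K g u) (hf.mul (op_meas K hm g hg))]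
  rw [ENNReal.tsum_prod' (f := fun i : AL × (ℕ × ℕ) => ∫⁻ x, (RE K).indicator
    (fun e : X × (AL × ℕ × ℕ) => f (e.1, e.2.2.1) * g ((ρ e.2.1)⁻¹ • e.1, e.2.2.2)) (x, i) ∂μ),
    tsum_fintype (β := AL), sum_rich]
  · have h1 : ∀ i : ℕ, ∫⁻ x, f (x, i) * op K g (x, i) ∂μ
        = ∑ l : Fin 100, ∑' k, ∫⁻ x, (RE K).indicator
          (fun e : X × (AL × ℕ × ℕ) => f (e.1, e.2.2.1) * g ((ρ e.2.1)⁻¹ • e.1, e.2.2.2))
          (x, (some (some l), i, k)) ∂μ := by
      intro i
      have h2 : ∀ x, f (x, i) * op K g (x, i) = ∑ l : Fin 100, ∑' k, (RE K).indicator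
          (fun e : X × (AL × ℕ × ℕ) => f (e.1, e.2.2.1) * g ((ρ e.2.1)⁻¹ • e.1, e.2.2.2))
          (x, (some (some l), i, k)) := by
        intro x
        unfold op
        rw [Finset.mul_sum]
        refine Finset.sum_congr rfl fun l _ => ?_
        rw [← ENNReal.tsum_mul_left]
        refine tsum_congr fun k => ?_
        by_cases hE : (x, (i, k)) ∈ K.E (some (some l))
        · rw [if_pos hE, Set.indicator_of_mem (show (x, (some (some l), i, k)) ∈ RE K from
            ⟨hE, l, rfl⟩)]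
        · rw [if_neg hE, mul_zero, Set.indicator_of_notMem]
          rintro ⟨h, -⟩
          exact hE h
      simp_rw [h2]
      rw [lintegral_finsetSum]
      · refine Finset.sum_congr rfl fun l _ => ?_
        rw [lintegral_tsum]
        intro k
        exact ((hprod.indicator mRE').comp
          (measurable_id.prodMk measurable_const)).aemeasurable
      · intro l _
        refine Measurable.tsum fun k => ?_
        exact (hprod.indicator mRE').comp (measurable_id.prodMk measurable_const)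
    simp_rw [h1]
    rw [Summable.tsum_finsetSum fun _ _ => ENNReal.summable]
    refine Finset.sum_congr rfl fun l _ => ?_
    exact (ENNReal.tsum_prod' (f := fun i : ℕ × ℕ => ∫⁻ x, (RE K).indicator
      (fun e : X × (AL × ℕ × ℕ) => f (e.1, e.2.2.1) * g ((ρ e.2.1)⁻¹ • e.1, e.2.2.2))
      (x, (some (some l), i)) ∂μ)).symm
  · rw [ENNReal.tsum_eq_zero]
    intro i
    have : ∀ x, (RE K).indicator
      (fun e : X × (AL × ℕ × ℕ) => f (e.1, e.2.2.1) * g ((ρ e.2.1)⁻¹ • e.1, e.2.2.2))
      (x, ((none : AL), i)) = 0 := by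
      intro x
      apply Set.indicator_of_notMem
      rintro ⟨-, i, hi⟩
      simp at hi
    simp [this]
  · rw [ENNReal.tsum_eq_zero]
    intro i
    have : ∀ x, (RE K).indicator
      (fun e : X × (AL × ℕ × ℕ) => f (e.1, e.2.2.1) * g ((ρ e.2.1)⁻¹ • e.1, e.2.2.2))
      (x, ((some none : AL), i)) = 0 := by
      intro x
      apply Set.indicator_of_notMem
      rintro ⟨-, i, hi⟩
      simp at hi
    simp [this]

open Walk in
/-- M11b (CPWalk.lean): number of positive words `t : Fin j → Fin 100` readable from `N` to `N`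
(from `iso` and `cheeger`). -/
theorem walk_bound {ρ : AL → Γ} (hgen : Subgroup.closure (Set.range ρ) = ⊤)
    (hG : Gap μ (fun i => (ρ (some (some i)))⁻¹)) (K : PG ρ X ℕ) (hF : K.Folded) (hBG : K.BG)
    (hfin : vol μ K.V ≠ ⊤) (hex : vol μ K.ES ≤ vol μ K.V + 1 / 500)
    (N : Set (X × ℕ)) (mN : MS N) (hN : N ⊆ K.V) (m : ℕ) :
    ∑ t : Fin m → Fin 100, vol μ {u | u ∈ N ∧ ∃ v, v ∈ N ∧
        K.Path (List.ofFn fun a => ((some (some (t a)), true) : AL × Bool)) u v}
      ≤ 63 ^ m * vol μ N := by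
  classical
  have hm : ∀ g : Γ, Measurable (fun x : X => g • x) := fun g => (hmp g).measurable
  have hwm : ∀ m, Measurable (wk K N m) := fun m => wk_meas K hm N mN m
  set lam : Measure (X × ℕ) := μ.prod Measure.count with hlam
  -- finiteness
  have hbd : ∀ m u, wk K N m u ≤ K.V.indicator (fun _ => (100 : ENNReal) ^ m) u := by
    intro m u
    rw [wk_eq K hF N hN m u]
    by_cases hu : u ∈ K.V
    · rw [Set.indicator_of_mem hu]
      calc _ ≤ ∑ _t : Fin m → Fin 100, (1 : ENNReal) :=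
            Finset.sum_le_sum fun t _ => by split_ifs <;> simp
        _ = _ := by simp
    · rw [Set.indicator_of_notMem hu]
      refine le_of_eq (Finset.sum_eq_zero fun t _ => if_neg ?_)
      rintro ⟨v, -, hp⟩
      exact hu (path_src K hp)
  have hVm : MeasurableSet K.V := ms_meas K.mV
  have hNm : MeasurableSet N := ms_meas mN
  have hfin2 : ∀ m, ∫⁻ u, wk K N m u ^ 2 ∂lam ≠ ⊤ := by
    intro m
    have h1 : ∫⁻ u, wk K N m u ^ 2 ∂lam ≤ ∫⁻ u, K.V.indicator (fun _ => ((100 : ENNReal) ^ m) ^ 2) u ∂lam := by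
      refine lintegral_mono fun u => ?_
      have := pow_le_pow_left' (hbd m u) 2
      refine this.trans (le_of_eq ?_)
      by_cases hu : u ∈ K.V
      · rw [Set.indicator_of_mem hu, Set.indicator_of_mem hu]
      · rw [Set.indicator_of_notMem hu, Set.indicator_of_notMem hu]; simp
    refine ne_top_of_le_ne_top ?_ h1
    rw [lintegral_indicator hVm, lintegral_const, Measure.restrict_apply_univ, hlam,
      prod_vol μ hVm]
    exact ENNReal.mul_ne_top (by finiteness) hfin
  have hstep : ∀ m, ∫⁻ u, wk K N (m + 1) u ^ 2 ∂lam ≤ 63 ^ 2 * ∫⁻ u, wk K N m u ^ 2 ∂lam := by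
    intro m
    have h1 := Walk.op_bound hmp hfree hgen hG K hF hBG hfin hex (wk K N (m + 1)) (wk K N m)
      (hwm _) (hwm _) (hfin2 _) (hfin2 _)
    have h2 : ∫⁻ u, wk K N (m + 1) u * op K (wk K N m) u ∂lam
        = ∫⁻ u, wk K N (m + 1) u ^ 2 ∂lam := by
      refine lintegral_congr fun u => ?_
      rw [pow_two]; rfl
    rw [h2] at h1
    by_cases h0 : ∫⁻ u, wk K N (m + 1) u ^ 2 ∂lam = 0
    · rw [h0]; exact bot_le
    · have h3 : (∫⁻ u, wk K N (m + 1) u ^ 2 ∂lam) * (∫⁻ u, wk K N (m + 1) u ^ 2 ∂lam)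
          ≤ (∫⁻ u, wk K N (m + 1) u ^ 2 ∂lam) * (63 ^ 2 * ∫⁻ u, wk K N m u ^ 2 ∂lam) := by
        calc _ = (∫⁻ u, wk K N (m + 1) u ^ 2 ∂lam) ^ 2 := (pow_two _).symm
          _ ≤ _ := h1
          _ = _ := by ring
      exact (ENNReal.mul_le_mul_iff_right h0 (hfin2 _)).1 h3
  have ha0 : ∫⁻ u, wk K N 0 u ^ 2 ∂lam = vol μ N := by
    have : ∀ u, wk K N 0 u ^ 2 = N.indicator (fun _ => (1 : ENNReal)) u := by
      intro u
      by_cases hu : u ∈ N
      · simp [wk, hu]
      · simp [wk, hu]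
    simp_rw [this]
    rw [lintegral_indicator hNm, lintegral_const, Measure.restrict_apply_univ, one_mul, hlam,
      prod_vol μ hNm]
  have ham : ∀ m, ∫⁻ u, wk K N m u ^ 2 ∂lam ≤ (63 ^ m) ^ 2 * vol μ N := by
    intro m
    induction m with
    | zero => rw [ha0]; simp
    | succ m ih =>
      calc _ ≤ 63 ^ 2 * ∫⁻ u, wk K N m u ^ 2 ∂lam := hstep m
        _ ≤ 63 ^ 2 * ((63 ^ m) ^ 2 * vol μ N) := by gcongr
        _ = _ := by ring
  -- the sum
  have hS : ∑ t : Fin m → Fin 100, vol μ {u | u ∈ N ∧ ∃ v, v ∈ N ∧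
        K.Path (List.ofFn fun a => ((some (some (t a)), true) : AL × Bool)) u v}
      = ∫⁻ u, wk K N 0 u * wk K N m u ∂lam := by
    have h1 : ∀ u, wk K N 0 u * wk K N m u = ∑ t : Fin m → Fin 100,
        {u | u ∈ N ∧ ∃ v, v ∈ N ∧
          K.Path (List.ofFn fun a => ((some (some (t a)), true) : AL × Bool)) u v}.indicator
          (fun _ => (1 : ENNReal)) u := by
      intro u
      rw [wk_eq K hF N hN m u]
      by_cases hu : u ∈ N
      · simp only [wk, Set.indicator_of_mem hu, one_mul]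
        refine Finset.sum_congr rfl fun t _ => ?_
        by_cases h : ∃ v, v ∈ N ∧
          K.Path (List.ofFn fun a => ((some (some (t a)), true) : AL × Bool)) u v
        · rw [if_pos h, Set.indicator_of_mem (show u ∈ {u | u ∈ N ∧ ∃ v, v ∈ N ∧
            K.Path (List.ofFn fun a => ((some (some (t a)), true) : AL × Bool)) u v} from ⟨hu, h⟩)]
        · rw [if_neg h, Set.indicator_of_notMem]
          rintro ⟨-, h'⟩
          exact h h'
      · simp only [wk, Set.indicator_of_notMem hu, zero_mul]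
        symm
        refine Finset.sum_eq_zero fun t _ => Set.indicator_of_notMem ?_ _
        rintro ⟨h, -⟩
        exact hu h
    have hmt : ∀ t : Fin m → Fin 100, MS {u | u ∈ N ∧ ∃ v, v ∈ N ∧
          K.Path (List.ofFn fun a => ((some (some (t a)), true) : AL × Bool)) u v} := by
      intro t i
      set w := (List.ofFn fun a => ((some (some (t a)), true) : AL × Bool)) with hw
      have : {x | (x, i) ∈ {u | u ∈ N ∧ ∃ v, v ∈ N ∧ K.Path w u v}}
          = {x | (x, i) ∈ N} ∩ ⋃ k : ℕ, ((fun x => (wval ρ w)⁻¹ • x) ⁻¹' {x | (x, k) ∈ N}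
            ∩ {x | K.Path w (x, i) ((wval ρ w)⁻¹ • x, k)}) := by
        ext x
        simp only [Set.mem_ofPred_eq, Set.mem_inter_iff, Set.mem_iUnion, Set.mem_preimage]
        constructor
        · rintro ⟨h1, v, h2, h3⟩
          have h4 := path_pos K w _ _ h3
          refine ⟨h1, v.2, ?_, ?_⟩
          · simp only at h4; rw [← h4]; exact h2
          · simp only at h4; rw [← h4]; exact h3
        · rintro ⟨h1, k, h2, h3⟩
          exact ⟨h1, _, h2, h3⟩
      rw [this]
      exact (mN i).inter (MeasurableSet.iUnion fun k =>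
        ((hm _) (mN k)).inter (path_meas hm K w i k))
    simp_rw [h1]
    rw [lintegral_finsetSum _ fun t _ => measurable_const.indicator (ms_meas (hmt t))]
    refine Finset.sum_congr rfl fun t _ => ?_
    rw [lintegral_indicator (ms_meas (hmt t)), lintegral_const, Measure.restrict_apply_univ,
      one_mul, hlam, prod_vol μ (ms_meas (hmt t))]
  rw [hS]
  have h2 := cs lam (wk K N 0) (wk K N m) (hwm 0) (hwm m)
  have h3 : (∫⁻ u, wk K N 0 u * wk K N m u ∂lam) ^ 2 ≤ (63 ^ m * vol μ N) ^ 2 := by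
    calc _ ≤ _ := h2
      _ ≤ vol μ N * ((63 ^ m) ^ 2 * vol μ N) := by
          rw [ha0]; gcongr; exact ham m
      _ = _ := by ring
  exact (ENNReal.pow_le_pow_left_iff two_ne_zero).1 h3

end Crest.Agent.CP
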