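import Crest.Agent.CPPath
import Crest.Agent.CPMass
import Crest.Agent.CPWalk
import Crest.Agent.CPLoop

set_option autoImplicit false

namespace Crest.Agent.CP
open MeasureTheory PG

namespace TypeB

section vol
variable {X : Type} [MeasurableSpace X] {μ : Measure X} {ι κ : Type}

theorem vol_mono {A B : Set (X × ι)} (h : A ⊆ B) : vol μ A ≤ vol μ B := by
  unfold vol
  exact ENNReal.tsum_le_tsum fun i => measure_mono fun x hx => h hx

theorem vol_union_le {A B : Set (X × ι)} : vol μ (A ∪ B) ≤ vol μ A + vol μ B := by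
  unfold vol
  rw [← ENNReal.tsum_add]
  exact ENNReal.tsum_le_tsum fun i => measure_union_le _ _

theorem vol_add {A P : Set (X × ι)} (hP : MS P) :
    vol μ A = vol μ {u | u ∈ A ∧ u ∈ P} + vol μ {u | u ∈ A ∧ u ∉ P} := by
  unfold vol
  rw [← ENNReal.tsum_add]
  refine tsum_congr fun i => ?_
  exact (measure_inter_add_diff {x | (x, i) ∈ A} (hP i)).symm

theorem mul_measure_le_sum {κ : Type} [Fintype κ] (P : Set X) (mP : MeasurableSet P)
    (S : κ → Set X) (mS : ∀ d, MeasurableSet (S d)) (m : ℕ)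
    (h : ∀ x ∈ P, ∃ F : Finset κ, m ≤ F.card ∧ ∀ d ∈ F, x ∈ S d) :
    (m : ENNReal) * μ P ≤ ∑ d, μ (S d) := by
  have h1 : (m : ENNReal) * μ P = ∫⁻ x, P.indicator (fun _ => (m : ENNReal)) x ∂μ := by
    rw [lintegral_indicator mP, setLIntegral_const]
  have h2 : ∑ d, μ (S d) = ∫⁻ x, ∑ d, (S d).indicator (fun _ => (1 : ENNReal)) x ∂μ := by
    rw [lintegral_finset_sum]
    · refine Finset.sum_congr rfl fun d _ => ?_
      rw [lintegral_indicator (mS d), setLIntegral_const, one_mul]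
    · intro d _
      exact measurable_const.indicator (mS d)
  rw [h1, h2]
  refine lintegral_mono fun x => ?_
  by_cases hx : x ∈ P
  · obtain ⟨F, hF1, hF2⟩ := h x hx
    rw [Set.indicator_of_mem hx]
    calc (m : ENNReal) ≤ (F.card : ENNReal) := by exact_mod_cast hF1
      _ = ∑ d ∈ F, (S d).indicator (fun _ => (1 : ENNReal)) x := by
          rw [Finset.sum_congr rfl (fun d hd => Set.indicator_of_mem (hF2 d hd) _)]
          simp
      _ ≤ ∑ d, (S d).indicator (fun _ => (1 : ENNReal)) x :=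
          Finset.sum_le_sum_of_subset (Finset.subset_univ F)
  · rw [Set.indicator_of_notMem hx]
    exact zero_le

/-- counting directions -/
theorem mul_vol_le {κ : Type} [Fintype κ] (P : Set (X × ι)) (mP : MS P)
    (S : Set (X × (ι × κ))) (mS : MS S) (m : ℕ)
    (h : ∀ u ∈ P, ∃ F : Finset κ, m ≤ F.card ∧ ∀ d ∈ F, (u.1, (u.2, d)) ∈ S) :
    (m : ENNReal) * vol μ P ≤ vol μ S := by
  unfold vol
  rw [ENNReal.tsum_prod', ← ENNReal.tsum_mul_left]
  refine ENNReal.tsum_le_tsum fun i => ?_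
  rw [tsum_fintype]
  exact mul_measure_le_sum _ (mP i) (fun d => {x | (x, (i, d)) ∈ S}) (fun d => mS (i, d)) m
    (fun x hx => h (x, i) hx)

theorem arith {a b c d e v : ENNReal} (hv : v ≠ ⊤) (h0 : v = a + b) (h1 : 2 * a ≤ c)
    (h2 : 3 * b ≤ 3 + d) (h3 : c + d ≤ 2 * e) (h4 : e ≤ v + 1 / 500) : b ≤ 4 ∧ d ≤ 12 := by
  have ha : a ≠ ⊤ := by
    intro h; rw [h, top_add] at h0; exact hv h0
  have hb : b ≠ ⊤ := by
    intro h; rw [h, add_top] at h0; exact hv h0
  have he : e ≠ ⊤ := by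
    refine ne_top_of_le_ne_top ?_ h4
    refine ENNReal.add_ne_top.2 ⟨hv, ?_⟩
    exact ENNReal.div_ne_top (by simp) (by simp)
  have hcd : c + d ≠ ⊤ := ne_top_of_le_ne_top (ENNReal.mul_ne_top (by simp) he) h3
  have hc : c ≠ ⊤ := fun h => hcd (by rw [h, top_add])
  have hd : d ≠ ⊤ := fun h => hcd (by rw [h, add_top])
  lift a to NNReal using ha
  lift b to NNReal using hb
  lift c to NNReal using hc
  lift d to NNReal using hd
  lift e to NNReal using he
  subst h0
  have h5 : (1 / 500 : ENNReal) = ((1 / 500 : NNReal) : ENNReal) := by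
    rw [ENNReal.coe_div (by norm_num)]; norm_num
  rw [h5] at h4
  have e1 : (2 : NNReal) * a ≤ c := by exact_mod_cast h1
  have e2 : (3 : NNReal) * b ≤ 3 + d := by exact_mod_cast h2
  have e3 : c + d ≤ (2 : NNReal) * e := by exact_mod_cast h3
  have e4 : e ≤ a + b + 1 / 500 := by
    have : (e : ENNReal) ≤ ((a + b + 1 / 500 : NNReal) : ENNReal) := by
      push_cast
      push_cast at h4
      exact h4
    exact_mod_cast this
  have f1 : (2 : ℝ) * a ≤ c := by exact_mod_cast e1
  have f2 : (3 : ℝ) * b ≤ 3 + d := by exact_mod_cast e2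
  have f3 : (c : ℝ) + d ≤ 2 * e := by exact_mod_cast e3
  have f4 : (e : ℝ) ≤ a + b + 1 / 500 := by
    have := NNReal.coe_le_coe.2 e4
    push_cast at this
    exact this
  constructor
  · have : (b : ℝ) ≤ 4 := by linarith
    have : b ≤ 4 := by exact_mod_cast this
    exact_mod_cast this
  · have : (d : ℝ) ≤ 12 := by linarith
    have : d ≤ 12 := by exact_mod_cast this
    exact_mod_cast this

end vol

section graph
variable {Γ X : Type} [Group Γ] [MeasurableSpace X] [MulAction Γ X]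
  {ρ : AL → Γ} {ι : Type}

theorem dir_true (K : PG ρ X ι) (s : AL) (i : ι) :
    {x | K.Dir (x, i) (s, true)} = ⋃ k : ι, {x | (x, (i, k)) ∈ K.E s} := by
  ext x
  simp only [PG.Dir, PG.step, if_true, Set.mem_ofPred_eq, Set.mem_iUnion]
  constructor
  · rintro ⟨v, -, h⟩; exact ⟨v.2, h⟩
  · rintro ⟨k, h⟩; exact ⟨((ρ s)⁻¹ • x, k), rfl, h⟩

theorem dir_false (K : PG ρ X ι) (s : AL) (i : ι) :
    {x | K.Dir (x, i) (s, false)} = ⋃ k : ι, (fun x => ρ s • x) ⁻¹' {x | (x, (k, i)) ∈ K.E s} := by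
  ext x
  simp only [PG.Dir, PG.step, Bool.false_eq_true, if_false, Set.mem_ofPred_eq, Set.mem_iUnion,
    Set.mem_preimage]
  constructor
  · rintro ⟨v, h1, h⟩
    refine ⟨v.2, ?_⟩
    have : ρ s • x = v.1 := by rw [h1]; simp
    rw [this]; exact h
  · rintro ⟨k, h⟩; exact ⟨(ρ s • x, k), by simp, h⟩

theorem dir_meas [Countable ι] (hm : ∀ g : Γ, Measurable (fun x : X => g • x)) (K : PG ρ X ι)
    (d : AL × Bool) (i : ι) : MeasurableSet {x | K.Dir (x, i) d} := by
  rcases d with ⟨s, _ | _⟩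
  · rw [dir_false]
    exact MeasurableSet.iUnion fun k => hm _ (K.mE s (k, i))
  · rw [dir_true]
    exact MeasurableSet.iUnion fun k => K.mE s (i, k)

theorem special_meas [Countable ι] (hm : ∀ g : Γ, Measurable (fun x : X => g • x)) (K : PG ρ X ι)
    (i : ι) : MeasurableSet {x | K.Special (x, i)} := by
  have : {x | K.Special (x, i)} = {x | i = K.o} ∪ ⋃ d1 : AL × Bool, ⋃ d2 : AL × Bool,
      ⋃ d3 : AL × Bool, ({x | d1 ≠ d2 ∧ d1 ≠ d3 ∧ d2 ≠ d3} ∩ ({x | K.Dir (x, i) d1} ∩
        ({x | K.Dir (x, i) d2} ∩ {x | K.Dir (x, i) d3}))) := by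
    ext x
    simp only [PG.Special, Set.mem_ofPred_eq, Set.mem_union, Set.mem_iUnion, Set.mem_inter_iff]
    constructor
    · rintro (h | ⟨d1, d2, d3, h1, h2, h3, h4, h5, h6⟩)
      · exact Or.inl h
      · exact Or.inr ⟨d1, d2, d3, ⟨h1, h2, h3⟩, h4, h5, h6⟩
    · rintro (h | ⟨d1, d2, d3, ⟨h1, h2, h3⟩, h4, h5, h6⟩)
      · exact Or.inl h
      · exact Or.inr ⟨d1, d2, d3, h1, h2, h3, h4, h5, h6⟩
  rw [this]
  refine MeasurableSet.union (MeasurableSet.const _) ?_
  refine MeasurableSet.iUnion fun d1 => MeasurableSet.iUnion fun d2 =>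
    MeasurableSet.iUnion fun d3 => ?_
  exact (MeasurableSet.const _).inter ((dir_meas hm K d1 i).inter
    ((dir_meas hm K d2 i).inter (dir_meas hm K d3 i)))

theorem vol_dir_le [Countable ι] {μ : Measure X}
    (hmp : ∀ g : Γ, MeasurePreserving (fun x : X => g • x) μ μ) (K : PG ρ X ι) :
    vol μ {u : X × (ι × (AL × Bool)) | K.Dir (u.1, u.2.1) u.2.2} ≤ 2 * vol μ K.ES := by
  have h1 : vol μ {u : X × (ι × (AL × Bool)) | K.Dir (u.1, u.2.1) u.2.2}
      = ∑' i, ∑' s, (μ {x | K.Dir (x, i) (s, true)} + μ {x | K.Dir (x, i) (s, false)}) := by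
    unfold vol
    rw [ENNReal.tsum_prod']
    refine tsum_congr fun i => ?_
    rw [ENNReal.tsum_prod']
    refine tsum_congr fun s => ?_
    rw [tsum_fintype]
    simp
  have h2 : vol μ K.ES = ∑' s, ∑' i, ∑' k, μ {x | (x, (i, k)) ∈ K.E s} := by
    unfold vol PG.ES
    rw [ENNReal.tsum_prod']
    refine tsum_congr fun s => ?_
    rw [ENNReal.tsum_prod']
    rfl
  have h3 : ∀ i s, μ {x | K.Dir (x, i) (s, true)} ≤ ∑' k, μ {x | (x, (i, k)) ∈ K.E s} := by
    intro i s
    rw [dir_true]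
    exact measure_iUnion_le _
  have h4 : ∀ i s, μ {x | K.Dir (x, i) (s, false)} ≤ ∑' k, μ {x | (x, (k, i)) ∈ K.E s} := by
    intro i s
    rw [dir_false]
    refine (measure_iUnion_le _).trans (le_of_eq ?_)
    refine tsum_congr fun k => ?_
    exact (hmp (ρ s)).measure_preimage (K.mE s (k, i)).nullMeasurableSet
  rw [h1]
  calc ∑' i, ∑' s, (μ {x | K.Dir (x, i) (s, true)} + μ {x | K.Dir (x, i) (s, false)})
      ≤ ∑' i, ∑' s, ((∑' k, μ {x | (x, (i, k)) ∈ K.E s}) + ∑' k, μ {x | (x, (k, i)) ∈ K.E s}) :=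
        ENNReal.tsum_le_tsum fun i => ENNReal.tsum_le_tsum fun s => add_le_add (h3 i s) (h4 i s)
    _ = (∑' i, ∑' s, ∑' k, μ {x | (x, (i, k)) ∈ K.E s}) +
        ∑' i, ∑' s, ∑' k, μ {x | (x, (k, i)) ∈ K.E s} := by
        rw [← ENNReal.tsum_add]
        refine tsum_congr fun i => ?_
        rw [← ENNReal.tsum_add]
    _ = vol μ K.ES + vol μ K.ES := by
        rw [h2]
        congr 1
        · rw [ENNReal.tsum_comm]
        · rw [ENNReal.tsum_comm]
          refine tsum_congr fun s => ?_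
          rw [ENNReal.tsum_comm]
    _ = 2 * vol μ K.ES := by rw [two_mul]

end graph

section run
variable {Γ X : Type} [Group Γ] [MeasurableSpace X] [MulAction Γ X]
  {ρ : AL → Γ} {ι : Type}

/-- `Run K v d k u e`: the walk of `k+1` steps from `v`, starting with the letter `d`, passing
through non-special vertices without backtracking, arrives at `u` with the last letter `e`. -/
def Run (K : PG ρ X ι) (v : X × ι) (d : AL × Bool) : ℕ → X × ι → AL × Bool → Prop
  | 0, u, e => K.step d v u ∧ e = d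
  | k + 1, u, e => ∃ u' e', Run K v d k u' e' ∧ ¬ K.Special u' ∧ e ≠ linv e' ∧ K.step e u' u

theorem run_dir (K : PG ρ X ι) (v : X × ι) (d : AL × Bool) (k : ℕ) (u : X × ι) (e : AL × Bool)
    (h : Run K v d k u e) : K.Dir u (linv e) := by
  cases k with
  | zero => obtain ⟨h1, rfl⟩ := h; exact ⟨v, step_symm K h1⟩
  | succ k => obtain ⟨u', e', -, -, -, h⟩ := h; exact ⟨u', step_symm K h⟩

theorem run_start (K : PG ρ X ι) (v : X × ι) (d : AL × Bool) (k : ℕ) (u : X × ι) (e : AL × Bool)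
    (h : Run K v d k u e) : K.Dir v d := by
  induction k generalizing u e with
  | zero => obtain ⟨h1, rfl⟩ := h; exact ⟨u, h1⟩
  | succ k ih => obtain ⟨u', e', h1, -⟩ := h; exact ih u' e' h1

theorem run_unique (K : PG ρ X ι) (hF : K.Folded) (v : X × ι) (d : AL × Bool) (k : ℕ)
    (u1 u2 : X × ι) (e1 e2 : AL × Bool)
    (h1 : Run K v d k u1 e1) (h2 : Run K v d k u2 e2) : u1 = u2 ∧ e1 = e2 := by
  induction k generalizing u1 u2 e1 e2 with
  | zero =>
    obtain ⟨h1, rfl⟩ := h1
    obtain ⟨h2, rfl⟩ := h2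
    exact ⟨hF _ _ _ _ h1 h2, rfl⟩
  | succ k ih =>
    obtain ⟨w1, c1, r1, s1, n1, t1⟩ := h1
    obtain ⟨w2, c2, r2, s2, n2, t2⟩ := h2
    obtain ⟨rfl, rfl⟩ := ih w1 w2 c1 c2 r1 r2
    have he : e1 = e2 := by
      by_contra hne
      apply s1
      refine Or.inr ⟨e1, e2, linv c1, hne, n1, n2, ⟨_, t1⟩, ⟨_, t2⟩, run_dir K v d k w1 c1 r1⟩
    subst he
    exact ⟨hF _ _ _ _ t1 t2, rfl⟩

theorem run_prev (K : PG ρ X ι) (v : X × ι) (d : AL × Bool) (k : ℕ) (u : X × ι) (e : AL × Bool)
    (h : Run K v d k u e) : ∃ u'' ω, K.step e u'' u ∧ ω.length = k ∧ K.Path ω u'' v := by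
  induction k generalizing u e with
  | zero =>
    obtain ⟨h1, rfl⟩ := h
    exact ⟨v, [], h1, rfl, step_src K h1, rfl⟩
  | succ k ih =>
    obtain ⟨u', e', h1, -, -, h⟩ := h
    obtain ⟨u'', ω, h2, h3, h4⟩ := ih u' e' h1
    exact ⟨u', linv e' :: ω, h, by simp [h3], u'', step_symm K h2, h4⟩

theorem run_exists (K : PG ρ X ι) (hF : K.Folded) (n : ℕ) (u : X × ι) (hu : ¬ K.Special u)
    (h1 : ∃ ω v, ω.length = n + 1 ∧ K.Path ω u v ∧ K.Special v)
    (h2 : ∀ ω v, K.Path ω u v → K.Special v → n + 1 ≤ ω.length) :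
    ∃ v d e, K.Special v ∧ Run K v d n u e := by
  induction n generalizing u with
  | zero =>
    obtain ⟨ω, v, hl, hp, hs⟩ := h1
    obtain ⟨c, rfl⟩ := List.length_eq_one_iff.1 hl
    rw [path_single] at hp
    exact ⟨v, linv c, linv c, hs, step_symm K hp, rfl⟩
  | succ n ih =>
    obtain ⟨ω, v, hl, hp, hs⟩ := h1
    cases ω with
    | nil => simp at hl
    | cons c ω =>
      obtain ⟨u', hc, hp⟩ := hp
      have hl' : ω.length = n + 1 := by simpa using hl
      have hu' : ¬ K.Special u' := by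
        intro h
        have := h2 [c] u' ((path_single K _ _ _).2 hc) h
        simp at this
      obtain ⟨v', d, e', hs', hr⟩ := ih u' hu' ⟨ω, v, hl', hp, hs⟩ (by
        intro ω' v' hp' hs'
        have := h2 (c :: ω') v' ⟨u', hc, hp'⟩ hs'
        simpa using this)
      refine ⟨v', d, linv c, hs', u', e', hr, hu', ?_, step_symm K hc⟩
      intro h
      have hce : c = e' := linv_inj h
      subst hce
      obtain ⟨u'', ω', g1, g2, g3⟩ := run_prev K v' d n u' c hr
      have : u'' = u := hF _ _ _ _ (step_symm K g1) (step_symm K hc)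
      subst this
      have := h2 ω' v' g3 hs'
      omega

theorem run_exists' (K : PG ρ X ι) (hF : K.Folded) (m : ℕ) (u : X × ι) (hu : ¬ K.Special u)
    (h1 : ∃ ω v, ω.length ≤ m ∧ K.Path ω u v ∧ K.Special v) :
    ∃ v d e, ∃ n : ℕ, n < m ∧ K.Special v ∧ Run K v d n u e := by
  classical
  have hex : ∃ n, ∃ ω v, ω.length = n ∧ K.Path ω u v ∧ K.Special v := by
    obtain ⟨ω, v, -, h⟩ := h1
    exact ⟨ω.length, ω, v, rfl, h⟩
  have hmin : ∀ ω v, K.Path ω u v → K.Special v → Nat.find hex ≤ ω.length := by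
    intro ω v hp hs
    exact Nat.find_min' hex ⟨ω, v, rfl, hp, hs⟩
  have hspec := Nat.find_spec hex
  rcases hn : Nat.find hex with _ | n
  · rw [hn] at hspec
    obtain ⟨ω, v, hl, hp, hs⟩ := hspec
    rw [List.length_eq_zero_iff] at hl
    subst hl
    exact absurd (hp.2 ▸ hs) hu
  · rw [hn] at hspec hmin
    obtain ⟨v, d, e, hs, hr⟩ := run_exists K hF n u hu hspec hmin
    refine ⟨v, d, e, n, ?_, hs, hr⟩
    obtain ⟨ω, v', hl, hp, hs'⟩ := h1
    have := hmin ω v' hp hs'
    omega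

theorem step_meas2 (hm : ∀ g : Γ, Measurable (fun x : X => g • x))
    (hfree : ∀ (g : Γ) (x : X), g • x = x → g = 1) (K : PG ρ X ι) (d : AL × Bool) (g h : Γ)
    (i k : ι) : MeasurableSet {x : X | K.step d (g • x, i) (h • x, k)} := by
  by_cases hgh : h = (lval ρ d)⁻¹ * g
  · have : {x : X | K.step d (g • x, i) (h • x, k)}
        = (fun x => g • x) ⁻¹' {x | K.step d (x, i) ((lval ρ d)⁻¹ • x, k)} := by
      ext x
      simp only [Set.mem_ofPred_eq, Set.mem_preimage]
      rw [hgh, mul_smul]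
    rw [this]
    exact hm _ (step_meas hm K d i k)
  · have : {x : X | K.step d (g • x, i) (h • x, k)} = ∅ := by
      ext x
      simp only [Set.mem_ofPred_eq, Set.mem_empty_iff_false, iff_false]
      intro hs
      apply hgh
      have := step_pos K hs
      simp only at this
      have h2 : (h⁻¹ * ((lval ρ d)⁻¹ * g)) • x = x := by
        rw [mul_smul, mul_smul, ← this, ← mul_smul, inv_mul_cancel, one_smul]
      have h3 := hfree _ _ h2
      rw [inv_mul_eq_one] at h3
      exact h3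
    rw [this]
    exact MeasurableSet.empty

theorem run_meas [Countable ι] (hm : ∀ g : Γ, Measurable (fun x : X => g • x))
    (hfree : ∀ (g : Γ) (x : X), g • x = x → g = 1) (K : PG ρ X ι) (d : AL × Bool) (n : ℕ)
    (g h : Γ) (i k : ι) (e : AL × Bool) :
    MeasurableSet {x : X | Run K (g • x, i) d n (h • x, k) e} := by
  induction n generalizing h k e with
  | zero =>
    exact (step_meas2 hm hfree K d g h i k).inter (MeasurableSet.const _)
  | succ n ih =>
    have : {x : X | Run K (g • x, i) d (n + 1) (h • x, k) e} = ⋃ e' : AL × Bool, ⋃ l : ι,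
        ({x : X | Run K (g • x, i) d n ((lval ρ e * h) • x, l) e'} ∩
          (((fun x => (lval ρ e * h) • x) ⁻¹' {x | K.Special (x, l)})ᶜ ∩
            ({x | e ≠ linv e'} ∩ {x : X | K.step e ((lval ρ e * h) • x, l) (h • x, k)}))) := by
      ext x
      simp only [Run, Set.mem_ofPred_eq, Set.mem_iUnion, Set.mem_inter_iff, Set.mem_compl_iff,
        Set.mem_preimage]
      constructor
      · rintro ⟨⟨y, l⟩, e', h1, h2, h3, h4⟩
        have h5 := step_pos K h4
        simp only at h5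
        have h6 : y = (lval ρ e * h) • x := by
          rw [mul_smul, h5, smul_inv_smul]
        subst h6
        exact ⟨e', l, h1, h2, h3, h4⟩
      · rintro ⟨e', l, h1, h2, h3, h4⟩
        exact ⟨_, e', h1, h2, h3, h4⟩
    rw [this]
    refine MeasurableSet.iUnion fun e' => MeasurableSet.iUnion fun l => ?_
    exact (ih _ _ _).inter ((hm _ (special_meas hm K l)).compl.inter
      ((MeasurableSet.const _).inter (step_meas2 hm hfree K e _ _ _ _)))

/-- vertices within distance `m` of a special vertex -/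
def Near (K : PG ρ X ι) (m : ℕ) : Set (X × ι) :=
  {u | u ∈ K.V ∧ ∃ (ω : List (AL × Bool)) (v : X × ι), ω.length ≤ m ∧ K.Path ω u v ∧
      K.Special v}

theorem near_meas [Countable ι] (hm : ∀ g : Γ, Measurable (fun x : X => g • x))
    (K : PG ρ X ι) (m : ℕ) : MS (Near K m) := by
  intro i
  have : {x | (x, i) ∈ Near K m} = {x | (x, i) ∈ K.V} ∩ ⋃ ω : List (AL × Bool), ⋃ k : ι,
      ({x | ω.length ≤ m} ∩ ({x | K.Path ω (x, i) ((wval ρ ω)⁻¹ • x, k)} ∩
        (fun x => (wval ρ ω)⁻¹ • x) ⁻¹' {x | K.Special (x, k)})) := by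
    ext x
    simp only [Near, Set.mem_ofPred_eq, Set.mem_iUnion, Set.mem_inter_iff, Set.mem_preimage]
    constructor
    · rintro ⟨h0, ω, ⟨y, k⟩, h1, h2, h3⟩
      have h4 := path_pos K _ _ _ h2
      simp only at h4
      subst h4
      exact ⟨h0, ω, k, h1, h2, h3⟩
    · rintro ⟨h0, ω, k, h1, h2, h3⟩
      exact ⟨h0, ω, _, h1, h2, h3⟩
  rw [this]
  refine (K.mV i).inter (MeasurableSet.iUnion fun ω => MeasurableSet.iUnion fun k => ?_)
  exact (MeasurableSet.const _).inter ((path_meas hm K ω i k).inter (hm _ (special_meas hm K k)))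

end run

end TypeB

open TypeB

variable {Γ X : Type} [Group Γ] [Countable Γ] [MeasurableSpace X] [MulAction Γ X]
  {μ : Measure X} [IsProbabilityMeasure μ]
  (hmp : ∀ g : Γ, MeasurePreserving (fun x : X => g • x) μ μ)
  (hfree : ∀ (g : Γ) (x : X), g • x = x → g = 1)
  {j R q : ℕ} [NeZero R] (D : RelData j R q Γ)

include hmp hfree

/-- volume of the special vertices and of their directions -/
theorem special_vol {ρ : AL → Γ} (K : PG ρ X ℕ) (hF : K.Folded) (hP : K.Pruned) (hBG : K.BG)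
    (hfin : vol μ K.V ≠ ⊤) (hex : vol μ K.ES ≤ vol μ K.V + 1 / 500) :
    vol μ {u | u ∈ K.V ∧ K.Special u} ≤ 4 ∧
    vol μ {u : X × (ℕ × (AL × Bool)) | (u.1, u.2.1) ∈ K.V ∧ K.Special (u.1, u.2.1) ∧
      K.Dir (u.1, u.2.1) u.2.2} ≤ 12 := by
  classical
  have hm : ∀ g : Γ, Measurable (fun x : X => g • x) := fun g => (hmp g).measurable
  have hMSp : MS {u : X × ℕ | K.Special u} := fun i => special_meas hm K i
  have hMD : ∀ i d, MeasurableSet {x : X | K.Dir (x, i) d} := fun i d => dir_meas hm K d i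
  set A : Set (X × (ℕ × (AL × Bool))) := {u | K.Dir (u.1, u.2.1) u.2.2} with hA
  set NS : Set (X × ℕ) := {u | u ∈ K.V ∧ ¬ K.Special u} with hNS
  set SP : Set (X × ℕ) := {u | u ∈ K.V ∧ K.Special u} with hSP
  set ANS : Set (X × (ℕ × (AL × Bool))) := {u | (u.1, u.2.1) ∈ K.V ∧
    ¬ K.Special (u.1, u.2.1) ∧ K.Dir (u.1, u.2.1) u.2.2} with hANS
  set ASP : Set (X × (ℕ × (AL × Bool))) := {u | (u.1, u.2.1) ∈ K.V ∧
    K.Special (u.1, u.2.1) ∧ K.Dir (u.1, u.2.1) u.2.2} with hASP
  have h0 : vol μ K.V = vol μ NS + vol μ SP := by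
    rw [vol_add (A := K.V) hMSp, add_comm]
    rfl
  have h3 : vol μ ANS + vol μ ASP ≤ 2 * vol μ K.ES := by
    refine le_trans ?_ (vol_dir_le hmp K)
    have hMSp' : MS {u : X × (ℕ × (AL × Bool)) | K.Special (u.1, u.2.1)} :=
      fun i => special_meas hm K i.1
    rw [vol_add (A := {u : X × (ℕ × (AL × Bool)) | K.Dir (u.1, u.2.1) u.2.2}) hMSp', add_comm]
    refine add_le_add (vol_mono ?_) (vol_mono ?_)
    · rintro u ⟨h1, h2, h3⟩; exact ⟨h3, h2⟩
    · rintro u ⟨h1, h2, h3⟩; exact ⟨h3, h2⟩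
  have h1 : 2 * vol μ NS ≤ vol μ ANS := by
    have := mul_vol_le (μ := μ) NS (fun i => (K.mV i).inter (hMSp i).compl) ANS
      (fun i => (K.mV i.1).inter ((hMSp i.1).compl.inter (hMD i.1 i.2))) 2 ?_
    · simpa using this
    · rintro u ⟨hu1, hu2⟩
      have hne : u.2 ≠ K.o := fun h => hu2 (Or.inl h)
      obtain ⟨d, d', hd, h1, h2⟩ := hP u hu1 hne
      refine ⟨{d, d'}, by rw [Finset.card_pair hd], ?_⟩
      intro e he
      rcases Finset.mem_insert.1 he with rfl | he
      · exact ⟨hu1, hu2, h1⟩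
      · rw [Finset.mem_singleton] at he; subst he
        exact ⟨hu1, hu2, h2⟩
  have h2 : 3 * vol μ SP ≤ 3 + vol μ ASP := by
    set T : Set (X × ℕ) := {u | u.2 = K.o} with hT
    have hTm : MS T := fun i => by
      show MeasurableSet {x : X | i = K.o}
      exact MeasurableSet.const _
    have e1 : vol μ {u | u ∈ SP ∧ u ∈ T} ≤ 1 := by
      have : vol μ {u | u ∈ SP ∧ u ∈ T} ≤ vol μ T := vol_mono fun u hu => hu.2
      refine this.trans ?_
      unfold vol
      rw [tsum_eq_single K.o]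
      · exact prob_le_one
      · intro i hi
        have : {x : X | (x, i) ∈ T} = ∅ := by
          ext x; simp [hT, hi]
        rw [this, measure_empty]
    have e2 : 3 * vol μ {u | u ∈ SP ∧ u ∉ T} ≤ vol μ ASP := by
      have := mul_vol_le (μ := μ) {u | u ∈ SP ∧ u ∉ T}
        (fun i => ((K.mV i).inter (hMSp i)).inter (hTm i).compl) ASP
        (fun i => (K.mV i.1).inter ((hMSp i.1).inter (hMD i.1 i.2))) 3 ?_
      · simpa using this
      · rintro u ⟨⟨hu1, hu2⟩, hu3⟩
        rcases hu2 with h | ⟨d1, d2, d3, h12, h13, h23, g1, g2, g3⟩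
        · exact absurd h hu3
        have hs : K.Special u := Or.inr ⟨d1, d2, d3, h12, h13, h23, g1, g2, g3⟩
        refine ⟨{d1, d2, d3}, ?_, ?_⟩
        · rw [Finset.card_insert_of_notMem (by simp [h12, h13]), Finset.card_pair h23]
        · intro e he
          simp only [Finset.mem_insert, Finset.mem_singleton] at he
          rcases he with rfl | rfl | rfl
          · exact ⟨hu1, hs, g1⟩
          · exact ⟨hu1, hs, g2⟩
          · exact ⟨hu1, hs, g3⟩
    rw [vol_add (A := SP) hTm, mul_add]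
    refine add_le_add ?_ e2
    calc 3 * vol μ {u | u ∈ SP ∧ u ∈ T} ≤ 3 * 1 := by gcongr
      _ = 3 := mul_one _
  exact arith hfin h0 h1 h2 h3 hex


/-- vertices within distance `m` of a special vertex -/
theorem near_vol {ρ : AL → Γ} (K : PG ρ X ℕ) (hF : K.Folded) (hP : K.Pruned) (hBG : K.BG)
    (hfin : vol μ K.V ≠ ⊤) (hex : vol μ K.ES ≤ vol μ K.V + 1 / 500) (m : ℕ) :
    vol μ {u | u ∈ K.V ∧ ∃ (ω : List (AL × Bool)) (v : X × ℕ), ω.length ≤ m ∧ K.Path ω u v ∧
      K.Special v} ≤ 4 + 12 * m := by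
  classical
  have hm : ∀ g : Γ, Measurable (fun x : X => g • x) := fun g => (hmp g).measurable
  have hMSp : MS {u : X × ℕ | K.Special u} := fun i => special_meas hm K i
  have hMD : ∀ i d, MeasurableSet {x : X | K.Dir (x, i) d} := fun i d => dir_meas hm K d i
  obtain ⟨hv1, hv2⟩ := special_vol hmp hfree K hF hP hBG hfin hex
  set SP : Set (X × ℕ) := {u | u ∈ K.V ∧ K.Special u} with hSP
  set ASP : Set (X × (ℕ × (AL × Bool))) := {u | (u.1, u.2.1) ∈ K.V ∧
    K.Special (u.1, u.2.1) ∧ K.Dir (u.1, u.2.1) u.2.2} with hASP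
  show vol μ (Near K m) ≤ 4 + 12 * m
  have hMN : MS (Near K m) := near_meas hm K m
  rw [vol_add (A := Near K m) hMSp]
  refine add_le_add ((vol_mono ?_).trans hv1) ?_
  · rintro u ⟨h1, h2⟩; exact ⟨h1.1, h2⟩
  set B : Set (X × ((ℕ × (AL × Bool)) × Fin m)) := {b | (b.1, b.2.1) ∈ ASP} with hB
  have hMA : MS ASP := fun i => (K.mV i.1).inter ((hMSp i.1).inter (hMD i.1 i.2))
  have hMB : MS B := fun i => hMA i.1
  have hvB : vol μ B = m * vol μ ASP := by
    unfold vol
    rw [ENNReal.tsum_prod', ← ENNReal.tsum_mul_left]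
    refine tsum_congr fun i => ?_
    rw [tsum_fintype]
    simp [hB]
  have key := rmt hmp hfree {u | u ∈ Near K m ∧ u ∉ {u : X × ℕ | K.Special u}} B
    (fun i => (hMN i).inter (hMSp i).compl) hMB
    (fun u b => ∃ e, Run K (b.1, b.2.1.1) b.2.1.2 b.2.2.val u e) ?_ 1 ?_ ?_
  · rw [hvB] at key
    calc vol μ {u | u ∈ Near K m ∧ u ∉ {u : X × ℕ | K.Special u}} ≤ 1 * (m * vol μ ASP) := by
          simpa using key
      _ ≤ 1 * (m * 12) := by gcongr
      _ = 12 * m := by rw [one_mul, mul_comm]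
  · intro i k g
    have : {x : X | ∃ e, Run K (g • x, k.1.1) k.1.2 k.2.val (x, i) e}
        = ⋃ e, {x : X | Run K (g • x, k.1.1) k.1.2 k.2.val ((1 : Γ) • x, i) e} := by
      ext x
      simp
    show MeasurableSet {x : X | ∃ e, Run K (g • x, k.1.1) k.1.2 k.2.val (x, i) e}
    rw [this]
    exact MeasurableSet.iUnion fun e => run_meas hm hfree K _ _ _ _ _ _ _
  · rintro u ⟨⟨hu1, hu2⟩, hu3⟩
    obtain ⟨⟨y, i⟩, d, e, n, hn, hs, hr⟩ := run_exists' K hF m u hu3 hu2
    obtain ⟨u'', ω, g1, g2, g3⟩ := run_prev K _ d n u e hr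
    have hp : K.Path (linv e :: ω) u (y, i) := ⟨u'', step_symm K g1, g3⟩
    have hpos := path_pos K _ _ _ hp
    simp only at hpos
    refine ⟨(wval ρ (linv e :: ω))⁻¹, ((i, d), ⟨n, hn⟩), ⟨e, ?_⟩, ?_⟩
    · rw [← hpos]; exact hr
    · rw [← hpos]
      exact ⟨path_tgt K hp, hs, run_start K _ d n u e hr⟩
  · rintro v hv
    rw [Nat.cast_one, Set.encard_le_one_iff]
    rintro a b ⟨-, e1, h1⟩ ⟨-, e2, h2⟩
    exact (run_unique K hF _ _ _ _ _ _ _ h1 h2).1


theorem typeB_bound (hG : Gap μ (fun i => (D.ρ (some (some i)))⁻¹)) (K : PG D.ρ X ℕ)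
    (hF : K.Folded) (hP : K.Pruned) (hBG : K.BG)
    (hfin : vol μ K.V ≠ ⊤) (hex : vol μ K.ES ≤ vol μ K.V + 1 / 500) :
    100 ^ j * vol μ (Cell D K \ TypeA D K) ≤ 101 * (63 ^ j * (4 + 24 * q)) := by
  classical
  have hm : ∀ g : Γ, Measurable (fun x : X => g • x) := fun g => (hmp g).measurable
  set N : Set (X × ℕ) := Near K (2 * q) with hN
  have hMN : MS N := near_meas hm K (2 * q)
  have hNV : N ⊆ K.V := fun u hu => hu.1
  have hvN : vol μ N ≤ 4 + 24 * q := by
    have := near_vol hmp hfree K hF hP hBG hfin hex (2 * q)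
    refine this.trans (le_of_eq ?_)
    push_cast
    rw [← mul_assoc]
    norm_num
  -- the words
  set word : (Fin j → Fin 100) → List (AL × Bool) :=
    fun t => List.ofFn fun a => ((some (some (t a)), true) : AL × Bool) with hword
  set M : (Fin j → Fin 100) → Set (X × ℕ) :=
    fun t => {u | u ∈ N ∧ ∃ v, v ∈ N ∧ K.Path (word t) u v} with hM
  have hMM : ∀ t, MS (M t) := by
    intro t i
    have : {x | (x, i) ∈ M t} = {x | (x, i) ∈ N} ∩ ⋃ k : ℕ,
        ((fun x => (wval D.ρ (word t))⁻¹ • x) ⁻¹' {x | (x, k) ∈ N} ∩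
          {x | K.Path (word t) (x, i) ((wval D.ρ (word t))⁻¹ • x, k)}) := by
      ext x
      simp only [hM, Set.mem_ofPred_eq, Set.mem_iUnion, Set.mem_inter_iff, Set.mem_preimage]
      constructor
      · rintro ⟨h0, ⟨y, k⟩, h1, h2⟩
        have h4 := path_pos K _ _ _ h2
        simp only at h4
        subst h4
        exact ⟨h0, k, h1, h2⟩
      · rintro ⟨h0, k, h1, h2⟩
        exact ⟨h0, _, h1, h2⟩
    rw [this]
    exact (hMN i).inter (MeasurableSet.iUnion fun k => (hm _ (hMN k)).inter (path_meas hm K _ i k))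
  have hwalk := walk_bound hmp hfree D.gen hG K hF hBG hfin hex N hMN hNV j
  -- loops stay near
  have hloop : ∀ (l : XL) (u : ZMod R → X × ℕ), Loop D K l u →
      ((u 0).1, ((u 0).2, l)) ∉ TypeA D K → ∀ i, u i ∈ N := by
    intro l u hu hA i
    refine ⟨step_src K (hu i), ?_⟩
    by_contra hcon
    apply hA
    refine ⟨u, hu, rfl, i, ?_⟩
    intro m hm0 hm1 hs
    apply hcon
    exact ⟨rw D.r l i m, u (i + (m : ZMod R)), by rw [rw_length]; omega,
      path_of_loop D K l u hu i m, hs⟩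
  -- per relator and per word
  have hlt : ∀ (l : XL) (t : Fin j → Fin 100),
      vol μ {v : X × ℕ | (v.1, (v.2, l)) ∈ Cell D K \ TypeA D K} ≤ vol μ (M t) := by
    intro l t
    obtain ⟨i, hi⟩ := D.rich l t
    set w0 : List (AL × Bool) := rw D.r l 0 i.val with hw0
    set A' : Set (X × ℕ) := {v | ∃ v1, K.Path w0 v v1 ∧ v1 ∈ M t} with hA'
    have hMA' : MS A' := by
      intro i'
      have : {x | (x, i') ∈ A'} = ⋃ k : ℕ,
          ({x | K.Path w0 (x, i') ((wval D.ρ w0)⁻¹ • x, k)} ∩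
            (fun x => (wval D.ρ w0)⁻¹ • x) ⁻¹' {x | (x, k) ∈ M t}) := by
        ext x
        simp only [hA', Set.mem_ofPred_eq, Set.mem_iUnion, Set.mem_inter_iff, Set.mem_preimage]
        constructor
        · rintro ⟨⟨y, k⟩, h1, h2⟩
          have h4 := path_pos K _ _ _ h1
          simp only at h4
          subst h4
          exact ⟨k, h1, h2⟩
        · rintro ⟨k, h1, h2⟩
          exact ⟨_, h1, h2⟩
      rw [this]
      exact MeasurableSet.iUnion fun k => (path_meas hm K _ i' k).inter (hm _ (hMM t k))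
    have hsub : {v : X × ℕ | (v.1, (v.2, l)) ∈ Cell D K \ TypeA D K} ⊆ A' := by
      rintro v ⟨hv1, hv2⟩
      obtain ⟨u, hu, hu0⟩ := loop_of_cell D K l v hv1
      have hnear := hloop l u hu (by rw [hu0]; exact hv2)
      refine ⟨u i, ?_, hnear i, u (i + (j : ZMod R)), hnear _, ?_⟩
      · have := path_of_loop D K l u hu 0 i.val
        rw [ZMod.natCast_zmod_val, zero_add, hu0] at this
        exact this
      · have := path_of_loop D K l u hu i j
        have hwd : rw D.r l i j = word t := by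
          apply List.ext_getElem
          · simp [rw, hword]
          · intro n h1 h2
            have hn : n < j := by simpa [rw] using h1
            simp only [rw, hword, List.getElem_map, List.getElem_range, List.getElem_ofFn]
            exact hi ⟨n, hn⟩
        rw [hwd] at this
        exact this
    refine (vol_mono hsub).trans ?_
    have key := rmt hmp hfree A' (M t) hMA' (hMM t) (fun v v1 => K.Path w0 v v1) ?_ 1 ?_ ?_
    · simpa using key
    · intro i' k g
      by_cases hg : g = (wval D.ρ w0)⁻¹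
      · rw [hg]; exact path_meas hm K _ i' k
      · have : {x | K.Path w0 (x, i') (g • x, k)} = ∅ := by
          ext x
          simp only [Set.mem_ofPred_eq, Set.mem_empty_iff_false, iff_false]
          intro hs
          apply hg
          have := path_pos K _ _ _ hs
          simp only at this
          have h2 : (((wval D.ρ w0)⁻¹)⁻¹ * g) • x = x := by
            rw [mul_smul, this, inv_smul_smul]
          have h3 := hfree _ _ h2
          rw [inv_mul_eq_one] at h3
          exact h3.symm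
        rw [this]; exact MeasurableSet.empty
    · rintro u ⟨⟨y, k⟩, h1, h2⟩
      have h4 := path_pos K _ _ _ h1
      simp only at h4
      subst h4
      exact ⟨_, k, h1, h2⟩
    · rintro v hv
      rw [Nat.cast_one, Set.encard_le_one_iff]
      rintro a b ⟨-, h1⟩ ⟨-, h2⟩
      exact path_unique_src K hF _ _ _ _ h1 h2
  have hl : ∀ l : XL, 100 ^ j * vol μ {v : X × ℕ | (v.1, (v.2, l)) ∈ Cell D K \ TypeA D K}
      ≤ 63 ^ j * (4 + 24 * q) := by
    intro l
    calc 100 ^ j * vol μ {v : X × ℕ | (v.1, (v.2, l)) ∈ Cell D K \ TypeA D K}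
        = ∑ t : Fin j → Fin 100, vol μ {v : X × ℕ | (v.1, (v.2, l)) ∈ Cell D K \ TypeA D K} := by
          rw [Finset.sum_const, Finset.card_univ, Fintype.card_fun, Fintype.card_fin,
            Fintype.card_fin, nsmul_eq_mul]
          push_cast
          rfl
      _ ≤ ∑ t : Fin j → Fin 100, vol μ (M t) := Finset.sum_le_sum fun t _ => hlt l t
      _ ≤ 63 ^ j * vol μ N := hwalk
      _ ≤ 63 ^ j * (4 + 24 * q) := by gcongr
  have hsum : vol μ (Cell D K \ TypeA D K)
      = ∑ l : XL, vol μ {v : X × ℕ | (v.1, (v.2, l)) ∈ Cell D K \ TypeA D K} := by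
    unfold vol
    rw [ENNReal.tsum_prod', ENNReal.tsum_comm, tsum_fintype]
    rfl
  rw [hsum, Finset.mul_sum]
  calc ∑ l : XL, 100 ^ j * vol μ {v : X × ℕ | (v.1, (v.2, l)) ∈ Cell D K \ TypeA D K}
      ≤ ∑ l : XL, 63 ^ j * (4 + 24 * (q : ENNReal)) := Finset.sum_le_sum fun l _ => hl l
    _ = 101 * (63 ^ j * (4 + 24 * q)) := by
        rw [Finset.sum_const, Finset.card_univ, nsmul_eq_mul]
        simp

end Crest.Agent.CP
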