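import Crest.Agent.CPPath
import Crest.Agent.CPMass
import Crest.Agent.CPMainA
import Crest.Agent.CPMainB
import Crest.Agent.CPPeel
import Crest.Agent.CPBatch
import Crest.Agent.CPDer
import Crest.Agent.CPRI
import Crest.Agent.CPTypeB

/-!
# Row 191: the energy argument
-/

set_option autoImplicit false

namespace Crest.Agent.CP
open MeasureTheory PG

variable {Γ X : Type} [Group Γ] [Countable Γ] [MeasurableSpace X] [MulAction Γ X]
  {μ : Measure X} [IsProbabilityMeasure μ]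
  (hmp : ∀ g : Γ, MeasurePreserving (fun x : X => g • x) μ μ)
  (hfree : ∀ (g : Γ) (x : X), g • x = x → g = 1)
  {j R q : ℕ} [NeZero R] (D : RelData j R q Γ)

include hmp in
theorem cell_meas (K : PG D.ρ X ℕ) : MS (Cell D K) := by
  rintro ⟨i, l⟩
  have h := path_meas (fun g => (hmp g).measurable) K (rw D.r l 0 R) i i
  rw [D.rel l] at h
  simpa [Cell] using h

omit [Countable Γ] [IsProbabilityMeasure μ] in
theorem cell_vol (K : PG D.ρ X ℕ) : vol μ (Cell D K) ≤ 101 * vol μ K.V := by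
  unfold vol
  rw [ENNReal.tsum_prod', ← ENNReal.tsum_mul_left]
  refine ENNReal.tsum_le_tsum fun i => ?_
  have h : ∀ l : XL, μ {x | (x, (i, l)) ∈ Cell D K} ≤ μ {x | (x, i) ∈ K.V} := by
    intro l
    refine measure_mono fun x hx => ?_
    have hx' : K.Path (rw D.r l 0 R) (x, i) (x, i) := hx
    have hR : R ≠ 0 := NeZero.ne R
    obtain ⟨k, rfl⟩ := Nat.exists_eq_succ_of_ne_zero hR
    rw [rw_succ_first] at hx'
    obtain ⟨w, hw, _⟩ := hx'
    unfold step at hw
    split_ifs at hw with h1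
    · exact K.src _ _ _ _ hw.2
    · have := K.tgt _ _ _ _ hw.2
      have h2 : ((D.ρ (D.r l 0).1)⁻¹ • w.1, i) ∈ K.V := this
      rw [← hw.1] at h2
      exact h2
  calc ∑' l : XL, μ {x | (x, (i, l)) ∈ Cell D K} ≤ ∑' _ : XL, μ {x | (x, i) ∈ K.V} :=
        ENNReal.tsum_le_tsum h
    _ = 101 * μ {x | (x, i) ∈ K.V} := by
        rw [tsum_fintype]
        simp

omit [Countable Γ] in
include hmp in
theorem goodC_mono {K : PG D.ρ X ℕ} {P : Set (X × List (AL × Bool))}
    {C : Set (X × (ℕ × XL))} (hK : GoodC D μ K P C) [Countable Γ] : GoodC D μ K P (Cell D K) where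
  o0 := hK.o0
  folded := hK.folded
  pruned := hK.pruned
  bg := hK.bg
  fin := hK.fin
  mP := hK.mP
  Pbd := hK.Pbd
  Ppath := hK.Ppath
  mC := cell_meas hmp D K
  CC := le_refl _
  gen := by
    intro c h1 h2
    exact hK.gen c (fun y j l h => h1 y j l (hK.CC h)) h2

/-- the class of energy competitors -/
def Cls (μ : Measure X) (K : PG D.ρ X ℕ) : Prop :=
  ∃ P : Set (X × List (AL × Bool)), GoodC D μ K P (Cell D K) ∧ vol μ P ≤ 1 + 1 / 1000 ∧
    vol μ (Cell D K) ≤ 1 / 100000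

include hmp hfree in
/-- relation inequality in the form we need -/
theorem excess_small {K : PG D.ρ X ℕ} {P : Set (X × List (AL × Bool))}
    {C : Set (X × (ℕ × XL))} (hK : GoodC D μ K P C) (hP : vol μ P ≤ 1 + 1 / 1000)
    (hC : vol μ C ≤ 1 / 1000) : vol μ K.ES ≤ vol μ K.V + 1 / 500 := by
  have hPf : vol μ P ≠ ⊤ := ne_top_of_le_ne_top (by finiteness) hP
  have h := relation_inequality hmp hfree D K P C hK hPf
  have h2 : vol μ K.ES + 1 ≤ (vol μ K.V + 1 / 500) + 1 := by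
    refine h.trans ?_
    calc vol μ C + vol μ P + vol μ K.V ≤ 1 / 1000 + (1 + 1 / 1000) + vol μ K.V := by gcongr
      _ = (vol μ K.V + (1 / 1000 + 1 / 1000)) + 1 := by ring
      _ = (vol μ K.V + 1 / 500) + 1 := by
          congr 2
          rw [ENNReal.div_add_div_same]
          rw [ENNReal.div_eq_div_iff] <;> norm_num
  exact (ENNReal.add_le_add_iff_right (by simp)).1 h2

include hmp hfree in
theorem typeB_small (hj : 100 * (101 * (63 ^ j * (4 + 24 * q))) * 1000 ≤ 100 ^ j)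
    (hG : Gap μ (fun i => (D.ρ (some (some i)))⁻¹))
    {K : PG D.ρ X ℕ} {P : Set (X × List (AL × Bool))}
    {C : Set (X × (ℕ × XL))} (hK : GoodC D μ K P C)
    (hex : vol μ K.ES ≤ vol μ K.V + 1 / 500) :
    vol μ (Cell D K \ TypeA D K) ≤ 1 / 100000 := by
  have h := typeB_bound hmp hfree D hG K hK.folded hK.pruned hK.bg hK.fin hex
  have hj' : (100000 : ENNReal) * (101 * (63 ^ j * (4 + 24 * q))) ≤ 100 ^ j := by
    have : ((100000 * (101 * (63 ^ j * (4 + 24 * q))) : ℕ) : ENNReal) ≤ ((100 ^ j : ℕ) : ENNReal) := by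
      exact_mod_cast (by linarith [hj] : 100000 * (101 * (63 ^ j * (4 + 24 * q))) ≤ 100 ^ j)
    push_cast at this
    exact this
  have h0 : (100 : ENNReal) ^ j ≠ 0 := by positivity
  have ht : (100 : ENNReal) ^ j ≠ ⊤ := by finiteness
  rw [ENNReal.le_div_iff_mul_le (Or.inl (by norm_num)) (Or.inl (by norm_num))]
  have h3 : (100 : ENNReal) ^ j * (vol μ (Cell D K \ TypeA D K) * 100000) ≤ 100 ^ j * 1 := by
    calc (100 : ENNReal) ^ j * (vol μ (Cell D K \ TypeA D K) * 100000)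
        = 100000 * (100 ^ j * vol μ (Cell D K \ TypeA D K)) := by ring
      _ ≤ 100000 * (101 * (63 ^ j * (4 + 24 * q))) := by gcongr
      _ ≤ 100 ^ j := hj'
      _ = 100 ^ j * 1 := by rw [mul_one]
  exact (ENNReal.mul_le_mul_iff_right h0 ht).1 h3

include hmp hfree in
/-- peeling produces a competitor -/
theorem peel_cls (hj : 100 * (101 * (63 ^ j * (4 + 24 * q))) * 1000 ≤ 100 ^ j)
    (hG : Gap μ (fun i => (D.ρ (some (some i)))⁻¹))
    {K : PG D.ρ X ℕ} {P : Set (X × List (AL × Bool))}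
    (hK : GoodC D μ K P (Cell D K)) (hP : vol μ P ≤ 1 + 1 / 1000)
    (hex : vol μ K.ES ≤ vol μ K.V + 1 / 500) :
    ∃ K' : PG D.ρ X ℕ, Cls D μ K' ∧
      vol μ K'.ES + 2 * q * vol μ (TypeA D K) ≤ vol μ K.ES := by
  obtain ⟨K', P', h1, h2, h3, h4⟩ := peel hmp hfree D K P hK
  exact ⟨K', ⟨P', h1, h2.trans hP, h4.trans (typeB_small hmp hfree D hj hG hK hex)⟩, h3⟩

/-- the domain of the potential argument -/
structure Dom (μ : Measure X) (K0 : PG D.ρ X ℕ) (P : Set (X × List (AL × Bool)))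
    (K : PG D.ρ X ℕ) (f : X × ℕ → ℕ) : Prop where
  good : GoodC D μ K P (Cell D K)
  mor : Mor K0 K f
  der : Derives D K (imE K0 f)
  ex : vol μ K.ES ≤ vol μ K.V + 1 / 500

include hmp hfree in
/-- cell bound for the domain -/
theorem dom_cell (hj : 100 * (101 * (63 ^ j * (4 + 24 * q))) * 1000 ≤ 100 ^ j)
    (hG : Gap μ (fun i => (D.ρ (some (some i)))⁻¹))
    {K0 : PG D.ρ X ℕ} {P : Set (X × List (AL × Bool))} (hP : vol μ P ≤ 1 + 1 / 1000)
    (hfin0 : vol μ K0.ES ≠ ⊤)
    (hmin : ∀ K, Cls D μ K → vol μ K0.ES ≤ vol μ K.ES + 1 / 100000)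
    {K : PG D.ρ X ℕ} {f : X × ℕ → ℕ} (hK : Dom D μ K0 P K f) :
    vol μ (Cell D K) ≤ 3 / 100000 := by
  have hB := typeB_small hmp hfree D hj hG hK.good hK.ex
  obtain ⟨K', hK', h3⟩ := peel_cls hmp hfree D hj hG hK.good hP hK.ex
  have h4 := hmin K' hK'
  have hcf : vol μ (Cell D K) ≠ ⊤ :=
    ne_top_of_le_ne_top (ENNReal.mul_ne_top (by norm_num) hK.good.fin) (cell_vol D K)
  have hV : vol μ K.ES ≠ ⊤ :=
    ne_top_of_le_ne_top (ENNReal.add_ne_top.2 ⟨hK.good.fin, by finiteness⟩) hK.ex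
  obtain ⟨him1, him2, him3⟩ := imE_vol hmp hfree K0 K f hK.mor
  have h5 := der_vol hmp hfree D K hK.good.folded hK.good.fin (imE K0 f) him1 him2 hK.der
  have h6 : vol μ (Cell D K) ≤ vol μ (TypeA D K) + vol μ (Cell D K \ TypeA D K) :=
    vol_le_diff_add _ _
  -- real-number arithmetic
  have hA : vol μ (TypeA D K) ≠ ⊤ := by
    have hsub : TypeA D K ⊆ Cell D K ∨ True := Or.inr trivial
    have h7 : 2 * q * vol μ (TypeA D K) ≠ ⊤ := ne_top_of_le_ne_top hV (le_trans le_add_self h3)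
    intro h
    rw [h] at h7
    apply h7
    rw [ENNReal.mul_top]
    have := D.hq1
    have : (2 : ENNReal) * q ≠ 0 := by
      simp; omega
    exact this
  have hK'f : vol μ K'.ES ≠ ⊤ := ne_top_of_le_ne_top hV (le_trans le_self_add h3)
  set A := vol μ (TypeA D K) with hAdef
  set B := vol μ (Cell D K \ TypeA D K) with hBdef
  have hBf : B ≠ ⊤ := ne_top_of_le_ne_top (by finiteness) hB
  have hchain : vol μ K'.ES + 2 * q * A ≤ vol μ K'.ES + (1 / 100000 + q * (A + B)) := by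
    calc vol μ K'.ES + 2 * q * A ≤ vol μ K.ES := h3
      _ ≤ vol μ (imE K0 f) + q * vol μ (Cell D K) := h5
      _ ≤ vol μ K0.ES + q * (A + B) := by gcongr
      _ ≤ (vol μ K'.ES + 1 / 100000) + q * (A + B) := by gcongr
      _ = _ := by ring
  have h8 : 2 * q * A ≤ 1 / 100000 + q * (A + B) :=
    (ENNReal.add_le_add_iff_left hK'f).1 hchain
  have h9 : q * A + q * A ≤ q * A + (1 / 100000 + q * B) := by
    calc (q : ENNReal) * A + q * A = 2 * q * A := by ring
      _ ≤ 1 / 100000 + q * (A + B) := h8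
      _ = q * A + (1 / 100000 + q * B) := by ring
  have h10 : q * A ≤ 1 / 100000 + q * B :=
    (ENNReal.add_le_add_iff_left (ENNReal.mul_ne_top (by simp) hA)).1 h9
  have hq1 : (1 : ENNReal) ≤ q := by exact_mod_cast D.hq1
  have h11 : q * A ≤ q * (1 / 100000 + B) := by
    refine h10.trans ?_
    rw [mul_add]
    gcongr
    calc (1 / 100000 : ENNReal) = 1 * (1 / 100000) := by rw [one_mul]
      _ ≤ q * (1 / 100000) := by gcongr
  have h12 : A ≤ 1 / 100000 + B := by
    refine (ENNReal.mul_le_mul_iff_right (a := (q : ENNReal)) ?_ ?_).1 h11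
    · have := D.hq1
      simp; omega
    · simp
  calc vol μ (Cell D K) ≤ A + B := h6
    _ ≤ (1 / 100000 + 1 / 100000) + 1 / 100000 := by
        gcongr
        exact h12.trans (by gcongr)
    _ = 3 / 100000 := by
        rw [ENNReal.div_add_div_same, ENNReal.div_add_div_same]
        norm_num

end Crest.Agent.CP
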