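import Crest.Agent.CPMainC

/-!
# Row 191: batches and the potential
-/

set_option autoImplicit false

namespace Crest.Agent.CP
open MeasureTheory PG

variable {Γ X : Type} [Group Γ] [Countable Γ] [MeasurableSpace X] [MulAction Γ X]
  {μ : Measure X} [IsProbabilityMeasure μ]
  (hmp : ∀ g : Γ, MeasurePreserving (fun x : X => g • x) μ μ)
  (hfree : ∀ (g : Γ) (x : X), g • x = x → g = 1)
  {j R q : ℕ} [NeZero R] (D : RelData j R q Γ)

/-- composition of morphisms -/
theorem Mor.comp' {ρ : AL → Γ} {K0 K K' : PG ρ X ℕ} {f g : X × ℕ → ℕ}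
    (hf : Mor K0 K f) (hg : Mor K K' g) : Mor K0 K' (fun u => g (u.1, f u)) where
  meas := by
    intro i k
    have : {x | g (x, f (x, i)) = k} = ⋃ m : ℕ, ({x | f (x, i) = m} ∩ {x | g (x, m) = k}) := by
      ext x
      simp only [Set.mem_iUnion, Set.mem_inter_iff]
      constructor
      · intro h; exact ⟨f (x, i), rfl, h⟩
      · rintro ⟨m, h1, h2⟩
        have h1' : f (x, i) = m := h1
        have h2' : g (x, m) = k := h2
        show g (x, f (x, i)) = k
        rw [h1']; exact h2'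
    show MeasurableSet {x | g (x, f (x, i)) = k}
    rw [this]
    exact MeasurableSet.iUnion fun m => (hf.meas i m).inter (hg.meas m k)
  o := by
    intro x
    show g (x, f (x, K0.o)) = K'.o
    rw [hf.o, hg.o]
  V := by
    intro x i h
    exact hg.V _ _ (hf.V _ _ h)
  E := by
    intro s x i k h
    exact hg.E _ _ _ _ (hf.E _ _ _ _ h)

theorem step_mapD {ρ : AL → Γ} {K K' : PG ρ X ℕ} {g : X × ℕ → ℕ} (hg : Mor K K' g)
    (d : AL × Bool) (u v : X × ℕ) (h : K.step d u v) :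
    K'.step d (u.1, g u) (v.1, g v) := by
  unfold step at h ⊢
  split_ifs at h ⊢ with h1
  · refine ⟨h.1, ?_⟩
    have := hg.E _ _ _ _ h.2
    have h2 : ((ρ d.1)⁻¹ • u.1, v.2) = v := by rw [← h.1]
    rw [h2] at this
    exact this
  · refine ⟨h.1, ?_⟩
    have := hg.E _ _ _ _ h.2
    have h2 : ((ρ d.1)⁻¹ • v.1, u.2) = u := by rw [← h.1]
    rw [h2] at this
    exact this

/-- the map on edges induced by a vertex map -/
def edgeMap (ρ : AL → Γ) (g : X × ℕ → ℕ) (e : X × (AL × ℕ × ℕ)) : X × (AL × ℕ × ℕ) :=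
  (e.1, (e.2.1, g (e.1, e.2.2.1), g ((ρ e.2.1)⁻¹ • e.1, e.2.2.2)))

theorem edgeMap_eof {ρ : AL → Γ} {K : PG ρ X ℕ} {g : X × ℕ → ℕ}
    (d : AL × Bool) (u v : X × ℕ) (h : K.step d u v) :
    edgeMap ρ g (eof d u v) = eof d (u.1, g u) (v.1, g v) := by
  unfold step at h
  unfold eof edgeMap
  split_ifs at h ⊢ with h1
  · simp only
    have h2 : ((ρ d.1)⁻¹ • u.1, v.2) = v := by rw [← h.1]
    rw [h2]
  · simp only
    have h2 : ((ρ d.1)⁻¹ • v.1, u.2) = u := by rw [← h.1]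
    rw [h2]

theorem derives_comp {K0 K K' : PG D.ρ X ℕ} {f g : X × ℕ → ℕ}
    (hg : Mor K K' g) (h1 : Derives D K (imE K0 f))
    (h2 : Derives D K' (imE K g)) : Derives D K' (imE K0 (fun u => g (u.1, f u))) := by
  intro S hS hcl
  refine h2 S ?_ hcl
  -- preimage of `S`
  have hK : K.ES ⊆ {e | edgeMap D.ρ g e ∈ S} := by
    refine h1 _ ?_ ?_
    · rintro ⟨x, s, a, b⟩ ⟨a', b', hE, ha, hb⟩
      simp only at hE ha hb
      apply hS
      refine ⟨a', b', hE, ?_, ?_⟩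
      · simp [edgeMap, ha]
      · simp [edgeMap, hb]
    · intro l u hu i hrun m
      have hu' : Loop D K' l (fun m => ((u m).1, g (u m))) := by
        intro m
        exact step_mapD hg _ _ _ (hu m)
      have h3 := hcl l _ hu' i (by
        intro m hm
        have := hrun m hm
        show eof (D.r l (i + (m : ZMod R))) ((u (i + (m : ZMod R))).1, g (u (i + (m : ZMod R))))
          ((u (i + (m : ZMod R) + 1)).1, g (u (i + (m : ZMod R) + 1))) ∈ S
        rw [← edgeMap_eof (K := K) (g := g) _ _ _ (hu _)]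
        exact this) m
      show edgeMap D.ρ g _ ∈ S
      rw [edgeMap_eof (K := K) (g := g) _ _ _ (hu _)]
      exact h3
  rintro ⟨x, s, a, b⟩ ⟨a', b', hE, ha, hb⟩
  have h4 : (x, (s, a', b')) ∈ {e | edgeMap D.ρ g e ∈ S} := hK hE
  have h5 : edgeMap D.ρ g (x, (s, a', b')) ∈ S := h4
  simp only at ha hb
  unfold edgeMap at h5
  simp only at h5
  rw [← ha, ← hb] at h5
  exact h5

include hmp hfree in
/-- one batch stays in the domain -/
theorem dom_step (hj : 100 * (101 * (63 ^ j * (4 + 24 * q))) * 1000 ≤ 100 ^ j)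
    (hG : Gap μ (fun i => (D.ρ (some (some i)))⁻¹))
    {K0 : PG D.ρ X ℕ} {P : Set (X × List (AL × Bool))} (hP : vol μ P ≤ 1 + 1 / 1000)
    (hfin0 : vol μ K0.ES ≠ ⊤)
    (hmin : ∀ K, Cls D μ K → vol μ K0.ES ≤ vol μ K.ES + 1 / 100000)
    {K : PG D.ρ X ℕ} {f : X × ℕ → ℕ} (hK : Dom D μ K0 P K f)
    (U : Set (X × (ℕ × XL × ZMod R))) (mU : MS U) (hUv : vol μ U ≤ 1 / 100000)
    (hU : ∀ y j l i, (y, (j, l, i)) ∈ U → ∃ v, K.Path (rw D.r l i (R - q)) (y, j) v) :
    ∃ (K' : PG D.ρ X ℕ) (g : X × ℕ → ℕ), Mor K K' g ∧ Dom D μ K0 P K' (fun u => g (u.1, f u)) ∧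
      (∀ y j l i, (y, (j, l, i)) ∈ U → K'.Path (rw D.r l i R) (y, g (y, j)) (y, g (y, j))) := by
  obtain ⟨K', g, C', h1, h2, h3, h4, h5⟩ := batch hmp hfree D K P (Cell D K) hK.good U mU
    (ne_top_of_le_ne_top (by finiteness) hUv) hU
  have hc := dom_cell hmp hfree D hj hG hP hfin0 hmin hK
  refine ⟨K', g, h3, ⟨goodC_mono hmp D h1, Mor.comp' hK.mor h3, derives_comp D h3 hK.der h5, ?_⟩, h4⟩
  refine excess_small hmp hfree D h1 hP (h2.trans ?_)
  calc vol μ (Cell D K) + vol μ U ≤ 3 / 100000 + 1 / 100000 := by gcongr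
    _ = 4 / 100000 := by rw [ENNReal.div_add_div_same]; norm_num
    _ ≤ 1 / 1000 := by
      rw [ENNReal.div_le_iff (by norm_num) (by norm_num)]
      rw [← ENNReal.mul_div_right_comm]
      rw [ENNReal.le_div_iff_mul_le (by norm_num) (by norm_num)]
      norm_num

include hmp in
omit [Countable Γ] in
theorem runs_meas [Countable Γ] (K : PG D.ρ X ℕ) :
    MS {u : X × (ℕ × XL × ZMod R) | ∃ v, K.Path (rw D.r u.2.2.1 u.2.2.2 (R - q)) (u.1, u.2.1) v} := by
  rintro ⟨a, l, i⟩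
  have : {x | (x, (a, l, i)) ∈ {u : X × (ℕ × XL × ZMod R) |
      ∃ v, K.Path (rw D.r u.2.2.1 u.2.2.2 (R - q)) (u.1, u.2.1) v}} =
      ⋃ k : ℕ, {x | K.Path (rw D.r l i (R - q)) (x, a)
        ((wval D.ρ (rw D.r l i (R - q)))⁻¹ • x, k)} := by
    ext x
    simp only [Set.mem_iUnion]
    constructor
    · rintro ⟨v, hv⟩
      have hv' : K.Path (rw D.r l i (R - q)) (x, a) v := hv
      have hp := path_pos K _ _ _ hv'
      refine ⟨v.2, ?_⟩
      show K.Path (rw D.r l i (R - q)) (x, a) ((wval D.ρ (rw D.r l i (R - q)))⁻¹ • x, v.2)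
      have : v = ((wval D.ρ (rw D.r l i (R - q)))⁻¹ • x, v.2) := by
        rw [← hp]
      rw [← this]
      exact hv'
    · rintro ⟨k, hk⟩
      exact ⟨_, hk⟩
  rw [this]
  exact MeasurableSet.iUnion fun k => path_meas (fun g => (hmp g).measurable) K _ _ _

omit [Countable Γ] in
theorem path_start_mem {ρ : AL → Γ} {ι : Type} (K : PG ρ X ι) (a : List (AL × Bool))
    (u v : X × ι) (h : K.Path a u v) : u ∈ K.V := by
  cases a with
  | nil => exact h.1
  | cons d ω =>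
    obtain ⟨w, hw, _⟩ := h
    unfold step at hw
    split_ifs at hw with h1
    · exact K.src _ _ _ _ hw.2
    · have := K.tgt _ _ _ _ hw.2
      rw [← hw.1] at this
      exact this

omit [Countable Γ] [IsProbabilityMeasure μ] in
theorem runs_vol (K : PG D.ρ X ℕ) (hfin : vol μ K.V ≠ ⊤) :
    vol μ {u : X × (ℕ × XL × ZMod R) | ∃ v, K.Path (rw D.r u.2.2.1 u.2.2.2 (R - q))
      (u.1, u.2.1) v} ≠ ⊤ := by
  have hle : vol μ {u : X × (ℕ × XL × ZMod R) | ∃ v, K.Path (rw D.r u.2.2.1 u.2.2.2 (R - q))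
      (u.1, u.2.1) v} ≤ (101 * R : ENNReal) * vol μ K.V := by
    unfold vol
    rw [ENNReal.tsum_prod', ← ENNReal.tsum_mul_left]
    refine ENNReal.tsum_le_tsum fun i => ?_
    have h : ∀ l : XL × ZMod R, μ {x | (x, (i, l)) ∈ {u : X × (ℕ × XL × ZMod R) |
        ∃ v, K.Path (rw D.r u.2.2.1 u.2.2.2 (R - q)) (u.1, u.2.1) v}} ≤ μ {x | (x, i) ∈ K.V} := by
      intro l
      refine measure_mono fun x hx => ?_
      obtain ⟨v, hv⟩ := hx
      exact path_start_mem K _ _ _ hv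
    calc ∑' l : XL × ZMod R, μ {x | (x, (i, l)) ∈ {u : X × (ℕ × XL × ZMod R) |
          ∃ v, K.Path (rw D.r u.2.2.1 u.2.2.2 (R - q)) (u.1, u.2.1) v}}
        ≤ ∑' _ : XL × ZMod R, μ {x | (x, i) ∈ K.V} := ENNReal.tsum_le_tsum h
      _ = (101 * R : ENNReal) * μ {x | (x, i) ∈ K.V} := by
          rw [tsum_fintype]
          simp [ZMod.card]
  exact ne_top_of_le_ne_top (ENNReal.mul_ne_top (by finiteness) hfin) hle

include hmp hfree in
theorem image_vol (U : Set (X × (ℕ × XL × ZMod R))) (mU : MS U) (g : X × ℕ → ℕ)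
    (hg : ∀ i k, MeasurableSet {x | g (x, i) = k}) :
    MS {u : X × (ℕ × XL × ZMod R) | ∃ a, (u.1, (a, u.2.2.1, u.2.2.2)) ∈ U ∧ g (u.1, a) = u.2.1} ∧
    vol μ {u : X × (ℕ × XL × ZMod R) | ∃ a, (u.1, (a, u.2.2.1, u.2.2.2)) ∈ U ∧
      g (u.1, a) = u.2.1} ≤ vol μ U := by
  constructor
  · rintro ⟨k, l, i⟩
    have : {x | (x, (k, l, i)) ∈ {u : X × (ℕ × XL × ZMod R) | ∃ a,
        (u.1, (a, u.2.2.1, u.2.2.2)) ∈ U ∧ g (u.1, a) = u.2.1}} =
        ⋃ a : ℕ, ({x | (x, (a, l, i)) ∈ U} ∩ {x | g (x, a) = k}) := by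
      ext x
      simp only [Set.mem_iUnion]
      rfl
    rw [this]
    exact MeasurableSet.iUnion fun a => (mU _).inter (hg _ _)
  · unfold vol
    rw [ENNReal.tsum_prod', ENNReal.tsum_prod', ENNReal.tsum_comm]
    conv_rhs => rw [ENNReal.tsum_comm]
    refine ENNReal.tsum_le_tsum fun li => ?_
    calc ∑' k : ℕ, μ {x | (x, (k, li)) ∈ {u : X × (ℕ × XL × ZMod R) | ∃ a,
          (u.1, (a, u.2.2.1, u.2.2.2)) ∈ U ∧ g (u.1, a) = u.2.1}}
        ≤ ∑' k : ℕ, ∑' a : ℕ, μ ({x | (x, (a, li)) ∈ U} ∩ {x | g (x, a) = k}) := by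
          refine ENNReal.tsum_le_tsum fun k => ?_
          refine le_trans (measure_mono ?_) (measure_iUnion_le _)
          intro x hx
          obtain ⟨a, ha1, ha2⟩ := hx
          exact Set.mem_iUnion.2 ⟨a, ha1, ha2⟩
      _ = ∑' a : ℕ, ∑' k : ℕ, μ ({x | (x, (a, li)) ∈ U} ∩ {x | g (x, a) = k}) :=
          ENNReal.tsum_comm
      _ = ∑' a : ℕ, μ {x | (x, (a, li)) ∈ U} := by
          refine tsum_congr fun a => ?_
          rw [← measure_iUnion]
          · congr 1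
            ext x
            simp only [Set.mem_iUnion, Set.mem_inter_iff]
            constructor
            · rintro ⟨_, h, _⟩; exact h
            · intro h; exact ⟨g (x, a), h, rfl⟩
          · intro k k' hkk'
            refine Set.disjoint_left.2 ?_
            rintro x ⟨_, h1⟩ ⟨_, h2⟩
            apply hkk'
            have h1' : g (x, a) = k := h1
            have h2' : g (x, a) = k' := h2
            rw [← h1', ← h2']
          · intro k
            exact (mU _).inter (hg _ _)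

end Crest.Agent.CP
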