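import Crest.Agent.CPGraph

set_option autoImplicit false

namespace Crest.Agent.CP
open MeasureTheory PG

variable {Γ X : Type} [Group Γ] [MeasurableSpace X] [MulAction Γ X]

/- ## G0 (CPPath.lean): basic path lemmas (append, reverse, position, measurability of `Path`,
uniqueness in folded graphs, invariance of sums in folded graphs under free reduction, mapping
paths by morphisms). -/

theorem linv_linv' {S : Type} (c : S × Bool) : linv (linv c) = c := by
  cases c; simp [linv]

theorem linv_inj {S : Type} {c d : S × Bool} (h : linv c = linv d) : c = d := by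
  rw [← linv_linv' c, h, linv_linv']

@[simp] theorem winv_nil {S : Type} : winv ([] : List (S × Bool)) = [] := rfl

theorem winv_cons' {S : Type} (c : S × Bool) (w : List (S × Bool)) :
    winv (c :: w) = winv w ++ [linv c] := by simp [winv]

theorem winv_append' {S : Type} (a b : List (S × Bool)) :
    winv (a ++ b) = winv b ++ winv a := by simp [winv]

theorem winv_winv' {S : Type} (a : List (S × Bool)) : winv (winv a) = a := by
  induction a with
  | nil => rfl
  | cons c w ih => rw [winv_cons', winv_append', ih]; simp [winv, linv_linv']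

@[simp] theorem winv_length {S : Type} (a : List (S × Bool)) : (winv a).length = a.length := by
  simp [winv]

theorem lval_linv {S : Type} {ρ : S → Γ} (c : S × Bool) : lval ρ (linv c) = (lval ρ c)⁻¹ := by
  rcases c with ⟨s, _ | _⟩ <;> simp [lval, linv]

@[simp] theorem wval_nil {S : Type} {ρ : S → Γ} : wval ρ [] = 1 := by simp [wval]

theorem wval_cons {S : Type} {ρ : S → Γ} (c : S × Bool) (w : List (S × Bool)) :
    wval ρ (c :: w) = lval ρ c * wval ρ w := by simp [wval]

theorem wval_append {S : Type} {ρ : S → Γ} (a b : List (S × Bool)) :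
    wval ρ (a ++ b) = wval ρ a * wval ρ b := by simp [wval]

theorem wval_winv {S : Type} {ρ : S → Γ} (a : List (S × Bool)) :
    wval ρ (winv a) = (wval ρ a)⁻¹ := by
  induction a with
  | nil => simp
  | cons c w ih => rw [winv_cons', wval_append, ih, wval_cons, wval_cons, lval_linv]; simp

section step
variable {ρ : AL → Γ} {ι : Type} (K : PG ρ X ι)

theorem step_linv' {d : AL × Bool} {u v : X × ι} : K.step (linv d) v u ↔ K.step d u v := by
  rcases d with ⟨s, _ | _⟩ <;> simp [PG.step, linv]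

theorem step_symm {d : AL × Bool} {u v : X × ι} (h : K.step d u v) : K.step (linv d) v u :=
  (step_linv' K).2 h

theorem step_src {d : AL × Bool} {u v : X × ι} (h : K.step d u v) : u ∈ K.V := by
  rcases d with ⟨s, _ | _⟩
  · simp only [PG.step, Bool.false_eq_true, if_false] at h
    have := K.tgt s v.1 v.2 u.2 h.2
    rw [← h.1] at this
    exact this
  · simp only [PG.step, if_true] at h
    exact K.src s u.1 u.2 v.2 h.2

theorem step_tgt {d : AL × Bool} {u v : X × ι} (h : K.step d u v) : v ∈ K.V :=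
  step_src K (step_symm K h)

theorem step_pos {d : AL × Bool} {u v : X × ι} (h : K.step d u v) :
    v.1 = (lval ρ d)⁻¹ • u.1 := by
  rcases d with ⟨s, _ | _⟩
  · simp only [PG.step, Bool.false_eq_true, if_false] at h
    simp [lval, h.1]
  · simp only [PG.step, if_true] at h
    simp [lval, h.1]

theorem path_cons (d : AL × Bool) (a : List (AL × Bool)) (u v : X × ι) :
    K.Path (d :: a) u v ↔ ∃ w, K.step d u w ∧ K.Path a w v := Iff.rfl

theorem path_nil (u v : X × ι) : K.Path [] u v ↔ u ∈ K.V ∧ u = v := Iff.rfl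

theorem path_src {a : List (AL × Bool)} {u v : X × ι} (h : K.Path a u v) : u ∈ K.V := by
  cases a with
  | nil => exact h.1
  | cons d a => obtain ⟨w, hw, _⟩ := h; exact step_src K hw

theorem path_tgt {a : List (AL × Bool)} {u v : X × ι} (h : K.Path a u v) : v ∈ K.V := by
  induction a generalizing u with
  | nil => exact h.2 ▸ h.1
  | cons d a ih => obtain ⟨w, _, hw⟩ := h; exact ih hw

theorem path_single (d : AL × Bool) (u v : X × ι) : K.Path [d] u v ↔ K.step d u v := by
  constructor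
  · rintro ⟨w, hw, -, rfl⟩; exact hw
  · intro h; exact ⟨v, h, step_tgt K h, rfl⟩

end step

theorem path_append {ρ : AL → Γ} {ι : Type} (K : PG ρ X ι) (a b : List (AL × Bool))
    (u v : X × ι) : K.Path (a ++ b) u v ↔ ∃ w, K.Path a u w ∧ K.Path b w v := by
  induction a generalizing u with
  | nil =>
    constructor
    · intro h; exact ⟨u, ⟨path_src K h, rfl⟩, h⟩
    · rintro ⟨w, ⟨-, rfl⟩, h⟩; exact h
  | cons d a ih =>
    constructor
    · rintro ⟨w, hw, h⟩
      obtain ⟨w', h1, h2⟩ := (ih w).1 h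
      exact ⟨w', ⟨w, hw, h1⟩, h2⟩
    · rintro ⟨w', ⟨w, hw, h1⟩, h2⟩
      exact ⟨w, hw, (ih w).2 ⟨w', h1, h2⟩⟩

theorem path_pos {ρ : AL → Γ} {ι : Type} (K : PG ρ X ι) (a : List (AL × Bool))
    (u v : X × ι) (h : K.Path a u v) : v.1 = (wval ρ a)⁻¹ • u.1 := by
  induction a generalizing u with
  | nil => simp [h.2]
  | cons d a ih =>
    obtain ⟨w, hw, h⟩ := h
    rw [ih w h, step_pos K hw, wval_cons, mul_inv_rev, mul_smul]

theorem path_winv {ρ : AL → Γ} {ι : Type} (K : PG ρ X ι) (a : List (AL × Bool))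
    (u v : X × ι) : K.Path (winv a) v u ↔ K.Path a u v := by
  induction a generalizing u with
  | nil =>
    constructor
    · rintro ⟨h, rfl⟩; exact ⟨h, rfl⟩
    · rintro ⟨h, rfl⟩; exact ⟨h, rfl⟩
  | cons d a ih =>
    rw [winv_cons', path_append]
    constructor
    · rintro ⟨w, h1, h2⟩
      rw [path_single, step_linv'] at h2
      exact ⟨w, h2, (ih w).1 h1⟩
    · rintro ⟨w, h1, h2⟩
      exact ⟨w, (ih w).2 h2, (path_single K _ _ _).2 (step_symm K h1)⟩

theorem step_meas {ρ : AL → Γ} {ι : Type} (hm : ∀ g : Γ, Measurable (fun x : X => g • x))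
    (K : PG ρ X ι) (d : AL × Bool) (i k : ι) :
    MeasurableSet {x | K.step d (x, i) ((lval ρ d)⁻¹ • x, k)} := by
  rcases d with ⟨s, _ | _⟩
  · have : {x | K.step (s, false) (x, i) ((lval ρ (s, false))⁻¹ • x, k)}
        = (fun x => ρ s • x) ⁻¹' {x | (x, (k, i)) ∈ K.E s} := by
      ext x; simp [PG.step, lval]
    rw [this]
    exact hm _ (K.mE s (k, i))
  · have : {x | K.step (s, true) (x, i) ((lval ρ (s, true))⁻¹ • x, k)}
        = {x | (x, (i, k)) ∈ K.E s} := by
      ext x; simp [PG.step, lval]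
    rw [this]
    exact K.mE s (i, k)

theorem path_meas {ρ : AL → Γ} {ι : Type} [Countable ι] (hm : ∀ g : Γ, Measurable (fun x : X => g • x))
    (K : PG ρ X ι) (a : List (AL × Bool)) (i k : ι) :
    MeasurableSet {x | K.Path a (x, i) ((wval ρ a)⁻¹ • x, k)} := by
  induction a generalizing i with
  | nil =>
    by_cases hik : i = k
    · subst hik
      have : {x | K.Path [] (x, i) ((wval ρ ([] : List (AL × Bool)))⁻¹ • x, i)} = {x | (x, i) ∈ K.V} := by
        ext x; simp [PG.Path]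
      rw [this]; exact K.mV i
    · have : {x | K.Path [] (x, i) ((wval ρ ([] : List (AL × Bool)))⁻¹ • x, k)} = ∅ := by
        ext x; simp [PG.Path, hik]
      rw [this]; exact MeasurableSet.empty
  | cons d a ih =>
    have : {x | K.Path (d :: a) (x, i) ((wval ρ (d :: a))⁻¹ • x, k)}
        = ⋃ l : ι, ({x | K.step d (x, i) ((lval ρ d)⁻¹ • x, l)} ∩
          (fun x => (lval ρ d)⁻¹ • x) ⁻¹' {y | K.Path a (y, l) ((wval ρ a)⁻¹ • y, k)}) := by
      ext x
      simp only [Set.mem_ofPred_eq, Set.mem_iUnion, Set.mem_inter_iff, Set.mem_preimage]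
      constructor
      · rintro ⟨⟨y, l⟩, hw, h⟩
        have := step_pos K hw
        simp only at this
        subst this
        refine ⟨l, hw, ?_⟩
        rwa [wval_cons, mul_inv_rev, mul_smul] at h
      · rintro ⟨l, hw, h⟩
        refine ⟨_, hw, ?_⟩
        rwa [wval_cons, mul_inv_rev, mul_smul]
    rw [this]
    exact MeasurableSet.iUnion fun l => (step_meas hm K d i l).inter (hm _ (ih l))

theorem path_unique {ρ : AL → Γ} {ι : Type} (K : PG ρ X ι) (hK : K.Folded) (a : List (AL × Bool))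
    (u v v' : X × ι) (h : K.Path a u v) (h' : K.Path a u v') : v = v' := by
  induction a generalizing u with
  | nil => exact h.2.symm.trans h'.2
  | cons d a ih =>
    obtain ⟨w, hw, h⟩ := h
    obtain ⟨w', hw', h'⟩ := h'
    have := hK _ _ _ _ hw hw'
    subst this
    exact ih w h h'

/-- uniqueness of the starting point -/
theorem path_unique_src {ρ : AL → Γ} {ι : Type} (K : PG ρ X ι) (hK : K.Folded)
    (a : List (AL × Bool)) (u u' v : X × ι) (h : K.Path a u v) (h' : K.Path a u' v) : u = u' :=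
  path_unique K hK (winv a) v u u' ((path_winv K a u v).2 h) ((path_winv K a u' v).2 h')

/-- existence of the sum along a path -/
theorem ps_exists {ρ : AL → Γ} {ι : Type} (K : PG ρ X ι) (c : AL → X × ι → ℝ)
    (a : List (AL × Bool)) (u v : X × ι) (h : K.Path a u v) : ∃ t, K.PS c a u v t := by
  induction a generalizing u with
  | nil => exact ⟨0, h.1, h.2, rfl⟩
  | cons d a ih =>
    obtain ⟨w, hw, h⟩ := h
    obtain ⟨t, ht⟩ := ih w h
    exact ⟨_, w, t, hw, ht, rfl⟩

theorem ps_path {ρ : AL → Γ} {ι : Type} (K : PG ρ X ι) (c : AL → X × ι → ℝ)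
    (a : List (AL × Bool)) (u v : X × ι) (t : ℝ) (h : K.PS c a u v t) : K.Path a u v := by
  induction a generalizing u t with
  | nil => exact ⟨h.1, h.2.1⟩
  | cons d a ih =>
    obtain ⟨w, t', hw, h, -⟩ := h
    exact ⟨w, hw, ih w t' h⟩

theorem ps_append {ρ : AL → Γ} {ι : Type} (K : PG ρ X ι) (c : AL → X × ι → ℝ)
    (a b : List (AL × Bool)) (u v : X × ι) (t : ℝ) :
    K.PS c (a ++ b) u v t ↔ ∃ w t1 t2, K.PS c a u w t1 ∧ K.PS c b w v t2 ∧ t = t1 + t2 := by
  induction a generalizing u t with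
  | nil =>
    constructor
    · intro h; exact ⟨u, 0, t, ⟨path_src K (ps_path K c _ _ _ _ h), rfl, rfl⟩, h, by simp⟩
    · rintro ⟨w, t1, t2, ⟨-, rfl, rfl⟩, h, rfl⟩; simpa using h
  | cons d a ih =>
    constructor
    · rintro ⟨w, t', hw, h, rfl⟩
      obtain ⟨w', t1, t2, h1, h2, rfl⟩ := (ih w t').1 h
      exact ⟨w', _, t2, ⟨w, t1, hw, h1, rfl⟩, h2, by ring⟩
    · rintro ⟨w', t1, t2, ⟨w, t', hw, h1, rfl⟩, h2, rfl⟩
      exact ⟨w, t' + t2, hw, (ih w _).2 ⟨w', t', t2, h1, h2, rfl⟩, by ring⟩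

theorem ps_single {ρ : AL → Γ} {ι : Type} (K : PG ρ X ι) (c : AL → X × ι → ℝ)
    (d : AL × Bool) (u v : X × ι) (t : ℝ) :
    K.PS c [d] u v t ↔ K.step d u v ∧ t = (if d.2 = true then c d.1 u else - c d.1 v) := by
  constructor
  · rintro ⟨w, t', hw, ⟨-, rfl, rfl⟩, rfl⟩
    exact ⟨hw, by ring⟩
  · rintro ⟨h, rfl⟩
    exact ⟨v, 0, h, ⟨step_tgt K h, rfl, rfl⟩, by ring⟩

theorem ps_single_linv {ρ : AL → Γ} {ι : Type} (K : PG ρ X ι) (c : AL → X × ι → ℝ)
    (d : AL × Bool) (u v : X × ι) (t : ℝ) :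
    K.PS c [linv d] v u t ↔ K.PS c [d] u v (-t) := by
  rw [ps_single, ps_single, step_linv']
  rcases d with ⟨s, _ | _⟩
  · simp only [linv, Bool.not_false, if_true, Bool.false_eq_true, if_false]
    constructor
    · rintro ⟨h, rfl⟩; exact ⟨h, rfl⟩
    · rintro ⟨h, h2⟩; exact ⟨h, by linarith⟩
  · simp only [linv, Bool.not_true, if_true, Bool.false_eq_true, if_false]
    constructor
    · rintro ⟨h, rfl⟩; exact ⟨h, by ring⟩
    · rintro ⟨h, h2⟩; exact ⟨h, by linarith⟩

theorem ps_winv {ρ : AL → Γ} {ι : Type} (K : PG ρ X ι) (c : AL → X × ι → ℝ)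
    (a : List (AL × Bool)) (u v : X × ι) (t : ℝ) :
    K.PS c (winv a) v u t ↔ K.PS c a u v (-t) := by
  induction a generalizing u t with
  | nil =>
    constructor
    · rintro ⟨h, rfl, rfl⟩; exact ⟨h, rfl, by simp⟩
    · rintro ⟨h, rfl, h2⟩; exact ⟨h, rfl, by linarith⟩
  | cons d a ih =>
    have hc : K.PS c (d :: a) u v (-t) ↔ ∃ w t1 t2, K.PS c [d] u w t1 ∧ K.PS c a w v t2 ∧
        -t = t1 + t2 := ps_append K c [d] a u v (-t)
    rw [winv_cons', ps_append, hc]
    constructor
    · rintro ⟨w, t1, t2, h1, h2, rfl⟩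
      exact ⟨w, -t2, -t1, (ps_single_linv K c d u w t2).1 h2, (ih w t1).1 h1, by ring⟩
    · rintro ⟨w, t1, t2, h1, h2, h3⟩
      refine ⟨w, -t2, -t1, (ih w (-t2)).2 (by simpa using h2), ?_, by linarith⟩
      rw [ps_single_linv]; simpa using h1

theorem ps_unique_same {ρ : AL → Γ} {ι : Type} (K : PG ρ X ι) (hK : K.Folded)
    (c : AL → X × ι → ℝ) (a : List (AL × Bool)) (u v v' : X × ι) (t t' : ℝ)
    (h : K.PS c a u v t) (h' : K.PS c a u v' t') : v = v' ∧ t = t' := by
  induction a generalizing u t t' with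
  | nil => exact ⟨h.2.1.symm.trans h'.2.1, h.2.2.trans h'.2.2.symm⟩
  | cons d a ih =>
    obtain ⟨w, s, hw, h, rfl⟩ := h
    obtain ⟨w', s', hw', h', rfl⟩ := h'
    have := hK _ _ _ _ hw hw'
    subst this
    obtain ⟨rfl, rfl⟩ := ih w s s' h h'
    exact ⟨rfl, rfl⟩

theorem ps_red_step {ρ : AL → Γ} {ι : Type} (K : PG ρ X ι) (hK : K.Folded)
    (c : AL → X × ι → ℝ) (a b : List (AL × Bool)) (hab : FreeGroup.Red.Step a b)
    (u v : X × ι) (t : ℝ) (h : K.PS c a u v t) : K.PS c b u v t := by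
  cases hab with
  | @not L₁ L₂ x bb =>
    rw [ps_append] at h
    obtain ⟨w, t1, t2, h1, h2, rfl⟩ := h
    rw [ps_append]
    obtain ⟨w1, s1, hw1, ⟨w2, s2, hw2, h2, rfl⟩, rfl⟩ := h2
    have e : w = w2 := by
      have := step_symm K hw1
      exact hK _ _ _ _ this hw2
    subst e
    refine ⟨w, t1, s2, h1, h2, ?_⟩
    cases bb <;> simp

theorem ps_red {ρ : AL → Γ} {ι : Type} (K : PG ρ X ι) (hK : K.Folded)
    (c : AL → X × ι → ℝ) (a b : List (AL × Bool)) (hab : FreeGroup.Red a b)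
    (u v : X × ι) (t : ℝ) (h : K.PS c a u v t) : K.PS c b u v t := by
  induction hab with
  | refl => exact h
  | tail _ hs ih => exact ps_red_step K hK c _ _ hs u v t ih

theorem path_red {ρ : AL → Γ} {ι : Type} (K : PG ρ X ι) (hK : K.Folded)
    (a b : List (AL × Bool)) (hab : FreeGroup.Red a b)
    (u v : X × ι) (h : K.Path a u v) : K.Path b u v := by
  obtain ⟨t, ht⟩ := ps_exists K (fun _ _ => 0) a u v h
  exact ps_path K _ _ _ _ _ (ps_red K hK _ a b hab u v t ht)

/-- in a folded graph the sum (and the endpoint) depends only on the free group element -/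
theorem ps_unique {ρ : AL → Γ} {ι : Type} (K : PG ρ X ι) (hK : K.Folded) (c : AL → X × ι → ℝ)
    (a b : List (AL × Bool)) (hab : FreeGroup.mk a = FreeGroup.mk b)
    (u v v' : X × ι) (t t' : ℝ) (h : K.PS c a u v t) (h' : K.PS c b u v' t') :
    v = v' ∧ t = t' := by
  obtain ⟨L, h1, h2⟩ := FreeGroup.Red.exact.1 hab
  exact ps_unique_same K hK c L u v v' t t' (ps_red K hK c a L h1 u v t h)
    (ps_red K hK c b L h2 u v' t' h')

theorem red_of_isReduced {w : List (AL × Bool)} (h : FreeGroup.IsReduced w) : Red w := by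
  unfold Red
  refine List.IsChain.imp ?_ h
  rintro ⟨c1, c2⟩ ⟨d1, d2⟩ hcd he
  simp only [linv, Prod.mk.injEq] at he
  obtain ⟨rfl, rfl⟩ := he
  have := hcd rfl
  simp at this

/-- the reduced word is readable -/
theorem path_reduce {ρ : AL → Γ} {ι : Type} (K : PG ρ X ι) (hK : K.Folded)
    (a : List (AL × Bool)) (u v : X × ι) (h : K.Path a u v) :
    ∃ b, Red b ∧ FreeGroup.mk b = FreeGroup.mk a ∧ b.length ≤ a.length ∧ K.Path b u v := by
  refine ⟨FreeGroup.reduce a, red_of_isReduced ?_, FreeGroup.reduce.self, ?_, ?_⟩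
  · exact FreeGroup.IsReduced.of_reduce_eq FreeGroup.reduce.idem
  · exact FreeGroup.Red.length_le FreeGroup.reduce.red
  · exact path_red K hK _ _ FreeGroup.reduce.red u v h

theorem step_map {ρ : AL → Γ} {ι κ : Type} (K : PG ρ X ι) (K' : PG ρ X κ) (f : X × ι → κ)
    (hf : Mor K K' f) (d : AL × Bool) (u v : X × ι) (h : K.step d u v) :
    K'.step d (u.1, f u) (v.1, f v) := by
  rcases d with ⟨s, _ | _⟩
  · simp only [PG.step, Bool.false_eq_true, if_false] at h ⊢
    refine ⟨h.1, ?_⟩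
    have := hf.E s v.1 v.2 u.2 h.2
    rwa [← h.1] at this
  · simp only [PG.step, if_true] at h ⊢
    refine ⟨h.1, ?_⟩
    have := hf.E s u.1 u.2 v.2 h.2
    rwa [← h.1] at this

theorem path_map {ρ : AL → Γ} {ι κ : Type} (K : PG ρ X ι) (K' : PG ρ X κ) (f : X × ι → κ)
    (hf : Mor K K' f) (a : List (AL × Bool)) (u v : X × ι) (h : K.Path a u v) :
    K'.Path a (u.1, f u) (v.1, f v) := by
  induction a generalizing u with
  | nil =>
    obtain ⟨h1, rfl⟩ := h
    exact ⟨hf.V _ _ h1, rfl⟩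
  | cons d a ih =>
    obtain ⟨w, hw, h⟩ := h
    exact ⟨(w.1, f w), step_map K K' f hf d u w hw, ih w h⟩

theorem ps_map {ρ : AL → Γ} {ι κ : Type} (K : PG ρ X ι) (K' : PG ρ X κ) (f : X × ι → κ)
    (hf : Mor K K' f) (c : AL → X × κ → ℝ) (a : List (AL × Bool)) (u v : X × ι) (t : ℝ)
    (h : K.PS (fun s w => c s (w.1, f w)) a u v t) :
    K'.PS c a (u.1, f u) (v.1, f v) t := by
  induction a generalizing u t with
  | nil =>
    obtain ⟨h1, rfl, rfl⟩ := h
    exact ⟨hf.V _ _ h1, rfl, rfl⟩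
  | cons d a ih =>
    obtain ⟨w, t', hw, h, rfl⟩ := h
    exact ⟨(w.1, f w), t', step_map K K' f hf d u w hw, ih w t' h, rfl⟩

end Crest.Agent.CP
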