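import Crest.Agent.CPPath
import Crest.Agent.CPMass
import Crest.Agent.CPCore

set_option autoImplicit false
set_option linter.unusedSectionVars false

/-!
# Row 191, peel, part A: loops, windows, rigidity, marked edges
-/

namespace Crest.Agent.CP.Peel
open MeasureTheory PG

variable {Γ X : Type} [Group Γ] [Countable Γ] [MeasurableSpace X] [MulAction Γ X]

/-- two reduced readings which start with the same step follow each other as long as the
vertices are not special -/
theorem tr_seq {ρ : AL → Γ} (K : PG ρ X ℕ) (hF : K.Folded) (a b : ℕ → AL × Bool)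
    (u v : ℕ → X × ℕ)
    (ha : ∀ m, K.step (a m) (u m) (u (m+1))) (hb : ∀ m, K.step (b m) (v m) (v (m+1)))
    (ra : ∀ m, a (m+1) ≠ linv (a m)) (rb : ∀ m, b (m+1) ≠ linv (b m))
    (h0 : a 0 = b 0) (h0' : u 0 = v 0) (N : ℕ)
    (hN : ∀ m, 0 < m → m ≤ N → ¬ K.Special (u m)) :
    ∀ m, m ≤ N → a m = b m ∧ u m = v m := by
  intro m
  induction m with
  | zero => intro _; exact ⟨h0, h0'⟩
  | succ m ih =>
    intro hm
    obtain ⟨h1, h2⟩ := ih (by omega)
    have h3 : u (m+1) = v (m+1) := by
      have h4 := hb m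
      rw [← h1, ← h2] at h4
      exact hF _ _ _ _ (ha m) h4
    refine ⟨?_, h3⟩
    by_contra hne
    apply hN (m+1) (by omega) hm
    refine Or.inr ⟨linv (a m), a (m+1), b (m+1), (ra m).symm, ?_, hne, ?_, ?_, ?_⟩
    · rw [h1]; exact (rb m).symm
    · exact ⟨u m, (step_linv K _ _ _).mpr (ha m)⟩
    · exact ⟨u (m+2), ha (m+1)⟩
    · exact ⟨v (m+2), by rw [h3]; exact hb (m+1)⟩

section loops
variable {j R q : ℕ} [NeZero R] (D : RelData j R q Γ)

theorem rw_zero' {L S : Type} {R : ℕ} (r : L → ZMod R → S × Bool) (l : L) (i : ZMod R) :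
    rw r l i 0 = [] := rfl

theorem rw_succ {L S : Type} {R : ℕ} (r : L → ZMod R → S × Bool) (l : L) (i : ZMod R) (k : ℕ) :
    rw r l i (k + 1) = rw r l i k ++ [r l (i + (k : ZMod R))] := by
  unfold rw
  rw [List.range_succ, List.map_append]
  rfl

theorem rw_len {L S : Type} {R : ℕ} (r : L → ZMod R → S × Bool) (l : L) (i : ZMod R) (k : ℕ) :
    (rw r l i k).length = k := by
  unfold rw; simp

theorem rw_add' {L S : Type} {R : ℕ} (r : L → ZMod R → S × Bool) (l : L) (i : ZMod R) (a b : ℕ) :
    rw r l i (a + b) = rw r l i a ++ rw r l (i + (a : ZMod R)) b := by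
  induction b with
  | zero => simp [rw]
  | succ b ih =>
    rw [← Nat.add_assoc, rw_succ, ih, rw_succ, List.append_assoc]
    congr 3
    push_cast
    ring_nf

theorem rw_red (l : XL) (i : ZMod R) (k : ℕ) : Red (rw D.r l i k) := by
  unfold Red rw
  rw [List.isChain_iff_getElem]
  intro m hm
  simp only [List.getElem_map, List.getElem_range]
  have := D.cyc l (i + (m : ZMod R))
  push_cast
  rw [← add_assoc]
  exact this

/-- a path along the loop -/
theorem path_of_loop (K : PG D.ρ X ℕ) (l : XL) (u : ZMod R → X × ℕ)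
    (hu : Loop D K l u) (i : ZMod R) (k : ℕ) :
    K.Path (rw D.r l i k) (u i) (u (i + (k : ZMod R))) := by
  induction k with
  | zero =>
    rw [rw_zero']
    refine ⟨(step_vals K _ _ _ (hu i)).1, by simp⟩
  | succ k ih =>
    rw [rw_succ, path_append]
    refine ⟨_, ih, ?_⟩
    refine ⟨u (i + (k : ZMod R) + 1), hu _, (step_vals K _ _ _ (hu _)).2, ?_⟩
    congr 1
    push_cast
    ring

theorem cell_of_loop (K : PG D.ρ X ℕ) (l : XL) (u : ZMod R → X × ℕ)
    (hu : Loop D K l u) : K.Path (rw D.r l 0 R) (u 0) (u 0) := by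
  have := path_of_loop D K l u hu 0 R
  simpa using this

theorem path_vertices {ρ : AL → Γ} (K : PG ρ X ℕ) (w : List (AL × Bool)) :
    ∀ (a b : X × ℕ), K.Path w a b → ∃ f : ℕ → X × ℕ, f 0 = a ∧ f w.length = b ∧
      ∀ (m : ℕ) (hm : m < w.length), K.step (w[m]) (f m) (f (m + 1)) := by
  induction w with
  | nil =>
    intro a b h
    exact ⟨fun _ => a, rfl, h.2, fun m hm => by simp at hm⟩
  | cons d w ih =>
    rintro a b ⟨c, hc, hcb⟩
    obtain ⟨f, h0, h1, h2⟩ := ih c b hcb
    refine ⟨fun m => if m = 0 then a else f (m - 1), by simp, by simpa using h1, ?_⟩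
    intro m hm
    rcases m with _ | m
    · simpa [h0] using hc
    · have := h2 m (by simpa using hm)
      simpa using this

theorem loop_of_cell (K : PG D.ρ X ℕ) (l : XL) (v : X × ℕ)
    (h : K.Path (rw D.r l 0 R) v v) : ∃ u : ZMod R → X × ℕ, Loop D K l u ∧ u 0 = v := by
  obtain ⟨f, h0, h1, h2⟩ := path_vertices K _ v v h
  rw [rw_len] at h1
  have hR : 0 < R := Nat.pos_of_ne_zero (NeZero.ne R)
  refine ⟨fun m => f m.val, ?_, by simp [h0]⟩
  intro m
  have hm : m.val < R := ZMod.val_lt m
  have h3 := h2 m.val (by rw [rw_len]; exact hm)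
  have h4 : (rw D.r l 0 R)[m.val]'(by rw [rw_len]; exact hm) = D.r l m := by
    simp [rw]
  rw [h4] at h3
  have h5 : f (m + 1).val = f (m.val + 1) := by
    by_cases hlt : m.val + 1 < R
    · congr 1
      rw [ZMod.val_add_of_lt, ZMod.val_one_eq_one_mod, Nat.mod_eq_of_lt]
      · omega
      · rw [ZMod.val_one_eq_one_mod, Nat.mod_eq_of_lt (by omega)]
        exact hlt
    · have he : m.val + 1 = R := by omega
      rw [he, h1, ← h0]
      congr 1
      have : m + 1 = 0 := by
        have h6 : ((m.val + 1 : ℕ) : ZMod R) = 0 := by rw [he]; simp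
        push_cast at h6
        rwa [ZMod.natCast_zmod_val] at h6
      rw [this, ZMod.val_zero]
  show K.step (D.r l m) (f m.val) (f (m + 1).val)
  rw [h5]
  exact h3

theorem loop_unique (K : PG D.ρ X ℕ) (hF : K.Folded) (l : XL)
    (u u' : ZMod R → X × ℕ) (hu : Loop D K l u) (hu' : Loop D K l u') (i : ZMod R)
    (h : u i = u' i) : u = u' := by
  funext m
  have h1 := path_of_loop D K l u hu i (m - i).val
  have h2 := path_of_loop D K l u' hu' i (m - i).val
  rw [ZMod.natCast_zmod_val] at h1 h2
  rw [show i + (m - i) = m by ring] at h1 h2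
  rw [← h] at h2
  exact path_unique K hF _ _ _ _ h1 h2

/-- nonspecial interior of the window starting at `i` -/
def Win (K : PG D.ρ X ℕ) (u : ZMod R → X × ℕ) (i : ZMod R) : Prop :=
  ∀ m : ℕ, 0 < m → m < 2 * q → ¬ K.Special (u (i + (m : ZMod R)))

/-- canonical window of a loop -/
def Can (K : PG D.ρ X ℕ) (l : XL) (u : ZMod R → X × ℕ) (i : ZMod R) : Prop :=
  Loop D K l u ∧ Win D K u i ∧ ∀ i' : ZMod R, i'.val < i.val → ¬ Win D K u i'

theorem can_unique {K : PG D.ρ X ℕ} {l : XL} {u : ZMod R → X × ℕ} {i i' : ZMod R}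
    (h : Can D K l u i) (h' : Can D K l u i') : i = i' := by
  rcases lt_trichotomy i.val i'.val with h1 | h1 | h1
  · exact absurd h.2.1 (h'.2.2 i h1)
  · exact ZMod.val_injective R h1
  · exact absurd h'.2.1 (h.2.2 i' h1)

theorem can_exists {K : PG D.ρ X ℕ} {l : XL} {u : ZMod R → X × ℕ} (hu : Loop D K l u)
    {i : ZMod R} (h : Win D K u i) : ∃ i', Can D K l u i' := by
  classical
  have hex : ∃ n, ∃ i' : ZMod R, i'.val = n ∧ Win D K u i' := ⟨_, i, rfl, h⟩
  obtain ⟨i', h1, h2⟩ := Nat.find_spec hex
  refine ⟨i', hu, h2, ?_⟩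
  intro i'' hlt hw
  exact Nat.find_min hex (h1 ▸ hlt) ⟨i'', rfl, hw⟩

theorem typeA_iff (K : PG D.ρ X ℕ) (x : X) (k : ℕ) (l : XL) :
    (x, (k, l)) ∈ TypeA D K ↔ ∃ u i, Can D K l u i ∧ u 0 = (x, k) := by
  constructor
  · rintro ⟨u, hu, h0, i, hi⟩
    obtain ⟨i', h'⟩ := can_exists D hu (i := i) hi
    exact ⟨u, i', h', h0⟩
  · rintro ⟨u, i, h, h0⟩
    exact ⟨u, h.1, h0, i, h.2.1⟩

/-- rigidity: a loop which shares a window edge, in the same direction -/
theorem rigid1 {K : PG D.ρ X ℕ} (hF : K.Folded) {l : XL} {u : ZMod R → X × ℕ} {i : ZMod R}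
    (hu : Loop D K l u) (hw : Win D K u i) {l' : XL} {u' : ZMod R → X × ℕ} {p' : ZMod R}
    (hu' : Loop D K l' u') {n : ℕ} (hn : n < 2 * q)
    (h1 : D.r l' p' = D.r l (i + (n : ZMod R))) (h2 : u' p' = u (i + (n : ZMod R))) :
    l' = l ∧ p' = i + (n : ZMod R) ∧ u' = u := by
  have key : l = l' ∧ i + (n : ZMod R) = p' := by
    have hq1 := D.hq1
    rcases lt_or_ge n q with hnq | hnq
    · have := tr_seq K hF (fun m : ℕ => D.r l (i + (n : ZMod R) + (m : ZMod R)))
        (fun m : ℕ => D.r l' (p' + (m : ZMod R)))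
        (fun m : ℕ => u (i + (n : ZMod R) + (m : ZMod R)))
        (fun m : ℕ => u' (p' + (m : ZMod R)))
        (fun m => by
          have := hu (i + (n : ZMod R) + (m : ZMod R))
          simp only [Nat.cast_add, Nat.cast_one]
          rw [← add_assoc]; exact this)
        (fun m => by
          have := hu' (p' + (m : ZMod R))
          simp only [Nat.cast_add, Nat.cast_one]
          rw [← add_assoc]; exact this)
        (fun m => by
          have := D.cyc l (i + (n : ZMod R) + (m : ZMod R))
          simp only [Nat.cast_add, Nat.cast_one]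
          rw [← add_assoc]; exact this)
        (fun m => by
          have := D.cyc l' (p' + (m : ZMod R))
          simp only [Nat.cast_add, Nat.cast_one]
          rw [← add_assoc]; exact this)
        (by simp [h1]) (by simp [h2]) (q - 1)
        (fun m hm0 hm => by
          have := hw (n + m) (by omega) (by omega)
          simp only [Nat.cast_add] at this
          rw [← add_assoc] at this; exact this)
      exact D.pp l l' _ _ (fun m hm => (this m (by omega)).1)
    · have h3 : u (i + (n : ZMod R) + 1) = u' (p' + 1) := by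
        have h4 := hu' p'
        rw [h1, h2] at h4
        exact hF _ _ _ _ (hu _) h4
      have := tr_seq K hF (fun m : ℕ => linv (D.r l (i + (n : ZMod R) - (m : ZMod R))))
        (fun m : ℕ => linv (D.r l' (p' - (m : ZMod R))))
        (fun m : ℕ => u (i + (n : ZMod R) + 1 - (m : ZMod R)))
        (fun m : ℕ => u' (p' + 1 - (m : ZMod R)))
        (fun m => by
          have := hu (i + (n : ZMod R) - (m : ZMod R))
          rw [← step_linv] at this
          simp only [Nat.cast_add, Nat.cast_one]
          rw [show i + (n : ZMod R) + 1 - ((m : ZMod R) + 1) = i + (n : ZMod R) - (m : ZMod R) by ring,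
            show i + (n : ZMod R) + 1 - (m : ZMod R) = i + (n : ZMod R) - (m : ZMod R) + 1 by ring]
          exact this)
        (fun m => by
          have := hu' (p' - (m : ZMod R))
          rw [← step_linv] at this
          simp only [Nat.cast_add, Nat.cast_one]
          rw [show p' + 1 - ((m : ZMod R) + 1) = p' - (m : ZMod R) by ring,
            show p' + 1 - (m : ZMod R) = p' - (m : ZMod R) + 1 by ring]
          exact this)
        (fun m => by
          have := D.cyc l (i + (n : ZMod R) - (m : ZMod R) - 1)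
          rw [sub_add_cancel] at this
          simp only [Nat.cast_add, Nat.cast_one]
          rw [← sub_sub]
          intro hc
          rw [linv_linv] at hc
          exact this hc.symm)
        (fun m => by
          have := D.cyc l' (p' - (m : ZMod R) - 1)
          rw [sub_add_cancel] at this
          simp only [Nat.cast_add, Nat.cast_one]
          rw [← sub_sub]
          intro hc
          rw [linv_linv] at hc
          exact this hc.symm)
        (by simp [h1]) (by simp [h3]) (q - 1)
        (fun m hm0 hm => by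
          have := hw (n + 1 - m) (by omega) (by omega)
          rw [Nat.cast_sub (by omega)] at this
          simp only [Nat.cast_add, Nat.cast_one] at this
          rw [show i + ((n : ZMod R) + 1 - (m : ZMod R)) = i + (n : ZMod R) + 1 - (m : ZMod R) by ring]
            at this
          exact this)
      have h5 := D.pp l l' (i + (n : ZMod R) - ((q - 1 : ℕ) : ZMod R))
        (p' - ((q - 1 : ℕ) : ZMod R)) (fun m hm => by
          have h6 := (this (q - 1 - m) (by omega)).1
          have h7 := congrArg linv h6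
          rw [linv_linv, linv_linv] at h7
          rw [Nat.cast_sub (by omega : m ≤ q - 1)] at h7
          rw [show i + (n : ZMod R) - (((q - 1 : ℕ) : ZMod R) - (m : ZMod R))
              = i + (n : ZMod R) - ((q - 1 : ℕ) : ZMod R) + (m : ZMod R) by ring,
            show p' - (((q - 1 : ℕ) : ZMod R) - (m : ZMod R))
              = p' - ((q - 1 : ℕ) : ZMod R) + (m : ZMod R) by ring] at h7
          exact h7)
      exact ⟨h5.1, sub_left_injective h5.2⟩
  obtain ⟨rfl, h3⟩ := key
  refine ⟨rfl, h3.symm, ?_⟩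
  subst h3
  exact loop_unique D K hF l u' u hu' hu _ h2

/-- rigidity: no loop shares a window edge in the opposite direction -/
theorem rigid2 {K : PG D.ρ X ℕ} (hF : K.Folded) {l : XL} {u : ZMod R → X × ℕ} {i : ZMod R}
    (hu : Loop D K l u) (hw : Win D K u i) {l' : XL} {u' : ZMod R → X × ℕ} {p' : ZMod R}
    (hu' : Loop D K l' u') {n : ℕ} (hn : n < 2 * q)
    (h1 : D.r l' p' = linv (D.r l (i + (n : ZMod R)))) (h2 : u' p' = u (i + (n : ZMod R) + 1)) :
    False := by
  have hq1 := D.hq1
  have h3 : u (i + (n : ZMod R)) = u' (p' + 1) := by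
    have h4 := hu' p'
    rw [h1, h2] at h4
    have h5 := (step_linv K _ _ _).mpr (hu (i + (n : ZMod R)))
    exact hF _ _ _ _ h5 h4
  rcases lt_or_ge n q with hnq | hnq
  · have := tr_seq K hF (fun m : ℕ => D.r l (i + (n : ZMod R) + (m : ZMod R)))
      (fun m : ℕ => linv (D.r l' (p' - (m : ZMod R))))
      (fun m : ℕ => u (i + (n : ZMod R) + (m : ZMod R)))
      (fun m : ℕ => u' (p' + 1 - (m : ZMod R)))
      (fun m => by
        have := hu (i + (n : ZMod R) + (m : ZMod R))
        simp only [Nat.cast_add, Nat.cast_one]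
        rw [← add_assoc]; exact this)
      (fun m => by
        have := hu' (p' - (m : ZMod R))
        rw [← step_linv] at this
        simp only [Nat.cast_add, Nat.cast_one]
        rw [show p' + 1 - ((m : ZMod R) + 1) = p' - (m : ZMod R) by ring,
          show p' + 1 - (m : ZMod R) = p' - (m : ZMod R) + 1 by ring]
        exact this)
      (fun m => by
        have := D.cyc l (i + (n : ZMod R) + (m : ZMod R))
        simp only [Nat.cast_add, Nat.cast_one]
        rw [← add_assoc]; exact this)
      (fun m => by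
        have := D.cyc l' (p' - (m : ZMod R) - 1)
        rw [sub_add_cancel] at this
        simp only [Nat.cast_add, Nat.cast_one]
        rw [← sub_sub]
        intro hc
        rw [linv_linv] at hc
        exact this hc.symm)
      (by simp [h1, linv_linv]) (by simp [h3]) (q - 1)
      (fun m hm0 hm => by
        have := hw (n + m) (by omega) (by omega)
        simp only [Nat.cast_add] at this
        rw [← add_assoc] at this; exact this)
    exact D.pp' l l' _ _ (fun m hm => (this m (by omega)).1)
  · have := tr_seq K hF (fun m : ℕ => linv (D.r l (i + (n : ZMod R) - (m : ZMod R))))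
      (fun m : ℕ => D.r l' (p' + (m : ZMod R)))
      (fun m : ℕ => u (i + (n : ZMod R) + 1 - (m : ZMod R)))
      (fun m : ℕ => u' (p' + (m : ZMod R)))
      (fun m => by
        have := hu (i + (n : ZMod R) - (m : ZMod R))
        rw [← step_linv] at this
        simp only [Nat.cast_add, Nat.cast_one]
        rw [show i + (n : ZMod R) + 1 - ((m : ZMod R) + 1) = i + (n : ZMod R) - (m : ZMod R) by ring,
          show i + (n : ZMod R) + 1 - (m : ZMod R) = i + (n : ZMod R) - (m : ZMod R) + 1 by ring]
        exact this)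
      (fun m => by
        have := hu' (p' + (m : ZMod R))
        simp only [Nat.cast_add, Nat.cast_one]
        rw [← add_assoc]; exact this)
      (fun m => by
        have := D.cyc l (i + (n : ZMod R) - (m : ZMod R) - 1)
        rw [sub_add_cancel] at this
        simp only [Nat.cast_add, Nat.cast_one]
        rw [← sub_sub]
        intro hc
        rw [linv_linv] at hc
        exact this hc.symm)
      (fun m => by
        have := D.cyc l' (p' + (m : ZMod R))
        simp only [Nat.cast_add, Nat.cast_one]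
        rw [← add_assoc]; exact this)
      (by simp [h1]) (by simp [h2]) (q - 1)
      (fun m hm0 hm => by
        have := hw (n + 1 - m) (by omega) (by omega)
        rw [Nat.cast_sub (by omega)] at this
        simp only [Nat.cast_add, Nat.cast_one] at this
        rw [show i + ((n : ZMod R) + 1 - (m : ZMod R)) = i + (n : ZMod R) + 1 - (m : ZMod R) by ring]
          at this
        exact this)
    exact D.pp' l' l _ _ (fun m hm => (this m (by omega)).1.symm)

/-- marked steps: the first edges of the canonical windows (in both directions) -/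
def Mk (K : PG D.ρ X ℕ) (d : AL × Bool) (u v : X × ℕ) : Prop :=
  (∃ l i w, Can D K l w i ∧ d = D.r l i ∧ w i = u) ∨
  (∃ l i w, Can D K l w i ∧ linv d = D.r l i ∧ w i = v)

theorem mk_linv (K : PG D.ρ X ℕ) (d : AL × Bool) (u v : X × ℕ) :
    Mk D K (linv d) v u ↔ Mk D K d u v := by
  unfold Mk
  rw [linv_linv]
  exact or_comm

/-- a marked edge of a loop is the first edge of the canonical window of this loop -/
theorem can_of_mk {K : PG D.ρ X ℕ} (hF : K.Folded) {l : XL} {u : ZMod R → X × ℕ} {p : ZMod R}
    (hu : Loop D K l u) (h : Mk D K (D.r l p) (u p) (u (p + 1))) : Can D K l u p := by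
  have hq1 := D.hq1
  rcases h with ⟨l', i, w, hc, h1, h2⟩ | ⟨l', i, w, hc, h1, h2⟩
  · obtain ⟨rfl, h4, rfl⟩ := rigid1 D hF hc.1 hc.2.1 hu (n := 0) (by omega)
      (by simpa using h1) (by simpa using h2.symm)
    have : p = i := by simpa using h4
    rw [this]; exact hc
  · exfalso
    refine rigid2 D hF hc.1 hc.2.1 hu (p' := p) (n := 0) (by omega) ?_ ?_
    · rw [Nat.cast_zero, add_zero, ← h1, linv_linv]
    · rw [Nat.cast_zero, add_zero]
      have h3 := hc.1 i
      rw [← h1, h2] at h3
      have h4 := (step_linv K _ _ _).mpr (hu p)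
      exact hF _ _ _ _ h4 h3

/-- the graph without the marked edges; needs measurability of `Mk` -/
def K1 (K : PG D.ρ X ℕ)
    (hmk : ∀ (s : AL) (a b : ℕ), MeasurableSet {x : X | Mk D K (s, true) (x, a) ((D.ρ s)⁻¹ • x, b)}) :
    PG D.ρ X ℕ where
  V := K.V
  E s := {e | e ∈ K.E s ∧ ¬ Mk D K (s, true) (e.1, e.2.1) ((D.ρ s)⁻¹ • e.1, e.2.2)}
  o := K.o
  mV := K.mV
  mE s := by
    rintro ⟨a, b⟩
    exact (K.mE s (a, b)).inter (hmk s a b).compl
  thick := K.thick
  src s x a b h := K.src s x a b h.1
  tgt s x a b h := K.tgt s x a b h.1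

theorem k1_step (K : PG D.ρ X ℕ)
    (hmk : ∀ (s : AL) (a b : ℕ), MeasurableSet {x : X | Mk D K (s, true) (x, a) ((D.ρ s)⁻¹ • x, b)})
    (d : AL × Bool) (u v : X × ℕ) :
    (K1 D K hmk).step d u v ↔ K.step d u v ∧ ¬ Mk D K d u v := by
  obtain ⟨s, b⟩ := d
  cases b
  · unfold PG.step
    simp only [Bool.false_eq_true, if_false]
    constructor
    · rintro ⟨h1, h2, h3⟩
      refine ⟨⟨h1, h2⟩, ?_⟩
      intro h4
      apply h3
      rw [← mk_linv] at h4
      have : u = ((D.ρ s)⁻¹ • v.1, u.2) := Prod.ext h1 rfl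
      rw [this] at h4
      exact h4
    · rintro ⟨⟨h1, h2⟩, h3⟩
      refine ⟨h1, h2, ?_⟩
      intro h4
      apply h3
      rw [← mk_linv]
      have : u = ((D.ρ s)⁻¹ • v.1, u.2) := Prod.ext h1 rfl
      rw [this]
      exact h4
  · unfold PG.step
    simp only [if_true]
    constructor
    · rintro ⟨h1, h2, h3⟩
      refine ⟨⟨h1, h2⟩, ?_⟩
      intro h4
      apply h3
      have : v = ((D.ρ s)⁻¹ • u.1, v.2) := Prod.ext h1 rfl
      rw [this] at h4
      exact h4
    · rintro ⟨⟨h1, h2⟩, h3⟩
      refine ⟨h1, h2, ?_⟩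
      intro h4
      apply h3
      have : v = ((D.ρ s)⁻¹ • u.1, v.2) := Prod.ext h1 rfl
      rw [this]
      exact h4

theorem k1_rest (K : PG D.ρ X ℕ)
    (hmk : ∀ (s : AL) (a b : ℕ), MeasurableSet {x : X | Mk D K (s, true) (x, a) ((D.ρ s)⁻¹ • x, b)})
    (hF : K.Folded) {l : XL} {u : ZMod R → X × ℕ} {i : ZMod R} (h : Can D K l u i) (k : ℕ)
    (hk : k < R) :
    (K1 D K hmk).Path (rw D.r l (i + 1) k) (u (i + 1)) (u (i + 1 + (k : ZMod R))) := by
  induction k with
  | zero =>
    rw [rw_zero']
    exact ⟨(step_vals K _ _ _ (h.1 i)).2, by simp⟩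
  | succ k ih =>
    rw [rw_succ, path_append]
    refine ⟨_, ih (by omega), ?_⟩
    have hs : (K1 D K hmk).step (D.r l (i + 1 + (k : ZMod R))) (u (i + 1 + (k : ZMod R)))
        (u (i + 1 + (k : ZMod R) + 1)) := by
      rw [k1_step]
      refine ⟨h.1 _, ?_⟩
      intro hm
      have h1 := can_unique D (can_of_mk D hF h.1 hm) h
      have h2 : ((k + 1 : ℕ) : ZMod R) = 0 := by
        push_cast
        have : i + 1 + (k : ZMod R) = i + ((k : ZMod R) + 1) := by ring
        rw [this] at h1
        simpa using h1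
      rw [ZMod.natCast_eq_zero_iff] at h2
      exact absurd (Nat.le_of_dvd (by omega) h2) (by omega)
    refine ⟨_, hs, (step_vals _ _ _ _ hs).2, ?_⟩
    congr 1
    push_cast
    ring

theorem k1_rest' (K : PG D.ρ X ℕ)
    (hmk : ∀ (s : AL) (a b : ℕ), MeasurableSet {x : X | Mk D K (s, true) (x, a) ((D.ρ s)⁻¹ • x, b)})
    (hF : K.Folded) {l : XL} {u : ZMod R → X × ℕ} {i : ZMod R} (h : Can D K l u i) :
    (K1 D K hmk).Path (rw D.r l (i + 1) (R - 1)) (u (i + 1)) (u i) := by
  have hR : 0 < R := Nat.pos_of_ne_zero (NeZero.ne R)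
  have := k1_rest D K hmk hF h (R - 1) (by omega)
  rw [Nat.cast_sub (by omega)] at this
  simpa using this

/-- the replacement relation -/
def Bq (K : PG D.ρ X ℕ) (d : AL × Bool) (u v : X × ℕ) (b : List (AL × Bool)) : Prop :=
  (¬ Mk D K d u v ∧ b = [d]) ∨
  (∃ l i, (∃ w, Can D K l w i ∧ w i = u) ∧ d = D.r l i ∧ b = winv (rw D.r l (i + 1) (R - 1))) ∨
  (∃ l i, (∃ w, Can D K l w i ∧ w i = v) ∧ linv d = D.r l i ∧ b = rw D.r l (i + 1) (R - 1))

end loops

end Crest.Agent.CP.Peel
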