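import Crest.Agent.CPPath
import Crest.Agent.CPMass
import Crest.Agent.CPCore

set_option autoImplicit false
set_option linter.unusedSectionVars false

/-!
# Row 191: rerouting (used in `peel`)
-/

namespace Crest.Agent.CP
open MeasureTheory PG

variable {Γ X : Type} [Group Γ] [Countable Γ] [MeasurableSpace X] [MulAction Γ X]

/-- rerouting relation: `B d u v b` says that the step `d : u → v` of `K` is replaced by the path
`b` of the subgraph `K1` (`b = [d]` if the step is already in `K1`) -/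
structure Reroute {ρ : AL → Γ} (K K1 : PG ρ X ℕ) (M : ℕ)
    (B : AL × Bool → X × ℕ → X × ℕ → List (AL × Bool) → Prop) : Prop where
  ho : K1.o = K.o
  hV : K1.V = K.V
  hE : ∀ s, K1.E s ⊆ K.E s
  ex : ∀ d u v, K.step d u v → ∃ b, B d u v b
  uniq : ∀ d u v b b', K.step d u v → B d u v b → B d u v b' → b = b'
  path : ∀ d u v b, K.step d u v → B d u v b → K1.Path b u v ∧ b.length ≤ M
  triv : ∀ d u v, K1.step d u v → B d u v [d]
  inv : ∀ d u v b, B d u v b → B (linv d) v u (winv b)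
  meas : ∀ d (i k : ℕ) (g : Γ) b, MeasurableSet {x : X | B d (x, i) (g • x, k) b}

namespace RR

variable {ρ : AL → Γ} {K K1 : PG ρ X ℕ} {M : ℕ}
    {B : AL × Bool → X × ℕ → X × ℕ → List (AL × Bool) → Prop}

/-- the rerouted word -/
def RW (K : PG ρ X ℕ) (B : AL × Bool → X × ℕ → X × ℕ → List (AL × Bool) → Prop) :
    List (AL × Bool) → X × ℕ → X × ℕ → List (AL × Bool) → Prop
  | [], u, v, w' => u ∈ K.V ∧ u = v ∧ w' = []
  | d :: ω, u, v, w' => ∃ z b b', K.step d u z ∧ B d u z b ∧ RW K B ω z v b' ∧ w' = b ++ b'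

theorem step_sub (hE : ∀ s, K1.E s ⊆ K.E s) {d : AL × Bool} {u v : X × ℕ}
    (h : K1.step d u v) : K.step d u v := by
  unfold step at h ⊢
  split_ifs at h ⊢
  · exact ⟨h.1, hE _ h.2⟩
  · exact ⟨h.1, hE _ h.2⟩

theorem folded_sub (hE : ∀ s, K1.E s ⊆ K.E s) (hF : K.Folded) : K1.Folded :=
  fun d u v v' h h' => hF d u v v' (step_sub hE h) (step_sub hE h')

theorem rw_path (w : List (AL × Bool)) : ∀ (u v : X × ℕ) (w' : List (AL × Bool)),
    RW K B w u v w' → K.Path w u v := by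
  induction w with
  | nil => rintro u v w' ⟨h1, h2, -⟩; exact ⟨h1, h2⟩
  | cons d ω ih =>
    rintro u v w' ⟨z, b, b', h1, h2, h3, h4⟩
    exact ⟨z, h1, ih _ _ _ h3⟩

theorem rw_exists (hB : Reroute K K1 M B) (w : List (AL × Bool)) : ∀ (u v : X × ℕ),
    K.Path w u v → ∃ w', RW K B w u v w' := by
  induction w with
  | nil => rintro u v ⟨h1, h2⟩; exact ⟨[], h1, h2, rfl⟩
  | cons d ω ih =>
    rintro u v ⟨z, h1, h2⟩
    obtain ⟨b, hb⟩ := hB.ex _ _ _ h1
    obtain ⟨b', hb'⟩ := ih _ _ h2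
    exact ⟨b ++ b', z, b, b', h1, hb, hb', rfl⟩

theorem rw_path1 (hB : Reroute K K1 M B) (w : List (AL × Bool)) :
    ∀ (u v : X × ℕ) (w' : List (AL × Bool)),
    RW K B w u v w' → K1.Path w' u v ∧ w'.length ≤ M * w.length := by
  induction w with
  | nil =>
    rintro u v w' ⟨h1, h2, h3⟩
    subst h3
    refine ⟨⟨by rw [hB.hV]; exact h1, h2⟩, by simp⟩
  | cons d ω ih =>
    rintro u v w' ⟨z, b, b', h1, h2, h3, h4⟩
    subst h4
    obtain ⟨h5, h6⟩ := hB.path _ _ _ _ h1 h2
    obtain ⟨h7, h8⟩ := ih _ _ _ h3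
    refine ⟨(path_append K1 b b' u v).2 ⟨z, h5, h7⟩, ?_⟩
    rw [List.length_append, List.length_cons, mul_add, mul_one]
    omega

theorem rw_unique (hB : Reroute K K1 M B) (hF : K.Folded) (w : List (AL × Bool)) :
    ∀ (u v v' : X × ℕ) (w' w'' : List (AL × Bool)),
    RW K B w u v w' → RW K B w u v' w'' → w' = w'' := by
  induction w with
  | nil =>
    rintro u v v' w' w'' ⟨_, _, h⟩ ⟨_, _, h'⟩
    rw [h, h']
  | cons d ω ih =>
    rintro u v v' w' w'' ⟨z, b, b', h1, h2, h3, h4⟩ ⟨y, a, a', g1, g2, g3, g4⟩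
    have e := hF _ _ _ _ h1 g1
    subst e
    have e2 := hB.uniq _ _ _ _ _ h1 h2 g2
    subst e2
    rw [h4, g4, ih _ _ _ _ _ h3 g3]

/-- `K1`-paths are rerouted trivially -/
theorem rw_triv (hB : Reroute K K1 M B) (w : List (AL × Bool)) : ∀ (u v : X × ℕ),
    K1.Path w u v → RW K B w u v w := by
  induction w with
  | nil =>
    rintro u v ⟨h1, h2⟩
    exact ⟨by rw [← hB.hV]; exact h1, h2, rfl⟩
  | cons d ω ih =>
    rintro u v ⟨z, h1, h2⟩
    exact ⟨z, [d], ω, step_sub hB.hE h1, hB.triv _ _ _ h1, ih _ _ h2, rfl⟩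

theorem rw_meas (hm : ∀ g : Γ, Measurable (fun x : X => g • x)) (hB : Reroute K K1 M B)
    (w : List (AL × Bool)) : ∀ (i k : ℕ) (w' : List (AL × Bool)),
    MeasurableSet {x : X | RW K B w (x, i) ((wval ρ w)⁻¹ • x, k) w'} := by
  induction w with
  | nil =>
    intro i k w'
    by_cases h : i = k ∧ w' = []
    · have := K.mV i
      obtain ⟨h1, h2⟩ := h
      subst h1 h2
      have e : {x : X | RW K B [] (x, i) ((wval ρ ([] : List (AL × Bool)))⁻¹ • x, i) []} =
          {x | (x, i) ∈ K.V} := by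
        ext x
        simp [RW]
      rw [e]
      exact this
    · have e : {x : X | RW K B [] (x, i) ((wval ρ ([] : List (AL × Bool)))⁻¹ • x, k) w'} = ∅ := by
        ext x
        simp only [RW, wval_nil, inv_one, one_smul, Prod.mk.injEq, true_and,
          Set.mem_ofPred_eq, Set.mem_empty_iff_false, iff_false]
        tauto
      rw [e]
      exact MeasurableSet.empty
  | cons d ω ih =>
    intro i k w'
    have e : {x : X | RW K B (d :: ω) (x, i) ((wval ρ (d :: ω))⁻¹ • x, k) w'} =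
        ⋃ k' : ℕ, ⋃ b : List (AL × Bool), ⋃ b' : List (AL × Bool), ⋃ _ : w' = b ++ b',
          ({x | K.step d (x, i) ((lval ρ d)⁻¹ • x, k')} ∩
            ({x | B d (x, i) ((lval ρ d)⁻¹ • x, k') b} ∩
              (fun x : X => (lval ρ d)⁻¹ • x) ⁻¹'
                {x | RW K B ω (x, k') ((wval ρ ω)⁻¹ • x, k) b'})) := by
      ext x
      have e2 : (wval ρ (d :: ω))⁻¹ • x = (wval ρ ω)⁻¹ • (lval ρ d)⁻¹ • x := by
        rw [wval_cons, mul_inv_rev, mul_smul]
      simp only [RW, Set.mem_ofPred_eq, Set.mem_iUnion, Set.mem_inter_iff, Set.mem_preimage, e2,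
        exists_prop]
      constructor
      · rintro ⟨z, b, b', h1, h2, h3, h4⟩
        have hz := step_pos K h1
        have : z = ((lval ρ d)⁻¹ • x, z.2) := Prod.ext hz rfl
        rw [this] at h1 h2 h3
        exact ⟨z.2, b, b', h4, h1, h2, h3⟩
      · rintro ⟨k', b, b', h4, h1, h2, h3⟩
        exact ⟨_, b, b', h1, h2, h3, h4⟩
    rw [e]
    refine MeasurableSet.iUnion fun k' => MeasurableSet.iUnion fun b => MeasurableSet.iUnion
      fun b' => MeasurableSet.iUnion fun _ => ?_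
    exact (step_meas hm K d i k').inter ((hB.meas d i k' _ b).inter ((hm _) (ih k' k b')))

end RR

open RR

theorem reroute_bg {ρ : AL → Γ} {K K1 : PG ρ X ℕ} {M : ℕ}
    {B : AL × Bool → X × ℕ → X × ℕ → List (AL × Bool) → Prop}
    (hB : Reroute K K1 M B) (hBG : K.BG) : K1.BG := by
  obtain ⟨L, h1, h2⟩ := hBG
  refine ⟨M * L, ?_, ?_⟩
  · intro x s
    obtain ⟨ω, hl, hp⟩ := h1 x s
    obtain ⟨w', hw'⟩ := rw_exists hB ω _ _ hp
    obtain ⟨h3, h4⟩ := rw_path1 hB ω _ _ _ hw'
    rw [hB.ho]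
    exact ⟨w', h4.trans (Nat.mul_le_mul_left _ hl), h3⟩
  · intro v hv
    rw [hB.hV] at hv
    obtain ⟨ω, y, hl, hp⟩ := h2 v hv
    obtain ⟨w', hw'⟩ := rw_exists hB ω _ _ hp
    obtain ⟨h3, h4⟩ := rw_path1 hB ω _ _ _ hw'
    rw [hB.ho]
    exact ⟨w', y, h4.trans (Nat.mul_le_mul_left _ hl), h3⟩

namespace RR

section coch
variable {ρ : AL → Γ} {K K1 K' : PG ρ X ℕ} {M : ℕ}
    {B : AL × Bool → X × ℕ → X × ℕ → List (AL × Bool) → Prop}

open Classical in
/-- restriction of the cochain to the edges of `K'` -/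
noncomputable def c1 (K' : PG ρ X ℕ) (c' : AL → X × ℕ → ℝ) (s : AL) (u : X × ℕ) : ℝ :=
  if ∃ z, K'.step (s, true) u z then c' s u else 0

open Classical in
/-- the pulled back cochain on `K` -/
noncomputable def cc (K K1 : PG ρ X ℕ) (B : AL × Bool → X × ℕ → X × ℕ → List (AL × Bool) → Prop)
    (c : AL → X × ℕ → ℝ) (s : AL) (u : X × ℕ) : ℝ :=
  if h : ∃ t z b, K.step (s, true) u z ∧ B (s, true) u z b ∧ K1.PS c b u z t then h.choose else 0

theorem ps_c1 (c' : AL → X × ℕ → ℝ) (hV : K'.V ⊆ K1.V) (hE : ∀ s, K'.E s ⊆ K1.E s)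
    (ω : List (AL × Bool)) : ∀ (u v : X × ℕ) (t : ℝ),
    K'.PS c' ω u v t → K1.PS (c1 K' c') ω u v t := by
  induction ω with
  | nil => rintro u v t ⟨h1, h2, h3⟩; exact ⟨hV h1, h2, h3⟩
  | cons d ω ih =>
    rintro u v t ⟨w, t', hs, hr, ht⟩
    refine ⟨w, t', step_sub hE hs, ih _ _ _ hr, ?_⟩
    rw [ht]
    congr 1
    obtain ⟨s, b⟩ := d
    cases b with
    | true =>
      simp only [if_true]
      unfold c1
      rw [if_pos ⟨w, hs⟩]
    | false =>
      simp only [Bool.false_eq_true, if_false]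
      unfold c1
      rw [if_pos]
      exact ⟨u, (step_linv' K' (d := (s, true))).1 hs⟩

theorem cc_eq (hB : Reroute K K1 M B) (hF : K.Folded) (c : AL → X × ℕ → ℝ) (s : AL)
    (u z : X × ℕ) (b : List (AL × Bool)) (t : ℝ) (h1 : K.step (s, true) u z)
    (h2 : B (s, true) u z b) (h3 : K1.PS c b u z t) : cc K K1 B c s u = t := by
  unfold cc
  have h : ∃ t z b, K.step (s, true) u z ∧ B (s, true) u z b ∧ K1.PS c b u z t :=
    ⟨t, z, b, h1, h2, h3⟩
  rw [dif_pos h]
  obtain ⟨z', b', g1, g2, g3⟩ := h.choose_spec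
  have e := hF _ _ _ _ h1 g1
  subst e
  have e2 := hB.uniq _ _ _ _ _ h1 h2 g2
  subst e2
  exact (ps_unique_same K1 (folded_sub hB.hE hF) c b u z z _ _ g3 h3).2

theorem ps_step (hB : Reroute K K1 M B) (hF : K.Folded) (c : AL → X × ℕ → ℝ) (d : AL × Bool)
    (u z : X × ℕ) (b : List (AL × Bool)) (t : ℝ) (h1 : K.step d u z)
    (h2 : B d u z b) (h3 : K1.PS c b u z t) :
    t = (if d.2 = true then cc K K1 B c d.1 u else - cc K K1 B c d.1 z) := by
  obtain ⟨s, bb⟩ := d
  cases bb with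
  | true =>
    simp only [if_true]
    exact (cc_eq hB hF c s u z b t h1 h2 h3).symm
  | false =>
    simp only [Bool.false_eq_true, if_false]
    have g1 : K.step (s, true) z u := (step_linv' K (d := (s, true))).1 h1
    have g2 : B (s, true) z u (winv b) := hB.inv _ _ _ _ h2
    have g3 : K1.PS c (winv b) z u (-t) := (ps_winv K1 c b u z (-t)).2 (by rw [neg_neg]; exact h3)
    rw [cc_eq hB hF c s z u (winv b) (-t) g1 g2 g3, neg_neg]

theorem ps_rw (hB : Reroute K K1 M B) (hF : K.Folded) (c : AL → X × ℕ → ℝ)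
    (w : List (AL × Bool)) : ∀ (u v : X × ℕ) (w' : List (AL × Bool)) (t : ℝ),
    RW K B w u v w' → K1.PS c w' u v t → K.PS (cc K K1 B c) w u v t := by
  induction w with
  | nil =>
    rintro u v w' t ⟨h1, h2, h3⟩ h
    subst h3
    exact ⟨h1, h2, h.2.2⟩
  | cons d ω ih =>
    rintro u v w' t ⟨z, b, b', h1, h2, h3, h4⟩ h
    subst h4
    obtain ⟨y, t1, t2, g1, g2, g3⟩ := (ps_append K1 c b b' u v t).1 h
    have hy : y = z := path_unique K1 (folded_sub hB.hE hF) b u y z (ps_path K1 c _ _ _ _ g1)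
      (hB.path _ _ _ _ h1 h2).1
    subst hy
    refine ⟨y, t2, h1, ih _ _ _ _ h3 g2, ?_⟩
    rw [g3, ps_step hB hF c d u y b t1 h1 h2 g1]

theorem ps_K1 (hB : Reroute K K1 M B) (hF : K.Folded) (c : AL → X × ℕ → ℝ)
    (w : List (AL × Bool)) (u v : X × ℕ) (t : ℝ) (h : K1.PS c w u v t) :
    K.PS (cc K K1 B c) w u v t :=
  ps_rw hB hF c w u v w t (rw_triv hB w u v (ps_path K1 c _ _ _ _ h)) h

end coch

section loops
variable {j R q : ℕ} [NeZero R] (D : RelData j R q Γ)

theorem rw_add' {S L : Type} (r : L → ZMod R → S × Bool) (l : L) (i : ZMod R) (m n : ℕ) :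
    rw r l i (m + n) = rw r l i m ++ rw r l (i + m) n := by
  unfold rw
  rw [List.range_add, List.map_append, List.map_map]
  congr 1
  apply List.map_congr_left
  intro k _
  simp [add_assoc]

theorem loop_path (K : PG D.ρ X ℕ) (l : XL) (u : ZMod R → X × ℕ)
    (hu : Loop D K l u) (i : ZMod R) (k : ℕ) :
    K.Path (rw D.r l i k) (u i) (u (i + (k : ZMod R))) := by
  induction k with
  | zero =>
    have : rw D.r l i 0 = [] := rfl
    rw [this]
    exact ⟨step_src K (hu i), by simp⟩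
  | succ k ih =>
    rw [rw_add', path_append]
    refine ⟨_, ih, ?_⟩
    have e : rw D.r l (i + (k : ZMod R)) 1 = [D.r l (i + (k : ZMod R))] := by
      simp [rw]
    rw [e, path_single]
    have := hu (i + (k : ZMod R))
    have e2 : i + ((k + 1 : ℕ) : ZMod R) = i + (k : ZMod R) + 1 := by push_cast; ring
    rw [e2]
    exact this

theorem path_verts {ρ : AL → Γ} (K : PG ρ X ℕ) (w : List (AL × Bool)) :
    ∀ (a b : X × ℕ), K.Path w a b → ∃ f : ℕ → X × ℕ, f 0 = a ∧ f w.length = b ∧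
      ∀ (m : ℕ) (hm : m < w.length), K.step (w[m]) (f m) (f (m + 1)) := by
  induction w with
  | nil =>
    intro a b h
    exact ⟨fun _ => a, rfl, h.2, fun m hm => by simp at hm⟩
  | cons d w ih =>
    rintro a b ⟨c, hc, hcb⟩
    obtain ⟨f, h0, h1, h2⟩ := ih c b hcb
    refine ⟨fun m => if m = 0 then a else f (m - 1), by simp, by simpa using h1, ?_⟩
    intro m hm
    rcases m with _ | m
    · simpa [h0] using hc
    · have := h2 m (by simpa using hm)
      simpa using this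

theorem loop_cell (K : PG D.ρ X ℕ) (l : XL) (v : X × ℕ)
    (h : K.Path (rw D.r l 0 R) v v) : ∃ u : ZMod R → X × ℕ, Loop D K l u ∧ u 0 = v := by
  obtain ⟨f, h0, h1, h2⟩ := path_verts K _ v v h
  have hlen : (rw D.r l 0 R).length = R := by simp [rw]
  rw [hlen] at h1
  have hR : 0 < R := Nat.pos_of_ne_zero (NeZero.ne R)
  refine ⟨fun m => f m.val, ?_, by simp [h0]⟩
  intro m
  have hm : m.val < R := ZMod.val_lt m
  have h3 := h2 m.val (by rw [hlen]; exact hm)
  have h4 : (rw D.r l 0 R)[m.val]'(by rw [hlen]; exact hm) = D.r l m := by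
    simp [rw]
  rw [h4] at h3
  have h5 : f (m + 1).val = f (m.val + 1) := by
    by_cases hlt : m.val + 1 < R
    · congr 1
      rw [ZMod.val_add_of_lt, ZMod.val_one_eq_one_mod, Nat.mod_eq_of_lt]
      · omega
      · rw [ZMod.val_one_eq_one_mod, Nat.mod_eq_of_lt (by omega)]
        exact hlt
    · have he : m.val + 1 = R := by omega
      rw [he, h1, ← h0]
      congr 1
      have : m + 1 = 0 := by
        have h6 : ((m.val + 1 : ℕ) : ZMod R) = 0 := by rw [he]; simp
        push_cast at h6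
        rwa [ZMod.natCast_zmod_val] at h6
      rw [this, ZMod.val_zero]
  show K.step (D.r l m) (f m.val) (f (m + 1).val)
  rw [h5]
  exact h3

/-- cyclic sums do not depend on the base point -/
theorem ps_rotate (K : PG D.ρ X ℕ) (hF : K.Folded) (c : AL → X × ℕ → ℝ) (l : XL)
    (u : ZMod R → X × ℕ) (hu : Loop D K l u) (i : ZMod R) (t : ℝ)
    (h : K.PS c (rw D.r l 0 R) (u 0) (u 0) t) : K.PS c (rw D.r l i R) (u i) (u i) t := by
  have hi : i.val < R := ZMod.val_lt i
  have e1 : rw D.r l 0 R = rw D.r l 0 i.val ++ rw D.r l i (R - i.val) := by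
    have := rw_add' D.r l 0 i.val (R - i.val)
    rw [ZMod.natCast_zmod_val, zero_add] at this
    rw [← this]
    congr 1
    omega
  have e2 : rw D.r l i R = rw D.r l i (R - i.val) ++ rw D.r l 0 i.val := by
    have := rw_add' D.r l i (R - i.val) i.val
    have e3 : i + ((R - i.val : ℕ) : ZMod R) = 0 := by
      rw [Nat.cast_sub hi.le, ZMod.natCast_zmod_val]
      simp
    rw [e3] at this
    rw [← this]
    congr 1
    omega
  rw [e1, ps_append] at h
  obtain ⟨w, t1, t2, h1, h2, h3⟩ := h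
  have hw : w = u i := by
    have := loop_path D K l u hu 0 i.val
    rw [ZMod.natCast_zmod_val, zero_add] at this
    exact path_unique K hF _ _ _ _ (ps_path K c _ _ _ _ h1) this
  subst hw
  rw [e2, ps_append]
  exact ⟨u 0, t2, t1, h2, h1, by rw [h3, add_comm]⟩

end loops

end RR

theorem reroute_gen {μ : Measure X} [IsProbabilityMeasure μ]
    (hmp : ∀ g : Γ, MeasurePreserving (fun x : X => g • x) μ μ)
    (hfree : ∀ (g : Γ) (x : X), g • x = x → g = 1)
    {j R q : ℕ} [NeZero R] (D : RelData j R q Γ)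
    (K K1 K' : PG D.ρ X ℕ) (P : Set (X × List (AL × Bool)))
    (hK : GoodC D μ K P (Cell D K)) {M : ℕ}
    {B : AL × Bool → X × ℕ → X × ℕ → List (AL × Bool) → Prop} (hB : Reroute K K1 M B)
    (ho : K'.o = K.o) (hV : K'.V ⊆ K.V) (hE : ∀ s, K'.E s ⊆ K1.E s)
    (hred : ∀ ω x y, Red ω → K1.Path ω (x, K1.o) (y, K1.o) → K'.Path ω (x, K1.o) (y, K1.o))
    (hcell : ∀ l u, Loop D K l u → Loop D K' l u ∨
      ∃ i : ZMod R, K1.Path (rw D.r l (i + 1) (R - 1)) (u (i + 1)) (u i) ∧
        B (D.r l i) (u i) (u (i + 1)) (winv (rw D.r l (i + 1) (R - 1)))) :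
    ∃ P' : Set (X × List (AL × Bool)), MS P' ∧ (∃ N : ℕ, ∀ x w, (x, w) ∈ P' → w.length ≤ N) ∧
      (∀ x w, (x, w) ∈ P' → ∃ y, K'.Path w (x, K'.o) (y, K'.o)) ∧ vol μ P' ≤ vol μ P ∧
      Gen D K' (Cell D K') P' := by
  classical
  have hm : ∀ g : Γ, Measurable (fun x : X => g • x) := fun g => (hmp g).measurable
  have hF := hK.folded
  have hF1 : K1.Folded := folded_sub hB.hE hF
  have ho1 := hB.ho
  have hV1 : K'.V ⊆ K1.V := by rw [hB.hV]; exact hV
  set Q : List (AL × Bool) → List (AL × Bool) → Set X := fun w w' =>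
    {x | (x, w) ∈ P ∧ ∃ w'', RW K B w (x, K.o) ((wval D.ρ w)⁻¹ • x, K.o) w'' ∧
      w' = FreeGroup.reduce w''} with hQ
  have hQm : ∀ w w', MeasurableSet (Q w w') := by
    intro w w'
    have e : Q w w' = {x | (x, w) ∈ P} ∩ ⋃ w'' : List (AL × Bool), ⋃ _ : w' = FreeGroup.reduce w'',
        {x | RW K B w (x, K.o) ((wval D.ρ w)⁻¹ • x, K.o) w''} := by
      ext x
      simp only [hQ, Set.mem_ofPred_eq, Set.mem_inter_iff, Set.mem_iUnion, exists_prop]
      constructor
      · rintro ⟨h1, w'', h2, h3⟩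
        exact ⟨h1, w'', h3, h2⟩
      · rintro ⟨h1, w'', h3, h2⟩
        exact ⟨h1, w'', h2, h3⟩
    rw [e]
    refine (hK.mP w).inter (MeasurableSet.iUnion fun w'' => MeasurableSet.iUnion fun _ => ?_)
    exact rw_meas hm hB w _ _ _
  have hQd : ∀ w, Pairwise (fun a b => Disjoint (Q w a) (Q w b)) := by
    intro w a b hab
    rw [Set.disjoint_left]
    rintro x ⟨_, w1, h1, h2⟩ ⟨_, w2, h3, h4⟩
    apply hab
    rw [h2, h4, rw_unique hB hF w _ _ _ _ _ h1 h3]
  refine ⟨{p | ∃ w, p.1 ∈ Q w p.2}, ?_, ?_, ?_, ?_, ?_⟩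
  · intro w'
    have e : {x : X | (x, w') ∈ {p : X × List (AL × Bool) | ∃ w, p.1 ∈ Q w p.2}} = ⋃ w, Q w w' := by
      ext x
      simp
    rw [e]
    exact MeasurableSet.iUnion fun w => hQm w w'
  · obtain ⟨N, hN⟩ := hK.Pbd
    refine ⟨M * N, ?_⟩
    rintro x w' ⟨w, h1, w'', h2, h3⟩
    simp only at h2 h3
    have h4 := (rw_path1 hB w _ _ _ h2).2
    have h5 := hN _ _ h1
    have h6 : (FreeGroup.reduce w'').length ≤ w''.length :=
      FreeGroup.Red.length_le (FreeGroup.reduce.red)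
    rw [h3]
    exact h6.trans (h4.trans (Nat.mul_le_mul_left _ h5))
  · rintro x w' ⟨w, h1, w'', h2, h3⟩
    simp only at h2 h3
    refine ⟨(wval D.ρ w)⁻¹ • x, ?_⟩
    have h4 := (rw_path1 hB w _ _ _ h2).1
    have h5 := path_red K1 hF1 _ _ FreeGroup.reduce.red _ _ h4
    have h6 : Red (FreeGroup.reduce w'') :=
      red_of_isReduced (FreeGroup.IsReduced.of_reduce_eq FreeGroup.reduce.idem)
    rw [h3, ho, ← ho1]
    apply hred _ _ _ h6
    rw [ho1]
    exact h5
  · unfold vol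
    calc ∑' w', μ {x | (x, w') ∈ {p : X × List (AL × Bool) | ∃ w, p.1 ∈ Q w p.2}}
        ≤ ∑' w', ∑' w, μ (Q w w') := by
          apply ENNReal.tsum_le_tsum
          intro w'
          have e : {x : X | (x, w') ∈ {p : X × List (AL × Bool) | ∃ w, p.1 ∈ Q w p.2}} =
              ⋃ w, Q w w' := by
            ext x
            simp
          rw [e]
          exact measure_iUnion_le _
      _ = ∑' w, ∑' w', μ (Q w w') := ENNReal.tsum_comm
      _ ≤ ∑' w, μ {x | (x, w) ∈ P} := by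
          apply ENNReal.tsum_le_tsum
          intro w
          rw [← measure_iUnion (hQd w) (hQm w)]
          apply measure_mono
          intro x hx
          rw [Set.mem_iUnion] at hx
          obtain ⟨w', h1, _⟩ := hx
          exact h1
  · intro c' hc1 hc2 ω x y t ht
    have key : ∀ (w : List (AL × Bool)) (u v : X × ℕ) (t : ℝ), K'.PS c' w u v t →
        K.PS (cc K K1 B (c1 K' c')) w u v t := fun w u v t h =>
      ps_K1 hB hF _ w u v t (ps_c1 c' hV1 hE w u v t h)
    refine hK.gen (cc K K1 B (c1 K' c')) ?_ ?_ ω x y t (by rw [← ho]; exact key _ _ _ _ ht)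
    · -- cells
      intro y j' l hc t ht
      obtain ⟨u, hu, hu0⟩ := loop_cell D K l (y, j') hc
      rcases hcell l u hu with h | ⟨i, h1, h2⟩
      · have hp := loop_path D K' l u h 0 R
        have e : (0 : ZMod R) + (R : ZMod R) = 0 := by simp
        rw [e, hu0] at hp
        obtain ⟨t', ht'⟩ := ps_exists K' c' _ _ _ hp
        have h0 := hc1 y j' l hp t' ht'
        rw [h0] at ht'
        exact (ps_unique_same K hF _ _ _ _ _ _ _ ht (key _ _ _ _ ht')).2
      · obtain ⟨t2, ht2⟩ := ps_exists K1 (c1 K' c') _ _ _ h1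
        have g1 := ps_K1 hB hF _ _ _ _ _ ht2
        have g2 : K1.PS (c1 K' c') (winv (rw D.r l (i + 1) (R - 1))) (u i) (u (i + 1)) (-t2) :=
          (ps_winv K1 _ _ _ _ _).2 (by rw [neg_neg]; exact ht2)
        have g3 := ps_step hB hF _ _ _ _ _ _ (hu i) h2 g2
        have g4 : K.PS (cc K K1 B (c1 K' c')) [D.r l i] (u i) (u (i + 1)) (-t2) :=
          (ps_single K _ _ _ _ _).2 ⟨hu i, g3⟩
        have g5 : K.PS (cc K K1 B (c1 K' c')) (rw D.r l i R) (u i) (u i) 0 := by
          have hR : 0 < R := Nat.pos_of_ne_zero (NeZero.ne R)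
          have e : rw D.r l i R = [D.r l i] ++ rw D.r l (i + 1) (R - 1) := by
            have := rw_add' D.r l i 1 (R - 1)
            have e3 : rw D.r l i 1 = [D.r l i] := by simp [rw]
            rw [e3] at this
            have e4 : 1 + (R - 1) = R := by omega
            rw [e4] at this
            rw [this]
            simp
          rw [e, ps_append]
          exact ⟨_, _, _, g4, g1, by ring⟩
        rw [← hu0] at ht
        have g6 := ps_rotate D K hF _ l u hu i t ht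
        exact (ps_unique_same K hF _ _ _ _ _ _ _ g6 g5).2
    · -- the words of `P`
      intro x w hw v t ht
      obtain ⟨y, hy⟩ := hK.Ppath x w hw
      have hv : v = (y, K.o) := path_unique K hF _ _ _ _ (ps_path K _ _ _ _ _ ht) hy
      subst hv
      have hyp : y = (wval D.ρ w)⁻¹ • x := path_pos K w _ _ hy
      obtain ⟨w'', hw''⟩ := rw_exists hB w _ _ hy
      have h1 := (rw_path1 hB w _ _ _ hw'').1
      obtain ⟨t1, ht1⟩ := ps_exists K1 (c1 K' c') _ _ _ h1
      have h2 := ps_rw hB hF _ w _ _ _ _ hw'' ht1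
      have h3 : t = t1 := (ps_unique_same K hF _ _ _ _ _ _ _ ht h2).2
      have h4 := ps_red K1 hF1 _ _ _ FreeGroup.reduce.red _ _ _ ht1
      have h6 : Red (FreeGroup.reduce w'') :=
        red_of_isReduced (FreeGroup.IsReduced.of_reduce_eq FreeGroup.reduce.idem)
      have h7 : K'.Path (FreeGroup.reduce w'') (x, K1.o) (y, K1.o) := by
        apply hred _ _ _ h6
        rw [ho1]
        exact ps_path K1 _ _ _ _ _ h4
      rw [ho1, ← ho] at h7
      obtain ⟨t', ht'⟩ := ps_exists K' c' _ _ _ h7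
      have h8 : t' = 0 := by
        refine hc2 x (FreeGroup.reduce w'') ⟨w, hw, w'', ?_, rfl⟩ _ _ ht'
        rw [← hyp]
        exact hw''
      have h9 := ps_c1 c' hV1 hE _ _ _ _ ht'
      rw [ho] at h9
      rw [h3, (ps_unique_same K1 hF1 _ _ _ _ _ _ _ h4 h9).2, h8]

end Crest.Agent.CP
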