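import Crest.Agent.CPPeelA
import Crest.Agent.CPReroute

set_option autoImplicit false
set_option linter.unusedSectionVars false

/-!
# Row 191, peel, part B: measurability
-/

namespace Crest.Agent.CP.Peel
open MeasureTheory PG

variable {Γ X : Type} [Group Γ] [Countable Γ] [MeasurableSpace X] [MulAction Γ X]

section meas
variable (hm : ∀ g : Γ, Measurable (fun x : X => g • x))
  (hfree : ∀ (g : Γ) (x : X), g • x = x → g = 1)
include hfree

theorem smul_eq_iff' (g h : Γ) (x : X) : g • x = h • x ↔ g = h := by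
  constructor
  · intro hx
    have : (h⁻¹ * g) • x = x := by rw [mul_smul, hx, inv_smul_smul]
    have := hfree _ _ this
    exact (inv_mul_eq_one.mp this).symm
  · rintro rfl; rfl

theorem m_eq (g h : Γ) : MeasurableSet {x : X | g • x = h • x} := by
  by_cases hgh : g = h
  · subst hgh; simp
  · have : {x : X | g • x = h • x} = ∅ := by
      ext x
      simp only [Set.mem_ofPred_eq, Set.mem_empty_iff_false, iff_false]
      rw [smul_eq_iff' hfree]; exact hgh
    rw [this]; exact MeasurableSet.empty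

include hm

theorem m_step {ρ : AL → Γ} (K : PG ρ X ℕ) (d : AL × Bool) (g h : Γ) (a b : ℕ) :
    MeasurableSet {x : X | K.step d (g • x, a) (h • x, b)} := by
  by_cases hh : h = (lval ρ d)⁻¹ * g
  · have : {x : X | K.step d (g • x, a) (h • x, b)}
        = (fun x => g • x) ⁻¹' {x | K.step d (x, a) ((lval ρ d)⁻¹ • x, b)} := by
      ext x
      simp only [Set.mem_ofPred_eq, Set.mem_preimage]
      rw [hh, mul_smul]
    rw [this]
    exact hm g (step_meas hm K d a b)
  · have : {x : X | K.step d (g • x, a) (h • x, b)} = ∅ := by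
      ext x
      simp only [Set.mem_ofPred_eq, Set.mem_empty_iff_false, iff_false]
      intro hs
      have h1 := (path_pos K [d] _ _ ((path_single K d _ _).mpr hs))
      simp only [wval, List.map_cons, List.map_nil, List.prod_cons, List.prod_nil, mul_one] at h1
      rw [← mul_smul, smul_eq_iff' hfree] at h1
      exact hh h1
    rw [this]; exact MeasurableSet.empty

theorem m_dir {ρ : AL → Γ} (K : PG ρ X ℕ) (d : AL × Bool) (a : ℕ) :
    MeasurableSet {x : X | K.Dir (x, a) d} := by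
  have : {x : X | K.Dir (x, a) d}
      = ⋃ (b : ℕ) (h : Γ), {x : X | K.step d ((1 : Γ) • x, a) (h • x, b)} := by
    ext x
    simp only [PG.Dir, Set.mem_ofPred_eq, Set.mem_iUnion, one_smul]
    constructor
    · rintro ⟨v, hv⟩
      refine ⟨v.2, (lval ρ d)⁻¹, ?_⟩
      have h1 := (path_pos K [d] _ _ ((path_single K d _ _).mpr hv))
      simp only [wval, List.map_cons, List.map_nil, List.prod_cons, List.prod_nil, mul_one] at h1
      rw [← h1]; exact hv
    · rintro ⟨b, h, hs⟩; exact ⟨_, hs⟩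
  rw [this]
  exact MeasurableSet.iUnion fun b => MeasurableSet.iUnion fun h => m_step hm hfree K d 1 h a b

theorem m_special {ρ : AL → Γ} (K : PG ρ X ℕ) (g : Γ) (a : ℕ) :
    MeasurableSet {x : X | K.Special (g • x, a)} := by
  have h1 : {x : X | K.Special (g • x, a)} = (fun x => g • x) ⁻¹' ({x : X | a = K.o} ∪
      ⋃ (d1 : AL × Bool) (d2 : AL × Bool) (d3 : AL × Bool) (_ : d1 ≠ d2 ∧ d1 ≠ d3 ∧ d2 ≠ d3),
        ({x : X | K.Dir (x, a) d1} ∩ ({x : X | K.Dir (x, a) d2} ∩ {x : X | K.Dir (x, a) d3}))) := by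
    ext x
    simp only [PG.Special, Set.mem_ofPred_eq, Set.mem_preimage, Set.mem_union, Set.mem_iUnion,
      Set.mem_inter_iff, exists_prop]
    constructor
    · rintro (h | ⟨d1, d2, d3, h1, h2, h3, h4, h5, h6⟩)
      · exact Or.inl h
      · exact Or.inr ⟨d1, d2, d3, ⟨h1, h2, h3⟩, h4, h5, h6⟩
    · rintro (h | ⟨d1, d2, d3, ⟨h1, h2, h3⟩, h4, h5, h6⟩)
      · exact Or.inl h
      · exact Or.inr ⟨d1, d2, d3, h1, h2, h3, h4, h5, h6⟩
  rw [h1]
  refine hm g (MeasurableSet.union (MeasurableSet.const _) ?_)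
  refine MeasurableSet.iUnion fun d1 => MeasurableSet.iUnion fun d2 => MeasurableSet.iUnion fun d3 =>
    MeasurableSet.iUnion fun _ => ?_
  exact (m_dir hm hfree K d1 a).inter ((m_dir hm hfree K d2 a).inter (m_dir hm hfree K d3 a))

variable {j R q : ℕ} [NeZero R] (D : RelData j R q Γ)

theorem m_loop (K : PG D.ρ X ℕ) (l : XL) (g : ZMod R → Γ) (f : ZMod R → ℕ) :
    MeasurableSet {x : X | Loop D K l (fun z => (g z • x, f z))} := by
  have : {x : X | Loop D K l (fun z => (g z • x, f z))}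
      = ⋂ z : ZMod R, {x : X | K.step (D.r l z) (g z • x, f z) (g (z+1) • x, f (z+1))} := by
    ext x
    simp only [PG.Loop, Set.mem_ofPred_eq, Set.mem_iInter]
  rw [this]
  exact MeasurableSet.iInter fun z => m_step hm hfree K _ _ _ _ _

theorem m_win (K : PG D.ρ X ℕ) (g : ZMod R → Γ) (f : ZMod R → ℕ) (i : ZMod R) :
    MeasurableSet {x : X | Win D K (fun z => (g z • x, f z)) i} := by
  have : {x : X | Win D K (fun z => (g z • x, f z)) i}
      = ⋂ (m : ℕ) (_ : 0 < m) (_ : m < 2 * q),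
        {x : X | K.Special (g (i + (m : ZMod R)) • x, f (i + (m : ZMod R)))}ᶜ := by
    ext x
    simp only [Win, Set.mem_ofPred_eq, Set.mem_iInter, Set.mem_compl_iff]
  rw [this]
  exact MeasurableSet.iInter fun m => MeasurableSet.iInter fun _ => MeasurableSet.iInter fun _ =>
    (m_special hm hfree K _ _).compl

theorem m_can (K : PG D.ρ X ℕ) (l : XL) (g : ZMod R → Γ) (f : ZMod R → ℕ) (i : ZMod R) :
    MeasurableSet {x : X | Can D K l (fun z => (g z • x, f z)) i} := by
  have : {x : X | Can D K l (fun z => (g z • x, f z)) i}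
      = {x : X | Loop D K l (fun z => (g z • x, f z))} ∩
        ({x : X | Win D K (fun z => (g z • x, f z)) i} ∩
         ⋂ (i' : ZMod R) (_ : i'.val < i.val), {x : X | Win D K (fun z => (g z • x, f z)) i'}ᶜ) := by
    ext x
    simp only [Can, Set.mem_ofPred_eq, Set.mem_iInter, Set.mem_compl_iff, Set.mem_inter_iff]
  rw [this]
  refine (m_loop hm hfree D K l g f).inter ((m_win hm hfree D K g f i).inter ?_)
  exact MeasurableSet.iInter fun i' => MeasurableSet.iInter fun _ => (m_win hm hfree D K g f i').compl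

omit hm hfree in
/-- positions along a loop stay in the orbit -/
theorem loop_orbit {K : PG D.ρ X ℕ} {l : XL} {w : ZMod R → X × ℕ} (hw : Loop D K l w)
    {p : ZMod R} {h : Γ} {x : X} (hp : (w p).1 = h • x) (z : ZMod R) :
    ∃ g : Γ, (w z).1 = g • x := by
  have h1 := path_of_loop D K l w hw p (z - p).val
  rw [ZMod.natCast_zmod_val, show p + (z - p) = z by ring] at h1
  have h2 := path_pos K _ _ _ h1
  refine ⟨(wval D.ρ (rw D.r l p (z - p).val))⁻¹ * h, ?_⟩
  rw [h2, hp, mul_smul]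

theorem m_ex (K : PG D.ρ X ℕ) (l : XL) (i : ZMod R) (Q : (ZMod R → X × ℕ) → X → Prop)
    (hQ : ∀ (g : ZMod R → Γ) (f : ZMod R → ℕ),
      MeasurableSet {x : X | Q (fun z => (g z • x, f z)) x})
    (hQ' : ∀ w x, Q w x → ∃ (p : ZMod R) (h : Γ), (w p).1 = h • x) :
    MeasurableSet {x : X | ∃ w, Can D K l w i ∧ Q w x} := by
  have : {x : X | ∃ w, Can D K l w i ∧ Q w x}
      = ⋃ (g : ZMod R → Γ) (f : ZMod R → ℕ), ({x : X | Can D K l (fun z => (g z • x, f z)) i} ∩
        {x : X | Q (fun z => (g z • x, f z)) x}) := by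
    ext x
    simp only [Set.mem_ofPred_eq, Set.mem_iUnion, Set.mem_inter_iff]
    constructor
    · rintro ⟨w, h1, h2⟩
      obtain ⟨p, h, hp⟩ := hQ' w x h2
      choose g hg using fun z => loop_orbit D h1.1 hp z
      have hw : w = fun z => (g z • x, (w z).2) := by
        funext z; exact Prod.ext (hg z) rfl
      refine ⟨g, fun z => (w z).2, ?_, ?_⟩
      · rw [← hw]; exact h1
      · rw [← hw]; exact h2
    · rintro ⟨g, f, h1, h2⟩
      exact ⟨_, h1, h2⟩
  rw [this]
  exact MeasurableSet.iUnion fun g => MeasurableSet.iUnion fun f =>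
    (m_can hm hfree D K l g f i).inter (hQ g f)

theorem m_pair_eq (g h : Γ) (a b : ℕ) :
    MeasurableSet {x : X | ((g • x, a) : X × ℕ) = (h • x, b)} := by
  by_cases hab : a = b
  · subst hab
    simpa using m_eq hfree g h
  · simp [hab]

theorem m_exv (K : PG D.ρ X ℕ) (l : XL) (i p : ZMod R) (h : Γ) (b : ℕ) :
    MeasurableSet {x : X | ∃ w, Can D K l w i ∧ w p = (h • x, b)} := by
  refine m_ex hm hfree D K l i (fun w x => w p = (h • x, b)) ?_ ?_
  · intro g f
    exact m_pair_eq hm hfree _ _ _ _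
  · intro w x hw
    exact ⟨p, h, by rw [hw]⟩

theorem m_mk (K : PG D.ρ X ℕ) (d : AL × Bool) (g h : Γ) (a b : ℕ) :
    MeasurableSet {x : X | Mk D K d (g • x, a) (h • x, b)} := by
  have : {x : X | Mk D K d (g • x, a) (h • x, b)}
      = (⋃ (l : XL) (i : ZMod R) (_ : d = D.r l i), {x : X | ∃ w, Can D K l w i ∧ w i = (g • x, a)}) ∪
        (⋃ (l : XL) (i : ZMod R) (_ : linv d = D.r l i),
          {x : X | ∃ w, Can D K l w i ∧ w i = (h • x, b)}) := by
    ext x
    simp only [Mk, Set.mem_ofPred_eq, Set.mem_iUnion, Set.mem_union, exists_prop]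
    constructor
    · rintro (⟨l, i, w, h1, h2, h3⟩ | ⟨l, i, w, h1, h2, h3⟩)
      · exact Or.inl ⟨l, i, h2, w, h1, h3⟩
      · exact Or.inr ⟨l, i, h2, w, h1, h3⟩
    · rintro (⟨l, i, h2, w, h1, h3⟩ | ⟨l, i, h2, w, h1, h3⟩)
      · exact Or.inl ⟨l, i, w, h1, h2, h3⟩
      · exact Or.inr ⟨l, i, w, h1, h2, h3⟩
  rw [this]
  refine MeasurableSet.union ?_ ?_
  · exact MeasurableSet.iUnion fun l => MeasurableSet.iUnion fun i => MeasurableSet.iUnion fun _ =>
      m_exv hm hfree D K l i i g a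
  · exact MeasurableSet.iUnion fun l => MeasurableSet.iUnion fun i => MeasurableSet.iUnion fun _ =>
      m_exv hm hfree D K l i i h b

theorem m_mk' (K : PG D.ρ X ℕ) (s : AL) (a b : ℕ) :
    MeasurableSet {x : X | Mk D K (s, true) (x, a) ((D.ρ s)⁻¹ • x, b)} := by
  have := m_mk hm hfree D K (s, true) 1 (D.ρ s)⁻¹ a b
  simpa using this

theorem m_typeA (K : PG D.ρ X ℕ) : MS (TypeA D K) := by
  rintro ⟨k, l⟩
  have : {x : X | (x, (k, l)) ∈ TypeA D K}
      = ⋃ i : ZMod R, {x : X | ∃ w, Can D K l w i ∧ w 0 = ((1 : Γ) • x, k)} := by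
    ext x
    rw [Set.mem_ofPred_eq, typeA_iff]
    simp only [Set.mem_iUnion, Set.mem_ofPred_eq, one_smul]
    exact exists_comm
  rw [this]
  exact MeasurableSet.iUnion fun i => m_exv hm hfree D K l i 0 1 k

theorem reroute_peel (K : PG D.ρ X ℕ) (hF : K.Folded) :
    Reroute K (K1 D K (m_mk' hm hfree D K)) R (Bq D K) where
  ho := rfl
  hV := rfl
  hE s e he := he.1
  ex d u v hs := by
    by_cases h : Mk D K d u v
    · rcases h with ⟨l, i, w, h1, h2, h3⟩ | ⟨l, i, w, h1, h2, h3⟩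
      · exact ⟨_, Or.inr (Or.inl ⟨l, i, ⟨w, h1, h3⟩, h2, rfl⟩)⟩
      · exact ⟨_, Or.inr (Or.inr ⟨l, i, ⟨w, h1, h3⟩, h2, rfl⟩)⟩
    · exact ⟨_, Or.inl ⟨h, rfl⟩⟩
  uniq d u v b b' hs hb hb' := by
    have hq1 := D.hq1
    -- same direction
    have same : ∀ (e : AL × Bool) (y : X × ℕ) (l l' : XL) (i i' : ZMod R),
        (∃ w, Can D K l w i ∧ w i = y) → (∃ w, Can D K l' w i' ∧ w i' = y) →
        e = D.r l i → e = D.r l' i' → l = l' ∧ i = i' := by
      rintro e y l l' i i' ⟨w, h1, h2⟩ ⟨w', h1', h2'⟩ he he'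
      obtain ⟨h3, h4, _⟩ := rigid1 D hF h1'.1 h1'.2.1 h1.1 (n := 0) (by omega) (p' := i)
        (by rw [← he, he']; simp) (by rw [h2, ← h2']; simp)
      exact ⟨h3, by simpa using h4⟩
    have opp : ∀ (l l' : XL) (i i' : ZMod R),
        (∃ w, Can D K l w i ∧ w i = u) → (∃ w, Can D K l' w i' ∧ w i' = v) →
        d = D.r l i → linv d = D.r l' i' → False := by
      rintro l l' i i' ⟨w, h1, h2⟩ ⟨w', h1', h2'⟩ he he'
      refine rigid2 D hF h1.1 h1.2.1 h1'.1 (n := 0) (by omega) (p' := i') ?_ ?_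
      · rw [← he', he]; simp
      · rw [h2']
        have h3 := h1.1 i
        rw [← he, h2] at h3
        simpa using hF _ _ _ _ hs h3
    rcases hb with ⟨h1, rfl⟩ | ⟨l, i, h1, h2, rfl⟩ | ⟨l, i, h1, h2, rfl⟩ <;>
    rcases hb' with ⟨h1', rfl⟩ | ⟨l', i', h1', h2', rfl⟩ | ⟨l', i', h1', h2', rfl⟩
    · rfl
    · obtain ⟨w, h3, h4⟩ := h1'
      exact absurd (Or.inl ⟨l', i', w, h3, h2', h4⟩) h1
    · obtain ⟨w, h3, h4⟩ := h1'
      exact absurd (Or.inr ⟨l', i', w, h3, h2', h4⟩) h1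
    · obtain ⟨w, h3, h4⟩ := h1
      exact absurd (Or.inl ⟨l, i, w, h3, h2, h4⟩) h1'
    · obtain ⟨rfl, rfl⟩ := same d u l l' i i' h1 h1' h2 h2'
      rfl
    · exact (opp l l' i i' h1 h1' h2 h2').elim
    · obtain ⟨w, h3, h4⟩ := h1
      exact absurd (Or.inr ⟨l, i, w, h3, h2, h4⟩) h1'
    · exact (opp l' l i' i h1' h1 h2' h2).elim
    · obtain ⟨rfl, rfl⟩ := same (linv d) v l l' i i' h1 h1' h2 h2'
      rfl
  path d u v b hs hb := by
    have hR : 0 < R := Nat.pos_of_ne_zero (NeZero.ne R)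
    rcases hb with ⟨h1, rfl⟩ | ⟨l, i, ⟨w, h1, h3⟩, h2, rfl⟩ | ⟨l, i, ⟨w, h1, h3⟩, h2, rfl⟩
    · refine ⟨?_, by rw [List.length_singleton]; omega⟩
      rw [path_single, k1_step]
      exact ⟨hs, h1⟩
    · refine ⟨?_, ?_⟩
      · rw [path_winv]
        have h4 := k1_rest' D K (m_mk' hm hfree D K) hF h1
        have h5 := h1.1 i
        rw [← h2, h3] at h5
        rw [h3, hF _ _ _ _ h5 hs] at h4
        exact h4
      · have : ∀ w : List (AL × Bool), (winv w).length = w.length := by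
          intro w; unfold winv; simp
        rw [this, rw_len]; omega
    · refine ⟨?_, ?_⟩
      · have h4 := k1_rest' D K (m_mk' hm hfree D K) hF h1
        have h5 := h1.1 i
        rw [← h2, h3] at h5
        have h6 := (step_linv K _ _ _).mpr hs
        rw [h3, hF _ _ _ _ h5 h6] at h4
        exact h4
      · rw [rw_len]; omega
  triv d u v hs := by
    rw [k1_step] at hs
    exact Or.inl ⟨hs.2, rfl⟩
  inv d u v b hb := by
    rcases hb with ⟨h1, rfl⟩ | ⟨l, i, h1, h2, rfl⟩ | ⟨l, i, h1, h2, rfl⟩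
    · refine Or.inl ⟨?_, rfl⟩
      rw [mk_linv]; exact h1
    · refine Or.inr (Or.inr ⟨l, i, h1, ?_, ?_⟩)
      · rw [linv_linv]; exact h2
      · rw [winv_winv]
    · exact Or.inr (Or.inl ⟨l, i, h1, h2, rfl⟩)
  meas d a k g b := by
    have : {x : X | Bq D K d (x, a) (g • x, k) b}
        = ({x : X | Mk D K d ((1 : Γ) • x, a) (g • x, k)}ᶜ ∩ {x : X | b = [d]}) ∪
          ((⋃ (l : XL) (i : ZMod R) (_ : d = D.r l i ∧ b = winv (rw D.r l (i + 1) (R - 1))),
            {x : X | ∃ w, Can D K l w i ∧ w i = ((1 : Γ) • x, a)}) ∪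
           (⋃ (l : XL) (i : ZMod R) (_ : linv d = D.r l i ∧ b = rw D.r l (i + 1) (R - 1)),
            {x : X | ∃ w, Can D K l w i ∧ w i = (g • x, k)})) := by
      ext x
      simp only [Bq, Set.mem_ofPred_eq, Set.mem_iUnion, Set.mem_union, Set.mem_inter_iff,
        Set.mem_compl_iff, exists_prop, one_smul]
      constructor
      · rintro (h | ⟨l, i, h1, h2⟩ | ⟨l, i, h1, h2⟩)
        · exact Or.inl h
        · exact Or.inr (Or.inl ⟨l, i, h2, h1⟩)
        · exact Or.inr (Or.inr ⟨l, i, h2, h1⟩)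
      · rintro (h | ⟨l, i, h2, h1⟩ | ⟨l, i, h2, h1⟩)
        · exact Or.inl h
        · exact Or.inr (Or.inl ⟨l, i, h1, h2⟩)
        · exact Or.inr (Or.inr ⟨l, i, h1, h2⟩)
    rw [this]
    refine MeasurableSet.union ?_ (MeasurableSet.union ?_ ?_)
    · exact (m_mk hm hfree D K d 1 g a k).compl.inter (MeasurableSet.const _)
    · exact MeasurableSet.iUnion fun l => MeasurableSet.iUnion fun i => MeasurableSet.iUnion fun _ =>
        m_exv hm hfree D K l i i 1 a
    · exact MeasurableSet.iUnion fun l => MeasurableSet.iUnion fun i => MeasurableSet.iUnion fun _ =>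
        m_exv hm hfree D K l i i g k

end meas

end Crest.Agent.CP.Peel
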