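import Crest.Agent.CPPath
import Crest.Agent.CPMass
import Crest.Agent.CPKernel

/-!
# Row 191: traversal numbers (for the relation inequality)
-/

set_option autoImplicit false

namespace Crest.Agent.CP
open MeasureTheory PG

section generic

theorem encard_le_of_image {α β : Type} (S : Set α) (π : α → β) (F : Finset β) (b : ℕ)
    (h1 : ∀ a ∈ S, π a ∈ F) (h2 : ∀ y ∈ F, {a | a ∈ S ∧ π a = y}.encard ≤ b) :
    S.encard ≤ (F.card * b : ℕ) := by
  classical
  induction F using Finset.induction_on generalizing S with
  | empty =>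
    have : S = ∅ := by
      ext a; constructor
      · intro ha; simpa using h1 a ha
      · intro ha; exact ha.elim
    rw [this]; simp
  | insert y F hy ih =>
    have hS : S = {a | a ∈ S ∧ π a = y} ∪ {a | a ∈ S ∧ π a ∈ F} := by
      ext a
      constructor
      · intro ha
        rcases Finset.mem_insert.1 (h1 a ha) with h | h
        · exact Or.inl ⟨ha, h⟩
        · exact Or.inr ⟨ha, h⟩
      · rintro (h | h)
        · exact h.1
        · exact h.1
    rw [hS]
    have h3 := ih {a | a ∈ S ∧ π a ∈ F} (fun a ha => ha.2) (fun z hz => by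
      refine le_trans (Set.encard_le_encard ?_) (h2 z (Finset.mem_insert_of_mem hz))
      rintro a ⟨⟨ha, -⟩, hz'⟩
      exact ⟨ha, hz'⟩)
    calc ({a | a ∈ S ∧ π a = y} ∪ {a | a ∈ S ∧ π a ∈ F}).encard
        ≤ {a | a ∈ S ∧ π a = y}.encard + {a | a ∈ S ∧ π a ∈ F}.encard := Set.encard_union_le _ _
      _ ≤ b + (F.card * b : ℕ) := add_le_add (h2 y (Finset.mem_insert_self _ _)) h3
      _ = ((insert y F).card * b : ℕ) := by
          rw [Finset.card_insert_of_notMem hy]
          push_cast
          ring

end generic

section trav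

variable {Γ X : Type} [Group Γ] [MeasurableSpace X] [MulAction Γ X]
variable {ρ : AL → Γ} (K : PG ρ X ℕ)

/-- edges -/
abbrev Edg (X : Type) := X × (AL × ℕ × ℕ)

/-- source of an edge -/
def esrc (e : Edg X) : X × ℕ := (e.1, e.2.2.1)

/-- target of an edge -/
def etgt (ρ : AL → Γ) (e : Edg X) : X × ℕ := ((ρ e.2.1)⁻¹ • e.1, e.2.2.2)

/-- start of the traversal of `e` in direction `d` -/
def stt (ρ : AL → Γ) (d : AL × Bool) (e : Edg X) : X × ℕ :=
  if d.2 = true then esrc e else etgt ρ e

theorem step_edge {e : Edg X} (he : e ∈ K.ES) : K.step (e.2.1, true) (esrc e) (etgt ρ e) := by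
  simp only [PG.step, if_true, esrc, etgt, true_and]
  exact he

theorem step_edge' {e : Edg X} (he : e ∈ K.ES) : K.step (e.2.1, false) (etgt ρ e) (esrc e) := by
  simp only [PG.step, Bool.false_eq_true, if_false, esrc, etgt, true_and]
  exact he

/-- the `d`-step after the path `a` from `u` traverses `e` -/
def Hit (a : List (AL × Bool)) (d : AL × Bool) (u : X × ℕ) (e : Edg X) : Prop :=
  e ∈ K.ES ∧ e.2.1 = d.1 ∧ K.Path a u (stt ρ d e)

variable {K}

theorem hit_unique_e (hF : K.Folded) {a : List (AL × Bool)} {d : AL × Bool} {u : X × ℕ}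
    {e e' : Edg X} (h : Hit K a d u e) (h' : Hit K a d u e') : e = e' := by
  obtain ⟨h1, h2, h3⟩ := h
  obtain ⟨h1', h2', h3'⟩ := h'
  have hs := path_unique K hF a u _ _ h3 h3'
  have hl : e.2.1 = e'.2.1 := h2.trans h2'.symm
  obtain ⟨s, b⟩ := d
  cases b
  · simp only [stt, Bool.false_eq_true, if_false] at hs
    have k1 := step_edge' K h1
    have k2 := step_edge' K h1'
    rw [← hl, ← hs] at k2
    have hsrc := hF _ _ _ _ k1 k2
    simp only [esrc, Prod.mk.injEq] at hsrc
    simp only [etgt, Prod.mk.injEq] at hs
    ext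
    · exact hsrc.1
    · rw [hl]
    · exact hsrc.2
    · exact hs.2
  · simp only [stt, if_true] at hs
    have k1 := step_edge K h1
    have k2 := step_edge K h1'
    rw [← hl, ← hs] at k2
    have htgt := hF _ _ _ _ k1 k2
    simp only [esrc, Prod.mk.injEq] at hs
    simp only [etgt, Prod.mk.injEq] at htgt
    ext
    · exact hs.1
    · rw [hl]
    · exact hs.2
    · exact htgt.2

theorem hit_unique_u (hF : K.Folded) {a : List (AL × Bool)} {d : AL × Bool} {u u' : X × ℕ}
    {e : Edg X} (h : Hit K a d u e) (h' : Hit K a d u' e) : u = u' :=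
  path_unique_src K hF a u u' _ h.2.2 h'.2.2

theorem hit_orbit {a : List (AL × Bool)} {d : AL × Bool} {u : X × ℕ}
    {e : Edg X} (h : Hit K a d u e) : ∃ g : Γ, e.1 = g • u.1 := by
  have h1 := path_pos K a _ _ h.2.2
  obtain ⟨s, b⟩ := d
  cases b
  · simp only [stt, Bool.false_eq_true, if_false, etgt] at h1
    refine ⟨ρ e.2.1 * (wval ρ a)⁻¹, ?_⟩
    rw [mul_smul, ← h1, smul_inv_smul]
  · simp only [stt, if_true, esrc] at h1
    exact ⟨_, h1⟩

variable (K) in
open Classical in
/-- signed number of traversals of `e` by the path with word `r.reverse` from `u` -/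
noncomputable def trR : List (AL × Bool) → X × ℕ → Edg X → ℝ
  | [], _, _ => 0
  | d :: r, u, e => trR r u e + (if Hit K r.reverse d u e then (if d.2 = true then 1 else -1) else 0)

theorem trR_abs_le (r : List (AL × Bool)) (u : X × ℕ) (e : Edg X) :
    |trR K r u e| ≤ r.length := by
  classical
  induction r with
  | nil => simp [trR]
  | cons d r ih =>
    simp only [trR]
    refine (abs_add_le _ _).trans ?_
    rw [List.length_cons, Nat.cast_succ]
    refine add_le_add ih ?_
    split_ifs <;> simp

theorem trR_supp (r : List (AL × Bool)) (u : X × ℕ) (e : Edg X) (h : trR K r u e ≠ 0) :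
    ∃ a d, Hit K a d u e := by
  classical
  induction r with
  | nil => exact absurd rfl h
  | cons d r ih =>
    by_cases hh : Hit K r.reverse d u e
    · exact ⟨_, _, hh⟩
    · apply ih
      simp only [trR, if_neg hh, add_zero] at h
      exact h

theorem trR_row (hF : K.Folded) (r : List (AL × Bool)) (u : X × ℕ) :
    {e | trR K r u e ≠ 0}.encard ≤ r.length := by
  classical
  induction r with
  | nil => simp [trR]
  | cons d r ih =>
    have h1 : {e | trR K (d :: r) u e ≠ 0} ⊆ {e | trR K r u e ≠ 0} ∪ {e | Hit K r.reverse d u e} := by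
      intro e he
      by_cases hh : Hit K r.reverse d u e
      · exact Or.inr hh
      · left
        simp only [Set.mem_ofPred_eq, trR, if_neg hh, add_zero] at he ⊢
        exact he
    refine (Set.encard_le_encard h1).trans ((Set.encard_union_le _ _).trans ?_)
    rw [List.length_cons]
    push_cast
    refine add_le_add ih ?_
    rw [Set.encard_le_one_iff]
    intro a b ha hb
    exact hit_unique_e hF ha hb

theorem trR_col (hF : K.Folded) (r : List (AL × Bool)) (e : Edg X) :
    {u | trR K r u e ≠ 0}.encard ≤ r.length := by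
  classical
  induction r with
  | nil => simp [trR]
  | cons d r ih =>
    have h1 : {u | trR K (d :: r) u e ≠ 0} ⊆ {u | trR K r u e ≠ 0} ∪ {u | Hit K r.reverse d u e} := by
      intro u he
      by_cases hh : Hit K r.reverse d u e
      · exact Or.inr hh
      · left
        simp only [Set.mem_ofPred_eq, trR, if_neg hh, add_zero] at he ⊢
        exact he
    refine (Set.encard_le_encard h1).trans ((Set.encard_union_le _ _).trans ?_)
    rw [List.length_cons]
    push_cast
    refine add_le_add ih ?_
    rw [Set.encard_le_one_iff]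
    intro a b ha hb
    exact hit_unique_u hF ha hb

/-- cochain of an edge function -/
noncomputable def coch (f : Edg X → ℝ) (s : AL) (p : X × ℕ) : ℝ := ∑ᶠ k, f (p.1, (s, p.2, k))

theorem coch_eq (hF : K.Folded) (f : Edg X → ℝ) (hf : ∀ e, f e ≠ 0 → e ∈ K.ES)
    {e : Edg X} (he : e ∈ K.ES) : coch f e.2.1 (esrc e) = f e := by
  rw [coch, finsum_eq_single _ e.2.2.2]
  · rfl
  · intro k hk
    by_contra h
    have h1 := hf _ h
    have k1 := step_edge K he
    have k2 := step_edge K h1
    have := hF _ _ _ _ k1 k2
    simp only [etgt, esrc, Prod.mk.injEq, true_and] at this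
    exact hk this.symm

theorem eof_of_step {d : AL × Bool} {u v : X × ℕ} (h : K.step d u v) :
    eof d u v ∈ K.ES ∧ (eof d u v).2.1 = d.1 ∧ stt ρ d (eof d u v) = u ∧
      (d.2 = true → esrc (eof d u v) = u) ∧ (d.2 = false → esrc (eof d u v) = v) := by
  obtain ⟨s, b⟩ := d
  cases b
  · simp only [PG.step, Bool.false_eq_true, if_false] at h
    simp only [eof, Bool.false_eq_true, if_false, ES, Set.mem_ofPred_eq, stt, etgt, esrc,
      false_implies, true_and, true_implies, and_true]
    exact ⟨h.2, by rw [← h.1]⟩
  · simp only [PG.step, if_true] at h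
    simp only [eof, if_true, ES, Set.mem_ofPred_eq, stt, esrc]
    refine ⟨h.2, trivial, trivial, fun _ => trivial, fun h => ?_⟩
    simp at h

/-- path sums are given by traversal numbers -/
theorem ps_eq_trR (hF : K.Folded) (f : Edg X → ℝ) (hf : ∀ e, f e ≠ 0 → e ∈ K.ES)
    (r : List (AL × Bool)) (u v : X × ℕ) (t : ℝ) (h : K.PS (coch f) r.reverse u v t) :
    t = ∑ᶠ e, trR K r u e * f e := by
  classical
  induction r generalizing v t with
  | nil =>
    obtain ⟨-, -, rfl⟩ := h
    simp [trR]
  | cons d r ih =>
    rw [List.reverse_cons, ps_append] at h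
    obtain ⟨w, t1, t2, h1, h2, rfl⟩ := h
    rw [ps_single] at h2
    obtain ⟨hst, ht2⟩ := h2
    have h3 := ih w t1 h1
    obtain ⟨e1, e2, e3, e4, e5⟩ := eof_of_step hst
    set e0 := eof d w v with he0
    have hhit : Hit K r.reverse d u e0 := ⟨e1, e2, by rw [e3]; exact ps_path K _ _ _ _ _ h1⟩
    have hhit' : ∀ e, Hit K r.reverse d u e ↔ e = e0 := by
      intro e
      constructor
      · intro h; exact hit_unique_e hF h hhit
      · rintro rfl; exact hhit
    have h4 : ∀ e, trR K (d :: r) u e * f e = trR K r u e * f e
        + (if e = e0 then (if d.2 = true then (1 : ℝ) else -1) else 0) * f e := by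
      intro e
      simp only [trR, hhit', add_mul]
    have hfin1 : (Function.support fun e => trR K r u e * f e).Finite := by
      obtain ⟨hfin, -⟩ := Set.encard_le_coe_iff_finite_ncard_le.1 (trR_row hF r u)
      exact hfin.subset fun e he => left_ne_zero_of_mul he
    have hfin2 : (Function.support fun e =>
        (if e = e0 then (if d.2 = true then (1 : ℝ) else -1) else 0) * f e).Finite := by
      refine (Set.finite_singleton e0).subset fun e he => ?_
      by_contra hne
      apply he
      simp only [Set.mem_singleton_iff] at hne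
      simp [hne]
    rw [finsum_congr h4, finsum_add_distrib hfin1 hfin2, ← h3]
    congr 1
    rw [finsum_eq_single _ e0]
    · rw [if_pos rfl, ht2]
      obtain ⟨s, b⟩ := d
      cases b
      · simp only [Bool.false_eq_true, if_false]
        have := coch_eq hF f hf e1
        rw [e2, e5 rfl] at this
        simp only at this
        rw [this]; ring
      · simp only [if_true]
        have := coch_eq hF f hf e1
        rw [e2, e4 rfl] at this
        simp only at this
        rw [this]; ring
    · intro e he
      rw [if_neg he, zero_mul]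

end trav

end Crest.Agent.CP
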