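import Crest.Agent.CPRIA

/-!
# Row 191: the matrix of the relation inequality
-/

set_option autoImplicit false

namespace Crest.Agent.CP
open MeasureTheory PG

section bdry

variable {Γ X : Type} [Group Γ] [MeasurableSpace X] [MulAction Γ X]
variable {ρ : AL → Γ} (K : PG ρ X ℕ)

open Classical in
/-- boundary matrix -/
noncomputable def Dm (v : X × ℕ) (e : Edg X) : ℝ :=
  (if e ∈ K.ES ∧ esrc e = v then 1 else 0) - (if e ∈ K.ES ∧ etgt ρ e = v then 1 else 0)

variable {K}

theorem Dm_abs_le (v : X × ℕ) (e : Edg X) : |Dm K v e| ≤ 2 := by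
  classical
  unfold Dm
  split_ifs <;> norm_num

theorem Dm_supp {v : X × ℕ} {e : Edg X} (h : Dm K v e ≠ 0) :
    e ∈ K.ES ∧ (esrc e = v ∨ etgt ρ e = v) := by
  classical
  by_contra hc
  apply h
  unfold Dm
  rw [if_neg, if_neg, sub_zero]
  · rintro ⟨h1, h2⟩; exact hc ⟨h1, Or.inr h2⟩
  · rintro ⟨h1, h2⟩; exact hc ⟨h1, Or.inl h2⟩

theorem Dm_mem {v : X × ℕ} {e : Edg X} (h : Dm K v e ≠ 0) : v ∈ K.V := by
  obtain ⟨h1, h2 | h2⟩ := Dm_supp h
  · rw [← h2]; exact step_src K (step_edge K h1)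
  · rw [← h2]; exact step_tgt K (step_edge K h1)

theorem Dm_orbit {v : X × ℕ} {e : Edg X} (h : Dm K v e ≠ 0) : ∃ g : Γ, e.1 = g • v.1 := by
  obtain ⟨h1, h2 | h2⟩ := Dm_supp h
  · exact ⟨1, by rw [← h2, one_smul]; rfl⟩
  · exact ⟨ρ e.2.1, by rw [← h2]; simp [etgt]⟩

theorem Dm_col (e : Edg X) : {v | Dm K v e ≠ 0}.encard ≤ 2 := by
  have h : {v | Dm K v e ≠ 0} ⊆ {esrc e, etgt ρ e} := by
    intro v hv
    obtain ⟨-, h2 | h2⟩ := Dm_supp hv
    · exact Or.inl h2.symm
    · exact Or.inr h2.symm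
  refine (Set.encard_le_encard h).trans ((Set.encard_insert_le _ _).trans ?_)
  rw [Set.encard_singleton]
  norm_num

theorem Dm_row (hF : K.Folded) (v : X × ℕ) :
    {e | Dm K v e ≠ 0}.encard ≤ ((Fintype.card AL * 1 + Fintype.card AL * 1 : ℕ) : ℕ∞) := by
  classical
  have h : {e | Dm K v e ≠ 0} ⊆ {e | e ∈ K.ES ∧ esrc e = v} ∪ {e | e ∈ K.ES ∧ etgt ρ e = v} := by
    intro e he
    obtain ⟨h1, h2 | h2⟩ := Dm_supp he
    · exact Or.inl ⟨h1, h2⟩
    · exact Or.inr ⟨h1, h2⟩
  refine (Set.encard_le_encard h).trans ((Set.encard_union_le _ _).trans ?_)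
  rw [Nat.cast_add]
  refine add_le_add ?_ ?_
  · refine encard_le_of_image _ (fun e : Edg X => e.2.1) Finset.univ 1 (by simp) ?_
    intro s _
    rw [Nat.cast_one, Set.encard_le_one_iff]
    rintro e e' ⟨⟨h1, h2⟩, h3⟩ ⟨⟨h1', h2'⟩, h3'⟩
    have : Hit K [] (s, true) v e := ⟨h1, h3, by
      simp only [stt, if_true]; rw [h2]; exact ⟨h2 ▸ step_src K (step_edge K h1), rfl⟩⟩
    have h' : Hit K [] (s, true) v e' := ⟨h1', h3', by
      simp only [stt, if_true]; rw [h2']; exact ⟨h2' ▸ step_src K (step_edge K h1'), rfl⟩⟩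
    exact hit_unique_e hF this h'
  · refine encard_le_of_image _ (fun e : Edg X => e.2.1) Finset.univ 1 (by simp) ?_
    intro s _
    rw [Nat.cast_one, Set.encard_le_one_iff]
    rintro e e' ⟨⟨h1, h2⟩, h3⟩ ⟨⟨h1', h2'⟩, h3'⟩
    have : Hit K [] (s, false) v e := ⟨h1, h3, by
      simp only [stt, Bool.false_eq_true, if_false]; rw [h2]
      exact ⟨h2 ▸ step_tgt K (step_edge K h1), rfl⟩⟩
    have h' : Hit K [] (s, false) v e' := ⟨h1', h3', by
      simp only [stt, Bool.false_eq_true, if_false]; rw [h2']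
      exact ⟨h2' ▸ step_tgt K (step_edge K h1'), rfl⟩⟩
    exact hit_unique_e hF this h'

/-- coboundary of `G` -/
theorem Dm_adj (G : X × ℕ → ℝ) {e : Edg X} (he : e ∈ K.ES) :
    ∑ᶠ v, Dm K v e * G v = G (esrc e) - G (etgt ρ e) := by
  classical
  have h1 : ∀ v, Dm K v e * G v = (if v = esrc e then G (esrc e) else 0)
      + (if v = etgt ρ e then - G (etgt ρ e) else 0) := by
    intro v
    unfold Dm
    by_cases h1 : v = esrc e
    · by_cases h2 : v = etgt ρ e
      · rw [if_pos ⟨he, h1.symm⟩, if_pos ⟨he, h2.symm⟩, if_pos h1, if_pos h2, ← h1, ← h2]; ring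
      · rw [if_pos ⟨he, h1.symm⟩, if_neg (fun h => h2 h.2.symm), if_pos h1, if_neg h2, ← h1]; ring
    · by_cases h2 : v = etgt ρ e
      · rw [if_neg (fun h => h1 h.2.symm), if_pos ⟨he, h2.symm⟩, if_neg h1, if_pos h2, ← h2]; ring
      · rw [if_neg (fun h => h1 h.2.symm), if_neg (fun h => h2 h.2.symm), if_neg h1, if_neg h2]
        ring
  rw [finsum_congr h1, finsum_add_distrib]
  · rw [finsum_eq_single _ (esrc e) (fun v hv => if_neg hv),
      finsum_eq_single _ (etgt ρ e) (fun v hv => if_neg hv), if_pos rfl, if_pos rfl]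
    ring
  · refine (Set.finite_singleton (esrc e)).subset fun v hv => ?_
    by_contra hne
    exact hv (if_neg hne)
  · refine (Set.finite_singleton (etgt ρ e)).subset fun v hv => ?_
    by_contra hne
    exact hv (if_neg hne)

end bdry

section meas
variable {Γ X : Type} [Group Γ] [MeasurableSpace X] [MulAction Γ X]
variable {ρ : AL → Γ} {K : PG ρ X ℕ}

theorem smul_inj_of_free (hfree : ∀ (g : Γ) (x : X), g • x = x → g = 1) {g h : Γ} {x : X}
    (e : g • x = h • x) : g = h := by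
  have := hfree (h⁻¹ * g) x (by rw [mul_smul, e, inv_smul_smul])
  rw [inv_mul_eq_one] at this
  exact this.symm

theorem ri_path_meas (hm : ∀ g : Γ, Measurable (fun x : X => g • x))
    (hfree : ∀ (g : Γ) (x : X), g • x = x → g = 1)
    (a : List (AL × Bool)) (i k : ℕ) (h : Γ) :
    MeasurableSet {x | K.Path a (x, i) (h • x, k)} := by
  by_cases hh : h = (wval ρ a)⁻¹
  · rw [hh]; exact path_meas hm K a i k
  · have : {x | K.Path a (x, i) (h • x, k)} = ∅ := by
      ext x
      simp only [Set.mem_ofPred_eq, Set.mem_empty_iff_false, iff_false]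
      intro hp
      have := path_pos K a _ _ hp
      exact hh (smul_inj_of_free hfree this)
    rw [this]; exact MeasurableSet.empty

theorem ES_meas' (hm : ∀ g : Γ, Measurable (fun x : X => g • x)) (g : Γ) (i : AL × ℕ × ℕ) :
    MeasurableSet {x | ((g • x, i) : Edg X) ∈ K.ES} :=
  hm g (K.mE i.1 i.2)

theorem hit_meas (hm : ∀ g : Γ, Measurable (fun x : X => g • x))
    (hfree : ∀ (g : Γ) (x : X), g • x = x → g = 1)
    (a : List (AL × Bool)) (d : AL × Bool) (i : ℕ) (g : Γ) (k : AL × ℕ × ℕ) :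
    MeasurableSet {x | Hit K a d (x, i) (g • x, k)} := by
  have h1 : {x | Hit K a d (x, i) (g • x, k)} = {x | ((g • x, k) : Edg X) ∈ K.ES} ∩
      ({x | k.1 = d.1} ∩ {x | K.Path a (x, i) (stt ρ d (g • x, k))}) := by
    ext x; rfl
  rw [h1]
  refine (ES_meas' hm g k).inter ((MeasurableSet.const _).inter ?_)
  obtain ⟨s, b⟩ := d
  cases b
  · have : {x : X | K.Path a (x, i) (stt ρ (s, false) (g • x, k))}
        = {x | K.Path a (x, i) (((ρ k.1)⁻¹ * g) • x, k.2.2)} := by
      ext x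
      simp only [stt, Bool.false_eq_true, if_false, etgt, mul_smul, Set.mem_ofPred_eq]
    rw [this]
    exact ri_path_meas hm hfree a i _ _
  · have : {x : X | K.Path a (x, i) (stt ρ (s, true) (g • x, k))}
        = {x | K.Path a (x, i) (g • x, k.2.1)} := by
      ext x
      simp only [stt, if_true, esrc, Set.mem_ofPred_eq]
    rw [this]
    exact ri_path_meas hm hfree a i _ _

theorem trR_meas (hm : ∀ g : Γ, Measurable (fun x : X => g • x))
    (hfree : ∀ (g : Γ) (x : X), g • x = x → g = 1)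
    (r : List (AL × Bool)) (i : ℕ) (g : Γ) (k : AL × ℕ × ℕ) :
    Measurable fun x => trR K r (x, i) (g • x, k) := by
  classical
  induction r with
  | nil => simp only [trR]; exact measurable_const
  | cons d r ih =>
    simp only [trR]
    exact ih.add (Measurable.ite (hit_meas hm hfree _ d i g k) measurable_const measurable_const)

theorem Dm_meas (hm : ∀ g : Γ, Measurable (fun x : X => g • x))
    (hfree : ∀ (g : Γ) (x : X), g • x = x → g = 1) (i : ℕ) (g : Γ) (k : AL × ℕ × ℕ) :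
    Measurable fun x => Dm K (x, i) (g • x, k) := by
  classical
  unfold Dm
  refine (Measurable.ite ?_ measurable_const measurable_const).sub
    (Measurable.ite ?_ measurable_const measurable_const)
  · have : {x : X | ((g • x, k) : Edg X) ∈ K.ES ∧ esrc ((g • x, k) : Edg X) = (x, i)}
        = {x | ((g • x, k) : Edg X) ∈ K.ES} ∩ {x | g = 1 ∧ k.2.1 = i} := by
      ext x
      simp only [Set.mem_ofPred_eq, Set.mem_inter_iff, esrc, Prod.mk.injEq]
      constructor
      · rintro ⟨h1, h2, h3⟩; exact ⟨h1, hfree g x h2, h3⟩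
      · rintro ⟨h1, rfl, h3⟩; exact ⟨h1, one_smul _ _, h3⟩
    rw [this]
    exact (ES_meas' hm g k).inter (MeasurableSet.const _)
  · have : {x : X | ((g • x, k) : Edg X) ∈ K.ES ∧ etgt ρ ((g • x, k) : Edg X) = (x, i)}
        = {x | ((g • x, k) : Edg X) ∈ K.ES} ∩ {x | (ρ k.1)⁻¹ * g = 1 ∧ k.2.2 = i} := by
      ext x
      simp only [Set.mem_ofPred_eq, Set.mem_inter_iff, etgt, Prod.mk.injEq]
      constructor
      · rintro ⟨h1, h2, h3⟩; exact ⟨h1, hfree _ x (by rw [mul_smul]; exact h2), h3⟩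
      · rintro ⟨h1, h2, h3⟩; exact ⟨h1, by rw [← mul_smul, h2, one_smul], h3⟩
    rw [this]
    exact (ES_meas' hm g k).inter (MeasurableSet.const _)

end meas

end Crest.Agent.CP
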