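import Crest.Agent.CPMain
import Crest.Agent.CPInit
import Crest.Prelude.Def_Cost

/-!
# Row 191: lower bound for the cost of the expensive action (reduction to a conull invariant set)
-/

set_option autoImplicit false

namespace Crest.Agent.CP
open MeasureTheory PG

variable {Γ X : Type} [Group Γ] [Countable Γ] [MeasurableSpace X] [MulAction Γ X]
  {μ : Measure X} [IsProbabilityMeasure μ]
  (hmp : ∀ g : Γ, MeasurePreserving (fun x : X => g • x) μ μ)
  (hfree : ∀ (g : Γ) (x : X), g • x = x → g = 1)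
  {j R q : ℕ} [NeZero R] (D : RelData j R q Γ)

/-- the invariant part of the complement of `N` -/
def goodPart (Γ : Type) {X : Type} [Group Γ] [MulAction Γ X] (N : Set X) : Set X :=
  {x | ∀ g : Γ, g • x ∉ N}

/-- the action on the good part -/
instance goodPartAction (N : Set X) : MulAction Γ (goodPart Γ N) where
  smul g x := ⟨g • x.1, fun h => by rw [← mul_smul]; exact x.2 (h * g)⟩
  one_smul x := Subtype.ext (one_smul Γ x.1)
  mul_smul g h x := Subtype.ext (mul_smul g h x.1)

omit [Countable Γ] [MeasurableSpace X] in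
theorem goodPart_smul_val (N : Set X) (g : Γ) (x : goodPart Γ N) : (g • x).1 = g • x.1 := rfl

include hmp in
theorem goodPart_meas (N : Set X) (hN : MeasurableSet N) : MeasurableSet (goodPart Γ N) := by
  have : goodPart Γ N = ⋂ g : Γ, (fun x : X => g • x) ⁻¹' Nᶜ := by
    ext x; simp [goodPart]
  rw [this]
  exact MeasurableSet.iInter fun g => (hmp g).measurable hN.compl

include hmp in
theorem goodPart_full (N : Set X) (hN : MeasurableSet N) (h0 : μ N = 0) :
    μ (goodPart Γ N)ᶜ = 0 := by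
  have : (goodPart Γ N)ᶜ = ⋃ g : Γ, (fun x : X => g • x) ⁻¹' N := by
    ext x; simp [goodPart]
  rw [this]
  refine measure_iUnion_null fun g => ?_
  rw [(hmp g).measure_preimage hN.nullMeasurableSet, h0]

include hmp hfree in
theorem cost_lower (hj : 100 * (101 * (63 ^ j * (4 + 24 * q))) * 1000 ≤ 100 ^ j)
    (hG : Gap μ (fun i => (D.ρ (some (some i)))⁻¹))
    (htiny : ∀ β : ENNReal, 0 < β → ∃ (N : ℕ) (f : X → Fin N), Measurable f ∧ ∀ k, μ (f ⁻¹' {k}) ≤ β)
    (Φ : ℕ → Γ × Set X) (hΦ : Crest.Dynamics.Generates μ Φ) :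
    1 + 1 / 1000 ≤ Crest.Dynamics.graphingCost μ Φ := by
  by_contra hlt
  push Not at hlt
  obtain ⟨hmeas, N0, hN0, hgen⟩ := hΦ
  set N := toMeasurable μ N0 with hNdef
  have hN : MeasurableSet N := measurableSet_toMeasurable _ _
  have hN' : μ N = 0 := by rw [hNdef, measure_toMeasurable, hN0]
  have hgm := goodPart_meas (Γ := Γ) hmp N hN
  have hgf := goodPart_full (Γ := Γ) hmp N hN hN'
  set Y := goodPart Γ N with hY
  let ν : Measure Y := μ.comap Subtype.val
  have hν : ∀ S : Set X, MeasurableSet S → ν (Subtype.val ⁻¹' S) = μ S := by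
    intro S hS
    show (μ.comap Subtype.val) _ = _
    rw [comap_subtype_coe_apply hgm]
    rw [Subtype.image_preimage_coe]
    have : μ S = μ (Y ∩ S) + μ (Yᶜ ∩ S) := by
      rw [← measure_inter_add_diff S hgm]
      congr 1
      · rw [Set.inter_comm]
      · rw [Set.diff_eq, Set.inter_comm]
    rw [this, measure_mono_null Set.inter_subset_left hgf, add_zero]
  have hνS : ∀ S : Set Y, MeasurableSet S → ∃ S' : Set X, MeasurableSet S' ∧
      S = Subtype.val ⁻¹' S' := by
    intro S hS
    obtain ⟨S', h1, h2⟩ := hS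
    exact ⟨S', h1, h2.symm⟩
  haveI : IsProbabilityMeasure ν := ⟨by
    have := hν Set.univ MeasurableSet.univ
    rw [Set.preimage_univ] at this
    rw [this]; simp⟩
  have hmp' : ∀ g : Γ, MeasurePreserving (fun x : Y => g • x) ν ν := by
    intro g
    refine ⟨?_, ?_⟩
    · exact Measurable.subtype_mk ((hmp g).measurable.comp measurable_subtype_coe)
    · ext S hS
      have hm : Measurable (fun x : Y => g • x) :=
        Measurable.subtype_mk ((hmp g).measurable.comp measurable_subtype_coe)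
      rw [Measure.map_apply hm hS]
      obtain ⟨S', h1, rfl⟩ := hνS S hS
      have : (fun x : Y => g • x) ⁻¹' (Subtype.val ⁻¹' S') =
          Subtype.val ⁻¹' ((fun x : X => g • x) ⁻¹' S') := rfl
      rw [this, hν _ ((hmp g).measurable h1), hν _ h1,
        (hmp g).measure_preimage h1.nullMeasurableSet]
  have hfree' : ∀ (g : Γ) (x : Y), g • x = x → g = 1 := by
    intro g x h
    exact hfree g x.1 (congrArg Subtype.val h)
  have hG' : Gap ν (fun i => (D.ρ (some (some i)))⁻¹) := by
    intro S S' hS hS'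
    obtain ⟨T, hT, rfl⟩ := hνS S hS
    obtain ⟨T', hT', rfl⟩ := hνS S' hS'
    have h := hG T T' hT hT'
    rw [hν T hT, hν T' hT']
    refine le_trans (le_of_eq ?_) h
    refine Finset.sum_congr rfl fun i _ => ?_
    congr 1
    have : (Subtype.val ⁻¹' T ∩ {y : Y | (D.ρ (some (some i)))⁻¹ • y ∈ (Subtype.val ⁻¹' T' : Set Y)})
        = Subtype.val ⁻¹' (T ∩ {y | (D.ρ (some (some i)))⁻¹ • y ∈ T'}) := rfl
    rw [this, hν]
    exact hT.inter ((hmp _).measurable hT')
  have htiny' : ∀ β : ENNReal, 0 < β → ∃ (N : ℕ) (f : Y → Fin N), Measurable f ∧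
      ∀ k, ν (f ⁻¹' {k}) ≤ β := by
    intro β hβ
    obtain ⟨n, f, h1, h2⟩ := htiny β hβ
    refine ⟨n, fun y => f y.1, h1.comp measurable_subtype_coe, fun k => ?_⟩
    have : (fun y : Y => f y.1) ⁻¹' {k} = Subtype.val ⁻¹' (f ⁻¹' {k}) := rfl
    rw [this, hν _ (h1 (measurableSet_singleton _))]
    exact h2 k
  let Φ' : ℕ → Γ × Set Y := fun i => ((Φ i).1, Subtype.val ⁻¹' (Φ i).2)
  have hcost : Crest.Dynamics.graphingCost ν Φ' < 1 + 1 / 1000 := by
    have : Crest.Dynamics.graphingCost ν Φ' = Crest.Dynamics.graphingCost μ Φ := by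
      unfold Crest.Dynamics.graphingCost
      exact tsum_congr fun i => hν _ (hmeas i)
    rw [this]; exact hlt
  have hstep : ∀ x y : X, Relation.EqvGen (Crest.Dynamics.GraphingStep Φ) x y →
      ∀ (hx : x ∈ Y) (hy : y ∈ Y),
      Relation.EqvGen (Crest.Dynamics.GraphingStep Φ') (⟨x, hx⟩ : Y) ⟨y, hy⟩ := by
    have hinv : ∀ x y : X, Relation.EqvGen (Crest.Dynamics.GraphingStep Φ) x y →
        ∃ g : Γ, y = g • x := by
      intro x y h
      induction h with
      | rel x y h => obtain ⟨i, _, h2⟩ := h; exact ⟨_, h2⟩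
      | refl x => exact ⟨1, (one_smul _ _).symm⟩
      | symm x y _ ih => obtain ⟨g, h⟩ := ih; exact ⟨g⁻¹, by rw [h, inv_smul_smul]⟩
      | trans x y z _ _ ih1 ih2 =>
        obtain ⟨g, h⟩ := ih1; obtain ⟨g', h'⟩ := ih2
        exact ⟨g' * g, by rw [h', h, mul_smul]⟩
    intro x y h
    induction h with
    | rel x y h =>
      intro hx hy
      obtain ⟨i, h1, h2⟩ := h
      exact Relation.EqvGen.rel _ _ ⟨i, h1, Subtype.ext h2⟩
    | refl x => intro hx hy; exact Relation.EqvGen.refl _
    | symm x y _ ih => intro hx hy; exact Relation.EqvGen.symm _ _ (ih hy hx)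
    | trans x y z hxy _ ih1 ih2 =>
      intro hx hz
      obtain ⟨g, hg⟩ := hinv x y hxy
      have hy : y ∈ Y := by
        rw [hg]
        exact (g • (⟨x, hx⟩ : Y)).2
      exact Relation.EqvGen.trans _ _ _ (ih1 hx hy) (ih2 hy hz)
  have hgen' : ∀ (x : Y) (g : Γ), Relation.EqvGen (Crest.Dynamics.GraphingStep Φ') x (g • x) := by
    intro x g
    have hx : x.1 ∉ N0 := by
      intro h
      have : x.1 ∈ N := subset_toMeasurable μ N0 h
      apply x.2 1
      rw [one_smul]; exact this
    exact hstep _ _ (hgen x.1 hx g) x.2 (g • x).2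
  obtain ⟨K, P, hK, hP⟩ := init_graph hmp' hfree' D Φ'
    (fun i => measurable_subtype_coe (hmeas i)) hgen' hcost
  exact main_contradiction hmp' hfree' D hj hG' htiny' K P hK hP

end Crest.Agent.CP
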