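import Crest.Prelude.Def_Diamond
import Crest.Agent.AUCLemma

set_option autoImplicit false

/-!
Diamond graphs and the maximum-based midpoint modulus (row 125, S0166).
-/

namespace Crest.Agent.DiamondLemma

open Crest.AnalysisR Crest.Agent.AUCLemma

/-! ### Graph part -/

theorem adj_zero (u v : DiamondVertex 0) (h : u ≠ v) : (diamondGraph 0).Adj u v := by
  rw [diamondGraph, SimpleGraph.fromRel_adj]
  refine ⟨h, ?_⟩
  change Bool at u v
  change u ≠ v at h
  cases u <;> cases v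
  · exact absurd rfl h
  · exact Or.inl ⟨(), rfl, rfl⟩
  · exact Or.inr ⟨(), rfl, rfl⟩
  · exact absurd rfl h

theorem adj_src_mid (k : ℕ) (e : DiamondEdge k) (i : ℕ) :
    (diamondGraph (k + 1)).Adj (Sum.inl (diamondSrc k e)) (Sum.inr (e, i)) := by
  rw [diamondGraph, SimpleGraph.fromRel_adj]
  exact ⟨by simp, Or.inl ⟨(e, i, false), rfl, rfl⟩⟩

theorem adj_mid_tgt (k : ℕ) (e : DiamondEdge k) (i : ℕ) :
    (diamondGraph (k + 1)).Adj (Sum.inr (e, i)) (Sum.inl (diamondTgt k e)) := by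
  rw [diamondGraph, SimpleGraph.fromRel_adj]
  exact ⟨by simp, Or.inl ⟨(e, i, true), rfl, rfl⟩⟩

theorem reach (k : ℕ) : ∀ u v : DiamondVertex k, (diamondGraph k).Reachable u v := by
  induction k with
  | zero =>
    intro u v
    by_cases h : u = v
    · rw [h]
    · exact (adj_zero u v h).reachable
  | succ k ih =>
    have h1 : ∀ u v : DiamondVertex k, (diamondGraph k).Adj u v →
        (diamondGraph (k + 1)).Reachable (Sum.inl u) (Sum.inl v) := by
      intro u v h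
      rw [diamondGraph, SimpleGraph.fromRel_adj] at h
      rcases h.2 with ⟨e, rfl, rfl⟩ | ⟨e, rfl, rfl⟩
      · exact (adj_src_mid k e 0).reachable.trans (adj_mid_tgt k e 0).reachable
      · exact ((adj_src_mid k e 0).reachable.trans (adj_mid_tgt k e 0).reachable).symm
    have h2 : ∀ u v : DiamondVertex k,
        (diamondGraph (k + 1)).Reachable (Sum.inl u) (Sum.inl v) := by
      intro u v
      obtain ⟨w⟩ := ih u v
      induction w with
      | nil => exact SimpleGraph.Reachable.refl _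
      | cons h _ ihw => exact (h1 _ _ h).trans ihw
    have h3 : ∀ a : DiamondVertex (k + 1), ∃ u : DiamondVertex k,
        (diamondGraph (k + 1)).Reachable a (Sum.inl u) := by
      intro a
      rcases a with u | ⟨e, i⟩
      · exact ⟨u, SimpleGraph.Reachable.refl _⟩
      · exact ⟨_, (adj_mid_tgt k e i).reachable⟩
    intro a b
    obtain ⟨u, hu⟩ := h3 a
    obtain ⟨v, hv⟩ := h3 b
    exact (hu.trans (h2 u v)).trans hv.symm

theorem walk_lip {V : Type*} {G : SimpleGraph V} (Φ : V → ℕ)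
    (h : ∀ a b, G.Adj a b → Φ b ≤ Φ a + 1) {a b : V} (w : G.Walk a b) :
    Φ b ≤ Φ a + w.length := by
  induction w with
  | nil => simp
  | cons hadj _ ih =>
    rw [SimpleGraph.Walk.length_cons]
    have := h _ _ hadj
    omega

theorem dist_le_add_one {k : ℕ} (u : DiamondVertex k) {a b : DiamondVertex k}
    (h : (diamondGraph k).Adj a b) : diamondDist k u b ≤ diamondDist k u a + 1 := by
  obtain ⟨w, hw⟩ := (reach k u a).exists_walk_length_eq_dist
  have := SimpleGraph.dist_le (w.append (SimpleGraph.Walk.cons h SimpleGraph.Walk.nil))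
  rw [SimpleGraph.Walk.length_append] at this
  simp only [SimpleGraph.Walk.length_cons, SimpleGraph.Walk.length_nil] at this
  unfold diamondDist
  omega

theorem dist_src_tgt {k : ℕ} (u : DiamondVertex k) (e : DiamondEdge k) :
    diamondDist k u (diamondTgt k e) ≤ diamondDist k u (diamondSrc k e) + 1 ∧
    diamondDist k u (diamondSrc k e) ≤ diamondDist k u (diamondTgt k e) + 1 := by
  by_cases h : diamondSrc k e = diamondTgt k e
  · rw [h]; omega
  · have hadj : (diamondGraph k).Adj (diamondSrc k e) (diamondTgt k e) := by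
      rw [diamondGraph, SimpleGraph.fromRel_adj]
      exact ⟨h, Or.inl ⟨e, rfl, rfl⟩⟩
    exact ⟨dist_le_add_one u hadj, dist_le_add_one u hadj.symm⟩

theorem two_mul_dist_le (k : ℕ) (u v : DiamondVertex k) :
    2 * diamondDist k u v ≤ diamondDist (k + 1) (Sum.inl u) (Sum.inl v) := by
  obtain ⟨w, hw⟩ := (reach (k + 1) (Sum.inl u) (Sum.inl v)).exists_walk_length_eq_dist
  let Φ : DiamondVertex (k + 1) → ℕ := fun a => match a with
    | Sum.inl w => 2 * diamondDist k u w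
    | Sum.inr (e, _) => diamondDist k u (diamondSrc k e) + diamondDist k u (diamondTgt k e)
  have hΦ : ∀ a b, (diamondGraph (k + 1)).Adj a b → Φ b ≤ Φ a + 1 := by
    intro a b h
    rw [diamondGraph, SimpleGraph.fromRel_adj] at h
    rcases h.2 with ⟨⟨e, i, c⟩, rfl, rfl⟩ | ⟨⟨e, i, c⟩, rfl, rfl⟩
    · have := dist_src_tgt u e
      cases c
      · change diamondDist k u (diamondSrc k e) + diamondDist k u (diamondTgt k e) ≤
          2 * diamondDist k u (diamondSrc k e) + 1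
        omega
      · change 2 * diamondDist k u (diamondTgt k e) ≤
          diamondDist k u (diamondSrc k e) + diamondDist k u (diamondTgt k e) + 1
        omega
    · have := dist_src_tgt u e
      cases c
      · change 2 * diamondDist k u (diamondSrc k e) ≤
          diamondDist k u (diamondSrc k e) + diamondDist k u (diamondTgt k e) + 1
        omega
      · change diamondDist k u (diamondSrc k e) + diamondDist k u (diamondTgt k e) ≤
          2 * diamondDist k u (diamondTgt k e) + 1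
        omega
  have h := walk_lip Φ hΦ w
  have h0 : Φ (Sum.inl u) = 0 := by
    change 2 * diamondDist k u u = 0
    simp [diamondDist]
  have h1 : Φ (Sum.inl v) = 2 * diamondDist k u v := rfl
  rw [h0, h1, hw] at h
  simpa [diamondDist] using h

theorem two_le_dist_mid (k : ℕ) (e : DiamondEdge k) {i j : ℕ} (hij : i ≠ j) :
    2 ≤ diamondDist (k + 1) (Sum.inr (e, i)) (Sum.inr (e, j)) := by
  have hr := reach (k + 1) (Sum.inr (e, i)) (Sum.inr (e, j))
  have hne : (Sum.inr (e, i) : DiamondVertex (k + 1)) ≠ Sum.inr (e, j) := by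
    intro h
    have h1 := Sum.inr.inj h
    exact hij (Prod.mk.inj h1).2
  have h0 : diamondDist (k + 1) (Sum.inr (e, i)) (Sum.inr (e, j)) ≠ 0 := by
    intro h
    exact hne ((hr.dist_eq_zero_iff).1 h)
  have h1 : diamondDist (k + 1) (Sum.inr (e, i)) (Sum.inr (e, j)) ≠ 1 := by
    intro h
    have hadj := SimpleGraph.dist_eq_one_iff_adj.1 h
    rw [diamondGraph, SimpleGraph.fromRel_adj] at hadj
    rcases hadj.2 with ⟨⟨e', i', c⟩, h1, h2⟩ | ⟨⟨e', i', c⟩, h1, h2⟩
    · cases c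
      · exact absurd h1 (by change (Sum.inl _ : DiamondVertex (k+1)) ≠ _; simp)
      · exact absurd h2 (by change (Sum.inl _ : DiamondVertex (k+1)) ≠ _; simp)
    · cases c
      · exact absurd h1 (by change (Sum.inl _ : DiamondVertex (k+1)) ≠ _; simp)
      · exact absurd h2 (by change (Sum.inl _ : DiamondVertex (k+1)) ≠ _; simp)
  omega

/-! ### Analysis part -/

section analysis

variable {X : Type*} [NormedAddCommGroup X] [NormedSpace ℝ X]

theorem max_mono (x y : X) {τ : ℝ} (hτ : 1 ≤ τ) :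
    max ‖x + y‖ ‖x - y‖ ≤ max ‖x + τ • y‖ ‖x - τ • y‖ := by
  have hτ0 : 0 < τ := by linarith
  have hr : 1 / τ ≤ 1 := by rw [div_le_one hτ0]; exact hτ
  have hr0 : 0 < 1 / τ := by positivity
  set p : ℝ := (1 + 1 / τ) / 2 with hp
  set q : ℝ := (1 - 1 / τ) / 2 with hq
  have hp0 : 0 ≤ p := by rw [hp]; linarith
  have hq0 : 0 ≤ q := by rw [hq]; linarith
  have hpq : p + q = 1 := by rw [hp, hq]; ring
  have hpq' : (p - q) * τ = 1 := by
    have : p - q = 1 / τ := by rw [hp, hq]; ring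
    rw [this]; field_simp
  have e1 : x + y = p • (x + τ • y) + q • (x - τ • y) := by
    calc x + y = (p + q) • x + ((p - q) * τ) • y := by rw [hpq, hpq', one_smul, one_smul]
      _ = p • (x + τ • y) + q • (x - τ • y) := by module
  have e2 : x - y = q • (x + τ • y) + p • (x - τ • y) := by
    calc x - y = (p + q) • x - ((p - q) * τ) • y := by rw [hpq, hpq', one_smul, one_smul]
      _ = q • (x + τ • y) + p • (x - τ • y) := by module
  set M := max ‖x + τ • y‖ ‖x - τ • y‖ with hM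
  have m1 : ‖x + τ • y‖ ≤ M := le_max_left _ _
  have m2 : ‖x - τ • y‖ ≤ M := le_max_right _ _
  refine max_le ?_ ?_
  · rw [e1]
    refine (norm_add_le _ _).trans ?_
    rw [norm_smul, norm_smul, Real.norm_of_nonneg hp0, Real.norm_of_nonneg hq0]
    have k1 := mul_le_mul_of_nonneg_left m1 hp0
    have k2 := mul_le_mul_of_nonneg_left m2 hq0
    have k3 : p * M + q * M = M := by rw [← add_mul, hpq, one_mul]
    linarith
  · rw [e2]
    refine (norm_add_le _ _).trans ?_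
    rw [norm_smul, norm_smul, Real.norm_of_nonneg hp0, Real.norm_of_nonneg hq0]
    have k1 := mul_le_mul_of_nonneg_left m1 hq0
    have k2 := mul_le_mul_of_nonneg_left m2 hp0
    have k3 : p * M + q * M = M := by rw [← add_mul, hpq, one_mul]
    linarith

/-- the maximum-based midpoint modulus bound -/
def MaxMod (X : Type*) [NormedAddCommGroup X] [NormedSpace ℝ X] : Prop :=
  ∀ t : ℝ, 0 < t → ∀ x : X, ‖x‖ = 1 → ∀ η : ℝ, 0 < η → ∃ F : Set X, Cof F ∧
    ∀ y ∈ F, ‖y‖ = 1 → Real.sqrt (1 + t ^ 2 / 4) - 1 - η ≤ max ‖x + t • y‖ ‖x - t • y‖ - 1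

theorem modA (h : MaxMod X) (x : X) (hx : x ≠ 0) {β η : ℝ} (hβ : 0 < β) (hη : 0 < η) :
    ∃ F : Set X, Cof F ∧ ∀ y ∈ F, β ≤ ‖y‖ →
      Real.sqrt (‖x‖ ^ 2 + β ^ 2 / 4) - η ≤ max ‖x + y‖ ‖x - y‖ := by
  have hx0 : 0 < ‖x‖ := norm_pos_iff.2 hx
  obtain ⟨F, hF, hFy⟩ := h (β / ‖x‖) (by positivity) (‖x‖⁻¹ • x)
    (by rw [norm_smul, norm_inv, norm_norm, inv_mul_cancel₀ hx0.ne']) (η / ‖x‖) (by positivity)
  refine ⟨F, hF, fun y hy hβy => ?_⟩
  have hy0 : 0 < ‖y‖ := lt_of_lt_of_le hβ hβy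
  have hyF : ‖y‖⁻¹ • y ∈ F := by
    obtain ⟨S, hS, -, -⟩ := hF
    rw [← hS] at hy ⊢
    exact S.smul_mem _ hy
  have h1 := hFy _ hyF (by rw [norm_smul, norm_inv, norm_norm, inv_mul_cancel₀ hy0.ne'])
  set y' : X := (β / ‖y‖) • y with hy'
  have e1 : ‖x‖ * ‖‖x‖⁻¹ • x + (β / ‖x‖) • ‖y‖⁻¹ • y‖ = ‖x + y'‖ := by
    have : x + y' = ‖x‖ • (‖x‖⁻¹ • x + (β / ‖x‖) • ‖y‖⁻¹ • y) := by
      rw [smul_add, smul_smul, smul_smul, smul_smul, mul_inv_cancel₀ hx0.ne', one_smul, hy']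
      congr 2
      field_simp
    rw [this, norm_smul, norm_norm]
  have e2 : ‖x‖ * ‖‖x‖⁻¹ • x - (β / ‖x‖) • ‖y‖⁻¹ • y‖ = ‖x - y'‖ := by
    have : x - y' = ‖x‖ • (‖x‖⁻¹ • x - (β / ‖x‖) • ‖y‖⁻¹ • y) := by
      rw [smul_sub, smul_smul, smul_smul, smul_smul, mul_inv_cancel₀ hx0.ne', one_smul, hy']
      congr 2
      field_simp
    rw [this, norm_smul, norm_norm]
  have e3 : ‖x‖ * Real.sqrt (1 + (β / ‖x‖) ^ 2 / 4) = Real.sqrt (‖x‖ ^ 2 + β ^ 2 / 4) := by
    have : ‖x‖ ^ 2 + β ^ 2 / 4 = ‖x‖ ^ 2 * (1 + (β / ‖x‖) ^ 2 / 4) := by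
      field_simp
    rw [this, Real.sqrt_mul (by positivity), Real.sqrt_sq hx0.le]
  have h2 : Real.sqrt (1 + (β / ‖x‖) ^ 2 / 4) - η / ‖x‖ ≤
      max ‖‖x‖⁻¹ • x + (β / ‖x‖) • ‖y‖⁻¹ • y‖ ‖‖x‖⁻¹ • x - (β / ‖x‖) • ‖y‖⁻¹ • y‖ := by linarith
  have h3 := mul_le_mul_of_nonneg_left h2 hx0.le
  rw [mul_max_of_nonneg _ _ hx0.le, e1, e2, mul_sub, e3, mul_div_cancel₀ _ hx0.ne'] at h3
  refine h3.trans ?_
  have h4 := max_mono x y' (τ := ‖y‖ / β) (by rw [one_le_div hβ]; exact hβy)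
  have h5 : (‖y‖ / β) • y' = y := by
    rw [hy', smul_smul]
    have : ‖y‖ / β * (β / ‖y‖) = 1 := by field_simp
    rw [this, one_smul]
  rwa [h5] at h4

/-- two terms of a bounded sequence nearly agree modulo a closed finite-codimensional subspace -/
theorem pigeon {F : Set X} (hF : Cof F) (m : ℕ → X) {C : ℝ} (hm : ∀ i, ‖m i‖ ≤ C) {ε : ℝ}
    (hε : 0 < ε) : ∃ i j : ℕ, i ≠ j ∧ ∃ w ∈ F, ‖(m i - m j) - w‖ ≤ ε := by
  obtain ⟨S, rfl, hcl, hfd⟩ := hF
  haveI : IsClosed (S : Set X) := hcl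
  haveI : ProperSpace (X ⧸ S) := FiniteDimensional.proper ℝ _
  have hb : ∀ i, (S.mkQ (m i) : X ⧸ S) ∈ Metric.closedBall (0 : X ⧸ S) C := by
    intro i
    rw [mem_closedBall_zero_iff]
    exact (Submodule.Quotient.norm_mk_le S (m i)).trans (hm i)
  obtain ⟨a, -, φ, hφ, hlim⟩ := tendsto_subseq_of_bounded Metric.isBounded_closedBall hb
  have hc := hlim.cauchySeq
  rw [Metric.cauchySeq_iff'] at hc
  obtain ⟨N, hN⟩ := hc ε hε
  have h1 := hN (N + 1) (by omega)
  rw [dist_eq_norm] at h1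
  refine ⟨φ (N + 1), φ N, ?_, ?_⟩
  · intro h
    have := hφ.injective h
    omega
  · change ‖(S.mkQ (m (φ (N + 1))) : X ⧸ S) - S.mkQ (m (φ N))‖ < ε at h1
    rw [← map_sub] at h1
    set d := m (φ (N + 1)) - m (φ N) with hd
    obtain ⟨z, hz, hz'⟩ := Submodule.Quotient.norm_mk_lt (S := S) (S.mkQ d)
      (ε := ε - ‖S.mkQ d‖) (by linarith)
    refine ⟨d - z, ?_, ?_⟩
    · have : S.mkQ (d - z) = 0 := by
        rw [map_sub, sub_eq_zero]
        exact hz.symm
      rw [Submodule.mkQ_apply, Submodule.Quotient.mk_eq_zero] at this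
      exact this
    · have : d - (d - z) = z := by abel
      rw [this]
      linarith

theorem sqrt_lip {a c c' : ℝ} (hc' : 0 ≤ c') (h : c' ≤ c) :
    Real.sqrt (a ^ 2 + c ^ 2) ≤ Real.sqrt (a ^ 2 + c' ^ 2) + (c - c') := by
  set s := Real.sqrt (a ^ 2 + c' ^ 2) with hs
  have hs2 : s ^ 2 = a ^ 2 + c' ^ 2 := Real.sq_sqrt (by positivity)
  have hs0 : 0 ≤ s := Real.sqrt_nonneg _
  have hsc : c' ≤ s := by
    rw [hs]
    exact Real.le_sqrt_of_sq_le (by nlinarith [sq_nonneg a])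
  rw [Real.sqrt_le_iff]
  constructor
  · linarith
  · nlinarith

/-- The step lemma: among infinitely many well separated midpoints some half distance is large. -/
theorem step (h : MaxMod X) (u v : X) (huv : u ≠ v) (m : ℕ → X) {C b : ℝ} (hb : 0 < b)
    (hm : ∀ i, ‖m i‖ ≤ C) (hsep : ∀ i j, i ≠ j → b ≤ ‖m i - m j‖) {η : ℝ} (hη : 0 < η) :
    ∃ i, Real.sqrt ((‖u - v‖ / 2) ^ 2 + (b / 4) ^ 2) - η ≤ max ‖m i - u‖ ‖v - m i‖ := by
  set δ : ℝ := min (η / 3) (b / 4) with hδ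
  have hδ0 : 0 < δ := by positivity
  have hδη : 3 * δ ≤ η := by
    have : δ ≤ η / 3 := min_le_left _ _
    linarith
  have hδb : δ ≤ b / 4 := min_le_right _ _
  set x : X := (1 / 2 : ℝ) • (v - u) with hx
  have hxn : ‖x‖ = ‖u - v‖ / 2 := by
    rw [hx, norm_smul, norm_sub_rev]
    norm_num; ring
  have hx0 : x ≠ 0 := by
    rw [← norm_pos_iff, hxn]
    have : 0 < ‖u - v‖ := norm_pos_iff.2 (sub_ne_zero.2 huv)
    linarith
  obtain ⟨F, hF, hFy⟩ := modA h x hx0 (β := b / 2 - δ) (η := δ) (by linarith) hδ0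
  obtain ⟨i, j, hij, w, hw, hw'⟩ := pigeon hF m hm (ε := 2 * δ) (by linarith)
  set y : X := (1 / 2 : ℝ) • w with hy
  have hyF : y ∈ F := by
    obtain ⟨S, hS, -, -⟩ := hF
    rw [← hS] at hw ⊢
    exact S.smul_mem _ hw
  have hwn : b - 2 * δ ≤ ‖w‖ := by
    have h1 := hsep i j hij
    have h2 : ‖m i - m j‖ ≤ ‖(m i - m j) - w‖ + ‖w‖ := by
      have := norm_add_le ((m i - m j) - w) w
      simpa using this
    linarith
  have hyn : b / 2 - δ ≤ ‖y‖ := by
    rw [hy, norm_smul, Real.norm_of_nonneg (by norm_num)]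
    linarith
  have h1 := hFy y hyF hyn
  have h2 := sqrt_lip (a := ‖u - v‖ / 2) (c := b / 4) (c' := (b / 2 - δ) / 2) (by linarith)
    (by linarith)
  have h3 : (b / 2 - δ) ^ 2 / 4 = ((b / 2 - δ) / 2) ^ 2 := by ring
  rw [hxn, h3] at h1
  have herr : ‖(1 / 2 : ℝ) • ((m i - m j) - w)‖ ≤ δ := by
    rw [norm_smul, Real.norm_of_nonneg (by norm_num)]
    linarith
  have key : ∀ p q r s : X, p + y = (1 / 2 : ℝ) • (q + r) + s → ‖s‖ ≤ δ →
      ‖p + y‖ ≤ max ‖q‖ ‖r‖ + δ := by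
    intro p q r s h hs
    rw [h]
    have h4 := norm_add_le ((1 / 2 : ℝ) • (q + r)) s
    have h5 : ‖(1 / 2 : ℝ) • (q + r)‖ ≤ max ‖q‖ ‖r‖ := by
      rw [norm_smul, Real.norm_of_nonneg (by norm_num)]
      have := norm_add_le q r
      have := le_max_left ‖q‖ ‖r‖
      have := le_max_right ‖q‖ ‖r‖
      linarith
    linarith
  have hp : ‖x + y‖ ≤ max ‖m i - u‖ ‖v - m j‖ + δ := by
    refine key x _ _ (-((1 / 2 : ℝ) • ((m i - m j) - w))) ?_ (by rw [norm_neg]; exact herr)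
    rw [hx, hy]; module
  have hq : ‖x - y‖ ≤ max ‖m j - u‖ ‖v - m i‖ + δ := by
    have h4 : x - y = (1 / 2 : ℝ) • ((m j - u) + (v - m i)) + ((1 / 2 : ℝ) • ((m i - m j) - w)) := by
      rw [hx, hy]; module
    rw [h4]
    have h4 := norm_add_le ((1 / 2 : ℝ) • ((m j - u) + (v - m i)))
      ((1 / 2 : ℝ) • ((m i - m j) - w))
    have h5 : ‖(1 / 2 : ℝ) • ((m j - u) + (v - m i))‖ ≤ max ‖m j - u‖ ‖v - m i‖ := by
      rw [norm_smul, Real.norm_of_nonneg (by norm_num)]
      have := norm_add_le (m j - u) (v - m i)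
      have := le_max_left ‖m j - u‖ ‖v - m i‖
      have := le_max_right ‖m j - u‖ ‖v - m i‖
      linarith
    linarith
  set R := Real.sqrt ((‖u - v‖ / 2) ^ 2 + (b / 4) ^ 2) with hR
  by_contra hcon
  push Not at hcon
  have hi := hcon i
  have hj := hcon j
  rw [max_lt_iff] at hi hj
  have h6 : max ‖m i - u‖ ‖v - m j‖ < R - η := max_lt hi.1 hj.2
  have h7 : max ‖m j - u‖ ‖v - m i‖ < R - η := max_lt hj.1 hi.2
  have h8 : max ‖x + y‖ ‖x - y‖ ≤ R - η + δ := max_le (by linarith) (by linarith)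
  linarith

/-- Induction along the diamonds. -/
theorem diamond_core (h : MaxMod X) (k : ℕ) : ∀ (f : DiamondVertex k → X) (r C : ℝ), 0 < r →
    (∀ u v, r * (diamondDist k u v : ℝ) ≤ ‖f u - f v‖) →
    (∀ u v, (diamondGraph k).Adj u v → ‖f u - f v‖ ≤ C) →
    ∀ η : ℝ, 0 < η → ∃ e : DiamondEdge k,
      r ^ 2 * (1 + (k : ℝ) / 4) - η ≤ ‖f (diamondSrc k e) - f (diamondTgt k e)‖ ^ 2 := by
  induction k with
  | zero =>
    intro f r C hr hlow _ η hη
    refine ⟨(), ?_⟩
    have hadj : (diamondGraph 0).Adj (diamondSrc 0 ()) (diamondTgt 0 ()) :=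
      adj_zero _ _ (by change (false : Bool) ≠ true; simp)
    have h1 := hlow (diamondSrc 0 ()) (diamondTgt 0 ())
    have h2 : diamondDist 0 (diamondSrc 0 ()) (diamondTgt 0 ()) = 1 :=
      SimpleGraph.dist_eq_one_iff_adj.2 hadj
    rw [h2] at h1
    simp only [Nat.cast_one, mul_one] at h1
    have h3 := pow_le_pow_left₀ hr.le h1 2
    simp only [Nat.cast_zero, zero_div, add_zero, mul_one]
    linarith
  | succ k ih =>
    intro f r C hr hlow hup η hη
    have hg := ih (fun u => f (Sum.inl u)) (2 * r) (2 * C) (by linarith) ?_ ?_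
    rotate_left
    · intro u v
      have h1 := hlow (Sum.inl u) (Sum.inl v)
      have h2 := two_mul_dist_le k u v
      have h3 : (2 * diamondDist k u v : ℝ) ≤ (diamondDist (k + 1) (Sum.inl u) (Sum.inl v) : ℝ) := by
        exact_mod_cast h2
      have h4 := mul_le_mul_of_nonneg_left h3 hr.le
      calc 2 * r * (diamondDist k u v : ℝ) = r * (2 * (diamondDist k u v : ℝ)) := by ring
        _ ≤ _ := h4.trans h1
    · intro u v huv
      rw [diamondGraph, SimpleGraph.fromRel_adj] at huv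
      have hh : ∀ e : DiamondEdge k,
          ‖f (Sum.inl (diamondSrc k e)) - f (Sum.inl (diamondTgt k e))‖ ≤ 2 * C := by
        intro e
        have h1 := hup _ _ (adj_src_mid k e 0)
        have h2 := hup _ _ (adj_mid_tgt k e 0)
        have h3 := norm_sub_le_norm_sub_add_norm_sub (f (Sum.inl (diamondSrc k e)))
          (f (Sum.inr (e, 0))) (f (Sum.inl (diamondTgt k e)))
        linarith
      rcases huv.2 with ⟨e, rfl, rfl⟩ | ⟨e, rfl, rfl⟩
      · exact hh e
      · rw [norm_sub_rev]; exact hh e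
    -- choose an edge at the previous level
    obtain ⟨η', hη'0, hη', hη'r⟩ : ∃ η' : ℝ, 0 < η' ∧ η' / 4 ≤ η / 2 ∧ η' ≤ r ^ 2 :=
      ⟨min (2 * η) (r ^ 2), by positivity, by
        have := min_le_left (2 * η) (r ^ 2)
        linarith, min_le_right _ _⟩
    obtain ⟨e, he⟩ := hg η' hη'0
    set u := f (Sum.inl (diamondSrc k e)) with hu
    set v := f (Sum.inl (diamondTgt k e)) with hv
    have hsep : ∀ i j, i ≠ j → 2 * r ≤ ‖f (Sum.inr (e, i)) - f (Sum.inr (e, j))‖ := by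
      intro i j hij
      have h1 := hlow (Sum.inr (e, i)) (Sum.inr (e, j))
      have h2 : (2 : ℝ) ≤ (diamondDist (k + 1) (Sum.inr (e, i)) (Sum.inr (e, j)) : ℝ) := by
        exact_mod_cast two_le_dist_mid k e hij
      nlinarith
    have hbd : ∀ i, ‖f (Sum.inr (e, i))‖ ≤ ‖u‖ + C := by
      intro i
      have h1 := hup _ _ (adj_src_mid k e i)
      have h2 : f (Sum.inr (e, i)) = u - (u - f (Sum.inr (e, i))) := by abel
      rw [h2]
      exact (norm_sub_le _ _).trans (by linarith)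
    have hk0 : (0 : ℝ) ≤ (k : ℝ) := Nat.cast_nonneg k
    have he' : 3 * r ^ 2 ≤ ‖u - v‖ ^ 2 := by
      have h1 : (2 * r) ^ 2 * (1 + (k : ℝ) / 4) - η' ≤ ‖u - v‖ ^ 2 := he
      have h2 : 0 ≤ r ^ 2 * (k : ℝ) := by positivity
      nlinarith
    have huv : u ≠ v := by
      intro huv
      rw [huv, sub_self, norm_zero] at he'
      have : 0 < r ^ 2 := by positivity
      linarith
    set R := Real.sqrt ((‖u - v‖ / 2) ^ 2 + (2 * r / 4) ^ 2) with hR
    have hR2 : R ^ 2 = (‖u - v‖ / 2) ^ 2 + (2 * r / 4) ^ 2 := Real.sq_sqrt (by positivity)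
    have hRpos : 0 < R := by
      rw [hR]; positivity
    obtain ⟨η₂, hη₂0, hη₂, hη₂R⟩ : ∃ η₂ : ℝ, 0 < η₂ ∧ 2 * R * η₂ ≤ η / 2 ∧ η₂ ≤ R := by
      refine ⟨min (η / (4 * R)) R, by positivity, ?_, min_le_right _ _⟩
      have h1 := mul_le_mul_of_nonneg_left (min_le_left (η / (4 * R)) R)
        (by positivity : 0 ≤ 2 * R)
      have h2 : 2 * R * (η / (4 * R)) = η / 2 := by field_simp; ring
      linarith
    obtain ⟨i, hi⟩ := step h u v huv (fun i => f (Sum.inr (e, i))) (C := ‖u‖ + C)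
      (b := 2 * r) (by linarith) hbd hsep hη₂0
    rw [← hR] at hi
    have hsq : ∀ M : ℝ, R - η₂ ≤ M → r ^ 2 * (1 + ((k + 1 : ℕ) : ℝ) / 4) - η ≤ M ^ 2 := by
      intro M hM
      have h1 : (R - η₂) ^ 2 ≤ M ^ 2 := pow_le_pow_left₀ (by linarith) hM 2
      have h2 : (2 * r) ^ 2 * (1 + (k : ℝ) / 4) - η' ≤ ‖u - v‖ ^ 2 := he
      push_cast
      nlinarith [sq_nonneg η₂]
    rcases le_max_iff.1 hi with h1 | h1
    · refine ⟨(e, i, false), ?_⟩
      change _ ≤ ‖f (Sum.inl (diamondSrc k e)) - f (Sum.inr (e, i))‖ ^ 2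
      rw [norm_sub_rev]
      exact hsq _ h1
    · refine ⟨(e, i, true), ?_⟩
      change _ ≤ ‖f (Sum.inr (e, i)) - f (Sum.inl (diamondTgt k e))‖ ^ 2
      rw [norm_sub_rev]
      exact hsq _ h1

/-- The diamond distortion bound. -/
theorem diamond_bound (h : MaxMod X) (k : ℕ) (f : DiamondVertex k → X) (s D : ℝ) (hs : 0 < s)
    (hf : ∀ u v : DiamondVertex k,
      s * (diamondDist k u v : ℝ) ≤ ‖f u - f v‖ ∧ ‖f u - f v‖ ≤ D * s * (diamondDist k u v : ℝ)) :
    1 + (k : ℝ) / 4 ≤ D ^ 2 := by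
  have hadj : ∀ u v, (diamondGraph k).Adj u v → ‖f u - f v‖ ≤ D * s := by
    intro u v huv
    have h1 := (hf u v).2
    have h2 : diamondDist k u v = 1 := SimpleGraph.dist_eq_one_iff_adj.2 huv
    rw [h2] at h1
    simpa using h1
  have hcore := diamond_core h k f s (D * s) hs (fun u v => (hf u v).1) hadj
  have hs2 : 0 < s ^ 2 := by positivity
  have hall : ∀ η : ℝ, 0 < η → s ^ 2 * (1 + (k : ℝ) / 4) - η ≤ s ^ 2 * D ^ 2 := by
    intro η hη
    obtain ⟨e, he⟩ := hcore (min η (s ^ 2 / 2)) (by positivity)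
    have h1 : s ^ 2 * (1 + (k : ℝ) / 4) - η ≤
        ‖f (diamondSrc k e) - f (diamondTgt k e)‖ ^ 2 := by
      have := min_le_left η (s ^ 2 / 2)
      linarith
    have hne : diamondSrc k e ≠ diamondTgt k e := by
      intro hh
      rw [hh, sub_self, norm_zero] at he
      have h3 := min_le_right η (s ^ 2 / 2)
      have h4 : 0 ≤ s ^ 2 * (k : ℝ) := by positivity
      nlinarith
    have hadj' : (diamondGraph k).Adj (diamondSrc k e) (diamondTgt k e) := by
      rw [diamondGraph, SimpleGraph.fromRel_adj]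
      exact ⟨hne, Or.inl ⟨e, rfl, rfl⟩⟩
    have h2 := hadj _ _ hadj'
    have h3 := pow_le_pow_left₀ (norm_nonneg _) h2 2
    calc _ ≤ _ := h1
      _ ≤ (D * s) ^ 2 := h3
      _ = s ^ 2 * D ^ 2 := by ring
  have h5 : s ^ 2 * (1 + (k : ℝ) / 4) ≤ s ^ 2 * D ^ 2 :=
    le_of_forall_pos_le_add fun η hη => by linarith [hall η hη]
  exact le_of_mul_le_mul_left h5 hs2

end analysis

end Crest.Agent.DiamondLemma
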