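import Mathlib

/-!
A noisy observation channel with values in the unit interval, used for the factor-of-iid
constructions (row 168).  Given a mean `m`, the observation has density `1 + m (1 - 2 z) / 4`.
-/

set_option autoImplicit false

namespace Crest.Agent.FIID

open MeasureTheory unitInterval Set

/-- the distribution function of the observation with mean `m` -/
noncomputable def hR (m z : ℝ) : ℝ := z + m * z * (1 - z) / 4

/-- the quantile function of the observation with mean `m` -/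
noncomputable def fR (m u : ℝ) : ℝ := 2 * u / ((1 + m / 4) + Real.sqrt ((1 + m / 4) ^ 2 - m * u))

lemma hR_mem {m z : ℝ} (hm : m ∈ Icc (0 : ℝ) 1) (hz : z ∈ Icc (0 : ℝ) 1) :
    hR m z ∈ Icc (0 : ℝ) 1 := by
  obtain ⟨hm0, hm1⟩ := hm
  obtain ⟨hz0, hz1⟩ := hz
  have h1 : 0 ≤ m * z := mul_nonneg hm0 hz0
  have h2 : 0 ≤ m * z * (1 - z) := mul_nonneg h1 (by linarith)
  have h3 : m * z ≤ 1 := by nlinarith
  have h4 : m * z * (1 - z) ≤ 1 * (1 - z) := mul_le_mul_of_nonneg_right h3 (by linarith)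
  unfold hR
  constructor <;> linarith

lemma disc_nonneg {m u : ℝ} (hm : m ∈ Icc (0 : ℝ) 1) (hu : u ∈ Icc (0 : ℝ) 1) :
    0 ≤ (1 + m / 4) ^ 2 - m * u := by
  obtain ⟨hm0, hm1⟩ := hm
  obtain ⟨hu0, hu1⟩ := hu
  nlinarith [sq_nonneg (1 - m / 4), mul_nonneg hm0 (sub_nonneg.2 hu1)]

lemma hR_fR {m u : ℝ} (hm : m ∈ Icc (0 : ℝ) 1) (hu : u ∈ Icc (0 : ℝ) 1) :
    hR m (fR m u) = u := by
  have hD := disc_nonneg hm hu
  obtain ⟨hm0, hm1⟩ := hm
  obtain ⟨hu0, hu1⟩ := hu
  unfold hR fR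
  set s := Real.sqrt ((1 + m / 4) ^ 2 - m * u) with hs
  have hs2 : s ^ 2 = (1 + m / 4) ^ 2 - m * u := Real.sq_sqrt hD
  have hs0 : 0 ≤ s := Real.sqrt_nonneg _
  have hc : 0 < 1 + m / 4 + s := by linarith
  field_simp
  ring_nf
  ring_nf at hs2
  nlinarith [hs2]

lemma fR_hR {m z : ℝ} (hm : m ∈ Icc (0 : ℝ) 1) (hz : z ∈ Icc (0 : ℝ) 1) :
    fR m (hR m z) = z := by
  obtain ⟨hm0, hm1⟩ := hm
  obtain ⟨hz0, hz1⟩ := hz
  have h1 : (1 + m / 4) ^ 2 - m * hR m z = (1 + m / 4 - m * z / 2) ^ 2 := by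
    unfold hR; ring
  have h2 : m * z ≤ 1 := by nlinarith
  have h3 : 0 ≤ 1 + m / 4 - m * z / 2 := by linarith
  unfold fR
  rw [h1, Real.sqrt_sq h3]
  have h4 : 0 < 1 + m / 4 + (1 + m / 4 - m * z / 2) := by linarith
  rw [div_eq_iff h4.ne']
  unfold hR
  ring

lemma fR_mem {m u : ℝ} (hm : m ∈ Icc (0 : ℝ) 1) (hu : u ∈ Icc (0 : ℝ) 1) :
    fR m u ∈ Icc (0 : ℝ) 1 := by
  have hD := disc_nonneg hm hu
  obtain ⟨hm0, hm1⟩ := hm
  obtain ⟨hu0, hu1⟩ := hu
  unfold fR
  have hs1 : 1 - m / 4 ≤ Real.sqrt ((1 + m / 4) ^ 2 - m * u) := by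
    apply Real.le_sqrt_of_sq_le
    nlinarith [mul_nonneg hm0 (sub_nonneg.2 hu1)]
  have hc : 0 < 1 + m / 4 + Real.sqrt ((1 + m / 4) ^ 2 - m * u) := by linarith
  constructor
  · positivity
  · rw [div_le_one hc]; linarith

/-- distribution function as a map of the unit interval -/
noncomputable def H (m z : I) : I := ⟨hR m z, hR_mem m.2 z.2⟩

/-- quantile function as a map of the unit interval -/
noncomputable def Q (m u : I) : I := ⟨fR m u, fR_mem m.2 u.2⟩

@[simp] lemma H_Q (m u : I) : H m (Q m u) = u := Subtype.ext (hR_fR m.2 u.2)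

@[simp] lemma Q_H (m z : I) : Q m (H m z) = z := Subtype.ext (fR_hR m.2 z.2)

lemma continuous_H : Continuous (fun p : I × I => H p.1 p.2) := by
  unfold H hR
  fun_prop

lemma continuous_Q : Continuous (fun p : I × I => Q p.1 p.2) := by
  unfold Q fR
  refine Continuous.subtype_mk ?_ _
  refine Continuous.div (by fun_prop) (by fun_prop) ?_
  intro p
  have h1 := p.1.2.1
  have h2 := Real.sqrt_nonneg ((1 + (p.1 : ℝ) / 4) ^ 2 - (p.1 : ℝ) * (p.2 : ℝ))
  have : 0 < 1 + (p.1 : ℝ) / 4 + Real.sqrt ((1 + (p.1 : ℝ) / 4) ^ 2 - (p.1 : ℝ) * (p.2 : ℝ)) := by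
    linarith
  exact this.ne'

lemma H_strictMono (m : I) : StrictMono (H m) := by
  intro z z' h
  have hz : (z : ℝ) < z' := h
  have hm0 : (0 : ℝ) ≤ m := m.2.1
  have hm1 : (m : ℝ) ≤ 1 := m.2.2
  have hz0 : (0 : ℝ) ≤ z := z.2.1
  have hz1 : (z' : ℝ) ≤ 1 := z'.2.2
  change hR m z < hR m z'
  unfold hR
  have h1 : 0 < (z' : ℝ) - z := by linarith
  have h2 : (0 : ℝ) < 1 + m * (1 - z - z') / 4 := by nlinarith
  have h3 := mul_pos h1 h2
  nlinarith [h3]

lemma Q_le_iff (m u x : I) : Q m u ≤ x ↔ u ≤ H m x := by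
  rw [← (H_strictMono m).le_iff_le, H_Q]

lemma abs_Q_sub_le (m m' u : I) : |(Q m u : ℝ) - Q m' u| ≤ |(m : ℝ) - m'| / 12 := by
  set z := Q m u with hz
  set z' := Q m' u with hz'
  have e1 : hR m z = u := by rw [hz]; exact hR_fR m.2 u.2
  have e2 : hR m' z' = u := by rw [hz']; exact hR_fR m'.2 u.2
  have e3 : ((z : ℝ) - z') * (1 + m * (1 - z - z') / 4) = ((m' : ℝ) - m) * (z' * (1 - z')) / 4 := by
    unfold hR at e1 e2
    linarith
  have hm0 : (0 : ℝ) ≤ m := m.2.1
  have hm1 : (m : ℝ) ≤ 1 := m.2.2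
  have hz0 : (0 : ℝ) ≤ z := z.2.1
  have hz1 : (z : ℝ) ≤ 1 := z.2.2
  have hz0' : (0 : ℝ) ≤ z' := z'.2.1
  have hz1' : (z' : ℝ) ≤ 1 := z'.2.2
  have h2 : (3 / 4 : ℝ) ≤ 1 + m * (1 - z - z') / 4 := by nlinarith
  have h3 : (z' : ℝ) * (1 - z') ≤ 1 / 4 := by nlinarith [sq_nonneg ((z' : ℝ) - 1 / 2)]
  have h3' : 0 ≤ (z' : ℝ) * (1 - z') := mul_nonneg hz0' (by linarith)
  have h4 : |(z : ℝ) - z'| * (1 + m * (1 - z - z') / 4) = |(m : ℝ) - m'| * (z' * (1 - z')) / 4 := by
    rw [← abs_of_nonneg (by linarith : (0 : ℝ) ≤ 1 + m * (1 - z - z') / 4), ← abs_mul, e3,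
      abs_div, abs_mul, abs_of_nonneg h3', abs_sub_comm, abs_of_nonneg (by norm_num : (0:ℝ) ≤ 4)]
  have h5 : |(z : ℝ) - z'| * (3 / 4) ≤ |(z : ℝ) - z'| * (1 + m * (1 - z - z') / 4) :=
    mul_le_mul_of_nonneg_left h2 (abs_nonneg _)
  have h6 : |(m : ℝ) - m'| * (z' * (1 - z')) ≤ |(m : ℝ) - m'| * (1 / 4) :=
    mul_le_mul_of_nonneg_left h3 (abs_nonneg _)
  linarith

/-- the log-likelihood of an observation -/
noncomputable def ell (z : I) : ℝ := Real.log (5 / 4 - z / 2)

lemma ell_arg_ge (z : I) : (3 / 4 : ℝ) ≤ 5 / 4 - z / 2 := by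
  have := z.2.2; linarith

lemma exp_ell (z : I) : Real.exp (ell z) = 5 / 4 - z / 2 :=
  Real.exp_log (by have := ell_arg_ge z; linarith)

lemma continuous_ell : Continuous ell := by
  unfold ell
  refine Continuous.log (by fun_prop) ?_
  intro z
  have := ell_arg_ge z
  linarith

lemma ell_sub_le (z z' : I) : ell z - ell z' ≤ (2 / 3) * |(z : ℝ) - z'| := by
  have h1 := ell_arg_ge z
  have h2 := ell_arg_ge z'
  unfold ell
  rw [← Real.log_div (by linarith) (by linarith)]
  have h3 : 0 < (5 / 4 - (z : ℝ) / 2) / (5 / 4 - (z' : ℝ) / 2) := by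
    apply div_pos <;> linarith
  refine (Real.log_le_sub_one_of_pos h3).trans ?_
  rw [div_sub_one (by linarith), div_le_iff₀ (by linarith)]
  have h4 : (z' : ℝ) - z ≤ |(z : ℝ) - z'| := by rw [abs_sub_comm]; exact le_abs_self _
  have h5 := abs_nonneg ((z : ℝ) - z')
  nlinarith

lemma abs_ell_sub_le (z z' : I) : |ell z - ell z'| ≤ (2 / 3) * |(z : ℝ) - z'| := by
  rw [abs_le]
  constructor
  · have := ell_sub_le z' z
    rw [abs_sub_comm] at this
    linarith
  · exact ell_sub_le z z'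

/-- the density of an observation with mean `m` -/
noncomputable def dens (m z : I) : ℝ := 1 + m * (1 - 2 * z) / 4

lemma dens_nonneg (m z : I) : 0 ≤ dens m z := by
  have hm0 : (0 : ℝ) ≤ m := m.2.1
  have hm1 : (m : ℝ) ≤ 1 := m.2.2
  have hz0 : (0 : ℝ) ≤ z := z.2.1
  have hz1 : (z : ℝ) ≤ 1 := z.2.2
  unfold dens
  nlinarith

lemma dens_zero (z : I) : dens 0 z = 1 := by simp [dens]

lemma dens_one (z : I) : dens 1 z = Real.exp (ell z) := by
  rw [exp_ell]; simp [dens]; ring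

lemma continuous_dens : Continuous (fun p : I × I => dens p.1 p.2) := by
  unfold dens; fun_prop

/-- The law of the quantile transform of a uniform label. -/
theorem map_Q (m : I) :
    (volume : Measure I).map (Q m) =
      (volume : Measure I).withDensity (fun z => ENNReal.ofReal (dens m z)) := by
  have hQ : Measurable (Q m) :=
    (continuous_Q.comp (by fun_prop : Continuous fun u : I => ((m, u) : I × I))).measurable
  haveI : IsProbabilityMeasure ((volume : Measure I).map (Q m)) :=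
    Measure.isProbabilityMeasure_map hQ.aemeasurable
  have hle : ∀ z : I, dens m z ≤ 2 := by
    intro z
    have hm0 : (0 : ℝ) ≤ m := m.2.1
    have hm1 : (m : ℝ) ≤ 1 := m.2.2
    have hz0 : (0 : ℝ) ≤ z := z.2.1
    have hz1 : (z : ℝ) ≤ 1 := z.2.2
    unfold dens
    nlinarith
  haveI : IsFiniteMeasure ((volume : Measure I).withDensity (fun z => ENNReal.ofReal (dens m z))) := by
    refine isFiniteMeasure_withDensity ?_
    refine ne_of_lt ?_
    calc ∫⁻ z : I, ENNReal.ofReal (dens m z) ≤ ∫⁻ _ : I, ENNReal.ofReal 2 :=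
          lintegral_mono fun z => ENNReal.ofReal_le_ofReal (hle z)
      _ < ⊤ := by simp
  refine Measure.ext_of_Iic _ _ fun x => ?_
  rw [Measure.map_apply hQ measurableSet_Iic, withDensity_apply _ measurableSet_Iic]
  have h1 : Q m ⁻¹' Iic x = Iic (H m x) := by
    ext u; simp [Q_le_iff]
  rw [h1, unitInterval.volume_Iic]
  have h2 : ∫⁻ z in Iic x, ENNReal.ofReal (dens m z) =
      ∫⁻ t in Icc (0 : ℝ) x, ENNReal.ofReal (1 + m * (1 - 2 * t) / 4) := by
    have e := measurePreserving_coe.setLIntegral_comp_emb measurableEmbedding_coe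
      (fun t : ℝ => ENNReal.ofReal (1 + m * (1 - 2 * t) / 4)) (Iic x)
    rw [image_subtype_val_Icc_Iic] at e
    rw [Measure.restrict_restrict measurableSet_Icc] at e
    have h3 : Icc (0 : ℝ) x ∩ Icc 0 1 = Icc (0 : ℝ) x := by
      apply inter_eq_left.2
      exact Icc_subset_Icc le_rfl x.2.2
    rw [h3] at e
    rw [← e]
    rfl
  rw [h2, ← ofReal_integral_eq_lintegral_ofReal]
  · congr 1
    rw [integral_Icc_eq_integral_Ioc, ← intervalIntegral.integral_of_le x.2.1]
    have hd : ∀ t ∈ uIcc (0 : ℝ) x, HasDerivAt (fun t => hR m t) (1 + m * (1 - 2 * t) / 4) t := by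
      intro t _
      have a1 : HasDerivAt (fun t : ℝ => t * (1 - t)) (1 * (1 - t) + t * (0 - 1)) t := by
        exact (hasDerivAt_id t).mul ((hasDerivAt_const t (1 : ℝ)).sub (hasDerivAt_id t))
      have a2 : HasDerivAt (fun t : ℝ => t + (m / 4 : ℝ) * (t * (1 - t)))
          (1 + (m / 4 : ℝ) * (1 * (1 - t) + t * (0 - 1))) t :=
        (hasDerivAt_id t).add (a1.const_mul _)
      have e1 : (fun t : ℝ => hR m t) = fun t : ℝ => t + (m / 4 : ℝ) * (t * (1 - t)) := by
        funext t; unfold hR; ring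
      rw [e1]
      convert a2 using 1
      ring
    rw [intervalIntegral.integral_eq_sub_of_hasDerivAt hd]
    · simp [H, hR]
    · apply Continuous.intervalIntegrable; fun_prop
  · exact (Continuous.integrableOn_Icc (by fun_prop))
  · refine (ae_restrict_iff' measurableSet_Icc).2 (Filter.Eventually.of_forall ?_)
    intro t ht
    exact dens_nonneg m ⟨t, ht.1, ht.2.trans x.2.2⟩

lemma measurable_Q (m : I) : Measurable (Q m) :=
  (continuous_Q.comp (by fun_prop : Continuous fun u : I => ((m, u) : I × I))).measurable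

lemma measurable_dens (m : I) : Measurable (dens m) :=
  (continuous_dens.comp (by fun_prop : Continuous fun u : I => ((m, u) : I × I))).measurable

/-- change of variables for a single observation -/
theorem lintegral_Q (m : I) (g : I → ENNReal) (hg : Measurable g) :
    ∫⁻ u, g (Q m u) = ∫⁻ z, g z * ENNReal.ofReal (dens m z) := by
  rw [← lintegral_map hg (measurable_Q m), map_Q,
    lintegral_withDensity_eq_lintegral_mul _ (measurable_dens m).ennreal_ofReal hg]
  refine lintegral_congr fun z => ?_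
  simp [mul_comm]

/-- uniformisation: if `z` has density `dens m`, then `H m z` is uniform. -/
theorem lintegral_H (m : I) (g : I → ENNReal) (hg : Measurable g) :
    ∫⁻ z, g (H m z) * ENNReal.ofReal (dens m z) = ∫⁻ u, g u := by
  have hH : Measurable (H m) :=
    (continuous_H.comp (by fun_prop : Continuous fun u : I => ((m, u) : I × I))).measurable
  rw [← lintegral_Q m (fun z => g (H m z)) (hg.comp hH)]
  simp

end Crest.Agent.FIID
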