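import Crest.Agent.FIIDChannel

set_option autoImplicit false

namespace Crest.Agent.FIID

open MeasureTheory unitInterval Set Filter Topology

variable {V : Type*}

/-- `a` is observed before `b`. -/
def Prec (τ : V × ℕ → I) (a b : V × ℕ) : Prop := a.2 < b.2 ∨ (a.2 = b.2 ∧ τ a < τ b)

lemma Prec.trans {τ : V × ℕ → I} {a b c : V × ℕ} (h1 : Prec τ a b) (h2 : Prec τ b c) :
    Prec τ a c := by
  rcases h1 with h1 | ⟨h1, h1'⟩ <;> rcases h2 with h2 | ⟨h2, h2'⟩
  · exact Or.inl (h1.trans h2)
  · exact Or.inl (h2 ▸ h1)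
  · exact Or.inl (h1.symm ▸ h2)
  · exact Or.inr ⟨h1.trans h2, h1'.trans h2'⟩

lemma Prec.irrefl {τ : V × ℕ → I} (a : V × ℕ) : ¬ Prec τ a a := by
  rintro (h | ⟨_, h⟩)
  · exact lt_irrefl _ h
  · exact lt_irrefl _ h

lemma Prec.le {τ : V × ℕ → I} {a b : V × ℕ} (h : Prec τ a b) : a.2 ≤ b.2 := by
  rcases h with h | ⟨h, _⟩
  · exact h.le
  · exact h.le

open Classical in
/-- the log-likelihood field accumulated before the observation `b` -/
noncomputable def past (τ : V × ℕ → I) (z : V × ℕ → I) (b : V × ℕ) (u : V) : ℝ :=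
  ∑ j ∈ Finset.range (b.2 + 1), if Prec τ (u, j) b then ell (z (u, j)) else 0

/-- one Picard step -/
noncomputable def step (m : V → (V → ℝ) → I) (τ U z : V × ℕ → I) (b : V × ℕ) : I :=
  Q (m b.1 (past τ z b)) (U b)

/-- Picard iteration -/
noncomputable def iter (m : V → (V → ℝ) → I) (τ U : V × ℕ → I) : ℕ → (V × ℕ → I)
  | 0 => fun _ => 0
  | n + 1 => step m τ U (iter m τ U n)

/-- sup-norm Lipschitz property of the drift -/
def SupLip (m : V → (V → ℝ) → I) : Prop :=
  ∀ (v : V) (y y' : V → ℝ) (δ : ℝ), 0 ≤ δ → (∀ u, |y u - y' u| ≤ δ) →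
    |(m v y : ℝ) - m v y'| ≤ 2 * δ

lemma sum_two_pow (k : ℕ) (M : ℝ) (hM : 0 ≤ M) :
    ∑ j ∈ Finset.range (k + 1), (2 / 3) * (M * 2 ^ j) ≤ (2 / 3) * (M * 2 ^ (k + 1)) := by
  have h : ∑ j ∈ Finset.range (k + 1), (2 : ℝ) ^ j = 2 ^ (k + 1) - 1 := by
    have := geom_sum_eq (by norm_num : (2 : ℝ) ≠ 1) (k + 1)
    rw [this]; norm_num
  calc ∑ j ∈ Finset.range (k + 1), (2 / 3) * (M * 2 ^ j)
      = (2 / 3) * (M * ∑ j ∈ Finset.range (k + 1), (2 : ℝ) ^ j) := by
        rw [Finset.mul_sum, Finset.mul_sum]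
    _ ≤ _ := by rw [h]; nlinarith

lemma past_sub_le {τ z z' : V × ℕ → I} {M : ℝ} (hM : 0 ≤ M)
    (h : ∀ b, |(z b : ℝ) - z' b| ≤ M * 2 ^ b.2) (b : V × ℕ) (u : V) :
    |past τ z b u - past τ z' b u| ≤ (2 / 3) * (M * 2 ^ (b.2 + 1)) := by
  classical
  unfold past
  rw [← Finset.sum_sub_distrib]
  refine (Finset.abs_sum_le_sum_abs _ _).trans ((Finset.sum_le_sum fun j _ => ?_).trans
    (sum_two_pow b.2 M hM))
  split_ifs with hp
  · refine (abs_ell_sub_le _ _).trans ?_
    have := h (u, j)
    simpa using this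
  · simp only [sub_self, abs_zero]
    positivity

lemma step_sub_le {m : V → (V → ℝ) → I} (hm : SupLip m) {τ U z z' : V × ℕ → I} {M : ℝ}
    (hM : 0 ≤ M) (h : ∀ b, |(z b : ℝ) - z' b| ≤ M * 2 ^ b.2) (b : V × ℕ) :
    |(step m τ U z b : ℝ) - step m τ U z' b| ≤ (M / 2) * 2 ^ b.2 := by
  unfold step
  have h1 := hm b.1 (past τ z b) (past τ z' b) ((2 / 3) * (M * 2 ^ (b.2 + 1))) (by positivity)
    (fun u => past_sub_le hM h b u)
  have h2 := abs_Q_sub_le (m b.1 (past τ z b)) (m b.1 (past τ z' b)) (U b)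
  have h3 : (0 : ℝ) ≤ M * 2 ^ b.2 := by positivity
  rw [pow_succ] at h1
  nlinarith

lemma iter_sub_le {m : V → (V → ℝ) → I} (hm : SupLip m) {τ U z : V × ℕ → I}
    (hz : ∀ b, z b = step m τ U z b) (n : ℕ) (b : V × ℕ) :
    |(iter m τ U n b : ℝ) - z b| ≤ (1 / 2) ^ n * 2 ^ b.2 := by
  induction n generalizing b with
  | zero =>
    have h1 : (1 : ℝ) ≤ 2 ^ b.2 := one_le_pow₀ (by norm_num)
    have h2 := (z b).2.1
    have h3 := (z b).2.2
    simp only [iter, pow_zero, one_mul]
    rw [abs_le]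
    constructor
    · simp; linarith
    · simp; linarith
  | succ n ih =>
    have h1 := step_sub_le hm (τ := τ) (U := U) (M := (1 / 2 : ℝ) ^ n) (by positivity) ih b
    rw [← hz b] at h1
    change |((step m τ U (iter m τ U n) b : I) : ℝ) - z b| ≤ _
    rw [pow_succ]
    linarith

lemma tendsto_iter {m : V → (V → ℝ) → I} (hm : SupLip m) {τ U z : V × ℕ → I}
    (hz : ∀ b, z b = step m τ U z b) (b : V × ℕ) :
    Tendsto (fun n => iter m τ U n b) atTop (𝓝 (z b)) := by
  rw [tendsto_subtype_rng]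
  rw [← tendsto_sub_nhds_zero_iff]
  refine squeeze_zero_norm (a := fun n : ℕ => (1 / 2 : ℝ) ^ n * 2 ^ b.2) (fun n => ?_) ?_
  · simpa using iter_sub_le hm hz n b
  · have := (tendsto_pow_atTop_nhds_zero_of_lt_one (by norm_num : (0 : ℝ) ≤ 1 / 2)
      (by norm_num)).mul_const ((2 : ℝ) ^ b.2)
    simpa using this

/-- the limit of the Picard iteration -/
noncomputable def lim (m : V → (V → ℝ) → I) (τ U : V × ℕ → I) (b : V × ℕ) : I :=
  limsup (fun n => iter m τ U n b) atTop

lemma lim_eq {m : V → (V → ℝ) → I} (hm : SupLip m) {τ U z : V × ℕ → I}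
    (hz : ∀ b, z b = step m τ U z b) : lim m τ U = z := by
  funext b
  exact (tendsto_iter hm hz b).limsup_eq

open Classical in
/-- recover the configuration from the observations -/
noncomputable def recover (z : V × ℕ → I) (v : V) : Bool :=
  decide (∃ N : ℕ, ∀ K ≥ N, ∑ k ∈ Finset.range K, (z (v, k) : ℝ) < 23 / 48 * K)

/-- the factor map -/
noncomputable def out (m : V → (V → ℝ) → I) (τ U : V × ℕ → I) : V → Bool :=
  recover (lim m τ U)

/-! ### Measurability -/

lemma measurable_ell : Measurable ell := continuous_ell.measurable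

lemma measurable_Q' {α : Type*} [MeasurableSpace α] {f g : α → I} (hf : Measurable f)
    (hg : Measurable g) : Measurable (fun a => Q (f a) (g a)) :=
  continuous_Q.measurable.comp (hf.prodMk hg)

lemma measurable_H' {α : Type*} [MeasurableSpace α] {f g : α → I} (hf : Measurable f)
    (hg : Measurable g) : Measurable (fun a => H (f a) (g a)) :=
  continuous_H.measurable.comp (hf.prodMk hg)

lemma measurableSet_Prec {α : Type*} [MeasurableSpace α] {τ : α → V × ℕ → I}
    (hτ : ∀ b, Measurable (fun a => τ a b)) (x b : V × ℕ) :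
    MeasurableSet {a | Prec (τ a) x b} := by
  unfold Prec
  by_cases h1 : x.2 < b.2
  · simp [h1]
  · by_cases h2 : x.2 = b.2
    · simp only [h2, true_and, lt_self_iff_false, false_or]
      exact measurableSet_lt (hτ x) (hτ b)
    · simp [h1, h2]

lemma measurable_past {α : Type*} [MeasurableSpace α] {τ z : α → V × ℕ → I}
    (hτ : ∀ b, Measurable (fun a => τ a b)) (hz : ∀ b, Measurable (fun a => z a b)) (b : V × ℕ) :
    Measurable (fun a => past (τ a) (z a) b) := by
  classical
  rw [measurable_pi_iff]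
  intro u
  unfold past
  refine Finset.measurable_sum _ fun j _ => ?_
  refine Measurable.ite (measurableSet_Prec hτ _ _) ?_ measurable_const
  exact measurable_ell.comp (hz _)

lemma measurable_iter {α : Type*} [MeasurableSpace α] {m : α → V → (V → ℝ) → I}
    (hm : ∀ v, Measurable (fun p : α × (V → ℝ) => m p.1 v p.2)) {τ U : α → V × ℕ → I}
    (hτ : ∀ b, Measurable (fun a => τ a b)) (hU : ∀ b, Measurable (fun a => U a b)) (n : ℕ)
    (b : V × ℕ) : Measurable (fun a => iter (m a) (τ a) (U a) n b) := by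
  induction n generalizing b with
  | zero => exact measurable_const
  | succ n ih =>
    change Measurable (fun a => step (m a) (τ a) (U a) (iter (m a) (τ a) (U a) n) b)
    unfold step
    refine measurable_Q' ?_ (hU b)
    have h1 := measurable_past (z := fun a => iter (m a) (τ a) (U a) n) hτ ih b
    exact (hm b.1).comp (measurable_id.prodMk h1)

lemma measurable_lim {α : Type*} [MeasurableSpace α] {m : α → V → (V → ℝ) → I}
    (hm : ∀ v, Measurable (fun p : α × (V → ℝ) => m p.1 v p.2)) {τ U : α → V × ℕ → I}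
    (hτ : ∀ b, Measurable (fun a => τ a b)) (hU : ∀ b, Measurable (fun a => U a b))
    (b : V × ℕ) : Measurable (fun a => lim (m a) (τ a) (U a) b) := by
  unfold lim
  exact Measurable.limsup fun n => measurable_iter hm hτ hU n b

lemma measurable_recover {α : Type*} [MeasurableSpace α] {z : α → V × ℕ → I}
    (hz : ∀ b, Measurable (fun a => z a b)) (v : V) :
    Measurable (fun a => recover (z a) v) := by
  classical
  unfold recover
  refine measurable_to_bool ?_
  have : (fun a => decide (∃ N : ℕ, ∀ K ≥ N, ∑ k ∈ Finset.range K, (z a (v, k) : ℝ) < 23 / 48 * K))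
      ⁻¹' {true} = ⋃ N : ℕ, ⋂ K : ℕ, ⋂ (_ : K ≥ N),
        {a | ∑ k ∈ Finset.range K, (z a (v, k) : ℝ) < 23 / 48 * K} := by
    ext a; simp
  rw [this]
  refine MeasurableSet.iUnion fun N => MeasurableSet.iInter fun K => MeasurableSet.iInter fun _ => ?_
  refine measurableSet_lt ?_ measurable_const
  exact Finset.measurable_sum _ fun k _ => measurable_subtype_coe.comp (hz _)

lemma measurable_out {α : Type*} [MeasurableSpace α] {m : α → V → (V → ℝ) → I}
    (hm : ∀ v, Measurable (fun p : α × (V → ℝ) => m p.1 v p.2)) {τ U : α → V × ℕ → I}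
    (hτ : ∀ b, Measurable (fun a => τ a b)) (hU : ∀ b, Measurable (fun a => U a b))
    (v : V) : Measurable (fun a => out (m a) (τ a) (U a) v) :=
  measurable_recover (z := fun a => lim (m a) (τ a) (U a)) (measurable_lim hm hτ hU) v

/-! ### Equivariance -/

section Equiv

variable {W : Type*}

/-- relabelling of label fields -/
def relab (e : V → W) (f : W × ℕ → I) : V × ℕ → I := fun b => f (e b.1, b.2)

lemma past_relab (e : V → W) (τ z : W × ℕ → I) (b : V × ℕ) (u : V) :
    past (relab e τ) (relab e z) b u = past τ z (e b.1, b.2) (e u) := by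
  classical
  unfold past
  refine Finset.sum_congr rfl fun j _ => ?_
  have : Prec (relab e τ) (u, j) b ↔ Prec τ (e u, j) (e b.1, b.2) := Iff.rfl
  simp only [this]
  rfl

lemma iter_relab (e : V → W) {m : V → (V → ℝ) → I} {m' : W → (W → ℝ) → I}
    (hm : ∀ v y, m' (e v) y = m v (y ∘ e)) (τ U : W × ℕ → I) (n : ℕ) :
    iter m (relab e τ) (relab e U) n = relab e (iter m' τ U n) := by
  induction n with
  | zero => rfl
  | succ n ih =>
    funext b
    change step m (relab e τ) (relab e U) (iter m (relab e τ) (relab e U) n) b =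
      step m' τ U (iter m' τ U n) (e b.1, b.2)
    rw [ih]
    unfold step
    rw [hm]
    have h1 : past (relab e τ) (relab e (iter m' τ U n)) b =
        past τ (iter m' τ U n) (e b.1, b.2) ∘ e := by
      funext u
      exact past_relab e τ _ b u
    rw [h1]
    rfl

lemma lim_relab (e : V → W) {m : V → (V → ℝ) → I} {m' : W → (W → ℝ) → I}
    (hm : ∀ v y, m' (e v) y = m v (y ∘ e)) (τ U : W × ℕ → I) :
    lim m (relab e τ) (relab e U) = relab e (lim m' τ U) := by
  funext b
  unfold lim relab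
  have := fun n => congrFun (iter_relab e hm τ U n) b
  unfold relab at this
  simp only [this]

/-- the output transforms equivariantly; `e` need not be bijective. -/
theorem out_relab (e : V → W) {m : V → (V → ℝ) → I} {m' : W → (W → ℝ) → I}
    (hm : ∀ v y, m' (e v) y = m v (y ∘ e)) (τ U : W × ℕ → I) (v : V) :
    out m (relab e τ) (relab e U) v = out m' τ U (e v) := by
  unfold out recover
  rw [lim_relab e hm]
  rfl

end Equiv

end Crest.Agent.FIID
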