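import Crest.Agent.FIIDCore

set_option autoImplicit false

namespace Crest.Agent.FIID

open MeasureTheory unitInterval Set Filter Topology ProbabilityTheory
open scoped ENNReal

/-! ### the iid label measure and resampling -/

/-- independent uniform labels -/
noncomputable def μI (ι : Type*) : Measure (ι → I) :=
  Measure.infinitePi (fun _ : ι => (volume : Measure I))

instance (ι : Type*) : IsProbabilityMeasure (μI ι) := by unfold μI; infer_instance

section resample

variable {ι : Type*} [DecidableEq ι]

lemma measurable_update' (i : ι) :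
    Measurable (fun p : (ι → I) × I => Function.update p.1 i p.2) := by
  rw [measurable_pi_iff]
  intro j
  by_cases h : j = i
  · subst h; simpa using measurable_snd
  · simp only [Function.update_of_ne h]
    exact (measurable_pi_apply j).comp measurable_fst

theorem map_update (i : ι) :
    ((μI ι).prod (volume : Measure I)).map (fun p => Function.update p.1 i p.2) = μI ι := by
  unfold μI
  refine Measure.eq_infinitePi _ fun s t ht => ?_
  rw [Measure.map_apply (measurable_update' i) (.pi s.countable_toSet fun _ _ => ht _)]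
  by_cases hi : i ∈ s
  · have h1 : (fun p : (ι → I) × I => Function.update p.1 i p.2) ⁻¹' ((s : Set ι).pi t) =
        (((s.erase i : Finset ι) : Set ι).pi t) ×ˢ (t i) := by
      ext p
      simp only [mem_preimage, Set.mem_pi, mem_prod]
      constructor
      · intro h
        refine ⟨fun j hj => ?_, ?_⟩
        · have hj' := Finset.mem_erase.1 (Finset.mem_coe.1 hj)
          have := h j (Finset.mem_coe.2 hj'.2)
          rwa [Function.update_of_ne hj'.1] at this
        · have := h i (Finset.mem_coe.2 hi)
          rwa [Function.update_self] at this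
      · rintro ⟨h1, h2⟩ j hj
        by_cases hji : j = i
        · subst hji; rwa [Function.update_self]
        · rw [Function.update_of_ne hji]
          exact h1 j (Finset.mem_coe.2 (Finset.mem_erase.2 ⟨hji, hj⟩))
    rw [h1, Measure.prod_prod, Measure.infinitePi_pi _ (fun j _ => ht j), mul_comm,
      Finset.mul_prod_erase s (fun j => volume (t j)) hi]
  · have h1 : (fun p : (ι → I) × I => Function.update p.1 i p.2) ⁻¹' ((s : Set ι).pi t) =
        ((s : Set ι).pi t) ×ˢ univ := by
      ext p
      simp only [mem_preimage, Set.mem_pi, mem_prod, mem_univ, and_true]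
      refine forall₂_congr fun j hj => ?_
      have : j ≠ i := fun h => hi (h ▸ (Finset.mem_coe.1 hj))
      rw [Function.update_of_ne this]
    rw [h1, Measure.prod_prod, Measure.infinitePi_pi _ (fun j _ => ht j)]
    simp

theorem lintegral_resample (g : (ι → I) → ℝ≥0∞) (hg : Measurable g) (i : ι) :
    ∫⁻ w, g w ∂(μI ι) = ∫⁻ w, (∫⁻ u : I, g (Function.update w i u)) ∂(μI ι) := by
  conv_lhs => rw [← map_update i]
  rw [lintegral_map hg (measurable_update' i)]
  exact lintegral_prod (fun p : (ι → I) × I => g (Function.update p.1 i p.2))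
    (hg.comp (measurable_update' i)).aemeasurable

end resample

/-! ### observations -/

/-- truth value as a point of the unit interval -/
def b2i (b : Bool) : I := if b then 1 else 0

/-- truth value as a real -/
def b2r (b : Bool) : ℝ := if b then 1 else 0

lemma b2r_nonneg (b : Bool) : 0 ≤ b2r b := by cases b <;> simp [b2r]
lemma b2r_le_one (b : Bool) : b2r b ≤ 1 := by cases b <;> simp [b2r]
lemma coe_b2i (b : Bool) : (b2i b : ℝ) = b2r b := by cases b <;> simp [b2i, b2r]

lemma dens_b2i (b : Bool) (z : I) : dens (b2i b) z = Real.exp (ell z * b2r b) := by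
  cases b
  · simp [b2i, b2r, dens_zero]
  · simp [b2i, b2r, dens_one]

section

variable {V : Type*}

/-- the observations -/
noncomputable def Zf (x : V → Bool) (w : V × ℕ → I) (b : V × ℕ) : I := Q (b2i (x b.1)) (w b)

open Classical in
/-- partial observations -/
noncomputable def Zp (J : Finset (V × ℕ)) (x : V → Bool) (w : V × ℕ → I) (b : V × ℕ) : I :=
  if b ∈ J then Q (b2i (x b.1)) (w b) else w b

lemma measurable_Zf (x : V → Bool) : Measurable (Zf x) := by
  rw [measurable_pi_iff]
  intro b
  exact (measurable_Q _).comp (measurable_pi_apply b)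

lemma measurable_Zp (J : Finset (V × ℕ)) (x : V → Bool) : Measurable (Zp J x) := by
  rw [measurable_pi_iff]
  intro b
  unfold Zp
  split_ifs with h
  · exact (measurable_Q _).comp (measurable_pi_apply b)
  · exact measurable_pi_apply b

open Classical in
theorem lintegral_Zp (J : Finset (V × ℕ)) (x : V → Bool) (g : (V × ℕ → I) → ℝ≥0∞)
    (hg : Measurable g) :
    ∫⁻ w, g (Zp J x w) ∂(μI (V × ℕ)) =
      ∫⁻ w, g w * ∏ j ∈ J, ENNReal.ofReal (dens (b2i (x j.1)) (w j)) ∂(μI (V × ℕ)) := by
  induction J using Finset.induction_on generalizing g with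
  | empty =>
    have h0 : ∀ w : V × ℕ → I, Zp ∅ x w = w := fun w => by funext b; simp [Zp]
    simp [h0]
  | insert j J hj ih =>
    have h1 : ∀ (w : V × ℕ → I) (u : I), Zp (insert j J) x (Function.update w j u) =
        Function.update (Zp J x w) j (Q (b2i (x j.1)) u) := by
      intro w u
      funext b
      by_cases hb : b = j
      · subst hb
        simp [Zp]
      · simp [Zp, Finset.mem_insert, hb]
    have h2 : ∀ (w : V × ℕ → I) (u : I), Zp J x (Function.update w j u) =
        Function.update (Zp J x w) j u := by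
      intro w u
      funext b
      by_cases hb : b = j
      · subst hb
        simp [Zp, hj]
      · simp [Zp, Function.update_of_ne hb]
    have h0 := lintegral_resample (fun w => g (Zp (insert j J) x w))
      (hg.comp (measurable_Zp _ x)) j
    rw [h0]
    have h3 : ∀ w : V × ℕ → I,
        ∫⁻ u : I, g (Zp (insert j J) x (Function.update w j u)) =
        ∫⁻ u : I, (fun z => g z * ENNReal.ofReal (dens (b2i (x j.1)) (z j)))
          (Zp J x (Function.update w j u)) := by
      intro w
      have hm : Measurable fun u : I => g (Function.update (Zp J x w) j u) := by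
        exact hg.comp (measurable_update _)
      have := lintegral_Q (b2i (x j.1)) (fun u => g (Function.update (Zp J x w) j u)) hm
      simp only [h1, h2, Function.update_self]
      rw [this]
    rw [lintegral_congr h3]
    have hm2 : Measurable (fun z : V × ℕ → I =>
        g z * ENNReal.ofReal (dens (b2i (x j.1)) (z j))) :=
      hg.mul ((measurable_dens _).comp (measurable_pi_apply j)).ennreal_ofReal
    have h4 := lintegral_resample _ (hm2.comp (measurable_Zp J x)) j
    simp only [Function.comp_apply] at h4
    rw [← h4]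
    have h5 := ih (fun z => g z * ENNReal.ofReal (dens (b2i (x j.1)) (z j))) hm2
    rw [h5]
    refine lintegral_congr fun w => ?_
    rw [Finset.prod_insert hj, mul_assoc]

open Classical in
/-- the finite set of observations of sites in `F` made before `b` -/
noncomputable def Jset (τ : V × ℕ → I) (b : V × ℕ) (F : Finset V) : Finset (V × ℕ) :=
  (F ×ˢ Finset.range (b.2 + 1)).filter (fun a => Prec τ a b)

lemma mem_Jset {τ : V × ℕ → I} {b : V × ℕ} {F : Finset V} {a : V × ℕ} :
    a ∈ Jset τ b F ↔ a.1 ∈ F ∧ Prec τ a b := by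
  classical
  unfold Jset
  simp only [Finset.mem_filter, Finset.mem_product, Finset.mem_range]
  constructor
  · rintro ⟨⟨h1, _⟩, h2⟩; exact ⟨h1, h2⟩
  · rintro ⟨h1, h2⟩; exact ⟨⟨h1, Nat.lt_succ_of_le h2.le⟩, h2⟩

lemma prod_dens (τ : V × ℕ → I) (b : V × ℕ) (F : Finset V) (x : V → Bool) (w : V × ℕ → I) :
    ∏ j ∈ Jset τ b F, ENNReal.ofReal (dens (b2i (x j.1)) (w j)) =
      ENNReal.ofReal (Real.exp (∑ u ∈ F, past τ w b u * b2r (x u))) := by
  classical
  rw [← ENNReal.ofReal_prod_of_nonneg (fun j _ => dens_nonneg _ _)]
  congr 1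
  simp only [dens_b2i]
  rw [← Real.exp_sum]
  congr 1
  unfold Jset past
  rw [Finset.sum_filter, Finset.sum_product]
  refine Finset.sum_congr rfl fun u _ => ?_
  rw [Finset.sum_mul]
  refine Finset.sum_congr rfl fun j _ => ?_
  split_ifs <;> simp

/-! ### tilted means -/

/-- unnormalised tilted mean -/
noncomputable def tnum (ν : Measure (V → Bool)) (F : Finset V) (v : V) (y : V → ℝ) : ℝ :=
  ∫ x, b2r (x v) * Real.exp (∑ u ∈ F, y u * b2r (x u)) ∂ν

/-- normalisation -/
noncomputable def tden (ν : Measure (V → Bool)) (F : Finset V) (y : V → ℝ) : ℝ :=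
  ∫ x, Real.exp (∑ u ∈ F, y u * b2r (x u)) ∂ν

/-- tilted mean -/
noncomputable def tiltI (ν : Measure (V → Bool)) (F : Finset V) (v : V) (y : V → ℝ) : I :=
  Set.projIcc 0 1 zero_le_one (tnum ν F v y / tden ν F y)

lemma measurable_b2r : Measurable b2r := measurable_of_countable _

lemma measurable_b2i : Measurable b2i := measurable_of_countable _

lemma measurable_expo (F : Finset V) :
    Measurable (fun p : (V → ℝ) × (V → Bool) => Real.exp (∑ u ∈ F, p.1 u * b2r (p.2 u))) := by
  refine Real.measurable_exp.comp (Finset.measurable_sum _ fun u _ => ?_)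
  refine Measurable.mul ?_ ?_
  · exact (measurable_pi_apply u).comp measurable_fst
  · exact measurable_b2r.comp ((measurable_pi_apply u).comp measurable_snd)

lemma expo_le (F : Finset V) (y : V → ℝ) (x : V → Bool) :
    Real.exp (∑ u ∈ F, y u * b2r (x u)) ≤ Real.exp (∑ u ∈ F, |y u|) := by
  refine Real.exp_le_exp.2 (Finset.sum_le_sum fun u _ => ?_)
  have h1 := b2r_nonneg (x u)
  have h2 := b2r_le_one (x u)
  have h3 := le_abs_self (y u)
  have h4 := abs_nonneg (y u)
  nlinarith

lemma le_expo (F : Finset V) (y : V → ℝ) (x : V → Bool) :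
    Real.exp (-∑ u ∈ F, |y u|) ≤ Real.exp (∑ u ∈ F, y u * b2r (x u)) := by
  refine Real.exp_le_exp.2 ?_
  rw [← Finset.sum_neg_distrib]
  refine Finset.sum_le_sum fun u _ => ?_
  have h1 := b2r_nonneg (x u)
  have h2 := b2r_le_one (x u)
  have h3 := neg_abs_le (y u)
  have h4 := abs_nonneg (y u)
  nlinarith

variable (ν : Measure (V → Bool)) [IsProbabilityMeasure ν]

lemma integrable_expo (F : Finset V) (y : V → ℝ) :
    Integrable (fun x => Real.exp (∑ u ∈ F, y u * b2r (x u))) ν := by
  refine Integrable.of_bound (C := Real.exp (∑ u ∈ F, |y u|)) ?_ ?_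
  · exact ((measurable_expo F).comp (measurable_const.prodMk measurable_id)).aestronglyMeasurable
  · refine Eventually.of_forall fun x => ?_
    rw [Real.norm_eq_abs, abs_of_pos (Real.exp_pos _)]
    exact expo_le F y x

lemma integrable_numer (F : Finset V) (v : V) (y : V → ℝ) :
    Integrable (fun x => b2r (x v) * Real.exp (∑ u ∈ F, y u * b2r (x u))) ν := by
  refine Integrable.of_bound (C := Real.exp (∑ u ∈ F, |y u|)) ?_ ?_
  · refine Measurable.aestronglyMeasurable (Measurable.mul ?_ ?_)
    · exact measurable_b2r.comp (measurable_pi_apply v)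
    · exact ((measurable_expo F).comp (measurable_const.prodMk measurable_id))
  · refine Eventually.of_forall fun x => ?_
    rw [Real.norm_eq_abs, abs_of_nonneg (mul_nonneg (b2r_nonneg _) (Real.exp_pos _).le)]
    have h1 := b2r_le_one (x v)
    have h2 := b2r_nonneg (x v)
    have h3 := expo_le F y x
    have h4 := Real.exp_pos (∑ u ∈ F, y u * b2r (x u))
    nlinarith

lemma tden_pos (F : Finset V) (y : V → ℝ) : 0 < tden ν F y := by
  unfold tden
  have h : Real.exp (-∑ u ∈ F, |y u|) ≤ ∫ x, Real.exp (∑ u ∈ F, y u * b2r (x u)) ∂ν := by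
    calc Real.exp (-∑ u ∈ F, |y u|) = ∫ _, Real.exp (-∑ u ∈ F, |y u|) ∂ν := by simp
      _ ≤ _ := integral_mono (integrable_const _) (integrable_expo ν F y) (le_expo F y)
  exact (Real.exp_pos _).trans_le h

omit [IsProbabilityMeasure ν] in
lemma tnum_nonneg (F : Finset V) (v : V) (y : V → ℝ) : 0 ≤ tnum ν F v y :=
  integral_nonneg fun _ => mul_nonneg (b2r_nonneg _) (Real.exp_pos _).le

lemma tnum_le_tden (F : Finset V) (v : V) (y : V → ℝ) : tnum ν F v y ≤ tden ν F y := by
  refine integral_mono (integrable_numer ν F v y) (integrable_expo ν F y) fun x => ?_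
  have h1 := b2r_le_one (x v)
  have h4 := Real.exp_pos (∑ u ∈ F, y u * b2r (x u))
  simp only
  nlinarith

lemma coe_tiltI (F : Finset V) (v : V) (y : V → ℝ) :
    (tiltI ν F v y : ℝ) = tnum ν F v y / tden ν F y := by
  unfold tiltI
  rw [Set.projIcc_of_mem]
  exact ⟨div_nonneg (tnum_nonneg ν F v y) (tden_pos ν F y).le,
    (div_le_one (tden_pos ν F y)).2 (tnum_le_tden ν F v y)⟩

omit [IsProbabilityMeasure ν] in
lemma tiltI_congr (F : Finset V) (v : V) {y y' : V → ℝ} (h : ∀ u ∈ F, y u = y' u) :
    tiltI ν F v y = tiltI ν F v y' := by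
  have h1 : ∀ x : V → Bool, ∑ u ∈ F, y u * b2r (x u) = ∑ u ∈ F, y' u * b2r (x u) := fun x =>
    Finset.sum_congr rfl fun u hu => by rw [h u hu]
  unfold tiltI tnum tden
  simp only [h1]

lemma measurable_tnum (F : Finset V) (v : V) : Measurable (fun y => tnum ν F v y) := by
  unfold tnum
  have : StronglyMeasurable (fun p : (V → ℝ) × (V → Bool) =>
      b2r (p.2 v) * Real.exp (∑ u ∈ F, p.1 u * b2r (p.2 u))) := by
    refine Measurable.stronglyMeasurable (Measurable.mul ?_ (measurable_expo F))
    exact measurable_b2r.comp ((measurable_pi_apply v).comp measurable_snd)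
  exact (this.integral_prod_right (ν := ν)).measurable

lemma measurable_tden (F : Finset V) : Measurable (fun y => tden ν F y) := by
  unfold tden
  exact ((measurable_expo F).stronglyMeasurable.integral_prod_right (ν := ν)).measurable

lemma measurable_tiltI (F : Finset V) (v : V) : Measurable (tiltI ν F v) := by
  unfold tiltI
  exact continuous_projIcc.measurable.comp ((measurable_tnum ν F v).div (measurable_tden ν F))

end

end Crest.Agent.FIID
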