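import Crest.Agent.FIIDLaw

set_option autoImplicit false

namespace Crest.Agent.FIID

open MeasureTheory unitInterval Set Filter Topology ProbabilityTheory
open scoped ENNReal

section

variable {V : Type*}

/-- configurations and label fields -/
abbrev Om (V : Type*) := (V → Bool) × (V × ℕ → I)

/-- joint observation map -/
noncomputable def ZZ (p : Om V) : V × ℕ → I := Zf p.1 p.2

lemma measurable_ZZ : Measurable (ZZ (V := V)) := by
  rw [measurable_pi_iff]
  intro b
  refine measurable_Q' ?_ ?_
  · exact measurable_b2i.comp ((measurable_pi_apply b.1).comp measurable_fst)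
  · exact (measurable_pi_apply b).comp measurable_snd

variable (ν : Measure (V → Bool)) [IsProbabilityMeasure ν]

/-- joint law -/
noncomputable def PP : Measure (Om V) := ν.prod (μI (V × ℕ))

instance : IsProbabilityMeasure (PP ν) := by unfold PP; infer_instance

/-- likelihood of the observations -/
noncomputable def EE (τ : V × ℕ → I) (b : V × ℕ) (F : Finset V) (x : V → Bool)
    (w : V × ℕ → I) : ℝ≥0∞ :=
  ENNReal.ofReal (Real.exp (∑ u ∈ F, past τ w b u * b2r (x u)))

lemma measurable_past1 (τ : V × ℕ → I) (b : V × ℕ) :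
    Measurable (fun z : V × ℕ → I => past τ z b) :=
  measurable_past (τ := fun _ => τ) (z := fun z : V × ℕ → I => z)
    (fun _ => measurable_const) (fun c => measurable_pi_apply c) b

lemma measurable_EE (τ : V × ℕ → I) (b : V × ℕ) (F : Finset V) :
    Measurable (Function.uncurry (EE τ b F)) := by
  have h1 : Measurable (fun p : (V → Bool) × (V × ℕ → I) => (past τ p.2 b, p.1)) :=
    Measurable.prodMk ((measurable_past1 τ b).comp measurable_snd) measurable_fst
  exact ((measurable_expo F).comp h1).ennreal_ofReal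

lemma measurable_EE_right (τ : V × ℕ → I) (b : V × ℕ) (F : Finset V) (x : V → Bool) :
    Measurable (fun w : V × ℕ → I => EE τ b F x w) :=
  (measurable_EE τ b F).of_uncurry_left

lemma measurable_EE_left (τ : V × ℕ → I) (b : V × ℕ) (F : Finset V) (w : V × ℕ → I) :
    Measurable (fun x : V → Bool => EE τ b F x w) :=
  (measurable_EE τ b F).of_uncurry_right

lemma lintegral_Zf_dep (τ : V × ℕ → I) (b : V × ℕ) (F : Finset V) (x : V → Bool)
    (h : (V × ℕ → I) → ℝ≥0∞) (hh : Measurable h)
    (hdep : ∀ z z' : V × ℕ → I, (∀ j ∈ Jset τ b F, z j = z' j) → h z = h z') :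
    ∫⁻ w, h (Zf x w) ∂(μI (V × ℕ)) = ∫⁻ w, h w * EE τ b F x w ∂(μI (V × ℕ)) := by
  classical
  have h1 : ∀ w, h (Zf x w) = h (Zp (Jset τ b F) x w) := by
    intro w
    refine hdep _ _ fun j hj => ?_
    simp [Zf, Zp, hj]
  rw [lintegral_congr h1, lintegral_Zp _ x h hh]
  refine lintegral_congr fun w => ?_
  rw [prod_dens]
  rfl

/-- integration of a function of finitely many observations and of the configuration -/
theorem lintegral_mix (τ : V × ℕ → I) (b : V × ℕ) (F : Finset V)
    (c : (V → Bool) → ℝ≥0∞) (hc : Measurable c)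
    (h : (V × ℕ → I) → ℝ≥0∞) (hh : Measurable h)
    (hdep : ∀ z z' : V × ℕ → I, (∀ j ∈ Jset τ b F, z j = z' j) → h z = h z') :
    ∫⁻ p, c p.1 * h (ZZ p) ∂(PP ν) =
      ∫⁻ w, h w * (∫⁻ x, c x * EE τ b F x w ∂ν) ∂(μI (V × ℕ)) := by
  have hm1 : Measurable (fun p : Om V => c p.1 * h (ZZ p)) :=
    (hc.comp measurable_fst).mul (hh.comp measurable_ZZ)
  have e1 := lintegral_prod (μ := ν) (ν := μI (V × ℕ))
    (fun p : Om V => c p.1 * h (ZZ p)) hm1.aemeasurable
  unfold PP
  rw [e1]
  have h1 : ∀ x : V → Bool,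
      ∫⁻ w, c x * h (Zf x w) ∂(μI (V × ℕ)) =
      ∫⁻ w, h w * (c x * EE τ b F x w) ∂(μI (V × ℕ)) := by
    intro x
    have hm5 : Measurable (fun w : V × ℕ → I => h w * EE τ b F x w) :=
      hh.mul (measurable_EE_right τ b F x)
    have hm6 : Measurable (fun w => h (Zf x w)) := hh.comp (measurable_Zf x)
    rw [lintegral_const_mul (c x) hm6,
      lintegral_Zf_dep τ b F x h hh hdep, ← lintegral_const_mul (c x) hm5]
    refine lintegral_congr fun w => ?_
    ring
  have h1' : ∫⁻ x, ∫⁻ w, c (x, w).1 * h (ZZ (x, w)) ∂(μI (V × ℕ)) ∂ν =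
      ∫⁻ x, ∫⁻ w, h w * (c x * EE τ b F x w) ∂(μI (V × ℕ)) ∂ν :=
    lintegral_congr h1
  rw [h1']
  have hm2 : Measurable (fun p : (V → Bool) × (V × ℕ → I) => h p.2 * (c p.1 *
      EE τ b F p.1 p.2)) :=
    (hh.comp measurable_snd).mul ((hc.comp measurable_fst).mul (measurable_EE τ b F))
  rw [lintegral_lintegral_swap (f := fun x w => h w * (c x * EE τ b F x w)) hm2.aemeasurable]
  refine lintegral_congr fun w => ?_
  have hm3 : Measurable (fun x : V → Bool => c x * EE τ b F x w) :=
    hc.mul (measurable_EE_left τ b F w)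
  rw [lintegral_const_mul (h w) hm3]

/-- Bayes formula for finitely many observations. -/
theorem bayes (τ : V × ℕ → I) (b : V × ℕ) (F : Finset V) (v : V)
    (g : (V × ℕ → I) → ℝ≥0∞) (hg : Measurable g)
    (hdep : ∀ z z' : V × ℕ → I, (∀ j ∈ Jset τ b F, z j = z' j) → g z = g z') :
    ∫⁻ p, ENNReal.ofReal (b2r (p.1 v)) * g (ZZ p) ∂(PP ν) =
      ∫⁻ p, ENNReal.ofReal (tiltI ν F v (past τ (ZZ p) b)) * g (ZZ p) ∂(PP ν) := by
  have hX : Measurable (fun x : V → Bool => ENNReal.ofReal (b2r (x v))) :=
    (measurable_b2r.comp (measurable_pi_apply v)).ennreal_ofReal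
  have htilt : Measurable (fun z : V × ℕ → I => ENNReal.ofReal (tiltI ν F v (past τ z b))) :=
    (measurable_subtype_coe.comp
      ((measurable_tiltI ν F v).comp (measurable_past1 τ b))).ennreal_ofReal
  have hL := lintegral_mix ν τ b F (fun x : V → Bool => ENNReal.ofReal (b2r (x v))) hX g hg hdep
  have hh : Measurable (fun z : V × ℕ → I =>
      ENNReal.ofReal (tiltI ν F v (past τ z b)) * g z) := htilt.mul hg
  have hdep' : ∀ z z' : V × ℕ → I, (∀ j ∈ Jset τ b F, z j = z' j) →
      ENNReal.ofReal (tiltI ν F v (past τ z b)) * g z =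
      ENNReal.ofReal (tiltI ν F v (past τ z' b)) * g z' := by
    intro z z' hzz
    rw [hdep z z' hzz]
    rw [tiltI_congr ν F v (y := past τ z b) (y' := past τ z' b)]
    intro u hu
    classical
    unfold past
    refine Finset.sum_congr rfl fun j _ => ?_
    split_ifs with hp
    · rw [hzz (u, j) (mem_Jset.2 ⟨hu, hp⟩)]
    · rfl
  have hR := lintegral_mix ν τ b F (fun _ => 1) measurable_const _ hh hdep'
  simp only [one_mul] at hR
  rw [hL, hR]
  refine lintegral_congr fun w => ?_
  have h2 : ∀ x : V → Bool, ENNReal.ofReal (b2r (x v)) * EE τ b F x w =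
      ENNReal.ofReal (b2r (x v) * Real.exp (∑ u ∈ F, past τ w b u * b2r (x u))) := by
    intro x
    unfold EE
    rw [ENNReal.ofReal_mul (b2r_nonneg _)]
  have h3 : ∫⁻ x, ENNReal.ofReal (b2r (x v)) * EE τ b F x w ∂ν =
      ENNReal.ofReal (tnum ν F v (past τ w b)) := by
    rw [lintegral_congr h2]
    unfold tnum
    rw [ofReal_integral_eq_lintegral_ofReal (integrable_numer ν F v _)]
    exact Eventually.of_forall fun x => mul_nonneg (b2r_nonneg _) (Real.exp_pos _).le
  have h4 : ∫⁻ x, EE τ b F x w ∂ν = ENNReal.ofReal (tden ν F (past τ w b)) := by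
    unfold tden EE
    rw [ofReal_integral_eq_lintegral_ofReal (integrable_expo ν F _)]
    exact Eventually.of_forall fun x => (Real.exp_pos _).le
  rw [h3, h4, mul_right_comm, ← ENNReal.ofReal_mul (tiltI ν F v (past τ w b)).2.1, coe_tiltI,
    div_mul_cancel₀ _ (tden_pos ν F _).ne', mul_comm]

/-! ### sigma-algebras of observations -/

/-- sigma-algebra generated by the observations in `J` -/
@[instance_reducible] noncomputable def sA (J : Set (V × ℕ)) : MeasurableSpace (Om V) :=
  MeasurableSpace.comap (fun (p : Om V) (j : J) => ZZ p j) MeasurableSpace.pi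

lemma sA_le (J : Set (V × ℕ)) : sA J ≤ (inferInstance : MeasurableSpace (Om V)) := by
  rw [sA, ← measurable_iff_comap_le]
  rw [measurable_pi_iff]
  intro j
  exact (measurable_pi_apply (j : V × ℕ)).comp measurable_ZZ

lemma measurable_coord {J : Set (V × ℕ)} {j : V × ℕ} (hj : j ∈ J) :
    Measurable[sA J] (fun p : Om V => ZZ p j) := by
  have h1 : Measurable[sA J] (fun (p : Om V) (j : J) => ZZ p j) := comap_measurable _
  exact (measurable_pi_apply (⟨j, hj⟩ : J)).comp h1

lemma sA_mono {J J' : Set (V × ℕ)} (h : J ⊆ J') : sA (V := V) J ≤ sA J' := by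
  rw [sA, ← measurable_iff_comap_le]
  rw [@measurable_pi_iff]
  intro j
  exact measurable_coord (h j.2)

variable {Fn : V → ℕ → Finset V} (hmono : ∀ v, Monotone (Fn v)) (hex : ∀ v u, ∃ n, u ∈ Fn v n)

/-- filtration of the observations of sites in `Fn` made before `b` -/
noncomputable def filt (hmono : ∀ v, Monotone (Fn v)) (τ : V × ℕ → I) (b : V × ℕ) :
    Filtration ℕ (inferInstance : MeasurableSpace (Om V)) where
  seq n := sA (Jset τ b (Fn b.1 n) : Set (V × ℕ))
  mono' := by
    intro n n' h
    refine sA_mono ?_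
    intro a ha
    have := mem_Jset.1 (Finset.mem_coe.1 ha)
    exact Finset.mem_coe.2 (mem_Jset.2 ⟨hmono b.1 h this.1, this.2⟩)
  le' n := sA_le _

include hex in
lemma sA_le_iSup (τ : V × ℕ → I) (b : V × ℕ) :
    sA {a | Prec τ a b} ≤ ⨆ n, (filt hmono τ b) n := by
  rw [sA, ← measurable_iff_comap_le]
  rw [@measurable_pi_iff]
  intro j
  obtain ⟨n, hn⟩ := hex b.1 j.1.1
  have h1 : Measurable[(filt hmono τ b) n] (fun p : Om V => ZZ p j) :=
    measurable_coord (Finset.mem_coe.2 (mem_Jset.2 ⟨hn, j.2⟩))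
  exact h1.mono (le_iSup (fun n => (filt hmono τ b) n) n) le_rfl

lemma condExp_eq (τ : V × ℕ → I) (b : V × ℕ) (n : ℕ) :
    (fun p : Om V => (tiltI ν (Fn b.1 n) b.1 (past τ (ZZ p) b) : ℝ)) =ᵐ[PP ν]
      (PP ν)[fun p : Om V => b2r (p.1 b.1) | (filt hmono τ b) n] := by
  have hXm : Measurable (fun p : Om V => b2r (p.1 b.1)) :=
    measurable_b2r.comp ((measurable_pi_apply b.1).comp measurable_fst)
  have hpast := measurable_past1 τ b
  have hTm : Measurable (fun p : Om V => (tiltI ν (Fn b.1 n) b.1 (past τ (ZZ p) b) : ℝ)) :=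
    measurable_subtype_coe.comp ((measurable_tiltI ν _ _).comp (hpast.comp measurable_ZZ))
  have hXi : Integrable (fun p : Om V => b2r (p.1 b.1)) (PP ν) := by
    refine Integrable.of_bound (C := 1) hXm.aestronglyMeasurable
      (Eventually.of_forall fun p => ?_)
    rw [Real.norm_eq_abs, abs_of_nonneg (b2r_nonneg _)]
    exact b2r_le_one _
  have hTi : Integrable (fun p : Om V => (tiltI ν (Fn b.1 n) b.1 (past τ (ZZ p) b) : ℝ)) (PP ν) := by
    refine Integrable.of_bound (C := 1) hTm.aestronglyMeasurable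
      (Eventually.of_forall fun p => ?_)
    rw [Real.norm_eq_abs, abs_of_nonneg (tiltI ν _ _ _).2.1]
    exact (tiltI ν _ _ _).2.2
  refine ae_eq_condExp_of_forall_setIntegral_eq ((filt hmono τ b).le n) hXi
    (fun s _ _ => hTi.integrableOn) ?_ ?_
  · intro s hs _
    obtain ⟨A, hA, rfl⟩ := hs
    set g : (V × ℕ → I) → ℝ≥0∞ := fun z =>
      A.indicator 1 (fun j : ((Jset τ b (Fn b.1 n) : Set (V × ℕ)) : Set (V × ℕ)) => z j) with hgdef
    have hres : Measurable (fun (z : V × ℕ → I)
        (j : ((Jset τ b (Fn b.1 n) : Set (V × ℕ)) : Set (V × ℕ))) => z j) :=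
      measurable_pi_iff.2 fun j => measurable_pi_apply _
    have hg : Measurable g := (measurable_one.indicator hA).comp hres
    have hdep : ∀ z z' : V × ℕ → I, (∀ j ∈ Jset τ b (Fn b.1 n), z j = z' j) → g z = g z' := by
      intro z z' h
      rw [hgdef]
      simp only
      congr 1
      funext j
      exact h j (Finset.mem_coe.1 j.2)
    have key := bayes ν τ b (Fn b.1 n) b.1 g hg hdep
    have hs' : MeasurableSet ((fun (p : Om V)
        (j : ((Jset τ b (Fn b.1 n) : Set (V × ℕ)) : Set (V × ℕ))) => ZZ p j) ⁻¹' A) :=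
      (hres.comp measurable_ZZ) hA
    have conv : ∀ f : Om V → ℝ, (∀ p, 0 ≤ f p) → Measurable f →
        ∫ p in ((fun (p : Om V)
          (j : ((Jset τ b (Fn b.1 n) : Set (V × ℕ)) : Set (V × ℕ))) => ZZ p j) ⁻¹' A), f p ∂(PP ν) =
        (∫⁻ p, ENNReal.ofReal (f p) * g (ZZ p) ∂(PP ν)).toReal := by
      intro f hf0 hfm
      rw [integral_eq_lintegral_of_nonneg_ae (Eventually.of_forall hf0) hfm.aestronglyMeasurable]
      congr 1
      rw [← lintegral_indicator hs']
      refine lintegral_congr fun p => ?_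
      by_cases hp : (fun j : ((Jset τ b (Fn b.1 n) : Set (V × ℕ)) : Set (V × ℕ)) => ZZ p j) ∈ A
      · rw [indicator_of_mem (by exact hp)]
        have h1 : g (ZZ p) = 1 := by
          rw [hgdef]; exact indicator_of_mem hp _
        rw [h1, mul_one]
      · rw [indicator_of_notMem (by exact hp)]
        have h1 : g (ZZ p) = 0 := by
          rw [hgdef]; exact indicator_of_notMem hp _
        rw [h1, mul_zero]
    rw [conv _ (fun p => (tiltI ν _ _ _).2.1) hTm, conv _ (fun p => b2r_nonneg _) hXm, key]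
  · suffices hmeas : Measurable[(filt hmono τ b) n]
        (fun p : Om V => (tiltI ν (Fn b.1 n) b.1 (past τ (ZZ p) b) : ℝ)) from
      hmeas.stronglyMeasurable.aestronglyMeasurable
    -- measurability of the tilted mean
    have h1 : ∀ p : Om V, tiltI ν (Fn b.1 n) b.1 (past τ (ZZ p) b) =
        tiltI ν (Fn b.1 n) b.1 (fun u => by
          classical exact if u ∈ Fn b.1 n then past τ (ZZ p) b u else 0) := by
      intro p
      refine tiltI_congr ν _ _ fun u hu => ?_
      simp [hu]
    simp only [h1]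
    refine measurable_subtype_coe.comp ((measurable_tiltI ν _ _).comp ?_)
    rw [@measurable_pi_iff]
    intro u
    by_cases hu : u ∈ Fn b.1 n
    · simp only [hu, if_true]
      classical
      unfold past
      refine Finset.measurable_sum _ fun j _ => ?_
      by_cases hp : Prec τ (u, j) b
      · simp only [hp, if_true]
        refine measurable_ell.comp ?_
        exact measurable_coord (J := (Jset τ b (Fn b.1 n) : Set (V × ℕ)))
          (Finset.mem_coe.2 (mem_Jset.2 ⟨hu, hp⟩))
      · simp only [hp, if_false]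
        exact measurable_const
    · simp only [hu, if_false]
      exact measurable_const

end

end Crest.Agent.FIID
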