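import Crest.Agent.FIIDLaw2

set_option autoImplicit false

namespace Crest.Agent.FIID

open MeasureTheory unitInterval Set Filter Topology ProbabilityTheory
open scoped ENNReal

section

variable {V : Type*} (ν : Measure (V → Bool)) [IsProbabilityMeasure ν]
  {Fn : V → ℕ → Finset V}

/-- the drift as limsup of tilted means -/
noncomputable def driftOf (ν : Measure (V → Bool)) (Fn : V → ℕ → Finset V) (v : V)
    (y : V → ℝ) : I :=
  limsup (fun n => tiltI ν (Fn v n) v y) atTop

lemma measurable_driftOf (Fn : V → ℕ → Finset V) (v : V) : Measurable (driftOf ν Fn v) := by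
  unfold driftOf
  exact Measurable.limsup fun n => measurable_tiltI ν (Fn v n) v

theorem drift_ae (hmono : ∀ v, Monotone (Fn v)) (τ : V × ℕ → I) (b : V × ℕ) :
    (fun p : Om V => (driftOf ν Fn b.1 (past τ (ZZ p) b) : ℝ)) =ᵐ[PP ν]
      (PP ν)[fun p : Om V => b2r (p.1 b.1) | ⨆ n, (filt hmono τ b) n] := by
  have h1 := tendsto_ae_condExp (μ := PP ν) (ℱ := filt hmono τ b)
    (fun p : Om V => b2r (p.1 b.1))
  have h2 : ∀ᵐ p ∂(PP ν), ∀ n, (tiltI ν (Fn b.1 n) b.1 (past τ (ZZ p) b) : ℝ) =
      ((PP ν)[fun p : Om V => b2r (p.1 b.1) | (filt hmono τ b) n]) p :=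
    ae_all_iff.2 fun n => condExp_eq ν hmono τ b n
  filter_upwards [h1, h2] with p hp1 hp2
  set L := ((PP ν)[fun p : Om V => b2r (p.1 b.1) | ⨆ n, (filt hmono τ b) n]) p with hL
  have h3 : Tendsto (fun n => (tiltI ν (Fn b.1 n) b.1 (past τ (ZZ p) b) : ℝ)) atTop (𝓝 L) := by
    simpa only [hp2] using hp1
  have hmem : L ∈ Icc (0 : ℝ) 1 :=
    isClosed_Icc.mem_of_tendsto h3 (Eventually.of_forall fun n => (tiltI ν _ _ _).2)
  have h4 : Tendsto (fun n => tiltI ν (Fn b.1 n) b.1 (past τ (ZZ p) b)) atTop
      (𝓝 (⟨L, hmem⟩ : I)) := by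
    rw [tendsto_subtype_rng]
    exact h3
  unfold driftOf
  rw [h4.limsup_eq]

/-- conditional mean given the past, integrated form -/
theorem past_mean (hmono : ∀ v, Monotone (Fn v)) (hex : ∀ v u, ∃ n, u ∈ Fn v n)
    (τ : V × ℕ → I) (b : V × ℕ)
    (f : Om V → ℝ) (hf : Measurable[sA {a | Prec τ a b}] f) (C : ℝ) (hC : ∀ p, |f p| ≤ C) :
    ∫ p, f p * b2r (p.1 b.1) ∂(PP ν) =
      ∫ p, f p * (driftOf ν Fn b.1 (past τ (ZZ p) b) : ℝ) ∂(PP ν) := by
  have hle : (⨆ n, (filt hmono τ b) n) ≤ (inferInstance : MeasurableSpace (Om V)) :=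
    iSup_le fun n => (filt hmono τ b).le n
  have hfm : Measurable[⨆ n, (filt hmono τ b) n] f :=
    hf.mono (sA_le_iSup hmono hex τ b) le_rfl
  have hfm0 : Measurable f := hfm.mono hle le_rfl
  have hXm : Measurable (fun p : Om V => b2r (p.1 b.1)) :=
    measurable_b2r.comp ((measurable_pi_apply b.1).comp measurable_fst)
  have hXi : Integrable (fun p : Om V => b2r (p.1 b.1)) (PP ν) := by
    refine Integrable.of_bound (C := 1) hXm.aestronglyMeasurable
      (Eventually.of_forall fun p => ?_)
    rw [Real.norm_eq_abs, abs_of_nonneg (b2r_nonneg _)]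
    exact b2r_le_one _
  have hfXi : Integrable (f * fun p : Om V => b2r (p.1 b.1)) (PP ν) := by
    refine Integrable.of_bound (C := C) (hfm0.mul hXm).aestronglyMeasurable
      (Eventually.of_forall fun p => ?_)
    have h0 : 0 ≤ |f p| := abs_nonneg _
    have h1 := b2r_nonneg (p.1 b.1)
    have h2 := b2r_le_one (p.1 b.1)
    rw [Pi.mul_apply, norm_mul, Real.norm_eq_abs, Real.norm_eq_abs, abs_of_nonneg h1]
    nlinarith [hC p]
  have e1 : ∫ p, f p * b2r (p.1 b.1) ∂(PP ν) =
      ∫ p, ((PP ν)[f * fun p : Om V => b2r (p.1 b.1) | ⨆ n, (filt hmono τ b) n]) p ∂(PP ν) := by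
    rw [integral_condExp hle]
    rfl
  have e2 := condExp_mul_of_stronglyMeasurable_left (μ := PP ν)
    (m := ⨆ n, (filt hmono τ b) n) hfm.stronglyMeasurable hfXi hXi
  have e3 := drift_ae ν hmono τ b
  rw [e1]
  refine integral_congr_ae ?_
  filter_upwards [e2, e3] with p hp2 hp3
  rw [hp2, hp3]
  rfl

/-! ### innovations -/

/-- mean value of a test set under the observation of mean `m` transformed by `H m'` -/
noncomputable def alphaR (B : Set I) (m : I) : ℝ := ∫ z : I, (B.indicator 1 (H m z) : ℝ)

/-- same with density of an observation of an occupied site -/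
noncomputable def gammaR (B : Set I) (m : I) : ℝ :=
  ∫ z : I, (B.indicator 1 (H m z) : ℝ) * dens 1 z

lemma ind_nonneg (B : Set I) (z : I) : (0 : ℝ) ≤ B.indicator 1 z := by
  by_cases h : z ∈ B
  · simp [h]
  · simp [h]

lemma ind_le_one (B : Set I) (z : I) : (B.indicator 1 z : ℝ) ≤ 1 := by
  by_cases h : z ∈ B
  · simp [h]
  · simp [h]

lemma measurable_ind {B : Set I} (hB : MeasurableSet B) :
    Measurable (fun p : I × I => (B.indicator 1 (H p.1 p.2) : ℝ)) :=
  (measurable_one.indicator hB).comp (measurable_H' measurable_fst measurable_snd)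

lemma dens_le_two (m z : I) : dens m z ≤ 2 := by
  have hm0 : (0 : ℝ) ≤ m := m.2.1
  have hm1 : (m : ℝ) ≤ 1 := m.2.2
  have hz0 : (0 : ℝ) ≤ z := z.2.1
  have hz1 : (z : ℝ) ≤ 1 := z.2.2
  unfold dens
  nlinarith

lemma integrable_ind {B : Set I} (hB : MeasurableSet B) (m c : I) :
    Integrable (fun z : I => (B.indicator 1 (H m z) : ℝ) * dens c z) := by
  refine Integrable.of_bound (C := 2) ?_ (Eventually.of_forall fun z => ?_)
  · have h1 : Measurable (fun z : I => (B.indicator 1 (H m z) : ℝ)) :=
      (measurable_one.indicator hB).comp (measurable_H' measurable_const measurable_id)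
    exact (h1.mul (measurable_dens c)).aestronglyMeasurable
  · have h1 := ind_nonneg B (H m z)
    have h2 := ind_le_one B (H m z)
    have h3 := dens_nonneg c z
    have h4 := dens_le_two c z
    rw [Real.norm_eq_abs, abs_of_nonneg (mul_nonneg h1 h3)]
    nlinarith

lemma integrable_ind' {B : Set I} (hB : MeasurableSet B) (m : I) :
    Integrable (fun z : I => (B.indicator 1 (H m z) : ℝ)) := by
  have := integrable_ind hB m 0
  simpa [dens_zero] using this

lemma dens_mix (m z : I) : dens m z = 1 + m * (dens 1 z - 1) := by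
  simp [dens]; ring

lemma uniform_mix {B : Set I} (hB : MeasurableSet B) (m c : I) :
    ∫ z : I, (B.indicator 1 (H m z) : ℝ) * dens c z =
      alphaR B m + c * (gammaR B m - alphaR B m) := by
  unfold alphaR gammaR
  have e : ∀ z : I, (B.indicator 1 (H m z) : ℝ) * dens c z = B.indicator 1 (H m z) +
      c * ((B.indicator 1 (H m z) : ℝ) * dens 1 z - B.indicator 1 (H m z)) := by
    intro z
    rw [dens_mix c z]
    ring
  have h1 : Integrable (fun z : I => (c : ℝ) * ((B.indicator 1 (H m z) : ℝ) * dens 1 z -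
      B.indicator 1 (H m z))) :=
    ((integrable_ind hB m 1).sub (integrable_ind' hB m)).const_mul _
  rw [integral_congr_ae (Eventually.of_forall e),
    integral_add (integrable_ind' hB m) h1, integral_const_mul,
    integral_sub (integrable_ind hB m 1) (integrable_ind' hB m)]

lemma uniform_self {B : Set I} (hB : MeasurableSet B) (m : I) :
    alphaR B m + m * (gammaR B m - alphaR B m) = (volume B).toReal := by
  rw [← uniform_mix hB m m]
  have h1 := lintegral_H m (fun z => ENNReal.ofReal (B.indicator 1 z))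
    ((measurable_one.indicator hB).ennreal_ofReal)
  have h2 : ∫⁻ z : I, ENNReal.ofReal (B.indicator 1 (H m z)) * ENNReal.ofReal (dens m z) =
      ENNReal.ofReal (∫ z : I, (B.indicator 1 (H m z) : ℝ) * dens m z) := by
    rw [ofReal_integral_eq_lintegral_ofReal (integrable_ind hB m m)
      (Eventually.of_forall fun z => mul_nonneg (ind_nonneg _ _) (dens_nonneg _ _))]
    refine lintegral_congr fun z => ?_
    rw [ENNReal.ofReal_mul (ind_nonneg _ _)]
  have h3 : ∫⁻ u : I, ENNReal.ofReal (B.indicator 1 u) = volume B := by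
    have : ∀ u : I, ENNReal.ofReal (B.indicator 1 u) = B.indicator 1 u := by
      intro u
      by_cases hu : u ∈ B <;> simp [hu]
    rw [lintegral_congr this, lintegral_indicator_one hB]
  rw [h2, h3] at h1
  rw [← h1, ENNReal.toReal_ofReal]
  exact integral_nonneg fun z => mul_nonneg (ind_nonneg _ _) (dens_nonneg _ _)

lemma alphaR_bound {B : Set I} (hB : MeasurableSet B) (m : I) :
    0 ≤ alphaR B m ∧ alphaR B m ≤ 2 := by
  unfold alphaR
  constructor
  · exact integral_nonneg fun z => ind_nonneg _ _
  · calc ∫ z : I, (B.indicator 1 (H m z) : ℝ) ≤ ∫ _ : I, (2 : ℝ) :=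
        integral_mono (integrable_ind' hB m) (integrable_const _)
          (fun z => (ind_le_one _ _).trans (by norm_num))
      _ = 2 := by simp

lemma gammaR_bound {B : Set I} (hB : MeasurableSet B) (m : I) :
    0 ≤ gammaR B m ∧ gammaR B m ≤ 2 := by
  unfold gammaR
  constructor
  · exact integral_nonneg fun z => mul_nonneg (ind_nonneg _ _) (dens_nonneg _ _)
  · calc ∫ z : I, (B.indicator 1 (H m z) : ℝ) * dens 1 z ≤ ∫ _ : I, (2 : ℝ) := by
          refine integral_mono (integrable_ind hB m 1) (integrable_const _) (fun z => ?_)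
          have h1 := ind_nonneg B (H m z)
          have h2 := ind_le_one B (H m z)
          have h3 := dens_nonneg 1 z
          have h4 := dens_le_two 1 z
          simp only
          nlinarith
      _ = 2 := by simp

lemma measurable_alphaR {B : Set I} (hB : MeasurableSet B) : Measurable (alphaR B) := by
  unfold alphaR
  exact ((measurable_ind hB).stronglyMeasurable.integral_prod_right
    (ν := (volume : Measure I))).measurable

lemma measurable_gammaR {B : Set I} (hB : MeasurableSet B) : Measurable (gammaR B) := by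
  unfold gammaR
  have h1 : Measurable (fun p : I × I => (B.indicator 1 (H p.1 p.2) : ℝ) * dens 1 p.2) :=
    (measurable_ind hB).mul ((measurable_dens 1).comp measurable_snd)
  exact (h1.stronglyMeasurable.integral_prod_right (ν := (volume : Measure I))).measurable

/-- the innovation attached to an observation -/
noncomputable def innov (ν : Measure (V → Bool)) (Fn : V → ℕ → Finset V) (τ : V × ℕ → I)
    (p : Om V) (b : V × ℕ) : I :=
  H (driftOf ν Fn b.1 (past τ (ZZ p) b)) (ZZ p b)

lemma measurable_past_sA (τ : V × ℕ → I) (b c : V × ℕ) (hc : c = b ∨ Prec τ c b) :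
    Measurable[sA {a | Prec τ a b}] (fun p : Om V => past τ (ZZ p) c) := by
  classical
  rw [@measurable_pi_iff]
  intro u
  unfold past
  refine Finset.measurable_sum _ fun j _ => ?_
  by_cases hp : Prec τ (u, j) c
  · simp only [hp, if_true]
    refine measurable_ell.comp ?_
    refine measurable_coord (J := {a | Prec τ a b}) ?_
    rcases hc with rfl | hc
    · exact hp
    · exact hp.trans hc
  · simp only [hp, if_false]
    exact measurable_const

lemma measurable_innov_sA (τ : V × ℕ → I) (b c : V × ℕ) (hc : Prec τ c b) :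
    Measurable[sA {a | Prec τ a b}] (fun p : Om V => innov ν Fn τ p c) := by
  unfold innov
  have h1 : Measurable[sA {a | Prec τ a b}]
      (fun p : Om V => driftOf ν Fn c.1 (past τ (ZZ p) c)) :=
    (measurable_driftOf ν Fn c.1).comp (measurable_past_sA τ b c (Or.inr hc))
  have h2 : Measurable[sA {a | Prec τ a b}] (fun p : Om V => ZZ p c) :=
    measurable_coord (J := {a | Prec τ a b}) hc
  exact continuous_H.measurable.comp (h1.prodMk h2)

lemma measurable_innov (τ : V × ℕ → I) (b : V × ℕ) :
    Measurable (fun p : Om V => innov ν Fn τ p b) := by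
  unfold innov
  refine measurable_H' ?_ ((measurable_pi_apply b).comp measurable_ZZ)
  exact (measurable_driftOf ν Fn b.1).comp ((measurable_past1 τ b).comp measurable_ZZ)

end

end Crest.Agent.FIID
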