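import Crest.Agent.FIIDLaw3

set_option autoImplicit false

namespace Crest.Agent.FIID

open MeasureTheory unitInterval Set Filter Topology ProbabilityTheory
open scoped ENNReal

section

variable {V : Type*} (ν : Measure (V → Bool)) [IsProbabilityMeasure ν]
  {Fn : V → ℕ → Finset V}

lemma lintegral_quant {B : Set I} (hB : MeasurableSet B) (m c : I) :
    ∫⁻ u : I, ENNReal.ofReal (B.indicator 1 (H m (Q c u))) =
      ENNReal.ofReal (alphaR B m + c * (gammaR B m - alphaR B m)) := by
  have hm : Measurable (fun z : I => ENNReal.ofReal (B.indicator 1 (H m z))) :=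
    ((measurable_one.indicator hB).comp
      (measurable_H' measurable_const measurable_id)).ennreal_ofReal
  rw [lintegral_Q c (fun z => ENNReal.ofReal (B.indicator 1 (H m z))) hm, ← uniform_mix hB m c,
    ofReal_integral_eq_lintegral_ofReal (integrable_ind hB m c)
      (Eventually.of_forall fun z => mul_nonneg (ind_nonneg _ _) (dens_nonneg _ _))]
  refine lintegral_congr fun z => ?_
  rw [ENNReal.ofReal_mul (ind_nonneg _ _)]

open Classical in
lemma Zf_update_ne (x : V → Bool) (w : V × ℕ → I) (b j : V × ℕ) (hj : j ≠ b) (u : I) :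
    Zf x (Function.update w b u) j = Zf x w j := by
  unfold Zf
  rw [Function.update_of_ne hj]

open Classical in
lemma past_update (τ : V × ℕ → I) (x : V → Bool) (w : V × ℕ → I) (b : V × ℕ) (u : I) :
    past τ (Zf x (Function.update w b u)) b = past τ (Zf x w) b := by
  funext v
  unfold past
  refine Finset.sum_congr rfl fun j _ => ?_
  split_ifs with hp
  · rw [Zf_update_ne]
    rintro rfl
    exact Prec.irrefl _ hp
  · rfl

/-- one step of the innovation computation -/
theorem innov_step (hmono : ∀ v, Monotone (Fn v)) (hex : ∀ v u, ∃ n, u ∈ Fn v n)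
    (τ : V × ℕ → I) (b : V × ℕ) (E : Set (Om V))
    (hE : MeasurableSet[sA {a | Prec τ a b}] E) (B : Set I) (hB : MeasurableSet B) :
    (PP ν) (E ∩ {p | innov ν Fn τ p b ∈ B}) = (PP ν) E * volume B := by
  classical
  have hE0 : MeasurableSet E := (sA_le _) E hE
  set D : Om V → I := fun p => driftOf ν Fn b.1 (past τ (ZZ p) b) with hD
  have hDm : Measurable D :=
    (measurable_driftOf ν Fn b.1).comp ((measurable_past1 τ b).comp measurable_ZZ)
  have hDs : Measurable[sA {a | Prec τ a b}] D :=
    (measurable_driftOf ν Fn b.1).comp (measurable_past_sA τ b b (Or.inl rfl))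
  have hinv : Measurable (fun p : Om V => innov ν Fn τ p b) := measurable_innov ν τ b
  -- the integrand
  set G : Om V → ℝ≥0∞ := fun p =>
    E.indicator 1 p * ENNReal.ofReal (B.indicator 1 (innov ν Fn τ p b)) with hG
  have hGm : Measurable G :=
    (measurable_one.indicator hE0).mul (((measurable_one.indicator hB).comp hinv).ennreal_ofReal)
  have e1 : (PP ν) (E ∩ {p | innov ν Fn τ p b ∈ B}) = ∫⁻ p, G p ∂(PP ν) := by
    have hEB : MeasurableSet (E ∩ {p | innov ν Fn τ p b ∈ B}) := hE0.inter (hinv hB)
    rw [← lintegral_indicator_one hEB]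
    refine lintegral_congr fun p => ?_
    rw [hG]
    by_cases h1 : p ∈ E
    · by_cases h2 : innov ν Fn τ p b ∈ B
      · simp [h1, h2]
      · simp [h1, h2]
    · simp [h1]
  -- resampling
  have hEinv : ∀ (x : V → Bool) (w : V × ℕ → I) (u : I),
      ((x, Function.update w b u) : Om V) ∈ E ↔ ((x, w) : Om V) ∈ E := by
    obtain ⟨A, _, rfl⟩ := hE
    intro x w u
    simp only [mem_preimage]
    have : (fun j : {a | Prec τ a b} => ZZ ((x, Function.update w b u) : Om V) j) =
        (fun j : {a | Prec τ a b} => ZZ ((x, w) : Om V) j) := by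
      funext j
      refine Zf_update_ne x w b j ?_ u
      intro h
      exact Prec.irrefl b (h ▸ j.2)
    rw [this]
  have e2 : ∫⁻ p, G p ∂(PP ν) = ∫⁻ p, E.indicator 1 p *
      ENNReal.ofReal (alphaR B (D p) + b2r (p.1 b.1) * (gammaR B (D p) - alphaR B (D p)))
        ∂(PP ν) := by
    unfold PP
    have hm2 : Measurable (fun p : Om V => E.indicator (1 : Om V → ℝ≥0∞) p *
        ENNReal.ofReal (alphaR B (D p) + b2r (p.1 b.1) * (gammaR B (D p) - alphaR B (D p)))) := by
      refine (measurable_one.indicator hE0).mul (Measurable.ennreal_ofReal ?_)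
      have h1 := (measurable_alphaR hB).comp hDm
      have h2 := (measurable_gammaR hB).comp hDm
      have h3 : Measurable (fun p : Om V => b2r (p.1 b.1)) :=
        measurable_b2r.comp ((measurable_pi_apply b.1).comp measurable_fst)
      exact h1.add (h3.mul (h2.sub h1))
    rw [lintegral_prod G hGm.aemeasurable, lintegral_prod _ hm2.aemeasurable]
    refine lintegral_congr fun x => ?_
    have hGx : Measurable (fun w : V × ℕ → I => G (x, w)) :=
      hGm.comp (measurable_const.prodMk measurable_id)
    rw [lintegral_resample (fun w => G (x, w)) hGx b]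
    refine lintegral_congr fun w => ?_
    have h1 : ∀ u : I, G (x, Function.update w b u) =
        E.indicator 1 ((x, w) : Om V) *
          ENNReal.ofReal (B.indicator 1 (H (D (x, w)) (Q (b2i (x b.1)) u))) := by
      intro u
      have h2 : E.indicator (1 : Om V → ℝ≥0∞) ((x, Function.update w b u) : Om V) =
          E.indicator 1 ((x, w) : Om V) := by
        by_cases h : ((x, w) : Om V) ∈ E
        · rw [indicator_of_mem h, indicator_of_mem ((hEinv x w u).2 h)]
          rfl
        · rw [indicator_of_notMem h, indicator_of_notMem (fun h' => h ((hEinv x w u).1 h'))]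
      have h3 : innov ν Fn τ ((x, Function.update w b u) : Om V) b =
          H (D (x, w)) (Q (b2i (x b.1)) u) := by
        unfold innov
        have h4 : past τ (ZZ ((x, Function.update w b u) : Om V)) b = past τ (ZZ ((x, w) : Om V)) b :=
          past_update τ x w b u
        rw [h4]
        have h5 : ZZ ((x, Function.update w b u) : Om V) b = Q (b2i (x b.1)) u := by
          change Q (b2i (x b.1)) (Function.update w b u b) = _
          rw [Function.update_self]
        rw [h5]
      change E.indicator 1 ((x, Function.update w b u) : Om V) *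
        ENNReal.ofReal (B.indicator 1 (innov ν Fn τ ((x, Function.update w b u) : Om V) b)) = _
      rw [h2, h3]
    rw [lintegral_congr h1, lintegral_const_mul _ (by
      refine Measurable.ennreal_ofReal ?_
      exact (measurable_one.indicator hB).comp
        (measurable_H' measurable_const (measurable_Q _))), lintegral_quant hB, coe_b2i]
  -- real integral
  have hind : ∀ p : Om V, |(E.indicator 1 p : ℝ)| ≤ 1 := by
    intro p
    by_cases h : p ∈ E
    · simp [h]
    · simp [h]
  have hindm : Measurable (fun p : Om V => (E.indicator 1 p : ℝ)) := measurable_one.indicator hE0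
  have hindms : Measurable[sA {a | Prec τ a b}] (fun p : Om V => (E.indicator 1 p : ℝ)) :=
    (measurable_const : Measurable[sA {a | Prec τ a b}] (fun _ : Om V => (1 : ℝ))).indicator hE
  have hXm : Measurable (fun p : Om V => b2r (p.1 b.1)) :=
    measurable_b2r.comp ((measurable_pi_apply b.1).comp measurable_fst)
  set f1 : Om V → ℝ := fun p => E.indicator 1 p * alphaR B (D p) with hf1
  set f2 : Om V → ℝ := fun p => E.indicator 1 p * (gammaR B (D p) - alphaR B (D p)) with hf2
  have hf1m : Measurable f1 := hindm.mul ((measurable_alphaR hB).comp hDm)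
  have hf2m : Measurable f2 :=
    hindm.mul (((measurable_gammaR hB).comp hDm).sub ((measurable_alphaR hB).comp hDm))
  have hf2s : Measurable[sA {a | Prec τ a b}] f2 :=
    hindms.mul (((measurable_gammaR hB).comp hDs).sub ((measurable_alphaR hB).comp hDs))
  have hb1 : ∀ p, |f1 p| ≤ 2 := by
    intro p
    have h1 := alphaR_bound hB (D p)
    rw [hf1, abs_mul, abs_of_nonneg h1.1]
    nlinarith [hind p, abs_nonneg (E.indicator 1 p : ℝ)]
  have hb2 : ∀ p, |f2 p| ≤ 2 := by
    intro p
    have h1 := alphaR_bound hB (D p)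
    have h2 := gammaR_bound hB (D p)
    have h3 : |gammaR B (D p) - alphaR B (D p)| ≤ 2 := by
      rw [abs_le]; constructor <;> linarith
    rw [hf2, abs_mul]
    nlinarith [hind p, abs_nonneg (E.indicator 1 p : ℝ), abs_nonneg (gammaR B (D p) - alphaR B (D p))]
  have hi1 : Integrable f1 (PP ν) :=
    Integrable.of_bound (C := 2) hf1m.aestronglyMeasurable
      (Eventually.of_forall fun p => by rw [Real.norm_eq_abs]; exact hb1 p)
  have hi2 : Integrable (fun p => f2 p * b2r (p.1 b.1)) (PP ν) := by
    refine Integrable.of_bound (C := 2) (hf2m.mul hXm).aestronglyMeasurable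
      (Eventually.of_forall fun p => ?_)
    rw [Real.norm_eq_abs, abs_mul, abs_of_nonneg (b2r_nonneg _)]
    nlinarith [hb2 p, b2r_nonneg (p.1 b.1), b2r_le_one (p.1 b.1), abs_nonneg (f2 p)]
  have hi3 : Integrable (fun p => f2 p * (D p : ℝ)) (PP ν) := by
    refine Integrable.of_bound (C := 2)
      (hf2m.mul (measurable_subtype_coe.comp hDm)).aestronglyMeasurable
      (Eventually.of_forall fun p => ?_)
    rw [Real.norm_eq_abs, abs_mul, abs_of_nonneg (D p).2.1]
    nlinarith [hb2 p, (D p).2.1, (D p).2.2, abs_nonneg (f2 p)]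
  have e3 : ∫⁻ p, E.indicator 1 p *
      ENNReal.ofReal (alphaR B (D p) + b2r (p.1 b.1) * (gammaR B (D p) - alphaR B (D p)))
        ∂(PP ν) = ENNReal.ofReal (∫ p, (f1 p + f2 p * b2r (p.1 b.1)) ∂(PP ν)) := by
    have hnn : ∀ p, 0 ≤ f1 p + f2 p * b2r (p.1 b.1) := by
      intro p
      have h1 := alphaR_bound hB (D p)
      have h2 := gammaR_bound hB (D p)
      have h3 := b2r_nonneg (p.1 b.1)
      have h4 := b2r_le_one (p.1 b.1)
      rw [hf1, hf2]
      by_cases h : p ∈ E
      · simp only [indicator_of_mem h, Pi.one_apply, one_mul]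
        nlinarith [mul_nonneg h3 h2.1, mul_nonneg (sub_nonneg.2 h4) h1.1]
      · simp [h]
    have hi12 : Integrable (fun p => f1 p + f2 p * b2r (p.1 b.1)) (PP ν) := hi1.add hi2
    rw [ofReal_integral_eq_lintegral_ofReal hi12 (Eventually.of_forall hnn)]
    refine lintegral_congr fun p => ?_
    rw [hf1, hf2]
    by_cases h : p ∈ E
    · simp only [indicator_of_mem h, Pi.one_apply, one_mul]
      congr 1
      ring
    · simp [h]
  have e4 : ∫ p, (f1 p + f2 p * b2r (p.1 b.1)) ∂(PP ν) =
      ((PP ν) E).toReal * (volume B).toReal := by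
    rw [integral_add hi1 hi2, past_mean ν hmono hex τ b f2 hf2s 2 hb2]
    change ∫ p, f1 p ∂(PP ν) + ∫ p, f2 p * (D p : ℝ) ∂(PP ν) = _
    rw [← integral_add hi1 hi3]
    have h1 : ∀ p, f1 p + f2 p * (D p : ℝ) = E.indicator 1 p * (volume B).toReal := by
      intro p
      rw [← uniform_self hB (D p), hf1, hf2]
      ring
    rw [integral_congr_ae (Eventually.of_forall h1), integral_mul_const,
      integral_indicator_one hE0]
    rfl
  rw [e1, e2, e3, e4, ENNReal.ofReal_mul ENNReal.toReal_nonneg,
    ENNReal.ofReal_toReal (measure_ne_top _ _), ENNReal.ofReal_toReal (measure_ne_top _ _)]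

/-- the innovations are independent and uniform -/
theorem innov_law (hmono : ∀ v, Monotone (Fn v)) (hex : ∀ v u, ∃ n, u ∈ Fn v n)
    (τ : V × ℕ → I) (hτ : ∀ a b : V × ℕ, a.2 = b.2 → τ a = τ b → a = b) :
    (PP ν).map (innov ν Fn τ) = μI (V × ℕ) := by
  classical
  have hmeas : Measurable (innov ν Fn τ) :=
    measurable_pi_iff.2 fun b => measurable_innov ν τ b
  unfold μI
  refine Measure.eq_infinitePi _ fun s t ht => ?_
  rw [Measure.map_apply hmeas (.pi s.countable_toSet fun _ _ => ht _)]
  have hset : ∀ s : Finset (V × ℕ), innov ν Fn τ ⁻¹' ((s : Set (V × ℕ)).pi t) =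
      {p | ∀ b ∈ s, innov ν Fn τ p b ∈ t b} := by
    intro s
    ext p
    simp only [mem_preimage, Set.mem_pi, Finset.mem_coe]
    rfl
  rw [hset]
  induction s using Finset.induction_on_max_value (fun b : V × ℕ => toLex (b.2, τ b)) with
  | empty => simp
  | insert a s ha hmax ih =>
    have hprec : ∀ x ∈ s, Prec τ x a := by
      intro x hx
      have h1 := hmax x hx
      rw [Prod.Lex.toLex_le_toLex] at h1
      rcases h1 with h1 | ⟨h1, h2⟩
      · exact Or.inl h1
      · refine Or.inr ⟨h1, lt_of_le_of_ne h2 ?_⟩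
        intro h3
        have := hτ x a h1 h3
        exact ha (this ▸ hx)
    have h1 : {p | ∀ b ∈ insert a s, innov ν Fn τ p b ∈ t b} =
        {p | ∀ b ∈ s, innov ν Fn τ p b ∈ t b} ∩ {p | innov ν Fn τ p a ∈ t a} := by
      ext p
      simp only [Finset.mem_insert, mem_inter_iff, Set.mem_ofPred_eq]
      constructor
      · intro h
        exact ⟨fun b hb => h b (Or.inr hb), h a (Or.inl rfl)⟩
      · rintro ⟨h1, h2⟩ b (rfl | hb)
        · exact h2
        · exact h1 b hb
    have h2 : MeasurableSet[sA {c | Prec τ c a}] {p | ∀ b ∈ s, innov ν Fn τ p b ∈ t b} := by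
      have : {p | ∀ b ∈ s, innov ν Fn τ p b ∈ t b} =
          ⋂ b ∈ s, (fun p => innov ν Fn τ p b) ⁻¹' (t b) := by
        ext p; simp
      rw [this]
      refine MeasurableSet.biInter s.countable_toSet fun b hb => ?_
      exact measurable_innov_sA ν τ a b (hprec b hb) (ht b)
    rw [h1, innov_step ν hmono hex τ a _ h2 (t a) (ht a), ih, Finset.prod_insert ha,
      mul_comm]

omit [IsProbabilityMeasure ν] in
lemma ZZ_fixed (τ : V × ℕ → I) (p : Om V) (b : V × ℕ) :
    ZZ p b = step (driftOf ν Fn) τ (innov ν Fn τ p) (ZZ p) b := by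
  unfold step innov
  rw [Q_H]

end

end Crest.Agent.FIID
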