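import Crest.Agent.FIIDLaw4

set_option autoImplicit false

namespace Crest.Agent.FIID

open MeasureTheory unitInterval Set Filter Topology ProbabilityTheory
open scoped ENNReal

/-! ### the drift is Lipschitz -/

lemma limsup_sub_le {a b : ℕ → I} {ε : ℝ} (h : ∀ n, (a n : ℝ) ≤ b n + ε) :
    ((limsup a atTop : I) : ℝ) ≤ (limsup b atTop : I) + ε := by
  by_contra hcon
  push Not at hcon
  obtain ⟨c, hc1, hc2⟩ := exists_between (show ((limsup b atTop : I) : ℝ) <
    (limsup a atTop : I) - ε by linarith)
  have hb0 := (limsup b atTop).2.1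
  have ha1 := (limsup a atTop).2.2
  -- `c` lies between
  by_cases hc3 : c ≤ 1
  · have hcm : c ∈ Icc (0 : ℝ) 1 := ⟨by linarith, hc3⟩
    have h1 : limsup b atTop < (⟨c, hcm⟩ : I) := hc1
    have h2 := eventually_lt_of_limsup_lt h1
    by_cases hc4 : 0 ≤ c + ε
    · have hdm : c + ε ∈ Icc (0 : ℝ) 1 := ⟨hc4, by linarith⟩
      have h3 : limsup a atTop ≤ (⟨c + ε, hdm⟩ : I) := by
        refine limsup_le_of_le (by isBoundedDefault) ?_
        filter_upwards [h2] with n hn
        have hn' : (b n : ℝ) < c := hn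
        change (a n : ℝ) ≤ c + ε
        linarith [h n]
      have h4 : ((limsup a atTop : I) : ℝ) ≤ c + ε := h3
      linarith
    · push Not at hc4
      obtain ⟨n, hn⟩ := h2.exists
      have hn' : (b n : ℝ) < c := hn
      have := (a n).2.1
      linarith [h n]
  · push Not at hc3
    -- then every `a n ≤ 1 < c`, but also need the bound with `ε`
    have hε : ε < 0 := by linarith
    have hall : ∀ n, (b n : ℝ) ≤ 1 := fun n => (b n).2.2
    have hdm : ((limsup a atTop : I) : ℝ) ≤ 1 + ε := by
      by_cases h0 : 0 ≤ 1 + ε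
      · have hdm : 1 + ε ∈ Icc (0 : ℝ) 1 := ⟨h0, by linarith⟩
        have h3 : limsup a atTop ≤ (⟨1 + ε, hdm⟩ : I) := by
          refine limsup_le_of_le (by isBoundedDefault) (Eventually.of_forall fun n => ?_)
          change (a n : ℝ) ≤ 1 + ε
          linarith [h n, hall n]
        exact h3
      · push Not at h0
        have := (a 0).2.1
        linarith [h 0, hall 0]
    linarith

lemma abs_limsup_sub_le {a b : ℕ → I} {ε : ℝ} (h : ∀ n, |(a n : ℝ) - b n| ≤ ε) :
    |((limsup a atTop : I) : ℝ) - (limsup b atTop : I)| ≤ ε := by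
  have h1 := limsup_sub_le (a := a) (b := b) (ε := ε) fun n => by
    have := (abs_le.1 (h n)).2; linarith
  have h2 := limsup_sub_le (a := b) (b := a) (ε := ε) fun n => by
    have := (abs_le.1 (h n)).1; linarith
  rw [abs_le]
  constructor <;> linarith

/-- the Lipschitz hypothesis on tilted means -/
def TiltLip {V : Type*} (ν : Measure (V → Bool)) (Fn : V → ℕ → Finset V) : Prop :=
  ∀ (v : V) (n : ℕ) (y y' : V → ℝ) (δ : ℝ), 0 ≤ δ → (∀ u, |y u - y' u| ≤ δ) →
    |(tiltI ν (Fn v n) v y : ℝ) - tiltI ν (Fn v n) v y'| ≤ 2 * δ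

lemma supLip_driftOf {V : Type*} {ν : Measure (V → Bool)} {Fn : V → ℕ → Finset V}
    (h : TiltLip ν Fn) : SupLip (driftOf ν Fn) := fun v y y' δ hδ hy =>
  abs_limsup_sub_le fun n => h v n y y' δ hδ hy

/-! ### recovery -/

section recover

variable {V : Type*}

lemma integral_Q_zero : ∫ u : I, (Q 0 u : ℝ) = 1 / 2 := by
  have h1 : ∀ u : I, Q 0 u = u := by
    intro u
    apply Subtype.ext
    simp [Q, fR]
    ring
  simp only [h1]
  have e := (measurePreserving_coe).integral_comp measurableEmbedding_coe (fun t : ℝ => t)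
  rw [e]
  change ∫ t in Icc (0 : ℝ) 1, t = _
  rw [integral_Icc_eq_integral_Ioc, ← intervalIntegral.integral_of_le zero_le_one]
  simp

lemma integral_Q_one : ∫ u : I, (Q 1 u : ℝ) = 11 / 24 := by
  have h0 : (∫⁻ u : I, ENNReal.ofReal (Q 1 u : ℝ)) =
      ∫⁻ z : I, ENNReal.ofReal (z : ℝ) * ENNReal.ofReal (dens 1 z) :=
    lintegral_Q 1 (fun z => ENNReal.ofReal (z : ℝ)) (measurable_subtype_coe.ennreal_ofReal)
  have hQi : Integrable (fun u : I => (Q 1 u : ℝ)) := by
    refine Integrable.of_bound (C := 1)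
      (measurable_subtype_coe.comp (measurable_Q 1)).aestronglyMeasurable
      (Eventually.of_forall fun u => ?_)
    rw [Real.norm_eq_abs, abs_of_nonneg (Q 1 u).2.1]
    exact (Q 1 u).2.2
  have hzi : Integrable (fun z : I => (z : ℝ) * dens 1 z) := by
    refine Integrable.of_bound (C := 2)
      (measurable_subtype_coe.mul (measurable_dens 1)).aestronglyMeasurable
      (Eventually.of_forall fun z => ?_)
    rw [Real.norm_eq_abs, abs_of_nonneg (mul_nonneg z.2.1 (dens_nonneg _ _))]
    nlinarith [z.2.1, z.2.2, dens_nonneg 1 z, dens_le_two 1 z]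
  have h1 : ∫ u : I, (Q 1 u : ℝ) = ∫ z : I, (z : ℝ) * dens 1 z := by
    rw [integral_eq_lintegral_of_nonneg_ae (Eventually.of_forall fun u => (Q 1 u).2.1)
      hQi.aestronglyMeasurable, h0,
      integral_eq_lintegral_of_nonneg_ae
        (Eventually.of_forall fun z => mul_nonneg z.2.1 (dens_nonneg _ _))
        hzi.aestronglyMeasurable]
    congr 1
    refine lintegral_congr fun z => ?_
    rw [ENNReal.ofReal_mul z.2.1]
  rw [h1]
  have e := (measurePreserving_coe).integral_comp measurableEmbedding_coe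
    (fun t : ℝ => t * (1 + 1 * (1 - 2 * t) / 4))
  have e2 : ∀ z : I, (z : ℝ) * dens 1 z = (z : ℝ) * (1 + 1 * (1 - 2 * z) / 4) := by
    intro z; simp [dens]
  simp only [e2]
  rw [e]
  change ∫ t in Icc (0 : ℝ) 1, t * (1 + 1 * (1 - 2 * t) / 4) = _
  rw [integral_Icc_eq_integral_Ioc, ← intervalIntegral.integral_of_le zero_le_one]
  have e3 : ∀ t : ℝ, t * (1 + 1 * (1 - 2 * t) / 4) = (5 / 4) * t - (1 / 2) * t ^ 2 := by
    intro t; ring
  simp only [e3]
  rw [intervalIntegral.integral_sub (by apply Continuous.intervalIntegrable; fun_prop)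
    (by apply Continuous.intervalIntegrable; fun_prop), intervalIntegral.integral_const_mul,
    intervalIntegral.integral_const_mul, integral_id, integral_pow]
  norm_num

lemma integral_Q_b2i (c : Bool) : ∫ u : I, (Q (b2i c) u : ℝ) = 1 / 2 - b2r c / 24 := by
  cases c
  · simp only [b2i, b2r]; simpa using integral_Q_zero
  · simp only [b2i, b2r, if_true]; rw [integral_Q_one]; norm_num

lemma recover_ae_fixed (x : V → Bool) (v : V) :
    ∀ᵐ w ∂(μI (V × ℕ)), recover (Zf x w) v = x v := by
  classical
  set Y : ℕ → (V × ℕ → I) → ℝ := fun k w => (Q (b2i (x v)) (w (v, k)) : ℝ) with hY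
  have hYm : ∀ k, Measurable (Y k) := fun k =>
    measurable_subtype_coe.comp ((measurable_Q _).comp (measurable_pi_apply _))
  have hYi : Integrable (Y 0) (μI (V × ℕ)) := by
    refine Integrable.of_bound (C := 1) (hYm 0).aestronglyMeasurable
      (Eventually.of_forall fun w => ?_)
    rw [Real.norm_eq_abs, abs_of_nonneg (Q _ _).2.1]
    exact (Q _ _).2.2
  have hindep : iIndepFun (fun (i : V × ℕ) (w : V × ℕ → I) => (Q (b2i (x v)) (w i) : ℝ))
      (μI (V × ℕ)) := by
    unfold μI
    exact iIndepFun_infinitePi (P := fun _ : V × ℕ => (volume : Measure I))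
      (X := fun _ u => (Q (b2i (x v)) u : ℝ))
      (fun _ => measurable_subtype_coe.comp (measurable_Q _))
  have hpair : Pairwise (Function.onFun (fun f g => IndepFun f g (μI (V × ℕ))) Y) := by
    intro k l hkl
    have : ((v, k) : V × ℕ) ≠ (v, l) := fun h => hkl (Prod.mk.inj h).2
    exact hindep.indepFun this
  have hlaw : ∀ k, (μI (V × ℕ)).map (fun w => w (v, k)) = (volume : Measure I) := by
    intro k
    unfold μI
    exact Measure.infinitePi_map_eval (fun _ : V × ℕ => (volume : Measure I)) (v, k)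
  have hident : ∀ k, IdentDistrib (Y k) (Y 0) (μI (V × ℕ)) (μI (V × ℕ)) := by
    intro k
    have h1 : IdentDistrib (fun w : V × ℕ → I => w (v, k)) (fun w : V × ℕ → I => w (v, 0))
        (μI (V × ℕ)) (μI (V × ℕ)) := by
      refine ⟨(measurable_pi_apply _).aemeasurable, (measurable_pi_apply _).aemeasurable, ?_⟩
      rw [hlaw k, hlaw 0]
    exact h1.comp (measurable_subtype_coe.comp (measurable_Q (b2i (x v))))
  have hmean : ∫ w, Y 0 w ∂(μI (V × ℕ)) = 1 / 2 - b2r (x v) / 24 := by
    have h1 : ∫ w, Y 0 w ∂(μI (V × ℕ)) =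
        ∫ u, (Q (b2i (x v)) u : ℝ) ∂((μI (V × ℕ)).map (fun w => w (v, 0))) := by
      have h2 : Measurable (fun u : I => (Q (b2i (x v)) u : ℝ)) :=
        measurable_subtype_coe.comp (measurable_Q _)
      exact (integral_map (μ := μI (V × ℕ)) (φ := fun w : V × ℕ → I => w (v, 0))
        (measurable_pi_apply _).aemeasurable h2.aestronglyMeasurable).symm
    rw [h1, hlaw 0, integral_Q_b2i]
  have hsl := strong_law_ae_real Y hYi hpair hident
  rw [hmean] at hsl
  filter_upwards [hsl] with w hw
  have hsum : ∀ K, ∑ k ∈ Finset.range K, (Zf x w (v, k) : ℝ) = ∑ k ∈ Finset.range K, Y k w :=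
    fun K => rfl
  unfold recover
  simp only [hsum]
  cases hx : x v
  · rw [hx] at hw
    simp only [b2r, Bool.false_eq_true, if_false, zero_div, sub_zero] at hw
    rw [decide_eq_false_iff_not]
    rintro ⟨N, hN⟩
    have h1 : ∀ᶠ K : ℕ in atTop, (23 / 48 : ℝ) < (∑ k ∈ Finset.range K, Y k w) / K :=
      hw.eventually (lt_mem_nhds (by norm_num))
    obtain ⟨K, hK1, hK2, hK3⟩ := (h1.and ((eventually_ge_atTop N).and
      (eventually_gt_atTop 0))).exists
    have hKp : (0 : ℝ) < K := by exact_mod_cast hK3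
    rw [lt_div_iff₀ hKp] at hK1
    have := hN K hK2
    linarith
  · rw [hx] at hw
    simp only [b2r, if_true] at hw
    rw [decide_eq_true_iff]
    have h1 : ∀ᶠ K : ℕ in atTop, (∑ k ∈ Finset.range K, Y k w) / K < (23 / 48 : ℝ) :=
      hw.eventually (gt_mem_nhds (by norm_num))
    obtain ⟨N, hN⟩ := (h1.and (eventually_gt_atTop 0)).exists_forall_of_atTop
    refine ⟨N, fun K hK => ?_⟩
    obtain ⟨h2, h3⟩ := hN K hK
    have hKp : (0 : ℝ) < K := by exact_mod_cast h3
    rwa [div_lt_iff₀ hKp] at h2

lemma recover_ae [Countable V] (ν : Measure (V → Bool)) [IsProbabilityMeasure ν] :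
    ∀ᵐ p ∂(PP ν), recover (ZZ p) = p.1 := by
  have h1 : ∀ v, ∀ᵐ p ∂(PP ν), recover (ZZ p) v = p.1 v := by
    intro v
    have hm : MeasurableSet {p : Om V | recover (ZZ p) v = p.1 v} := by
      refine measurableSet_eq_fun ?_ ((measurable_pi_apply v).comp measurable_fst)
      exact measurable_recover (z := fun p : Om V => ZZ p)
        (fun b => (measurable_pi_apply b).comp measurable_ZZ) v
    unfold PP
    rw [Measure.ae_prod_iff_ae_ae hm]
    exact Eventually.of_forall fun x => recover_ae_fixed x v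
  filter_upwards [ae_all_iff.2 h1] with p hp
  funext v
  exact hp v

end recover

section main

variable {V : Type*} [Countable V] (ν : Measure (V → Bool)) [IsProbabilityMeasure ν]
  {Fn : V → ℕ → Finset V}

omit [Countable V] in
lemma measurable_out_fixed (m : V → (V → ℝ) → I) (hm : ∀ v, Measurable (m v)) :
    Measurable (Function.uncurry (out m)) := by
  rw [measurable_pi_iff]
  intro v
  exact measurable_out (α := (V × ℕ → I) × (V × ℕ → I)) (m := fun _ => m)
    (fun v => (hm v).comp measurable_snd)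
    (τ := fun p => p.1) (U := fun p => p.2)
    (fun b => (measurable_pi_apply b).comp measurable_fst)
    (fun b => (measurable_pi_apply b).comp measurable_snd) v

/-- law of the output for a fixed clock field -/
theorem out_law_fixed (hmono : ∀ v, Monotone (Fn v)) (hex : ∀ v u, ∃ n, u ∈ Fn v n)
    (hlip : TiltLip ν Fn)
    (τ : V × ℕ → I) (hτ : ∀ a b : V × ℕ, a.2 = b.2 → τ a = τ b → a = b) :
    (μI (V × ℕ)).map (out (driftOf ν Fn) τ) = ν := by
  have hm : Measurable (out (driftOf ν Fn) τ) :=
    (measurable_out_fixed (driftOf ν Fn) (measurable_driftOf ν Fn)).of_uncurry_left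
  have hinv : Measurable (innov ν Fn τ) :=
    measurable_pi_iff.2 fun b => measurable_innov ν τ b
  rw [← innov_law ν hmono hex τ hτ, Measure.map_map hm hinv]
  have h1 : (out (driftOf ν Fn) τ ∘ innov ν Fn τ) =ᵐ[PP ν] Prod.fst := by
    filter_upwards [recover_ae ν] with p hp
    change out (driftOf ν Fn) τ (innov ν Fn τ p) = p.1
    unfold out
    rw [lim_eq (supLip_driftOf hlip) (z := ZZ p) (ZZ_fixed ν τ p), hp]
  rw [Measure.map_congr h1]
  unfold PP
  simp

lemma ae_injective_label (ι : Type*) [Countable ι] :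
    ∀ᵐ τ ∂(μI ι), ∀ a b : ι, τ a = τ b → a = b := by
  have h1 : ∀ a b : ι, ∀ᵐ τ ∂(μI ι), τ a = τ b → a = b := by
    intro a b
    by_cases hab : a = b
    · exact Eventually.of_forall fun _ _ => hab
    · have h2 : (μI ι).map (fun τ => (τ a, τ b)) = (volume : Measure I).prod volume := by
        unfold μI
        exact Measure.infinitePi_map_eval_prod (P := fun _ : ι => (volume : Measure I)) hab
      have hd : MeasurableSet {p : I × I | p.1 = p.2} :=
        measurableSet_eq_fun measurable_fst measurable_snd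
      have h3 : ((volume : Measure I).prod volume) {p : I × I | p.1 = p.2} = 0 := by
        rw [Measure.prod_apply hd]
        have : ∀ x : I, volume (Prod.mk x ⁻¹' {p : I × I | p.1 = p.2}) = 0 := by
          intro x
          have : Prod.mk x ⁻¹' {p : I × I | p.1 = p.2} = {x} := by
            ext y; simp [eq_comm]
          rw [this]
          exact measure_singleton x
        simp
      have h4 : (μI ι) {τ | τ a = τ b} = 0 := by
        have hmm : Measurable (fun τ : ι → I => (τ a, τ b)) := by fun_prop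
        rw [← h2, Measure.map_apply hmm hd] at h3
        exact h3
      rw [ae_iff]
      refine measure_mono_null ?_ h4
      intro τ hτ
      simp only [Set.mem_ofPred_eq, Classical.not_imp] at hτ ⊢
      exact hτ.1
  exact ae_all_iff.2 fun a => ae_all_iff.2 fun b => h1 a b

/-- Theorem A: the output of iid clocks and iid labels has law `ν`. -/
theorem out_law (hmono : ∀ v, Monotone (Fn v)) (hex : ∀ v u, ∃ n, u ∈ Fn v n)
    (hlip : TiltLip ν Fn) :
    ((μI (V × ℕ)).prod (μI (V × ℕ))).map (Function.uncurry (out (driftOf ν Fn))) = ν := by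
  have hm := measurable_out_fixed (driftOf ν Fn) (measurable_driftOf ν Fn)
  ext A hA
  rw [Measure.map_apply hm hA, Measure.prod_apply (hm hA)]
  have h1 : ∀ᵐ τ ∂(μI (V × ℕ)), (μI (V × ℕ)) (Prod.mk τ ⁻¹'
      (Function.uncurry (out (driftOf ν Fn)) ⁻¹' A)) = ν A := by
    filter_upwards [ae_injective_label (V × ℕ)] with τ hτ
    have h2 := out_law_fixed ν hmono hex hlip τ (fun a b _ h => hτ a b h)
    have hm2 : Measurable (out (driftOf ν Fn) τ) := hm.of_uncurry_left
    conv_rhs => rw [← h2]
    rw [Measure.map_apply hm2 hA]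
    rfl
  rw [lintegral_congr_ae h1]
  simp

end main

/-! ### labels -/

section labels

/-- splitting labels indexed by a sum type -/
theorem μI_sum (ι κ : Type*) :
    ((μI ι).prod (μI κ)).map (fun p => Sum.elim p.1 p.2) = μI (ι ⊕ κ) := by
  classical
  have hm : Measurable (fun p : (ι → I) × (κ → I) => (Sum.elim p.1 p.2 : ι ⊕ κ → I)) := by
    rw [measurable_pi_iff]
    rintro (i | j)
    · exact (measurable_pi_apply i).comp measurable_fst
    · exact (measurable_pi_apply j).comp measurable_snd
  have key : ((μI ι).prod (μI κ)).map (fun p => Sum.elim p.1 p.2) =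
      Measure.infinitePi (fun _ : ι ⊕ κ => (volume : Measure I)) := by
    refine Measure.eq_infinitePi _ fun s t ht => ?_
    rw [Measure.map_apply hm (.pi s.countable_toSet fun _ _ => ht _)]
    have h1 : (fun p : (ι → I) × (κ → I) => (Sum.elim p.1 p.2 : ι ⊕ κ → I)) ⁻¹'
        ((s : Set (ι ⊕ κ)).pi t) =
        (((s.toLeft : Finset ι) : Set ι).pi (fun i => t (Sum.inl i))) ×ˢ
        (((s.toRight : Finset κ) : Set κ).pi (fun j => t (Sum.inr j))) := by
      ext p
      simp only [mem_preimage, Set.mem_pi, mem_prod, Finset.mem_coe, Finset.mem_toLeft,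
        Finset.mem_toRight]
      constructor
      · intro h
        exact ⟨fun i hi => h _ hi, fun j hj => h _ hj⟩
      · rintro ⟨h1, h2⟩ (i | j) hi
        · exact h1 i hi
        · exact h2 j hi
    rw [h1, Measure.prod_prod]
    unfold μI
    rw [Measure.infinitePi_pi _ (fun j _ => ht _), Measure.infinitePi_pi _ (fun j _ => ht _)]
    conv_rhs => rw [← Finset.toLeft_disjSum_toRight (u := s)]
    rw [Finset.prod_disjSum]
  exact key

theorem exists_split (κ : Type*) [Countable κ] :
    ∃ s : I → (κ → I), Measurable s ∧ (volume : Measure I).map s = μI κ := by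
  obtain ⟨f, hf, hf2⟩ := MeasureTheory.Measure.exists_measurable_map_eq (μI κ)
  exact ⟨f, hf, hf2⟩

end labels

end Crest.Agent.FIID
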