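import Crest.Agent.FIIDLaw5

set_option autoImplicit false

namespace Crest.Agent.FIID

open MeasureTheory unitInterval Set Filter Topology ProbabilityTheory
open scoped ENNReal

section labels

variable {V : Type*} {κ₁ κ₂ : Type*}

/-- first part of the split labels -/
def lab1 (s : I → (κ₁ ⊕ κ₂ → I)) (u : V → I) (b : V × κ₁) : I := s (u b.1) (Sum.inl b.2)

/-- second part of the split labels -/
def lab2 (s : I → (κ₁ ⊕ κ₂ → I)) (u : V → I) (b : V × κ₂) : I := s (u b.1) (Sum.inr b.2)

lemma measurable_lab1 {s : I → (κ₁ ⊕ κ₂ → I)} (hs : Measurable s) :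
    Measurable (lab1 s (V := V)) := by
  rw [measurable_pi_iff]
  intro b
  exact (measurable_pi_apply _).comp (hs.comp (measurable_pi_apply b.1))

lemma measurable_lab2 {s : I → (κ₁ ⊕ κ₂ → I)} (hs : Measurable s) :
    Measurable (lab2 s (V := V)) := by
  rw [measurable_pi_iff]
  intro b
  exact (measurable_pi_apply _).comp (hs.comp (measurable_pi_apply b.1))

/-- splitting uniform labels into two independent families -/
theorem map_lab {s : I → (κ₁ ⊕ κ₂ → I)} (hs : Measurable s)
    (hs2 : (volume : Measure I).map s = μI (κ₁ ⊕ κ₂)) :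
    (μI V).map (fun u => (lab1 s u, lab2 s u)) = (μI (V × κ₁)).prod (μI (V × κ₂)) := by
  -- the joint family indexed by `V × (κ₁ ⊕ κ₂)`
  have h1 : (μI V).map (fun u (v : V) => s (u v)) =
      Measure.infinitePi (fun _ : V => μI (κ₁ ⊕ κ₂)) := by
    unfold μI
    rw [Measure.infinitePi_map_pi (fun _ : V => (volume : Measure I)) (f := fun _ => s)
      (fun _ => hs)]
    congr 1
    funext v
    exact hs2
  have hm1 : Measurable (fun (u : V → I) (v : V) => s (u v)) :=
    measurable_pi_iff.2 fun v => hs.comp (measurable_pi_apply v)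
  have h2 : (μI V).map (fun u (p : V × (κ₁ ⊕ κ₂)) => s (u p.1) p.2) = μI (V × (κ₁ ⊕ κ₂)) := by
    have h3 := Measure.infinitePi_map_curry_symm (fun (_ : V) (_ : κ₁ ⊕ κ₂) =>
      (volume : Measure I))
    have h4 : (Measure.infinitePi fun (_ : V) => Measure.infinitePi fun (_ : κ₁ ⊕ κ₂) =>
        (volume : Measure I)) = (μI V).map (fun u (v : V) => s (u v)) := h1.symm
    rw [h4, Measure.map_map (MeasurableEquiv.measurable _) hm1] at h3
    exact h3
  -- reindexing
  set f : (V × κ₁) ⊕ (V × κ₂) → V × (κ₁ ⊕ κ₂) :=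
    Sum.elim (fun b => (b.1, Sum.inl b.2)) (fun b => (b.1, Sum.inr b.2)) with hf
  have hfinj : Function.Injective f := by
    rintro (⟨a, b⟩ | ⟨a, b⟩) (⟨c, d⟩ | ⟨c, d⟩) h
    · simp [hf] at h ⊢; exact h
    · simp [hf] at h
    · simp [hf] at h
    · simp [hf] at h ⊢; exact h
  have h5 : (μI (V × (κ₁ ⊕ κ₂))).map (fun ω i => ω (f i)) = μI ((V × κ₁) ⊕ (V × κ₂)) := by
    unfold μI
    exact Measure.map_infinitePi_infinitePi_of_inj
      (P := fun _ : V × (κ₁ ⊕ κ₂) => (volume : Measure I)) hfinj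
  have hm2 : Measurable (fun (u : V → I) (p : V × (κ₁ ⊕ κ₂)) => s (u p.1) p.2) :=
    measurable_pi_iff.2 fun p => (measurable_pi_apply p.2).comp (hs.comp (measurable_pi_apply p.1))
  have hm3 : Measurable (fun (ω : V × (κ₁ ⊕ κ₂) → I) (i : (V × κ₁) ⊕ (V × κ₂)) => ω (f i)) :=
    measurable_pi_iff.2 fun i => measurable_pi_apply _
  rw [← h2, Measure.map_map hm3 hm2, ← μI_sum] at h5
  -- apply the inverse of `Sum.elim`
  have hm4 : Measurable (fun w : (V × κ₁) ⊕ (V × κ₂) → I =>
      ((fun b => w (Sum.inl b), fun b => w (Sum.inr b)) : (V × κ₁ → I) × (V × κ₂ → I))) :=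
    (measurable_pi_iff.2 fun b => measurable_pi_apply _).prodMk
      (measurable_pi_iff.2 fun b => measurable_pi_apply _)
  have hm5 : Measurable (fun p : (V × κ₁ → I) × (V × κ₂ → I) =>
      (Sum.elim p.1 p.2 : (V × κ₁) ⊕ (V × κ₂) → I)) := by
    rw [measurable_pi_iff]
    rintro (i | j)
    · exact (measurable_pi_apply i).comp measurable_fst
    · exact (measurable_pi_apply j).comp measurable_snd
  have h6 := congrArg (fun μ => Measure.map (fun w : (V × κ₁) ⊕ (V × κ₂) → I =>
      ((fun b => w (Sum.inl b), fun b => w (Sum.inr b)) : (V × κ₁ → I) × (V × κ₂ → I))) μ) h5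
  rw [Measure.map_map hm4 (hm3.comp hm2), Measure.map_map hm4 hm5] at h6
  have h7 : ((fun w : (V × κ₁) ⊕ (V × κ₂) → I =>
      ((fun b => w (Sum.inl b), fun b => w (Sum.inr b)) : (V × κ₁ → I) × (V × κ₂ → I))) ∘
      fun p : (V × κ₁ → I) × (V × κ₂ → I) => (Sum.elim p.1 p.2 : (V × κ₁) ⊕ (V × κ₂) → I)) = id := by
    funext p
    rfl
  rw [h7, Measure.map_id] at h6
  rw [← h6]
  rfl

end labels

/-- the factor map from one uniform label per site -/
noncomputable def factor {V : Type*} (s : I → (ℕ ⊕ ℕ → I)) (m : V → (V → ℝ) → I)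
    (u : V → I) : V → Bool :=
  out m (lab1 s u) (lab2 s u)

/-- Theorem B: the factor map pushes iid uniform labels to `ν`. -/
theorem factor_law {V : Type*} [Countable V] (ν : Measure (V → Bool)) [IsProbabilityMeasure ν]
    {Fn : V → ℕ → Finset V} (hmono : ∀ v, Monotone (Fn v)) (hex : ∀ v u, ∃ n, u ∈ Fn v n)
    (hlip : TiltLip ν Fn) {s : I → (ℕ ⊕ ℕ → I)} (hs : Measurable s)
    (hs2 : (volume : Measure I).map s = μI (ℕ ⊕ ℕ)) :
    (μI V).map (factor s (driftOf ν Fn)) = ν := by
  have h1 := out_law ν hmono hex hlip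
  rw [← map_lab hs hs2, Measure.map_map
    (measurable_out_fixed _ (measurable_driftOf ν Fn))
    ((measurable_lab1 hs).prodMk (measurable_lab2 hs))] at h1
  exact h1

lemma measurable_factor {V : Type*} {m : V → (V → ℝ) → I} (hm : ∀ v, Measurable (m v))
    {s : I → (ℕ ⊕ ℕ → I)} (hs : Measurable s) : Measurable (factor s m) := by
  have h1 : Measurable (fun u : V → I => (lab1 s u, lab2 s u)) :=
    (measurable_lab1 hs).prodMk (measurable_lab2 hs)
  have h2 : factor s m = Function.uncurry (out m) ∘ (fun u : V → I => (lab1 s u, lab2 s u)) := rfl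
  rw [h2]
  exact Measurable.comp (measurable_out_fixed m hm) h1

/-- equivariance of the factor map -/
theorem factor_relab {V W : Type*} (e : V → W) {m : V → (V → ℝ) → I} {m' : W → (W → ℝ) → I}
    (hm : ∀ v y, m' (e v) y = m v (y ∘ e)) (s : I → (ℕ ⊕ ℕ → I)) (u : W → I) (v : V) :
    factor s m (u ∘ e) v = factor s m' u (e v) := by
  unfold factor
  have h1 : lab1 s (u ∘ e) = relab e (lab1 s u) := rfl
  have h2 : lab2 s (u ∘ e) = relab e (lab2 s u) := rfl
  rw [h1, h2]
  exact out_relab e hm _ _ v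

end Crest.Agent.FIID
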