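import Crest.Agent.FKFourier

/-! (2,4)-hypercontractivity on the `p`-biased cube (row 56). -/

set_option autoImplicit false
set_option linter.unusedSectionVars false

namespace Crest.Agent.FK

open Finset
open Crest.FinProb (bernoulliWeight)

variable {E : Type} [Fintype E] [DecidableEq E]

lemma chi_update_of_notMem (p : ℝ) {S : Finset E} {e : E} (he : e ∉ S) (x : E → Bool) (b : Bool) :
    chi p S (Function.update x e b) = chi p S x := by
  unfold chi
  refine Finset.prod_congr rfl fun e' he' => ?_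
  have hne : e' ≠ e := by rintro rfl; exact he he'
  rw [Function.update_of_ne hne]

/-- two-point inequality, with `ρ^4 ≤ p q / 4` -/
lemma two_point {p ρ : ℝ} (hp0 : 0 < p) (hp1 : p < 1) (_hρ0 : 0 ≤ ρ)
    (hρ : ρ ^ 4 = p * (1 - p) / 4) (a b : ℝ) :
    p * (a + ρ * phi p true * b) ^ 4 + (1 - p) * (a + ρ * phi p false * b) ^ 4 ≤
      a ^ 4 + 2 * a ^ 2 * b ^ 2 + b ^ 4 := by
  have h1 : (0:ℝ) < 1 - p := by linarith
  set s := phi p true with hs
  set t := phi p false with ht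
  have hmean : p * s + (1 - p) * t = 0 := phi_mean hp0 hp1
  have hvar : p * (s * s) + (1 - p) * (t * t) = 1 := phi_var hp0 hp1
  have hst : s * t = -1 := phi_mul hp0 hp1
  have hss : s * s = (1 - p) / p := phi_sq_true hp0 hp1
  have htt : t * t = p / (1 - p) := phi_sq_false hp0 hp1
  -- third moment m3 = s + t, fourth moment m4 = m3^2 + 1
  have hq : (1 - p) * (t * t) = p := by rw [htt]; field_simp
  have hp' : p * (s * s) = 1 - p := by rw [hss]; field_simp
  have m3 : p * s ^ 3 + (1 - p) * t ^ 3 = s + t := by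
    have : p * s ^ 3 + (1 - p) * t ^ 3 = (p * (s * s)) * s + ((1 - p) * (t * t)) * t := by ring
    rw [this, hp', hq]
    -- (1-p) s + p t = s + t - (p s + (1-p) t)
    linear_combination (-1) * hmean
  have m4 : p * s ^ 4 + (1 - p) * t ^ 4 = (s + t) ^ 2 + 1 := by
    have : p * s ^ 4 + (1 - p) * t ^ 4 = (p * (s * s)) * (s * s) + ((1 - p) * (t * t)) * (t * t) := by
      ring
    rw [this, hp', hq]
    have h2 : (1 - p) * (s * s) + p * (t * t) = s * s + t * t - 1 := by linear_combination (-1) * hvar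
    rw [h2]; linear_combination (-2) * hst
  have hpq : p * (1 - p) * ((s + t) ^ 2 + 4) = 1 := by
    have : (s + t) ^ 2 = s * s + t * t + 2 * (s * t) := by ring
    rw [this, hst, hss, htt]; field_simp; ring
  have hρ2 : ρ ^ 2 ≤ 1 / 4 := by
    have h4 : ρ ^ 4 ≤ (1 / 4) ^ 2 := by
      rw [hρ]; nlinarith [sq_nonneg (p - 1 / 2)]
    have : (ρ ^ 2) ^ 2 ≤ (1 / 4) ^ 2 := by rw [← pow_mul]; exact h4
    exact le_of_sq_le_sq this (by norm_num)
  set m := s + t with hm
  have expand : p * (a + ρ * s * b) ^ 4 + (1 - p) * (a + ρ * t * b) ^ 4 =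
      a ^ 4 + 6 * ρ ^ 2 * a ^ 2 * b ^ 2 + 4 * ρ ^ 3 * m * a * b ^ 3 + ρ ^ 4 * (m ^ 2 + 1) * b ^ 4 := by
    rw [← m4, ← m3]
    linear_combination (4 * a ^ 3 * ρ * b) * hmean + (6 * a ^ 2 * ρ ^ 2 * b ^ 2) * hvar
  rw [expand]
  -- 4 ρ^3 m a b^3 ≤ 2 ρ^2 a^2 b^2 + 2 ρ^4 m^2 b^4
  have amgm : 4 * ρ ^ 3 * m * a * b ^ 3 ≤ 2 * ρ ^ 2 * a ^ 2 * b ^ 2 + 2 * ρ ^ 4 * m ^ 2 * b ^ 4 := by
    nlinarith [sq_nonneg (ρ * a * b - ρ ^ 2 * m * b ^ 2)]
  have h8 : 8 * ρ ^ 2 * (a ^ 2 * b ^ 2) ≤ 2 * (a ^ 2 * b ^ 2) := by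
    have : 0 ≤ a ^ 2 * b ^ 2 := by positivity
    nlinarith
  have hb4 : 0 ≤ b ^ 4 := by positivity
  have h3 : ρ ^ 4 * (3 * m ^ 2 + 1) ≤ 1 := by
    rw [hρ]
    nlinarith [hpq, mul_pos hp0 h1, mul_nonneg (mul_pos hp0 h1).le (sq_nonneg m)]
  have h3' : ρ ^ 4 * (3 * m ^ 2 + 1) * b ^ 4 ≤ 1 * b ^ 4 := mul_le_mul_of_nonneg_right h3 hb4
  nlinarith

/-- Bonami lemma, coefficient form -/
lemma bonami_aux {p ρ : ℝ} (hp0 : 0 < p) (hp1 : p < 1) (hρ0 : 0 ≤ ρ)
    (hρ : ρ ^ 4 = p * (1 - p) / 4) (A : Finset E) :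
    ∀ c : Finset E → ℝ,
      ex p (fun x => (∑ S ∈ A.powerset, ρ ^ S.card * c S * chi p S x) ^ 4) ≤
        (∑ S ∈ A.powerset, c S ^ 2) ^ 2 := by
  induction A using Finset.induction_on with
  | empty =>
    intro c
    simp only [Finset.powerset_empty, Finset.sum_singleton, Finset.card_empty, pow_zero, one_mul,
      chi_empty, mul_one]
    rw [ex_const]
    apply le_of_eq; ring
  | insert e A he ih =>
    intro c
    set a : (E → Bool) → ℝ := fun x => ∑ S ∈ A.powerset, ρ ^ S.card * c S * chi p S x with ha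
    set b : (E → Bool) → ℝ := fun x => ∑ S ∈ A.powerset, ρ ^ S.card * c (insert e S) * chi p S x
      with hb
    have hsum : ∀ x : E → Bool,
        (∑ S ∈ (insert e A).powerset, ρ ^ S.card * c S * chi p S x) =
          a x + ρ * phi p (x e) * b x := by
      intro x
      rw [Finset.sum_powerset_insert he, ha, hb]
      congr 1
      rw [Finset.mul_sum]
      refine Finset.sum_congr rfl fun S hS => ?_
      have heS : e ∉ S := fun h => he (Finset.mem_powerset.mp hS h)
      rw [Finset.card_insert_of_notMem heS]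
      have : chi p (insert e S) x = phi p (x e) * chi p S x := by
        unfold chi; rw [Finset.prod_insert heS]
      rw [this]; ring
    have hau : ∀ (x : E → Bool) (β : Bool), a (Function.update x e β) = a x := by
      intro x β
      refine Finset.sum_congr rfl fun S hS => ?_
      rw [chi_update_of_notMem p (fun h => he (Finset.mem_powerset.mp hS h))]
    have hbu : ∀ (x : E → Bool) (β : Bool), b (Function.update x e β) = b x := by
      intro x β
      refine Finset.sum_congr rfl fun S hS => ?_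
      rw [chi_update_of_notMem p (fun h => he (Finset.mem_powerset.mp hS h))]
    simp only [hsum]
    rw [ex_split hp0 hp1 e]
    simp only [hau, hbu, Function.update_self]
    set SA := ∑ S ∈ A.powerset, c S ^ 2 with hSA
    set SB := ∑ S ∈ A.powerset, c (insert e S) ^ 2 with hSB
    have hA : ex p (fun x => a x ^ 4) ≤ SA ^ 2 := ih c
    have hB : ex p (fun x => b x ^ 4) ≤ SB ^ 2 := ih (fun S => c (insert e S))
    have hSA0 : 0 ≤ SA := Finset.sum_nonneg fun _ _ => sq_nonneg _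
    have hSB0 : 0 ≤ SB := Finset.sum_nonneg fun _ _ => sq_nonneg _
    have hAB : ex p (fun x => a x ^ 2 * b x ^ 2) ≤ SA * SB := by
      have h1 := ex_cs hp0 hp1 (fun x => a x ^ 2) (fun x => b x ^ 2)
      simp only [← pow_mul] at h1
      norm_num at h1
      have h2 : ex p (fun x => a x ^ 4) * ex p (fun x => b x ^ 4) ≤ SA ^ 2 * SB ^ 2 :=
        mul_le_mul hA hB (ex_nonneg hp0 hp1 fun x => by positivity) (by positivity)
      have h3 : ex p (fun x => a x ^ 2 * b x ^ 2) ^ 2 ≤ (SA * SB) ^ 2 := by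
        rw [mul_pow]; exact h1.trans h2
      exact le_of_sq_le_sq h3 (by positivity)
    calc ex p (fun x => p * (a x + ρ * phi p true * b x) ^ 4 +
            (1 - p) * (a x + ρ * phi p false * b x) ^ 4)
        ≤ ex p (fun x => a x ^ 4 + 2 * (a x ^ 2 * b x ^ 2) + b x ^ 4) := by
          refine ex_mono hp0 hp1 fun x => ?_
          have := two_point hp0 hp1 hρ0 hρ (a x) (b x)
          linarith
      _ = ex p (fun x => a x ^ 4) + 2 * ex p (fun x => a x ^ 2 * b x ^ 2) +
            ex p (fun x => b x ^ 4) := by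
          rw [ex_add, ex_add, ex_const_mul]
      _ ≤ SA ^ 2 + 2 * (SA * SB) + SB ^ 2 := by linarith
      _ = (∑ S ∈ (insert e A).powerset, c S ^ 2) ^ 2 := by
          rw [Finset.sum_powerset_insert he]; ring

/-- Bonami lemma: a function of degree at most `D` -/
lemma bonami {p : ℝ} (hp0 : 0 < p) (hp1 : p < 1) (D : ℕ) (c : Finset E → ℝ)
    (hc : ∀ S, D < S.card → c S = 0) :
    ex p (fun x => (∑ S : Finset E, c S * chi p S x) ^ 4) ≤
      (4 / (p * (1 - p))) ^ D * (∑ S : Finset E, c S ^ 2) ^ 2 := by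
  have h1 : (0:ℝ) < 1 - p := by linarith
  have hpq : 0 < p * (1 - p) := mul_pos hp0 h1
  obtain ⟨ρ, hρ0, hρ⟩ : ∃ ρ : ℝ, 0 < ρ ∧ ρ ^ 4 = p * (1 - p) / 4 := by
    refine ⟨Real.sqrt (Real.sqrt (p * (1 - p) / 4)), by positivity, ?_⟩
    have : Real.sqrt (Real.sqrt (p * (1 - p) / 4)) ^ 4 =
        (Real.sqrt (Real.sqrt (p * (1 - p) / 4)) ^ 2) ^ 2 := by ring
    rw [this, Real.sq_sqrt (by positivity), Real.sq_sqrt (by positivity)]
  have hρ1 : ρ ≤ 1 := by
    by_contra hcon
    push Not at hcon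
    have : 1 < ρ ^ 4 := one_lt_pow₀ hcon (by norm_num)
    rw [hρ] at this
    nlinarith [sq_nonneg (p - 1 / 2)]
  have key := bonami_aux hp0 hp1 hρ0.le hρ (Finset.univ : Finset E) (fun S => c S / ρ ^ S.card)
  simp only [Finset.powerset_univ] at key
  have h2 : ∀ x : E → Bool, (∑ S : Finset E, ρ ^ S.card * (c S / ρ ^ S.card) * chi p S x) =
      ∑ S : Finset E, c S * chi p S x := by
    intro x
    refine Finset.sum_congr rfl fun S _ => ?_
    have : ρ ^ S.card ≠ 0 := by positivity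
    field_simp
  simp only [h2] at key
  refine key.trans ?_
  have h3 : ∑ S : Finset E, (c S / ρ ^ S.card) ^ 2 ≤ (1 / ρ ^ (2 * D)) * ∑ S : Finset E, c S ^ 2 := by
    rw [Finset.mul_sum]
    refine Finset.sum_le_sum fun S _ => ?_
    by_cases hS : D < S.card
    · rw [hc S hS]; simp
    · push Not at hS
      rw [div_pow, ← pow_mul, div_eq_mul_one_div, mul_comm]
      refine mul_le_mul_of_nonneg_right ?_ (sq_nonneg _)
      refine one_div_le_one_div_of_le (by positivity) ?_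
      exact pow_le_pow_of_le_one hρ0.le hρ1 (by omega)
  have h4 : 0 ≤ ∑ S : Finset E, (c S / ρ ^ S.card) ^ 2 := Finset.sum_nonneg fun _ _ => sq_nonneg _
  calc (∑ S : Finset E, (c S / ρ ^ S.card) ^ 2) ^ 2
      ≤ ((1 / ρ ^ (2 * D)) * ∑ S : Finset E, c S ^ 2) ^ 2 := pow_le_pow_left₀ h4 h3 2
    _ = (4 / (p * (1 - p))) ^ D * (∑ S : Finset E, c S ^ 2) ^ 2 := by
        rw [mul_pow]
        congr 1
        rw [div_pow, one_pow, ← pow_mul, show 2 * D * 2 = 4 * D by ring, pow_mul, hρ]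
        rw [one_div, ← inv_pow, inv_div]

end Crest.Agent.FK
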