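import Mathlib
import Crest.Prelude.Def_FinProb

/-! Interface for row 56 (S0077, S0078): KKL-type inequality with vertex symmetry. -/

set_option autoImplicit false

namespace Crest.Agent.FK

open Finset

/-- expectation of `g` on the `p`-biased cube -/
noncomputable def ex {E : Type} [Fintype E] [DecidableEq E] (p : ℝ) (g : (E → Bool) → ℝ) : ℝ :=
  ∑ x, Crest.FinProb.bernoulliWeight p x * g x

/-- 0-1 indicator of a Boolean function -/
def ind {E : Type} (f : (E → Bool) → Bool) : (E → Bool) → ℝ := fun x => if f x = true then 1 else 0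

/-- pivotal influence of `e` -/
noncomputable def infl {E : Type} [Fintype E] [DecidableEq E] (p : ℝ) (f : (E → Bool) → Bool)
    (e : E) : ℝ :=
  ex p (fun x => if f (Function.update x e true) ≠ f (Function.update x e false) then 1 else 0)

/-- total pivotal influence -/
noncomputable def tinf {E : Type} [Fintype E] [DecidableEq E] (p : ℝ) (f : (E → Bool) → Bool) : ℝ :=
  ∑ e, infl p f e

/-- `f` is invariant under all vertex permutations, where the slot `e` has vertex set `vs e` -/
def Sym {V E : Type} (vs : E → Finset V) (f : (E → Bool) → Bool) : Prop :=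
  ∀ σ : Equiv.Perm V, ∃ τ : Equiv.Perm E,
    (∀ e, vs (τ e) = (vs e).map σ.toEmbedding) ∧ ∀ x : E → Bool, f (fun e => x (τ e)) = f x

/-- the edges of `S` that meet `B` -/
def meet {V E : Type} [DecidableEq V] (vs : E → Finset V) (S : Finset E) (B : Finset V) : Finset E :=
  S.filter (fun e => ¬ Disjoint (vs e) B)

/-- MODULE COMB.  -/
def CombStmt : Prop :=
  ∀ (V E : Type) [Fintype V] [DecidableEq V] [Fintype E] [DecidableEq E]
    (r k D b : ℕ) (vs : E → Finset V), 2 ≤ r → (∀ e, (vs e).card = r) → Function.Injective vs →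
    1 ≤ k → 1 ≤ D → 1 ≤ b → (k - 2).choose (r - 1) ≤ D → 2 * (k * b) ≤ Fintype.card V →
    ∀ S : Finset E, S.Nonempty → 4 * r * S.card ≤ k * D →
      (Fintype.card V - 1).choose (b - 1) ≤
        4 * ((powersetCard b (univ : Finset V)).filter
          (fun B => 0 < (meet vs S B).card ∧ (meet vs S B).card ≤ D)).card

/-- MODULE CORE: for every symmetric Boolean `f`: `k D Var f ≤ 8 r p (1-p) I(f)`. -/
def CoreStmt : Prop :=
  ∀ (V E : Type) [Fintype V] [DecidableEq V] [Fintype E] [DecidableEq E]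
    (r k D M : ℕ) (vs : E → Finset V), 2 ≤ r → (∀ e, (vs e).card = r) → Function.Injective vs →
    1 ≤ k → 1 ≤ D → 1 ≤ M → (k - 2).choose (r - 1) ≤ D → 2 * (k * M ^ 3) ≤ Fintype.card V →
    ∀ p : ℝ, 0 < p → p < 1 →
    (2 * k * D : ℝ) ^ 2 * (4 / (p * (1 - p))) ^ D ≤ (M : ℝ) ^ 2 →
    ∀ f : (E → Bool) → Bool, Sym vs f →
      (k * D : ℝ) * (ex p (ind f) * (1 - ex p (ind f))) ≤ 8 * r * (p * (1 - p)) * tinf p f

/-- MODULE PARAM (uses CORE and the Poincare inequality `ex p f (1 - ex p f) ≤ p (1-p) I`). -/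
def PoincareStmt : Prop :=
  ∀ (E : Type) [Fintype E] [DecidableEq E] (p : ℝ), 0 < p → p < 1 →
    ∀ f : (E → Bool) → Bool,
      ex p (ind f) * (1 - ex p (ind f)) ≤ (p * (1 - p)) * tinf p f

/-- final inequality for every `r ≥ 2`; -/
def MainStmt : Prop :=
  ∀ (V E : Type) [Fintype V] [DecidableEq V] [Fintype E] [DecidableEq E]
    (r : ℕ) (vs : E → Finset V), 2 ≤ r → (∀ e, (vs e).card = r) → Function.Injective vs →
    2 ≤ Fintype.card V →
    ∀ p : ℝ, 0 < p → p < 1 →
    ∀ f : (E → Bool) → Bool, Sym vs f →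
      ex p (ind f) * (1 - ex p (ind f)) ≤
        (2 ^ 16 * r : ℝ) / Real.log (Fintype.card V) ^ ((r : ℝ) / ((r : ℝ) - 1)) * tinf p f

end Crest.Agent.FK
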