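import Mathlib
import Crest.Agent.FKDefs
set_option autoImplicit false

/-! Row 56 (S0077, S0078), module COMB: the counting lemma `CombStmt`. -/

namespace Crest.Agent.FK

open Finset

section
variable {V : Type} [Fintype V] [DecidableEq V]

theorem cnt1 (b : ℕ) (hb : 1 ≤ b) (v : V) :
    ((powersetCard b (univ : Finset V)).filter (fun B => v ∈ B)).card =
      (Fintype.card V - 1).choose (b - 1) := by
  have := Finset.card_filter_powersetCard_subset {v} (univ : Finset V) b (subset_univ _)
    (by simpa using hb)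
  rw [card_singleton, card_univ] at this
  rw [← this]
  congr 1
  ext B
  simp

theorem cnt2 (b k : ℕ) (hb : 1 ≤ b) (hk : 1 ≤ k) (hn : 2 * (k * b) ≤ Fintype.card V) (u v : V)
    (huv : u ≠ v) :
    2 * k * ((powersetCard b (univ : Finset V)).filter (fun B => u ∈ B ∧ v ∈ B)).card ≤
      (Fintype.card V - 1).choose (b - 1) := by
  rcases Nat.lt_or_ge b 2 with hb2 | hb2
  · have h0 : ((powersetCard b (univ : Finset V)).filter (fun B => u ∈ B ∧ v ∈ B)) = ∅ := by
      rw [filter_eq_empty_iff]
      rintro B hB ⟨h1, h2⟩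
      rw [mem_powersetCard] at hB
      have : ({u, v} : Finset V) ⊆ B := by
        intro x hx
        simp only [mem_insert, mem_singleton] at hx
        rcases hx with rfl | rfl <;> assumption
      have h3 := card_le_card this
      rw [card_pair huv] at h3
      omega
    rw [h0]; simp
  · have h := Finset.card_filter_powersetCard_subset {u, v} (univ : Finset V) b (subset_univ _)
      (by rw [card_pair huv]; exact hb2)
    rw [card_pair huv, card_univ] at h
    have h0 : ((powersetCard b (univ : Finset V)).filter (fun B => u ∈ B ∧ v ∈ B)).card =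
        (Fintype.card V - 2).choose (b - 2) := by
      rw [← h]
      congr 1
      ext B
      simp [insert_subset_iff]
    rw [h0]
    obtain ⟨n, hn'⟩ : ∃ n, Fintype.card V = n + 2 := by
      refine ⟨Fintype.card V - 2, ?_⟩
      have : 1 * 2 ≤ k * b := Nat.mul_le_mul hk hb2
      omega
    obtain ⟨c, rfl⟩ : ∃ c, b = c + 2 := ⟨b - 2, by omega⟩
    rw [hn'] at hn ⊢
    have e1 : n + 2 - 2 = n := by omega
    have e2 : n + 2 - 1 = n + 1 := by omega
    have e3 : c + 2 - 2 = c := by omega
    have e4 : c + 2 - 1 = c + 1 := by omega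
    rw [e1, e2, e3, e4]
    have h5 := Nat.add_one_mul_choose_eq n c
    -- (n+1) * C(n,c) = C(n+1,c+1) * (c+1)
    have h6 : 2 * k * (c + 1) ≤ n + 1 := by nlinarith
    have h7 : (n + 1) * (2 * k * n.choose c) ≤ (n + 1) * (n + 1).choose (c + 1) := by
      calc (n + 1) * (2 * k * n.choose c) = 2 * k * ((n + 1) * n.choose c) := by ring
        _ = (2 * k * (c + 1)) * (n + 1).choose (c + 1) := by rw [h5]; ring
        _ ≤ (n + 1) * (n + 1).choose (c + 1) := Nat.mul_le_mul_right _ h6
    exact Nat.le_of_mul_le_mul_left h7 (by omega)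

/-- Many `b`-sets hit a small set `A` in exactly one point. -/
theorem one_hit (b k : ℕ) (hb : 1 ≤ b) (hk : 1 ≤ k) (hn : 2 * (k * b) ≤ Fintype.card V)
    (A : Finset V) (hA : A.card ≤ k) :
    A.card * (Fintype.card V - 1).choose (b - 1) ≤
      2 * ((powersetCard b (univ : Finset V)).filter (fun B => (A ∩ B).card = 1)).card := by
  set P := powersetCard b (univ : Finset V) with hP
  set N := (Fintype.card V - 1).choose (b - 1) with hN
  have s1 : ∑ B ∈ P, (A ∩ B).card = A.card * N := by
    calc ∑ B ∈ P, (A ∩ B).card = ∑ B ∈ P, ∑ v ∈ A, (if v ∈ B then 1 else 0) := by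
          refine sum_congr rfl fun B _ => ?_
          rw [← card_filter]
          rfl
      _ = ∑ v ∈ A, ∑ B ∈ P, (if v ∈ B then 1 else 0) := sum_comm
      _ = ∑ v ∈ A, N := by
          refine sum_congr rfl fun v _ => ?_
          rw [← card_filter, cnt1 b hb v]
      _ = A.card * N := by simp
  have s2 : 2 * k * ∑ B ∈ P, (A ∩ B).offDiag.card ≤ A.offDiag.card * N := by
    calc 2 * k * ∑ B ∈ P, (A ∩ B).offDiag.card
        = 2 * k * ∑ B ∈ P, ∑ w ∈ A.offDiag, (if w.1 ∈ B ∧ w.2 ∈ B then 1 else 0) := by
          congr 1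
          refine sum_congr rfl fun B _ => ?_
          rw [← card_filter]
          congr 1
          ext w
          simp only [mem_offDiag, mem_inter, mem_filter]
          tauto
      _ = 2 * k * ∑ w ∈ A.offDiag, ∑ B ∈ P, (if w.1 ∈ B ∧ w.2 ∈ B then 1 else 0) := by
          rw [sum_comm]
      _ = ∑ w ∈ A.offDiag, 2 * k * ∑ B ∈ P, (if w.1 ∈ B ∧ w.2 ∈ B then 1 else 0) := by
          rw [mul_sum]
      _ ≤ ∑ w ∈ A.offDiag, N := by
          refine sum_le_sum fun w hw => ?_
          rw [← card_filter]
          exact cnt2 b k hb hk hn w.1 w.2 (mem_offDiag.1 hw).2.2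
      _ = A.offDiag.card * N := by simp
  have s3 : ∑ B ∈ P, (A ∩ B).card ≤
      (P.filter (fun B => (A ∩ B).card = 1)).card + ∑ B ∈ P, (A ∩ B).offDiag.card := by
    rw [card_filter, ← sum_add_distrib]
    refine sum_le_sum fun B _ => ?_
    rw [offDiag_card]
    rcases Nat.lt_or_ge (A ∩ B).card 2 with h | h
    · interval_cases (A ∩ B).card <;> simp
    · obtain ⟨x, hx⟩ : ∃ x, (A ∩ B).card = x + 2 := ⟨(A ∩ B).card - 2, by omega⟩
      rw [hx]
      have : (x + 2) * (x + 2) - (x + 2) = (x + 2) * (x + 1) := by
        rw [Nat.sub_eq_iff_eq_add (by nlinarith)]; ring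
      rw [this]
      have : x + 2 ≤ (x + 2) * (x + 1) := Nat.le_mul_of_pos_right _ (by omega)
      omega
  have s4 : A.offDiag.card ≤ k * A.card := by
    rw [offDiag_card]
    calc A.card * A.card - A.card ≤ A.card * A.card := Nat.sub_le _ _
      _ ≤ k * A.card := Nat.mul_le_mul_right _ hA
  -- combine
  rw [s1] at s3
  have s5 : 2 * k * ∑ B ∈ P, (A ∩ B).offDiag.card ≤ k * (A.card * N) := by
    calc 2 * k * ∑ B ∈ P, (A ∩ B).offDiag.card ≤ A.offDiag.card * N := s2
      _ ≤ k * A.card * N := Nat.mul_le_mul_right _ s4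
      _ = k * (A.card * N) := by ring
  have s6 : 2 * ∑ B ∈ P, (A ∩ B).offDiag.card ≤ A.card * N := by
    apply Nat.le_of_mul_le_mul_left (c := k) _ (by omega)
    calc k * (2 * ∑ B ∈ P, (A ∩ B).offDiag.card) = 2 * k * ∑ B ∈ P, (A ∩ B).offDiag.card := by ring
      _ ≤ _ := s5
  omega

end

theorem comb : CombStmt := by
  intro V E _ _ _ _ r k D b vs hr hvs hinj hk hD hb hch hn S hS hSc
  set P := powersetCard b (univ : Finset V) with hP
  set N := (Fintype.card V - 1).choose (b - 1) with hN
  set VS : Finset V := S.biUnion vs with hVS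
  have hmem : ∀ v ∈ VS, ∀ B : Finset V, v ∈ B → 0 < (meet vs S B).card := by
    intro v hv B hB
    obtain ⟨e, he, hve⟩ := mem_biUnion.1 hv
    apply card_pos.2
    refine ⟨e, mem_filter.2 ⟨he, ?_⟩⟩
    rw [not_disjoint_iff]
    exact ⟨v, hve, hB⟩
  rcases Nat.lt_or_ge VS.card k with hm | hm
  · -- few vertices
    have h1 := one_hit b k hb hk hn VS hm.le
    rw [← hP, ← hN] at h1
    have h2 : r ≤ VS.card := by
      obtain ⟨e, he⟩ := hS
      rw [← hvs e]
      exact card_le_card (subset_biUnion_of_mem vs he)
    have h3 : (P.filter (fun B => (VS ∩ B).card = 1)) ⊆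
        P.filter (fun B => 0 < (meet vs S B).card ∧ (meet vs S B).card ≤ D) := by
      intro B hB
      rw [mem_filter] at hB ⊢
      obtain ⟨v, hv⟩ := card_eq_one.1 hB.2
      have hv' : v ∈ VS ∩ B := by rw [hv]; simp
      refine ⟨hB.1, hmem v (mem_inter.1 hv').1 B (mem_inter.1 hv').2, ?_⟩
      -- edges of S meeting B contain v
      have hsub : (meet vs S B).image vs ⊆ (powersetCard r VS).filter (fun e => {v} ⊆ e) := by
        intro x hx
        obtain ⟨e, he, rfl⟩ := mem_image.1 hx
        obtain ⟨heS, heB⟩ := mem_filter.1 he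
        rw [not_disjoint_iff] at heB
        obtain ⟨w, hw1, hw2⟩ := heB
        have hwVS : w ∈ VS := mem_biUnion.2 ⟨e, heS, hw1⟩
        have hwv : w = v := by
          have : w ∈ VS ∩ B := mem_inter.2 ⟨hwVS, hw2⟩
          rw [hv] at this
          simpa using this
        rw [mem_filter, mem_powersetCard]
        exact ⟨⟨subset_biUnion_of_mem vs heS, hvs e⟩, by simpa [← hwv] using hw1⟩
      calc (meet vs S B).card = ((meet vs S B).image vs).card :=
            (card_image_of_injective _ hinj).symm
        _ ≤ ((powersetCard r VS).filter (fun e => {v} ⊆ e)).card := card_le_card hsub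
        _ = (VS.card - 1).choose (r - 1) := by
            rw [Finset.card_filter_powersetCard_subset {v} VS r
              (singleton_subset_iff.2 (mem_inter.1 hv').1) (by simp; omega)]
            simp
        _ ≤ (k - 2).choose (r - 1) := Nat.choose_le_choose _ (by omega)
        _ ≤ D := hch
    have h4 := card_le_card h3
    have h5 : 2 * N ≤ VS.card * N := Nat.mul_le_mul_right _ (hr.trans h2)
    omega
  · -- many vertices
    obtain ⟨V0, hV0, hV0c⟩ := exists_subset_card_eq hm
    have h1 := one_hit b k hb hk hn V0 hV0c.le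
    rw [hV0c, ← hP, ← hN] at h1
    -- bad sets
    have h2 : D * (P.filter (fun B => D < (meet vs S B).card)).card ≤ S.card * (r * N) := by
      calc D * (P.filter (fun B => D < (meet vs S B).card)).card
          = ∑ B ∈ P.filter (fun B => D < (meet vs S B).card), D := by
            rw [sum_const, smul_eq_mul, mul_comm]
        _ ≤ ∑ B ∈ P.filter (fun B => D < (meet vs S B).card), (meet vs S B).card :=
            sum_le_sum fun B hB => (mem_filter.1 hB).2.le
        _ ≤ ∑ B ∈ P, (meet vs S B).card :=
            sum_le_sum_of_subset (filter_subset _ _)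
        _ = ∑ B ∈ P, ∑ e ∈ S, (if ¬ Disjoint (vs e) B then 1 else 0) := by
            refine sum_congr rfl fun B _ => ?_
            rw [meet, card_filter]
        _ = ∑ e ∈ S, ∑ B ∈ P, (if ¬ Disjoint (vs e) B then 1 else 0) := sum_comm
        _ ≤ ∑ e ∈ S, ∑ B ∈ P, ∑ v ∈ vs e, (if v ∈ B then 1 else 0) := by
            refine sum_le_sum fun e _ => sum_le_sum fun B _ => ?_
            by_cases h : Disjoint (vs e) B
            · simp [h]
            · rw [if_pos h]
              rw [not_disjoint_iff] at h
              obtain ⟨v, hv1, hv2⟩ := h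
              calc 1 = (if v ∈ B then 1 else 0) := by rw [if_pos hv2]
                _ ≤ ∑ v ∈ vs e, (if v ∈ B then 1 else 0) :=
                  single_le_sum (f := fun v => (if v ∈ B then 1 else 0))
                    (fun _ _ => Nat.zero_le _) hv1
        _ = ∑ e ∈ S, ∑ v ∈ vs e, ∑ B ∈ P, (if v ∈ B then 1 else 0) := by
            refine sum_congr rfl fun e _ => sum_comm
        _ = ∑ e ∈ S, ∑ v ∈ vs e, N := by
            refine sum_congr rfl fun e _ => sum_congr rfl fun v _ => ?_
            rw [← card_filter, cnt1 b hb v]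
        _ = S.card * (r * N) := by
            simp [hvs]
    have h3 : 4 * (P.filter (fun B => D < (meet vs S B).card)).card ≤ k * N := by
      apply Nat.le_of_mul_le_mul_left (c := D) _ (by omega)
      calc D * (4 * (P.filter (fun B => D < (meet vs S B).card)).card)
          = 4 * (D * (P.filter (fun B => D < (meet vs S B).card)).card) := by ring
        _ ≤ 4 * (S.card * (r * N)) := Nat.mul_le_mul_left _ h2
        _ = (4 * r * S.card) * N := by ring
        _ ≤ (k * D) * N := Nat.mul_le_mul_right _ hSc
        _ = D * (k * N) := by ring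
    have h4 : (P.filter (fun B => (V0 ∩ B).card = 1)) ⊆
        P.filter (fun B => 0 < (meet vs S B).card ∧ (meet vs S B).card ≤ D) ∪
          P.filter (fun B => D < (meet vs S B).card) := by
      intro B hB
      rw [mem_filter] at hB
      obtain ⟨v, hv⟩ := card_eq_one.1 hB.2
      have hv' : v ∈ V0 ∩ B := by rw [hv]; simp
      have hpos := hmem v (hV0 (mem_inter.1 hv').1) B (mem_inter.1 hv').2
      rw [mem_union, mem_filter, mem_filter]
      by_cases h : (meet vs S B).card ≤ D
      · exact Or.inl ⟨hB.1, hpos, h⟩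
      · exact Or.inr ⟨hB.1, not_le.1 h⟩
    have h5 := (card_le_card h4).trans (card_union_le _ _)
    have h6 : N ≤ k * N := Nat.le_mul_of_pos_left _ (by omega)
    omega

end Crest.Agent.FK
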