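import Crest.Agent.FKLevel

/-! CORE inequality (row 56). -/

set_option autoImplicit false
set_option linter.unusedSectionVars false

namespace Crest.Agent.FK

open Finset
open Crest.FinProb (bernoulliWeight)

variable {V E : Type} [Fintype V] [DecidableEq V] [Fintype E] [DecidableEq E]

/-- slots containing `v` -/
def star (vs : E → Finset V) (v : V) : Finset E := univ.filter (fun e => v ∈ vs e)

lemma not_disjoint_star (vs : E → Finset V) (v : V) (S : Finset E) :
    ¬ Disjoint S (star vs v) ↔ v ∈ S.biUnion vs := by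
  rw [Finset.not_disjoint_iff, Finset.mem_biUnion]
  simp [star]

lemma inter_meet_univ (vs : E → Finset V) (S : Finset E) (B : Finset V) :
    S ∩ meet vs univ B = meet vs S B := by
  ext e; simp [meet]

/-- restrictions of a symmetric function: coefficients seen by `v` and `v'` -/
lemma star_sum_eq {p : ℝ} (vs : E → Finset V) (hinj : Function.Injective vs)
    (f : (E → Bool) → Bool) (hf : Sym vs f) (B : Finset V) (y : E → Bool) {v v' : V}
    (hv : v ∈ B) (hv' : v' ∈ B) :
    ∑ U with ¬ Disjoint U (star vs v), fc p (fun z => ind f (mix (meet vs univ B) z y)) U ^ 2 =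
    ∑ U with ¬ Disjoint U (star vs v'), fc p (fun z => ind f (mix (meet vs univ B) z y)) U ^ 2 := by
  obtain ⟨τ, hτ, hfτ⟩ := hf (Equiv.swap v v')
  set T := meet vs univ B with hT
  set h : (E → Bool) → ℝ := fun z => ind f (mix T z y) with hh
  have hBσ : ∀ w, Equiv.swap v v' w ∈ B ↔ w ∈ B := by
    intro w
    by_cases h1 : w = v
    · subst h1; simp [hv, hv']
    · by_cases h2 : w = v'
      · subst h2; simp [hv, hv']
      · rw [Equiv.swap_apply_of_ne_of_ne h1 h2]
  have hmemT : ∀ e, e ∈ T ↔ ∃ w ∈ vs e, w ∈ B := by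
    intro e
    simp only [hT, meet, Finset.mem_filter, Finset.mem_univ, true_and, Finset.not_disjoint_iff]
  have hTτ : ∀ e, τ e ∈ T ↔ e ∈ T := by
    intro e
    rw [hmemT, hmemT, hτ]
    constructor
    · rintro ⟨w, hw, hwB⟩
      rw [Finset.mem_map] at hw
      obtain ⟨w', hw', rfl⟩ := hw
      exact ⟨w', hw', (hBσ w').mp hwB⟩
    · rintro ⟨w, hw, hwB⟩
      exact ⟨Equiv.swap v v' w, Finset.mem_map.mpr ⟨w, hw, rfl⟩, (hBσ w).mpr hwB⟩
  have hfix : ∀ e, e ∉ T → τ e = e := by
    intro e he
    apply hinj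
    rw [hτ]
    rw [hmemT] at he
    push Not at he
    ext w
    rw [Finset.mem_map]
    have hid : ∀ w ∈ vs e, Equiv.swap v v' w = w := by
      intro w hw
      refine Equiv.swap_apply_of_ne_of_ne ?_ ?_
      · rintro rfl; exact he w hw hv
      · rintro rfl; exact he w hw hv'
    constructor
    · rintro ⟨w', hw', rfl⟩
      have := hid w' hw'
      simp only [Equiv.coe_toEmbedding, this]; exact hw'
    · intro hw
      exact ⟨w, hw, hid w hw⟩
  have hinv : ∀ z : E → Bool, h (fun e => z (τ e)) = h z := by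
    intro z
    have h1 : mix T (fun e => z (τ e)) y = fun e => (mix T z y) (τ e) := by
      funext e
      unfold mix
      by_cases he : e ∈ T
      · rw [if_pos he, if_pos ((hTτ e).mpr he)]
      · rw [if_neg he, if_neg (fun h' => he ((hTτ e).mp h')), hfix e he]
    simp only [hh]
    rw [h1]
    unfold ind
    rw [hfτ]
  -- reindex by `U ↦ U.map τ`
  refine Finset.sum_bij (fun U _ => U.map τ.toEmbedding) ?_ ?_ ?_ ?_
  · intro U hU
    simp only [Finset.mem_filter, Finset.mem_univ, true_and, Finset.not_disjoint_iff] at hU ⊢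
    obtain ⟨e, he, hev⟩ := hU
    refine ⟨τ e, Finset.mem_map.mpr ⟨e, he, rfl⟩, ?_⟩
    simp only [star, Finset.mem_filter, Finset.mem_univ, true_and] at hev ⊢
    rw [hτ]
    exact Finset.mem_map.mpr ⟨v, hev, by simp⟩
  · intro U _ U' _ hUU
    exact Finset.map_injective _ hUU
  · intro U hU
    simp only [Finset.mem_filter, Finset.mem_univ, true_and, Finset.not_disjoint_iff] at hU
    obtain ⟨e, he, hev⟩ := hU
    refine ⟨U.map τ.symm.toEmbedding, ?_, ?_⟩
    · simp only [Finset.mem_filter, Finset.mem_univ, true_and, Finset.not_disjoint_iff]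
      refine ⟨τ.symm e, Finset.mem_map.mpr ⟨e, he, rfl⟩, ?_⟩
      simp only [star, Finset.mem_filter, Finset.mem_univ, true_and] at hev ⊢
      have h2 := hτ (τ.symm e)
      rw [Equiv.apply_symm_apply] at h2
      rw [h2] at hev
      rw [Finset.mem_map] at hev
      obtain ⟨w, hw, hwv⟩ := hev
      have : w = v := by
        have h3 : Equiv.swap v v' w = Equiv.swap v v' v := by simpa using hwv
        exact (Equiv.swap v v').injective h3
      rw [← this]; exact hw
    · ext e'
      simp only [Finset.mem_map, Equiv.coe_toEmbedding]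
      constructor
      · rintro ⟨a, ⟨b, hb, rfl⟩, rfl⟩; simpa using hb
      · intro he'; exact ⟨τ.symm e', ⟨e', he', rfl⟩, by simp⟩
  · intro U _
    rw [fc_map p τ h hinv]

/-- the low-degree mass of the restriction -/
lemma W_bound {p : ℝ} (hp0 : 0 < p) (hp1 : p < 1) (vs : E → Finset V)
    (hinj : Function.Injective vs) (f : (E → Bool) → Bool) (hf : Sym vs f) (B : Finset V)
    (M D : ℕ) (hM : 1 ≤ M) (hB : B.card = M ^ 3) (y : E → Bool) :
    ∑ U with (0 < U.card ∧ U.card ≤ D), fc p (fun z => ind f (mix (meet vs univ B) z y)) U ^ 2 ≤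
      2 * Real.sqrt ((4 / (p * (1 - p))) ^ D) / M *
        ∑ v ∈ B, ∑ U with ¬ Disjoint U (star vs v),
          fc p (fun z => ind f (mix (meet vs univ B) z y)) U ^ 2 := by
  have hpq : 0 < p * (1 - p) := mul_pos hp0 (by linarith)
  set T := meet vs univ B with hT
  set h : (E → Bool) → ℝ := fun z => ind f (mix T z y) with hh
  set X := (4 / (p * (1 - p))) with hX
  set R := Real.sqrt (X ^ D) with hR
  have hX1 : 1 ≤ X := by
    rw [hX, le_div_iff₀ hpq]; nlinarith [sq_nonneg (p - 1 / 2)]
  have hR1 : 1 ≤ R := by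
    rw [hR]; exact Real.one_le_sqrt.mpr (one_le_pow₀ hX1)
  have hRsq : R ^ 2 = X ^ D := Real.sq_sqrt (by positivity)
  have hMpos : (0:ℝ) < M := by exact_mod_cast hM
  have hh01 : ∀ x, h x = 0 ∨ h x = 1 := by
    intro x; simp only [hh, ind]; split_ifs <;> simp
  set J : V → ℝ := fun v => ∑ U with ¬ Disjoint U (star vs v), fc p h U ^ 2 with hJ
  set G : V → ℝ := fun v => ∑ U with (U.card ≤ D ∧ ¬ Disjoint U (star vs v)), fc p h U ^ 2 with hG
  set W := ∑ U with (0 < U.card ∧ U.card ≤ D), fc p h U ^ 2 with hW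
  have hJ0 : ∀ v, 0 ≤ J v := fun v => Finset.sum_nonneg fun _ _ => sq_nonneg _
  have hG0 : ∀ v, 0 ≤ G v := fun v => Finset.sum_nonneg fun _ _ => sq_nonneg _
  have hW1 : W ≤ 1 := by
    calc W ≤ ∑ U : Finset E, fc p h U ^ 2 :=
          Finset.sum_le_sum_of_subset_of_nonneg (Finset.filter_subset _ _)
            (fun _ _ _ => sq_nonneg _)
      _ = ex p (fun x => h x * h x) := by
          rw [parseval hp0 hp1]; exact Finset.sum_congr rfl fun U _ => sq _
      _ ≤ ex p (fun _ => 1) := by
          refine ex_mono hp0 hp1 fun x => ?_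
          rcases hh01 x with h' | h' <;> rw [h'] <;> norm_num
      _ = 1 := ex_const 1
  have hWG : W ≤ ∑ v ∈ B, G v := by
    -- each contributing `U` is counted by some `v ∈ B`
    have h1 : ∀ U : Finset E, (if (0 < U.card ∧ U.card ≤ D) then fc p h U ^ 2 else 0) ≤
        ∑ v ∈ B, if (U.card ≤ D ∧ ¬ Disjoint U (star vs v)) then fc p h U ^ 2 else 0 := by
      intro U
      have hnn : ∀ v ∈ B, 0 ≤ (if (U.card ≤ D ∧ ¬ Disjoint U (star vs v)) then fc p h U ^ 2 else 0) := by
        intro v _; split_ifs
        · exact sq_nonneg _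
        · exact le_refl _
      by_cases hU : 0 < U.card ∧ U.card ≤ D
      · rw [if_pos hU]
        by_cases h0 : fc p h U = 0
        · rw [h0, zero_pow two_ne_zero]; exact Finset.sum_nonneg (by simpa [h0] using hnn)
        · have hUT : U ⊆ T := by
            by_contra hcon
            apply h0
            simp only [hh]
            rw [fc_mix hp0 hp1]
            refine Finset.sum_eq_zero fun S _ => ?_
            have : S ∩ T ≠ U := by rintro rfl; exact hcon Finset.inter_subset_right
            rw [if_neg this, zero_mul]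
          obtain ⟨e, he⟩ := Finset.card_pos.mp hU.1
          have heT := hUT he
          simp only [hT, meet, Finset.mem_filter, Finset.mem_univ, true_and,
            Finset.not_disjoint_iff] at heT
          obtain ⟨w, hw, hwB⟩ := heT
          have hmem : U.card ≤ D ∧ ¬ Disjoint U (star vs w) :=
            ⟨hU.2, (not_disjoint_star vs w U).mpr (Finset.mem_biUnion.mpr ⟨e, he, hw⟩)⟩
          calc fc p h U ^ 2 = (if (U.card ≤ D ∧ ¬ Disjoint U (star vs w)) then fc p h U ^ 2 else 0) := by
                rw [if_pos hmem]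
            _ ≤ _ := Finset.single_le_sum hnn hwB
      · rw [if_neg hU]; exact Finset.sum_nonneg hnn
    calc W = ∑ U : Finset E, (if (0 < U.card ∧ U.card ≤ D) then fc p h U ^ 2 else 0) := by
          rw [hW, Finset.sum_filter]
      _ ≤ ∑ U : Finset E, ∑ v ∈ B,
            if (U.card ≤ D ∧ ¬ Disjoint U (star vs v)) then fc p h U ^ 2 else 0 :=
          Finset.sum_le_sum fun U _ => h1 U
      _ = ∑ v ∈ B, G v := by
          rw [Finset.sum_comm]
          refine Finset.sum_congr rfl fun v _ => ?_
          simp only [hG, Finset.sum_filter]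
  have hBne : B.Nonempty := by
    rw [← Finset.card_pos, hB]; positivity
  obtain ⟨v0, hv0⟩ := hBne
  have hJeq : ∀ v ∈ B, J v = J v0 := fun v hv => star_sum_eq vs hinj f hf B y hv hv0
  have hK : ∑ v ∈ B, J v = (M:ℝ) ^ 3 * J v0 := by
    rw [Finset.sum_congr rfl hJeq, Finset.sum_const, hB, nsmul_eq_mul]; push_cast; ring
  rw [hK]
  by_cases hcase : J v0 * (M:ℝ) ^ 2 ≤ 1
  · -- small influence
    have hGv : ∀ v ∈ B, G v ≤ 2 * R / M * J v0 := by
      intro v hv
      have hl := level hp0 hp1 (star vs v) h hh01 D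
      have hl' : G v ^ 2 ≤ 4 * X ^ D * J v0 ^ 3 := by
        rw [← hJeq v hv]; exact hl
      have : G v ^ 2 ≤ (2 * R / M * J v0) ^ 2 := by
        refine hl'.trans ?_
        have e1 : (2 * R / M * J v0) ^ 2 = 4 * X ^ D * (J v0 ^ 2 / (M:ℝ) ^ 2) := by
          rw [← hRsq]; field_simp; ring
        rw [e1]
        refine mul_le_mul_of_nonneg_left ?_ (by positivity)
        rw [le_div_iff₀ (by positivity)]
        have := hJ0 v0
        nlinarith [mul_le_mul_of_nonneg_left hcase (sq_nonneg (J v0))]
      exact le_of_sq_le_sq this (by have := hJ0 v0; positivity)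
    calc W ≤ ∑ v ∈ B, G v := hWG
      _ ≤ ∑ v ∈ B, 2 * R / M * J v0 := Finset.sum_le_sum hGv
      _ = 2 * R / M * ((M:ℝ) ^ 3 * J v0) := by
          rw [Finset.sum_const, hB, nsmul_eq_mul]; push_cast; ring
  · push Not at hcase
    have : 1 ≤ 2 * R / M * ((M:ℝ) ^ 3 * J v0) := by
      have e1 : 2 * R / M * ((M:ℝ) ^ 3 * J v0) = 2 * R * (J v0 * (M:ℝ) ^ 2) := by
        field_simp
      rw [e1]
      nlinarith
    exact hW1.trans this

/-- averaged over the restriction -/
lemma Q_bound {p : ℝ} (hp0 : 0 < p) (hp1 : p < 1) (vs : E → Finset V)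
    (hinj : Function.Injective vs) (f : (E → Bool) → Bool) (hf : Sym vs f) (B : Finset V)
    (M D : ℕ) (hM : 1 ≤ M) (hB : B.card = M ^ 3) :
    ∑ S with (0 < (meet vs S B).card ∧ (meet vs S B).card ≤ D), fc p (ind f) S ^ 2 ≤
      2 * Real.sqrt ((4 / (p * (1 - p))) ^ D) / M *
        ∑ v ∈ B, ∑ S with v ∈ S.biUnion vs, fc p (ind f) S ^ 2 := by
  have h1 := ex_mono hp0 hp1 (fun y => W_bound hp0 hp1 vs hinj f hf B M D hM hB y)
  rw [ex_sum_fc_mix_sq hp0 hp1 (meet vs univ B) (ind f) (fun U => 0 < U.card ∧ U.card ≤ D),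
    ex_const_mul, ex_sum] at h1
  have h2 : ∀ v ∈ B, ex p (fun y => ∑ U with ¬ Disjoint U (star vs v),
      fc p (fun z => ind f (mix (meet vs univ B) z y)) U ^ 2) =
      ∑ S with v ∈ S.biUnion vs, fc p (ind f) S ^ 2 := by
    intro v hv
    rw [ex_sum_fc_mix_sq hp0 hp1 (meet vs univ B) (ind f) (fun U => ¬ Disjoint U (star vs v))]
    refine Finset.sum_congr ?_ fun _ _ => rfl
    ext S
    simp only [Finset.mem_filter, Finset.mem_univ, true_and]
    rw [not_disjoint_star, inter_meet_univ, Finset.mem_biUnion, Finset.mem_biUnion]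
    constructor
    · rintro ⟨e, he, hve⟩
      exact ⟨e, (Finset.mem_filter.mp he).1, hve⟩
    · rintro ⟨e, he, hve⟩
      refine ⟨e, Finset.mem_filter.mpr ⟨he, ?_⟩, hve⟩
      exact Finset.not_disjoint_iff.mpr ⟨v, hve, hv⟩
  rw [Finset.sum_congr rfl h2] at h1
  simpa only [inter_meet_univ] using h1

/-- number of `b`-sets containing `v` -/
lemma card_mem_powersetCard (b : ℕ) (hb : 1 ≤ b) (v : V) :
    ((powersetCard b (univ : Finset V)).filter (fun B => v ∈ B)).card =
      (Fintype.card V - 1).choose (b - 1) := by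
  have := Finset.card_filter_powersetCard_subset ({v} : Finset V) univ b (by simp) (by simpa using hb)
  simpa using this

theorem core (hcomb : CombStmt) : CoreStmt := by
  intro V E _ _ _ _ r k D M vs hr hvs hinj hk hD hM hkD hn p hp0 hp1 hcond f hf
  have hpq : 0 < p * (1 - p) := mul_pos hp0 (by linarith)
  set X := (4 / (p * (1 - p))) with hX
  set R := Real.sqrt (X ^ D) with hR
  have hRsq : R ^ 2 = X ^ D := Real.sq_sqrt (by positivity)
  have hR0 : 0 ≤ R := Real.sqrt_nonneg _
  have hMpos : (0:ℝ) < M := by exact_mod_cast hM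
  set F : Finset E → ℝ := fun S => fc p (ind f) S ^ 2 with hF
  have hF0 : ∀ S, 0 ≤ F S := fun S => sq_nonneg _
  set b := M ^ 3 with hb
  have hb1 : 1 ≤ b := Nat.one_le_pow _ _ hM
  set N1 : ℕ := (Fintype.card V - 1).choose (b - 1) with hN1
  have hbn : b ≤ Fintype.card V := by nlinarith
  have hN1pos : 0 < N1 := Nat.choose_pos (by omega)
  set PQ := p * (1 - p) with hPQ
  set I := tinf p f with hI
  have hI2 : ∑ S : Finset E, (S.card : ℝ) * F S = PQ * I := tinf_eq hp0 hp1 f
  have hvar := var_eq hp0 hp1 f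
  -- upper bound for the sum over `B`
  have up : ∑ B ∈ powersetCard b (univ : Finset V),
      ∑ S with (0 < (meet vs S B).card ∧ (meet vs S B).card ≤ D), F S ≤
      2 * R / M * (N1 * (r * (PQ * I))) := by
    calc ∑ B ∈ powersetCard b (univ : Finset V),
          ∑ S with (0 < (meet vs S B).card ∧ (meet vs S B).card ≤ D), F S
        ≤ ∑ B ∈ powersetCard b (univ : Finset V), 2 * R / M *
            ∑ v ∈ B, ∑ S with v ∈ S.biUnion vs, F S := by
          refine Finset.sum_le_sum fun B hB => ?_
          exact Q_bound hp0 hp1 vs hinj f hf B M D hM (Finset.mem_powersetCard.mp hB).2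
      _ = 2 * R / M * ∑ B ∈ powersetCard b (univ : Finset V),
            ∑ v ∈ B, ∑ S with v ∈ S.biUnion vs, F S := by rw [Finset.mul_sum]
      _ = 2 * R / M * (N1 * ∑ v : V, ∑ S with v ∈ S.biUnion vs, F S) := by
          congr 1
          calc ∑ B ∈ powersetCard b (univ : Finset V), ∑ v ∈ B, ∑ S with v ∈ S.biUnion vs, F S
              = ∑ B ∈ powersetCard b (univ : Finset V), ∑ v : V,
                  if v ∈ B then ∑ S with v ∈ S.biUnion vs, F S else 0 := by
                refine Finset.sum_congr rfl fun B _ => ?_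
                rw [← Finset.sum_filter]
                refine Finset.sum_congr ?_ fun _ _ => rfl
                ext v; simp
            _ = ∑ v : V, ∑ B ∈ powersetCard b (univ : Finset V),
                  if v ∈ B then ∑ S with v ∈ S.biUnion vs, F S else 0 := Finset.sum_comm
            _ = ∑ v : V, (N1:ℝ) * ∑ S with v ∈ S.biUnion vs, F S := by
                refine Finset.sum_congr rfl fun v _ => ?_
                rw [← Finset.sum_filter, Finset.sum_const, card_mem_powersetCard b hb1 v,
                  nsmul_eq_mul]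
            _ = _ := by rw [Finset.mul_sum]
      _ ≤ 2 * R / M * (N1 * (r * (PQ * I))) := by
          refine mul_le_mul_of_nonneg_left (mul_le_mul_of_nonneg_left ?_ (Nat.cast_nonneg _))
            (by positivity)
          rw [← hI2, Finset.mul_sum]
          simp only [Finset.sum_filter]
          rw [Finset.sum_comm]
          refine Finset.sum_le_sum fun S _ => ?_
          rw [← Finset.sum_filter, Finset.sum_const, nsmul_eq_mul]
          have hc : ((univ.filter (fun v => v ∈ S.biUnion vs)).card : ℝ) ≤ r * S.card := by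
            have h1 : (univ.filter (fun v => v ∈ S.biUnion vs)) = S.biUnion vs := by
              ext v; simp
            rw [h1]
            have h2 : (S.biUnion vs).card ≤ S.card * r :=
              Finset.card_biUnion_le_card_mul S vs r (fun e _ => (hvs e).le)
            have h3 : ((S.biUnion vs).card : ℝ) ≤ (S.card * r : ℕ) := by exact_mod_cast h2
            push_cast at h3; linarith
          calc _ ≤ (r * S.card : ℝ) * F S := mul_le_mul_of_nonneg_right hc (hF0 S)
            _ = _ := by ring
  -- lower bound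
  set Tl := ∑ S with (S.Nonempty ∧ 4 * r * S.card ≤ k * D), F S with hTl
  have low : Tl * N1 ≤ 4 * ∑ B ∈ powersetCard b (univ : Finset V),
      ∑ S with (0 < (meet vs S B).card ∧ (meet vs S B).card ≤ D), F S := by
    have e1 : ∑ B ∈ powersetCard b (univ : Finset V),
        ∑ S with (0 < (meet vs S B).card ∧ (meet vs S B).card ≤ D), F S =
        ∑ S : Finset E, (((powersetCard b (univ : Finset V)).filter
          (fun B => 0 < (meet vs S B).card ∧ (meet vs S B).card ≤ D)).card : ℝ) * F S := by
      simp only [Finset.sum_filter]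
      rw [Finset.sum_comm]
      refine Finset.sum_congr rfl fun S _ => ?_
      rw [← Finset.sum_filter, Finset.sum_const, nsmul_eq_mul]
    rw [e1, hTl, Finset.sum_mul, Finset.mul_sum, Finset.sum_filter]
    refine Finset.sum_le_sum fun S _ => ?_
    split_ifs with hS
    · have := hcomb V E r k D b vs hr hvs hinj hk hD hb1 hkD hn S hS.1 hS.2
      have h2 : (N1 : ℝ) ≤ 4 * (((powersetCard b (univ : Finset V)).filter
          (fun B => 0 < (meet vs S B).card ∧ (meet vs S B).card ≤ D)).card : ℝ) := by
        exact_mod_cast this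
      have := mul_le_mul_of_nonneg_right h2 (hF0 S)
      linarith
    · positivity
  have hN1R : (0:ℝ) < N1 := by exact_mod_cast hN1pos
  have Tle : Tl ≤ 8 * R / M * (r * (PQ * I)) := by
    have h3 : Tl * N1 ≤ (8 * R / M * (r * (PQ * I))) * N1 := by
      calc Tl * N1 ≤ 4 * (2 * R / M * (N1 * (r * (PQ * I)))) := low.trans (by linarith)
        _ = _ := by ring
    exact le_of_mul_le_mul_right h3 hN1R
  -- the high part
  have high : (k * D : ℝ) * (ex p (ind f) * (1 - ex p (ind f)) - Tl) ≤ 4 * r * (PQ * I) := by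
    have e2 : ex p (ind f) * (1 - ex p (ind f)) - Tl =
        ∑ S with (S.Nonempty ∧ ¬ 4 * r * S.card ≤ k * D), F S := by
      rw [← hvar, hTl]
      rw [← Finset.sum_filter_add_sum_filter_not (univ.filter (fun S : Finset E => S.Nonempty))
        (fun S : Finset E => 4 * r * S.card ≤ k * D)]
      rw [Finset.filter_filter, Finset.filter_filter]
      ring
    rw [e2, ← hI2, Finset.mul_sum, Finset.mul_sum, Finset.sum_filter]
    refine Finset.sum_le_sum fun S _ => ?_
    split_ifs with hS
    · have h4 : (k * D : ℝ) ≤ 4 * r * S.card := by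
        have := (not_le.mp hS.2).le
        exact_mod_cast this
      calc (k * D : ℝ) * F S ≤ (4 * r * S.card) * F S := mul_le_mul_of_nonneg_right h4 (hF0 S)
        _ = _ := by ring
    · have := hF0 S; positivity
  have hPQI : 0 ≤ PQ * I := by
    rw [← hI2]; exact Finset.sum_nonneg fun S _ => mul_nonneg (Nat.cast_nonneg _) (hF0 S)
  have hRM : 2 * k * D * R ≤ M := by
    have : (2 * k * D * R) ^ 2 ≤ (M:ℝ) ^ 2 := by rw [mul_pow, hRsq]; exact hcond
    exact le_of_sq_le_sq this hMpos.le
  have hlast : (k * D : ℝ) * Tl ≤ 4 * r * (PQ * I) := by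
    calc (k * D : ℝ) * Tl ≤ (k * D) * (8 * R / M * (r * (PQ * I))) :=
          mul_le_mul_of_nonneg_left Tle (by positivity)
      _ = (2 * k * D * R) / M * (4 * r * (PQ * I)) := by field_simp; ring
      _ ≤ 1 * (4 * r * (PQ * I)) := by
          refine mul_le_mul_of_nonneg_right ?_ (by positivity)
          rw [div_le_one hMpos]; exact hRM
      _ = _ := by ring
  nlinarith

end Crest.Agent.FK
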