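import Crest.Agent.FKDefs

/-! `p`-biased Fourier analysis on the cube (row 56). -/

set_option autoImplicit false
set_option linter.unusedSectionVars false

namespace Crest.Agent.FK

open Finset
open Crest.FinProb (bernoulliWeight)

variable {E : Type} [Fintype E] [DecidableEq E]

/-- standardized coin -/
noncomputable def phi (p : ℝ) (b : Bool) : ℝ :=
  if b then Real.sqrt ((1 - p) / p) else -Real.sqrt (p / (1 - p))

/-- characters -/
noncomputable def chi (p : ℝ) (S : Finset E) (x : E → Bool) : ℝ := ∏ e ∈ S, phi p (x e)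

/-- Fourier coefficients -/
noncomputable def fc (p : ℝ) (g : (E → Bool) → ℝ) (S : Finset E) : ℝ :=
  ex p (fun x => g x * chi p S x)

/-- take `z` on `T` and `y` off `T` -/
def mix (T : Finset E) (z y : E → Bool) : E → Bool := fun e => if e ∈ T then z e else y e

lemma ex_add (p : ℝ) (g h : (E → Bool) → ℝ) : ex p (fun x => g x + h x) = ex p g + ex p h := by
  simp [ex, mul_add, Finset.sum_add_distrib]

lemma ex_sub (p : ℝ) (g h : (E → Bool) → ℝ) : ex p (fun x => g x - h x) = ex p g - ex p h := by
  simp [ex, mul_sub, Finset.sum_sub_distrib]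

lemma ex_const_mul (p c : ℝ) (g : (E → Bool) → ℝ) : ex p (fun x => c * g x) = c * ex p g := by
  simp only [ex, Finset.mul_sum]
  exact Finset.sum_congr rfl fun x _ => by ring

lemma ex_mul_const (p c : ℝ) (g : (E → Bool) → ℝ) : ex p (fun x => g x * c) = ex p g * c := by
  simp only [ex, Finset.sum_mul]
  exact Finset.sum_congr rfl fun x _ => by ring

lemma ex_sum {ι : Type*} (p : ℝ) (s : Finset ι) (g : ι → (E → Bool) → ℝ) :
    ex p (fun x => ∑ i ∈ s, g i x) = ∑ i ∈ s, ex p (g i) := by
  simp only [ex, Finset.mul_sum]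
  rw [Finset.sum_comm]

lemma weight_nonneg {p : ℝ} (hp0 : 0 < p) (hp1 : p < 1) (x : E → Bool) :
    0 ≤ bernoulliWeight p x := by
  unfold bernoulliWeight
  refine Finset.prod_nonneg fun e _ => ?_
  split_ifs <;> linarith

lemma ex_mono {p : ℝ} (hp0 : 0 < p) (hp1 : p < 1) {g h : (E → Bool) → ℝ} (H : ∀ x, g x ≤ h x) :
    ex p g ≤ ex p h :=
  Finset.sum_le_sum fun x _ => mul_le_mul_of_nonneg_left (H x) (weight_nonneg hp0 hp1 x)

lemma ex_nonneg {p : ℝ} (hp0 : 0 < p) (hp1 : p < 1) {g : (E → Bool) → ℝ} (H : ∀ x, 0 ≤ g x) :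
    0 ≤ ex p g :=
  Finset.sum_nonneg fun x _ => mul_nonneg (weight_nonneg hp0 hp1 x) (H x)

/-- product formula -/
lemma ex_prod (p : ℝ) (F : E → Bool → ℝ) :
    ex p (fun x => ∏ e, F e (x e)) = ∏ e, (p * F e true + (1 - p) * F e false) := by
  have h := Finset.prod_univ_sum (fun _ : E => (Finset.univ : Finset Bool))
    (fun e b => (if b then p else 1 - p) * F e b)
  simp only [Fintype.piFinset_univ] at h
  have h2 : ∀ e, ∑ b : Bool, (if b then p else 1 - p) * F e b =
      p * F e true + (1 - p) * F e false := by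
    intro e; simp
  simp only [h2] at h
  rw [h]
  unfold ex bernoulliWeight
  refine Finset.sum_congr rfl fun x _ => ?_
  rw [← Finset.prod_mul_distrib]

lemma ex_const {p : ℝ} (c : ℝ) : ex p (fun _ : E → Bool => c) = c := by
  have h := ex_prod (E := E) p (fun _ _ => 1)
  simp only [Finset.prod_const_one, mul_one] at h
  have h2 : ex p (fun _ : E → Bool => c) = ex p (fun x : E → Bool => c * 1) := by simp
  rw [h2, ex_const_mul, h]
  simp

lemma chi_empty (p : ℝ) (x : E → Bool) : chi p ∅ x = 1 := by simp [chi]

lemma phi_sq_true {p : ℝ} (hp0 : 0 < p) (hp1 : p < 1) : phi p true * phi p true = (1 - p) / p := by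
  simp only [phi, if_true]
  exact Real.mul_self_sqrt (div_nonneg (by linarith) hp0.le)

lemma phi_sq_false {p : ℝ} (hp0 : 0 < p) (hp1 : p < 1) :
    phi p false * phi p false = p / (1 - p) := by
  simp only [phi, Bool.false_eq_true, if_false, neg_mul_neg]
  exact Real.mul_self_sqrt (div_nonneg hp0.le (by linarith))

lemma phi_mul {p : ℝ} (hp0 : 0 < p) (hp1 : p < 1) : phi p true * phi p false = -1 := by
  simp only [phi, Bool.false_eq_true, if_false, if_true]
  have h1 : (0:ℝ) < 1 - p := by linarith
  rw [mul_neg, ← Real.sqrt_mul (by positivity)]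
  have : (1 - p) / p * (p / (1 - p)) = 1 := by field_simp
  rw [this, Real.sqrt_one]

lemma phi_mean {p : ℝ} (hp0 : 0 < p) (hp1 : p < 1) :
    p * phi p true + (1 - p) * phi p false = 0 := by
  have h1 : (0:ℝ) < 1 - p := by linarith
  have ht : 0 < phi p true := by
    simp only [phi, if_true]; positivity
  have h2 := phi_sq_true hp0 hp1
  have h3 := phi_mul hp0 hp1
  have h4 : phi p true * (p * phi p true + (1 - p) * phi p false) = 0 := by
    have : phi p true * (p * phi p true + (1 - p) * phi p false)
      = p * (phi p true * phi p true) + (1 - p) * (phi p true * phi p false) := by ring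
    rw [this, h2, h3]
    field_simp; ring
  rcases mul_eq_zero.mp h4 with h | h
  · exact absurd h ht.ne'
  · exact h

lemma phi_var {p : ℝ} (hp0 : 0 < p) (hp1 : p < 1) :
    p * (phi p true * phi p true) + (1 - p) * (phi p false * phi p false) = 1 := by
  have h1 : (0:ℝ) < 1 - p := by linarith
  rw [phi_sq_true hp0 hp1, phi_sq_false hp0 hp1]
  field_simp; ring

/-- orthonormality -/
lemma ex_chi_mul_chi {p : ℝ} (hp0 : 0 < p) (hp1 : p < 1) (S U : Finset E) :
    ex p (fun x => chi p S x * chi p U x) = if S = U then 1 else 0 := by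
  have h : ∀ x : E → Bool, chi p S x * chi p U x =
      ∏ e, ((if e ∈ S then phi p (x e) else 1) * (if e ∈ U then phi p (x e) else 1)) := by
    intro x
    rw [Finset.prod_mul_distrib]
    simp [chi, Finset.prod_ite_mem]
  simp only [h]
  rw [ex_prod p (fun e b => (if e ∈ S then phi p b else 1) * (if e ∈ U then phi p b else 1))]
  by_cases hSU : S = U
  · subst hSU
    rw [if_pos rfl]
    refine Finset.prod_eq_one fun e _ => ?_
    by_cases he : e ∈ S
    · simp only [he, if_true]; exact phi_var hp0 hp1
    · simp [he]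
  · rw [if_neg hSU]
    have : ∃ e, ¬ (e ∈ S ↔ e ∈ U) := by
      by_contra hcon
      push Not at hcon
      exact hSU (Finset.ext hcon)
    obtain ⟨e, he⟩ := this
    refine Finset.prod_eq_zero (Finset.mem_univ e) ?_
    by_cases h1 : e ∈ S
    · have h2 : e ∉ U := fun h => he ⟨fun _ => h, fun _ => h1⟩
      simp only [h1, h2, if_true, if_false, mul_one]
      exact phi_mean hp0 hp1
    · have h2 : e ∈ U := by
        by_contra h; exact he ⟨fun h' => absurd h' h1, fun h' => absurd h' h⟩
      simp only [h1, h2, if_true, if_false, one_mul]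
      exact phi_mean hp0 hp1

lemma ex_chi {p : ℝ} (hp0 : 0 < p) (hp1 : p < 1) (S : Finset E) :
    ex p (chi p S) = if S = ∅ then 1 else 0 := by
  have := ex_chi_mul_chi hp0 hp1 S ∅
  simpa [chi_empty] using this

lemma weight_mul_prod {p : ℝ} (hp0 : 0 < p) (hp1 : p < 1) (x y : E → Bool) :
    bernoulliWeight p x * ∏ e, (1 + phi p (x e) * phi p (y e)) = if x = y then 1 else 0 := by
  have h1 : (0:ℝ) < 1 - p := by linarith
  unfold bernoulliWeight
  rw [← Finset.prod_mul_distrib]
  have key : ∀ a b : Bool, (if a then p else 1 - p) * (1 + phi p a * phi p b) =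
      if a = b then 1 else 0 := by
    intro a b
    cases a <;> cases b
    · simp only [Bool.false_eq_true, if_false, if_true]
      rw [phi_sq_false hp0 hp1]; field_simp; ring
    · simp only [Bool.false_eq_true, if_false]
      rw [mul_comm (phi p false), phi_mul hp0 hp1]; ring
    · simp only [if_true]
      rw [phi_mul hp0 hp1]; simp
    · simp only [if_true]
      rw [phi_sq_true hp0 hp1]; field_simp; ring
  simp only [key]
  by_cases hxy : x = y
  · subst hxy; simp
  · rw [if_neg hxy]
    obtain ⟨e, he⟩ := Function.ne_iff.mp hxy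
    exact Finset.prod_eq_zero (Finset.mem_univ e) (by simp [he])

/-- Fourier inversion -/
lemma inversion {p : ℝ} (hp0 : 0 < p) (hp1 : p < 1) (g : (E → Bool) → ℝ) (y : E → Bool) :
    g y = ∑ S : Finset E, fc p g S * chi p S y := by
  have h1 : ∀ x : E → Bool, ∏ e, (1 + phi p (x e) * phi p (y e)) =
      ∑ S : Finset E, chi p S x * chi p S y := by
    intro x
    rw [Finset.prod_one_add]
    simp only [Finset.powerset_univ, chi, Finset.prod_mul_distrib]
  calc g y = ∑ x, g x * (if x = y then 1 else 0) := by simp
    _ = ∑ x, g x * (bernoulliWeight p x * ∏ e, (1 + phi p (x e) * phi p (y e))) := by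
        refine Finset.sum_congr rfl fun x _ => ?_
        rw [weight_mul_prod hp0 hp1]
    _ = ∑ x, ∑ S : Finset E, bernoulliWeight p x * (g x * chi p S x) * chi p S y := by
        refine Finset.sum_congr rfl fun x _ => ?_
        rw [h1, Finset.mul_sum, Finset.mul_sum]
        exact Finset.sum_congr rfl fun S _ => by ring
    _ = ∑ S : Finset E, fc p g S * chi p S y := by
        rw [Finset.sum_comm]
        refine Finset.sum_congr rfl fun S _ => ?_
        rw [fc, ex, Finset.sum_mul]

/-- coefficients of a character expansion -/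
lemma fc_expansion {p : ℝ} (hp0 : 0 < p) (hp1 : p < 1) (c : Finset E → ℝ) (U : Finset E) :
    fc p (fun x => ∑ S : Finset E, c S * chi p S x) U = c U := by
  unfold fc
  have : ∀ x : E → Bool, (∑ S : Finset E, c S * chi p S x) * chi p U x =
      ∑ S : Finset E, c S * (chi p S x * chi p U x) := by
    intro x; rw [Finset.sum_mul]; exact Finset.sum_congr rfl fun S _ => by ring
  simp only [this]
  rw [ex_sum]
  simp only [ex_const_mul, ex_chi_mul_chi hp0 hp1]
  simp

/-- Parseval -/
lemma parseval {p : ℝ} (hp0 : 0 < p) (hp1 : p < 1) (g h : (E → Bool) → ℝ) :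
    ex p (fun x => g x * h x) = ∑ S : Finset E, fc p g S * fc p h S := by
  have : ∀ x : E → Bool, g x * h x = ∑ S : Finset E, fc p g S * (h x * chi p S x) := by
    intro x
    conv_lhs => rw [inversion hp0 hp1 g x]
    rw [Finset.sum_mul]
    exact Finset.sum_congr rfl fun S _ => by ring
  simp only [this]
  rw [ex_sum]
  simp only [ex_const_mul]
  rfl

lemma fc_empty (p : ℝ) (g : (E → Bool) → ℝ) : fc p g ∅ = ex p g := by
  simp [fc, chi_empty]

lemma chi_mix (p : ℝ) (S T : Finset E) (z y : E → Bool) :
    chi p S (mix T z y) = chi p (S ∩ T) z * chi p (S \ T) y := by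
  unfold chi mix
  have hS : S = (S ∩ T) ∪ (S \ T) := by
    ext e; simp only [mem_union, mem_inter, mem_sdiff]; tauto
  have hd : Disjoint (S ∩ T) (S \ T) := by
    rw [Finset.disjoint_left]; intro e h1 h2
    simp only [mem_inter, mem_sdiff] at h1 h2; exact h2.2 h1.2
  conv_lhs => rw [hS]
  rw [Finset.prod_union hd]
  congr 1
  · refine Finset.prod_congr rfl fun e he => ?_
    rw [if_pos (Finset.mem_inter.mp he).2]
  · refine Finset.prod_congr rfl fun e he => ?_
    rw [if_neg (Finset.mem_sdiff.mp he).2]

/-- averaging over the coordinates in `T` -/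
noncomputable def avg (p : ℝ) (T : Finset E) (g : (E → Bool) → ℝ) (x : E → Bool) : ℝ :=
  ex p (fun z => g (mix T z x))

lemma avg_eq {p : ℝ} (hp0 : 0 < p) (hp1 : p < 1) (T : Finset E) (g : (E → Bool) → ℝ)
    (x : E → Bool) :
    avg p T g x = ∑ S : Finset E, (if Disjoint S T then fc p g S else 0) * chi p S x := by
  unfold avg
  have : ∀ z : E → Bool, g (mix T z x) =
      ∑ S : Finset E, (fc p g S * chi p (S \ T) x) * chi p (S ∩ T) z := by
    intro z
    rw [inversion hp0 hp1 g (mix T z x)]
    refine Finset.sum_congr rfl fun S _ => ?_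
    rw [chi_mix]; ring
  simp only [this]
  rw [ex_sum]
  refine Finset.sum_congr rfl fun S _ => ?_
  rw [ex_const_mul, ex_chi hp0 hp1]
  by_cases h : Disjoint S T
  · rw [if_pos (Finset.disjoint_iff_inter_eq_empty.mp h), if_pos h,
      Finset.sdiff_eq_self_of_disjoint h]; ring
  · rw [if_neg (fun h' => h (Finset.disjoint_iff_inter_eq_empty.mpr h')), if_neg h]; ring

lemma fc_avg {p : ℝ} (hp0 : 0 < p) (hp1 : p < 1) (T : Finset E) (g : (E → Bool) → ℝ)
    (U : Finset E) :
    fc p (avg p T g) U = if Disjoint U T then fc p g U else 0 := by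
  have h : avg p T g = fun x => ∑ S : Finset E, (if Disjoint S T then fc p g S else 0) *
      chi p S x := funext fun x => avg_eq hp0 hp1 T g x
  rw [h, fc_expansion hp0 hp1]

/-- coefficients of a restriction -/
lemma fc_mix {p : ℝ} (hp0 : 0 < p) (hp1 : p < 1) (T : Finset E) (g : (E → Bool) → ℝ)
    (y : E → Bool) (U : Finset E) :
    fc p (fun z => g (mix T z y)) U =
      ∑ S : Finset E, (if S ∩ T = U then fc p g S else 0) * chi p (S \ T) y := by
  have : ∀ z : E → Bool, g (mix T z y) * chi p U z =
      ∑ S : Finset E, (fc p g S * chi p (S \ T) y) * (chi p (S ∩ T) z * chi p U z) := by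
    intro z
    rw [inversion hp0 hp1 g (mix T z y), Finset.sum_mul]
    refine Finset.sum_congr rfl fun S _ => ?_
    rw [chi_mix]; ring
  unfold fc
  simp only [this]
  rw [ex_sum]
  refine Finset.sum_congr rfl fun S _ => ?_
  rw [ex_const_mul, ex_chi_mul_chi hp0 hp1]
  split_ifs <;> simp [fc]

/-- mean square of the coefficients of a random restriction -/
lemma ex_fc_mix_sq {p : ℝ} (hp0 : 0 < p) (hp1 : p < 1) (T : Finset E) (g : (E → Bool) → ℝ)
    (U : Finset E) :
    ex p (fun y => fc p (fun z => g (mix T z y)) U ^ 2) =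
      ∑ S : Finset E, if S ∩ T = U then fc p g S ^ 2 else 0 := by
  have : ∀ y : E → Bool, fc p (fun z => g (mix T z y)) U ^ 2 =
      ∑ S : Finset E, ∑ S' : Finset E,
        ((if S ∩ T = U then fc p g S else 0) * (if S' ∩ T = U then fc p g S' else 0)) *
          (chi p (S \ T) y * chi p (S' \ T) y) := by
    intro y
    rw [fc_mix hp0 hp1, sq, Finset.sum_mul_sum]
    refine Finset.sum_congr rfl fun S _ => Finset.sum_congr rfl fun S' _ => ?_
    ring
  simp only [this]
  rw [ex_sum]
  refine Finset.sum_congr rfl fun S _ => ?_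
  rw [ex_sum]
  simp only [ex_const_mul, ex_chi_mul_chi hp0 hp1]
  by_cases hS : S ∩ T = U
  · rw [Finset.sum_eq_single S]
    · simp only [hS, if_true]; ring
    · intro S' _ hne
      by_cases hS' : S' ∩ T = U
      · have : S \ T ≠ S' \ T := by
          intro h
          apply hne
          have h1 : S = (S ∩ T) ∪ (S \ T) := by
            ext e; simp only [mem_union, mem_inter, mem_sdiff]; tauto
          have h2 : S' = (S' ∩ T) ∪ (S' \ T) := by
            ext e; simp only [mem_union, mem_inter, mem_sdiff]; tauto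
          rw [h1, h2, hS, hS', h]
        simp [this]
      · simp [hS']
    · intro h; exact absurd (Finset.mem_univ S) h
  · simp [hS]

/-- for a family of coefficients -/
lemma ex_sum_fc_mix_sq {p : ℝ} (hp0 : 0 < p) (hp1 : p < 1) (T : Finset E)
    (g : (E → Bool) → ℝ) (P : Finset E → Prop) [DecidablePred P] :
    ex p (fun y => ∑ U with P U, fc p (fun z => g (mix T z y)) U ^ 2) =
      ∑ S with P (S ∩ T), fc p g S ^ 2 := by
  rw [ex_sum]
  simp only [ex_fc_mix_sq hp0 hp1]
  rw [Finset.sum_comm, Finset.sum_filter]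
  refine Finset.sum_congr rfl fun S _ => ?_
  rw [Finset.sum_ite_eq]
  simp

lemma ex_perm (p : ℝ) (τ : Equiv.Perm E) (g : (E → Bool) → ℝ) :
    ex p (fun x => g (fun e => x (τ e))) = ex p g := by
  unfold ex
  refine Fintype.sum_equiv (Equiv.arrowCongr τ.symm (Equiv.refl Bool)) _ _ fun x => ?_
  have h1 : (Equiv.arrowCongr τ.symm (Equiv.refl Bool)) x = fun e => x (τ e) := by
    funext e; simp [Equiv.arrowCongr]
  rw [h1]
  congr 1
  unfold bernoulliWeight
  exact (Equiv.prod_comp τ (fun e => if x e then p else 1 - p)).symm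

lemma chi_map (p : ℝ) (τ : Equiv.Perm E) (S : Finset E) (x : E → Bool) :
    chi p (S.map τ.toEmbedding) x = chi p S (fun e => x (τ e)) := by
  simp [chi, Finset.prod_map]

lemma fc_map (p : ℝ) (τ : Equiv.Perm E) (g : (E → Bool) → ℝ)
    (hg : ∀ x : E → Bool, g (fun e => x (τ e)) = g x) (S : Finset E) :
    fc p g (S.map τ.toEmbedding) = fc p g S := by
  unfold fc
  rw [← ex_perm p τ (fun x => g x * chi p S x)]
  congr 1
  funext x
  rw [chi_map, hg]

/-- splitting one coordinate -/
lemma ex_split {p : ℝ} (hp0 : 0 < p) (hp1 : p < 1) (e : E) (g : (E → Bool) → ℝ) :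
    ex p g = ex p (fun x => p * g (Function.update x e true) +
      (1 - p) * g (Function.update x e false)) := by
  have hchi : ∀ (S : Finset E) (x : E → Bool),
      p * chi p S (Function.update x e true) + (1 - p) * chi p S (Function.update x e false) =
        if e ∈ S then 0 else chi p S x := by
    intro S x
    by_cases he : e ∈ S
    · rw [if_pos he]
      have h1 : ∀ b, chi p S (Function.update x e b) = phi p b * chi p (S.erase e) x := by
        intro b
        unfold chi
        rw [← Finset.mul_prod_erase S _ he]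
        rw [Function.update_self]
        congr 1
        refine Finset.prod_congr rfl fun e' he' => ?_
        rw [Function.update_of_ne (Finset.ne_of_mem_erase he')]
      rw [h1, h1]
      have := phi_mean hp0 hp1
      calc p * (phi p true * chi p (S.erase e) x) + (1 - p) * (phi p false * chi p (S.erase e) x)
          = (p * phi p true + (1 - p) * phi p false) * chi p (S.erase e) x := by ring
        _ = 0 := by rw [this, zero_mul]
    · rw [if_neg he]
      have h1 : ∀ b, chi p S (Function.update x e b) = chi p S x := by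
        intro b
        unfold chi
        refine Finset.prod_congr rfl fun e' he' => ?_
        have hne : e' ≠ e := by rintro rfl; exact he he'
        rw [Function.update_of_ne hne]
      rw [h1, h1]; ring
  have h2 : ∀ x : E → Bool, p * g (Function.update x e true) +
      (1 - p) * g (Function.update x e false) =
      ∑ S : Finset E, fc p g S * (if e ∈ S then 0 else chi p S x) := by
    intro x
    rw [inversion hp0 hp1 g (Function.update x e true),
      inversion hp0 hp1 g (Function.update x e false), Finset.mul_sum, Finset.mul_sum,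
      ← Finset.sum_add_distrib]
    refine Finset.sum_congr rfl fun S _ => ?_
    rw [← hchi S x]; ring
  simp only [h2]
  rw [ex_sum]
  simp only [ex_const_mul]
  rw [Finset.sum_eq_single ∅]
  · simp only [Finset.notMem_empty, if_false]
    rw [ex_chi hp0 hp1, if_pos rfl, mul_one, fc_empty]
  · intro S _ hS
    by_cases he : e ∈ S
    · simp only [he, if_true]; rw [ex_const]; ring
    · simp only [he, if_false]; rw [ex_chi hp0 hp1, if_neg hS]; ring
  · intro h; exact absurd (Finset.mem_univ _) h

/-- Cauchy-Schwarz -/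
lemma ex_cs {p : ℝ} (hp0 : 0 < p) (hp1 : p < 1) (g h : (E → Bool) → ℝ) :
    ex p (fun x => g x * h x) ^ 2 ≤ ex p (fun x => g x ^ 2) * ex p (fun x => h x ^ 2) := by
  unfold ex
  have := Finset.sum_mul_sq_le_sq_mul_sq (Finset.univ : Finset (E → Bool))
    (fun x => Real.sqrt (bernoulliWeight p x) * g x)
    (fun x => Real.sqrt (bernoulliWeight p x) * h x)
  have hw : ∀ x : E → Bool, Real.sqrt (bernoulliWeight p x) * Real.sqrt (bernoulliWeight p x) =
      bernoulliWeight p x := fun x => Real.mul_self_sqrt (weight_nonneg hp0 hp1 x)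
  calc (∑ x, bernoulliWeight p x * (g x * h x)) ^ 2
      = (∑ x, (Real.sqrt (bernoulliWeight p x) * g x) *
          (Real.sqrt (bernoulliWeight p x) * h x)) ^ 2 := by
        congr 1; refine Finset.sum_congr rfl fun x _ => ?_
        rw [show Real.sqrt (bernoulliWeight p x) * g x * (Real.sqrt (bernoulliWeight p x) * h x) =
          (Real.sqrt (bernoulliWeight p x) * Real.sqrt (bernoulliWeight p x)) * (g x * h x) by ring,
          hw x]
    _ ≤ _ := this
    _ = _ := by
        congr 1
        · refine Finset.sum_congr rfl fun x _ => ?_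
          rw [mul_pow, sq (Real.sqrt _), hw x]
        · refine Finset.sum_congr rfl fun x _ => ?_
          rw [mul_pow, sq (Real.sqrt _), hw x]

end Crest.Agent.FK
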