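import Crest.Agent.FKRusso
import Crest.Prelude.Def_RandomGraph
import Crest.Prelude.Def_HypergraphCube

/-! S0077 and S0078 from `MainStmt` (row 56). -/

set_option autoImplicit false
set_option linter.unusedSectionVars false

namespace Crest.Agent.FK

open Finset
open Crest.FinProb (bernoulliWeight bernoulliProb)
open Crest.CombinatoricsR.RandomGraph
open Crest.CombinatoricsR

lemma bernoulliProb_eq_ex {E : Type} [Fintype E] [DecidableEq E] (p : ℝ) (A : Set (E → Bool))
    (f : (E → Bool) → Bool) (h : ∀ x, f x = true ↔ x ∈ A) :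
    bernoulliProb p A = ex p (ind f) := by
  classical
  unfold bernoulliProb ex ind
  rw [Finset.sum_filter]
  refine Finset.sum_congr rfl fun x _ => ?_
  by_cases hx : x ∈ A
  · rw [if_pos hx, if_pos ((h x).2 hx), mul_one]
  · rw [if_neg hx, if_neg (fun h' => hx ((h x).1 h')), mul_zero]

lemma graphOf_adj {n : ℕ} (ω : EdgeSlot n → Bool) (i j : Fin n) :
    (graphOf ω).Adj i j ↔ ∃ h : ¬ (s(i, j)).IsDiag, ω ⟨s(i, j), h⟩ = true := by
  unfold graphOf
  rw [SimpleGraph.fromEdgeSet_adj]
  constructor
  · rintro ⟨h, _⟩; exact h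
  · rintro ⟨h, h'⟩
    exact ⟨⟨h, h'⟩, by simpa using h⟩

lemma isDiag_map {n : ℕ} (σ : Equiv.Perm (Fin n)) (z : Sym2 (Fin n)) :
    (Sym2.map σ z).IsDiag ↔ z.IsDiag := by
  induction z with
  | _ a b => simp

/-- action of a vertex permutation on slots -/
def slotPerm {n : ℕ} (σ : Equiv.Perm (Fin n)) : Equiv.Perm (EdgeSlot n) where
  toFun e := ⟨Sym2.map σ e.1, fun h => e.2 ((isDiag_map σ _).1 h)⟩
  invFun e := ⟨Sym2.map σ.symm e.1, fun h => e.2 ((isDiag_map σ.symm _).1 h)⟩
  left_inv e := by
    apply Subtype.ext
    simp [Sym2.map_map]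
  right_inv e := by
    apply Subtype.ext
    simp [Sym2.map_map]

lemma map_graphOf {n : ℕ} (σ : Equiv.Perm (Fin n)) (x : EdgeSlot n → Bool) :
    (graphOf (fun e => x (slotPerm σ e))).map σ.toEmbedding = graphOf x := by
  ext i j
  rw [SimpleGraph.map_adj]
  constructor
  · rintro ⟨u, v, huv, rfl, rfl⟩
    rw [graphOf_adj] at huv ⊢
    obtain ⟨h, h'⟩ := huv
    exact ⟨fun hd => h ((isDiag_map σ _).1 hd), h'⟩
  · intro h
    rw [graphOf_adj] at h
    obtain ⟨h1, h2⟩ := h
    refine ⟨σ.symm i, σ.symm j, ?_, by simp, by simp⟩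
    rw [graphOf_adj]
    refine ⟨?_, ?_⟩
    · intro hd
      apply h1
      have := (isDiag_map σ _).2 hd
      simpa using this
    · have : (slotPerm σ ⟨s(σ.symm i, σ.symm j), by
          intro hd
          apply h1
          have := (isDiag_map σ _).2 hd
          simpa using this⟩ : EdgeSlot n) = ⟨s(i, j), h1⟩ := by
        apply Subtype.ext
        simp [slotPerm]
      rw [this]
      exact h2

theorem s0077 (hM : MainStmt) (n : ℕ) (hn : 2 ≤ n)
    (P : Set (SimpleGraph (Fin n)))
    (hsymm : ∀ σ : Equiv.Perm (Fin n), ∀ G : SimpleGraph (Fin n), G ∈ P → G.map σ.toEmbedding ∈ P)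
    (hmono : ∀ G G' : SimpleGraph (Fin n), G ≤ G' → G ∈ P → G' ∈ P)
    (hne : P.Nonempty) (hnu : P ≠ Set.univ) (ε : ℝ) (hε0 : 0 < ε) (hε : ε < 1 / 2)
    (p q : ℝ) (hp0 : 0 ≤ p) (hq1 : q ≤ 1)
    (hp : ε ≤ Crest.CombinatoricsR.RandomGraph.gnpProb n p P)
    (hq : p + 2 ^ 19 / Real.log n ^ 2 * Real.log (1 / (2 * ε)) ≤ q) :
    1 - ε ≤ Crest.CombinatoricsR.RandomGraph.gnpProb n q P := by
  classical
  set f : (EdgeSlot n → Bool) → Bool := fun ω => decide (graphOf ω ∈ P) with hf
  have hprob : ∀ t, gnpProb n t P = ex t (ind f) := by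
    intro t
    unfold gnpProb
    exact bernoulliProb_eq_ex t _ f (fun x => by simp [hf])
  rw [hprob] at hp ⊢
  have hL : 0 < Real.log n := Real.log_pos (by exact_mod_cast hn)
  have hl2 : 0 < Real.log (1 / (2 * ε)) := by
    apply Real.log_pos
    rw [lt_div_iff₀ (by positivity)]
    linarith
  have hT : f (fun _ => true) = true := by
    simp only [hf, decide_eq_true_eq]
    obtain ⟨G, hG⟩ := hne
    refine hmono G _ ?_ hG
    intro i j hij
    rw [graphOf_adj]
    exact ⟨by simpa using hij.ne, rfl⟩
  have hF : f (fun _ => false) = false := by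
    simp only [hf, decide_eq_false_iff_not]
    intro hcon
    apply hnu
    rw [Set.eq_univ_iff_forall]
    intro G
    refine hmono _ G ?_ hcon
    intro i j hij
    rw [graphOf_adj] at hij
    obtain ⟨_, h⟩ := hij
    exact absurd h (by simp)
  have hfm : ∀ x e, f (Function.update x e false) = true → f (Function.update x e true) = true := by
    intro x e h
    simp only [hf, decide_eq_true_eq] at h ⊢
    refine hmono _ _ ?_ h
    intro i j hij
    rw [graphOf_adj] at hij ⊢
    obtain ⟨h1, h2⟩ := hij
    refine ⟨h1, ?_⟩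
    by_cases he : (⟨s(i, j), h1⟩ : EdgeSlot n) = e
    · rw [he, Function.update_self]
    · rw [Function.update_of_ne he] at h2 ⊢
      exact h2
  -- endpoints
  have hpne : p ≠ 0 := by
    rintro rfl
    have h0 : ex (0 : ℝ) (ind f) = 0 := by
      unfold ex
      refine Finset.sum_eq_zero fun x _ => ?_
      by_cases hx : ∃ e, x e = true
      · obtain ⟨e, he⟩ := hx
        have : bernoulliWeight (0 : ℝ) x = 0 := by
          unfold bernoulliWeight
          exact Finset.prod_eq_zero (Finset.mem_univ e) (by simp [he])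
        rw [this, zero_mul]
      · have hx' : x = fun _ => false := by
          funext e
          by_contra h
          exact hx ⟨e, by simpa using h⟩
        rw [hx']
        simp [ind, hF]
    rw [h0] at hp
    linarith
  have hp0' : 0 < p := lt_of_le_of_ne hp0 (Ne.symm hpne)
  have hpq : p < q := by
    have : 0 < 2 ^ 19 / Real.log n ^ 2 * Real.log (1 / (2 * ε)) := by positivity
    linarith
  by_cases hq1' : q = 1
  · subst hq1'
    have h1 : ex (1 : ℝ) (ind f) = 1 := by
      unfold ex
      rw [Finset.sum_eq_single (fun _ => true)]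
      · simp [ind, hT, bernoulliWeight]
      · intro x _ hx
        have : ∃ e, x e = false := by
          by_contra h
          push Not at h
          apply hx
          funext e
          simpa using h e
        obtain ⟨e, he⟩ := this
        have : bernoulliWeight (1 : ℝ) x = 0 := by
          unfold bernoulliWeight
          exact Finset.prod_eq_zero (Finset.mem_univ e) (by simp [he])
        rw [this, zero_mul]
      · intro h; exact absurd (Finset.mem_univ _) h
    rw [h1]; linarith
  have hq1'' : q < 1 := lt_of_le_of_ne hq1 hq1'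
  have hcpos : 0 < Real.log n ^ 2 / 2 ^ 17 := by positivity
  have hcard : ∀ e : EdgeSlot n, (e.1.toFinset).card = 2 := fun e =>
    Sym2.card_toFinset_of_not_isDiag e.1 e.2
  have hinj : Function.Injective (fun e : EdgeSlot n => e.1.toFinset) := by
    intro a b hab
    apply Subtype.ext
    apply Sym2.ext
    intro v
    have := congrArg (fun s => v ∈ s) hab
    simpa [Sym2.mem_toFinset] using this
  have hsym : Sym (fun e : EdgeSlot n => e.1.toFinset) f := by
    intro σ
    refine ⟨slotPerm σ, ?_, ?_⟩
    · intro e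
      ext v
      simp only [Sym2.mem_toFinset, Finset.mem_map, Equiv.coe_toEmbedding]
      show v ∈ Sym2.map σ e.1 ↔ _
      rw [Sym2.mem_map]
    · intro x
      have hiff : graphOf (fun e => x (slotPerm σ e)) ∈ P ↔ graphOf x ∈ P := by
        constructor
        · intro h
          have := hsymm σ _ h
          rwa [map_graphOf] at this
        · intro h
          have h2 := map_graphOf σ x
          have h3 := hsymm σ.symm _ h
          rw [← h2] at h3
          have h4 : ((graphOf (fun e => x (slotPerm σ e))).map σ.toEmbedding).map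
              σ.symm.toEmbedding = graphOf (fun e => x (slotPerm σ e)) := by
            ext i j
            rw [SimpleGraph.map_adj]
            constructor
            · rintro ⟨u, v, huv, rfl, rfl⟩
              rw [SimpleGraph.map_adj] at huv
              obtain ⟨u', v', h', rfl, rfl⟩ := huv
              simpa using h'
            · intro h
              exact ⟨σ i, σ j, (SimpleGraph.map_adj _ _ _ _).2 ⟨i, j, h, rfl, rfl⟩,
                by simp, by simp⟩
          rwa [h4] at h3
      simp only [hf]
      exact decide_eq_decide.2 hiff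
  refine threshold (c := Real.log n ^ 2 / 2 ^ 17) f hfm hT hF hcpos ?_ hε0 hε hp0' hpq hq1'' hp ?_
  · intro t h0 h1
    have h := hM (Fin n) (EdgeSlot n) 2 (fun e => e.1.toFinset) le_rfl hcard hinj
      (by simpa using hn) t h0 h1 f hsym
    have he : (((2 : ℕ) : ℝ) / (((2 : ℕ) : ℝ) - 1)) = ((2 : ℕ) : ℝ) := by norm_num
    rw [he, Real.rpow_natCast] at h
    simp only [Fintype.card_fin] at h
    have hc : (Real.log n ^ 2 / 2 ^ 17)⁻¹ = 2 ^ 16 * ((2 : ℕ) : ℝ) / Real.log n ^ 2 := by
      rw [inv_div]; norm_num
    rw [hc]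
    exact h
  · have h1 : 2 ^ 19 / Real.log n ^ 2 * Real.log (1 / (2 * ε)) ≤ q - p := by linarith
    have h2 := mul_le_mul_of_nonneg_left h1 hcpos.le
    calc 4 * Real.log (1 / (2 * ε)) = Real.log n ^ 2 / 2 ^ 17 *
          (2 ^ 19 / Real.log n ^ 2 * Real.log (1 / (2 * ε))) := by
            field_simp; norm_num
      _ ≤ _ := h2

theorem s0078 (hM : MainStmt) (r : ℕ) (hr : 3 ≤ r) :
    ∃ C : ℝ, ∀ n : ℕ, r ≤ n → ∀ p : ℝ, 0 < p → p < 1 →
      ∀ f : (Crest.CombinatoricsR.HypergraphCube.HyperedgeSlot n r → Bool) → Bool,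
        Crest.CombinatoricsR.HypergraphCube.IsSymmetric f →
          Crest.CombinatoricsR.HypergraphCube.probTrue p f *
              (1 - Crest.CombinatoricsR.HypergraphCube.probTrue p f) ≤
            C / Real.log n ^ ((r : ℝ) / ((r : ℝ) - 1)) *
              Crest.CombinatoricsR.HypergraphCube.totalInfluence p f := by
  classical
  refine ⟨2 ^ 16 * r, fun n hn p hp0 hp1 f hf => ?_⟩
  have hprob : HypergraphCube.probTrue p f = ex p (ind f) := by
    unfold HypergraphCube.probTrue
    exact bernoulliProb_eq_ex p _ f (fun x => by simp)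
  have hinf : HypergraphCube.totalInfluence p f = tinf p f := by
    unfold HypergraphCube.totalInfluence tinf
    refine Finset.sum_congr rfl fun e _ => ?_
    unfold HypergraphCube.pivotalInfluence infl
    rw [bernoulliProb_eq_ex p _
      (fun x => decide (f (Function.update x e true) ≠ f (Function.update x e false)))
      (fun x => by simp)]
    congr 1
    funext x
    simp [ind]
  have h := hM (Fin n) (HypergraphCube.HyperedgeSlot n r) r (fun e => e.1) (by omega)
    (fun e => e.2) Subtype.val_injective (by simp; omega) p hp0 hp1 f ?_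
  · simp only [Fintype.card_fin] at h
    rw [hprob, hinf]
    exact h
  · intro σ
    refine ⟨⟨HypergraphCube.relabelSlot σ, HypergraphCube.relabelSlot σ.symm, ?_, ?_⟩, ?_, ?_⟩
    · intro e
      apply Subtype.ext
      ext v
      simp [HypergraphCube.relabelSlot]
    · intro e
      apply Subtype.ext
      ext v
      simp [HypergraphCube.relabelSlot]
    · intro e
      rfl
    · intro x
      exact hf σ x

end Crest.Agent.FK
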