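import Crest.Agent.FKBonami

/-! Level inequality for a block of coordinates; Poincare inequality (row 56). -/

set_option autoImplicit false
set_option linter.unusedSectionVars false

namespace Crest.Agent.FK

open Finset
open Crest.FinProb (bernoulliWeight)

variable {E : Type} [Fintype E] [DecidableEq E]

lemma fc_sub (p : ℝ) (g h : (E → Bool) → ℝ) (S : Finset E) :
    fc p (fun x => g x - h x) S = fc p g S - fc p h S := by
  unfold fc
  rw [← ex_sub]
  congr 1; funext x; ring

/-- coefficients of `h - avg T h` -/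
lemma fc_sub_avg {p : ℝ} (hp0 : 0 < p) (hp1 : p < 1) (T : Finset E) (h : (E → Bool) → ℝ)
    (S : Finset E) :
    fc p (fun x => h x - avg p T h x) S = if Disjoint S T then 0 else fc p h S := by
  rw [fc_sub, fc_avg hp0 hp1]
  split_ifs <;> ring

lemma ex_sub_avg_sq {p : ℝ} (hp0 : 0 < p) (hp1 : p < 1) (T : Finset E) (h : (E → Bool) → ℝ) :
    ex p (fun x => (h x - avg p T h x) ^ 2) = ∑ S with ¬ Disjoint S T, fc p h S ^ 2 := by
  simp only [sq]
  rw [parseval hp0 hp1]
  simp only [fc_sub_avg hp0 hp1]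
  rw [Finset.sum_filter]
  refine Finset.sum_congr rfl fun S _ => ?_
  by_cases hS : Disjoint S T <;> simp [hS]

lemma avg_mem {p : ℝ} (hp0 : 0 < p) (hp1 : p < 1) (T : Finset E) (h : (E → Bool) → ℝ)
    (hh : ∀ x, h x = 0 ∨ h x = 1) (x : E → Bool) :
    0 ≤ avg p T h x ∧ avg p T h x ≤ 1 := by
  constructor
  · exact ex_nonneg hp0 hp1 fun z => by rcases hh (mix T z x) with h' | h' <;> rw [h'] <;> norm_num
  · have := ex_mono hp0 hp1 (g := fun z => h (mix T z x)) (h := fun _ => 1)
      fun z => by rcases hh (mix T z x) with h' | h' <;> rw [h'] <;> norm_num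
    rw [ex_const] at this
    exact this

/-- for a 0-1 function, `E|h - avg h| = 2 E (h - avg h)^2` -/
lemma ex_abs_sub_avg {p : ℝ} (hp0 : 0 < p) (hp1 : p < 1) (T : Finset E) (h : (E → Bool) → ℝ)
    (hh : ∀ x, h x = 0 ∨ h x = 1) :
    ex p (fun x => |h x - avg p T h x|) = 2 * ∑ S with ¬ Disjoint S T, fc p h S ^ 2 := by
  have h1 : ∀ x, |h x - avg p T h x| = h x + avg p T h x - 2 * (h x * avg p T h x) := by
    intro x
    obtain ⟨h0, h1⟩ := avg_mem hp0 hp1 T h hh x
    rcases hh x with h' | h'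
    · rw [h', zero_sub, abs_neg, abs_of_nonneg h0]; ring
    · rw [h', abs_of_nonneg (by linarith)]; ring
  have h2 : ∀ x, (h x - avg p T h x) ^ 2 = h x - 2 * (h x * avg p T h x) +
      avg p T h x * avg p T h x := by
    intro x
    rcases hh x with h' | h' <;> rw [h'] <;> ring
  rw [← ex_sub_avg_sq hp0 hp1]
  simp only [h1, h2]
  rw [ex_sub, ex_add, ex_add, ex_sub, ex_const_mul]
  have e1 : ex p (avg p T h) = ex p h := by
    rw [← fc_empty, ← fc_empty, fc_avg hp0 hp1]; simp
  have e2 : ex p (fun x => h x * avg p T h x) = ex p (fun x => avg p T h x * avg p T h x) := by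
    rw [parseval hp0 hp1, parseval hp0 hp1]
    refine Finset.sum_congr rfl fun S _ => ?_
    rw [fc_avg hp0 hp1]
    by_cases hS : Disjoint S T <;> simp [hS]
  have e1' : ex p (fun x => avg p T h x) = ex p (fun x => h x) := e1
  rw [e1', e2]
  ring

/-- level inequality -/
lemma level {p : ℝ} (hp0 : 0 < p) (hp1 : p < 1) (T : Finset E) (h : (E → Bool) → ℝ)
    (hh : ∀ x, h x = 0 ∨ h x = 1) (D : ℕ) :
    (∑ S with (S.card ≤ D ∧ ¬ Disjoint S T), fc p h S ^ 2) ^ 2 ≤
      4 * (4 / (p * (1 - p))) ^ D * (∑ S with ¬ Disjoint S T, fc p h S ^ 2) ^ 3 := by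
  have hpq : 0 < p * (1 - p) := mul_pos hp0 (by linarith)
  set G := ∑ S with (S.card ≤ D ∧ ¬ Disjoint S T), fc p h S ^ 2 with hG
  set J := ∑ S with ¬ Disjoint S T, fc p h S ^ 2 with hJ
  have hJ0 : 0 ≤ J := Finset.sum_nonneg fun _ _ => sq_nonneg _
  have hG0 : 0 ≤ G := Finset.sum_nonneg fun _ _ => sq_nonneg _
  set X := (4 / (p * (1 - p))) with hX
  have hX0 : 0 < X := by positivity
  set u : (E → Bool) → ℝ := fun x => h x - avg p T h x with hu
  set c : Finset E → ℝ := fun S => if S.card ≤ D ∧ ¬ Disjoint S T then fc p h S else 0 with hc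
  set g : (E → Bool) → ℝ := fun x => ∑ S : Finset E, c S * chi p S x with hg
  have hug : ex p (fun x => u x * g x) = G := by
    rw [parseval hp0 hp1]
    simp only [hu, hg, fc_sub_avg hp0 hp1, fc_expansion hp0 hp1]
    rw [hG, Finset.sum_filter]
    refine Finset.sum_congr rfl fun S _ => ?_
    by_cases h1 : Disjoint S T <;> by_cases h2 : S.card ≤ D <;> simp [hc, h1, h2, sq]
  have hcc : ∑ S : Finset E, c S ^ 2 = G := by
    rw [hG, Finset.sum_filter]
    refine Finset.sum_congr rfl fun S _ => ?_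
    simp only [hc]
    split_ifs <;> simp
  have hg4 : ex p (fun x => g x ^ 4) ≤ X ^ D * G ^ 2 := by
    have := bonami hp0 hp1 D c (fun S hS => by simp [hc, not_le.mpr hS])
    rw [hcc] at this
    exact this
  have hu1 : ex p (fun x => |u x|) = 2 * J := ex_abs_sub_avg hp0 hp1 T h hh
  have hu2 : ex p (fun x => u x ^ 2) = J := ex_sub_avg_sq hp0 hp1 T h
  -- first Cauchy-Schwarz
  have cs1 : ex p (fun x => |u x| * |g x|) ^ 2 ≤
      ex p (fun x => |u x|) * ex p (fun x => |u x| * g x ^ 2) := by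
    have := ex_cs hp0 hp1 (fun x => Real.sqrt |u x|) (fun x => Real.sqrt |u x| * |g x|)
    have e1 : ∀ x, Real.sqrt |u x| * (Real.sqrt |u x| * |g x|) = |u x| * |g x| := by
      intro x; rw [← mul_assoc, Real.mul_self_sqrt (abs_nonneg _)]
    have e2 : ∀ x, Real.sqrt |u x| ^ 2 = |u x| := fun x => Real.sq_sqrt (abs_nonneg _)
    have e3 : ∀ x, (Real.sqrt |u x| * |g x|) ^ 2 = |u x| * g x ^ 2 := by
      intro x; rw [mul_pow, e2, sq_abs]
    simp only [e1, e2, e3] at this
    exact this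
  have cs2 : ex p (fun x => |u x| * g x ^ 2) ^ 2 ≤
      ex p (fun x => u x ^ 2) * ex p (fun x => g x ^ 4) := by
    have := ex_cs hp0 hp1 (fun x => |u x|) (fun x => g x ^ 2)
    have e1 : ∀ x, (g x ^ 2) ^ 2 = g x ^ 4 := fun x => by ring
    simp only [sq_abs, e1] at this
    exact this
  have hGle : G ≤ ex p (fun x => |u x| * |g x|) := by
    rw [← hug]
    refine ex_mono hp0 hp1 fun x => ?_
    rw [← abs_mul]; exact le_abs_self _
  have n1 : 0 ≤ ex p (fun x => |u x| * g x ^ 2) := ex_nonneg hp0 hp1 fun x => by positivity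
  have hG4 : G ^ 4 ≤ (2 * J) ^ 2 * (J * (X ^ D * G ^ 2)) := by
    calc G ^ 4 ≤ ex p (fun x => |u x| * |g x|) ^ 4 := pow_le_pow_left₀ hG0 hGle 4
      _ = (ex p (fun x => |u x| * |g x|) ^ 2) ^ 2 := by ring
      _ ≤ (ex p (fun x => |u x|) * ex p (fun x => |u x| * g x ^ 2)) ^ 2 :=
          pow_le_pow_left₀ (sq_nonneg _) cs1 2
      _ = (2 * J) ^ 2 * ex p (fun x => |u x| * g x ^ 2) ^ 2 := by rw [mul_pow, hu1]
      _ ≤ (2 * J) ^ 2 * (ex p (fun x => u x ^ 2) * ex p (fun x => g x ^ 4)) :=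
          mul_le_mul_of_nonneg_left cs2 (sq_nonneg _)
      _ ≤ (2 * J) ^ 2 * (J * (X ^ D * G ^ 2)) := by
          rw [hu2]
          exact mul_le_mul_of_nonneg_left (mul_le_mul_of_nonneg_left hg4 hJ0) (sq_nonneg _)
  rcases hG0.eq_or_lt with h0 | hpos
  · have h00 : 0 ≤ 4 * X ^ D * J ^ 3 := by positivity
    rw [← h0, zero_pow two_ne_zero]; exact h00
  · have : G ^ 2 * G ^ 2 ≤ (4 * X ^ D * J ^ 3) * G ^ 2 := by
      calc G ^ 2 * G ^ 2 = G ^ 4 := by ring
        _ ≤ _ := hG4
        _ = _ := by ring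
    exact le_of_mul_le_mul_right this (by positivity)

/-- one-coordinate average -/
lemma avg_singleton {p : ℝ} (hp0 : 0 < p) (hp1 : p < 1) (e : E) (h : (E → Bool) → ℝ)
    (x : E → Bool) :
    avg p {e} h x = p * h (Function.update x e true) + (1 - p) * h (Function.update x e false) := by
  unfold avg
  rw [ex_split hp0 hp1 e]
  have : ∀ (z : E → Bool) (b : Bool), mix {e} (Function.update z e b) x = Function.update x e b := by
    intro z b
    funext e'
    by_cases he : e' = e
    · subst he; simp [mix]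
    · simp [mix, he]
  simp only [this]
  rw [ex_const]

lemma infl_eq {p : ℝ} (hp0 : 0 < p) (hp1 : p < 1) (f : (E → Bool) → Bool) (e : E) :
    ∑ S with e ∈ S, fc p (ind f) S ^ 2 = p * (1 - p) * infl p f e := by
  have h1 : ∑ S with e ∈ S, fc p (ind f) S ^ 2 = ∑ S with ¬ Disjoint S {e}, fc p (ind f) S ^ 2 := by
    refine Finset.sum_congr ?_ fun _ _ => rfl
    ext S; simp
  rw [h1, ← ex_sub_avg_sq hp0 hp1]
  rw [ex_split hp0 hp1 e]
  simp only [avg_singleton hp0 hp1, Function.update_idem]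
  unfold infl
  rw [← ex_const_mul]
  congr 1
  funext x
  unfold ind
  rcases f (Function.update x e true) <;> rcases f (Function.update x e false) <;> simp <;> ring

lemma tinf_eq {p : ℝ} (hp0 : 0 < p) (hp1 : p < 1) (f : (E → Bool) → Bool) :
    ∑ S : Finset E, (S.card : ℝ) * fc p (ind f) S ^ 2 = p * (1 - p) * tinf p f := by
  unfold tinf
  rw [Finset.mul_sum]
  simp only [← infl_eq hp0 hp1]
  simp only [Finset.sum_filter]
  rw [Finset.sum_comm]
  refine Finset.sum_congr rfl fun S _ => ?_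
  rw [← Finset.sum_filter]
  simp

lemma ind_sq (f : (E → Bool) → Bool) (x : E → Bool) : ind f x * ind f x = ind f x := by
  unfold ind; split_ifs <;> ring

lemma sum_fc_sq {p : ℝ} (hp0 : 0 < p) (hp1 : p < 1) (f : (E → Bool) → Bool) :
    ∑ S : Finset E, fc p (ind f) S ^ 2 = ex p (ind f) := by
  simp only [sq]
  rw [← parseval hp0 hp1]
  simp only [ind_sq]

lemma var_eq {p : ℝ} (hp0 : 0 < p) (hp1 : p < 1) (f : (E → Bool) → Bool) :
    ∑ S with S.Nonempty, fc p (ind f) S ^ 2 = ex p (ind f) * (1 - ex p (ind f)) := by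
  have h := sum_fc_sq hp0 hp1 f
  have h1 : ∑ S : Finset E, fc p (ind f) S ^ 2 =
      ∑ S with S.Nonempty, fc p (ind f) S ^ 2 + fc p (ind f) ∅ ^ 2 := by
    rw [← Finset.sum_filter_add_sum_filter_not Finset.univ (fun S : Finset E => S.Nonempty)]
    congr 1
    rw [Finset.sum_eq_single ∅]
    · intro S hS hne
      simp only [Finset.mem_filter, Finset.mem_univ, true_and, Finset.not_nonempty_iff_eq_empty] at hS
      exact absurd hS hne
    · intro hcon
      simp at hcon
  rw [h, fc_empty] at h1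
  linarith

theorem poincare : PoincareStmt := by
  intro E _ _ p hp0 hp1 f
  rw [← var_eq hp0 hp1, ← tinf_eq hp0 hp1, Finset.sum_filter]
  refine Finset.sum_le_sum fun S _ => ?_
  split_ifs with h
  · have : (1:ℝ) ≤ S.card := by exact_mod_cast h.card_pos
    nlinarith [sq_nonneg (fc p (ind f) S)]
  · positivity

end Crest.Agent.FK
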