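import Mathlib
import Crest.Agent.FKCore
set_option autoImplicit false

/-! Row 56 (S0077, S0078), module PARAM: from CORE and Poincare to the final inequality. -/

namespace Crest.Agent.FK

open Finset

/-- `log^2 X ≤ 4 X` -/
lemma log_sq_le {X : ℝ} (hX : 1 ≤ X) : Real.log X ^ 2 ≤ 4 * X := by
  have hs : 0 < √X := Real.sqrt_pos.2 (by linarith)
  have h1 : Real.log X ≤ 2 * √X := by
    have h := Real.log_le_sub_one_of_pos hs
    rw [Real.log_sqrt (by linarith)] at h
    linarith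
  have h0 : 0 ≤ Real.log X := Real.log_nonneg hX
  calc Real.log X ^ 2 ≤ (2 * √X) ^ 2 := pow_le_pow_left₀ h0 h1 2
    _ = 4 * (√X ^ 2) := by ring
    _ = 4 * X := by rw [Real.sq_sqrt (by linarith)]

lemma rpow_le_sq {x a : ℝ} (hx : 1 ≤ x) (ha : a ≤ 2) : x ^ a ≤ x ^ 2 := by
  rw [← Real.rpow_natCast]
  exact Real.rpow_le_rpow_of_exponent_le hx (by simpa using ha)

/-- numerical inequality -/
lemma num_ineq (D : ℕ) (hD : 1 ≤ D) : 10368 * D ^ 7 ≤ 4 ^ (7 * D) := by
  have h1 : D ≤ 2 ^ (D - 1) := by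
    have := Nat.lt_two_pow_self (n := D - 1)
    omega
  obtain ⟨d, rfl⟩ : ∃ d, D = d + 1 := ⟨D - 1, by omega⟩
  simp only [Nat.add_sub_cancel] at h1
  calc 10368 * (d + 1) ^ 7 ≤ 4 ^ 7 * (2 ^ d) ^ 7 :=
        Nat.mul_le_mul (by norm_num) (Nat.pow_le_pow_left h1 7)
    _ ≤ 4 ^ 7 * (4 ^ d) ^ 7 :=
        Nat.mul_le_mul_left _ (Nat.pow_le_pow_left (Nat.pow_le_pow_left (by norm_num) d) 7)
    _ = 4 ^ (7 * (d + 1)) := by
        rw [← pow_mul, ← pow_add]
        congr 1
        ring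

theorem main (hc : CombStmt) : MainStmt := by
  intro V E _ _ _ _ r vs hr hvs hinj hV p hp0 hp1 f hf
  set PQ : ℝ := p * (1 - p) with hPQ
  have hPQ0 : 0 < PQ := mul_pos hp0 (by linarith)
  have hPQ4 : PQ ≤ 1 / 4 := by nlinarith [sq_nonneg (p - 1 / 2)]
  set X : ℝ := 4 / PQ with hX
  have hX16 : 16 ≤ X := by
    rw [hX, le_div_iff₀ hPQ0]; linarith
  have hXPQ : PQ * X = 4 := by rw [hX]; field_simp
  set n : ℕ := Fintype.card V with hn
  set L : ℝ := Real.log n with hL
  have hn2 : (2 : ℝ) ≤ n := by exact_mod_cast hV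
  have hL0 : 0 < L := Real.log_pos (by linarith)
  have hrR : (2 : ℝ) ≤ r := by exact_mod_cast hr
  set a : ℝ := (r : ℝ) / ((r : ℝ) - 1) with ha
  have ha1 : 1 ≤ a := by rw [ha, le_div_iff₀ (by linarith)]; linarith
  have ha2 : a ≤ 2 := by rw [ha, div_le_iff₀ (by linarith)]; linarith
  have hI0 : 0 ≤ tinf p f := Finset.sum_nonneg fun e _ => ex_nonneg hp0 hp1 fun x => by
    split_ifs <;> norm_num
  have hlog : 1 ≤ Real.log X := by
    rw [Real.le_log_iff_exp_le (by linarith)]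
    have := Real.exp_one_lt_d9
    linarith
  have hlogsq : PQ * Real.log X ^ 2 ≤ 16 := by
    have h1 := log_sq_le (X := X) (by linarith)
    calc PQ * Real.log X ^ 2 ≤ PQ * (4 * X) := mul_le_mul_of_nonneg_left h1 hPQ0.le
      _ = 4 * (PQ * X) := by ring
      _ = 16 := by rw [hXPQ]; norm_num
  have hLa : 0 < L ^ a := Real.rpow_pos_of_pos hL0 a
  -- it suffices to bound by `C / L^a * I`
  suffices h : ex p (ind f) * (1 - ex p (ind f)) * L ^ a ≤ (2 ^ 16 * r : ℝ) * tinf p f by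
    rw [div_mul_eq_mul_div, le_div_iff₀ hLa]
    exact h
  rcases lt_or_ge L (5 * Real.log X) with hcase | hcase
  · -- small case: Poincare
    have h1 := poincare E p hp0 hp1 f
    have h2 : PQ * L ^ a ≤ 2 ^ 16 * r := by
      rcases le_total L 1 with hL1 | hL1
      · have : L ^ a ≤ 1 := Real.rpow_le_one hL0.le hL1 (by linarith)
        calc PQ * L ^ a ≤ 1 / 4 * 1 := mul_le_mul hPQ4 this hLa.le (by norm_num)
          _ ≤ 2 ^ 16 * r := by nlinarith
      · have h3 : L ^ a ≤ L ^ 2 := rpow_le_sq hL1 ha2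
        have h4 : L ^ 2 ≤ (5 * Real.log X) ^ 2 := pow_le_pow_left₀ hL0.le hcase.le 2
        calc PQ * L ^ a ≤ PQ * (5 * Real.log X) ^ 2 :=
              mul_le_mul_of_nonneg_left (h3.trans h4) hPQ0.le
          _ = 25 * (PQ * Real.log X ^ 2) := by ring
          _ ≤ 25 * 16 := by linarith
          _ ≤ 2 ^ 16 * r := by nlinarith
    calc ex p (ind f) * (1 - ex p (ind f)) * L ^ a ≤ (PQ * tinf p f) * L ^ a :=
          mul_le_mul_of_nonneg_right h1 hLa.le
      _ = (PQ * L ^ a) * tinf p f := by ring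
      _ ≤ (2 ^ 16 * r) * tinf p f := mul_le_mul_of_nonneg_right h2 hI0
  · -- main case
    have hlX0 : 0 < Real.log X := by linarith
    set D : ℕ := ⌊L / (5 * Real.log X)⌋₊ with hD
    have hq1 : 1 ≤ L / (5 * Real.log X) := by
      rw [le_div_iff₀ (by linarith)]; linarith
    have hD1 : 1 ≤ D := by
      rw [hD]; exact Nat.le_floor (by simpa using hq1)
    have hD1R : (1 : ℝ) ≤ D := by exact_mod_cast hD1
    have hDle : (D : ℝ) ≤ L / (5 * Real.log X) := Nat.floor_le (by linarith)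
    have hDge : L ≤ D * (10 * Real.log X) := by
      have h1 := Nat.lt_floor_add_one (L / (5 * Real.log X))
      rw [← hD, div_lt_iff₀ (by linarith)] at h1
      nlinarith
    set j : ℕ := ⌊(D : ℝ) ^ (1 / ((r : ℝ) - 1))⌋₊ with hj
    set k : ℕ := j + 2 with hk
    have hr1 : (0 : ℝ) < (r : ℝ) - 1 := by linarith
    have he1 : 1 / ((r : ℝ) - 1) ≤ 1 := by rw [div_le_one hr1]; linarith
    have hDe : (D : ℝ) ^ (1 / ((r : ℝ) - 1)) ≤ D := by
      calc (D : ℝ) ^ (1 / ((r : ℝ) - 1)) ≤ (D : ℝ) ^ (1 : ℝ) :=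
            Real.rpow_le_rpow_of_exponent_le hD1R he1
        _ = D := Real.rpow_one _
    have hjle : (j : ℝ) ≤ (D : ℝ) ^ (1 / ((r : ℝ) - 1)) :=
      Nat.floor_le (by positivity)
    have hjD : j ≤ D := by exact_mod_cast hjle.trans hDe
    have hjpow : j ^ (r - 1) ≤ D := by
      have h1 : ((j : ℝ)) ^ (r - 1) ≤ D := by
        calc ((j : ℝ)) ^ (r - 1) ≤ ((D : ℝ) ^ (1 / ((r : ℝ) - 1))) ^ (r - 1) :=
              pow_le_pow_left₀ (by positivity) hjle _
          _ = D := by
              rw [← Real.rpow_natCast, ← Real.rpow_mul (by positivity)]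
              rw [Nat.cast_sub (by omega), Nat.cast_one, one_div, inv_mul_cancel₀ hr1.ne',
                Real.rpow_one]
      exact_mod_cast h1
    have hchoose : (k - 2).choose (r - 1) ≤ D := by
      rw [hk, Nat.add_sub_cancel]
      exact (Nat.choose_le_pow _ _).trans hjpow
    have hk3 : k ≤ 3 * D := by omega
    have hk3R : (k : ℝ) ≤ 3 * D := by exact_mod_cast hk3
    have hk1R : (1 : ℝ) ≤ k := by rw [hk]; push_cast; linarith [(Nat.cast_nonneg j : (0:ℝ) ≤ j)]
    have hkge : (D : ℝ) ^ (1 / ((r : ℝ) - 1)) ≤ k := by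
      have h1 := Nat.lt_floor_add_one ((D : ℝ) ^ (1 / ((r : ℝ) - 1)))
      rw [← hj] at h1
      rw [hk]; push_cast; linarith
    have hkD : (D : ℝ) ^ a ≤ k * D := by
      have h1 : a = 1 / ((r : ℝ) - 1) + 1 := by rw [ha]; field_simp; ring
      rw [h1, Real.rpow_add (by linarith), Real.rpow_one]
      exact mul_le_mul_of_nonneg_right hkge (by linarith)
    -- `M`
    set Y : ℝ := √X with hY
    have hY4 : 4 ≤ Y := by
      rw [hY]; apply Real.le_sqrt_of_sq_le; linarith
    have hYsq : Y ^ 2 = X := Real.sq_sqrt (by linarith)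
    set M : ℕ := ⌈2 * k * D * Y ^ D⌉₊ with hM
    have hZ1 : 1 ≤ 2 * k * D * Y ^ D := by
      have : 1 ≤ Y ^ D := one_le_pow₀ (by linarith)
      calc (1 : ℝ) = 1 * 1 * 1 * 1 := by norm_num
        _ ≤ 2 * k * D * Y ^ D := by gcongr; norm_num
    have hMge : 2 * k * D * Y ^ D ≤ M := Nat.le_ceil _
    have hMle : (M : ℝ) ≤ 2 * (2 * k * D * Y ^ D) := by
      have := Nat.ceil_lt_add_one (a := 2 * k * D * Y ^ D) (by linarith)
      rw [← hM] at this
      linarith
    have hM1 : 1 ≤ M := by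
      have : (1 : ℝ) ≤ M := hZ1.trans hMge
      exact_mod_cast this
    have hMcond : (2 * k * D : ℝ) ^ 2 * X ^ D ≤ (M : ℝ) ^ 2 := by
      calc (2 * k * D : ℝ) ^ 2 * X ^ D = (2 * k * D * Y ^ D) ^ 2 := by
            rw [← hYsq]; ring
        _ ≤ (M : ℝ) ^ 2 := pow_le_pow_left₀ (by linarith) hMge 2
    -- `n` is large
    have hnX : X ^ (5 * D) ≤ n := by
      have h1 : Real.log (X ^ (5 * D)) ≤ Real.log n := by
        rw [Real.log_pow]
        rw [le_div_iff₀ (by linarith)] at hDle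
        push_cast
        calc 5 * (D : ℝ) * Real.log X = D * (5 * Real.log X) := by ring
          _ ≤ L := hDle
      exact (Real.log_le_log_iff (by positivity) (by linarith)).1 h1
    have hbig : 2 * (k * M ^ 3) ≤ n := by
      have h1 : (2 * (k * M ^ 3) : ℝ) ≤ n := by
        calc (2 * (k * M ^ 3) : ℝ) ≤ 2 * (k * (2 * (2 * k * D * Y ^ D)) ^ 3) := by
              gcongr
          _ = 128 * k ^ 4 * D ^ 3 * Y ^ (3 * D) := by ring
          _ ≤ 128 * (3 * D) ^ 4 * D ^ 3 * Y ^ (3 * D) := by gcongr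
          _ = (10368 * D ^ 7) * Y ^ (3 * D) := by ring
          _ ≤ 4 ^ (7 * D) * Y ^ (3 * D) := by
              have : (10368 * (D : ℝ) ^ 7) ≤ 4 ^ (7 * D) := by exact_mod_cast num_ineq D hD1
              gcongr
          _ ≤ Y ^ (7 * D) * Y ^ (3 * D) := by gcongr
          _ = X ^ (5 * D) := by rw [← hYsq, ← pow_add, ← pow_mul]; congr 1; ring
          _ ≤ n := hnX
      exact_mod_cast h1
    have hcore := core hc V E r k D M vs hr hvs hinj (by omega) hD1 hM1 hchoose hbig p hp0 hp1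
      hMcond f hf
    rw [← hPQ] at hcore
    -- combine
    have hkD0 : (0 : ℝ) < k * D := by positivity
    have h3 : L ^ a ≤ (k * D) * (10 * Real.log X) ^ 2 := by
      calc L ^ a ≤ (D * (10 * Real.log X)) ^ a :=
            Real.rpow_le_rpow hL0.le hDge (by linarith)
        _ = (D : ℝ) ^ a * (10 * Real.log X) ^ a :=
            Real.mul_rpow (by linarith) (by linarith)
        _ ≤ (k * D) * (10 * Real.log X) ^ 2 :=
            mul_le_mul hkD (rpow_le_sq (by linarith) ha2) (by positivity) hkD0.le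
    rcases le_or_gt (ex p (ind f) * (1 - ex p (ind f))) 0 with hneg | hpos
    · calc ex p (ind f) * (1 - ex p (ind f)) * L ^ a ≤ 0 :=
            mul_nonpos_of_nonpos_of_nonneg hneg hLa.le
        _ ≤ (2 ^ 16 * r : ℝ) * tinf p f := by positivity
    · calc ex p (ind f) * (1 - ex p (ind f)) * L ^ a
          ≤ ex p (ind f) * (1 - ex p (ind f)) * ((k * D) * (10 * Real.log X) ^ 2) :=
            mul_le_mul_of_nonneg_left h3 hpos.le
        _ = ((k * D) * (ex p (ind f) * (1 - ex p (ind f)))) * (10 * Real.log X) ^ 2 := by ring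
        _ ≤ (8 * r * PQ * tinf p f) * (10 * Real.log X) ^ 2 :=
            mul_le_mul_of_nonneg_right hcore (by positivity)
        _ = (800 * (PQ * Real.log X ^ 2)) * r * tinf p f := by ring
        _ ≤ (800 * 16) * r * tinf p f := by gcongr
        _ ≤ (2 ^ 16 * r : ℝ) * tinf p f := by
            have : 0 ≤ r * tinf p f := by positivity
            nlinarith

end Crest.Agent.FK
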