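import Crest.Agent.FKFourier

/-! Russo's formula and the sharp threshold deduction (row 56). -/

set_option autoImplicit false
set_option linter.unusedSectionVars false

namespace Crest.Agent.FK

open Finset
open Crest.FinProb (bernoulliWeight)

variable {E : Type} [Fintype E] [DecidableEq E]

/-- Russo's formula for a general function -/
lemma russo_gen {t : ℝ} (ht0 : 0 < t) (ht1 : t < 1) (F : (E → Bool) → ℝ) :
    HasDerivAt (fun s : ℝ => ex s F)
      (∑ e, ex t (fun x => F (Function.update x e true) - F (Function.update x e false))) t := by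
  have h1 : ∀ x : E → Bool, HasDerivAt (fun s : ℝ => bernoulliWeight s x)
      (∑ e, bernoulliWeight t x * (if x e then 1 / t else -1 / (1 - t))) t := by
    intro x
    have hd : ∀ e ∈ (univ : Finset E), HasDerivAt (fun s : ℝ => if x e then s else 1 - s)
        (if x e then 1 else -1) t := by
      intro e _
      by_cases he : x e = true
      · simp only [he, if_true]; exact hasDerivAt_id t
      · simp only [he]; simpa using (hasDerivAt_id t).const_sub 1
    have h := HasDerivAt.fun_finsetProd (u := (univ : Finset E))
      (f := fun e (s : ℝ) => if x e then s else 1 - s) (f' := fun e => if x e then 1 else -1) hd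
    refine h.congr_deriv ?_
    refine Finset.sum_congr rfl fun e _ => ?_
    unfold bernoulliWeight
    rw [← Finset.mul_prod_erase univ _ (Finset.mem_univ e), smul_eq_mul]
    have h2 : (if x e then t else 1 - t) * (if x e then 1 / t else -1 / (1 - t)) =
        (if x e then 1 else -1) := by
      have h3 : (1 : ℝ) - t ≠ 0 := by linarith
      by_cases he : x e = true
      · simp only [he, if_true]; field_simp
      · simp only [he, Bool.false_eq_true, if_false]; field_simp
    rw [← h2]; ring
  have h3 : HasDerivAt (fun s : ℝ => ∑ x, bernoulliWeight s x * F x)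
      (∑ x, (∑ e, bernoulliWeight t x * (if x e then 1 / t else -1 / (1 - t))) * F x) t :=
    HasDerivAt.fun_sum fun x _ => (h1 x).mul_const (F x)
  refine h3.congr_deriv ?_
  have h4 : ∀ e : E, ex t (fun x => F (Function.update x e true) - F (Function.update x e false)) =
      ex t (fun x => (if x e then 1 / t else -1 / (1 - t)) * F x) := by
    intro e
    rw [ex_split ht0 ht1 e (fun x => (if x e then 1 / t else -1 / (1 - t)) * F x)]
    congr 1
    funext x
    have h5 : (1 : ℝ) - t ≠ 0 := by linarith
    simp only [Function.update_self, if_true, Bool.false_eq_true, if_false]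
    field_simp
    ring
  simp only [h4]
  unfold ex
  rw [Finset.sum_comm]
  refine Finset.sum_congr rfl fun x _ => ?_
  rw [Finset.sum_mul]
  refine Finset.sum_congr rfl fun e _ => ?_
  ring

/-- Russo's formula -/
lemma russo {t : ℝ} (ht0 : 0 < t) (ht1 : t < 1) (f : (E → Bool) → Bool)
    (hmono : ∀ x e, f (Function.update x e false) = true → f (Function.update x e true) = true) :
    HasDerivAt (fun s : ℝ => ex s (ind f)) (tinf t f) t := by
  have h := russo_gen ht0 ht1 (ind f)
  refine h.congr_deriv ?_
  unfold tinf infl
  refine Finset.sum_congr rfl fun e _ => ?_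
  congr 1
  funext x
  unfold ind
  have := hmono x e
  rcases Bool.eq_false_or_eq_true (f (Function.update x e false)) with h0 | h0
  · rcases Bool.eq_false_or_eq_true (f (Function.update x e true)) with h1 | h1
    · simp [h0, h1]
    · simp [h0, h1] at this
  · rcases Bool.eq_false_or_eq_true (f (Function.update x e true)) with h1 | h1
    · simp [h0, h1]
    · simp [h0, h1]

/-- the threshold deduction: `g (1-g) ≤ c⁻¹ g'` on `(0,1)` -/
lemma threshold {c ε p q : ℝ} (f : (E → Bool) → Bool)
    (hmono : ∀ x e, f (Function.update x e false) = true → f (Function.update x e true) = true)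
    (hT : f (fun _ => true) = true) (hF : f (fun _ => false) = false) (hc : 0 < c)
    (hineq : ∀ t : ℝ, 0 < t → t < 1 → ex t (ind f) * (1 - ex t (ind f)) ≤ c⁻¹ * tinf t f)
    (hε0 : 0 < ε) (hε : ε < 1 / 2) (hp0 : 0 < p) (hpq : p < q) (hq1 : q < 1)
    (hp : ε ≤ ex p (ind f)) (hq : 4 * Real.log (1 / (2 * ε)) ≤ c * (q - p)) :
    1 - ε ≤ ex q (ind f) := by
  classical
  have hpos : ∀ t : ℝ, 0 < t → t < 1 → 0 < ex t (ind f) := by
    intro t h0 h1
    have hle : bernoulliWeight t (fun _ : E => true) * ind f (fun _ => true) ≤ ex t (ind f) := by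
      unfold ex
      refine Finset.single_le_sum (f := fun x => bernoulliWeight t x * ind f x) ?_
        (Finset.mem_univ _)
      intro x _
      refine mul_nonneg (weight_nonneg h0 h1 x) ?_
      unfold ind; split_ifs <;> norm_num
    refine lt_of_lt_of_le ?_ hle
    unfold ind bernoulliWeight
    simp only [hT, if_true, mul_one, Finset.prod_const]
    positivity
  have hlt : ∀ t : ℝ, 0 < t → t < 1 → ex t (ind f) < 1 := by
    intro t h0 h1
    have hle : bernoulliWeight t (fun _ : E => false) * (1 - ind f (fun _ => false)) ≤
        ex t (fun x => 1 - ind f x) := by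
      unfold ex
      refine Finset.single_le_sum (f := fun x => bernoulliWeight t x * (1 - ind f x)) ?_
        (Finset.mem_univ _)
      intro x _
      refine mul_nonneg (weight_nonneg h0 h1 x) ?_
      unfold ind; split_ifs <;> norm_num
    have h2 : 0 < bernoulliWeight t (fun _ : E => false) * (1 - ind f (fun _ => false)) := by
      unfold ind bernoulliWeight
      have : (0:ℝ) < 1 - t := by linarith
      simp only [hF, Bool.false_eq_true, if_false, Finset.prod_const, sub_zero, mul_one]
      positivity
    have h3 := lt_of_lt_of_le h2 hle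
    rw [ex_sub, ex_const] at h3
    linarith
  set g : ℝ → ℝ := fun t => ex t (ind f) with hg
  set ψ : ℝ → ℝ := fun t => Real.log (g t) - Real.log (1 - g t) with hψ
  have hd : ∀ t : ℝ, 0 < t → t < 1 → HasDerivAt ψ (tinf t f / g t - (- tinf t f) / (1 - g t)) t := by
    intro t h0 h1
    have hr := russo h0 h1 f hmono
    have ha : HasDerivAt (fun s => Real.log (g s)) (tinf t f / g t) t :=
      hr.log (hpos t h0 h1).ne'
    have hb : HasDerivAt (fun s => Real.log (1 - g s)) ((- tinf t f) / (1 - g t)) t :=
      (hr.const_sub 1).log (by have := hlt t h0 h1; linarith)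
    exact ha.sub hb
  have hbig : ∀ t : ℝ, 0 < t → t < 1 → c ≤ tinf t f / g t - (- tinf t f) / (1 - g t) := by
    intro t h0 h1
    have h2 := hpos t h0 h1
    have h3 := hlt t h0 h1
    have h4 := hineq t h0 h1
    have h5 : 0 < 1 - g t := by simp only [hg]; linarith
    have h6 : tinf t f / g t - (- tinf t f) / (1 - g t) = tinf t f / (g t * (1 - g t)) := by
      have : g t ≠ 0 := h2.ne'
      field_simp
      ring
    rw [h6, le_div_iff₀ (mul_pos h2 h5)]
    have h7 : c * (g t * (1 - g t)) ≤ c * (c⁻¹ * tinf t f) := mul_le_mul_of_nonneg_left h4 hc.le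
    calc c * (g t * (1 - g t)) ≤ c * (c⁻¹ * tinf t f) := h7
      _ = tinf t f := by field_simp
  obtain ⟨t, ht, hteq⟩ := exists_hasDerivAt_eq_slope ψ
    (fun t => tinf t f / g t - (- tinf t f) / (1 - g t)) hpq
    (fun t ht => (hd t (lt_of_lt_of_le hp0 ht.1) (lt_of_le_of_lt ht.2 hq1)).continuousAt.continuousWithinAt)
    (fun t ht => hd t (lt_trans hp0 ht.1) (lt_trans ht.2 hq1))
  have h8 := hbig t (lt_trans hp0 ht.1) (lt_trans ht.2 hq1)
  have hqp : 0 < q - p := by linarith
  have h9 : c * (q - p) ≤ ψ q - ψ p := by
    have h10 : c ≤ (ψ q - ψ p) / (q - p) := by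
      rw [← hteq]; exact h8
    rwa [le_div_iff₀ hqp] at h10
  -- lower bound for ψ p
  have hgp0 := hpos p hp0 (by linarith)
  have hgp1 := hlt p hp0 (by linarith)
  have hgq0 := hpos q (by linarith) hq1
  have hgq1 := hlt q (by linarith) hq1
  have h11 : Real.log ε - Real.log (1 - ε) ≤ ψ p := by
    simp only [hψ]
    have a1 : Real.log ε ≤ Real.log (g p) := Real.log_le_log hε0 hp
    have a2 : Real.log (1 - g p) ≤ Real.log (1 - ε) :=
      Real.log_le_log (by simp only [hg]; linarith) (by simp only [hg]; linarith)
    linarith
  have h12 : Real.log (1 - ε) - Real.log ε ≤ ψ q := by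
    have a1 : Real.log (1 / (2 * ε)) = - Real.log 2 - Real.log ε := by
      rw [one_div, Real.log_inv, Real.log_mul (by norm_num) hε0.ne']; ring
    have a3 : 2 * Real.log 2 + Real.log (1 - ε) + Real.log ε ≤ 0 := by
      have a4 : 2 * Real.log 2 + Real.log (1 - ε) + Real.log ε = Real.log (4 * (1 - ε) * ε) := by
        rw [Real.log_mul (by nlinarith) hε0.ne', Real.log_mul (by norm_num) (by linarith)]
        have : Real.log 4 = 2 * Real.log 2 := by
          rw [show (4:ℝ) = 2 ^ 2 by norm_num, Real.log_pow]; norm_num
        rw [this]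
      rw [a4]
      exact Real.log_nonpos (by nlinarith) (by nlinarith [sq_nonneg (2 * ε - 1)])
    linarith
  by_contra hcon
  push Not at hcon
  have h13 : ψ q < Real.log (1 - ε) - Real.log ε := by
    simp only [hψ]
    have a1 : Real.log (g q) < Real.log (1 - ε) := Real.log_lt_log hgq0 hcon
    have a2 : Real.log ε < Real.log (1 - g q) := Real.log_lt_log hε0 (by simp only [hg]; linarith)
    linarith
  linarith

end Crest.Agent.FK
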