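import Mathlib
import Crest.Prelude.Def_SpanningTrees

set_option autoImplicit false

namespace Crest.Agent.FUSF

open Crest.ProbabilityR.SpanningTrees

open Classical in
/-- probability that the free uniform spanning forest contains `F` (for `F ⊆ G.edgeSet`) -/
noncomputable def fusfP (G : SimpleGraph ℕ) (F : Finset (Sym2 ℕ)) : ℝ :=
  ⨅ S : Finset ℕ, if (G.induce (S : Set ℕ)).Connected ∧ F ⊆ edgesIn G S then ustContains G S F
    else 1

end Crest.Agent.FUSF
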