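import Mathlib
import Crest.Prelude.Def_GraphTables

/-!
Canonical exhaustions of the edge set of a graph on `ℕ`, their equivariance and measurability
(row 168, S0254).
-/

set_option autoImplicit false

namespace Crest.Agent.FUSF

open Set Filter
open Crest.ProbabilityR.GraphTables

/-- vertices at distance at most `n` from the edge `e` -/
def R (G : SimpleGraph ℕ) (e : Sym2 ℕ) : ℕ → ℕ → Prop
  | 0, v => v ∈ e
  | n + 1, v => R G e n v ∨ ∃ u, R G e n u ∧ G.Adj u v

lemma R_relab (σ : Equiv.Perm ℕ) (G : SimpleGraph ℕ) (e : Sym2 ℕ) (n v : ℕ) :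
    R (G.comap σ) e n v ↔ R G (e.map σ) n (σ v) := by
  induction n generalizing v with
  | zero =>
    change v ∈ e ↔ σ v ∈ e.map σ
    rw [Sym2.mem_map]
    constructor
    · intro h; exact ⟨v, h, rfl⟩
    · rintro ⟨a, ha, hav⟩
      rwa [σ.injective hav] at ha
  | succ n ih =>
    change (R (G.comap σ) e n v ∨ ∃ u, R (G.comap σ) e n u ∧ (G.comap σ).Adj u v) ↔
      (R G (e.map σ) n (σ v) ∨ ∃ u, R G (e.map σ) n u ∧ G.Adj u (σ v))
    rw [ih v]
    refine or_congr Iff.rfl ?_
    constructor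
    · rintro ⟨u, hu, huv⟩
      exact ⟨σ u, (ih u).1 hu, huv⟩
    · rintro ⟨u, hu, huv⟩
      refine ⟨σ.symm u, (ih _).2 (by simpa using hu), ?_⟩
      rw [SimpleGraph.comap_adj]
      simpa using huv

/-- edges with both end points at distance at most `n` from `e` -/
def Wset (G : SimpleGraph ℕ) (e : Sym2 ℕ) (n : ℕ) : Set (Sym2 ℕ) :=
  {f | f ∈ G.edgeSet ∧ ∀ v ∈ f, R G e n v}

lemma mem_edgeSet_comap (σ : Equiv.Perm ℕ) (G : SimpleGraph ℕ) (f : Sym2 ℕ) :
    f ∈ (G.comap σ).edgeSet ↔ f.map σ ∈ G.edgeSet := by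
  induction f with
  | _ a b => simp

lemma W_relab (σ : Equiv.Perm ℕ) (G : SimpleGraph ℕ) (e f : Sym2 ℕ) (n : ℕ) :
    f ∈ Wset (G.comap σ) e n ↔ f.map σ ∈ Wset G (e.map σ) n := by
  unfold Wset
  simp only [Set.mem_ofPred_eq, mem_edgeSet_comap, R_relab]
  refine and_congr Iff.rfl ?_
  constructor
  · intro h v hv
    rw [Sym2.mem_map] at hv
    obtain ⟨a, ha, rfl⟩ := hv
    exact h a ha
  · intro h v hv
    exact h (σ v) (Sym2.mem_map.2 ⟨v, hv, rfl⟩)

open Classical in
/-- canonical finite sets of edges around `e` -/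
noncomputable def FnG (G : SimpleGraph ℕ) (e : Sym2 ℕ) (n : ℕ) : Finset (Sym2 ℕ) :=
  if h : (Wset G e n).Finite then insert e h.toFinset else {e}

lemma mem_FnG_self (G : SimpleGraph ℕ) (e : Sym2 ℕ) (n : ℕ) : e ∈ FnG G e n := by
  unfold FnG
  split_ifs <;> simp

lemma sym2_map_bij (σ : Equiv.Perm ℕ) : Function.Bijective (Sym2.map σ) := by
  constructor
  · exact Sym2.map.injective σ.injective
  · intro f
    refine ⟨f.map σ.symm, ?_⟩
    rw [Sym2.map_map]
    simp

lemma W_image (σ : Equiv.Perm ℕ) (G : SimpleGraph ℕ) (e : Sym2 ℕ) (n : ℕ) :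
    Wset G (e.map σ) n = Sym2.map σ '' Wset (G.comap σ) e n := by
  ext f
  constructor
  · intro hf
    obtain ⟨g, rfl⟩ := (sym2_map_bij σ).2 f
    exact ⟨g, (W_relab σ G e g n).2 hf, rfl⟩
  · rintro ⟨g, hg, rfl⟩
    exact (W_relab σ G e g n).1 hg

open Classical in
lemma FnG_relab (σ : Equiv.Perm ℕ) (G : SimpleGraph ℕ) (e : Sym2 ℕ) (n : ℕ) :
    FnG G (e.map σ) n = (FnG (G.comap σ) e n).image (Sym2.map σ) := by
  have hfin : (Wset G (e.map σ) n).Finite ↔ (Wset (G.comap σ) e n).Finite := by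
    rw [W_image]
    exact Set.finite_image_iff ((sym2_map_bij σ).1.injOn)
  unfold FnG
  by_cases h : (Wset (G.comap σ) e n).Finite
  · rw [dif_pos h, dif_pos (hfin.2 h), Finset.image_insert]
    congr 1
    ext f
    simp only [Set.Finite.mem_toFinset, Finset.mem_image]
    rw [W_image]
    rfl
  · rw [dif_neg h, dif_neg (fun h' => h (hfin.1 h')), Finset.image_singleton]

lemma R_mono (G : SimpleGraph ℕ) (e : Sym2 ℕ) {n m : ℕ} (h : n ≤ m) {v : ℕ} (hv : R G e n v) :
    R G e m v := by
  induction h with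
  | refl => exact hv
  | step _ ih => exact Or.inl ih

lemma W_mono (G : SimpleGraph ℕ) (e : Sym2 ℕ) {n m : ℕ} (h : n ≤ m) :
    Wset G e n ⊆ Wset G e m := fun _ hf => ⟨hf.1, fun v hv => R_mono G e h (hf.2 v hv)⟩

lemma R_finite (G : SimpleGraph ℕ) (hfin : ∀ v : ℕ, (G.neighborSet v).Finite) (e : Sym2 ℕ)
    (n : ℕ) : {v | R G e n v}.Finite := by
  induction n with
  | zero =>
    change {v | v ∈ e}.Finite
    induction e with
    | _ a b =>
      have : {v | v ∈ s(a, b)} = {a, b} := by
        ext v; simp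
      rw [this]
      exact Set.toFinite _
  | succ n ih =>
    have : {v | R G e (n + 1) v} = {v | R G e n v} ∪ ⋃ u ∈ {v | R G e n v}, G.neighborSet u := by
      ext v
      simp only [Set.mem_ofPred_eq, mem_union, mem_iUnion, SimpleGraph.mem_neighborSet, exists_prop]
      rfl
    rw [this]
    exact ih.union (ih.biUnion fun u _ => hfin u)

lemma W_finite (G : SimpleGraph ℕ) (hfin : ∀ v : ℕ, (G.neighborSet v).Finite) (e : Sym2 ℕ)
    (n : ℕ) : (Wset G e n).Finite := by
  have h1 := R_finite G hfin e n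
  have h2 : Wset G e n ⊆ (fun p : ℕ × ℕ => s(p.1, p.2)) '' ({v | R G e n v} ×ˢ {v | R G e n v}) := by
    intro f hf
    induction f with
    | _ a b =>
      exact ⟨(a, b), ⟨hf.2 a (by simp), hf.2 b (by simp)⟩, rfl⟩
  exact ((h1.prod h1).image _).subset h2

lemma FnG_mono (G : SimpleGraph ℕ) (hfin : ∀ v : ℕ, (G.neighborSet v).Finite) (e : Sym2 ℕ) :
    Monotone (FnG G e) := by
  intro n m h
  unfold FnG
  rw [dif_pos (W_finite G hfin e n), dif_pos (W_finite G hfin e m)]
  refine Finset.insert_subset_insert _ ?_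
  intro f hf
  rw [Set.Finite.mem_toFinset] at hf ⊢
  exact W_mono G e h hf

lemma R_of_walk (G : SimpleGraph ℕ) (e : Sym2 ℕ) {u v : ℕ} (p : G.Walk u v) (hu : ∃ n, R G e n u) :
    ∃ n, R G e n v := by
  induction p with
  | nil => exact hu
  | cons h p ih =>
    refine ih ?_
    obtain ⟨n, hn⟩ := hu
    exact ⟨n + 1, Or.inr ⟨_, hn, h⟩⟩

lemma FnG_ex (G : SimpleGraph ℕ) (hG : G.Connected) (hfin : ∀ v : ℕ, (G.neighborSet v).Finite)
    (e f : Sym2 ℕ) (hf : f ∈ G.edgeSet) : ∃ n, f ∈ FnG G e n := by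
  have key : ∀ v, ∃ n, R G e n v := by
    intro v
    induction e with
    | _ a b =>
      obtain ⟨p⟩ := hG.preconnected a v
      exact R_of_walk G _ p ⟨0, by change a ∈ s(a, b); simp⟩
  induction f with
  | _ a b =>
    obtain ⟨n, hn⟩ := key a
    obtain ⟨m, hm⟩ := key b
    refine ⟨max n m, ?_⟩
    unfold FnG
    rw [dif_pos (W_finite G hfin e _)]
    refine Finset.mem_insert_of_mem ?_
    rw [Set.Finite.mem_toFinset]
    refine ⟨hf, ?_⟩
    intro v hv
    rw [Sym2.mem_iff] at hv
    rcases hv with rfl | rfl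
    · exact R_mono G e (le_max_left _ _) hn
    · exact R_mono G e (le_max_right _ _) hm

lemma FnG_subset (G : SimpleGraph ℕ) (e : Sym2 ℕ) (he : e ∈ G.edgeSet) (n : ℕ) :
    ((FnG G e n : Finset (Sym2 ℕ)) : Set (Sym2 ℕ)) ⊆ G.edgeSet := by
  intro f hf
  unfold FnG at hf
  split_ifs at hf with h
  · rw [Finset.mem_coe, Finset.mem_insert, Set.Finite.mem_toFinset] at hf
    rcases hf with rfl | hf
    · exact he
    · exact hf.1
  · rw [Finset.mem_coe, Finset.mem_singleton] at hf
    exact hf ▸ he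

/-! ### measurability in the adjacency table -/

abbrev Tab := ℕ → ℕ → Bool

/-- the graph of a table -/
abbrev gr (A : Tab) : SimpleGraph ℕ := graphOfTable A

lemma gr_adj (A : Tab) (i j : ℕ) :
    (gr A).Adj i j ↔ i ≠ j ∧ (A i j = true ∨ A j i = true) := by
  unfold gr graphOfTable
  rw [SimpleGraph.fromRel_adj]

lemma measurableSet_entry (i j : ℕ) : MeasurableSet {A : Tab | A i j = true} := by
  have h : Measurable (fun A : Tab => A i j) :=
    (measurable_pi_apply j).comp (measurable_pi_apply i)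
  exact h (measurableSet_singleton true)

lemma measurableSet_adj (i j : ℕ) : MeasurableSet {A : Tab | (gr A).Adj i j} := by
  simp only [gr_adj]
  by_cases h : i = j
  · simp [h]
  · simp only [ne_eq, h, not_false_eq_true, true_and]
    exact (measurableSet_entry i j).union (measurableSet_entry j i)

lemma measurableSet_mem_edgeSet (f : Sym2 ℕ) : MeasurableSet {A : Tab | f ∈ (gr A).edgeSet} := by
  induction f with
  | _ a b => exact measurableSet_adj a b

lemma measurableSet_R (e : Sym2 ℕ) (n v : ℕ) : MeasurableSet {A : Tab | R (gr A) e n v} := by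
  induction n generalizing v with
  | zero => exact MeasurableSet.const _
  | succ n ih =>
    have : {A : Tab | R (gr A) e (n + 1) v} = {A : Tab | R (gr A) e n v} ∪
        ⋃ u, ({A : Tab | R (gr A) e n u} ∩ {A : Tab | (gr A).Adj u v}) := by
      ext A
      simp only [Set.mem_ofPred_eq, mem_union, mem_iUnion, mem_inter_iff]
      rfl
    rw [this]
    exact (ih v).union (MeasurableSet.iUnion fun u => (ih u).inter (measurableSet_adj u v))

lemma measurableSet_W (e f : Sym2 ℕ) (n : ℕ) : MeasurableSet {A : Tab | f ∈ Wset (gr A) e n} := by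
  have : {A : Tab | f ∈ Wset (gr A) e n} = {A : Tab | f ∈ (gr A).edgeSet} ∩
      ⋂ v, ⋂ (_ : v ∈ f), {A : Tab | R (gr A) e n v} := by
    ext A
    simp only [Wset, Set.mem_ofPred_eq, mem_inter_iff, mem_iInter]
  rw [this]
  exact (measurableSet_mem_edgeSet f).inter
    (MeasurableSet.iInter fun v => MeasurableSet.iInter fun _ => measurableSet_R e n v)

/-- A random countable set with measurable membership equals a fixed finite set measurably. -/
lemma measurableSet_eq_finset {α β : Type*} [MeasurableSpace α] [Countable β] {W : α → Set β}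
    (hW : ∀ b, MeasurableSet {a | b ∈ W a}) (F : Finset β) :
    MeasurableSet {a | W a = (F : Set β)} := by
  have : {a | W a = (F : Set β)} = ⋂ b, {a | b ∈ W a ↔ b ∈ F} := by
    ext a
    simp only [Set.mem_ofPred_eq, mem_iInter, Set.ext_iff, Finset.mem_coe]
  rw [this]
  refine MeasurableSet.iInter fun b => ?_
  by_cases hb : b ∈ F
  · have h1 : {a | b ∈ W a ↔ b ∈ F} = {a | b ∈ W a} := by ext a; simp [hb]
    rw [h1]; exact hW b
  · have h1 : {a | b ∈ W a ↔ b ∈ F} = {a | b ∈ W a}ᶜ := by ext a; simp [hb]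
    rw [h1]; exact (hW b).compl

lemma measurableSet_finite {α β : Type*} [MeasurableSpace α] [Countable β] {W : α → Set β}
    (hW : ∀ b, MeasurableSet {a | b ∈ W a}) : MeasurableSet {a | (W a).Finite} := by
  have : {a | (W a).Finite} = ⋃ F : Finset β, {a | W a = (F : Set β)} := by
    ext a
    simp only [Set.mem_ofPred_eq, mem_iUnion]
    constructor
    · intro h; exact ⟨h.toFinset, by simp⟩
    · rintro ⟨F, h⟩; rw [h]; exact F.finite_toSet
  rw [this]
  exact MeasurableSet.iUnion fun F => measurableSet_eq_finset hW F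

lemma measurable_FnG (e : Sym2 ℕ) (n : ℕ) (F : Finset (Sym2 ℕ)) :
    MeasurableSet {A : Tab | FnG (gr A) e n = F} := by
  classical
  have hW := fun f => measurableSet_W e f n
  have h1 : {A : Tab | FnG (gr A) e n = F} =
      ({A : Tab | (Wset (gr A) e n).Finite} ∩ ⋃ F' : Finset (Sym2 ℕ),
        ({A : Tab | Wset (gr A) e n = (F' : Set (Sym2 ℕ))} ∩ {_A : Tab | insert e F' = F})) ∪
      ({A : Tab | (Wset (gr A) e n).Finite}ᶜ ∩ {_A : Tab | ({e} : Finset (Sym2 ℕ)) = F}) := by
    ext A
    simp only [Set.mem_ofPred_eq, mem_union, mem_inter_iff, mem_iUnion, mem_compl_iff]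
    unfold FnG
    by_cases h : (Wset (gr A) e n).Finite
    · rw [dif_pos h]
      simp only [h, true_and, not_true_eq_false, false_and, or_false]
      constructor
      · intro h2
        refine ⟨h.toFinset, by simp, ?_⟩
        rw [← h2]
      · rintro ⟨F', h3, h4⟩
        rw [← h4]
        congr 1
        ext f
        rw [Set.Finite.mem_toFinset, h3, Finset.mem_coe]
    · rw [dif_neg h]
      simp [h]
  rw [h1]
  refine ((measurableSet_finite hW).inter (MeasurableSet.iUnion fun F' => ?_)).union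
    ((measurableSet_finite hW).compl.inter (MeasurableSet.const _))
  exact (measurableSet_eq_finset hW F').inter (MeasurableSet.const _)

end Crest.Agent.FUSF
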