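import Crest.Agent.FUSFGraph
import Crest.Agent.FIIDMain

/-!
Independent uniform labels on the edges of a locally finite graph from labels on its vertices.
-/

set_option autoImplicit false

namespace Crest.Agent.FUSF

open Set Filter MeasureTheory unitInterval ProbabilityTheory
open Crest.ProbabilityR.GraphTables
open Crest.Agent.FIID

/-- number of neighbours of `i` before `j` -/
noncomputable def rank (G : SimpleGraph ℕ) (a : ℕ → I) (i j : ℕ) : ℕ :=
  Set.ncard {k | G.Adj i k ∧ a k < a j}

/-- owner and rank of an edge -/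
noncomputable def slot (G : SimpleGraph ℕ) (a : ℕ → I) : Sym2 ℕ → Option (ℕ × ℕ) :=
  Sym2.lift ⟨fun i j => if a i < a j then some (i, rank G a i j) else
    if a j < a i then some (j, rank G a j i) else none, by
    intro i j
    rcases lt_trichotomy (a i) (a j) with h | h | h
    · simp [h, h.asymm]
    · simp [h]
    · simp [h, h.asymm]⟩

/-- the edge label -/
noncomputable def edgeL (G : SimpleGraph ℕ) (a : ℕ → I) (r : ℕ × ℕ → I) (e : Sym2 ℕ) : I :=
  match slot G a e with
  | some b => r b
  | none => 0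

lemma slot_mk_of_lt (G : SimpleGraph ℕ) (a : ℕ → I) {i j : ℕ} (h : a i < a j) :
    slot G a s(i, j) = some (i, rank G a i j) := by
  simp [slot, h]

lemma rank_relab (pm : Equiv.Perm ℕ) (G : SimpleGraph ℕ) (a : ℕ → I) (i j : ℕ) :
    rank (G.comap pm) (a ∘ pm) i j = rank G a (pm i) (pm j) := by
  unfold rank
  have h1 : {k | G.Adj (pm i) k ∧ a k < a (pm j)} =
      pm '' {k | (G.comap pm).Adj i k ∧ (a ∘ pm) k < (a ∘ pm) j} := by
    ext k
    simp only [Set.mem_ofPred_eq, mem_image, SimpleGraph.comap_adj, Function.comp_apply]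
    constructor
    · rintro ⟨h1, h2⟩
      exact ⟨pm.symm k, ⟨by simpa using h1, by simpa using h2⟩, by simp⟩
    · rintro ⟨k', ⟨h1, h2⟩, rfl⟩
      exact ⟨h1, h2⟩
  rw [h1, Set.ncard_image_of_injective _ pm.injective]

lemma slot_relab (pm : Equiv.Perm ℕ) (G : SimpleGraph ℕ) (a : ℕ → I) (e : Sym2 ℕ) :
    (slot (G.comap pm) (a ∘ pm) e).map (fun b => (pm b.1, b.2)) = slot G a (e.map pm) := by
  induction e with
  | _ i j =>
    simp only [slot, Sym2.lift_mk, Sym2.map_mk, Function.comp_apply, rank_relab]
    split_ifs <;> simp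

lemma edgeL_relab (pm : Equiv.Perm ℕ) (G : SimpleGraph ℕ) (a : ℕ → I) (r : ℕ × ℕ → I)
    (e : Sym2 ℕ) :
    edgeL (G.comap pm) (a ∘ pm) (fun b => r (pm b.1, b.2)) e = edgeL G a r (e.map pm) := by
  unfold edgeL
  rw [← slot_relab pm G a e]
  cases slot (G.comap pm) (a ∘ pm) e <;> rfl

/-- edge labels from vertex labels -/
noncomputable def edgeLab (s : I → (Unit ⊕ ℕ → I)) (G : SimpleGraph ℕ) (x : ℕ → I) (e : Sym2 ℕ) :
    I :=
  edgeL G (fun i => lab1 s x (i, ())) (lab2 s x) e

lemma edgeLab_relab (s : I → (Unit ⊕ ℕ → I)) (pm : Equiv.Perm ℕ) (G : SimpleGraph ℕ)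
    (x : ℕ → I) (e : Sym2 ℕ) :
    edgeLab s (G.comap pm) (x ∘ pm) e = edgeLab s G x (e.map pm) := by
  unfold edgeLab
  rw [← edgeL_relab pm G]
  rfl

/-! ### measurability -/

lemma measurableSet_rank {α : Type*} [MeasurableSpace α] {A : α → Tab} (hA : Measurable A)
    {a : α → ℕ → I} (ha : ∀ i, Measurable fun p => a p i) (i j n : ℕ) :
    MeasurableSet {p | rank (gr (A p)) (a p) i j = n} := by
  classical
  set W : α → Set ℕ := fun p => {k | (gr (A p)).Adj i k ∧ a p k < a p j} with hW
  have hWm : ∀ k, MeasurableSet {p | k ∈ W p} := by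
    intro k
    have : {p | k ∈ W p} = {p | (gr (A p)).Adj i k} ∩ {p | a p k < a p j} := rfl
    rw [this]
    exact (hA (measurableSet_adj i k)).inter (measurableSet_lt (ha k) (ha j))
  have h1 : {p | rank (gr (A p)) (a p) i j = n} =
      ({p | (W p).Finite} ∩ ⋃ F : Finset ℕ, ({p | W p = (F : Set ℕ)} ∩ {_p : α | F.card = n})) ∪
      ({p | (W p).Finite}ᶜ ∩ {_p : α | 0 = n}) := by
    ext p
    simp only [Set.mem_ofPred_eq, mem_union, mem_inter_iff, mem_iUnion, mem_compl_iff]
    change (W p).ncard = n ↔ _
    by_cases h : (W p).Finite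
    · simp only [h, true_and, not_true_eq_false, false_and, or_false]
      constructor
      · intro h2
        refine ⟨h.toFinset, by simp, ?_⟩
        rw [← h2, Set.ncard_eq_toFinset_card _ h]
      · rintro ⟨F, h3, h4⟩
        rw [h3, Set.ncard_coe_finset, h4]
    · have h2 : (W p).ncard = 0 := Set.Infinite.ncard h
      simp [h, h2]
  rw [h1]
  refine ((measurableSet_finite hWm).inter (MeasurableSet.iUnion fun F => ?_)).union
    ((measurableSet_finite hWm).compl.inter (MeasurableSet.const _))
  exact (measurableSet_eq_finset hWm F).inter (MeasurableSet.const _)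

lemma measurable_random_index' {α β γ : Type*} [MeasurableSpace α] [Countable β]
    [MeasurableSpace γ] (N : α → β) (hN : ∀ b, MeasurableSet {a | N a = b}) (f : β → α → γ)
    (hf : ∀ b, Measurable (f b)) : Measurable (fun a => f (N a) a) := by
  intro T hT
  have : (fun a => f (N a) a) ⁻¹' T = ⋃ b, ({a | N a = b} ∩ (f b) ⁻¹' T) := by
    ext a
    simp only [mem_preimage, mem_iUnion, mem_inter_iff, Set.mem_ofPred_eq]
    constructor
    · intro h; exact ⟨N a, rfl, h⟩
    · rintro ⟨b, rfl, h⟩; exact h
  rw [this]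
  exact MeasurableSet.iUnion fun b => (hN b).inter (hf b hT)

lemma measurable_edgeL {α : Type*} [MeasurableSpace α] {A : α → Tab} (hA : Measurable A)
    {a : α → ℕ → I} (ha : ∀ i, Measurable fun p => a p i)
    {r : α → ℕ × ℕ → I} (hr : ∀ b, Measurable fun p => r p b) (e : Sym2 ℕ) :
    Measurable fun p => edgeL (gr (A p)) (a p) (r p) e := by
  classical
  induction e with
  | _ i j =>
    have h1 : ∀ p, edgeL (gr (A p)) (a p) (r p) s(i, j) =
        if a p i < a p j then r p (i, rank (gr (A p)) (a p) i j) else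
        if a p j < a p i then r p (j, rank (gr (A p)) (a p) j i) else 0 := by
      intro p
      unfold edgeL slot
      simp only [Sym2.lift_mk]
      split_ifs <;> rfl
    simp only [h1]
    refine Measurable.ite (measurableSet_lt (ha i) (ha j)) ?_
      (Measurable.ite (measurableSet_lt (ha j) (ha i)) ?_ measurable_const)
    · exact measurable_random_index' (fun p => rank (gr (A p)) (a p) i j)
        (measurableSet_rank hA ha i j) (fun n p => r p (i, n)) (fun n => hr _)
    · exact measurable_random_index' (fun p => rank (gr (A p)) (a p) j i)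
        (measurableSet_rank hA ha j i) (fun n p => r p (j, n)) (fun n => hr _)

lemma measurable_edgeLab {s : I → (Unit ⊕ ℕ → I)} (hs : Measurable s) (e : Sym2 ℕ) :
    Measurable fun p : Tab × (ℕ → I) => edgeLab s (gr p.1) p.2 e := by
  unfold edgeLab
  refine measurable_edgeL measurable_fst ?_ ?_ e
  · intro i
    exact (measurable_pi_apply (i, ())).comp ((measurable_lab1 hs).comp measurable_snd)
  · intro b
    exact (measurable_pi_apply b).comp ((measurable_lab2 hs).comp measurable_snd)

lemma measurable_edgeLab_right {s : I → (Unit ⊕ ℕ → I)} (hs : Measurable s)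
    (G : SimpleGraph ℕ) (e : Sym2 ℕ) :
    Measurable fun x : ℕ → I => edgeLab s G x e := by
  classical
  have h1 : gr (tableOf G) = G := by
    ext i j
    rw [gr_adj]
    unfold tableOf
    simp only [decide_eq_true_eq]
    constructor
    · rintro ⟨_, h | h⟩
      · exact h
      · exact h.symm
    · intro h
      exact ⟨h.ne, Or.inl h⟩
  have h2 := (measurable_edgeLab hs e).comp
    ((measurable_const (a := tableOf G)).prodMk (measurable_id (α := ℕ → I)))
  have h3 : (fun p : Tab × (ℕ → I) => edgeLab s (gr p.1) p.2 e) ∘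
      (fun x : ℕ → I => (tableOf G, id x)) = fun x : ℕ → I => edgeLab s G x e := by
    funext x
    simp [h1]
  rw [← h3]
  exact h2

/-! ### law -/

lemma slot_injOn (G : SimpleGraph ℕ) (hfin : ∀ v : ℕ, (G.neighborSet v).Finite) (a : ℕ → I)
    (ha : Function.Injective a) {e e' : Sym2 ℕ} (he : e ∈ G.edgeSet) (he' : e' ∈ G.edgeSet)
    (h : slot G a e = slot G a e') : e = e' := by
  have key : ∀ e : Sym2 ℕ, e ∈ G.edgeSet → ∃ i j, e = s(i, j) ∧ a i < a j ∧ G.Adj i j := by
    intro e he
    induction e with
    | _ i j =>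
      have hadj : G.Adj i j := he
      rcases lt_trichotomy (a i) (a j) with h | h | h
      · exact ⟨i, j, rfl, h, hadj⟩
      · exact absurd (ha h) hadj.ne
      · exact ⟨j, i, Sym2.eq_swap, h, hadj.symm⟩
  obtain ⟨i, j, rfl, hij, hadj⟩ := key e he
  obtain ⟨i', j', rfl, hij', hadj'⟩ := key e' he'
  rw [slot_mk_of_lt G a hij, slot_mk_of_lt G a hij'] at h
  simp only [Option.some.injEq, Prod.mk.injEq] at h
  obtain ⟨rfl, hr⟩ := h
  have hlt : ∀ j j', G.Adj i j → a j < a j' → rank G a i j < rank G a i j' := by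
    intro j j' hadj hjj
    unfold rank
    refine Set.ncard_lt_ncard ?_ ?_
    · refine ⟨fun k hk => ⟨hk.1, hk.2.trans hjj⟩, fun hsub => ?_⟩
      have : j ∈ {k | G.Adj i k ∧ a k < a j} := hsub ⟨hadj, hjj⟩
      exact lt_irrefl _ this.2
    · exact (hfin i).subset fun k hk => hk.1
  rcases lt_trichotomy (a j) (a j') with h1 | h1 | h1
  · exact absurd hr (hlt j j' hadj h1).ne
  · rw [ha h1]
  · exact absurd hr (hlt j' j hadj' h1).ne'

lemma edgeL_law (G : SimpleGraph ℕ) (hfin : ∀ v : ℕ, (G.neighborSet v).Finite) (a : ℕ → I)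
    (ha : Function.Injective a) :
    (μI (ℕ × ℕ)).map (fun r (e : G.edgeSet) => edgeL G a r e) = μI G.edgeSet := by
  have hsome : ∀ e : G.edgeSet, (slot G a e).isSome := by
    rintro ⟨e, he⟩
    induction e with
    | _ i j =>
      have hadj : G.Adj i j := he
      rcases lt_trichotomy (a i) (a j) with h | h | h
      · simp [slot, h]
      · exact absurd (ha h) hadj.ne
      · simp [slot, h, h.asymm]
  set f : G.edgeSet → ℕ × ℕ := fun e => (slot G a e).get (hsome e) with hf
  have hfinj : Function.Injective f := by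
    intro e e' h
    apply Subtype.ext
    refine slot_injOn G hfin a ha e.2 e'.2 ?_
    rw [← Option.some_get (hsome e), ← Option.some_get (hsome e')]
    exact congrArg some h
  have h1 : (fun (r : ℕ × ℕ → I) (e : G.edgeSet) => edgeL G a r e) = fun r e => r (f e) := by
    funext r e
    unfold edgeL
    have : slot G a e = some (f e) := (Option.some_get (hsome e)).symm
    rw [this]
  rw [h1]
  unfold μI
  exact Measure.map_infinitePi_infinitePi_of_inj (P := fun _ : ℕ × ℕ => (volume : Measure I)) hfinj

/-- The edge labels of a locally finite graph are independent and uniform. -/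
theorem edgeLab_law {s : I → (Unit ⊕ ℕ → I)} (hs : Measurable s)
    (hs2 : (volume : Measure I).map s = μI (Unit ⊕ ℕ))
    (G : SimpleGraph ℕ) (hfin : ∀ v : ℕ, (G.neighborSet v).Finite) :
    (μI ℕ).map (fun x (e : G.edgeSet) => edgeLab s G x e) = μI G.edgeSet := by
  classical
  have h1 : gr (tableOf G) = G := by
    ext i j
    rw [gr_adj]
    unfold tableOf
    simp only [decide_eq_true_eq]
    constructor
    · rintro ⟨_, h | h⟩
      · exact h
      · exact h.symm
    · intro h
      exact ⟨h.ne, Or.inl h⟩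
  set E : (ℕ × Unit → I) → (ℕ × ℕ → I) → (G.edgeSet → I) :=
    fun a' r e => edgeL G (fun i => a' (i, ())) r e with hE
  have hEm : Measurable (Function.uncurry E) := by
    rw [measurable_pi_iff]
    intro e
    have := measurable_edgeL (α := (ℕ × Unit → I) × (ℕ × ℕ → I)) (A := fun _ => tableOf G)
      measurable_const (a := fun p i => p.1 (i, ()))
      (fun i => (measurable_pi_apply _).comp measurable_fst)
      (r := fun p => p.2) (fun b => (measurable_pi_apply b).comp measurable_snd) (e : Sym2 ℕ)
    rw [h1] at this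
    exact this
  have hpair := map_lab (V := ℕ) hs hs2
  have hpm : Measurable (fun u : ℕ → I => (lab1 s u, lab2 s u)) :=
    (measurable_lab1 hs).prodMk (measurable_lab2 hs)
  have h2 : (μI ℕ).map (fun x (e : G.edgeSet) => edgeLab s G x e) =
      ((μI (ℕ × Unit)).prod (μI (ℕ × ℕ))).map (Function.uncurry E) := by
    rw [← hpair, Measure.map_map hEm hpm]
    rfl
  rw [h2]
  ext B hB
  rw [Measure.map_apply hEm hB, Measure.prod_apply (hEm hB)]
  have h3 : ∀ᵐ a' ∂(μI (ℕ × Unit)), (μI (ℕ × ℕ)) (Prod.mk a' ⁻¹' (Function.uncurry E ⁻¹' B)) =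
      (μI G.edgeSet) B := by
    filter_upwards [ae_injective_label (ℕ × Unit)] with a' ha'
    have hinj : Function.Injective (fun i : ℕ => a' (i, ())) := by
      intro i j hij
      have := ha' (i, ()) (j, ()) hij
      exact (Prod.mk.inj this).1
    have h4 := edgeL_law G hfin (fun i => a' (i, ())) hinj
    have hm2 : Measurable (E a') := hEm.of_uncurry_left
    conv_rhs => rw [← h4]
    rw [Measure.map_apply hm2 hB]
    rfl
  rw [lintegral_congr_ae h3]
  simp

end Crest.Agent.FUSF
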