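import Crest.Prelude.Def_SpanningTrees

set_option autoImplicit false
open Matrix Finset
open scoped Classical

namespace Crest.Agent.USTR

section LA
variable {W E R : Type*} [Fintype W] [DecidableEq W] [CommRing R]

theorem det_sum_expand (Ed : Finset E) (x : E → R) (b : E → W → R) :
    (Matrix.of fun i j : W => ∑ e ∈ Ed, x e * b e i * b e j).det =
      ∑ p ∈ Fintype.piFinset (fun _ : W => Ed),
        ((∏ i, x (p i)) * ((∏ i, b (p i) i) * (Matrix.of fun i j : W => b (p j) i).det)) := by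
  rw [Matrix.det_apply']
  simp only [Matrix.of_apply, Matrix.det_apply']
  have h : ∀ σ : Equiv.Perm W, (∏ i, ∑ e ∈ Ed, x e * b e (σ i) * b e i) =
      ∑ p ∈ Fintype.piFinset (fun _ : W => Ed), ∏ i, (x (p i) * b (p i) (σ i) * b (p i) i) := by
    intro σ
    rw [Finset.prod_univ_sum]
  simp only [h, Finset.mul_sum]
  rw [Finset.sum_comm]
  refine Finset.sum_congr rfl fun p _ => ?_
  refine Finset.sum_congr rfl fun σ _ => ?_
  simp only [Finset.prod_mul_distrib]
  ring

/-- coefficient of the monomial `A` -/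
noncomputable def cc (b : E → W → R) (A : Finset E) : R :=
  ∑ p ∈ (Fintype.piFinset (fun _ : W => A)).filter (fun p => univ.image p = A),
    ((∏ i, b (p i) i) * (Matrix.of fun i j : W => b (p j) i).det)

theorem det_of_not_inj (b : E → W → R) (p : W → E) (hp : ¬ Function.Injective p) :
    (Matrix.of fun i j : W => b (p j) i).det = 0 := by
  unfold Function.Injective at hp
  push Not at hp
  obtain ⟨i, j, hij, hne⟩ := hp
  refine Matrix.det_zero_of_column_eq hne ?_
  intro k
  simp [hij]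

theorem det_eq_sum_cc (Ed : Finset E) (x : E → R) (b : E → W → R) :
    (Matrix.of fun i j : W => ∑ e ∈ Ed, x e * b e i * b e j).det =
      ∑ A ∈ Ed.powerset, (∏ e ∈ A, x e) * cc b A := by
  rw [det_sum_expand]
  rw [← Finset.sum_fiberwise_of_maps_to (g := fun p : W → E => univ.image p) (t := Ed.powerset)]
  · refine Finset.sum_congr rfl fun A hA => ?_
    rw [cc, Finset.mul_sum]
    have hs : (Fintype.piFinset (fun _ : W => Ed)).filter (fun p => univ.image p = A) =
        (Fintype.piFinset (fun _ : W => A)).filter (fun p => univ.image p = A) := by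
      ext p
      simp only [Finset.mem_filter, Fintype.mem_piFinset]
      constructor
      · rintro ⟨h1, h2⟩
        refine ⟨fun i => ?_, h2⟩
        rw [← h2]
        exact Finset.mem_image_of_mem _ (Finset.mem_univ i)
      · rintro ⟨h1, h2⟩
        exact ⟨fun i => (Finset.mem_powerset.mp hA) (h1 i), h2⟩
    rw [hs]
    refine Finset.sum_congr rfl fun p hp => ?_
    by_cases hinj : Function.Injective p
    · congr 1
      have h2 := (Finset.mem_filter.mp hp).2
      rw [← h2, Finset.prod_image (fun i _ j _ h => hinj h)]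
    · rw [det_of_not_inj b p hinj]; simp
  · intro p hp
    rw [Finset.mem_powerset]
    intro e he
    obtain ⟨i, _, rfl⟩ := Finset.mem_image.mp he
    exact (Fintype.mem_piFinset.mp hp) i

theorem cc_eq_zero_of_card (b : E → W → R) (A : Finset E) (hA : A.card ≠ Fintype.card W) :
    cc b A = 0 := by
  refine Finset.sum_eq_zero fun p hp => ?_
  by_cases hinj : Function.Injective p
  · exfalso
    apply hA
    have h2 := (Finset.mem_filter.mp hp).2
    rw [← h2, Finset.card_image_of_injective _ hinj, Finset.card_univ]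
  · rw [det_of_not_inj b p hinj]; simp

theorem cc_eq_zero_of_vec [IsDomain R] (b : E → W → R) (A : Finset E) (y : W → R) (hy : y ≠ 0)
    (h : ∀ e ∈ A, ∑ w, y w * b e w = 0) : cc b A = 0 := by
  refine Finset.sum_eq_zero fun p hp => ?_
  have hp1 := Fintype.mem_piFinset.mp (Finset.mem_filter.mp hp).1
  have : (Matrix.of fun i j : W => b (p j) i).det = 0 := by
    rw [← Matrix.exists_vecMul_eq_zero_iff]
    refine ⟨y, hy, ?_⟩
    ext j
    simp only [Matrix.vecMul, dotProduct, Matrix.of_apply, Pi.zero_apply]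
    exact h (p j) (hp1 j)
  rw [this]; simp

theorem cc_eq_det_sq (b : E → W → R) (A : Finset E) (e₀ : W ≃ A) :
    cc b A = (Matrix.of fun i j : W => b (e₀ j) i).det ^ 2 := by
  have hcard : A.card = Fintype.card W := by
    rw [Fintype.card_congr e₀]; simp
  have h1 := det_eq_sum_cc A (fun _ => (1 : R)) b
  have h2 : (Matrix.of fun i j : W => ∑ e ∈ A, (1 : R) * b e i * b e j) =
      (Matrix.of fun i j : W => b (e₀ j) i) * (Matrix.of fun i j : W => b (e₀ j) i)ᵀ := by
    ext i j
    simp only [Matrix.of_apply, one_mul, Matrix.mul_apply, Matrix.transpose_apply]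
    rw [← Finset.sum_coe_sort A]
    exact (Equiv.sum_comp e₀ (fun e : A => b e i * b e j)).symm
  rw [h2, Matrix.det_mul, Matrix.det_transpose, ← sq] at h1
  rw [h1]
  rw [Finset.sum_eq_single A]
  · simp
  · intro A' hA' hne
    rw [cc_eq_zero_of_card, mul_zero]
    have := Finset.card_lt_card ((Finset.ssubset_iff_subset_ne).mpr ⟨Finset.mem_powerset.mp hA', hne⟩)
    omega
  · intro h
    exact absurd (Finset.mem_powerset_self A) h

/-- Rayleigh inequality for rank one updates -/
theorem det_rayleigh (M : Matrix W W ℝ) (hM : Mᵀ = M) (h0 : M.det ≠ 0) (u v : W → ℝ) :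
    (M + vecMulVec u u + vecMulVec v v).det * M.det ≤
      (M + vecMulVec u u).det * (M + vecMulVec v v).det := by
  have hu : IsUnit M.det := isUnit_iff_ne_zero.mpr h0
  have key1 : ∀ w : W → ℝ, (M + vecMulVec w w).det = M.det * (1 + w ⬝ᵥ (M⁻¹ *ᵥ w)) := by
    intro w
    have e1 : vecMulVec w w = replicateCol Unit w * replicateRow Unit w := by
      ext i j
      simp [vecMulVec_apply, Matrix.mul_apply]
    rw [e1, det_add_replicateCol_mul_replicateRow hu]
    congr 1
    rw [det_unique]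
    simp only [Matrix.add_apply, Matrix.one_apply_eq]
    congr 1
    simp only [Matrix.mul_apply, replicateRow_apply, replicateCol_apply, dotProduct, mulVec,
      Finset.mul_sum, Finset.sum_mul]
    rw [Finset.sum_comm]
    refine Finset.sum_congr rfl fun i _ => Finset.sum_congr rfl fun j _ => ?_
    ring
  set a := u ⬝ᵥ (M⁻¹ *ᵥ u) with ha
  set d := v ⬝ᵥ (M⁻¹ *ᵥ v) with hd
  set c := u ⬝ᵥ (M⁻¹ *ᵥ v) with hc
  have hc' : v ⬝ᵥ (M⁻¹ *ᵥ u) = c := by
    rw [hc, dotProduct_mulVec, ← mulVec_transpose, Matrix.transpose_nonsing_inv, hM, dotProduct_comm]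
  have key2 : (M + vecMulVec u u + vecMulVec v v).det = M.det * ((1 + a) * (1 + d) - c ^ 2) := by
    let U : Matrix W (Fin 2) ℝ := Matrix.of fun i k => if k = 0 then u i else v i
    have e1 : M + vecMulVec u u + vecMulVec v v = M + U * Uᵀ := by
      rw [add_assoc]
      congr 1
      ext i j
      simp [U, vecMulVec_apply, Matrix.mul_apply, Fin.sum_univ_two]
    rw [e1, det_add_mul _ _ hu]
    congr 1
    have e2 : ∀ k l, (Uᵀ * M⁻¹ * U) k l = (fun i => U i k) ⬝ᵥ (M⁻¹ *ᵥ (fun i => U i l)) := by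
      intro k l
      simp only [Matrix.mul_apply, Matrix.transpose_apply, dotProduct, mulVec,
        Finset.mul_sum, Finset.sum_mul]
      rw [Finset.sum_comm]
      refine Finset.sum_congr rfl fun i _ => Finset.sum_congr rfl fun j _ => ?_
      ring
    have f0 : (fun i => U i 0) = u := by ext i; simp [U]
    have f1 : (fun i => U i 1) = v := by ext i; simp [U]
    rw [det_fin_two]
    simp only [Matrix.add_apply, e2, f0, f1, hc']
    simp only [← ha, ← hd, ← hc]
    simp
    ring
  rw [key1 u, key1 v, key2, ← ha, ← hd]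
  nlinarith [mul_nonneg (sq_nonneg M.det) (sq_nonneg c)]

end LA

section Graph
open Crest.ProbabilityR.SpanningTrees
variable {V : Type*}

/-- connectivity of `A` on `S` through invariant predicates -/
def CC (S : Finset V) (A : Finset (Sym2 V)) : Prop :=
  ∀ P : V → Prop, (∀ u v, s(u, v) ∈ A → (P u ↔ P v)) → ∀ u ∈ S, ∀ v ∈ S, (P u ↔ P v)

theorem mem_edgesIn {G : SimpleGraph V} {S : Finset V} {u v : V} :
    s(u, v) ∈ edgesIn G S ↔ (u ∈ S ∧ v ∈ S) ∧ G.Adj u v := by
  unfold edgesIn
  simp [Finset.mem_filter, Finset.mk_mem_sym2_iff, SimpleGraph.mem_edgeSet]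

theorem connected_iff_CC {S : Finset V} {A : Finset (Sym2 V)} (hA : ∀ u v, s(u, v) ∈ A → (u ∈ S ∧ v ∈ S) ∧ u ≠ v)
    (hS : S.Nonempty) :
    ((SimpleGraph.fromEdgeSet (A : Set (Sym2 V))).induce (S : Set V)).Connected ↔ CC S A := by
  set H := (SimpleGraph.fromEdgeSet (A : Set (Sym2 V))).induce (S : Set V) with hH
  have hadj : ∀ u v : (S : Set V), H.Adj u v ↔ s(u.1, v.1) ∈ A ∧ u.1 ≠ v.1 := by
    intro u v
    simp [hH, SimpleGraph.fromEdgeSet_adj]
  constructor
  · intro hc P hP u hu v hv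
    obtain ⟨w⟩ := hc.preconnected ⟨u, hu⟩ ⟨v, hv⟩
    have : ∀ a b : (S : Set V), H.Walk a b → (P a.1 ↔ P b.1) := by
      intro a b w
      induction w with
      | nil => exact Iff.rfl
      | cons h _ ih => exact (hP _ _ ((hadj _ _).mp h).1).trans ih
    exact this _ _ w
  · intro hcc
    have : Nonempty (S : Set V) := ⟨⟨hS.choose, hS.choose_spec⟩⟩
    refine ⟨?_⟩
    rintro ⟨u, hu⟩ ⟨v, hv⟩
    have := hcc (fun w => ∃ hw : w ∈ (S : Set V), H.Reachable ⟨u, hu⟩ ⟨w, hw⟩) ?_ u hu v hv
    · obtain ⟨_, h⟩ := this.mp ⟨hu, SimpleGraph.Reachable.refl _⟩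
      exact h
    · intro a b hab
      obtain ⟨⟨ha, hb⟩, hne⟩ := hA a b hab
      constructor
      · rintro ⟨_, h⟩
        exact ⟨hb, h.trans (SimpleGraph.Adj.reachable ((hadj ⟨a, ha⟩ ⟨b, hb⟩).mpr ⟨hab, hne⟩))⟩
      · rintro ⟨_, h⟩
        exact ⟨ha, h.trans (SimpleGraph.Adj.reachable ((hadj ⟨a, ha⟩ ⟨b, hb⟩).mpr ⟨hab, hne⟩)).symm⟩

theorem card_edgeSet_induce {S : Finset V} {A : Finset (Sym2 V)} (hA : ∀ u v, s(u, v) ∈ A → (u ∈ S ∧ v ∈ S) ∧ u ≠ v) :
    Nat.card ((SimpleGraph.fromEdgeSet (A : Set (Sym2 V))).induce (S : Set V)).edgeSet = A.card := by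
  set H := (SimpleGraph.fromEdgeSet (A : Set (Sym2 V))).induce (S : Set V) with hH
  have hadj : ∀ u v : (S : Set V), H.Adj u v ↔ s(u.1, v.1) ∈ A ∧ u.1 ≠ v.1 := by
    intro u v
    simp [hH, SimpleGraph.fromEdgeSet_adj]
  have h1 : (Sym2.map (Subtype.val : {x // x ∈ (S : Set V)} → V)) '' H.edgeSet = (A : Set (Sym2 V)) := by
    ext e
    constructor
    · rintro ⟨e', he', rfl⟩
      induction e' using Sym2.ind with
      | _ u v =>
        rw [SimpleGraph.mem_edgeSet] at he'
        simpa using ((hadj _ _).mp he').1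
    · intro he
      induction e using Sym2.ind with
      | _ u v =>
        obtain ⟨⟨hu, hv⟩, hne⟩ := hA u v he
        refine ⟨s(⟨u, hu⟩, ⟨v, hv⟩), ?_, by simp⟩
        rw [SimpleGraph.mem_edgeSet]
        exact (hadj _ _).mpr ⟨he, hne⟩
  rw [← Set.ncard_coe_finset A, ← h1, Set.ncard_image_of_injective _ (Sym2.map.injective Subtype.val_injective)]
  rfl

theorem isTree_iff {G : SimpleGraph V} {S : Finset V} (hS : S.Nonempty) {A : Finset (Sym2 V)} :
    IsSpanningTreeOn G S A ↔ A ⊆ edgesIn G S ∧ CC S A ∧ A.card + 1 = S.card := by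
  unfold IsSpanningTreeOn
  refine and_congr_right fun hA => ?_
  have hA' : ∀ u v, s(u, v) ∈ A → (u ∈ S ∧ v ∈ S) ∧ u ≠ v := fun u v h =>
    ⟨(mem_edgesIn.mp (hA h)).1, (mem_edgesIn.mp (hA h)).2.ne⟩
  have : Finite (S : Set V) := S.finite_toSet
  rw [SimpleGraph.isTree_iff_connected_and_card, connected_iff_CC hA' hS, card_edgeSet_induce hA']
  simp


/-- signed incidence -/
noncomputable def inc (R : Type*) [CommRing R] (e : Sym2 V) (w : V) : R :=
  (if w = (Quot.out e).1 then 1 else 0) - (if w = (Quot.out e).2 then 1 else 0)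

theorem inc_mk (R : Type*) [CommRing R] (u v : V) :
    ∃ ε : R, ε * ε = 1 ∧ ∀ w, inc R s(u, v) w = ε * ((if w = u then 1 else 0) - (if w = v then 1 else 0)) := by
  have h : s((Quot.out s(u, v)).1, (Quot.out s(u, v)).2) = s(u, v) := Quot.out_eq _
  rw [Sym2.eq_iff] at h
  rcases h with h | h
  · refine ⟨1, by simp, fun w => ?_⟩
    simp [inc, h]
  · refine ⟨-1, by simp, fun w => ?_⟩
    simp [inc, h, Prod.swap]

theorem unimod {S : Finset V} {r : V} (hr : r ∈ S) {A : Finset (Sym2 V)} (hcc : CC S A) (v : V) (hv : v ∈ S) :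
    ∃ α : Sym2 V → ℤ, ∀ w, w ≠ r → ∑ e ∈ A, inc ℤ e w * α e = if w = v then 1 else 0 := by
  refine (hcc (fun v => ∃ α : Sym2 V → ℤ, ∀ w, w ≠ r → ∑ e ∈ A, inc ℤ e w * α e = if w = v then 1 else 0)
    ?_ r hr v hv).mp ?_
  · have key : ∀ u v, s(u, v) ∈ A → (∃ α : Sym2 V → ℤ, ∀ w, w ≠ r → ∑ e ∈ A, inc ℤ e w * α e = if w = u then 1 else 0) →
        (∃ α : Sym2 V → ℤ, ∀ w, w ≠ r → ∑ e ∈ A, inc ℤ e w * α e = if w = v then 1 else 0) := by
      rintro u v huv ⟨α, hα⟩
      obtain ⟨ε, hε, hinc⟩ := inc_mk ℤ u v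
      refine ⟨fun e => α e - if e = s(u, v) then ε else 0, fun w hw => ?_⟩
      simp only [mul_sub, Finset.sum_sub_distrib, hα w hw, mul_ite, mul_zero, Finset.sum_ite_eq', huv, if_true]
      rw [hinc]
      have : ε * ((if w = u then (1 : ℤ) else 0) - (if w = v then 1 else 0)) * ε =
          (ε * ε) * ((if w = u then (1 : ℤ) else 0) - (if w = v then 1 else 0)) := by ring
      rw [this, hε]; ring
    intro u v huv
    exact ⟨key u v huv, key v u (by rwa [Sym2.eq_swap])⟩
  · exact ⟨fun _ => 0, fun w hw => by simp [hw]⟩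

/-- reduced incidence -/
noncomputable def binc (R : Type*) [CommRing R] (S : Finset V) (r : V) (e : Sym2 V) (w : {x // x ∈ S.erase r}) : R :=
  inc R e w.1

theorem cc_of_tree {S : Finset V} {r : V} (hr : r ∈ S) {A : Finset (Sym2 V)} (hcc : CC S A)
    (hcard : A.card + 1 = S.card) : cc (binc ℝ S r) A = 1 := by
  have hc : Fintype.card {x // x ∈ S.erase r} = Fintype.card A := by
    simp [Finset.card_erase_of_mem hr]; omega
  let e₀ : {x // x ∈ S.erase r} ≃ A := Fintype.equivOfCardEq hc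
  rw [cc_eq_det_sq _ _ e₀]
  choose! α hα using fun v hv => unimod hr hcc v hv
  let B : Matrix {x // x ∈ S.erase r} {x // x ∈ S.erase r} ℤ := Matrix.of fun i j => binc ℤ S r (e₀ j) i
  let C : Matrix {x // x ∈ S.erase r} {x // x ∈ S.erase r} ℤ := Matrix.of fun j k => α k.1 (e₀ j)
  have hBC : B * C = 1 := by
    ext i k
    have h1 := hα k.1 (Finset.mem_of_mem_erase k.2) i.1 (Finset.ne_of_mem_erase i.2)
    rw [← Finset.sum_coe_sort A, ← Equiv.sum_comp e₀ (fun e : A => inc ℤ e.1 i.1 * α k.1 e.1)] at h1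
    simp only [B, C, Matrix.mul_apply, Matrix.of_apply, binc]
    rw [h1, Matrix.one_apply]
    by_cases hik : i = k
    · rw [if_pos hik, if_pos (congrArg Subtype.val hik)]
    · rw [if_neg hik, if_neg (fun h => hik (Subtype.ext h))]
  have hdet : B.det * C.det = 1 := by rw [← Matrix.det_mul, hBC, Matrix.det_one]
  have hB : B.det ^ 2 = 1 := by
    rcases Int.isUnit_iff.mp (IsUnit.of_mul_eq_one _ hdet) with h | h <;> rw [h] <;> norm_num
  have hcast : (Matrix.of fun i j => binc ℝ S r (e₀ j).1 i) = B.map (Int.cast : ℤ → ℝ) := by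
    ext i j
    simp [B, binc, inc]
  rw [hcast]
  have : (B.map (Int.cast : ℤ → ℝ)).det = ((B.det : ℤ) : ℝ) := by
    have := (Int.castRingHom ℝ).map_det B
    simpa using this.symm
  rw [this]
  exact_mod_cast hB

theorem cc_of_not_CC {S : Finset V} {r : V} (hr : r ∈ S) {A : Finset (Sym2 V)}
    (hA : ∀ u v, s(u, v) ∈ A → (u ∈ S ∧ v ∈ S) ∧ u ≠ v) (hcc : ¬ CC S A) : cc (binc ℝ S r) A = 0 := by
  unfold CC at hcc
  push Not at hcc
  obtain ⟨P, hP, a, ha, b, hb, hab⟩ := hcc
  let z : V → ℝ := fun w => if (P w ↔ P r) then 0 else 1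
  have hzr : z r = 0 := by simp [z]
  refine cc_eq_zero_of_vec _ _ (fun w => z w.1) ?_ ?_
  · intro h0
    have hz : ∀ w ∈ S, z w = 0 := by
      intro w hw
      by_cases hwr : w = r
      · rw [hwr, hzr]
      · exact congrFun h0 ⟨w, Finset.mem_erase.mpr ⟨hwr, hw⟩⟩
    have hz2 : ∀ w ∈ S, (P w ↔ P r) := by
      intro w hw
      by_contra hc
      have := hz w hw
      simp [z, hc] at this
    have h3 := (hz2 a ha).trans (hz2 b hb).symm
    rcases hab with ⟨h1, h2⟩ | ⟨h1, h2⟩
    · exact h2 (h3.mp h1)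
    · exact h1 (h3.mpr h2)
  · intro e he
    have h1 : ∑ w : {x // x ∈ S.erase r}, z w.1 * binc ℝ S r e w = ∑ w ∈ S.erase r, z w * inc ℝ e w :=
      Finset.sum_coe_sort (S.erase r) (fun w => z w * inc ℝ e w)
    have h2 : ∑ w ∈ S.erase r, z w * inc ℝ e w = ∑ w ∈ S, z w * inc ℝ e w := by
      rw [← Finset.add_sum_erase S _ hr, hzr]; simp
    rw [h1, h2]
    induction e using Sym2.ind with
    | _ u v =>
      obtain ⟨⟨hu, hv⟩, hne⟩ := hA u v he
      obtain ⟨ε, hε, hinc⟩ := inc_mk ℝ u v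
      simp only [hinc]
      have : ∀ w, z w * (ε * ((if w = u then (1 : ℝ) else 0) - (if w = v then 1 else 0))) =
          ε * ((if w = u then z w else 0) - (if w = v then z w else 0)) := by
        intro w
        split_ifs <;> ring
      simp only [this, ← Finset.mul_sum, Finset.sum_sub_distrib, Finset.sum_ite_eq', hu, hv, if_true]
      have hzz : z u = z v := by
        have := hP u v he
        simp only [z, this]
      rw [hzz]; ring

/-- weighted sum over a family of edge sets -/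
noncomputable def Zs {E : Type*} (T : Finset (Finset E)) (x : E → ℝ) : ℝ := ∑ A ∈ T, ∏ e ∈ A, x e

/-- the family of spanning trees -/
noncomputable def trees (G : SimpleGraph V) (S : Finset V) : Finset (Finset (Sym2 V)) :=
  (edgesIn G S).powerset.filter (fun A => IsSpanningTreeOn G S A)

/-- weighted matrix tree theorem -/
theorem matrix_tree (G : SimpleGraph V) (S : Finset V) (r : V) (hr : r ∈ S) (x : Sym2 V → ℝ) :
    Zs (trees G S) x = (Matrix.of fun i j : {x // x ∈ S.erase r} =>
      ∑ e ∈ edgesIn G S, x e * binc ℝ S r e i * binc ℝ S r e j).det := by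
  rw [det_eq_sum_cc, Zs, trees, Finset.sum_filter]
  refine Finset.sum_congr rfl fun A hA => ?_
  have hA1 := Finset.mem_powerset.mp hA
  have hA' : ∀ u v, s(u, v) ∈ A → (u ∈ S ∧ v ∈ S) ∧ u ≠ v := fun u v h =>
    ⟨(mem_edgesIn.mp (hA1 h)).1, (mem_edgesIn.mp (hA1 h)).2.ne⟩
  have hiff := isTree_iff (G := G) ⟨r, hr⟩ (A := A)
  by_cases h1 : CC S A
  · by_cases h2 : A.card + 1 = S.card
    · rw [if_pos (hiff.mpr ⟨hA1, h1, h2⟩), cc_of_tree hr h1 h2, mul_one]
    · rw [if_neg (fun h => h2 (hiff.mp h).2.2), cc_eq_zero_of_card, mul_zero]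
      simp only [Fintype.card_coe, Finset.card_erase_of_mem hr]
      have := Finset.card_pos.mpr ⟨r, hr⟩
      omega
  · rw [if_neg (fun h => h1 (hiff.mp h).2.1), cc_of_not_CC hr hA' h1, mul_zero]


/-- nonnegativity -/
theorem Zs_nonneg {E : Type*} (T : Finset (Finset E)) (x : E → ℝ) (hx : ∀ e, 0 ≤ x e) : 0 ≤ Zs T x :=
  Finset.sum_nonneg fun _ _ => Finset.prod_nonneg fun _ _ => hx _

/-- pairwise negative correlation at all nonnegative weights -/
def Ray {E : Type*} (T : Finset (Finset E)) : Prop :=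
  ∀ x : E → ℝ, (∀ e, 0 ≤ x e) → ∀ e f : E, e ≠ f →
    Zs (T.filter (fun A => e ∈ A ∧ f ∈ A)) x * Zs (T.filter (fun A => e ∉ A ∧ f ∉ A)) x ≤
      Zs (T.filter (fun A => e ∈ A ∧ f ∉ A)) x * Zs (T.filter (fun A => e ∉ A ∧ f ∈ A)) x

/-- two weights changed -/
noncomputable def upd {E : Type*} (x : E → ℝ) (e f : E) (s t : ℝ) : E → ℝ :=
  fun g => if g = e then s else if g = f then t else x g

theorem prod_upd {E : Type*} (x : E → ℝ) {e f : E} (hef : e ≠ f) (s t : ℝ) (A : Finset E) :
    ∏ g ∈ A, upd x e f s t g = (if e ∈ A then s else 1) * (if f ∈ A then t else 1) *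
      ∏ g ∈ (A.erase e).erase f, x g := by
  have h0 : ∏ g ∈ (A.erase e).erase f, upd x e f s t g = ∏ g ∈ (A.erase e).erase f, x g := by
    refine Finset.prod_congr rfl fun g hg => ?_
    have h1 := Finset.ne_of_mem_erase hg
    have h2 := Finset.ne_of_mem_erase (Finset.mem_of_mem_erase hg)
    simp [upd, h1, h2]
  have h1 : ∏ g ∈ A.erase e, upd x e f s t g = (if f ∈ A then t else 1) *
      ∏ g ∈ (A.erase e).erase f, x g := by
    by_cases hf : f ∈ A
    · rw [← Finset.mul_prod_erase (A.erase e) _ (Finset.mem_erase.mpr ⟨hef.symm, hf⟩), h0, if_pos hf]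
      simp [upd, hef.symm]
    · rw [if_neg hf, one_mul, ← h0, Finset.erase_eq_of_notMem (s := A.erase e) (a := f) (fun h => hf (Finset.mem_of_mem_erase h))]
  by_cases he : e ∈ A
  · rw [← Finset.mul_prod_erase A _ he, h1, if_pos he]
    simp [upd, mul_assoc]
  · rw [if_neg he, one_mul, ← h1, Finset.erase_eq_of_notMem he]

theorem upd_self {E : Type*} (x : E → ℝ) {e f : E} (hef : e ≠ f) : upd x e f (x e) (x f) = x := by
  ext g
  unfold upd
  by_cases h1 : g = e
  · simp [h1]
  · by_cases h2 : g = f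
    · rw [if_neg h1, if_pos h2, h2]
    · simp [h1, h2]

theorem Zs_split {E : Type*} (T : Finset (Finset E)) (x : E → ℝ) (e f : E) :
    Zs T x = Zs (T.filter (fun A => e ∈ A ∧ f ∈ A)) x + Zs (T.filter (fun A => e ∈ A ∧ f ∉ A)) x +
      Zs (T.filter (fun A => e ∉ A ∧ f ∈ A)) x + Zs (T.filter (fun A => e ∉ A ∧ f ∉ A)) x := by
  simp only [Zs, Finset.sum_filter, ← Finset.sum_add_distrib]
  refine Finset.sum_congr rfl fun A _ => ?_
  by_cases h1 : e ∈ A <;> by_cases h2 : f ∈ A <;> simp [h1, h2]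

theorem ray_of_four {E : Type*} (T : Finset (Finset E))
    (h : ∀ x : E → ℝ, (∀ e, 0 ≤ x e) → ∀ e f : E, e ≠ f → Zs T (upd x e f 0 0) ≠ 0 →
      Zs T (upd x e f 1 1) * Zs T (upd x e f 0 0) ≤ Zs T (upd x e f 1 0) * Zs T (upd x e f 0 1)) : Ray T := by
  intro x hx e f hef
  have hx' : ∀ A : Finset E, 0 ≤ ∏ g ∈ (A.erase e).erase f, x g := fun A => Finset.prod_nonneg fun _ _ => hx _
  set m : Finset E → ℝ := fun A => ∏ g ∈ (A.erase e).erase f, x g with hm
  set a := ∑ A ∈ T.filter (fun A => e ∈ A ∧ f ∈ A), m A with ha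
  set b := ∑ A ∈ T.filter (fun A => e ∈ A ∧ f ∉ A), m A with hb
  set c := ∑ A ∈ T.filter (fun A => e ∉ A ∧ f ∈ A), m A with hc
  set d := ∑ A ∈ T.filter (fun A => e ∉ A ∧ f ∉ A), m A with hd
  have ha0 : 0 ≤ a := Finset.sum_nonneg fun A _ => hx' A
  have hb0 : 0 ≤ b := Finset.sum_nonneg fun A _ => hx' A
  have hc0 : 0 ≤ c := Finset.sum_nonneg fun A _ => hx' A
  have hd0 : 0 ≤ d := Finset.sum_nonneg fun A _ => hx' A
  have e11 : ∀ s t, Zs (T.filter (fun A => e ∈ A ∧ f ∈ A)) (upd x e f s t) = s * t * a := by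
    intro s t
    rw [ha, Zs, Finset.mul_sum]
    refine Finset.sum_congr rfl fun A hA => ?_
    have := (Finset.mem_filter.mp hA).2
    rw [prod_upd x hef, if_pos this.1, if_pos this.2]
  have e10 : ∀ s t, Zs (T.filter (fun A => e ∈ A ∧ f ∉ A)) (upd x e f s t) = s * b := by
    intro s t
    rw [hb, Zs, Finset.mul_sum]
    refine Finset.sum_congr rfl fun A hA => ?_
    have := (Finset.mem_filter.mp hA).2
    rw [prod_upd x hef, if_pos this.1, if_neg this.2, mul_one]
  have e01 : ∀ s t, Zs (T.filter (fun A => e ∉ A ∧ f ∈ A)) (upd x e f s t) = t * c := by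
    intro s t
    rw [hc, Zs, Finset.mul_sum]
    refine Finset.sum_congr rfl fun A hA => ?_
    have := (Finset.mem_filter.mp hA).2
    rw [prod_upd x hef, if_neg this.1, if_pos this.2, one_mul]
  have e00 : ∀ s t, Zs (T.filter (fun A => e ∉ A ∧ f ∉ A)) (upd x e f s t) = d := by
    intro s t
    rw [hd, Zs]
    refine Finset.sum_congr rfl fun A hA => ?_
    have := (Finset.mem_filter.mp hA).2
    rw [prod_upd x hef, if_neg this.1, if_neg this.2, one_mul, one_mul]
  have hall : ∀ s t, Zs T (upd x e f s t) = s * t * a + s * b + t * c + d := by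
    intro s t
    rw [Zs_split T _ e f, e11, e10, e01, e00]
  have hmain : a * d ≤ b * c := by
    by_cases hd1 : d = 0
    · rw [hd1, mul_zero]; positivity
    · have h2 := h x hx e f hef (by rw [hall]; simpa using hd1)
      simp only [hall] at h2
      nlinarith
  have hself := upd_self x hef
  have f11 := e11 (x e) (x f)
  have f10 := e10 (x e) (x f)
  have f01 := e01 (x e) (x f)
  have f00 := e00 (x e) (x f)
  rw [hself] at f11 f10 f01 f00
  rw [f11, f10, f01, f00]
  have := mul_le_mul_of_nonneg_left hmain (mul_nonneg (hx e) (hx f))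
  nlinarith

theorem trees_empty (G : SimpleGraph V) : trees G (∅ : Finset V) = ∅ := by
  unfold trees
  refine Finset.filter_eq_empty_iff.mpr ?_
  intro A _ hA
  obtain ⟨v⟩ := hA.2.connected.nonempty
  simpa using v.2

/-- **Rayleigh property** of spanning trees -/
theorem ray_trees (G : SimpleGraph V) (S : Finset V) : Ray (trees G S) := by
  rcases S.eq_empty_or_nonempty with rfl | ⟨r, hr⟩
  · rw [trees_empty]
    intro x _ e f _
    simp [Zs]
  apply ray_of_four
  intro x hx e f hef h0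
  have key : ∀ s t, (Matrix.of fun i j : {x // x ∈ S.erase r} =>
      ∑ g ∈ edgesIn G S, upd x e f s t g * binc ℝ S r g i * binc ℝ S r g j) =
      (Matrix.of fun i j : {x // x ∈ S.erase r} =>
        ∑ g ∈ edgesIn G S, upd x e f 0 0 g * binc ℝ S r g i * binc ℝ S r g j) +
      (if e ∈ edgesIn G S then s else 0) • vecMulVec (binc ℝ S r e) (binc ℝ S r e) +
      (if f ∈ edgesIn G S then t else 0) • vecMulVec (binc ℝ S r f) (binc ℝ S r f) := by
    intro s t
    ext i j
    simp only [Matrix.of_apply, Matrix.add_apply, Matrix.smul_apply, vecMulVec_apply, smul_eq_mul]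
    have h1 : ∀ g, upd x e f s t g * binc ℝ S r g i * binc ℝ S r g j =
        upd x e f 0 0 g * binc ℝ S r g i * binc ℝ S r g j +
        (if g = e then s * (binc ℝ S r e i * binc ℝ S r e j) else 0) +
        (if g = f then t * (binc ℝ S r f i * binc ℝ S r f j) else 0) := by
      intro g
      unfold upd
      by_cases h1 : g = e
      · subst h1
        simp [hef]; ring
      · by_cases h2 : g = f
        · subst h2
          simp [h1]; ring
        · simp [h1, h2]
    simp only [h1, Finset.sum_add_distrib, Finset.sum_ite_eq']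
    split_ifs <;> ring
  set M := (Matrix.of fun i j : {x // x ∈ S.erase r} =>
        ∑ g ∈ edgesIn G S, upd x e f 0 0 g * binc ℝ S r g i * binc ℝ S r g j) with hM
  have hMt : Mᵀ = M := by
    ext i j
    simp only [hM, Matrix.transpose_apply, Matrix.of_apply]
    exact Finset.sum_congr rfl fun g _ => by ring
  have hdet0 : M.det ≠ 0 := by
    rw [matrix_tree G S r hr] at h0
    exact h0
  have hz : Zs (trees G S) (upd x e f 0 0) = M.det := matrix_tree G S r hr _
  by_cases he : e ∈ edgesIn G S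
  · by_cases hf : f ∈ edgesIn G S
    · rw [hz, matrix_tree G S r hr, matrix_tree G S r hr, matrix_tree G S r hr, key 1 1, key 1 0, key 0 1]
      simp only [he, hf, if_true, one_smul, zero_smul, add_zero]
      exact det_rayleigh M hMt hdet0 _ _
    · rw [hz, matrix_tree G S r hr, matrix_tree G S r hr, matrix_tree G S r hr, key 1 1, key 1 0, key 0 1]
      simp only [he, hf, if_true, if_false, one_smul, zero_smul, add_zero, le_refl]
  · rw [hz, matrix_tree G S r hr, matrix_tree G S r hr, matrix_tree G S r hr, key 1 1, key 1 0, key 0 1]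
    have hff : (if f ∈ edgesIn G S then (0 : ℝ) else 0) = 0 := by split_ifs <;> rfl
    simp only [he, if_false, zero_smul, add_zero, hff]
    rw [mul_comm]


theorem lim_ineq {a1 a2 a3 a4 b1 b2 b3 b4 : ℝ}
    (h : ∀ s : ℝ, 0 ≤ s → (a1 + s * b1) * (a2 + s * b2) ≤ (a3 + s * b3) * (a4 + s * b4)) :
    b1 * b2 ≤ b3 * b4 := by
  by_contra hc
  push Not at hc
  set δ := b1 * b2 - b3 * b4 with hδ
  have hδ0 : 0 < δ := by linarith
  set L := a1 * b2 + a2 * b1 - a3 * b4 - a4 * b3 with hL
  set C := a1 * a2 - a3 * a4 with hC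
  set K := |L| + |C| + 1 with hK
  have hK0 : 0 < K := by positivity
  have hs0 : 0 < K / δ + 1 := by positivity
  set s := K / δ + 1 with hs
  have hs1 : 1 ≤ s := by
    have : 0 ≤ K / δ := by positivity
    linarith
  have h1 : C + L * s + δ * s ^ 2 ≤ 0 := by
    have := h s hs0.le
    rw [hC, hL, hδ]
    nlinarith
  have h2 : δ * s = K + δ := by
    rw [hs]; field_simp
  have h3 : K * s ≤ δ * s ^ 2 := by
    have : δ * s ^ 2 = (K + δ) * s := by rw [← h2]; ring
    rw [this]; nlinarith
  have h4 : 0 ≤ (L + |L|) * s := mul_nonneg (by linarith [neg_abs_le L]) hs0.le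
  have h5 : |C| ≤ |C| * s := le_mul_of_one_le_right (abs_nonneg C) hs1
  have h6 := neg_abs_le C
  have h7 : K * s = |L| * s + |C| * s + s := by rw [hK]; ring
  nlinarith

theorem prod_update {E : Type*} (x : E → ℝ) (g : E) (s : ℝ) (A : Finset E) :
    ∏ a ∈ A, (Function.update x g s) a = (if g ∈ A then s else 1) * ∏ a ∈ A.erase g, x a := by
  have h1 : ∏ a ∈ A.erase g, (Function.update x g s) a = ∏ a ∈ A.erase g, x a :=
    Finset.prod_congr rfl fun a ha => Function.update_of_ne (Finset.ne_of_mem_erase ha) _ _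
  by_cases hg : g ∈ A
  · rw [← Finset.mul_prod_erase A _ hg, h1, if_pos hg, Function.update_self]
  · rw [if_neg hg, one_mul, ← h1, Finset.erase_eq_of_notMem hg]

theorem Zs_update {E : Type*} (T : Finset (Finset E)) (x : E → ℝ) (g : E) (s : ℝ) :
    Zs T (Function.update x g s) = (∑ A ∈ T.filter (fun A => g ∉ A), ∏ a ∈ A.erase g, x a) +
      s * ∑ A ∈ T.filter (fun A => g ∈ A), ∏ a ∈ A.erase g, x a := by
  simp only [Zs, prod_update, Finset.sum_filter, Finset.mul_sum, ← Finset.sum_add_distrib]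
  refine Finset.sum_congr rfl fun A _ => ?_
  by_cases h : g ∈ A <;> simp [h]

theorem Zs_filter_mem {E : Type*} (T : Finset (Finset E)) (x : E → ℝ) (g : E) :
    Zs (T.filter (fun A => g ∈ A)) x = x g * ∑ A ∈ T.filter (fun A => g ∈ A), ∏ a ∈ A.erase g, x a := by
  rw [Zs, Finset.mul_sum]
  refine Finset.sum_congr rfl fun A hA => ?_
  rw [Finset.mul_prod_erase A _ (Finset.mem_filter.mp hA).2]

theorem Ray.filter_mem {E : Type*} {T : Finset (Finset E)} (hT : Ray T) (g : E) :
    Ray (T.filter (fun A => g ∈ A)) := by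
  intro x hx e f hef
  by_cases hge : g = e
  · subst hge
    have h0 : (T.filter (fun A => g ∈ A)).filter (fun A => g ∉ A ∧ f ∉ A) = ∅ := by
      apply Finset.filter_eq_empty_iff.mpr
      intro A hA h
      exact h.1 (Finset.mem_filter.mp hA).2
    rw [h0]
    simp only [Zs, Finset.sum_empty, mul_zero]
    exact mul_nonneg (Zs_nonneg _ x hx) (Zs_nonneg _ x hx)
  by_cases hgf : g = f
  · subst hgf
    have h0 : (T.filter (fun A => g ∈ A)).filter (fun A => e ∉ A ∧ g ∉ A) = ∅ := by
      apply Finset.filter_eq_empty_iff.mpr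
      intro A hA h
      exact h.2 (Finset.mem_filter.mp hA).2
    rw [h0]
    simp only [Zs, Finset.sum_empty, mul_zero]
    exact mul_nonneg (Zs_nonneg _ x hx) (Zs_nonneg _ x hx)
  have hcomm : ∀ (P : Finset E → Prop) [DecidablePred P], Zs ((T.filter (fun A => g ∈ A)).filter P) x =
      x g * ∑ A ∈ (T.filter P).filter (fun A => g ∈ A), ∏ a ∈ A.erase g, x a := by
    intro P _
    rw [Finset.filter_comm, Zs_filter_mem]
  rw [hcomm, hcomm, hcomm, hcomm]
  have hx' : ∀ s : ℝ, 0 ≤ s → ∀ a, 0 ≤ (Function.update x g s) a := by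
    intro s hs a
    by_cases h : a = g
    · subst h; simpa using hs
    · rw [Function.update_of_ne h]; exact hx a
  have hl := fun s (hs : (0 : ℝ) ≤ s) => hT (Function.update x g s) (hx' s hs) e f hef
  simp only [Zs_update] at hl
  have := lim_ineq hl
  have h2 := mul_le_mul_of_nonneg_left this (mul_nonneg (hx g) (hx g))
  nlinarith

theorem Ray.filter_superset {E : Type*} {T : Finset (Finset E)} (hT : Ray T) (F : Finset E) :
    Ray (T.filter (fun A => F ⊆ A)) := by
  induction F using Finset.induction_on with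
  | empty => simpa using hT
  | insert g F hg ih =>
    have : T.filter (fun A => insert g F ⊆ A) = (T.filter (fun A => F ⊆ A)).filter (fun A => g ∈ A) := by
      ext A
      simp only [Finset.mem_filter, Finset.insert_subset_iff]
      tauto
    rw [this]
    exact ih.filter_mem g

theorem Ray.neg_corr {E : Type*} {T : Finset (Finset E)} (hT : Ray T) (x : E → ℝ) (hx : ∀ e, 0 ≤ x e)
    (F : Finset E) (e : E) (he : e ∉ F) :
    Zs (T.filter (fun A => F ⊆ A ∧ e ∈ A)) x * Zs (T.filter (fun A => e ∉ A)) x ≤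
      Zs (T.filter (fun A => F ⊆ A ∧ e ∉ A)) x * Zs (T.filter (fun A => e ∈ A)) x := by
  induction F using Finset.induction_on with
  | empty => simp [mul_comm]
  | insert f F hf ih =>
    have hef : e ≠ f := fun h => he (h ▸ Finset.mem_insert_self _ _)
    have ih' := ih (fun h => he (Finset.mem_insert_of_mem h))
    have hray := hT.filter_superset F x hx e f hef
    set a := Zs (T.filter (fun A => insert f F ⊆ A ∧ e ∈ A)) x with ha
    set b := Zs (T.filter (fun A => insert f F ⊆ A ∧ e ∉ A)) x with hb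
    set c := Zs (T.filter (fun A => (F ⊆ A ∧ f ∉ A) ∧ e ∈ A)) x with hc
    set d := Zs (T.filter (fun A => (F ⊆ A ∧ f ∉ A) ∧ e ∉ A)) x with hd
    set p := Zs (T.filter (fun A => e ∈ A)) x with hp
    set q := Zs (T.filter (fun A => e ∉ A)) x with hq
    have e1 : Zs (T.filter (fun A => F ⊆ A ∧ e ∈ A)) x = a + c := by
      rw [ha, hc]
      simp only [Zs, Finset.sum_filter, ← Finset.sum_add_distrib]
      refine Finset.sum_congr rfl fun A _ => ?_
      by_cases h1 : f ∈ A <;> by_cases h2 : F ⊆ A <;> by_cases h3 : e ∈ A <;> simp [h1, h2, h3, Finset.insert_subset_iff]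
    have e2 : Zs (T.filter (fun A => F ⊆ A ∧ e ∉ A)) x = b + d := by
      rw [hb, hd]
      simp only [Zs, Finset.sum_filter, ← Finset.sum_add_distrib]
      refine Finset.sum_congr rfl fun A _ => ?_
      by_cases h1 : f ∈ A <;> by_cases h2 : F ⊆ A <;> by_cases h3 : e ∈ A <;> simp [h1, h2, h3, Finset.insert_subset_iff]
    have r1 : Zs ((T.filter (fun A => F ⊆ A)).filter (fun A => e ∈ A ∧ f ∈ A)) x = a := by
      rw [ha, Finset.filter_filter]
      congr 1; ext A; simp only [Finset.mem_filter, Finset.insert_subset_iff]; tauto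
    have r2 : Zs ((T.filter (fun A => F ⊆ A)).filter (fun A => e ∉ A ∧ f ∉ A)) x = d := by
      rw [hd, Finset.filter_filter]
      congr 1; ext A; simp only [Finset.mem_filter]; tauto
    have r3 : Zs ((T.filter (fun A => F ⊆ A)).filter (fun A => e ∈ A ∧ f ∉ A)) x = c := by
      rw [hc, Finset.filter_filter]
      congr 1; ext A; simp only [Finset.mem_filter]; tauto
    have r4 : Zs ((T.filter (fun A => F ⊆ A)).filter (fun A => e ∉ A ∧ f ∈ A)) x = b := by
      rw [hb, Finset.filter_filter]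
      congr 1; ext A; simp only [Finset.mem_filter, Finset.insert_subset_iff]; tauto
    rw [r1, r2, r3, r4] at hray
    rw [e1, e2] at ih'
    have ha0 : 0 ≤ a := Zs_nonneg _ x hx
    have hb0 : 0 ≤ b := Zs_nonneg _ x hx
    have hc0 : 0 ≤ c := Zs_nonneg _ x hx
    have hd0 : 0 ≤ d := Zs_nonneg _ x hx
    have hp0 : 0 ≤ p := Zs_nonneg _ x hx
    have hq0 : 0 ≤ q := Zs_nonneg _ x hx
    rcases (add_nonneg hb0 hd0).eq_or_lt with hz | hz
    · have hb1 : b = 0 := by linarith
      rw [← hz, zero_mul] at ih'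
      rw [hb1, zero_mul]
      nlinarith
    · have h1 : a * (b + d) ≤ b * (a + c) := by nlinarith
      have h2 : (b + d) * (a * q) ≤ (b + d) * (b * p) := by
        calc (b + d) * (a * q) = (a * (b + d)) * q := by ring
          _ ≤ (b * (a + c)) * q := mul_le_mul_of_nonneg_right h1 hq0
          _ = b * ((a + c) * q) := by ring
          _ ≤ b * ((b + d) * p) := mul_le_mul_of_nonneg_left ih' hb0
          _ = (b + d) * (b * p) := by ring
      exact le_of_mul_le_mul_left h2 hz


theorem CC.mono {S : Finset V} {A B : Finset (Sym2 V)} (hAB : A ⊆ B) (h : CC S A) : CC S B :=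
  fun P hP => h P fun u v huv => hP u v (hAB huv)

/-- edges of `H` are inside `S` and not loops -/
def Ins (S : Finset V) (H : Finset (Sym2 V)) : Prop := ∀ u v, s(u, v) ∈ H → (u ∈ S ∧ v ∈ S) ∧ u ≠ v

theorem ins_edgesIn (G : SimpleGraph V) (S : Finset V) : Ins S (edgesIn G S) := fun _ _ h =>
  ⟨(mem_edgesIn.mp h).1, (mem_edgesIn.mp h).2.ne⟩

theorem Ins.mono {S : Finset V} {A B : Finset (Sym2 V)} (hAB : A ⊆ B) (h : Ins S B) : Ins S A :=
  fun u v huv => h u v (hAB huv)

theorem exists_tree_of_CC {S : Finset V} {H : Finset (Sym2 V)} (hH : Ins S H) (hS : S.Nonempty)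
    (h : CC S H) : ∃ A ⊆ H, CC S A ∧ A.card + 1 = S.card := by
  have hc := (connected_iff_CC hH hS).mpr h
  set K := (SimpleGraph.fromEdgeSet (H : Set (Sym2 V))).induce (S : Set V) with hK
  have : Finite (S : Set V) := S.finite_toSet
  obtain ⟨T, hTK, hT⟩ := hc.exists_isTree_le
  let A : Finset (Sym2 V) := H.filter (fun e => e ∈ (Sym2.map (Subtype.val : {x // x ∈ (S : Set V)} → V)) '' T.edgeSet)
  have hAH : A ⊆ H := Finset.filter_subset _ _
  have hAI : Ins S A := hH.mono hAH
  have hadjK : ∀ u v : (S : Set V), K.Adj u v → s(u.1, v.1) ∈ H := by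
    intro u v huv
    have := (SimpleGraph.fromEdgeSet_adj _).mp huv
    exact_mod_cast this.1
  have hg : (SimpleGraph.fromEdgeSet (A : Set (Sym2 V))).induce (S : Set V) = T := by
    ext u v
    simp only [SimpleGraph.comap_adj, Function.Embedding.subtype_apply, SimpleGraph.fromEdgeSet_adj,
      Finset.mem_coe]
    constructor
    · rintro ⟨h1, h2⟩
      obtain ⟨e', he', he2⟩ := (Finset.mem_filter.mp h1).2
      have : e' = s(u, v) := by
        apply Sym2.map.injective Subtype.val_injective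
        rw [he2]; simp
      rw [this, SimpleGraph.mem_edgeSet] at he'
      exact he'
    · intro h1
      refine ⟨Finset.mem_filter.mpr ⟨hadjK u v (hTK h1), ⟨s(u, v), h1, by simp⟩⟩, ?_⟩
      intro h2
      exact h1.ne (Subtype.ext h2)
  refine ⟨A, hAH, (connected_iff_CC hAI hS).mp (hg ▸ hT.connected), ?_⟩
  have h3 := (SimpleGraph.isTree_iff_connected_and_card.mp hT).2
  rw [← card_edgeSet_induce hAI, hg, h3]
  simp

/-- trees inside `H` -/
noncomputable def treesH (S : Finset V) (H : Finset (Sym2 V)) : Finset (Finset (Sym2 V)) :=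
  H.powerset.filter (fun A => CC S A ∧ A.card + 1 = S.card)

theorem mem_treesH {S : Finset V} {H A : Finset (Sym2 V)} :
    A ∈ treesH S H ↔ A ⊆ H ∧ CC S A ∧ A.card + 1 = S.card := by
  simp [treesH, Finset.mem_filter, Finset.mem_powerset]

/-- number of trees inside `H` containing `F` -/
noncomputable def Nn (S : Finset V) (H F : Finset (Sym2 V)) : ℕ :=
  ((treesH S H).filter (fun A => F ⊆ A)).card

theorem Nn_pos {S : Finset V} {H : Finset (Sym2 V)} (hH : Ins S H) (hS : S.Nonempty)
    (h : CC S H) : 0 < Nn S H ∅ := by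
  obtain ⟨A, h1, h2, h3⟩ := exists_tree_of_CC hH hS h
  exact Finset.card_pos.mpr ⟨A, Finset.mem_filter.mpr ⟨mem_treesH.mpr ⟨h1, h2, h3⟩, Finset.empty_subset _⟩⟩

theorem mem_trees {G : SimpleGraph V} {S : Finset V} (hS : S.Nonempty) {A : Finset (Sym2 V)} :
    A ∈ trees G S ↔ A ⊆ edgesIn G S ∧ CC S A ∧ A.card + 1 = S.card := by
  rw [trees, Finset.mem_filter, isTree_iff hS, Finset.mem_powerset]
  tauto

theorem trees_eq {G : SimpleGraph V} {S : Finset V} (hS : S.Nonempty) : trees G S = treesH S (edgesIn G S) := by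
  ext A
  rw [mem_trees hS, mem_treesH]

theorem Zs_ind {G : SimpleGraph V} {S : Finset V} (hS : S.Nonempty) {H : Finset (Sym2 V)}
    (hH : H ⊆ edgesIn G S) (P : Finset (Sym2 V) → Prop) [DecidablePred P] :
    Zs ((trees G S).filter P) (fun e => if e ∈ H then 1 else 0) = (((treesH S H).filter P).card : ℝ) := by
  have h1 : (treesH S H).filter P = ((trees G S).filter P).filter (fun A => A ⊆ H) := by
    ext A
    simp only [Finset.mem_filter, mem_treesH, mem_trees hS]
    constructor
    · rintro ⟨⟨a, b, c⟩, d⟩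
      exact ⟨⟨⟨a.trans hH, b, c⟩, d⟩, a⟩
    · rintro ⟨⟨⟨a, b, c⟩, d⟩, e⟩
      exact ⟨⟨e, b, c⟩, d⟩
  rw [h1, Zs, Finset.card_filter, Nat.cast_sum]
  refine Finset.sum_congr rfl fun A _ => ?_
  by_cases h : A ⊆ H
  · rw [if_pos h, Finset.prod_congr rfl (fun e he => if_pos (h he))]
    simp
  · rw [if_neg h]
    obtain ⟨e, he1, he2⟩ := Finset.not_subset.mp h
    rw [Finset.prod_eq_zero he1 (if_neg he2)]
    simp

theorem D0 {G : SimpleGraph V} {S : Finset V} (hS : S.Nonempty) {H : Finset (Sym2 V)}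
    (hH : H ⊆ edgesIn G S) {F : Finset (Sym2 V)} {e : Sym2 V} (heF : e ∉ F) :
    Nn S H F * Nn S (H.erase e) ∅ ≤ Nn S (H.erase e) F * Nn S H ∅ := by
  have hx : ∀ g : Sym2 V, (0 : ℝ) ≤ (fun e => if e ∈ H then (1 : ℝ) else 0) g := by
    intro g; dsimp only; split_ifs <;> norm_num
  have h := (ray_trees G S).neg_corr _ hx F e heF
  rw [Zs_ind hS hH, Zs_ind hS hH, Zs_ind hS hH, Zs_ind hS hH] at h
  have h' : ((treesH S H).filter (fun A => F ⊆ A ∧ e ∈ A)).card * ((treesH S H).filter (fun A => e ∉ A)).card ≤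
      ((treesH S H).filter (fun A => F ⊆ A ∧ e ∉ A)).card * ((treesH S H).filter (fun A => e ∈ A)).card := by
    have h2 := h
    norm_cast at h2
    convert h2
  have hers : ∀ (F : Finset (Sym2 V)), (treesH S (H.erase e)).filter (fun A => F ⊆ A) =
      (treesH S H).filter (fun A => F ⊆ A ∧ e ∉ A) := by
    intro F
    ext A
    simp only [Finset.mem_filter, mem_treesH]
    constructor
    · rintro ⟨⟨a, b⟩, c⟩
      exact ⟨⟨a.trans (Finset.erase_subset _ _), b⟩, c, fun h => Finset.notMem_erase e H (a h)⟩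
    · rintro ⟨⟨a, b⟩, c, d⟩
      exact ⟨⟨fun g hg => Finset.mem_erase.mpr ⟨fun h => d (h ▸ hg), a hg⟩, b⟩, c⟩
  have hsplit : ∀ (F : Finset (Sym2 V)), Nn S H F =
      ((treesH S H).filter (fun A => F ⊆ A ∧ e ∈ A)).card + Nn S (H.erase e) F := by
    intro F
    rw [Nn, Nn, hers, ← Finset.filter_filter, ← Finset.filter_filter, Finset.card_filter_add_card_filter_not]
  have h1 : (treesH S H).filter (fun A => e ∉ A) = (treesH S (H.erase e)).filter (fun A => ∅ ⊆ A) := by
    rw [hers]; simp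
  have h2 : (treesH S H).filter (fun A => e ∈ A) = (treesH S H).filter (fun A => ∅ ⊆ A ∧ e ∈ A) := by
    simp
  rw [h1, h2, ← hers] at h'
  change _ * Nn S (H.erase e) ∅ ≤ Nn S (H.erase e) F * _ at h'
  rw [hsplit F, hsplit ∅]
  nlinarith

theorem D1 {G : SimpleGraph V} {S : Finset V} (hS : S.Nonempty) {H₁ F : Finset (Sym2 V)} (hF : F ⊆ H₁)
    (hcc : CC S H₁) (D : Finset (Sym2 V)) :
    Disjoint D H₁ → H₁ ∪ D ⊆ edgesIn G S →
      Nn S (H₁ ∪ D) F * Nn S H₁ ∅ ≤ Nn S H₁ F * Nn S (H₁ ∪ D) ∅ := by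
  induction D using Finset.induction_on with
  | empty => intro _ _; simp
  | insert e D he ih =>
    intro hd hsub
    have hd' : Disjoint D H₁ := Finset.disjoint_of_subset_left (Finset.subset_insert _ _) hd
    have heH : e ∉ H₁ := Finset.disjoint_left.mp hd (Finset.mem_insert_self _ _)
    have hsub' : H₁ ∪ D ⊆ edgesIn G S := (Finset.union_subset_union_right (Finset.subset_insert _ _)).trans hsub
    have ih' := ih hd' hsub'
    have hers : (H₁ ∪ insert e D).erase e = H₁ ∪ D := by
      ext g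
      simp only [Finset.mem_erase, Finset.mem_union, Finset.mem_insert]
      constructor
      · rintro ⟨h1, h2 | h2 | h2⟩
        · exact Or.inl h2
        · exact absurd h2 h1
        · exact Or.inr h2
      · rintro (h | h)
        · exact ⟨fun h2 => heH (h2 ▸ h), Or.inl h⟩
        · exact ⟨fun h2 => he (h2 ▸ h), Or.inr (Or.inr h)⟩
    have h0 := D0 hS hsub (F := F) (e := e) (fun h => heH (hF h))
    rw [hers] at h0
    have hpos : 0 < Nn S (H₁ ∪ D) ∅ := Nn_pos ((ins_edgesIn G S).mono hsub') hS (hcc.mono Finset.subset_union_left)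
    apply le_of_mul_le_mul_left _ hpos
    calc Nn S (H₁ ∪ D) ∅ * (Nn S (H₁ ∪ insert e D) F * Nn S H₁ ∅)
        = (Nn S (H₁ ∪ insert e D) F * Nn S (H₁ ∪ D) ∅) * Nn S H₁ ∅ := by ring
      _ ≤ (Nn S (H₁ ∪ D) F * Nn S (H₁ ∪ insert e D) ∅) * Nn S H₁ ∅ := Nat.mul_le_mul_right _ h0
      _ = (Nn S (H₁ ∪ D) F * Nn S H₁ ∅) * Nn S (H₁ ∪ insert e D) ∅ := by ring
      _ ≤ (Nn S H₁ F * Nn S (H₁ ∪ D) ∅) * Nn S (H₁ ∪ insert e D) ∅ := Nat.mul_le_mul_right _ ih'
      _ = _ := by ring

theorem D2 {S : Finset V} {H₀ : Finset (Sym2 V)} (hH : Ins S H₀) {u v : V} (hu : u ∈ S) (hv : v ∉ S)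
    {F : Finset (Sym2 V)} (hF : F ⊆ H₀) :
    Nn (insert v S) (insert s(u, v) H₀) F = Nn S H₀ F := by
  have hnotin : ∀ A ⊆ H₀, s(u, v) ∉ A := fun A hA h => hv (hH u v (hA h)).1.2
  have hvnot : ∀ A ⊆ H₀, ∀ a b, s(a, b) ∈ A → a ≠ v ∧ b ≠ v := by
    intro A hA a b hab
    have := (hH a b (hA hab)).1
    exact ⟨fun h => hv (h ▸ this.1), fun h => hv (h ▸ this.2)⟩
  symm
  unfold Nn
  refine Finset.card_nbij' (fun A => insert s(u, v) A) (fun A => A.erase s(u, v)) ?_ ?_ ?_ ?_
  · intro A hA
    simp only [Finset.coe_filter, mem_treesH, Set.mem_ofPred_eq] at hA ⊢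
    obtain ⟨⟨h1, h2, h3⟩, h4⟩ := hA
    refine ⟨⟨Finset.insert_subset_insert _ h1, ?_, ?_⟩, h4.trans (Finset.subset_insert _ _)⟩
    · intro P hP
      have hPS : ∀ a ∈ S, ∀ b ∈ S, (P a ↔ P b) := h2 P fun a b hab => hP a b (Finset.mem_insert_of_mem hab)
      have huv : P u ↔ P v := hP u v (Finset.mem_insert_self _ _)
      have hall : ∀ a ∈ insert v S, (P a ↔ P u) := by
        intro a ha
        rcases Finset.mem_insert.mp ha with rfl | ha
        · exact huv.symm
        · exact hPS a ha u hu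
      intro a ha b hb
      exact (hall a ha).trans (hall b hb).symm
    · rw [Finset.card_insert_of_notMem (hnotin A h1), Finset.card_insert_of_notMem hv, h3]
  · intro A hA
    simp only [Finset.coe_filter, mem_treesH, Set.mem_ofPred_eq] at hA ⊢
    obtain ⟨⟨h1, h2, h3⟩, h4⟩ := hA
    have hsub : A.erase s(u, v) ⊆ H₀ := by
      intro g hg
      have := h1 (Finset.mem_of_mem_erase hg)
      rcases Finset.mem_insert.mp this with h | h
      · exact absurd h (Finset.ne_of_mem_erase hg)
      · exact h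
    have hmem : s(u, v) ∈ A := by
      by_contra hn
      have hA0 : A ⊆ H₀ := by rwa [Finset.erase_eq_of_notMem hn] at hsub
      have := h2 (fun w => w = v) (fun a b hab => by
        have := hvnot A hA0 a b hab
        simp [this.1, this.2]) u (Finset.mem_insert_of_mem hu) v (Finset.mem_insert_self _ _)
      simp only [iff_true] at this
      exact hv (this ▸ hu)
    refine ⟨⟨hsub, ?_, ?_⟩, ?_⟩
    · intro P hP a ha b hb
      have hav : a ≠ v := fun h => hv (h ▸ ha)
      have hbv : b ≠ v := fun h => hv (h ▸ hb)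
      have huv : u ≠ v := fun h => hv (h ▸ hu)
      have := h2 (fun w => if w = v then P u else P w) (fun c d hcd => ?_) a
        (Finset.mem_insert_of_mem ha) b (Finset.mem_insert_of_mem hb)
      · simpa [hav, hbv] using this
      · by_cases hcase : s(c, d) = s(u, v)
        · rw [Sym2.eq_iff] at hcase
          rcases hcase with ⟨rfl, rfl⟩ | ⟨rfl, rfl⟩
          · simp
          · simp
        · have hcd' : s(c, d) ∈ A.erase s(u, v) := Finset.mem_erase.mpr ⟨hcase, hcd⟩
          have := hvnot _ hsub c d hcd'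
          simp only [this.1, this.2, if_false]
          exact hP c d hcd'
    · rw [Finset.card_erase_of_mem hmem]
      rw [Finset.card_insert_of_notMem hv] at h3
      have := Finset.card_pos.mpr ⟨_, hmem⟩
      omega
    · intro g hg
      exact Finset.mem_erase.mpr ⟨fun h => hnotin F hF (h ▸ hg), h4 hg⟩
  · intro A hA
    simp only [Finset.coe_filter, mem_treesH, Set.mem_ofPred_eq] at hA
    exact Finset.erase_insert (hnotin A hA.1.1)
  · intro A hA
    simp only [Finset.coe_filter, mem_treesH, Set.mem_ofPred_eq] at hA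
    obtain ⟨⟨h1, h2, h3⟩, h4⟩ := hA
    have hmem : s(u, v) ∈ A := by
      by_contra hn
      have hA0 : A ⊆ H₀ := by
        intro g hg
        rcases Finset.mem_insert.mp (h1 hg) with h | h
        · exact absurd (h ▸ hg) hn
        · exact h
      have := h2 (fun w => w = v) (fun a b hab => by
        have := hvnot A hA0 a b hab
        simp [this.1, this.2]) u (Finset.mem_insert_of_mem hu) v (Finset.mem_insert_self _ _)
      simp only [iff_true] at this
      exact hv (this ▸ hu)
    exact Finset.insert_erase hmem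

theorem edgesIn_mono (G : SimpleGraph V) {S S' : Finset V} (h : S ⊆ S') : edgesIn G S ⊆ edgesIn G S' := by
  intro e he
  induction e using Sym2.ind with
  | _ u v =>
    rw [mem_edgesIn] at he ⊢
    exact ⟨⟨h he.1.1, h he.1.2⟩, he.2⟩

theorem CC_insert {G : SimpleGraph V} {S : Finset V} {u v : V} (hu : u ∈ S) (h : CC S (edgesIn G S)) :
    CC (insert v S) (insert s(u, v) (edgesIn G S)) := by
  intro P hP
  have hPS : ∀ a ∈ S, ∀ b ∈ S, (P a ↔ P b) := h P fun a b hab => hP a b (Finset.mem_insert_of_mem hab)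
  have huv : P u ↔ P v := hP u v (Finset.mem_insert_self _ _)
  have hall : ∀ a ∈ insert v S, (P a ↔ P u) := by
    intro a ha
    rcases Finset.mem_insert.mp ha with rfl | ha
    · exact huv.symm
    · exact hPS a ha u hu
  intro a ha b hb
  exact (hall a ha).trans (hall b hb).symm

theorem D3 {G : SimpleGraph V} {S : Finset V} {u v : V} (hu : u ∈ S) (hv : v ∉ S) (huv : G.Adj u v)
    (h : CC S (edgesIn G S)) {F : Finset (Sym2 V)} (hF : F ⊆ edgesIn G S) :
    Nn (insert v S) (edgesIn G (insert v S)) F * Nn S (edgesIn G S) ∅ ≤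
      Nn S (edgesIn G S) F * Nn (insert v S) (edgesIn G (insert v S)) ∅ := by
  have hsub : insert s(u, v) (edgesIn G S) ⊆ edgesIn G (insert v S) := by
    apply Finset.insert_subset
    · rw [mem_edgesIn]
      exact ⟨⟨Finset.mem_insert_of_mem hu, Finset.mem_insert_self _ _⟩, huv⟩
    · exact edgesIn_mono G (Finset.subset_insert _ _)
  have h1 := D1 (G := G) (S := insert v S) (H₁ := insert s(u, v) (edgesIn G S)) (F := F)
    ⟨v, Finset.mem_insert_self _ _⟩ (hF.trans (Finset.subset_insert _ _)) (CC_insert hu h)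
    (edgesIn G (insert v S) \ insert s(u, v) (edgesIn G S)) Finset.sdiff_disjoint
    (by rw [Finset.union_sdiff_of_subset hsub])
  rw [Finset.union_sdiff_of_subset hsub, D2 (ins_edgesIn G S) hu hv hF,
    D2 (ins_edgesIn G S) hu hv (Finset.empty_subset _)] at h1
  exact h1

theorem D4 {G : SimpleGraph V} {S' : Finset V} (h' : CC S' (edgesIn G S')) {F : Finset (Sym2 V)} (n : ℕ) :
    ∀ S : Finset V, S.Nonempty → S ⊆ S' → (S' \ S).card = n → CC S (edgesIn G S) → F ⊆ edgesIn G S →
      Nn S' (edgesIn G S') F * Nn S (edgesIn G S) ∅ ≤ Nn S (edgesIn G S) F * Nn S' (edgesIn G S') ∅ := by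
  induction n with
  | zero =>
    intro S hne hSS hn _ _
    have : S = S' := Finset.Subset.antisymm hSS (by
      rw [← Finset.sdiff_eq_empty_iff_subset]; exact Finset.card_eq_zero.mp hn)
    subst this
    rfl
  | succ n ih =>
    intro S hne hSS hn hcc hF
    obtain ⟨w, hw⟩ : (S' \ S).Nonempty := Finset.card_pos.mp (by omega)
    have hex : ∃ u v, u ∈ S ∧ v ∉ S ∧ v ∈ S' ∧ G.Adj u v := by
      by_contra hcon
      push Not at hcon
      obtain ⟨r, hr⟩ := hne
      have := h' (fun x => x ∈ S) (fun a b hab => by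
        rw [mem_edgesIn] at hab
        constructor
        · intro ha
          by_contra hb
          exact hcon a b ha hb hab.1.2 hab.2
        · intro hb
          by_contra ha
          exact hcon b a hb ha hab.1.1 hab.2.symm) r (hSS hr) w (Finset.mem_sdiff.mp hw).1
      exact (Finset.mem_sdiff.mp hw).2 (this.mp hr)
    obtain ⟨u, v, hu, hv, hvS', huv⟩ := hex
    have hcc1 : CC (insert v S) (edgesIn G (insert v S)) := by
      refine (CC_insert (v := v) hu hcc).mono ?_
      apply Finset.insert_subset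
      · rw [mem_edgesIn]
        exact ⟨⟨Finset.mem_insert_of_mem hu, Finset.mem_insert_self _ _⟩, huv⟩
      · exact edgesIn_mono G (Finset.subset_insert _ _)
    have hsub1 : insert v S ⊆ S' := Finset.insert_subset hvS' hSS
    have hcard : (S' \ insert v S).card = n := by
      rw [Finset.sdiff_insert, Finset.card_erase_of_mem (Finset.mem_sdiff.mpr ⟨hvS', hv⟩), hn]
      rfl
    have i1 := ih (insert v S) ⟨v, Finset.mem_insert_self _ _⟩ hsub1 hcard hcc1
      (hF.trans (edgesIn_mono G (Finset.subset_insert _ _)))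
    have i2 := D3 hu hv huv hcc hF
    have hpos : 0 < Nn (insert v S) (edgesIn G (insert v S)) ∅ :=
      Nn_pos (ins_edgesIn G _) ⟨v, Finset.mem_insert_self _ _⟩ hcc1
    apply le_of_mul_le_mul_left _ hpos
    set a := Nn S' (edgesIn G S') F
    set b := Nn S (edgesIn G S) ∅
    set c := Nn S (edgesIn G S) F
    set d := Nn S' (edgesIn G S') ∅
    set p := Nn (insert v S) (edgesIn G (insert v S)) ∅
    set q := Nn (insert v S) (edgesIn G (insert v S)) F
    calc p * (a * b) = (a * p) * b := by ring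
      _ ≤ (q * d) * b := Nat.mul_le_mul_right _ i1
      _ = (q * b) * d := by ring
      _ ≤ (c * p) * d := Nat.mul_le_mul_right _ i2
      _ = p * (c * d) := by ring

theorem CC_of_connected {G : SimpleGraph V} {S : Finset V} (h : (G.induce (S : Set V)).Connected) :
    S.Nonempty ∧ CC S (edgesIn G S) := by
  obtain ⟨⟨v, hv⟩⟩ := h.nonempty
  have hne : S.Nonempty := ⟨v, hv⟩
  refine ⟨hne, (connected_iff_CC (ins_edgesIn G S) hne).mp ?_⟩
  convert h using 1
  ext a b
  simp only [SimpleGraph.comap_adj, Function.Embedding.subtype_apply, SimpleGraph.fromEdgeSet_adj,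
      Finset.mem_coe, mem_edgesIn]
  constructor
  · rintro ⟨⟨_, h1⟩, _⟩; exact h1
  · intro h1
    exact ⟨⟨⟨a.2, b.2⟩, h1⟩, h1.ne⟩

theorem ustContains_eq {G : SimpleGraph V} {S : Finset V} (hS : S.Nonempty) (F : Finset (Sym2 V)) :
    ustContains G S F = (Nn S (edgesIn G S) F : ℝ) / (Nn S (edgesIn G S) ∅ : ℝ) := by
  unfold ustContains Nn
  rw [← trees_eq hS]
  unfold trees
  congr 2
  · congr 1
    ext A
    simp only [Finset.mem_filter]
    tauto
  · congr 1
    ext A
    simp only [Finset.mem_filter]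
    simp

end Graph
end Crest.Agent.USTR

namespace Crest.Agent.UST
open Crest.ProbabilityR.SpanningTrees Crest.Agent.USTR
variable {V : Type*} {G : SimpleGraph V} {S : Finset V}

open Classical in
/-- weighted sum over the spanning trees containing `B` -/
noncomputable def treeSum (G : SimpleGraph V) (S : Finset V) (w : Sym2 V → ℝ) (B : Finset (Sym2 V)) : ℝ :=
  ∑ A ∈ (edgesIn G S).powerset.filter (fun A => IsSpanningTreeOn G S A ∧ B ⊆ A), ∏ e ∈ A, w e

theorem treeSum_eq (w : Sym2 V → ℝ) (B : Finset (Sym2 V)) :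
    treeSum G S w B = Zs ((trees G S).filter (fun A => B ⊆ A)) w := by
  unfold treeSum Zs trees
  rw [Finset.filter_filter]

theorem treeSum_rayleigh' (w : Sym2 V → ℝ) (hw : ∀ e, 0 ≤ w e) (e f : Sym2 V) (hef : e ≠ f) :
    treeSum G S w {e, f} * treeSum G S w ∅ ≤ treeSum G S w {e} * treeSum G S w {f} := by
  have h : Zs ((trees G S).filter (fun A => e ∈ A ∧ f ∈ A)) w * Zs ((trees G S).filter (fun A => e ∉ A ∧ f ∉ A)) w ≤
      Zs ((trees G S).filter (fun A => e ∈ A ∧ f ∉ A)) w * Zs ((trees G S).filter (fun A => e ∉ A ∧ f ∈ A)) w := by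
    convert ray_trees G S w hw e f hef
  have hsp : Zs (trees G S) w = Zs ((trees G S).filter (fun A => e ∈ A ∧ f ∈ A)) w + Zs ((trees G S).filter (fun A => e ∈ A ∧ f ∉ A)) w +
      Zs ((trees G S).filter (fun A => e ∉ A ∧ f ∈ A)) w + Zs ((trees G S).filter (fun A => e ∉ A ∧ f ∉ A)) w := by
    convert Zs_split (trees G S) w e f
  simp only [treeSum_eq]
  have h0 : Zs ((trees G S).filter (fun A => (∅ : Finset (Sym2 V)) ⊆ A)) w = Zs (trees G S) w := by simp
  have h1 : Zs ((trees G S).filter (fun A => ({e, f} : Finset (Sym2 V)) ⊆ A)) w =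
      Zs ((trees G S).filter (fun A => e ∈ A ∧ f ∈ A)) w := by
    congr 1; ext A; simp only [Finset.mem_filter, Finset.insert_subset_iff, Finset.singleton_subset_iff]
  have h2 : Zs ((trees G S).filter (fun A => ({e} : Finset (Sym2 V)) ⊆ A)) w =
      Zs ((trees G S).filter (fun A => e ∈ A ∧ f ∈ A)) w + Zs ((trees G S).filter (fun A => e ∈ A ∧ f ∉ A)) w := by
    simp only [Zs, Finset.sum_filter, ← Finset.sum_add_distrib, Finset.singleton_subset_iff]
    refine Finset.sum_congr rfl fun A _ => ?_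
    by_cases h1 : e ∈ A <;> by_cases h2 : f ∈ A <;> simp [h1, h2]
  have h3 : Zs ((trees G S).filter (fun A => ({f} : Finset (Sym2 V)) ⊆ A)) w =
      Zs ((trees G S).filter (fun A => e ∈ A ∧ f ∈ A)) w + Zs ((trees G S).filter (fun A => e ∉ A ∧ f ∈ A)) w := by
    simp only [Zs, Finset.sum_filter, ← Finset.sum_add_distrib, Finset.singleton_subset_iff]
    refine Finset.sum_congr rfl fun A _ => ?_
    by_cases h1 : e ∈ A <;> by_cases h2 : f ∈ A <;> simp [h1, h2]
  rw [h0, h1, h2, h3, hsp]
  nlinarith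

theorem treeSum_rayleigh (_hS : (G.induce (S : Set V)).Connected) (w : Sym2 V → ℝ) (hw : ∀ e, 0 < w e)
    (e f : Sym2 V) (hef : e ≠ f) :
    treeSum G S w {e, f} * treeSum G S w ∅ ≤ treeSum G S w {e} * treeSum G S w {f} :=
  treeSum_rayleigh' w (fun e => (hw e).le) e f hef

theorem exists_spanningTree (hS : (G.induce (S : Set V)).Connected) : ∃ A, IsSpanningTreeOn G S A := by
  obtain ⟨hne, hcc⟩ := CC_of_connected hS
  obtain ⟨A, h1, h2, h3⟩ := exists_tree_of_CC (ins_edgesIn G S) hne hcc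
  exact ⟨A, (isTree_iff hne).mpr ⟨h1, h2, h3⟩⟩

theorem card_of_isSpanningTreeOn {A : Finset (Sym2 V)} (h : IsSpanningTreeOn G S A) : A.card + 1 = S.card := by
  obtain ⟨⟨v, hv⟩⟩ := h.2.connected.nonempty
  exact ((isTree_iff ⟨v, hv⟩).mp h).2.2

theorem ustContains_anti {S S' : Finset V} (hSS : S ⊆ S') (hS : (G.induce (S : Set V)).Connected)
    (hS' : (G.induce (S' : Set V)).Connected) (F : Finset (Sym2 V)) (hF : F ⊆ edgesIn G S) :
    ustContains G S' F ≤ ustContains G S F := by
  obtain ⟨hne, hcc⟩ := CC_of_connected hS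
  obtain ⟨hne', hcc'⟩ := CC_of_connected hS'
  have h := D4 (F := F) hcc' _ S hne hSS rfl hcc hF
  have hp := Nn_pos (ins_edgesIn G S) hne hcc
  have hp' := Nn_pos (ins_edgesIn G S') hne' hcc'
  rw [ustContains_eq hne, ustContains_eq hne']
  rw [div_le_div_iff₀ (by exact_mod_cast hp') (by exact_mod_cast hp)]
  exact_mod_cast h

end Crest.Agent.UST
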