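import Crest.Agent.FUSFDef
import Crest.Agent.FIIDLaw
import Crest.Agent.USTRayleigh

set_option autoImplicit false

namespace Crest.Agent.FUSF

open Set Filter MeasureTheory Topology
open Crest.ProbabilityR.SpanningTrees
open Crest.Agent.FIID Crest.Agent.UST

/-! ### Limits of spanning tree probabilities -/

lemma ustContains_nonneg (G : SimpleGraph ℕ) (S : Finset ℕ) (F : Finset (Sym2 ℕ)) :
    0 ≤ ustContains G S F := by
  unfold ustContains
  positivity

lemma ustContains_le_one (G : SimpleGraph ℕ) (S : Finset ℕ) (F : Finset (Sym2 ℕ)) :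
    ustContains G S F ≤ 1 := by
  classical
  unfold ustContains
  refine div_le_one_of_le₀ ?_ (Nat.cast_nonneg _)
  refine Nat.cast_le.2 (Finset.card_le_card ?_)
  intro A hA
  simp only [Finset.mem_filter] at hA ⊢
  exact ⟨hA.1, hA.2.1⟩

lemma fusfP_bdd (G : SimpleGraph ℕ) (F : Finset (Sym2 ℕ)) [∀ S : Finset ℕ,
    Decidable ((G.induce (S : Set ℕ)).Connected ∧ F ⊆ edgesIn G S)] :
    BddBelow (range fun S : Finset ℕ =>
      if (G.induce (S : Set ℕ)).Connected ∧ F ⊆ edgesIn G S then ustContains G S F else 1) := by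
  refine ⟨0, ?_⟩
  rintro _ ⟨S, rfl⟩
  simp only
  split_ifs
  · exact ustContains_nonneg _ _ _
  · exact zero_le_one

lemma eventually_subset {S : ℕ → Finset ℕ} (hmono : Monotone S) (hex : ∀ v, ∃ n, v ∈ S n)
    (T : Finset ℕ) : ∀ᶠ n in atTop, T ⊆ S n := by
  classical
  choose k hk using hex
  filter_upwards [eventually_ge_atTop (T.sup k)] with n hn v hv
  exact hmono ((Finset.le_sup hv).trans hn) (hk v)

lemma eventually_edges {G : SimpleGraph ℕ} {S : ℕ → Finset ℕ} (hmono : Monotone S)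
    (hex : ∀ v, ∃ n, v ∈ S n) (F : Finset (Sym2 ℕ)) (hF : (F : Set (Sym2 ℕ)) ⊆ G.edgeSet) :
    ∀ᶠ n in atTop, F ⊆ edgesIn G (S n) := by
  classical
  have h1 : ∀ e : Sym2 ℕ, ∃ T : Finset ℕ, e ∈ T.sym2 := by
    intro e
    induction e using Sym2.ind with
    | _ u v => exact ⟨{u, v}, by simp⟩
  choose T hT using h1
  filter_upwards [eventually_subset hmono hex (F.biUnion T)] with n hn e he
  unfold edgesIn
  rw [Finset.mem_filter]
  refine ⟨?_, hF (Finset.mem_coe.2 he)⟩
  exact Finset.sym2_mono ((Finset.subset_biUnion_of_mem T he).trans hn) (hT e)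

theorem tendsto_fusfP (G : SimpleGraph ℕ) (S : ℕ → Finset ℕ) (hmono : Monotone S)
    (hex : ∀ v, ∃ n, v ∈ S n) (hc : ∀ n, (G.induce (S n : Set ℕ)).Connected)
    (F : Finset (Sym2 ℕ)) (hF : (F : Set (Sym2 ℕ)) ⊆ G.edgeSet) :
    Tendsto (fun n => ustContains G (S n) F) atTop (𝓝 (fusfP G F)) := by
  classical
  rw [tendsto_order]
  constructor
  · intro b hb
    filter_upwards [eventually_edges hmono hex F hF] with n hn
    refine hb.trans_le ?_
    unfold fusfP
    refine (ciInf_le (fusfP_bdd G F) (S n)).trans ?_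
    rw [if_pos ⟨hc n, hn⟩]
  · intro b hb
    unfold fusfP at hb
    obtain ⟨T, hT⟩ := exists_lt_of_ciInf_lt hb
    by_cases h : (G.induce (T : Set ℕ)).Connected ∧ F ⊆ edgesIn G T
    · rw [if_pos h] at hT
      filter_upwards [eventually_subset hmono hex T] with n hn
      exact (ustContains_anti hn h.1 (hc n) F h.2).trans_lt hT
    · rw [if_neg h] at hT
      exact Eventually.of_forall fun n => (ustContains_le_one _ _ _).trans_lt hT

/-! ### Lipschitz property of weighted spanning trees -/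

section Lip

open scoped Classical

variable {V : Type*} {G : SimpleGraph V} {S : Finset V}

lemma treeSum_nonneg {w : Sym2 V → ℝ} (hw : ∀ e, 0 < w e) (B : Finset (Sym2 V)) :
    0 ≤ treeSum G S w B := by
  unfold treeSum
  exact Finset.sum_nonneg fun A _ => Finset.prod_nonneg fun e _ => (hw e).le

lemma treeSum_pos (hS : (G.induce (S : Set V)).Connected) {w : Sym2 V → ℝ}
    (hw : ∀ e, 0 < w e) : 0 < treeSum G S w ∅ := by
  unfold treeSum
  obtain ⟨A, hA⟩ := exists_spanningTree hS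
  refine Finset.sum_pos (fun A _ => Finset.prod_pos fun e _ => hw e) ⟨A, ?_⟩
  rw [Finset.mem_filter, Finset.mem_powerset]
  exact ⟨hA.1, hA, Finset.empty_subset _⟩

lemma treeSum_anti {w : Sym2 V → ℝ} (hw : ∀ e, 0 < w e) {B B' : Finset (Sym2 V)} (h : B ⊆ B') :
    treeSum G S w B' ≤ treeSum G S w B := by
  unfold treeSum
  refine Finset.sum_le_sum_of_subset_of_nonneg ?_
    (fun A _ _ => Finset.prod_nonneg fun e _ => (hw e).le)
  intro A hA
  rw [Finset.mem_filter] at hA ⊢
  exact ⟨hA.1, hA.2.1, h.trans hA.2.2⟩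

lemma treeSum_update (w : Sym2 V → ℝ) (f : Sym2 V) (r : ℝ) (B : Finset (Sym2 V)) :
    treeSum G S (Function.update w f (r * w f)) B =
      treeSum G S w B + (r - 1) * treeSum G S w (insert f B) := by
  unfold treeSum
  have h1 : (edgesIn G S).powerset.filter (fun A => IsSpanningTreeOn G S A ∧ insert f B ⊆ A) =
      ((edgesIn G S).powerset.filter (fun A => IsSpanningTreeOn G S A ∧ B ⊆ A)).filter
        (fun A => f ∈ A) := by
    ext A
    simp only [Finset.mem_filter, Finset.insert_subset_iff]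
    tauto
  rw [h1, Finset.sum_filter (fun A => f ∈ A), Finset.mul_sum, ← Finset.sum_add_distrib]
  refine Finset.sum_congr rfl fun A _ => ?_
  by_cases hf : f ∈ A
  · rw [if_pos hf, ← Finset.mul_prod_erase A _ hf, ← Finset.mul_prod_erase A w hf,
      Function.update_self]
    have : ∏ x ∈ A.erase f, Function.update w f (r * w f) x = ∏ x ∈ A.erase f, w x :=
      Finset.prod_congr rfl fun x hx => by
        rw [Function.update_of_ne (Finset.ne_of_mem_erase hx)]
    rw [this]; ring
  · rw [if_neg hf, mul_zero, add_zero]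
    refine Finset.prod_congr rfl fun x hx => ?_
    have hxf : x ≠ f := by rintro rfl; exact hf hx
    rw [Function.update_of_ne hxf]

lemma treeSum_smul (w : Sym2 V → ℝ) (c : ℝ) (B : Finset (Sym2 V)) :
    treeSum G S (fun e => c * w e) B = c ^ (S.card - 1) * treeSum G S w B := by
  unfold treeSum
  rw [Finset.mul_sum]
  refine Finset.sum_congr rfl fun A hA => ?_
  rw [Finset.mem_filter] at hA
  have := card_of_isSpanningTreeOn hA.2.1
  rw [Finset.prod_mul_distrib, Finset.prod_const, ← this, Nat.add_sub_cancel]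

lemma treeSum_congr {w w' : Sym2 V → ℝ} (h : ∀ e ∈ edgesIn G S, w e = w' e)
    (B : Finset (Sym2 V)) : treeSum G S w B = treeSum G S w' B := by
  unfold treeSum
  refine Finset.sum_congr rfl fun A hA => Finset.prod_congr rfl fun e he => h e ?_
  rw [Finset.mem_filter, Finset.mem_powerset] at hA
  exact hA.1 he

variable (G S) in
/-- probability that the weighted spanning tree contains `e` -/
noncomputable def tp (w : Sym2 V → ℝ) (e : Sym2 V) : ℝ := treeSum G S w {e} / treeSum G S w ∅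

lemma tp_nonneg {w : Sym2 V → ℝ} (hw : ∀ e, 0 < w e) (e : Sym2 V) : 0 ≤ tp G S w e :=
  div_nonneg (treeSum_nonneg hw _) (treeSum_nonneg hw _)

lemma tp_le_one {w : Sym2 V → ℝ} (hw : ∀ e, 0 < w e) (e : Sym2 V) : tp G S w e ≤ 1 :=
  div_le_one_of_le₀ (treeSum_anti hw (Finset.empty_subset _)) (treeSum_nonneg hw _)

lemma update_pos {w : Sym2 V → ℝ} (hw : ∀ e, 0 < w e) (f : Sym2 V) {r : ℝ} (hr : 0 < r) :
    ∀ e, 0 < Function.update w f (r * w f) e := by
  intro e
  by_cases h : e = f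
  · subst h; rw [Function.update_self]; exact mul_pos hr (hw _)
  · rw [Function.update_of_ne h]; exact hw _

lemma tp_update_le (hS : (G.induce (S : Set V)).Connected) {w : Sym2 V → ℝ}
    (hw : ∀ e, 0 < w e) {e f : Sym2 V} (hef : e ≠ f) {r : ℝ} (hr : 1 ≤ r) :
    tp G S (Function.update w f (r * w f)) e ≤ tp G S w e := by
  unfold tp
  rw [div_le_div_iff₀ (treeSum_pos hS (update_pos hw f (zero_lt_one.trans_le hr)))
    (treeSum_pos hS hw), treeSum_update, treeSum_update]
  have h := treeSum_rayleigh' (G := G) (S := S) w (fun e => (hw e).le) e f hef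
  rw [Finset.pair_comm] at h
  rw [insert_empty_eq]
  nlinarith [mul_le_mul_of_nonneg_left h (sub_nonneg.2 hr)]

lemma tp_update_self (hS : (G.induce (S : Set V)).Connected) {w : Sym2 V → ℝ}
    (hw : ∀ e, 0 < w e) {e : Sym2 V} {r c : ℝ} (hc : 0 < c) (hc1 : c ≤ 1) (hr : c ≤ r) :
    c * tp G S w e ≤ tp G S (Function.update w e (r * w e)) e := by
  unfold tp
  rw [← mul_div_assoc, div_le_div_iff₀ (treeSum_pos hS hw)
    (treeSum_pos hS (update_pos hw e (hc.trans_le hr))), treeSum_update, treeSum_update]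
  rw [Finset.insert_eq_of_mem (Finset.mem_singleton_self e), insert_empty_eq]
  have h1 := treeSum_anti (G := G) (S := S) hw (Finset.empty_subset {e})
  have h2 := treeSum_nonneg (G := G) (S := S) hw {e}
  set a := treeSum G S w {e}
  set z := treeSum G S w ∅
  have h3 : c * a * (z + (r - 1) * a) = (c * (z - a) + c * r * a) * a := by ring
  have h4 : (a + (r - 1) * a) * z = (r * (z - a) + r * a) * a := by ring
  rw [h3, h4]
  refine mul_le_mul_of_nonneg_right ?_ h2
  have h5 : c * (z - a) ≤ r * (z - a) := mul_le_mul_of_nonneg_right hr (sub_nonneg.2 h1)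
  have h6 : c * r * a ≤ r * a := by
    have : c * r ≤ 1 * r := mul_le_mul_of_nonneg_right hc1 (hc.le.trans hr)
    nlinarith
  linarith

lemma tp_mono_aux (hS : (G.induce (S : Set V)).Connected) {w w' : Sym2 V → ℝ}
    (hw : ∀ e, 0 < w e) (hle : ∀ e, w e ≤ w' e) {e : Sym2 V} (D : Finset (Sym2 V)) :
    e ∉ D → tp G S (fun f => if f ∈ D then w' f else w f) e ≤ tp G S w e := by
  induction D using Finset.induction_on with
  | empty => intro _; simp
  | insert f D hf ih =>
    intro he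
    have hef : e ≠ f := fun h => he (h ▸ Finset.mem_insert_self _ _)
    refine le_trans ?_ (ih fun h => he (Finset.mem_insert_of_mem h))
    have h1 : (fun g => if g ∈ insert f D then w' g else w g) =
        Function.update (fun g => if g ∈ D then w' g else w g) f
          ((w' f / w f) * (fun g => if g ∈ D then w' g else w g) f) := by
      funext g
      by_cases hg : g = f
      · subst hg
        rw [Function.update_self]
        simp only [Finset.mem_insert_self, if_true, hf, if_false]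
        rw [div_mul_cancel₀ _ (hw g).ne']
      · rw [Function.update_of_ne hg]
        simp [Finset.mem_insert, hg]
    rw [h1]
    refine tp_update_le hS ?_ hef ?_
    · intro g
      split_ifs
      · exact (hw g).trans_le (hle g)
      · exact hw g
    · rw [le_div_iff₀ (hw f), one_mul]; exact hle f

lemma tp_mono (hS : (G.induce (S : Set V)).Connected) {w w' : Sym2 V → ℝ}
    (hw : ∀ e, 0 < w e) (hle : ∀ e, w e ≤ w' e) {e : Sym2 V} (he : w e = w' e) :
    tp G S w' e ≤ tp G S w e := by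
  have h := tp_mono_aux hS hw hle (e := e) ((edgesIn G S).erase e) (Finset.notMem_erase _ _)
  have h2 : ∀ g ∈ edgesIn G S, w' g =
      (fun f => if f ∈ (edgesIn G S).erase e then w' f else w f) g := by
    intro g hg
    simp only [Finset.mem_erase]
    by_cases hge : g = e
    · subst hge; simp [he]
    · simp [hge, hg]
  unfold tp at h ⊢
  rw [treeSum_congr h2 {e}, treeSum_congr h2 ∅]
  exact h

lemma tp_smul (hS : (G.induce (S : Set V)).Connected) {w : Sym2 V → ℝ} (hw : ∀ e, 0 < w e)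
    {c : ℝ} (hc : 0 < c) (e : Sym2 V) : tp G S (fun f => c * w f) e = tp G S w e := by
  unfold tp
  rw [treeSum_smul, treeSum_smul]
  have h1 : c ^ (S.card - 1) ≠ 0 := (pow_pos hc _).ne'
  have h2 := (treeSum_pos hS hw).ne'
  field_simp

lemma tp_ratio (hS : (G.induce (S : Set V)).Connected) {w w' : Sym2 V → ℝ}
    (hw : ∀ e, 0 < w e) (hw' : ∀ e, 0 < w' e) {δ : ℝ} (hδ : 0 ≤ δ)
    (h1 : ∀ f, Real.exp (-δ) * w f ≤ w' f) (h2 : ∀ f, w' f ≤ Real.exp δ * w f) (e : Sym2 V) :
    Real.exp (-(2 * δ)) * tp G S w e ≤ tp G S w' e := by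
  set u : Sym2 V → ℝ := fun f => Real.exp δ * w f with hu
  have hupos : ∀ f, 0 < u f := fun f => mul_pos (Real.exp_pos _) (hw f)
  have h3 : Real.exp (-(2 * δ)) * tp G S u e ≤
      tp G S (Function.update u e ((w' e / u e) * u e)) e := by
    refine tp_update_self hS hupos (Real.exp_pos _) (Real.exp_le_one_iff.2 (by linarith)) ?_
    rw [le_div_iff₀ (hupos e)]
    refine le_trans (le_of_eq ?_) (h1 e)
    simp only [hu]
    rw [← mul_assoc, ← Real.exp_add]
    congr 2; ring
  rw [div_mul_cancel₀ _ (hupos e).ne'] at h3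
  have h4 : tp G S (Function.update u e (w' e)) e ≤ tp G S w' e := by
    refine tp_mono hS hw' (fun f => ?_) ?_
    · by_cases hf : f = e
      · subst hf; rw [Function.update_self]
      · rw [Function.update_of_ne hf]; exact h2 f
    · rw [Function.update_self]
  have h5 : tp G S u e = tp G S w e := tp_smul hS hw (Real.exp_pos _) e
  rw [h5] at h3
  exact h3.trans h4

lemma tp_lip (hS : (G.induce (S : Set V)).Connected) {w w' : Sym2 V → ℝ}
    (hw : ∀ e, 0 < w e) (hw' : ∀ e, 0 < w' e) {δ : ℝ} (hδ : 0 ≤ δ)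
    (h1 : ∀ f, Real.exp (-δ) * w f ≤ w' f) (h2 : ∀ f, w' f ≤ Real.exp δ * w f) (e : Sym2 V) :
    |tp G S w e - tp G S w' e| ≤ 2 * δ := by
  have ha := tp_ratio hS hw hw' hδ h1 h2 e
  have hb := tp_ratio hS hw' hw hδ (w := w') (w' := w) (fun f => by
    have := h2 f
    rw [Real.exp_neg, inv_mul_le_iff₀ (Real.exp_pos _)]; exact this) (fun f => by
    have := h1 f
    rw [Real.exp_neg, inv_mul_le_iff₀ (Real.exp_pos _)] at this; exact this) e
  have hc : 1 - 2 * δ ≤ Real.exp (-(2 * δ)) := by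
    have := Real.add_one_le_exp (-(2 * δ)); linarith
  have h3 := tp_nonneg (G := G) (S := S) hw e
  have h4 := tp_le_one (G := G) (S := S) hw e
  have h5 := tp_nonneg (G := G) (S := S) hw' e
  have h6 := tp_le_one (G := G) (S := S) hw' e
  rw [abs_le]
  constructor
  · nlinarith
  · nlinarith

end Lip

/-! ### Finite-volume measures and their limit -/

section Meas

variable (G : SimpleGraph ℕ) (S : Finset ℕ)

open Classical in
/-- configuration of an edge set -/
noncomputable def chi (A : Finset (Sym2 ℕ)) : Sym2 ℕ → Bool := fun e => decide (e ∈ A)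

open Classical in
/-- spanning trees -/
noncomputable def treesF : Finset (Finset (Sym2 ℕ)) :=
  (edgesIn G S).powerset.filter (fun A => IsSpanningTreeOn G S A)

/-- law of the uniform spanning tree -/
noncomputable def nuS : Measure (Sym2 ℕ → Bool) :=
  ((treesF G S).card : ENNReal)⁻¹ • ∑ A ∈ treesF G S, Measure.dirac (chi A)

variable {G S}

lemma mem_treesF {A : Finset (Sym2 ℕ)} : A ∈ treesF G S ↔ IsSpanningTreeOn G S A := by
  classical
  unfold treesF
  rw [Finset.mem_filter, Finset.mem_powerset]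
  exact ⟨fun h => h.2, fun h => ⟨h.1, h⟩⟩

lemma card_treesF_pos (hS : (G.induce (S : Set ℕ)).Connected) : 0 < (treesF G S).card := by
  obtain ⟨A, hA⟩ := exists_spanningTree hS
  exact Finset.card_pos.2 ⟨A, mem_treesF.2 hA⟩

lemma isProb_nuS (hS : (G.induce (S : Set ℕ)).Connected) : IsProbabilityMeasure (nuS G S) := by
  constructor
  have h := card_treesF_pos hS
  unfold nuS
  simp only [Measure.smul_apply, Measure.finsetSum_apply, measure_univ, Finset.sum_const,
    nsmul_eq_mul, mul_one, smul_eq_mul]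
  refine ENNReal.inv_mul_cancel (Nat.cast_ne_zero.2 h.ne') (ENNReal.natCast_ne_top _)

lemma integral_nuS (f : (Sym2 ℕ → Bool) → ℝ) :
    ∫ ω, f ω ∂(nuS G S) = ((treesF G S).card : ℝ)⁻¹ * ∑ A ∈ treesF G S, f (chi A) := by
  unfold nuS
  rw [integral_smul_measure, integral_finsetSum_measure]
  · simp [integral_dirac]
  · intro A _
    exact integrable_dirac (by simp)

lemma treeSum_eq_sum (w : Sym2 ℕ → ℝ) (B : Finset (Sym2 ℕ)) [∀ A : Finset (Sym2 ℕ),
    Decidable (B ⊆ A)] :
    treeSum G S w B = ∑ A ∈ treesF G S, if B ⊆ A then ∏ e ∈ A, w e else 0 := by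
  classical
  unfold treeSum
  rw [← Finset.sum_filter]
  refine Finset.sum_congr ?_ fun _ _ => rfl
  ext A
  simp only [Finset.mem_filter, mem_treesF, Finset.mem_powerset]
  exact ⟨fun h => h.2, fun h => ⟨h.1.1, h⟩⟩

open Classical in
/-- weights for a tilt -/
noncomputable def wt (F : Finset (Sym2 ℕ)) (y : Sym2 ℕ → ℝ) (u : Sym2 ℕ) : ℝ :=
  if u ∈ F then Real.exp (y u) else 1

lemma wt_pos (F : Finset (Sym2 ℕ)) (y : Sym2 ℕ → ℝ) (u : Sym2 ℕ) : 0 < wt F y u := by
  unfold wt
  split_ifs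
  · exact Real.exp_pos _
  · exact zero_lt_one

lemma exp_chi (F A : Finset (Sym2 ℕ)) (y : Sym2 ℕ → ℝ) :
    Real.exp (∑ u ∈ F, y u * b2r (chi A u)) = ∏ u ∈ A, wt F y u := by
  classical
  rw [Real.exp_sum]
  have h1 : ∀ u, Real.exp (y u * b2r (chi A u)) = if u ∈ A then Real.exp (y u) else 1 := by
    intro u
    unfold chi b2r
    by_cases h : u ∈ A <;> simp [h]
  simp only [h1, wt]
  rw [Finset.prod_ite_mem, Finset.prod_ite_mem, Finset.inter_comm]

lemma tden_nuS (F : Finset (Sym2 ℕ)) (y : Sym2 ℕ → ℝ) :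
    tden (nuS G S) F y = ((treesF G S).card : ℝ)⁻¹ * treeSum G S (wt F y) ∅ := by
  classical
  unfold tden
  rw [integral_nuS, treeSum_eq_sum]
  congr 1
  refine Finset.sum_congr rfl fun A _ => ?_
  rw [exp_chi, if_pos (Finset.empty_subset _)]

lemma tnum_nuS (F : Finset (Sym2 ℕ)) (e : Sym2 ℕ) (y : Sym2 ℕ → ℝ) :
    tnum (nuS G S) F e y = ((treesF G S).card : ℝ)⁻¹ * treeSum G S (wt F y) {e} := by
  classical
  unfold tnum
  rw [integral_nuS, treeSum_eq_sum]
  congr 1
  refine Finset.sum_congr rfl fun A _ => ?_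
  rw [exp_chi]
  unfold chi b2r
  by_cases h : e ∈ A <;> simp [h]

lemma tiltI_nuS (hS : (G.induce (S : Set ℕ)).Connected) (F : Finset (Sym2 ℕ)) (e : Sym2 ℕ)
    (y : Sym2 ℕ → ℝ) : (tiltI (nuS G S) F e y : ℝ) = tp G S (wt F y) e := by
  have := isProb_nuS hS
  rw [coe_tiltI, tden_nuS, tnum_nuS]
  have h1 : ((treesF G S).card : ℝ)⁻¹ ≠ 0 :=
    inv_ne_zero (Nat.cast_ne_zero.2 (card_treesF_pos hS).ne')
  rw [mul_div_mul_left _ _ h1]
  rfl

lemma tiltI_nuS_lip (hS : (G.induce (S : Set ℕ)).Connected) (F : Finset (Sym2 ℕ)) (e : Sym2 ℕ)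
    (y y' : Sym2 ℕ → ℝ) (δ : ℝ) (hδ : 0 ≤ δ) (h : ∀ u, |y u - y' u| ≤ δ) :
    |(tiltI (nuS G S) F e y : ℝ) - tiltI (nuS G S) F e y'| ≤ 2 * δ := by
  rw [tiltI_nuS hS, tiltI_nuS hS]
  refine tp_lip hS (wt_pos F y) (wt_pos F y') hδ ?_ ?_ e
  · intro u
    unfold wt
    split_ifs
    · rw [← Real.exp_add]
      refine Real.exp_le_exp.2 ?_
      have := abs_le.1 (h u); linarith
    · rw [mul_one]; exact Real.exp_le_one_iff.2 (by linarith)
  · intro u
    unfold wt
    split_ifs
    · rw [← Real.exp_add]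
      refine Real.exp_le_exp.2 ?_
      have := abs_le.1 (h u); linarith
    · rw [mul_one]; exact Real.one_le_exp_iff.2 hδ

lemma prod_chi (F A : Finset (Sym2 ℕ)) [Decidable (F ⊆ A)] :
    ∏ u ∈ F, b2r (chi A u) = if F ⊆ A then 1 else 0 := by
  classical
  split_ifs with h
  · refine Finset.prod_eq_one fun u hu => ?_
    unfold chi b2r
    simp [h hu]
  · rw [Finset.not_subset] at h
    obtain ⟨u, hu, hA⟩ := h
    refine Finset.prod_eq_zero hu ?_
    unfold chi b2r
    simp [hA]

lemma integral_prod_nuS (F : Finset (Sym2 ℕ)) :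
    ∫ ω, ∏ u ∈ F, b2r (ω u) ∂(nuS G S) = ustContains G S F := by
  classical
  rw [integral_nuS]
  simp only [prod_chi]
  rw [Finset.sum_boole]
  unfold ustContains treesF
  rw [Finset.filter_filter, inv_mul_eq_div]
  congr!

/-! ### continuity -/

lemma continuous_b2r (e : Sym2 ℕ) : Continuous (fun ω : Sym2 ℕ → Bool => b2r (ω e)) :=
  (continuous_of_discreteTopology (f := b2r)).comp (continuous_apply e)

lemma exists_limit (μs : ℕ → ProbabilityMeasure (Sym2 ℕ → Bool)) :
    ∃ (U : Ultrafilter ℕ) (ν : ProbabilityMeasure (Sym2 ℕ → Bool)), (U : Filter ℕ) ≤ atTop ∧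
      Tendsto μs U (𝓝 ν) := by
  obtain ⟨ν, _, hν⟩ := isCompact_univ.ultrafilter_le_nhds ((Ultrafilter.of (atTop : Filter ℕ)).map μs)
    (by simp)
  exact ⟨Ultrafilter.of atTop, ν, Ultrafilter.of_le _, hν⟩

lemma tendsto_integral {U : Filter ℕ} {μs : ℕ → ProbabilityMeasure (Sym2 ℕ → Bool)}
    {ν : ProbabilityMeasure (Sym2 ℕ → Bool)} (h : Tendsto μs U (𝓝 ν))
    {f : (Sym2 ℕ → Bool) → ℝ} (hf : Continuous f) :
    Tendsto (fun n => ∫ ω, f ω ∂(μs n : Measure (Sym2 ℕ → Bool))) U
      (𝓝 (∫ ω, f ω ∂(ν : Measure (Sym2 ℕ → Bool)))) :=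
  (ProbabilityMeasure.tendsto_iff_forall_integral_tendsto.1 h)
    (BoundedContinuousFunction.mkOfCompact ⟨f, hf⟩)

lemma prod_b2r' (C : Finset (Sym2 ℕ)) (ω : Sym2 ℕ → Bool) :
    ∏ u ∈ C, b2r (ω u) = ({ω : Sym2 ℕ → Bool | ∀ e ∈ C, ω e = true}).indicator 1 ω := by
  classical
  by_cases h : ∀ e ∈ C, ω e = true
  · rw [indicator_of_mem (by exact h)]
    refine Finset.prod_eq_one fun e he => ?_
    simp [b2r, h e he]
  · rw [indicator_of_notMem (by exact h)]
    push Not at h
    obtain ⟨e, he, hne⟩ := h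
    exact Finset.prod_eq_zero he (by simp [b2r, hne])

lemma measurableSet_cyl' (C : Finset (Sym2 ℕ)) :
    MeasurableSet {ω : Sym2 ℕ → Bool | ∀ e ∈ C, ω e = true} := by
  have : {ω : Sym2 ℕ → Bool | ∀ e ∈ C, ω e = true} = ⋂ e ∈ C, {ω | ω e = true} := by
    ext ω; simp
  rw [this]
  refine MeasurableSet.biInter C.countable_toSet fun e _ => ?_
  have h : Measurable (fun ω : Sym2 ℕ → Bool => ω e) := measurable_pi_apply e
  exact h (measurableSet_singleton true)

/-- existence of the free uniform spanning forest, with the Lipschitz property of tilted means -/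
theorem exists_fusf (G : SimpleGraph ℕ) (S : ℕ → Finset ℕ) (hmono : Monotone S)
    (hex : ∀ v, ∃ n, v ∈ S n) (hc : ∀ n, (G.induce (S n : Set ℕ)).Connected) :
    ∃ ν : Measure (Sym2 ℕ → Bool), IsProbabilityMeasure ν ∧
      (∀ F : Finset (Sym2 ℕ), (F : Set (Sym2 ℕ)) ⊆ G.edgeSet →
        (ν {ω | ∀ e ∈ F, ω e = true}).toReal = fusfP G F) ∧
      (∀ (F : Finset (Sym2 ℕ)) (e : Sym2 ℕ), e ∈ F → ∀ (y y' : Sym2 ℕ → ℝ) (δ : ℝ), 0 ≤ δ →
        (∀ u, |y u - y' u| ≤ δ) → |(tiltI ν F e y : ℝ) - tiltI ν F e y'| ≤ 2 * δ) := by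
  obtain ⟨U, ν, hU, hν⟩ := exists_limit (fun n => ⟨nuS G (S n), isProb_nuS (hc n)⟩)
  have hcexp : ∀ (F : Finset (Sym2 ℕ)) (y : Sym2 ℕ → ℝ),
      Continuous (fun ω : Sym2 ℕ → Bool => Real.exp (∑ u ∈ F, y u * b2r (ω u))) := fun F y =>
    Real.continuous_exp.comp
      (continuous_finsetSum _ fun u _ => continuous_const.mul (continuous_b2r u))
  refine ⟨ν, inferInstance, ?_, ?_⟩
  · intro F hF
    have h1 : Continuous (fun ω : Sym2 ℕ → Bool => ∏ u ∈ F, b2r (ω u)) :=
      continuous_finsetProd _ fun u _ => continuous_b2r u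
    have h2 := tendsto_integral hν h1
    have h3 : ∫ ω, ∏ u ∈ F, b2r (ω u) ∂(ν : Measure (Sym2 ℕ → Bool)) =
        ((ν : Measure (Sym2 ℕ → Bool)) {ω | ∀ e ∈ F, ω e = true}).toReal := by
      simp only [prod_b2r']
      rw [integral_indicator_one (measurableSet_cyl' F)]
      rfl
    rw [h3] at h2
    have h4 := (tendsto_fusfP G S hmono hex hc F hF).mono_left hU
    refine tendsto_nhds_unique ?_ h4
    refine h2.congr fun n => ?_
    exact integral_prod_nuS F
  · intro F e _ y y' δ hδ h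
    have h1 : ∀ z : Sym2 ℕ → ℝ, Tendsto (fun n => (tiltI (nuS G (S n)) F e z : ℝ)) U
        (𝓝 (tiltI (ν : Measure (Sym2 ℕ → Bool)) F e z : ℝ)) := by
      intro z
      have h2 := tendsto_integral hν (hcexp F z)
      have h3 := tendsto_integral hν ((continuous_b2r e).mul (hcexp F z))
      have h4 := h3.div h2 (tden_pos (ν : Measure (Sym2 ℕ → Bool)) F z).ne'
      rw [coe_tiltI]
      refine h4.congr fun n => ?_
      have := isProb_nuS (hc n)
      rw [coe_tiltI]
      rfl
    exact le_of_tendsto ((h1 y).sub (h1 y')).abs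
      (Eventually.of_forall fun n => tiltI_nuS_lip (hc n) F e y y' δ hδ h)

end Meas

end Crest.Agent.FUSF
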