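import Crest.Agent.FUSFDef
import Crest.Agent.FUSFGraph

set_option autoImplicit false

namespace Crest.Agent.FUSF

open Set Filter MeasureTheory
open Crest.ProbabilityR.GraphTables Crest.ProbabilityR.SpanningTrees

/-! ### relabelling -/

lemma mem_edgesIn' (G : SimpleGraph ℕ) (S : Finset ℕ) (f : Sym2 ℕ) :
    f ∈ edgesIn G S ↔ (∀ v ∈ f, v ∈ S) ∧ f ∈ G.edgeSet := by
  simp only [edgesIn, Finset.mem_filter, Finset.mem_sym2_iff]

lemma edgesIn_relab (σ : Equiv.Perm ℕ) (G : SimpleGraph ℕ) (S : Finset ℕ) (f : Sym2 ℕ) :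
    f ∈ edgesIn (G.comap σ) S ↔ f.map σ ∈ edgesIn G (S.image σ) := by
  rw [mem_edgesIn', mem_edgesIn', mem_edgeSet_comap]
  refine and_congr ?_ Iff.rfl
  constructor
  · intro h v hv
    rw [Sym2.mem_map] at hv
    obtain ⟨a, ha, rfl⟩ := hv
    exact Finset.mem_image_of_mem _ (h a ha)
  · intro h v hv
    have := h (σ v) (Sym2.mem_map.2 ⟨v, hv, rfl⟩)
    rw [Finset.mem_image] at this
    obtain ⟨a, ha, hav⟩ := this
    rwa [← σ.injective hav]

/-- transport of an induced graph along a permutation -/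
def inducedIso (σ : Equiv.Perm ℕ) (G₁ G₂ : SimpleGraph ℕ) (h : ∀ a b, G₁.Adj a b ↔ G₂.Adj (σ a) (σ b))
    (S : Finset ℕ) :
    G₁.induce (S : Set ℕ) ≃g G₂.induce ((S.image σ : Finset ℕ) : Set ℕ) where
  toFun v := ⟨σ v, Finset.mem_coe.2 (Finset.mem_image_of_mem _ (Finset.mem_coe.1 v.2))⟩
  invFun v := ⟨σ.symm v, by
    obtain ⟨a, ha, hav⟩ := Finset.mem_image.1 (Finset.mem_coe.1 v.2)
    rw [← hav]
    simpa using ha⟩
  left_inv v := by simp
  right_inv v := by simp
  map_rel_iff' := by
    intro a b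
    simp only [SimpleGraph.comap_adj, Equiv.coe_fn_mk, Function.Embedding.subtype_apply]
    exact (h a b).symm

lemma connected_relab (σ : Equiv.Perm ℕ) (G : SimpleGraph ℕ) (S : Finset ℕ) :
    ((G.comap σ).induce (S : Set ℕ)).Connected ↔
      (G.induce ((S.image σ : Finset ℕ) : Set ℕ)).Connected :=
  (inducedIso σ (G.comap σ) G (fun _ _ => Iff.rfl) S).connected_iff

lemma isSpanningTreeOn_relab (σ : Equiv.Perm ℕ) (G : SimpleGraph ℕ) (S : Finset ℕ)
    (A : Finset (Sym2 ℕ)) :
    IsSpanningTreeOn (G.comap σ) S A ↔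
      IsSpanningTreeOn G (S.image σ) (A.image (Sym2.map σ)) := by
  unfold IsSpanningTreeOn
  refine and_congr ?_ ?_
  · constructor
    · intro h f hf
      rw [Finset.mem_image] at hf
      obtain ⟨g, hg, rfl⟩ := hf
      exact (edgesIn_relab σ G S g).1 (h hg)
    · intro h f hf
      exact (edgesIn_relab σ G S f).2 (h (Finset.mem_image_of_mem _ hf))
  · refine (inducedIso σ _ _ (fun a b => ?_) S).isTree_iff
    rw [SimpleGraph.fromEdgeSet_adj, SimpleGraph.fromEdgeSet_adj, Finset.mem_coe, Finset.mem_coe]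
    refine and_congr ?_ (by simp)
    constructor
    · intro h
      exact Finset.mem_image.2 ⟨s(a, b), h, rfl⟩
    · intro h
      obtain ⟨f, hf, hfe⟩ := Finset.mem_image.1 h
      have : f = s(a, b) := (sym2_map_bij σ).1 (by rw [hfe]; rfl)
      rwa [← this]

/-- action of a permutation on finite edge sets -/
noncomputable def edgePerm (σ : Equiv.Perm ℕ) : Finset (Sym2 ℕ) ≃ Finset (Sym2 ℕ) :=
  (Equiv.ofBijective _ (sym2_map_bij σ)).finsetCongr

lemma edgePerm_apply (σ : Equiv.Perm ℕ) (A : Finset (Sym2 ℕ)) :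
    edgePerm σ A = A.image (Sym2.map σ) := by
  unfold edgePerm
  rw [Equiv.finsetCongr_apply, Finset.map_eq_image]
  rfl

lemma ust_card_relab (σ : Equiv.Perm ℕ) (G : SimpleGraph ℕ) (S : Finset ℕ)
    (F : Finset (Sym2 ℕ)) (P : Finset (Sym2 ℕ) → Prop) (P' : Finset (Sym2 ℕ) → Prop)
    [DecidablePred P] [DecidablePred P']
    (hP : ∀ A, P A ↔ IsSpanningTreeOn (G.comap σ) S A ∧ F ⊆ A)
    (hP' : ∀ A, P' A ↔ IsSpanningTreeOn G (S.image σ) A ∧ F.image (Sym2.map σ) ⊆ A) :
    ((edgesIn (G.comap σ) S).powerset.filter P).card =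
      ((edgesIn G (S.image σ)).powerset.filter P').card := by
  refine Finset.card_bij (fun A _ => edgePerm σ A) ?_ ?_ ?_
  · intro A hA
    rw [Finset.mem_filter, Finset.mem_powerset] at hA ⊢
    rw [edgePerm_apply, hP']
    have h1 := (hP A).1 hA.2
    have h2 := (isSpanningTreeOn_relab σ G S A).1 h1.1
    exact ⟨h2.1, h2, Finset.image_subset_image h1.2⟩
  · intro A _ B _ h
    exact (edgePerm σ).injective h
  · intro B hB
    rw [Finset.mem_filter, Finset.mem_powerset] at hB
    obtain ⟨A, rfl⟩ := (edgePerm σ).surjective B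
    refine ⟨A, ?_, rfl⟩
    rw [Finset.mem_filter, Finset.mem_powerset, hP]
    rw [edgePerm_apply] at hB
    have h1 := (hP' _).1 hB.2
    have h2 := (isSpanningTreeOn_relab σ G S A).2 h1.1
    refine ⟨h2.1, h2, ?_⟩
    intro f hf
    have := h1.2 (Finset.mem_image_of_mem _ hf)
    obtain ⟨g, hg, hge⟩ := Finset.mem_image.1 this
    rwa [← (sym2_map_bij σ).1 hge]

lemma ustContains_relab (σ : Equiv.Perm ℕ) (G : SimpleGraph ℕ) (S : Finset ℕ)
    (F : Finset (Sym2 ℕ)) :
    ustContains (G.comap σ) S F = ustContains G (S.image σ) (F.image (Sym2.map σ)) := by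
  classical
  unfold ustContains
  have h1 := ust_card_relab σ G S F (fun A => IsSpanningTreeOn (G.comap σ) S A ∧ F ⊆ A)
    (fun A => IsSpanningTreeOn G (S.image σ) A ∧ F.image (Sym2.map σ) ⊆ A)
    (fun _ => Iff.rfl) (fun _ => Iff.rfl)
  have h2 := ust_card_relab σ G S ∅ (fun A => IsSpanningTreeOn (G.comap σ) S A)
    (fun A => IsSpanningTreeOn G (S.image σ) A)
    (fun _ => by simp) (fun _ => by simp)
  congr 1
  · convert congrArg (fun n : ℕ => (n : ℝ)) h1
  · convert congrArg (fun n : ℕ => (n : ℝ)) h2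

lemma fusfP_relab (σ : Equiv.Perm ℕ) (G : SimpleGraph ℕ) (F : Finset (Sym2 ℕ)) :
    fusfP (G.comap σ) F = fusfP G (F.image (Sym2.map σ)) := by
  classical
  unfold fusfP
  refine Equiv.iInf_congr σ.finsetCongr fun S => ?_
  have h0 : σ.finsetCongr S = S.image σ := by
    rw [Equiv.finsetCongr_apply, Finset.map_eq_image]; rfl
  rw [h0]
  have h1 : ((G.comap σ).induce (S : Set ℕ)).Connected ∧ F ⊆ edgesIn (G.comap σ) S ↔
      (G.induce ((S.image σ : Finset ℕ) : Set ℕ)).Connected ∧
        F.image (Sym2.map σ) ⊆ edgesIn G (S.image σ) := by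
    refine and_congr (connected_relab σ G S) ?_
    constructor
    · intro h f hf
      rw [Finset.mem_image] at hf
      obtain ⟨g, hg, rfl⟩ := hf
      exact (edgesIn_relab σ G S g).1 (h hg)
    · intro h f hf
      exact (edgesIn_relab σ G S f).2 (h (Finset.mem_image_of_mem _ hf))
  by_cases h : ((G.comap σ).induce (S : Set ℕ)).Connected ∧ F ⊆ edgesIn (G.comap σ) S
  · rw [if_pos h, if_pos (h1.1 h), ustContains_relab]
  · rw [if_neg h, if_neg (fun h' => h (h1.2 h'))]

/-! ### measurability -/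

/-- functions of a graph depending only on finitely many adjacencies are measurable -/
lemma measurable_local {β : Type*} [MeasurableSpace β] (S : Finset ℕ) (f : SimpleGraph ℕ → β)
    (hf : ∀ G G' : SimpleGraph ℕ, (∀ i ∈ S, ∀ j ∈ S, G.Adj i j ↔ G'.Adj i j) → f G = f G') :
    Measurable (fun A : Tab => f (gr A)) := by
  classical
  set ρ : Tab → (S → S → Bool) := fun A i j => A i j with hρ
  set ext : (S → S → Bool) → Tab := fun a i j =>
    if h : i ∈ S ∧ j ∈ S then a ⟨i, h.1⟩ ⟨j, h.2⟩ else false with hext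
  have h1 : ∀ A : Tab, f (gr A) = f (gr (ext (ρ A))) := by
    intro A
    refine hf _ _ fun i hi j hj => ?_
    rw [gr_adj, gr_adj]
    have e1 : ext (ρ A) i j = A i j := by simp [hext, hρ, hi, hj]
    have e2 : ext (ρ A) j i = A j i := by simp [hext, hρ, hi, hj]
    rw [e1, e2]
  have h2 : (fun A : Tab => f (gr A)) = (fun a => f (gr (ext a))) ∘ ρ := by
    funext A; exact h1 A
  rw [h2]
  have hρm : Measurable ρ := by
    rw [measurable_pi_iff]; intro i
    rw [measurable_pi_iff]; intro j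
    exact (measurable_pi_apply (j : ℕ)).comp (measurable_pi_apply (i : ℕ))
  refine Measurable.comp ?_ hρm
  exact measurable_of_countable _

lemma edgesIn_congr (S : Finset ℕ) (G G' : SimpleGraph ℕ)
    (h : ∀ i ∈ S, ∀ j ∈ S, G.Adj i j ↔ G'.Adj i j) : edgesIn G S = edgesIn G' S := by
  ext f
  rw [mem_edgesIn', mem_edgesIn']
  refine and_congr_right fun hf => ?_
  induction f with
  | _ a b =>
    rw [SimpleGraph.mem_edgeSet, SimpleGraph.mem_edgeSet]
    exact h a (hf a (by simp)) b (hf b (by simp))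

/-- `ustContains` as a function of the set of available edges -/
noncomputable def ustE (E : Finset (Sym2 ℕ)) (S : Finset ℕ) (F : Finset (Sym2 ℕ)) : ℝ :=
  haveI := Classical.decPred (fun A : Finset (Sym2 ℕ) =>
    A ⊆ E ∧ ((SimpleGraph.fromEdgeSet (A : Set (Sym2 ℕ))).induce (S : Set ℕ)).IsTree)
  haveI := Classical.decEq ℕ
  (((E.powerset.filter (fun A => (A ⊆ E ∧
    ((SimpleGraph.fromEdgeSet (A : Set (Sym2 ℕ))).induce (S : Set ℕ)).IsTree) ∧ F ⊆ A)).card : ℝ)) /
    ((E.powerset.filter (fun A => A ⊆ E ∧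
    ((SimpleGraph.fromEdgeSet (A : Set (Sym2 ℕ))).induce (S : Set ℕ)).IsTree)).card : ℝ)

lemma ustContains_eq_ustE (G : SimpleGraph ℕ) (S : Finset ℕ) (F : Finset (Sym2 ℕ)) :
    ustContains G S F = ustE (edgesIn G S) S F := rfl

lemma ustContains_congr (S : Finset ℕ) (G G' : SimpleGraph ℕ)
    (h : ∀ i ∈ S, ∀ j ∈ S, G.Adj i j ↔ G'.Adj i j) (F : Finset (Sym2 ℕ)) :
    ustContains G S F = ustContains G' S F := by
  rw [ustContains_eq_ustE, ustContains_eq_ustE, edgesIn_congr S G G' h]

lemma connected_congr (S : Finset ℕ) (G G' : SimpleGraph ℕ)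
    (h : ∀ i ∈ S, ∀ j ∈ S, G.Adj i j ↔ G'.Adj i j) :
    (G.induce (S : Set ℕ)).Connected ↔ (G'.induce (S : Set ℕ)).Connected := by
  have : G.induce (S : Set ℕ) = G'.induce (S : Set ℕ) := by
    ext a b
    simp only [SimpleGraph.comap_adj, Function.Embedding.subtype_apply]
    exact h a a.2 b b.2
  rw [this]

lemma measurable_fusfP (F : Finset (Sym2 ℕ)) : Measurable (fun A : Tab => fusfP (gr A) F) := by
  classical
  unfold fusfP
  refine Measurable.iInf fun S => ?_
  refine measurable_local S (fun G => if (G.induce (S : Set ℕ)).Connected ∧ F ⊆ edgesIn G S then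
    ustContains G S F else 1) ?_
  intro G G' h
  rw [edgesIn_congr S G G' h, ustContains_congr S G G' h F]
  have := connected_congr S G G' h
  simp only [this]

/-! ### explicit tilted means -/

open Classical in
/-- containment probabilities, zero when some pair is not an edge -/
noncomputable def pG (G : SimpleGraph ℕ) (C : Finset (Sym2 ℕ)) : ℝ :=
  if (C : Set (Sym2 ℕ)) ⊆ G.edgeSet then fusfP G C else 0

lemma pG_relab (σ : Equiv.Perm ℕ) (G : SimpleGraph ℕ) (C : Finset (Sym2 ℕ)) :
    pG (G.comap σ) C = pG G (C.image (Sym2.map σ)) := by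
  classical
  unfold pG
  have h1 : (C : Set (Sym2 ℕ)) ⊆ (G.comap σ).edgeSet ↔
      ((C.image (Sym2.map σ) : Finset (Sym2 ℕ)) : Set (Sym2 ℕ)) ⊆ G.edgeSet := by
    constructor
    · intro h f hf
      rw [Finset.mem_coe, Finset.mem_image] at hf
      obtain ⟨g, hg, rfl⟩ := hf
      exact (mem_edgeSet_comap σ G g).1 (h hg)
    · intro h f hf
      exact (mem_edgeSet_comap σ G f).2 (h (Finset.mem_coe.2 (Finset.mem_image_of_mem _ hf)))
  by_cases h : (C : Set (Sym2 ℕ)) ⊆ (G.comap σ).edgeSet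
  · rw [if_pos h, if_pos (h1.1 h), fusfP_relab]
  · rw [if_neg h, if_neg (fun h' => h (h1.2 h'))]

lemma measurable_pG (C : Finset (Sym2 ℕ)) : Measurable (fun A : Tab => pG (gr A) C) := by
  classical
  unfold pG
  refine Measurable.ite ?_ (measurable_fusfP C) measurable_const
  have : {A : Tab | (C : Set (Sym2 ℕ)) ⊆ (gr A).edgeSet} =
      ⋂ f ∈ C, {A : Tab | f ∈ (gr A).edgeSet} := by
    ext A
    simp only [Set.mem_ofPred_eq, mem_iInter]
    constructor
    · intro h f hf; exact h hf
    · intro h f hf; exact h f hf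
  rw [this]
  exact MeasurableSet.biInter C.countable_toSet fun f _ => measurableSet_mem_edgeSet f

open Classical in
/-- numerator of the tilted mean -/
noncomputable def numG (G : SimpleGraph ℕ) (F : Finset (Sym2 ℕ)) (e : Sym2 ℕ)
    (y : Sym2 ℕ → ℝ) : ℝ :=
  ∑ C ∈ F.powerset, (∏ u ∈ C, (Real.exp (y u) - 1)) * pG G (insert e C)

/-- denominator of the tilted mean -/
noncomputable def denG (G : SimpleGraph ℕ) (F : Finset (Sym2 ℕ)) (y : Sym2 ℕ → ℝ) : ℝ :=
  ∑ C ∈ F.powerset, (∏ u ∈ C, (Real.exp (y u) - 1)) * pG G C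

/-- the tilted mean -/
noncomputable def tiltG (G : SimpleGraph ℕ) (F : Finset (Sym2 ℕ)) (e : Sym2 ℕ)
    (y : Sym2 ℕ → ℝ) : unitInterval :=
  Set.projIcc 0 1 zero_le_one (numG G F e y / denG G F y)

/-- the drift -/
noncomputable def driftG (G : SimpleGraph ℕ) (e : Sym2 ℕ) (y : Sym2 ℕ → ℝ) : unitInterval :=
  limsup (fun n => tiltG G (FnG G e n) e y) atTop

lemma sum_powerset_image {β : Type*} {α : Type*} [DecidableEq α] [DecidableEq β] {g : α → β} (hg : Function.Injective g)
    (F : Finset α) (φ : Finset β → ℝ) :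
    ∑ C ∈ (F.image g).powerset, φ C = ∑ C ∈ F.powerset, φ (C.image g) := by
  have h1 : (F.image g).powerset = F.powerset.image (fun C => C.image g) := by
    ext C
    simp only [Finset.mem_powerset, Finset.mem_image]
    constructor
    · intro h
      refine ⟨F.filter (fun x => g x ∈ C), Finset.filter_subset _ _, ?_⟩
      ext x
      simp only [Finset.mem_image, Finset.mem_filter]
      constructor
      · rintro ⟨a, ⟨_, h2⟩, rfl⟩; exact h2
      · intro hx
        obtain ⟨a, ha, rfl⟩ := Finset.mem_image.1 (h hx)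
        exact ⟨a, ⟨ha, hx⟩, rfl⟩
    · rintro ⟨D, hD, rfl⟩
      exact Finset.image_subset_image hD
  rw [h1, Finset.sum_image]
  intro A _ B _ h
  exact Finset.image_injective hg h

open Classical in
lemma tiltG_relab (σ : Equiv.Perm ℕ) (G : SimpleGraph ℕ) (F : Finset (Sym2 ℕ)) (e : Sym2 ℕ)
    (y : Sym2 ℕ → ℝ) :
    tiltG G (F.image (Sym2.map σ)) (e.map σ) y = tiltG (G.comap σ) F e (y ∘ Sym2.map σ) := by
  have hinj := (sym2_map_bij σ).1
  unfold tiltG
  have h1 : numG G (F.image (Sym2.map σ)) (e.map σ) y = numG (G.comap σ) F e (y ∘ Sym2.map σ) := by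
    unfold numG
    rw [sum_powerset_image hinj]
    refine Finset.sum_congr rfl fun C _ => ?_
    rw [Finset.prod_image (fun a _ b _ h => hinj h), pG_relab, Finset.image_insert]
    rfl
  have h2 : denG G (F.image (Sym2.map σ)) y = denG (G.comap σ) F (y ∘ Sym2.map σ) := by
    unfold denG
    rw [sum_powerset_image hinj]
    refine Finset.sum_congr rfl fun C _ => ?_
    rw [Finset.prod_image (fun a _ b _ h => hinj h), pG_relab]
    rfl
  rw [h1, h2]

lemma driftG_relab (σ : Equiv.Perm ℕ) (G : SimpleGraph ℕ) (e : Sym2 ℕ) (y : Sym2 ℕ → ℝ) :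
    driftG G (e.map σ) y = driftG (G.comap σ) e (y ∘ Sym2.map σ) := by
  classical
  unfold driftG
  simp only [FnG_relab, tiltG_relab]

lemma measurable_tiltG (F : Finset (Sym2 ℕ)) (e : Sym2 ℕ) :
    Measurable (fun p : Tab × (Sym2 ℕ → ℝ) => tiltG (gr p.1) F e p.2) := by
  classical
  unfold tiltG
  refine continuous_projIcc.measurable.comp (Measurable.div ?_ ?_)
  · unfold numG
    refine Finset.measurable_sum _ fun C _ => Measurable.mul ?_
      ((measurable_pG _).comp measurable_fst)
    refine Finset.measurable_prod _ fun u _ => ?_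
    exact (Real.measurable_exp.comp ((measurable_pi_apply u).comp measurable_snd)).sub_const 1
  · unfold denG
    refine Finset.measurable_sum _ fun C _ => Measurable.mul ?_
      ((measurable_pG _).comp measurable_fst)
    refine Finset.measurable_prod _ fun u _ => ?_
    exact (Real.measurable_exp.comp ((measurable_pi_apply u).comp measurable_snd)).sub_const 1

/-- a family indexed by a countable type evaluated at a measurable random index -/
lemma measurable_random_index {α β γ : Type*} [MeasurableSpace α] [Countable β]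
    [MeasurableSpace γ] (N : α → β) (hN : ∀ b, MeasurableSet {a | N a = b}) (f : β → α → γ)
    (hf : ∀ b, Measurable (f b)) : Measurable (fun a => f (N a) a) := by
  intro T hT
  have : (fun a => f (N a) a) ⁻¹' T = ⋃ b, ({a | N a = b} ∩ (f b) ⁻¹' T) := by
    ext a
    simp only [mem_preimage, mem_iUnion, mem_inter_iff, Set.mem_ofPred_eq]
    constructor
    · intro h; exact ⟨N a, rfl, h⟩
    · rintro ⟨b, rfl, h⟩; exact h
  rw [this]
  exact MeasurableSet.iUnion fun b => (hN b).inter (hf b hT)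

lemma measurable_driftG (e : Sym2 ℕ) :
    Measurable (fun p : Tab × (Sym2 ℕ → ℝ) => driftG (gr p.1) e p.2) := by
  unfold driftG
  refine Measurable.limsup fun n => ?_
  refine measurable_random_index (fun p : Tab × (Sym2 ℕ → ℝ) => FnG (gr p.1) e n) ?_
    (fun F p => tiltG (gr p.1) F e p.2) (fun F => measurable_tiltG F e)
  intro F
  exact measurable_fst (measurable_FnG e n F)

end Crest.Agent.FUSF
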