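import Crest.Agent.FUSFLabels
import Crest.Agent.FUSFProb
import Crest.Agent.FUSFMeasure
import Crest.Prelude.Def_Labels

set_option autoImplicit false

namespace Crest.Agent.FUSF

open Set Filter MeasureTheory unitInterval ProbabilityTheory Topology
open Crest.ProbabilityR.GraphTables Crest.ProbabilityR.SpanningTrees
open Crest.Agent.FIID

open Classical in
/-- the factor map producing the free uniform spanning forest -/
noncomputable def Phi (s0 : I → (ℕ ⊕ ℕ → I)) (s1 : I → (Unit ⊕ ℕ → I)) (G : SimpleGraph ℕ)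
    (x : ℕ → I) (e : Sym2 ℕ) : Bool :=
  if e ∈ G.edgeSet then factor s0 (driftG G) (edgeLab s1 G x) e else false

lemma measurable_s0lab {s0 : I → (ℕ ⊕ ℕ → I)} (hs0 : Measurable s0)
    {s1 : I → (Unit ⊕ ℕ → I)} (hs1 : Measurable s1) (f : Sym2 ℕ) (c : ℕ ⊕ ℕ) :
    Measurable (fun p : Tab × (ℕ → I) => s0 (edgeLab s1 (gr p.1) p.2 f) c) := by
  have h := measurable_edgeLab hs1 f
  have h2 : Measurable (fun t : I => s0 t c) := (measurable_pi_iff.1 hs0) c
  exact h2.comp h

lemma comp_aux {A B C D : Type*} [MeasurableSpace A] [MeasurableSpace B] [MeasurableSpace C]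
    [MeasurableSpace D] (f : A → B → D) (hf : Measurable (fun p : A × B => f p.1 p.2)) :
    Measurable (fun p : (A × C) × B => f p.1.1 p.2) :=
  hf.comp ((measurable_fst.comp measurable_fst).prodMk measurable_snd)

lemma measurable_drift2 (v : Sym2 ℕ) :
    Measurable (fun p : (Tab × (ℕ → I)) × (Sym2 ℕ → ℝ) => driftG (gr p.1.1) v p.2) :=
  comp_aux (C := ℕ → I) (fun t y => driftG (gr t) v y) (measurable_driftG v)

lemma measurable_factor_gr {s0 : I → (ℕ ⊕ ℕ → I)} (hs0 : Measurable s0)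
    {s1 : I → (Unit ⊕ ℕ → I)} (hs1 : Measurable s1) (e : Sym2 ℕ) :
    Measurable (fun p : Tab × (ℕ → I) =>
      factor s0 (driftG (gr p.1)) (edgeLab s1 (gr p.1) p.2) e) := by
  have h1 : ∀ b : Sym2 ℕ × ℕ, Measurable (fun p : Tab × (ℕ → I) =>
      lab1 s0 (edgeLab s1 (gr p.1) p.2) b) := fun b => measurable_s0lab hs0 hs1 b.1 (Sum.inl b.2)
  have h2 : ∀ b : Sym2 ℕ × ℕ, Measurable (fun p : Tab × (ℕ → I) =>
      lab2 s0 (edgeLab s1 (gr p.1) p.2) b) := fun b => measurable_s0lab hs0 hs1 b.1 (Sum.inr b.2)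
  exact measurable_out (m := fun p : Tab × (ℕ → I) => driftG (gr p.1)) measurable_drift2 h1 h2 e

lemma measurable_Phi {s0 : I → (ℕ ⊕ ℕ → I)} (hs0 : Measurable s0)
    {s1 : I → (Unit ⊕ ℕ → I)} (hs1 : Measurable s1) :
    Measurable (fun p : Tab × (ℕ → I) => Phi s0 s1 (gr p.1) p.2) := by
  classical
  rw [measurable_pi_iff]
  intro e
  unfold Phi
  exact Measurable.ite (measurable_fst (measurableSet_mem_edgeSet e))
    (measurable_factor_gr hs0 hs1 e) measurable_const

lemma Phi_relab (s0 : I → (ℕ ⊕ ℕ → I)) (s1 : I → (Unit ⊕ ℕ → I)) (pm : Equiv.Perm ℕ)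
    (G : SimpleGraph ℕ) (x : ℕ → I) :
    Phi s0 s1 (G.comap pm) (x ∘ pm) = Phi s0 s1 G x ∘ Sym2.map pm := by
  classical
  funext e
  have h1 : edgeLab s1 (G.comap pm) (x ∘ pm) = edgeLab s1 G x ∘ Sym2.map pm := by
    funext f
    exact edgeLab_relab s1 pm G x f
  have h2 := factor_relab (Sym2.map pm) (m := driftG (G.comap pm)) (m' := driftG G)
    (fun v y => driftG_relab pm G v y) s0 (edgeLab s1 G x) e
  unfold Phi
  rw [h1, h2]
  simp only [Function.comp_apply, mem_edgeSet_comap]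

/-! ### tilted means of the restricted law -/

section law

variable {G : SimpleGraph ℕ} (ν : Measure (Sym2 ℕ → Bool)) [IsProbabilityMeasure ν]

lemma exp_expand (F : Finset (Sym2 ℕ)) (y : Sym2 ℕ → ℝ) (ω : Sym2 ℕ → Bool) :
    Real.exp (∑ u ∈ F, y u * b2r (ω u)) =
      ∑ C ∈ F.powerset, (∏ u ∈ C, (Real.exp (y u) - 1)) * ∏ u ∈ C, b2r (ω u) := by
  rw [Real.exp_sum]
  have h1 : ∀ u, Real.exp (y u * b2r (ω u)) = 1 + (Real.exp (y u) - 1) * b2r (ω u) := by
    intro u
    cases ω u <;> simp [b2r]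
  simp only [h1]
  rw [Finset.prod_one_add]
  refine Finset.sum_congr rfl fun C _ => ?_
  rw [Finset.prod_mul_distrib]

lemma prod_b2r (C : Finset (Sym2 ℕ)) (ω : Sym2 ℕ → Bool) :
    ∏ u ∈ C, b2r (ω u) = ({ω : Sym2 ℕ → Bool | ∀ e ∈ C, ω e = true}).indicator 1 ω := by
  classical
  by_cases h : ∀ e ∈ C, ω e = true
  · rw [indicator_of_mem (by exact h)]
    refine Finset.prod_eq_one fun e he => ?_
    simp [b2r, h e he]
  · rw [indicator_of_notMem (by exact h)]
    push Not at h
    obtain ⟨e, he, hne⟩ := h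
    exact Finset.prod_eq_zero he (by simp [b2r, hne])

lemma measurableSet_cyl (C : Finset (Sym2 ℕ)) :
    MeasurableSet {ω : Sym2 ℕ → Bool | ∀ e ∈ C, ω e = true} := by
  have : {ω : Sym2 ℕ → Bool | ∀ e ∈ C, ω e = true} = ⋂ e ∈ C, {ω | ω e = true} := by
    ext ω; simp
  rw [this]
  refine MeasurableSet.biInter C.countable_toSet fun e _ => ?_
  have h : Measurable (fun ω : Sym2 ℕ → Bool => ω e) := measurable_pi_apply e
  exact h (measurableSet_singleton true)

lemma integral_prod_b2r (C : Finset (Sym2 ℕ)) :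
    ∫ ω, ∏ u ∈ C, b2r (ω u) ∂ν = (ν {ω | ∀ e ∈ C, ω e = true}).toReal := by
  simp only [prod_b2r]
  rw [integral_indicator_one (measurableSet_cyl C)]
  rfl

lemma integrable_prod_b2r (C : Finset (Sym2 ℕ)) :
    Integrable (fun ω : Sym2 ℕ → Bool => ∏ u ∈ C, b2r (ω u)) ν := by
  simp only [prod_b2r]
  exact (integrable_const (1 : ℝ)).indicator (measurableSet_cyl C)

variable (hP : ∀ F : Finset (Sym2 ℕ), (F : Set (Sym2 ℕ)) ⊆ G.edgeSet →
  (ν {ω | ∀ e ∈ F, ω e = true}).toReal = fusfP G F)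

include hP in
lemma tden_eq (F : Finset (Sym2 ℕ)) (hF : (F : Set (Sym2 ℕ)) ⊆ G.edgeSet) (y : Sym2 ℕ → ℝ) :
    tden ν F y = denG G F y := by
  unfold tden denG
  simp only [exp_expand]
  rw [integral_finsetSum _ (fun C _ => (integrable_prod_b2r ν C).const_mul _)]
  refine Finset.sum_congr rfl fun C hC => ?_
  have hC' : (C : Set (Sym2 ℕ)) ⊆ G.edgeSet :=
    (Finset.coe_subset.2 (Finset.mem_powerset.1 hC)).trans hF
  rw [integral_const_mul, integral_prod_b2r, hP C hC']
  unfold pG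
  rw [if_pos hC']

include hP in
lemma tnum_eq (F : Finset (Sym2 ℕ)) (hF : (F : Set (Sym2 ℕ)) ⊆ G.edgeSet) (e : Sym2 ℕ)
    (he : e ∈ G.edgeSet) (y : Sym2 ℕ → ℝ) :
    tnum ν F e y = numG G F e y := by
  classical
  unfold tnum numG
  have h0 : ∀ ω : Sym2 ℕ → Bool, b2r (ω e) * Real.exp (∑ u ∈ F, y u * b2r (ω u)) =
      ∑ C ∈ F.powerset, (∏ u ∈ C, (Real.exp (y u) - 1)) * ∏ u ∈ insert e C, b2r (ω u) := by
    intro ω
    rw [exp_expand, Finset.mul_sum]
    refine Finset.sum_congr rfl fun C _ => ?_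
    by_cases h : e ∈ C
    · rw [Finset.insert_eq_of_mem h]
      have : b2r (ω e) * ∏ u ∈ C, b2r (ω u) = ∏ u ∈ C, b2r (ω u) := by
        rw [← Finset.mul_prod_erase C _ h, ← mul_assoc]
        congr 1
        cases ω e <;> simp [b2r]
      calc b2r (ω e) * ((∏ u ∈ C, (Real.exp (y u) - 1)) * ∏ u ∈ C, b2r (ω u))
          = (∏ u ∈ C, (Real.exp (y u) - 1)) * (b2r (ω e) * ∏ u ∈ C, b2r (ω u)) := by ring
        _ = _ := by rw [this]
    · rw [Finset.prod_insert h]; ring
  simp only [h0]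
  rw [integral_finsetSum _ (fun C _ => (integrable_prod_b2r ν (insert e C)).const_mul _)]
  refine Finset.sum_congr rfl fun C hC => ?_
  have hC' : ((insert e C : Finset (Sym2 ℕ)) : Set (Sym2 ℕ)) ⊆ G.edgeSet := by
    rw [Finset.coe_insert]
    exact Set.insert_subset he ((Finset.coe_subset.2 (Finset.mem_powerset.1 hC)).trans hF)
  rw [integral_const_mul, integral_prod_b2r, hP _ hC']
  unfold pG
  rw [if_pos hC']

include hP in
lemma tiltI_eq_tiltG (F : Finset (Sym2 ℕ)) (hF : (F : Set (Sym2 ℕ)) ⊆ G.edgeSet) (e : Sym2 ℕ)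
    (he : e ∈ G.edgeSet) (y : Sym2 ℕ → ℝ) : tiltI ν F e y = tiltG G F e y := by
  unfold tiltI tiltG
  rw [tden_eq ν hP F hF, tnum_eq ν hP F hF e he]

/-- restriction of configurations to the edges -/
def resE (G : SimpleGraph ℕ) (ω : Sym2 ℕ → Bool) (e : G.edgeSet) : Bool := ω e

lemma measurable_resE (G : SimpleGraph ℕ) : Measurable (resE G) :=
  measurable_pi_iff.2 fun _ => measurable_pi_apply _

lemma tiltI_res (F' : Finset G.edgeSet) (e : G.edgeSet) (y : Sym2 ℕ → ℝ) :
    tiltI (ν.map (resE G)) F' e (y ∘ Subtype.val) =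
      tiltI ν (F'.map (Function.Embedding.subtype _)) e y := by
  have hsum : ∀ ω : Sym2 ℕ → Bool, ∑ u ∈ F', (y ∘ Subtype.val) u * b2r (resE G ω u) =
      ∑ u ∈ F'.map (Function.Embedding.subtype _), y u * b2r (ω u) := by
    intro ω
    rw [Finset.sum_map]
    rfl
  have h1 : tden (ν.map (resE G)) F' (y ∘ Subtype.val) =
      tden ν (F'.map (Function.Embedding.subtype _)) y := by
    unfold tden
    rw [integral_map (measurable_resE G).aemeasurable]
    · simp only [hsum]
    · exact (Measurable.of_uncurry_left (f := fun (y : G.edgeSet → ℝ) (x : G.edgeSet → Bool) =>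
        Real.exp (∑ u ∈ F', y u * b2r (x u))) (measurable_expo F')).aestronglyMeasurable
  have h2 : tnum (ν.map (resE G)) F' e (y ∘ Subtype.val) =
      tnum ν (F'.map (Function.Embedding.subtype _)) e y := by
    unfold tnum
    rw [integral_map (measurable_resE G).aemeasurable]
    · simp only [hsum]
      rfl
    · exact ((measurable_b2r.comp (measurable_pi_apply e)).mul
        (Measurable.of_uncurry_left (f := fun (y : G.edgeSet → ℝ) (x : G.edgeSet → Bool) =>
        Real.exp (∑ u ∈ F', y u * b2r (x u))) (measurable_expo F'))).aestronglyMeasurable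
  unfold tiltI
  rw [h1, h2]

open Classical in
/-- canonical exhaustion on the subtype of edges -/
noncomputable def FnE (G : SimpleGraph ℕ) (e : G.edgeSet) (n : ℕ) : Finset G.edgeSet :=
  (FnG G e n).subtype (fun f => f ∈ G.edgeSet)

lemma FnE_map (G : SimpleGraph ℕ) (e : G.edgeSet) (n : ℕ) :
    (FnE G e n).map (Function.Embedding.subtype _) = FnG G e n := by
  classical
  unfold FnE
  rw [Finset.subtype_map]
  refine Finset.filter_true_of_mem fun f hf => ?_
  exact FnG_subset G e e.2 n (Finset.mem_coe.2 hf)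

include hP in
lemma driftG_eq (e : G.edgeSet) (y : Sym2 ℕ → ℝ) :
    driftG G e y = driftOf (ν.map (resE G)) (FnE G) e (y ∘ Subtype.val) := by
  unfold driftG driftOf
  simp only [tiltI_res ν, FnE_map]
  simp only [tiltI_eq_tiltG ν hP _ (FnG_subset G e e.2 _) e e.2]

include hP in
/-- the law of the output -/
theorem Phi_law (hG : G.Connected) (hfin : ∀ v : ℕ, (G.neighborSet v).Finite)
    (hlip : ∀ (F : Finset (Sym2 ℕ)) (e : Sym2 ℕ), e ∈ F → ∀ (y y' : Sym2 ℕ → ℝ) (δ : ℝ), 0 ≤ δ →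
      (∀ u, |y u - y' u| ≤ δ) → |(tiltI ν F e y : ℝ) - tiltI ν F e y'| ≤ 2 * δ)
    {s0 : I → (ℕ ⊕ ℕ → I)} (hs0 : Measurable s0)
    (hs0' : (volume : Measure I).map s0 = μI (ℕ ⊕ ℕ))
    {s1 : I → (Unit ⊕ ℕ → I)} (hs1 : Measurable s1)
    (hs1' : (volume : Measure I).map s1 = μI (Unit ⊕ ℕ))
    (F : Finset (Sym2 ℕ)) (hF : (F : Set (Sym2 ℕ)) ⊆ G.edgeSet) :
    (((μI ℕ).map (Phi s0 s1 G)) {ω | ∀ e ∈ F, ω e = true}).toReal = fusfP G F := by
  classical
  set ν' := ν.map (resE G) with hν'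
  have : IsProbabilityMeasure ν' := Measure.isProbabilityMeasure_map
    (measurable_resE G).aemeasurable
  have hmono : ∀ e, Monotone (FnE G e) := by
    intro e n m h f hf
    unfold FnE at hf ⊢
    rw [Finset.mem_subtype] at hf ⊢
    exact FnG_mono G hfin e h hf
  have hex : ∀ e f : G.edgeSet, ∃ n, f ∈ FnE G e n := by
    intro e f
    obtain ⟨n, hn⟩ := FnG_ex G hG hfin e f f.2
    exact ⟨n, by unfold FnE; rw [Finset.mem_subtype]; exact hn⟩
  have htl : TiltLip ν' (FnE G) := by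
    intro e n y y' δ hδ hy
    set Y : Sym2 ℕ → ℝ := fun u => if h : u ∈ G.edgeSet then y ⟨u, h⟩ else 0 with hY
    set Y' : Sym2 ℕ → ℝ := fun u => if h : u ∈ G.edgeSet then y' ⟨u, h⟩ else 0 with hY'
    have e1 : y = Y ∘ Subtype.val := by
      funext u
      simp [hY]
    have e2 : y' = Y' ∘ Subtype.val := by
      funext u
      simp [hY']
    rw [e1, e2, hν', tiltI_res, tiltI_res, FnE_map]
    refine hlip _ _ (mem_FnG_self G e n) Y Y' δ hδ fun u => ?_
    by_cases h : u ∈ G.edgeSet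
    · simp only [hY, hY', h, dif_pos]
      exact hy _
    · simp only [hY, hY', h, dif_neg, not_false_eq_true]
      simpa using hδ
  have hlaw := factor_law ν' hmono hex htl hs0 hs0'
  have hlab := edgeLab_law hs1 hs1' G hfin
  have hmlab : Measurable (fun (x : ℕ → I) (e : G.edgeSet) => edgeLab s1 G x e) :=
    measurable_pi_iff.2 fun e => measurable_edgeLab_right hs1 G e
  have hmfac : Measurable (factor (V := G.edgeSet) s0 (driftOf ν' (FnE G))) :=
    measurable_factor (measurable_driftOf ν' (FnE G)) hs0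
  rw [← hlab, Measure.map_map hmfac hmlab] at hlaw
  -- the output on the edges
  have hout : ∀ (x : ℕ → I) (e : G.edgeSet), Phi s0 s1 G x e =
      (factor s0 (driftOf ν' (FnE G)) ∘ fun (x : ℕ → I) (e : G.edgeSet) => edgeLab s1 G x e) x e := by
    intro x e
    unfold Phi
    rw [if_pos e.2]
    exact (factor_relab (Subtype.val : G.edgeSet → Sym2 ℕ) (m := driftOf ν' (FnE G))
      (m' := driftG G) (fun v y => driftG_eq ν hP v y) s0 (edgeLab s1 G x) e).symm
  -- measurability of `Phi` for fixed graph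
  have hPm : Measurable (Phi s0 s1 G) := by
    rw [measurable_pi_iff]
    intro e
    by_cases he : e ∈ G.edgeSet
    · have : (fun x => Phi s0 s1 G x e) = fun x =>
          (factor s0 (driftOf ν' (FnE G)) ∘
            fun (x : ℕ → I) (e : G.edgeSet) => edgeLab s1 G x e) x ⟨e, he⟩ := by
        funext x; exact hout x ⟨e, he⟩
      rw [this]
      exact (measurable_pi_apply _).comp (hmfac.comp hmlab)
    · have : (fun x => Phi s0 s1 G x e) = fun _ => false := by
        funext x; unfold Phi; rw [if_neg he]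
      rw [this]; exact measurable_const
  rw [Measure.map_apply hPm (measurableSet_cyl F)]
  set F' : Finset G.edgeSet := F.subtype (fun f => f ∈ G.edgeSet) with hF'
  have hcyl' : MeasurableSet {ω : G.edgeSet → Bool | ∀ e ∈ F', ω e = true} := by
    have : {ω : G.edgeSet → Bool | ∀ e ∈ F', ω e = true} = ⋂ e ∈ F', {ω | ω e = true} := by
      ext ω; simp
    rw [this]
    refine MeasurableSet.biInter F'.countable_toSet fun e _ => ?_
    have h : Measurable (fun ω : G.edgeSet → Bool => ω e) := measurable_pi_apply e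
    exact h (measurableSet_singleton true)
  have hset : Phi s0 s1 G ⁻¹' {ω | ∀ e ∈ F, ω e = true} =
      (factor s0 (driftOf ν' (FnE G)) ∘
        fun (x : ℕ → I) (e : G.edgeSet) => edgeLab s1 G x e) ⁻¹'
        {ω : G.edgeSet → Bool | ∀ e ∈ F', ω e = true} := by
    ext x
    simp only [mem_preimage, Set.mem_ofPred_eq]
    constructor
    · intro h e he
      rw [← hout]
      rw [hF', Finset.mem_subtype] at he
      exact h e he
    · intro h e he
      have he' : e ∈ G.edgeSet := hF (Finset.mem_coe.2 he)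
      have := h ⟨e, he'⟩ (by rw [hF', Finset.mem_subtype]; exact he)
      rw [← hout] at this
      exact this
  rw [hset, ← Measure.map_apply (hmfac.comp hmlab) hcyl', hlaw, hν',
    Measure.map_apply (measurable_resE G) hcyl', ← hP F hF]
  congr 2
  ext ω
  simp only [mem_preimage, Set.mem_ofPred_eq]
  constructor
  · intro h e he
    have he' : e ∈ G.edgeSet := hF (Finset.mem_coe.2 he)
    exact h ⟨e, he'⟩ (by rw [hF', Finset.mem_subtype]; exact he)
  · intro h e he
    rw [hF', Finset.mem_subtype] at he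
    exact h e he

end law

/-- the free uniform spanning forest is a factor of iid, jointly in the graph -/
theorem main :
    ∃ Φ : SimpleGraph ℕ → (ℕ → unitInterval) → (Sym2 ℕ → Bool),
      Measurable (fun p : (ℕ → ℕ → Bool) × (ℕ → unitInterval) =>
          Φ (Crest.ProbabilityR.GraphTables.graphOfTable p.1) p.2) ∧
      (∀ (σ' : Equiv.Perm ℕ) (G : SimpleGraph ℕ) (x : ℕ → unitInterval),
          Φ (G.comap ⇑σ') (x ∘ ⇑σ') = Φ G x ∘ Sym2.map ⇑σ') ∧
      ∀ G : SimpleGraph ℕ, G.Connected → (∀ v : ℕ, (G.neighborSet v).Finite) →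
        ∀ S : ℕ → Finset ℕ, Monotone S → (∀ v : ℕ, ∃ n, v ∈ S n) →
          (∀ n, (G.induce (S n : Set ℕ)).Connected) →
          ∀ F : Finset (Sym2 ℕ), (↑F : Set (Sym2 ℕ)) ⊆ G.edgeSet →
            Filter.Tendsto (fun n => Crest.ProbabilityR.SpanningTrees.ustContains G (S n) F)
              Filter.atTop
              (nhds (((Crest.ProbabilityR.Labels.labelMeasure ℕ).map (Φ G)
                {ω | ∀ e ∈ F, ω e = true}).toReal)) := by
  obtain ⟨s0, hs0, hs0'⟩ := exists_split (ℕ ⊕ ℕ)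
  obtain ⟨s1, hs1, hs1'⟩ := exists_split (Unit ⊕ ℕ)
  refine ⟨Phi s0 s1, measurable_Phi hs0 hs1, fun pm G x => Phi_relab s0 s1 pm G x, ?_⟩
  intro G hG hfin S hmono hex hconn F hF
  obtain ⟨ν, hν, hP, hlip⟩ := exists_fusf G S hmono hex hconn
  have h1 := Phi_law ν hP hG hfin hlip hs0 hs0' hs1 hs1' F hF
  have h2 : (Crest.ProbabilityR.Labels.labelMeasure ℕ) = μI ℕ := rfl
  rw [h2, h1]
  exact tendsto_fusfP G S hmono hex hconn F hF

end Crest.Agent.FUSF
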