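import Mathlib
import Crest.Prelude.Def_FinProb
import Crest.Prelude.Def_RandomGraph

/-!
Row 55 (S0076, second Kahn-Kalai).  Shared definitions.
-/

set_option autoImplicit false

namespace Crest.Agent.KK

open Finset

variable {V : Type} [Fintype V] [DecidableEq V]

/-- product weight of the subset `w` of `U` (only used for `w ⊆ U`) -/
noncomputable def bw (ρ : ℝ) (U w : Finset V) : ℝ := ρ ^ w.card * (1 - ρ) ^ (U \ w).card

/-- relative entropy of `P` (a law supported on subsets of `U`) w.r.t. `bw ρ U` -/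
noncomputable def ent (ρ : ℝ) (U : Finset V) (P : Finset V → ℝ) : ℝ :=
  ∑ w : Finset V, P w * Real.log (P w / bw ρ U w)

/-- probability law on `Finset V` -/
def IsLaw (P : Finset V → ℝ) : Prop := (∀ w, 0 ≤ P w) ∧ ∑ w, P w = 1

/-- `K` is `q`-spread on `U` -/
def QSpread (q : ℝ) (U : Finset V) (K : Finset V → ℝ) : Prop :=
  ∀ S, S ⊆ U → ∑ σ, (if S ⊆ σ then K σ else 0) ≤ q ^ S.card

/-- layered processes of depth `d` -/
def LP (V : Type) : ℕ → Type
  | 0 => Unit
  | d + 1 => (Finset V → ℝ) × (Finset V → LP V d)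

/-- the spread condition along all layers; `U` = the part of the ground set still uncovered -/
def Spread (q : ℝ) : (d : ℕ) → Finset V → LP V d → Prop
  | 0, _, _ => True
  | d + 1, U, L => IsLaw L.1 ∧ QSpread q U L.1 ∧ ∀ σ, L.1 σ ≠ 0 → Spread q d (U \ σ) (L.2 σ)

/-- potential: `4^d` times the expected size of the root layer plus the expected potentials below -/
noncomputable def Pot : (d : ℕ) → Finset V → LP V d → ℝ
  | 0, _, _ => 0
  | d + 1, U, L => 4 ^ d * ∑ σ, L.1 σ * ((σ ∩ U).card : ℝ) + ∑ σ, L.1 σ * Pot d (U \ σ) (L.2 σ)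

/-- some trajectory of positive probability has all its layers inside `W` -/
def Win : (d : ℕ) → Finset V → LP V d → Prop
  | 0, _, _ => True
  | d + 1, W, L => ∃ σ, L.1 σ ≠ 0 ∧ σ ⊆ W ∧ Win d W (L.2 σ)

open Crest.CombinatoricsR.RandomGraph

/-- `Perm (Fin n)` acts on edge slots -/
instance edgeAction (n : ℕ) : MulAction (Equiv.Perm (Fin n)) (EdgeSlot n) where
  smul g e := ⟨e.1.map g, by
    have h : e.1.map g = Sym2.map g e.1 := rfl
    rw [Sym2.isDiag_map g.injective]
    exact e.2⟩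
  one_smul e := Subtype.ext (by
    show Sym2.map (⇑(1 : Equiv.Perm (Fin n))) e.1 = e.1
    rw [Equiv.Perm.coe_one]; exact Sym2.map_id' ▸ rfl)
  mul_smul g h e := Subtype.ext (by
    show Sym2.map (⇑(g * h)) e.1 = Sym2.map g (Sym2.map h e.1)
    rw [Equiv.Perm.coe_mul, Sym2.map_map])

theorem edgeAction_coe {n : ℕ} (g : Equiv.Perm (Fin n)) (e : EdgeSlot n) :
    ((g • e : EdgeSlot n) : Sym2 (Fin n)) = Sym2.map g e.1 := rfl

end Crest.Agent.KK
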