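import Mathlib
import Crest.Agent.KKDefs

/-! M3: the layered process built from the orbits of a chain of maximizers. -/

set_option autoImplicit false
set_option linter.unusedSectionVars false

namespace Crest.Agent.KK

open Finset
open scoped Pointwise

variable {V : Type} [Fintype V] [DecidableEq V]
variable {G : Type} [Group G] [Fintype G] [DecidableEq G] [MulAction G V]

/-- number of group elements `g` with `A ⊆ g • B` -/
noncomputable def cnt (G : Type) [Group G] [Fintype G] [DecidableEq G] [MulAction G V]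
    (A B : Finset V) : ℕ := (univ.filter (fun g : G => A ⊆ g • B)).card

theorem cnt_smul (h : G) (A B : Finset V) : cnt G (h • A) B = cnt G A B := by
  unfold cnt
  refine Finset.card_bij' (fun g _ => h⁻¹ * g) (fun g _ => h * g) ?_ ?_ ?_ ?_
  · intro g hg
    simp only [mem_filter, mem_univ, true_and] at hg ⊢
    rw [mul_smul, ← Finset.smul_finset_subset_iff]
    exact hg
  · intro g hg
    simp only [mem_filter, mem_univ, true_and] at hg ⊢
    rw [mul_smul, Finset.smul_finset_subset_smul_finset_iff]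
    exact hg
  · intro g _; group
  · intro g _; group

theorem cnt_empty (B : Finset V) : cnt G (∅ : Finset V) B = Fintype.card G := by
  unfold cnt
  simp

theorem cnt_pos_of_subset (h : G) {A B : Finset V} (hAB : A ⊆ B) : 0 < cnt G (h • A) B := by
  unfold cnt
  apply Finset.card_pos.mpr
  exact ⟨h, by simp [Finset.smul_finset_subset_smul_finset_iff, hAB]⟩

/-- double counting -/
theorem cnt_mul_orbit_le (A B : Finset V) :
    cnt G A B * (univ.image (fun g : G => g • A)).card ≤ 2 ^ B.card * Fintype.card G := by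
  -- cnt G A B = #{g | g • A ⊆ B}
  have h1 : cnt G A B = (univ.filter (fun g : G => g • A ⊆ B)).card := by
    unfold cnt
    refine Finset.card_bij' (fun g _ => g⁻¹) (fun g _ => g⁻¹) ?_ ?_ ?_ ?_
    · intro g hg
      simp only [mem_filter, mem_univ, true_and] at hg ⊢
      rw [Finset.smul_finset_subset_iff, inv_inv]
      exact hg
    · intro g hg
      simp only [mem_filter, mem_univ, true_and] at hg ⊢
      rw [← Finset.smul_finset_subset_iff]
      exact hg
    · intro g _; simp
    · intro g _; simp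
  -- fibres of g ↦ g • A have constant size s
  set s := (univ.filter (fun g : G => g • A = A)).card with hs
  have hfib : ∀ g0 : G, (univ.filter (fun g : G => g • A = g0 • A)).card = s := by
    intro g0
    rw [hs]
    refine Finset.card_bij' (fun g _ => g0⁻¹ * g) (fun g _ => g0 * g) ?_ ?_ ?_ ?_
    · intro g hg
      simp only [mem_filter, mem_univ, true_and] at hg ⊢
      rw [mul_smul, hg, ← mul_smul]; simp
    · intro g hg
      simp only [mem_filter, mem_univ, true_and] at hg ⊢
      rw [mul_smul, hg]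
    · intro g _; group
    · intro g _; group
  have hG : Fintype.card G = (univ.image (fun g : G => g • A)).card * s := by
    have := Finset.card_eq_sum_card_fiberwise (f := fun g : G => g • A) (s := univ)
      (t := univ.image (fun g : G => g • A)) (by intro g _; simp)
    rw [← Finset.card_univ, this]
    rw [Finset.sum_const_nat (m := s)]
    intro X hX
    obtain ⟨g0, -, rfl⟩ := Finset.mem_image.mp hX
    exact hfib g0
  have hc : (univ.filter (fun g : G => g • A ⊆ B)).card ≤ 2 ^ B.card * s := by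
    have := Finset.card_eq_sum_card_fiberwise (f := fun g : G => g • A)
      (s := univ.filter (fun g : G => g • A ⊆ B))
      (t := B.powerset) (by
        intro g hg
        have hg' : g • A ⊆ B := (Finset.mem_filter.mp (Finset.mem_coe.mp hg)).2
        exact Finset.mem_coe.mpr (Finset.mem_powerset.mpr hg'))
    rw [this, ← Finset.card_powerset]
    rw [← smul_eq_mul, ← Finset.sum_const]
    apply Finset.sum_le_sum
    intro X hX
    by_cases hX' : ∃ g0 : G, g0 • A = X
    · obtain ⟨g0, rfl⟩ := hX'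
      rw [← hfib g0]
      apply Finset.card_le_card
      intro g hg
      simp only [mem_filter, mem_univ, true_and] at hg ⊢
      exact hg.2
    · have : (univ.filter (fun g : G => g • A ⊆ B)).filter (fun g : G => g • A = X) = ∅ := by
        apply Finset.filter_eq_empty_iff.mpr
        intro g _ hg
        exact hX' ⟨g, hg⟩
      rw [this]; simp
  rw [h1, hG]
  calc _ ≤ (2 ^ B.card * s) * (univ.image (fun g : G => g • A)).card := by gcongr
    _ = _ := by ring

theorem exists_core (G : Type) [Group G] [Fintype G] [DecidableEq G] [MulAction G V]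
    (q : ℝ) (B : Finset V) : ∃ A, A ⊆ B ∧ ∀ A', A' ⊆ B →
      (cnt G A' B : ℝ) * (q ^ A'.card)⁻¹ ≤ (cnt G A B : ℝ) * (q ^ A.card)⁻¹ := by
  obtain ⟨A, hA, hmax⟩ := Finset.exists_max_image B.powerset
    (fun A => (cnt G A B : ℝ) * (q ^ A.card)⁻¹) ⟨∅, by simp⟩
  exact ⟨A, by simpa using hA, fun A' hA' => hmax A' (by simpa using hA')⟩

noncomputable def core (G : Type) [Group G] [Fintype G] [DecidableEq G] [MulAction G V]
    (q : ℝ) (B : Finset V) : Finset V := Classical.choose (exists_core G q B)

theorem core_subset (q : ℝ) (B : Finset V) : core G q B ⊆ B :=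
  (Classical.choose_spec (exists_core G q B)).1

theorem core_max (q : ℝ) (B : Finset V) : ∀ A', A' ⊆ B →
      (cnt G A' B : ℝ) * (q ^ A'.card)⁻¹ ≤
        (cnt G (core G q B) B : ℝ) * (q ^ (core G q B).card)⁻¹ :=
  (Classical.choose_spec (exists_core G q B)).2

noncomputable def chain (G : Type) [Group G] [Fintype G] [DecidableEq G] [MulAction G V]
    (q : ℝ) (A0 : Finset V) : ℕ → Finset V
  | 0 => A0
  | i + 1 => core G q (chain G q A0 i)

theorem chain_subset (q : ℝ) (A0 : Finset V) (i : ℕ) : chain G q A0 i ⊆ A0 := by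
  induction i with
  | zero => exact Finset.Subset.refl _
  | succ i ih => exact (core_subset q _).trans ih

theorem core_card (A0 B : Finset V) (hB : B ⊆ A0) (p q : ℝ) (hp : 0 < p)
    (hqp : q = Real.exp 50 * p)
    (hA : ∀ A, A ⊆ A0 → A.Nonempty →
      (1 : ℝ) / 2 ≤ ((univ.image (fun g : G => g • A)).card : ℝ) * p ^ A.card) :
    8 * (core G q B).card ≤ B.card := by
  by_cases hne : (core G q B).Nonempty
  swap
  · rw [Finset.not_nonempty_iff_eq_empty] at hne
    rw [hne]; simp
  set A := core G q B with hAdef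
  have hAB : A ⊆ B := core_subset q B
  have hmax := core_max (G := G) q B ∅ (by simp)
  rw [← hAdef, cnt_empty] at hmax
  simp only [card_empty, pow_zero, inv_one, mul_one] at hmax
  have hdc : ((cnt G A B : ℕ) : ℝ) * ((univ.image (fun g : G => g • A)).card : ℝ) ≤
      2 ^ B.card * (Fintype.card G : ℝ) := by exact_mod_cast cnt_mul_orbit_le (G := G) A B
  have hAp := hA A (hAB.trans hB) hne
  have hGpos : (0 : ℝ) < Fintype.card G := by exact_mod_cast Fintype.card_pos
  have hq : 0 < q := by rw [hqp]; positivity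
  have hppow : 0 < p ^ A.card := by positivity
  have hqpow : 0 < q ^ A.card := by positivity
  have horb : (0 : ℝ) < ((univ.image (fun g : G => g • A)).card : ℝ) := by
    by_contra hcon
    have : ((univ.image (fun g : G => g • A)).card : ℝ) * p ^ A.card ≤ 0 :=
      mul_nonpos_of_nonpos_of_nonneg (not_lt.mp hcon) hppow.le
    linarith
  -- |G| q^|A| ≤ cnt
  have h2 : (Fintype.card G : ℝ) * q ^ A.card ≤ cnt G A B := by
    have := mul_le_mul_of_nonneg_right hmax hqpow.le
    rwa [mul_assoc, inv_mul_cancel₀ hqpow.ne', mul_one] at this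
  -- q^|A| * |orb| ≤ 2^|B|
  have h3 : q ^ A.card * ((univ.image (fun g : G => g • A)).card : ℝ) ≤ 2 ^ B.card := by
    have h4 : (Fintype.card G : ℝ) * (q ^ A.card * ((univ.image (fun g : G => g • A)).card : ℝ)) ≤
        (Fintype.card G : ℝ) * 2 ^ B.card := by
      calc _ = ((Fintype.card G : ℝ) * q ^ A.card) * ((univ.image (fun g : G => g • A)).card : ℝ) := by
            ring
        _ ≤ (cnt G A B : ℝ) * ((univ.image (fun g : G => g • A)).card : ℝ) := by gcongr
        _ ≤ _ := by rw [mul_comm (Fintype.card G : ℝ)]; exact hdc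
    exact le_of_mul_le_mul_left h4 hGpos
  -- exp(50)^|A| ≤ 2^(|B|+1)
  have h5 : Real.exp 50 ^ A.card ≤ 2 ^ (B.card + 1) := by
    have hq2 : q ^ A.card = Real.exp 50 ^ A.card * p ^ A.card := by rw [hqp, mul_pow]
    rw [hq2] at h3
    have h6 : Real.exp 50 ^ A.card * (1 / 2) ≤
        Real.exp 50 ^ A.card * (((univ.image (fun g : G => g • A)).card : ℝ) * p ^ A.card) := by
      gcongr
    have h7 : Real.exp 50 ^ A.card * (((univ.image (fun g : G => g • A)).card : ℝ) * p ^ A.card)
        ≤ 2 ^ B.card := by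
      calc _ = Real.exp 50 ^ A.card * p ^ A.card * ((univ.image (fun g : G => g • A)).card : ℝ) := by
            ring
        _ ≤ _ := h3
    rw [pow_succ]
    linarith
  -- exp 50 ≥ 2^16
  have h8 : (2 : ℝ) ^ 16 ≤ Real.exp 50 := by
    have h9 : (2 : ℝ) ≤ Real.exp 1 := by
      have := Real.add_one_le_exp (1 : ℝ); linarith
    calc (2 : ℝ) ^ 16 ≤ (Real.exp 1) ^ 16 := by gcongr
      _ = Real.exp 16 := by rw [← Real.exp_nat_mul]; norm_num
      _ ≤ Real.exp 50 := Real.exp_le_exp.mpr (by norm_num)
  have h10 : (2 : ℝ) ^ (16 * A.card) ≤ 2 ^ (B.card + 1) := by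
    calc (2 : ℝ) ^ (16 * A.card) = (2 ^ 16) ^ A.card := by rw [pow_mul]
      _ ≤ Real.exp 50 ^ A.card := by gcongr
      _ ≤ _ := h5
  have h11 : 16 * A.card ≤ B.card + 1 := by
    rwa [pow_le_pow_iff_right₀ (by norm_num : (1 : ℝ) < 2)] at h10
  have h12 : 1 ≤ A.card := Finset.card_pos.mpr hne
  have h13 : A.card ≤ B.card := Finset.card_le_card hAB
  omega

/-- law of `g • B` conditioned on `x ⊆ g • B` -/
noncomputable def Klaw (G : Type) [Group G] [Fintype G] [DecidableEq G] [MulAction G V]
    (B x : Finset V) : Finset V → ℝ := fun σ =>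
  ((univ.filter (fun g : G => g • B = σ ∧ x ⊆ g • B)).card : ℝ) / (cnt G x B : ℝ)

theorem sum_Klaw (B x : Finset V) (f : Finset V → ℝ) :
    ∑ σ, Klaw G B x σ * f σ = (∑ g : G, if x ⊆ g • B then f (g • B) else 0) / (cnt G x B : ℝ) := by
  have h : ∀ σ : Finset V, Klaw G B x σ * f σ =
      (∑ g : G, if g • B = σ then (if x ⊆ g • B then f (g • B) else 0) else 0) / (cnt G x B : ℝ) := by
    intro σ
    unfold Klaw
    rw [div_mul_eq_mul_div]
    congr 1
    rw [Finset.card_filter]
    push_cast
    rw [Finset.sum_mul]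
    apply Finset.sum_congr rfl
    intro g _
    by_cases h1 : g • B = σ
    · by_cases h2 : x ⊆ g • B
      · simp only [h1, true_and, if_true]
        rw [h1] at h2
        simp [h2]
      · simp [h2]
    · simp [h1]
  simp_rw [h]
  rw [← Finset.sum_div]
  congr 1
  rw [Finset.sum_comm]
  apply Finset.sum_congr rfl
  intro g _
  rw [Finset.sum_ite_eq]
  simp

theorem Klaw_nonneg (B x σ : Finset V) : 0 ≤ Klaw G B x σ := by
  unfold Klaw; positivity

theorem Klaw_isLaw (B x : Finset V) (h : 0 < cnt G x B) : IsLaw (Klaw G B x) := by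
  refine ⟨fun σ => Klaw_nonneg B x σ, ?_⟩
  have := sum_Klaw (G := G) B x (fun _ => 1)
  simp only [mul_one] at this
  rw [this]
  rw [div_eq_one_iff_eq (by exact_mod_cast h.ne')]
  unfold cnt
  rw [Finset.card_filter]
  push_cast
  rfl

theorem Klaw_support {B x σ : Finset V} (h : Klaw G B x σ ≠ 0) : ∃ g : G, σ = g • B ∧ x ⊆ σ := by
  unfold Klaw at h
  have h1 : (univ.filter (fun g : G => g • B = σ ∧ x ⊆ g • B)).card ≠ 0 := by
    intro h0
    apply h
    rw [h0]; simp
  obtain ⟨g, hg⟩ := Finset.card_ne_zero.mp h1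
  simp only [mem_filter, mem_univ, true_and] at hg
  exact ⟨g, hg.1.symm, hg.1 ▸ hg.2⟩

theorem Klaw_spread (q : ℝ) (hq : 0 < q) (B x : Finset V) (h : G) (hx : x = h • core G q B) :
    QSpread q (univ \ x) (Klaw G B x) := by
  intro S hS
  have hpos : 0 < cnt G x B := by
    rw [hx]; exact cnt_pos_of_subset h (core_subset q B)
  have h1 : ∑ σ, (if S ⊆ σ then Klaw G B x σ else 0) = (cnt G (x ∪ S) B : ℝ) / (cnt G x B : ℝ) := by
    have := sum_Klaw (G := G) B x (fun σ => if S ⊆ σ then 1 else 0)
    simp only [mul_ite, mul_one, mul_zero] at this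
    rw [this]
    congr 1
    unfold cnt
    rw [Finset.card_filter]
    push_cast
    apply Finset.sum_congr rfl
    intro g _
    by_cases h1 : x ⊆ g • B <;> by_cases h2 : S ⊆ g • B <;>
      simp [Finset.union_subset_iff, h1, h2]
  rw [h1, div_le_iff₀ (by exact_mod_cast hpos)]
  have hdisj : Disjoint x S := by
    rw [Finset.disjoint_left]
    intro a ha haS
    have := hS haS
    simp only [mem_sdiff, mem_univ, true_and] at this
    exact this ha
  have hcard : (x ∪ S).card = x.card + S.card := Finset.card_union_of_disjoint hdisj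
  by_cases h0 : cnt G (x ∪ S) B = 0
  · rw [h0]; push_cast; positivity
  · have h0' : (univ.filter (fun g : G => x ∪ S ⊆ g • B)).card ≠ 0 := h0
    obtain ⟨g0, hg0⟩ := Finset.card_ne_zero.mp h0'
    simp only [mem_filter, mem_univ, true_and] at hg0
    have hsub : g0⁻¹ • (x ∪ S) ⊆ B := by
      rw [Finset.smul_finset_subset_iff, inv_inv]; exact hg0
    have hm := core_max (G := G) q B _ hsub
    rw [cnt_smul, Finset.card_smul_finset] at hm
    have e1 : cnt G (core G q B) B = cnt G x B := by rw [hx, cnt_smul]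
    have e2 : (core G q B).card = x.card := by rw [hx, Finset.card_smul_finset]
    rw [e1, e2, hcard, pow_add] at hm
    have hqx : 0 < q ^ x.card := by positivity
    have hqS : 0 < q ^ S.card := by positivity
    have hm2 := mul_le_mul_of_nonneg_right hm (mul_pos hqx hqS).le
    rw [mul_assoc, inv_mul_cancel₀ (mul_pos hqx hqS).ne', mul_one] at hm2
    calc (cnt G (x ∪ S) B : ℝ) ≤ (cnt G x B : ℝ) * (q ^ x.card)⁻¹ * (q ^ x.card * q ^ S.card) := hm2
      _ = q ^ S.card * (cnt G x B : ℝ) := by
          field_simp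

noncomputable def build (G : Type) [Group G] [Fintype G] [DecidableEq G] [MulAction G V]
    (A : ℕ → Finset V) : (i : ℕ) → Finset V → LP V i
  | 0, _ => ()
  | i + 1, x => (Klaw G (A i) x, fun σ => build G A i σ)

theorem law_avg_le {K f : Finset V → ℝ} (hK : IsLaw K) (M : ℝ) (h : ∀ σ, K σ ≠ 0 → f σ ≤ M) :
    ∑ σ, K σ * f σ ≤ M := by
  calc ∑ σ, K σ * f σ ≤ ∑ σ, K σ * M := by
        apply Finset.sum_le_sum
        intro σ _
        by_cases h0 : K σ = 0
        · rw [h0]; simp
        · exact mul_le_mul_of_nonneg_left (h σ h0) (hK.1 σ)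
    _ = M := by rw [← Finset.sum_mul, hK.2, one_mul]

theorem build_spread (q : ℝ) (hq : 0 < q) (A0 : Finset V) (i : ℕ) :
    ∀ x, (∃ h : G, x = h • chain G q A0 i) →
      Spread q i (univ \ x) (build G (chain G q A0) i x) := by
  induction i with
  | zero => intro x _; trivial
  | succ i ih =>
    rintro x ⟨h, hx⟩
    have hx' : x = h • core G q (chain G q A0 i) := hx
    have hpos : 0 < cnt G x (chain G q A0 i) := by
      rw [hx']; exact cnt_pos_of_subset h (core_subset q _)
    refine ⟨Klaw_isLaw _ _ hpos, Klaw_spread q hq _ _ h hx', ?_⟩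
    intro σ hσ
    obtain ⟨g, hg, hxσ⟩ := Klaw_support (G := G) (B := chain G q A0 i) (x := x) (σ := σ) hσ
    have : (univ \ x) \ σ = univ \ σ := by
      rw [sdiff_sdiff_left]
      congr 1
      exact Finset.union_eq_right.mpr hxσ
    rw [this]
    exact ih σ ⟨g, hg⟩

theorem build_pot (q : ℝ) (A0 : Finset V) (i : ℕ) :
    ∀ x, (∃ h : G, x = h • chain G q A0 i) →
      Pot i (univ \ x) (build G (chain G q A0) i x) ≤
        ∑ j ∈ range i, 4 ^ j * ((chain G q A0 j).card : ℝ) := by
  induction i with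
  | zero => intro x _; simp [Pot]
  | succ i ih =>
    rintro x ⟨h, hx⟩
    have hx' : x = h • core G q (chain G q A0 i) := hx
    have hpos : 0 < cnt G x (chain G q A0 i) := by
      rw [hx']; exact cnt_pos_of_subset h (core_subset q _)
    have hK := Klaw_isLaw (G := G) _ _ hpos
    show 4 ^ i * ∑ σ, Klaw G (chain G q A0 i) x σ * ((σ ∩ (univ \ x)).card : ℝ) +
      ∑ σ, Klaw G (chain G q A0 i) x σ *
        Pot i ((univ \ x) \ σ) (build G (chain G q A0) i σ) ≤ _
    rw [Finset.sum_range_succ, add_comm]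
    apply add_le_add
    · apply law_avg_le hK
      intro σ hσ
      obtain ⟨g, hg, hxσ⟩ := Klaw_support (G := G) (B := chain G q A0 i) (x := x) (σ := σ) hσ
      have : (univ \ x) \ σ = univ \ σ := by
        rw [sdiff_sdiff_left]
        congr 1
        exact Finset.union_eq_right.mpr hxσ
      rw [this]
      exact ih σ ⟨g, hg⟩
    · apply mul_le_mul_of_nonneg_left _ (by positivity)
      apply law_avg_le hK
      intro σ hσ
      obtain ⟨g, hg, hxσ⟩ := Klaw_support (G := G) (B := chain G q A0 i) (x := x) (σ := σ) hσ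
      have h1 : (σ ∩ (univ \ x)).card ≤ σ.card := Finset.card_le_card Finset.inter_subset_left
      have h2 : σ.card = (chain G q A0 i).card := by rw [hg, Finset.card_smul_finset]
      rw [← h2]
      exact_mod_cast h1

theorem build_win (q : ℝ) (A0 W : Finset V) (i : ℕ) :
    ∀ x, Win (i + 1) W (build G (chain G q A0) (i + 1) x) → ∃ g : G, g • A0 ⊆ W := by
  induction i with
  | zero =>
    rintro x ⟨σ, hσ, hσW, -⟩
    obtain ⟨g, hg, -⟩ := Klaw_support (G := G) (B := chain G q A0 0) (x := x) (σ := σ) hσ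
    exact ⟨g, by rw [hg] at hσW; exact hσW⟩
  | succ i ih =>
    rintro x ⟨σ, hσ, hσW, hw⟩
    exact ih σ hw

theorem exists_process (A0 : Finset V) (hA0 : A0.Nonempty) (p q : ℝ) (hp : 0 < p)
    (hqp : q = Real.exp 50 * p)
    (hA : ∀ A, A ⊆ A0 → A.Nonempty →
      (1 : ℝ) / 2 ≤ ((univ.image (fun g : G => g • A)).card : ℝ) * p ^ A.card) :
    ∃ (d : ℕ) (L : LP V d), Spread q d univ L ∧ Pot d univ L ≤ 2 * (A0.card : ℝ) ∧
      ∀ W, Win d W L → ∃ g : G, g • A0 ⊆ W := by
  have hq : 0 < q := by rw [hqp]; positivity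
  have hcard : ∀ i, 8 ^ i * (chain G q A0 i).card ≤ A0.card := by
    intro i
    induction i with
    | zero => simp [chain]
    | succ i ih =>
      have h1 := core_card (G := G) A0 (chain G q A0 i) (chain_subset q A0 i) p q hp hqp hA
      have h2 : chain G q A0 (i + 1) = core G q (chain G q A0 i) := rfl
      rw [h2, pow_succ, mul_assoc]
      exact (Nat.mul_le_mul_left _ h1).trans ih
  obtain ⟨r, hr⟩ : ∃ r, A0.card = r + 1 := ⟨A0.card - 1, by
    have := Finset.card_pos.mpr hA0; omega⟩
  have hempty : chain G q A0 (r + 1) = ∅ := by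
    have h1 := hcard (r + 1)
    rw [← Finset.card_eq_zero]
    by_contra h0
    have h2 : 8 ^ (r + 1) ≤ A0.card := by
      calc 8 ^ (r + 1) = 8 ^ (r + 1) * 1 := by ring
        _ ≤ 8 ^ (r + 1) * (chain G q A0 (r + 1)).card :=
          Nat.mul_le_mul_left _ (Nat.one_le_iff_ne_zero.mpr h0)
        _ ≤ _ := h1
    rw [hr] at h2
    exact absurd h2 (not_le.mpr (Nat.lt_pow_self (by norm_num)))
  have hx : ∃ h : G, (∅ : Finset V) = h • chain G q A0 (r + 1) := ⟨1, by rw [hempty]; simp⟩
  refine ⟨r + 1, build G (chain G q A0) (r + 1) ∅, ?_, ?_, ?_⟩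
  · have := build_spread (G := G) q hq A0 (r + 1) ∅ hx
    rwa [Finset.sdiff_empty] at this
  · have := build_pot (G := G) q A0 (r + 1) ∅ hx
    rw [Finset.sdiff_empty] at this
    refine this.trans ?_
    have h3 : ∀ j, (4 : ℝ) ^ j * ((chain G q A0 j).card : ℝ) ≤ (A0.card : ℝ) * (1 / 2) ^ j := by
      intro j
      have h4 : (8 : ℝ) ^ j * ((chain G q A0 j).card : ℝ) ≤ (A0.card : ℝ) := by
        exact_mod_cast hcard j
      have h5 : (8 : ℝ) ^ j = 4 ^ j * 2 ^ j := by rw [← mul_pow]; norm_num
      rw [h5] at h4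
      have h6 : ((1 : ℝ) / 2) ^ j = ((2 : ℝ) ^ j)⁻¹ := by rw [one_div, inv_pow]
      rw [h6, ← div_eq_mul_inv, le_div_iff₀ (by positivity)]
      linarith [h4, mul_comm ((4 : ℝ) ^ j * ((chain G q A0 j).card : ℝ)) (2 ^ j),
        mul_assoc ((4 : ℝ) ^ j) (2 ^ j) ((chain G q A0 j).card : ℝ),
        mul_comm ((2 : ℝ) ^ j) ((chain G q A0 j).card : ℝ),
        mul_assoc ((4 : ℝ) ^ j) ((chain G q A0 j).card : ℝ) (2 ^ j)]
    calc ∑ j ∈ range (r + 1), (4 : ℝ) ^ j * ((chain G q A0 j).card : ℝ)
        ≤ ∑ j ∈ range (r + 1), (A0.card : ℝ) * (1 / 2) ^ j := Finset.sum_le_sum fun j _ => h3 j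
      _ = (A0.card : ℝ) * ∑ j ∈ range (r + 1), ((1 : ℝ) / 2) ^ j := by rw [Finset.mul_sum]
      _ ≤ (A0.card : ℝ) * 2 := by
          gcongr
          rw [geom_sum_eq (by norm_num)]
          have : (0 : ℝ) < (1 / 2) ^ (r + 1) := by positivity
          rw [div_le_iff_of_neg (by norm_num)]
          linarith
      _ = _ := by ring
  · intro W hw
    exact build_win (G := G) q A0 W r ∅ hw

end Crest.Agent.KK
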