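import Mathlib
import Crest.Agent.KKDefs

/-! M4: the graph part. -/

set_option autoImplicit false

namespace Crest.Agent.KK

open Finset
open scoped Pointwise
open Crest.CombinatoricsR.RandomGraph

theorem graphOf_adj_iff {n : ℕ} (ω : EdgeSlot n → Bool) (x y : Fin n) :
    (graphOf ω).Adj x y ↔ ∃ h : ¬ (s(x, y)).IsDiag, ω ⟨s(x, y), h⟩ = true := by
  unfold graphOf
  rw [SimpleGraph.fromEdgeSet_adj]
  constructor
  · rintro ⟨h, _⟩; exact h
  · rintro ⟨h, h'⟩
    refine ⟨⟨h, h'⟩, ?_⟩
    simpa using h

/-- the probability that all slots of `X` are heads -/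
theorem sum_weight_subset {α : Type*} [Fintype α] [DecidableEq α] (p : ℝ) (X : Finset α) :
    ∑ ω : α → Bool, Crest.FinProb.bernoulliWeight p ω *
      (if ∀ e ∈ X, ω e = true then (1 : ℝ) else 0) = p ^ X.card := by
  classical
  have h1 : ∀ ω : α → Bool, Crest.FinProb.bernoulliWeight p ω *
      (if ∀ e ∈ X, ω e = true then (1 : ℝ) else 0) =
      ∏ i, (if ω i then p else (if i ∈ X then 0 else 1 - p)) := by
    intro ω
    unfold Crest.FinProb.bernoulliWeight
    by_cases h : ∀ e ∈ X, ω e = true
    · rw [if_pos h, mul_one]
      refine Finset.prod_congr rfl fun i _ => ?_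
      by_cases hi : ω i = true
      · simp [hi]
      · have : i ∉ X := fun h' => hi (h i h')
        simp [hi, this]
    · rw [if_neg h, mul_zero]
      push Not at h
      obtain ⟨e, he, hω⟩ := h
      symm
      apply Finset.prod_eq_zero (Finset.mem_univ e)
      simp [hω, he]
  rw [Finset.sum_congr rfl fun ω _ => h1 ω]
  have h2 := Finset.prod_univ_sum (fun _ : α => (Finset.univ : Finset Bool))
    (fun i (b : Bool) => (if b then p else (if i ∈ X then (0 : ℝ) else 1 - p)))
  rw [Fintype.piFinset_univ] at h2
  rw [← h2]
  have h3 : ∀ i : α, ∑ b : Bool, (if b then p else (if i ∈ X then (0 : ℝ) else 1 - p)) =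
      if i ∈ X then p else 1 := by
    intro i
    by_cases hi : i ∈ X <;> simp [hi]
  rw [Finset.prod_congr rfl fun i _ => h3 i]
  rw [Finset.prod_ite]
  simp

theorem graph_part (n : ℕ) (W : Type) [Fintype W] [DecidableEq W] (H : SimpleGraph W)
    [DecidableRel H.Adj] (hW : Fintype.card W ≤ n) (p : ℝ) (hp0 : 0 ≤ p) (hp1 : p ≤ 1)
    (hE : ∀ F : H.Subgraph, (1 : ℝ) / 2 ≤
      gnpExpect n p (fun G => (G.copyCount F.coe : ℝ))) :
    ∃ A0 : Finset (EdgeSlot n), A0.card = H.edgeFinset.card ∧
      (∀ A, A ⊆ A0 → A.Nonempty → (1 : ℝ) / 2 ≤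
        ((univ.image (fun g : Equiv.Perm (Fin n) => g • A)).card : ℝ) * p ^ A.card) ∧
      ∀ (g : Equiv.Perm (Fin n)) (ω : EdgeSlot n → Bool),
        (∀ e ∈ g • A0, ω e = true) → H.IsContained (graphOf ω) := by
  classical
  obtain ⟨ι⟩ : Nonempty (W ↪ Fin n) := by
    apply Function.Embedding.nonempty_of_card_le
    simpa using hW
  set A0 : Finset (EdgeSlot n) :=
    univ.filter (fun e : EdgeSlot n => ∃ u v, H.Adj u v ∧ e.1 = s(ι u, ι v)) with hA0
  have hnd : ∀ u v, H.Adj u v → ¬ (s(ι u, ι v)).IsDiag := by
    intro u v h h'
    rw [Sym2.mk_isDiag_iff] at h'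
    exact h.ne (ι.injective h')
  refine ⟨A0, ?_, ?_, ?_⟩
  · symm
    refine Finset.card_bij (fun e he => (⟨Sym2.map ι e, by
      revert he
      induction e using Sym2.ind with
      | _ u v =>
        intro he
        rw [SimpleGraph.mem_edgeFinset, SimpleGraph.mem_edgeSet] at he
        exact hnd u v he⟩ : EdgeSlot n)) ?_ ?_ ?_
    · intro e he
      rw [hA0, Finset.mem_filter]
      refine ⟨Finset.mem_univ _, ?_⟩
      revert he
      induction e using Sym2.ind with
      | _ u v =>
        intro he
        rw [SimpleGraph.mem_edgeFinset, SimpleGraph.mem_edgeSet] at he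
        exact ⟨u, v, he, rfl⟩
    · intro e he e' he' h
      have h' := congrArg Subtype.val h
      exact Sym2.map.injective ι.injective h'
    · intro b hb
      rw [hA0, Finset.mem_filter] at hb
      obtain ⟨-, u, v, huv, hbv⟩ := hb
      refine ⟨s(u, v), ?_, ?_⟩
      · rw [SimpleGraph.mem_edgeFinset, SimpleGraph.mem_edgeSet]
        exact huv
      · apply Subtype.ext
        exact hbv.symm
  · intro A hA hAne
    -- the subgraph spanned by the edges of `A`
    let adjA : W → W → Prop := fun u v => H.Adj u v ∧ ∃ a ∈ A, a.1 = s(ι u, ι v)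
    let F : H.Subgraph :=
      { verts := {v | ∃ u, adjA v u}
        Adj := adjA
        adj_sub := fun h => h.1
        edge_vert := fun {v w} h => ⟨w, h⟩
        symm := ⟨fun u v h => ⟨h.1.symm, by
          obtain ⟨a, ha, hav⟩ := h.2
          exact ⟨a, ha, by rw [hav]; exact Sym2.eq_swap⟩⟩⟩ }
    have hF := hE F
    have key : ∀ ω : EdgeSlot n → Bool, ((graphOf ω).copyCount F.coe : ℝ) ≤
        ∑ X ∈ univ.image (fun g : Equiv.Perm (Fin n) => g • A),
          (if ∀ e ∈ X, ω e = true then (1 : ℝ) else 0) := by
      intro ω
      rw [Finset.sum_boole]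
      refine Nat.cast_le.2 ?_
      rw [SimpleGraph.copyCount]
      refine Finset.card_le_card_of_injOn
        (fun G' => univ.filter (fun e : EdgeSlot n => e.1 ∈ G'.edgeSet)) ?_ ?_
      · intro G' hG'
        rw [Finset.mem_coe, Finset.mem_filter] at hG'
        obtain ⟨-, ⟨σ⟩⟩ := hG'
        rw [Finset.mem_coe, Finset.mem_filter, Finset.mem_image]
        refine ⟨?_, ?_⟩
        · -- extension of the isomorphism
          let e1 : {x : Fin n // x ∈ ι '' F.verts} ≃ F.verts :=
            (Equiv.Set.image ι F.verts ι.injective).symm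
          let e2 : {x : Fin n // x ∈ ι '' F.verts} ≃ {x : Fin n // x ∈ G'.verts} :=
            e1.trans σ.toEquiv
          have hg : ∀ v : F.verts, e2.extendSubtype (ι v.1) = (σ v).1 := by
            intro v
            rw [Equiv.extendSubtype_apply_of_mem e2 (ι v.1) ⟨v.1, v.2, rfl⟩]
            have : e1 ⟨ι v.1, ⟨v.1, v.2, rfl⟩⟩ = v := by
              apply (Equiv.symm_apply_eq _).2
              rfl
            show ((σ (e1 _)) : Fin n) = _
            rw [this]
          refine ⟨e2.extendSubtype, Finset.mem_univ _, ?_⟩
          ext e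
          rw [Finset.mem_filter]
          constructor
          · intro he
            refine ⟨Finset.mem_univ _, ?_⟩
            rw [Finset.mem_smul_finset] at he
            obtain ⟨a, ha, rfl⟩ := he
            have haA := hA ha
            rw [hA0, Finset.mem_filter] at haA
            obtain ⟨-, u, v, huv, hav⟩ := haA
            have hadj : adjA u v := ⟨huv, a, ha, hav⟩
            rw [edgeAction_coe, hav, Sym2.map_mk]
            have hu : u ∈ F.verts := ⟨v, hadj⟩
            have hv : v ∈ F.verts := F.edge_vert (F.adj_symm hadj)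
            have h1 := hg ⟨u, hu⟩
            have h2 := hg ⟨v, hv⟩
            simp only at h1 h2
            show s(e2.extendSubtype (ι u), e2.extendSubtype (ι v)) ∈ _
            rw [h1, h2, SimpleGraph.Subgraph.mem_edgeSet]
            have h3 : F.coe.Adj ⟨u, hu⟩ ⟨v, hv⟩ := hadj
            have h4 := σ.map_rel_iff.2 h3
            exact h4
          · rintro ⟨-, he⟩
            obtain ⟨z, hz⟩ := e
            revert he hz
            induction z using Sym2.ind with
            | _ x y =>
              intro hz he
              rw [SimpleGraph.Subgraph.mem_edgeSet] at he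
              have hx : x ∈ G'.verts := G'.edge_vert he
              have hy : y ∈ G'.verts := G'.edge_vert (G'.adj_symm he)
              have h3 : G'.coe.Adj ⟨x, hx⟩ ⟨y, hy⟩ := he
              obtain ⟨u, hu⟩ := σ.surjective ⟨x, hx⟩
              obtain ⟨v, hv⟩ := σ.surjective ⟨y, hy⟩
              rw [← hu, ← hv] at h3
              have h4 : F.coe.Adj u v := σ.map_rel_iff.1 h3
              have h5 : adjA u.1 v.1 := h4
              obtain ⟨a, ha, hav⟩ := h5.2
              rw [Finset.mem_smul_finset]
              refine ⟨a, ha, ?_⟩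
              apply Subtype.ext
              rw [edgeAction_coe, hav, Sym2.map_mk]
              show s(e2.extendSubtype (ι u.1), e2.extendSubtype (ι v.1)) = s(x, y)
              rw [hg u, hg v, hu, hv]
        · intro e he
          obtain ⟨z, hz⟩ := e
          revert he hz
          induction z using Sym2.ind with
          | _ x y =>
            intro hz he
            rw [Finset.mem_filter] at he
            have he2 : G'.Adj x y := he.2
            have h1 := G'.adj_sub he2
            rw [graphOf_adj_iff] at h1
            obtain ⟨h, hω⟩ := h1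
            exact hω
      · intro G1 hG1 G2 hG2 h12
        rw [Finset.mem_coe, Finset.mem_filter] at hG1 hG2
        obtain ⟨-, ⟨σ1⟩⟩ := hG1
        obtain ⟨-, ⟨σ2⟩⟩ := hG2
        simp only at h12
        have hadj : ∀ x y, G1.Adj x y ↔ G2.Adj x y := by
          intro x y
          constructor
          · intro h
            have hd : ¬ (s(x, y)).IsDiag := by
              rw [Sym2.mk_isDiag_iff]
              exact (G1.adj_sub h).ne
            have : (⟨s(x, y), hd⟩ : EdgeSlot n) ∈
                univ.filter (fun e : EdgeSlot n => e.1 ∈ G1.edgeSet) := by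
              rw [Finset.mem_filter]
              exact ⟨Finset.mem_univ _, h⟩
            rw [h12, Finset.mem_filter] at this
            exact this.2
          · intro h
            have hd : ¬ (s(x, y)).IsDiag := by
              rw [Sym2.mk_isDiag_iff]
              exact (G2.adj_sub h).ne
            have : (⟨s(x, y), hd⟩ : EdgeSlot n) ∈
                univ.filter (fun e : EdgeSlot n => e.1 ∈ G2.edgeSet) := by
              rw [Finset.mem_filter]
              exact ⟨Finset.mem_univ _, h⟩
            rw [← h12, Finset.mem_filter] at this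
            exact this.2
        have hiso : ∀ (G' : (graphOf ω).Subgraph), (F.coe ≃g G'.coe) →
            ∀ x ∈ G'.verts, ∃ y, G'.Adj x y := by
          intro G' σ x hx
          obtain ⟨u, hu⟩ := σ.surjective ⟨x, hx⟩
          obtain ⟨w, hw⟩ := u.2
          have hwF : w ∈ F.verts := F.edge_vert (F.adj_symm hw)
          have h3 : F.coe.Adj u ⟨w, hwF⟩ := hw
          have h4 := σ.map_rel_iff.2 h3
          rw [hu] at h4
          exact ⟨_, h4⟩
        apply SimpleGraph.Subgraph.ext
        · ext x
          constructor
          · intro hx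
            obtain ⟨y, hy⟩ := hiso G1 σ1 x hx
            exact G2.edge_vert ((hadj x y).1 hy)
          · intro hx
            obtain ⟨y, hy⟩ := hiso G2 σ2 x hx
            exact G1.edge_vert ((hadj x y).2 hy)
        · ext x y
          exact hadj x y
    calc (1 : ℝ) / 2 ≤ gnpExpect n p (fun G => (G.copyCount F.coe : ℝ)) := hF
      _ ≤ ∑ ω : EdgeSlot n → Bool, Crest.FinProb.bernoulliWeight p ω *
          ∑ X ∈ univ.image (fun g : Equiv.Perm (Fin n) => g • A),
          (if ∀ e ∈ X, ω e = true then (1 : ℝ) else 0) := by
          unfold gnpExpect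
          refine Finset.sum_le_sum fun ω _ => ?_
          refine mul_le_mul_of_nonneg_left (key ω) ?_
          unfold Crest.FinProb.bernoulliWeight
          refine Finset.prod_nonneg fun i _ => ?_
          split_ifs
          · exact hp0
          · linarith
      _ = ∑ X ∈ univ.image (fun g : Equiv.Perm (Fin n) => g • A), p ^ X.card := by
          simp_rw [Finset.mul_sum]
          rw [Finset.sum_comm]
          refine Finset.sum_congr rfl fun X _ => ?_
          exact sum_weight_subset p X
      _ = ∑ X ∈ univ.image (fun g : Equiv.Perm (Fin n) => g • A), p ^ A.card := by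
          refine Finset.sum_congr rfl fun X hX => ?_
          rw [Finset.mem_image] at hX
          obtain ⟨g, -, rfl⟩ := hX
          rw [Finset.card_smul_finset]
      _ = ((univ.image (fun g : Equiv.Perm (Fin n) => g • A)).card : ℝ) * p ^ A.card := by
          rw [Finset.sum_const, nsmul_eq_mul]
  · intro g ω hω
    refine ⟨⟨⟨fun v => g (ι v), ?_⟩, ?_⟩⟩
    · intro u v huv
      rw [graphOf_adj_iff]
      have hd : ¬ (s(g (ι u), g (ι v))).IsDiag := by
        rw [Sym2.mk_isDiag_iff]
        intro h
        exact huv.ne (ι.injective (g.injective h))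
      refine ⟨hd, ?_⟩
      apply hω
      rw [Finset.mem_smul_finset]
      refine ⟨⟨s(ι u, ι v), hnd u v huv⟩, ?_, ?_⟩
      · rw [hA0, Finset.mem_filter]
        exact ⟨Finset.mem_univ _, u, v, huv, rfl⟩
      · apply Subtype.ext
        rfl
    · intro u v h
      exact ι.injective (g.injective h)

end Crest.Agent.KK
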