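import Mathlib
import Crest.Agent.KKDefs

/-! M1: the one-level entropy lemma (owner helper6). -/

set_option autoImplicit false
set_option linter.unusedSectionVars false

namespace Crest.Agent.KK

open Finset

variable {V : Type} [Fintype V] [DecidableEq V]

namespace One

/-- pointwise Gibbs inequality -/
theorem gibbs_term {M C : ℝ} (hM : 0 ≤ M) (hC : 0 ≤ C) (h : M ≠ 0 → C ≠ 0) :
    M - C ≤ M * Real.log (M / C) := by
  rcases eq_or_ne M 0 with h0 | h0
  · subst h0; simp; exact hC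
  · have hMp : 0 < M := lt_of_le_of_ne hM (Ne.symm h0)
    have hCp : 0 < C := lt_of_le_of_ne hC (Ne.symm (h h0))
    have h1 : 1 - (M / C)⁻¹ ≤ Real.log (M / C) :=
      Real.one_sub_inv_le_log_of_pos (div_pos hMp hCp)
    have h2 : M * (1 - (M / C)⁻¹) ≤ M * Real.log (M / C) :=
      mul_le_mul_of_nonneg_left h1 hM
    have h3 : M * (1 - (M / C)⁻¹) = M - C := by
      rw [inv_div]; field_simp
    linarith

/-- sums over the fibre `w \ A = u` -/
theorem sum_fiber (A u : Finset V) (hd : Disjoint u A) (F : Finset V → ℝ) :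
    ∑ w, (if w \ A = u then F w else 0) = ∑ R ∈ A.powerset, F (u ∪ (A \ R)) := by
  rw [← Finset.sum_filter]
  symm
  apply Finset.sum_bij' (fun R _ => u ∪ (A \ R)) (fun w _ => A \ w)
  · intro R hR
    simp only [mem_filter, mem_univ, true_and]
    ext x
    simp only [mem_sdiff, mem_union]
    constructor
    · rintro ⟨h1 | h1, h2⟩
      · exact h1
      · exact absurd h1.1 h2
    · intro h; exact ⟨Or.inl h, Finset.disjoint_left.mp hd h⟩
  · intro w hw
    simp only [mem_powerset]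
    exact sdiff_subset
  · intro R hR
    rw [mem_powerset] at hR
    ext x
    simp only [mem_sdiff, mem_union]
    constructor
    · rintro ⟨h1, h2⟩
      by_contra h3
      exact h2 (Or.inr ⟨h1, h3⟩)
    · intro h
      refine ⟨hR h, ?_⟩
      rintro (h1 | h1)
      · exact Finset.disjoint_left.mp hd h1 (hR h)
      · exact h1.2 h
  · intro w hw
    simp only [mem_filter, mem_univ, true_and] at hw
    subst hw
    ext x
    simp only [mem_sdiff, mem_union]
    tauto
  · intro R hR; rfl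

omit [Fintype V] in
/-- binomial identity -/
theorem sum_powerset_pow (A : Finset V) (x : ℝ) :
    ∑ R ∈ A.powerset, x ^ R.card = (1 + x) ^ A.card := by
  have := Finset.prod_add (fun _ : V => x) (fun _ : V => (1 : ℝ)) A
  simp only [prod_const, one_pow, mul_one] at this
  rw [← this, add_comm]

variable (U : Finset V) (P K : Finset V → ℝ)

/-- law of `w ∪ (σ ∩ U)` for fixed `σ` -/
noncomputable def Pz (σ z : Finset V) : ℝ := ∑ w, if w ∪ (σ ∩ U) = z then P w else 0

/-- law of the union -/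
noncomputable def PZ (z : Finset V) : ℝ := ∑ σ, K σ * Pz U P σ z

/-- posterior -/
noncomputable def nu (σ z : Finset V) : ℝ := K σ * Pz U P σ z / PZ U P K z

/-- joint law -/
noncomputable def J (w σ τ : Finset V) : ℝ := P w * (K σ * nu U P K τ (w ∪ (σ ∩ U)))

variable {U P K}

theorem Pz_nonneg (hP : ∀ w, 0 ≤ P w) (σ z : Finset V) : 0 ≤ Pz U P σ z := by
  unfold Pz
  apply Finset.sum_nonneg
  intro w _
  split_ifs
  · exact hP w
  · exact le_refl 0

theorem PZ_nonneg (hP : ∀ w, 0 ≤ P w) (hK : ∀ w, 0 ≤ K w) (z : Finset V) : 0 ≤ PZ U P K z := by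
  unfold PZ
  exact Finset.sum_nonneg (fun σ _ => mul_nonneg (hK σ) (Pz_nonneg hP σ z))

theorem nu_nonneg (hP : ∀ w, 0 ≤ P w) (hK : ∀ w, 0 ≤ K w) (σ z : Finset V) :
    0 ≤ nu U P K σ z := by
  unfold nu
  exact div_nonneg (mul_nonneg (hK σ) (Pz_nonneg hP σ z)) (PZ_nonneg hP hK z)

theorem J_nonneg (hP : ∀ w, 0 ≤ P w) (hK : ∀ w, 0 ≤ K w) (w σ τ : Finset V) :
    0 ≤ J U P K w σ τ := by
  unfold J
  exact mul_nonneg (hP w) (mul_nonneg (hK σ) (nu_nonneg hP hK _ _))

/-- transfer between `w` and `z` -/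
theorem Pz_sum (σ : Finset V) (G : Finset V → ℝ) :
    ∑ z, Pz U P σ z * G z = ∑ w, P w * G (w ∪ (σ ∩ U)) := by
  unfold Pz
  simp only [Finset.sum_mul]
  rw [Finset.sum_comm]
  apply Finset.sum_congr rfl
  intro w _
  simp only [ite_mul, zero_mul]
  rw [Finset.sum_ite_eq]
  simp

theorem Pz_pos_of (hP : ∀ w, 0 ≤ P w) {w σ : Finset V} (hw : P w ≠ 0) :
    0 < Pz U P σ (w ∪ (σ ∩ U)) := by
  unfold Pz
  have hwp : 0 < P w := lt_of_le_of_ne (hP w) (Ne.symm hw)
  refine lt_of_lt_of_le hwp ?_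
  have := Finset.single_le_sum (s := univ)
    (f := fun w' => if w' ∪ (σ ∩ U) = w ∪ (σ ∩ U) then P w' else 0) (fun w' _ => by
      split_ifs
      · exact hP w'
      · exact le_refl 0) (mem_univ w)
  simpa using this

theorem PZ_pos_of (hP : ∀ w, 0 ≤ P w) (hK : ∀ w, 0 ≤ K w) {w σ : Finset V} (hw : P w ≠ 0)
    (hσ : K σ ≠ 0) : 0 < PZ U P K (w ∪ (σ ∩ U)) := by
  unfold PZ
  have hσp : 0 < K σ := lt_of_le_of_ne (hK σ) (Ne.symm hσ)
  refine lt_of_lt_of_le (mul_pos hσp (Pz_pos_of (U := U) (σ := σ) hP hw)) ?_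
  exact Finset.single_le_sum (s := univ)
    (f := fun σ' => K σ' * Pz U P σ' (w ∪ (σ ∩ U)))
    (fun σ' _ => mul_nonneg (hK σ') (Pz_nonneg hP σ' _)) (mem_univ σ)

/-- if the posterior charges `τ` then `τ ∩ U ⊆ z` -/
theorem subset_of_Pz_ne {τ z : Finset V} (h : Pz U P τ z ≠ 0) : τ ∩ U ⊆ z := by
  unfold Pz at h
  obtain ⟨w, _, hw⟩ := Finset.exists_ne_zero_of_sum_ne_zero h
  by_cases h1 : w ∪ (τ ∩ U) = z
  · rw [← h1]; exact subset_union_right
  · simp [h1] at hw

theorem Pz_ne_of_nu_ne {τ z : Finset V} (h : nu U P K τ z ≠ 0) : Pz U P τ z ≠ 0 := by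
  intro h0
  apply h
  unfold nu
  rw [h0]; simp

theorem K_ne_of_nu_ne {τ z : Finset V} (h : nu U P K τ z ≠ 0) : K τ ≠ 0 := by
  intro h0
  apply h
  unfold nu
  rw [h0]; simp

theorem nu_sum {z : Finset V} (h : PZ U P K z ≠ 0) : ∑ τ, nu U P K τ z = 1 := by
  unfold nu
  rw [← Finset.sum_div]
  exact div_self h

/-- marginal (w, σ) -/
theorem J_sum_tau (hP : ∀ w, 0 ≤ P w) (hK : ∀ w, 0 ≤ K w) (w σ : Finset V) :
    ∑ τ, J U P K w σ τ = P w * K σ := by
  unfold J
  rw [← Finset.mul_sum, ← Finset.mul_sum]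
  by_cases hw : P w = 0
  · simp [hw]
  by_cases hσ : K σ = 0
  · simp [hσ]
  rw [nu_sum (ne_of_gt (PZ_pos_of hP hK hw hσ))]
  ring

theorem PZ_mul_nu (hP : ∀ w, 0 ≤ P w) (hK : ∀ w, 0 ≤ K w) (τ z : Finset V) :
    PZ U P K z * nu U P K τ z = K τ * Pz U P τ z := by
  unfold nu
  by_cases h : PZ U P K z = 0
  · rw [h]
    have h1 : K τ * Pz U P τ z ≤ PZ U P K z := by
      unfold PZ
      exact Finset.single_le_sum (s := univ)
        (f := fun σ' => K σ' * Pz U P σ' z)
        (fun σ' _ => mul_nonneg (hK σ') (Pz_nonneg hP σ' _)) (mem_univ τ)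
    have h2 := mul_nonneg (hK τ) (Pz_nonneg (U := U) hP τ z)
    rw [h] at h1
    have : K τ * Pz U P τ z = 0 := le_antisymm h1 h2
    rw [this]; simp
  · field_simp

/-- marginal (τ, z) -/
theorem J_marg (hP : ∀ w, 0 ≤ P w) (hK : ∀ w, 0 ≤ K w) (f : Finset V → Finset V → ℝ) :
    ∑ w, ∑ σ, ∑ τ, J U P K w σ τ * f τ (w ∪ (σ ∩ U)) =
      ∑ τ, K τ * ∑ w, P w * f τ (w ∪ (τ ∩ U)) := by
  have h1 : ∀ τ : Finset V, ∑ w, ∑ σ, J U P K w σ τ * f τ (w ∪ (σ ∩ U)) =
      K τ * ∑ w, P w * f τ (w ∪ (τ ∩ U)) := by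
    intro τ
    rw [Finset.sum_comm]
    have h2 : ∀ σ : Finset V, ∑ w, J U P K w σ τ * f τ (w ∪ (σ ∩ U)) =
        ∑ z, K σ * Pz U P σ z * (nu U P K τ z * f τ z) := by
      intro σ
      have := Pz_sum (U := U) (P := P) σ (fun z => nu U P K τ z * f τ z)
      have h3 : ∑ z, K σ * Pz U P σ z * (nu U P K τ z * f τ z) =
          K σ * ∑ z, Pz U P σ z * (nu U P K τ z * f τ z) := by
        rw [Finset.mul_sum]
        exact Finset.sum_congr rfl (fun z _ => by ring)
      rw [h3, this, Finset.mul_sum]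
      apply Finset.sum_congr rfl
      intro w _
      unfold J; ring
    rw [Finset.sum_congr rfl (fun σ _ => h2 σ), Finset.sum_comm]
    have h4 : ∀ z : Finset V, ∑ σ, K σ * Pz U P σ z * (nu U P K τ z * f τ z) =
        K τ * (Pz U P τ z * f τ z) := by
      intro z
      rw [← Finset.sum_mul]
      have : (∑ σ, K σ * Pz U P σ z) = PZ U P K z := rfl
      rw [this, ← mul_assoc, PZ_mul_nu hP hK]
      ring
    rw [Finset.sum_congr rfl (fun z _ => h4 z), ← Finset.mul_sum, Pz_sum]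
  have h5 : ∑ w, ∑ σ, ∑ τ, J U P K w σ τ * f τ (w ∪ (σ ∩ U)) =
      ∑ τ, ∑ w, ∑ σ, J U P K w σ τ * f τ (w ∪ (σ ∩ U)) := by
    rw [Finset.sum_comm' (s := univ) (t := fun _ => univ) (t' := univ) (s' := fun _ => univ)
      (by simp)]
    rw [Finset.sum_congr rfl (fun σ _ => Finset.sum_comm)]
    rw [Finset.sum_comm]
    exact Finset.sum_congr rfl (fun τ _ => Finset.sum_comm)
  rw [h5]
  exact Finset.sum_congr rfl (fun τ _ => h1 τ)


/-! ### facts about the product weight -/

section bwfacts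

variable {ρ : ℝ}

theorem bw_pos (hρ0 : 0 < ρ) (hρ1 : ρ < 1) (U w : Finset V) : 0 < bw ρ U w := by
  unfold bw
  have : 0 < 1 - ρ := by linarith
  positivity

theorem bw_sum (ρ : ℝ) (U : Finset V) : ∑ w, (if w ⊆ U then bw ρ U w else 0) = 1 := by
  rw [← Finset.sum_filter]
  have h1 : (univ.filter (fun w : Finset V => w ⊆ U)) = U.powerset := by
    ext w; simp
  rw [h1]
  have h2 := Finset.sum_pow_mul_eq_add_pow ρ (1 - ρ) U
  have h3 : ρ + (1 - ρ) = 1 := by ring
  rw [h3, one_pow] at h2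
  rw [← h2]
  apply Finset.sum_congr rfl
  intro w hw
  rw [mem_powerset] at hw
  unfold bw
  rw [card_sdiff_of_subset hw]

theorem bw_sdiff (hρ0 : 0 < ρ) {U z R : Finset V} (hz : z ⊆ U) (hR : R ⊆ z) :
    bw ρ U (z \ R) = bw ρ U z * ((1 - ρ) / ρ) ^ R.card := by
  unfold bw
  have h1 : (z \ R).card + R.card = z.card := card_sdiff_add_card_eq_card hR
  have h2 : (U \ (z \ R)).card = (U \ z).card + R.card := by
    have h3 : U \ (z \ R) = (U \ z) ∪ R := by
      ext x
      simp only [mem_sdiff, mem_union]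
      constructor
      · rintro ⟨h4, h5⟩
        by_cases h6 : x ∈ z
        · right; by_contra h7; exact h5 ⟨h6, h7⟩
        · left; exact ⟨h4, h6⟩
      · rintro (h4 | h4)
        · exact ⟨h4.1, fun h5 => h4.2 h5.1⟩
        · exact ⟨hz (hR h4), fun h5 => h5.2 h4⟩
    rw [h3, card_union_of_disjoint]
    rw [Finset.disjoint_left]
    intro x h4 h5
    rw [mem_sdiff] at h4
    exact h4.2 (hR h5)
  rw [h2, ← h1, pow_add, pow_add, div_pow]
  field_simp

/-- sum of the weights over the fibre `w ∪ a = z` -/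
theorem bw_fiber (hρ0 : 0 < ρ) {U z a : Finset V} (hz : z ⊆ U) (ha : a ⊆ z) :
    ∑ w, (if w ∪ a = z then bw ρ U w else 0) = bw ρ U z / ρ ^ a.card := by
  have h1 : ∀ w : Finset V, (w ∪ a = z) ↔ (w \ a = z \ a) := by
    intro w
    constructor
    · intro h; rw [← h, union_sdiff_right]
    · intro h
      have h2 : w ∪ a = (w \ a) ∪ a := by simp
      rw [h2, h, sdiff_union_of_subset ha]
  simp only [h1]
  rw [sum_fiber a (z \ a) sdiff_disjoint]
  have h2 : ∀ R ∈ a.powerset, bw ρ U ((z \ a) ∪ (a \ R)) =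
      bw ρ U z * ((1 - ρ) / ρ) ^ R.card := by
    intro R hR
    rw [mem_powerset] at hR
    have h3 : (z \ a) ∪ (a \ R) = z \ R := by
      ext x
      simp only [mem_sdiff, mem_union]
      constructor
      · rintro (h4 | h4)
        · exact ⟨h4.1, fun h5 => h4.2 (hR h5)⟩
        · exact ⟨ha h4.1, h4.2⟩
      · rintro ⟨h4, h5⟩
        by_cases h6 : x ∈ a
        · right; exact ⟨h6, h5⟩
        · left; exact ⟨h4, h6⟩
    rw [h3, bw_sdiff hρ0 hz (hR.trans ha)]
  rw [Finset.sum_congr rfl h2, ← Finset.mul_sum, sum_powerset_pow]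
  have h4 : 1 + (1 - ρ) / ρ = 1 / ρ := by field_simp; ring
  rw [h4, one_div, inv_pow]
  rfl

/-- relation between the weights of `w` in `U` and of `w \ τ` in `U \ τ` -/
theorem bw_restrict {U w τ : Finset V} (hw : w ⊆ U) :
    bw ρ U w * ρ ^ ((τ ∩ U) \ w).card =
      bw ρ (U \ τ) (w \ τ) * ρ ^ (τ ∩ U).card * (1 - ρ) ^ ((τ ∩ U) \ w).card := by
  unfold bw
  have h1 : w.card + ((τ ∩ U) \ w).card = (w \ τ).card + (τ ∩ U).card := by
    have h2 : (w ∪ ((τ ∩ U) \ w)) = (w \ τ) ∪ (τ ∩ U) := by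
      ext x
      simp only [mem_sdiff, mem_union, mem_inter]
      constructor
      · rintro (h | h)
        · by_cases h3 : x ∈ τ
          · right; exact ⟨h3, hw h⟩
          · left; exact ⟨h, h3⟩
        · right; exact h.1
      · rintro (h | h)
        · left; exact h.1
        · by_cases h3 : x ∈ w
          · left; exact h3
          · right; exact ⟨h, h3⟩
    have h3 : (w ∪ ((τ ∩ U) \ w)).card = w.card + ((τ ∩ U) \ w).card :=
      card_union_of_disjoint disjoint_sdiff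
    have h4 : ((w \ τ) ∪ (τ ∩ U)).card = (w \ τ).card + (τ ∩ U).card := by
      apply card_union_of_disjoint
      rw [Finset.disjoint_left]
      intro x h5 h6
      rw [mem_sdiff] at h5
      rw [mem_inter] at h6
      exact h5.2 h6.1
    rw [← h3, ← h4, h2]
  have h2 : (U \ w).card = ((U \ τ) \ (w \ τ)).card + ((τ ∩ U) \ w).card := by
    have h3 : U \ w = ((U \ τ) \ (w \ τ)) ∪ ((τ ∩ U) \ w) := by
      ext x
      simp only [mem_sdiff, mem_union, mem_inter]
      tauto
    rw [h3, card_union_of_disjoint]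
    rw [Finset.disjoint_left]
    intro x h5 h6
    simp only [mem_sdiff, mem_inter] at h5 h6
    exact h5.1.2 h6.1.1
  have h5 : ρ ^ w.card * ρ ^ ((τ ∩ U) \ w).card = ρ ^ (w \ τ).card * ρ ^ (τ ∩ U).card := by
    rw [← pow_add, ← pow_add, h1]
  calc ρ ^ w.card * (1 - ρ) ^ (U \ w).card * ρ ^ ((τ ∩ U) \ w).card
      = (ρ ^ w.card * ρ ^ ((τ ∩ U) \ w).card) * (1 - ρ) ^ (U \ w).card := by ring
    _ = (ρ ^ (w \ τ).card * ρ ^ (τ ∩ U).card) *
        ((1 - ρ) ^ ((U \ τ) \ (w \ τ)).card * (1 - ρ) ^ ((τ ∩ U) \ w).card) := by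
        rw [h5, h2, pow_add]
    _ = _ := by ring

end bwfacts

/-! ### the three expectations -/

section expect

variable {ρ : ℝ}

theorem Pz_eq_zero_of_not_subset (hPU : ∀ w, P w ≠ 0 → w ⊆ U) {τ z : Finset V}
    (h : ¬ z ⊆ U) : Pz U P τ z = 0 := by
  unfold Pz
  apply Finset.sum_eq_zero
  intro w _
  split_ifs with h1
  · by_contra h2
    apply h
    rw [← h1]
    exact union_subset (hPU w h2) inter_subset_right
  · rfl

theorem PZ_eq_zero_of_not_subset (hPU : ∀ w, P w ≠ 0 → w ⊆ U) {z : Finset V}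
    (h : ¬ z ⊆ U) : PZ U P K z = 0 := by
  unfold PZ
  apply Finset.sum_eq_zero
  intro w _
  rw [Pz_eq_zero_of_not_subset hPU h, mul_zero]

/-- data processing: `E_w log g_τ(w ∪ a) ≤ ent` -/
theorem data_proc (hρ0 : 0 < ρ) (hρ1 : ρ < 1) (hP : IsLaw P) (hPU : ∀ w, P w ≠ 0 → w ⊆ U)
    (τ : Finset V) :
    ∑ w, P w * Real.log (Pz U P τ (w ∪ (τ ∩ U)) * ρ ^ (τ ∩ U).card /
      bw ρ U (w ∪ (τ ∩ U))) ≤ ent ρ U P := by
  set a := τ ∩ U with ha
  set g : Finset V → ℝ := fun z => Pz U P τ z * ρ ^ a.card / bw ρ U z with hg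
  have hgnn : ∀ z, 0 ≤ g z := fun z =>
    div_nonneg (mul_nonneg (Pz_nonneg hP.1 _ _) (by positivity)) (bw_pos hρ0 hρ1 _ _).le
  have hsum : ∑ w, (if w ⊆ U then bw ρ U w * g (w ∪ a) else 0) = 1 := by
    have h1 : ∀ w : Finset V, (if w ⊆ U then bw ρ U w * g (w ∪ a) else 0) =
        ∑ z, (if w ∪ a = z then (if w ⊆ U then bw ρ U w * g z else 0) else 0) := by
      intro w
      rw [Finset.sum_ite_eq]; simp
    rw [Finset.sum_congr rfl (fun w _ => h1 w), Finset.sum_comm]
    have h2 : ∀ z : Finset V,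
        ∑ w, (if w ∪ a = z then (if w ⊆ U then bw ρ U w * g z else 0) else 0) =
          Pz U P τ z := by
      intro z
      by_cases hz : z ⊆ U
      · by_cases haz : a ⊆ z
        · have h3 : ∀ w : Finset V,
              (if w ∪ a = z then (if w ⊆ U then bw ρ U w * g z else 0) else 0) =
                (if w ∪ a = z then bw ρ U w else 0) * g z := by
            intro w
            by_cases h4 : w ∪ a = z
            · have h5 : w ⊆ U := by
                refine subset_trans ?_ hz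
                rw [← h4]; exact subset_union_left
              simp [h4, h5]
            · simp [h4]
          rw [Finset.sum_congr rfl (fun w _ => h3 w), ← Finset.sum_mul, bw_fiber hρ0 hz haz]
          rw [hg]
          have h6 := (bw_pos hρ0 hρ1 U z).ne'
          have h7 : ρ ^ a.card ≠ 0 := by positivity
          field_simp
        · have h3 : Pz U P τ z = 0 := by
            by_contra h4
            exact haz (subset_of_Pz_ne h4)
          rw [h3]
          apply Finset.sum_eq_zero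
          intro w _
          have : g z = 0 := by rw [hg]; simp [h3]
          simp [this]
      · have h3 : Pz U P τ z = 0 := Pz_eq_zero_of_not_subset hPU hz
        rw [h3]
        apply Finset.sum_eq_zero
        intro w _
        have : g z = 0 := by rw [hg]; simp [h3]
        simp [this]
    rw [Finset.sum_congr rfl (fun z _ => h2 z)]
    have h8 := Pz_sum (U := U) (P := P) τ (fun _ => 1)
    simp only [mul_one] at h8
    rw [h8]; exact hP.2
  have hterm : ∀ w : Finset V, P w - (if w ⊆ U then bw ρ U w * g (w ∪ a) else 0) ≤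
      P w * Real.log (P w / bw ρ U w) - P w * Real.log (g (w ∪ a)) := by
    intro w
    by_cases hw : P w = 0
    · rw [hw]; simp only [zero_mul, sub_zero, zero_sub]
      split_ifs
      · have := mul_nonneg (bw_pos hρ0 hρ1 U w).le (hgnn (w ∪ a))
        linarith
      · simp
    · have hwU := hPU w hw
      have hgp : 0 < g (w ∪ a) := by
        rw [hg]
        exact div_pos (mul_pos (Pz_pos_of hP.1 hw) (by positivity)) (bw_pos hρ0 hρ1 _ _)
      rw [if_pos hwU]
      have h1 := gibbs_term (M := P w) (C := bw ρ U w * g (w ∪ a)) (hP.1 w)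
        (mul_nonneg (bw_pos hρ0 hρ1 U w).le (hgnn _))
        (fun _ => (mul_pos (bw_pos hρ0 hρ1 U w) hgp).ne')
      have h2 : Real.log (P w / (bw ρ U w * g (w ∪ a))) =
          Real.log (P w / bw ρ U w) - Real.log (g (w ∪ a)) := by
        rw [← div_div, Real.log_div (div_ne_zero hw (bw_pos hρ0 hρ1 U w).ne') hgp.ne']
      rw [h2] at h1
      linarith
  have h9 := Finset.sum_le_sum (fun w (_ : w ∈ (univ : Finset (Finset V))) => hterm w)
  rw [Finset.sum_sub_distrib, Finset.sum_sub_distrib, hsum, hP.2] at h9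
  unfold ent
  simp only [hg] at h9
  linarith


/-- expectation of the `w`-term -/
theorem E_X (hP : IsLaw P) (hK : IsLaw K) (X : Finset V → ℝ) :
    ∑ w, ∑ σ, ∑ τ, J U P K w σ τ * X w = ∑ w, P w * X w := by
  apply Finset.sum_congr rfl
  intro w _
  have h1 : ∀ σ : Finset V, ∑ τ, J U P K w σ τ * X w = P w * K σ * X w := by
    intro σ
    rw [← Finset.sum_mul, J_sum_tau hP.1 hK.1]
  rw [Finset.sum_congr rfl (fun σ _ => h1 σ)]
  have h2 : ∑ σ, P w * K σ * X w = (P w * X w) * ∑ σ, K σ := by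
    rw [Finset.mul_sum]
    exact Finset.sum_congr rfl (fun σ _ => by ring)
  rw [h2, hK.2, mul_one]

theorem E_sigma (hP : IsLaw P) (hK : IsLaw K) (X : Finset V → ℝ) :
    ∑ w, ∑ σ, ∑ τ, J U P K w σ τ * X σ = ∑ σ, K σ * X σ := by
  have h1 : ∀ w : Finset V, ∑ σ, ∑ τ, J U P K w σ τ * X σ = P w * ∑ σ, K σ * X σ := by
    intro w
    rw [Finset.mul_sum]
    apply Finset.sum_congr rfl
    intro σ _
    rw [← Finset.sum_mul, J_sum_tau hP.1 hK.1]
    ring
  rw [Finset.sum_congr rfl (fun w _ => h1 w), ← Finset.sum_mul, hP.2, one_mul]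

theorem E_tau (hP : IsLaw P) (hK : IsLaw K) (X : Finset V → ℝ) :
    ∑ w, ∑ σ, ∑ τ, J U P K w σ τ * X τ = ∑ τ, K τ * X τ := by
  rw [J_marg hP.1 hK.1 (fun τ _ => X τ)]
  apply Finset.sum_congr rfl
  intro τ _
  rw [← Finset.sum_mul, hP.2, one_mul]

theorem E_Y (hρ0 : 0 < ρ) (hρ1 : ρ < 1) (hP : IsLaw P) (hPU : ∀ w, P w ≠ 0 → w ⊆ U)
    (hK : IsLaw K) :
    ∑ w, ∑ σ, ∑ τ, J U P K w σ τ * Real.log (Pz U P τ (w ∪ (σ ∩ U)) * ρ ^ (τ ∩ U).card /
      bw ρ U (w ∪ (σ ∩ U))) ≤ ent ρ U P := by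
  rw [J_marg hP.1 hK.1 (fun τ z => Real.log (Pz U P τ z * ρ ^ (τ ∩ U).card / bw ρ U z))]
  calc _ ≤ ∑ τ, K τ * ent ρ U P :=
        Finset.sum_le_sum (fun τ _ =>
          mul_le_mul_of_nonneg_left (data_proc hρ0 hρ1 hP hPU τ) (hK.1 τ))
    _ = ent ρ U P := by rw [← Finset.sum_mul, hK.2, one_mul]

theorem E_Z (hρ0 : 0 < ρ) (hρ1 : ρ < 1) (hP : IsLaw P) (hPU : ∀ w, P w ≠ 0 → w ⊆ U)
    (hK : IsLaw K) :
    0 ≤ ∑ w, ∑ σ, ∑ τ, J U P K w σ τ * Real.log (PZ U P K (w ∪ (σ ∩ U)) /
      bw ρ U (w ∪ (σ ∩ U))) := by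
  rw [J_marg hP.1 hK.1 (fun _ z => Real.log (PZ U P K z / bw ρ U z))]
  have h1 : ∀ τ : Finset V, K τ * ∑ w, P w * Real.log (PZ U P K (w ∪ (τ ∩ U)) /
      bw ρ U (w ∪ (τ ∩ U))) =
      ∑ z, K τ * Pz U P τ z * Real.log (PZ U P K z / bw ρ U z) := by
    intro τ
    rw [← Pz_sum (U := U) (P := P) τ (fun z => Real.log (PZ U P K z / bw ρ U z)),
      Finset.mul_sum]
    exact Finset.sum_congr rfl (fun z _ => by ring)
  rw [Finset.sum_congr rfl (fun τ _ => h1 τ), Finset.sum_comm]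
  have h2 : ∀ z : Finset V, ∑ τ, K τ * Pz U P τ z * Real.log (PZ U P K z / bw ρ U z) =
      PZ U P K z * Real.log (PZ U P K z / bw ρ U z) := by
    intro z
    rw [← Finset.sum_mul]
    rfl
  rw [Finset.sum_congr rfl (fun z _ => h2 z)]
  have h3 : ∀ z : Finset V, PZ U P K z - (if z ⊆ U then bw ρ U z else 0) ≤
      PZ U P K z * Real.log (PZ U P K z / bw ρ U z) := by
    intro z
    by_cases hz : z ⊆ U
    · rw [if_pos hz]
      exact gibbs_term (PZ_nonneg hP.1 hK.1 z) (bw_pos hρ0 hρ1 U z).le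
        (fun _ => (bw_pos hρ0 hρ1 U z).ne')
    · rw [if_neg hz, PZ_eq_zero_of_not_subset hPU hz]
      simp
  have h4 := Finset.sum_le_sum (fun z (_ : z ∈ (univ : Finset (Finset V))) => h3 z)
  rw [Finset.sum_sub_distrib, bw_sum] at h4
  have h5 : ∑ z, PZ U P K z = 1 := by
    unfold PZ
    rw [Finset.sum_comm]
    have h6 : ∀ σ : Finset V, ∑ z, K σ * Pz U P σ z = K σ := by
      intro σ
      rw [← Finset.mul_sum]
      have h8 := Pz_sum (U := U) (P := P) σ (fun _ => 1)
      simp only [mul_one] at h8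
      rw [h8, hP.2, mul_one]
    rw [Finset.sum_congr rfl (fun σ _ => h6 σ)]
    exact hK.2
  rw [h5] at h4
  linarith

/-- the common bound `E X + E Y - E Z ≤ 2 ent` -/
theorem E_XYZ (hρ0 : 0 < ρ) (hρ1 : ρ < 1) (hP : IsLaw P) (hPU : ∀ w, P w ≠ 0 → w ⊆ U)
    (hK : IsLaw K) :
    ∑ w, ∑ σ, ∑ τ, J U P K w σ τ * (Real.log (P w / bw ρ U w) +
      Real.log (Pz U P τ (w ∪ (σ ∩ U)) * ρ ^ (τ ∩ U).card / bw ρ U (w ∪ (σ ∩ U))) -
      Real.log (PZ U P K (w ∪ (σ ∩ U)) / bw ρ U (w ∪ (σ ∩ U)))) ≤ 2 * ent ρ U P := by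
  have h1 := E_X (U := U) hP hK (fun w => Real.log (P w / bw ρ U w))
  have h2 := E_Y hρ0 hρ1 hP hPU hK
  have h3 := E_Z hρ0 hρ1 hP hPU hK
  simp only [mul_sub, mul_add, Finset.sum_sub_distrib, Finset.sum_add_distrib]
  rw [h1]
  have h4 : ∑ w, P w * Real.log (P w / bw ρ U w) = ent ρ U P := rfl
  rw [h4]
  linarith


theorem bw_contains (hρ0 : 0 < ρ) {S : Finset V} (hS : S ⊆ U) :
    ∑ w, (if w ⊆ U ∧ S ⊆ w then bw ρ U w else 0) = ρ ^ S.card := by
  have h1 := bw_fiber hρ0 (subset_refl U) (sdiff_subset (s := U) (t := S))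
  have h2 : ∀ w : Finset V, (w ∪ (U \ S) = U) ↔ (w ⊆ U ∧ S ⊆ w) := by
    intro w
    constructor
    · intro h
      refine ⟨?_, ?_⟩
      · rw [← h]; exact subset_union_left
      · intro x hx
        have h3 : x ∈ w ∪ (U \ S) := by rw [h]; exact hS hx
        rw [mem_union, mem_sdiff] at h3
        rcases h3 with h3 | h3
        · exact h3
        · exact absurd hx h3.2
    · rintro ⟨h3, h4⟩
      ext x
      rw [mem_union, mem_sdiff]
      constructor
      · rintro (h5 | h5)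
        · exact h3 h5
        · exact h5.1
      · intro h5
        by_cases h6 : x ∈ S
        · left; exact h4 h6
        · right; exact ⟨h5, h6⟩
  simp only [h2] at h1
  rw [h1]
  unfold bw
  have h3 : (U \ S).card + S.card = U.card := card_sdiff_add_card_eq_card hS
  rw [← h3, pow_add]
  simp
  field_simp

theorem spread_sum {q : ℝ} (hq : 0 < q) (hK : IsLaw K) (hKs : QSpread q U K) (a : Finset V)
    (ha : a ⊆ U) : ∑ τ, K τ * (q⁻¹) ^ (a ∩ (τ ∩ U)).card ≤ 2 ^ a.card := by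
  calc ∑ τ, K τ * (q⁻¹) ^ (a ∩ (τ ∩ U)).card
      ≤ ∑ τ, K τ * ∑ S ∈ a.powerset, (if S ⊆ τ then (q⁻¹) ^ S.card else 0) := by
        apply Finset.sum_le_sum
        intro τ _
        apply mul_le_mul_of_nonneg_left _ (hK.1 τ)
        have h1 : (a ∩ (τ ∩ U)) ∈ a.powerset := by
          rw [mem_powerset]; exact inter_subset_left
        have h2 := Finset.single_le_sum (s := a.powerset)
          (f := fun S => if S ⊆ τ then (q⁻¹) ^ S.card else (0 : ℝ))
          (fun S _ => by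
            split_ifs
            · positivity
            · exact le_refl _) h1
        have h3 : a ∩ (τ ∩ U) ⊆ τ := fun x hx => (mem_inter.mp (mem_inter.mp hx).2).1
        simp only [h3, if_true] at h2
        exact h2
    _ = ∑ S ∈ a.powerset, (q⁻¹) ^ S.card * ∑ τ, (if S ⊆ τ then K τ else 0) := by
        simp only [Finset.mul_sum]
        rw [Finset.sum_comm]
        apply Finset.sum_congr rfl
        intro S _
        apply Finset.sum_congr rfl
        intro τ _
        split_ifs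
        · ring
        · ring
    _ ≤ ∑ S ∈ a.powerset, (1 : ℝ) := by
        apply Finset.sum_le_sum
        intro S hS
        rw [mem_powerset] at hS
        have h1 := hKs S (hS.trans ha)
        calc (q⁻¹) ^ S.card * ∑ τ, (if S ⊆ τ then K τ else 0)
            ≤ (q⁻¹) ^ S.card * q ^ S.card :=
              mul_le_mul_of_nonneg_left h1 (by positivity)
          _ = 1 := by rw [← mul_pow, inv_mul_cancel₀ hq.ne', one_pow]
    _ = 2 ^ a.card := by
        rw [Finset.sum_const, card_powerset]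
        simp

/-- reference weight for claim (3) -/
noncomputable def Q3 (ρ q : ℝ) (U : Finset V) (K : Finset V → ℝ) (w σ τ : Finset V) : ℝ :=
  if w ⊆ U ∧ (τ ∩ U) \ (σ ∩ U) ⊆ w then
    K σ * (2⁻¹) ^ (σ ∩ U).card * (K τ * (q⁻¹) ^ ((σ ∩ U) ∩ (τ ∩ U)).card) *
      (bw ρ U w * (ρ⁻¹) ^ ((τ ∩ U) \ (σ ∩ U)).card) else 0

theorem Q3_sum {q : ℝ} (hρ0 : 0 < ρ) (hq : 0 < q) (hK : IsLaw K)
    (hKs : QSpread q U K) : ∑ w, ∑ σ, ∑ τ, Q3 ρ q U K w σ τ ≤ 1 := by
  have h0 : ∑ w, ∑ σ, ∑ τ, Q3 ρ q U K w σ τ = ∑ σ, ∑ τ, ∑ w, Q3 ρ q U K w σ τ := by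
    rw [Finset.sum_comm]
    exact Finset.sum_congr rfl (fun σ _ => Finset.sum_comm)
  have h1 : ∀ σ τ : Finset V, ∑ w, Q3 ρ q U K w σ τ =
      K σ * (2⁻¹) ^ (σ ∩ U).card * (K τ * (q⁻¹) ^ ((σ ∩ U) ∩ (τ ∩ U)).card) := by
    intro σ τ
    have hS : (τ ∩ U) \ (σ ∩ U) ⊆ U := sdiff_subset.trans inter_subset_right
    have h2 := bw_contains hρ0 hS
    have h3 : ∀ w : Finset V, Q3 ρ q U K w σ τ =
        (if w ⊆ U ∧ (τ ∩ U) \ (σ ∩ U) ⊆ w then bw ρ U w else 0) *
        (K σ * (2⁻¹) ^ (σ ∩ U).card * (K τ * (q⁻¹) ^ ((σ ∩ U) ∩ (τ ∩ U)).card) *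
          (ρ⁻¹) ^ ((τ ∩ U) \ (σ ∩ U)).card) := by
      intro w
      unfold Q3
      split_ifs
      · ring
      · ring
    rw [Finset.sum_congr rfl (fun w _ => h3 w), ← Finset.sum_mul, h2]
    have h4 : ρ ^ ((τ ∩ U) \ (σ ∩ U)).card * (ρ⁻¹) ^ ((τ ∩ U) \ (σ ∩ U)).card = 1 := by
      rw [← mul_pow, mul_inv_cancel₀ hρ0.ne', one_pow]
    calc _ = (ρ ^ ((τ ∩ U) \ (σ ∩ U)).card * (ρ⁻¹) ^ ((τ ∩ U) \ (σ ∩ U)).card) *
          (K σ * (2⁻¹) ^ (σ ∩ U).card * (K τ * (q⁻¹) ^ ((σ ∩ U) ∩ (τ ∩ U)).card)) := by ring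
      _ = _ := by rw [h4, one_mul]
  rw [h0]
  simp only [h1]
  calc ∑ σ, ∑ τ, K σ * (2⁻¹) ^ (σ ∩ U).card * (K τ * (q⁻¹) ^ ((σ ∩ U) ∩ (τ ∩ U)).card)
      = ∑ σ, K σ * (2⁻¹) ^ (σ ∩ U).card * ∑ τ, (K τ * (q⁻¹) ^ ((σ ∩ U) ∩ (τ ∩ U)).card) := by
        apply Finset.sum_congr rfl
        intro σ _
        rw [Finset.mul_sum]
    _ ≤ ∑ σ, K σ * (2⁻¹) ^ (σ ∩ U).card * 2 ^ (σ ∩ U).card := by
        apply Finset.sum_le_sum
        intro σ _
        apply mul_le_mul_of_nonneg_left (spread_sum hq hK hKs (σ ∩ U) inter_subset_right)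
        exact mul_nonneg (hK.1 σ) (by positivity)
    _ = ∑ σ, K σ := by
        apply Finset.sum_congr rfl
        intro σ _
        rw [mul_assoc, ← mul_pow]
        norm_num
    _ = 1 := hK.2

/-- the facts available at a point of the support -/
theorem support_facts (hP : IsLaw P) (hPU : ∀ w, P w ≠ 0 → w ⊆ U) (hK : IsLaw K)
    {w σ τ : Finset V} (h : J U P K w σ τ ≠ 0) :
    0 < P w ∧ 0 < K σ ∧ 0 < K τ ∧ 0 < Pz U P τ (w ∪ (σ ∩ U)) ∧
      0 < PZ U P K (w ∪ (σ ∩ U)) ∧ w ⊆ U ∧ τ ∩ U ⊆ w ∪ (σ ∩ U) := by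
  have h1 : P w ≠ 0 := by intro h1; apply h; unfold J; rw [h1, zero_mul]
  have h2 : K σ ≠ 0 := by intro h1; apply h; unfold J; rw [h1, zero_mul, mul_zero]
  have h3 : nu U P K τ (w ∪ (σ ∩ U)) ≠ 0 := by
    intro h1; apply h; unfold J; rw [h1, mul_zero, mul_zero]
  have h4 := Pz_ne_of_nu_ne h3
  have h5 := K_ne_of_nu_ne h3
  exact ⟨lt_of_le_of_ne (hP.1 w) (Ne.symm h1), lt_of_le_of_ne (hK.1 σ) (Ne.symm h2),
    lt_of_le_of_ne (hK.1 τ) (Ne.symm h5),
    lt_of_le_of_ne (Pz_nonneg hP.1 _ _) (Ne.symm h4),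
    PZ_pos_of hP.1 hK.1 h1 h2, hPU w h1, subset_of_Pz_ne h4⟩

/-- claim (3) on the triple space -/
theorem claim3 {q : ℝ} (hρ0 : 0 < ρ) (hρ1 : ρ < 1) (hq : 0 < q) (hP : IsLaw P)
    (hPU : ∀ w, P w ≠ 0 → w ⊆ U) (hK : IsLaw K) (hKs : QSpread q U K) :
    (∑ w, ∑ σ, ∑ τ, J U P K w σ τ * (((σ ∩ U) ∩ (τ ∩ U)).card : ℝ)) * Real.log (ρ / q) ≤
      (∑ σ, K σ * ((σ ∩ U).card : ℝ)) * Real.log 2 + 2 * ent ρ U P := by
  have hterm : ∀ w σ τ : Finset V, J U P K w σ τ - Q3 ρ q U K w σ τ ≤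
      J U P K w σ τ * (Real.log (P w / bw ρ U w) +
        Real.log (Pz U P τ (w ∪ (σ ∩ U)) * ρ ^ (τ ∩ U).card / bw ρ U (w ∪ (σ ∩ U))) -
        Real.log (PZ U P K (w ∪ (σ ∩ U)) / bw ρ U (w ∪ (σ ∩ U)))) +
      J U P K w σ τ * (((σ ∩ U).card : ℝ) * Real.log 2) -
      J U P K w σ τ * ((((σ ∩ U) ∩ (τ ∩ U)).card : ℝ) * Real.log (ρ / q)) := by
    intro w σ τ
    by_cases hJ : J U P K w σ τ = 0
    · rw [hJ]
      have : 0 ≤ Q3 ρ q U K w σ τ := by
        unfold Q3
        split_ifs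
        · have := hK.1 σ
          have := hK.1 τ
          have := (bw_pos hρ0 hρ1 U w).le
          positivity
        · exact le_refl 0
      simp only [zero_mul]
      linarith
    · obtain ⟨hPw, hKσ, hKτ, hPz, hPZ, hwU, hτ⟩ := support_facts hP hPU hK hJ
      have hsub : (τ ∩ U) \ (σ ∩ U) ⊆ w := by
        intro x hx
        rw [mem_sdiff] at hx
        rcases mem_union.mp (hτ hx.1) with h | h
        · exact h
        · exact absurd h hx.2
      set z := w ∪ (σ ∩ U) with hz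
      have hbw := bw_pos hρ0 hρ1 U w
      have hbz := bw_pos hρ0 hρ1 U z
      have hQpos : 0 < Q3 ρ q U K w σ τ := by
        unfold Q3
        rw [if_pos ⟨hwU, hsub⟩]
        positivity
      have hJpos : 0 < J U P K w σ τ := lt_of_le_of_ne (J_nonneg hP.1 hK.1 _ _ _) (Ne.symm hJ)
      have h1 := gibbs_term hJpos.le hQpos.le (fun _ => hQpos.ne')
      have hratio : J U P K w σ τ / Q3 ρ q U K w σ τ =
          (P w / bw ρ U w) * (Pz U P τ z * ρ ^ (τ ∩ U).card / bw ρ U z) /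
            (PZ U P K z / bw ρ U z) * 2 ^ (σ ∩ U).card /
            (ρ / q) ^ ((σ ∩ U) ∩ (τ ∩ U)).card := by
        unfold Q3 J nu
        rw [if_pos ⟨hwU, hsub⟩, ← hz]
        have h2 : ρ ^ (τ ∩ U).card = ρ ^ ((τ ∩ U) \ (σ ∩ U)).card *
            ρ ^ ((σ ∩ U) ∩ (τ ∩ U)).card := by
          rw [← pow_add]
          congr 1
          rw [inter_comm (σ ∩ U) (τ ∩ U)]
          exact (card_sdiff_add_card_inter _ _).symm
        rw [h2]
        simp only [inv_pow, div_pow]
        field_simp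
      rw [hratio] at h1
      have hlog : Real.log ((P w / bw ρ U w) * (Pz U P τ z * ρ ^ (τ ∩ U).card / bw ρ U z) /
            (PZ U P K z / bw ρ U z) * 2 ^ (σ ∩ U).card /
            (ρ / q) ^ ((σ ∩ U) ∩ (τ ∩ U)).card) =
          Real.log (P w / bw ρ U w) +
          Real.log (Pz U P τ z * ρ ^ (τ ∩ U).card / bw ρ U z) -
          Real.log (PZ U P K z / bw ρ U z) + ((σ ∩ U).card : ℝ) * Real.log 2 -
          (((σ ∩ U) ∩ (τ ∩ U)).card : ℝ) * Real.log (ρ / q) := by
        rw [Real.log_div (by positivity) (by positivity),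
          Real.log_mul (by positivity) (by positivity),
          Real.log_div (by positivity) (by positivity),
          Real.log_mul (by positivity) (by positivity), Real.log_pow, Real.log_pow]
      rw [hlog] at h1
      linarith
  have hsum := Finset.sum_le_sum (fun w (_ : w ∈ (univ : Finset (Finset V))) =>
    Finset.sum_le_sum (fun σ (_ : σ ∈ (univ : Finset (Finset V))) =>
      Finset.sum_le_sum (fun τ (_ : τ ∈ (univ : Finset (Finset V))) => hterm w σ τ)))
  simp only [Finset.sum_sub_distrib, Finset.sum_add_distrib] at hsum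
  have h1 := E_XYZ hρ0 hρ1 hP hPU hK
  have h2 := Q3_sum hρ0 hq hK hKs
  have h3 : ∑ w, ∑ σ, ∑ τ, J U P K w σ τ = 1 := by
    have := E_X (U := U) hP hK (fun _ => 1)
    simp only [mul_one] at this
    rw [this, hP.2]
  have h4 : ∑ w, ∑ σ, ∑ τ, J U P K w σ τ * (((σ ∩ U).card : ℝ) * Real.log 2) =
      (∑ σ, K σ * ((σ ∩ U).card : ℝ)) * Real.log 2 := by
    rw [E_sigma hP hK (fun σ => ((σ ∩ U).card : ℝ) * Real.log 2), Finset.sum_mul]
    exact Finset.sum_congr rfl (fun σ _ => by ring)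
  have h5 : ∑ w, ∑ σ, ∑ τ, J U P K w σ τ *
      ((((σ ∩ U) ∩ (τ ∩ U)).card : ℝ) * Real.log (ρ / q)) =
      (∑ w, ∑ σ, ∑ τ, J U P K w σ τ * (((σ ∩ U) ∩ (τ ∩ U)).card : ℝ)) *
        Real.log (ρ / q) := by
    simp only [Finset.sum_mul, mul_assoc]
  rw [h3, h4, h5] at hsum
  linarith


/-- unnormalized law of `w \ τ` together with `τ` -/
noncomputable def mm (U : Finset V) (P K : Finset V → ℝ) (τ u : Finset V) : ℝ :=
  ∑ w, ∑ σ, if w \ τ = u then J U P K w σ τ else 0

theorem mm_nonneg (hP : ∀ w, 0 ≤ P w) (hK : ∀ w, 0 ≤ K w) (τ u : Finset V) :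
    0 ≤ mm U P K τ u := by
  unfold mm
  apply Finset.sum_nonneg
  intro w _
  apply Finset.sum_nonneg
  intro σ _
  split_ifs
  · exact J_nonneg hP hK _ _ _
  · exact le_refl 0

theorem mm_pos (hP : ∀ w, 0 ≤ P w) (hK : ∀ w, 0 ≤ K w) {w σ τ : Finset V}
    (h : J U P K w σ τ ≠ 0) : 0 < mm U P K τ (w \ τ) := by
  have h1 : 0 < J U P K w σ τ := lt_of_le_of_ne (J_nonneg hP hK _ _ _) (Ne.symm h)
  unfold mm
  have h2 : ∀ w' σ' : Finset V, 0 ≤ (if w' \ τ = w \ τ then J U P K w' σ' τ else 0) := by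
    intro w' σ'
    split_ifs
    · exact J_nonneg hP hK _ _ _
    · exact le_refl 0
  calc 0 < J U P K w σ τ := h1
    _ = (if w \ τ = w \ τ then J U P K w σ τ else 0) := by simp
    _ ≤ ∑ σ', (if w \ τ = w \ τ then J U P K w σ' τ else 0) :=
        Finset.single_le_sum (f := fun σ' => if w \ τ = w \ τ then J U P K w σ' τ else 0)
          (fun σ' _ => h2 w σ') (mem_univ σ)
    _ ≤ _ := Finset.single_le_sum
          (f := fun w' => ∑ σ', if w' \ τ = w \ τ then J U P K w' σ' τ else 0)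
          (fun w' _ => Finset.sum_nonneg (fun σ' _ => h2 w' σ')) (mem_univ w)

/-- expectation of a function of `(τ, w \ τ)` -/
theorem mm_sum (f : Finset V → Finset V → ℝ) :
    ∑ w, ∑ σ, ∑ τ, J U P K w σ τ * f τ (w \ τ) = ∑ τ, ∑ u, mm U P K τ u * f τ u := by
  have h0 : ∑ w, ∑ σ, ∑ τ, J U P K w σ τ * f τ (w \ τ) =
      ∑ τ, ∑ w, ∑ σ, J U P K w σ τ * f τ (w \ τ) := by
    rw [Finset.sum_congr rfl (fun w _ => Finset.sum_comm)]
    rw [Finset.sum_comm]
  rw [h0]
  apply Finset.sum_congr rfl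
  intro τ _
  unfold mm
  simp only [Finset.sum_mul]
  symm
  rw [Finset.sum_comm]
  apply Finset.sum_congr rfl
  intro w _
  rw [Finset.sum_comm]
  apply Finset.sum_congr rfl
  intro σ _
  simp only [ite_mul, zero_mul]
  rw [Finset.sum_ite_eq]
  simp

theorem mm_total (hP : IsLaw P) (hK : IsLaw K) (τ : Finset V) :
    ∑ u, mm U P K τ u = K τ := by
  have h1 : ∑ u, mm U P K τ u = ∑ w, ∑ σ, J U P K w σ τ := by
    unfold mm
    rw [Finset.sum_comm]
    apply Finset.sum_congr rfl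
    intro w _
    rw [Finset.sum_comm]
    apply Finset.sum_congr rfl
    intro σ _
    rw [Finset.sum_ite_eq]
    simp
  rw [h1]
  have h2 := E_tau (U := U) hP hK (fun τ' => if τ' = τ then 1 else 0)
  simp only [mul_ite, mul_one, mul_zero, Finset.sum_ite_eq', mem_univ, if_true] at h2
  exact h2

/-- reference weight for claim (4) -/
noncomputable def Q4 (ρ q : ℝ) (U : Finset V) (P K : Finset V → ℝ) (w σ τ : Finset V) : ℝ :=
  if w ⊆ U ∧ (τ ∩ U) \ w ⊆ σ then
    mm U P K τ (w \ τ) * (ρ⁻¹) ^ ((τ ∩ U) \ w).card * ((1 + q / ρ)⁻¹) ^ (τ ∩ U).card * K σ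
  else 0

theorem Q4_nonneg {q : ℝ} (hρ0 : 0 < ρ) (hq : 0 < q) (hP : IsLaw P) (hK : IsLaw K)
    (w σ τ : Finset V) : 0 ≤ Q4 ρ q U P K w σ τ := by
  unfold Q4
  split_ifs
  · have := hK.1 σ
    have := mm_nonneg (U := U) hP.1 hK.1 τ (w \ τ)
    positivity
  · exact le_refl 0

theorem Q4_sum {q : ℝ} (hρ0 : 0 < ρ) (hq : 0 < q) (hP : IsLaw P) (hK : IsLaw K)
    (hPU : ∀ w, P w ≠ 0 → w ⊆ U)
    (hKs : QSpread q U K) : ∑ w, ∑ σ, ∑ τ, Q4 ρ q U P K w σ τ ≤ 1 := by
  have h0 : ∑ w, ∑ σ, ∑ τ, Q4 ρ q U P K w σ τ = ∑ τ, ∑ w, ∑ σ, Q4 ρ q U P K w σ τ := by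
    rw [Finset.sum_congr rfl (fun w _ => Finset.sum_comm)]
    rw [Finset.sum_comm]
  rw [h0]
  have hstep : ∀ τ : Finset V, ∑ w, ∑ σ, Q4 ρ q U P K w σ τ ≤ K τ := by
    intro τ
    have h1 : ∀ w : Finset V, ∑ σ, Q4 ρ q U P K w σ τ ≤
        (if w ⊆ U then mm U P K τ (w \ τ) * ((q / ρ) ^ ((τ ∩ U) \ w).card *
          ((1 + q / ρ)⁻¹) ^ (τ ∩ U).card) else 0) := by
      intro w
      by_cases hw : w ⊆ U
      · rw [if_pos hw]
        have h2 : ∀ σ : Finset V, Q4 ρ q U P K w σ τ =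
            (mm U P K τ (w \ τ) * (ρ⁻¹) ^ ((τ ∩ U) \ w).card *
              ((1 + q / ρ)⁻¹) ^ (τ ∩ U).card) *
              (if (τ ∩ U) \ w ⊆ σ then K σ else 0) := by
          intro σ
          unfold Q4
          by_cases h3 : (τ ∩ U) \ w ⊆ σ
          · rw [if_pos ⟨hw, h3⟩, if_pos h3]
          · rw [if_neg (fun h => h3 h.2), if_neg h3, mul_zero]
        rw [Finset.sum_congr rfl (fun σ _ => h2 σ), ← Finset.mul_sum]
        have h4 := hKs ((τ ∩ U) \ w) (sdiff_subset.trans inter_subset_right)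
        have h5 := mm_nonneg (U := U) hP.1 hK.1 τ (w \ τ)
        calc _ ≤ (mm U P K τ (w \ τ) * (ρ⁻¹) ^ ((τ ∩ U) \ w).card *
              ((1 + q / ρ)⁻¹) ^ (τ ∩ U).card) * q ^ ((τ ∩ U) \ w).card := by
              apply mul_le_mul_of_nonneg_left h4
              positivity
          _ = _ := by
              rw [div_pow, inv_pow]
              ring
      · rw [if_neg hw]
        apply le_of_eq
        apply Finset.sum_eq_zero
        intro σ _
        unfold Q4
        rw [if_neg (fun h => hw h.1)]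
    calc ∑ w, ∑ σ, Q4 ρ q U P K w σ τ ≤ ∑ w, (if w ⊆ U then mm U P K τ (w \ τ) *
          ((q / ρ) ^ ((τ ∩ U) \ w).card * ((1 + q / ρ)⁻¹) ^ (τ ∩ U).card) else 0) :=
          Finset.sum_le_sum (fun w _ => h1 w)
      _ = ∑ u, ∑ w, (if w \ τ = u then (if w ⊆ U then mm U P K τ u *
          ((q / ρ) ^ ((τ ∩ U) \ w).card * ((1 + q / ρ)⁻¹) ^ (τ ∩ U).card) else 0) else 0) := by
          rw [Finset.sum_comm]
          apply Finset.sum_congr rfl
          intro w _
          rw [Finset.sum_ite_eq]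
          simp
      _ ≤ ∑ u, mm U P K τ u := by
          apply Finset.sum_le_sum
          intro u _
          by_cases hmu : mm U P K τ u = 0
          · rw [hmu]
            apply le_of_eq
            apply Finset.sum_eq_zero
            intro w _
            split_ifs <;> simp
          · -- then `u` is disjoint from `τ` and `u ⊆ U`
            have h6 : ∃ w σ : Finset V, w \ τ = u ∧ J U P K w σ τ ≠ 0 := by
              unfold mm at hmu
              obtain ⟨w, _, hw⟩ := Finset.exists_ne_zero_of_sum_ne_zero hmu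
              obtain ⟨σ, _, hσ⟩ := Finset.exists_ne_zero_of_sum_ne_zero hw
              by_cases h7 : w \ τ = u
              · rw [if_pos h7] at hσ
                exact ⟨w, σ, h7, hσ⟩
              · rw [if_neg h7] at hσ
                exact absurd rfl hσ
            obtain ⟨w₀, σ₀, hw₀, hJ₀⟩ := h6
            have hw₀U := (support_facts hP hPU hK hJ₀).2.2.2.2.2.1
            have huU : u ⊆ U := by rw [← hw₀]; exact sdiff_subset.trans hw₀U
            have hud : Disjoint u τ := by rw [← hw₀]; exact sdiff_disjoint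
            have hud' : Disjoint u (τ ∩ U) :=
              Finset.disjoint_of_subset_right inter_subset_left hud
            have h7 : ∀ w : Finset V, (if w \ τ = u then (if w ⊆ U then mm U P K τ u *
                ((q / ρ) ^ ((τ ∩ U) \ w).card * ((1 + q / ρ)⁻¹) ^ (τ ∩ U).card) else 0)
                else 0) = (if w \ (τ ∩ U) = u then mm U P K τ u *
                ((q / ρ) ^ ((τ ∩ U) \ w).card * ((1 + q / ρ)⁻¹) ^ (τ ∩ U).card) else 0) := by
              intro w
              by_cases h8 : w \ (τ ∩ U) = u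
              · have h9 : w ⊆ U := by
                  intro x hx
                  by_cases h10 : x ∈ τ ∩ U
                  · exact (mem_inter.mp h10).2
                  · apply huU
                    rw [← h8]; exact mem_sdiff.mpr ⟨hx, h10⟩
                have h10 : w \ τ = u := by
                  rw [← h8]
                  ext x
                  simp only [mem_sdiff, mem_inter]
                  constructor
                  · rintro ⟨h11, h12⟩; exact ⟨h11, fun h => h12 h.1⟩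
                  · rintro ⟨h11, h12⟩; exact ⟨h11, fun h => h12 ⟨h, h9 h11⟩⟩
                rw [if_pos h8, if_pos h10, if_pos h9]
              · rw [if_neg h8]
                by_cases h10 : w \ τ = u
                · rw [if_pos h10]
                  by_cases h9 : w ⊆ U
                  · exfalso
                    apply h8
                    rw [← h10]
                    ext x
                    simp only [mem_sdiff, mem_inter]
                    constructor
                    · rintro ⟨h11, h12⟩; exact ⟨h11, fun h => h12 ⟨h, h9 h11⟩⟩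
                    · rintro ⟨h11, h12⟩; exact ⟨h11, fun h => h12 h.1⟩
                  · rw [if_neg h9]
                · rw [if_neg h10]
            rw [Finset.sum_congr rfl (fun w _ => h7 w), sum_fiber (τ ∩ U) u hud']
            have h8 : ∀ R ∈ (τ ∩ U).powerset, mm U P K τ u *
                ((q / ρ) ^ ((τ ∩ U) \ (u ∪ ((τ ∩ U) \ R))).card *
                  ((1 + q / ρ)⁻¹) ^ (τ ∩ U).card) =
                (mm U P K τ u * ((1 + q / ρ)⁻¹) ^ (τ ∩ U).card) * (q / ρ) ^ R.card := by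
              intro R hR
              rw [mem_powerset] at hR
              have h9 : (τ ∩ U) \ (u ∪ ((τ ∩ U) \ R)) = R := by
                ext x
                simp only [mem_sdiff, mem_union]
                constructor
                · rintro ⟨h10, h11⟩
                  by_contra h12
                  exact h11 (Or.inr ⟨h10, h12⟩)
                · intro h10
                  refine ⟨hR h10, ?_⟩
                  rintro (h11 | h11)
                  · exact Finset.disjoint_left.mp hud' h11 (hR h10)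
                  · exact h11.2 h10
              rw [h9]; ring
            rw [Finset.sum_congr rfl h8, ← Finset.mul_sum, sum_powerset_pow]
            have h9 : (1 + q / ρ) ≠ 0 := by positivity
            have h10 : ((1 + q / ρ)⁻¹) ^ (τ ∩ U).card * (1 + q / ρ) ^ (τ ∩ U).card = 1 := by
              rw [← mul_pow, inv_mul_cancel₀ h9, one_pow]
            rw [mul_assoc, h10, mul_one]
      _ = K τ := mm_total hP hK τ
  calc _ ≤ ∑ τ, K τ := Finset.sum_le_sum (fun τ _ => hstep τ)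
    _ = 1 := hK.2

/-- claim (4) -/
theorem claim4 {q : ℝ} (hρ0 : 0 < ρ) (hρ1 : ρ < 1) (hq : 0 < q) (hP : IsLaw P)
    (hPU : ∀ w, P w ≠ 0 → w ⊆ U) (hK : IsLaw K) (hKs : QSpread q U K) :
    ∑ τ, ∑ u, mm U P K τ u * Real.log (mm U P K τ u / K τ / bw ρ (U \ τ) u) ≤
      2 * ent ρ U P + (∑ σ, K σ * ((σ ∩ U).card : ℝ)) * (q / ρ) := by
  have hterm : ∀ w σ τ : Finset V, J U P K w σ τ - Q4 ρ q U P K w σ τ ≤
      J U P K w σ τ * (Real.log (P w / bw ρ U w) +
        Real.log (Pz U P τ (w ∪ (σ ∩ U)) * ρ ^ (τ ∩ U).card / bw ρ U (w ∪ (σ ∩ U))) -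
        Real.log (PZ U P K (w ∪ (σ ∩ U)) / bw ρ U (w ∪ (σ ∩ U)))) +
      J U P K w σ τ * (((τ ∩ U).card : ℝ) * (q / ρ)) -
      J U P K w σ τ * Real.log (mm U P K τ (w \ τ) / K τ / bw ρ (U \ τ) (w \ τ)) := by
    intro w σ τ
    by_cases hJ : J U P K w σ τ = 0
    · rw [hJ]
      have := Q4_nonneg (U := U) hρ0 hq hP hK w σ τ
      simp only [zero_mul]
      linarith
    · obtain ⟨hPw, hKσ, hKτ, hPz, hPZ, hwU, hτ⟩ := support_facts hP hPU hK hJ
      have hsub : (τ ∩ U) \ w ⊆ σ := by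
        intro x hx
        rw [mem_sdiff] at hx
        rcases mem_union.mp (hτ hx.1) with h | h
        · exact absurd h hx.2
        · exact (mem_inter.mp h).1
      set z := w ∪ (σ ∩ U) with hz
      have hbw := bw_pos hρ0 hρ1 U w
      have hbz := bw_pos hρ0 hρ1 U z
      have hbu := bw_pos hρ0 hρ1 (U \ τ) (w \ τ)
      have hmm := mm_pos hP.1 hK.1 hJ
      have h1ρ : 0 < 1 - ρ := by linarith
      have hqρ : 0 < q / ρ := div_pos hq hρ0
      have hQpos : 0 < Q4 ρ q U P K w σ τ := by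
        unfold Q4
        rw [if_pos ⟨hwU, hsub⟩]
        positivity
      have hJpos : 0 < J U P K w σ τ := lt_of_le_of_ne (J_nonneg hP.1 hK.1 _ _ _) (Ne.symm hJ)
      have h1 := gibbs_term hJpos.le hQpos.le (fun _ => hQpos.ne')
      have hrel := bw_restrict (ρ := ρ) (τ := τ) hwU
      have hratio : J U P K w σ τ / Q4 ρ q U P K w σ τ =
          (P w / bw ρ U w) * (Pz U P τ z * ρ ^ (τ ∩ U).card / bw ρ U z) /
            (PZ U P K z / bw ρ U z) * (1 + q / ρ) ^ (τ ∩ U).card *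
            (1 - ρ) ^ ((τ ∩ U) \ w).card /
            (mm U P K τ (w \ τ) / K τ / bw ρ (U \ τ) (w \ τ)) := by
        unfold Q4 J nu
        rw [if_pos ⟨hwU, hsub⟩, ← hz]
        have h2 : (1 - ρ) ^ ((τ ∩ U) \ w).card = bw ρ U w * ρ ^ ((τ ∩ U) \ w).card /
            (bw ρ (U \ τ) (w \ τ) * ρ ^ (τ ∩ U).card) := by
          rw [hrel]
          field_simp
        rw [h2]
        simp only [inv_pow]
        have h3 : (1 + q / ρ) ≠ 0 := by positivity
        generalize (1 + q / ρ) = y at *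
        have h4 : y ^ (τ ∩ U).card ≠ 0 := pow_ne_zero _ h3
        field_simp
      rw [hratio] at h1
      have hlog : Real.log ((P w / bw ρ U w) * (Pz U P τ z * ρ ^ (τ ∩ U).card / bw ρ U z) /
            (PZ U P K z / bw ρ U z) * (1 + q / ρ) ^ (τ ∩ U).card *
            (1 - ρ) ^ ((τ ∩ U) \ w).card /
            (mm U P K τ (w \ τ) / K τ / bw ρ (U \ τ) (w \ τ))) =
          Real.log (P w / bw ρ U w) +
          Real.log (Pz U P τ z * ρ ^ (τ ∩ U).card / bw ρ U z) -
          Real.log (PZ U P K z / bw ρ U z) + ((τ ∩ U).card : ℝ) * Real.log (1 + q / ρ) +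
          (((τ ∩ U) \ w).card : ℝ) * Real.log (1 - ρ) -
          Real.log (mm U P K τ (w \ τ) / K τ / bw ρ (U \ τ) (w \ τ)) := by
        rw [Real.log_div (by positivity) (by positivity),
          Real.log_mul (by positivity) (by positivity),
          Real.log_mul (by positivity) (by positivity),
          Real.log_div (by positivity) (by positivity),
          Real.log_mul (by positivity) (by positivity), Real.log_pow, Real.log_pow]
      rw [hlog] at h1
      have h5 : Real.log (1 + q / ρ) ≤ q / ρ := by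
        have := Real.log_le_sub_one_of_pos (show (0 : ℝ) < 1 + q / ρ by positivity)
        linarith
      have h6 : Real.log (1 - ρ) ≤ 0 := Real.log_nonpos h1ρ.le (by linarith)
      have h7 : ((τ ∩ U).card : ℝ) * Real.log (1 + q / ρ) ≤ ((τ ∩ U).card : ℝ) * (q / ρ) :=
        mul_le_mul_of_nonneg_left h5 (by positivity)
      have h8 : (((τ ∩ U) \ w).card : ℝ) * Real.log (1 - ρ) ≤ 0 :=
        mul_nonpos_of_nonneg_of_nonpos (by positivity) h6
      refine h1.trans ?_
      have h9 : ∀ X Y Z A B C A' : ℝ, A ≤ A' → B ≤ 0 →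
          J U P K w σ τ * (X + Y - Z + A + B - C) ≤ J U P K w σ τ * (X + Y - Z) +
            J U P K w σ τ * A' - J U P K w σ τ * C := by
        intro X Y Z A B C A' hA hB
        have : J U P K w σ τ * (X + Y - Z + A + B - C) ≤
            J U P K w σ τ * (X + Y - Z + A' - C) :=
          mul_le_mul_of_nonneg_left (by linarith) hJpos.le
        linarith
      exact h9 _ _ _ _ _ _ _ h7 h8
  have hsum := Finset.sum_le_sum (fun w (_ : w ∈ (univ : Finset (Finset V))) =>
    Finset.sum_le_sum (fun σ (_ : σ ∈ (univ : Finset (Finset V))) =>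
      Finset.sum_le_sum (fun τ (_ : τ ∈ (univ : Finset (Finset V))) => hterm w σ τ)))
  simp only [Finset.sum_sub_distrib, Finset.sum_add_distrib] at hsum
  have h1 := E_XYZ hρ0 hρ1 hP hPU hK
  have h2 := Q4_sum (P := P) hρ0 hq hP hK hPU hKs
  have h3 : ∑ w, ∑ σ, ∑ τ, J U P K w σ τ = 1 := by
    have := E_X (U := U) hP hK (fun _ => 1)
    simp only [mul_one] at this
    rw [this, hP.2]
  have h4 : ∑ w, ∑ σ, ∑ τ, J U P K w σ τ * (((τ ∩ U).card : ℝ) * (q / ρ)) =
      (∑ σ, K σ * ((σ ∩ U).card : ℝ)) * (q / ρ) := by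
    rw [E_tau hP hK (fun σ => ((σ ∩ U).card : ℝ) * (q / ρ)), Finset.sum_mul]
    exact Finset.sum_congr rfl (fun σ _ => by ring)
  have h5 := mm_sum (U := U) (P := P) (K := K)
    (fun τ u => Real.log (mm U P K τ u / K τ / bw ρ (U \ τ) u))
  rw [h3, h4, h5] at hsum
  linarith

end expect

end One

open Crest.Agent.KK.One in
theorem one_level (ρ q : ℝ) (hρ0 : 0 < ρ) (hρ1 : ρ < 1) (hq : 0 < q) (hL : 8 * q ≤ ρ)
    (U : Finset V) (P : Finset V → ℝ) (hP : IsLaw P) (hPU : ∀ w, P w ≠ 0 → w ⊆ U)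
    (K : Finset V → ℝ) (hK : IsLaw K) (hKs : QSpread q U K) :
    ∃ κ : Finset V → Finset V → ℝ,
      (∀ w, IsLaw (κ w)) ∧ (∀ w, QSpread q (U \ w) (κ w)) ∧
      (∀ w σ, κ w σ ≠ 0 → K σ ≠ 0) ∧
      (∀ σ, ∑ w, P w * κ w σ = K σ) ∧
      (∑ w, P w * ∑ σ, κ w σ * ((σ ∩ (U \ w)).card : ℝ)) * Real.log (ρ / q) ≤
        (∑ σ, K σ * ((σ ∩ U).card : ℝ)) * Real.log 2 + 2 * ent ρ U P ∧
      ∑ σ, K σ * ent ρ (U \ σ) (fun u => (∑ w, if w \ σ = u then P w * κ w σ else 0) / K σ) ≤
        2 * ent ρ U P + (∑ σ, K σ * ((σ ∩ U).card : ℝ)) * (q / ρ) := by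
  set κ : Finset V → Finset V → ℝ := fun w τ =>
    if P w = 0 then K τ else ∑ σ, K σ * nu U P K τ (w ∪ (σ ∩ U)) with hκ
  -- `P w κ w τ = Σ_σ J w σ τ`
  have hPκ : ∀ w τ : Finset V, P w * κ w τ = ∑ σ, J U P K w σ τ := by
    intro w τ
    unfold J
    rw [← Finset.mul_sum]
    by_cases hw : P w = 0
    · rw [hw]; simp
    · rw [hκ]; simp only [if_neg hw]
  refine ⟨κ, ?_, ?_, ?_, ?_, ?_, ?_⟩
  · -- law
    intro w
    by_cases hw : P w = 0
    · have : κ w = K := by funext τ; rw [hκ]; simp only [if_pos hw]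
      rw [this]; exact hK
    · refine ⟨?_, ?_⟩
      · intro τ
        rw [hκ]; simp only [if_neg hw]
        exact Finset.sum_nonneg (fun σ _ => mul_nonneg (hK.1 σ) (nu_nonneg hP.1 hK.1 _ _))
      · rw [hκ]; simp only [if_neg hw]
        rw [Finset.sum_comm]
        have h1 : ∀ σ : Finset V, ∑ τ, K σ * nu U P K τ (w ∪ (σ ∩ U)) = K σ := by
          intro σ
          rw [← Finset.mul_sum]
          by_cases hσ : K σ = 0
          · rw [hσ, zero_mul]
          · rw [nu_sum (PZ_pos_of hP.1 hK.1 hw hσ).ne', mul_one]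
        rw [Finset.sum_congr rfl (fun σ _ => h1 σ)]
        exact hK.2
  · -- spread
    intro w S hS
    have hSU : S ⊆ U := hS.trans sdiff_subset
    by_cases hw : P w = 0
    · have : κ w = K := by funext τ; rw [hκ]; simp only [if_pos hw]
      rw [this]; exact hKs S hSU
    · refine le_trans ?_ (hKs S hSU)
      rw [hκ]; simp only [if_neg hw]
      have h1 : ∀ τ : Finset V, (if S ⊆ τ then ∑ σ, K σ * nu U P K τ (w ∪ (σ ∩ U)) else 0) =
          ∑ σ, (if S ⊆ τ then K σ * nu U P K τ (w ∪ (σ ∩ U)) else 0) := by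
        intro τ
        split_ifs
        · rfl
        · simp
      rw [Finset.sum_congr rfl (fun τ _ => h1 τ), Finset.sum_comm]
      apply Finset.sum_le_sum
      intro σ _
      by_cases hSσ : S ⊆ σ
      · rw [if_pos hSσ]
        by_cases hσ : K σ = 0
        · rw [hσ]; simp
        · calc ∑ τ, (if S ⊆ τ then K σ * nu U P K τ (w ∪ (σ ∩ U)) else 0)
              ≤ ∑ τ, K σ * nu U P K τ (w ∪ (σ ∩ U)) := by
                apply Finset.sum_le_sum
                intro τ _
                split_ifs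
                · exact le_refl _
                · exact mul_nonneg (hK.1 σ) (nu_nonneg hP.1 hK.1 _ _)
            _ = K σ := by
                rw [← Finset.mul_sum, nu_sum (PZ_pos_of hP.1 hK.1 hw hσ).ne', mul_one]
      · rw [if_neg hSσ]
        apply le_of_eq
        apply Finset.sum_eq_zero
        intro τ _
        split_ifs with hSτ
        · by_contra hne
          have hnu : nu U P K τ (w ∪ (σ ∩ U)) ≠ 0 := right_ne_zero_of_mul hne
          have hsub := subset_of_Pz_ne (Pz_ne_of_nu_ne hnu)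
          apply hSσ
          intro x hx
          have hxU := hSU hx
          rcases mem_union.mp (hsub (mem_inter.mpr ⟨hSτ hx, hxU⟩)) with h | h
          · exact absurd h (mem_sdiff.mp (hS hx)).2
          · exact (mem_inter.mp h).1
        · rfl
  · -- support
    intro w τ h hKτ
    apply h
    rw [hκ]
    dsimp only
    split_ifs
    · exact hKτ
    · apply Finset.sum_eq_zero
      intro σ _
      unfold nu
      rw [hKτ]; simp
  · -- marginal
    intro τ
    rw [Finset.sum_congr rfl (fun w _ => hPκ w τ)]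
    have h2 := E_tau (U := U) hP hK (fun τ' => if τ' = τ then 1 else 0)
    simp only [mul_ite, mul_one, mul_zero, Finset.sum_ite_eq', mem_univ, if_true] at h2
    exact h2
  · -- claim (3)
    refine le_trans ?_ (claim3 hρ0 hρ1 hq hP hPU hK hKs)
    have hlog : 0 ≤ Real.log (ρ / q) := by
      apply Real.log_nonneg
      rw [le_div_iff₀ hq]
      linarith
    apply mul_le_mul_of_nonneg_right _ hlog
    have h1 : ∀ w : Finset V, P w * ∑ τ, κ w τ * ((τ ∩ (U \ w)).card : ℝ) =
        ∑ σ, ∑ τ, J U P K w σ τ * ((τ ∩ (U \ w)).card : ℝ) := by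
      intro w
      rw [Finset.mul_sum, Finset.sum_comm]
      apply Finset.sum_congr rfl
      intro τ _
      rw [← mul_assoc, hPκ, Finset.sum_mul]
    rw [Finset.sum_congr rfl (fun w _ => h1 w)]
    apply Finset.sum_le_sum
    intro w _
    apply Finset.sum_le_sum
    intro σ _
    apply Finset.sum_le_sum
    intro τ _
    by_cases hJ : J U P K w σ τ = 0
    · rw [hJ]; simp
    · obtain ⟨hPw, hKσ, hKτ, hPz, hPZ, hwU, hτ⟩ := support_facts hP hPU hK hJ
      apply mul_le_mul_of_nonneg_left _ (J_nonneg hP.1 hK.1 _ _ _)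
      have hsub : τ ∩ (U \ w) ⊆ (σ ∩ U) ∩ (τ ∩ U) := by
        intro x hx
        rw [mem_inter, mem_sdiff] at hx
        have hx1 : x ∈ τ ∩ U := mem_inter.mpr ⟨hx.1, hx.2.1⟩
        rcases mem_union.mp (hτ hx1) with h | h
        · exact absurd h hx.2.2
        · exact mem_inter.mpr ⟨h, hx1⟩
      exact_mod_cast card_le_card hsub
  · -- claim (4)
    refine le_trans (le_of_eq ?_) (claim4 hρ0 hρ1 hq hP hPU hK hKs)
    apply Finset.sum_congr rfl
    intro τ _
    unfold ent
    rw [Finset.mul_sum]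
    apply Finset.sum_congr rfl
    intro u _
    have h1 : (∑ w, if w \ τ = u then P w * κ w τ else 0) = mm U P K τ u := by
      unfold mm
      apply Finset.sum_congr rfl
      intro w _
      rw [hPκ]
      split_ifs
      · rfl
      · simp
    dsimp only
    rw [h1]
    by_cases hτ : K τ = 0
    · have h2 : mm U P K τ u = 0 := by
        have h3 := mm_total (U := U) hP hK τ
        rw [hτ] at h3
        have h4 := Finset.single_le_sum (f := fun u => mm U P K τ u)
          (fun u _ => mm_nonneg (U := U) hP.1 hK.1 τ u) (mem_univ u)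
        rw [h3] at h4
        exact le_antisymm h4 (mm_nonneg hP.1 hK.1 τ u)
      rw [hτ, h2]; simp
    · field_simp

end Crest.Agent.KK
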