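import Mathlib
import Crest.Agent.KKDefs
import Crest.Agent.KKOne

/-! M2: recursion over the layers, `m` rounds. Uses `one_level` (KKOne.lean) as a black box. -/

set_option autoImplicit false
set_option linter.unusedSectionVars false

namespace Crest.Agent.KK

open Finset

variable {V : Type} [Fintype V] [DecidableEq V]

theorem bw_insert_of_subset (ρ : ℝ) {a : V} {U w : Finset V} (ha : a ∉ U) (hw : w ⊆ U) :
    bw ρ (insert a U) w = (1 - ρ) * bw ρ U w := by
  unfold bw
  have haw : a ∉ w := fun h => ha (hw h)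
  rw [Finset.insert_sdiff_of_notMem _ haw, Finset.card_insert_of_notMem
    (by simp [ha]), pow_succ]
  ring

theorem bw_insert_insert (ρ : ℝ) {a : V} {U w : Finset V} (ha : a ∉ U) (hw : w ⊆ U) :
    bw ρ (insert a U) (insert a w) = ρ * bw ρ U w := by
  unfold bw
  have haw : a ∉ w := fun h => ha (hw h)
  rw [Finset.card_insert_of_notMem haw, pow_succ, Finset.insert_sdiff_insert,
    Finset.sdiff_insert_of_notMem ha]
  ring

theorem sum_insert (ρ : ℝ) {a : V} {U : Finset V} (ha : a ∉ U) (f : Finset V → ℝ) :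
    ∑ w ∈ (insert a U).powerset, bw ρ (insert a U) w * f w =
      (1 - ρ) * ∑ w ∈ U.powerset, bw ρ U w * f w +
        ρ * ∑ w ∈ U.powerset, bw ρ U w * f (insert a w) := by
  rw [Finset.sum_powerset_insert ha, Finset.mul_sum, Finset.mul_sum]
  congr 1
  · refine Finset.sum_congr rfl fun w hw => ?_
    rw [bw_insert_of_subset ρ ha (Finset.mem_powerset.mp hw)]
    ring
  · refine Finset.sum_congr rfl fun w hw => ?_
    rw [bw_insert_insert ρ ha (Finset.mem_powerset.mp hw)]
    ring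

theorem bw_sum_one (ρ : ℝ) (U : Finset V) : ∑ w ∈ U.powerset, bw ρ U w = 1 := by
  induction U using Finset.induction_on with
  | empty => simp [bw]
  | insert a U ha ih =>
    have h := sum_insert ρ ha (fun _ => (1 : ℝ))
    simp only [mul_one] at h
    rw [h, ih]; ring

theorem sum_powerset_eq_ite (U : Finset V) (f : Finset V → ℝ) :
    ∑ w ∈ U.powerset, f w = ∑ w, if w ⊆ U then f w else 0 := by
  rw [← Finset.sum_filter]
  refine Finset.sum_congr ?_ fun _ _ => rfl
  ext w; simp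

theorem bw_nonneg (ρ : ℝ) (hρ0 : 0 ≤ ρ) (hρ1 : ρ ≤ 1) (U w : Finset V) : 0 ≤ bw ρ U w := by
  unfold bw
  have : 0 ≤ 1 - ρ := by linarith
  positivity

theorem bw_pos (ρ : ℝ) (hρ0 : 0 < ρ) (hρ1 : ρ < 1) (U w : Finset V) : 0 < bw ρ U w := by
  unfold bw
  have : 0 < 1 - ρ := by linarith
  positivity

theorem bw_law (ρ : ℝ) (hρ0 : 0 ≤ ρ) (hρ1 : ρ ≤ 1) (U : Finset V) :
    IsLaw (fun w => if w ⊆ U then bw ρ U w else 0) := by
  refine ⟨fun w => ?_, ?_⟩
  · simp only
    split_ifs
    · exact bw_nonneg ρ hρ0 hρ1 U w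
    · exact le_rfl
  · rw [← sum_powerset_eq_ite, bw_sum_one]

/-- relative entropy is nonnegative -/
theorem ent_nonneg (ρ : ℝ) (hρ0 : 0 < ρ) (hρ1 : ρ < 1) (U : Finset V) (P : Finset V → ℝ)
    (hP : IsLaw P) (hPU : ∀ w, P w ≠ 0 → w ⊆ U) : 0 ≤ ent ρ U P := by
  unfold ent
  have key : ∀ w : Finset V, P w - (if w ⊆ U then bw ρ U w else 0) ≤
      P w * Real.log (P w / bw ρ U w) := by
    intro w
    have hb := bw_pos ρ hρ0 hρ1 U w
    by_cases h0 : P w = 0
    · rw [h0]
      simp only [zero_mul, zero_sub]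
      split_ifs
      · linarith
      · simp
    · have hpos : 0 < P w := lt_of_le_of_ne (hP.1 w) (Ne.symm h0)
      rw [if_pos (hPU w h0)]
      have h1 : 1 - (P w / bw ρ U w)⁻¹ ≤ Real.log (P w / bw ρ U w) :=
        Real.one_sub_inv_le_log_of_pos (div_pos hpos hb)
      have h2 : P w * (1 - (P w / bw ρ U w)⁻¹) ≤ P w * Real.log (P w / bw ρ U w) :=
        mul_le_mul_of_nonneg_left h1 hpos.le
      have h3 : P w * (1 - (P w / bw ρ U w)⁻¹) = P w - bw ρ U w := by
        rw [inv_div]; field_simp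
      linarith
  have hsum := Finset.sum_le_sum (s := (Finset.univ : Finset (Finset V))) fun w _ => key w
  rw [Finset.sum_sub_distrib, hP.2, (bw_law ρ hρ0.le hρ1.le U).2] at hsum
  linarith

theorem Pot_nonneg (q : ℝ) (d : ℕ) : ∀ (U : Finset V) (L : LP V d), Spread q d U L →
    0 ≤ Pot d U L := by
  induction d with
  | zero => intro U L _; exact le_rfl
  | succ d ih =>
    intro U L hS
    obtain ⟨hK, hq, hn⟩ := hS
    have h1 : 0 ≤ ∑ σ, L.1 σ * ((σ ∩ U).card : ℝ) :=
      Finset.sum_nonneg fun σ _ => mul_nonneg (hK.1 σ) (Nat.cast_nonneg _)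
    have h2 : 0 ≤ ∑ σ, L.1 σ * Pot d (U \ σ) (L.2 σ) := by
      refine Finset.sum_nonneg fun σ _ => ?_
      by_cases h : L.1 σ = 0
      · rw [h]; simp
      · exact mul_nonneg (hK.1 σ) (ih _ _ (hn σ h))
    show 0 ≤ 4 ^ d * ∑ σ, L.1 σ * ((σ ∩ U).card : ℝ) + ∑ σ, L.1 σ * Pot d (U \ σ) (L.2 σ)
    positivity

theorem win_of_pot_lt_one (q : ℝ) (d : ℕ) (U : Finset V) (L : LP V d) (hS : Spread q d U L)
    (h : Pot d U L < 1) : Win d (univ \ U) L := by
  induction d generalizing U with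
  | zero => trivial
  | succ d ih =>
    obtain ⟨hK, hq, hn⟩ := hS
    have h' : 4 ^ d * ∑ σ, L.1 σ * ((σ ∩ U).card : ℝ) +
      ∑ σ, L.1 σ * Pot d (U \ σ) (L.2 σ) < 1 := h
    have hex : ∃ σ, L.1 σ ≠ 0 ∧ (4 : ℝ) ^ d * ((σ ∩ U).card : ℝ) + Pot d (U \ σ) (L.2 σ) < 1 := by
      by_contra hcon
      push Not at hcon
      have : ∑ σ, L.1 σ ≤ ∑ σ, L.1 σ * ((4 : ℝ) ^ d * ((σ ∩ U).card : ℝ) +
          Pot d (U \ σ) (L.2 σ)) := by
        refine Finset.sum_le_sum fun σ _ => ?_
        by_cases h0 : L.1 σ = 0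
        · rw [h0]; simp
        · have := mul_le_mul_of_nonneg_left (hcon σ h0) (hK.1 σ)
          linarith
      rw [hK.2] at this
      have e : ∑ σ, L.1 σ * ((4 : ℝ) ^ d * ((σ ∩ U).card : ℝ) + Pot d (U \ σ) (L.2 σ)) =
          4 ^ d * ∑ σ, L.1 σ * ((σ ∩ U).card : ℝ) + ∑ σ, L.1 σ * Pot d (U \ σ) (L.2 σ) := by
        rw [Finset.mul_sum, ← Finset.sum_add_distrib]
        refine Finset.sum_congr rfl fun σ _ => ?_
        ring
      linarith
    obtain ⟨σ, h0, hlt⟩ := hex
    have hpn := Pot_nonneg q d _ _ (hn σ h0)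
    have h4 : (1 : ℝ) ≤ 4 ^ d := one_le_pow₀ (by norm_num)
    have hcard : (σ ∩ U).card = 0 := by
      by_contra hne
      have h1 : (1 : ℝ) ≤ ((σ ∩ U).card : ℝ) := by
        exact_mod_cast Nat.one_le_iff_ne_zero.mpr hne
      nlinarith
    have hdisj : σ ∩ U = ∅ := Finset.card_eq_zero.mp hcard
    have hUσ : U \ σ = U := by
      rw [Finset.sdiff_eq_self_iff_disjoint, Finset.disjoint_iff_inter_eq_empty, Finset.inter_comm]
      exact hdisj
    refine ⟨σ, h0, ?_, ?_⟩
    · intro x hx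
      simp only [Finset.mem_sdiff, Finset.mem_univ, true_and]
      intro hxU
      have : x ∈ σ ∩ U := Finset.mem_inter.mpr ⟨hx, hxU⟩
      rw [hdisj] at this
      simp at this
    · have hpot : Pot d (U \ σ) (L.2 σ) < 1 := by
        rw [hcard] at hlt
        simpa using hlt
      have := ih (U \ σ) (L.2 σ) (hn σ h0) hpot
      rwa [hUσ] at this

/-- union of two independent binomial random sets -/
theorem bw_union_aux (ρ τ : ℝ) (U : Finset V) : ∀ (f : Finset V → ℝ),
    ∑ w₁ ∈ U.powerset, bw ρ U w₁ * ∑ w₂ ∈ U.powerset, bw τ U w₂ * f (w₁ ∪ w₂) =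
      ∑ w ∈ U.powerset, bw (1 - (1 - ρ) * (1 - τ)) U w * f w := by
  induction U using Finset.induction_on with
  | empty => intro f; simp [bw]
  | insert a U ha ih =>
    intro f
    have e1 : ∀ w₁ : Finset V, ∑ w₂ ∈ (insert a U).powerset, bw τ (insert a U) w₂ * f (w₁ ∪ w₂) =
      (1 - τ) * ∑ w ∈ U.powerset, bw τ U w * f (w₁ ∪ w) +
        τ * ∑ w ∈ U.powerset, bw τ U w * f (insert a (w₁ ∪ w)) := by
      intro w₁
      rw [sum_insert τ ha (fun w => f (w₁ ∪ w))]
      simp only [Finset.union_insert]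
    have e2 : ∀ w₁ : Finset V, ∑ w₂ ∈ (insert a U).powerset,
        bw τ (insert a U) w₂ * f (insert a w₁ ∪ w₂) =
        ∑ w ∈ U.powerset, bw τ U w * f (insert a (w₁ ∪ w)) := by
      intro w₁
      rw [sum_insert τ ha (fun w => f (insert a w₁ ∪ w))]
      simp only [Finset.union_insert, Finset.insert_union, Finset.insert_idem]
      ring
    have h0 := sum_insert ρ ha (fun w₁ => ∑ w₂ ∈ (insert a U).powerset,
      bw τ (insert a U) w₂ * f (w₁ ∪ w₂))
    have h1 := sum_insert (1 - (1 - ρ) * (1 - τ)) ha f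
    have i1 := ih f
    have i2 := ih (fun w => f (insert a w))
    rw [h0, h1, ← i1, ← i2]
    simp only [e2]
    simp only [e1]
    have e3 : ∑ w₁ ∈ U.powerset, bw ρ U w₁ *
        ((1 - τ) * ∑ w ∈ U.powerset, bw τ U w * f (w₁ ∪ w) +
          τ * ∑ w ∈ U.powerset, bw τ U w * f (insert a (w₁ ∪ w))) =
        (1 - τ) * ∑ w₁ ∈ U.powerset, bw ρ U w₁ * ∑ w ∈ U.powerset, bw τ U w * f (w₁ ∪ w) +
        τ * ∑ w₁ ∈ U.powerset, bw ρ U w₁ *
          ∑ w ∈ U.powerset, bw τ U w * f (insert a (w₁ ∪ w)) := by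
      rw [Finset.mul_sum, Finset.mul_sum, ← Finset.sum_add_distrib]
      refine Finset.sum_congr rfl fun w _ => ?_
      ring
    rw [e3]
    ring

theorem bw_union (ρ τ : ℝ) (f : Finset V → ℝ) :
    ∑ w₁, ∑ w₂, bw ρ univ w₁ * bw τ univ w₂ * f (w₁ ∪ w₂) =
      ∑ w, bw (1 - (1 - ρ) * (1 - τ)) univ w * f w := by
  have h := bw_union_aux ρ τ (univ : Finset V) f
  rw [Finset.powerset_univ] at h
  rw [← h]
  refine Finset.sum_congr rfl fun w₁ _ => ?_
  rw [Finset.mul_sum]
  refine Finset.sum_congr rfl fun w₂ _ => ?_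
  ring

/-- marginal of a binomial random set -/
theorem bw_marginal_aux (ρ : ℝ) (U T : Finset V) (hd : Disjoint U T) : ∀ (g : Finset V → ℝ),
    ∑ w ∈ (U ∪ T).powerset, bw ρ (U ∪ T) w * g (w ∩ U) = ∑ w ∈ U.powerset, bw ρ U w * g w := by
  induction T using Finset.induction_on with
  | empty =>
    intro g
    rw [Finset.union_empty]
    refine Finset.sum_congr rfl fun w hw => ?_
    rw [Finset.inter_eq_left.mpr (Finset.mem_powerset.mp hw)]
  | insert a T ha ih =>
    intro g
    have haU : a ∉ U := by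
      intro h
      exact (Finset.disjoint_left.mp hd h) (Finset.mem_insert_self a T)
    have hd' : Disjoint U T := Finset.disjoint_of_subset_right (Finset.subset_insert a T) hd
    have haUT : a ∉ U ∪ T := by simp [haU, ha]
    rw [Finset.union_insert, sum_insert ρ haUT (fun w => g (w ∩ U))]
    have e : ∀ w : Finset V, insert a w ∩ U = w ∩ U := fun w =>
      Finset.insert_inter_of_notMem haU
    simp only [e]
    rw [ih hd' g]
    ring

theorem bw_marginal (ρ : ℝ) (U : Finset V) (g : Finset V → ℝ) :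
    ∑ w, bw ρ univ w * g (w ∩ U) = ∑ w, (if w ⊆ U then bw ρ U w else 0) * g w := by
  have h := bw_marginal_aux ρ U (univ \ U) Finset.disjoint_sdiff g
  have hu : U ∪ univ \ U = univ := Finset.union_sdiff_of_subset (Finset.subset_univ U)
  rw [hu, Finset.powerset_univ] at h
  rw [h, sum_powerset_eq_ite]
  refine Finset.sum_congr rfl fun w _ => ?_
  split_ifs <;> simp

theorem ent_bw (ρ : ℝ) (hρ0 : 0 < ρ) (hρ1 : ρ < 1) (U : Finset V) :
    ent ρ U (fun w => if w ⊆ U then bw ρ U w else 0) = 0 := by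
  unfold ent
  refine Finset.sum_eq_zero fun w _ => ?_
  simp only
  split_ifs with h
  · rw [div_self (bw_pos ρ hρ0 hρ1 U w).ne']
    simp
  · simp

theorem log_ratio_ge (ρ q : ℝ) (hq : 0 < q) (hL : 8 * q ≤ ρ) :
    3 * Real.log 2 ≤ Real.log (ρ / q) := by
  have h8 : (8 : ℝ) ≤ ρ / q := by rw [le_div_iff₀ hq]; exact hL
  have h1 : Real.log 8 ≤ Real.log (ρ / q) := Real.log_le_log (by norm_num) h8
  have h2 : Real.log 8 = 3 * Real.log 2 := by
    rw [show (8 : ℝ) = 2 ^ 3 by norm_num, Real.log_pow]; norm_num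
  linarith

/-- One round. -/
theorem round (ρ q : ℝ) (hρ0 : 0 < ρ) (hρ1 : ρ < 1) (hq : 0 < q) (hL : 8 * q ≤ ρ)
    (d : ℕ) (U : Finset V) (L : LP V d) (hS : Spread q d U L)
    (P : Finset V → ℝ) (hP : IsLaw P) (hPU : ∀ w, P w ≠ 0 → w ⊆ U) :
    ∃ L' : Finset V → LP V d,
      (∀ w, w ⊆ U → Spread q d (U \ w) (L' w)) ∧
      (∀ w W, Win d W (L' w) → Win d W L) ∧
      ∑ w, P w * Pot d (U \ w) (L' w) ≤ 1 / 2 * Pot d U L + (4 ^ d / 2) * ent ρ U P := by
  induction d generalizing U P with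
  | zero =>
    refine ⟨fun _ => L, fun _ _ => trivial, fun _ _ _ => trivial, ?_⟩
    have h1 : ∑ w, P w * Pot 0 (U \ w) L = 0 := by
      refine Finset.sum_eq_zero fun w _ => ?_
      show P w * 0 = 0
      simp
    have h2 : Pot 0 U L = 0 := rfl
    have h3 := ent_nonneg ρ hρ0 hρ1 U P hP hPU
    rw [h1, h2]
    simp only [pow_zero]
    linarith
  | succ d ih =>
    obtain ⟨hK, hKs, hn⟩ := hS
    set K : Finset V → ℝ := L.1 with hKdef
    obtain ⟨κ, hκl, hκs, hκK, hκm, hκ1, hκ2⟩ := one_level ρ q hρ0 hρ1 hq hL U P hP hPU K hK hKs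
    -- conditional laws
    let Q : Finset V → Finset V → ℝ := fun σ u =>
      (∑ w, if w \ σ = u then P w * κ w σ else 0) / K σ
    have hterm : ∀ w σ, 0 ≤ P w * κ w σ := fun w σ => mul_nonneg (hP.1 w) ((hκl w).1 σ)
    have hQlaw : ∀ σ, K σ ≠ 0 → IsLaw (Q σ) := by
      intro σ hσ
      refine ⟨fun u => ?_, ?_⟩
      · refine div_nonneg (Finset.sum_nonneg fun w _ => ?_) (hK.1 σ)
        split_ifs
        · exact hterm w σ
        · exact le_rfl
      · show ∑ u, (∑ w, if w \ σ = u then P w * κ w σ else 0) / K σ = 1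
        rw [← Finset.sum_div, Finset.sum_comm]
        have : ∑ w, ∑ u, (if w \ σ = u then P w * κ w σ else 0) = K σ := by
          rw [← hκm σ]
          refine Finset.sum_congr rfl fun w _ => ?_
          rw [Finset.sum_ite_eq]
          simp
        rw [this, div_self hσ]
    have hQsup : ∀ σ u, Q σ u ≠ 0 → u ⊆ U \ σ := by
      intro σ u hu
      have hne : (∑ w, if w \ σ = u then P w * κ w σ else 0) ≠ 0 := by
        intro h0
        apply hu
        show (∑ w, if w \ σ = u then P w * κ w σ else 0) / K σ = 0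
        rw [h0, zero_div]
      obtain ⟨w, _, hw⟩ := Finset.exists_ne_zero_of_sum_ne_zero hne
      have h1 : w \ σ = u := by
        by_contra hc
        rw [if_neg hc] at hw
        exact hw rfl
      rw [if_pos h1] at hw
      have hPw : P w ≠ 0 := left_ne_zero_of_mul hw
      rw [← h1]
      exact Finset.sdiff_subset_sdiff (hPU w hPw) (Finset.Subset.refl σ)
    have hIH : ∀ σ, K σ ≠ 0 → ∃ L' : Finset V → LP V d,
      (∀ w, w ⊆ U \ σ → Spread q d ((U \ σ) \ w) (L' w)) ∧
      (∀ w W, Win d W (L' w) → Win d W (L.2 σ)) ∧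
      ∑ w, Q σ w * Pot d ((U \ σ) \ w) (L' w) ≤
        1 / 2 * Pot d (U \ σ) (L.2 σ) + (4 ^ d / 2) * ent ρ (U \ σ) (Q σ) := by
      intro σ hσ
      exact ih (U \ σ) (L.2 σ) (hn σ hσ) (Q σ) (hQlaw σ hσ) (hQsup σ)
    have hIH' : ∀ σ, ∃ L' : Finset V → LP V d, K σ ≠ 0 → 
      ((∀ w, w ⊆ U \ σ → Spread q d ((U \ σ) \ w) (L' w)) ∧
      (∀ w W, Win d W (L' w) → Win d W (L.2 σ)) ∧
      ∑ w, Q σ w * Pot d ((U \ σ) \ w) (L' w) ≤
        1 / 2 * Pot d (U \ σ) (L.2 σ) + (4 ^ d / 2) * ent ρ (U \ σ) (Q σ)) := by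
      intro σ
      by_cases hσ : K σ = 0
      · exact ⟨fun _ => L.2 σ, fun h => absurd hσ h⟩
      · obtain ⟨L', h⟩ := hIH σ hσ
        exact ⟨L', fun _ => h⟩
    choose M hM using hIH'
    refine ⟨fun w => (κ w, fun σ => M σ (w \ σ)), ?_, ?_, ?_⟩
    · intro w hw
      refine ⟨hκl w, hκs w, fun σ hσ => ?_⟩
      have hKσ := hκK w σ hσ
      have h1 := (hM σ hKσ).1 (w \ σ) (Finset.sdiff_subset_sdiff hw (Finset.Subset.refl σ))
      have h2 : (U \ σ) \ (w \ σ) = (U \ w) \ σ := by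
        ext x; simp only [Finset.mem_sdiff]; tauto
      rw [h2] at h1
      exact h1
    · rintro w W ⟨σ, h0, hsub, hwin⟩
      have hKσ := hκK w σ h0
      exact ⟨σ, hKσ, hsub, (hM σ hKσ).2.1 _ _ hwin⟩
    · -- the potential
      set D := ent ρ U P with hD
      have hD0 : 0 ≤ D := ent_nonneg ρ hρ0 hρ1 U P hP hPU
      set E := ∑ σ, K σ * ((σ ∩ U).card : ℝ) with hE
      have hE0 : 0 ≤ E := Finset.sum_nonneg fun σ _ => mul_nonneg (hK.1 σ) (Nat.cast_nonneg _)
      set A := ∑ w, P w * ∑ σ, κ w σ * ((σ ∩ (U \ w)).card : ℝ) with hA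
      have hexp : ∑ w, P w * Pot (d + 1) (U \ w) (κ w, fun σ => M σ (w \ σ)) =
          4 ^ d * A + ∑ σ, ∑ w, P w * κ w σ * Pot d ((U \ w) \ σ) (M σ (w \ σ)) := by
        have : ∀ w, P w * Pot (d + 1) (U \ w) (κ w, fun σ => M σ (w \ σ)) =
            4 ^ d * (P w * ∑ σ, κ w σ * ((σ ∩ (U \ w)).card : ℝ)) +
            ∑ σ, P w * κ w σ * Pot d ((U \ w) \ σ) (M σ (w \ σ)) := by
          intro w
          show P w * (4 ^ d * ∑ σ, κ w σ * ((σ ∩ (U \ w)).card : ℝ) +
            ∑ σ, κ w σ * Pot d ((U \ w) \ σ) (M σ (w \ σ))) = _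
          rw [mul_add, Finset.mul_sum (f := fun σ => κ w σ * Pot d ((U \ w) \ σ) (M σ (w \ σ)))]
          congr 1
          · ring
          · refine Finset.sum_congr rfl fun σ _ => ?_
            ring
        simp only [this]
        rw [Finset.sum_add_distrib, ← Finset.mul_sum, Finset.sum_comm]
      have hinner : ∀ σ, ∑ w, P w * κ w σ * Pot d ((U \ w) \ σ) (M σ (w \ σ)) ≤
          1 / 2 * (K σ * Pot d (U \ σ) (L.2 σ)) + (4 ^ d / 2) * (K σ * ent ρ (U \ σ) (Q σ)) := by
        intro σ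
        by_cases hσ : K σ = 0
        · have hz : ∀ w, P w * κ w σ = 0 := by
            intro w
            have h1 := hκm σ
            rw [hσ] at h1
            exact (Finset.sum_eq_zero_iff_of_nonneg (fun w _ => hterm w σ)).mp h1 w
              (Finset.mem_univ w)
          simp [hz, hσ]
        · have h3 := (hM σ hσ).2.2
          have hKpos : 0 < K σ := lt_of_le_of_ne (hK.1 σ) (Ne.symm hσ)
          have h4 : ∑ w, P w * κ w σ * Pot d ((U \ w) \ σ) (M σ (w \ σ)) =
              K σ * ∑ u, Q σ u * Pot d ((U \ σ) \ u) (M σ u) := by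
            rw [Finset.mul_sum]
            have h5 : ∀ u, K σ * (Q σ u * Pot d ((U \ σ) \ u) (M σ u)) =
                ∑ w, if w \ σ = u then P w * κ w σ * Pot d ((U \ σ) \ u) (M σ u) else 0 := by
              intro u
              show K σ * ((∑ w, if w \ σ = u then P w * κ w σ else 0) / K σ *
                Pot d ((U \ σ) \ u) (M σ u)) = _
              rw [← mul_assoc, mul_div_cancel₀ _ hσ, Finset.sum_mul]
              refine Finset.sum_congr rfl fun w _ => ?_
              split_ifs <;> simp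
            simp only [h5]
            rw [Finset.sum_comm]
            refine Finset.sum_congr rfl fun w _ => ?_
            rw [Finset.sum_ite_eq]
            simp only [Finset.mem_univ, if_true]
            have h2 : (U \ σ) \ (w \ σ) = (U \ w) \ σ := by
              ext x; simp only [Finset.mem_sdiff]; tauto
            rw [h2]
          rw [h4]
          have := mul_le_mul_of_nonneg_left h3 hKpos.le
          linarith
      have hsum : ∑ σ, ∑ w, P w * κ w σ * Pot d ((U \ w) \ σ) (M σ (w \ σ)) ≤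
          1 / 2 * ∑ σ, K σ * Pot d (U \ σ) (L.2 σ) +
            (4 ^ d / 2) * ∑ σ, K σ * ent ρ (U \ σ) (Q σ) := by
        rw [Finset.mul_sum, Finset.mul_sum, ← Finset.sum_add_distrib]
        exact Finset.sum_le_sum fun σ _ => hinner σ
      have hκ2' : ∑ σ, K σ * ent ρ (U \ σ) (Q σ) ≤ 2 * D + E * (q / ρ) := hκ2
      have hlog := log_ratio_ge ρ q hq hL
      have hl2 : (0.69 : ℝ) < Real.log 2 := by
        have := Real.log_two_gt_d9; linarith
      have hl2' : Real.log 2 < 0.7 := by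
        have := Real.log_two_lt_d9; linarith
      set l := Real.log (ρ / q) with hl
      have hlpos : 2 ≤ l := by linarith
      have hqρ : q / ρ ≤ 1 / 8 := by
        rw [div_le_iff₀ hρ0]; linarith
      -- A ≤ E/3 + D
      have hAb : A ≤ E / 3 + D := by
        have h6 : A * l ≤ E * Real.log 2 + 2 * D := hκ1
        have h7 : E * Real.log 2 + 2 * D ≤ (E / 3 + D) * l := by
          have h8 : E * Real.log 2 ≤ E / 3 * l := by
            have : E * (3 * Real.log 2) ≤ E * l := mul_le_mul_of_nonneg_left hlog hE0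
            linarith
          have h9 : 2 * D ≤ D * l := by nlinarith
          linarith
        by_contra hcon
        push Not at hcon
        have : (E / 3 + D) * l < A * l := mul_lt_mul_of_pos_right hcon (by linarith)
        linarith
      have h4pos : (0 : ℝ) < 4 ^ d := by positivity
      have hPotL : Pot (d + 1) U L = 4 ^ d * E + ∑ σ, K σ * Pot d (U \ σ) (L.2 σ) := rfl
      rw [hexp, hPotL]
      have hEq : E * (q / ρ) ≤ E * (1 / 8) := mul_le_mul_of_nonneg_left hqρ hE0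
      have hfin : 4 ^ d * A + (4 ^ d / 2) * (2 * D + E * (q / ρ)) ≤
          1 / 2 * (4 ^ d * E) + 4 ^ (d + 1) / 2 * D := by
        have h10 : (4 : ℝ) ^ d * A ≤ 4 ^ d * (E / 3 + D) :=
          mul_le_mul_of_nonneg_left hAb h4pos.le
        have h11 : (4 : ℝ) ^ d / 2 * (2 * D + E * (q / ρ)) ≤ 4 ^ d / 2 * (2 * D + E * (1 / 8)) :=
          mul_le_mul_of_nonneg_left (by linarith) (by positivity)
        have h12 : (4 : ℝ) ^ d * E ≥ 0 := by positivity
        rw [pow_succ]
        nlinarith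
      have h13 : (4 : ℝ) ^ d / 2 * ∑ σ, K σ * ent ρ (U \ σ) (Q σ) ≤
          4 ^ d / 2 * (2 * D + E * (q / ρ)) :=
        mul_le_mul_of_nonneg_left hκ2' (by positivity)
      linarith

theorem rounds (ρ q : ℝ) (hρ0 : 0 < ρ) (hρ1 : ρ < 1) (hq : 0 < q) (hL : 8 * q ≤ ρ)
    (m d : ℕ) (U : Finset V) (L : LP V d) (hS : Spread q d U L) :
    (∑ W : Finset V, open Classical in
        if Win d ((univ \ U) ∪ W) L then 0 else bw (1 - (1 - ρ) ^ m) univ W) ≤
      (1 / 2) ^ m * Pot d U L := by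
  classical
  induction m generalizing U L with
  | zero =>
    have hP0 := Pot_nonneg q d U L hS
    simp only [pow_zero, sub_self, one_mul]
    have hz : ∀ W : Finset V, W ≠ ∅ → bw 0 univ W = 0 := by
      intro W hW
      unfold bw
      have : W.card ≠ 0 := by
        rw [Ne, Finset.card_eq_zero]; exact hW
      rw [zero_pow this, zero_mul]
    rw [Finset.sum_eq_single ∅]
    · rw [Finset.union_empty]
      split_ifs with hw
      · exact hP0
      · by_contra hcon
        push Not at hcon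
        have h1 : bw 0 (univ : Finset V) ∅ = 1 := by simp [bw]
        rw [h1] at hcon
        exact hw (win_of_pot_lt_one q d U L hS hcon)
    · intro W _ hW
      rw [hz W hW]
      split_ifs <;> rfl
    · intro h
      exact absurd (Finset.mem_univ _) h
  | succ m ih =>
    set τ : ℝ := 1 - (1 - ρ) ^ m with hτ
    have hτ' : 1 - (1 - ρ) ^ (m + 1) = 1 - (1 - ρ) * (1 - τ) := by
      rw [hτ, pow_succ]; ring
    have h1ρ : 0 < 1 - ρ := by linarith
    have hτ0 : 0 ≤ τ := by
      rw [hτ]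
      have : (1 - ρ) ^ m ≤ 1 := pow_le_one₀ h1ρ.le (by linarith)
      linarith
    have hτ1 : τ ≤ 1 := by
      rw [hτ]
      have : 0 < (1 - ρ) ^ m := by positivity
      linarith
    rw [hτ']
    obtain ⟨L', hL1, hL2, hL3⟩ := round ρ q hρ0 hρ1 hq hL d U L hS
      (fun w => if w ⊆ U then bw ρ U w else 0) (bw_law ρ hρ0.le hρ1.le U)
      (fun w hw => by
        by_contra hc
        simp only [if_neg hc] at hw
        exact hw rfl)
    rw [ent_bw ρ hρ0 hρ1 U] at hL3
    simp only [mul_zero, add_zero] at hL3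
    -- rewrite LHS as a sum of bw * f
    have e1 : (∑ W : Finset V, if Win d ((univ \ U) ∪ W) L then 0 else
        bw (1 - (1 - ρ) * (1 - τ)) univ W) =
        ∑ W : Finset V, bw (1 - (1 - ρ) * (1 - τ)) univ W *
          (if Win d ((univ \ U) ∪ W) L then 0 else 1) := by
      refine Finset.sum_congr rfl fun W _ => ?_
      split_ifs <;> simp
    rw [e1, ← bw_union]
    have e2 : ∀ w₁ : Finset V, ∑ w₂, bw ρ univ w₁ * bw τ univ w₂ *
        (if Win d ((univ \ U) ∪ (w₁ ∪ w₂)) L then (0 : ℝ) else 1) ≤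
        bw ρ univ w₁ * ((1 / 2) ^ m * Pot d (U \ (w₁ ∩ U)) (L' (w₁ ∩ U))) := by
      intro w₁
      have hsub : w₁ ∩ U ⊆ U := Finset.inter_subset_right
      have hih := ih (U \ (w₁ ∩ U)) (L' (w₁ ∩ U)) (hL1 _ hsub)
      have hb := bw_nonneg ρ hρ0.le hρ1.le univ w₁
      refine le_trans ?_ (mul_le_mul_of_nonneg_left hih hb)
      rw [Finset.mul_sum]
      refine Finset.sum_le_sum fun w₂ _ => ?_
      have hset : (univ \ (U \ (w₁ ∩ U))) ∪ w₂ = (univ \ U) ∪ (w₁ ∪ w₂) := by
        ext x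
        simp only [Finset.mem_union, Finset.mem_sdiff, Finset.mem_univ, Finset.mem_inter,
          true_and]
        tauto
      rw [hset]
      by_cases hw' : Win d ((univ \ U) ∪ (w₁ ∪ w₂)) (L' (w₁ ∩ U))
      · rw [if_pos (hL2 _ _ hw'), if_pos hw']
        simp
      · rw [if_neg hw']
        have hb2 := bw_nonneg τ hτ0 hτ1 univ w₂
        split_ifs
        · simp only [mul_zero]; exact mul_nonneg hb hb2
        · rw [mul_one]
    refine le_trans (Finset.sum_le_sum fun w₁ _ => e2 w₁) ?_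
    have e3 := bw_marginal ρ U (fun w => (1 / 2) ^ m * Pot d (U \ w) (L' w))
    rw [e3]
    have e4 : ∑ w, (if w ⊆ U then bw ρ U w else 0) * ((1 / 2) ^ m * Pot d (U \ w) (L' w)) =
        (1 / 2) ^ m * ∑ w, (if w ⊆ U then bw ρ U w else 0) * Pot d (U \ w) (L' w) := by
      rw [Finset.mul_sum]
      refine Finset.sum_congr rfl fun w _ => ?_
      ring
    rw [e4, pow_succ, mul_assoc]
    exact mul_le_mul_of_nonneg_left hL3 (by positivity)

end Crest.Agent.KK
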