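import Mathlib
import Crest.Agent.KKDefs
import Crest.Agent.KKOne
import Crest.Agent.KKRounds
import Crest.Agent.KKChain
import Crest.Agent.KKGraph

/-! M5: assembly. -/

set_option autoImplicit false

namespace Crest.Agent.KK

open Finset
open scoped Pointwise
open Crest.CombinatoricsR.RandomGraph

/-- weight of an outcome in terms of `bw` -/
theorem bernoulliWeight_decide_mem_main {V : Type} [Fintype V] [DecidableEq V] (p : ℝ) (W : Finset V) :
    Crest.FinProb.bernoulliWeight p (fun e => decide (e ∈ W)) = bw p univ W := by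
  unfold Crest.FinProb.bernoulliWeight bw
  have h1 : ∀ i : V, (if (decide (i ∈ W)) = true then p else 1 - p) =
      if i ∈ W then p else 1 - p := by
    intro i
    by_cases h : i ∈ W <;> simp [h]
  rw [Finset.prod_congr rfl (fun i _ => h1 i), Finset.prod_ite]
  simp only [Finset.prod_const]
  congr 2
  · congr 1
    ext x; simp
  · congr 1
    ext x; simp

/-- outcomes correspond to subsets of the index type -/
def outEquiv (V : Type) [Fintype V] [DecidableEq V] : Finset V ≃ (V → Bool) where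
  toFun W := fun e => decide (e ∈ W)
  invFun ω := univ.filter (fun e => ω e = true)
  left_inv W := by ext e; simp
  right_inv ω := by funext e; simp

/-- `gnpProb` as a sum over subsets of the edge slots -/
theorem gnpProb_eq_sum (n : ℕ) (p : ℝ) (E : Set (SimpleGraph (Fin n))) :
    gnpProb n p E = ∑ W : Finset (EdgeSlot n), open Classical in
      if graphOf (fun e => decide (e ∈ W)) ∈ E then bw p univ W else 0 := by
  classical
  unfold gnpProb Crest.FinProb.bernoulliProb
  rw [Finset.sum_filter, ← (outEquiv (EdgeSlot n)).sum_comp]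
  apply Finset.sum_congr rfl
  intro W _
  have h1 : (outEquiv (EdgeSlot n)) W = fun e => decide (e ∈ W) := rfl
  rw [h1, bernoulliWeight_decide_mem_main]
  by_cases h : graphOf (fun e => decide (e ∈ W)) ∈ E
  · rw [if_pos h, if_pos]
    exact h
  · rw [if_neg h, if_neg]
    exact h

/-- choice of the number of rounds -/
theorem exists_rounds (q P : ℝ) (h : ℕ) (hh : 1 ≤ h) (hq : 0 < q)
    (hP : P = 2048 * q * (1 + Real.logb 2 (h : ℝ))) (hP1 : P < 1) :
    ∃ (m : ℕ) (ρ : ℝ), 0 < ρ ∧ ρ < 1 ∧ 8 * q ≤ ρ ∧ 1 - (1 - ρ) ^ m = P ∧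
      (1 / 2 : ℝ) ^ m * (2 * (h : ℝ)) ≤ 1 / 2 := by
  have hh1 : (1 : ℝ) ≤ (h : ℝ) := by exact_mod_cast hh
  have hh0 : (0 : ℝ) < (h : ℝ) := by linarith
  have hlog : 0 ≤ Real.logb 2 (h : ℝ) := Real.logb_nonneg (by norm_num) hh1
  have hP0 : 0 < P := by rw [hP]; positivity
  set l : ℝ := Real.logb 2 (h : ℝ) with hl
  set k : ℕ := ⌈l⌉₊ with hk
  have hkl : l ≤ k := Nat.le_ceil l
  have hkl2 : (k : ℝ) < l + 1 := Nat.ceil_lt_add_one hlog
  have h2k : (h : ℝ) ≤ 2 ^ k := by
    have h1 : (h : ℝ) = (2 : ℝ) ^ l := by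
      rw [hl, Real.rpow_logb (by norm_num) (by norm_num) hh0]
    rw [h1, ← Real.rpow_natCast]
    exact Real.rpow_le_rpow_of_exponent_le (by norm_num) hkl
  set m : ℕ := k + 2 with hm
  have hm0 : (0 : ℝ) < (m : ℝ) := by rw [hm]; push_cast; positivity
  have hm3 : (m : ℝ) ≤ 3 * (1 + l) := by rw [hm]; push_cast; nlinarith
  have hmne : m ≠ 0 := by omega
  set ρ : ℝ := 1 - (1 - P) ^ ((1 : ℝ) / m) with hρ
  have h1P : 0 < 1 - P := by linarith
  have hpow : (1 - ρ) ^ m = 1 - P := by
    rw [hρ, sub_sub_cancel, ← Real.rpow_natCast, ← Real.rpow_mul h1P.le,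
      one_div, inv_mul_cancel₀ hm0.ne', Real.rpow_one]
  have hρ1 : 0 < 1 - ρ := by rw [hρ, sub_sub_cancel]; positivity
  have hPm : P / m ≤ 1 := by
    rw [div_le_one hm0]
    have : (1 : ℝ) ≤ m := by rw [hm]; push_cast; nlinarith [Nat.cast_nonneg (α := ℝ) k]
    linarith
  have hbern : 1 - P ≤ (1 - P / m) ^ m := by
    have := one_add_mul_le_pow (a := -(P / m)) (by linarith) m
    have h3 : (m : ℝ) * (-(P / m)) = -P := by field_simp
    rw [h3] at this
    calc 1 - P = 1 + -P := by ring
      _ ≤ (1 + -(P / m)) ^ m := this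
      _ = (1 - P / m) ^ m := by ring
  have hle : 1 - ρ ≤ 1 - P / m := by
    rw [← hpow] at hbern
    exact (pow_le_pow_iff_left₀ hρ1.le (by linarith) hmne).1 hbern
  have hρP : P / m ≤ ρ := by linarith
  have hPm0 : 0 < P / m := by positivity
  refine ⟨m, ρ, by linarith, by linarith, ?_, by rw [hpow]; ring, ?_⟩
  · refine le_trans ?_ hρP
    rw [le_div_iff₀ hm0, hP]
    have : 8 * q * (m : ℝ) ≤ 8 * q * (3 * (1 + l)) := by
      apply mul_le_mul_of_nonneg_left hm3; positivity
    nlinarith [mul_pos hq (by linarith : (0 : ℝ) < 1 + l)]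
  · rw [hm, pow_add]
    have h4 : (1 / 2 : ℝ) ^ k * (h : ℝ) ≤ 1 := by
      rw [one_div, inv_pow, inv_mul_le_iff₀ (by positivity)]
      linarith
    nlinarith

theorem bw_sum_univ_main {V : Type} [Fintype V] [DecidableEq V] (p : ℝ) (hp0 : 0 ≤ p) (hp1 : p ≤ 1) :
    ∑ W : Finset V, bw p univ W = 1 := by
  have := (bw_law p hp0 hp1 (univ : Finset V)).2
  simpa using this

theorem bw_nonneg_main {V : Type} [Fintype V] [DecidableEq V] (p : ℝ) (hp0 : 0 ≤ p) (hp1 : p ≤ 1)
    (U W : Finset V) : 0 ≤ bw p U W := by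
  unfold bw
  have : 0 ≤ 1 - p := by linarith
  positivity

theorem final (n : ℕ) (hn : 2 ≤ n) (W : Type) [Fintype W] [DecidableEq W] (H : SimpleGraph W)
    [DecidableRel H.Adj] (hW : Fintype.card W ≤ n) (hH : 1 ≤ H.edgeFinset.card)
    (p : ℝ) (hp0 : 0 ≤ p) (hp1 : p ≤ 1)
    (hE : ∀ F : H.Subgraph, (1 : ℝ) / 2 ≤
      gnpExpect n p (fun G => (G.copyCount F.coe : ℝ))) :
    (1 : ℝ) / 2 ≤ gnpProb n
      (min 1 (2048 * Real.exp 50 * p * (1 + Real.logb 2 (H.edgeFinset.card : ℝ))))
      {G | H.IsContained G} := by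
  classical
  obtain ⟨A0, hA0c, hA0, hcont⟩ := graph_part n W H hW p hp0 hp1 hE
  have hA0ne : A0.Nonempty := by
    rw [← Finset.card_pos, hA0c]; omega
  have hp : 0 < p := by
    rcases hp0.eq_or_lt with h | h
    · exfalso
      have h1 := hA0 A0 (Finset.Subset.refl _) hA0ne
      rw [← h, zero_pow (Finset.card_pos.2 hA0ne).ne', mul_zero] at h1
      norm_num at h1
    · exact h
  set h : ℕ := H.edgeFinset.card with hh
  set P0 : ℝ := 2048 * Real.exp 50 * p * (1 + Real.logb 2 (h : ℝ)) with hP0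
  have hh1 : (1 : ℝ) ≤ (h : ℝ) := by exact_mod_cast hH
  have hlog : 0 ≤ Real.logb 2 (h : ℝ) := Real.logb_nonneg (by norm_num) hh1
  have hP0pos : 0 < P0 := by rw [hP0]; positivity
  rcases le_or_gt 1 P0 with hbig | hsmall
  · rw [min_eq_left hbig, gnpProb_eq_sum]
    have hterm : ∀ W' : Finset (EdgeSlot n), 0 ≤ (if graphOf (fun e => decide (e ∈ W')) ∈
        {G | H.IsContained G} then bw 1 univ W' else 0) := by
      intro W'
      split_ifs
      · exact bw_nonneg_main 1 (by norm_num) (by norm_num) _ _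
      · exact le_refl _
    have hsingle := Finset.single_le_sum (f := fun W' : Finset (EdgeSlot n) =>
      (if graphOf (fun e => decide (e ∈ W')) ∈ {G | H.IsContained G} then bw 1 univ W' else 0))
      (fun W' _ => hterm W') (Finset.mem_univ (univ : Finset (EdgeSlot n)))
    refine le_trans ?_ hsingle
    have hc : graphOf (fun e : EdgeSlot n => decide (e ∈ (univ : Finset (EdgeSlot n)))) ∈
        {G | H.IsContained G} := by
      apply hcont 1
      intro e _
      simp
    rw [if_pos hc]
    unfold bw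
    simp
    norm_num
  · rw [min_eq_right hsmall.le]
    obtain ⟨d, L, hSp, hPot, hWin⟩ := exists_process (G := Equiv.Perm (Fin n)) A0 hA0ne p
      (Real.exp 50 * p) hp rfl hA0
    obtain ⟨m, ρ, hρ0, hρ1, h8, hmP, hm⟩ := exists_rounds (Real.exp 50 * p) P0 h hH
      (by positivity) (by rw [hP0]; ring) hsmall
    have hr := rounds ρ (Real.exp 50 * p) hρ0 hρ1 (by positivity) h8 m d univ L hSp
    rw [hmP] at hr
    have hfail : (∑ W' : Finset (EdgeSlot n),
        if Win d ((univ \ univ) ∪ W') L then 0 else bw P0 univ W') ≤ 1 / 2 := by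
      refine le_trans hr ?_
      refine le_trans ?_ hm
      apply mul_le_mul_of_nonneg_left _ (by positivity)
      rw [hA0c] at hPot
      exact hPot
    have htot := bw_sum_univ_main (V := EdgeSlot n) P0 hP0pos.le hsmall.le
    rw [gnpProb_eq_sum]
    have hsplit : ∀ W' : Finset (EdgeSlot n), bw P0 univ W' ≤
        (if graphOf (fun e => decide (e ∈ W')) ∈ {G | H.IsContained G} then bw P0 univ W' else 0) +
        (if Win d ((univ \ univ) ∪ W') L then 0 else bw P0 univ W') := by
      intro W'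
      have hnn := bw_nonneg_main P0 hP0pos.le hsmall.le univ W'
      by_cases hw : Win d ((univ \ univ) ∪ W') L
      · obtain ⟨g, hg⟩ := hWin _ hw
        have hc : graphOf (fun e : EdgeSlot n => decide (e ∈ W')) ∈ {G | H.IsContained G} := by
          apply hcont g
          intro e he
          have := hg he
          simpa using this
        rw [if_pos hc, if_pos hw]; simp
      · rw [if_neg hw]
        split_ifs <;> linarith
    have := Finset.sum_le_sum (fun W' (_ : W' ∈ (univ : Finset (Finset (EdgeSlot n)))) => hsplit W')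
    rw [htot, Finset.sum_add_distrib] at this
    linarith

end Crest.Agent.KK
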