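import Mathlib

set_option autoImplicit false

/-!
Reflexivity of countable `ℓ²` sums of reflexive spaces, and related facts (row 125, S0166).
-/

namespace Crest.Agent.L2Sum

open scoped ENNReal InnerProductSpace
open NormedSpace

/-- reflexivity -/
def Refl (X : Type*) [NormedAddCommGroup X] [NormedSpace ℝ X] : Prop :=
  Function.Surjective (inclusionInDoubleDual ℝ X)

theorem refl_hilbert (H : Type*) [NormedAddCommGroup H] [InnerProductSpace ℝ H] [CompleteSpace H] :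
    Refl H := by
  intro F
  let D : H →L[ℝ] StrongDual ℝ H :=
    (InnerProductSpace.toDual ℝ H).toContinuousLinearEquiv.toContinuousLinearMap
  let h : H := (InnerProductSpace.toDual ℝ H).symm (F.comp D)
  refine ⟨h, ?_⟩
  ext φ
  rw [dual_def]
  obtain ⟨y, rfl⟩ := (InnerProductSpace.toDual ℝ H).surjective φ
  have h1 : ⟪h, y⟫_ℝ = (F.comp D) y := InnerProductSpace.toDual_symm_apply
  rw [InnerProductSpace.toDual_apply_apply, real_inner_comm, h1]
  rfl

theorem refl_of_equiv {X Y : Type*} [NormedAddCommGroup X] [NormedSpace ℝ X]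
    [NormedAddCommGroup Y] [NormedSpace ℝ Y] (e : Y ≃L[ℝ] X) (hY : Refl Y) : Refl X := by
  intro F
  let T : StrongDual ℝ Y →L[ℝ] StrongDual ℝ X :=
    (ContinuousLinearMap.compL ℝ X Y ℝ).flip e.symm.toContinuousLinearMap
  obtain ⟨y, hy⟩ := hY (F.comp T)
  refine ⟨e y, ?_⟩
  ext φ
  rw [dual_def]
  have h1 : (inclusionInDoubleDual ℝ Y y) (φ.comp e.toContinuousLinearMap) =
      (F.comp T) (φ.comp e.toContinuousLinearMap) := by rw [hy]
  rw [dual_def] at h1
  have h2 : T (φ.comp e.toContinuousLinearMap) = φ := by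
    ext x
    simp [T]
  have h3 : (F.comp T) (φ.comp e.toContinuousLinearMap) =
      F (T (φ.comp e.toContinuousLinearMap)) := rfl
  rw [h3, h2] at h1
  rw [← h1]
  rfl

variable {X : ℕ → Type*} [∀ n, NormedAddCommGroup (X n)] [∀ n, NormedSpace ℝ (X n)]

theorem hasSum_sq (x : lp X 2) : HasSum (fun n => ‖x n‖ ^ 2) (‖x‖ ^ 2) := by
  have := lp.hasSum_norm (p := 2) (by norm_num) x
  simpa using this

theorem sum_sq_le (x : lp X 2) (A : Finset ℕ) : ∑ n ∈ A, ‖x n‖ ^ 2 ≤ ‖x‖ ^ 2 :=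
  sum_le_hasSum A (fun _ _ => sq_nonneg _) (hasSum_sq x)

theorem norm_sum_single_sq (f : ∀ n, X n) (A : Finset ℕ) :
    ‖∑ n ∈ A, lp.single 2 n (f n)‖ ^ 2 = ∑ n ∈ A, ‖f n‖ ^ 2 := by
  have := lp.norm_sum_single (p := 2) (by norm_num) f A
  simpa using this

/-- the coordinate embedding -/
noncomputable def J (X : ℕ → Type*) [∀ n, NormedAddCommGroup (X n)] [∀ n, NormedSpace ℝ (X n)]
    (n : ℕ) : X n →L[ℝ] lp X 2 := lp.singleContinuousLinearMap ℝ X 2 n

/-- the coordinate projection -/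
noncomputable def P (X : ℕ → Type*) [∀ n, NormedAddCommGroup (X n)] [∀ n, NormedSpace ℝ (X n)]
    (n : ℕ) : lp X 2 →L[ℝ] X n := lp.evalCLM ℝ X 2 n

@[simp] theorem J_apply (n : ℕ) (x : X n) : J X n x = lp.single 2 n x := rfl
@[simp] theorem P_apply (n : ℕ) (x : lp X 2) : P X n x = x n := rfl

theorem norm_J (n : ℕ) (x : X n) : ‖J X n x‖ = ‖x‖ := by
  rw [J_apply, lp.norm_single (by norm_num)]

theorem hasSum_J (x : lp X 2) : HasSum (fun n => J X n (x n)) x :=
  lp.hasSum_single (by norm_num) x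

theorem almost_norming {Z : Type*} [NormedAddCommGroup Z] [NormedSpace ℝ Z]
    (ψ : StrongDual ℝ Z) : ∃ u : Z, ‖u‖ ≤ 1 ∧ ‖ψ‖ / 2 ≤ ψ u := by
  rcases (norm_nonneg ψ).eq_or_lt with h | h
  · exact ⟨0, by simp, by rw [← h]; simp⟩
  · obtain ⟨u, hu, hu'⟩ := ψ.exists_lt_apply_of_lt_opNorm (r := ‖ψ‖ / 2) (by linarith)
    rcases le_total 0 (ψ u) with h0 | h0
    · refine ⟨u, hu.le, ?_⟩
      rw [Real.norm_of_nonneg h0] at hu'
      exact hu'.le
    · refine ⟨-u, by rw [norm_neg]; exact hu.le, ?_⟩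
      rw [Real.norm_of_nonpos h0] at hu'
      rw [map_neg]
      exact hu'.le

theorem sum_c_sq_le (φ : StrongDual ℝ (lp X 2)) (A : Finset ℕ) :
    ∑ n ∈ A, ‖φ.comp (J X n)‖ ^ 2 ≤ 4 * ‖φ‖ ^ 2 := by
  choose u hu1 hu2 using fun n => almost_norming (φ.comp (J X n))
  set c : ℕ → ℝ := fun n => ‖φ.comp (J X n)‖ with hc
  set S : ℝ := ∑ n ∈ A, c n ^ 2 with hS
  have hS0 : 0 ≤ S := Finset.sum_nonneg fun _ _ => sq_nonneg _
  set z : lp X 2 := ∑ n ∈ A, lp.single 2 n (c n • u n) with hz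
  have hz1 : ‖z‖ ^ 2 ≤ S := by
    rw [hz, norm_sum_single_sq]
    refine Finset.sum_le_sum fun n _ => ?_
    rw [norm_smul, mul_pow, Real.norm_eq_abs, sq_abs]
    have h1 : ‖u n‖ ^ 2 ≤ 1 := pow_le_one₀ (norm_nonneg _) (hu1 n)
    nlinarith [sq_nonneg (c n)]
  have hz2 : S / 2 ≤ φ z := by
    rw [hz, map_sum, hS, Finset.sum_div]
    refine Finset.sum_le_sum fun n _ => ?_
    have h1 : φ (lp.single 2 n (c n • u n)) = c n * (φ.comp (J X n)) (u n) := by
      rw [ContinuousLinearMap.comp_apply, J_apply, lp.single_smul, map_smul, smul_eq_mul]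
    rw [h1]
    have h2 := mul_le_mul_of_nonneg_left (hu2 n) (norm_nonneg (φ.comp (J X n)))
    have h3 : c n * (c n / 2) ≤ c n * (φ.comp (J X n)) (u n) := h2
    nlinarith
  have hz3 : φ z ≤ ‖φ‖ * ‖z‖ := (Real.le_norm_self _).trans (φ.le_opNorm z)
  have hz4 : ‖z‖ ≤ Real.sqrt S := Real.le_sqrt_of_sq_le hz1
  have hss : Real.sqrt S * Real.sqrt S = S := Real.mul_self_sqrt hS0
  have h5 : S / 2 ≤ ‖φ‖ * Real.sqrt S :=
    (hz2.trans hz3).trans (mul_le_mul_of_nonneg_left hz4 (norm_nonneg _))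
  have h6 : Real.sqrt S ≤ 2 * ‖φ‖ := by
    rcases (Real.sqrt_nonneg S).eq_or_lt with h | h
    · rw [← h]; positivity
    · have : Real.sqrt S * Real.sqrt S ≤ (2 * ‖φ‖) * Real.sqrt S := by linarith
      exact le_of_mul_le_mul_right this h
  calc S = Real.sqrt S ^ 2 := by rw [sq, hss]
    _ ≤ (2 * ‖φ‖) ^ 2 := pow_le_pow_left₀ (Real.sqrt_nonneg _) h6 2
    _ = 4 * ‖φ‖ ^ 2 := by ring

theorem summable_c_sq (φ : StrongDual ℝ (lp X 2)) :
    Summable fun n => ‖φ.comp (J X n)‖ ^ 2 :=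
  summable_of_sum_le (fun _ => sq_nonneg _) (sum_c_sq_le φ)

/-- truncation of a functional -/
noncomputable def trunc (φ : StrongDual ℝ (lp X 2)) (N : ℕ) : StrongDual ℝ (lp X 2) :=
  ∑ n ∈ Finset.range N, (φ.comp (J X n)).comp (P X n)

theorem norm_sub_trunc (φ : StrongDual ℝ (lp X 2)) (N : ℕ) :
    ‖φ - trunc φ N‖ ≤ Real.sqrt ((∑' n, ‖φ.comp (J X n)‖ ^ 2) -
      ∑ n ∈ Finset.range N, ‖φ.comp (J X n)‖ ^ 2) := by
  set c : ℕ → ℝ := fun n => ‖φ.comp (J X n)‖ with hc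
  set τ : ℝ := (∑' n, c n ^ 2) - ∑ n ∈ Finset.range N, c n ^ 2 with hτ
  refine ContinuousLinearMap.opNorm_le_bound _ (Real.sqrt_nonneg _) fun y => ?_
  have h1 : HasSum (fun n => φ (J X n (y n))) (φ y) := φ.hasSum (hasSum_J y)
  have h2 : trunc φ N y = ∑ n ∈ Finset.range N, φ (J X n (y n)) := by
    rw [trunc, sum_apply]; rfl
  -- partial sums
  have h3 : ∀ A : Finset ℕ, Finset.range N ⊆ A →
      |(∑ n ∈ A, φ (J X n (y n))) - ∑ n ∈ Finset.range N, φ (J X n (y n))| ≤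
        Real.sqrt τ * ‖y‖ := by
    intro A hA
    rw [← Finset.sum_sdiff hA, add_sub_cancel_right]
    have h4 : |∑ n ∈ A \ Finset.range N, φ (J X n (y n))| ≤
        ∑ n ∈ A \ Finset.range N, c n * ‖y n‖ := by
      refine (Finset.abs_sum_le_sum_abs _ _).trans (Finset.sum_le_sum fun n _ => ?_)
      have := (φ.comp (J X n)).le_opNorm (y n)
      rwa [Real.norm_eq_abs] at this
    have h5 : ∑ n ∈ A \ Finset.range N, c n * ‖y n‖ ≤
        Real.sqrt (∑ n ∈ A \ Finset.range N, c n ^ 2) *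
          Real.sqrt (∑ n ∈ A \ Finset.range N, ‖y n‖ ^ 2) :=
      Real.sum_mul_le_sqrt_mul_sqrt _ _ _
    have h6 : Real.sqrt (∑ n ∈ A \ Finset.range N, ‖y n‖ ^ 2) ≤ ‖y‖ := by
      rw [Real.sqrt_le_left (norm_nonneg _)]
      exact sum_sq_le y _
    have h7 : Real.sqrt (∑ n ∈ A \ Finset.range N, c n ^ 2) ≤ Real.sqrt τ := by
      apply Real.sqrt_le_sqrt
      rw [hτ]
      have h8 : ∑ n ∈ A, c n ^ 2 ≤ ∑' n, c n ^ 2 :=
        (summable_c_sq φ).sum_le_tsum A (fun _ _ => sq_nonneg _)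
      have h9 := Finset.sum_sdiff (f := fun n => c n ^ 2) hA
      linarith
    calc _ ≤ _ := h4
      _ ≤ _ := h5
      _ ≤ Real.sqrt τ * ‖y‖ := mul_le_mul h7 h6 (Real.sqrt_nonneg _) (Real.sqrt_nonneg _)
  have h4 : Filter.Tendsto (fun A : Finset ℕ => |(∑ n ∈ A, φ (J X n (y n))) -
      ∑ n ∈ Finset.range N, φ (J X n (y n))|) Filter.atTop
      (nhds |φ y - ∑ n ∈ Finset.range N, φ (J X n (y n))|) :=
    (h1.sub_const _).abs
  rw [sub_apply, h2, Real.norm_eq_abs]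
  refine le_of_tendsto h4 ?_
  filter_upwards [Filter.eventually_ge_atTop (Finset.range N)] with A hA
  exact h3 A hA

theorem tendsto_trunc (φ : StrongDual ℝ (lp X 2)) :
    Filter.Tendsto (fun N => trunc φ N) Filter.atTop (nhds φ) := by
  rw [tendsto_iff_norm_sub_tendsto_zero]
  have h1 : Filter.Tendsto (fun N => (∑' n, ‖φ.comp (J X n)‖ ^ 2) -
      ∑ n ∈ Finset.range N, ‖φ.comp (J X n)‖ ^ 2) Filter.atTop (nhds 0) := by
    have := (summable_c_sq φ).hasSum.tendsto_sum_nat.const_sub (∑' n, ‖φ.comp (J X n)‖ ^ 2)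
    rwa [sub_self] at this
  have h2 := (Real.continuous_sqrt.tendsto 0).comp h1
  rw [Real.sqrt_zero] at h2
  refine squeeze_zero (fun _ => norm_nonneg _) (fun N => ?_) h2
  rw [norm_sub_rev]
  exact norm_sub_trunc φ N

/-- A countable `ℓ²` sum of reflexive spaces is reflexive. -/
theorem refl_lp (hX : ∀ n, Refl (X n)) : Refl (lp X 2) := by
  intro F
  -- coordinates
  let Fn : ∀ n, StrongDual ℝ (StrongDual ℝ (X n)) := fun n =>
    F.comp ((ContinuousLinearMap.compL ℝ (lp X 2) (X n) ℝ).flip (P X n))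
  choose x hx using fun n => hX n (Fn n)
  have hx' : ∀ n (ψ : StrongDual ℝ (X n)), ψ (x n) = F (ψ.comp (P X n)) := by
    intro n ψ
    have h1 : inclusionInDoubleDual ℝ (X n) (x n) ψ = Fn n ψ := by rw [hx n]
    rw [dual_def] at h1
    rw [h1]; rfl
  have hbd : ∀ A : Finset ℕ, ∑ n ∈ A, ‖x n‖ ^ 2 ≤ ‖F‖ ^ 2 := by
    intro A
    choose g hg1 hg2 using fun n => exists_dual_vector'' ℝ (x n)
    have hg2' : ∀ n, g n (x n) = ‖x n‖ := hg2
    set S : ℝ := ∑ n ∈ A, ‖x n‖ ^ 2 with hS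
    have hS0 : 0 ≤ S := Finset.sum_nonneg fun _ _ => sq_nonneg _
    set φ : StrongDual ℝ (lp X 2) := ∑ n ∈ A, ‖x n‖ • (g n).comp (P X n) with hφ
    have h1 : F φ = S := by
      rw [hφ, map_sum, hS]
      refine Finset.sum_congr rfl fun n _ => ?_
      rw [map_smul, smul_eq_mul, ← hx' n (g n), hg2', sq]
    have h2 : ‖φ‖ ≤ Real.sqrt S := by
      refine ContinuousLinearMap.opNorm_le_bound _ (Real.sqrt_nonneg _) fun y => ?_
      rw [hφ, sum_apply, Real.norm_eq_abs]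
      calc |∑ n ∈ A, (‖x n‖ • (g n).comp (P X n)) y| ≤ ∑ n ∈ A, ‖x n‖ * ‖y n‖ := by
            refine (Finset.abs_sum_le_sum_abs _ _).trans (Finset.sum_le_sum fun n _ => ?_)
            rw [smul_apply, smul_eq_mul, abs_mul, abs_norm,
              ContinuousLinearMap.comp_apply, P_apply]
            refine mul_le_mul_of_nonneg_left ?_ (norm_nonneg _)
            have h3 := (g n).le_opNorm (y n)
            rw [Real.norm_eq_abs] at h3
            have h4 := mul_le_mul_of_nonneg_right (hg1 n) (norm_nonneg (y n))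
            linarith
        _ ≤ Real.sqrt (∑ n ∈ A, ‖x n‖ ^ 2) * Real.sqrt (∑ n ∈ A, ‖y n‖ ^ 2) :=
            Real.sum_mul_le_sqrt_mul_sqrt _ _ _
        _ ≤ Real.sqrt S * ‖y‖ := by
            refine mul_le_mul_of_nonneg_left ?_ (Real.sqrt_nonneg _)
            rw [Real.sqrt_le_left (norm_nonneg _)]
            exact sum_sq_le y _
    have h3 : S ≤ ‖F‖ * Real.sqrt S := by
      calc S = F φ := h1.symm
        _ ≤ ‖F φ‖ := Real.le_norm_self _
        _ ≤ ‖F‖ * ‖φ‖ := F.le_opNorm φ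
        _ ≤ ‖F‖ * Real.sqrt S := mul_le_mul_of_nonneg_left h2 (norm_nonneg F)
    have hss : Real.sqrt S * Real.sqrt S = S := Real.mul_self_sqrt hS0
    have h4 : Real.sqrt S ≤ ‖F‖ := by
      rcases (Real.sqrt_nonneg S).eq_or_lt with h | h
      · rw [← h]; positivity
      · exact le_of_mul_le_mul_right (by linarith : Real.sqrt S * Real.sqrt S ≤ ‖F‖ * Real.sqrt S) h
    calc S = Real.sqrt S ^ 2 := by rw [sq, hss]
      _ ≤ ‖F‖ ^ 2 := pow_le_pow_left₀ (Real.sqrt_nonneg _) h4 2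
  have hmem : Memℓp x 2 := by
    refine memℓp_gen' (C := ‖F‖ ^ 2) fun A => ?_
    have := hbd A
    simpa using this
  let X₀ : lp X 2 := ⟨x, hmem⟩
  refine ⟨X₀, ?_⟩
  ext φ
  rw [dual_def]
  have h1 : Filter.Tendsto (fun N => F (trunc φ N)) Filter.atTop (nhds (F φ)) :=
    (F.continuous.tendsto φ).comp (tendsto_trunc φ)
  have h2 : ∀ N, F (trunc φ N) = ∑ n ∈ Finset.range N, φ (J X n (x n)) := by
    intro N
    rw [trunc, map_sum]
    refine Finset.sum_congr rfl fun n _ => ?_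
    rw [← hx' n (φ.comp (J X n))]; rfl
  have h3 : Filter.Tendsto (fun N => ∑ n ∈ Finset.range N, φ (J X n (x n))) Filter.atTop
      (nhds (φ X₀)) := (φ.hasSum (hasSum_J X₀)).tendsto_sum_nat
  simp only [h2] at h1
  exact tendsto_nhds_unique h3 h1

/-- density criterion -/
theorem separable_lp [∀ n, TopologicalSpace.SeparableSpace (X n)] :
    TopologicalSpace.SeparableSpace (lp X 2) := by
  have h1 : ∀ n, TopologicalSpace.IsSeparable (Set.range (J X n)) := fun n =>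
    TopologicalSpace.isSeparable_range (J X n).continuous
  have h2 : TopologicalSpace.IsSeparable (⋃ n, Set.range (J X n)) :=
    TopologicalSpace.IsSeparable.iUnion h1
  have h3 := (h2.span (R := ℝ)).closure
  rw [← TopologicalSpace.isSeparable_univ_iff]
  refine h3.mono fun x _ => ?_
  have h4 := hasSum_J x
  refine mem_closure_of_tendsto h4 (Filter.Eventually.of_forall fun A => ?_)
  refine Submodule.sum_mem _ fun n _ => Submodule.subset_span ?_
  exact Set.mem_iUnion.2 ⟨n, _, rfl⟩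

end Crest.Agent.L2Sum
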