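import Crest.Agent.MASort
set_option autoImplicit false

/-! Row 92 (S0122): assembly of the families, `asm : AsmStmt`. -/

namespace Crest.Agent.MA
namespace AsmP

open Finset Filter

/-- data of one family -/
structure FD (m M : ℕ) (σ Θ : ℝ) where
  J : Type
  ft : Fintype J
  ν : J → Fin (m + 1) → ℝ
  g : J → ℝ → ℝ
  j0 : J
  e : ℝ
  κ : ℝ
  δ : ℝ
  N : ℝ
  he : 0 < e
  hκ : 0 < κ
  hδ : 0 < δ
  hN : 0 < N
  hν0 : ∀ j, ν j 0 = σ
  hanti : ∀ j, Antitone (ν j)
  hνN : ∀ j i, |ν j i| ≤ N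
  hj0 : ∀ i, ν j0 i = σ
  hg : ∀ j, ContDiff ℝ 1 (g j)
  hgE : ∀ᶠ E in atTop, ∀ j, 0 ≤ g j E ∧ g j E ≤ N * Real.exp (E * (σ - κ))
  hmain : ∀ᶠ E in atTop, ∀ t : Fin (m + 1) → ℝ, Antitone t → |t 0 - σ| ≤ e → (∀ i, -Θ ≤ t i) →
        ∀ j, (∀ j', g j E - ∑ i, ν j i * Real.exp (E * t i) ≤
            g j' E - ∑ i, ν j' i * Real.exp (E * t i)) → Compat M δ (ν j) t

lemma exists_FD (h : FamStmt) (m M : ℕ) (σ Θ : ℝ) (hσ : σ = 1 ∨ σ = -1) :
    Nonempty (FD m M σ Θ) := by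
  obtain ⟨J, ft, ν, g, j0, e, κ, δ, N, h1, h2, h3, h4, h5, h6, h7, h8, h9, h10, h11⟩ :=
    h m M σ Θ hσ
  exact ⟨⟨J, ft, ν, g, j0, e, κ, δ, N, h1, h2, h3, h4, h5, h6, h7, h8, h9, h10, h11⟩⟩

/-- extension of a normal along an embedding -/
noncomputable def ext {n d : ℕ} (τ : Fin n ↪ Fin d) (ν : Fin n → ℝ) : Fin d → ℝ :=
  fun a => ∑ k, if τ k = a then ν k else 0

lemma sum_ext {n d : ℕ} (τ : Fin n ↪ Fin d) (ν : Fin n → ℝ) (y : Fin d → ℝ) :
    ∑ a, y a * ext τ ν a = ∑ k, y (τ k) * ν k := by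
  unfold ext
  simp only [mul_sum]
  rw [sum_comm]
  refine sum_congr rfl fun k _ => ?_
  simp

lemma dot_ext {n d : ℕ} (τ : Fin n ↪ Fin d) (ν : Fin n → ℝ) (x : Fin d → ℝ) :
    dot (ext τ ν) x = ∑ k, ν k * x (τ k) := by
  have h := sum_ext τ ν x
  unfold dot
  rw [sum_congr rfl (fun a _ => mul_comm (ext τ ν a) (x a)), h]
  exact sum_congr rfl (fun k _ => mul_comm _ _)

/-- common part: an active constraint is compatible inside its image -/
lemma active_common {m M d : ℕ} {σ Θ : ℝ} (D : FD m M σ Θ) {s : ℝ} (hs : 0 < s) {x : Fin d → ℝ}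
    (hx : ∀ a, 0 < x a)
    (H : ∀ j (τ : Fin (m + 1) ↪ Fin d), ∑ k, D.ν j k * x (τ k) ≤ σ * Real.exp (σ * s) + D.g j s)
    (hmain : ∀ t : Fin (m + 1) → ℝ, Antitone t → |t 0 - σ| ≤ D.e → (∀ i, -Θ ≤ t i) →
        ∀ j, (∀ j', D.g j s - ∑ i, D.ν j i * Real.exp (s * t i) ≤
            D.g j' s - ∑ i, D.ν j' i * Real.exp (s * t i)) → Compat M D.δ (D.ν j) t)
    (hlow : ∀ a, -Θ ≤ Real.log (x a) / s)
    (j : D.J) (τ : Fin (m + 1) ↪ Fin d)
    (hact : ∑ k, D.ν j k * x (τ k) = σ * Real.exp (σ * s) + D.g j s)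
    (ht0 : ∀ a, (∀ b, x (τ b) ≤ x (τ a)) → |Real.log (x (τ a)) / s - σ| ≤ D.e)
    (w : Fin d → ℤ) (hw : ∀ i, |w i| ≤ (M : ℤ)) (hpos : 0 < ∑ k, (w (τ k) : ℝ) * D.ν j k) :
    D.δ * s ≤ ∑ k, (w (τ k) : ℝ) * Real.log (x (τ k)) := by
  obtain ⟨π, hπν, hπx⟩ := SortL.sort_active (D.ν j) (fun k => x (τ k)) (D.hanti j) (fun π' => by
    rw [hact]
    exact H j (π'.toEmbedding.trans τ))
  set t : Fin (m + 1) → ℝ := fun k => Real.log (x (τ (π k))) / s with ht
  have hνπ : ∀ k, D.ν j (π k) = D.ν j k := fun k => congrFun hπν k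
  have hexp : ∀ k, Real.exp (s * t k) = x (τ (π k)) := fun k => by
    rw [ht]
    have : s * (Real.log (x (τ (π k))) / s) = Real.log (x (τ (π k))) := by field_simp
    show Real.exp (s * (Real.log (x (τ (π k))) / s)) = _
    rw [this, Real.exp_log (hx _)]
  have hanti : Antitone t := by
    intro k l hkl
    have h1 : x (τ (π l)) ≤ x (τ (π k)) := hπx hkl
    exact div_le_div_of_nonneg_right (Real.log_le_log (hx _) h1) hs.le
  have h0 : |t 0 - σ| ≤ D.e := by
    apply ht0 (π 0)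
    intro b
    have h1 : x (τ (π (π.symm b))) ≤ x (τ (π 0)) := hπx (Fin.zero_le _)
    rwa [Equiv.apply_symm_apply] at h1
  have hsum : ∀ f : Fin (m + 1) → ℝ, ∑ k, f (π k) = ∑ k, f k := fun f => Equiv.sum_comp π f
  have hsj : ∑ k, D.ν j k * Real.exp (s * t k) = σ * Real.exp (σ * s) + D.g j s := by
    rw [← hact, ← hsum (fun k => D.ν j k * x (τ k))]
    refine sum_congr rfl fun k _ => ?_
    rw [hexp, hνπ]
  have hcomp := hmain t hanti h0 (fun k => hlow _) j (fun j' => by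
    rw [hsj]
    have h1 := H j' (π.toEmbedding.trans τ)
    have h2 : ∑ k, D.ν j' k * x ((π.toEmbedding.trans τ) k) =
        ∑ k, D.ν j' k * Real.exp (s * t k) := by
      refine sum_congr rfl fun k _ => ?_
      rw [hexp]
      rfl
    rw [h2] at h1
    linarith)
  have h3 := hcomp (fun k => w (τ (π k))) (fun k => hw _) (by
    have : ∑ k, (w (τ (π k)) : ℝ) * D.ν j k = ∑ k, (w (τ k) : ℝ) * D.ν j k := by
      rw [← hsum (fun k => (w (τ k) : ℝ) * D.ν j k)]
      refine sum_congr rfl fun k _ => ?_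
      rw [hνπ]
    rw [this]
    exact hpos)
  have h4 : ∑ k, (w (τ (π k)) : ℝ) * t k = (∑ k, (w (τ k) : ℝ) * Real.log (x (τ k))) / s := by
    rw [← hsum (fun k => (w (τ k) : ℝ) * Real.log (x (τ k))), sum_div]
    refine sum_congr rfl fun k _ => ?_
    rw [ht, mul_div_assoc]
  rw [h4, le_div_iff₀ hs] at h3
  exact h3

/-- from inside to everything -/
lemma compat_of {n M d : ℕ} (τ : Fin n ↪ Fin d) (ν : Fin n → ℝ) {X : Fin d → ℝ} {A B D : ℝ}
    (hin : ∀ w : Fin d → ℤ, (∀ i, |w i| ≤ (M : ℤ)) → 0 < ∑ k, (w (τ k) : ℝ) * ν k →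
      A ≤ ∑ k, (w (τ k) : ℝ) * X (τ k)) (hB : 0 ≤ B)
    (hout : ∀ a, (∀ k, τ k ≠ a) → |X a| ≤ B) (hD : D + d * M * B ≤ A) :
    Compat M D (ext τ ν) X := by
  classical
  intro w hw hpos
  rw [sum_ext τ ν (fun a => (w a : ℝ))] at hpos
  have h1 := hin w hw hpos
  have h2 : ∑ a, (w a : ℝ) * X a = ∑ k, (w (τ k) : ℝ) * X (τ k) +
      ∑ a ∈ (univ.map τ)ᶜ, (w a : ℝ) * X a := by
    rw [← sum_add_sum_compl (univ.map τ) (fun a => (w a : ℝ) * X a), sum_map]
  have h3 : -(d * M * B : ℝ) ≤ ∑ a ∈ (univ.map τ)ᶜ, (w a : ℝ) * X a := by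
    have h4 : ∀ a ∈ (univ.map τ)ᶜ, -(M * B : ℝ) ≤ (w a : ℝ) * X a := by
      intro a ha
      rw [mem_compl, Finset.mem_map] at ha
      push Not at ha
      have h5 := hout a (fun k => ha k (mem_univ k))
      have h6 : |(w a : ℝ)| ≤ M := by exact_mod_cast hw a
      have h7 : |(w a : ℝ) * X a| ≤ M * B := by
        rw [abs_mul]
        exact mul_le_mul h6 h5 (abs_nonneg _) (by positivity)
      exact (abs_le.mp h7).1
    have h5 := sum_le_sum h4
    rw [sum_const, nsmul_eq_mul] at h5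
    have h6 : (((univ.map τ)ᶜ).card : ℝ) ≤ d := by
      have : ((univ.map τ)ᶜ).card ≤ d := by
        have := card_le_univ (univ.map τ)ᶜ
        simpa using this
      exact_mod_cast this
    have h7 : (0 : ℝ) ≤ M * B := by positivity
    have h8 : (((univ.map τ)ᶜ).card : ℝ) * (M * B) ≤ d * (M * B) :=
      mul_le_mul_of_nonneg_right h6 h7
    nlinarith
  rw [h2]
  linarith

/-- negative families -/
lemma fam_neg {m M d : ℕ} {Θ : ℝ} (D : FD m M (-1) Θ) {s : ℝ} (hs : 0 < s) {x : Fin d → ℝ}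
    (H : ∀ j (τ : Fin (m + 1) ↪ Fin d), ∑ k, D.ν j k * x (τ k) ≤ -Real.exp (-s) + D.g j s)
    (hg : ∀ j, 0 ≤ D.g j s ∧ D.g j s ≤ Real.exp (-s) / 2) (τ : Fin (m + 1) ↪ Fin d) :
    Real.exp (-s) / 2 ≤ ∑ k, x (τ k) := by
  have h := H D.j0 τ
  have h1 : ∑ k, D.ν D.j0 k * x (τ k) = - ∑ k, x (τ k) := by
    rw [← sum_neg_distrib]
    refine sum_congr rfl fun k _ => ?_
    rw [D.hj0]; ring
  rw [h1] at h
  have := (hg D.j0).2
  linarith

lemma fam_neg_active {m M d : ℕ} {Θ : ℝ} (D : FD m M (-1) Θ) {s : ℝ} (hs : 0 < s)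
    {x : Fin d → ℝ} (hx : ∀ a, 0 < x a)
    (H : ∀ j (τ : Fin (m + 1) ↪ Fin d), ∑ k, D.ν j k * x (τ k) ≤ -Real.exp (-s) + D.g j s)
    (hg : ∀ j, 0 ≤ D.g j s ∧ D.g j s ≤ Real.exp (-s) / 2)
    (hmain : ∀ t : Fin (m + 1) → ℝ, Antitone t → |t 0 - (-1)| ≤ D.e → (∀ i, -Θ ≤ t i) →
        ∀ j, (∀ j', D.g j s - ∑ i, D.ν j i * Real.exp (s * t i) ≤
            D.g j' s - ∑ i, D.ν j' i * Real.exp (s * t i)) → Compat M D.δ (D.ν j) t)
    (hlow : ∀ a, -Θ ≤ Real.log (x a) / s)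
    (he : Real.log (2 * (m + 1)) / s ≤ D.e)
    (j : D.J) (τ : Fin (m + 1) ↪ Fin d)
    (hact : ∑ k, D.ν j k * x (τ k) = -Real.exp (-s) + D.g j s) :
    (∀ k, x (τ k) ≤ Real.exp (-s)) ∧ (∀ a, (∀ k, τ k ≠ a) → ∀ k, x (τ k) ≤ x a) ∧
    ∀ w : Fin d → ℤ, (∀ i, |w i| ≤ (M : ℤ)) → 0 < ∑ k, (w (τ k) : ℝ) * D.ν j k →
      D.δ * s ≤ ∑ k, (w (τ k) : ℝ) * Real.log (x (τ k)) := by
  classical
  have hν : ∀ k, D.ν j k ≤ -1 := fun k => (D.hanti j (Fin.zero_le k)).trans_eq (D.hν0 j)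
  have hup : ∀ k, x (τ k) ≤ Real.exp (-s) := by
    intro k
    have h1 : ∑ k, x (τ k) ≤ - ∑ k, D.ν j k * x (τ k) := by
      rw [← sum_neg_distrib]
      refine sum_le_sum fun k _ => ?_
      have := hν k
      have := hx (τ k)
      nlinarith
    have h2 : x (τ k) ≤ ∑ k, x (τ k) :=
      single_le_sum (f := fun k => x (τ k)) (fun i _ => (hx _).le) (mem_univ k)
    have := (hg j).1
    linarith
  refine ⟨hup, ?_, ?_⟩
  · intro a ha k
    set τ' : Fin (m + 1) ↪ Fin d := ⟨fun l => if l = k then a else τ l, by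
      intro l l' hll
      simp only at hll
      split_ifs at hll with h1 h2 h2
      · rw [h1, h2]
      · exact absurd hll.symm (ha _)
      · exact absurd hll (ha _)
      · exact τ.injective hll⟩ with hτ'
    have h1 := H j τ'
    rw [← hact] at h1
    have h2 : ∑ l, D.ν j l * x (τ' l) - ∑ l, D.ν j l * x (τ l) = D.ν j k * (x a - x (τ k)) := by
      rw [← sum_sub_distrib]
      rw [sum_eq_single k]
      · have : τ' k = a := by simp [hτ']
        rw [this]; ring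
      · intro l _ hl
        have : τ' l = τ l := by simp [hτ', hl]
        rw [this]; ring
      · intro h; exact absurd (mem_univ k) h
    have h3 := hν k
    by_contra hc
    rw [not_le] at hc
    nlinarith
  · intro w hw hpos
    refine active_common D hs hx (fun j τ => ?_) hmain hlow j τ ?_ ?_ w hw hpos
    · have := H j τ
      rw [neg_one_mul, neg_one_mul]; exact this
    · rw [neg_one_mul, neg_one_mul]; exact hact
    · intro a ha
      have h1 := fam_neg D hs H hg τ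
      have h2 : ∑ k, x (τ k) ≤ (m + 1) * x (τ a) := by
        have := sum_le_sum (fun (k : Fin (m + 1)) (_ : k ∈ univ) => ha k)
        rw [sum_const, card_univ, Fintype.card_fin, nsmul_eq_mul] at this
        push_cast at this
        exact this
      have h3 : Real.exp (-s) ≤ (2 * (m + 1)) * x (τ a) := by linarith
      have h4 : -s ≤ Real.log (2 * (m + 1)) + Real.log (x (τ a)) := by
        rw [← Real.log_mul (by positivity) (hx _).ne', Real.le_log_iff_exp_le]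
        · exact h3
        · have := hx (τ a); positivity
      have h5 : Real.log (x (τ a)) ≤ -s := by
        rw [Real.log_le_iff_le_exp (hx _)]
        exact hup a
      have h6 : Real.log (2 * (m + 1)) ≤ D.e * s := by rwa [div_le_iff₀ hs] at he
      have he0 := D.he
      rw [abs_le]
      constructor
      · have : -D.e + -1 ≤ Real.log (x (τ a)) / s := by
          rw [le_div_iff₀ hs]; nlinarith
        linarith
      · have : Real.log (x (τ a)) / s ≤ D.e + -1 := by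
          rw [div_le_iff₀ hs]; nlinarith
        linarith

/-- positive family: upper bound -/
lemma fam_pos {m M d : ℕ} {Θ : ℝ} (D : FD m M 1 Θ) {s : ℝ} {x : Fin d → ℝ}
    (H : ∀ j (τ : Fin (m + 1) ↪ Fin d), ∑ k, D.ν j k * x (τ k) ≤ Real.exp s + D.g j s)
    (hg : ∀ j, 0 ≤ D.g j s ∧ D.g j s ≤ Real.exp s) (τ : Fin (m + 1) ↪ Fin d) :
    ∑ k, x (τ k) ≤ 2 * Real.exp s := by
  have h := H D.j0 τ
  have h1 : ∑ k, D.ν D.j0 k * x (τ k) = ∑ k, x (τ k) := by
    refine sum_congr rfl fun k _ => ?_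
    rw [D.hj0]; ring
  rw [h1] at h
  have := (hg D.j0).2
  linarith

lemma fam_pos_active {m M d : ℕ} {Θ : ℝ} (D : FD m M 1 Θ) {s : ℝ} (hs : 0 < s)
    {x : Fin d → ℝ} (hx : ∀ a, 0 < x a)
    (H : ∀ j (τ : Fin (m + 1) ↪ Fin d), ∑ k, D.ν j k * x (τ k) ≤ Real.exp s + D.g j s)
    (hg : ∀ j, 0 ≤ D.g j s ∧ D.g j s ≤ Real.exp s)
    (hmain : ∀ t : Fin (m + 1) → ℝ, Antitone t → |t 0 - 1| ≤ D.e → (∀ i, -Θ ≤ t i) →
        ∀ j, (∀ j', D.g j s - ∑ i, D.ν j i * Real.exp (s * t i) ≤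
            D.g j' s - ∑ i, D.ν j' i * Real.exp (s * t i)) → Compat M D.δ (D.ν j) t)
    (hlow : ∀ a, -Θ ≤ Real.log (x a) / s)
    (he : Real.log (m + 1) / s ≤ D.e) (he2 : Real.log 2 / s ≤ D.e)
    (j : D.J) (τ : Fin (m + 1) ↪ Fin d)
    (hact : ∑ k, D.ν j k * x (τ k) = Real.exp s + D.g j s) :
    ∀ w : Fin d → ℤ, (∀ i, |w i| ≤ (M : ℤ)) → 0 < ∑ k, (w (τ k) : ℝ) * D.ν j k →
      D.δ * s ≤ ∑ k, (w (τ k) : ℝ) * Real.log (x (τ k)) := by
  intro w hw hpos
  have hν : ∀ k, D.ν j k ≤ 1 := fun k => (D.hanti j (Fin.zero_le k)).trans_eq (D.hν0 j)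
  refine active_common D hs hx (fun j τ => ?_) hmain hlow j τ ?_ ?_ w hw hpos
  · rw [one_mul, one_mul]; exact H j τ
  · rw [one_mul, one_mul]; exact hact
  · intro a ha
    have h1 := fam_pos D H hg τ
    have h2 : x (τ a) ≤ 2 * Real.exp s :=
      (single_le_sum (f := fun k => x (τ k)) (fun i _ => (hx _).le) (mem_univ a)).trans h1
    have h3 : Real.exp s ≤ (m + 1) * x (τ a) := by
      have h4 : ∑ k, D.ν j k * x (τ k) ≤ ∑ _k : Fin (m + 1), x (τ a) := by
        refine sum_le_sum fun k _ => ?_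
        have h5 := hν k
        have h6 := ha k
        have h7 := hx (τ k)
        nlinarith
      rw [sum_const, card_univ, Fintype.card_fin, nsmul_eq_mul] at h4
      push_cast at h4
      have := (hg j).1
      linarith
    have h4 : s ≤ Real.log (m + 1) + Real.log (x (τ a)) := by
      rw [← Real.log_mul (by positivity) (hx _).ne', Real.le_log_iff_exp_le]
      · exact h3
      · have := hx (τ a); positivity
    have h5 : Real.log (x (τ a)) ≤ Real.log 2 + s := by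
      have h8 : Real.log 2 + s = Real.log (2 * Real.exp s) := by
        rw [Real.log_mul (by norm_num) (Real.exp_pos _).ne', Real.log_exp]
      rw [h8]
      exact Real.log_le_log (hx _) h2
    have h6 : Real.log (m + 1) ≤ D.e * s := by rwa [div_le_iff₀ hs] at he
    have h7 : Real.log 2 ≤ D.e * s := by rwa [div_le_iff₀ hs] at he2
    rw [abs_le]
    constructor
    · have : -D.e + 1 ≤ Real.log (x (τ a)) / s := by
        rw [le_div_iff₀ hs]; nlinarith
      linarith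
    · have : Real.log (x (τ a)) / s ≤ D.e + 1 := by
        rw [div_le_iff₀ hs]; nlinarith
      linarith

/-- facts needed at scale `s`, negative families -/
def NegOK {m M : ℕ} {Θ : ℝ} (D : FD m M (-1) Θ) (s : ℝ) : Prop :=
  0 < s ∧ (∀ j, 0 ≤ D.g j s ∧ D.g j s ≤ Real.exp (-s) / 2) ∧
  (∀ t : Fin (m + 1) → ℝ, Antitone t → |t 0 - (-1)| ≤ D.e → (∀ i, -Θ ≤ t i) →
        ∀ j, (∀ j', D.g j s - ∑ i, D.ν j i * Real.exp (s * t i) ≤
            D.g j' s - ∑ i, D.ν j' i * Real.exp (s * t i)) → Compat M D.δ (D.ν j) t) ∧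
  Real.log (2 * (m + 1)) / s ≤ D.e

def PosOK {m M : ℕ} {Θ : ℝ} (D : FD m M 1 Θ) (s : ℝ) : Prop :=
  0 < s ∧ (∀ j, 0 ≤ D.g j s ∧ D.g j s ≤ Real.exp s) ∧
  (∀ t : Fin (m + 1) → ℝ, Antitone t → |t 0 - 1| ≤ D.e → (∀ i, -Θ ≤ t i) →
        ∀ j, (∀ j', D.g j s - ∑ i, D.ν j i * Real.exp (s * t i) ≤
            D.g j' s - ∑ i, D.ν j' i * Real.exp (s * t i)) → Compat M D.δ (D.ν j) t) ∧
  Real.log (m + 1) / s ≤ D.e ∧ Real.log 2 / s ≤ D.e

lemma exp_small {N κ s c : ℝ} (hN : 0 < N) (hκ : 0 < κ) (hc : 0 < c)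
    (hs : Real.log (N / c) / κ ≤ s) : N * Real.exp (-(κ * s)) ≤ c := by
  rw [div_le_iff₀ hκ] at hs
  have h1 : Real.log (N / c) ≤ κ * s := by linarith
  rw [Real.log_le_iff_le_exp (by positivity)] at h1
  rw [Real.exp_neg, ← div_eq_mul_inv, div_le_iff₀ (Real.exp_pos _)]
  rw [div_le_iff₀ hc] at h1
  linarith

lemma negOK_ev {m M : ℕ} {Θ : ℝ} (D : FD m M (-1) Θ) : ∀ᶠ s in atTop, NegOK D s := by
  filter_upwards [eventually_gt_atTop 0, D.hgE, D.hmain,
    eventually_ge_atTop (Real.log (D.N / (1 / 2)) / D.κ),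
    eventually_ge_atTop (Real.log (2 * (m + 1)) / D.e)] with s hs h1 h2 h3 h4
  refine ⟨hs, fun j => ⟨(h1 j).1, (h1 j).2.trans ?_⟩, h2, ?_⟩
  · have h5 := exp_small D.hN D.hκ (by norm_num : (0 : ℝ) < 1 / 2) h3
    have h6 : D.N * Real.exp (s * (-1 - D.κ)) = (D.N * Real.exp (-(D.κ * s))) * Real.exp (-s) := by
      rw [mul_assoc, ← Real.exp_add]; congr 2; ring
    rw [h6]
    have := Real.exp_pos (-s)
    nlinarith
  · rw [div_le_iff₀ D.he] at h4
    rw [div_le_iff₀ hs]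
    linarith

lemma posOK_ev {m M : ℕ} {Θ : ℝ} (D : FD m M 1 Θ) : ∀ᶠ s in atTop, PosOK D s := by
  filter_upwards [eventually_gt_atTop 0, D.hgE, D.hmain,
    eventually_ge_atTop (Real.log (D.N / 1) / D.κ),
    eventually_ge_atTop (Real.log (m + 1) / D.e),
    eventually_ge_atTop (Real.log 2 / D.e)] with s hs h1 h2 h3 h4 h5
  refine ⟨hs, fun j => ⟨(h1 j).1, (h1 j).2.trans ?_⟩, h2, ?_, ?_⟩
  · have h5 := exp_small D.hN D.hκ (by norm_num : (0 : ℝ) < 1) h3
    have h6 : D.N * Real.exp (s * (1 - D.κ)) = (D.N * Real.exp (-(D.κ * s))) * Real.exp s := by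
      rw [mul_assoc, ← Real.exp_add]; congr 2; ring
    rw [h6]
    have := Real.exp_pos s
    nlinarith
  · rw [div_le_iff₀ D.he] at h4
    rw [div_le_iff₀ hs]
    linarith
  · rw [div_le_iff₀ D.he] at h5
    rw [div_le_iff₀ hs]
    linarith

/-- the scales -/
noncomputable def Lam (M d : ℕ) (F : ∀ (m : ℕ) (Θ : ℝ), FD m M (-1) Θ) : ℕ → ℝ
  | 0 => 1
  | m + 1 => Lam M d F m * max 1 (8 * d * M / (F m (Lam M d F m + 1)).δ)

lemma one_le_Lam (M d : ℕ) (F : ∀ (m : ℕ) (Θ : ℝ), FD m M (-1) Θ) (m : ℕ) :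
    1 ≤ Lam M d F m := by
  induction m with
  | zero => exact le_rfl
  | succ m ih =>
    unfold Lam
    have h1 : (1 : ℝ) ≤ max 1 (8 * d * M / (F m (Lam M d F m + 1)).δ) := le_max_left _ _
    nlinarith

lemma Lam_mono (M d : ℕ) (F : ∀ (m : ℕ) (Θ : ℝ), FD m M (-1) Θ) :
    Monotone (Lam M d F) := by
  apply monotone_nat_of_le_succ
  intro m
  have h1 : (1 : ℝ) ≤ max 1 (8 * d * M / (F m (Lam M d F m + 1)).δ) := le_max_left _ _
  have h2 := one_le_Lam M d F m
  have h3 : Lam M d F (m + 1) = Lam M d F m * max 1 (8 * d * M / (F m (Lam M d F m + 1)).δ) := rfl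
  rw [h3]
  nlinarith

lemma Lam_step (M d : ℕ) (F : ∀ (m : ℕ) (Θ : ℝ), FD m M (-1) Θ) (m : ℕ) :
    8 * d * M * Lam M d F m ≤ Lam M d F (m + 1) * (F m (Lam M d F m + 1)).δ := by
  have h0 := (F m (Lam M d F m + 1)).hδ
  have h1 : 8 * d * M / (F m (Lam M d F m + 1)).δ ≤
    max 1 (8 * d * M / (F m (Lam M d F m + 1)).δ) := le_max_right _ _
  have h2 := one_le_Lam M d F m
  have h3 : Lam M d F (m + 1) = Lam M d F m * max 1 (8 * d * M / (F m (Lam M d F m + 1)).δ) := rfl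
  rw [h3]
  rw [div_le_iff₀ h0] at h1
  nlinarith

/-- finite families of positive numbers have a positive lower bound -/
lemma exists_pos_le {n : ℕ} (c : Fin n → ℝ) (hc : ∀ i, 0 < c i) (c' : ℝ) (hc' : 0 < c') :
    ∃ δ : ℝ, 0 < δ ∧ (∀ i, δ ≤ c i) ∧ δ ≤ c' := by
  induction n with
  | zero => exact ⟨c', hc', fun i => i.elim0, le_rfl⟩
  | succ n ih =>
    obtain ⟨δ, h1, h2, h3⟩ := ih (fun i => c i.succ) (fun i => hc _)
    refine ⟨min δ (c 0), lt_min h1 (hc 0), fun i => ?_, (min_le_left _ _).trans h3⟩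
    refine Fin.cases (min_le_right _ _) (fun i => (min_le_left _ _).trans (h2 i)) i

end AsmP

open AsmP Finset Filter in
theorem asm : AsmStmt := by
  classical
  intro hF d M hd
  obtain ⟨d', rfl⟩ : ∃ d', d = d' + 1 := ⟨d - 1, by omega⟩
  have F : ∀ (m : ℕ) (Θ : ℝ), FD m M (-1) Θ :=
    fun m Θ => Classical.choice (exists_FD hF m M (-1) Θ (Or.inr rfl))
  set Λ := Lam M (d' + 1) F with hΛ
  have hΛ1 : ∀ m, 1 ≤ Λ m := one_le_Lam M (d' + 1) F
  have hΛ0 : ∀ m, 0 < Λ m := fun m => lt_of_lt_of_le one_pos (hΛ1 m)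
  have hΛm : Monotone Λ := Lam_mono M (d' + 1) F
  let D : ∀ m : ℕ, FD m M (-1) (Λ m + 1) := fun m => F m (Λ m + 1)
  have hstep : ∀ m, 8 * ((d' + 1 : ℕ) : ℝ) * M * Λ m ≤ Λ (m + 1) * (D m).δ :=
    fun m => Lam_step M (d' + 1) F m
  have hDi : Nonempty (FD d' M 1 (Λ (d' + 1) + 1)) :=
    exists_FD hF d' M 1 (Λ (d' + 1) + 1) (Or.inl rfl)
  let Di : FD d' M 1 (Λ (d' + 1) + 1) := Classical.choice hDi
  haveI i1 : ∀ m, Fintype (D m).J := fun m => (D m).ft
  haveI i2 : Fintype Di.J := Di.ft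
  obtain ⟨δ, hδ, hδm, hδi⟩ := exists_pos_le (fun m : Fin (d' + 1) => (D m).δ / (2 * Λ m))
    (fun m => div_pos (D m).hδ (by have := hΛ0 m; positivity)) (Di.δ / Λ (d' + 1))
    (div_pos Di.hδ (hΛ0 _))
  -- basic consequences of the constraints
  have base : ∀ (E : ℝ) (x : Fin (d' + 1) → ℝ), (∀ m : Fin (d' + 1), NegOK (D m) (E / Λ m)) →
      PosOK Di (E / Λ (d' + 1)) →
      (∀ (m : Fin (d' + 1)) (j : (D m).J) (τ : Fin ((m : ℕ) + 1) ↪ Fin (d' + 1)),
        dot (ext τ ((D m).ν j)) x ≤ -Real.exp (-(E / Λ m)) + (D m).g j (E / Λ m)) →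
      (∀ (j : Di.J) (τ : Fin (d' + 1) ↪ Fin (d' + 1)),
        dot (ext τ (Di.ν j)) x ≤ Real.exp (E / Λ (d' + 1)) + Di.g j (E / Λ (d' + 1))) →
      (∀ a, Real.exp (-E) / 2 ≤ x a) ∧ (∀ a, x a ≤ 2 * Real.exp (E / Λ (d' + 1))) := by
    intro E x hn hp Hn Hp
    have hlow : ∀ a, Real.exp (-E) / 2 ≤ x a := by
      intro a
      have h0 := hn 0
      have h1 := fam_neg (D ((0 : Fin (d' + 1)) : ℕ)) h0.1 (x := x)
        (fun j τ => by rw [← dot_ext]; exact Hn 0 j τ) h0.2.1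
        ⟨fun _ => a, fun i j _ => by
          have hi : (i : ℕ) < 0 + 1 := i.2
          have hj : (j : ℕ) < 0 + 1 := j.2
          exact Fin.ext (by omega)⟩
      have h2 : Λ ((0 : Fin (d' + 1)) : ℕ) = 1 := rfl
      rw [h2, div_one] at h1
      have h3 : ∀ y : ℝ, ∑ _k : Fin (((0 : Fin (d' + 1)) : ℕ) + 1), y = y := fun y => by
        rw [sum_const, card_univ, Fintype.card_fin]
        simp
      have h4 := h1.trans_eq (h3 (x a))
      exact h4
    refine ⟨hlow, fun a => ?_⟩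
    have h1 := fam_pos Di (fun j τ => by rw [← dot_ext]; exact Hp j τ) hp.2.1
      (Function.Embedding.refl _)
    exact (single_le_sum (f := fun k => x k) (fun i _ => (by positivity : (0:ℝ) ≤ Real.exp (-E) / 2).trans (hlow i)) (mem_univ a)).trans h1
  have hevn : ∀ᶠ E : ℝ in atTop, ∀ m : Fin (d' + 1), NegOK (D m) (E / Λ m) := by
    rw [eventually_all]
    intro m
    exact (tendsto_id.atTop_div_const (hΛ0 m)).eventually (negOK_ev (D m))
  have hevp : ∀ᶠ E : ℝ in atTop, PosOK Di (E / Λ (d' + 1)) :=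
    (tendsto_id.atTop_div_const (hΛ0 (d' + 1))).eventually (posOK_ev Di)
  refine ⟨(Σ m : Fin (d' + 1), (D m).J × (Fin ((m : ℕ) + 1) ↪ Fin (d' + 1))) ⊕
    (Di.J × (Fin (d' + 1) ↪ Fin (d' + 1))), inferInstance,
    Sum.elim (fun p => ext p.2.2 ((D p.1).ν p.2.1)) (fun p => ext p.2 (Di.ν p.1)),
    Sum.elim (fun p E => -Real.exp (-(E / Λ p.1)) + (D p.1).g p.2.1 (E / Λ p.1))
      (fun p E => Real.exp (E / Λ (d' + 1)) + Di.g p.1 (E / Λ (d' + 1))), δ, hδ, ?_, ?_, ?_, ?_⟩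
  · rintro (p | p)
    · simp only [Sum.elim_inl]
      have h1 : ContDiff ℝ 1 (fun E : ℝ => E / Λ p.1) := contDiff_id.div_const _
      exact (Real.contDiff_exp.comp h1.neg).neg.add (((D p.1).hg p.2.1).comp h1)
    · simp only [Sum.elim_inr]
      have h1 : ContDiff ℝ 1 (fun E : ℝ => E / Λ (d' + 1)) := contDiff_id.div_const _
      exact (Real.contDiff_exp.comp h1).add ((Di.hg p.1).comp h1)
  · -- compatibility
    set Lg : ℝ := Real.log (2 * ((d' + 1 : ℕ) + 1)) with hLg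
    have hLg0 : 0 ≤ Lg := Real.log_nonneg (by push_cast; nlinarith [Nat.cast_nonneg (α := ℝ) d'])
    have hev3 : ∀ᶠ E : ℝ in atTop, ∀ m : Fin (d' + 1),
        8 * (((d' + 1 : ℕ) : ℝ) * M * Lg) * Λ m / (D m).δ ≤ E := by
      rw [eventually_all]
      intro m
      exact eventually_ge_atTop _
    filter_upwards [hevn, hevp, hev3, eventually_ge_atTop (Λ (d' + 1) * Real.log 2),
      eventually_gt_atTop 0] with E hn hp h3 h4 hE x hx
    have Hn : ∀ (m : Fin (d' + 1)) (j : (D m).J) (τ : Fin ((m : ℕ) + 1) ↪ Fin (d' + 1)),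
        dot (ext τ ((D m).ν j)) x ≤ -Real.exp (-(E / Λ m)) + (D m).g j (E / Λ m) :=
      fun m j τ => hx (Sum.inl ⟨m, (j, τ)⟩)
    have Hp : ∀ (j : Di.J) (τ : Fin (d' + 1) ↪ Fin (d' + 1)),
        dot (ext τ (Di.ν j)) x ≤ Real.exp (E / Λ (d' + 1)) + Di.g j (E / Λ (d' + 1)) :=
      fun j τ => hx (Sum.inr (j, τ))
    obtain ⟨hlow, hup⟩ := base E x hn hp Hn Hp
    have hxpos : ∀ a, 0 < x a := fun a =>
      lt_of_lt_of_le (by have := Real.exp_pos (-E); linarith) (hlow a)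
    have hlog : ∀ a, -E - Real.log 2 ≤ Real.log (x a) := by
      intro a
      have h5 : -E - Real.log 2 = Real.log (Real.exp (-E) / 2) := by
        rw [Real.log_div (Real.exp_pos _).ne' (by norm_num), Real.log_exp]
      rw [h5]
      exact Real.log_le_log (by have := Real.exp_pos (-E); linarith) (hlow a)
    have hlogup : ∀ a, Real.log (x a) ≤ Real.log 2 + E / Λ (d' + 1) := by
      intro a
      have h5 : Real.log 2 + E / Λ (d' + 1) = Real.log (2 * Real.exp (E / Λ (d' + 1))) := by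
        rw [Real.log_mul (by norm_num) (Real.exp_pos _).ne', Real.log_exp]
      rw [h5]
      exact Real.log_le_log (hxpos a) (hup a)
    have hl2 : 0 < Real.log 2 := Real.log_pos (by norm_num)
    have hlowΘ : ∀ (m : ℕ), m ≤ d' + 1 → ∀ a, -(Λ m + 1) ≤ Real.log (x a) / (E / Λ m) := by
      intro m hm a
      have h5 := hΛ0 m
      have h6 : 0 < E / Λ m := div_pos hE h5
      rw [le_div_iff₀ h6]
      have h7 : -(Λ m + 1) * (E / Λ m) = -E - E / Λ m := by field_simp; ring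
      rw [h7]
      have h8 : Real.log 2 ≤ E / Λ m := by
        rw [le_div_iff₀ h5]
        have h9 := hΛm hm
        nlinarith
      have h9 := hlog a
      linarith
    have hlow1 : ∀ (m : ℕ), m ≤ d' + 1 → E / Λ (d' + 1) ≤ E / Λ m := fun m hm =>
      div_le_div_of_nonneg_left hE.le (hΛ0 m) (hΛm hm)
    have hl22 : Real.log 2 ≤ Lg := by
      apply Real.log_le_log (by norm_num)
      push_cast
      nlinarith [Nat.cast_nonneg (α := ℝ) d']
    rintro (⟨m, j, τ⟩ | ⟨j, τ⟩) hact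
    · simp only [Sum.elim_inl] at hact ⊢
      rw [dot_ext] at hact
      obtain ⟨n1, n2, n3, n4⟩ := hn m
      obtain ⟨k1, k2, k3⟩ := fam_neg_active (D m) n1 hxpos
        (fun j τ => by rw [← dot_ext]; exact Hn m j τ) n2 n3 (hlowΘ m (by omega)) n4 j τ hact
      refine compat_of τ ((D m).ν j) (A := (D m).δ * (E / Λ m))
        (B := E / Λ ((m : ℕ) + 1) + Lg) k3 (by have := div_pos hE (hΛ0 ((m : ℕ) + 1)); linarith)
        ?_ ?_
      · intro a ha
        -- there is room for family `m + 1`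
        have hlt : (m : ℕ) + 1 < d' + 1 := by
          have := Fintype.card_lt_of_injective_of_notMem τ τ.injective
            (b := a) (by rintro ⟨k, hk⟩; exact ha k hk)
          simpa using this
        obtain ⟨n1', n2', n3', n4'⟩ := hn ⟨(m : ℕ) + 1, hlt⟩
        set τ' : Fin ((m : ℕ) + 1 + 1) ↪ Fin (d' + 1) := ⟨Fin.cons a τ, by
          rw [Fin.cons_injective_iff]
          exact ⟨by rintro ⟨k, hk⟩; exact ha k hk, τ.injective⟩⟩ with hτ'
        have h5 := fam_neg (D ((m : ℕ) + 1)) n1' (x := x)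
          (fun j τ => by rw [← dot_ext]; exact Hn ⟨(m : ℕ) + 1, hlt⟩ j τ) n2' τ'
        have h6 : ∑ k, x (τ' k) = x a + ∑ k, x (τ k) := by
          rw [Fin.sum_univ_succ]
          rfl
        have h7 : ∑ k, x (τ k) ≤ ((m : ℕ) + 1) * x a := by
          have := sum_le_sum (fun (k : Fin ((m : ℕ) + 1)) (_ : k ∈ univ) => k2 a ha k)
          rw [sum_const, card_univ, Fintype.card_fin, nsmul_eq_mul] at this
          push_cast at this
          exact this
        have h8 : Real.exp (-(E / Λ ((m : ℕ) + 1))) ≤ (2 * ((d' + 1 : ℕ) + 1)) * x a := by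
          have h9 : ((m : ℕ) : ℝ) + 1 ≤ ((d' + 1 : ℕ) : ℝ) := by exact_mod_cast m.2
          have h10 := hxpos a
          rw [h6] at h5
          nlinarith
        have h9 : -(E / Λ ((m : ℕ) + 1)) ≤ Lg + Real.log (x a) := by
          rw [hLg, ← Real.log_mul (by positivity) (hxpos a).ne', Real.le_log_iff_exp_le]
          · exact h8
          · have := hxpos a; positivity
        have h10 := hlogup a
        have h11 := hlow1 ((m : ℕ) + 1) (by omega)
        rw [abs_le]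
        constructor <;> linarith
      · have h5 : δ ≤ (D m).δ / (2 * Λ m) := hδm m
        have h6 := hΛ0 m
        have h7 := hΛ0 ((m : ℕ) + 1)
        have h8 := hstep m
        have h9 := h3 m
        rw [le_div_iff₀ (by positivity)] at h5
        rw [div_le_iff₀ (D m).hδ] at h9
        -- multiply everything by `Λ m`
        have e1 : δ * E ≤ (D m).δ * (E / Λ m) / 2 := by
          rw [le_div_iff₀ (by norm_num), mul_div_assoc', le_div_iff₀ h6]
          nlinarith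
        have e2 : ((d' + 1 : ℕ) : ℝ) * M * (E / Λ ((m : ℕ) + 1)) ≤ (D m).δ * (E / Λ m) / 8 := by
          rw [le_div_iff₀ (by norm_num), mul_div_assoc', mul_div_assoc', div_mul_eq_mul_div,
            div_le_div_iff₀ h7 h6]
          nlinarith
        have e3 : ((d' + 1 : ℕ) : ℝ) * M * Lg ≤ (D m).δ * (E / Λ m) / 8 := by
          rw [le_div_iff₀ (by norm_num), mul_div_assoc', le_div_iff₀ h6]
          nlinarith
        have e4 : 0 ≤ (D m).δ * (E / Λ m) := mul_nonneg (D m).hδ.le (div_nonneg hE.le h6.le)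
        rw [mul_add]
        linarith
    · simp only [Sum.elim_inr] at hact ⊢
      rw [dot_ext] at hact
      obtain ⟨n1, n2, n3, n4, n5⟩ := hp
      have k3 := fam_pos_active Di n1 hxpos
        (fun j τ => by rw [← dot_ext]; exact Hp j τ) n2 n3 (hlowΘ (d' + 1) le_rfl) n4 n5 j τ hact
      refine compat_of τ (Di.ν j) (A := Di.δ * (E / Λ (d' + 1))) (B := 0) k3 le_rfl ?_ ?_
      · intro a ha
        obtain ⟨k, hk⟩ := (Finite.injective_iff_surjective.mp τ.injective) a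
        exact absurd hk (ha k)
      · have h5 := hδi
        have h6 := hΛ0 (d' + 1)
        rw [le_div_iff₀ h6] at h5
        rw [mul_zero, add_zero, mul_div_assoc', le_div_iff₀ h6]
        nlinarith
  · filter_upwards [hevn, hevp] with E hn hp
    refine ⟨Real.exp (-E) / 2, 2 * Real.exp (E / Λ (d' + 1)), by positivity, fun x hx i => ?_⟩
    obtain ⟨h1, h2⟩ := base E x hn hp (fun m j τ => hx (Sum.inl ⟨m, (j, τ)⟩))
      (fun j τ => hx (Sum.inr (j, τ)))
    exact ⟨h1 i, h2 i⟩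
  · intro x hx
    rw [eventually_all]
    rintro (⟨m, j, τ⟩ | ⟨j, τ⟩)
    · simp only [Sum.elim_inl]
      rw [dot_ext]
      have hν : ∀ k, (D m).ν j k ≤ -1 := fun k =>
        ((D m).hanti j (Fin.zero_le k)).trans_eq ((D m).hν0 j)
      have h1 : ∑ k, (D m).ν j k * x (τ k) < 0 := by
        apply sum_neg
        · intro k _
          have := hν k
          have := hx (τ k)
          nlinarith
        · exact univ_nonempty
      have h2 : Tendsto (fun E : ℝ => -Real.exp (-(E / Λ m))) atTop (nhds (-0)) := by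
        apply Tendsto.neg
        exact Real.tendsto_exp_neg_atTop_nhds_zero.comp (tendsto_id.atTop_div_const (hΛ0 m))
      rw [neg_zero] at h2
      filter_upwards [hevn, h2.eventually (lt_mem_nhds h1)] with E hn h3
      have := ((hn m).2.1 j).1
      linarith
    · simp only [Sum.elim_inr]
      rw [dot_ext]
      have h2 : Tendsto (fun E : ℝ => Real.exp (E / Λ (d' + 1))) atTop atTop :=
        Real.tendsto_exp_atTop.comp (tendsto_id.atTop_div_const (hΛ0 (d' + 1)))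
      filter_upwards [hevp, h2.eventually (eventually_gt_atTop (∑ k, Di.ν j k * x (τ k)))]
        with E hp h3
      have := (hp.2.1 j).1
      linarith

end Crest.Agent.MA
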