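import Mathlib
import Crest.Prelude.Def_MassAction
set_option autoImplicit false

/-!
Row 92 (S0122): permanence of weakly reversible mass-action systems, with a convex absorbing set.
Interface (lead).  Proof idea: finitely many normals `ν j` and heights `h j E` such that for all
large `E`, at every boundary point `x` of the polytope `{x | ∀ j, ν j ⬝ x ≤ h j E}` every active
normal `ν` is compatible with `X = log x`: for every integer vector `w` with entries `≤ M`,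
`w ⬝ ν > 0` forces `w ⬝ X ≥ δ E`.  Then `ν ⬝ f(x) < 0` for the mass-action field.
-/

namespace Crest.Agent.MA

open Finset Filter Crest.AnalysisR.MassAction

/-- dot product -/
def dot {d : ℕ} (u v : Fin d → ℝ) : ℝ := ∑ i, u i * v i

/-- compatibility of a normal `ν` with the logarithmic position `X` -/
def Compat {d : ℕ} (M : ℕ) (D : ℝ) (ν X : Fin d → ℝ) : Prop :=
  ∀ w : Fin d → ℤ, (∀ i, |w i| ≤ (M : ℤ)) → 0 < ∑ i, (w i : ℝ) * ν i → D ≤ ∑ i, (w i : ℝ) * X i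

/-- (SIGN).  `M` = bound for the entries of all complexes of `R`.
Group the reactions by strongly connected components `L` (of complexes); let `F ⊆ L` be the complexes
maximising `ν ⬝ y`.  If `F ≠ L` there is a reaction from `y₁ ∈ F` out of `F`: contribution
`≤ -k_min γ x^{y₁}`; reactions from `F` contribute `≤ 0`; a reaction from `y ∉ F` contributes
`≤ k_max Γ x^y ≤ k_max Γ e^{-Δ} x^{y₁}` because `ν ⬝ (y₁ - y) > 0` gives `X ⬝ (y₁ - y) ≥ Δ`. -/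
def SignStmt : Prop :=
  ∀ (d : ℕ) (R : Network d), IsWeaklyReversible R →
    ∃ M : ℕ, ∀ k : (Fin d → ℕ) × (Fin d → ℕ) → ℝ, (∀ r ∈ R, 0 < k r) → ∀ ν : Fin d → ℝ,
      ∃ Δ : ℝ, ∀ x : Fin d → ℝ, (∀ i, 0 < x i) → Compat M Δ ν (fun i => Real.log (x i)) →
        (∃ r ∈ R, dot ν (reactionVector r) ≠ 0) → dot ν (field R k x) < 0

/-- (DYN).  `K E = {x | x - c ∈ S ∧ ∀ j, ν j ⬝ x ≤ h j E}`; `K = K E₀`.
* Barrier lemma: finitely many differentiable `s j : ℝ → ℝ` on `[0,T]` with `s j 0 ≥ 0` and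
  (all `s ≥ 0` at `t` and `s i t = 0`) ⇒ `s i' > 0`: then all `s j ≥ 0` on `[0,T]`
  (`IsClosed.Icc_subset_of_forall_exists_gt`).
* Invariance of `K E`, `E ≥ E₀`; solutions stay in `c + S`.
* Absorption: `x 0 ∈ K E₁`; on the compact set of `(E, x)`, `E ∈ [E₀, E₁]`, `x ∈ K E` with `ν j ⬝ x = h j E`,
  `ν j ⬝ f x ≤ -2c₀`; with `E(t) = E₁ - β t`, `β |h j'| ≤ c₀`, apply the barrier lemma to
  `s j t = h j (E t) - ν j ⬝ x t`.
* Existence: `f` composed with the coordinatewise clamp to a box is globally Lipschitz and bounded;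
  Picard–Lindelöf on every `[0,T]`, glue by uniqueness; the solution stays in `K E₁`. -/
def DynStmt : Prop :=
  ∀ (d : ℕ) (f : (Fin d → ℝ) → Fin d → ℝ) (S : Submodule ℝ (Fin d → ℝ)) (c : Fin d → ℝ)
    (J : Type) [Fintype J] (ν : J → Fin d → ℝ) (h : J → ℝ → ℝ) (E₀ : ℝ),
    ContDiff ℝ 1 f → (∀ x, f x ∈ S) → (∀ i, 0 < c i) → (∀ j, ContDiff ℝ 1 (h j)) →
    (∀ E, E₀ ≤ E → ∃ a b : ℝ, 0 < a ∧ ∀ x : Fin d → ℝ, (∀ j, dot (ν j) x ≤ h j E) →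
      ∀ i, a ≤ x i ∧ x i ≤ b) →
    (∀ E, E₀ ≤ E → ∀ x : Fin d → ℝ, x - c ∈ S → (∀ j, dot (ν j) x ≤ h j E) →
      ∀ j, dot (ν j) x = h j E → dot (ν j) (f x) < 0) →
    (∀ x : Fin d → ℝ, (∀ i, 0 < x i) → ∀ᶠ E in atTop, ∀ j, dot (ν j) x < h j E) →
    (∀ j, dot (ν j) c ≤ h j E₀) →
    ∃ K : Set (Fin d → ℝ), K ⊆ {x | (∀ i, 0 < x i) ∧ x - c ∈ S} ∧ K.Nonempty ∧ IsCompact K ∧
      Convex ℝ K ∧
      (∀ x : ℝ → (Fin d → ℝ), IsForwardSolution f x → x 0 ∈ K → ∀ t : ℝ, 0 ≤ t → x t ∈ K) ∧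
      (∀ x₀ : Fin d → ℝ, (∀ i, 0 < x₀ i) → x₀ - c ∈ S →
        (∃ x : ℝ → (Fin d → ℝ), IsForwardSolution f x ∧ x 0 = x₀) ∧
        (∀ x x' : ℝ → (Fin d → ℝ), IsForwardSolution f x → IsForwardSolution f x' →
          x 0 = x₀ → x' 0 = x₀ → ∀ t : ℝ, 0 ≤ t → x t = x' t) ∧
        (∀ x : ℝ → (Fin d → ℝ), IsForwardSolution f x → x 0 = x₀ →
          (∀ t : ℝ, 0 ≤ t → ∀ i, 0 < x t i) ∧
          ∃ T : ℝ, 0 ≤ T ∧ ∀ t : ℝ, T ≤ t → x t ∈ K))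

/-- (KEY) the polytopes. -/
def KeyStmt : Prop :=
  ∀ (d M : ℕ), 1 ≤ d → ∃ (J : Type) (_ : Fintype J) (ν : J → Fin d → ℝ) (h : J → ℝ → ℝ) (δ : ℝ),
    0 < δ ∧ (∀ j, ContDiff ℝ 1 (h j)) ∧
    (∀ᶠ E in atTop, ∀ x : Fin d → ℝ, (∀ j, dot (ν j) x ≤ h j E) → ∀ j, dot (ν j) x = h j E →
      Compat M (δ * E) (ν j) (fun i => Real.log (x i))) ∧
    (∀ᶠ E in atTop, ∃ a b : ℝ, 0 < a ∧ ∀ x : Fin d → ℝ, (∀ j, dot (ν j) x ≤ h j E) →
      ∀ i, a ≤ x i ∧ x i ≤ b) ∧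
    (∀ x : Fin d → ℝ, (∀ i, 0 < x i) → ∀ᶠ E in atTop, ∀ j, dot (ν j) x < h j E)

/-- (FAM) one family of normals (lead).  `t = X / E`, sorted decreasingly, `t 0 ≈ σ`. -/
def FamStmt : Prop :=
  ∀ (m M : ℕ) (σ Θ : ℝ), (σ = 1 ∨ σ = -1) →
    ∃ (J : Type) (_ : Fintype J) (ν : J → Fin (m + 1) → ℝ) (g : J → ℝ → ℝ) (j0 : J)
      (e κ δ N : ℝ), 0 < e ∧ 0 < κ ∧ 0 < δ ∧ 0 < N ∧
      (∀ j, ν j 0 = σ) ∧ (∀ j, Antitone (ν j)) ∧ (∀ j i, |ν j i| ≤ N) ∧ (∀ i, ν j0 i = σ) ∧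
      (∀ j, ContDiff ℝ 1 (g j)) ∧
      (∀ᶠ E in atTop, ∀ j, 0 ≤ g j E ∧ g j E ≤ N * Real.exp (E * (σ - κ))) ∧
      (∀ᶠ E in atTop, ∀ t : Fin (m + 1) → ℝ, Antitone t → |t 0 - σ| ≤ e → (∀ i, -Θ ≤ t i) →
        ∀ j, (∀ j', g j E - ∑ i, ν j i * Real.exp (E * t i) ≤
            g j' E - ∑ i, ν j' i * Real.exp (E * t i)) → Compat M δ (ν j) t)

/-- (ASM) `FamStmt → KeyStmt`.
Families `i = 1, …, d` (`σ = -1`, `m + 1 = i`, `Θ = Λ i`) at scale `E / Λ i`, and family `∞`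
(`σ = 1`, `m + 1 = d`, `Θ = Λ_∞`) at scale `E / Λ_∞`, where `Λ 1 = 1`,
`Λ (i+1) = Λ i * max 1 (8 d M / δ_i)` (`δ_i` = the `δ` of family `i`), `Λ_∞ = Λ d` (any value `≥ Λ d`).
Constraints: for `j` in family `i` and every embedding `τ : Fin i ↪ Fin d`
`∑ k, ν j k * x (τ k) ≤ -exp (-E/Λ i) + g j (E/Λ i)`, and for `j` in family `∞`, `τ` a permutation,
`∑ k, ν j k * x (τ k) ≤ exp (E/Λ_∞) + g j (E/Λ_∞)`.
Consequences for `x` in the polytope: family 1: `x i ≥ exp (-E)`; family `∞`, `j0`: `∑ x ≤ 2 exp (E/Λ_∞)`.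
Active constraint of family `i`: by comparison with the other embeddings the coordinates outside the
image are `≥` those inside, and `τ` can be replaced by `τ ∘ π` with `ν ∘ π = ν` and `x ∘ τ ∘ π` antitone
(sort by `(ν, x)` lexicographically; exchange argument); all the other constraints with the same `τ`
say that `j` minimises `g j - ∑ ν j k x (τ k)`; `t k = log (x (τ k)) / (E/Λ i)`:
`|t 0 + 1| ≤ C/E`, `t k ≥ -Λ i`; outside coordinates: family `i+1` with `j0` gives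
`x ≥ exp (-E/Λ (i+1)) / 4`, so `|log x| ≤ E/Λ (i+1) + log 4` is small compared with `δ_i E / Λ i`. -/
def AsmStmt : Prop := FamStmt → KeyStmt

/-- (FIN) the final theorem from the modules: choose `M` from (SIGN), the polytopes from (KEY), `E₀` so
large that `δ E₀ ≥ Δ j` for all `j`, everything holds for `E ≥ E₀`, and `ν j ⬝ c < h j E` for all
`E ≥ E₀` (so a normal orthogonal to `S` is never active on the class of `c`). -/
def FinStmt : Prop :=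
  SignStmt → DynStmt → KeyStmt →
    ∀ (d : ℕ) (_ : 1 ≤ d) (R : Network d) (_ : IsWeaklyReversible R)
    (k : (Fin d → ℕ) × (Fin d → ℕ) → ℝ) (_ : ∀ r ∈ R, 0 < k r)
    (c : Fin d → ℝ) (_ : ∀ i, 0 < c i),
    ∃ K : Set (Fin d → ℝ), K ⊆ positiveClass R c ∧ K.Nonempty ∧ IsCompact K ∧ Convex ℝ K ∧
      (∀ x : ℝ → (Fin d → ℝ), IsForwardSolution (field R k) x → x 0 ∈ K →
        ∀ t : ℝ, 0 ≤ t → x t ∈ K) ∧
      (∀ x₀ ∈ positiveClass R c,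
        (∃ x : ℝ → (Fin d → ℝ), IsForwardSolution (field R k) x ∧ x 0 = x₀) ∧
        (∀ x x' : ℝ → (Fin d → ℝ), IsForwardSolution (field R k) x →
          IsForwardSolution (field R k) x' → x 0 = x₀ → x' 0 = x₀ →
          ∀ t : ℝ, 0 ≤ t → x t = x' t) ∧
        (∀ x : ℝ → (Fin d → ℝ), IsForwardSolution (field R k) x → x 0 = x₀ →
          (∀ t : ℝ, 0 ≤ t → ∀ i, 0 < x t i) ∧
          ∃ T : ℝ, 0 ≤ T ∧ ∀ t : ℝ, T ≤ t → x t ∈ K))

end Crest.Agent.MA
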