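import Mathlib
import Crest.Agent.MADefs
set_option autoImplicit false

/-! Row 92 (S0122), module DYN. -/

namespace Crest.Agent.MA

open Filter Set Topology Crest.AnalysisR.MassAction

/-- Barrier lemma. -/
theorem barrier {J : Type} [Finite J] (s s' : J → ℝ → ℝ) (a b : ℝ)
    (hc : ∀ j, ContinuousOn (s j) (Icc a b))
    (hd : ∀ j, ∀ t ∈ Ico a b, HasDerivWithinAt (s j) (s' j t) (Ici t) t)
    (h0 : ∀ j, 0 ≤ s j a)
    (hpos : ∀ t ∈ Ico a b, (∀ j, 0 ≤ s j t) → ∀ j, s j t = 0 → 0 < s' j t) :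
    ∀ t ∈ Icc a b, ∀ j, 0 ≤ s j t := by
  set A : Set ℝ := {t | ∀ j, 0 ≤ s j t} with hA
  have hcl : IsClosed (A ∩ Icc a b) := by
    have : A ∩ Icc a b = Icc a b ∩ ⋂ j, (Icc a b ∩ (s j) ⁻¹' (Ici 0)) := by
      ext t
      constructor
      · rintro ⟨h1, h2⟩
        exact ⟨h2, Set.mem_iInter.2 fun j => ⟨h2, h1 j⟩⟩
      · rintro ⟨h1, h2⟩
        exact ⟨fun j => (Set.mem_iInter.1 h2 j).2, h1⟩
    rw [this]
    exact isClosed_Icc.inter (isClosed_iInter fun j =>
      (hc j).preimage_isClosed_of_isClosed isClosed_Icc isClosed_Ici)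
  have key : Icc a b ⊆ A := by
    refine hcl.Icc_subset_of_forall_exists_gt h0 ?_
    rintro t ⟨htA, htab⟩ y hy
    have hev : ∀ᶠ u in 𝓝[>] t, ∀ j, 0 ≤ s j u := by
      rw [eventually_all]
      intro j
      have hdj := hd j t htab
      rcases (htA j).lt_or_eq with hlt | heq
      · have hcont : Tendsto (s j) (𝓝[>] t) (𝓝 (s j t)) :=
          hdj.continuousWithinAt.tendsto.mono_left (nhdsWithin_mono _ Ioi_subset_Ici_self)
        exact (hcont.eventually (lt_mem_nhds hlt)).mono fun u hu => hu.le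
      · have hp := hpos t htab htA j heq.symm
        have hsl : Tendsto (slope (s j) t) (𝓝[>] t) (𝓝 (s' j t)) :=
          (hasDerivWithinAt_iff_tendsto_slope' self_notMem_Ioi).1 hdj.Ioi_of_Ici
        have h1 := hsl.eventually (lt_mem_nhds hp)
        filter_upwards [h1, self_mem_nhdsWithin] with u hu1 hu2
        have hut : 0 < u - t := sub_pos.2 hu2
        rw [slope_def_field, ← heq, sub_zero] at hu1
        have := (div_pos_iff_of_pos_right hut).1 hu1
        exact this.le
    have hIoc : ∀ᶠ u in 𝓝[>] t, u ∈ Ioc t y := Ioc_mem_nhdsGT hy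
    obtain ⟨u, hu1, hu2⟩ := (hev.and hIoc).exists
    exact ⟨u, hu1, hu2⟩
  exact fun t ht => key ht

/-- A curve whose derivative lies in a subspace stays in the affine subspace. -/
theorem stay_affine {d : ℕ} (S : Submodule ℝ (Fin d → ℝ)) (x v : ℝ → Fin d → ℝ)
    (hx : ∀ t : ℝ, 0 ≤ t → HasDerivWithinAt x (v t) (Ici 0) t) (hv : ∀ t, v t ∈ S) :
    ∀ t : ℝ, 0 ≤ t → x t - x 0 ∈ S := by
  intro t ht
  rw [← Subspace.forall_mem_dualAnnihilator_apply_eq_zero_iff]
  intro φ hφ
  set L := LinearMap.toContinuousLinearMap φ with hL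
  have hder : ∀ u : ℝ, 0 ≤ u → HasDerivWithinAt (fun u => L (x u)) 0 (Ici 0) u := by
    intro u hu
    have h1 := L.hasFDerivAt.comp_hasDerivWithinAt u (hx u hu)
    have h2 : L (v u) = 0 := (Submodule.mem_dualAnnihilator φ).1 hφ _ (hv u)
    rw [h2] at h1
    exact h1
  have hconst := constant_of_has_deriv_right_zero (f := fun u => L (x u)) (a := 0) (b := t)
    (fun u hu => (hder u hu.1).continuousWithinAt.mono Icc_subset_Ici_self)
    (fun u hu => (hder u hu.1).mono (Ici_subset_Ici.2 hu.1)) t ⟨ht, le_rfl⟩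
  have : L (x t - x 0) = 0 := by rw [map_sub]; exact sub_eq_zero.2 hconst
  exact this

theorem dot_hasDeriv {d : ℕ} (ν : Fin d → ℝ) (x : ℝ → Fin d → ℝ) (v : Fin d → ℝ) (s : Set ℝ)
    (t : ℝ) (h : HasDerivWithinAt x v s t) :
    HasDerivWithinAt (fun u => dot ν (x u)) (dot ν v) s t := by
  unfold dot
  apply HasDerivWithinAt.fun_sum
  intro i _
  exact (hasDerivWithinAt_pi.1 h i).const_mul (ν i)

theorem dot_continuous {d : ℕ} (ν : Fin d → ℝ) : Continuous (dot ν) := by
  unfold dot
  fun_prop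

/-- General moving-polytope invariance on `[0, T]`. -/
theorem moving {d : ℕ} (f : (Fin d → ℝ) → Fin d → ℝ) (S : Submodule ℝ (Fin d → ℝ))
    (c : Fin d → ℝ) (J : Type) [Finite J] (ν : J → Fin d → ℝ) (h : J → ℝ → ℝ)
    (hh : ∀ j, ContDiff ℝ 1 (h j)) (E₁ β T : ℝ)
    (x v : ℝ → Fin d → ℝ) (hx : ∀ t : ℝ, 0 ≤ t → HasDerivWithinAt x (v t) (Ici 0) t)
    (hvS : ∀ t, v t ∈ S) (hx0 : x 0 - c ∈ S) (hin : ∀ j, dot (ν j) (x 0) ≤ h j E₁)
    (hvf : ∀ t, 0 ≤ t → t < T → (∀ j, dot (ν j) (x t) ≤ h j (E₁ - β * t)) → v t = f (x t))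
    (hact : ∀ t, 0 ≤ t → t < T → ∀ y : Fin d → ℝ, y - c ∈ S →
      (∀ j, dot (ν j) y ≤ h j (E₁ - β * t)) → ∀ j, dot (ν j) y = h j (E₁ - β * t) →
      dot (ν j) (f y) < -β * deriv (h j) (E₁ - β * t)) :
    ∀ t ∈ Icc 0 T, ∀ j, dot (ν j) (x t) ≤ h j (E₁ - β * t) := by
  have hE : ∀ t : ℝ, HasDerivAt (fun t => E₁ - β * t) (-β) t := by
    intro t
    have := ((hasDerivAt_id t).const_mul β).const_sub E₁
    simpa using this
  have hhd : ∀ j t, HasDerivAt (fun t => h j (E₁ - β * t)) (deriv (h j) (E₁ - β * t) * (-β)) t := by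
    intro j t
    exact HasDerivAt.comp t (((hh j).differentiable (by norm_num)).differentiableAt.hasDerivAt) (hE t)
  have hbar := barrier (fun j t => h j (E₁ - β * t) - dot (ν j) (x t))
    (fun j t => deriv (h j) (E₁ - β * t) * (-β) - dot (ν j) (v t)) 0 T
    (fun j t ht => by
      have h1 := (hhd j t).continuousAt.continuousWithinAt (s := Icc 0 T)
      have h2 := ((dot_hasDeriv (ν j) x (v t) (Ici 0) t (hx t ht.1)).continuousWithinAt).mono
        (fun u (hu : u ∈ Icc 0 T) => hu.1)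
      exact h1.sub h2)
    (fun j t ht => ((hhd j t).hasDerivWithinAt).sub
      (dot_hasDeriv (ν j) x (v t) (Ici t) t ((hx t ht.1).mono (Ici_subset_Ici.2 ht.1))))
    (fun j => by simpa using hin j)
    (fun t ht hall j hj => by
      have hle : ∀ j, dot (ν j) (x t) ≤ h j (E₁ - β * t) := fun j => sub_nonneg.1 (hall j)
      have h1 := hvf t ht.1 ht.2 hle
      have h2 : x t - c ∈ S := by
        have := S.add_mem (stay_affine S x v hx hvS t ht.1) hx0
        simpa using this
      have h3 := hact t ht.1 ht.2 (x t) h2 hle j (sub_eq_zero.1 hj).symm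
      rw [h1]
      linarith)
  exact fun t ht j => sub_nonneg.1 (hbar t ht j)

/-- trivial recession cone gives uniform bounds -/
theorem unif_bound {d : ℕ} (J : Type) [Fintype J] (ν : J → Fin d → ℝ)
    (hrec : ∀ v : Fin d → ℝ, (∀ j, dot (ν j) v ≤ 0) → v = 0) (H : ℝ) :
    ∃ R : ℝ, ∀ x : Fin d → ℝ, (∀ j, dot (ν j) x ≤ H) → ‖x‖ ≤ R := by
  by_cases hne : (Metric.sphere (0 : Fin d → ℝ) 1).Nonempty
  · obtain ⟨v0, hv0, hmin⟩ := (isCompact_sphere (0 : Fin d → ℝ) 1).exists_isMinOn hne
      (f := fun v => ∑ j, max (dot (ν j) v) 0)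
      (Continuous.continuousOn (by
        refine continuous_finsetSum _ fun j _ => ?_
        exact (dot_continuous (ν j)).max continuous_const))
    set γ := ∑ j, max (dot (ν j) v0) 0 with hγ
    have hγ0 : 0 < γ := by
      by_contra hcon
      have h0 : ∀ j, dot (ν j) v0 ≤ 0 := by
        intro j
        by_contra hj
        apply hcon
        have h1 : 0 < max (dot (ν j) v0) 0 := lt_max_of_lt_left (not_le.1 hj)
        exact h1.trans_le (Finset.single_le_sum (f := fun j => max (dot (ν j) v0) 0)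
          (fun _ _ => le_max_right _ _) (Finset.mem_univ j))
      have := hrec v0 h0
      rw [this] at hv0
      simp at hv0
    refine ⟨(Fintype.card J * max H 0) / γ, fun x hx => ?_⟩
    rcases eq_or_ne x 0 with rfl | hx0
    · simp; positivity
    · have hxn : 0 < ‖x‖ := norm_pos_iff.2 hx0
      set u : Fin d → ℝ := (‖x‖)⁻¹ • x with hu
      have hus : u ∈ Metric.sphere (0 : Fin d → ℝ) 1 := by
        rw [mem_sphere_zero_iff_norm, hu, norm_smul, norm_inv, norm_norm,
          inv_mul_cancel₀ hxn.ne']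
      have h1 : γ ≤ ∑ j, max (dot (ν j) u) 0 := hmin hus
      have h2 : ∀ j, max (dot (ν j) u) 0 ≤ max H 0 / ‖x‖ := by
        intro j
        have h3 : dot (ν j) u = (‖x‖)⁻¹ * dot (ν j) x := by
          simp only [dot, hu, Pi.smul_apply, smul_eq_mul, Finset.mul_sum]
          exact Finset.sum_congr rfl fun i _ => by ring
        rw [h3]
        apply max_le
        · rw [div_eq_inv_mul]
          exact mul_le_mul_of_nonneg_left ((hx j).trans (le_max_left _ _)) (by positivity)
        · positivity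
      have h4 : γ ≤ Fintype.card J * (max H 0 / ‖x‖) := by
        calc γ ≤ ∑ j, max (dot (ν j) u) 0 := h1
          _ ≤ ∑ j : J, max H 0 / ‖x‖ := Finset.sum_le_sum fun j _ => h2 j
          _ = _ := by simp
      rw [le_div_iff₀ hγ0]
      rw [← mul_div_assoc, le_div_iff₀ hxn] at h4
      linarith
  · refine ⟨0, fun x _ => ?_⟩
    by_contra hcon
    have hxn : 0 < ‖x‖ := not_le.1 hcon
    exact hne ⟨(‖x‖)⁻¹ • x, by
      rw [mem_sphere_zero_iff_norm, norm_smul, norm_inv, norm_norm, inv_mul_cancel₀ hxn.ne']⟩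

theorem exists_pos_le {J : Type} [Finite J] (g : J → ℝ) (hg : ∀ j, 0 < g j) :
    ∃ c : ℝ, 0 < c ∧ ∀ j, c ≤ g j := by
  rcases isEmpty_or_nonempty J with h | h
  · exact ⟨1, one_pos, fun j => (h.false j).elim⟩
  · obtain ⟨j0, hj0⟩ := Finite.exists_min g
    exact ⟨g j0, hg j0, hj0⟩

theorem exists_le_all {J : Type} [Finite J] (g : J → ℝ) :
    ∃ c : ℝ, 0 ≤ c ∧ ∀ j, g j ≤ c := by
  rcases isEmpty_or_nonempty J with h | h
  · exact ⟨0, le_rfl, fun j => (h.false j).elim⟩
  · obtain ⟨j0, hj0⟩ := Finite.exists_max g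
    exact ⟨max (g j0) 0, le_max_right _ _, fun j => (hj0 j).trans (le_max_left _ _)⟩

/-- (DYN) from existence for clamped fields and uniqueness. -/
theorem dyn_of
    (hex : ∀ (d : ℕ) (f : (Fin d → ℝ) → Fin d → ℝ) (_ : ContDiff ℝ 1 f) (a b : ℝ) (_ : a ≤ b)
      (x₀ : Fin d → ℝ), ∃ x : ℝ → Fin d → ℝ, x 0 = x₀ ∧
        ∀ t : ℝ, 0 ≤ t → HasDerivWithinAt x (f (fun i => max a (min (x t i) b))) (Ici 0) t)
    (huniq : ∀ (d : ℕ) (f : (Fin d → ℝ) → Fin d → ℝ) (_ : ContDiff ℝ 1 f)
      (x x2 : ℝ → Fin d → ℝ) (_ : IsForwardSolution f x) (_ : IsForwardSolution f x2)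
      (_ : x 0 = x2 0), ∀ t : ℝ, 0 ≤ t → x t = x2 t) : DynStmt := by
  intro d f S c J _ ν h E₀ hf hfS hc hh hbox hact hexh hcE₀
  have hScl : IsClosed (S : Set (Fin d → ℝ)) := S.closed_of_finiteDimensional
  have hdotadd : ∀ (w x y : Fin d → ℝ), dot w (x + y) = dot w x + dot w y := by
    intro w x y
    simp only [dot, Pi.add_apply, mul_add, Finset.sum_add_distrib]
  have hdotsmul : ∀ (w x : Fin d → ℝ) (r : ℝ), dot w (r • x) = r * dot w x := by
    intro w x r
    simp only [dot, Pi.smul_apply, smul_eq_mul, Finset.mul_sum]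
    exact Finset.sum_congr rfl fun i _ => by ring
  -- recession cone
  have hrec : ∀ v : Fin d → ℝ, (∀ j, dot (ν j) v ≤ 0) → v = 0 := by
    intro v hv
    obtain ⟨a, b, ha, hab⟩ := hbox E₀ le_rfl
    have hmem : ∀ t : ℝ, 0 ≤ t → ∀ j, dot (ν j) (c + t • v) ≤ h j E₀ := by
      intro t ht j
      rw [hdotadd, hdotsmul]
      have := mul_nonpos_of_nonneg_of_nonpos ht (hv j)
      linarith [hcE₀ j]
    funext i
    rcases lt_trichotomy (v i) 0 with hlt | heq | hgt
    · exfalso
      have ht : 0 ≤ c i / (-v i) := by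
        have := hc i
        have h2 : 0 < -v i := by linarith
        positivity
      have h1 := (hab _ (hmem _ ht) i).1
      have h2 : (c + (c i / (-v i)) • v) i = 0 := by
        simp only [Pi.add_apply, Pi.smul_apply, smul_eq_mul]
        have : v i ≠ 0 := hlt.ne
        field_simp
        ring
      rw [h2] at h1
      linarith
    · simpa using heq
    · exfalso
      have hb : 0 ≤ |b| + 1 := by positivity
      have ht : 0 ≤ (|b| + 1) / v i := by positivity
      have h1 := (hab _ (hmem _ ht) i).2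
      have h2 : (c + ((|b| + 1) / v i) • v) i = c i + (|b| + 1) := by
        simp only [Pi.add_apply, Pi.smul_apply, smul_eq_mul]
        have : v i ≠ 0 := hgt.ne'
        field_simp
      rw [h2] at h1
      have := hc i
      have := le_abs_self b
      linarith
  -- invariance of fixed polytopes, for perturbed fields
  have hinv : ∀ E, E₀ ≤ E → ∀ x v : ℝ → Fin d → ℝ,
      (∀ t : ℝ, 0 ≤ t → HasDerivWithinAt x (v t) (Ici 0) t) → (∀ t, v t ∈ S) →
      x 0 - c ∈ S → (∀ j, dot (ν j) (x 0) ≤ h j E) →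
      (∀ t, 0 ≤ t → (∀ j, dot (ν j) (x t) ≤ h j E) → v t = f (x t)) →
      ∀ t : ℝ, 0 ≤ t → ∀ j, dot (ν j) (x t) ≤ h j E := by
    intro E hE x v hx hvS hx0 hin hvf t ht j
    have := moving f S c J ν h hh E 0 (t + 1) x v hx hvS hx0 hin
      (fun u hu _ hall => hvf u hu (by simpa using hall))
      (fun u hu _ y hyS hall j hj => by
        have := hact E hE y hyS (by simpa using hall) j (by simpa using hj)
        simpa using this) t ⟨ht, by linarith⟩ j
    simpa using this
  have hinvS : ∀ E, E₀ ≤ E → ∀ x : ℝ → Fin d → ℝ, IsForwardSolution f x → x 0 - c ∈ S →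
      (∀ j, dot (ν j) (x 0) ≤ h j E) → ∀ t : ℝ, 0 ≤ t →
      (x t - c ∈ S ∧ ∀ j, dot (ν j) (x t) ≤ h j E) := by
    intro E hE x hx hx0 hin t ht
    refine ⟨?_, hinv E hE x (fun t => f (x t)) hx (fun t => hfS _) hx0 hin (fun _ _ _ => rfl) t ht⟩
    have := S.add_mem (stay_affine S x (fun t => f (x t)) hx (fun t => hfS _) t ht) hx0
    simpa using this
  -- shift of a solution
  have hshift : ∀ x : ℝ → Fin d → ℝ, IsForwardSolution f x → ∀ T : ℝ, 0 ≤ T →
      IsForwardSolution f (fun t => x (t + T)) := by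
    intro x hx T hT t ht
    have h1 := hx (t + T) (by linarith)
    have h2 : HasDerivWithinAt (fun t : ℝ => t + T) 1 (Ici 0) t :=
      ((hasDerivAt_id t).add_const T).hasDerivWithinAt
    have h3 := HasDerivWithinAt.scomp t h1 h2 (fun u (hu : (0:ℝ) ≤ u) => by
      show (0:ℝ) ≤ u + T; linarith)
    rw [one_smul] at h3
    exact h3
  refine ⟨{x | x - c ∈ S ∧ ∀ j, dot (ν j) x ≤ h j E₀}, ?_, ?_, ?_, ?_, ?_, ?_⟩
  · -- positivity
    rintro x ⟨hxS, hx⟩
    obtain ⟨a, b, ha, hab⟩ := hbox E₀ le_rfl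
    exact ⟨fun i => ha.trans_le (hab x hx i).1, hxS⟩
  · exact ⟨c, by simp, hcE₀⟩
  · -- compact
    obtain ⟨a, b, ha, hab⟩ := hbox E₀ le_rfl
    refine IsCompact.of_isClosed_subset (isCompact_Icc (a := fun _ : Fin d => a) (b := fun _ => b))
      ?_ (fun x hx => ⟨fun i => (hab x hx.2 i).1, fun i => (hab x hx.2 i).2⟩)
    have : {x : Fin d → ℝ | x - c ∈ S ∧ ∀ j, dot (ν j) x ≤ h j E₀} =
        (fun x => x - c) ⁻¹' (S : Set (Fin d → ℝ)) ∩ ⋂ j, {x | dot (ν j) x ≤ h j E₀} := by
      ext x; simp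
    rw [this]
    exact (hScl.preimage (by fun_prop)).inter
      (isClosed_iInter fun j => isClosed_le (dot_continuous _) continuous_const)
  · -- convex
    rintro x ⟨hxS, hx⟩ y ⟨hyS, hy⟩ p q hp hq hpq
    refine ⟨?_, fun j => ?_⟩
    · have : p • x + q • y - c = p • (x - c) + q • (y - c) := by
        have : c = (p + q) • c := by rw [hpq, one_smul]
        nth_rewrite 1 [this]
        module
      rw [this]
      exact S.add_mem (S.smul_mem _ hxS) (S.smul_mem _ hyS)
    · rw [hdotadd, hdotsmul, hdotsmul]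
      calc p * dot (ν j) x + q * dot (ν j) y ≤ p * h j E₀ + q * h j E₀ :=
            add_le_add (mul_le_mul_of_nonneg_left (hx j) hp) (mul_le_mul_of_nonneg_left (hy j) hq)
        _ = h j E₀ := by rw [← add_mul, hpq, one_mul]
  · -- forward invariance of `K`
    rintro x hx ⟨hx0S, hx0⟩ t ht
    exact hinvS E₀ le_rfl x hx hx0S hx0 t ht
  · intro x₀ hx₀ hx₀S
    -- a large `E₁`
    obtain ⟨E₁, hE₁, hE₁x⟩ : ∃ E₁, E₀ ≤ E₁ ∧ ∀ j, dot (ν j) x₀ ≤ h j E₁ := by
      obtain ⟨E₁, h1, h2⟩ := ((eventually_ge_atTop E₀).and (hexh x₀ hx₀)).exists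
      exact ⟨E₁, h1, fun j => (h2 j).le⟩
    obtain ⟨a, b, ha, hab⟩ := hbox E₁ hE₁
    refine ⟨?_, ?_, ?_⟩
    · -- existence
      obtain ⟨x, hx0, hx⟩ := hex d f hf a (max a b) (le_max_left _ _) x₀
      have hin : ∀ t : ℝ, 0 ≤ t → ∀ j, dot (ν j) (x t) ≤ h j E₁ :=
        hinv E₁ hE₁ x _ hx (fun t => hfS _) (by rw [hx0]; exact hx₀S)
          (by rw [hx0]; exact hE₁x) (fun t _ hall => by
            congr 1
            funext i
            have := hab _ hall i
            rw [min_eq_left (this.2.trans (le_max_right _ _)), max_eq_right this.1])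
      refine ⟨x, fun t ht => ?_, hx0⟩
      have h1 := hx t ht
      have h2 : (fun i => max a (min (x t i) (max a b))) = x t := by
        funext i
        have := hab _ (hin t ht) i
        rw [min_eq_left (this.2.trans (le_max_right _ _)), max_eq_right this.1]
      rw [h2] at h1
      exact h1
    · intro x x' hx hx' h1 h2
      exact huniq d f hf x x' hx hx' (h1.trans h2.symm)
    · intro x hx hx0
      have hin := hinvS E₁ hE₁ x hx (by rw [hx0]; exact hx₀S) (by rw [hx0]; exact hE₁x)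
      refine ⟨fun t ht i => ha.trans_le (hab _ (hin t ht).2 i).1, ?_⟩
      -- absorption
      -- bound for `h` on `[E₀, E₁]`
      have hHj : ∀ j, ∃ H : ℝ, ∀ E ∈ Icc E₀ E₁, |h j E| ≤ H := fun j =>
        isCompact_Icc.exists_bound_of_continuousOn ((hh j).continuous.continuousOn)
      have hHj' : ∀ j, ∃ H : ℝ, ∀ E ∈ Icc E₀ E₁, |deriv (h j) E| ≤ H := fun j =>
        isCompact_Icc.exists_bound_of_continuousOn
          (((hh j).continuous_deriv le_rfl).continuousOn)
      choose H hH using hHj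
      choose H' hH' using hHj'
      obtain ⟨Hm, hHm0, hHm⟩ := exists_le_all H
      obtain ⟨Hd, hHd0, hHd⟩ := exists_le_all H'
      obtain ⟨R, hR⟩ := unif_bound J ν hrec Hm
      -- the compact sets
      have hZ : ∀ j, ∃ cj : ℝ, 0 < cj ∧ ∀ E ∈ Icc E₀ E₁, ∀ y : Fin d → ℝ, y - c ∈ S →
          (∀ j, dot (ν j) y ≤ h j E) → dot (ν j) y = h j E → dot (ν j) (f y) ≤ -cj := by
        intro j
        set Z : Set (ℝ × (Fin d → ℝ)) := {p | p.1 ∈ Icc E₀ E₁ ∧ p.2 - c ∈ S ∧
          (∀ j, dot (ν j) p.2 ≤ h j p.1) ∧ dot (ν j) p.2 = h j p.1} with hZ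
        have hZc : IsCompact Z := by
          refine IsCompact.of_isClosed_subset
            ((isCompact_Icc (a := E₀) (b := E₁)).prod (isCompact_closedBall (0 : Fin d → ℝ) R)) ?_ ?_
          · have : Z = (Prod.fst ⁻¹' (Icc E₀ E₁)) ∩ ((fun p : ℝ × (Fin d → ℝ) => p.2 - c) ⁻¹'
                (S : Set (Fin d → ℝ)) ∩ ((⋂ j, {p | dot (ν j) p.2 ≤ h j p.1}) ∩
                {p | dot (ν j) p.2 = h j p.1})) := by
              ext p; simp [hZ]
            rw [this]
            refine (isClosed_Icc.preimage continuous_fst).inter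
              ((hScl.preimage (by fun_prop)).inter ((isClosed_iInter fun j => ?_).inter ?_))
            · exact isClosed_le ((dot_continuous _).comp continuous_snd)
                ((hh j).continuous.comp continuous_fst)
            · exact isClosed_eq ((dot_continuous _).comp continuous_snd)
                ((hh j).continuous.comp continuous_fst)
          · rintro ⟨E, y⟩ ⟨hE, hyS, hy, _⟩
            refine ⟨hE, ?_⟩
            rw [mem_closedBall_zero_iff]
            exact hR y fun j => (hy j).trans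
              ((le_abs_self _).trans ((hH j E hE).trans (hHm j)))
        rcases Z.eq_empty_or_nonempty with he | hne
        · refine ⟨1, one_pos, fun E hE y hyS hy hyj => ?_⟩
          have : ((E, y) : ℝ × (Fin d → ℝ)) ∈ Z := ⟨hE, hyS, hy, hyj⟩
          rw [he] at this
          exact this.elim
        · obtain ⟨⟨E', y'⟩, hm, hmax⟩ := hZc.exists_isMaxOn hne
            (f := fun p : ℝ × (Fin d → ℝ) => dot (ν j) (f p.2))
            (Continuous.continuousOn ((dot_continuous _).comp (hf.continuous.comp continuous_snd)))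
          refine ⟨-(dot (ν j) (f y')), ?_, fun E hE y hyS hy hyj => ?_⟩
          · have := hact E' hm.1.1 y' hm.2.1 hm.2.2.1 j hm.2.2.2
            linarith
          · have : dot (ν j) (f y) ≤ dot (ν j) (f y') :=
              hmax (show ((E, y) : ℝ × (Fin d → ℝ)) ∈ Z from ⟨hE, hyS, hy, hyj⟩)
            linarith
      choose cj hcj0 hcj using hZ
      obtain ⟨c₀, hc₀, hc₀j⟩ := exists_pos_le cj hcj0
      set β : ℝ := c₀ / (2 * (Hd + 1)) with hβ
      have hβ0 : 0 < β := by positivity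
      have hβH : β * Hd < c₀ := by
        rw [hβ, div_mul_eq_mul_div, div_lt_iff₀ (by positivity)]
        nlinarith
      set T : ℝ := (E₁ - E₀) / β with hT
      have hT0 : 0 ≤ T := div_nonneg (by linarith) hβ0.le
      have hβT : β * T = E₁ - E₀ := by rw [hT]; field_simp
      have hmov := moving f S c J ν h hh E₁ β T x (fun t => f (x t)) hx (fun t => hfS _)
        (by rw [hx0]; exact hx₀S) (by rw [hx0]; exact hE₁x) (fun _ _ _ _ => rfl)
        (fun t ht0 htT y hyS hy j hyj => by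
          have hE : E₁ - β * t ∈ Icc E₀ E₁ := by
            have h1 : β * t ≤ β * T := mul_le_mul_of_nonneg_left htT.le hβ0.le
            have h2 : 0 ≤ β * t := mul_nonneg hβ0.le ht0
            constructor <;> linarith
          have h1 := hcj j _ hE y hyS hy hyj
          have h2 : β * deriv (h j) (E₁ - β * t) ≤ β * Hd :=
            mul_le_mul_of_nonneg_left ((le_abs_self _).trans ((hH' j _ hE).trans (hHd j))) hβ0.le
          have h3 := hc₀j j
          linarith) T ⟨hT0, le_rfl⟩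
      have hE₀ : E₁ - β * T = E₀ := by rw [hβT]; ring
      rw [hE₀] at hmov
      refine ⟨T, hT0, fun t ht => ?_⟩
      have := hinvS E₀ le_rfl (fun t => x (t + T)) (hshift x hx T hT0)
        (by simpa using (hin T hT0).1) (by simpa using hmov) (t - T) (by linarith)
      simpa using this

end Crest.Agent.MA
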