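import Crest.Agent.MADefs

open Set Metric Filter Topology
open Crest.AnalysisR.MassAction
open scoped NNReal

namespace Crest.Agent.MA

theorem clamp_lip (d : ℕ) (a b : ℝ) :
    LipschitzWith 1 (fun x : Fin d → ℝ => fun i => max a (min (x i) b)) := by
  refine LipschitzWith.of_dist_le_mul fun x y => ?_
  rw [NNReal.coe_one, one_mul, dist_pi_le_iff dist_nonneg]
  intro i
  refine le_trans ?_ (dist_le_pi_dist x y i)
  rw [Real.dist_eq, Real.dist_eq]
  refine (abs_max_sub_max_le_max _ _ _ _).trans ?_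
  rw [sub_self, abs_zero]
  refine max_le (abs_nonneg _) ?_
  refine (abs_min_sub_min_le_max _ _ _ _).trans ?_
  rw [sub_self, abs_zero]
  exact max_le le_rfl (abs_nonneg _)

theorem exist_clamp' (d : ℕ) (f : (Fin d → ℝ) → Fin d → ℝ) (hf : ContDiff ℝ 1 f) (a b : ℝ)
    (hab : a ≤ b) (x0 : Fin d → ℝ) :
    ∃ x : ℝ → Fin d → ℝ, x 0 = x0 ∧ ∀ t : ℝ, 0 ≤ t →
      HasDerivWithinAt x (f (fun i => max a (min (x t i) b))) (Set.Ici 0) t := by
  set B : Set (Fin d → ℝ) := Icc (fun _ => a) (fun _ => b) with hB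
  have hBc : IsCompact B := isCompact_Icc
  have hBv : Convex ℝ B := convex_Icc _ _
  obtain ⟨K, hK⟩ := hf.contDiffOn.exists_lipschitzOnWith (s := B) (by simp) hBv hBc
  set cl : (Fin d → ℝ) → Fin d → ℝ := fun x i => max a (min (x i) b) with hcl
  have hclB : ∀ x, cl x ∈ B := fun x => ⟨fun i => le_max_left _ _, fun i => max_le hab (min_le_right _ _)⟩
  set F : (Fin d → ℝ) → Fin d → ℝ := fun x => f (cl x) with hF
  have hFl : LipschitzWith K F := by
    refine LipschitzWith.of_dist_le_mul fun x y => ?_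
    refine (hK.dist_le_mul _ (hclB x) _ (hclB y)).trans ?_
    have := (clamp_lip d a b).dist_le_mul x y
    rw [NNReal.coe_one, one_mul] at this
    exact mul_le_mul_of_nonneg_left this K.2
  obtain ⟨L, hL⟩ := hBc.exists_bound_of_continuousOn hf.continuous.continuousOn
  set L' : ℝ≥0 := ⟨max L 0, le_max_right _ _⟩ with hL'
  have hFL : ∀ x, ‖F x‖ ≤ L' := fun x => (hL _ (hclB x)).trans (le_max_left _ _)
  -- solutions on `[0, n]`
  have hsol : ∀ n : ℕ, ∃ y : ℝ → Fin d → ℝ, y 0 = x0 ∧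
      ∀ t ∈ Icc (0 : ℝ) n, HasDerivWithinAt y (F (y t)) (Icc (0 : ℝ) n) t := by
    intro n
    have h0 : (0 : ℝ) ∈ Icc (0 : ℝ) n := ⟨le_rfl, Nat.cast_nonneg n⟩
    have hPL : IsPicardLindelof (fun _ : ℝ => F) (tmin := 0) (tmax := n) ⟨0, h0⟩ x0 (L' * n) 0 L' K := by
      refine ⟨fun t _ => hFl.lipschitzOnWith, fun x _ => continuousOn_const,
        fun t _ x _ => hFL x, ?_⟩
      simp
    obtain ⟨y, hy0, hy⟩ := hPL.exists_eq_forall_mem_Icc_hasDerivWithinAt₀
    exact ⟨y, hy0, hy⟩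
  choose y hy0 hy using hsol
  have huni : ∀ m n : ℕ, m ≤ n → ∀ t ∈ Icc (0 : ℝ) m, y m t = y n t := by
    intro m n hmn
    have hmn' : (m : ℝ) ≤ n := by exact_mod_cast hmn
    have hsub : Icc (0 : ℝ) m ⊆ Icc (0 : ℝ) n := Icc_subset_Icc_right hmn'
    have hc : ∀ k : ℕ, ContinuousOn (y k) (Icc (0 : ℝ) k) := fun k t ht =>
      (hy k t ht).continuousWithinAt
    refine ODE_solution_unique (v := fun _ => F) (K := K) (a := 0) (b := m) (fun _ => hFl)
      (hc m) ?_ ((hc n).mono hsub) ?_ ((hy0 m).trans (hy0 n).symm)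
    · intro t ht
      refine (hy m t ⟨ht.1, ht.2.le⟩).mono_of_mem_nhdsWithin ?_
      exact mem_of_superset (Icc_mem_nhdsGE ht.2) (Icc_subset_Icc_left ht.1)
    · intro t ht
      refine (hy n t ⟨ht.1, (ht.2.trans_le hmn').le⟩).mono_of_mem_nhdsWithin ?_
      exact mem_of_superset (Icc_mem_nhdsGE (ht.2.trans_le hmn')) (Icc_subset_Icc_left ht.1)
  have huni' : ∀ m n : ℕ, ∀ t ∈ Icc (0 : ℝ) m, t ∈ Icc (0 : ℝ) n → y m t = y n t := by
    intro m n t h1 h2
    rcases le_total m n with h | h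
    · exact huni m n h t h1
    · exact (huni n m h t h2).symm
  refine ⟨fun t => y (⌊t⌋₊ + 1) t, by simpa using hy0 _, fun t ht => ?_⟩
  set n : ℕ := ⌊t⌋₊ + 1 with hn
  have htn : t < n := by rw [hn]; push_cast; exact Nat.lt_floor_add_one t
  have h1 : HasDerivWithinAt (y n) (F (y n t)) (Ici 0) t := by
    refine (hy n t ⟨ht, htn.le⟩).mono_of_mem_nhdsWithin ?_
    have : Iio (n : ℝ) ∈ 𝓝 t := Iio_mem_nhds htn
    filter_upwards [self_mem_nhdsWithin, mem_nhdsWithin_of_mem_nhds this] with s hs1 hs2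
    exact ⟨hs1, (show s < n from hs2).le⟩
  refine h1.congr_of_eventuallyEq ?_ rfl
  have : Iio (n : ℝ) ∈ 𝓝 t := Iio_mem_nhds htn
  filter_upwards [self_mem_nhdsWithin, mem_nhdsWithin_of_mem_nhds this] with s hs1 hs2
  refine huni' _ _ s ⟨hs1, ?_⟩ ⟨hs1, (show s < n from hs2).le⟩
  push_cast; exact (Nat.lt_floor_add_one s).le

theorem unique_sol' (d : ℕ) (f : (Fin d → ℝ) → Fin d → ℝ) (hf : ContDiff ℝ 1 f)
    (x x2 : ℝ → Fin d → ℝ) (hx : IsForwardSolution f x) (hx2 : IsForwardSolution f x2)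
    (h0 : x 0 = x2 0) : ∀ t : ℝ, 0 ≤ t → x t = x2 t := by
  intro T hT
  have hc : ∀ y : ℝ → Fin d → ℝ, IsForwardSolution f y → ContinuousOn y (Icc 0 T) :=
    fun y hy t ht => (hy t ht.1).continuousWithinAt.mono Icc_subset_Ici_self
  obtain ⟨R, hR⟩ := isCompact_Icc.exists_bound_of_continuousOn (hc x hx)
  obtain ⟨R', hR'⟩ := isCompact_Icc.exists_bound_of_continuousOn (hc x2 hx2)
  obtain ⟨K, hK⟩ := hf.contDiffOn.exists_lipschitzOnWith (s := closedBall (0 : Fin d → ℝ) (max R R'))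
    (by simp) (convex_closedBall _ _) (isCompact_closedBall _ _)
  refine ODE_solution_unique_of_mem_Icc_right (v := fun _ => f) (K := K) (a := 0) (b := T)
    (s := fun _ => closedBall (0 : Fin d → ℝ) (max R R')) (fun _ _ => hK)
    (hc x hx) ?_ ?_ (hc x2 hx2) ?_ ?_ h0 ⟨hT, le_rfl⟩
  · intro t ht
    exact (hx t ht.1).mono (Ici_subset_Ici.2 ht.1)
  · intro t ht
    rw [mem_closedBall_zero_iff]
    exact (hR t ⟨ht.1, ht.2.le⟩).trans (le_max_left _ _)
  · intro t ht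
    exact (hx2 t ht.1).mono (Ici_subset_Ici.2 ht.1)
  · intro t ht
    rw [mem_closedBall_zero_iff]
    exact (hR' t ⟨ht.1, ht.2.le⟩).trans (le_max_right _ _)

end Crest.Agent.MA
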