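import Crest.Agent.MADyn
import Crest.Agent.MAExistH5

namespace Crest.Agent.MA

/-- (DYN) complete. -/
theorem dyn : DynStmt := dyn_of exist_clamp' unique_sol'

end Crest.Agent.MA
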