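import Mathlib
import Crest.Agent.MADefs
set_option autoImplicit false

/-!
Row 92, module FAM: construction of one family of normals, by downward induction on the length of
the prefix (the "tree claim").
-/

namespace Crest.Agent.MA

open Finset Filter

namespace Fam

def SepN (k M : ℕ) (s : ℝ) (p : ℕ → ℝ) : Prop :=
  ∀ w : ℕ → ℤ, (∀ i, |w i| ≤ (M : ℤ)) →
    (∑ i ∈ range k, (w i : ℝ) * p i) = 0 ∨ s ≤ |∑ i ∈ range k, (w i : ℝ) * p i|

def CompN (m M : ℕ) (δ : ℝ) (ν t : ℕ → ℝ) : Prop :=
  ∀ w : ℕ → ℤ, (∀ i, |w i| ≤ (M : ℤ)) → 0 < ∑ i ∈ range m, (w i : ℝ) * ν i →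
    δ ≤ ∑ i ∈ range m, (w i : ℝ) * t i

def Crit (k M : ℕ) (p : ℕ → ℝ) (v : ℝ) : Prop :=
  ∃ w : ℕ → ℤ, (∀ i, |w i| ≤ (M : ℤ)) ∧ w k ≠ 0 ∧
    ∑ i ∈ range k, (w i : ℝ) * p i + (w k : ℝ) * v = 0

def Solves (m M k : ℕ) (Θ : ℝ) (p : ℕ → ℝ) (e : ℝ) : Prop :=
  ∃ (J : Type) (_ : Fintype J) (ν : J → ℕ → ℝ) (g : J → ℝ → ℝ) (j0 : J) (N δ : ℝ),
    0 < N ∧ 0 < δ ∧
    (∀ j, ∀ i, i < k → ν j i = p i) ∧
    (∀ j, ∀ i, k ≤ i + 1 → i + 1 < m → ν j (i + 1) ≤ ν j i) ∧
    (∀ j, ∀ i, i < m → |ν j i| ≤ N) ∧
    (∀ i, k ≤ i → i < m → ν j0 i = p (k - 1)) ∧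
    (∀ j, ContDiff ℝ 1 (g j)) ∧
    (∀ᶠ E in atTop, ∀ j, 0 ≤ g j E ∧ g j E ≤ N * Real.exp (E * (p (k - 1) - 2 * e))) ∧
    (∀ᶠ E in atTop, ∀ t : ℕ → ℝ, (∀ i, i < k → |t i - p i| ≤ e) →
       (∀ i, k ≤ i + 1 → i + 1 < m → t (i + 1) ≤ t i) → (∀ i, i < m → -Θ ≤ t i) →
       ∀ j, (∀ j', g j E - ∑ i ∈ Ico k m, ν j i * Real.exp (E * t i) ≤
          g j' E - ∑ i ∈ Ico k m, ν j' i * Real.exp (E * t i)) → CompN m M δ (ν j) t)

lemma ev_exp (C η : ℝ) (hη : 0 < η) : ∀ᶠ E : ℝ in atTop, C < Real.exp (E * η) := by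
  have h1 : Tendsto (fun E : ℝ => Real.exp (E * η)) atTop atTop :=
    Real.tendsto_exp_atTop.comp (tendsto_id.atTop_mul_const hη)
  exact h1.eventually_gt_atTop C

lemma crit_sep {k M : ℕ} (hM : 1 ≤ M) {s : ℝ} {p : ℕ → ℝ} (hs : SepN k (2 * M ^ 2) s p)
    {v v' : ℝ} (h : Crit k M p v) (h' : Crit k M p v') (hne : v ≠ v') :
    s / (M : ℝ) ^ 2 ≤ |v - v'| := by
  obtain ⟨w, hw, hwk, hwv⟩ := h
  obtain ⟨w', hw', hwk', hwv'⟩ := h'
  have hMr : (1 : ℝ) ≤ M := by exact_mod_cast hM
  have hb : ∀ i, |w' k * w i - w k * w' i| ≤ ((2 * M ^ 2 : ℕ) : ℤ) := by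
    intro i
    have h1 : |w' k * w i| ≤ (M : ℤ) * M := by
      rw [abs_mul]; exact mul_le_mul (hw' k) (hw i) (abs_nonneg _) (by positivity)
    have h2 : |w k * w' i| ≤ (M : ℤ) * M := by
      rw [abs_mul]; exact mul_le_mul (hw k) (hw' i) (abs_nonneg _) (by positivity)
    calc |w' k * w i - w k * w' i| ≤ |w' k * w i| + |w k * w' i| := abs_sub _ _
      _ ≤ M * M + M * M := add_le_add h1 h2
      _ = _ := by push_cast; ring
  have hsum : ∑ i ∈ range k, ((w' k * w i - w k * w' i : ℤ) : ℝ) * p i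
      = (w k : ℝ) * (w' k : ℝ) * (v' - v) := by
    have e1 : ∑ i ∈ range k, ((w' k * w i - w k * w' i : ℤ) : ℝ) * p i
        = (w' k : ℝ) * (∑ i ∈ range k, (w i : ℝ) * p i)
          - (w k : ℝ) * (∑ i ∈ range k, (w' i : ℝ) * p i) := by
      rw [mul_sum, mul_sum, ← sum_sub_distrib]
      apply sum_congr rfl
      intro i _
      push_cast
      ring
    rw [e1]
    have e2 : ∑ i ∈ range k, (w i : ℝ) * p i = -((w k : ℝ) * v) := by linarith
    have e3 : ∑ i ∈ range k, (w' i : ℝ) * p i = -((w' k : ℝ) * v') := by linarith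
    rw [e2, e3]
    ring
  have hk0 : (w k : ℝ) ≠ 0 := by exact_mod_cast hwk
  have hk0' : (w' k : ℝ) ≠ 0 := by exact_mod_cast hwk'
  have hz : (w k : ℝ) * (w' k : ℝ) * (v' - v) ≠ 0 :=
    mul_ne_zero (mul_ne_zero hk0 hk0') (sub_ne_zero.2 (Ne.symm hne))
  rcases hs (fun i => w' k * w i - w k * w' i) hb with h0 | h0
  · rw [hsum] at h0
    exact absurd h0 hz
  · rw [hsum, abs_mul, abs_mul] at h0
    have a1 : |(w k : ℝ)| ≤ M := by exact_mod_cast hw k
    have a2 : |(w' k : ℝ)| ≤ M := by exact_mod_cast hw' k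
    have a3 : |(w k : ℝ)| * |(w' k : ℝ)| ≤ (M : ℝ) ^ 2 := by
      rw [sq]; exact mul_le_mul a1 a2 (abs_nonneg _) (by positivity)
    rw [div_le_iff₀ (by positivity), abs_sub_comm v v']
    calc s ≤ |(w k : ℝ)| * |(w' k : ℝ)| * |v' - v| := h0
      _ ≤ (M : ℝ) ^ 2 * |v' - v| := mul_le_mul_of_nonneg_right a3 (abs_nonneg _)
      _ = |v' - v| * (M : ℝ) ^ 2 := mul_comm _ _

lemma sum_update (k : ℕ) (p : ℕ → ℝ) (v : ℝ) (w : ℕ → ℤ) :
    ∑ i ∈ range (k + 1), (w i : ℝ) * (Function.update p k v) i
      = ∑ i ∈ range k, (w i : ℝ) * p i + (w k : ℝ) * v := by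
  rw [sum_range_succ, Function.update_self]
  congr 1
  apply sum_congr rfl
  intro i hi
  rw [Function.update_of_ne (by have := mem_range.1 hi; omega)]

lemma crit_ext {k M : ℕ} (hM : 1 ≤ M) {s : ℝ} {p : ℕ → ℝ} (hs : SepN k (2 * M ^ 2) s p)
    {v : ℝ} (h : Crit k M p v) : SepN (k + 1) M (s / M) (Function.update p k v) := by
  obtain ⟨u, hu, huk, huv⟩ := h
  have hMr : (1 : ℝ) ≤ M := by exact_mod_cast hM
  intro w hw
  rw [sum_update]
  have hb : ∀ i, |u k * w i - w k * u i| ≤ ((2 * M ^ 2 : ℕ) : ℤ) := by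
    intro i
    have h1 : |u k * w i| ≤ (M : ℤ) * M := by
      rw [abs_mul]; exact mul_le_mul (hu k) (hw i) (abs_nonneg _) (by positivity)
    have h2 : |w k * u i| ≤ (M : ℤ) * M := by
      rw [abs_mul]; exact mul_le_mul (hw k) (hu i) (abs_nonneg _) (by positivity)
    calc |u k * w i - w k * u i| ≤ |u k * w i| + |w k * u i| := abs_sub _ _
      _ ≤ M * M + M * M := add_le_add h1 h2
      _ = _ := by push_cast; ring
  have hsum : ∑ i ∈ range k, ((u k * w i - w k * u i : ℤ) : ℝ) * p i
      = (u k : ℝ) * (∑ i ∈ range k, (w i : ℝ) * p i + (w k : ℝ) * v) := by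
    have e1 : ∑ i ∈ range k, ((u k * w i - w k * u i : ℤ) : ℝ) * p i
        = (u k : ℝ) * (∑ i ∈ range k, (w i : ℝ) * p i)
          - (w k : ℝ) * (∑ i ∈ range k, (u i : ℝ) * p i) := by
      rw [mul_sum, mul_sum, ← sum_sub_distrib]
      apply sum_congr rfl
      intro i _
      push_cast
      ring
    rw [e1]
    have e3 : ∑ i ∈ range k, (u i : ℝ) * p i = -((u k : ℝ) * v) := by linarith
    rw [e3]
    ring
  have hk0 : (u k : ℝ) ≠ 0 := by exact_mod_cast huk
  rcases hs (fun i => u k * w i - w k * u i) hb with h0 | h0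
  · left
    rw [hsum] at h0
    rcases mul_eq_zero.1 h0 with h1 | h1
    · exact absurd h1 hk0
    · exact h1
  · right
    rw [hsum, abs_mul] at h0
    have a1 : |(u k : ℝ)| ≤ M := by exact_mod_cast hu k
    rw [div_le_iff₀ (by positivity)]
    calc s ≤ |(u k : ℝ)| * |∑ i ∈ range k, (w i : ℝ) * p i + (w k : ℝ) * v| := h0
      _ ≤ (M : ℝ) * |∑ i ∈ range k, (w i : ℝ) * p i + (w k : ℝ) * v| :=
          mul_le_mul_of_nonneg_right a1 (abs_nonneg _)
      _ = _ := mul_comm _ _

lemma non_ext {k M : ℕ} (hM : 1 ≤ M) {s κ : ℝ} (hκ : κ ≤ s) {p : ℕ → ℝ}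
    (hs : SepN k (2 * M ^ 2) s p)
    {v : ℝ} (h : ∀ c, Crit k M p c → κ ≤ |v - c|) :
    SepN (k + 1) M κ (Function.update p k v) := by
  intro w hw
  rw [sum_update]
  by_cases hwk : w k = 0
  · have hb : ∀ i, |w i| ≤ ((2 * M ^ 2 : ℕ) : ℤ) := by
      intro i
      refine (hw i).trans ?_
      have : M ≤ 2 * M ^ 2 := by nlinarith
      exact_mod_cast this
    rcases hs w hb with h0 | h0
    · left
      rw [h0, hwk]; simp
    · right
      rw [hwk]
      simp only [Int.cast_zero, zero_mul, add_zero]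
      exact hκ.trans h0
  · right
    have hk0 : (w k : ℝ) ≠ 0 := by exact_mod_cast hwk
    set S := ∑ i ∈ range k, (w i : ℝ) * p i with hS
    have hc : Crit k M p (-S / (w k : ℝ)) := by
      refine ⟨w, hw, hwk, ?_⟩
      rw [← hS]
      field_simp
      ring
    have h1 := h _ hc
    have h2 : S + (w k : ℝ) * v = (w k : ℝ) * (v - -S / (w k : ℝ)) := by
      field_simp
      ring
    rw [h2, abs_mul]
    have h3 : (1 : ℝ) ≤ |(w k : ℝ)| := by
      have := Int.one_le_abs hwk
      exact_mod_cast this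
    calc κ ≤ |v - -S / (w k : ℝ)| := h1
      _ = 1 * |v - -S / (w k : ℝ)| := (one_mul _).symm
      _ ≤ |(w k : ℝ)| * |v - -S / (w k : ℝ)| := mul_le_mul_of_nonneg_right h3 (abs_nonneg _)

lemma solves_base (m M : ℕ) (Θ : ℝ) (s : ℝ) (hs : 0 < s) :
    ∃ e : ℝ, 0 < e ∧ ∀ p, SepN m M s p → Solves m M m Θ p e := by
  refine ⟨s / (2 * (m * M + 1)), by positivity, ?_⟩
  intro p hp
  refine ⟨Unit, inferInstance, fun _ => p, fun _ _ => 0, (), 1 + ∑ i ∈ range m, |p i|, s / 2,
    by positivity, by positivity, fun _ _ _ => rfl, ?_, ?_, ?_, ?_, ?_, ?_⟩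
  · intro _ i h1 h2; omega
  · intro _ i hi
    have := single_le_sum (f := fun i => |p i|) (fun i _ => abs_nonneg _) (mem_range.2 hi)
    linarith
  · intro i h1 h2; omega
  · intro _; exact contDiff_const
  · refine Eventually.of_forall ?_
    intro E _
    refine ⟨le_refl _, by positivity⟩
  · refine Eventually.of_forall ?_
    intro E t ht _ _ _ _ w hw hpos
    rcases hp w hw with h0 | h0
    · exact absurd h0 hpos.ne'
    · rw [abs_of_pos hpos] at h0
      have h1 : ∑ i ∈ range m, (w i : ℝ) * t i = ∑ i ∈ range m, (w i : ℝ) * p i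
          + ∑ i ∈ range m, (w i : ℝ) * (t i - p i) := by
        rw [← sum_add_distrib]
        apply sum_congr rfl
        intro i _
        ring
      have h2 : |∑ i ∈ range m, (w i : ℝ) * (t i - p i)| ≤ m * (M * (s / (2 * (m * M + 1)))) := by
        calc |∑ i ∈ range m, (w i : ℝ) * (t i - p i)|
            ≤ ∑ i ∈ range m, |(w i : ℝ) * (t i - p i)| := abs_sum_le_sum_abs _ _
          _ ≤ ∑ i ∈ range m, (M * (s / (2 * (m * M + 1)))) := by
              apply sum_le_sum
              intro i hi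
              rw [abs_mul]
              have a1 : |(w i : ℝ)| ≤ M := by exact_mod_cast hw i
              exact mul_le_mul a1 (ht i (mem_range.1 hi)) (abs_nonneg _) (by positivity)
          _ = m * (M * (s / (2 * (m * M + 1)))) := by
              rw [sum_const, card_range, nsmul_eq_mul]
      have h3 : (m : ℝ) * (M * (s / (2 * (m * M + 1)))) ≤ s / 2 := by
        have hpos' : (0 : ℝ) < 2 * (m * M + 1) := by positivity
        have : (m : ℝ) * (M * (s / (2 * (m * M + 1)))) = (m * M * s) / (2 * (m * M + 1)) := by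
          ring
        rw [this, div_le_div_iff₀ hpos' (by norm_num)]
        nlinarith
      have h4 := abs_le.1 h2
      rw [h1]
      linarith [h4.1]

lemma solves_mono {m M k : ℕ} {Θ : ℝ} {p : ℕ → ℝ} {e e' : ℝ} (he : e' ≤ e)
    (h : Solves m M k Θ p e) : Solves m M k Θ p e' := by
  obtain ⟨J, iJ, ν, g, j0, N, δ, hN, hδ, hpre, hanti, hbd, hj0, hcd, hht, hmain⟩ := h
  refine ⟨J, iJ, ν, g, j0, N, δ, hN, hδ, hpre, hanti, hbd, hj0, hcd, ?_, ?_⟩
  · filter_upwards [hht, eventually_ge_atTop 0] with E hE hE0 j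
    refine ⟨(hE j).1, (hE j).2.trans ?_⟩
    apply mul_le_mul_of_nonneg_left _ hN.le
    apply Real.exp_le_exp.2
    apply mul_le_mul_of_nonneg_left _ hE0
    linarith
  · filter_upwards [hmain] with E hE t ht h1 h2 j hj
    exact hE t (fun i hi => (ht i hi).trans he) h1 h2 j hj

lemma next {k M : ℕ} {p : ℕ → ℝ} {κ s' : ℝ} (_hκ : 0 < κ) (hs' : 0 < s') (hs'κ : s' ≤ κ / 2)
    (hsep : ∀ v v', Crit k M p v → Crit k M p v' → v ≠ v' → 6 * κ ≤ |v - v'|)
    (u : ℝ) (hu : Crit k M p u ∨ ∀ c, Crit k M p c → κ ≤ |u - c|) :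
    ∃ u', (Crit k M p u' ∨ ∀ c, Crit k M p c → κ ≤ |u' - c|) ∧ u' ≤ u - s' ∧
      (Crit k M p u → ¬ Crit k M p u' ∧ u' = u - κ - s') ∧
      (¬ Crit k M p u → Crit k M p u' → u - κ - s' ≤ u') ∧
      (¬ Crit k M p u → ¬ Crit k M p u' → u' = u - s') := by
  by_cases hc : Crit k M p u
  · have hfar : ∀ c, Crit k M p c → κ ≤ |u - κ - s' - c| := by
      intro c hcc
      by_cases hcu : u = c
      · rw [← hcu, show u - κ - s' - u = -(κ + s') by ring, abs_neg]
        have := le_abs_self (κ + s')
        linarith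
      · have h1 := hsep u c hc hcc hcu
        have h2 : |u - c| ≤ |u - κ - s' - c| + |κ + s'| := by
          have := abs_add_le (u - κ - s' - c) (κ + s')
          rw [show u - κ - s' - c + (κ + s') = u - c by ring] at this
          exact this
        have h3 : |κ + s'| = κ + s' := abs_of_pos (by linarith)
        rw [h3] at h2
        linarith
    refine ⟨u - κ - s', Or.inr hfar, by linarith, ?_, ?_, ?_⟩
    · intro _
      refine ⟨?_, rfl⟩
      intro hc'
      have := hfar _ hc'
      rw [sub_self, abs_zero] at this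
      linarith
    · intro h; exact absurd hc h
    · intro h; exact absurd hc h
  · have hu' : ∀ c, Crit k M p c → κ ≤ |u - c| := by
      rcases hu with h | h
      · exact absurd h hc
      · exact h
    by_cases hex : ∃ c, Crit k M p c ∧ |u - s' - c| < κ
    · obtain ⟨c, hcc, hcd⟩ := hex
      have h1 := hu' c hcc
      have h2 := abs_lt.1 hcd
      have h3 : c ≤ u - κ := by
        rcases le_abs.1 h1 with h | h
        · linarith
        · linarith [h2.1]
      refine ⟨c, Or.inl hcc, by linarith, ?_, ?_, ?_⟩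
      · intro h; exact absurd h hc
      · intro _ _; linarith [h2.2]
      · intro _ h; exact absurd hcc h
    · push Not at hex
      refine ⟨u - s', Or.inr hex, le_refl _, ?_, ?_, ?_⟩
      · intro h; exact absurd h hc
      · intro _ _; linarith
      · intro _ _; rfl

lemma crit_last {k M : ℕ} (hk : 1 ≤ k) (hM : 1 ≤ M) (p : ℕ → ℝ) : Crit k M p (p (k - 1)) := by
  refine ⟨fun i => if i = k - 1 then 1 else if i = k then -1 else 0, ?_, ?_, ?_⟩
  · intro i
    have hM' : (1 : ℤ) ≤ M := by exact_mod_cast hM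
    dsimp only
    split_ifs
    · simpa using hM'
    · simpa using hM'
    · simp
  · have h1 : k ≠ k - 1 := by omega
    simp [h1]
  · have h1 : k ≠ k - 1 := by omega
    rw [sum_eq_single (k - 1)]
    · simp [h1]
    · intro i hi hne
      have : i ≠ k := by have := mem_range.1 hi; omega
      simp [hne, this]
    · intro h
      exact absurd (mem_range.2 (by omega)) h

lemma anti_from {m k : ℕ} {t : ℕ → ℝ} (h : ∀ i, k ≤ i + 1 → i + 1 < m → t (i + 1) ≤ t i)
    (a : ℕ) (ha : k ≤ a + 1) : ∀ i, a ≤ i → i < m → t i ≤ t a := by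
  intro i hai
  induction i, hai using Nat.le_induction with
  | base => intro _; exact le_refl _
  | succ n hn ih =>
    intro hlt
    exact (h n (by omega) hlt).trans (ih (by omega))

lemma solves_step {m M₀ k M : ℕ} {Θ : ℝ} (hk : 1 ≤ k) (hkm : k < m) (hM : 1 ≤ M)
    (IH : ∀ s : ℝ, 0 < s → ∃ e : ℝ, 0 < e ∧ ∀ p, SepN (k + 1) M s p →
      Solves m M₀ (k + 1) Θ p e) :
    ∀ s : ℝ, 0 < s → ∃ e : ℝ, 0 < e ∧ ∀ p, SepN k (2 * M ^ 2) s p → Solves m M₀ k Θ p e := by
  intro s hs
  have hMr : (1 : ℝ) ≤ M := by exact_mod_cast hM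
  obtain ⟨ec, hec, hIc⟩ := IH (s / M) (by positivity)
  obtain ⟨κ, hκ, hκe, hκs, hκs'⟩ : ∃ κ : ℝ, 0 < κ ∧ κ ≤ ec / 4 ∧ 6 * κ ≤ s / (M : ℝ) ^ 2 ∧
      κ ≤ s := by
    refine ⟨min (ec / 4) (s / (6 * (M : ℝ) ^ 2)), lt_min (by positivity) (by positivity),
      min_le_left _ _, ?_, ?_⟩
    · have h1 := min_le_right (ec / 4) (s / (6 * (M : ℝ) ^ 2))
      have h2 : 6 * (s / (6 * (M : ℝ) ^ 2)) = s / (M : ℝ) ^ 2 := by
        field_simp
      linarith
    · refine (min_le_right _ _).trans ?_
      rw [div_le_iff₀ (by positivity)]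
      exact le_mul_of_one_le_right hs.le (by nlinarith)
  obtain ⟨en', hen', hIn'⟩ := IH κ hκ
  obtain ⟨en, hen, henc, hIn⟩ : ∃ en : ℝ, 0 < en ∧ en ≤ ec ∧
      ∀ p, SepN (k + 1) M κ p → Solves m M₀ (k + 1) Θ p en :=
    ⟨min en' ec, lt_min hen' hec, min_le_right _ _,
      fun p hp => solves_mono (min_le_left _ _) (hIn' p hp)⟩
  obtain ⟨s', hs'0, hs'κ, hs'e⟩ : ∃ s' : ℝ, 0 < s' ∧ s' ≤ κ / 2 ∧ s' ≤ en / 4 :=
    ⟨min (κ / 2) (en / 4), lt_min (by positivity) (by positivity), min_le_left _ _,
      min_le_right _ _⟩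
  obtain ⟨e, he0, heκ, hee⟩ : ∃ e : ℝ, 0 < e ∧ e ≤ κ / 2 ∧ e ≤ en :=
    ⟨min (κ / 2) en, lt_min (by positivity) hen, min_le_left _ _, min_le_right _ _⟩
  refine ⟨e, he0, ?_⟩
  intro p hp
  classical
  have hsep : ∀ v v', Crit k M p v → Crit k M p v' → v ≠ v' → 6 * κ ≤ |v - v'| :=
    fun v v' h h' hne => hκs.trans (crit_sep hM hp h h' hne)
  let Good : ℝ → Prop := fun u => Crit k M p u ∨ ∀ c, Crit k M p c → κ ≤ |u - c|
  let ev : ℝ → ℝ := fun v => if Crit k M p v then ec else en
  let ρ : ℝ → ℝ := fun v => if Crit k M p v then 2 * κ else s'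
  obtain ⟨η, hη0, hηs⟩ : ∃ η : ℝ, 0 < η ∧ η ≤ s' := ⟨s', hs'0, le_refl _⟩
  have hevn : ∀ v, en ≤ ev v := by
    intro v; by_cases h : Crit k M p v <;> simp [ev, h, henc]
  have hA : ∀ v, ρ v + η ≤ ev v := by
    intro v
    by_cases h : Crit k M p v
    · simp only [ev, ρ, h, if_true]; linarith
    · simp only [ev, ρ, h, if_false]; linarith
  have hρ0 : ∀ v, 0 < ρ v := by
    intro v
    by_cases h : Crit k M p v
    · simp only [ρ, h, if_true]; linarith
    · simp only [ρ, h, if_false]; linarith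
  have hsolve : ∀ v, Good v → Solves m M₀ (k + 1) Θ (Function.update p k v) (ev v) := by
    intro v hv
    by_cases h : Crit k M p v
    · simp only [ev, h, if_true]
      exact hIc _ (crit_ext hM hp h)
    · simp only [ev, h, if_false]
      refine hIn _ (non_ext hM hκs' hp ?_)
      rcases hv with h' | h'
      · exact absurd h' h
      · exact h'
  have hnext : ∀ u : {u : ℝ // Good u}, ∃ u' : {u : ℝ // Good u}, (u' : ℝ) ≤ u - s' ∧
      ((u : ℝ) - 2 * ev u ≤ u' + ρ u') ∧ ((u : ℝ) - (u' + ρ u') + η ≤ ev u) ∧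
      (Crit k M p u → (u' : ℝ) + ρ u' = u - κ) := by
    rintro ⟨u, hu⟩
    obtain ⟨u', hg, h1, h2, h3, h4⟩ := next hκ hs'0 hs'κ hsep u hu
    refine ⟨⟨u', hg⟩, h1, ?_⟩
    simp only
    by_cases hc : Crit k M p u
    · obtain ⟨h5, h6⟩ := h2 hc
      simp only [ev, ρ, hc, h5, if_true, if_false]
      refine ⟨by linarith, by linarith, fun _ => by linarith⟩
    · by_cases hc' : Crit k M p u'
      · have h5 := h3 hc hc'
        simp only [ev, ρ, hc, hc', if_true, if_false]
        refine ⟨by linarith, by linarith, fun h => h.elim⟩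
      · have h5 := h4 hc hc'
        simp only [ev, ρ, hc, hc', if_false]
        refine ⟨by linarith, by linarith, fun h => h.elim⟩
  choose nx hnx1 hnx2 hnx3 hnx4 using hnext
  have hcr0 : Crit k M p (p (k - 1)) := crit_last hk hM p
  let V : ℕ → {u : ℝ // Good u} := fun l => Nat.rec ⟨p (k - 1), Or.inl hcr0⟩ (fun _ u => nx u) l
  let v : ℕ → ℝ := fun l => (V l).1
  have hv0 : v 0 = p (k - 1) := rfl
  have hv1 : ∀ l, v (l + 1) ≤ v l - s' := fun l => hnx1 (V l)
  have hv2 : ∀ l, v l - 2 * ev (v l) ≤ v (l + 1) + ρ (v (l + 1)) := fun l => hnx2 (V l)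
  have hv3 : ∀ l, v l - (v (l + 1) + ρ (v (l + 1))) + η ≤ ev (v l) := fun l => hnx3 (V l)
  have hv4 : v 1 + ρ (v 1) = v 0 - κ := hnx4 (V 0) hcr0
  have hvG : ∀ l, Good (v l) := fun l => (V l).2
  have hvlt : ∀ l, v l ≤ v 0 - l * s' := by
    intro l
    induction l with
    | zero => simp
    | succ n ih =>
      have := hv1 n
      push_cast
      linarith
  have hvle0 : ∀ l, v l ≤ v 0 := by
    intro l
    have h1 := hvlt l
    have h2 : 0 ≤ (l : ℝ) * s' := by positivity
    linarith
  have hvle1 : ∀ l, 1 ≤ l → v l ≤ v 1 := by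
    intro l hl
    induction l, hl using Nat.le_induction with
    | base => exact le_refl _
    | succ n hn ih => linarith [hv1 n]
  obtain ⟨L, hL⟩ : ∃ L : ℕ, v L ≤ -Θ := by
    obtain ⟨L, hL⟩ := exists_nat_ge ((v 0 + Θ) / s')
    refine ⟨L, ?_⟩
    have h1 := hvlt L
    have h2 : v 0 + Θ ≤ L * s' := (div_le_iff₀ hs'0).1 hL
    linarith
  choose J iJ ν g j0 N δ hN hδ hpre hanti hbd hj0 hcd hht hmain using
    fun l => hsolve (v l) (hvG l)
  have : ∀ l : Fin (L + 1), Fintype (J l) := fun l => iJ l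
  let T : ℕ → ℝ := fun l => min (v l) (v (l + 1) + ρ (v (l + 1)))
  let G : ℕ → ℝ → ℝ := fun l E => ∑ l' ∈ Ico l L, Real.exp (E * T l')
  have hGstep : ∀ l E, l < L → G l E = Real.exp (E * T l) + G (l + 1) E := by
    intro l E hl
    exact sum_eq_sum_Ico_succ_bot hl _
  have hG0 : ∀ l E, 0 ≤ G l E := fun l E => sum_nonneg (fun _ _ => (Real.exp_pos _).le)
  have hνk : ∀ l j, ν l j k = v l := by
    intro l j
    rw [hpre l j k (by omega), Function.update_self]
  have hj0' : ∀ l i, k ≤ i → i < m → ν l (j0 l) i = v l := by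
    intro l i hi him
    rcases Nat.eq_or_lt_of_le hi with h | h
    · rw [← h, hνk]
    · rw [hj0 l i (by omega) him, Nat.add_sub_cancel, Function.update_self]
  have hht' : ∀ l, ∀ᶠ E in atTop, ∀ j, 0 ≤ g l j E ∧
      g l j E ≤ N l * Real.exp (E * (v l - 2 * ev (v l))) := by
    intro l
    filter_upwards [hht l] with E hE j
    have := hE j
    rwa [Nat.add_sub_cancel, Function.update_self] at this
  have hνle : ∀ l j i, k ≤ i → i < m → ν l j i ≤ v l := by
    intro l j i hi him
    rw [← hνk l j]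
    exact anti_from (hanti l j) k (by omega) i hi him
  set Nt : ℝ := L + ∑ l ∈ range (L + 1), N l with hNt
  have hNle : ∀ l, l < L + 1 → N l ≤ Nt := by
    intro l hl
    have := single_le_sum (f := N) (fun i _ => (hN i).le) (mem_range.2 hl)
    have h2 : (0 : ℝ) ≤ L := by positivity
    linarith
  have hvabs : ∀ l, |v l| ≤ N l := by
    intro l
    rw [← hνk l (j0 l)]
    exact hbd l (j0 l) k hkm
  obtain ⟨δt, hδt, hδle⟩ : ∃ δt : ℝ, 0 < δt ∧ ∀ l, l < L + 1 → δt ≤ δ l := by
    refine ⟨(range (L + 1)).inf' ⟨0, by simp⟩ δ, ?_, ?_⟩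
    · rw [lt_inf'_iff]
      exact fun l _ => hδ l
    · intro l hl
      exact inf'_le _ (mem_range.2 hl)
  refine ⟨Σ l : Fin (L + 1), J l, inferInstance, fun x => ν x.1 x.2,
    fun x E => G x.1 E + g x.1 x.2 E, ⟨0, j0 0⟩, Nt, δt, ?_, hδt, ?_, ?_, ?_, ?_, ?_, ?_, ?_⟩
  · have := hNle 0 (by omega)
    linarith [hN 0]
  · rintro ⟨l, j⟩ i hi
    simp only
    rw [hpre l j i (by omega), Function.update_of_ne (by omega)]
  · rintro ⟨l, j⟩ i hi him
    simp only
    rcases Nat.eq_or_lt_of_le hi with h | h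
    · rw [← h, hνk, hpre l j i (by omega), Function.update_of_ne (by omega)]
      have : i = k - 1 := by omega
      rw [this, ← hv0]
      exact hvle0 l
    · exact hanti l j i (by omega) him
  · rintro ⟨l, j⟩ i him
    exact (hbd l j i him).trans (hNle l l.2)
  · intro i hi him
    simp only [Fin.val_zero]
    rw [hj0' 0 i hi him]
    exact hv0
  · rintro ⟨l, j⟩
    simp only
    refine ContDiff.add ?_ (hcd l j)
    apply ContDiff.sum
    intro l' _
    fun_prop
  · have hall : ∀ᶠ E in atTop, ∀ l ∈ range (L + 1), ∀ j, 0 ≤ g l j E ∧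
        g l j E ≤ N l * Real.exp (E * (v l - 2 * ev (v l))) := by
      rw [eventually_all_finset]
      intro l _
      exact hht' l
    filter_upwards [hall, eventually_ge_atTop 0] with E hE hE0
    rintro ⟨l, j⟩
    simp only
    have h1 := hE l (mem_range.2 l.2) j
    refine ⟨add_nonneg (hG0 _ _) h1.1, ?_⟩
    have h2 : G l E ≤ L * Real.exp (E * (p (k - 1) - 2 * e)) := by
      calc G l E ≤ ∑ l' ∈ Ico (l : ℕ) L, Real.exp (E * (p (k - 1) - 2 * e)) := by
            apply sum_le_sum
            intro l' _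
            apply Real.exp_le_exp.2
            apply mul_le_mul_of_nonneg_left _ hE0
            rw [← hv0]
            rcases Nat.eq_zero_or_pos l' with h | h
            · have : T l' ≤ v 1 + ρ (v 1) := by rw [h]; exact min_le_right _ _
              rw [hv4] at this
              linarith
            · have h3 : T l' ≤ v l' := min_le_left _ _
              have h4 := hvle1 l' h
              have h5 := hρ0 (v 1)
              linarith
        _ = ((Ico (l : ℕ) L).card : ℝ) * Real.exp (E * (p (k - 1) - 2 * e)) := by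
            rw [sum_const, nsmul_eq_mul]
        _ ≤ L * Real.exp (E * (p (k - 1) - 2 * e)) := by
            apply mul_le_mul_of_nonneg_right _ (Real.exp_pos _).le
            rw [Nat.card_Ico]
            exact_mod_cast Nat.sub_le _ _
    have h3 : g l j E ≤ (∑ l ∈ range (L + 1), N l) * Real.exp (E * (p (k - 1) - 2 * e)) := by
      refine h1.2.trans ?_
      apply mul_le_mul
      · exact single_le_sum (f := N) (fun i _ => (hN i).le) (mem_range.2 l.2)
      · apply Real.exp_le_exp.2
        apply mul_le_mul_of_nonneg_left _ hE0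
        rw [← hv0]
        have := hvle0 l
        have := hevn (v l)
        linarith
      · exact (Real.exp_pos _).le
      · exact sum_nonneg (fun i _ => (hN i).le)
    rw [hNt, add_mul]
    exact add_le_add h2 h3
  · have hall : ∀ᶠ E in atTop, ∀ l ∈ range (L + 1), ∀ j, 0 ≤ g l j E ∧
        g l j E ≤ N l * Real.exp (E * (v l - 2 * ev (v l))) := by
      rw [eventually_all_finset]
      intro l _
      exact hht' l
    have hallm : ∀ᶠ E in atTop, ∀ l ∈ range (L + 1), ∀ t : ℕ → ℝ,
        (∀ i, i < k + 1 → |t i - Function.update p k (v l) i| ≤ ev (v l)) →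
        (∀ i, k + 1 ≤ i + 1 → i + 1 < m → t (i + 1) ≤ t i) → (∀ i, i < m → -Θ ≤ t i) →
        ∀ j, (∀ j', g l j E - ∑ i ∈ Ico (k + 1) m, ν l j i * Real.exp (E * t i) ≤
          g l j' E - ∑ i ∈ Ico (k + 1) m, ν l j' i * Real.exp (E * t i)) →
        CompN m M₀ (δ l) (ν l j) t := by
      rw [eventually_all_finset]
      intro l _
      exact hmain l
    have hK : ∀ᶠ E in atTop, ∀ l ∈ range (L + 1),
        N (l + 1) + m * (N l + N (l + 1)) + (1 + N l) / s' < Real.exp (E * η) := by
      rw [eventually_all_finset]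
      intro l _
      exact ev_exp _ _ hη0
    filter_upwards [hall, hallm, hK, eventually_ge_atTop 0] with E hE hEm hEK hE0
    intro t ht htanti htΘ
    rintro ⟨l, j⟩ hmin
    simp only at hmin ⊢
    have htk : ∀ i, k ≤ i → i < m → t i ≤ t k := anti_from htanti k (by omega)
    have hlL : (l : ℕ) < L + 1 := l.2
    -- upper bound for `t k`
    have hup : t k ≤ v l + ev (v l) := by
      rcases Nat.eq_zero_or_pos (l : ℕ) with h0 | hpos
      · rw [h0]
        have h1 := htanti (k - 1) (by omega) (by omega)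
        rw [Nat.sub_add_cancel hk] at h1
        have h2 := abs_le.1 (ht (k - 1) (by omega))
        rw [hv0]
        have h3 := hevn (p (k - 1))
        linarith [h2.2]
      · obtain ⟨a, ha⟩ : ∃ a, (l : ℕ) = a + 1 := ⟨l - 1, by omega⟩
        have haL : a < L := by omega
        have hcmp := hmin ⟨⟨a, by omega⟩, j0 a⟩
        simp only at hcmp
        rw [hGstep a E haL, ← ha] at hcmp
        have hga := (hE a (mem_range.2 (by omega)) (j0 a)).2
        have hgl := (hE l (mem_range.2 hlL) j).1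
        have hsum : s' * Real.exp (E * t k) ≤
            ∑ i ∈ Ico k m, (v a - ν l j i) * Real.exp (E * t i) := by
          have hst := hv1 a
          rw [← ha] at hst
          have h1 : (v a - ν l j k) * Real.exp (E * t k) ≤
              ∑ i ∈ Ico k m, (v a - ν l j i) * Real.exp (E * t i) := by
            apply single_le_sum (f := fun i => (v a - ν l j i) * Real.exp (E * t i)) _
              (mem_Ico.2 ⟨le_refl _, hkm⟩)
            intro i hi
            have hi' := mem_Ico.1 hi
            apply mul_nonneg _ (Real.exp_pos _).le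
            have := hνle l j i hi'.1 hi'.2
            linarith
          refine le_trans ?_ h1
          apply mul_le_mul_of_nonneg_right _ (Real.exp_pos _).le
          rw [hνk]
          linarith
        have hsum2 : ∑ i ∈ Ico k m, (v a - ν l j i) * Real.exp (E * t i)
            = ∑ i ∈ Ico k m, ν a (j0 a) i * Real.exp (E * t i)
              - ∑ i ∈ Ico k m, ν l j i * Real.exp (E * t i) := by
          rw [← sum_sub_distrib]
          apply sum_congr rfl
          intro i hi
          have hi' := mem_Ico.1 hi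
          rw [hj0' a i hi'.1 hi'.2]
          ring
        have hexp : Real.exp (E * (v a - 2 * ev (v a))) ≤ Real.exp (E * T a) := by
          apply Real.exp_le_exp.2
          apply mul_le_mul_of_nonneg_left _ hE0
          refine le_min ?_ (hv2 a)
          have := hevn (v a)
          linarith
        have h5 : s' * Real.exp (E * t k) ≤ (1 + N a) * Real.exp (E * T a) := by
          have h6 := mul_le_mul_of_nonneg_left hexp (hN a).le
          rw [hsum2] at hsum
          nlinarith [hsum, hcmp, hga, hgl, h6]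
        by_contra hcon
        push Not at hcon
        have hTv : T a ≤ v l + ρ (v l) := by rw [ha]; exact min_le_right _ _
        have hlt : T a + η < t k := by
          have := hA (v l)
          linarith
        have h7 : Real.exp (E * T a) * Real.exp (E * η) ≤ Real.exp (E * t k) := by
          rw [← Real.exp_add]
          apply Real.exp_le_exp.2
          rw [← mul_add]
          exact mul_le_mul_of_nonneg_left hlt.le hE0
        have h8 := hEK a (mem_range.2 (by omega))
        have h9 : (1 + N a) / s' < Real.exp (E * η) := by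
          have b1 := hN (a + 1)
          have b2 : 0 ≤ (m : ℝ) * (N a + N (a + 1)) :=
            mul_nonneg (Nat.cast_nonneg _) (add_pos (hN a) (hN (a + 1))).le
          linarith
        rw [div_lt_iff₀ hs'0] at h9
        have h10 := Real.exp_pos (E * T a)
        have h11 : (1 + N a) * Real.exp (E * T a) < Real.exp (E * η) * s' * Real.exp (E * T a) :=
          mul_lt_mul_of_pos_right h9 h10
        nlinarith [h5, h7, h11, hs'0]
    -- lower bound for `t k`
    have hlo : v l - ev (v l) ≤ t k := by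
      rcases Nat.lt_or_ge (l : ℕ) L with hlt | hge
      · have hcmp := hmin ⟨⟨(l : ℕ) + 1, by omega⟩, j0 (l + 1)⟩
        simp only at hcmp
        rw [hGstep l E hlt] at hcmp
        have hga := (hE (l + 1) (mem_range.2 (by omega)) (j0 (l + 1))).2
        have hgl := (hE l (mem_range.2 hlL) j).1
        by_contra hcon
        push Not at hcon
        have hTl : v l - ev (v l) + η ≤ T l := by
          refine le_min ?_ ?_
          · have := hevn (v l); linarith
          · have := hv3 l; linarith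
        have htT : t k ≤ T l - η := by linarith
        have hsum : ∑ i ∈ Ico k m, (ν l j i - v (l + 1)) * Real.exp (E * t i) ≤
            m * (N l + N (l + 1)) * Real.exp (E * (T l - η)) := by
          calc ∑ i ∈ Ico k m, (ν l j i - v (l + 1)) * Real.exp (E * t i)
              ≤ ∑ i ∈ Ico k m, (N l + N (l + 1)) * Real.exp (E * (T l - η)) := by
                apply sum_le_sum
                intro i hi
                have hi' := mem_Ico.1 hi
                apply mul_le_mul
                · have b1 := abs_le.1 (hbd l j i hi'.2)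
                  have b2 := abs_le.1 (hvabs (l + 1))
                  linarith [b1.2, b2.1]
                · apply Real.exp_le_exp.2
                  exact mul_le_mul_of_nonneg_left ((htk i hi'.1 hi'.2).trans htT) hE0
                · exact (Real.exp_pos _).le
                · exact (add_pos (hN l) (hN (l + 1))).le
            _ = ((Ico k m).card : ℝ) * ((N l + N (l + 1)) * Real.exp (E * (T l - η))) := by
                rw [sum_const, nsmul_eq_mul]
            _ ≤ m * ((N l + N (l + 1)) * Real.exp (E * (T l - η))) := by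
                apply mul_le_mul_of_nonneg_right
                · rw [Nat.card_Ico]
                  exact_mod_cast Nat.sub_le _ _
                · exact mul_nonneg (add_pos (hN l) (hN (l + 1))).le (Real.exp_pos _).le
            _ = _ := by ring
        have hsum2 : ∑ i ∈ Ico k m, (ν l j i - v (l + 1)) * Real.exp (E * t i)
            = ∑ i ∈ Ico k m, ν l j i * Real.exp (E * t i)
              - ∑ i ∈ Ico k m, ν (l + 1) (j0 (l + 1)) i * Real.exp (E * t i) := by
          rw [← sum_sub_distrib]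
          apply sum_congr rfl
          intro i hi
          have hi' := mem_Ico.1 hi
          rw [hj0' (l + 1) i hi'.1 hi'.2]
          ring
        have hexp : Real.exp (E * (v (l + 1) - 2 * ev (v (l + 1)))) ≤
            Real.exp (E * (T l - η)) := by
          apply Real.exp_le_exp.2
          apply mul_le_mul_of_nonneg_left _ hE0
          have c1 := hevn (v (l + 1))
          have c2 := hv1 l
          have c3 := hρ0 (v (l + 1))
          have c4 : v (l + 1) ≤ T l - η + η := by
            rw [sub_add_cancel]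
            refine le_min ?_ ?_ <;> linarith
          have c5 := hA (v (l + 1))
          linarith
        have h6 := mul_le_mul_of_nonneg_left hexp (hN (l + 1)).le
        have h7 : Real.exp (E * T l) ≤
            (N (l + 1) + m * (N l + N (l + 1))) * Real.exp (E * (T l - η)) := by
          rw [hsum2] at hsum
          nlinarith [hsum, hcmp, hga, hgl, h6]
        have h8 := hEK l (mem_range.2 hlL)
        have h9 : N (l + 1) + m * (N l + N (l + 1)) < Real.exp (E * η) := by
          have b1 : 0 < (1 + N l) / s' := div_pos (by linarith [hN l]) hs'0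
          linarith
        have h10 := mul_lt_mul_of_pos_right h9 (Real.exp_pos (E * (T l - η)))
        rw [← Real.exp_add, show E * η + E * (T l - η) = E * T l by ring] at h10
        linarith
      · have : (l : ℕ) = L := by omega
        rw [this]
        have h1 := htΘ k hkm
        have h2 := hevn (v L)
        linarith
    have hclose : |t k - v l| ≤ ev (v l) := by
      rw [abs_le]; constructor <;> linarith
    have hfin := hEm l (mem_range.2 hlL) t ?_ ?_ htΘ j ?_
    · intro w hw hpos
      exact (hδle l hlL).trans (hfin w hw hpos)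
    · intro i hi
      rcases Nat.eq_or_lt_of_le (Nat.lt_succ_iff.1 hi) with h | h
      · rw [h, Function.update_self]; exact hclose
      · rw [Function.update_of_ne (by omega)]
        exact (ht i h).trans (hee.trans (hevn _))
    · intro i hi him
      exact htanti i (by omega) him
    · intro j'
      have hcmp := hmin ⟨l, j'⟩
      simp only at hcmp
      rw [sum_eq_sum_Ico_succ_bot hkm, sum_eq_sum_Ico_succ_bot hkm, hνk, hνk] at hcmp
      linarith

def Mr (M : ℕ) : ℕ → ℕ
  | 0 => M
  | r + 1 => 2 * (Mr M r) ^ 2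

lemma one_le_Mr {M : ℕ} (hM : 1 ≤ M) (r : ℕ) : 1 ≤ Mr M r := by
  induction r with
  | zero => exact hM
  | succ n ih => show 1 ≤ 2 * (Mr M n) ^ 2; nlinarith

lemma tree (m M : ℕ) (Θ : ℝ) (hM : 1 ≤ M) : ∀ r, r ≤ m → ∀ s : ℝ, 0 < s → ∃ e : ℝ, 0 < e ∧
    ∀ p, SepN (m + 1 - r) (Mr M r) s p → Solves (m + 1) M (m + 1 - r) Θ p e := by
  intro r
  induction r with
  | zero =>
    intro _ s hs
    exact solves_base (m + 1) M Θ s hs
  | succ n ih =>
    intro hn
    have h1 : m + 1 - n = (m + 1 - (n + 1)) + 1 := by omega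
    have ih' := ih (by omega)
    rw [h1] at ih'
    exact solves_step (by omega) (by omega) (one_le_Mr hM n) ih'

end Fam

open Fam in
theorem fam : FamStmt := by
  intro m M σ Θ hσ
  obtain ⟨e, he, H⟩ := tree m (M + 1) Θ (by omega) m (le_refl _) 1 one_pos
  rw [show m + 1 - m = 1 by omega] at H
  have hsep : SepN 1 (Mr (M + 1) m) 1 (fun _ => σ) := by
    intro w _
    rw [range_one, sum_singleton]
    by_cases hw : w 0 = 0
    · left; rw [hw]; simp
    · right
      have h3 : (1 : ℝ) ≤ |(w 0 : ℝ)| := by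
        have := Int.one_le_abs hw
        exact_mod_cast this
      rcases hσ with h | h
      · rw [h, mul_one]; exact h3
      · rw [h, mul_neg, mul_one, abs_neg]; exact h3
  obtain ⟨J, iJ, ν, g, j0, N, δ, hN, hδ, hpre, hanti, hbd, hj0, hcd, hht, hmain⟩ := H _ hsep
  have hνj : ∀ j, ν j 0 = σ := fun j => hpre j 0 (by omega)
  refine ⟨J, iJ, fun j i => ν j i, g, j0, e, 2 * e, δ, N, he, by positivity, hδ, hN, ?_, ?_, ?_,
    ?_, hcd, ?_, ?_⟩
  · intro j; exact hνj j
  · intro j
    rw [Fin.antitone_iff_succ_le]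
    intro i
    simp only [Fin.val_succ, Fin.val_castSucc]
    exact hanti j i (by omega) (by omega)
  · intro j i
    exact hbd j i i.2
  · intro i
    rcases Nat.eq_zero_or_pos (i : ℕ) with h | h
    · simp only [h]; exact hνj j0
    · exact hj0 i h i.2
  · exact hht
  · filter_upwards [hmain] with E hE
    intro t ht ht0 htΘ j hmin
    let t' : ℕ → ℝ := fun i => if h : i < m + 1 then t ⟨i, h⟩ else 0
    have ht' : ∀ i : Fin (m + 1), t' i = t i := by
      intro i
      simp only [t', i.2, dif_pos, Fin.eta]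
    have hsumν : ∀ j, ∑ i : Fin (m + 1), ν j i * Real.exp (E * t i)
        = σ * Real.exp (E * t 0) + ∑ i ∈ Ico 1 (m + 1), ν j i * Real.exp (E * t' i) := by
      intro j
      have h1 : ∑ i : Fin (m + 1), ν j i * Real.exp (E * t i)
          = ∑ i ∈ range (m + 1), ν j i * Real.exp (E * t' i) := by
        rw [Finset.sum_range]
        apply sum_congr rfl
        intro i _
        rw [ht' i]
      rw [h1, range_eq_Ico, sum_eq_sum_Ico_succ_bot (by omega), hνj]
      have h2 : t' 0 = t 0 := ht' 0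
      rw [h2]
    have hfin := hE t' ?_ ?_ ?_ j ?_
    · intro w hw hpos
      let w' : ℕ → ℤ := fun i => if h : i < m + 1 then w ⟨i, h⟩ else 0
      have hw' : ∀ i : Fin (m + 1), w' i = w i := by
        intro i
        simp only [w', i.2, dif_pos, Fin.eta]
      have h1 : ∑ i ∈ range (m + 1), (w' i : ℝ) * ν j i = ∑ i, (w i : ℝ) * ν j i := by
        rw [Finset.sum_range]
        apply sum_congr rfl
        intro i _
        rw [hw' i]
      have h2 : ∑ i ∈ range (m + 1), (w' i : ℝ) * t' i = ∑ i, (w i : ℝ) * t i := by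
        rw [Finset.sum_range]
        apply sum_congr rfl
        intro i _
        rw [hw' i, ht' i]
      rw [← h2]
      apply hfin w' _ (by rw [h1]; exact hpos)
      intro i
      simp only [w']
      split_ifs with h
      · refine (hw ⟨i, h⟩).trans ?_
        push_cast; omega
      · simp; positivity
    · intro i hi
      have : i = 0 := by omega
      rw [this]
      have h2 : t' 0 = t 0 := ht' 0
      rw [h2]
      exact ht0
    · intro i _ him
      have h1 : t' (i + 1) = t ⟨i + 1, him⟩ := ht' ⟨i + 1, him⟩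
      have h2 : t' i = t ⟨i, by omega⟩ := ht' ⟨i, by omega⟩
      rw [h1, h2]
      apply ht
      rw [Fin.le_def]
      exact Nat.le_succ _
    · intro i him
      have h2 : t' i = t ⟨i, him⟩ := ht' ⟨i, him⟩
      rw [h2]
      exact htΘ _
    · intro j'
      have h3 := hmin j'
      rw [hsumν j, hsumν j'] at h3
      linarith

end Crest.Agent.MA
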