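import Crest.Agent.MADefs
set_option autoImplicit false

namespace Crest.Agent.MA

open Finset Filter Crest.AnalysisR.MassAction

namespace FinP

theorem contDiff_field {d : ℕ} (R : Network d) (k : (Fin d → ℕ) × (Fin d → ℕ) → ℝ) :
    ContDiff ℝ 1 (field R k) := by
  unfold field
  apply ContDiff.sum
  intro r _
  refine ContDiff.smul (f := fun x : Fin d → ℝ => k r * ∏ i, x i ^ r.1 i)
    (g := fun _ => reactionVector r) ?_ contDiff_const
  refine ContDiff.mul (f := fun _ => k r) (g := fun x : Fin d → ℝ => ∏ i, x i ^ r.1 i)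
    contDiff_const ?_
  apply contDiff_prod
  intro i _
  exact (contDiff_apply ℝ ℝ i).pow _

theorem field_mem {d : ℕ} (R : Network d) (k : (Fin d → ℕ) × (Fin d → ℕ) → ℝ) (x : Fin d → ℝ) :
    field R k x ∈ stoichSubspace R := by
  unfold field stoichSubspace
  apply Submodule.sum_mem
  intro r hr
  apply Submodule.smul_mem
  apply Submodule.subset_span
  exact ⟨r, hr, rfl⟩

theorem dot_add {d : ℕ} (ν x y : Fin d → ℝ) : dot ν (x + y) = dot ν x + dot ν y := by
  unfold dot
  rw [← Finset.sum_add_distrib]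
  apply Finset.sum_congr rfl
  intro i _
  simp [mul_add]

theorem dot_smul {d : ℕ} (ν x : Fin d → ℝ) (a : ℝ) : dot ν (a • x) = a * dot ν x := by
  unfold dot
  rw [Finset.mul_sum]
  apply Finset.sum_congr rfl
  intro i _
  simp only [Pi.smul_apply, smul_eq_mul]
  ring

theorem dot_zero_of_mem {d : ℕ} (R : Network d) (ν : Fin d → ℝ)
    (h : ∀ r ∈ R, dot ν (reactionVector r) = 0) (y : Fin d → ℝ) (hy : y ∈ stoichSubspace R) :
    dot ν y = 0 := by
  unfold stoichSubspace at hy
  induction hy using Submodule.span_induction with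
  | mem x hx =>
    obtain ⟨r, hr, rfl⟩ := hx
    exact h r hr
  | zero => simp [dot]
  | add x y _ _ hx hy => rw [dot_add, hx, hy, add_zero]
  | smul a x _ hx => rw [dot_smul, hx, mul_zero]

end FinP

open FinP

theorem fin : FinStmt := by
  intro hSign hDyn hKey d hd R hR k hk c hc
  obtain ⟨M, hM⟩ := hSign d R hR
  obtain ⟨J, hJ, ν, h, δ, hδ, hsmooth, hcomp, hbdd, habs⟩ := hKey d M hd
  choose Δ hΔ using fun j => hM k hk (ν j)
  have ha : ∀ᶠ E : ℝ in atTop, ∀ j, Δ j ≤ δ * E := by
    rw [eventually_all]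
    intro j
    have : Tendsto (fun E : ℝ => δ * E) atTop atTop := tendsto_id.const_mul_atTop hδ
    exact this.eventually_ge_atTop (Δ j)
  have hd' := habs c hc
  obtain ⟨E₀, hE₀⟩ := eventually_atTop.mp (((ha.and hcomp).and hbdd).and hd')
  obtain ⟨K, hK1, hK2, hK3, hK4, hK5, hK6⟩ := hDyn d (field R k) (stoichSubspace R) c J ν h E₀
    (contDiff_field R k) (field_mem R k) hc hsmooth (fun E hE => (hE₀ E hE).1.2)
    (by
      intro E hE x hxS hxK j hj
      obtain ⟨⟨⟨h1, h2⟩, h3⟩, h4⟩ := hE₀ E hE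
      obtain ⟨a, b, ha0, hab⟩ := h3
      have hpos : ∀ i, 0 < x i := fun i => lt_of_lt_of_le ha0 (hab x hxK i).1
      apply hΔ j x hpos
      · intro w hw hw2
        exact (h1 j).trans (h2 x hxK j hj w hw hw2)
      · by_contra hcon
        push Not at hcon
        have h5 := dot_zero_of_mem R (ν j) hcon (x - c) hxS
        have h6 : dot (ν j) x = dot (ν j) c := by
          have : dot (ν j) (x - c + c) = dot (ν j) (x - c) + dot (ν j) c := dot_add _ _ _
          rw [sub_add_cancel, h5, zero_add] at this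
          exact this
        have h7 := h4 j
        rw [← h6, hj] at h7
        exact lt_irrefl _ h7)
    habs (fun j => ((hE₀ E₀ le_rfl).2 j).le)
  refine ⟨K, hK1, hK2, hK3, hK4, hK5, ?_⟩
  intro x₀ hx₀
  exact hK6 x₀ hx₀.1 hx₀.2

end Crest.Agent.MA
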