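import Crest.Agent.MADefs
set_option autoImplicit false

/-! Row 92, module SIGN: `Crest.Agent.MA.sign : SignStmt`. -/

namespace Crest.Agent.MA

open Finset Filter Crest.AnalysisR.MassAction

/-- monomials as exponentials -/
theorem prod_pow_eq_exp {d : ℕ} (x : Fin d → ℝ) (hx : ∀ i, 0 < x i) (y : Fin d → ℕ) :
    ∏ i, x i ^ (y i) = Real.exp (∑ i, (y i : ℝ) * Real.log (x i)) := by
  rw [Real.exp_sum]
  refine Finset.prod_congr rfl fun i _ => ?_
  rw [Real.exp_nat_mul, Real.exp_log (hx i)]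

/-- level of a complex -/
def lev {d : ℕ} (ν : Fin d → ℝ) (y : Fin d → ℕ) : ℝ := ∑ i, ν i * (y i : ℝ)

theorem dot_reactionVector {d : ℕ} (ν : Fin d → ℝ) (r : (Fin d → ℕ) × (Fin d → ℕ)) :
    dot ν (reactionVector r) = lev ν r.2 - lev ν r.1 := by
  unfold dot reactionVector lev
  rw [← Finset.sum_sub_distrib]
  exact Finset.sum_congr rfl fun i _ => by ring

theorem dot_field {d : ℕ} (R : Network d) (k : (Fin d → ℕ) × (Fin d → ℕ) → ℝ)
    (ν x : Fin d → ℝ) :
    dot ν (field R k x) = ∑ r ∈ R, (k r * ∏ i, x i ^ (r.1 i)) * (lev ν r.2 - lev ν r.1) := by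
  have h : dot ν (field R k x) =
      ∑ r ∈ R, (k r * ∏ i, x i ^ (r.1 i)) * dot ν (reactionVector r) := by
    unfold dot field
    simp only [Finset.sum_apply, Pi.smul_apply, smul_eq_mul, Finset.mul_sum]
    rw [Finset.sum_comm]
    refine Finset.sum_congr rfl fun r _ => Finset.sum_congr rfl fun i _ => ?_
    ring
  rw [h]
  exact Finset.sum_congr rfl fun r _ => by rw [dot_reactionVector]

/-- a path from above level `c` to level `≤ c` has a step crossing -/
theorem exists_cross {d : ℕ} (R : Network d) (ν : Fin d → ℝ) (c : ℝ)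
    {p q : Fin d → ℕ} (h : Relation.ReflTransGen (fun a b => (a, b) ∈ R) p q)
    (hp : c < lev ν p) (hq : lev ν q ≤ c) :
    ∃ r ∈ R, c < lev ν r.1 ∧ lev ν r.2 ≤ c := by
  by_contra hcon
  push Not at hcon
  have : c < lev ν q := by
    induction h with
    | refl => exact hp
    | @tail b e _ hbe ih =>
      by_cases hb : c < lev ν b
      · exact hcon (b, e) hbe hb
      · exact absurd hq (by
          by_contra hq'
          exact hb (ih (not_lt.mp hb)))
  exact absurd hq (not_le.mpr this)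

theorem sign : SignStmt := by
  intro d R hR
  set M : ℕ := R.sup (fun r => Finset.univ.sup (fun i => r.1 i)) with hM
  have hMle : ∀ r ∈ R, ∀ i, r.1 i ≤ M := by
    intro r hr i
    exact le_trans (Finset.le_sup (f := fun i => r.1 i) (Finset.mem_univ i))
      (Finset.le_sup (f := fun r : (Fin d → ℕ) × (Fin d → ℕ) =>
        Finset.univ.sup (fun i => r.1 i)) hr)
  refine ⟨M, ?_⟩
  intro k hk ν
  set A := R.filter (fun r => lev ν r.2 < lev ν r.1) with hA
  -- ascending reactions have descending companions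
  have hcomp : ∀ r ∈ R, lev ν r.1 < lev ν r.2 → ∃ s ∈ A, lev ν r.1 < lev ν s.1 := by
    intro r hr hlt
    obtain ⟨s, hs, h1, h2⟩ := exists_cross R ν (lev ν r.1) (hR r hr) hlt le_rfl
    exact ⟨s, by simp only [hA, Finset.mem_filter]; exact ⟨hs, lt_of_le_of_lt h2 h1⟩, h1⟩
  by_cases hAne : A.Nonempty
  swap
  · refine ⟨0, fun x _ _ hex => ?_⟩
    exfalso
    apply hAne
    obtain ⟨r, hr, hne⟩ := hex
    rw [dot_reactionVector] at hne
    rcases lt_or_gt_of_ne (sub_ne_zero.mp hne) with h | h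
    · exact ⟨r, by simp only [hA, Finset.mem_filter]; exact ⟨hr, h⟩⟩
    · obtain ⟨s, hs, _⟩ := hcomp r hr h
      exact ⟨s, hs⟩
  -- the constants
  obtain ⟨r0, hr0, hmin⟩ := Finset.exists_min_image A
    (fun r => k r * (lev ν r.1 - lev ν r.2)) hAne
  set m := k r0 * (lev ν r0.1 - lev ν r0.2) with hm
  have hr0' := hr0
  simp only [hA, Finset.mem_filter] at hr0'
  have hmpos : 0 < m := mul_pos (hk r0 hr0'.1) (sub_pos.mpr hr0'.2)
  set C := ∑ r ∈ R, k r * |lev ν r.2 - lev ν r.1| with hC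
  have hCnn : 0 ≤ C := Finset.sum_nonneg fun r hr => mul_nonneg (hk r hr).le (abs_nonneg _)
  refine ⟨Real.log ((C + 1) / m), fun x hx hcompat _ => ?_⟩
  set Δ := Real.log ((C + 1) / m) with hΔ
  have hexpΔ : Real.exp (-Δ) = m / (C + 1) := by
    rw [Real.exp_neg, hΔ, Real.exp_log (by positivity), inv_div]
  have hCΔ : C * Real.exp (-Δ) < m := by
    rw [hexpΔ, mul_div_assoc', div_lt_iff₀ (by positivity)]
    nlinarith
  -- monomials
  set mono : (Fin d → ℕ) → ℝ := fun y => ∏ i, x i ^ (y i) with hmono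
  have hmpos' : ∀ y, 0 < mono y := fun y => Finset.prod_pos fun i _ => pow_pos (hx i) _
  have hratio : ∀ r ∈ R, ∀ s ∈ R, lev ν r.1 < lev ν s.1 →
      mono r.1 ≤ Real.exp (-Δ) * mono s.1 := by
    intro r hr s hs hlt
    have := hcompat (fun i => (s.1 i : ℤ) - (r.1 i : ℤ)) (by
      intro i
      have h1 := hMle r hr i
      have h2 := hMle s hs i
      rw [abs_le]
      constructor <;> omega) (by
      have h3 : ∑ i, (((s.1 i : ℤ) - (r.1 i : ℤ) : ℤ) : ℝ) * ν i = lev ν s.1 - lev ν r.1 := by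
        unfold lev
        rw [← Finset.sum_sub_distrib]
        refine Finset.sum_congr rfl fun i _ => ?_
        push_cast
        ring
      rw [h3]
      linarith)
    have h4 : ∑ i, (((s.1 i : ℤ) - (r.1 i : ℤ) : ℤ) : ℝ) * Real.log (x i) =
        ∑ i, (s.1 i : ℝ) * Real.log (x i) - ∑ i, (r.1 i : ℝ) * Real.log (x i) := by
      rw [← Finset.sum_sub_distrib]
      refine Finset.sum_congr rfl fun i _ => ?_
      push_cast
      ring
    rw [h4] at this
    simp only [hmono]
    rw [prod_pow_eq_exp x hx, prod_pow_eq_exp x hx, ← Real.exp_add]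
    apply Real.exp_le_exp.mpr
    linarith
  -- the maximal descending monomial
  obtain ⟨s0, hs0, hmax⟩ := Finset.exists_max_image A (fun r => mono r.1) hAne
  have hs0' := hs0
  simp only [hA, Finset.mem_filter] at hs0'
  have hterm : ∀ r ∈ R, (k r * mono r.1) * (lev ν r.2 - lev ν r.1) ≤
      (k r * |lev ν r.2 - lev ν r.1|) * (Real.exp (-Δ) * mono s0.1) := by
    intro r hr
    by_cases hasc : lev ν r.1 < lev ν r.2
    · obtain ⟨s, hs, hlt⟩ := hcomp r hr hasc
      have hsR : s ∈ R := (Finset.mem_filter.mp hs).1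
      have h1 := hratio r hr s hsR hlt
      have h2 : mono s.1 ≤ mono s0.1 := hmax s hs
      have h3 : mono r.1 ≤ Real.exp (-Δ) * mono s0.1 :=
        le_trans h1 (mul_le_mul_of_nonneg_left h2 (Real.exp_pos _).le)
      rw [abs_of_pos (sub_pos.mpr hasc)]
      have h4 : 0 ≤ k r * (lev ν r.2 - lev ν r.1) :=
        mul_nonneg (hk r hr).le (sub_pos.mpr hasc).le
      calc (k r * mono r.1) * (lev ν r.2 - lev ν r.1)
          = (k r * (lev ν r.2 - lev ν r.1)) * mono r.1 := by ring
        _ ≤ (k r * (lev ν r.2 - lev ν r.1)) * (Real.exp (-Δ) * mono s0.1) :=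
            mul_le_mul_of_nonneg_left h3 h4
    · have h5 : lev ν r.2 - lev ν r.1 ≤ 0 := by linarith [not_lt.mp hasc]
      have h6 : (k r * mono r.1) * (lev ν r.2 - lev ν r.1) ≤ 0 :=
        mul_nonpos_of_nonneg_of_nonpos (mul_nonneg (hk r hr).le (hmpos' _).le) h5
      have h7 : 0 ≤ (k r * |lev ν r.2 - lev ν r.1|) * (Real.exp (-Δ) * mono s0.1) :=
        mul_nonneg (mul_nonneg (hk r hr).le (abs_nonneg _))
          (mul_nonneg (Real.exp_pos _).le (hmpos' _).le)
      linarith
  have hs0term : (k s0 * mono s0.1) * (lev ν s0.2 - lev ν s0.1) ≤ -(m * mono s0.1) := by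
    have := hmin s0 hs0
    have h8 : m * mono s0.1 ≤ (k s0 * (lev ν s0.1 - lev ν s0.2)) * mono s0.1 :=
      mul_le_mul_of_nonneg_right this (hmpos' _).le
    linarith
  rw [dot_field, ← Finset.add_sum_erase R _ hs0'.1]
  have hrest : ∑ r ∈ R.erase s0, (k r * mono r.1) * (lev ν r.2 - lev ν r.1) ≤
      C * (Real.exp (-Δ) * mono s0.1) := by
    calc ∑ r ∈ R.erase s0, (k r * mono r.1) * (lev ν r.2 - lev ν r.1)
        ≤ ∑ r ∈ R.erase s0, (k r * |lev ν r.2 - lev ν r.1|) * (Real.exp (-Δ) * mono s0.1) :=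
          Finset.sum_le_sum fun r hr => hterm r (Finset.mem_of_mem_erase hr)
      _ ≤ ∑ r ∈ R, (k r * |lev ν r.2 - lev ν r.1|) * (Real.exp (-Δ) * mono s0.1) := by
          refine Finset.sum_le_sum_of_subset_of_nonneg (Finset.erase_subset _ _) fun r hr _ => ?_
          exact mul_nonneg (mul_nonneg (hk r hr).le (abs_nonneg _))
            (mul_nonneg (Real.exp_pos _).le (hmpos' _).le)
      _ = C * (Real.exp (-Δ) * mono s0.1) := by rw [hC, Finset.sum_mul]
  have hfin : C * (Real.exp (-Δ) * mono s0.1) < m * mono s0.1 := by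
    rw [← mul_assoc]
    exact mul_lt_mul_of_pos_right hCΔ (hmpos' _)
  simp only [hmono] at hs0term hrest hfin ⊢
  linarith

end Crest.Agent.MA
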