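import Crest.Agent.MADefs
set_option autoImplicit false

/-! Row 92 (S0122): sorting / exchange lemma for (ASM). -/

namespace Crest.Agent.MA
namespace SortL

open Finset

/-- two-point exchange -/
lemma swap_sum {n : ℕ} (ν y : Fin n → ℝ) (k l : Fin n) (hkl : k ≠ l) :
    ∑ i, ν i * y (Equiv.swap k l i) =
      ∑ i, ν i * y i - (ν k - ν l) * (y k - y l) := by
  classical
  have h1 : ∑ i, ν i * y (Equiv.swap k l i) - ∑ i, ν i * y i =
      ∑ i, (ν i * y (Equiv.swap k l i) - ν i * y i) := by rw [sum_sub_distrib]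
  have h2 : ∑ i, (ν i * y (Equiv.swap k l i) - ν i * y i) =
      (ν k * y l - ν k * y k) + (ν l * y k - ν l * y l) := by
    rw [← sum_subset (subset_univ {k, l})]
    · rw [sum_pair hkl, Equiv.swap_apply_left, Equiv.swap_apply_right]
    · intro i _ hi
      simp only [mem_insert, mem_singleton, not_or] at hi
      rw [Equiv.swap_apply_of_ne_of_ne hi.1 hi.2]
      ring
  linarith

/-- if `ν` is antitone and no transposition increases `∑ ν i * y i`, there is a permutation fixing
`ν` and sorting `y` -/
theorem sort_active {n : ℕ} (ν y : Fin n → ℝ) (hν : Antitone ν)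
    (hmax : ∀ π : Equiv.Perm (Fin n), ∑ i, ν i * y (π i) ≤ ∑ i, ν i * y i) :
    ∃ π : Equiv.Perm (Fin n), ν ∘ π = ν ∧ Antitone (y ∘ π) := by
  classical
  set f : Fin n → (ℝ ×ₗ ℝ)ᵒᵈ := fun k => OrderDual.toDual (toLex (ν k, y k)) with hf
  set π := Tuple.sort f with hπ
  have hmono : Monotone (f ∘ π) := Tuple.monotone_sort f
  have hlex : ∀ k l : Fin n, k ≤ l →
      ν (π l) < ν (π k) ∨ (ν (π l) = ν (π k) ∧ y (π l) ≤ y (π k)) := by
    intro k l hkl
    have h := hmono hkl
    have h' : toLex (ν (π l), y (π l)) ≤ toLex (ν (π k), y (π k)) := h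
    rw [Prod.Lex.le_iff] at h'
    exact h'
  have hνπ : ν ∘ π = ν := by
    have h1 : Monotone ((fun k => OrderDual.toDual (ν k)) ∘ π) := by
      intro k l hkl
      show ν (π l) ≤ ν (π k)
      rcases hlex k l hkl with h | h
      · exact h.le
      · exact h.1.le
    have h2 : Monotone ((fun k => OrderDual.toDual (ν k)) ∘ (Equiv.refl (Fin n))) := by
      intro k l hkl
      exact hν hkl
    have h3 := Tuple.unique_monotone h1 h2
    funext k
    have h4 := congrFun h3 k
    exact h4
  refine ⟨π, hνπ, ?_⟩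
  intro k l hkl
  show y (π l) ≤ y (π k)
  rcases hlex k l hkl with h | h
  · have hne : π k ≠ π l := by
      intro he
      rw [he] at h
      exact lt_irrefl _ h
    have h1 := hmax (Equiv.swap (π k) (π l))
    rw [swap_sum ν y _ _ hne] at h1
    by_contra hc
    rw [not_le] at hc
    nlinarith
  · exact h.2

end SortL
end Crest.Agent.MA
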