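import Mathlib
import Crest.Prelude.Def_MilnorK

set_option autoImplicit false
set_option linter.unusedSectionVars false

open Crest.NumberTheoryR.MilnorK

namespace Crest.Agent.MK

/-- The subfield `F^p` of `p`-th powers of a field `F` of characteristic `p`. -/
noncomputable def powField (p : ℕ) [Fact p.Prime] (F : Type*) [Field F] [CharP F p] : Subfield F :=
  (frobenius F p).fieldRange

/-- The field `F^p(x)`. -/
noncomputable def adj (p : ℕ) [Fact p.Prime] {F : Type*} [Field F] [CharP F p] (x : F) :
    Subfield F :=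
  Subfield.closure ((powField p F : Set F) ∪ {x})

section
variable {p : ℕ} [Fact p.Prime] {F : Type*} [Field F] [CharP F p]

theorem mem_powField {z : F} : z ∈ powField p F ↔ ∃ w, w ^ p = z := by
  simp [powField, frobenius_def]

theorem pow_mem_powField (z : F) : z ^ p ∈ powField p F := mem_powField.2 ⟨z, rfl⟩

theorem powField_le_adj (x : F) : powField p F ≤ adj p x := by
  intro z hz
  exact Subfield.subset_closure (Or.inl hz)

theorem self_mem_adj (x : F) : x ∈ adj p x := Subfield.subset_closure (Or.inr rfl)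

theorem adj_le {x : F} {W : Subfield F} (h1 : powField p F ≤ W) (h2 : x ∈ W) : adj p x ≤ W := by
  unfold adj
  rw [Subfield.closure_le]
  intro z hz
  rcases hz with hz | hz
  · exact h1 hz
  · rw [Set.mem_singleton_iff] at hz
    rw [hz]; exact h2

/-- `[u] = 0` iff `u` is a `p`-th power. -/
theorem cls_eq_zero_iff (u : Fˣ) : cls F p u = 0 ↔ (u : F) ∈ powField p F := by
  unfold cls
  rw [QuotientAddGroup.eq_zero_iff]
  unfold pMultiples
  rw [mem_powField]
  constructor
  · rintro ⟨v, hv⟩
    refine ⟨((Additive.toMul v : Fˣ) : F), ?_⟩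
    have : (Additive.toMul v) ^ p = u := by
      have h2 : p • v = Additive.ofMul u := hv
      have h3 := congrArg Additive.toMul h2
      simpa using h3
    rw [← this]; simp
  · rintro ⟨w, hw⟩
    have hw0 : w ≠ 0 := by
      rintro rfl
      rw [zero_pow (Fact.out : p.Prime).ne_zero] at hw
      exact u.ne_zero hw.symm
    refine ⟨Additive.ofMul (Units.mk0 w hw0), ?_⟩
    show p • Additive.ofMul (Units.mk0 w hw0) = Additive.ofMul u
    rw [← ofMul_pow]
    congr 1
    ext
    simpa using hw

theorem cls_mul (u v : Fˣ) : cls F p (u * v) = cls F p u + cls F p v := rfl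

theorem cls_one : cls F p (1 : Fˣ) = 0 := rfl

theorem cls_inv (u : Fˣ) : cls F p u⁻¹ = - cls F p u := rfl

theorem cls_div (u v : Fˣ) : cls F p (u / v) = cls F p u - cls F p v := by
  rw [div_eq_mul_inv, cls_mul, cls_inv, sub_eq_add_neg]

theorem cls_pow (u : Fˣ) (n : ℕ) : cls F p (u ^ n) = n • cls F p u := by
  induction n with
  | zero => simp [cls_one]
  | succ n ih => rw [pow_succ, cls_mul, ih, succ_nsmul]

theorem cls_pow' (u : Fˣ) (n : ℕ) : cls F p (u ^ n) = (n : ZMod p) • cls F p u := by
  rw [cls_pow, Nat.cast_smul_eq_nsmul]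

theorem cls_surj (a : KOne F p) : ∃ u : Fˣ, cls F p u = a := by
  obtain ⟨v, rfl⟩ := QuotientAddGroup.mk_surjective a
  exact ⟨Additive.toMul v, rfl⟩

/-- `[u] = [v]` iff `u / v` is a `p`-th power. -/
theorem cls_eq_iff (u v : Fˣ) : cls F p u = cls F p v ↔ (u : F) / (v : F) ∈ powField p F := by
  rw [← sub_eq_zero, ← cls_div, cls_eq_zero_iff]
  simp

theorem neg_one_mem : (-1 : F) ∈ powField p F := (powField p F).neg_mem (powField p F).one_mem

end

end Crest.Agent.MK
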