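import Mathlib
import Crest.Prelude.Def_MilnorK
import Crest.Agent.MKBase

set_option autoImplicit false
set_option linter.unusedSectionVars false

open Crest.NumberTheoryR.MilnorK Polynomial

namespace Crest.Agent.MK

variable {p : ℕ} [Fact p.Prime] {F : Type*} [Field F] [CharP F p]

/-- The polynomial `X^p - x^p` over the subfield of `p`-th powers. -/
noncomputable def mpoly (p : ℕ) [Fact p.Prime] {F : Type*} [Field F] [CharP F p] (x : F) :
    (powField p F)[X] := X ^ p - C ⟨x ^ p, pow_mem_powField x⟩

theorem mpoly_monic (x : F) : (mpoly p x).Monic :=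
  monic_X_pow_sub_C _ (Fact.out : p.Prime).ne_zero

theorem mpoly_natDegree (x : F) : (mpoly p x).natDegree = p := natDegree_X_pow_sub_C

theorem mpoly_root (x : F) : aeval x (mpoly p x) = 0 := by
  unfold mpoly
  simp [aeval_C, Algebra.algebraMap_ofSubsemiring_apply]

theorem mpoly_irred {x : F} (hx : x ∉ powField p F) : Irreducible (mpoly p x) := by
  unfold mpoly
  apply X_pow_sub_C_irreducible_of_prime (Fact.out : p.Prime)
  intro b hb
  have h1 : (b : F) ^ p = x ^ p := by
    have := congrArg (Subtype.val) hb
    simpa using this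
  have h2 : (b : F) = x := by
    have := frobenius_inj F p
    apply this
    simpa [frobenius_def] using h1
  exact hx (h2 ▸ b.2)

theorem minpoly_eq {x : F} (hx : x ∉ powField p F) : minpoly (powField p F) x = mpoly p x :=
  (minpoly.eq_of_irreducible_of_monic (mpoly_irred hx) (mpoly_root x) (mpoly_monic x)).symm

theorem linindep {x : F} (hx : x ∉ powField p F) (f : Fin p → F)
    (hf : ∀ i, f i ∈ powField p F) (h : ∑ i, f i * x ^ (i : ℕ) = 0) : ∀ i, f i = 0 := by
  have h1 := linearIndependent_pow (K := powField p F) x
  have h2 : (minpoly (powField p F) x).natDegree = p := by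
    rw [minpoly_eq hx, mpoly_natDegree]
  rw [h2] at h1
  rw [Fintype.linearIndependent_iff] at h1
  have h3 := h1 (fun i => ⟨f i, hf i⟩) (by
    rw [← h]
    apply Finset.sum_congr rfl
    intro i _
    rfl)
  intro i
  have := congrArg Subtype.val (h3 i)
  simpa using this

theorem isAlgebraic_powField (x : F) : IsAlgebraic (powField p F) x :=
  ⟨mpoly p x, (mpoly_monic x).ne_zero, mpoly_root x⟩

theorem mem_adj_iff {x z : F} : z ∈ adj p x ↔
    ∃ f : Fin p → F, (∀ i, f i ∈ powField p F) ∧ z = ∑ i, f i * x ^ (i : ℕ) := by
  constructor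
  · intro hz
    have h1 : adj p x ≤ (IntermediateField.adjoin (powField p F) {x}).toSubfield := by
      apply adj_le
      · intro w hw
        exact (IntermediateField.adjoin (powField p F) {x}).algebraMap_mem ⟨w, hw⟩
      · exact IntermediateField.mem_adjoin_simple_self _ x
    have h2 := h1 hz
    have h3 : z ∈ (IntermediateField.adjoin (powField p F) {x}).toSubalgebra := h2
    rw [IntermediateField.adjoin_simple_toSubalgebra_of_isAlgebraic (isAlgebraic_powField x),
      Algebra.adjoin_singleton_eq_range_aeval] at h3
    obtain ⟨g, hg⟩ := h3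
    have hg' : aeval x g = z := hg
    have h4 : aeval x (g %ₘ mpoly p x) = z := by
      rw [← hg']
      conv_rhs => rw [← modByMonic_add_div g (mpoly p x)]
      rw [map_add, map_mul, mpoly_root]; ring
    have h5 : (g %ₘ mpoly p x).natDegree < p := by
      have := natDegree_modByMonic_lt g (mpoly_monic x) (by
        intro h
        have h6 := mpoly_natDegree (p := p) x
        rw [h, natDegree_one] at h6
        exact (Fact.out : p.Prime).ne_zero h6.symm)
      rwa [mpoly_natDegree] at this
    rw [aeval_eq_sum_range' h5] at h4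
    refine ⟨fun i => ((g %ₘ mpoly p x).coeff i : powField p F), fun i => Subtype.property _, ?_⟩
    rw [← h4, Finset.sum_range]
    rfl
  · rintro ⟨f, hf, rfl⟩
    apply Subfield.sum_mem
    intro i _
    exact (adj p x).mul_mem (powField_le_adj x (hf i)) ((adj p x).pow_mem (self_mem_adj x) _)

/-- `adj p x` as a subspace. -/
theorem adj_eq_span (x : F) : ((adj p x : Subfield F) : Set F) =
    (Submodule.span (powField p F) (Set.range fun i : Fin p => x ^ (i : ℕ)) : Set F) := by
  ext z
  rw [SetLike.mem_coe, mem_adj_iff, SetLike.mem_coe, Submodule.mem_span_range_iff_exists_fun]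
  constructor
  · rintro ⟨f, hf, rfl⟩
    exact ⟨fun i => ⟨f i, hf i⟩, rfl⟩
  · rintro ⟨c, rfl⟩
    exact ⟨fun i => (c i : F), fun i => (c i).2, rfl⟩

theorem finrank_span {x : F} (hx : x ∉ powField p F) : Module.finrank (powField p F)
    (Submodule.span (powField p F) (Set.range fun i : Fin p => x ^ (i : ℕ))) = p := by
  rw [finrank_span_eq_card]
  · simp
  · have h1 := linearIndependent_pow (K := powField p F) x
    have h2 : (minpoly (powField p F) x).natDegree = p := by
      rw [minpoly_eq hx, mpoly_natDegree]
    rwa [h2] at h1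

theorem adj_eq_of_mem {x y : F} (hy : y ∈ adj p x) (hy' : y ∉ powField p F)
    (hx : x ∉ powField p F) : adj p y = adj p x := by
  have h1 : adj p y ≤ adj p x := adj_le (powField_le_adj x) hy
  apply SetLike.coe_injective
  rw [adj_eq_span, adj_eq_span]
  congr 1
  haveI : FiniteDimensional (powField p F)
      (Submodule.span (powField p F) (Set.range fun i : Fin p => x ^ (i : ℕ))) :=
    FiniteDimensional.span_of_finite _ (Set.finite_range _)
  apply Submodule.eq_of_le_of_finrank_eq
  · intro z hz
    have h2 : z ∈ ((adj p y : Subfield F) : Set F) := by rw [adj_eq_span]; exact hz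
    have h3 : z ∈ ((adj p x : Subfield F) : Set F) := h1 h2
    rw [adj_eq_span] at h3; exact h3
  · rw [finrank_span hx, finrank_span hy']

theorem adj_of_mem_powField {x : F} (hx : x ∈ powField p F) : adj p x = powField p F :=
  le_antisymm (adj_le le_rfl hx) (powField_le_adj x)

theorem mem_adj_symm {x y : F} (hy : y ∈ adj p x) (hy' : y ∉ powField p F) : x ∈ adj p y := by
  by_cases hx : x ∈ powField p F
  · exact powField_le_adj y hx
  · rw [adj_eq_of_mem hy hy' hx]; exact self_mem_adj x

theorem subfield_between {x : F} {W : Subfield F} (h1 : powField p F ≤ W) (h2 : W ≤ adj p x) :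
    W = powField p F ∨ W = adj p x := by
  by_cases h : W ≤ powField p F
  · left; exact le_antisymm h h1
  · right
    obtain ⟨w, hw, hw'⟩ := Set.not_subset.1 h
    apply le_antisymm h2
    have h3 : x ∈ adj p w := mem_adj_symm (h2 hw) hw'
    have h4 : adj p w ≤ W := adj_le h1 hw
    exact adj_le h1 (h4 h3)

theorem adj_inf {x y z : F} (hx : x ∉ powField p F) (hy : y ∉ adj p x) (h1 : z ∈ adj p x)
    (h2 : z ∈ adj p y) : z ∈ powField p F := by
  by_contra hz
  have h3 : x ∈ adj p z := mem_adj_symm h1 hz
  have h4 : adj p z ≤ adj p y := adj_le (powField_le_adj y) h2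
  exact hy (mem_adj_symm (h4 h3) hx)

end Crest.Agent.MK
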