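import Mathlib
import Crest.Prelude.Def_MilnorK
import Crest.Agent.MKBase
import Crest.Agent.MKLin

set_option autoImplicit false
set_option linter.unusedSectionVars false

open Crest.NumberTheoryR.MilnorK

namespace Crest.Agent.MK

variable {p : ℕ} [Fact p.Prime] {F : Type*} [Field F] [CharP F p]

theorem D_powField (D : Derivation ℤ F F) {z : F} (hz : z ∈ powField p F) : D z = 0 := by
  obtain ⟨w, rfl⟩ := mem_powField.1 hz
  rw [Derivation.leibniz_pow]
  simp [CharP.cast_eq_zero]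

theorem D_adj {x z : F} (hz : z ∈ adj p x) :
    ∃ c ∈ adj p x, ∀ D : Derivation ℤ F F, D z = c * D x := by
  obtain ⟨f, hf, rfl⟩ := mem_adj_iff.1 hz
  refine ⟨∑ i, f i * ((i : ℕ) * x ^ ((i : ℕ) - 1)), ?_, ?_⟩
  · apply Subfield.sum_mem
    intro i _
    exact (adj p x).mul_mem (powField_le_adj x (hf i))
      ((adj p x).mul_mem (natCast_mem _ _) ((adj p x).pow_mem (self_mem_adj x) _))
  · intro D
    rw [map_sum, Finset.sum_mul]
    apply Finset.sum_congr rfl
    intro i _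
    rw [Derivation.leibniz, D_powField D (hf i), Derivation.leibniz_pow]
    simp only [smul_eq_mul, nsmul_eq_mul]
    ring

/-- Logarithmic derivative. -/
noncomputable def ld (D : Derivation ℤ F F) (z : F) : F := D z / z

theorem ld_mul (D : Derivation ℤ F F) {a b : F} (ha : a ≠ 0) (hb : b ≠ 0) :
    ld D (a * b) = ld D a + ld D b := by
  unfold ld
  rw [Derivation.leibniz]
  simp only [smul_eq_mul]
  field_simp
  ring

theorem ld_div (D : Derivation ℤ F F) {a b : F} (ha : a ≠ 0) (hb : b ≠ 0) :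
    ld D (a / b) = ld D a - ld D b := by
  have h := ld_mul D (div_ne_zero ha hb) hb
  rw [div_mul_cancel₀ _ hb] at h
  rw [h]; ring

theorem ld_pow (D : Derivation ℤ F F) {a : F} (ha : a ≠ 0) (n : ℕ) :
    ld D (a ^ n) = n * ld D a := by
  induction n with
  | zero => simp [ld]
  | succ n ih =>
    rw [pow_succ, ld_mul D (pow_ne_zero n ha) ha, ih]; push_cast; ring

theorem ld_powField (D : Derivation ℤ F F) {z : F} (hz : z ∈ powField p F) : ld D z = 0 := by
  unfold ld; rw [D_powField D hz]; simp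

/-- proportionality of the log-derivatives of `p`-dependent elements -/
theorem ld_prop {x z : F} (hx : x ≠ 0) (hz : z ∈ adj p x) (hz0 : z ≠ 0)
    (D₁ D₂ : Derivation ℤ F F) : ld D₁ z * ld D₂ x = ld D₂ z * ld D₁ x := by
  obtain ⟨c, -, hc⟩ := D_adj hz
  unfold ld
  rw [hc D₁, hc D₂]
  field_simp

theorem ld_mem {x z : F} (D : Derivation ℤ F F) (hz : z ∈ adj p x) (h : D x ∈ adj p x) :
    ld D z ∈ adj p x := by
  obtain ⟨c, hcm, hc⟩ := D_adj hz
  unfold ld
  rw [hc D]
  exact (adj p x).div_mem ((adj p x).mul_mem hcm h) hz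

theorem ld_zero_of {x z : F} (D : Derivation ℤ F F) (hz : z ∈ adj p x) (h : D x = 0) :
    ld D z = 0 := by
  obtain ⟨c, hcm, hc⟩ := D_adj hz
  unfold ld
  rw [hc D, h]; simp

theorem mem_powField_of_D {x z : F} (D : Derivation ℤ F F) (hz : z ∈ adj p x) (h : D x ≠ 0)
    (h0 : D z = 0) : z ∈ powField p F := by
  by_contra hz'
  obtain ⟨c, -, hc⟩ := D_adj (mem_adj_symm hz hz')
  rw [hc D, h0] at h
  simp at h

theorem mem_powField_of_ld {x z : F} (D : Derivation ℤ F F) (hz : z ∈ adj p x) (h : D x ≠ 0)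
    (hz0 : z ≠ 0) (h0 : ld D z = 0) : z ∈ powField p F := by
  apply mem_powField_of_D D hz h
  unfold ld at h0
  rcases div_eq_zero_iff.1 h0 with h1 | h1
  · exact h1
  · exact absurd h1 hz0

theorem cast_inj_of_lt {i j : ℕ} (hi : i < p) (hj : j < p) (h : (i : F) = (j : F)) : i = j := by
  have h2 := (CharP.natCast_eq_natCast F p).1 h
  exact Nat.ModEq.eq_of_lt_of_lt h2 hi hj

/-- Eigenvectors of `D` on `F^p(x)`. -/
theorem eig {x f μ : F} (D : Derivation ℤ F F) (hx : x ∉ powField p F) (hD : D x = x)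
    (hf : f ∈ adj p x) (hf0 : f ≠ 0) (hμ : μ ∈ powField p F) (h : D f = μ * f) :
    ∃ j : ℕ, j < p ∧ μ = j ∧ ∃ a ∈ powField p F, a ≠ 0 ∧ f = a * x ^ j := by
  obtain ⟨g, hg, rfl⟩ := mem_adj_iff.1 hf
  have h1 : D (∑ i, g i * x ^ (i : ℕ)) = ∑ i : Fin p, ((i : ℕ) * g i) * x ^ (i : ℕ) := by
    rw [map_sum]
    apply Finset.sum_congr rfl
    intro i _
    rw [Derivation.leibniz, D_powField D (hg i), Derivation.leibniz_pow, hD]
    simp only [smul_eq_mul, nsmul_eq_mul]
    rcases Nat.eq_zero_or_pos (i : ℕ) with h0 | h0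
    · simp [h0]
    · have : x ^ (i : ℕ) = x ^ ((i : ℕ) - 1) * x := by
        rw [← pow_succ, Nat.sub_add_cancel h0]
      rw [this]; ring
  have h2 : ∑ i : Fin p, (((i : ℕ) : F) - μ) * g i * x ^ (i : ℕ) = 0 := by
    have h3 : ∑ i : Fin p, ((i : ℕ) * g i) * x ^ (i : ℕ) - μ * ∑ i, g i * x ^ (i : ℕ) = 0 := by
      rw [← h1, h]; ring
    rw [Finset.mul_sum, ← Finset.sum_sub_distrib] at h3
    rw [← h3]
    apply Finset.sum_congr rfl
    intro i _
    ring
  have h4 := linindep hx (fun i => (((i : ℕ) : F) - μ) * g i)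
    (fun i => (powField p F).mul_mem ((powField p F).sub_mem (natCast_mem _ _) hμ) (hg i)) h2
  have h5 : ∃ j : Fin p, g j ≠ 0 := by
    by_contra h6
    push Not at h6
    apply hf0
    apply Finset.sum_eq_zero
    intro i _
    rw [h6 i]; ring
  obtain ⟨j, hj⟩ := h5
  have h6 : μ = (j : ℕ) := by
    rcases mul_eq_zero.1 (h4 j) with h7 | h7
    · exact (sub_eq_zero.1 h7).symm
    · exact absurd h7 hj
  refine ⟨j, j.2, h6, g j, hg j, hj, ?_⟩
  rw [Finset.sum_eq_single j]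
  · intro i _ hij
    have : g i = 0 := by
      rcases mul_eq_zero.1 (h4 i) with h7 | h7
      · exfalso
        apply hij
        rw [h6] at h7
        exact Fin.ext (cast_inj_of_lt i.2 j.2 (sub_eq_zero.1 h7))
      · exact h7
    rw [this]; ring
  · intro h; exact absurd (Finset.mem_univ j) h

/-- The functional equation `f(X) = g(Y) γ(Y/X)`. -/
theorem funeq {X Y f g γ : F} (D₁ D₂ : Derivation ℤ F F) (hX : X ∉ powField p F)
    (hY : Y ∉ adj p X) (h11 : D₁ X = X) (h12 : D₁ Y = 0) (h21 : D₂ X = 0) (h22 : D₂ Y = Y)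
    (hf : f ∈ adj p X) (hg : g ∈ adj p Y) (hγ : γ ∈ adj p (Y / X))
    (hf0 : f ≠ 0) (hg0 : g ≠ 0) (hγ0 : γ ≠ 0) (h : f = g * γ) :
    ∃ j : ℕ, j < p ∧ ∃ a ∈ powField p F, ∃ b ∈ powField p F, a ≠ 0 ∧ b ≠ 0 ∧
      f = a * X ^ j ∧ g = b * Y ^ j := by
  have hX0 : X ≠ 0 := fun h => hX (h ▸ (powField p F).zero_mem)
  have hY0 : Y ≠ 0 := fun h => hY (h ▸ (adj p X).zero_mem)
  have hYP : Y ∉ powField p F := fun h => hY (powField_le_adj X h)
  have e1 : ld D₂ f = 0 := ld_zero_of D₂ hf h21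
  have e2 : ld D₁ g = 0 := ld_zero_of D₁ hg h12
  have e3 : ld D₁ γ + ld D₂ γ = 0 := by
    have h3 : ld (D₁ + D₂) γ = 0 := by
      apply ld_zero_of _ hγ
      rw [Derivation.add_apply, div_eq_mul_inv, Derivation.leibniz, Derivation.leibniz,
        Derivation.leibniz_inv, Derivation.leibniz_inv, h11, h12, h21, h22]
      simp only [smul_eq_mul]
      field_simp
      ring
    unfold ld at h3 ⊢
    rw [Derivation.add_apply, add_div] at h3
    exact h3
  have e4 : ld D₁ f = ld D₁ g + ld D₁ γ := by rw [h, ld_mul D₁ hg0 hγ0]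
  have e5 : ld D₂ f = ld D₂ g + ld D₂ γ := by rw [h, ld_mul D₂ hg0 hγ0]
  have e6 : ld D₁ f = ld D₂ g := by
    rw [e1] at e5; rw [e2] at e4
    linear_combination e4 + e5 + e3
  have m1 : ld D₁ f ∈ adj p X := ld_mem D₁ hf (by rw [h11]; exact self_mem_adj X)
  have m2 : ld D₁ f ∈ adj p Y := by
    rw [e6]; exact ld_mem D₂ hg (by rw [h22]; exact self_mem_adj Y)
  have m3 := adj_inf hX hY m1 m2
  obtain ⟨j, hj, hj', a, ha, ha0, hfa⟩ := eig D₁ hX h11 hf hf0 m3 (by unfold ld; field_simp)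
  obtain ⟨j', hj2, hj2', b, hb, hb0, hgb⟩ := eig D₂ hYP h22 hg hg0 m3
    (by rw [e6]; unfold ld; field_simp)
  have hjj : j = j' := cast_inj_of_lt (F := F) (p := p) hj hj2 (by rw [← hj', ← hj2'])
  subst hjj
  exact ⟨j, hj, a, ha, b, hb, ha0, hb0, hfa, hgb⟩

/-- Conclusion for one variable from `A / (1 - A) = a X ^ j`. -/
theorem one_var {X U a : F} {j : ℕ} (D : Derivation ℤ F F) (hX : X ∉ powField p F)
    (hD : D X = X) (hU : U ∈ adj p X) (hU0 : U ≠ 0) (ha : a ∈ powField p F)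
    (h1 : 1 - ld D U ≠ 0) (h : ld D U / (1 - ld D U) = a * X ^ j) :
    1 + a * X ^ j ≠ 0 ∧ U ^ j / (1 + a * X ^ j) ∈ powField p F := by
  have hX0 : X ≠ 0 := fun h => hX (h ▸ (powField p F).zero_mem)
  have e1 : 1 + a * X ^ j = 1 / (1 - ld D U) := by
    rw [← h]; field_simp; ring
  have e2 : 1 + a * X ^ j ≠ 0 := by rw [e1]; exact one_div_ne_zero h1
  refine ⟨e2, ?_⟩
  have hm : 1 + a * X ^ j ∈ adj p X :=
    (adj p X).add_mem (adj p X).one_mem
      ((adj p X).mul_mem (powField_le_adj X ha) ((adj p X).pow_mem (self_mem_adj X) _))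
  apply mem_powField_of_ld D ((adj p X).div_mem ((adj p X).pow_mem hU j) hm)
    (by rw [hD]; exact hX0) (div_ne_zero (pow_ne_zero _ hU0) e2)
  rw [ld_div D (pow_ne_zero _ hU0) e2, ld_pow D hU0]
  have e3 : D (1 + a * X ^ j) = j * (a * X ^ j) := by
    rw [map_add, Derivation.leibniz, D_powField D ha, Derivation.leibniz_pow, hD]
    simp only [smul_eq_mul, nsmul_eq_mul, Derivation.map_one_eq_zero]
    rcases Nat.eq_zero_or_pos j with h0 | h0
    · simp [h0]
    · have : X ^ j = X ^ (j - 1) * X := by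
        rw [← pow_succ, Nat.sub_add_cancel h0]
      rw [this]; ring
  have e4 : ld D (1 + a * X ^ j) = j * ld D U := by
    unfold ld at *
    rw [e3]
    have e5 : U - D U ≠ 0 := by
      intro h5
      apply h1
      field_simp
      rw [h5]; ring
    rw [e1, ← h]
    field_simp
  rw [e4]; ring

/-- The configuration theorem. -/
theorem conf {X Y U V W Q : F} (D₁ D₂ : Derivation ℤ F F) (hX : X ∉ powField p F)
    (hY : Y ∉ adj p X) (h11 : D₁ X = X) (h12 : D₁ Y = 0) (h21 : D₂ X = 0) (h22 : D₂ Y = Y)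
    (hU0 : U ≠ 0) (hV0 : V ≠ 0) (hW0 : W ≠ 0) (hQ0 : Q ≠ 0)
    (hU : U ∈ adj p X) (hV : V ∈ adj p Y) (hW : W / X ∈ adj p (Y / X)) (hQ : Q ∈ adj p W)
    (hQX : Q / X ∈ adj p (V / X)) (hQY : Q / Y ∈ adj p (U / Y))
    (hUP : U ∉ powField p F) (hUX : U / X ∉ powField p F)
    (hVP : V ∉ powField p F) (hVY : V / Y ∉ powField p F) :
    (∃ i < p, U / X ^ i ∈ powField p F) ∨
      ∃ j : ℕ, 0 < j ∧ j < p ∧ ∃ a ∈ powField p F, ∃ b ∈ powField p F, a ≠ 0 ∧ b ≠ 0 ∧
        1 + a * X ^ j ≠ 0 ∧ 1 + b * Y ^ j ≠ 0 ∧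
        U ^ j / (1 + a * X ^ j) ∈ powField p F ∧ V ^ j / (1 + b * Y ^ j) ∈ powField p F := by
  have hX0 : X ≠ 0 := fun h => hX (h ▸ (powField p F).zero_mem)
  have hY0 : Y ≠ 0 := fun h => hY (h ▸ (adj p X).zero_mem)
  have hYP : Y ∉ powField p F := fun h => hY (powField_le_adj X h)
  -- log derivatives
  have lX1 : ld D₁ X = 1 := by unfold ld; rw [h11]; field_simp
  have lX2 : ld D₂ X = 0 := by unfold ld; rw [h21]; simp
  have lY1 : ld D₁ Y = 0 := by unfold ld; rw [h12]; simp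
  have lY2 : ld D₂ Y = 1 := by unfold ld; rw [h22]; field_simp
  have lU2 : ld D₂ U = 0 := ld_zero_of D₂ hU h21
  have lV1 : ld D₁ V = 0 := ld_zero_of D₁ hV h12
  set A := ld D₁ U with hA
  set B := ld D₂ V with hB
  set P1 := ld D₁ Q with hP1
  set P2 := ld D₂ Q with hP2
  have hAm : A ∈ adj p X := ld_mem D₁ hU (by rw [h11]; exact self_mem_adj X)
  have hBm : B ∈ adj p Y := ld_mem D₂ hV (by rw [h22]; exact self_mem_adj Y)
  have hA0 : A ≠ 0 := fun h => hUP (mem_powField_of_ld D₁ hU (by rw [h11]; exact hX0) hU0 h)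
  have hB0 : B ≠ 0 := fun h => hVP (mem_powField_of_ld D₂ hV (by rw [h22]; exact hY0) hV0 h)
  have hA1 : 1 - A ≠ 0 := by
    intro h
    apply hUX
    apply mem_powField_of_ld D₁ ((adj p X).div_mem hU (self_mem_adj X))
      (by rw [h11]; exact hX0) (div_ne_zero hU0 hX0)
    rw [ld_div D₁ hU0 hX0, lX1, ← hA]
    linear_combination -h
  have hB1 : 1 - B ≠ 0 := by
    intro h
    apply hVY
    apply mem_powField_of_ld D₂ ((adj p Y).div_mem hV (self_mem_adj Y))
      (by rw [h22]; exact hY0) (div_ne_zero hV0 hY0)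
    rw [ld_div D₂ hV0 hY0, lY2, ← hB]
    linear_combination -h
  -- W
  have hs0 : Y / X ≠ 0 := div_ne_zero hY0 hX0
  have ls1 : ld D₁ (Y / X) = -1 := by rw [ld_div D₁ hY0 hX0, lX1, lY1]; ring
  have ls2 : ld D₂ (Y / X) = 1 := by rw [ld_div D₂ hY0 hX0, lX2, lY2]; ring
  set c := ld D₂ (W / X) with hc
  have hcm : c ∈ adj p (Y / X) := by
    apply ld_mem D₂ hW
    have : D₂ (Y / X) = Y / X := by
      unfold ld at ls2
      field_simp at ls2
      rw [eq_div_iff hX0, mul_comm]; exact ls2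
    rw [this]; exact self_mem_adj _
  have hc1 : ld D₁ (W / X) = - c := by
    have := ld_prop hs0 hW (div_ne_zero hW0 hX0) D₁ D₂
    rw [ls1, ls2] at this
    rw [hc]; linear_combination this
  have lW1 : ld D₁ W = 1 - c := by
    have := ld_div D₁ hW0 hX0
    rw [hc1, lX1] at this
    linear_combination -this
  have lW2 : ld D₂ W = c := by
    have := ld_div D₂ hW0 hX0
    rw [lX2] at this
    rw [hc]; linear_combination -this
  -- Q
  have q1 : P1 * c = P2 * (1 - c) := by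
    have := ld_prop hW0 hQ hQ0 D₁ D₂
    rw [lW1, lW2] at this
    exact this
  have q2 : (P1 - 1) * B = - P2 := by
    have := ld_prop (div_ne_zero hV0 hX0) hQX (div_ne_zero hQ0 hX0) D₁ D₂
    rw [ld_div D₁ hQ0 hX0, ld_div D₂ hQ0 hX0, ld_div D₁ hV0 hX0, ld_div D₂ hV0 hX0,
      lX1, lX2, lV1, ← hB, ← hP1, ← hP2] at this
    linear_combination this
  have q3 : - P1 = (P2 - 1) * A := by
    have := ld_prop (div_ne_zero hU0 hY0) hQY (div_ne_zero hQ0 hY0) D₁ D₂
    rw [ld_div D₁ hQ0 hY0, ld_div D₂ hQ0 hY0, ld_div D₁ hU0 hY0, ld_div D₂ hU0 hY0,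
      lY1, lY2, lU2, ← hA, ← hP1, ← hP2] at this
    linear_combination this
  have r1 : P1 * (1 - A * B) = A * (1 - B) := by linear_combination -q3 - A * q2
  have r2 : P2 * (1 - A * B) = B * (1 - A) := by linear_combination q2 + B * q3
  have r3 : A * (1 - B) * c = B * (1 - A) * (1 - c) := by
    rw [← r1, ← r2]; linear_combination (1 - A * B) * q1
  have hc0 : c ≠ 0 := by
    intro h
    rw [h] at r3
    have : B * (1 - A) = 0 := by linear_combination -r3
    rcases mul_eq_zero.1 this with h | h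
    · exact hB0 h
    · exact hA1 h
  have hc1' : 1 - c ≠ 0 := by
    intro h
    have h2 : c = 1 := by linear_combination -h
    rw [h2] at r3
    have : A * (1 - B) = 0 := by linear_combination r3
    rcases mul_eq_zero.1 this with h | h
    · exact hA0 h
    · exact hB1 h
  obtain ⟨j, hj, a, ha, b, hb, ha0, hb0, hfa, hgb⟩ := funeq (p := p)
    (f := A / (1 - A)) (g := B / (1 - B)) (γ := (1 - c) / c) D₁ D₂ hX hY h11 h12 h21 h22
    ((adj p X).div_mem hAm ((adj p X).sub_mem (adj p X).one_mem hAm))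
    ((adj p Y).div_mem hBm ((adj p Y).sub_mem (adj p Y).one_mem hBm))
    ((adj p _).div_mem ((adj p _).sub_mem (adj p _).one_mem hcm) hcm)
    (div_ne_zero hA0 hA1) (div_ne_zero hB0 hB1) (div_ne_zero hc1' hc0)
    (by field_simp; linear_combination r3)
  rcases Nat.eq_zero_or_pos j with h0 | h0
  · left
    subst h0
    rw [pow_zero, mul_one] at hfa
    have hAP : A ∈ powField p F := by
      have h1 : A = a / (1 + a) := by
        rw [← hfa]; field_simp; ring
      rw [h1]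
      exact (powField p F).div_mem ha ((powField p F).add_mem (powField p F).one_mem ha)
    obtain ⟨i, hi, -, e, he, he0, hUe⟩ := eig D₁ hX h11 hU hU0 hAP
      (by rw [hA]; unfold ld; field_simp)
    refine ⟨i, hi, ?_⟩
    rw [hUe, mul_div_assoc, div_self (pow_ne_zero _ hX0), mul_one]
    exact he
  · right
    obtain ⟨u1, u2⟩ := one_var D₁ hX h11 hU hU0 ha hA1 hfa
    obtain ⟨v1, v2⟩ := one_var D₂ hYP h22 hV hV0 hb hB1 hgb
    exact ⟨j, h0, hj, a, ha, b, hb, ha0, hb0, u1, v1, u2, v2⟩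

end Crest.Agent.MK
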