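import Mathlib
import Crest.Prelude.Def_MilnorK
import Crest.Agent.MKBase

set_option autoImplicit false
set_option linter.unusedSectionVars false

open Crest.NumberTheoryR.MilnorK

open scoped IntermediateField

namespace Crest.Agent.MK

section DER
variable {p : ℕ} [Fact p.Prime] {F : Type*} [Field F] [CharP F p]

theorem der_minpoly {U : Subfield F} (hU : powField p F ≤ U) {z : F} (hz : z ∉ U) :
    minpoly U z = Polynomial.X ^ p - Polynomial.C (⟨z ^ p, hU (pow_mem_powField z)⟩ : U) := by
  have hp : p.Prime := Fact.out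
  have hirr : Irreducible (Polynomial.X ^ p -
      Polynomial.C (⟨z ^ p, hU (pow_mem_powField z)⟩ : U)) := by
    apply X_pow_sub_C_irreducible_of_prime hp
    intro b hb
    apply hz
    have h1 : (b : F) ^ p = z ^ p := by
      have := congrArg (fun t : U => (t : F)) hb
      simpa using this
    have h2 : ((b : F) - z) ^ p = 0 := by
      rw [sub_pow_char, h1, sub_self]
    have h3 : (b : F) - z = 0 := pow_eq_zero_iff (hp.ne_zero) |>.1 h2
    have h4 : z = (b : F) := (sub_eq_zero.1 h3).symm
    rw [h4]; exact b.2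
  symm
  apply minpoly.eq_of_irreducible_of_monic hirr
  · simp only [map_sub, map_pow, Polynomial.aeval_X, Polynomial.aeval_C]
    show z ^ p - z ^ p = 0
    exact sub_self _
  · exact Polynomial.monic_X_pow_sub_C _ hp.ne_zero

theorem der_isIntegral {U : Subfield F} (hU : powField p F ≤ U) (z : F) : IsIntegral U z := by
  have hp : p.Prime := Fact.out
  refine ⟨Polynomial.X ^ p - Polynomial.C (⟨z ^ p, hU (pow_mem_powField z)⟩ : U),
    Polynomial.monic_X_pow_sub_C _ hp.ne_zero, ?_⟩
  show Polynomial.aeval z _ = 0
  simp only [map_sub, map_pow, Polynomial.aeval_X, Polynomial.aeval_C]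
  show z ^ p - z ^ p = 0
  exact sub_self _

theorem der_finrank {U : Subfield F} (hU : powField p F ≤ U) {z : F} (hz : z ∉ U) :
    Module.finrank U U⟮z⟯ = p := by
  have hp : p.Prime := Fact.out
  rw [IntermediateField.adjoin.finrank (der_isIntegral hU z), der_minpoly hU hz,
    Polynomial.natDegree_X_pow_sub_C]

theorem exists_derivation {W : Subfield F} (hW : powField p F ≤ W) {v : F} (hv : v ∉ W) :
    ∃ D : Derivation ℤ F F, (∀ w ∈ W, D w = 0) ∧ D v = 1 := by
  have hp : p.Prime := Fact.out
  -- Zorn
  obtain ⟨U, hWU, hUmax⟩ := zorn_le_nonempty₀ {U : Subfield F | W ≤ U ∧ v ∉ U} (by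
    intro c hc hchain U₀ hU₀
    have hne : c.Nonempty := ⟨U₀, hU₀⟩
    refine ⟨sSup c, ⟨?_, ?_⟩, fun z hz => le_sSup hz⟩
    · exact (hc hU₀).1.trans (le_sSup hU₀)
    · intro hmem
      rw [Subfield.mem_sSup_of_directedOn hne hchain.directedOn] at hmem
      obtain ⟨V, hV, hvV⟩ := hmem
      exact (hc hV).2 hvV) W ⟨le_refl _, hv⟩
  have hvU : v ∉ U := hUmax.prop.2
  have hU : powField p F ≤ U := hW.trans hWU
  -- every `z` lies in `U(v)`
  have hall : ∀ z : F, z ∈ U⟮v⟯ := by
    intro z
    by_cases hz : z ∈ U
    · exact U⟮v⟯.algebraMap_mem ⟨z, hz⟩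
    · have hvz : v ∈ U⟮z⟯ := by
        by_contra hcon
        have h1 : U ≤ (U⟮z⟯).toSubfield := by
          intro t ht
          exact U⟮z⟯.algebraMap_mem ⟨t, ht⟩
        have h2 : (U⟮z⟯).toSubfield ≤ U := hUmax.le_of_ge ⟨hWU.trans h1, hcon⟩ h1
        exact hz (h2 (IntermediateField.mem_adjoin_simple_self U z))
      have hle : U⟮v⟯ ≤ U⟮z⟯ := by
        rw [IntermediateField.adjoin_simple_le_iff]; exact hvz
      have : FiniteDimensional U U⟮z⟯ :=
        IntermediateField.adjoin.finiteDimensional (der_isIntegral hU z)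
      have heq : U⟮v⟯ = U⟮z⟯ := by
        apply IntermediateField.eq_of_le_of_finrank_eq hle
        rw [der_finrank hU hvU, der_finrank hU hz]
      rw [heq]
      exact IntermediateField.mem_adjoin_simple_self U z
  have hsurj : Function.Surjective (Polynomial.aeval v : Polynomial U →ₐ[U] F) := by
    intro z
    have hz := hall z
    have h1 : z ∈ (U⟮v⟯).toSubalgebra := hz
    rw [IntermediateField.adjoin_simple_toSubalgebra_of_isAlgebraic (der_isIntegral hU v).isAlgebraic,
      Algebra.adjoin_singleton_eq_range_aeval] at h1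
    exact h1
  have hd : ∀ x : Polynomial U, (Polynomial.aeval v : Polynomial U →ₐ[U] F) x = 0 →
      (Polynomial.aeval v : Polynomial U →ₐ[U] F)
        ((Polynomial.derivative' : Derivation U (Polynomial U) (Polynomial U)) x) = 0 := by
    intro x hx
    obtain ⟨y, rfl⟩ := minpoly.dvd U v hx
    rw [Derivation.leibniz, map_add, smul_eq_mul, smul_eq_mul, map_mul, map_mul, minpoly.aeval,
      zero_mul, zero_add, der_minpoly hU hvU]
    have : ((Polynomial.derivative' : Derivation U (Polynomial U) (Polynomial U))
        (Polynomial.X ^ p - Polynomial.C (⟨v ^ p, hU (pow_mem_powField v)⟩ : U))) = 0 := by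
      show Polynomial.derivative _ = 0
      rw [Polynomial.derivative_sub, Polynomial.derivative_X_pow, Polynomial.derivative_C]
      have hcast : ((p : ℕ) : U) = 0 := by
        apply Subtype.ext
        push_cast
        exact CharP.cast_eq_zero F p
      rw [hcast]; simp
    rw [this, map_zero, mul_zero]
  let D : Derivation U F F := Derivation.liftOfSurjective (f := (Polynomial.aeval v :
    Polynomial U →ₐ[U] F)) hsurj (d := Polynomial.derivative') hd
  refine ⟨D.restrictScalars ℤ, ?_, ?_⟩
  · intro w hw
    show D w = 0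
    have : w = algebraMap U F ⟨w, hWU hw⟩ := rfl
    rw [this, Derivation.map_algebraMap]
  · show D v = 1
    have h1 : D ((Polynomial.aeval v : Polynomial U →ₐ[U] F) Polynomial.X) =
        (Polynomial.aeval v : Polynomial U →ₐ[U] F)
          ((Polynomial.derivative' : Derivation U (Polynomial U) (Polynomial U)) Polynomial.X) :=
      Derivation.liftOfSurjective_apply hsurj hd Polynomial.X
    rw [Polynomial.aeval_X] at h1
    rw [h1]
    show (Polynomial.aeval v) (Polynomial.derivative Polynomial.X) = 1
    simp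

end DER

end Crest.Agent.MK
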