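import Mathlib
import Crest.Prelude.Def_MilnorK
import Crest.Agent.MKBase

set_option autoImplicit false
set_option linter.unusedSectionVars false

open Crest.NumberTheoryR.MilnorK

namespace Crest.Agent.MK

variable {p : ℕ} [Fact p.Prime] {K : Type*} [Field K] [CharP K p]

/-- finitely generated over the subfield `k` ⇒ essentially of finite type. -/
theorem adjoin_top_of_closure (k : Subfield K) (s : Set K)
    (hs : Subfield.closure ((k : Set K) ∪ s) = ⊤) :
    IntermediateField.adjoin k s = ⊤ := by
  rw [eq_top_iff]
  intro x _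
  have hx : x ∈ Subfield.closure ((k : Set K) ∪ s) := by rw [hs]; trivial
  have hle : Subfield.closure ((k : Set K) ∪ s) ≤ (IntermediateField.adjoin k s).toSubfield := by
    rw [Subfield.closure_le]
    rintro y (hy | hy)
    · exact (IntermediateField.adjoin k s).algebraMap_mem ⟨y, hy⟩
    · exact IntermediateField.subset_adjoin k s hy
  exact hle hx

theorem essFiniteType_of_closure (k : Subfield K)
    (hK : ∃ s : Finset K, Subfield.closure ((k : Set K) ∪ (s : Set K)) = ⊤) :
    Algebra.EssFiniteType k K := by
  obtain ⟨s, hs⟩ := hK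
  rw [← IntermediateField.fg_top_iff]
  exact ⟨s, adjoin_top_of_closure k s hs⟩

/-- The kernel of a derivation, as a subfield. -/
def kerDer {R : Type*} [CommRing R] [Algebra R K] {M : Type*} [AddCommGroup M] [Module R M]
    [Module K M] (D : Derivation R K M) : Subfield K where
  carrier := {x | D x = 0}
  mul_mem' := by
    intro a b ha hb
    simp only [Set.mem_ofPred_eq] at ha hb ⊢
    rw [D.leibniz, ha, hb]; simp
  one_mem' := by simp
  add_mem' := by
    intro a b ha hb
    simp only [Set.mem_ofPred_eq] at ha hb ⊢
    rw [map_add, ha, hb, add_zero]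
  zero_mem' := by simp
  neg_mem' := by
    intro a ha
    simp only [Set.mem_ofPred_eq] at ha ⊢
    rw [map_neg, ha, neg_zero]
  inv_mem' := by
    intro a ha
    simp only [Set.mem_ofPred_eq] at ha ⊢
    rw [D.leibniz_inv, ha, smul_zero]

theorem mem_kerDer {R : Type*} [CommRing R] [Algebra R K] {M : Type*} [AddCommGroup M] [Module R M]
    [Module K M] (D : Derivation R K M) (x : K) : x ∈ kerDer D ↔ D x = 0 := Iff.rfl

open scoped IntermediateField.algebraAdjoinAdjoin in
theorem trdeg_le_one_of_adj (k : Subfield K)
    (hK : ∃ s : Finset K, Subfield.closure ((k : Set K) ∪ (s : Set K)) = ⊤)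
    (x : K) (hx : adj p x = ⊤) : Algebra.trdeg k K ≤ 1 := by
  have := essFiniteType_of_closure k hK
  let E := IntermediateField.adjoin k ({x} : Set K)
  have : Algebra.EssFiniteType E K := Algebra.EssFiniteType.of_comp k E K
  have hD : ∀ y : K, KaehlerDifferential.D E K y = 0 := by
    intro y
    have hy : y ∈ adj p x := by rw [hx]; trivial
    have hle : adj p x ≤ kerDer (KaehlerDifferential.D E K) := by
      apply adj_le
      · intro z hz
        obtain ⟨w, rfl⟩ := mem_powField.1 hz
        rw [mem_kerDer, Derivation.leibniz_pow]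
        have : (p : K) = 0 := CharP.cast_eq_zero K p
        rw [← Nat.cast_smul_eq_nsmul K, this, zero_smul]
      · rw [mem_kerDer]
        have : x = algebraMap E K ⟨x, IntermediateField.mem_adjoin_simple_self k x⟩ := rfl
        rw [this, Derivation.map_algebraMap]
    exact hle hy
  have : Subsingleton (Ω[K⁄E]) := by
    rw [← Submodule.subsingleton_iff K]
    apply subsingleton_of_bot_eq_top
    rw [eq_comm, ← KaehlerDifferential.span_range_derivation, Submodule.span_eq_bot]
    rintro _ ⟨y, rfl⟩
    exact hD y
  have : Algebra.FormallyUnramified E K := ⟨this⟩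
  have : Algebra.IsSeparable E K := Algebra.FormallyUnramified.isSeparable E K
  have hEK : Algebra.IsAlgebraic E K := inferInstance
  have hA : Algebra.IsAlgebraic (Algebra.adjoin k ({x} : Set K)) K :=
    (IsFractionRing.comap_isAlgebraic_iff (K := E)).2 hEK
  have h1 := Algebra.IsAlgebraic.trdeg_le_cardinalMk k ({x} : Set K)
  simpa using h1

/-- `[K : K^p] ≥ p^2`. -/
theorem exists_indep (k : Subfield K) [IsAlgClosed k]
    (hK : ∃ s : Finset K, Subfield.closure ((k : Set K) ∪ (s : Set K)) = ⊤)
    (hK2 : 2 ≤ Algebra.trdeg k K) : ∃ x y : K, x ∉ powField p K ∧ y ∉ adj p x := by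
  have key : ∀ x : K, adj p x ≠ ⊤ := by
    intro x hx
    have h1 := trdeg_le_one_of_adj k hK x hx
    have h2 := hK2.trans h1
    exact absurd h2 (by norm_num)
  have h1 : ∃ x : K, x ∉ powField p K := by
    by_contra hcon
    push Not at hcon
    apply key 1
    rw [eq_top_iff]
    intro z _
    exact powField_le_adj 1 (hcon z)
  obtain ⟨x, hx⟩ := h1
  have h2 : ∃ y : K, y ∉ adj p x := by
    by_contra hcon
    push Not at hcon
    apply key x
    rw [eq_top_iff]
    intro z _
    exact hcon z
  obtain ⟨y, hy⟩ := h2
  exact ⟨x, y, hx, hy⟩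

end Crest.Agent.MK
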