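import Mathlib
import Crest.Prelude.Def_MilnorK
import Crest.Agent.MKBase

set_option autoImplicit false
set_option linter.unusedSectionVars false

open Crest.NumberTheoryR.MilnorK

open scoped IntermediateField

namespace Crest.Agent.MK

section FG
variable {p : ℕ} [Fact p.Prime] {K : Type*} [Field K] [CharP K p]

theorem fgp_exists_basis (k : Subfield K) (z : K) (hz : Transcendental k z) :
    ∃ t : Set K, z ∈ t ∧ IsTranscendenceBasis k ((↑) : t → K) := by
  have h1 : AlgebraicIndepOn k (id : K → K) {z} := by
    unfold AlgebraicIndepOn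
    rw [algebraicIndependent_singleton_iff ⟨z, rfl⟩]
    exact hz
  obtain ⟨t, h2, h3⟩ := exists_isTranscendenceBasis_superset h1
  exact ⟨t, h2 rfl, h3⟩

/-- a transcendental element `u` over a field `B` is not in `B(u^p)`. -/
theorem fgp_not_mem {B : Type*} [Field B] [Algebra B K] {u : K} (hu : Transcendental B u)
    (h : u ∈ B⟮u ^ p⟯) : False := by
  have hp : p.Prime := Fact.out
  rw [IntermediateField.mem_adjoin_simple_iff] at h
  obtain ⟨r, s, hrs⟩ := h
  have hu0 : u ≠ 0 := by
    rintro rfl
    exact hu isAlgebraic_zero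
  have hs : Polynomial.aeval (u ^ p) s ≠ 0 := by
    intro h0
    rw [h0, div_zero] at hrs
    exact hu0 hrs
  have hs0 : s ≠ 0 := by
    rintro rfl
    simp at hs
  rw [eq_div_iff hs] at hrs
  have h1 : Polynomial.aeval u (Polynomial.X * Polynomial.expand B p s) =
      Polynomial.aeval u (Polynomial.expand B p r) := by
    rw [map_mul, Polynomial.aeval_X, Polynomial.expand_aeval, Polynomial.expand_aeval]
    exact hrs
  have h2 : Polynomial.X * Polynomial.expand B p s = Polynomial.expand B p r :=
    (transcendental_iff_injective.1 hu) h1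
  apply hs0
  ext i
  have h3 := congrArg (fun q => Polynomial.coeff q (i * p + 1)) h2
  simp only [Polynomial.coeff_X_mul] at h3
  rw [Polynomial.coeff_expand_mul hp.pos, Polynomial.coeff_expand hp.pos, if_neg] at h3
  · rw [h3]; simp
  · intro hdvd
    have h4 : p ∣ 1 := (Nat.dvd_add_right (Dvd.intro_left i rfl)).1 hdvd
    exact hp.one_lt.ne' (Nat.dvd_one.1 h4)

theorem fgp_algebraic {k : Subfield K} {t : Set K} {z : K}
    (ht : IsTranscendenceBasis k ((↑) : t → K)) (x : K) :
    IsAlgebraic (IntermediateField.adjoin k (t \ {z}))⟮z⟯ x := by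
  have halg := ht.isAlgebraic_field
  rw [Subtype.range_coe] at halg
  have hx : IsAlgebraic (IntermediateField.adjoin k t) x := halg.isAlgebraic x
  have hle : ∀ y ∈ IntermediateField.adjoin k t,
      y ∈ (IntermediateField.adjoin k (t \ {z}))⟮z⟯ := by
    have h1 : IntermediateField.adjoin k t ≤
        ((IntermediateField.adjoin k (t \ {z}))⟮z⟯).restrictScalars k := by
      rw [IntermediateField.adjoin_le_iff]
      intro y hy
      by_cases hyz : y = z
      · rw [hyz]
        exact IntermediateField.mem_adjoin_simple_self _ z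
      · have h2 : y ∈ IntermediateField.adjoin k (t \ {z}) :=
          IntermediateField.subset_adjoin k _ ⟨hy, hyz⟩
        exact IntermediateField.algebraMap_mem ((IntermediateField.adjoin k (t \ {z}))⟮z⟯)
          (⟨y, h2⟩ : IntermediateField.adjoin k (t \ {z}))
    intro y hy
    exact h1 hy
  let φ : IntermediateField.adjoin k t →+* (IntermediateField.adjoin k (t \ {z}))⟮z⟯ :=
    { toFun := fun y => ⟨y.1, hle y.1 y.2⟩
      map_one' := rfl
      map_mul' := fun _ _ => rfl
      map_zero' := rfl
      map_add' := fun _ _ => rfl }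
  obtain ⟨f, hf0, hf⟩ := hx
  refine ⟨f.map φ, ?_, ?_⟩
  · exact (Polynomial.map_ne_zero_iff φ.injective).2 hf0
  · rw [Polynomial.aeval_def, Polynomial.eval₂_map]
    exact hf

theorem mem_iff_forall_pow (k : Subfield K) [IsAlgClosed k]
    (hK : ∃ s : Finset K, Subfield.closure ((k : Set K) ∪ (s : Set K)) = ⊤) (z : K) :
    z ∈ k ↔ ∀ n : ℕ, ∃ w : K, w ^ (p ^ n) = z := by
  have hp : p.Prime := Fact.out
  constructor
  · intro hz n
    obtain ⟨w, hw⟩ := IsAlgClosed.exists_pow_nat_eq (⟨z, hz⟩ : k) (pow_pos hp.pos n)
    refine ⟨(w : K), ?_⟩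
    have := congrArg (fun t : k => (t : K)) hw
    simpa using this
  · intro hw
    by_contra hzk
    choose w hw using hw
    have hztr : Transcendental k z := by
      intro halg
      apply hzk
      obtain ⟨y, hy⟩ := minpoly.mem_range_of_degree_eq_one k z
        (IsAlgClosed.degree_eq_one_of_irreducible k (minpoly.irreducible halg.isIntegral))
      rw [← hy]
      exact y.2
    obtain ⟨t, hzt, ht⟩ := fgp_exists_basis k z hztr
    have hzB : Transcendental (IntermediateField.adjoin k (t \ {z})) z := by
      rw [IntermediateField.transcendental_adjoin_iff]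
      have h1 := ht.1.transcendental_adjoin (s := {i : t | (i : K) ≠ z}) (i := ⟨z, hzt⟩) (by simp)
      have h2 : (fun a : t => (a : K)) '' {i : t | (i : K) ≠ z} = t \ {z} := by
        ext y
        simp only [Set.mem_image, Set.mem_setOf_eq, Subtype.exists, exists_and_left, exists_prop,
          exists_eq_right_right, Set.mem_diff, Set.mem_singleton_iff]
        tauto
      rw [h2] at h1
      exact h1
    have hcomp : ∀ n, w (n + 1) ^ p = w n := by
      intro n
      have h1 : (w (n + 1) ^ p - w n) ^ (p ^ n) = 0 := by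
        rw [sub_pow_char_pow, ← pow_mul, hw n]
        have h2 : p * p ^ n = p ^ (n + 1) := by ring
        rw [h2, hw (n + 1), sub_self]
      exact sub_eq_zero.1 ((pow_eq_zero_iff (pow_pos hp.pos n).ne').1 h1)
    have hw0 : w 0 = z := by simpa using hw 0
    generalize hBdef : IntermediateField.adjoin k (t \ {z}) = B at *
    have halg : ∀ x : K, IsAlgebraic B⟮z⟯ x := by
      intro x
      have := fgp_algebraic (z := z) ht x
      rw [hBdef] at this
      exact this
    have hmono : ∀ n, B⟮w n⟯ ≤ B⟮w (n + 1)⟯ := by
      intro n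
      rw [IntermediateField.adjoin_simple_le_iff, ← hcomp n]
      exact pow_mem (IntermediateField.mem_adjoin_simple_self B _) p
    have hmono0 : ∀ n, B⟮z⟯ ≤ B⟮w n⟯ := by
      intro n
      induction n with
      | zero => rw [hw0]
      | succ n ih => exact ih.trans (hmono n)
    have hfin : FiniteDimensional B⟮z⟯ K := by
      obtain ⟨s, hs⟩ := hK
      have h1 : FiniteDimensional B⟮z⟯ (IntermediateField.adjoin B⟮z⟯ (s : Set K)) :=
        IntermediateField.finiteDimensional_adjoin (fun x _ => (halg x).isIntegral)
      have h2 : IntermediateField.adjoin B⟮z⟯ (s : Set K) = ⊤ := by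
        rw [eq_top_iff]
        intro x _
        have h3 : (⊤ : Subfield K) ≤ (IntermediateField.adjoin B⟮z⟯ (s : Set K)).toSubfield := by
          rw [← hs, Subfield.closure_le]
          rintro y (hy | hy)
          · have h4 : y ∈ B⟮z⟯ := by
              have h5 : y ∈ B := B.algebraMap_mem ⟨y, hy⟩
              exact B⟮z⟯.algebraMap_mem ⟨y, h5⟩
            exact (IntermediateField.adjoin B⟮z⟯ (s : Set K)).algebraMap_mem ⟨y, h4⟩
          · exact IntermediateField.subset_adjoin _ _ hy
        exact h3 (Subfield.mem_top x)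
      rw [h2] at h1
      exact LinearEquiv.finiteDimensional (IntermediateField.topEquiv (F := B⟮z⟯)
        (E := K)).toLinearEquiv
    let f : ℕ →o Submodule B⟮z⟯ K :=
      { toFun := fun n =>
          { carrier := (B⟮w n⟯ : Set K)
            add_mem' := fun ha hb => (B⟮w n⟯).add_mem ha hb
            zero_mem' := (B⟮w n⟯).zero_mem
            smul_mem' := fun c x hx => (B⟮w n⟯).mul_mem (hmono0 n c.2) hx }
        monotone' := monotone_nat_of_le_succ (fun n x hx => hmono n hx) }
    obtain ⟨n, hn⟩ := (monotone_stabilizes_iff_noetherian (R := B⟮z⟯) (M := K)).2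
      inferInstance f
    have h1 : w (n + 1) ∈ f n := by
      rw [hn (n + 1) (Nat.le_succ n)]
      exact IntermediateField.mem_adjoin_simple_self B _
    have h2 : w (n + 1) ∈ B⟮w n⟯ := h1
    rw [← hcomp n] at h2
    refine fgp_not_mem ?_ h2
    intro hcon
    apply hzB
    rw [← hw (n + 1)]
    exact hcon.pow _

end FG

end Crest.Agent.MK
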