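import Mathlib
import Crest.Prelude.Def_MilnorK
import Crest.Agent.MKBase

set_option autoImplicit false
set_option linter.unusedSectionVars false

open Crest.NumberTheoryR.MilnorK

namespace Crest.Agent.MK

/-- Abstract multiplicative collineation data between two fields with distinguished subfields. -/
structure Coll (K L : Type*) [Field K] [Field L] where
  K1 : Subfield K
  L1 : Subfield L
  T : K → L → Prop
  ne0 : ∀ {x X}, T x X → x ≠ 0
  ne0' : ∀ {x X}, T x X → X ≠ 0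
  ex : ∀ {x}, x ≠ 0 → ∃ X, T x X
  sur : ∀ {X}, X ≠ 0 → ∃ x, T x X
  mul : ∀ {x X y Y}, T x X → T y Y → T (x * y) (X * Y)
  inv : ∀ {x X}, T x X → T x⁻¹ X⁻¹
  one : ∀ {a A}, a ≠ 0 → A ≠ 0 → a ∈ K1 → A ∈ L1 → T a A
  one_l : ∀ {a A}, T a A → a ∈ K1 → A ∈ L1
  one_r : ∀ {a A}, T a A → A ∈ L1 → a ∈ K1
  line : ∀ {x X y Y}, T x X → T y Y → (∃ a ∈ K1, ∃ b ∈ K1, y = a + b * x) →
    ∃ a ∈ L1, ∃ b ∈ L1, Y = a + b * X
  line' : ∀ {x X y Y}, T x X → T y Y → (∃ a ∈ L1, ∃ b ∈ L1, Y = a + b * X) →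
    ∃ a ∈ K1, ∃ b ∈ K1, y = a + b * x
  dim : ∀ x : K, x ∉ K1 → ∃ z : K, ¬ ∃ a ∈ K1, ∃ b ∈ K1, z = a + b * x

namespace Coll

variable {K L : Type*} [Field K] [Field L] (C : Coll K L)

/-- `1, x, y` independent over `F1`. -/
def Ind {F : Type*} [Field F] (F1 : Subfield F) (x y : F) : Prop :=
  x ∉ F1 ∧ ¬ ∃ a ∈ F1, ∃ b ∈ F1, y = a + b * x

theorem Ind.lin {F : Type*} [Field F] {F1 : Subfield F} {x y : F} (h : Ind F1 x y) {a b c : F}
    (ha : a ∈ F1) (hb : b ∈ F1) (hc : c ∈ F1) (h0 : a + b * x + c * y = 0) :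
    a = 0 ∧ b = 0 ∧ c = 0 := by
  obtain ⟨hx, hy⟩ := h
  have hc0 : c = 0 := by
    by_contra hc0
    apply hy
    refine ⟨-a / c, F1.div_mem (F1.neg_mem ha) hc, -b / c, F1.div_mem (F1.neg_mem hb) hc, ?_⟩
    field_simp
    linear_combination h0
  subst hc0
  have hb0 : b = 0 := by
    by_contra hb0
    apply hx
    have : x = -a / b := by
      field_simp
      linear_combination h0
    rw [this]
    exact F1.div_mem (F1.neg_mem ha) hb
  subst hb0
  refine ⟨?_, rfl, rfl⟩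
  simpa using h0

/-- comparison of coefficients in `1, x`. -/
theorem lin2 {F : Type*} [Field F] {F1 : Subfield F} {x : F} (hx : x ∉ F1) {a b c d : F}
    (ha : a ∈ F1) (hb : b ∈ F1) (hc : c ∈ F1) (hd : d ∈ F1) (h0 : a + b * x = c + d * x) :
    a = c ∧ b = d := by
  have hbd : b = d := by
    by_contra hbd
    have hbd' : b - d ≠ 0 := sub_ne_zero.2 hbd
    apply hx
    have : x = (c - a) / (b - d) := by
      field_simp
      linear_combination h0
    rw [this]
    exact F1.div_mem (F1.sub_mem hc ha) (F1.sub_mem hb hd)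
  subst hbd
  exact ⟨add_right_cancel h0, rfl⟩

/-- comparison of coefficients in `1, x, y`. -/
theorem Ind.lin3 {F : Type*} [Field F] {F1 : Subfield F} {x y : F} (h : Ind F1 x y)
    {a b c a' b' c' : F}
    (ha : a ∈ F1) (hb : b ∈ F1) (hc : c ∈ F1) (ha' : a' ∈ F1) (hb' : b' ∈ F1) (hc' : c' ∈ F1)
    (h0 : a + b * x + c * y = a' + b' * x + c' * y) :
    a = a' ∧ b = b' ∧ c = c' := by
  have := h.lin (F1.sub_mem ha ha') (F1.sub_mem hb hb') (F1.sub_mem hc hc')
    (by linear_combination h0)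
  exact ⟨sub_eq_zero.1 this.1, sub_eq_zero.1 this.2.1, sub_eq_zero.1 this.2.2⟩

theorem Ind.symm {F : Type*} [Field F] {F1 : Subfield F} {x y : F} (h : Ind F1 x y) :
    Ind F1 y x := by
  refine ⟨?_, ?_⟩
  · intro hy
    apply h.2
    exact ⟨y, hy, 0, F1.zero_mem, by ring⟩
  · rintro ⟨a, ha, b, hb, hab⟩
    have := h.lin3 (a := a) (b := 0) (c := b) (a' := 0) (b' := 1) (c' := 0) ha F1.zero_mem hb
      F1.zero_mem F1.one_mem F1.zero_mem (by rw [hab]; ring)
    exact zero_ne_one this.2.1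

/-- if `y = a + b x` with `b ≠ 0` then `1, x, z` independent implies `1, y, z` independent. -/
theorem Ind.affine_left {F : Type*} [Field F] {F1 : Subfield F} {x z a b : F} (h : Ind F1 x z)
    (ha : a ∈ F1) (hb : b ∈ F1) (hb0 : b ≠ 0) : Ind F1 (a + b * x) z := by
  refine ⟨?_, ?_⟩
  · intro hy
    apply h.1
    have : x = ((a + b * x) - a) / b := by field_simp; ring
    rw [this]
    exact F1.div_mem (F1.sub_mem hy ha) hb
  · rintro ⟨c, hc, d, hd, hcd⟩
    apply h.2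
    exact ⟨c + d * a, F1.add_mem hc (F1.mul_mem hd ha), d * b, F1.mul_mem hd hb, by
      rw [hcd]; ring⟩

theorem Ind.affine_right {F : Type*} [Field F] {F1 : Subfield F} {x z a b c : F} (h : Ind F1 x z)
    (ha : a ∈ F1) (hb : b ∈ F1) (hc : c ∈ F1) (hb0 : b ≠ 0) : Ind F1 x (a + c * x + b * z) := by
  refine ⟨h.1, ?_⟩
  rintro ⟨c', hc', d, hd, hcd⟩
  apply h.2
  refine ⟨(c' - a) / b, F1.div_mem (F1.sub_mem hc' ha) hb, (d - c) / b,
    F1.div_mem (F1.sub_mem hd hc) hb, ?_⟩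
  field_simp
  linear_combination hcd

/-! basic facts on `T` -/

theorem scale {x : K} {X A : L} (h : C.T x X) (hA : A ∈ C.L1) (hA0 : A ≠ 0) : C.T x (A * X) := by
  have := C.mul (C.one (one_ne_zero) hA0 C.K1.one_mem hA) h
  rwa [one_mul] at this

theorem scale' {x a : K} {X : L} (h : C.T x X) (ha : a ∈ C.K1) (ha0 : a ≠ 0) :
    C.T (a * x) X := by
  have := C.mul (C.one ha0 (one_ne_zero) ha C.L1.one_mem) h
  rwa [one_mul] at this

theorem uniq {x : K} {X X' : L} (h : C.T x X) (h' : C.T x X') :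
    ∃ A ∈ C.L1, A ≠ 0 ∧ X' = A * X := by
  have h1 := C.mul h' (C.inv h)
  rw [mul_inv_cancel₀ (C.ne0 h)] at h1
  refine ⟨X' * X⁻¹, C.one_l h1 C.K1.one_mem, C.ne0' h1, ?_⟩
  rw [mul_assoc, inv_mul_cancel₀ (C.ne0' h), mul_one]

theorem uniq' {x x' : K} {X : L} (h : C.T x X) (h' : C.T x' X) :
    ∃ A ∈ C.K1, A ≠ 0 ∧ x' = A * x := by
  have h1 := C.mul h' (C.inv h)
  rw [mul_inv_cancel₀ (C.ne0' h)] at h1
  refine ⟨x' * x⁻¹, C.one_r h1 C.L1.one_mem, C.ne0 h1, ?_⟩
  rw [mul_assoc, inv_mul_cancel₀ (C.ne0 h), mul_one]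

theorem line2 {x y z : K} {X Y Z : L} (hx : C.T x X) (hy : C.T y Y) (hz : C.T z Z)
    {a b : K} (ha : a ∈ C.K1) (hb : b ∈ C.K1) (h : z = a * x + b * y) :
    ∃ A ∈ C.L1, ∃ B ∈ C.L1, Z = A * X + B * Y := by
  obtain ⟨A, hA, B, hB, hAB⟩ := C.line (C.mul hy (C.inv hx)) (C.mul hz (C.inv hx))
    ⟨a, ha, b, hb, by
      have := C.ne0 hx
      rw [h]; field_simp⟩
  refine ⟨A, hA, B, hB, ?_⟩
  have hX := C.ne0' hx
  field_simp at hAB
  linear_combination hAB

theorem ind_of {x y : K} {X Y : L} (hx : C.T x X) (hy : C.T y Y) (h : Ind C.K1 x y) :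
    Ind C.L1 X Y := by
  refine ⟨fun hX => h.1 (C.one_r hx hX), fun hY => h.2 (C.line' hx hy hY)⟩

/-- existence of the normalised representative -/
theorem exists_norm {x : K} (hx : x ∉ C.K1) : ∃ X : L, C.T x X ∧ C.T (1 + x) (1 + X) := by
  have hx0 : x ≠ 0 := fun h => hx (h ▸ C.K1.zero_mem)
  have hx1 : 1 + x ≠ 0 := fun h => hx (by
    have : x = -1 := by linear_combination h
    rw [this]; exact C.K1.neg_mem C.K1.one_mem)
  obtain ⟨X0, hX0⟩ := C.ex hx0
  obtain ⟨Y0, hY0⟩ := C.ex hx1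
  obtain ⟨a, ha, b, hb, hab⟩ := C.line hX0 hY0 ⟨1, C.K1.one_mem, 1, C.K1.one_mem, by ring⟩
  have ha0 : a ≠ 0 := by
    rintro rfl
    rw [zero_add] at hab
    have hb0 : b ≠ 0 := by
      rintro rfl
      rw [zero_mul] at hab
      exact C.ne0' hY0 hab
    have h1 : C.T x Y0 := by rw [hab]; exact C.scale hX0 hb hb0
    obtain ⟨A, hA, hA0, hA1⟩ := C.uniq' h1 hY0
    have hxx : (A - 1) * x = 1 := by linear_combination -hA1
    apply hx
    have : x = (A - 1)⁻¹ := eq_inv_of_mul_eq_one_right hxx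
    rw [this]
    exact C.K1.inv_mem (C.K1.sub_mem hA C.K1.one_mem)
  have hb0 : b ≠ 0 := by
    rintro rfl
    rw [zero_mul, add_zero] at hab
    have h2 := C.one_r hY0 (hab ▸ ha)
    apply hx
    have : x = (1 + x) - 1 := by ring
    rw [this]
    exact C.K1.sub_mem h2 C.K1.one_mem
  refine ⟨b / a * X0, C.scale hX0 (C.L1.div_mem hb ha) (div_ne_zero hb0 ha0), ?_⟩
  have : 1 + b / a * X0 = a⁻¹ * Y0 := by rw [hab]; field_simp
  rw [this]
  exact C.scale hY0 (C.L1.inv_mem ha) (inv_ne_zero ha0)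

theorem norm_unique {x : K} (hx : x ∉ C.K1) {X X' : L} (h : C.T x X) (h1 : C.T (1 + x) (1 + X))
    (h' : C.T x X') (h1' : C.T (1 + x) (1 + X')) : X = X' := by
  obtain ⟨c, hc, hc0, hcc⟩ := C.uniq h h'
  obtain ⟨d, hd, hd0, hdd⟩ := C.uniq h1 h1'
  have hX : X ∉ C.L1 := fun hX => hx (C.one_r h hX)
  have := lin2 hX C.L1.one_mem hc hd hd (by
    rw [← hcc, hdd]; ring : (1 : L) + c * X = d + d * X)
  rw [hcc, this.2, ← this.1, one_mul]

open Classical in
/-- the normalised representative off `K1` -/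
noncomputable def phi (x : K) : L :=
  if hx : x ∉ C.K1 then (C.exists_norm hx).choose else 0

theorem phi_T {x : K} (hx : x ∉ C.K1) : C.T x (C.phi x) := by
  rw [phi, dif_pos hx]; exact (C.exists_norm hx).choose_spec.1

theorem phi_T1 {x : K} (hx : x ∉ C.K1) : C.T (1 + x) (1 + C.phi x) := by
  rw [phi, dif_pos hx]; exact (C.exists_norm hx).choose_spec.2

theorem phi_eq {x : K} (hx : x ∉ C.K1) {X : L} (h : C.T x X) (h1 : C.T (1 + x) (1 + X)) :
    C.phi x = X :=
  C.norm_unique hx (C.phi_T hx) (C.phi_T1 hx) h h1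

theorem phi_notMem {x : K} (hx : x ∉ C.K1) : C.phi x ∉ C.L1 :=
  fun h => hx (C.one_r (C.phi_T hx) h)

theorem phi_ind {x y : K} (h : Ind C.K1 x y) : Ind C.L1 (C.phi x) (C.phi y) :=
  C.ind_of (C.phi_T h.1) (C.phi_T h.symm.1) h

theorem phi_add {x y : K} (h : Ind C.K1 x y) : C.phi (x + y) = C.phi x + C.phi y := by
  have hx := h.1
  have hy := h.symm.1
  have hI := C.phi_ind h
  have hxy : x + y ∉ C.K1 := by
    have := (h.affine_right (a := 0) (b := 1) (c := 1) C.K1.zero_mem C.K1.one_mem C.K1.one_mem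
      one_ne_zero).symm.1
    rwa [zero_add, one_mul, one_mul] at this
  have hxy1 : 1 + x + y ≠ 0 := fun h0 => hxy (by
    have : x + y = -1 := by linear_combination h0
    rw [this]; exact C.K1.neg_mem C.K1.one_mem)
  have hxy0 : x + y ≠ 0 := fun h0 => hxy (h0 ▸ C.K1.zero_mem)
  set X := C.phi x with hX
  set Y := C.phi y with hY
  obtain ⟨Z, hZ⟩ := C.ex hxy1
  obtain ⟨a, ha, b, hb, hab⟩ := C.line2 (C.phi_T1 hx) (C.phi_T hy) hZ C.K1.one_mem C.K1.one_mem
    (by ring)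
  obtain ⟨a', ha', b', hb', hab'⟩ := C.line2 (C.phi_T1 hy) (C.phi_T hx) hZ C.K1.one_mem
    C.K1.one_mem (by ring)
  have e1 := hI.lin3 (a := a) (b := a) (c := b) (a' := a') (b' := b') (c' := a') ha ha hb ha' hb'
    ha' (by linear_combination hab' - hab)
  have hb_a : b = a := by rw [e1.2.2, e1.1]
  have hZ1 : Z = a * (1 + (X + Y)) := by rw [hab, hb_a]; ring
  have ha0 : a ≠ 0 := by
    rintro rfl
    exact C.ne0' hZ (by rw [hZ1, zero_mul])
  have hT1 : C.T (1 + (x + y)) (1 + (X + Y)) := by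
    have := C.scale hZ (C.L1.inv_mem ha) (inv_ne_zero ha0)
    rw [hZ1, ← mul_assoc, inv_mul_cancel₀ ha0, one_mul] at this
    rwa [← add_assoc]
  obtain ⟨W, hW⟩ := C.ex hxy0
  obtain ⟨c, hc, d, hd, hcd⟩ := C.line2 (C.phi_T hx) (C.phi_T hy) hW C.K1.one_mem C.K1.one_mem
    (by ring)
  obtain ⟨e, he, f, hf, hef⟩ := C.line hW hT1 ⟨1, C.K1.one_mem, 1, C.K1.one_mem, by ring⟩
  have e2 := hI.lin3 (a := 1) (b := 1) (c := 1) (a' := e) (b' := f * c) (c' := f * d)
    C.L1.one_mem C.L1.one_mem C.L1.one_mem he (C.L1.mul_mem hf hc) (C.L1.mul_mem hf hd)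
    (by rw [hcd] at hef; linear_combination hef)
  have hf0 : f ≠ 0 := by
    rintro rfl
    simpa using e2.2.1
  have hT : C.T (x + y) (X + Y) := by
    have := C.scale hW hf hf0
    have h3 : f * W = X + Y := by
      rw [hcd]
      calc f * (c * X + d * Y) = (f * c) * X + (f * d) * Y := by ring
        _ = X + Y := by rw [← e2.2.1, ← e2.2.2, one_mul, one_mul]
    rwa [h3] at this
  exact C.phi_eq hxy hT hT1

theorem exists_ind {x : K} (hx : x ∉ C.K1) : ∃ z, Ind C.K1 x z := by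
  obtain ⟨z, hz⟩ := C.dim x hx
  exact ⟨z, hx, hz⟩

/-- multiplier -/
theorem exists_mult {x a : K} (hx : x ∉ C.K1) (ha : a ∈ C.K1) (ha0 : a ≠ 0) :
    ∃ s ∈ C.L1, s ≠ 0 ∧ C.phi (a * x) = s * C.phi x := by
  have hax : a * x ∉ C.K1 := fun h => hx (by
    have : x = (a * x) / a := by field_simp
    rw [this]; exact C.K1.div_mem h ha)
  exact C.uniq (C.scale' (C.phi_T hx) ha ha0) (C.phi_T hax)

theorem mul_notMem {x a : K} (hx : x ∉ C.K1) (ha : a ∈ C.K1) (ha0 : a ≠ 0) :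
    a * x ∉ C.K1 := fun h => hx (by
    have : x = (a * x) / a := by field_simp
    rw [this]; exact C.K1.div_mem h ha)

theorem mult_ind {x y a : K} (h : Ind C.K1 x y) (ha : a ∈ C.K1) (ha0 : a ≠ 0) {s t : L}
    (hs : s ∈ C.L1) (ht : t ∈ C.L1)
    (h1 : C.phi (a * x) = s * C.phi x) (h2 : C.phi (a * y) = t * C.phi y) : s = t := by
  have hI := C.phi_ind h
  have hxy : Ind C.K1 (a * x) (a * y) := by
    have h3 := h.affine_left (a := 0) C.K1.zero_mem ha ha0
    have h4 := h3.affine_right (a := 0) (c := 0) C.K1.zero_mem ha C.K1.zero_mem ha0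
    simpa using h4
  have hxyn : x + y ∉ C.K1 := by
    have := (h.affine_right (a := 0) (b := 1) (c := 1) C.K1.zero_mem C.K1.one_mem C.K1.one_mem
      one_ne_zero).symm.1
    rwa [zero_add, one_mul, one_mul] at this
  obtain ⟨r, hr, hr0, hrr⟩ := C.exists_mult hxyn ha ha0
  rw [mul_add, C.phi_add hxy, C.phi_add h, h1, h2] at hrr
  have := hI.lin3 (a := 0) (b := s) (c := t) (a' := 0) (b' := r) (c' := r) C.L1.zero_mem hs ht
    C.L1.zero_mem hr hr (by linear_combination hrr)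
  rw [this.2.1, this.2.2]

/-- the multiplier does not depend on the point -/
theorem exists_sigma {a : K} (ha : a ∈ C.K1) (ha0 : a ≠ 0) :
    ∃ s ∈ C.L1, s ≠ 0 ∧ ∀ x, x ∉ C.K1 → C.phi (a * x) = s * C.phi x := by
  by_cases hne : ∃ x0 : K, x0 ∉ C.K1
  · obtain ⟨x0, hx0⟩ := hne
    obtain ⟨s, hs, hs0, hss⟩ := C.exists_mult hx0 ha ha0
    refine ⟨s, hs, hs0, fun x hx => ?_⟩
    obtain ⟨t, ht, ht0, htt⟩ := C.exists_mult hx ha ha0
    by_cases hI : Ind C.K1 x0 x
    · rw [htt, C.mult_ind hI ha ha0 hs ht hss htt]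
    · have hdep : ∃ c ∈ C.K1, ∃ d ∈ C.K1, x = c + d * x0 := by
        by_contra hdep
        exact hI ⟨hx0, hdep⟩
      obtain ⟨c, hc, d, hd, hcd⟩ := hdep
      have hd0 : d ≠ 0 := by
        rintro rfl
        apply hx
        rw [hcd]; simpa using hc
      obtain ⟨z, hz⟩ := C.exists_ind hx0
      have hxz : Ind C.K1 x z := by rw [hcd]; exact hz.affine_left hc hd hd0
      obtain ⟨r, hr, hr0, hrr⟩ := C.exists_mult hz.symm.1 ha ha0
      rw [htt, C.mult_ind hxz ha ha0 ht hr htt hrr, ← C.mult_ind hz ha ha0 hs hr hss hrr]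
  · push Not at hne
    exact ⟨1, C.L1.one_mem, one_ne_zero, fun x hx => absurd (hne x) hx⟩

open Classical in
noncomputable def sigma (a : K) : L :=
  if h : a ∈ C.K1 ∧ a ≠ 0 then (C.exists_sigma h.1 h.2).choose else 0

theorem sigma_mem (a : K) : C.sigma a ∈ C.L1 := by
  unfold sigma
  split_ifs with h
  · exact (C.exists_sigma h.1 h.2).choose_spec.1
  · exact C.L1.zero_mem

theorem sigma_ne {a : K} (ha : a ∈ C.K1) (ha0 : a ≠ 0) : C.sigma a ≠ 0 := by
  rw [sigma, dif_pos ⟨ha, ha0⟩]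
  exact (C.exists_sigma ha ha0).choose_spec.2.1

theorem phi_smul {a x : K} (ha : a ∈ C.K1) (ha0 : a ≠ 0) (hx : x ∉ C.K1) :
    C.phi (a * x) = C.sigma a * C.phi x := by
  rw [sigma, dif_pos ⟨ha, ha0⟩]
  exact (C.exists_sigma ha ha0).choose_spec.2.2 x hx

theorem sigma_zero : C.sigma 0 = 0 := by
  rw [sigma, dif_neg]
  rintro ⟨_, h⟩
  exact h rfl

open Classical in
/-- the total map -/
noncomputable def Phi (x : K) : L := if x ∈ C.K1 then C.sigma x else C.phi x

theorem Phi_mem {a : K} (ha : a ∈ C.K1) : C.Phi a = C.sigma a := by rw [Phi, if_pos ha]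

theorem Phi_notMem {x : K} (hx : x ∉ C.K1) : C.Phi x = C.phi x := by rw [Phi, if_neg hx]

theorem phi_one_add {x : K} (hx : x ∉ C.K1) : C.phi (1 + x) = 1 + C.phi x := by
  obtain ⟨z, hz⟩ := C.exists_ind hx
  have hI := C.phi_ind hz
  have h1x : Ind C.K1 (1 + x) z := by
    have := hz.affine_left C.K1.one_mem C.K1.one_mem one_ne_zero
    rwa [one_mul] at this
  have h1z : Ind C.K1 x (1 + z) := by
    have := hz.affine_right (a := 1) (b := 1) (c := 0) C.K1.one_mem C.K1.one_mem C.K1.zero_mem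
      one_ne_zero
    simpa using this
  obtain ⟨c, hc, hc0, hcc⟩ := C.uniq (C.phi_T1 hx) (C.phi_T h1x.1)
  obtain ⟨d, hd, hd0, hdd⟩ := C.uniq (C.phi_T1 hz.symm.1) (C.phi_T h1z.symm.1)
  have e1 := C.phi_add h1x
  have e2 := C.phi_add h1z
  rw [show x + (1 + z) = 1 + x + z by ring, e1, hcc, hdd] at e2
  have := hI.lin3 (a := c) (b := c) (c := 1) (a' := d) (b' := 1) (c' := d) hc hc C.L1.one_mem hd
    C.L1.one_mem hd (by linear_combination e2)
  rw [hcc, this.2.1, one_mul]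

theorem sigma_mul {a b : K} (ha : a ∈ C.K1) (hb : b ∈ C.K1) (hne : ∃ x : K, x ∉ C.K1) :
    C.sigma (a * b) = C.sigma a * C.sigma b := by
  by_cases ha0 : a = 0
  · rw [ha0, zero_mul, sigma_zero, zero_mul]
  by_cases hb0 : b = 0
  · rw [hb0, mul_zero, sigma_zero, mul_zero]
  obtain ⟨x, hx⟩ := hne
  have h1 := C.phi_smul (C.K1.mul_mem ha hb) (mul_ne_zero ha0 hb0) hx
  rw [mul_assoc, C.phi_smul ha ha0 (C.mul_notMem hx hb hb0), C.phi_smul hb hb0 hx,
    ← mul_assoc] at h1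
  exact (mul_right_cancel₀ (C.ne0' (C.phi_T hx)) h1).symm

theorem sigma_one_add {b : K} (hb : b ∈ C.K1) (hne : ∃ x : K, x ∉ C.K1) :
    C.sigma (1 + b) = 1 + C.sigma b := by
  obtain ⟨x, hx⟩ := hne
  have hs1 : C.sigma 1 = 1 := by
    have := C.phi_smul C.K1.one_mem one_ne_zero hx
    rw [one_mul] at this
    have h2 : (1 : L) * C.phi x = C.sigma 1 * C.phi x := by rw [one_mul]; exact this
    exact (mul_right_cancel₀ (C.ne0' (C.phi_T hx)) h2).symm
  by_cases hb0 : b = 0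
  · rw [hb0, add_zero, sigma_zero, add_zero, hs1]
  obtain ⟨z, hz⟩ := C.exists_ind hx
  have hI := C.phi_ind hz
  have h1 : Ind C.K1 x (z + b * x) := by
    have := hz.affine_right (a := 0) (b := 1) (c := b) C.K1.zero_mem C.K1.one_mem hb one_ne_zero
    rwa [zero_add, one_mul, add_comm] at this
  have h2 : Ind C.K1 z (b * x) := by
    have := hz.symm.affine_right (a := 0) (b := b) (c := 0) C.K1.zero_mem hb C.K1.zero_mem hb0
    simpa using this
  have e1 := C.phi_add h1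
  rw [C.phi_add h2, C.phi_smul hb hb0 hx] at e1
  by_cases hb1 : 1 + b = 0
  · have : x + (z + b * x) = z := by linear_combination x * hb1
    rw [this] at e1
    rw [hb1, sigma_zero]
    have h3 : (1 + C.sigma b) * C.phi x = 0 := by linear_combination -e1
    rcases mul_eq_zero.1 h3 with h4 | h4
    · exact h4.symm
    · exact absurd h4 (C.ne0' (C.phi_T hx))
  · have h5 : Ind C.K1 z ((1 + b) * x) := by
      have := hz.symm.affine_right (a := 0) (b := 1 + b) (c := 0) C.K1.zero_mem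
        (C.K1.add_mem C.K1.one_mem hb) C.K1.zero_mem hb1
      simpa using this
    rw [show x + (z + b * x) = z + (1 + b) * x by ring, C.phi_add h5,
      C.phi_smul (C.K1.add_mem C.K1.one_mem hb) hb1 hx] at e1
    have h3 : C.sigma (1 + b) * C.phi x = (1 + C.sigma b) * C.phi x := by linear_combination e1
    exact mul_right_cancel₀ (C.ne0' (C.phi_T hx)) h3

theorem sigma_add {a b : K} (ha : a ∈ C.K1) (hb : b ∈ C.K1) (hne : ∃ x : K, x ∉ C.K1) :
    C.sigma (a + b) = C.sigma a + C.sigma b := by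
  by_cases ha0 : a = 0
  · rw [ha0, zero_add, sigma_zero, zero_add]
  have h1 : a + b = a * (1 + b / a) := by field_simp
  have h2 : b = a * (b / a) := by field_simp
  rw [h1, C.sigma_mul ha (C.K1.add_mem C.K1.one_mem (C.K1.div_mem hb ha)) hne,
    C.sigma_one_add (C.K1.div_mem hb ha) hne]
  nth_rewrite 2 [h2]
  rw [C.sigma_mul ha (C.K1.div_mem hb ha) hne]
  ring

theorem phi_add_const {a x : K} (ha : a ∈ C.K1) (hx : x ∉ C.K1) :
    C.phi (a + x) = C.sigma a + C.phi x := by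
  by_cases ha0 : a = 0
  · rw [ha0, zero_add, sigma_zero, zero_add]
  have hxa : a⁻¹ * x ∉ C.K1 := C.mul_notMem hx (C.K1.inv_mem ha) (inv_ne_zero ha0)
  have h1xa : 1 + a⁻¹ * x ∉ C.K1 := fun h => hxa (by
    have : a⁻¹ * x = (1 + a⁻¹ * x) - 1 := by ring
    rw [this]; exact C.K1.sub_mem h C.K1.one_mem)
  have h1 : a + x = a * (1 + a⁻¹ * x) := by field_simp
  have h2 : x = a * (a⁻¹ * x) := by field_simp
  rw [h1, C.phi_smul ha ha0 h1xa, C.phi_one_add hxa]
  nth_rewrite 2 [h2]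
  rw [C.phi_smul ha ha0 hxa]
  ring

theorem Phi_add (hne : ∃ x : K, x ∉ C.K1) (x y : K) : C.Phi (x + y) = C.Phi x + C.Phi y := by
  by_cases hx : x ∈ C.K1
  · by_cases hy : y ∈ C.K1
    · rw [C.Phi_mem hx, C.Phi_mem hy, C.Phi_mem (C.K1.add_mem hx hy), C.sigma_add hx hy hne]
    · have hxy : x + y ∉ C.K1 := fun h => hy (by
        have : y = (x + y) - x := by ring
        rw [this]; exact C.K1.sub_mem h hx)
      rw [C.Phi_mem hx, C.Phi_notMem hy, C.Phi_notMem hxy, C.phi_add_const hx hy]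
  · by_cases hy : y ∈ C.K1
    · have hxy : x + y ∉ C.K1 := fun h => hx (by
        have : x = (x + y) - y := by ring
        rw [this]; exact C.K1.sub_mem h hy)
      rw [C.Phi_mem hy, C.Phi_notMem hx, C.Phi_notMem hxy, add_comm x y,
        C.phi_add_const hy hx, add_comm]
    · by_cases hI : Ind C.K1 x y
      · have hxy : x + y ∉ C.K1 := by
          have := (hI.affine_right (a := 0) (b := 1) (c := 1) C.K1.zero_mem C.K1.one_mem
            C.K1.one_mem one_ne_zero).symm.1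
          rwa [zero_add, one_mul, one_mul] at this
        rw [C.Phi_notMem hx, C.Phi_notMem hy, C.Phi_notMem hxy, C.phi_add hI]
      · have hdep : ∃ c ∈ C.K1, ∃ d ∈ C.K1, y = c + d * x := by
          by_contra hdep
          exact hI ⟨hx, hdep⟩
        obtain ⟨c, hc, d, hd, hcd⟩ := hdep
        have hd0 : d ≠ 0 := by
          rintro rfl
          apply hy
          rw [hcd]; simpa using hc
        have hyy : C.phi y = C.sigma c + C.sigma d * C.phi x := by
          rw [hcd, C.phi_add_const hc (C.mul_notMem hx hd hd0), C.phi_smul hd hd0 hx]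
        have hd1 : C.sigma (1 + d) = 1 + C.sigma d := C.sigma_one_add hd hne
        by_cases hd2 : 1 + d = 0
        · have hxy : x + y = c := by rw [hcd]; linear_combination x * hd2
          rw [hd2, sigma_zero] at hd1
          rw [C.Phi_notMem hx, C.Phi_notMem hy, hxy, C.Phi_mem hc, hyy]
          linear_combination C.phi x * hd1
        · have hxy : x + y = c + (1 + d) * x := by rw [hcd]; ring
          have hd3 : (1 + d) * x ∉ C.K1 :=
            C.mul_notMem hx (C.K1.add_mem C.K1.one_mem hd) hd2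
          have hxyn : c + (1 + d) * x ∉ C.K1 := fun h => hd3 (by
            have : (1 + d) * x = (c + (1 + d) * x) - c := by ring
            rw [this]; exact C.K1.sub_mem h hc)
          rw [C.Phi_notMem hx, C.Phi_notMem hy, hxy, C.Phi_notMem hxyn,
            C.phi_add_const hc hd3, C.phi_smul (C.K1.add_mem C.K1.one_mem hd) hd2 hx, hyy, hd1]
          ring

theorem Phi_T {x : K} (hx : x ≠ 0) : C.T x (C.Phi x) := by
  by_cases h : x ∈ C.K1
  · rw [C.Phi_mem h]
    exact C.one hx (C.sigma_ne h hx) h (C.sigma_mem x)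
  · rw [C.Phi_notMem h]; exact C.phi_T h

theorem Phi_zero : C.Phi 0 = 0 := by rw [C.Phi_mem C.K1.zero_mem, sigma_zero]

theorem Phi_one (hne : ∃ x : K, x ∉ C.K1) : C.Phi 1 = 1 := by
  rw [C.Phi_mem C.K1.one_mem]
  have := C.sigma_one_add C.K1.zero_mem hne
  rwa [add_zero, sigma_zero, add_zero] at this

theorem Phi_mul (hne : ∃ x : K, x ∉ C.K1) (x y : K) : C.Phi (x * y) = C.Phi x * C.Phi y := by
  by_cases hx0 : x = 0
  · rw [hx0, zero_mul, Phi_zero, zero_mul]
  by_cases hy : y ∈ C.K1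
  · by_cases hy0 : y = 0
    · rw [hy0, mul_zero, Phi_zero, mul_zero]
    by_cases hx : x ∈ C.K1
    · rw [C.Phi_mem hx, C.Phi_mem hy, C.Phi_mem (C.K1.mul_mem hx hy), C.sigma_mul hx hy hne]
    · rw [C.Phi_notMem hx, C.Phi_mem hy, mul_comm x y, C.Phi_notMem (C.mul_notMem hx hy hy0),
        C.phi_smul hy hy0 hx, mul_comm]
  · have hy0 : y ≠ 0 := fun h => hy (h ▸ C.K1.zero_mem)
    have h1y : 1 + y ∉ C.K1 := fun h => hy (by
      have : y = (1 + y) - 1 := by ring
      rw [this]; exact C.K1.sub_mem h C.K1.one_mem)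
    have h1y0 : 1 + y ≠ 0 := fun h => h1y (h ▸ C.K1.zero_mem)
    obtain ⟨c, hc, hc0, hcc⟩ := C.uniq (C.mul (C.Phi_T hx0) (C.Phi_T hy0))
      (C.Phi_T (mul_ne_zero hx0 hy0))
    obtain ⟨d, hd, hd0, hdd⟩ := C.uniq (C.mul (C.Phi_T hx0) (C.Phi_T h1y0))
      (C.Phi_T (mul_ne_zero hx0 h1y0))
    rw [C.Phi_add hne, C.Phi_one hne, mul_add, mul_one, C.Phi_add hne, hcc] at hdd
    have hPx : C.Phi x ≠ 0 := C.ne0' (C.Phi_T hx0)
    have h3 : 1 + c * C.Phi y = d + d * C.Phi y := by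
      apply mul_left_cancel₀ hPx
      linear_combination hdd
    have hPy : C.Phi y ∉ C.L1 := by rw [C.Phi_notMem hy]; exact C.phi_notMem hy
    have h4 := lin2 hPy C.L1.one_mem hc hd hd h3
    rw [hcc, h4.2, ← h4.1, one_mul]

theorem Phi_surj (hne : ∃ x : K, x ∉ C.K1) (Z : L) : ∃ x, C.Phi x = Z := by
  have key : ∀ Z : L, Z ∉ C.L1 → ∃ x, C.Phi x = Z := by
    intro Z hZ
    have hZ0 : Z ≠ 0 := fun h => hZ (h ▸ C.L1.zero_mem)
    have hZ1 : 1 + Z ≠ 0 := fun h => hZ (by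
      have : Z = -1 := by linear_combination h
      rw [this]; exact C.L1.neg_mem C.L1.one_mem)
    obtain ⟨u, hu⟩ := C.sur hZ0
    obtain ⟨v, hv⟩ := C.sur hZ1
    obtain ⟨a, ha, b, hb, hab⟩ := C.line' hu hv ⟨1, C.L1.one_mem, 1, C.L1.one_mem, by ring⟩
    have hun : u ∉ C.K1 := fun h => hZ (C.one_l hu h)
    have ha0 : a ≠ 0 := by
      rintro rfl
      rw [zero_add] at hab
      have hb0 : b ≠ 0 := by
        rintro rfl
        rw [zero_mul] at hab
        exact C.ne0 hv hab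
      have h1 : C.T v Z := by rw [hab]; exact C.scale' hu hb hb0
      obtain ⟨A, hA, hA0, hA1⟩ := C.uniq h1 hv
      have hxx : (A - 1) * Z = 1 := by linear_combination -hA1
      apply hZ
      have : Z = (A - 1)⁻¹ := eq_inv_of_mul_eq_one_right hxx
      rw [this]
      exact C.L1.inv_mem (C.L1.sub_mem hA C.L1.one_mem)
    have hb0 : b ≠ 0 := by
      rintro rfl
      rw [zero_mul, add_zero] at hab
      have h2 := C.one_l hv (hab ▸ ha)
      apply hZ
      have : Z = (1 + Z) - 1 := by ring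
      rw [this]
      exact C.L1.sub_mem h2 C.L1.one_mem
    have hx1 : C.T (b / a * u) Z := C.scale' hu (C.K1.div_mem hb ha) (div_ne_zero hb0 ha0)
    have hx2 : C.T (1 + b / a * u) (1 + Z) := by
      have : 1 + b / a * u = a⁻¹ * v := by rw [hab]; field_simp
      rw [this]
      exact C.scale' hv (C.K1.inv_mem ha) (inv_ne_zero ha0)
    have hxn : b / a * u ∉ C.K1 := fun h => hZ (C.one_l hx1 h)
    exact ⟨b / a * u, by rw [C.Phi_notMem hxn]; exact C.phi_eq hxn hx1 hx2⟩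
  by_cases hZ : Z ∈ C.L1
  · obtain ⟨x, hx⟩ := hne
    have hne : ∃ x : K, x ∉ C.K1 := ⟨x, hx⟩
    have hX : C.Phi x ∉ C.L1 := by rw [C.Phi_notMem hx]; exact C.phi_notMem hx
    have hZX : Z + C.Phi x ∉ C.L1 := fun h => hX (by
      have : C.Phi x = (Z + C.Phi x) - Z := by ring
      rw [this]; exact C.L1.sub_mem h hZ)
    obtain ⟨y, hy⟩ := key _ hZX
    refine ⟨y - x, ?_⟩
    have := C.Phi_add hne (y - x) x
    rw [sub_add_cancel, hy] at this
    exact (add_right_cancel this).symm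
  · exact key Z hZ

/-- the ring isomorphism -/
theorem main (hne : ∃ x : K, x ∉ C.K1) : ∃ α : K ≃+* L, ∀ x : K, x ≠ 0 → C.T x (α x) := by
  let f : K →+* L :=
    { toFun := C.Phi
      map_one' := C.Phi_one hne
      map_mul' := C.Phi_mul hne
      map_zero' := C.Phi_zero
      map_add' := C.Phi_add hne }
  refine ⟨RingEquiv.ofBijective f ⟨f.injective, C.Phi_surj hne⟩, fun x hx => ?_⟩
  exact C.Phi_T hx

end Coll

section FUND
variable {p : ℕ} [Fact p.Prime]
variable {K L : Type*} [Field K] [Field L] [CharP K p] [CharP L p]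

/-- `Θ` maps the line through `1` and `x` into the line through `1` and `Θ x`. -/
def LinePreserving (Θ : KOne K p ≃ₗ[ZMod p] KOne L p) : Prop :=
  ∀ (x y : Kˣ) (X Y : Lˣ), Θ (cls K p x) = cls L p X → Θ (cls K p y) = cls L p Y →
    (∃ a b : K, a ∈ powField p K ∧ b ∈ powField p K ∧ (y : K) = a + b * x) →
      ∃ a b : L, a ∈ powField p L ∧ b ∈ powField p L ∧ (Y : L) = a + b * X

/-- collineation data of `Θ` -/
noncomputable def collOf (Θ : KOne K p ≃ₗ[ZMod p] KOne L p) (h1 : LinePreserving Θ)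
    (h2 : LinePreserving Θ.symm)
    (hdim : ∃ x y : K, x ∉ powField p K ∧ y ∉ adj p x) : Coll K L where
  K1 := powField p K
  L1 := powField p L
  T x X := ∃ (u : Kˣ) (U : Lˣ), (u : K) = x ∧ (U : L) = X ∧ Θ (cls K p u) = cls L p U
  ne0 := by
    rintro x X ⟨u, U, rfl, rfl, h⟩
    exact u.ne_zero
  ne0' := by
    rintro x X ⟨u, U, rfl, rfl, h⟩
    exact U.ne_zero
  ex := by
    intro x hx
    obtain ⟨U, hU⟩ := cls_surj (Θ (cls K p (Units.mk0 x hx)))
    exact ⟨U, Units.mk0 x hx, U, rfl, rfl, hU.symm⟩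
  sur := by
    intro X hX
    obtain ⟨u, hu⟩ := cls_surj (Θ.symm (cls L p (Units.mk0 X hX)))
    refine ⟨u, u, Units.mk0 X hX, rfl, rfl, ?_⟩
    rw [hu, LinearEquiv.apply_symm_apply]
  mul := by
    rintro x X y Y ⟨u, U, rfl, rfl, h⟩ ⟨v, V, rfl, rfl, h'⟩
    refine ⟨u * v, U * V, by simp, by simp, ?_⟩
    rw [cls_mul, map_add, h, h', cls_mul]
  inv := by
    rintro x X ⟨u, U, rfl, rfl, h⟩
    refine ⟨u⁻¹, U⁻¹, by simp, by simp, ?_⟩
    rw [cls_inv, map_neg, h, cls_inv]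
  one := by
    intro a A ha0 hA0 ha hA
    refine ⟨Units.mk0 a ha0, Units.mk0 A hA0, rfl, rfl, ?_⟩
    rw [(cls_eq_zero_iff _).2 (by simpa using ha), (cls_eq_zero_iff _).2 (by simpa using hA),
      map_zero]
  one_l := by
    rintro x X ⟨u, U, rfl, rfl, h⟩ hx
    rw [← cls_eq_zero_iff] at hx ⊢
    rw [← h, hx, map_zero]
  one_r := by
    rintro x X ⟨u, U, rfl, rfl, h⟩ hx
    rw [← cls_eq_zero_iff] at hx ⊢
    rw [hx] at h
    exact (LinearEquiv.map_eq_zero_iff Θ).1 h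
  line := by
    rintro x X y Y ⟨u, U, rfl, rfl, h⟩ ⟨v, V, rfl, rfl, h'⟩ ⟨a, ha, b, hb, hab⟩
    obtain ⟨a', b', ha', hb', hab'⟩ := h1 u v U V h h' ⟨a, b, ha, hb, hab⟩
    exact ⟨a', ha', b', hb', hab'⟩
  line' := by
    rintro x X y Y ⟨u, U, rfl, rfl, h⟩ ⟨v, V, rfl, rfl, h'⟩ ⟨a, ha, b, hb, hab⟩
    obtain ⟨a', b', ha', hb', hab'⟩ := h2 U V u v
      (by rw [← h, LinearEquiv.symm_apply_apply]) (by rw [← h', LinearEquiv.symm_apply_apply])
      ⟨a, b, ha, hb, hab⟩
    exact ⟨a', ha', b', hb', hab'⟩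
  dim := by
    intro x hx
    by_contra hcon
    push Not at hcon
    obtain ⟨x0, y0, hx0, hy0⟩ := hdim
    obtain ⟨a, ha, b, hb, hab⟩ := hcon x0
    obtain ⟨c, hc, d, hd, hcd⟩ := hcon y0
    have hb0 : b ≠ 0 := by
      rintro rfl
      apply hx0
      rw [hab]; simpa using ha
    apply hy0
    have hxx : x = (x0 - a) / b := by rw [hab]; field_simp; ring
    have hle := powField_le_adj (p := p) x0
    rw [hcd, hxx]
    exact (adj p x0).add_mem (hle hc) ((adj p x0).mul_mem (hle hd)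
      ((adj p x0).div_mem ((adj p x0).sub_mem (self_mem_adj x0) (hle ha)) (hle hb)))

/-- FUND (fundamental theorem of projective geometry over the subfields of `p`-th powers,
multiplicative version) -/
theorem fund (Θ : KOne K p ≃ₗ[ZMod p] KOne L p) (h1 : LinePreserving Θ)
    (h2 : LinePreserving Θ.symm)
    (hdim : ∃ x y : K, x ∉ powField p K ∧ y ∉ adj p x) :
    ∃ α : K ≃+* L, ∀ u : Kˣ,
      Θ (cls K p u) = cls L p (Units.map α.toRingHom.toMonoidHom u) := by
  obtain ⟨α, hα⟩ := (collOf Θ h1 h2 hdim).main (by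
    obtain ⟨x, _, hx, _⟩ := hdim
    exact ⟨x, hx⟩)
  refine ⟨α, fun u => ?_⟩
  obtain ⟨v, V, hv, hV, h⟩ := hα u u.ne_zero
  have hvu : v = u := Units.ext hv
  rw [hvu] at h
  rw [h]
  congr 1
  ext
  rw [hV]
  rfl
end FUND

end Crest.Agent.MK
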