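import Mathlib
import Crest.Prelude.Def_MilnorK
import Crest.Agent.MKBase
import Crest.Agent.MKLin
import Crest.Agent.MKConf
import Crest.Agent.MKDer
import Crest.Agent.MKFund

set_option autoImplicit false
set_option linter.unusedSectionVars false

open Crest.NumberTheoryR.MilnorK

namespace Crest.Agent.MK

variable {p : ℕ} [Fact p.Prime]
variable {K L : Type*} [Field K] [Field L] [CharP K p] [CharP L p]

/-- `Θ` preserves `p`-dependence. -/
def PDep (Θ : KOne K p ≃ₗ[ZMod p] KOne L p) : Prop :=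
  ∀ (x y : Kˣ) (X Y : Lˣ), Θ (cls K p x) = cls L p X → Θ (cls K p y) = cls L p Y →
    ((y : K) ∈ adj p (x : K) ↔ (Y : L) ∈ adj p (X : L))

theorem PDep.symm {Θ : KOne K p ≃ₗ[ZMod p] KOne L p} (h : PDep Θ) : PDep Θ.symm := by
  intro x y X Y hX hY
  have h1 : Θ (cls K p X) = cls L p x := by rw [← hX, LinearEquiv.apply_symm_apply]
  have h2 : Θ (cls K p Y) = cls L p y := by rw [← hY, LinearEquiv.apply_symm_apply]
  exact (h X Y x y h1 h2).symm

/-- For `p`-independent `X, Y` there are the two partial derivations. -/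
theorem two_der {X Y : K} (hX : X ∉ powField p K) (hY : Y ∉ adj p X) :
    ∃ D₁ D₂ : Derivation ℤ K K, D₁ X = X ∧ D₁ Y = 0 ∧ D₂ X = 0 ∧ D₂ Y = Y := by
  have hX' : X ∉ adj p Y := by
    intro h
    exact hY (mem_adj_symm h hX)
  obtain ⟨D₁, h1, h2⟩ := exists_derivation (p := p) (powField_le_adj Y) hX'
  obtain ⟨D₂, h3, h4⟩ := exists_derivation (p := p) (powField_le_adj X) hY
  refine ⟨X • D₁, Y • D₂, ?_, ?_, ?_, ?_⟩
  · rw [Derivation.smul_apply, h2]; simp
  · rw [Derivation.smul_apply, h1 Y (self_mem_adj Y)]; simp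
  · rw [Derivation.smul_apply, h3 X (self_mem_adj X)]; simp
  · rw [Derivation.smul_apply, h4]; simp

theorem one_der {X : K} (hX : X ∉ powField p K) : ∃ D : Derivation ℤ K K, D X = X := by
  obtain ⟨D₁, h1, h2⟩ := exists_derivation (p := p) (le_refl (powField p K)) hX
  exact ⟨X • D₁, by rw [Derivation.smul_apply, h2]; simp⟩

theorem powField_self_of_mul {a x : K} (ha : a ∈ powField p K) (ha0 : a ≠ 0)
    (h : a * x ∈ powField p K) : x ∈ powField p K := by
  have : x = a⁻¹ * (a * x) := by field_simp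
  rw [this]
  exact (powField p K).mul_mem ((powField p K).inv_mem ha) h

/-- `T m x u`: `Θ[u]^m = 1 + a Θ[x]^m`. -/
def TT (Θ : KOne K p ≃ₗ[ZMod p] KOne L p) (m : ℕ) (x u : Kˣ) : Prop :=
  ∀ (X U : Lˣ), Θ (cls K p x) = cls L p X → Θ (cls K p u) = cls L p U →
    ∃ a ∈ powField p L, a ≠ 0 ∧ 1 + a * (X : L) ^ m ≠ 0 ∧
      (U : L) ^ m / (1 + a * (X : L) ^ m) ∈ powField p L

theorem TT_of_rep {Θ : KOne K p ≃ₗ[ZMod p] KOne L p} {m : ℕ} {x u : Kˣ} {X U : Lˣ}
    (hX : Θ (cls K p x) = cls L p X) (hU : Θ (cls K p u) = cls L p U)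
    (h : ∃ a ∈ powField p L, a ≠ 0 ∧ 1 + a * (X : L) ^ m ≠ 0 ∧
      (U : L) ^ m / (1 + a * (X : L) ^ m) ∈ powField p L) : TT Θ m x u := by
  intro X' U' hX' hU'
  obtain ⟨a, ha, ha0, h1, h2⟩ := h
  have e1 : (X : L) / X' ∈ powField p L := by
    rw [← cls_eq_iff, ← hX, ← hX']
  have e2 : (U' : L) / U ∈ powField p L := by
    rw [← cls_eq_iff, ← hU, ← hU']
  have e3 : a * ((X : L) / X') ^ m * (X' : L) ^ m = a * (X : L) ^ m := by
    rw [div_pow]; field_simp
  refine ⟨a * ((X : L) / X') ^ m, (powField p L).mul_mem ha ((powField p L).pow_mem e1 _),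
    mul_ne_zero ha0 (pow_ne_zero _ (div_ne_zero X.ne_zero X'.ne_zero)), ?_, ?_⟩
  · rw [e3]; exact h1
  · rw [e3]
    have : (U' : L) ^ m / (1 + a * (X : L) ^ m) =
        ((U' : L) / U) ^ m * ((U : L) ^ m / (1 + a * (X : L) ^ m)) := by
      rw [div_pow]; field_simp
    rw [this]
    exact (powField p L).mul_mem ((powField p L).pow_mem e2 _) h2

theorem not_mem_powField_iff_of {Θ : KOne K p ≃ₗ[ZMod p] KOne L p} {x : Kˣ} {X : Lˣ}
    (hX : Θ (cls K p x) = cls L p X) : (x : K) ∈ powField p K ↔ (X : L) ∈ powField p L := by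
  rw [← cls_eq_zero_iff, ← cls_eq_zero_iff, ← hX]
  exact (LinearEquiv.map_eq_zero_iff Θ).symm

/-- `1 + α x` is not a power of `x` modulo `K^p`. -/
theorem not_power {x α κ : K} (hx : x ∉ powField p K) (hα : α ∈ powField p K)
    (hα0 : α ≠ 0) (i : ℕ) (hκ : κ ∈ powField p K) (h : 1 + α * x = κ * x ^ i) : False := by
  obtain ⟨D, hD⟩ := one_der (p := p) hx
  have h1 : D (1 + α * x) = α * x := by
    rw [map_add, Derivation.leibniz, D_powField D hα, hD]
    simp
  have h2 : D (κ * x ^ i) = i * (κ * x ^ i) := by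
    rw [Derivation.leibniz, D_powField D hκ, Derivation.leibniz_pow, hD]
    simp only [smul_eq_mul, nsmul_eq_mul]
    rcases Nat.eq_zero_or_pos i with h0 | h0
    · simp [h0]
    · have : x ^ i = x ^ (i - 1) * x := by rw [← pow_succ, Nat.sub_add_cancel h0]
      rw [this]; ring
  rw [← h, h1] at h2
  -- α x = i (1 + α x)
  by_cases hi : (1 : K) - i = 0
  · have hi' : (i : K) = 1 := by linear_combination -hi
    rw [hi'] at h2
    have : (1 : K) = 0 := by linear_combination -h2
    exact one_ne_zero this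
  · apply hx
    apply powField_self_of_mul (a := α * (1 - i)) ((powField p K).mul_mem hα
      ((powField p K).sub_mem (powField p K).one_mem (natCast_mem _ _))) (mul_ne_zero hα0 hi)
    have : α * (1 - i) * x = i := by linear_combination h2
    rw [this]
    exact natCast_mem _ _

/-- G1. -/
theorem exists_exponent {Θ : KOne K p ≃ₗ[ZMod p] KOne L p} (hΘ : PDep Θ) (x y u v : Kˣ)
    (hx : (x : K) ∉ powField p K) (hy : (y : K) ∉ adj p (x : K)) (α β : K)
    (hα : α ∈ powField p K) (hα0 : α ≠ 0) (hβ : β ∈ powField p K) (hβ0 : β ≠ 0)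
    (hu : (u : K) = 1 + α * x) (hv : (v : K) = 1 + β * y) :
    ∃ m : ℕ, 0 < m ∧ m < p ∧ TT Θ m x u ∧ TT Θ m y v := by
  have hyP : (y : K) ∉ powField p K := fun h => hy (powField_le_adj _ h)
  have hxy : (x : K) ∉ adj p (y : K) := fun h => hy (mem_adj_symm h hx)
  have hux : (u : K) ∈ adj p (x : K) := by
    rw [hu]
    exact (adj p _).add_mem (adj p _).one_mem ((adj p _).mul_mem (powField_le_adj _ hα)
      (self_mem_adj _))
  have hvy : (v : K) ∈ adj p (y : K) := by
    rw [hv]
    exact (adj p _).add_mem (adj p _).one_mem ((adj p _).mul_mem (powField_le_adj _ hβ)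
      (self_mem_adj _))
  have hq0 : (u : K) + β * y ≠ 0 := by
    intro h
    apply hy
    have : (y : K) = β⁻¹ * (- u) := by
      field_simp
      linear_combination h
    rw [this]
    exact (adj p _).mul_mem (powField_le_adj _ ((powField p K).inv_mem hβ))
      ((adj p _).neg_mem hux)
  have hw0 : α * (x : K) + β * y ≠ 0 := by
    intro h
    apply hy
    have : (y : K) = β⁻¹ * (- (α * x)) := by
      field_simp
      linear_combination h
    rw [this]
    exact (adj p _).mul_mem (powField_le_adj _ ((powField p K).inv_mem hβ))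
      ((adj p _).neg_mem ((adj p _).mul_mem (powField_le_adj _ hα) (self_mem_adj _)))
  set q : Kˣ := Units.mk0 _ hq0 with hq
  set w : Kˣ := Units.mk0 _ hw0 with hw
  have hqv : (q : K) = u + β * y := rfl
  have hwv : (w : K) = α * x + β * y := rfl
  obtain ⟨X, hX⟩ := cls_surj (Θ (cls K p x))
  obtain ⟨Y, hY⟩ := cls_surj (Θ (cls K p y))
  obtain ⟨U, hU⟩ := cls_surj (Θ (cls K p u))
  obtain ⟨V, hV⟩ := cls_surj (Θ (cls K p v))
  obtain ⟨W, hW⟩ := cls_surj (Θ (cls K p w))
  obtain ⟨Q, hQ⟩ := cls_surj (Θ (cls K p q))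
  have hdiv : ∀ {a b : Kˣ} {A B : Lˣ}, cls L p A = Θ (cls K p a) → cls L p B = Θ (cls K p b) →
      Θ (cls K p (a / b)) = cls L p (A / B) := by
    intro a b A B h1 h2
    rw [cls_div, cls_div, map_sub, h1, h2]
  have hXP : (X : L) ∉ powField p L := fun h => hx ((not_mem_powField_iff_of hX.symm).2 h)
  have hYX : (Y : L) ∉ adj p (X : L) := fun h => hy ((hΘ x y X Y hX.symm hY.symm).2 h)
  obtain ⟨D₁, D₂, h11, h12, h21, h22⟩ := two_der hXP hYX
  have c1 : (U : L) ∈ adj p (X : L) := (hΘ x u X U hX.symm hU.symm).1 hux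
  have c2 : (V : L) ∈ adj p (Y : L) := (hΘ y v Y V hY.symm hV.symm).1 hvy
  have c3 : (W : L) / X ∈ adj p ((Y : L) / X) := by
    have h1 : ((w / x : Kˣ) : K) ∈ adj p ((y / x : Kˣ) : K) := by
      have : ((w / x : Kˣ) : K) = α + β * ((y / x : Kˣ) : K) := by
        rw [Units.val_div_eq_div_val, Units.val_div_eq_div_val, hwv]
        field_simp
      rw [this]
      exact (adj p _).add_mem (powField_le_adj _ hα)
        ((adj p _).mul_mem (powField_le_adj _ hβ) (self_mem_adj _))
    have := (hΘ (y / x) (w / x) (Y / X) (W / X) (hdiv hY hX) (hdiv hW hX)).1 h1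
    rwa [Units.val_div_eq_div_val, Units.val_div_eq_div_val] at this
  have c4 : (Q : L) ∈ adj p (W : L) := by
    have h1 : (q : K) ∈ adj p (w : K) := by
      have : (q : K) = 1 + w := by rw [hqv, hwv, hu]; ring
      rw [this]
      exact (adj p _).add_mem (adj p _).one_mem (self_mem_adj _)
    exact (hΘ w q W Q hW.symm hQ.symm).1 h1
  have c5 : (Q : L) / X ∈ adj p ((V : L) / X) := by
    have h1 : ((q / x : Kˣ) : K) ∈ adj p ((v / x : Kˣ) : K) := by
      have : ((q / x : Kˣ) : K) = α + ((v / x : Kˣ) : K) := by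
        rw [Units.val_div_eq_div_val, Units.val_div_eq_div_val, hqv, hu, hv]
        field_simp
        ring
      rw [this]
      exact (adj p _).add_mem (powField_le_adj _ hα) (self_mem_adj _)
    have := (hΘ (v / x) (q / x) (V / X) (Q / X) (hdiv hV hX) (hdiv hQ hX)).1 h1
    rwa [Units.val_div_eq_div_val, Units.val_div_eq_div_val] at this
  have c6 : (Q : L) / Y ∈ adj p ((U : L) / Y) := by
    have h1 : ((q / y : Kˣ) : K) ∈ adj p ((u / y : Kˣ) : K) := by
      have : ((q / y : Kˣ) : K) = β + ((u / y : Kˣ) : K) := by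
        rw [Units.val_div_eq_div_val, Units.val_div_eq_div_val, hqv]
        field_simp
        ring
      rw [this]
      exact (adj p _).add_mem (powField_le_adj _ hβ) (self_mem_adj _)
    have := (hΘ (u / y) (q / y) (U / Y) (Q / Y) (hdiv hU hY) (hdiv hQ hY)).1 h1
    rwa [Units.val_div_eq_div_val, Units.val_div_eq_div_val] at this
  have n1 : (U : L) ∉ powField p L := by
    intro h
    have h2 := (not_mem_powField_iff_of hU.symm).2 h
    rw [hu] at h2
    apply hx
    apply powField_self_of_mul hα hα0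
    have : α * (x : K) = (1 + α * x) - 1 := by ring
    rw [this]
    exact (powField p K).sub_mem h2 (powField p K).one_mem
  have n3 : (V : L) ∉ powField p L := by
    intro h
    have h2 := (not_mem_powField_iff_of hV.symm).2 h
    rw [hv] at h2
    apply hyP
    apply powField_self_of_mul hβ hβ0
    have : β * (y : K) = (1 + β * y) - 1 := by ring
    rw [this]
    exact (powField p K).sub_mem h2 (powField p K).one_mem
  have n2 : (U : L) / X ∉ powField p L := by
    intro h
    rw [← Units.val_div_eq_div_val] at h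
    have h2 := (not_mem_powField_iff_of (hdiv hU hX)).2 h
    rw [Units.val_div_eq_div_val] at h2
    apply not_power hx hα hα0 1 h2
    rw [hu, pow_one]; field_simp
  have n4 : (V : L) / Y ∉ powField p L := by
    intro h
    rw [← Units.val_div_eq_div_val] at h
    have h2 := (not_mem_powField_iff_of (hdiv hV hY)).2 h
    rw [Units.val_div_eq_div_val] at h2
    apply not_power hyP hβ hβ0 1 h2
    rw [hv, pow_one]; field_simp
  rcases conf D₁ D₂ hXP hYX h11 h12 h21 h22 U.ne_zero V.ne_zero W.ne_zero Q.ne_zero c1 c2 c3 c4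
    c5 c6 n1 n2 n3 n4 with ⟨i, hi, h⟩ | ⟨j, hj, hj', a, ha, b, hb, ha0, hb0, u1, v1, u2, v2⟩
  · exfalso
    have h1 : cls L p U = cls L p (X ^ i) := by
      rw [cls_eq_iff]; simpa using h
    have h2 : Θ (cls K p u) = Θ (cls K p (x ^ i)) := by
      rw [← hU, h1, cls_pow, cls_pow, map_nsmul, hX]
    have h3 := Θ.injective h2
    rw [cls_eq_iff] at h3
    apply not_power hx hα hα0 i h3
    rw [hu, Units.val_pow_eq_pow_val]; field_simp
  · exact ⟨j, hj, hj', TT_of_rep hX.symm hU.symm ⟨a, ha, ha0, u1, u2⟩,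
      TT_of_rep hY.symm hV.symm ⟨b, hb, hb0, v1, v2⟩⟩

/-- from `U^m ~ 1 + a X^m` recover `ld U`. -/
theorem ld_of_TT {X U a : L} {m : ℕ} (D : Derivation ℤ L L) (hD : D X = X)
    (hU0 : U ≠ 0) (hm : 0 < m) (hm' : m < p) (ha : a ∈ powField p L)
    (h1 : 1 + a * X ^ m ≠ 0) (h2 : U ^ m / (1 + a * X ^ m) ∈ powField p L) :
    ld D U * (1 + a * X ^ m) = a * X ^ m := by
  have h3 := ld_powField D h2
  rw [ld_div D (pow_ne_zero _ hU0) h1, ld_pow D hU0] at h3
  have e3 : D (1 + a * X ^ m) = m * (a * X ^ m) := by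
    rw [map_add, Derivation.leibniz, D_powField D ha, Derivation.leibniz_pow, hD]
    simp only [smul_eq_mul, nsmul_eq_mul, Derivation.map_one_eq_zero]
    have : X ^ m = X ^ (m - 1) * X := by rw [← pow_succ, Nat.sub_add_cancel hm]
    rw [this]; ring
  have e4 : ld D (1 + a * X ^ m) * (1 + a * X ^ m) = m * (a * X ^ m) := by
    unfold ld
    rw [div_mul_cancel₀ _ h1, e3]
  have hm0 : (m : L) ≠ 0 := by
    intro h
    have := cast_inj_of_lt (F := L) (p := p) hm' (Fact.out : p.Prime).pos (by simpa using h)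
    omega
  have e5 : (m : L) * (ld D U * (1 + a * X ^ m) - a * X ^ m) = 0 := by
    linear_combination (1 + a * X ^ m) * h3 + e4
  rcases mul_eq_zero.1 e5 with h | h
  · exact absurd h hm0
  · linear_combination h

/-- G2. -/
theorem exponent_unique {Θ : KOne K p ≃ₗ[ZMod p] KOne L p} {m m' : ℕ} {x u : Kˣ}
    (hx : (x : K) ∉ powField p K)
    (hm : 0 < m) (hmp : m < p) (hm' : 0 < m') (hmp' : m' < p)
    (h : TT Θ m x u) (h' : TT Θ m' x u) : m = m' := by
  obtain ⟨X, hX⟩ := cls_surj (Θ (cls K p x))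
  obtain ⟨U, hU⟩ := cls_surj (Θ (cls K p u))
  have hXP : (X : L) ∉ powField p L := fun h => hx ((not_mem_powField_iff_of hX.symm).2 h)
  obtain ⟨D, hD⟩ := one_der (p := p) hXP
  obtain ⟨a, ha, ha0, h1, h2⟩ := h X U hX.symm hU.symm
  obtain ⟨b, hb, hb0, h3, h4⟩ := h' X U hX.symm hU.symm
  have e1 := ld_of_TT D hD U.ne_zero hm hmp ha h1 h2
  have e2 := ld_of_TT D hD U.ne_zero hm' hmp' hb h3 h4
  have e3 : a * (X : L) ^ m = b * (X : L) ^ m' := by
    linear_combination (1 + a * (X : L) ^ m) * e2 - (1 + b * (X : L) ^ m') * e1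
  have e4 := congrArg D e3
  rw [Derivation.leibniz, Derivation.leibniz, D_powField D ha, D_powField D hb,
    Derivation.leibniz_pow, Derivation.leibniz_pow, hD] at e4
  simp only [smul_eq_mul, nsmul_eq_mul] at e4
  have t1 : (X : L) ^ m = (X : L) ^ (m - 1) * X := by rw [← pow_succ, Nat.sub_add_cancel hm]
  have t2 : (X : L) ^ m' = (X : L) ^ (m' - 1) * X := by rw [← pow_succ, Nat.sub_add_cancel hm']
  have e5 : ((m : L) - m') * (a * (X : L) ^ m) = 0 := by
    have : (m : L) * (a * (X : L) ^ m) = m' * (b * (X : L) ^ m') := by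
      rw [t1, t2]; linear_combination e4
    rw [sub_mul, this, e3]; ring
  rcases mul_eq_zero.1 e5 with h | h
  · exact cast_inj_of_lt (F := L) hmp hmp' (sub_eq_zero.1 h)
  · exact absurd h (mul_ne_zero ha0 (pow_ne_zero _ X.ne_zero))

/-- G3. -/
theorem global_exponent {Θ : KOne K p ≃ₗ[ZMod p] KOne L p} (hΘ : PDep Θ)
    (hdim : ∃ x y : K, x ∉ powField p K ∧ y ∉ adj p x) :
    ∃ m : ℕ, 0 < m ∧ m < p ∧ ∀ (x u : Kˣ) (α : K), (x : K) ∉ powField p K →
      α ∈ powField p K → α ≠ 0 → (u : K) = 1 + α * x → TT Θ m x u := by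
  obtain ⟨x0, y0, hx0, hy0⟩ := hdim
  have one_mem := (powField p K).one_mem
  have hx00 : x0 ≠ 0 := fun h => hx0 (h ▸ (powField p K).zero_mem)
  have hy00 : y0 ≠ 0 := fun h => hy0 (h ▸ (adj p x0).zero_mem)
  have hy0P : y0 ∉ powField p K := fun h => hy0 (powField_le_adj _ h)
  have key : ∀ {z : K}, z ∉ powField p K → 1 + 1 * z ≠ 0 := by
    intro z hz h
    apply hz
    have : z = -1 := by linear_combination h
    rw [this]; exact neg_one_mem
  have hu0 := key hx0
  have hv0 := key hy0P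
  obtain ⟨m, hm, hmp, h1, h2⟩ := exists_exponent hΘ (Units.mk0 x0 hx00) (Units.mk0 y0 hy00)
    (Units.mk0 _ hu0) (Units.mk0 _ hv0) hx0 hy0 1 1 one_mem one_ne_zero one_mem one_ne_zero
    rfl rfl
  refine ⟨m, hm, hmp, ?_⟩
  intro x u α hx hα hα0 hu
  by_cases hc : x0 ∈ adj p (x : K)
  · have hc' : y0 ∉ adj p (x : K) := by
      intro h
      apply hy0
      rw [adj_eq_of_mem hc hx0 hx]
      exact h
    obtain ⟨m', hm', hmp', h3, h4⟩ := exists_exponent hΘ x (Units.mk0 y0 hy00)
      u (Units.mk0 _ hv0) hx hc' α 1 hα hα0 one_mem one_ne_zero hu rfl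
    have := exponent_unique (x := Units.mk0 y0 hy00) hy0P hm hmp hm' hmp' h2 h4
    rw [this]; exact h3
  · obtain ⟨m', hm', hmp', h3, h4⟩ := exists_exponent hΘ x (Units.mk0 x0 hx00)
      u (Units.mk0 _ hu0) hx hc α 1 hα hα0 one_mem one_ne_zero hu rfl
    have := exponent_unique (x := Units.mk0 x0 hx00) hx0 hm hmp hm' hmp' h1 h4
    rw [this]; exact h3

theorem cast_ne_zero_of {m : ℕ} (hm : 0 < m) (hmp : m < p) : (m : ZMod p) ≠ 0 := by
  intro h
  have := (ZMod.natCast_eq_zero_iff m p).1 h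
  exact absurd (Nat.le_of_dvd hm this) (not_le.2 hmp)

/-- `m • Θ`. -/
noncomputable def smulEquiv (Θ : KOne K p ≃ₗ[ZMod p] KOne L p) (m : ZMod p) (hm : m ≠ 0) :
    KOne K p ≃ₗ[ZMod p] KOne L p :=
  Θ.trans (LinearEquiv.smulOfNeZero (ZMod p) (KOne L p) m hm)

theorem smulEquiv_apply (Θ : KOne K p ≃ₗ[ZMod p] KOne L p) (m : ZMod p) (hm : m ≠ 0)
    (a : KOne K p) : smulEquiv Θ m hm a = m • Θ a := rfl

/-- G4. -/
theorem linePreserving_smul {Θ : KOne K p ≃ₗ[ZMod p] KOne L p} {m : ℕ} (hm : 0 < m)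
    (hmp : m < p)
    (h : ∀ (x u : Kˣ) (α : K), (x : K) ∉ powField p K →
      α ∈ powField p K → α ≠ 0 → (u : K) = 1 + α * x → TT Θ m x u) :
    LinePreserving (smulEquiv Θ (m : ZMod p) (cast_ne_zero_of hm hmp)) := by
  intro x y X Y hX hY ⟨a, b, ha, hb, hy⟩
  set Θ' := smulEquiv Θ (m : ZMod p) (cast_ne_zero_of hm hmp) with hΘ'
  by_cases hyP : (y : K) ∈ powField p K
  · refine ⟨Y, 0, ?_, (powField p L).zero_mem, by ring⟩
    exact (not_mem_powField_iff_of hY).1 hyP
  · have hb0 : b ≠ 0 := by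
      rintro rfl
      apply hyP; rw [hy]; simpa using ha
    have hx : (x : K) ∉ powField p K := by
      intro hx
      apply hyP; rw [hy]
      exact (powField p K).add_mem ha ((powField p K).mul_mem hb hx)
    by_cases ha0 : a = 0
    · refine ⟨0, (Y : L) / X, (powField p L).zero_mem, ?_, by field_simp; ring⟩
      rw [← cls_eq_iff, ← hX, ← hY]
      congr 1
      rw [cls_eq_iff, hy, ha0]
      have : (0 + b * (x : K)) / x = b := by field_simp; ring
      rw [this]; exact hb
    · -- main case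
      have hu0 : (1 : K) + (b / a) * x ≠ 0 := by
        intro h0
        apply y.ne_zero
        rw [hy]
        have : a + b * (x : K) = a * (1 + (b / a) * x) := by field_simp
        rw [this, h0]; ring
      have hα : b / a ∈ powField p K := (powField p K).div_mem hb ha
      obtain ⟨X0, hX0⟩ := cls_surj (Θ (cls K p x))
      obtain ⟨U0, hU0⟩ := cls_surj (Θ (cls K p (Units.mk0 _ hu0)))
      obtain ⟨c, hc, hc0, h1, h2⟩ := h x (Units.mk0 _ hu0) (b / a) hx hα (div_ne_zero hb0 ha0)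
        rfl X0 U0 hX0.symm hU0.symm
      have e1 : cls L p X = cls L p (X0 ^ m) := by
        rw [cls_pow', hX0, ← hX]; rfl
      have e2 : cls L p Y = cls L p (U0 ^ m) := by
        rw [cls_pow', hU0, ← hY, smulEquiv_apply]
        congr 2
        rw [cls_eq_iff, hy, Units.val_mk0]
        have : (a + b * (x : K)) / (1 + b / a * x) = a := by
          rw [div_eq_iff hu0]; field_simp
        rw [this]; exact ha
      rw [cls_eq_iff, Units.val_pow_eq_pow_val] at e1 e2
      -- X = l * X0^m ; Y = k * U0^m ; U0^m = r (1 + c X0^m)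
      set l := (X : L) / (X0 : L) ^ m with hl
      set k := (Y : L) / (U0 : L) ^ m with hk
      set r := (U0 : L) ^ m / (1 + c * (X0 : L) ^ m) with hr
      have hl0 : l ≠ 0 := div_ne_zero X.ne_zero (pow_ne_zero _ X0.ne_zero)
      have f1 : (X : L) = l * (X0 : L) ^ m := by
        rw [hl, div_mul_cancel₀ _ (pow_ne_zero _ X0.ne_zero)]
      have f2 : (Y : L) = k * (U0 : L) ^ m := by
        rw [hk, div_mul_cancel₀ _ (pow_ne_zero _ U0.ne_zero)]
      have f3 : (U0 : L) ^ m = r * (1 + c * (X0 : L) ^ m) := by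
        rw [hr, div_mul_cancel₀ _ h1]
      refine ⟨k * r, k * r * c / l, (powField p L).mul_mem e2 h2,
        (powField p L).div_mem ((powField p L).mul_mem ((powField p L).mul_mem e2 h2) hc) e1, ?_⟩
      rw [f2, f3, f1]
      field_simp

theorem LinePreserving.trans {M : Type*} [Field M] [CharP M p]
    {Θ : KOne K p ≃ₗ[ZMod p] KOne L p} {Ψ : KOne L p ≃ₗ[ZMod p] KOne M p}
    (h1 : LinePreserving Θ) (h2 : LinePreserving Ψ) : LinePreserving (Θ.trans Ψ) := by
  intro x y X Y hX hY h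
  obtain ⟨X', hX'⟩ := cls_surj (Θ (cls K p x))
  obtain ⟨Y', hY'⟩ := cls_surj (Θ (cls K p y))
  have h3 := h1 x y X' Y' hX'.symm hY'.symm h
  exact h2 X' Y' X Y (by rw [hX']; exact hX) (by rw [hY']; exact hY) h3

/-- `n • id` preserves lines only for `n = 1`. -/
theorem eq_one_of_linePreserving {n : ℕ} (hn : 0 < n) (hnp : n < p)
    (hdim : ∃ x : K, x ∉ powField p K)
    (Φ : KOne K p ≃ₗ[ZMod p] KOne K p) (hΦ : ∀ a, Φ a = (n : ZMod p) • a)
    (h : LinePreserving Φ) : n = 1 := by
  obtain ⟨x, hx⟩ := hdim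
  have hx0 : x ≠ 0 := fun h => hx (h ▸ (powField p K).zero_mem)
  have hu0 : 1 + x ≠ 0 := by
    intro h
    apply hx
    have : x = -1 := by linear_combination h
    rw [this]; exact neg_one_mem
  obtain ⟨a, b, ha, hb, hab⟩ := h (Units.mk0 x hx0) (Units.mk0 _ hu0) ((Units.mk0 x hx0) ^ n)
    ((Units.mk0 _ hu0) ^ n) (by rw [hΦ, cls_pow']) (by rw [hΦ, cls_pow'])
    ⟨1, 1, (powField p K).one_mem, (powField p K).one_mem, by simp⟩
  rw [Units.val_pow_eq_pow_val, Units.val_pow_eq_pow_val, Units.val_mk0, Units.val_mk0] at hab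
  obtain ⟨D, hD⟩ := one_der (p := p) hx
  have hn0 : (n : K) ≠ 0 := by
    intro h
    have := cast_inj_of_lt (F := K) (p := p) hnp (Fact.out : p.Prime).pos (by simpa using h)
    omega
  have t1 : x ^ n = x ^ (n - 1) * x := by rw [← pow_succ, Nat.sub_add_cancel hn]
  have t2 : (1 + x) ^ n = (1 + x) ^ (n - 1) * (1 + x) := by
    rw [← pow_succ, Nat.sub_add_cancel hn]
  have e1 := congrArg D hab
  rw [map_add, Derivation.leibniz, D_powField D ha, D_powField D hb, Derivation.leibniz_pow,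
    Derivation.leibniz_pow, map_add, hD] at e1
  simp only [smul_eq_mul, nsmul_eq_mul, Derivation.map_one_eq_zero, zero_add, mul_zero,
    add_zero] at e1
  have e2 : (n : K) * x * ((1 + x) ^ (n - 1) - b * x ^ (n - 1)) = 0 := by
    linear_combination e1
  have e3 : (1 + x) ^ (n - 1) = b * x ^ (n - 1) := by
    rcases mul_eq_zero.1 e2 with h | h
    · rcases mul_eq_zero.1 h with h | h
      · exact absurd h hn0
      · exact absurd h hx0
    · linear_combination h
  have e4 : b * x ^ (n - 1) = a := by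
    rw [t2, e3, t1] at hab
    linear_combination hab
  have hb0 : b ≠ 0 := by
    rintro rfl
    rw [zero_mul] at e3
    exact pow_ne_zero _ hu0 e3
  have e5 := congrArg D e4
  rw [Derivation.leibniz, D_powField D hb, D_powField D ha, Derivation.leibniz_pow, hD] at e5
  simp only [smul_eq_mul, nsmul_eq_mul, mul_zero, add_zero] at e5
  by_contra hn1
  have hn2 : 0 < n - 1 := by omega
  have t3 : x ^ (n - 1) = x ^ (n - 1 - 1) * x := by rw [← pow_succ, Nat.sub_add_cancel hn2]
  have e6 : b * (((n - 1 : ℕ) : K) * x ^ (n - 1)) = 0 := by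
    rw [t3]; linear_combination e5
  rcases mul_eq_zero.1 e6 with h | h
  · exact hb0 h
  · rcases mul_eq_zero.1 h with h | h
    · have := cast_inj_of_lt (F := K) (p := p) (lt_of_le_of_lt (Nat.sub_le n 1) hnp)
        (Fact.out : p.Prime).pos (by simpa using h)
      omega
    · exact pow_ne_zero _ hx0 h

/-- G5: the conclusion of the geometric part. -/
theorem exists_ringEquiv {Θ : KOne K p ≃ₗ[ZMod p] KOne L p} (hΘ : PDep Θ)
    (hdim : ∃ x y : K, x ∉ powField p K ∧ y ∉ adj p x)
    (hdim' : ∃ x y : L, x ∉ powField p L ∧ y ∉ adj p x) :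
    ∃ α : K ≃+* L, ∃ c : ZMod p, c ≠ 0 ∧ ∀ u : Kˣ,
      Θ (cls K p u) = c • cls L p (Units.map α.toRingHom.toMonoidHom u) := by
  obtain ⟨m, hm, hmp, h1⟩ := global_exponent hΘ hdim
  obtain ⟨m', hm', hmp', h2⟩ := global_exponent hΘ.symm hdim'
  have l1 := linePreserving_smul hm hmp h1
  have l2 := linePreserving_smul hm' hmp' h2
  have l3 := l1.trans l2
  have hmz := cast_ne_zero_of (p := p) hm hmp
  have hmz' := cast_ne_zero_of (p := p) hm' hmp'
  -- the exponent of the composition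
  have hprod : (m : ZMod p) * (m' : ZMod p) = 1 := by
    set n : ℕ := ((m : ZMod p) * (m' : ZMod p)).val with hn
    have hnc : ((n : ℕ) : ZMod p) = (m : ZMod p) * (m' : ZMod p) := by
      rw [hn, ZMod.natCast_zmod_val]
    have hn0 : 0 < n := by
      rw [Nat.pos_iff_ne_zero]
      intro h
      rw [h, Nat.cast_zero] at hnc
      exact mul_ne_zero hmz hmz' hnc.symm
    have hn1 : n = 1 := by
      obtain ⟨x, -, hx, -⟩ := hdim
      apply eq_one_of_linePreserving hn0 (ZMod.val_lt _) ⟨x, hx⟩ _ _ l3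
      intro a
      rw [LinearEquiv.trans_apply, smulEquiv_apply, smulEquiv_apply, map_smul,
        LinearEquiv.symm_apply_apply, hnc, smul_smul, mul_comm]
    rw [← hnc, hn1, Nat.cast_one]
  have hsymm : (smulEquiv Θ (m : ZMod p) hmz).symm =
      smulEquiv Θ.symm (m' : ZMod p) hmz' := by
    ext a
    rw [LinearEquiv.symm_apply_eq, smulEquiv_apply, smulEquiv_apply, map_smul,
      LinearEquiv.apply_symm_apply, smul_smul, hprod, one_smul]
  obtain ⟨α, hα⟩ := fund (smulEquiv Θ (m : ZMod p) hmz) l1 (by rw [hsymm]; exact l2) hdim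
  refine ⟨α, (m' : ZMod p), hmz', ?_⟩
  intro u
  rw [← hα u, smulEquiv_apply, smul_smul, mul_comm, hprod, one_smul]

end Crest.Agent.MK
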