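import Mathlib
import Crest.Prelude.Def_MilnorK
import Crest.Agent.MKBase
import Crest.Agent.MKDer

set_option autoImplicit false
set_option linter.unusedSectionVars false

open Crest.NumberTheoryR.MilnorK

open scoped TensorProduct

namespace Crest.Agent.MK

section REL
variable {p : ℕ} [Fact p.Prime] {F : Type*} [Field F] [CharP F p]
variable {K L : Type*} [Field K] [Field L] [CharP K p] [CharP L p]

/-- Logarithmic derivative on units. -/
noncomputable def dlogAux (D : Derivation ℤ F F) : Additive Fˣ →+ F where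
  toFun a := D ((Additive.toMul a : Fˣ) : F) / ((Additive.toMul a : Fˣ) : F)
  map_zero' := by simp
  map_add' a b := by
    have ha : ((Additive.toMul a : Fˣ) : F) ≠ 0 := (Additive.toMul a).ne_zero
    have hb : ((Additive.toMul b : Fˣ) : F) ≠ 0 := (Additive.toMul b).ne_zero
    rw [toMul_add, Units.val_mul, Derivation.leibniz]
    simp only [smul_eq_mul]
    field_simp
    ring

theorem dlogAux_apply (D : Derivation ℤ F F) (u : Fˣ) :
    dlogAux D (Additive.ofMul u) = D (u : F) / (u : F) := rfl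

/-- Logarithmic derivative on the first Milnor `K`-group modulo `p`. -/
noncomputable def dlogAdd (p : ℕ) [Fact p.Prime] [CharP F p] (D : Derivation ℤ F F) :
    KOne F p →+ F :=
  QuotientAddGroup.lift (pMultiples F p) (dlogAux D) (by
    rintro _ ⟨v, rfl⟩
    show dlogAux D (p • v) = 0
    rw [map_nsmul, nsmul_eq_mul, CharP.cast_eq_zero, zero_mul])

theorem dlogAdd_cls (D : Derivation ℤ F F) (u : Fˣ) :
    dlogAdd p D (cls F p u) = D (u : F) / (u : F) := rfl

noncomputable local instance instAlg : Algebra (ZMod p) F := ZMod.algebra F p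

/-- Logarithmic derivative as a linear map. -/
noncomputable def dlog (p : ℕ) [Fact p.Prime] [CharP F p] (D : Derivation ℤ F F) :
    letI : Algebra (ZMod p) F := ZMod.algebra F p
    KOne F p →ₗ[ZMod p] F :=
  letI : Algebra (ZMod p) F := ZMod.algebra F p
  (dlogAdd p D).toZModLinearMap p

theorem dlog_cls (D : Derivation ℤ F F) (u : Fˣ) :
    dlog p D (cls F p u) = D (u : F) / (u : F) := rfl

theorem wedge_steinberg (D₁ D₂ : Derivation ℤ F F) (t : KOne F p ⊗[ZMod p] KOne F p)
    (ht : t ∈ steinberg F p) :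
    (LinearMap.mul' (ZMod p) F) ((TensorProduct.map (dlog p D₁) (dlog p D₂)) t) -
      (LinearMap.mul' (ZMod p) F) ((TensorProduct.map (dlog p D₂) (dlog p D₁)) t) = 0 := by
  have hle : steinberg F p ≤ LinearMap.ker
      ((LinearMap.mul' (ZMod p) F) ∘ₗ (TensorProduct.map (dlog p D₁) (dlog p D₂)) -
        (LinearMap.mul' (ZMod p) F) ∘ₗ (TensorProduct.map (dlog p D₂) (dlog p D₁))) := by
    unfold steinberg
    rw [Submodule.span_le]
    rintro _ ⟨f, hf, hf1, rfl⟩
    rw [SetLike.mem_coe, LinearMap.mem_ker]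
    simp only [LinearMap.sub_apply, LinearMap.comp_apply, TensorProduct.map_tmul,
      LinearMap.mul'_apply, dlog_cls, Units.val_mk0]
    have h1 : ∀ D : Derivation ℤ F F, D (1 - f) = - D f := by
      intro D
      rw [map_sub, Derivation.map_one_eq_zero, zero_sub]
    rw [h1, h1]
    field_simp
    ring
  have := hle ht
  rw [LinearMap.mem_ker] at this
  simpa using this

theorem mem_adj_of_rel (u v : Fˣ) (h : cls F p u ⊗ₜ[ZMod p] cls F p v ∈ steinberg F p)
    (hu : (u : F) ∉ powField p F) : (v : F) ∈ adj p (u : F) := by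
  by_contra hv
  obtain ⟨D₁, -, hD₁⟩ := exists_derivation (p := p) (le_refl (powField p F)) hu
  obtain ⟨D₂, hD₂, hD₂v⟩ := exists_derivation (p := p) (powField_le_adj (u : F)) hv
  have h0 := wedge_steinberg D₁ D₂ _ h
  simp only [TensorProduct.map_tmul, LinearMap.mul'_apply, dlog_cls] at h0
  rw [hD₁, hD₂v, hD₂ _ (self_mem_adj _)] at h0
  have hu0 := u.ne_zero
  have hv0 := v.ne_zero
  simp at h0

theorem rel_one_add (w y : Fˣ) (h : (y : F) = 1 + w) :
    cls F p w ⊗ₜ[ZMod p] cls F p y ∈ steinberg F p := by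
  have hw : -(w : F) ≠ 0 := neg_ne_zero.2 w.ne_zero
  have hy : 1 - (-(w : F)) ≠ 0 := by
    rw [sub_neg_eq_add, ← h]; exact y.ne_zero
  have h1 : cls F p (Units.mk0 (-(w : F)) hw) = cls F p w := by
    rw [cls_eq_iff, Units.val_mk0, neg_div, div_self w.ne_zero]
    exact neg_one_mem
  have h2 : Units.mk0 (1 - (-(w : F))) hy = y := by
    ext
    rw [Units.val_mk0, sub_neg_eq_add, h]
  apply Submodule.subset_span
  exact ⟨-(w : F), hw, hy, by rw [h1, h2]⟩

/-- Subgroups of `K₁/p` closed under the Steinberg relation. -/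
def RelClosed (S : AddSubgroup (KOne F p)) : Prop :=
  ∀ a ∈ S, a ≠ 0 → ∀ b : KOne F p, a ⊗ₜ[ZMod p] b ∈ steinberg F p → b ∈ S

theorem RelClosed.one_add {S : AddSubgroup (KOne F p)} (hS : RelClosed S) {w y : Fˣ}
    (h : (y : F) = 1 + w) (hw : cls F p w ∈ S) : cls F p y ∈ S := by
  by_cases h0 : cls F p w = 0
  · have h1 : cls F p y = 0 := by
      rw [cls_eq_zero_iff] at h0 ⊢
      rw [h]
      exact (powField p F).add_mem (powField p F).one_mem h0
    rw [h1]; exact S.zero_mem
  · exact hS _ hw h0 _ (rel_one_add w y h)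

/-- The subfield attached to a closed subgroup. -/
noncomputable def relField (S : AddSubgroup (KOne F p)) (hS : RelClosed S) : Subfield F where
  carrier := {z | ∀ u : Fˣ, (u : F) = z → cls F p u ∈ S}
  mul_mem' := by
    intro a b ha hb u hu
    have hab : a * b ≠ 0 := by rw [← hu]; exact u.ne_zero
    have ha0 : a ≠ 0 := left_ne_zero_of_mul hab
    have hb0 : b ≠ 0 := right_ne_zero_of_mul hab
    have h1 : u = Units.mk0 a ha0 * Units.mk0 b hb0 := by
      ext; simp [hu]
    rw [h1, cls_mul]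
    exact S.add_mem (ha _ rfl) (hb _ rfl)
  one_mem' := by
    intro u hu
    have h1 : u = 1 := by ext; simpa using hu
    rw [h1, cls_one]; exact S.zero_mem
  add_mem' := by
    intro a b ha hb u hu
    by_cases ha0 : a = 0
    · subst ha0
      apply hb; rw [hu, zero_add]
    · by_cases hb0 : b = 0
      · subst hb0
        apply ha; rw [hu, add_zero]
      · have hya : a + b ≠ 0 := by rw [← hu]; exact u.ne_zero
        have hy0 : (a + b) / a ≠ 0 := div_ne_zero hya ha0
        have h1 : u = Units.mk0 a ha0 * Units.mk0 ((a + b) / a) hy0 := by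
          ext
          rw [Units.val_mul, Units.val_mk0, Units.val_mk0, hu]
          field_simp
        rw [h1, cls_mul]
        apply S.add_mem (ha _ rfl)
        apply hS.one_add (w := Units.mk0 b hb0 / Units.mk0 a ha0)
        · rw [Units.val_mk0, Units.val_div_eq_div_val, Units.val_mk0, Units.val_mk0]
          field_simp
        · rw [cls_div]
          exact S.sub_mem (hb _ rfl) (ha _ rfl)
  zero_mem' := by
    intro u hu
    exact absurd hu u.ne_zero
  neg_mem' := by
    intro a ha u hu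
    have ha0 : a ≠ 0 := by
      intro h; rw [h, neg_zero] at hu; exact u.ne_zero hu
    have h1 : cls F p u = cls F p (Units.mk0 a ha0) := by
      rw [cls_eq_iff, Units.val_mk0, hu, neg_div, div_self ha0]
      exact neg_one_mem
    rw [h1]; exact ha _ rfl
  inv_mem' := by
    intro a ha u hu
    have ha0 : a ≠ 0 := by
      intro h; rw [h, inv_zero] at hu; exact u.ne_zero hu
    have h1 : u = (Units.mk0 a ha0)⁻¹ := by
      ext
      rw [hu]; simp
    rw [h1, cls_inv]
    exact S.neg_mem (ha _ rfl)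

theorem mem_relField {S : AddSubgroup (KOne F p)} {hS : RelClosed S} {z : F} :
    z ∈ relField S hS ↔ ∀ u : Fˣ, (u : F) = z → cls F p u ∈ S := Iff.rfl

theorem powField_le_relField (S : AddSubgroup (KOne F p)) (hS : RelClosed S) :
    powField p F ≤ relField S hS := by
  intro z hz
  rw [mem_relField]
  intro u hu
  have : cls F p u = 0 := by
    rw [cls_eq_zero_iff, hu]; exact hz
  rw [this]; exact S.zero_mem

/-- The subgroup of classes of the elements of `F^p(x)`. -/
def adjGroup (p : ℕ) [Fact p.Prime] [CharP F p] (x : F) : AddSubgroup (KOne F p) where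
  carrier := {a | ∀ u : Fˣ, cls F p u = a → (u : F) ∈ adj p x}
  zero_mem' := by
    intro u hu
    exact powField_le_adj x ((cls_eq_zero_iff u).1 hu)
  add_mem' := by
    intro a b ha hb u hu
    obtain ⟨v, rfl⟩ := cls_surj a
    obtain ⟨w, rfl⟩ := cls_surj b
    rw [← cls_mul, cls_eq_iff] at hu
    have h1 := (adj p x).mul_mem (powField_le_adj x hu)
      ((adj p x).mul_mem (ha v rfl) (hb w rfl))
    have h2 : (u : F) / ((v * w : Fˣ) : F) * ((v : F) * (w : F)) = (u : F) := by
      rw [Units.val_mul]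
      have hv := v.ne_zero
      have hw := w.ne_zero
      field_simp
    rw [h2] at h1
    exact h1
  neg_mem' := by
    intro a ha u hu
    have h1 : cls F p u⁻¹ = a := by
      rw [cls_inv, hu]
      exact neg_neg a
    have h2 := ha _ h1
    have h3 := (adj p x).inv_mem h2
    rw [Units.val_inv_eq_inv_val, inv_inv] at h3
    exact h3

theorem mem_adjGroup {x : F} {u : Fˣ} : cls F p u ∈ adjGroup p x ↔ (u : F) ∈ adj p x := by
  constructor
  · intro h
    exact h u rfl
  · intro h v hv
    rw [cls_eq_iff] at hv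
    have h1 := (adj p x).mul_mem (powField_le_adj x hv) h
    rw [div_mul_cancel₀ _ u.ne_zero] at h1
    exact h1

theorem relClosed_adjGroup (x : F) : RelClosed (adjGroup p x) := by
  intro a ha ha0 b hab
  obtain ⟨u, rfl⟩ := cls_surj a
  obtain ⟨v, rfl⟩ := cls_surj b
  rw [mem_adjGroup] at ha ⊢
  have hu : (u : F) ∉ powField p F := by
    rwa [Ne, cls_eq_zero_iff] at ha0
  exact adj_le (powField_le_adj x) ha (mem_adj_of_rel u v hab hu)

theorem mem_adj_iff_closed (x y : Fˣ) :
    (y : F) ∈ adj p (x : F) ↔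
      ∀ S : AddSubgroup (KOne F p), RelClosed S → cls F p x ∈ S → cls F p y ∈ S := by
  constructor
  · intro hy S hS hx
    have h1 : adj p (x : F) ≤ relField S hS := by
      apply adj_le (powField_le_relField S hS)
      rw [mem_relField]
      intro u hu
      have : u = x := by ext; exact hu
      rw [this]; exact hx
    exact (mem_relField.1 (h1 hy)) y rfl
  · intro h
    exact mem_adjGroup.1 (h (adjGroup p (x : F)) (relClosed_adjGroup _)
      (mem_adjGroup.2 (self_mem_adj _)))

theorem compatible_symm {Θ : KOne K p ≃ₗ[ZMod p] KOne L p} (hΘ : IsCompatible Θ) :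
    IsCompatible Θ.symm := by
  unfold IsCompatible at hΘ ⊢
  rw [← hΘ, ← Submodule.map_comp, ← TensorProduct.map_comp]
  have h1 : (Θ.symm : KOne L p →ₗ[ZMod p] KOne K p) ∘ₗ (Θ : KOne K p →ₗ[ZMod p] KOne L p) =
      LinearMap.id := by
    ext a; simp
  rw [h1, TensorProduct.map_id, Submodule.map_id]

theorem rel_of_compatible {Θ : KOne K p ≃ₗ[ZMod p] KOne L p} (hΘ : IsCompatible Θ)
    {a b : KOne K p} (h : a ⊗ₜ[ZMod p] b ∈ steinberg K p) :
    Θ a ⊗ₜ[ZMod p] Θ b ∈ steinberg L p := by
  rw [← hΘ]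
  exact ⟨_, h, rfl⟩

theorem rel_compatible_iff {Θ : KOne K p ≃ₗ[ZMod p] KOne L p} (hΘ : IsCompatible Θ)
    {a b : KOne K p} : a ⊗ₜ[ZMod p] b ∈ steinberg K p ↔
    Θ a ⊗ₜ[ZMod p] Θ b ∈ steinberg L p := by
  refine ⟨rel_of_compatible hΘ, fun h => ?_⟩
  have := rel_of_compatible (compatible_symm hΘ) h
  simpa using this

theorem adj_of_compatible (Θ : KOne K p ≃ₗ[ZMod p] KOne L p) (hΘ : IsCompatible Θ)
    (x y : Kˣ) (X Y : Lˣ) (hX : Θ (cls K p x) = cls L p X) (hY : Θ (cls K p y) = cls L p Y)
    (h : (y : K) ∈ adj p (x : K)) : (Y : L) ∈ adj p (X : L) := by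
  rw [mem_adj_iff_closed] at h ⊢
  intro S hS hXS
  have h1 : RelClosed (S.comap (Θ : KOne K p →ₗ[ZMod p] KOne L p).toAddMonoidHom) := by
    intro a ha ha0 b hab
    rw [AddSubgroup.mem_comap] at ha ⊢
    apply hS (Θ a) ha
    · intro h0
      exact ha0 (Θ.map_eq_zero_iff.1 h0)
    · exact rel_of_compatible hΘ hab
  have h2 := h _ h1 (by
    rw [AddSubgroup.mem_comap]
    show Θ (cls K p x) ∈ S
    rw [hX]; exact hXS)
  rw [AddSubgroup.mem_comap] at h2
  have h3 : Θ (cls K p y) ∈ S := h2
  rw [hY] at h3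
  exact h3

theorem adj_iff_of_compatible (Θ : KOne K p ≃ₗ[ZMod p] KOne L p) (hΘ : IsCompatible Θ)
    (x y : Kˣ) (X Y : Lˣ) (hX : Θ (cls K p x) = cls L p X) (hY : Θ (cls K p y) = cls L p Y) :
    (y : K) ∈ adj p (x : K) ↔ (Y : L) ∈ adj p (X : L) := by
  refine ⟨adj_of_compatible Θ hΘ x y X Y hX hY, ?_⟩
  apply adj_of_compatible Θ.symm (compatible_symm hΘ) X Y x y
  · rw [← hX]; simp
  · rw [← hY]; simp

end REL

end Crest.Agent.MK
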