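import Mathlib
import Crest.Prelude.Def_MilnorK
import Crest.Agent.MKBase
import Crest.Agent.MKDer
import Crest.Agent.MKRel

set_option autoImplicit false
set_option linter.unusedSectionVars false

open Crest.NumberTheoryR.MilnorK

namespace Crest.Agent.MK

section UNIQ
variable {p : ℕ} [Fact p.Prime]
variable {K L : Type*} [Field K] [Field L] [CharP K p] [CharP L p]

theorem uniq_smul_cls (c : ZMod p) (D : Derivation ℤ L L) (U : Lˣ) :
    dlogAdd p D (c • cls L p U) = (c.val : L) * (D (U : L) / (U : L)) := by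
  have h : c • cls L p U = c.val • cls L p U := by
    conv_lhs => rw [← ZMod.natCast_zmod_val c]
    rw [Nat.cast_smul_eq_nsmul]
  rw [h, map_nsmul, dlogAdd_cls, nsmul_eq_mul]

theorem uniq_val_ne (c : ZMod p) (hc : c ≠ 0) : (c.val : L) ≠ 0 := by
  intro h
  rw [CharP.cast_eq_zero_iff L p] at h
  have h1 : c.val < p := ZMod.val_lt c
  have h2 : c.val = 0 := Nat.eq_zero_of_dvd_of_lt h h1
  exact hc ((ZMod.val_eq_zero c).1 h2)

theorem mem_powField_map (α : K ≃+* L) {u : K} (h : α u ∈ powField p L) : u ∈ powField p K := by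
  rw [mem_powField] at h ⊢
  obtain ⟨w, hw⟩ := h
  refine ⟨α.symm w, ?_⟩
  rw [← map_pow, hw, RingEquiv.symm_apply_apply]

/-! UNIQ (uses DER; for `u ∉ K^p` take `X = α u`, `Y = β u`, `e = c / c'`:
`dlog Y = e dlog X` and `dlog (1+Y) = e dlog (1+X)` give `X = Y`.) -/
theorem uniq (α β : K ≃+* L) (c c' : ZMod p) (hc : c ≠ 0) (hc' : c' ≠ 0)
    (hdim : ∃ x : K, x ∉ powField p K)
    (h : ∀ u : Kˣ, c • cls L p (Units.map α.toRingHom.toMonoidHom u) =
      c' • cls L p (Units.map β.toRingHom.toMonoidHom u)) : α = β := by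
  have hn := uniq_val_ne (L := L) c hc
  have hm := uniq_val_ne (L := L) c' hc'
  have key : ∀ u : K, u ∉ powField p K → α u = β u := by
    intro u hu
    have hu0 : u ≠ 0 := fun h0 => hu (h0 ▸ (powField p K).zero_mem)
    have hu1 : 1 + u ≠ 0 := fun h0 => hu (by
      have : u = -1 := by linear_combination h0
      rw [this]; exact (powField p K).neg_mem (powField p K).one_mem)
    have hX : α u ∉ powField p L := fun h0 => hu (mem_powField_map α h0)
    obtain ⟨D, -, hD⟩ := exists_derivation (W := powField p L) le_rfl hX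
    have e1 := congrArg (dlogAdd p D) (h (Units.mk0 u hu0))
    have e2 := congrArg (dlogAdd p D) (h (Units.mk0 (1 + u) hu1))
    rw [uniq_smul_cls, uniq_smul_cls] at e1 e2
    have a1 : ((Units.map α.toRingHom.toMonoidHom (Units.mk0 u hu0) : Lˣ) : L) = α u := rfl
    have b1 : ((Units.map β.toRingHom.toMonoidHom (Units.mk0 u hu0) : Lˣ) : L) = β u := rfl
    have a2 : ((Units.map α.toRingHom.toMonoidHom (Units.mk0 (1 + u) hu1) : Lˣ) : L)
        = 1 + α u := by
      show α (1 + u) = 1 + α u
      rw [map_add, map_one]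
    have b2 : ((Units.map β.toRingHom.toMonoidHom (Units.mk0 (1 + u) hu1) : Lˣ) : L)
        = 1 + β u := by
      show β (1 + u) = 1 + β u
      rw [map_add, map_one]
    rw [a1, b1] at e1
    rw [a2, b2, map_add, map_add, Derivation.map_one_eq_zero, zero_add, zero_add] at e2
    rw [hD] at e1 e2
    have hα0 : α u ≠ 0 := (map_ne_zero_iff α α.injective).2 hu0
    have hβ0 : β u ≠ 0 := (map_ne_zero_iff β β.injective).2 hu0
    have hα1 : 1 + α u ≠ 0 := by
      rw [← map_one α, ← map_add]; exact (map_ne_zero_iff α α.injective).2 hu1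
    have hβ1 : 1 + β u ≠ 0 := by
      rw [← map_one β, ← map_add]; exact (map_ne_zero_iff β β.injective).2 hu1
    field_simp at e1 e2
    have e3 : (c.val : L) * (β u * (1 + α u)) = (c.val : L) * (α u * (1 + β u)) := by
      linear_combination (1 + α u) * e1 - (α u) * e2
    have e4 := mul_left_cancel₀ hn e3
    linear_combination -e4
  obtain ⟨x, hx⟩ := hdim
  ext u
  by_cases hu : u ∈ powField p K
  · have hux : u + x ∉ powField p K := fun h0 => hx (by
      have : x = (u + x) - u := by ring
      rw [this]; exact (powField p K).sub_mem h0 hu)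
    have := key _ hux
    rw [map_add, map_add, key x hx] at this
    exact add_right_cancel this
  · exact key u hu
end UNIQ

end Crest.Agent.MK
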