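import Mathlib
import Crest.Prelude.Def_ModularData

set_option autoImplicit false
open MeasureTheory Filter Topology Crest.OpAlg
open scoped BoundedContinuousFunction InnerProductSpace

namespace Crest.Agent.ModFlow

variable {H : Type*} [NormedAddCommGroup H] [InnerProductSpace ℂ H] [CompleteSpace H]

lemma apply_norm_le (D : LineCalculus H) (f : ℝ →ᵇ ℂ) : ‖D.apply f‖ ≤ ‖f‖ :=
  NonUnitalStarAlgHom.norm_apply_le D.apply f

lemma apply_apply_norm_le (D : LineCalculus H) (f : ℝ →ᵇ ℂ) (x : H) : ‖D.apply f x‖ ≤ ‖f‖ * ‖x‖ :=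
  ((D.apply f).le_opNorm x).trans (mul_le_mul_of_nonneg_right (apply_norm_le D f) (norm_nonneg _))

lemma apply_mul (D : LineCalculus H) (f g : ℝ →ᵇ ℂ) (x : H) :
    D.apply (f * g) x = D.apply f (D.apply g x) := by
  rw [map_mul]; rfl

lemma apply_comm (D : LineCalculus H) (f g : ℝ →ᵇ ℂ) (x : H) :
    D.apply f (D.apply g x) = D.apply g (D.apply f x) := by
  rw [← apply_mul, ← apply_mul, mul_comm]

lemma char_zero : LineCalculus.character 0 = 1 := by
  ext u; simp [LineCalculus.character]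

lemma char_apply (t u : ℝ) : LineCalculus.character t u = Complex.exp (Complex.I * ((t * u : ℝ) : ℂ)) := rfl

lemma char_add (s t : ℝ) : LineCalculus.character (s + t) = LineCalculus.character s * LineCalculus.character t := by
  ext u
  simp only [BoundedContinuousFunction.coe_mul, Pi.mul_apply, char_apply, ← Complex.exp_add]
  congr 1; push_cast; ring

lemma char_star (t : ℝ) : star (LineCalculus.character t) = LineCalculus.character (-t) := by
  ext u
  simp only [BoundedContinuousFunction.star_apply, char_apply, Complex.star_def, ← Complex.exp_conj]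
  congr 1
  simp

lemma wave_zero (D : LineCalculus H) : D.wave 0 = 1 := by
  simp [LineCalculus.wave, char_zero]

lemma wave_add (D : LineCalculus H) (s t : ℝ) : D.wave (s + t) = D.wave s * D.wave t := by
  simp [LineCalculus.wave, char_add]

lemma wave_star (D : LineCalculus H) (t : ℝ) : star (D.wave t) = D.wave (-t) := by
  rw [LineCalculus.wave, ← map_star, char_star]; rfl

lemma wave_mul_neg (D : LineCalculus H) (t : ℝ) : D.wave t * D.wave (-t) = 1 := by
  rw [← wave_add]; simp [wave_zero]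

lemma wave_neg_mul (D : LineCalculus H) (t : ℝ) : D.wave (-t) * D.wave t = 1 := by
  rw [← wave_add]; simp [wave_zero]

lemma wave_add_apply (D : LineCalculus H) (s t : ℝ) (x : H) : D.wave (s + t) x = D.wave s (D.wave t x) := by
  rw [wave_add]; rfl

lemma wave_wave_neg (D : LineCalculus H) (t : ℝ) (x : H) : D.wave t (D.wave (-t) x) = x := by
  rw [← wave_add_apply]; simp [wave_zero]

lemma wave_neg_wave (D : LineCalculus H) (t : ℝ) (x : H) : D.wave (-t) (D.wave t x) = x := by
  rw [← wave_add_apply]; simp [wave_zero]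

lemma wave_inner (D : LineCalculus H) (t : ℝ) (x y : H) : ⟪D.wave t x, y⟫_ℂ = ⟪x, D.wave (-t) y⟫_ℂ := by
  rw [← wave_star, ContinuousLinearMap.star_eq_adjoint, ContinuousLinearMap.adjoint_inner_right]

lemma wave_norm (D : LineCalculus H) (t : ℝ) (x : H) : ‖D.wave t x‖ = ‖x‖ := by
  have h : ⟪D.wave t x, D.wave t x⟫_ℂ = ⟪x, x⟫_ℂ := by
    rw [wave_inner, wave_neg_wave]
  rw [inner_self_eq_norm_sq_to_K, inner_self_eq_norm_sq_to_K] at h
  have h2 : ‖D.wave t x‖ ^ 2 = ‖x‖ ^ 2 := by exact_mod_cast h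
  nlinarith [norm_nonneg (D.wave t x), norm_nonneg x, sq_nonneg (‖D.wave t x‖ - ‖x‖)]

lemma wave_apply_comm (D : LineCalculus H) (t : ℝ) (f : ℝ →ᵇ ℂ) (x : H) :
    D.wave t (D.apply f x) = D.apply f (D.wave t x) := apply_comm D _ _ x

lemma wave_supportedIn (D : LineCalculus H) (t : ℝ) {K : Set ℝ} {x : H} (hx : D.SupportedIn K x) :
    D.SupportedIn K (D.wave t x) := by
  intro f hf
  rw [← wave_apply_comm, hx f hf, map_zero]

lemma supportedIn_add (D : LineCalculus H) {K : Set ℝ} {x y : H} (hx : D.SupportedIn K x)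
    (hy : D.SupportedIn K y) : D.SupportedIn K (x + y) := by
  intro f hf
  rw [map_add, hx f hf, hy f hf, add_zero]

lemma supportedIn_smul (D : LineCalculus H) {K : Set ℝ} {x : H} (c : ℂ) (hx : D.SupportedIn K x) :
    D.SupportedIn K (c • x) := by
  intro f hf
  rw [map_smul, hx f hf, smul_zero]

lemma supportedIn_mono (D : LineCalculus H) {K L : Set ℝ} {x : H} (hKL : K ⊆ L)
    (hx : D.SupportedIn K x) : D.SupportedIn L x :=
  fun f hf => hx f (fun u hu => hf u (hKL hu))

lemma supportedIn_apply (D : LineCalculus H) {K : Set ℝ} (F : ℝ →ᵇ ℂ) (hF : ∀ u, u ∉ K → F u = 0)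
    (x : H) : D.SupportedIn K (D.apply F x) := by
  intro f hf
  rw [← apply_mul]
  have : f * F = 0 := by
    ext u
    by_cases hu : u ∈ K
    · simp [hf u hu]
    · simp [hF u hu]
  rw [this]; simp

lemma apply_eq_self_of_supportedIn (D : LineCalculus H) {K : Set ℝ} (F : ℝ →ᵇ ℂ) (hF : ∀ u ∈ K, F u = 1)
    {x : H} (hx : D.SupportedIn K x) : D.apply F x = x := by
  have h := hx (F - 1) (fun u hu => by simp [hF u hu])
  rw [map_sub, map_one] at h
  simpa [sub_eq_zero] using h

/-- estimate for characters times a compactly supported function -/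
lemma char_mul_dist (f : ℝ →ᵇ ℂ) (R : ℝ) (hR : ∀ u, f u ≠ 0 → |u| ≤ R) (hR0 : 0 ≤ R) (s t : ℝ) :
    ‖LineCalculus.character s * f - LineCalculus.character t * f‖ ≤ |s - t| * R * ‖f‖ := by
  rw [BoundedContinuousFunction.norm_le (by positivity)]
  intro u
  by_cases hu : f u = 0
  · simp [hu]; positivity
  have hu' := hR u hu
  have h1 : (LineCalculus.character s * f - LineCalculus.character t * f) u
      = Complex.exp (Complex.I * ((t * u : ℝ) : ℂ)) * (Complex.exp (Complex.I * (((s - t) * u : ℝ) : ℂ)) - 1) * f u := by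
    simp only [BoundedContinuousFunction.coe_sub, BoundedContinuousFunction.coe_mul, Pi.sub_apply, Pi.mul_apply, char_apply]
    rw [mul_sub, ← Complex.exp_add]
    have : Complex.I * ((t * u : ℝ) : ℂ) + Complex.I * (((s - t) * u : ℝ) : ℂ) = Complex.I * ((s * u : ℝ) : ℂ) := by
      push_cast; ring
    rw [this]; ring
  rw [h1, norm_mul, norm_mul]
  have h2 : ‖Complex.exp (Complex.I * ((t * u : ℝ) : ℂ))‖ = 1 := by
    rw [mul_comm, Complex.norm_exp_ofReal_mul_I]
  have h3 := Real.norm_exp_I_mul_ofReal_sub_one_le (x := (s - t) * u)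
  rw [h2, one_mul]
  have h4 : ‖(s - t) * u‖ ≤ |s - t| * R := by
    rw [Real.norm_eq_abs, abs_mul]
    exact mul_le_mul_of_nonneg_left hu' (abs_nonneg _)
  exact mul_le_mul (h3.trans h4) (f.norm_coe_le_norm u) (norm_nonneg _) (by positivity)

lemma exists_bound_of_compactSupport (f : ℝ →ᵇ ℂ) (hf : HasCompactSupport (f : ℝ → ℂ)) :
    ∃ R : ℝ, 0 ≤ R ∧ ∀ u, f u ≠ 0 → |u| ≤ R := by
  obtain ⟨R, hR⟩ := hf.isBounded.subset_closedBall 0
  refine ⟨max R 0, le_max_right _ _, fun u hu => ?_⟩
  have : u ∈ Metric.closedBall (0 : ℝ) R := hR (subset_tsupport _ hu)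
  rw [mem_closedBall_zero_iff, Real.norm_eq_abs] at this
  exact this.trans (le_max_left _ _)

lemma continuous_char_mul (f : ℝ →ᵇ ℂ) (hf : HasCompactSupport (f : ℝ → ℂ)) :
    Continuous (fun t : ℝ => LineCalculus.character t * f) := by
  obtain ⟨R, hR0, hR⟩ := exists_bound_of_compactSupport f hf
  have : LipschitzWith (Real.toNNReal (R * ‖f‖)) (fun t : ℝ => LineCalculus.character t * f) := by
    refine LipschitzWith.of_dist_le' (fun s t => ?_)
    rw [dist_eq_norm, Real.dist_eq]
    have := char_mul_dist f R hR hR0 s t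
    linarith
  exact this.continuous

lemma continuous_apply_left (D : LineCalculus H) (x : H) : Continuous (fun g : ℝ →ᵇ ℂ => D.apply g x) := by
  have : LipschitzWith (Real.toNNReal ‖x‖) (fun g : ℝ →ᵇ ℂ => D.apply g x) := by
    refine LipschitzWith.of_dist_le' (fun g h => ?_)
    rw [dist_eq_norm, dist_eq_norm]
    have := apply_apply_norm_le D (g - h) x
    rw [map_sub] at this
    rw [mul_comm]
    exact this
  exact this.continuous

lemma wave_continuous (D : LineCalculus H) (x : H) : Continuous (fun t : ℝ => D.wave t x) := by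
  rw [continuous_iff_continuousAt]
  intro t
  rw [Metric.continuousAt_iff]
  intro ε hε
  obtain ⟨f, hf, hfx⟩ := D.window x (ε / 3) (by positivity)
  have hc : Continuous (fun t : ℝ => D.apply (LineCalculus.character t * f) x) := by
    have h1 := continuous_char_mul f hf
    exact (continuous_apply_left D x).comp h1
  obtain ⟨δ, hδ, hδ'⟩ := Metric.continuousAt_iff.mp (hc.continuousAt (x := t)) (ε / 3) (by positivity)
  refine ⟨δ, hδ, fun {s} hs => ?_⟩
  have h1 := hδ' hs
  rw [dist_eq_norm] at h1 ⊢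
  have e1 : ∀ r : ℝ, D.apply (LineCalculus.character r * f) x = D.wave r (D.apply f x) := fun r => apply_mul D _ _ _
  rw [e1, e1] at h1
  have e2 : D.wave s x - D.wave t x = (D.wave s (D.apply f x) - D.wave t (D.apply f x))
      - (D.wave s (D.apply f x - x)) + D.wave t (D.apply f x - x) := by
    rw [map_sub, map_sub]; abel
  rw [e2]
  calc _ ≤ ‖D.wave s (D.apply f x) - D.wave t (D.apply f x) - (D.wave s (D.apply f x - x))‖ + ‖D.wave t (D.apply f x - x)‖ := norm_add_le _ _
    _ ≤ ‖D.wave s (D.apply f x) - D.wave t (D.apply f x)‖ + ‖(D.wave s (D.apply f x - x))‖ + ‖D.wave t (D.apply f x - x)‖ := by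
        gcongr; exact norm_sub_le _ _
    _ = ‖D.wave s (D.apply f x) - D.wave t (D.apply f x)‖ + ‖D.apply f x - x‖ + ‖D.apply f x - x‖ := by
        rw [wave_norm, wave_norm]
    _ < ε := by linarith

/-- trapezoid cutoff: 1 on `[-R, R]`, 0 off `[-(R+1), R+1]`. -/
noncomputable def cutoff (R : ℝ) : ℝ →ᵇ ℂ :=
  BoundedContinuousFunction.ofNormedAddCommGroup
    (fun u : ℝ => ((max 0 (min 1 (R + 1 - |u|)) : ℝ) : ℂ)) (by fun_prop) 1
    (fun u => by
      rw [Complex.norm_real, Real.norm_eq_abs, abs_le]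
      constructor
      · have : 0 ≤ max 0 (min 1 (R + 1 - |u|)) := le_max_left _ _
        linarith
      · exact max_le (by norm_num) (min_le_left _ _))

lemma cutoff_apply (R u : ℝ) : cutoff R u = ((max 0 (min 1 (R + 1 - |u|)) : ℝ) : ℂ) := rfl

lemma cutoff_eq_one {R u : ℝ} (hu : |u| ≤ R) : cutoff R u = 1 := by
  rw [cutoff_apply]
  have : (1 : ℝ) ≤ R + 1 - |u| := by linarith
  rw [min_eq_left this, max_eq_right (by norm_num)]
  simp

lemma cutoff_eq_zero {R u : ℝ} (hu : R + 1 ≤ |u|) : cutoff R u = 0 := by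
  rw [cutoff_apply]
  have h1 : min 1 (R + 1 - |u|) ≤ 0 := (min_le_right _ _).trans (by linarith)
  rw [max_eq_left h1]
  simp

lemma cutoff_norm_le (R u : ℝ) : ‖cutoff R u‖ ≤ 1 := by
  rw [cutoff_apply, Complex.norm_real, Real.norm_eq_abs, abs_le]
  constructor
  · have : 0 ≤ max 0 (min 1 (R + 1 - |u|)) := le_max_left _ _
    linarith
  · exact max_le (by norm_num) (min_le_left _ _)

lemma cutoff_norm_le' (R : ℝ) : ‖cutoff R‖ ≤ 1 := by
  rw [BoundedContinuousFunction.norm_le (by norm_num)]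
  exact cutoff_norm_le R

lemma cutoff_hasCompactSupport (R : ℝ) : HasCompactSupport (cutoff R : ℝ → ℂ) := by
  refine HasCompactSupport.of_support_subset_isCompact (isCompact_closedBall (0 : ℝ) (R + 1)) ?_
  intro u hu
  rw [mem_closedBall_zero_iff, Real.norm_eq_abs]
  by_contra h
  exact hu (cutoff_eq_zero (le_of_lt (not_le.mp h)))

lemma exists_cutoff_approx (D : LineCalculus H) (y : H) (ε : ℝ) (hε : 0 < ε) :
    ∃ R : ℝ, 0 ≤ R ∧ ‖D.apply (cutoff R) y - y‖ < ε := by
  obtain ⟨f, hf, hfx⟩ := D.window y (ε / 2) (by positivity)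
  obtain ⟨R, hR0, hR⟩ := exists_bound_of_compactSupport f hf
  refine ⟨R, hR0, ?_⟩
  have h1 : cutoff R * f = f := by
    ext u
    by_cases hu : f u = 0
    · simp [hu]
    · simp [cutoff_eq_one (hR u hu)]
  have h2 : D.apply (cutoff R) y - y = D.apply (cutoff R) (y - D.apply f y) + (D.apply f y - y) := by
    rw [map_sub, ← apply_mul, h1]; abel
  rw [h2]
  calc _ ≤ ‖D.apply (cutoff R) (y - D.apply f y)‖ + ‖D.apply f y - y‖ := norm_add_le _ _
    _ ≤ 1 * ‖y - D.apply f y‖ + ‖D.apply f y - y‖ := by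
        gcongr
        exact (apply_apply_norm_le D _ _).trans (mul_le_mul_of_nonneg_right (cutoff_norm_le' R) (norm_nonneg _))
    _ = ‖D.apply f y - y‖ + ‖D.apply f y - y‖ := by rw [one_mul, norm_sub_rev]
    _ < ε := by linarith

end Crest.Agent.ModFlow
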