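import Mathlib
import Crest.Prelude.Def_ModularData
import Crest.Agent.ModFlowA

set_option autoImplicit false
open MeasureTheory Filter Topology Crest.OpAlg
open scoped BoundedContinuousFunction InnerProductSpace

namespace Crest.Agent.ModFlow

variable {H : Type*} [NormedAddCommGroup H] [InnerProductSpace ℂ H] [CompleteSpace H]

lemma exists_clip (κ : ℝ → ℂ) (hκ : Continuous κ) (R : ℝ) (hR : 0 ≤ R) :
    ∃ g : ℝ →ᵇ ℂ, ∀ u, |u| ≤ R → g u = κ u := by
  obtain ⟨C, hC⟩ := (isCompact_Icc (a := -R) (b := R)).exists_bound_of_continuousOn hκ.continuousOn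
  refine ⟨BoundedContinuousFunction.ofNormedAddCommGroup (fun u => κ (max (-R) (min R u)))
    (by fun_prop) C (fun u => hC _ ⟨le_max_left _ _, max_le (by linarith) (min_le_left _ _)⟩), ?_⟩
  intro u hu
  have h := abs_le.mp hu
  simp only [BoundedContinuousFunction.coe_ofNormedAddCommGroup]
  rw [min_eq_right h.2, max_eq_right h.1]

/-- for antiunitary `J`. -/
lemma inner_J_J (J : H ≃ₗᵢ⋆[ℂ] H) (x y : H) : ⟪J x, J y⟫_ℂ = ⟪y, x⟫_ℂ := by
  rw [← inner_conj_symm y x]
  rw [inner_eq_sum_norm_sq_div_four (J x) (J y), inner_eq_sum_norm_sq_div_four x y]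
  have h1 : ‖J x + J y‖ = ‖x + y‖ := by rw [← map_add, J.norm_map]
  have h2 : ‖J x - J y‖ = ‖x - y‖ := by rw [← map_sub, J.norm_map]
  have h3 : ‖J x - (RCLike.I : ℂ) • J y‖ = ‖x + (RCLike.I : ℂ) • y‖ := by
    rw [← J.norm_map (x + (RCLike.I : ℂ) • y), map_add, J.map_smulₛₗ]
    simp [sub_eq_add_neg]
  have h4 : ‖J x + (RCLike.I : ℂ) • J y‖ = ‖x - (RCLike.I : ℂ) • y‖ := by
    rw [← J.norm_map (x - (RCLike.I : ℂ) • y), map_sub, J.map_smulₛₗ]
    simp [sub_eq_add_neg]
  rw [h1, h2, h3, h4]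
  simp only [map_div₀, map_add, map_sub, map_mul, map_pow, RCLike.conj_ofReal, RCLike.conj_I]
  have h5 : (starRingEnd ℂ) 4 = 4 := by
    have : (4 : ℂ) = ((4 : ℝ) : ℂ) := by norm_num
    rw [this]; exact Complex.conj_ofReal 4
  rw [h5]
  ring

lemma halfExp_of_mem (S : ModularDatum H) {a : H →L[ℂ] H} (ha : a ∈ S.M) :
    S.D.HalfExp (a S.vac) (S.J (star a S.vac)) := by
  have h : (a S.vac, star a S.vac) ∈ closure (Set.range fun a : S.M => ((a : H →L[ℂ] H) S.vac, star (a : H →L[ℂ] H) S.vac)) :=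
    subset_closure ⟨⟨a, ha⟩, rfl⟩
  rw [S.tomita] at h
  exact h

lemma inner_of_halfExp (S : ModularDatum H) {x y : H} (h : S.D.HalfExp x y) :
    ⟪S.J S.vac, y⟫_ℂ = ⟪S.vac, x⟫_ℂ := by
  have hmem : (x, S.J y) ∈ closure (Set.range fun a : S.M => ((a : H →L[ℂ] H) S.vac, star (a : H →L[ℂ] H) S.vac)) := by
    rw [S.tomita]
    simp only [Set.mem_ofPred_eq]
    rw [S.J_J]; exact h
  have hclosed : IsClosed {p : H × H | ⟪p.2, S.vac⟫_ℂ = ⟪S.vac, p.1⟫_ℂ} := by
    apply isClosed_eq <;> fun_prop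
  have hsub : (Set.range fun a : S.M => ((a : H →L[ℂ] H) S.vac, star (a : H →L[ℂ] H) S.vac))
      ⊆ {p : H × H | ⟪p.2, S.vac⟫_ℂ = ⟪S.vac, p.1⟫_ℂ} := by
    rintro _ ⟨a, rfl⟩
    simp only [Set.mem_ofPred_eq]
    rw [ContinuousLinearMap.star_eq_adjoint, ContinuousLinearMap.adjoint_inner_left]
  have h2 := closure_minimal hsub hclosed hmem
  simp only [Set.mem_ofPred_eq] at h2
  rw [← h2, ← inner_J_J S.J y (S.J S.vac), S.J_J]

lemma apply_selfAdjoint_inner (D : LineCalculus H) (f : ℝ →ᵇ ℂ) (hf : star f = f) (x y : H) :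
    ⟪D.apply f x, y⟫_ℂ = ⟪x, D.apply f y⟫_ℂ := by
  conv_lhs => rw [← hf]
  rw [map_star, ContinuousLinearMap.star_eq_adjoint, ContinuousLinearMap.adjoint_inner_left]

lemma cutoff_star (R : ℝ) : star (cutoff R) = cutoff R := by
  ext u
  simp [BoundedContinuousFunction.star_apply, cutoff_apply]

/-- The vacuum is annihilated by cut-offs of `exp D - 1`. -/
lemma vac_exp (S : ModularDatum H) (R : ℝ) (hR : 0 ≤ R) (g : ℝ →ᵇ ℂ)
    (hg : ∀ u, g u = cutoff R u * ((Real.exp u : ℝ) : ℂ)) :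
    S.D.apply g S.vac = S.D.apply (cutoff R) S.vac := by
  obtain ⟨E, hE⟩ := exists_clip (fun u => ((Real.exp (u / 2) : ℝ) : ℂ)) (by fun_prop) (R + 1) (by linarith)
  obtain ⟨E₀, hE₀⟩ : ∃ E₀ : ℝ →ᵇ ℂ, ∀ u, E₀ u = cutoff R u * ((Real.exp (u / 2) : ℝ) : ℂ) := by
    refine ⟨cutoff R * E, fun u => ?_⟩
    rw [BoundedContinuousFunction.coe_mul, Pi.mul_apply]
    by_cases hu : |u| ≤ R + 1
    · rw [hE u hu]
    · rw [cutoff_eq_zero (le_of_lt (not_le.mp hu))]; simp
  have hE₀star : star E₀ = E₀ := by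
    ext u
    rw [BoundedContinuousFunction.star_apply, hE₀, cutoff_apply, ← Complex.ofReal_mul,
      Complex.star_def, Complex.conj_ofReal]
  -- HalfExp vac (J vac)
  have h1 : S.D.HalfExp S.vac (S.J S.vac) := by
    have := halfExp_of_mem S (a := 1) (one_mem S.M)
    simpa using this
  have h2 : S.D.apply E₀ (S.J S.vac) = S.D.apply g S.vac := by
    apply h1
    intro u
    rw [hg, hE₀, mul_assoc, ← Complex.ofReal_mul, ← Real.exp_add]
    congr 3; ring
  refine ext_inner_right ℂ (fun z => ?_)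
  rw [← h2, apply_selfAdjoint_inner _ _ hE₀star, apply_selfAdjoint_inner _ _ (cutoff_star R)]
  apply inner_of_halfExp
  intro f' g' hfg
  rw [← apply_mul, ← apply_mul]
  congr 2
  ext u
  rw [BoundedContinuousFunction.coe_mul, BoundedContinuousFunction.coe_mul, Pi.mul_apply, Pi.mul_apply, hfg, hE₀]
  ring

lemma exists_quot (t : ℝ) : ∃ κ : ℝ → ℂ, Continuous κ ∧
    ∀ u : ℝ, κ u * (((Real.exp u : ℝ) : ℂ) - 1) = Complex.exp (Complex.I * ((t * u : ℝ) : ℂ)) - 1 := by
  set f : ℝ → ℂ := fun u => Complex.exp (Complex.I * ((t * u : ℝ) : ℂ)) with hf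
  set g : ℝ → ℂ := fun u => ((Real.exp u : ℝ) : ℂ) with hg
  have hfd : Differentiable ℝ f := by
    rw [hf]; fun_prop
  have hgd : Differentiable ℝ g := by
    rw [hg]
    have : Differentiable ℝ (fun u : ℝ => Real.exp u) := by fun_prop
    exact Complex.ofRealCLM.differentiable.comp this
  have hcont : ∀ h : ℝ → ℂ, Differentiable ℝ h → Continuous (dslope h 0) := by
    intro h hh
    rw [continuous_iff_continuousAt]
    intro u
    by_cases hu : u = 0
    · rw [hu]; exact continuousAt_dslope_same.mpr (hh 0)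
    · exact (continuousAt_dslope_of_ne hu).mpr (hh u).continuousAt
  have hne : ∀ u, dslope g 0 u ≠ 0 := by
    intro u
    by_cases hu : u = 0
    · rw [hu, dslope_same]
      have : HasDerivAt g ((Real.exp 0 : ℝ) : ℂ) 0 := (Real.hasDerivAt_exp 0).ofReal_comp
      rw [this.deriv]; simp
    · intro h0
      have h1 := sub_smul_dslope g 0 u
      rw [h0, smul_zero] at h1
      have h2 : ((Real.exp u : ℝ) : ℂ) = 1 := by
        have : g u = g 0 := by rw [← sub_eq_zero]; exact h1.symm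
        simpa [hg] using this
      have h3 : Real.exp u = 1 := by exact_mod_cast h2
      exact hu (Real.exp_eq_one_iff u |>.mp h3)
  refine ⟨fun u => dslope f 0 u / dslope g 0 u, (hcont f hfd).div (hcont g hgd) hne, fun u => ?_⟩
  have h1 := sub_smul_dslope f 0 u
  have h2 := sub_smul_dslope g 0 u
  have h3 : ((Real.exp u : ℝ) : ℂ) - 1 = g u - g 0 := by simp [hg]
  have h4 : Complex.exp (Complex.I * ((t * u : ℝ) : ℂ)) - 1 = f u - f 0 := by simp [hf]
  rw [h3, h4, ← h1, ← h2]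
  have := hne u
  simp only [Complex.real_smul]
  field_simp

lemma wave_vac (S : ModularDatum H) (t : ℝ) : S.D.wave t S.vac = S.vac := by
  obtain ⟨κ, hκ, hκ'⟩ := exists_quot t
  have key : ∀ R : ℝ, 0 ≤ R → S.D.wave t (S.D.apply (cutoff R) S.vac) = S.D.apply (cutoff R) S.vac := by
    intro R hR
    obtain ⟨k, hk⟩ := exists_clip κ hκ (R + 1) (by linarith)
    obtain ⟨E, hE⟩ := exists_clip (fun u => ((Real.exp u : ℝ) : ℂ)) (by fun_prop) (R + 1) (by linarith)
    have h1 : S.D.apply (cutoff R * E) S.vac = S.D.apply (cutoff R) S.vac := by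
      apply vac_exp S R hR
      intro u
      rw [BoundedContinuousFunction.coe_mul, Pi.mul_apply]
      by_cases hu : |u| ≤ R + 1
      · rw [hE u hu]
      · rw [cutoff_eq_zero (le_of_lt (not_le.mp hu))]; simp
    have h2 : LineCalculus.character t * cutoff R - cutoff R = k * (cutoff R * E - cutoff R) := by
      ext u
      simp only [BoundedContinuousFunction.coe_mul, BoundedContinuousFunction.coe_sub, Pi.mul_apply, Pi.sub_apply, char_apply]
      by_cases hu : |u| ≤ R + 1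
      · rw [hE u hu, hk u hu]
        have := hκ' u
        linear_combination (-(cutoff R u)) * this
      · rw [cutoff_eq_zero (le_of_lt (not_le.mp hu))]; simp
    have h3 : S.D.apply (LineCalculus.character t * cutoff R - cutoff R) S.vac = 0 := by
      rw [h2, apply_mul, map_sub, sub_apply, h1, sub_self, map_zero]
    rw [map_sub, sub_apply, apply_mul, sub_eq_zero] at h3
    exact h3
  rw [← sub_eq_zero, ← norm_eq_zero]
  refine le_antisymm (le_of_forall_pos_le_add (fun ε hε => ?_)) (norm_nonneg _)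
  obtain ⟨R, hR, hR'⟩ := exists_cutoff_approx S.D S.vac (ε / 2) (by positivity)
  have e : S.D.wave t S.vac - S.vac = (S.D.apply (cutoff R) S.vac - S.vac) - S.D.wave t (S.D.apply (cutoff R) S.vac - S.vac) := by
    rw [map_sub, key R hR]; abel
  rw [e]
  calc _ ≤ ‖S.D.apply (cutoff R) S.vac - S.vac‖ + ‖S.D.wave t (S.D.apply (cutoff R) S.vac - S.vac)‖ := norm_sub_le _ _
    _ = ‖S.D.apply (cutoff R) S.vac - S.vac‖ + ‖S.D.apply (cutoff R) S.vac - S.vac‖ := by rw [wave_norm]
    _ ≤ 0 + ε := by linarith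

lemma flow_vac (S : ModularDatum H) (t : ℝ) (a : H →L[ℂ] H) : S.flow t a S.vac = S.D.wave t (a S.vac) := by
  simp only [ModularDatum.flow, mul_apply_eq_comp]
  rw [wave_vac]

/-- norm of `a⋆ξ` when `aξ` is spectrally supported in `(-∞, β]`. -/
lemma star_vac_norm_le (S : ModularDatum H) {a : H →L[ℂ] H} (ha : a ∈ S.M) {K : Set ℝ} {β : ℝ}
    (hK : ∀ u ∈ K, u ≤ β) (hs : S.D.SupportedIn K (a S.vac)) :
    ‖star a S.vac‖ ≤ Real.exp (β / 2) * ‖a S.vac‖ := by
  set y := S.J (star a S.vac) with hy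
  have hhalf : S.D.HalfExp (a S.vac) y := halfExp_of_mem S ha
  have hny : ‖star a S.vac‖ = ‖y‖ := by rw [hy, S.J.norm_map]
  rw [hny]
  refine le_of_forall_pos_le_add (fun ε hε => ?_)
  obtain ⟨R, hR, hR'⟩ := exists_cutoff_approx S.D y ε hε
  obtain ⟨E, hE⟩ := exists_clip (fun u => ((Real.exp (u / 2) : ℝ) : ℂ)) (by fun_prop) (R + 1) (by linarith)
  have h1 : S.D.apply (cutoff R) y = S.D.apply (cutoff R * E) (a S.vac) := by
    apply hhalf
    intro u
    rw [BoundedContinuousFunction.coe_mul, Pi.mul_apply]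
    by_cases hu : |u| ≤ R + 1
    · rw [hE u hu]
    · rw [cutoff_eq_zero (le_of_lt (not_le.mp hu))]; simp
  let m : ℝ →ᵇ ℂ := BoundedContinuousFunction.ofNormedAddCommGroup
    (fun u : ℝ => ((Real.exp (min u β / 2) : ℝ) : ℂ)) (by fun_prop) (Real.exp (β / 2))
    (fun u => by
      rw [Complex.norm_real, Real.norm_eq_abs, abs_of_pos (Real.exp_pos _)]
      apply Real.exp_le_exp.mpr
      have := min_le_right u β
      linarith)
  have hmn : ‖cutoff R * m‖ ≤ Real.exp (β / 2) := by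
    rw [BoundedContinuousFunction.norm_le (by positivity)]
    intro u
    rw [BoundedContinuousFunction.coe_mul, Pi.mul_apply, norm_mul]
    have h1 := cutoff_norm_le R u
    have h2 : ‖m u‖ ≤ Real.exp (β / 2) := by
      simp only [m, BoundedContinuousFunction.coe_ofNormedAddCommGroup]
      rw [Complex.norm_real, Real.norm_eq_abs, abs_of_pos (Real.exp_pos _)]
      apply Real.exp_le_exp.mpr
      have := min_le_right u β
      linarith
    calc _ ≤ 1 * Real.exp (β / 2) := mul_le_mul h1 h2 (norm_nonneg _) (by norm_num)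
      _ = _ := one_mul _
  have h2 : S.D.apply (cutoff R * E) (a S.vac) = S.D.apply (cutoff R * m) (a S.vac) := by
    rw [← sub_eq_zero, ← sub_apply, ← map_sub]
    apply hs
    intro u hu
    simp only [BoundedContinuousFunction.coe_mul, BoundedContinuousFunction.coe_sub, Pi.mul_apply, Pi.sub_apply]
    by_cases hu' : |u| ≤ R + 1
    · rw [hE u hu']
      simp only [m, BoundedContinuousFunction.coe_ofNormedAddCommGroup]
      rw [min_eq_left (hK u hu)]; ring
    · rw [cutoff_eq_zero (le_of_lt (not_le.mp hu'))]; simp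
  have h3 : ‖S.D.apply (cutoff R) y‖ ≤ Real.exp (β / 2) * ‖a S.vac‖ := by
    rw [h1, h2]
    exact (apply_apply_norm_le _ _ _).trans (mul_le_mul_of_nonneg_right hmn (norm_nonneg _))
  have h4 : ‖y‖ ≤ ‖S.D.apply (cutoff R) y‖ + ‖S.D.apply (cutoff R) y - y‖ := by
    have := norm_sub_le (S.D.apply (cutoff R) y) (S.D.apply (cutoff R) y - y)
    simpa using this
  linarith

end Crest.Agent.ModFlow
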