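import Mathlib
import Crest.Prelude.Def_ModularData
import Crest.Agent.ModFlowB

set_option autoImplicit false
set_option linter.unusedSectionVars false
open MeasureTheory Filter Topology Crest.OpAlg
open scoped BoundedContinuousFunction InnerProductSpace

namespace Crest.Agent.ModFlow

section mean

variable {E : Type*} [NormedAddCommGroup E] [NormedSpace ℝ E]
variable {F : Type*} [NormedAddCommGroup F] [NormedSpace ℝ F]

noncomputable def av (g : ℝ → E) (k : ℕ) : E := ⨍ t in Set.Icc (-(k : ℝ)) (k : ℝ), g t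

noncomputable def gm (ω : Ultrafilter ℕ) (g : ℝ → E) : E := limUnder (ω : Filter ℕ) (av g)

lemma ultraMean_eq (ω : Ultrafilter ℕ) (g : ℝ → ℝ) : ultraMean ω g = gm ω g := rfl

lemma av_eq (g : ℝ → E) (k : ℕ) : av g k = (2 * (k : ℝ))⁻¹ • ∫ t in (-(k : ℝ))..k, g t := by
  rw [av, setAverage_eq, intervalIntegral.integral_of_le (by have : (0:ℝ) ≤ k := Nat.cast_nonneg k; linarith),
    integral_Icc_eq_integral_Ioc]
  congr 2
  rw [measureReal_def, Real.volume_Icc, ENNReal.toReal_ofReal (by have : (0:ℝ) ≤ k := Nat.cast_nonneg k; linarith)]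
  ring

lemma norm_av_le (g : ℝ → E) (C : ℝ) (hC : ∀ t, ‖g t‖ ≤ C) (k : ℕ) : ‖av g k‖ ≤ C := by
  have hC0 : 0 ≤ C := (norm_nonneg _).trans (hC 0)
  rw [av_eq, norm_smul]
  have h1 : ‖∫ t in (-(k : ℝ))..k, g t‖ ≤ C * |(k : ℝ) - (-k)| :=
    intervalIntegral.norm_integral_le_of_norm_le_const (fun t _ => hC t)
  have hk : (0 : ℝ) ≤ k := Nat.cast_nonneg k
  have h2 : |(k : ℝ) - (-k)| = 2 * k := by rw [abs_of_nonneg] <;> linarith
  rw [h2] at h1
  rw [norm_inv, Real.norm_eq_abs, abs_of_nonneg (by positivity : (0:ℝ) ≤ 2 * k)]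
  rcases eq_or_lt_of_le hk with h0 | h0
  · rw [← h0]; simp [hC0]
  · calc (2 * (k:ℝ))⁻¹ * ‖∫ t in (-(k : ℝ))..k, g t‖ ≤ (2 * (k:ℝ))⁻¹ * (C * (2 * k)) := by gcongr
      _ = C := by field_simp

lemma exists_tendsto_av [ProperSpace E] (ω : Ultrafilter ℕ) (g : ℝ → E) (hC : ∃ C, ∀ t, ‖g t‖ ≤ C) :
    ∃ x, Tendsto (av g) (ω : Filter ℕ) (𝓝 x) := by
  obtain ⟨C, hC⟩ := hC
  have hcomp : IsCompact (Metric.closedBall (0 : E) C) := isCompact_closedBall 0 C
  have h2 : (Ultrafilter.map (av g) ω : Filter E) ≤ 𝓟 (Metric.closedBall (0 : E) C) := by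
    rw [le_principal_iff]
    have h3 : av g ⁻¹' (Metric.closedBall (0 : E) C) ∈ (ω : Filter ℕ) := by
      refine Filter.mem_of_superset (Filter.univ_mem) ?_
      intro k _
      rw [Set.mem_preimage, mem_closedBall_zero_iff]
      exact norm_av_le g C hC k
    exact h3
  obtain ⟨x, _, hx⟩ := hcomp.ultrafilter_le_nhds _ h2
  exact ⟨x, hx⟩

lemma tendsto_gm [ProperSpace E] (ω : Ultrafilter ℕ) (g : ℝ → E) (hC : ∃ C, ∀ t, ‖g t‖ ≤ C) :
    Tendsto (av g) (ω : Filter ℕ) (𝓝 (gm ω g)) :=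
  tendsto_nhds_limUnder (exists_tendsto_av ω g hC)

lemma gm_eq_of_tendsto (ω : Ultrafilter ℕ) (g : ℝ → E) {x : E} (h : Tendsto (av g) (ω : Filter ℕ) (𝓝 x)) :
    gm ω g = x := h.limUnder_eq

/-- bounded continuous -/
def BC (g : ℝ → E) : Prop := Continuous g ∧ ∃ C, ∀ t, ‖g t‖ ≤ C

lemma BC.add {g h : ℝ → E} (hg : BC g) (hh : BC h) : BC (fun t => g t + h t) := by
  obtain ⟨hg1, C, hC⟩ := hg
  obtain ⟨hh1, C', hC'⟩ := hh
  exact ⟨hg1.add hh1, C + C', fun t => (norm_add_le _ _).trans (add_le_add (hC t) (hC' t))⟩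

lemma BC.clm {g : ℝ → E} (hg : BC g) (L : E →L[ℝ] F) : BC (fun t => L (g t)) := by
  obtain ⟨hg1, C, hC⟩ := hg
  refine ⟨L.continuous.comp hg1, ‖L‖ * C, fun t => (L.le_opNorm _).trans ?_⟩
  exact mul_le_mul_of_nonneg_left (hC t) (norm_nonneg _)

lemma BC.intervalIntegrable {g : ℝ → E} (hg : BC g) (a b : ℝ) : IntervalIntegrable g volume a b :=
  hg.1.intervalIntegrable a b

lemma av_add {g h : ℝ → E} (hg : BC g) (hh : BC h) (k : ℕ) :
    av (fun t => g t + h t) k = av g k + av h k := by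
  rw [av_eq, av_eq, av_eq, intervalIntegral.integral_add (hg.intervalIntegrable _ _) (hh.intervalIntegrable _ _), smul_add]

lemma av_clm [CompleteSpace E] [CompleteSpace F] {g : ℝ → E} (hg : BC g) (L : E →L[ℝ] F) (k : ℕ) :
    av (fun t => L (g t)) k = L (av g k) := by
  rw [av_eq, av_eq, map_smul, ContinuousLinearMap.intervalIntegral_comp_comm _ (hg.intervalIntegrable _ _)]

lemma gm_add [ProperSpace E] (ω : Ultrafilter ℕ) {g h : ℝ → E} (hg : BC g) (hh : BC h) :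
    gm ω (fun t => g t + h t) = gm ω g + gm ω h := by
  apply gm_eq_of_tendsto
  have := (tendsto_gm ω g hg.2).add (tendsto_gm ω h hh.2)
  refine this.congr (fun k => ?_)
  rw [av_add hg hh]

lemma gm_clm [ProperSpace E] [CompleteSpace F] (ω : Ultrafilter ℕ) {g : ℝ → E} (hg : BC g) (L : E →L[ℝ] F) :
    gm ω (fun t => L (g t)) = L (gm ω g) := by
  haveI : CompleteSpace E := complete_of_proper
  apply gm_eq_of_tendsto
  have := (L.continuous.tendsto _).comp (tendsto_gm ω g hg.2)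
  refine this.congr (fun k => ?_)
  rw [av_clm hg]; rfl

lemma av_const [CompleteSpace E] (c : E) (k : ℕ) (hk : 1 ≤ k) : av (fun _ => c) k = c := by
  rw [av_eq, intervalIntegral.integral_const, smul_smul]
  have : (1:ℝ) ≤ k := by exact_mod_cast hk
  have h2 : (2 * (k:ℝ))⁻¹ * ((k:ℝ) - (-k)) = 1 := by field_simp; ring
  rw [h2, one_smul]

lemma gm_const [CompleteSpace E] (ω : Ultrafilter ℕ) (hω : (ω : Filter ℕ) ≤ atTop) (c : E) :
    gm ω (fun _ => c) = c := by
  apply gm_eq_of_tendsto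
  have h1 : ∀ᶠ k in (ω : Filter ℕ), av (fun _ => c) k = c :=
    hω ((eventually_ge_atTop 1).mono (fun k hk => av_const c k hk))
  exact (tendsto_const_nhds).congr' (h1.mono (fun k hk => hk.symm))

lemma gm_mono (ω : Ultrafilter ℕ) {g h : ℝ → ℝ} (hg : BC g) (hh : BC h) (hgh : ∀ t, g t ≤ h t) :
    gm ω g ≤ gm ω h := by
  refine le_of_tendsto_of_tendsto (tendsto_gm ω g hg.2) (tendsto_gm ω h hh.2) (Eventually.of_forall (fun k => ?_))
  have hk : (0 : ℝ) ≤ k := Nat.cast_nonneg k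
  rw [av_eq, av_eq]
  apply smul_le_smul_of_nonneg_left _ (by positivity)
  exact intervalIntegral.integral_mono_on (by linarith) (hg.intervalIntegrable _ _) (hh.intervalIntegrable _ _) (fun t _ => hgh t)

/-- some value is at most the mean plus epsilon -/
lemma exists_le_gm (ω : Ultrafilter ℕ) (hω : (ω : Filter ℕ) ≤ atTop) {g : ℝ → ℝ} (hg : BC g) {a : ℝ} (ha : gm ω g < a) :
    ∃ t, g t ≤ a := by
  by_contra hcon
  push Not at hcon
  have h1 : gm ω (fun _ => a) ≤ gm ω g :=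
    gm_mono ω ⟨continuous_const, ‖a‖, fun _ => le_rfl⟩ hg (fun t => (hcon t).le)
  rw [gm_const ω hω] at h1
  linarith

lemma exists_gm_le (ω : Ultrafilter ℕ) (hω : (ω : Filter ℕ) ≤ atTop) {g : ℝ → ℝ} (hg : BC g) {a : ℝ} (ha : a < gm ω g) :
    ∃ t, a ≤ g t := by
  by_contra hcon
  push Not at hcon
  have h1 : gm ω g ≤ gm ω (fun _ => a) :=
    gm_mono ω hg ⟨continuous_const, ‖a‖, fun _ => le_rfl⟩ (fun t => (hcon t).le)
  rw [gm_const ω hω] at h1
  linarith

lemma BC.comp_neg {g : ℝ → E} (hg : BC g) : BC (fun t => g (-t)) :=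
  ⟨hg.1.comp continuous_neg, hg.2.imp (fun _ h t => h (-t))⟩

lemma BC.comp_add {g : ℝ → E} (hg : BC g) (s : ℝ) : BC (fun t => g (t + s)) :=
  ⟨hg.1.comp (continuous_id.add continuous_const), hg.2.imp (fun _ h t => h (t + s))⟩

lemma gm_comp_neg (ω : Ultrafilter ℕ) (g : ℝ → E) :
    gm ω (fun t => g (-t)) = gm ω g := by
  have : av (fun t => g (-t)) = av g := by
    funext k
    rw [av_eq, av_eq, intervalIntegral.integral_comp_neg]
    simp
  rw [gm, gm, this]

lemma gm_comp_add [ProperSpace E] (ω : Ultrafilter ℕ) (hω : (ω : Filter ℕ) ≤ atTop) {g : ℝ → E} (hg : BC g) (s : ℝ) :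
    gm ω (fun t => g (t + s)) = gm ω g := by
  apply gm_eq_of_tendsto
  obtain ⟨C, hC⟩ := hg.2
  have hC0 : 0 ≤ C := (norm_nonneg _).trans (hC 0)
  have h1 : Tendsto (fun k => av (fun t => g (t + s)) k - av g k) (ω : Filter ℕ) (𝓝 0) := by
    refine squeeze_zero_norm' (a := fun k : ℕ => (|s| * C) * (k : ℝ)⁻¹) ?_ ?_
    · refine hω ((eventually_ge_atTop 1).mono (fun k hk => ?_))
      have hk1 : (1 : ℝ) ≤ k := by exact_mod_cast hk
      rw [av_eq, av_eq, ← smul_sub, norm_smul, intervalIntegral.integral_comp_add_right,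
        intervalIntegral.integral_interval_sub_interval_comm (hg.intervalIntegrable _ _) (hg.intervalIntegrable _ _) (hg.intervalIntegrable _ _)]
      rw [norm_inv, Real.norm_eq_abs, abs_of_nonneg (by positivity : (0:ℝ) ≤ 2 * k)]
      have e1 : ‖∫ t in (-(k : ℝ) + s)..(-k), g t‖ ≤ C * |(-(k:ℝ)) - (-(k:ℝ) + s)| :=
        intervalIntegral.norm_integral_le_of_norm_le_const (fun t _ => hC t)
      have e2 : ‖∫ t in ((k : ℝ) + s)..k, g t‖ ≤ C * |(k:ℝ) - ((k:ℝ) + s)| :=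
        intervalIntegral.norm_integral_le_of_norm_le_const (fun t _ => hC t)
      have e3 : |(-(k:ℝ)) - (-(k:ℝ) + s)| = |s| := by
        rw [show (-(k:ℝ)) - (-(k:ℝ) + s) = -s by ring, abs_neg]
      have e4 : |(k:ℝ) - ((k:ℝ) + s)| = |s| := by
        rw [show (k:ℝ) - ((k:ℝ) + s) = -s by ring, abs_neg]
      rw [e3] at e1
      rw [e4] at e2
      have e5 := norm_sub_le (∫ t in (-(k : ℝ) + s)..(-k), g t) (∫ t in ((k : ℝ) + s)..k, g t)
      calc (2 * (k:ℝ))⁻¹ * ‖(∫ t in (-(k : ℝ) + s)..(-k), g t) - (∫ t in ((k : ℝ) + s)..k, g t)‖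
          ≤ (2 * (k:ℝ))⁻¹ * (C * |s| + C * |s|) := by gcongr; linarith
        _ = |s| * C * (k:ℝ)⁻¹ := by rw [mul_inv]; ring
    · have : Tendsto (fun k : ℕ => (|s| * C) * (k : ℝ)⁻¹) atTop (𝓝 ((|s| * C) * 0)) :=
        tendsto_inv_atTop_nhds_zero_nat.const_mul _
      rw [mul_zero] at this
      exact this.mono_left hω
  have h2 := h1.add (tendsto_gm ω g hg.2)
  simpa using h2

end mean

end Crest.Agent.ModFlow
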