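import Mathlib
import Crest.Prelude.Def_ModularData
import Crest.Agent.ModFlowC

set_option autoImplicit false
set_option linter.unusedSectionVars false
open MeasureTheory Filter Topology Crest.OpAlg
open scoped BoundedContinuousFunction InnerProductSpace

namespace Crest.Agent.ModFlow

variable {H : Type*} [NormedAddCommGroup H] [InnerProductSpace ℂ H] [CompleteSpace H]

lemma mem_of_comm (M : VonNeumannAlgebra H) {x : H →L[ℂ] H} (h : ∀ c ∈ M.commutant, c * x = x * c) : x ∈ M := by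
  rw [← VonNeumannAlgebra.commutant_commutant M, VonNeumannAlgebra.mem_commutant_iff]; exact h

lemma comm_of_mem (M : VonNeumannAlgebra H) {x c : H →L[ℂ] H} (hx : x ∈ M) (hc : c ∈ M.commutant) : c * x = x * c :=
  ((VonNeumannAlgebra.mem_commutant_iff.mp hc) x hx).symm

lemma flow_inner (S : ModularDatum H) (t : ℝ) (b : H →L[ℂ] H) (v w : H) :
    ⟪S.flow t b v, w⟫_ℂ = ⟪b (S.D.wave (-t) v), S.D.wave (-t) w⟫_ℂ := by
  simp only [ModularDatum.flow, mul_apply_eq_comp]
  rw [wave_inner]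

lemma wave_neg_continuous (D : LineCalculus H) (x : H) : Continuous (fun t : ℝ => D.wave (-t) x) :=
  (wave_continuous D x).comp continuous_neg

lemma flow_inner_bound (S : ModularDatum H) (b : H →L[ℂ] H) (v w : H) (t : ℝ) :
    ‖⟪S.flow t b v, w⟫_ℂ‖ ≤ ‖b‖ * ‖v‖ * ‖w‖ := by
  rw [flow_inner]
  refine (norm_inner_le_norm _ _).trans ?_
  rw [wave_norm]
  refine mul_le_mul_of_nonneg_right ?_ (norm_nonneg _)
  refine (b.le_opNorm _).trans ?_
  rw [wave_norm]

lemma flow_inner_BC (S : ModularDatum H) (b : H →L[ℂ] H) (v w : H) :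
    BC (fun t : ℝ => ⟪S.flow t b v, w⟫_ℂ) := by
  constructor
  · have : (fun t : ℝ => ⟪S.flow t b v, w⟫_ℂ) = fun t => ⟪b (S.D.wave (-t) v), S.D.wave (-t) w⟫_ℂ := by
      funext t; rw [flow_inner]
    rw [this]
    exact (b.continuous.comp (wave_neg_continuous S.D v)).inner (wave_neg_continuous S.D w)
  · exact ⟨‖b‖ * ‖v‖ * ‖w‖, fun t => flow_inner_bound S b v w t⟩

lemma norm_gm_le {E : Type*} [NormedAddCommGroup E] [NormedSpace ℝ E] [ProperSpace E] (ω : Ultrafilter ℕ)
    (g : ℝ → E) (C : ℝ) (hC : ∀ t, ‖g t‖ ≤ C) : ‖gm ω g‖ ≤ C := by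
  have h := tendsto_gm ω g ⟨C, hC⟩
  exact le_of_tendsto h.norm (Eventually.of_forall (fun k => norm_av_le g C hC k))

lemma gm_const_mul (ω : Ultrafilter ℕ) {g : ℝ → ℂ} (hg : BC g) (c : ℂ) :
    gm ω (fun t => c * g t) = c * gm ω g := by
  have := gm_clm ω hg (ContinuousLinearMap.mul ℝ ℂ c)
  simpa using this

/-- the sesquilinear form of the averaged operator -/
noncomputable def avForm (S : ModularDatum H) (ω : Ultrafilter ℕ) (b : H →L[ℂ] H) : H →L⋆[ℂ] H →L[ℂ] ℂ :=
  LinearMap.mkContinuous₂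
    (LinearMap.mk₂'ₛₗ (starRingEnd ℂ) (RingHom.id ℂ) (fun v w => gm ω (fun t : ℝ => ⟪S.flow t b v, w⟫_ℂ))
      (by
        intro v v' w
        rw [← gm_add ω (flow_inner_BC S b v w) (flow_inner_BC S b v' w)]
        congr 1; funext t; rw [map_add, inner_add_left])
      (by
        intro c v w
        rw [smul_eq_mul, ← gm_const_mul ω (flow_inner_BC S b v w)]
        congr 1; funext t; rw [map_smul, inner_smul_left])
      (by
        intro v w w'
        rw [← gm_add ω (flow_inner_BC S b v w) (flow_inner_BC S b v w')]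
        congr 1; funext t; rw [inner_add_right])
      (by
        intro c v w
        rw [smul_eq_mul, ← gm_const_mul ω (flow_inner_BC S b v w)]
        congr 1; funext t; rw [inner_smul_right]; rfl))
    ‖b‖
    (by
      intro v w
      exact norm_gm_le ω _ _ (flow_inner_bound S b v w))

lemma avForm_apply (S : ModularDatum H) (ω : Ultrafilter ℕ) (b : H →L[ℂ] H) (v w : H) :
    avForm S ω b v w = gm ω (fun t : ℝ => ⟪S.flow t b v, w⟫_ℂ) := rfl

/-- averaged operator -/
noncomputable def avOp (S : ModularDatum H) (ω : Ultrafilter ℕ) (b : H →L[ℂ] H) : H →L[ℂ] H :=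
  InnerProductSpace.continuousLinearMapOfBilin (avForm S ω b)

lemma avOp_inner (S : ModularDatum H) (ω : Ultrafilter ℕ) (b : H →L[ℂ] H) (v w : H) :
    ⟪avOp S ω b v, w⟫_ℂ = gm ω (fun t : ℝ => ⟪S.flow t b v, w⟫_ℂ) := by
  rw [avOp, InnerProductSpace.continuousLinearMapOfBilin_apply, avForm_apply]

lemma avOp_mem (S : ModularDatum H) (ω : Ultrafilter ℕ) (b : H →L[ℂ] H) (hb : b ∈ S.M) : avOp S ω b ∈ S.M := by
  apply mem_of_comm
  intro c hc
  ext v
  refine ext_inner_right ℂ (fun w => ?_)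
  rw [mul_apply_eq_comp, mul_apply_eq_comp, avOp_inner]
  rw [← ContinuousLinearMap.adjoint_inner_right, avOp_inner]
  congr 1; funext t
  rw [ContinuousLinearMap.adjoint_inner_right]
  have h1 : c * S.flow t b = S.flow t b * c := comm_of_mem S.M (S.flow_mem t b hb) hc
  have h2 : c (S.flow t b v) = S.flow t b (c v) := by
    rw [← mul_apply_eq_comp, h1]; rfl
  rw [h2]

lemma flow_flow (S : ModularDatum H) (s t : ℝ) (b : H →L[ℂ] H) : S.flow s (S.flow t b) = S.flow (s + t) b := by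
  simp only [ModularDatum.flow]
  rw [wave_add, neg_add, add_comm (-s) (-t), wave_add]
  simp only [mul_assoc]

lemma avOp_flow (S : ModularDatum H) (ω : Ultrafilter ℕ) (hω : (ω : Filter ℕ) ≤ atTop) (b : H →L[ℂ] H) (s : ℝ) :
    S.flow s (avOp S ω b) = avOp S ω b := by
  ext v
  refine ext_inner_right ℂ (fun w => ?_)
  rw [flow_inner, avOp_inner, avOp_inner]
  rw [← gm_comp_add ω hω (flow_inner_BC S b v w) s]
  congr 1; funext t
  rw [flow_inner, flow_inner, ← wave_add_apply, ← wave_add_apply]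
  congr 3 <;> ring_nf

/-- ergodicity: flow averages are scalars -/
lemma gm_flow (S : ModularDatum H) (herg : S.Ergodic) (ω : Ultrafilter ℕ) (hω : (ω : Filter ℕ) ≤ atTop)
    (b : H →L[ℂ] H) (hb : b ∈ S.M) (v w : H) :
    gm ω (fun t : ℝ => ⟪S.flow t b v, w⟫_ℂ) = ⟪b S.vac, S.vac⟫_ℂ * ⟪v, w⟫_ℂ := by
  obtain ⟨c, hc⟩ := herg (avOp S ω b) (avOp_mem S ω b hb) (fun s => avOp_flow S ω hω b s)
  have h1 : ∀ v w, gm ω (fun t : ℝ => ⟪S.flow t b v, w⟫_ℂ) = (starRingEnd ℂ) c * ⟪v, w⟫_ℂ := by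
    intro v w
    rw [← avOp_inner, hc]
    simp only [smul_apply, one_apply_eq_self]
    rw [inner_smul_left]
  have h2 : (starRingEnd ℂ) c = ⟪b S.vac, S.vac⟫_ℂ := by
    have h3 := h1 S.vac S.vac
    rw [inner_self_eq_norm_sq_to_K, S.norm_vac] at h3
    simp only [RCLike.ofReal_one, one_pow, mul_one] at h3
    rw [← h3]
    have h4 : (fun t : ℝ => ⟪S.flow t b S.vac, S.vac⟫_ℂ) = fun _ => ⟪b S.vac, S.vac⟫_ℂ := by
      funext t
      rw [flow_vac, wave_inner, wave_vac]
    rw [h4, gm_const ω hω]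
  rw [h1, h2]

end Crest.Agent.ModFlow
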