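import Mathlib
import Crest.Prelude.Def_ModularData
import Crest.Agent.ModFlowD

set_option autoImplicit false
set_option linter.unusedSectionVars false
open MeasureTheory Filter Topology Crest.OpAlg
open scoped BoundedContinuousFunction InnerProductSpace

namespace Crest.Agent.ModFlow

variable {H : Type*} [NormedAddCommGroup H] [InnerProductSpace ℂ H] [CompleteSpace H]

lemma flow_star (S : ModularDatum H) (t : ℝ) (a : H →L[ℂ] H) : star (S.flow t a) = S.flow t (star a) := by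
  simp only [ModularDatum.flow, star_mul, wave_star, neg_neg, mul_assoc]

lemma flow_mul (S : ModularDatum H) (t : ℝ) (a b : H →L[ℂ] H) : S.flow t (a * b) = S.flow t a * S.flow t b := by
  simp only [ModularDatum.flow]
  have h := wave_neg_mul S.D t
  calc S.D.wave t * (a * b) * S.D.wave (-t) = S.D.wave t * a * 1 * b * S.D.wave (-t) := by
        simp only [mul_assoc, one_mul]
    _ = S.D.wave t * a * (S.D.wave (-t) * S.D.wave t) * b * S.D.wave (-t) := by rw [h]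
    _ = _ := by simp only [mul_assoc]

/-- the `Q`-mass functional -/
noncomputable def qm (S : ModularDatum H) (ω : Ultrafilter ℕ) (T : H →L[ℂ] H) (h : H) : ℝ :=
  ultraMean ω (fun t : ℝ => ‖T (S.D.wave t h)‖ ^ 2)

lemma qm_BC (S : ModularDatum H) (T : H →L[ℂ] H) (h : H) : BC (fun t : ℝ => ‖T (S.D.wave t h)‖ ^ 2) := by
  constructor
  · exact ((T.continuous.comp (wave_continuous S.D h)).norm).pow 2
  · refine ⟨(‖T‖ * ‖h‖) ^ 2, fun t => ?_⟩
    rw [Real.norm_eq_abs, abs_of_nonneg (by positivity)]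
    have := T.le_opNorm (S.D.wave t h)
    rw [wave_norm] at this
    exact pow_le_pow_left₀ (norm_nonneg _) this 2

lemma BC_const {E : Type*} [NormedAddCommGroup E] [NormedSpace ℝ E] (c : E) : BC (fun _ : ℝ => c) :=
  ⟨continuous_const, ‖c‖, fun _ => le_rfl⟩

lemma qm_nonneg (S : ModularDatum H) (ω : Ultrafilter ℕ) (hω : (ω : Filter ℕ) ≤ atTop) (T : H →L[ℂ] H) (h : H) :
    0 ≤ qm S ω T h := by
  have := gm_mono ω (BC_const (0:ℝ)) (qm_BC S T h) (fun t => by positivity)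
  rw [gm_const ω hω] at this
  exact this

lemma qm_le (S : ModularDatum H) (ω : Ultrafilter ℕ) (hω : (ω : Filter ℕ) ≤ atTop) (T : H →L[ℂ] H) (h : H) :
    qm S ω T h ≤ ‖T‖ ^ 2 * ‖h‖ ^ 2 := by
  have := gm_mono ω (qm_BC S T h) (BC_const (‖T‖ ^ 2 * ‖h‖ ^ 2)) (fun t => by
    have := T.le_opNorm (S.D.wave t h)
    rw [wave_norm] at this
    calc ‖T (S.D.wave t h)‖ ^ 2 ≤ (‖T‖ * ‖h‖) ^ 2 := by gcongr
      _ = _ := by ring)
  rw [gm_const ω hω] at this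
  exact this

lemma qm_parallelogram (S : ModularDatum H) (ω : Ultrafilter ℕ) (T : H →L[ℂ] H) (h k : H) :
    qm S ω T (h + k) + qm S ω T (h - k) = 2 * qm S ω T h + 2 * qm S ω T k := by
  simp only [qm, ultraMean_eq]
  rw [← gm_add ω (qm_BC S T _) (qm_BC S T _)]
  have e1 : ∀ h : H, (2:ℝ) * gm ω (fun t : ℝ => ‖T (S.D.wave t h)‖ ^ 2) = gm ω (fun t : ℝ => 2 * ‖T (S.D.wave t h)‖ ^ 2) := by
    intro h
    have := gm_clm ω (qm_BC S T h) (ContinuousLinearMap.mul ℝ ℝ 2)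
    simpa using this.symm
  have e2 : ∀ h : H, BC (fun t : ℝ => 2 * ‖T (S.D.wave t h)‖ ^ 2) := fun h => by
    simpa using (qm_BC S T h).clm (ContinuousLinearMap.mul ℝ ℝ 2)
  rw [e1, e1, ← gm_add ω (e2 h) (e2 k)]
  congr 1; funext t
  simp only [map_add, map_sub]
  have := parallelogram_law_with_norm ℂ (T (S.D.wave t h)) (T (S.D.wave t k))
  nlinarith [this]

lemma qm_wave (S : ModularDatum H) (ω : Ultrafilter ℕ) (hω : (ω : Filter ℕ) ≤ atTop) (T : H →L[ℂ] H) (s : ℝ) (h : H) :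
    qm S ω T (S.D.wave s h) = qm S ω T h := by
  simp only [qm, ultraMean_eq]
  rw [← gm_comp_add ω hω (qm_BC S T h) s]
  congr 1; funext t
  rw [← wave_add_apply]

lemma qm_smul (S : ModularDatum H) (ω : Ultrafilter ℕ) (T : H →L[ℂ] H) (c : ℂ) (h : H) :
    qm S ω T (c • h) = ‖c‖ ^ 2 * qm S ω T h := by
  simp only [qm, ultraMean_eq]
  have := gm_clm ω (qm_BC S T h) (ContinuousLinearMap.mul ℝ ℝ (‖c‖ ^ 2))
  simp only [ContinuousLinearMap.mul_apply'] at this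
  rw [← this]
  congr 1; funext t
  simp only [map_smul, norm_smul]
  ring

lemma qm_le_two (S : ModularDatum H) (ω : Ultrafilter ℕ) (hω : (ω : Filter ℕ) ≤ atTop) (T : H →L[ℂ] H) (h k : H) :
    qm S ω T h ≤ 2 * qm S ω T k + 2 * (‖T‖ ^ 2 * ‖h - k‖ ^ 2) := by
  have h1 := qm_parallelogram S ω T k (h - k)
  have h2 := qm_nonneg S ω hω T (k - (h - k))
  have h3 := qm_le S ω hω T (h - k)
  rw [add_sub_cancel] at h1
  linarith

/-- fourth moment -/
noncomputable def m4 (S : ModularDatum H) (x : H →L[ℂ] H) : ℝ := ‖star x (x S.vac)‖ ^ 2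

lemma star_apply_inner (a : H →L[ℂ] H) (x y : H) : ⟪star a x, y⟫_ℂ = ⟪x, a y⟫_ℂ := by
  rw [ContinuousLinearMap.star_eq_adjoint, ContinuousLinearMap.adjoint_inner_left]

lemma star_apply_inner_right (a : H →L[ℂ] H) (x y : H) : ⟪x, star a y⟫_ℂ = ⟪a x, y⟫_ℂ := by
  rw [ContinuousLinearMap.star_eq_adjoint, ContinuousLinearMap.adjoint_inner_right]

lemma inner_self_re (x : H) : (⟪x, x⟫_ℂ).re = ‖x‖ ^ 2 := by
  rw [inner_self_eq_norm_sq_to_K]
  norm_cast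

/-- the cross term bound -/
noncomputable def crossG (S : ModularDatum H) (s x : H →L[ℂ] H) (t : ℝ) : ℝ :=
  2 * (⟪S.flow t (star x * x) S.vac, star s (s S.vac)⟫_ℂ).re
    + 2 * (⟪S.flow t (x * star x) (s S.vac), s S.vac⟫_ℂ).re
    + 2 * (⟪S.flow (-t) (s * star s) (x S.vac), x S.vac⟫_ℂ).re

lemma two_re_BC {g : ℝ → ℂ} (hg : BC g) : BC (fun t => 2 * (g t).re) := by
  have := (hg.clm Complex.reCLM).clm (ContinuousLinearMap.mul ℝ ℝ 2)
  simpa using this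

lemma gm_two_re (ω : Ultrafilter ℕ) {g : ℝ → ℂ} (hg : BC g) : gm ω (fun t => 2 * (g t).re) = 2 * (gm ω g).re := by
  have := gm_clm ω (hg.clm Complex.reCLM) (ContinuousLinearMap.mul ℝ ℝ 2)
  simp only [ContinuousLinearMap.mul_apply'] at this
  have h2 := gm_clm ω hg Complex.reCLM
  simp only [Complex.reCLM_apply] at this h2
  rw [this, h2]

lemma crossG_BC (S : ModularDatum H) (s x : H →L[ℂ] H) : BC (crossG S s x) := by
  have h1 := two_re_BC (flow_inner_BC S (star x * x) S.vac (star s (s S.vac)))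
  have h2 := two_re_BC (flow_inner_BC S (x * star x) (s S.vac) (s S.vac))
  have h3 := two_re_BC (flow_inner_BC S (s * star s) (x S.vac) (x S.vac)).comp_neg
  exact (h1.add h2).add h3

lemma gm_crossG (S : ModularDatum H) (herg : S.Ergodic) (ω : Ultrafilter ℕ) (hω : (ω : Filter ℕ) ≤ atTop)
    (s x : H →L[ℂ] H) (hs : s ∈ S.M) (hx : x ∈ S.M) :
    gm ω (crossG S s x) = 2 * (‖x S.vac‖ ^ 2 * ‖s S.vac‖ ^ 2) + 2 * (‖star x S.vac‖ ^ 2 * ‖s S.vac‖ ^ 2)
      + 2 * (‖star s S.vac‖ ^ 2 * ‖x S.vac‖ ^ 2) := by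
  have h1 := two_re_BC (flow_inner_BC S (star x * x) S.vac (star s (s S.vac)))
  have h2 := two_re_BC (flow_inner_BC S (x * star x) (s S.vac) (s S.vac))
  have h3 := two_re_BC (flow_inner_BC S (s * star s) (x S.vac) (x S.vac)).comp_neg
  have e : crossG S s x = fun t => (2 * (⟪S.flow t (star x * x) S.vac, star s (s S.vac)⟫_ℂ).re
    + 2 * (⟪S.flow t (x * star x) (s S.vac), s S.vac⟫_ℂ).re)
    + 2 * (⟪S.flow (-t) (s * star s) (x S.vac), x S.vac⟫_ℂ).re := rfl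
  rw [e, gm_add ω (h1.add h2) h3, gm_add ω h1 h2]
  rw [gm_two_re ω (flow_inner_BC S (star x * x) S.vac (star s (s S.vac))),
    gm_two_re ω (flow_inner_BC S (x * star x) (s S.vac) (s S.vac)),
    gm_two_re ω (flow_inner_BC S (s * star s) (x S.vac) (x S.vac)).comp_neg,
    gm_comp_neg ω (fun t => ⟪S.flow t (s * star s) (x S.vac), x S.vac⟫_ℂ)]
  rw [gm_flow S herg ω hω _ (mul_mem (star_mem hx) hx), gm_flow S herg ω hω _ (mul_mem hx (star_mem hx)),
    gm_flow S herg ω hω _ (mul_mem hs (star_mem hs))]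
  have f1 : ∀ a : H →L[ℂ] H, ⟪(star a * a) S.vac, S.vac⟫_ℂ = ((‖a S.vac‖ ^ 2 : ℝ) : ℂ) := by
    intro a
    rw [mul_apply_eq_comp, star_apply_inner, inner_self_eq_norm_sq_to_K]
    norm_cast
  have f2 : ∀ a : H →L[ℂ] H, ⟪(a * star a) S.vac, S.vac⟫_ℂ = ((‖star a S.vac‖ ^ 2 : ℝ) : ℂ) := by
    intro a
    have := f1 (star a)
    rw [star_star] at this
    exact this
  have f3 : ⟪S.vac, star s (s S.vac)⟫_ℂ = ((‖s S.vac‖ ^ 2 : ℝ) : ℂ) := by
    rw [star_apply_inner_right, inner_self_eq_norm_sq_to_K]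
    norm_cast
  have f4 : ∀ y : H, ⟪y, y⟫_ℂ = ((‖y‖ ^ 2 : ℝ) : ℂ) := by
    intro y
    rw [inner_self_eq_norm_sq_to_K]
    norm_cast
  rw [f1, f2, f2, f3, f4, f4]
  rw [← Complex.ofReal_mul, ← Complex.ofReal_mul, ← Complex.ofReal_mul, Complex.ofReal_re, Complex.ofReal_re, Complex.ofReal_re]

lemma m4_step (S : ModularDatum H) (s x : H →L[ℂ] H) (t : ℝ) :
    m4 S (s + S.flow t x) + m4 S (s - S.flow t x) ≤ 2 * (m4 S s + m4 S x + crossG S s x t) := by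
  set X := S.flow t x with hX
  set ξ := S.vac with hξ
  set A := star s (s ξ) + star X (X ξ) with hA
  set B := star s (X ξ) + star X (s ξ) with hB
  have e1 : star (s + X) ((s + X) ξ) = A + B := by
    rw [star_add]; simp only [add_apply, map_add, hA, hB]; abel
  have e2 : star (s - X) ((s - X) ξ) = A - B := by
    rw [star_sub]; simp only [sub_apply, map_sub, hA, hB]; abel
  have e3 : ‖A + B‖ ^ 2 + ‖A - B‖ ^ 2 = 2 * ‖A‖ ^ 2 + 2 * ‖B‖ ^ 2 := by
    have := parallelogram_law_with_norm ℂ A B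
    nlinarith [this]
  have e4 : ‖star X (X ξ)‖ = ‖star x (x ξ)‖ := by
    have : star X (X ξ) = S.D.wave t (star x (x ξ)) := by
      rw [hX, flow_star, hξ, flow_vac]
      simp only [ModularDatum.flow, mul_apply_eq_comp]
      rw [wave_neg_wave]
    rw [this, wave_norm]
  have e5 : star X (X ξ) = S.flow t (star x * x) ξ := by
    rw [flow_mul, ← flow_star, mul_apply_eq_comp]
  have e6 : ‖A‖ ^ 2 = m4 S s + m4 S x + 2 * (⟪S.flow t (star x * x) ξ, star s (s ξ)⟫_ℂ).re := by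
    rw [← e5, hA, m4, m4, ← hξ, ← e4]
    have := @norm_add_sq ℂ H _ _ _ (star s (s ξ)) (star X (X ξ))
    rw [this]
    have h2 : RCLike.re ⟪star s (s ξ), star X (X ξ)⟫_ℂ = (⟪star X (X ξ), star s (s ξ)⟫_ℂ).re := by
      exact inner_re_symm (𝕜 := ℂ) _ _
    rw [h2]; ring
  have e7 : ‖B‖ ^ 2 ≤ 2 * ‖star s (X ξ)‖ ^ 2 + 2 * ‖star X (s ξ)‖ ^ 2 := by
    have h1 := norm_add_le (star s (X ξ)) (star X (s ξ))
    rw [← hB] at h1
    have h2 := norm_nonneg B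
    nlinarith [sq_nonneg (‖star s (X ξ)‖ - ‖star X (s ξ)‖), norm_nonneg (star s (X ξ)), norm_nonneg (star X (s ξ))]
  have e8 : ‖star X (s ξ)‖ ^ 2 = (⟪S.flow t (x * star x) (s ξ), s ξ⟫_ℂ).re := by
    rw [flow_mul, ← flow_star, ← hX, mul_apply_eq_comp, ← inner_self_re]
    conv_lhs => rw [star_apply_inner_right]
  have e9 : ‖star s (X ξ)‖ ^ 2 = (⟪S.flow (-t) (s * star s) (x ξ), x ξ⟫_ℂ).re := by
    rw [flow_inner, neg_neg, mul_apply_eq_comp, hX, hξ, flow_vac, ← hξ, ← inner_self_re]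
    conv_lhs => rw [star_apply_inner_right]
  have e10 : m4 S (s + X) + m4 S (s - X) = 2 * ‖A‖ ^ 2 + 2 * ‖B‖ ^ 2 := by
    rw [m4, m4, ← hξ, e1, e2, e3]
  rw [e10]
  have e11 : crossG S s x t = 2 * (⟪S.flow t (star x * x) ξ, star s (s ξ)⟫_ℂ).re
    + 2 * ‖star X (s ξ)‖ ^ 2 + 2 * ‖star s (X ξ)‖ ^ 2 := by
    rw [e8, e9]; rfl
  rw [e11, e6]
  nlinarith [e7]

/-- one amplification step -/
lemma step (S : ModularDatum H) (herg : S.Ergodic) (ω : Ultrafilter ℕ) (hω : (ω : Filter ℕ) ≤ atTop)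
    (T : H →L[ℂ] H) (s x : H →L[ℂ] H) (hs : s ∈ S.M) (hx : x ∈ S.M) {K : Set ℝ} {β : ℝ} (hK : ∀ u ∈ K, u ≤ β)
    (hsK : S.D.SupportedIn K (s S.vac)) (hxK : S.D.SupportedIn K (x S.vac))
    (a b δ : ℝ) (ha : 0 ≤ a) (hδ : 0 < δ) :
    ∃ y ∈ S.M, S.D.SupportedIn K (y S.vac) ∧
      qm S ω T (s S.vac) + qm S ω T (x S.vac)
        - a * (m4 S s + m4 S x + (2 + 4 * Real.exp β) * (‖x S.vac‖ ^ 2 * ‖s S.vac‖ ^ 2) + δ)
        - b * (‖s S.vac‖ ^ 2 + ‖x S.vac‖ ^ 2)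
      ≤ qm S ω T (y S.vac) - a * m4 S y - b * ‖y S.vac‖ ^ 2 := by
  set G₀ := 2 * (‖x S.vac‖ ^ 2 * ‖s S.vac‖ ^ 2) + 2 * (‖star x S.vac‖ ^ 2 * ‖s S.vac‖ ^ 2)
      + 2 * (‖star s S.vac‖ ^ 2 * ‖x S.vac‖ ^ 2) with hG₀
  obtain ⟨t, ht⟩ := exists_le_gm ω hω (crossG_BC S s x) (a := G₀ + δ)
    (by rw [gm_crossG S herg ω hω s x hs hx]; linarith)
  have hG₀le : G₀ ≤ (2 + 4 * Real.exp β) * (‖x S.vac‖ ^ 2 * ‖s S.vac‖ ^ 2) := by
    have h1 : ∀ y ∈ S.M, S.D.SupportedIn K (y S.vac) → ‖star y S.vac‖ ^ 2 ≤ Real.exp β * ‖y S.vac‖ ^ 2 := by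
      intro y hy hyK
      have := star_vac_norm_le S hy hK hyK
      calc ‖star y S.vac‖ ^ 2 ≤ (Real.exp (β / 2) * ‖y S.vac‖) ^ 2 := by gcongr
        _ = (Real.exp (β / 2)) ^ 2 * ‖y S.vac‖ ^ 2 := by ring
        _ = _ := by rw [← Real.exp_nat_mul]; congr 2; push_cast; ring
    have h2 := mul_le_mul_of_nonneg_right (h1 x hx hxK) (sq_nonneg ‖s S.vac‖)
    have h3 := mul_le_mul_of_nonneg_right (h1 s hs hsK) (sq_nonneg ‖x S.vac‖)
    rw [hG₀]
    nlinarith [h2, h3]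
  set X := S.flow t x with hX
  have hXM : X ∈ S.M := S.flow_mem t x hx
  have hXvac : X S.vac = S.D.wave t (x S.vac) := flow_vac S t x
  have hXK : S.D.SupportedIn K (X S.vac) := by
    rw [hXvac]; exact wave_supportedIn S.D t hxK
  have hq : qm S ω T ((s + X) S.vac) + qm S ω T ((s - X) S.vac) = 2 * qm S ω T (s S.vac) + 2 * qm S ω T (x S.vac) := by
    rw [add_apply, sub_apply, qm_parallelogram, hXvac, qm_wave S ω hω]
  have hn : ‖(s + X) S.vac‖ ^ 2 + ‖(s - X) S.vac‖ ^ 2 = 2 * ‖s S.vac‖ ^ 2 + 2 * ‖x S.vac‖ ^ 2 := by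
    rw [add_apply, sub_apply]
    have := parallelogram_law_with_norm ℂ (s S.vac) (X S.vac)
    rw [hXvac, wave_norm] at this
    rw [hXvac]
    nlinarith [this]
  have hm := m4_step S s x t
  rw [← hX] at hm
  have hadd : s + X ∈ S.M := add_mem hs hXM
  have hsub : s - X ∈ S.M := sub_mem hs hXM
  have hKadd : S.D.SupportedIn K ((s + X) S.vac) := by
    rw [add_apply]; exact supportedIn_add S.D hsK hXK
  have hKsub : S.D.SupportedIn K ((s - X) S.vac) := by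
    rw [sub_apply, sub_eq_add_neg, ← neg_one_smul ℂ]
    exact supportedIn_add S.D hsK (supportedIn_smul S.D _ hXK)
  by_contra hcon
  push Not at hcon
  have c1 := hcon (s + X) hadd hKadd
  have c2 := hcon (s - X) hsub hKsub
  have hm2 : a * (m4 S (s + X) + m4 S (s - X)) ≤ a * (2 * (m4 S s + m4 S x + ((2 + 4 * Real.exp β) * (‖x S.vac‖ ^ 2 * ‖s S.vac‖ ^ 2) + δ))) := by
    apply mul_le_mul_of_nonneg_left _ ha
    linarith
  have hn2 : b * (‖(s + X) S.vac‖ ^ 2 + ‖(s - X) S.vac‖ ^ 2) = b * (2 * ‖s S.vac‖ ^ 2 + 2 * ‖x S.vac‖ ^ 2) := by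
    rw [hn]
  linarith [hm2, c1, c2, hq, hn2]

/-- iterated amplification -/
lemma iterate (S : ModularDatum H) (herg : S.Ergodic) (ω : Ultrafilter ℕ) (hω : (ω : Filter ℕ) ≤ atTop)
    (T : H →L[ℂ] H) (x : H →L[ℂ] H) (hx : x ∈ S.M) {K : Set ℝ} {β : ℝ} (hK : ∀ u ∈ K, u ≤ β)
    (hxK : S.D.SupportedIn K (x S.vac))
    (a δ : ℝ) (ha : 0 ≤ a) (hδ : 0 < δ) (N : ℕ) : ∀ b : ℝ, 0 ≤ b →
    ∃ y ∈ S.M, S.D.SupportedIn K (y S.vac) ∧
      N * qm S ω T (x S.vac) - a * N * (m4 S x + δ)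
        - (b * N + a * (2 + 4 * Real.exp β) * ‖x S.vac‖ ^ 2 * (N ^ 2 / 2)) * ‖x S.vac‖ ^ 2
      ≤ qm S ω T (y S.vac) - a * m4 S y - b * ‖y S.vac‖ ^ 2 := by
  induction N with
  | zero =>
    intro b _
    refine ⟨0, zero_mem S.M, ?_, ?_⟩
    · intro f _; simp
    · simp only [Nat.cast_zero, zero_mul, mul_zero, zero_apply]
      have h1 : qm S ω T (0 : H) = 0 := by
        refine le_antisymm ?_ (qm_nonneg S ω hω T 0)
        have := qm_le S ω hω T (0:H)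
        simpa using this
      have h2 : m4 S (0 : H →L[ℂ] H) = 0 := by simp [m4]
      rw [h1, h2]; simp
  | succ N ih =>
    intro b hb
    set κ := (2 + 4 * Real.exp β) with hκ
    set ρ := ‖x S.vac‖ ^ 2 with hρ
    have hκ0 : 0 ≤ κ := by positivity
    have hρ0 : 0 ≤ ρ := by positivity
    obtain ⟨y, hy, hyK, hy2⟩ := ih (b + a * κ * ρ) (by positivity)
    obtain ⟨z, hz, hzK, hz2⟩ := step S herg ω hω T y x hy hx hK hyK hxK a b δ ha hδ
    refine ⟨z, hz, hzK, ?_⟩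
    rw [← hκ, ← hρ] at hz2
    refine le_trans ?_ hz2
    have haκρ : 0 ≤ a * κ * ρ * ρ := by positivity
    push_cast
    nlinarith [hy2, haκρ]

end Crest.Agent.ModFlow
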