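import Mathlib
import Crest.Prelude.Def_ModularData
import Crest.Agent.ModFlowE

set_option autoImplicit false
set_option linter.unusedSectionVars false
open MeasureTheory Filter Topology Crest.OpAlg
open scoped BoundedContinuousFunction InnerProductSpace ContDiff FourierTransform SchwartzMap

namespace Crest.Agent.ModFlow

variable {H : Type*} [NormedAddCommGroup H] [InnerProductSpace ℂ H] [CompleteSpace H]

/-- truncation -/
lemma truncate (S : ModularDatum H) (v : H →L[ℂ] H) (hv : v ∈ S.M) (C : ℝ) (hC : 0 < C) :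
    ∃ v' ∈ S.M, ‖v'‖ ≤ C ∧ ‖v S.vac - v' S.vac‖ ≤ ‖star v (v S.vac)‖ / C := by
  set r : ℝ := (C ^ 2)⁻¹ with hr
  have hr0 : 0 < r := by positivity
  set A : H →L[ℂ] H := 1 + (r : ℂ) • (star v * v) with hA
  have hunit : IsUnit A := by
    have h1 : (-(C ^ 2)) ∉ spectrum ℝ (star v * v) := by
      intro h
      have := spectrum_star_mul_self_nonneg _ h
      have h2 : 0 < C ^ 2 := by positivity
      linarith
    rw [spectrum.notMem_iff] at h1
    have h2 : A = (((-r : ℝ) : ℂ)) • (algebraMap ℝ (H →L[ℂ] H) (-(C ^ 2)) - star v * v) := by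
      rw [hA, smul_sub, Algebra.algebraMap_eq_smul_one]
      have : ((-r : ℝ) : ℂ) • ((-(C ^ 2) : ℝ) • (1 : H →L[ℂ] H)) = 1 := by
        rw [← Complex.coe_smul (-(C ^ 2)) (1 : H →L[ℂ] H), smul_smul, ← Complex.ofReal_mul]
        have : -r * -(C ^ 2) = 1 := by rw [hr]; field_simp
        rw [this]; simp
      rw [this]
      push_cast
      rw [neg_smul, sub_neg_eq_add]
    rw [h2]
    have hne : ((-r : ℝ) : ℂ) ≠ 0 := by
      simp [hr0.ne']
    rw [Algebra.smul_def]
    exact ((isUnit_iff_ne_zero.mpr hne).map (algebraMap ℂ (H →L[ℂ] H))).mul h1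
  obtain ⟨U, hU⟩ := hunit
  set R : H →L[ℂ] H := ((U⁻¹ : (H →L[ℂ] H)ˣ) : H →L[ℂ] H) with hR
  have hAR : A * R = 1 := by rw [← hU, hR]; simp
  have hRA : R * A = 1 := by rw [← hU, hR]; simp
  have hAM : A ∈ S.M := by
    rw [hA]
    refine add_mem (one_mem S.M) ?_
    exact S.M.toStarSubalgebra.smul_mem (mul_mem (star_mem hv) hv) _
  have hRM : R ∈ S.M := by
    apply mem_of_comm
    intro c hc
    have h1 : c * A = A * c := comm_of_mem S.M hAM hc
    calc c * R = (R * A) * (c * R) := by rw [hRA, one_mul]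
      _ = R * (A * c) * R := by simp only [mul_assoc]
      _ = R * (c * A) * R := by rw [h1]
      _ = R * c * (A * R) := by simp only [mul_assoc]
      _ = R * c := by rw [hAR, mul_one]
  -- norm bound
  have hnorm : ‖v * R‖ ≤ C := by
    refine ContinuousLinearMap.opNorm_le_bound _ hC.le (fun ζ => ?_)
    set η := R ζ with hη
    have hζ : ζ = η + (r : ℂ) • star v (v η) := by
      have : A (R ζ) = ζ := by rw [← mul_apply_eq_comp, hAR]; rfl
      rw [← hη, hA] at this
      simp only [add_apply, one_apply_eq_self, smul_apply, mul_apply_eq_comp] at this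
      exact this.symm
    have h1 : (⟪η, ζ⟫_ℂ).re = ‖η‖ ^ 2 + r * ‖v η‖ ^ 2 := by
      conv_lhs => rw [hζ]
      rw [inner_add_right, inner_smul_right, star_apply_inner_right, Complex.add_re, inner_self_re,
        Complex.re_ofReal_mul, inner_self_re]
    have h2 : (⟪η, ζ⟫_ℂ).re ≤ ‖η‖ * ‖ζ‖ := (Complex.re_le_norm _).trans (norm_inner_le_norm _ _)
    have h3 : ‖η‖ ≤ ‖ζ‖ := by
      by_contra hcon
      push Not at hcon
      have h4 : 0 ≤ r * ‖v η‖ ^ 2 := by positivity
      have h5 : 0 < ‖η‖ := lt_of_le_of_lt (norm_nonneg _) hcon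
      nlinarith
    have h4 : r * ‖v η‖ ^ 2 ≤ ‖ζ‖ ^ 2 := by
      nlinarith [norm_nonneg η, norm_nonneg ζ, sq_nonneg ‖η‖]
    have h5 : ‖v η‖ ^ 2 ≤ (C * ‖ζ‖) ^ 2 := by
      rw [hr] at h4
      have : (C ^ 2)⁻¹ * ‖v η‖ ^ 2 = ‖v η‖ ^ 2 / C ^ 2 := by ring
      rw [this, div_le_iff₀ (by positivity)] at h4
      nlinarith
    rw [mul_apply_eq_comp, ← hη]
    exact le_of_sq_le_sq h5 (by positivity)
  refine ⟨v * R, mul_mem hv hRM, hnorm, ?_⟩
  have h1 : (1 : H →L[ℂ] H) - R = R * ((r : ℂ) • (star v * v)) := by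
    have h2 := hRA
    rw [hA, mul_add, mul_one] at h2
    rw [← h2]; abel
  have h2 : v S.vac - (v * R) S.vac = (r : ℂ) • (v * R) (star v (v S.vac)) := by
    have h3 : v S.vac - (v * R) S.vac = v (((1 : H →L[ℂ] H) - R) S.vac) := by
      simp only [sub_apply, one_apply_eq_self, map_sub, mul_apply_eq_comp]
    rw [h3, h1]
    simp only [mul_apply_eq_comp, smul_apply, map_smul]
  rw [h2, norm_smul, Complex.norm_real, Real.norm_eq_abs, abs_of_pos hr0]
  calc r * ‖(v * R) (star v (v S.vac))‖ ≤ r * (C * ‖star v (v S.vac)‖) := by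
        gcongr
        exact (ContinuousLinearMap.le_opNorm _ _).trans (mul_le_mul_of_nonneg_right hnorm (norm_nonneg _))
    _ = ‖star v (v S.vac)‖ / C := by rw [hr]; field_simp

lemma exists_kernel : ∃ (F₀ : ℝ → ℂ) (G : ℝ → ℂ), Continuous F₀ ∧ (∀ u, ‖F₀ u‖ ≤ 1) ∧ (∀ u, |u| ≤ 1 → F₀ u = 1) ∧
    (∀ u, 2 ≤ |u| → F₀ u = 0) ∧ Integrable G ∧ Continuous G ∧
    ∀ u : ℝ, ∫ w : ℝ, Complex.exp (((2 * Real.pi * (w * u) : ℝ) : ℂ) * Complex.I) * G w = F₀ u := by
  let b : ContDiffBump (0 : ℝ) := ⟨1, 2, zero_lt_one, one_lt_two⟩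
  set F₀ : ℝ → ℂ := fun u => ((b u : ℝ) : ℂ) with hF₀
  have h1 : HasCompactSupport F₀ := b.hasCompactSupport.comp_left (g := fun x : ℝ => (x : ℂ)) (by simp)
  have h2 : ContDiff ℝ ∞ F₀ := Complex.ofRealCLM.contDiff.comp b.contDiff
  set f : 𝓢(ℝ, ℂ) := h1.toSchwartzMap h2 with hf
  set g : 𝓢(ℝ, ℂ) := 𝓕 f with hg
  refine ⟨F₀, g, h2.continuous, ?_, ?_, ?_, g.integrable, g.continuous, ?_⟩
  · intro u
    rw [hF₀]
    simp only [Complex.norm_real, Real.norm_eq_abs]
    rw [abs_of_nonneg b.nonneg]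
    exact b.le_one
  · intro u hu
    rw [hF₀]
    simp only
    rw [b.one_of_mem_closedBall]
    · simp
    · rw [mem_closedBall_zero_iff, Real.norm_eq_abs]; exact hu
  · intro u hu
    rw [hF₀]
    simp only
    rw [b.zero_of_le_dist]
    · simp
    · rw [dist_zero_right, Real.norm_eq_abs]; exact hu
  · intro u
    have h3 : 𝓕⁻ (g : ℝ → ℂ) u = F₀ u := by
      rw [← SchwartzMap.fourierInv_coe, hg, FourierTransform.fourierInv_fourier_eq]
      rfl
    rw [← h3, Real.fourierInv_eq']
    congr 1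
    funext w
    rw [smul_eq_mul]
    congr 3
    simp [mul_comm]

lemma continuous_wave_comp (D : LineCalculus H) {y : ℝ → H} (hy : Continuous y) :
    Continuous (fun t => D.wave t (y t)) := by
  rw [continuous_iff_continuousAt]
  intro t
  have h1 : ContinuousAt (fun s => D.wave s (y t)) t := (wave_continuous D (y t)).continuousAt
  have h2 : ContinuousAt (fun s => ‖y s - y t‖) t := (hy.sub continuous_const).norm.continuousAt
  rw [ContinuousAt, tendsto_iff_norm_sub_tendsto_zero] at h1 ⊢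
  have h3 : Tendsto (fun s => ‖y s - y t‖) (𝓝 t) (𝓝 0) := by
    have := h2.tendsto
    simpa using this
  refine squeeze_zero (fun _ => norm_nonneg _) (g := fun s => ‖y s - y t‖ + ‖D.wave s (y t) - D.wave t (y t)‖) ?_ ?_
  · intro s
    have : D.wave s (y s) - D.wave t (y t) = D.wave s (y s - y t) + (D.wave s (y t) - D.wave t (y t)) := by
      rw [map_sub]; abel
    rw [this]
    refine (norm_add_le _ _).trans ?_
    rw [wave_norm]
  · simpa using h3.add h1

lemma continuous_flow (S : ModularDatum H) (a : H →L[ℂ] H) (ζ : H) : Continuous (fun t : ℝ => S.flow t a ζ) := by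
  have : (fun t : ℝ => S.flow t a ζ) = fun t => S.D.wave t (a (S.D.wave (-t) ζ)) := by
    funext t; simp only [ModularDatum.flow, mul_apply_eq_comp]
  rw [this]
  exact continuous_wave_comp S.D (a.continuous.comp (wave_neg_continuous S.D ζ))

lemma norm_flow_apply_le (S : ModularDatum H) (a : H →L[ℂ] H) (ζ : H) (t : ℝ) : ‖S.flow t a ζ‖ ≤ ‖a‖ * ‖ζ‖ := by
  simp only [ModularDatum.flow, mul_apply_eq_comp]
  rw [wave_norm]
  refine (a.le_opNorm _).trans ?_
  rw [wave_norm]

/-- smoothing operator -/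
lemma exists_smoothing (S : ModularDatum H) (k : ℝ → ℂ) (hk : Integrable k) (hkc : Continuous k) (c : ℝ) (a : H →L[ℂ] H)
    (ha : a ∈ S.M) :
    ∃ a' ∈ S.M, ‖a'‖ ≤ (∫ w, ‖k w‖) * ‖a‖ ∧ ∀ ζ, a' ζ = ∫ w, k w • S.flow (c * w) a ζ := by
  have hint : ∀ ζ, Integrable (fun w => k w • S.flow (c * w) a ζ) := by
    intro ζ
    refine Integrable.mono' (hk.norm.mul_const (‖a‖ * ‖ζ‖)) ?_ ?_
    · have : Continuous (fun w => k w • S.flow (c * w) a ζ) :=
        hkc.smul ((continuous_flow S a ζ).comp (continuous_const.mul continuous_id))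
      exact this.aestronglyMeasurable
    · refine Eventually.of_forall (fun w => ?_)
      rw [norm_smul]
      exact mul_le_mul_of_nonneg_left (norm_flow_apply_le S a ζ _) (norm_nonneg _)
  let L : H →ₗ[ℂ] H :=
    { toFun := fun ζ => ∫ w, k w • S.flow (c * w) a ζ
      map_add' := by
        intro x y
        rw [← integral_add (hint x) (hint y)]
        congr 1; funext w; rw [map_add, smul_add]
      map_smul' := by
        intro r x
        rw [RingHom.id_apply, ← integral_smul]
        congr 1; funext w; rw [map_smul, smul_comm] }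
  have hL : ∀ ζ, ‖L ζ‖ ≤ ((∫ w, ‖k w‖) * ‖a‖) * ‖ζ‖ := by
    intro ζ
    change ‖∫ w, k w • S.flow (c * w) a ζ‖ ≤ _
    refine (norm_integral_le_integral_norm _).trans ?_
    rw [mul_assoc, ← integral_mul_const]
    refine integral_mono (hint ζ).norm (hk.norm.mul_const _) (fun w => ?_)
    simp only
    rw [norm_smul]
    exact mul_le_mul_of_nonneg_left (norm_flow_apply_le S a ζ _) (norm_nonneg _)
  refine ⟨L.mkContinuous _ hL, ?_, ?_, fun ζ => rfl⟩
  · apply mem_of_comm
    intro c' hc'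
    ext ζ
    rw [mul_apply_eq_comp, mul_apply_eq_comp]
    change c' (∫ w, k w • S.flow (c * w) a ζ) = ∫ w, k w • S.flow (c * w) a (c' ζ)
    rw [← ContinuousLinearMap.integral_comp_comm _ (hint ζ)]
    congr 1; funext w
    rw [map_smul]
    congr 1
    have h1 := comm_of_mem S.M (S.flow_mem (c * w) a ha) hc'
    rw [← mul_apply_eq_comp, ModularDatum.flow, h1]; rfl
  · exact L.mkContinuous_norm_le (mul_nonneg (integral_nonneg (fun _ => norm_nonneg _)) (norm_nonneg _)) hL

/-- spectral identity for integrated waves -/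
lemma integral_wave (D : LineCalculus H) (k : ℝ → ℂ) (hk : Integrable k) (hkc : Continuous k) (c : ℝ)
    (F : ℝ →ᵇ ℂ) (hF : ∀ u, F u = ∫ w, k w * LineCalculus.character (c * w) u) (y : H) :
    ∫ w, k w • D.wave (c * w) y = D.apply F y := by
  have hint : ∀ y, Integrable (fun w => k w • D.wave (c * w) y) := by
    intro y
    refine Integrable.mono' (hk.norm.mul_const ‖y‖) ?_ ?_
    · have : Continuous (fun w => k w • D.wave (c * w) y) :=
        hkc.smul ((wave_continuous D y).comp (continuous_const.mul continuous_id))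
      exact this.aestronglyMeasurable
    · refine Eventually.of_forall (fun w => ?_)
      rw [norm_smul, wave_norm]
  have key : ∀ (R : ℝ) (z : H), ∫ w, k w • D.wave (c * w) (D.apply (cutoff R) z) = D.apply F (D.apply (cutoff R) z) := by
    intro R z
    have hcont : Continuous (fun w : ℝ => k w • (LineCalculus.character (c * w) * cutoff R)) :=
      hkc.smul ((continuous_char_mul (cutoff R) (cutoff_hasCompactSupport R)).comp (continuous_const.mul continuous_id))
    have hnormchar : ∀ w : ℝ, ‖LineCalculus.character (c * w) * cutoff R‖ ≤ 1 := by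
      intro w
      rw [BoundedContinuousFunction.norm_le (by norm_num)]
      intro u
      rw [BoundedContinuousFunction.coe_mul, Pi.mul_apply, norm_mul, char_apply, mul_comm Complex.I, Complex.norm_exp_ofReal_mul_I, one_mul]
      exact cutoff_norm_le R u
    have hint2 : Integrable (fun w : ℝ => k w • (LineCalculus.character (c * w) * cutoff R)) := by
      refine Integrable.mono' hk.norm hcont.aestronglyMeasurable (Eventually.of_forall (fun w => ?_))
      rw [norm_smul]
      calc _ ≤ ‖k w‖ * 1 := mul_le_mul_of_nonneg_left (hnormchar w) (norm_nonneg _)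
        _ = _ := mul_one _
    -- evaluation map g ↦ D.apply g z
    let Φ : (ℝ →ᵇ ℂ) →L[ℂ] H := LinearMap.mkContinuous
      { toFun := fun g => D.apply g z
        map_add' := by intro g h; rw [map_add]; rfl
        map_smul' := by intro r g; rw [map_smul]; rfl } ‖z‖ (by
          intro g
          change ‖D.apply g z‖ ≤ _
          rw [mul_comm]; exact apply_apply_norm_le D g z)
    have e1 : ∫ w, k w • D.wave (c * w) (D.apply (cutoff R) z) = Φ (∫ w, k w • (LineCalculus.character (c * w) * cutoff R)) := by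
      rw [← ContinuousLinearMap.integral_comp_comm _ hint2]
      congr 1; funext w
      rw [map_smul]
      congr 1
      exact (apply_mul D _ _ z).symm
    have e2 : (∫ w, k w • (LineCalculus.character (c * w) * cutoff R)) = F * cutoff R := by
      ext u
      have := ContinuousLinearMap.integral_comp_comm (BoundedContinuousFunction.evalCLM ℂ u) hint2
      simp only [BoundedContinuousFunction.evalCLM_apply] at this
      rw [← this, BoundedContinuousFunction.coe_mul, Pi.mul_apply, hF, ← integral_mul_const]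
      congr 1; funext w
      simp only [BoundedContinuousFunction.coe_smul, BoundedContinuousFunction.coe_mul, Pi.mul_apply, smul_eq_mul]
      ring
    rw [e1, e2]
    exact apply_mul D _ _ z
  rw [← sub_eq_zero, ← norm_eq_zero]
  refine le_antisymm (le_of_forall_pos_le_add (fun ε hε => ?_)) (norm_nonneg _)
  set I := ∫ w, ‖k w‖ with hI
  have hI0 : 0 ≤ I := integral_nonneg (fun _ => norm_nonneg _)
  obtain ⟨R, hR, hR'⟩ := exists_cutoff_approx D y (ε / (I + ‖F‖ + 1)) (by positivity)
  set y' := D.apply (cutoff R) y with hy'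
  have e3 : (∫ w, k w • D.wave (c * w) y) - D.apply F y = (∫ w, k w • D.wave (c * w) (y - y')) - D.apply F (y - y') := by
    have h1 : (∫ w, k w • D.wave (c * w) (y - y')) = (∫ w, k w • D.wave (c * w) y) - ∫ w, k w • D.wave (c * w) y' := by
      rw [← integral_sub (hint y) (hint y')]
      congr 1; funext w; rw [map_sub, smul_sub]
    rw [h1, key R y, map_sub]; abel
  rw [e3, zero_add]
  have h1 : ‖∫ w, k w • D.wave (c * w) (y - y')‖ ≤ I * ‖y - y'‖ := by
    refine (norm_integral_le_integral_norm _).trans ?_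
    rw [hI, ← integral_mul_const]
    refine integral_mono (hint _).norm (hk.norm.mul_const _) (fun w => ?_)
    simp only
    rw [norm_smul, wave_norm]
  have h2 : ‖D.apply F (y - y')‖ ≤ ‖F‖ * ‖y - y'‖ := apply_apply_norm_le D F _
  have h3 : ‖y - y'‖ ≤ ε / (I + ‖F‖ + 1) := by rw [norm_sub_rev]; exact hR'.le
  calc _ ≤ ‖∫ w, k w • D.wave (c * w) (y - y')‖ + ‖D.apply F (y - y')‖ := norm_sub_le _ _
    _ ≤ I * ‖y - y'‖ + ‖F‖ * ‖y - y'‖ := add_le_add h1 h2
    _ ≤ (I + ‖F‖ + 1) * ‖y - y'‖ := by nlinarith [norm_nonneg (y - y')]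
    _ ≤ (I + ‖F‖ + 1) * (ε / (I + ‖F‖ + 1)) := by gcongr
    _ = ε := by
      have : (I + ‖F‖ + 1) ≠ 0 := by positivity
      field_simp

/-- spectral window smoothing -/
lemma smoothing : ∃ C₀ : ℝ, 0 < C₀ ∧ ∀ {H : Type*} [NormedAddCommGroup H] [InnerProductSpace ℂ H] [CompleteSpace H]
    (S : ModularDatum H) (s δ : ℝ), 0 < δ → ∀ a ∈ S.M, ∃ a' ∈ S.M, ∃ F : ℝ →ᵇ ℂ,
      ‖a'‖ ≤ C₀ * ‖a‖ ∧ ‖F‖ ≤ 1 ∧ (∀ u ∈ Set.Icc (s - δ) (s + δ), F u = 1) ∧
      (∀ u, u ∉ Set.Icc (s - 2 * δ) (s + 2 * δ) → F u = 0) ∧ a' S.vac = S.D.apply F (a S.vac) := by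
  obtain ⟨F₀, G, hF₀c, hF₀n, hF₀1, hF₀0, hGi, hGc, hFG⟩ := exists_kernel
  refine ⟨(∫ w, ‖G w‖) + 1, by
    have : 0 ≤ ∫ w, ‖G w‖ := integral_nonneg (fun _ => norm_nonneg _)
    linarith, ?_⟩
  intro H _ _ _ S s δ hδ a ha
  set k : ℝ → ℂ := fun w => Complex.exp (((-(2 * Real.pi * (w * (s / δ))) : ℝ) : ℂ) * Complex.I) * G w with hk
  have hkn : ∀ w, ‖k w‖ = ‖G w‖ := by
    intro w
    rw [hk]
    simp only [norm_mul]
    rw [Complex.norm_exp_ofReal_mul_I, one_mul]
  have hkc : Continuous k := by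
    rw [hk]; fun_prop
  have hki : Integrable k := by
    refine Integrable.mono' hGi.norm hkc.aestronglyMeasurable (Eventually.of_forall (fun w => ?_))
    rw [hkn]
  obtain ⟨a', ha', hna', hav'⟩ := exists_smoothing S k hki hkc (2 * Real.pi / δ) a ha
  let F : ℝ →ᵇ ℂ := BoundedContinuousFunction.ofNormedAddCommGroup (fun u => F₀ ((u - s) / δ)) (by fun_prop) 1
    (fun u => hF₀n _)
  refine ⟨a', ha', F, ?_, ?_, ?_, ?_, ?_⟩
  · refine hna'.trans ?_
    simp only [hkn]
    apply mul_le_mul_of_nonneg_right _ (norm_nonneg _)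
    linarith
  · rw [BoundedContinuousFunction.norm_le (by norm_num)]
    intro u; exact hF₀n _
  · intro u hu
    simp only [F, BoundedContinuousFunction.coe_ofNormedAddCommGroup]
    apply hF₀1
    rw [abs_div, abs_of_pos hδ, div_le_one hδ, abs_le]
    constructor <;> linarith [hu.1, hu.2]
  · intro u hu
    simp only [F, BoundedContinuousFunction.coe_ofNormedAddCommGroup]
    apply hF₀0
    rw [abs_div, abs_of_pos hδ, le_div_iff₀ hδ]
    by_contra hcon
    push Not at hcon
    rw [abs_lt] at hcon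
    exact hu ⟨by linarith [hcon.1], by linarith [hcon.2]⟩
  · rw [hav']
    have h1 : ∀ w, S.flow (2 * Real.pi / δ * w) a S.vac = S.D.wave (2 * Real.pi / δ * w) (a S.vac) :=
      fun w => flow_vac S _ a
    simp only [h1]
    apply integral_wave S.D k hki hkc
    intro u
    simp only [F, BoundedContinuousFunction.coe_ofNormedAddCommGroup]
    rw [← hFG]
    congr 1; funext w
    rw [char_apply, hk]
    simp only
    have e1 : Complex.exp (((2 * Real.pi * (w * ((u - s) / δ)) : ℝ) : ℂ) * Complex.I)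
        = Complex.exp (((-(2 * Real.pi * (w * (s / δ))) : ℝ) : ℂ) * Complex.I)
          * Complex.exp (Complex.I * ((2 * Real.pi / δ * w * u : ℝ) : ℂ)) := by
      rw [← Complex.exp_add]
      congr 1
      push_cast
      have : (δ : ℂ) ≠ 0 := by exact_mod_cast hδ.ne'
      field_simp
      ring
    rw [e1]; ring

end Crest.Agent.ModFlow
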