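import Mathlib
import Crest.Prelude.Def_ModularData
import Crest.Agent.ModFlowF

set_option autoImplicit false
set_option linter.unusedSectionVars false
open MeasureTheory Filter Topology Crest.OpAlg
open scoped BoundedContinuousFunction InnerProductSpace

namespace Crest.Agent.ModFlow

variable {H : Type*} [NormedAddCommGroup H] [InnerProductSpace ℂ H] [CompleteSpace H]

lemma norm_flow_le (S : ModularDatum H) (a : H →L[ℂ] H) (t : ℝ) : ‖S.flow t a‖ ≤ ‖a‖ :=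
  ContinuousLinearMap.opNorm_le_bound _ (norm_nonneg _) (fun ζ => norm_flow_apply_le S a ζ t)

lemma norm_sq_vac_le (S : ModularDatum H) (v : H →L[ℂ] H) : ‖v S.vac‖ ^ 2 ≤ ‖star v (v S.vac)‖ := by
  rw [← inner_self_re, ← star_apply_inner_right]
  refine (Complex.re_le_norm _).trans ((norm_inner_le_norm _ _).trans ?_)
  rw [S.norm_vac, one_mul]

lemma core (S : ModularDatum H) (herg : S.Ergodic) (ω : Ultrafilter ℕ) (hω : (ω : Filter ℕ) ≤ atTop)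
    (T : H →L[ℂ] H) (s c : ℝ) (hc : 0 < c) :
    ∃ C η : ℝ, 0 < η ∧ ∀ (δ : ℝ) (h : H), 0 < δ → δ ≤ 1 → ‖h‖ = 1 →
      S.D.SupportedIn (Set.Icc (s - δ) (s + δ)) h → c ≤ qm S ω T h →
      ∃ v ∈ S.M, ‖v‖ ≤ C ∧ η ≤ ‖T (v S.vac)‖ ∧
        S.D.SupportedIn (Set.Icc (s - 4 * δ) (s + 4 * δ)) (v S.vac) := by
  obtain ⟨C₀, hC₀, hsm⟩ := smoothing
  set κ : ℝ := 2 + 4 * Real.exp (s + 2) with hκ
  have hκ0 : 0 < κ := by positivity
  set θ : ℝ := c / (128 * κ) with hθ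
  have hθ0 : 0 < θ := by positivity
  set τ : ℝ := ‖T‖ ^ 2 with hτ
  have hτ0 : 0 ≤ τ := by positivity
  -- truncation level: τ * (τ/(θ C₁))^2 ≤ c/64
  obtain ⟨C₁, hC₁, hC₁'⟩ : ∃ C₁ : ℝ, 0 < C₁ ∧ τ * ((τ / θ) / C₁) ^ 2 ≤ c / 64 := by
    refine ⟨1 + 64 * τ * (τ / θ) ^ 2 / c, by positivity, ?_⟩
    set A := 64 * τ * (τ / θ) ^ 2 / c with hA
    have hA0 : 0 ≤ A := by positivity
    have h1 : (1 + A) ≤ (1 + A) ^ 2 := by nlinarith
    rw [div_pow, ← mul_div_assoc, div_le_iff₀ (by positivity)]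
    have h2 : c / 64 * A = τ * (τ / θ) ^ 2 := by rw [hA]; field_simp
    nlinarith
  refine ⟨C₀ * C₁, Real.sqrt (c / 64), Real.sqrt_pos.mpr (by positivity), ?_⟩
  intro δ h hδ hδ1 hh hsupp hq
  -- step 1: approximate
  obtain ⟨ε, hε, hε1, hε2⟩ : ∃ ε : ℝ, 0 < ε ∧ ε ≤ 1 ∧ τ * ε ^ 2 ≤ c / 8 := by
    refine ⟨min 1 (c / (8 * (τ + 1))), by positivity, min_le_left _ _, ?_⟩
    set ε := min 1 (c / (8 * (τ + 1))) with hε
    have h0 : 0 ≤ ε := by positivity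
    have h1 : ε ≤ 1 := min_le_left _ _
    have h2 : ε ≤ c / (8 * (τ + 1)) := min_le_right _ _
    have h3 : ε * (8 * (τ + 1)) ≤ c := by rwa [le_div_iff₀ (by positivity)] at h2
    have h4 : ε ^ 2 ≤ ε := by nlinarith
    nlinarith
  obtain ⟨a, haM, ha⟩ : ∃ a ∈ S.M, ‖a S.vac - h‖ < ε := by
    have := S.cyclic h
    rw [Metric.mem_closure_iff] at this
    obtain ⟨b, ⟨a, rfl⟩, hb⟩ := this ε hε
    refine ⟨a, a.2, ?_⟩
    rw [dist_comm, dist_eq_norm] at hb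
    exact hb
  obtain ⟨x, hxM, F, -, hF1, hF2, hF3, hxF⟩ := hsm S s δ hδ a haM
  have hFh : S.D.apply F h = h := apply_eq_self_of_supportedIn S.D F hF2 hsupp
  have hxh : ‖x S.vac - h‖ ≤ ε := by
    have : x S.vac - h = S.D.apply F (a S.vac - h) := by rw [map_sub, hFh, hxF]
    rw [this]
    refine (apply_apply_norm_le _ _ _).trans ?_
    calc ‖F‖ * ‖a S.vac - h‖ ≤ 1 * ε := mul_le_mul hF1 ha.le (norm_nonneg _) (by norm_num)
      _ = ε := one_mul _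
  have hxK : S.D.SupportedIn (Set.Icc (s - 2 * δ) (s + 2 * δ)) (x S.vac) := by
    rw [hxF]; exact supportedIn_apply S.D F hF3 _
  have hqx : c / 4 ≤ qm S ω T (x S.vac) := by
    have h1 := qm_le_two S ω hω T h (x S.vac)
    have h2 : ‖T‖ ^ 2 * ‖h - x S.vac‖ ^ 2 ≤ c / 8 := by
      refine le_trans ?_ hε2
      rw [norm_sub_rev]
      rw [← hτ]
      gcongr
    linarith
  have hρ : ‖x S.vac‖ ^ 2 ≤ 4 := by
    have h1 : ‖x S.vac‖ ≤ ‖x S.vac - h‖ + ‖h‖ := by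
      have := norm_add_le (x S.vac - h) h
      simpa using this
    have h2 : ‖x S.vac‖ ≤ 2 := by rw [hh] at h1; linarith
    nlinarith [norm_nonneg (x S.vac)]
  -- step 2: amplify
  have hKβ : ∀ u ∈ Set.Icc (s - 2 * δ) (s + 2 * δ), u ≤ s + 2 := fun u hu => by linarith [hu.2]
  obtain ⟨N, hN⟩ := exists_nat_gt (16 * θ * (m4 S x + 1) / c)
  have hm40 : 0 ≤ m4 S x := by rw [m4]; positivity
  have hN0 : (0 : ℝ) < N := lt_of_le_of_lt (by positivity) hN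
  obtain ⟨y, hyM, hyK, hy⟩ := iterate S herg ω hω T x hxM hKβ hxK (θ / N) 1 (by positivity) one_pos N 0 le_rfl
  set ρ := ‖x S.vac‖ ^ 2 with hρdef
  have hρ0 : 0 ≤ ρ := by positivity
  rw [← hκ] at hy
  set r : ℂ := (((Real.sqrt N)⁻¹ : ℝ) : ℂ) with hr
  have hrn : ‖r‖ ^ 2 = (N : ℝ)⁻¹ := by
    rw [hr, Complex.norm_real, Real.norm_eq_abs, sq_abs, inv_pow, Real.sq_sqrt hN0.le]
  set v : H →L[ℂ] H := r • y with hv
  have hvM : v ∈ S.M := S.M.toStarSubalgebra.smul_mem hyM _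
  have hvvac : v S.vac = r • y S.vac := rfl
  have hqv : qm S ω T (v S.vac) = (N : ℝ)⁻¹ * qm S ω T (y S.vac) := by
    rw [hvvac, qm_smul, hrn]
  have hm4v : m4 S v = (N : ℝ)⁻¹ ^ 2 * m4 S y := by
    rw [m4, m4, hvvac, hv, star_smul]
    simp only [smul_apply, map_smul, norm_smul]
    have : ‖star r‖ = ‖r‖ := norm_star _
    rw [this]
    calc (‖r‖ * (‖r‖ * ‖(star y) (y S.vac)‖)) ^ 2 = (‖r‖ ^ 2) ^ 2 * ‖(star y) (y S.vac)‖ ^ 2 := by ring
      _ = _ := by rw [hrn]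
  have hkey : c / 8 + θ * m4 S v ≤ qm S ω T (v S.vac) := by
    rw [hqv, hm4v]
    have h1 : (N : ℝ)⁻¹ * (N * qm S ω T (x S.vac) - θ / N * N * (m4 S x + 1) - (0 * N + θ / N * κ * ρ * (N ^ 2 / 2)) * ρ)
        ≤ (N : ℝ)⁻¹ * (qm S ω T (y S.vac) - θ / N * m4 S y - 0 * ‖y S.vac‖ ^ 2) :=
      mul_le_mul_of_nonneg_left hy (by positivity)
    have h2 : (N : ℝ)⁻¹ * (N * qm S ω T (x S.vac) - θ / N * N * (m4 S x + 1) - (0 * N + θ / N * κ * ρ * (N ^ 2 / 2)) * ρ)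
        = qm S ω T (x S.vac) - θ * (m4 S x + 1) / N - θ * κ * ρ ^ 2 / 2 := by
      field_simp
      ring
    have h3 : (N : ℝ)⁻¹ * (qm S ω T (y S.vac) - θ / N * m4 S y - 0 * ‖y S.vac‖ ^ 2)
        = (N : ℝ)⁻¹ * qm S ω T (y S.vac) - θ * ((N : ℝ)⁻¹ ^ 2 * m4 S y) := by
      field_simp
      ring
    rw [h2, h3] at h1
    have h4 : θ * (m4 S x + 1) / N ≤ c / 16 := by
      rw [div_le_iff₀ hN0]
      rw [div_lt_iff₀ hc] at hN
      linarith
    have h5 : θ * κ * ρ ^ 2 / 2 ≤ c / 16 := by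
      have : θ * κ = c / 128 := by rw [hθ]; field_simp
      rw [this]
      have : ρ ^ 2 ≤ 16 := by nlinarith
      nlinarith
    linarith
  -- step 3 : moment bound
  set μ := ‖star v (v S.vac)‖ with hμ
  have hμ0 : 0 ≤ μ := norm_nonneg _
  have hm4μ : m4 S v = μ ^ 2 := rfl
  have hμle : μ ≤ τ / θ := by
    rw [le_div_iff₀ hθ0]
    have h1 := qm_le S ω hω T (v S.vac)
    have h2 := norm_sq_vac_le S v
    rw [← hμ] at h2
    rw [← hτ] at h1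
    have h3 : τ * ‖v S.vac‖ ^ 2 ≤ τ * μ := mul_le_mul_of_nonneg_left h2 hτ0
    rw [hm4μ] at hkey
    have h4 : θ * μ ^ 2 ≤ τ * μ := by linarith
    rcases eq_or_lt_of_le hμ0 with h0 | h0
    · rw [← h0]; simpa using hτ0
    · have : μ * (μ * θ) ≤ μ * τ := by nlinarith
      exact le_of_mul_le_mul_left this h0
  -- step 4 : truncate
  obtain ⟨v', hv'M, hv'n, hv'⟩ := truncate S v hvM C₁ hC₁
  -- step 5: smooth
  obtain ⟨v'', hv''M, F', hF'0, hF'1, hF'2, hF'3, hv''F⟩ := hsm S s (2 * δ) (by positivity) v' hv'M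
  have hvK : S.D.SupportedIn (Set.Icc (s - 2 * δ) (s + 2 * δ)) (v S.vac) := by
    rw [hvvac]; exact supportedIn_smul S.D r hyK
  have hFv : S.D.apply F' (v S.vac) = v S.vac := apply_eq_self_of_supportedIn S.D F' hF'2 hvK
  have hdiff : ‖v S.vac - v'' S.vac‖ ≤ (τ / θ) / C₁ := by
    have : v S.vac - v'' S.vac = S.D.apply F' (v S.vac - v' S.vac) := by rw [map_sub, hFv, hv''F]
    rw [this]
    refine (apply_apply_norm_le _ _ _).trans ?_
    calc ‖F'‖ * ‖v S.vac - v' S.vac‖ ≤ 1 * (μ / C₁) := mul_le_mul hF'1 hv' (norm_nonneg _) (by norm_num)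
      _ = μ / C₁ := one_mul _
      _ ≤ (τ / θ) / C₁ := by gcongr
  have hq'' : c / 32 ≤ qm S ω T (v'' S.vac) := by
    have h1 := qm_le_two S ω hω T (v S.vac) (v'' S.vac)
    rw [← hτ] at h1
    have h2 : τ * ‖v S.vac - v'' S.vac‖ ^ 2 ≤ c / 64 := by
      refine le_trans ?_ hC₁'
      gcongr
    have h3 : 0 ≤ θ * m4 S v := by rw [hm4μ]; positivity
    linarith
  -- step 6: choose t
  obtain ⟨t, ht⟩ := exists_gm_le ω hω (qm_BC S T (v'' S.vac)) (a := c / 64) (by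
    have : gm ω (fun t : ℝ => ‖T (S.D.wave t (v'' S.vac))‖ ^ 2) = qm S ω T (v'' S.vac) := rfl
    rw [this]; linarith)
  refine ⟨S.flow t v'', S.flow_mem t v'' hv''M, ?_, ?_, ?_⟩
  · refine (norm_flow_le S v'' t).trans (hF'0.trans ?_)
    gcongr
  · rw [flow_vac]
    rw [← Real.sqrt_sq (norm_nonneg (T (S.D.wave t (v'' S.vac))))]
    exact Real.sqrt_le_sqrt ht
  · rw [flow_vac]
    apply wave_supportedIn
    rw [hv''F]
    have h1 := supportedIn_apply S.D F' hF'3 (v' S.vac)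
    have e1 : s - 2 * (2 * δ) = s - 4 * δ := by ring
    have e2 : s + 2 * (2 * δ) = s + 4 * δ := by ring
    rw [e1, e2] at h1
    exact h1

end Crest.Agent.ModFlow
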