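import Mathlib

set_option autoImplicit false

open MeasureTheory Set ProbabilityTheory Filter Topology
open scoped ENNReal unitInterval

namespace Crest.Agent.OTLib

/-- Probability integral transform for an atomless probability measure on ℝ. -/
theorem map_cdf_eq_volume (ν : Measure ℝ) [IsProbabilityMeasure ν] [NullSingletonClass ν] :
    ∃ u : ℝ → I, Measurable u ∧ ν.map u = volume := by
  have hcont : Continuous (cdf ν) := by
    rw [continuous_iff_continuousAt]
    intro a
    rw [(monotone_cdf ν).continuousAt_iff_leftLim_eq_rightLim]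
    have h1 : (cdf ν).measure {a} = ENNReal.ofReal (cdf ν a - Function.leftLim (cdf ν) a) :=
      StieltjesFunction.measure_singleton _ _
    rw [measure_cdf, measure_singleton] at h1
    have h2 : cdf ν a - Function.leftLim (cdf ν) a ≤ 0 := by
      rw [eq_comm, ENNReal.ofReal_eq_zero] at h1; exact h1
    have h3 : Function.leftLim (cdf ν) a ≤ cdf ν a := (monotone_cdf ν).leftLim_le le_rfl
    have h4 : Function.rightLim (cdf ν) a = cdf ν a := by
      have := (cdf ν).rightLim_eq a
      exact this
    rw [h4]; linarith
  have hmono : Monotone (cdf ν) := monotone_cdf ν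
  let u : ℝ → I := fun t => ⟨cdf ν t, cdf_nonneg ν t, cdf_le_one ν t⟩
  have hu : Measurable u := by
    apply Measurable.subtype_mk
    exact hcont.measurable
  refine ⟨u, hu, ?_⟩
  have : IsProbabilityMeasure (ν.map u) := Measure.isProbabilityMeasure_map hu.aemeasurable
  apply Measure.ext_of_Iic
  intro x
  rw [Measure.map_apply hu measurableSet_Iic, unitInterval.volume_Iic]
  have hpre : u ⁻¹' Iic x = {t | cdf ν t ≤ (x : ℝ)} := by
    ext t; simp [u, ← Subtype.coe_le_coe]
  rw [hpre]
  rcases eq_or_lt_of_le x.2.2 with hx1 | hx1
  · have : {t | cdf ν t ≤ (x : ℝ)} = univ := by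
      ext t; simp [hx1, cdf_le_one]
    rw [this, hx1]; simp
  set S : Set ℝ := {t | cdf ν t ≤ (x : ℝ)} with hS
  have hSclosed : IsClosed S := isClosed_le hcont continuous_const
  obtain ⟨t0, ht0⟩ : ∃ t, (x : ℝ) < cdf ν t := by
    have := (tendsto_cdf_atTop ν).eventually (lt_mem_nhds hx1)
    exact this.exists
  have hbdd : BddAbove S := ⟨t0, fun t ht => by
    by_contra hlt
    push Not at hlt
    have := hmono hlt.le
    have h' : cdf ν t ≤ (x : ℝ) := ht
    linarith⟩
  rcases S.eq_empty_or_nonempty with hE | hne
  · have hx0 : (x : ℝ) = 0 := by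
      apply le_antisymm _ x.2.1
      apply ge_of_tendsto (tendsto_cdf_atBot ν)
      refine Eventually.of_forall fun t => ?_
      by_contra hlt
      push Not at hlt
      have : t ∈ S := hlt.le
      rw [hE] at this; exact this
    rw [hE, hx0]; simp
  · set t1 := sSup S with ht1
    have ht1S : t1 ∈ S := hSclosed.csSup_mem hne hbdd
    have hSI : S = Iic t1 := by
      ext t
      constructor
      · intro ht; exact le_csSup hbdd ht
      · intro ht
        have h' : cdf ν t1 ≤ (x : ℝ) := ht1S
        exact (hmono ht).trans h'
    have hval : cdf ν t1 = (x : ℝ) := by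
      apply le_antisymm ht1S
      have hc : Tendsto (cdf ν) (𝓝[>] t1) (𝓝 (cdf ν t1)) := hcont.continuousAt.continuousWithinAt
      apply ge_of_tendsto hc
      filter_upwards [self_mem_nhdsWithin] with t ht
      by_contra hlt
      push Not at hlt
      have : t ∈ S := hlt.le
      have := le_csSup hbdd this
      exact absurd ht (not_lt.mpr this)
    rw [hSI, ← ofReal_cdf, hval]

/-- Any atomless finite measure on a standard Borel space can be pushed forward to any finite measure
of the same mass on a standard Borel space. -/
theorem exists_map_eq {E F : Type*} [MeasurableSpace E] [StandardBorelSpace E]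
    [MeasurableSpace F] [StandardBorelSpace F] [Nonempty F]
    (ν : Measure E) [IsFiniteMeasure ν] [NullSingletonClass ν] (lam : Measure F) [IsFiniteMeasure lam]
    (h : lam univ = ν univ) : ∃ f : E → F, Measurable f ∧ ν.map f = lam := by
  by_cases h0 : ν univ = 0
  · have hν : ν = 0 := Measure.measure_univ_eq_zero.mp h0
    have hl : lam = 0 := Measure.measure_univ_eq_zero.mp (h.trans h0)
    obtain ⟨y⟩ := (inferInstance : Nonempty F)
    exact ⟨fun _ => y, measurable_const, by simp [hν, hl]⟩
  have htop : ν univ ≠ ⊤ := measure_ne_top _ _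
  set c := (ν univ)⁻¹ with hc
  have hc0 : c ≠ 0 := ENNReal.inv_ne_zero.mpr htop
  have hct : c ≠ ⊤ := ENNReal.inv_ne_top.mpr h0
  have h1 : IsProbabilityMeasure (c • ν) := ⟨by simp [hc, ENNReal.inv_mul_cancel h0 htop]⟩
  have h2 : IsProbabilityMeasure (c • lam) := ⟨by simp [hc, h, ENNReal.inv_mul_cancel h0 htop]⟩
  have he : MeasurableEmbedding (embeddingReal E) := measurableEmbedding_embeddingReal E
  have h3 : IsProbabilityMeasure ((c • ν).map (embeddingReal E)) :=
    Measure.isProbabilityMeasure_map he.measurable.aemeasurable
  have h4 : NullSingletonClass ((c • ν).map (embeddingReal E)) := by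
    constructor
    intro x
    rw [he.map_apply]
    have hsub : (embeddingReal E ⁻¹' {x}).Subsingleton := by
      intro a ha b hb
      exact he.injective (by rw [mem_preimage, mem_singleton_iff] at ha hb; rw [ha, hb])
    simp [hsub.measure_zero ν]
  obtain ⟨u, hu, hmap⟩ := map_cdf_eq_volume ((c • ν).map (embeddingReal E))
  obtain ⟨g, hg, hgmap⟩ := (c • lam).exists_measurable_map_eq
  refine ⟨fun x => g (u (embeddingReal E x)), hg.comp (hu.comp he.measurable), ?_⟩
  have key : (c • ν).map (fun x => g (u (embeddingReal E x))) = c • lam := by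
    rw [← hgmap, ← hmap, Measure.map_map hu he.measurable, Measure.map_map hg (hu.comp he.measurable)]
    rfl
  rw [Measure.map_smul] at key
  ext s hs
  have := congrArg (fun m => m s) key
  simp only [Measure.smul_apply, smul_eq_mul] at this
  exact (ENNReal.mul_right_inj hc0 hct).mp this

end Crest.Agent.OTLib
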