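import Mathlib

set_option autoImplicit false

open MeasureTheory Set Filter Topology
open scoped ENNReal ContDiff

namespace Crest.Agent.OTLib

/-- Smooth inverse function theorem on a neighbourhood. -/
theorem exists_smooth_chart {X Y : Type*} [NormedAddCommGroup X] [NormedSpace ℝ X] [CompleteSpace X]
    [NormedAddCommGroup Y] [NormedSpace ℝ Y] [CompleteSpace Y]
    (f : X → Y) (O : Set X) (hO : IsOpen O) (hf : ContDiffOn ℝ ∞ f O) (a : X) (ha : a ∈ O)
    (f' : X ≃L[ℝ] Y) (hf' : HasFDerivAt f (f' : X →L[ℝ] Y) a) :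
    ∃ e : OpenPartialHomeomorph X Y, a ∈ e.source ∧ e.source ⊆ O ∧ (∀ x, e x = f x) ∧
      ContDiffOn ℝ ∞ e e.source ∧ ContDiffOn ℝ ∞ e.symm e.target := by
  have hfa : ContDiffAt ℝ ∞ f a := hf.contDiffAt (hO.mem_nhds ha)
  let e0 := hfa.toOpenPartialHomeomorph f hf' (by simp)
  have hae0 : a ∈ e0.source := hfa.mem_toOpenPartialHomeomorph_source hf' (by simp)
  have hderivcont : ContinuousOn (fderiv ℝ f) O := by
    have h1 : ContDiffOn ℝ 1 f O := hf.of_le (by exact_mod_cast le_top)
    exact h1.continuousOn_fderiv_of_isOpen hO le_rfl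
  let W : Set X := O ∩ (fderiv ℝ f) ⁻¹' (range ((↑) : (X ≃L[ℝ] Y) → X →L[ℝ] Y))
  have hW : IsOpen W := hderivcont.isOpen_inter_preimage hO ContinuousLinearEquiv.isOpen
  have haW : a ∈ W := ⟨ha, ⟨f', hf'.fderiv.symm⟩⟩
  refine ⟨e0.restrOpen W hW, ?_, ?_, ?_, ?_, ?_⟩
  · exact ⟨hae0, haW⟩
  · intro x hx
    exact hx.2.1
  · intro x; rfl
  · intro x hx
    have hxO : x ∈ O := hx.2.1
    exact ((hf.contDiffAt (hO.mem_nhds hxO))).contDiffWithinAt
  · intro y hy
    have hy' : y ∈ (e0.restrOpen W hW).target := hy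
    have hsymm : (e0.restrOpen W hW).symm y ∈ (e0.restrOpen W hW).source :=
      (e0.restrOpen W hW).map_target hy'
    have hWy : (e0.restrOpen W hW).symm y ∈ W := hsymm.2
    obtain ⟨g', hg'⟩ := hWy.2
    have hxO := hWy.1
    have hcd : ContDiffAt ℝ ∞ f ((e0.restrOpen W hW).symm y) := hf.contDiffAt (hO.mem_nhds hxO)
    have hd : HasFDerivAt f (g' : X →L[ℝ] Y) ((e0.restrOpen W hW).symm y) := by
      rw [hg']
      exact (hcd.differentiableAt (by simp)).hasFDerivAt
    exact ((e0.restrOpen W hW).contDiffAt_symm hy' hd hcd).contDiffWithinAt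

section Det

variable {E : Type*} [NormedAddCommGroup E] [NormedSpace ℝ E] [FiniteDimensional ℝ E]

theorem contDiff_det {n : WithTop ℕ∞} : ContDiff ℝ n (fun A : E →L[ℝ] E => A.det) := by
  classical
  let b := Module.finBasis ℝ E
  have h1 : (fun A : E →L[ℝ] E => A.det) =
      fun A : E →L[ℝ] E => ∑ σ : Equiv.Perm (Fin (Module.finrank ℝ E)),
        (Equiv.Perm.sign σ : ℤ) • ∏ i, b.repr (A (b i)) (σ i) := by
    funext A
    show LinearMap.det (A : E →ₗ[ℝ] E) = _
    rw [← LinearMap.det_toMatrix b, Matrix.det_apply]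
    apply Finset.sum_congr rfl
    intro σ _
    congr 1
    simp [LinearMap.toMatrix_apply]
  rw [h1]
  apply ContDiff.sum
  intro σ _
  apply ContDiff.const_smul
  apply contDiff_prod
  intro i _
  let L : (E →L[ℝ] E) →ₗ[ℝ] ℝ :=
    (b.coord (σ i)) ∘ₗ (ContinuousLinearMap.coeLM ℝ).flip (b i)
  have : (fun A : E →L[ℝ] E => b.repr (A (b i)) (σ i)) = fun A => L.toContinuousLinearMap A := by
    funext A
    rfl
  rw [this]
  exact (L.toContinuousLinearMap).contDiff

end Det

section Push

variable {E : Type*} [NormedAddCommGroup E] [NormedSpace ℝ E] [FiniteDimensional ℝ E]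
  [MeasurableSpace E] [BorelSpace E]

/-- The square root density of the image of `b² dx` under a chart `e`. -/
noncomputable def pushRoot (e : OpenPartialHomeomorph E E) (b : E → ℝ) (y : E) : ℝ :=
  open Classical in
  if y ∈ e.target then b (e.symm y) * Real.sqrt |(fderiv ℝ e.symm y).det| else 0

theorem pushRoot_nonneg (e : OpenPartialHomeomorph E E) (b : E → ℝ) (hb : ∀ x, 0 ≤ b x) (y : E) :
    0 ≤ pushRoot e b y := by
  unfold pushRoot
  split_ifs
  · exact mul_nonneg (hb _) (Real.sqrt_nonneg _)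
  · exact le_rfl

theorem pushRoot_eq_zero (e : OpenPartialHomeomorph E E) (b : E → ℝ) (K : Set E)
    (hbK : ∀ x, x ∉ K → b x = 0) (y : E) (hy : y ∉ e '' (K ∩ e.source)) : pushRoot e b y = 0 := by
  unfold pushRoot
  split_ifs with h
  · have : e.symm y ∉ K := by
      intro hK
      exact hy ⟨e.symm y, ⟨hK, e.map_target h⟩, e.right_inv h⟩
    rw [hbK _ this, zero_mul]
  · rfl

theorem det_symm_ne_zero (e : OpenPartialHomeomorph E E)
    (he : ContDiffOn ℝ ∞ e e.source) (he' : ContDiffOn ℝ ∞ e.symm e.target)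
    (y : E) (hy : y ∈ e.target) : (fderiv ℝ e.symm y).det ≠ 0 := by
  have h1 : HasFDerivAt e.symm (fderiv ℝ e.symm y) y :=
    ((he'.contDiffAt (e.open_target.mem_nhds hy)).differentiableAt (by simp)).hasFDerivAt
  have hx : e.symm y ∈ e.source := e.map_target hy
  have h2 : HasFDerivAt e (fderiv ℝ e (e.symm y)) (e.symm y) :=
    ((he.contDiffAt (e.open_source.mem_nhds hx)).differentiableAt (by simp)).hasFDerivAt
  have h3 : HasFDerivAt (fun z => e (e.symm z)) ((fderiv ℝ e (e.symm y)).comp (fderiv ℝ e.symm y)) y :=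
    h2.comp y h1
  have h4 : HasFDerivAt (fun z => e (e.symm z)) (ContinuousLinearMap.id ℝ E) y := by
    apply (hasFDerivAt_id y).congr_of_eventuallyEq
    filter_upwards [e.open_target.mem_nhds hy] with z hz
    exact e.right_inv hz
  have h5 := h3.unique h4
  intro h0
  have h6 : ((fderiv ℝ e (e.symm y)).comp (fderiv ℝ e.symm y)).det = 1 := by
    rw [h5]
    show LinearMap.det _ = 1
    exact LinearMap.det_id
  have h7 : ((fderiv ℝ e (e.symm y)).comp (fderiv ℝ e.symm y)).det =
      (fderiv ℝ e (e.symm y)).det * (fderiv ℝ e.symm y).det := by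
    show LinearMap.det _ = LinearMap.det _ * LinearMap.det _
    rw [← LinearMap.det_comp]
    rfl
  rw [h7, h0, mul_zero] at h6
  exact zero_ne_one h6

theorem contDiff_pushRoot (e : OpenPartialHomeomorph E E)
    (he : ContDiffOn ℝ ∞ e e.source) (he' : ContDiffOn ℝ ∞ e.symm e.target)
    (b : E → ℝ) (hb : ContDiff ℝ ∞ b) (K : Set E) (hK : IsCompact K) (hKs : K ⊆ e.source)
    (hbK : ∀ x, x ∉ K → b x = 0) : ContDiff ℝ ∞ (pushRoot e b) := by
  have hcomp : IsCompact (e '' K) := hK.image_of_continuousOn (e.continuousOn.mono hKs)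
  rw [contDiff_iff_contDiffAt]
  intro y
  by_cases hy : y ∈ e.target
  · have h1 : ContDiffAt ℝ ∞ (fun y => b (e.symm y) * Real.sqrt |(fderiv ℝ e.symm y).det|) y := by
      have hs : ContDiffAt ℝ ∞ e.symm y := he'.contDiffAt (e.open_target.mem_nhds hy)
      apply ContDiffAt.mul
      · exact hb.contDiffAt.comp y hs
      · have hd : ContDiffAt ℝ ∞ (fderiv ℝ e.symm) y := hs.fderiv_right (by simp)
        have hdet : ContDiffAt ℝ ∞ (fun y => (fderiv ℝ e.symm y).det) y :=
          contDiff_det.contDiffAt.comp y hd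
        have hne := det_symm_ne_zero e he he' y hy
        have habs : ContDiffAt ℝ ∞ (fun y => |(fderiv ℝ e.symm y).det|) y :=
          ContDiffAt.comp (g := fun t : ℝ => |t|) y (contDiffAt_abs hne) hdet
        exact (Real.contDiffAt_sqrt (abs_ne_zero.mpr hne)).comp y habs
    apply h1.congr_of_eventuallyEq
    filter_upwards [e.open_target.mem_nhds hy] with z hz
    simp [pushRoot, hz]
  · have hy' : y ∉ e '' K := by
      rintro ⟨x, hx, rfl⟩
      exact hy (e.map_source (hKs hx))
    have : ContDiffAt ℝ ∞ (fun _ : E => (0 : ℝ)) y := contDiffAt_const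
    apply this.congr_of_eventuallyEq
    filter_upwards [hcomp.isClosed.isOpen_compl.mem_nhds hy'] with z hz
    apply pushRoot_eq_zero e b K hbK
    intro hz'
    apply hz
    obtain ⟨x, hx, rfl⟩ := hz'
    exact ⟨x, hx.1, rfl⟩

theorem map_pushRoot (μ : Measure E) [μ.IsAddHaarMeasure] (e : OpenPartialHomeomorph E E)
    (he : ContDiffOn ℝ ∞ e e.source) (he' : ContDiffOn ℝ ∞ e.symm e.target)
    (b : E → ℝ) (hb : Continuous b) (hb0 : ∀ x, 0 ≤ b x)
    (K : Set E) (hKs : K ⊆ e.source) (hbK : ∀ x, x ∉ K → b x = 0)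
    (τ : E → E) (hτ : Measurable τ) (hτe : ∀ x ∈ K, τ x = e x) :
    (μ.withDensity fun x => ENNReal.ofReal (b x ^ 2)).map τ =
      μ.withDensity fun y => ENNReal.ofReal (pushRoot e b y ^ 2) := by
  ext A hA
  rw [Measure.map_apply hτ hA, withDensity_apply _ (hτ hA), withDensity_apply _ hA]
  -- restrict the left side to the source
  have hVt : MeasurableSet (e.target ∩ A) := e.open_target.measurableSet.inter hA
  have himg : e.symm '' (e.target ∩ A) = e.source ∩ e ⁻¹' A := by
    ext x
    constructor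
    · rintro ⟨y, ⟨hy, hyA⟩, rfl⟩
      refine ⟨e.map_target hy, ?_⟩
      rw [mem_preimage, e.right_inv hy]; exact hyA
    · rintro ⟨hx, hxA⟩
      exact ⟨e x, ⟨e.map_source hx, hxA⟩, e.left_inv hx⟩
  have hchg := lintegral_image_eq_lintegral_abs_det_fderiv_mul μ hVt
    (f := e.symm) (f' := fun y => fderiv ℝ e.symm y)
    (fun y hy => ((he'.contDiffAt (e.open_target.mem_nhds hy.1)).differentiableAt
      (by simp)).hasFDerivAt.hasFDerivWithinAt)
    (e.symm.injOn.mono inter_subset_left) (fun x => ENNReal.ofReal (b x ^ 2))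
  rw [himg] at hchg
  have hL : ∫⁻ x in τ ⁻¹' A, ENNReal.ofReal (b x ^ 2) ∂μ =
      ∫⁻ x in e.source ∩ e ⁻¹' A, ENNReal.ofReal (b x ^ 2) ∂μ := by
    have hm2 : MeasurableSet (e.source ∩ e ⁻¹' A) := by
      rw [← himg]
      exact hVt.image_of_continuousOn_injOn (e.continuousOn_symm.mono inter_subset_left)
        (e.symm.injOn.mono inter_subset_left)
    rw [← lintegral_indicator (hτ hA), ← lintegral_indicator hm2]
    congr 1
    funext x
    by_cases hxK : x ∈ K
    · have hs := hKs hxK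
      by_cases hxA : τ x ∈ A
      · rw [indicator_of_mem (by exact hxA), indicator_of_mem]
        exact ⟨hs, by rw [mem_preimage, ← hτe x hxK]; exact hxA⟩
      · rw [indicator_of_notMem (by exact hxA), indicator_of_notMem]
        rintro ⟨-, h2⟩
        rw [mem_preimage, ← hτe x hxK] at h2
        exact hxA h2
    · have h0 : ENNReal.ofReal (b x ^ 2) = 0 := by rw [hbK x hxK]; simp
      simp [indicator, h0]
  rw [hL, hchg]
  have hR : ∫⁻ y in A, ENNReal.ofReal (pushRoot e b y ^ 2) ∂μ =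
      ∫⁻ y in e.target ∩ A, ENNReal.ofReal (pushRoot e b y ^ 2) ∂μ := by
    rw [← lintegral_indicator hA, ← lintegral_indicator hVt]
    congr 1
    funext y
    by_cases hyt : y ∈ e.target
    · by_cases hyA : y ∈ A
      · rw [indicator_of_mem hyA, indicator_of_mem (show y ∈ e.target ∩ A from ⟨hyt, hyA⟩)]
      · rw [indicator_of_notMem hyA, indicator_of_notMem (fun h => hyA h.2)]
    · have h0 : ENNReal.ofReal (pushRoot e b y ^ 2) = 0 := by
        simp [pushRoot, hyt]
      simp [indicator, h0]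
  rw [hR]
  apply setLIntegral_congr_fun hVt
  intro y hy
  simp only
  rw [← ENNReal.ofReal_mul (abs_nonneg _)]
  congr 1
  simp only [pushRoot, hy.1, if_true, mul_pow, Real.sq_sqrt (abs_nonneg _)]
  ring

end Push

end Crest.Agent.OTLib
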