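import Mathlib

set_option autoImplicit false

open MeasureTheory Set Filter Topology
open scoped ENNReal ContDiff RealInnerProductSpace

namespace Crest.Agent.OTLib

section Calc

variable {E : Type*} [NormedAddCommGroup E] [InnerProductSpace ℝ E]

theorem norm_sq_rpow (u : E) (p : ℝ) : (‖u‖ ^ 2) ^ (p / 2) = ‖u‖ ^ p := by
  rw [← Real.rpow_natCast, ← Real.rpow_mul (norm_nonneg _)]
  congr 1
  push_cast
  ring

theorem hasFDerivAt_norm_rpow' (p : ℝ) (u : E) (hu : u ≠ 0) :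
    HasFDerivAt (fun u : E => ‖u‖ ^ p) ((p * ‖u‖ ^ (p - 2)) • innerSL ℝ u) u := by
  have h1 : HasFDerivAt (fun u : E => ‖u‖ ^ 2) (2 • innerSL ℝ u) u :=
    (hasStrictFDerivAt_norm_sq u).hasFDerivAt
  have hne : ‖u‖ ^ 2 ≠ 0 := by positivity
  have h2 : HasDerivAt (fun t : ℝ => t ^ (p / 2)) ((p / 2) * (‖u‖ ^ 2) ^ (p / 2 - 1)) (‖u‖ ^ 2) :=
    Real.hasDerivAt_rpow_const (Or.inl hne)
  have h3 := h2.comp_hasFDerivAt u h1
  have h4 : (fun u : E => ‖u‖ ^ p) = (fun t : ℝ => t ^ (p / 2)) ∘ (fun u : E => ‖u‖ ^ 2) := by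
    funext v
    exact (norm_sq_rpow v p).symm
  rw [h4]
  have h5 : (‖u‖ ^ 2) ^ (p / 2 - 1) = ‖u‖ ^ (p - 2) := by
    rw [← norm_sq_rpow u (p - 2)]
    congr 1
    ring
  refine h3.congr_fderiv ?_
  rw [h5]
  ext v
  simp
  ring

theorem contDiffAt_norm_rpow' (p : ℝ) (u : E) (hu : u ≠ 0) :
    ContDiffAt ℝ ∞ (fun u : E => ‖u‖ ^ p) u := by
  apply ContDiffAt.rpow_const_of_ne
  · exact contDiffAt_norm ℝ hu
  · exact norm_ne_zero_iff.mpr hu

/-- `-∇ ‖u‖^(-s) / s`. -/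
noncomputable def gf (s : ℝ) (u : E) : E := ‖u‖ ^ (-s - 2) • u

theorem contDiffAt_gf (s : ℝ) (u : E) (hu : u ≠ 0) : ContDiffAt ℝ ∞ (gf s) u :=
  (contDiffAt_norm_rpow' _ u hu).smul contDiffAt_id

theorem hasFDerivAt_h (s : ℝ) (u : E) (hu : u ≠ 0) :
    HasFDerivAt (fun u : E => ‖u‖ ^ (-s)) ((-s) • innerSL ℝ (gf s u)) u := by
  have := hasFDerivAt_norm_rpow' (-s) u hu
  refine this.congr_fderiv ?_
  ext v
  simp [gf]
  ring

/-- quadratic remainder bound for `‖u‖^(-s)`. -/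
theorem quad_bound (s : ℝ) (hs : 0 < s) (u0 : E) (hu0 : u0 ≠ 0) :
    ∃ C > 0, ∃ r > 0, ∀ u ∈ Metric.ball u0 r, ∀ v ∈ Metric.ball u0 r,
      |‖v‖ ^ (-s) - ‖u‖ ^ (-s) + s * ⟪gf s u, v - u⟫| ≤ C * ‖v - u‖ ^ 2 := by
  obtain ⟨K, t, ht, hK⟩ := ((contDiffAt_gf s u0 hu0).of_le
    (show (1 : WithTop ℕ∞) ≤ ((⊤ : ℕ∞) : WithTop ℕ∞) by exact_mod_cast le_top)).exists_lipschitzOnWith
  have hmem : t ∩ {u | u ≠ 0} ∈ 𝓝 u0 := inter_mem ht (isOpen_ne.mem_nhds hu0)
  obtain ⟨r, hr, hball⟩ := Metric.mem_nhds_iff.mp hmem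
  refine ⟨s * K + 1, by positivity, r, hr, ?_⟩
  intro u hu v hv
  let ψ : E → ℝ := fun w => ‖w‖ ^ (-s) + s * ⟪gf s u, w⟫
  let S : Set E := Metric.ball u0 r ∩ Metric.closedBall u ‖v - u‖
  have hconv : Convex ℝ S := (convex_ball _ _).inter (convex_closedBall _ _)
  have hder : ∀ w ∈ S, HasFDerivWithinAt ψ ((-s) • innerSL ℝ (gf s w) + s • innerSL ℝ (gf s u)) S w := by
    intro w hw
    have hw0 : w ≠ 0 := (hball hw.1).2
    have h1 := hasFDerivAt_h s w hw0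
    have h2 : HasFDerivAt (fun w : E => s * ⟪gf s u, w⟫) (s • innerSL ℝ (gf s u)) w := by
      have := (innerSL ℝ (gf s u)).hasFDerivAt (x := w)
      exact this.const_smul s
    exact (h1.add h2).hasFDerivWithinAt
  have hbd : ∀ w ∈ S, ‖(-s) • innerSL ℝ (gf s w) + s • innerSL ℝ (gf s u)‖ ≤ s * K * ‖v - u‖ := by
    intro w hw
    have h1 : (-s) • innerSL ℝ (gf s w) + s • innerSL ℝ (gf s u) = s • innerSL ℝ (gf s u - gf s w) := by
      rw [map_sub, smul_sub]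
      simp only [neg_smul]
      abel
    rw [h1, norm_smul, innerSL_apply_norm, Real.norm_of_nonneg hs.le, mul_assoc]
    apply mul_le_mul_of_nonneg_left _ hs.le
    have h2 := hK.dist_le_mul u (hball hu).1 w (hball hw.1).1
    rw [dist_eq_norm, dist_eq_norm] at h2
    have h3 : ‖u - w‖ ≤ ‖v - u‖ := by
      have := hw.2
      rw [Metric.mem_closedBall, dist_comm, dist_eq_norm] at this
      exact this
    exact h2.trans (mul_le_mul_of_nonneg_left h3 K.2)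
  have huS : u ∈ S := ⟨hu, by simp⟩
  have hvS : v ∈ S := ⟨hv, by simp [dist_eq_norm]⟩
  have := hconv.norm_image_sub_le_of_norm_hasFDerivWithin_le hder hbd huS hvS
  have h4 : ψ v - ψ u = ‖v‖ ^ (-s) - ‖u‖ ^ (-s) + s * ⟪gf s u, v - u⟫ := by
    simp only [ψ, inner_sub_right]; ring
  rw [h4, Real.norm_eq_abs] at this
  nlinarith [this, sq_nonneg ‖v - u‖]

/-- derivative of `gf`. -/
noncomputable def DG (s : ℝ) (u : E) : E →L[ℝ] E :=
  ‖u‖ ^ (-s - 2) • ContinuousLinearMap.id ℝ E +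
    (((-s - 2) * ‖u‖ ^ (-s - 2 - 2)) • innerSL ℝ u).smulRight u

theorem hasFDerivAt_gf (s : ℝ) (u : E) (hu : u ≠ 0) : HasFDerivAt (gf s) (DG s u) u := by
  have h1 := (hasFDerivAt_norm_rpow' (-s - 2) u hu).smul (hasFDerivAt_id u)
  exact h1

/-- The critical point map. -/
noncomputable def Th (s Λ : ℝ) (e : E) (p : E × E × E) : E × E × E :=
  (p.1, Λ • p.1 + s • gf s (p.2.1 - p.1) + s • gf s (p.2.2 - p.1),
    -(s • gf s (p.2.2 - p.1)) + s • gf s (p.2.1 - p.2.2) + Λ • (p.2.2 + e))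

theorem contDiffAt_Th (s Λ : ℝ) (e : E) (p : E × E × E) (h1 : p.2.1 - p.1 ≠ 0)
    (h2 : p.2.2 - p.1 ≠ 0) (h3 : p.2.1 - p.2.2 ≠ 0) : ContDiffAt ℝ ∞ (Th s Λ e) p := by
  have hx : ContDiffAt ℝ ∞ (fun p : E × E × E => p.1) p := contDiffAt_fst
  have hy : ContDiffAt ℝ ∞ (fun p : E × E × E => p.2.1) p := contDiffAt_snd.fst
  have hz : ContDiffAt ℝ ∞ (fun p : E × E × E => p.2.2) p := contDiffAt_snd.snd
  have g1 : ContDiffAt ℝ ∞ (fun p : E × E × E => gf s (p.2.1 - p.1)) p :=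
    ContDiffAt.comp (g := gf s) p (contDiffAt_gf s _ h1) (hy.sub hx)
  have g2 : ContDiffAt ℝ ∞ (fun p : E × E × E => gf s (p.2.2 - p.1)) p :=
    ContDiffAt.comp (g := gf s) p (contDiffAt_gf s _ h2) (hz.sub hx)
  have g3 : ContDiffAt ℝ ∞ (fun p : E × E × E => gf s (p.2.1 - p.2.2)) p :=
    ContDiffAt.comp (g := gf s) p (contDiffAt_gf s _ h3) (hy.sub hz)
  exact hx.prodMk ((((hx.const_smul Λ).add (g1.const_smul s)).add (g2.const_smul s)).prodMk
    (((g2.const_smul s).neg.add (g3.const_smul s)).add ((hz.add contDiffAt_const).const_smul Λ)))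

/-- derivative of `Th`. -/
noncomputable def DTh (s Λ : ℝ) (p : E × E × E) : E × E × E →L[ℝ] E × E × E :=
  let X := ContinuousLinearMap.fst ℝ E (E × E)
  let Y := (ContinuousLinearMap.fst ℝ E E).comp (ContinuousLinearMap.snd ℝ E (E × E))
  let Z := (ContinuousLinearMap.snd ℝ E E).comp (ContinuousLinearMap.snd ℝ E (E × E))
  X.prod ((Λ • X + s • (DG s (p.2.1 - p.1)).comp (Y - X) + s • (DG s (p.2.2 - p.1)).comp (Z - X)).prod
    (-(s • (DG s (p.2.2 - p.1)).comp (Z - X)) + s • (DG s (p.2.1 - p.2.2)).comp (Y - Z) + Λ • Z))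

theorem hasFDerivAt_Th (s Λ : ℝ) (e : E) (p : E × E × E) (h1 : p.2.1 - p.1 ≠ 0)
    (h2 : p.2.2 - p.1 ≠ 0) (h3 : p.2.1 - p.2.2 ≠ 0) : HasFDerivAt (Th s Λ e) (DTh s Λ p) p := by
  have hx : HasFDerivAt (fun p : E × E × E => p.1) (ContinuousLinearMap.fst ℝ E (E × E)) p :=
    hasFDerivAt_fst
  have hy : HasFDerivAt (fun p : E × E × E => p.2.1)
      ((ContinuousLinearMap.fst ℝ E E).comp (ContinuousLinearMap.snd ℝ E (E × E))) p :=
    HasFDerivAt.comp (g := fun q : E × E => q.1) p hasFDerivAt_fst hasFDerivAt_snd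
  have hz : HasFDerivAt (fun p : E × E × E => p.2.2)
      ((ContinuousLinearMap.snd ℝ E E).comp (ContinuousLinearMap.snd ℝ E (E × E))) p :=
    HasFDerivAt.comp (g := fun q : E × E => q.2) p hasFDerivAt_snd hasFDerivAt_snd
  have g1 := HasFDerivAt.comp (g := gf s) p (hasFDerivAt_gf s _ h1) (hy.sub hx)
  have g2 := HasFDerivAt.comp (g := gf s) p (hasFDerivAt_gf s _ h2) (hz.sub hx)
  have g3 := HasFDerivAt.comp (g := gf s) p (hasFDerivAt_gf s _ h3) (hy.sub hz)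
  exact hx.prodMk ((((hx.const_smul Λ).add (g1.const_smul s)).add (g2.const_smul s)).prodMk
    (((g2.const_smul s).neg.add (g3.const_smul s)).add ((hz.add_const e).const_smul Λ)))

end Calc

section Coord

variable {d : ℕ}

local notation "𝔼" => EuclideanSpace ℝ (Fin d)

/-- eigenvalues of `DG` at `e_i`. -/
noncomputable def kap (s : ℝ) (i j : Fin d) : ℝ := if j = i then -(s + 1) else 1

theorem DG_coord (s : ℝ) (i : Fin d) (c : ℝ) (hc : c ≠ 0) (v : 𝔼) (j : Fin d) :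
    DG s (c • EuclideanSpace.single i (1 : ℝ) : 𝔼) v j = |c| ^ (-s - 2) * (kap s i j * v j) := by
  have hn : ‖(c • EuclideanSpace.single i (1 : ℝ) : 𝔼)‖ = |c| := by
    rw [norm_smul]; simp
  have hc' : 0 < |c| := abs_pos.mpr hc
  have h2 : |c| ^ (-s - 2 - 2) * c ^ 2 = |c| ^ (-s - 2) := by
    rw [← sq_abs, ← Real.rpow_natCast, ← Real.rpow_add hc']
    congr 1
    push_cast
    ring
  simp only [DG, hn, kap]
  simp only [map_smul, ContinuousLinearMap.add_apply, ContinuousLinearMap.smul_apply,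
    ContinuousLinearMap.id_apply, ContinuousLinearMap.smulRight_apply, PiLp.add_apply, PiLp.smul_apply,
    smul_eq_mul, innerSL_apply_apply, EuclideanSpace.inner_single_left, map_one, one_mul]
  by_cases hj : j = i
  · subst hj
    simp
    rw [← h2]
    ring
  · simp [hj]

end Coord

end Crest.Agent.OTLib
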