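import Mathlib
import Crest.Agent.OTLibL
import Crest.Agent.OTLibD

set_option autoImplicit false

open MeasureTheory Set Filter Topology
open scoped ENNReal ContDiff RealInnerProductSpace

namespace Crest.Agent.OTLib

variable {d : ℕ}

local notation "𝔼" => EuclideanSpace ℝ (Fin d)

/-- the basis vector -/
noncomputable def bv (i : Fin d) : 𝔼 := EuclideanSpace.single i (1 : ℝ)

theorem norm_bv (i : Fin d) : ‖bv i‖ = 1 := by simp [bv]

theorem bv_ne_zero (i : Fin d) : bv i ≠ (0 : 𝔼) := by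
  rw [← norm_ne_zero_iff, norm_bv]; exact one_ne_zero

/-- base point -/
noncomputable def P0 (i : Fin d) : 𝔼 × 𝔼 × 𝔼 := (0, bv i, -bv i)

theorem P0_1 (i : Fin d) : (P0 i).2.1 - (P0 i).1 = (1 : ℝ) • EuclideanSpace.single i (1 : ℝ) := by
  simp [P0, bv]

theorem P0_2 (i : Fin d) : (P0 i).2.2 - (P0 i).1 = (-1 : ℝ) • EuclideanSpace.single i (1 : ℝ) := by
  simp [P0, bv]

theorem P0_3 (i : Fin d) : (P0 i).2.1 - (P0 i).2.2 = (2 : ℝ) • EuclideanSpace.single i (1 : ℝ) := by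
  simp [P0, bv, two_smul]

theorem single_ne (i : Fin d) (c : ℝ) (hc : c ≠ 0) : c • EuclideanSpace.single i (1 : ℝ) ≠ (0 : 𝔼) := by
  apply smul_ne_zero hc
  exact bv_ne_zero i

theorem DTh_fst (s Λ : ℝ) (p v : 𝔼 × 𝔼 × 𝔼) : (DTh s Λ p v).1 = v.1 := rfl

theorem DTh_snd (s Λ : ℝ) (i : Fin d) (v : 𝔼 × 𝔼 × 𝔼) (j : Fin d) :
    (DTh s Λ (P0 i) v).2.1 j = Λ * v.1 j + s * kap s i j * (v.2.1 j - v.1 j) +
      s * kap s i j * (v.2.2 j - v.1 j) := by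
  simp only [DTh, P0_1, P0_2, P0_3]
  have h1 := DG_coord s i 1 one_ne_zero (v.2.1 - v.1) j
  have h2 := DG_coord s i (-1) (by norm_num) (v.2.2 - v.1) j
  simp only [ContinuousLinearMap.prod_apply, add_apply, smul_apply, ContinuousLinearMap.comp_apply,
    sub_apply, ContinuousLinearMap.coe_fst', ContinuousLinearMap.coe_snd', PiLp.add_apply,
    PiLp.smul_apply, smul_eq_mul, h1, h2]
  simp
  ring

theorem DTh_trd (s Λ : ℝ) (i : Fin d) (v : 𝔼 × 𝔼 × 𝔼) (j : Fin d) :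
    (DTh s Λ (P0 i) v).2.2 j = -(s * kap s i j * (v.2.2 j - v.1 j)) +
      s * kap s i j * 2 ^ (-s - 2) * (v.2.1 j - v.2.2 j) + Λ * v.2.2 j := by
  simp only [DTh, P0_1, P0_2, P0_3]
  have h2 := DG_coord s i (-1) (by norm_num) (v.2.2 - v.1) j
  have h3 := DG_coord s i 2 (by norm_num) (v.2.1 - v.2.2) j
  simp only [ContinuousLinearMap.prod_apply, add_apply, smul_apply, ContinuousLinearMap.comp_apply,
    sub_apply, neg_apply, ContinuousLinearMap.coe_fst', ContinuousLinearMap.coe_snd', PiLp.add_apply,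
    PiLp.smul_apply, PiLp.neg_apply, smul_eq_mul, h2, h3]
  simp
  ring

/-- threshold for `Λ`. -/
noncomputable def Lam0 (s : ℝ) : ℝ := 8 * (s * (s + 1) + 1) / 2 ^ (-s - 2)

theorem q_bounds (s : ℝ) (hs : 0 < s) : 0 < (2 : ℝ) ^ (-s - 2) ∧ (2 : ℝ) ^ (-s - 2) ≤ 1 / 4 := by
  constructor
  · positivity
  · have : (2 : ℝ) ^ (-s - 2) ≤ 2 ^ (-2 : ℝ) :=
      Real.rpow_le_rpow_of_exponent_le (by norm_num) (by linarith)
    have h2 : (2 : ℝ) ^ (-2 : ℝ) = 1 / 4 := by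
      rw [Real.rpow_neg (by norm_num)]; norm_num
    exact this.trans_eq h2

theorem t_bounds (s : ℝ) (hs : 0 < s) (i j : Fin d) :
    s * kap s i j ≠ 0 ∧ |s * kap s i j| ≤ s * (s + 1) := by
  unfold kap
  split_ifs
  · constructor
    · have : s * -(s + 1) < 0 := by nlinarith
      exact this.ne
    · rw [mul_neg, abs_neg, abs_of_nonneg (by positivity)]
  · constructor
    · simpa using hs.ne'
    · rw [mul_one, abs_of_pos hs]; nlinarith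

theorem scalarA (q t Λ M x y z : ℝ) (hq : 0 < q) (hq' : q ≤ 1 / 4) (ht : t ≠ 0) (htM : |t| ≤ M)
    (hL : 8 * (M + 1) ≤ q * Λ) (hx : x = 0)
    (h1 : Λ * x + t * (y - x) + t * (z - x) = 0)
    (h2 : -(t * (z - x)) + t * q * (y - z) + Λ * z = 0) : y = 0 ∧ z = 0 := by
  subst hx
  have hyz : y + z = 0 := by
    have : t * (y + z) = 0 := by linarith
    rcases mul_eq_zero.mp this with h | h
    · exact absurd h ht
    · exact h
  have hy : y = -z := by linarith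
  subst hy
  have hM : 0 ≤ M := (abs_nonneg t).trans htM
  have hLM : 8 * (M + 1) ≤ Λ := by nlinarith
  have h3 : (Λ - t * (1 + 2 * q)) * z = 0 := by linarith
  have h4 : 0 < Λ - t * (1 + 2 * q) := by
    have := le_abs_self t
    nlinarith
  have hz : z = 0 := by
    rcases mul_eq_zero.mp h3 with h | h
    · exact absurd h h4.ne'
    · exact h
  exact ⟨by rw [hz]; simp, hz⟩

theorem scalarB (q t Λ M x y z : ℝ) (hq : 0 < q) (hq' : q ≤ 1 / 4) (ht : t ≠ 0) (htM : |t| ≤ M)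
    (hL : 8 * (M + 1) ≤ q * Λ) (hy : y = 0)
    (h1 : Λ * x + t * (y - x) + t * (z - x) = 0)
    (h2 : -(t * (z - x)) + t * q * (y - z) + Λ * z = 0) : x = 0 := by
  subst hy
  have hM : 0 ≤ M := (abs_nonneg t).trans htM
  have hLM : 8 * (M + 1) ≤ Λ := by nlinarith
  have h3 : t * z = (2 * t - Λ) * x := by linarith
  have h4 : ((Λ - t - t * q) * (Λ - 2 * t) - t ^ 2) * x = 0 := by
    have : t * (-(t * (z - x)) + t * q * (0 - z) + Λ * z) = 0 := by rw [h2, mul_zero]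
    have h5 : (Λ - t - t * q) * (t * z) + t ^ 2 * x = 0 := by linarith
    rw [h3] at h5
    linarith
  have ha := abs_nonneg t
  have hb := le_abs_self t
  have hc : -|t| ≤ t := neg_abs_le t
  have h6 : |t| ≤ Λ - t - t * q := by nlinarith
  have h7 : |t| + 1 ≤ Λ - 2 * t := by nlinarith
  have h8 : 0 < (Λ - t - t * q) * (Λ - 2 * t) - t ^ 2 := by
    have h9 : 0 < |t| := abs_pos.mpr ht
    have h10 : |t| * (|t| + 1) ≤ (Λ - t - t * q) * (Λ - 2 * t) :=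
      mul_le_mul h6 h7 (by positivity) (h9.le.trans h6)
    have h11 : t ^ 2 = |t| ^ 2 := (sq_abs t).symm
    nlinarith
  rcases mul_eq_zero.mp h4 with h | h
  · exact absurd h h8.ne'
  · exact h

theorem scalarC (q t Λ M x y z : ℝ) (hq : 0 < q) (hq' : q ≤ 1 / 4) (ht : t ≠ 0) (htM : |t| ≤ M)
    (hL : 8 * (M + 1) ≤ q * Λ) (hz : z = 0)
    (h1 : Λ * x + t * (y - x) + t * (z - x) = 0)
    (h2 : -(t * (z - x)) + t * q * (y - z) + Λ * z = 0) : x = 0 := by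
  subst hz
  have hM : 0 ≤ M := (abs_nonneg t).trans htM
  have h3 : t * (x + q * y) = 0 := by linarith
  have h4 : x + q * y = 0 := by
    rcases mul_eq_zero.mp h3 with h | h
    · exact absurd h ht
    · exact h
  have hx : x = -(q * y) := by linarith
  subst hx
  have h5 : (q * Λ - t * (1 + 2 * q)) * y = 0 := by linarith
  have h6 : 0 < q * Λ - t * (1 + 2 * q) := by
    have := le_abs_self t
    nlinarith
  have hy : y = 0 := by
    rcases mul_eq_zero.mp h5 with h | h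
    · exact absurd h h6.ne'
    · exact h
  rw [hy]; simp

theorem Lam0_le (s Λ : ℝ) (hs : 0 < s) (hΛ : Lam0 s ≤ Λ) :
    8 * (s * (s + 1) + 1) ≤ 2 ^ (-s - 2) * Λ := by
  obtain ⟨h1, -⟩ := q_bounds s hs
  unfold Lam0 at hΛ
  rw [div_le_iff₀ h1] at hΛ
  linarith

theorem DTh_eq_zero_coord (s Λ : ℝ) (i : Fin d) (v w : 𝔼 × 𝔼 × 𝔼)
    (h1 : (DTh s Λ (P0 i) v).2.1 = 0) (h2 : (DTh s Λ (P0 i) v).2.2 = 0) (j : Fin d) :
    (Λ * v.1 j + s * kap s i j * (v.2.1 j - v.1 j) + s * kap s i j * (v.2.2 j - v.1 j) = 0) ∧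
    (-(s * kap s i j * (v.2.2 j - v.1 j)) +
      s * kap s i j * 2 ^ (-s - 2) * (v.2.1 j - v.2.2 j) + Λ * v.2.2 j = 0) := by
  constructor
  · rw [← DTh_snd, h1]; rfl
  · rw [← DTh_trd, h2]; rfl

theorem DTh_injective (s Λ : ℝ) (hs : 0 < s) (hΛ : Lam0 s ≤ Λ) (i : Fin d) :
    Function.Injective (DTh s Λ (P0 i)) := by
  rw [injective_iff_map_eq_zero]
  intro v hv
  have hx : v.1 = 0 := by rw [← DTh_fst s Λ (P0 i) v, hv]; rfl
  obtain ⟨hq, hq'⟩ := q_bounds s hs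
  have hL := Lam0_le s Λ hs hΛ
  have hyz : ∀ j, v.2.1 j = 0 ∧ v.2.2 j = 0 := by
    intro j
    obtain ⟨e1, e2⟩ := DTh_eq_zero_coord s Λ i v v (by rw [hv]; rfl) (by rw [hv]; rfl) j
    obtain ⟨ht, htM⟩ := t_bounds s hs i j
    exact scalarA _ _ Λ _ _ _ _ hq hq' ht htM hL (by rw [hx]; rfl) e1 e2
  refine Prod.ext hx (Prod.ext ?_ ?_)
  · ext j; exact (hyz j).1
  · ext j; exact (hyz j).2

theorem DTh_B (s Λ : ℝ) (hs : 0 < s) (hΛ : Lam0 s ≤ Λ) (i : Fin d) (v : 𝔼 × 𝔼 × 𝔼)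
    (h1 : (DTh s Λ (P0 i) v).2.1 = 0) (h2 : (DTh s Λ (P0 i) v).2.2 = 0) (hy : v.2.1 = 0) :
    v.1 = 0 := by
  obtain ⟨hq, hq'⟩ := q_bounds s hs
  have hL := Lam0_le s Λ hs hΛ
  ext j
  obtain ⟨e1, e2⟩ := DTh_eq_zero_coord s Λ i v v h1 h2 j
  obtain ⟨ht, htM⟩ := t_bounds s hs i j
  exact scalarB _ _ Λ _ _ _ _ hq hq' ht htM hL (by rw [hy]; rfl) e1 e2

theorem DTh_C (s Λ : ℝ) (hs : 0 < s) (hΛ : Lam0 s ≤ Λ) (i : Fin d) (v : 𝔼 × 𝔼 × 𝔼)
    (h1 : (DTh s Λ (P0 i) v).2.1 = 0) (h2 : (DTh s Λ (P0 i) v).2.2 = 0) (hz : v.2.2 = 0) :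
    v.1 = 0 := by
  obtain ⟨hq, hq'⟩ := q_bounds s hs
  have hL := Lam0_le s Λ hs hΛ
  ext j
  obtain ⟨e1, e2⟩ := DTh_eq_zero_coord s Λ i v v h1 h2 j
  obtain ⟨ht, htM⟩ := t_bounds s hs i j
  exact scalarC _ _ Λ _ _ _ _ hq hq' ht htM hL (by rw [hz]; rfl) e1 e2

/-- a continuous linear equivalence from an injective endomorphism. -/
theorem exists_equiv_of_injective {X : Type*} [NormedAddCommGroup X] [NormedSpace ℝ X]
    [FiniteDimensional ℝ X] (D : X →L[ℝ] X) (hD : Function.Injective D) :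
    ∃ e : X ≃L[ℝ] X, (e : X →L[ℝ] X) = D := by
  let e1 : X ≃ₗ[ℝ] X := LinearEquiv.ofInjectiveEndo (D : X →ₗ[ℝ] X) hD
  refine ⟨e1.toContinuousLinearEquiv, ?_⟩
  ext v
  rfl

/-- The target value. -/
noncomputable def Gv (s : ℝ) (i : Fin d) : 𝔼 := -(s • gf s (-bv i)) + s • gf s ((2 : ℝ) • bv i)

theorem Th_P0 (s Λ : ℝ) (i : Fin d) : Th s Λ (bv i) (P0 i) = (0, 0, Gv s i) := by
  have h1 : gf s (-bv i) = - gf s (bv i : 𝔼) := by simp [gf]
  refine Prod.ext rfl (Prod.ext ?_ ?_)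
  · simp [Th, P0, h1]
  · simp [Th, P0, Gv, two_smul]

/-- charts -/
theorem exists_charts (s Λ : ℝ) (hs : 0 < s) (hΛ : Lam0 s ≤ Λ) (i : Fin d) :
    ∃ T S : OpenPartialHomeomorph 𝔼 𝔼,
      ContDiffOn ℝ ∞ T T.source ∧ ContDiffOn ℝ ∞ T.symm T.target ∧
      ContDiffOn ℝ ∞ S S.source ∧ ContDiffOn ℝ ∞ S.symm S.target ∧
      (0 : 𝔼) ∈ T.source ∧ (0 : 𝔼) ∈ S.source ∧ T 0 = bv i ∧ S 0 = -bv i ∧
      ∀ᶠ x in 𝓝 (0 : 𝔼), Th s Λ (bv i) (x, T x, S x) = (x, 0, Gv s i) := by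
  let O : Set (𝔼 × 𝔼 × 𝔼) := {p | p.2.1 - p.1 ≠ 0 ∧ p.2.2 - p.1 ≠ 0 ∧ p.2.1 - p.2.2 ≠ 0}
  have hO : IsOpen O := by
    apply IsOpen.inter
    · exact isOpen_ne_fun (by fun_prop) (by fun_prop)
    apply IsOpen.inter
    · exact isOpen_ne_fun (by fun_prop) (by fun_prop)
    · exact isOpen_ne_fun (by fun_prop) (by fun_prop)
  have hP1 : (P0 i).2.1 - (P0 i).1 ≠ 0 := by rw [P0_1]; exact single_ne i 1 one_ne_zero
  have hP2 : (P0 i).2.2 - (P0 i).1 ≠ 0 := by rw [P0_2]; exact single_ne i (-1) (by norm_num)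
  have hP3 : (P0 i).2.1 - (P0 i).2.2 ≠ 0 := by rw [P0_3]; exact single_ne i 2 (by norm_num)
  have hPO : P0 i ∈ O := ⟨hP1, hP2, hP3⟩
  have hcd : ContDiffOn ℝ ∞ (Th s Λ (bv i)) O := fun p hp =>
    (contDiffAt_Th s Λ (bv i) p hp.1 hp.2.1 hp.2.2).contDiffWithinAt
  obtain ⟨f', hf'⟩ := exists_equiv_of_injective (DTh s Λ (P0 i)) (DTh_injective s Λ hs hΛ i)
  have hder := hasFDerivAt_Th s Λ (bv i) (P0 i) hP1 hP2 hP3
  obtain ⟨e0, he0a, he0O, he0f, he0s, he0t⟩ :=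
    exists_smooth_chart (Th s Λ (bv i)) O hO hcd (P0 i) hPO f' (by rw [hf']; exact hder)
  -- the section
  let ι : 𝔼 → 𝔼 × 𝔼 × 𝔼 := fun x => (x, 0, Gv s i)
  have hι : ContDiff ℝ ∞ ι := contDiff_id.prodMk (contDiff_const.prodMk contDiff_const)
  let N : Set 𝔼 := ι ⁻¹' e0.target
  have hN : IsOpen N := e0.open_target.preimage hι.continuous
  have hι0 : ι 0 = e0 (P0 i) := by rw [he0f, Th_P0]
  have h0N : (0 : 𝔼) ∈ N := by
    show ι 0 ∈ e0.target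
    rw [hι0]; exact e0.map_source he0a
  let F : 𝔼 → 𝔼 × 𝔼 × 𝔼 := fun x => e0.symm (ι x)
  have hF0 : F 0 = P0 i := by
    show e0.symm (ι 0) = P0 i
    rw [hι0, e0.left_inv he0a]
  have hFcd : ContDiffOn ℝ ∞ F N := he0t.comp hι.contDiffOn (fun x hx => hx)
  have hThF : ∀ x ∈ N, Th s Λ (bv i) (F x) = (x, 0, Gv s i) := by
    intro x hx
    rw [← he0f]
    exact e0.right_inv hx
  have hF1 : ∀ x ∈ N, (F x).1 = x := by
    intro x hx
    have := congrArg Prod.fst (hThF x hx)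
    exact this
  let T0 : 𝔼 → 𝔼 := fun x => (F x).2.1
  let S0 : 𝔼 → 𝔼 := fun x => (F x).2.2
  have hT0cd : ContDiffOn ℝ ∞ T0 N := hFcd.snd.fst
  have hS0cd : ContDiffOn ℝ ∞ S0 N := hFcd.snd.snd
  have hNnhds : N ∈ 𝓝 (0 : 𝔼) := hN.mem_nhds h0N
  have hdT : HasFDerivAt T0 (fderiv ℝ T0 0) 0 :=
    ((hT0cd.contDiffAt hNnhds).differentiableAt (by simp)).hasFDerivAt
  have hdS : HasFDerivAt S0 (fderiv ℝ S0 0) 0 :=
    ((hS0cd.contDiffAt hNnhds).differentiableAt (by simp)).hasFDerivAt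
  have hTheq : ∀ x ∈ N, Th s Λ (bv i) (x, T0 x, S0 x) = (x, 0, Gv s i) := by
    intro x hx
    rw [← hThF x hx]
    congr 1
    exact Prod.ext (hF1 x hx).symm rfl
  have hP0' : ((0 : 𝔼), T0 0, S0 0) = P0 i := by
    show ((0 : 𝔼), (F 0).2.1, (F 0).2.2) = P0 i
    rw [hF0]; rfl
  have hkey : ∀ δ : 𝔼, DTh s Λ (P0 i) (δ, fderiv ℝ T0 0 δ, fderiv ℝ S0 0 δ) = (δ, 0, 0) := by
    have h1 : HasFDerivAt (fun x => ((x : 𝔼), T0 x, S0 x))
        ((ContinuousLinearMap.id ℝ 𝔼).prod ((fderiv ℝ T0 0).prod (fderiv ℝ S0 0))) 0 :=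
      (hasFDerivAt_id _).prodMk (hdT.prodMk hdS)
    have hder' : HasFDerivAt (Th s Λ (bv i)) (DTh s Λ (P0 i)) ((0 : 𝔼), T0 0, S0 0) := by
      rw [hP0']; exact hder
    have h2 := hder'.comp (0 : 𝔼) h1
    have h3 : HasFDerivAt (fun x : 𝔼 => (x, (0 : 𝔼), Gv s i))
        ((ContinuousLinearMap.id ℝ 𝔼).prod ((0 : 𝔼 →L[ℝ] 𝔼).prod (0 : 𝔼 →L[ℝ] 𝔼))) 0 :=
      (hasFDerivAt_id _).prodMk ((hasFDerivAt_const _ _).prodMk (hasFDerivAt_const _ _))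
    have h4 : HasFDerivAt (Th s Λ (bv i) ∘ fun x => ((x : 𝔼), T0 x, S0 x))
        ((ContinuousLinearMap.id ℝ 𝔼).prod ((0 : 𝔼 →L[ℝ] 𝔼).prod (0 : 𝔼 →L[ℝ] 𝔼))) 0 := by
      apply h3.congr_of_eventuallyEq
      filter_upwards [hNnhds] with x hx
      exact hTheq x hx
    have h5 := h2.unique h4
    intro δ
    have := congrArg (fun L => L δ) h5
    simpa using this
  have hTinj : Function.Injective (fderiv ℝ T0 0) := by
    rw [injective_iff_map_eq_zero]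
    intro δ hδ
    exact DTh_B s Λ hs hΛ i (δ, fderiv ℝ T0 0 δ, fderiv ℝ S0 0 δ) (by rw [hkey]) (by rw [hkey]) hδ
  have hSinj : Function.Injective (fderiv ℝ S0 0) := by
    rw [injective_iff_map_eq_zero]
    intro δ hδ
    exact DTh_C s Λ hs hΛ i (δ, fderiv ℝ T0 0 δ, fderiv ℝ S0 0 δ) (by rw [hkey]) (by rw [hkey]) hδ
  obtain ⟨A, hA⟩ := exists_equiv_of_injective _ hTinj
  obtain ⟨B, hB⟩ := exists_equiv_of_injective _ hSinj
  obtain ⟨T, hT1, hT2, hT3, hT4, hT5⟩ := exists_smooth_chart T0 N hN hT0cd 0 h0N A (by rw [hA]; exact hdT)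
  obtain ⟨S, hS1, hS2, hS3, hS4, hS5⟩ := exists_smooth_chart S0 N hN hS0cd 0 h0N B (by rw [hB]; exact hdS)
  refine ⟨T, S, hT4, hT5, hS4, hS5, hT1, hS1, ?_, ?_, ?_⟩
  · rw [hT3]; exact congrArg (fun p => p.2.1) hP0'
  · rw [hS3]; exact congrArg (fun p => p.2.2) hP0'
  · filter_upwards [hNnhds] with x hx
    rw [hT3, hS3]
    exact hTheq x hx

end Crest.Agent.OTLib
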