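import Mathlib
import Crest.Agent.OTLibC

set_option autoImplicit false

open MeasureTheory Set Filter Topology
open scoped ENNReal ContDiff RealInnerProductSpace

namespace Crest.Agent.OTLib

section Ineq

variable {E : Type*} [NormedAddCommGroup E] [InnerProductSpace ℝ E]

/-- real cost -/
noncomputable def cR (s : ℝ) (x y z : E) : ℝ := ‖y - x‖ ^ (-s) + ‖z - x‖ ^ (-s) + ‖y - z‖ ^ (-s)

/-- potential near `-e` -/
noncomputable def psi (Λ : ℝ) (e G : E) (z : E) : ℝ := ⟪G, z + e⟫ - Λ / 2 * ‖z + e‖ ^ 2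

theorem key_ineq (s Λ C r : ℝ) (e G : E)
    (hq1 : ∀ u ∈ Metric.ball e r, ∀ v ∈ Metric.ball e r,
      |‖v‖ ^ (-s) - ‖u‖ ^ (-s) + s * ⟪gf s u, v - u⟫| ≤ C * ‖v - u‖ ^ 2)
    (hq2 : ∀ u ∈ Metric.ball (-e) r, ∀ v ∈ Metric.ball (-e) r,
      |‖v‖ ^ (-s) - ‖u‖ ^ (-s) + s * ⟪gf s u, v - u⟫| ≤ C * ‖v - u‖ ^ 2)
    (hq3 : ∀ u ∈ Metric.ball ((2 : ℝ) • e) r, ∀ v ∈ Metric.ball ((2 : ℝ) • e) r,
      |‖v‖ ^ (-s) - ‖u‖ ^ (-s) + s * ⟪gf s u, v - u⟫| ≤ C * ‖v - u‖ ^ 2)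
    (hC : 0 ≤ C)
    (x y z x' z' : E)
    (h1 : y - x ∈ Metric.ball e r) (h1' : y - x' ∈ Metric.ball e r)
    (h2 : z - x ∈ Metric.ball (-e) r) (h2' : z' - x' ∈ Metric.ball (-e) r)
    (h3 : y - z ∈ Metric.ball ((2 : ℝ) • e) r) (h3' : y - z' ∈ Metric.ball ((2 : ℝ) • e) r)
    (hc1 : Λ • x + s • gf s (y - x) + s • gf s (z - x) = 0)
    (hc2 : -(s • gf s (z - x)) + s • gf s (y - z) + Λ • (z + e) = G) :
    cR s x y z + Λ / 2 * ‖x‖ ^ 2 - psi Λ e G z + (Λ / 2 - 3 * C) * (‖x' - x‖ ^ 2 + ‖z' - z‖ ^ 2) ≤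
      cR s x' y z' + Λ / 2 * ‖x'‖ ^ 2 - psi Λ e G z' := by
  have a1 := (abs_le.mp (hq1 _ h1 _ h1')).1
  have a2 := (abs_le.mp (hq2 _ h2 _ h2')).1
  have a3 := (abs_le.mp (hq3 _ h3 _ h3')).1
  set a := x' - x with ha
  set b := z' - z with hb
  have d1 : (y - x') - (y - x) = -a := by rw [ha]; abel
  have d2 : (z' - x') - (z - x) = b - a := by rw [ha, hb]; abel
  have d3 : (y - z') - (y - z) = -b := by rw [hb]; abel
  rw [d1, inner_neg_right, norm_neg] at a1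
  rw [d2, inner_sub_right] at a2
  rw [d3, inner_neg_right, norm_neg] at a3
  have hx' : x' = x + a := by rw [ha]; abel
  have hz' : z' + e = (z + e) + b := by rw [hb]; abel
  have n1 : ‖x'‖ ^ 2 = ‖x‖ ^ 2 + 2 * ⟪x, a⟫ + ‖a‖ ^ 2 := by
    rw [hx', norm_add_sq_real]
  have n2 : ‖z' + e‖ ^ 2 = ‖z + e‖ ^ 2 + 2 * ⟪z + e, b⟫ + ‖b‖ ^ 2 := by
    rw [hz', norm_add_sq_real]
  have n3 : ‖b - a‖ ^ 2 ≤ 2 * ‖a‖ ^ 2 + 2 * ‖b‖ ^ 2 := by
    have h := parallelogram_law_with_norm ℝ b a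
    have h0 := mul_self_nonneg ‖b + a‖
    nlinarith
  have l1 : Λ * ⟪x, a⟫ + s * ⟪gf s (y - x), a⟫ + s * ⟪gf s (z - x), a⟫ = 0 := by
    have := congrArg (fun w => ⟪w, a⟫) hc1
    simpa [inner_add_left, inner_smul_left] using this
  have l2 : -(s * ⟪gf s (z - x), b⟫) + s * ⟪gf s (y - z), b⟫ + Λ * ⟪z + e, b⟫ = ⟪G, b⟫ := by
    have := congrArg (fun w => ⟪w, b⟫) hc2
    simp only [inner_add_left, inner_smul_left, inner_neg_left, RCLike.conj_to_real] at this ⊢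
    linarith
  have n4 : ⟪G, z' + e⟫ = ⟪G, z + e⟫ + ⟪G, b⟫ := by rw [hz', inner_add_right]
  unfold cR psi
  rw [n1, n2, n4]
  have n5 : C * ‖b - a‖ ^ 2 ≤ C * (2 * ‖a‖ ^ 2 + 2 * ‖b‖ ^ 2) := mul_le_mul_of_nonneg_left n3 hC
  nlinarith [a1, a2, a3, l1, l2, n5]

end Ineq

section Loc

variable {d : ℕ}

local notation "𝔼" => EuclideanSpace ℝ (Fin d)

theorem exists_local (s : ℝ) (hs : 0 < s) (i : Fin d) :
    ∃ L0 : ℝ, ∀ Λ : ℝ, L0 ≤ Λ → ∃ T S : OpenPartialHomeomorph 𝔼 𝔼,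
      ContDiffOn ℝ ∞ T T.source ∧ ContDiffOn ℝ ∞ T.symm T.target ∧
      ContDiffOn ℝ ∞ S S.source ∧ ContDiffOn ℝ ∞ S.symm S.target ∧
      (0 : 𝔼) ∈ T.source ∧ (0 : 𝔼) ∈ S.source ∧ T 0 = bv i ∧ S 0 = -bv i ∧
      ∃ ρ > 0, Metric.ball (0 : 𝔼) ρ ⊆ T.source ∧ Metric.ball (0 : 𝔼) ρ ⊆ S.source ∧
        ∀ x ∈ Metric.ball (0 : 𝔼) ρ, ∀ x' ∈ Metric.ball (0 : 𝔼) ρ, ∀ x'' ∈ Metric.ball (0 : 𝔼) ρ,
          cR s x (T x) (S x) + Λ / 2 * ‖x‖ ^ 2 - psi Λ (bv i) (Gv s i) (S x) ≤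
            cR s x' (T x) (S x'') + Λ / 2 * ‖x'‖ ^ 2 - psi Λ (bv i) (Gv s i) (S x'') ∧
          (cR s x (T x) (S x) + Λ / 2 * ‖x‖ ^ 2 - psi Λ (bv i) (Gv s i) (S x) =
            cR s x' (T x) (S x'') + Λ / 2 * ‖x'‖ ^ 2 - psi Λ (bv i) (Gv s i) (S x'') →
            x' = x ∧ x'' = x) := by
  obtain ⟨C1, hC1, r1, hr1, hq1⟩ := quad_bound s hs (bv i) (bv_ne_zero i)
  obtain ⟨C2, hC2, r2, hr2, hq2⟩ := quad_bound s hs (-bv i) (neg_ne_zero.mpr (bv_ne_zero i))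
  obtain ⟨C3, hC3, r3, hr3, hq3⟩ := quad_bound s hs ((2 : ℝ) • bv i)
    (smul_ne_zero two_ne_zero (bv_ne_zero i))
  set C := max C1 (max C2 C3) with hC
  set r := min r1 (min r2 r3) with hr
  have hrpos : 0 < r := lt_min hr1 (lt_min hr2 hr3)
  have hCpos : 0 < C := lt_max_of_lt_left hC1
  have hq1' : ∀ u ∈ Metric.ball (bv i) r, ∀ v ∈ Metric.ball (bv i) r,
      |‖v‖ ^ (-s) - ‖u‖ ^ (-s) + s * ⟪gf s u, v - u⟫| ≤ C * ‖v - u‖ ^ 2 := by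
    intro u hu v hv
    refine (hq1 u (Metric.ball_subset_ball (min_le_left _ _) hu) v
      (Metric.ball_subset_ball (min_le_left _ _) hv)).trans ?_
    exact mul_le_mul_of_nonneg_right (le_max_left _ _) (sq_nonneg _)
  have hq2' : ∀ u ∈ Metric.ball (-bv i) r, ∀ v ∈ Metric.ball (-bv i) r,
      |‖v‖ ^ (-s) - ‖u‖ ^ (-s) + s * ⟪gf s u, v - u⟫| ≤ C * ‖v - u‖ ^ 2 := by
    intro u hu v hv
    have hrr : r ≤ r2 := (min_le_right _ _).trans (min_le_left _ _)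
    refine (hq2 u (Metric.ball_subset_ball hrr hu) v (Metric.ball_subset_ball hrr hv)).trans ?_
    exact mul_le_mul_of_nonneg_right ((le_max_left _ _).trans (le_max_right _ _)) (sq_nonneg _)
  have hq3' : ∀ u ∈ Metric.ball ((2 : ℝ) • bv i) r, ∀ v ∈ Metric.ball ((2 : ℝ) • bv i) r,
      |‖v‖ ^ (-s) - ‖u‖ ^ (-s) + s * ⟪gf s u, v - u⟫| ≤ C * ‖v - u‖ ^ 2 := by
    intro u hu v hv
    have hrr : r ≤ r3 := (min_le_right _ _).trans (min_le_right _ _)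
    refine (hq3 u (Metric.ball_subset_ball hrr hu) v (Metric.ball_subset_ball hrr hv)).trans ?_
    exact mul_le_mul_of_nonneg_right ((le_max_right _ _).trans (le_max_right _ _)) (sq_nonneg _)
  refine ⟨max (Lam0 s) (6 * C + 1), ?_⟩
  intro Λ hΛ
  have hΛ1 : Lam0 s ≤ Λ := (le_max_left _ _).trans hΛ
  have hΛ2 : 6 * C + 1 ≤ Λ := (le_max_right _ _).trans hΛ
  obtain ⟨T, S, hT, hT', hS, hS', h0T, h0S, hT0, hS0, hcrit⟩ := exists_charts s Λ hs hΛ1 i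
  refine ⟨T, S, hT, hT', hS, hS', h0T, h0S, hT0, hS0, ?_⟩
  have hTc : ContinuousAt T 0 := T.continuousAt h0T
  have hSc : ContinuousAt S 0 := S.continuousAt h0S
  have e1 : ∀ᶠ x in 𝓝 (0 : 𝔼), T x ∈ Metric.ball (bv i) (r / 4) := by
    apply hTc.eventually
    rw [hT0]
    exact Metric.ball_mem_nhds _ (by positivity)
  have e2 : ∀ᶠ x in 𝓝 (0 : 𝔼), S x ∈ Metric.ball (-bv i) (r / 4) := by
    apply hSc.eventually
    rw [hS0]
    exact Metric.ball_mem_nhds _ (by positivity)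
  have e3 : ∀ᶠ x in 𝓝 (0 : 𝔼), x ∈ Metric.ball (0 : 𝔼) (r / 4) :=
    Metric.ball_mem_nhds _ (by positivity)
  have e4 := T.open_source.mem_nhds h0T
  have e5 := S.open_source.mem_nhds h0S
  obtain ⟨ρ, hρ, hball⟩ := Metric.mem_nhds_iff.mp
    (((((hcrit.and e1).and e2).and e3).and e4).and e5)
  refine ⟨ρ, hρ, fun x hx => (hball hx).1.2, fun x hx => (hball hx).2, ?_⟩
  intro x hx x' hx' x'' hx''
  obtain ⟨⟨⟨⟨⟨k1, k2⟩, k3⟩, k4⟩, -⟩, k6⟩ := hball hx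
  obtain ⟨⟨⟨⟨⟨-, k2'⟩, k3'⟩, k4'⟩, -⟩, k6'⟩ := hball hx'
  obtain ⟨⟨⟨⟨⟨-, k2''⟩, k3''⟩, k4''⟩, -⟩, k6''⟩ := hball hx''
  have kk := k1
  have c1 : Λ • x + s • gf s (T x - x) + s • gf s (S x - x) = 0 :=
    congrArg (fun p => p.2.1) kk
  have c2 : -(s • gf s (S x - x)) + s • gf s (T x - S x) + Λ • (S x + bv i) = Gv s i :=
    congrArg (fun p => p.2.2) kk
  rw [Metric.mem_ball, dist_eq_norm] at k2 k3 k4 k2' k3' k4' k2'' k3'' k4''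
  rw [sub_zero] at k4 k4' k4''
  have m1 : T x - x ∈ Metric.ball (bv i) r := by
    rw [Metric.mem_ball, dist_eq_norm]
    calc ‖T x - x - bv i‖ = ‖(T x - bv i) - x‖ := by congr 1; abel
      _ ≤ ‖T x - bv i‖ + ‖x‖ := norm_sub_le _ _
      _ < r := by linarith
  have m1' : T x - x' ∈ Metric.ball (bv i) r := by
    rw [Metric.mem_ball, dist_eq_norm]
    calc ‖T x - x' - bv i‖ = ‖(T x - bv i) - x'‖ := by congr 1; abel
      _ ≤ ‖T x - bv i‖ + ‖x'‖ := norm_sub_le _ _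
      _ < r := by linarith
  have m2 : S x - x ∈ Metric.ball (-bv i) r := by
    rw [Metric.mem_ball, dist_eq_norm]
    calc ‖S x - x - -bv i‖ = ‖(S x - -bv i) - x‖ := by congr 1; abel
      _ ≤ ‖S x - -bv i‖ + ‖x‖ := norm_sub_le _ _
      _ < r := by linarith
  have m2' : S x'' - x' ∈ Metric.ball (-bv i) r := by
    rw [Metric.mem_ball, dist_eq_norm]
    calc ‖S x'' - x' - -bv i‖ = ‖(S x'' - -bv i) - x'‖ := by congr 1; abel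
      _ ≤ ‖S x'' - -bv i‖ + ‖x'‖ := norm_sub_le _ _
      _ < r := by linarith
  have m3 : T x - S x ∈ Metric.ball ((2 : ℝ) • bv i) r := by
    rw [Metric.mem_ball, dist_eq_norm]
    calc ‖T x - S x - (2 : ℝ) • bv i‖ = ‖(T x - bv i) - (S x - -bv i)‖ := by
          congr 1; rw [two_smul]; abel
      _ ≤ ‖T x - bv i‖ + ‖S x - -bv i‖ := norm_sub_le _ _
      _ < r := by linarith
  have m3' : T x - S x'' ∈ Metric.ball ((2 : ℝ) • bv i) r := by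
    rw [Metric.mem_ball, dist_eq_norm]
    calc ‖T x - S x'' - (2 : ℝ) • bv i‖ = ‖(T x - bv i) - (S x'' - -bv i)‖ := by
          congr 1; rw [two_smul]; abel
      _ ≤ ‖T x - bv i‖ + ‖S x'' - -bv i‖ := norm_sub_le _ _
      _ < r := by linarith
  have key := key_ineq s Λ C r (bv i) (Gv s i) hq1' hq2' hq3' hCpos.le x (T x) (S x) x' (S x'')
    m1 m1' m2 m2' m3 m3' c1 c2
  have hpos : 0 < Λ / 2 - 3 * C := by linarith
  have hnn : 0 ≤ (Λ / 2 - 3 * C) * (‖x' - x‖ ^ 2 + ‖S x'' - S x‖ ^ 2) := by positivity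
  refine ⟨by linarith, ?_⟩
  intro heq
  have hz : (Λ / 2 - 3 * C) * (‖x' - x‖ ^ 2 + ‖S x'' - S x‖ ^ 2) ≤ 0 := by linarith
  have hz2 : ‖x' - x‖ ^ 2 + ‖S x'' - S x‖ ^ 2 ≤ 0 := by
    by_contra hcon
    push Not at hcon
    have := mul_pos hpos hcon
    linarith
  have hz3 : ‖x' - x‖ ^ 2 = 0 := le_antisymm (by nlinarith [sq_nonneg ‖S x'' - S x‖]) (sq_nonneg _)
  have hz4 : ‖S x'' - S x‖ ^ 2 = 0 := le_antisymm (by nlinarith [sq_nonneg ‖x' - x‖]) (sq_nonneg _)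
  have hx1 : x' = x := by
    have := pow_eq_zero_iff (two_ne_zero) |>.mp hz3
    exact sub_eq_zero.mp (norm_eq_zero.mp this)
  have hx2 : S x'' = S x := by
    have := pow_eq_zero_iff (two_ne_zero) |>.mp hz4
    exact sub_eq_zero.mp (norm_eq_zero.mp this)
  exact ⟨hx1, S.injOn k6'' k6 hx2⟩

end Loc

end Crest.Agent.OTLib
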