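import Mathlib
import Crest.Prelude.Def_MultiMarginal
import Crest.Agent.OTLibI

set_option autoImplicit false
set_option linter.unusedSectionVars false

open MeasureTheory Set Filter Topology
open scoped ENNReal ContDiff RealInnerProductSpace
open Crest.AnalysisR.OT

namespace Crest.Agent.OTLib

section Cost

variable {E : Type*} [NormedAddCommGroup E] [InnerProductSpace ℝ E]

theorem pairCost_comm (s : ℝ) (x y : E) : pairCost s x y = pairCost s y x := by
  unfold pairCost; rw [norm_sub_rev]

theorem tripleCost_swap12 (s : ℝ) (x y z : E) : tripleCost s (x, y, z) = tripleCost s (y, x, z) := by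
  simp only [tripleCost]
  rw [pairCost_comm s x y]
  ring

theorem tripleCost_swap23 (s : ℝ) (x y z : E) : tripleCost s (x, y, z) = tripleCost s (x, z, y) := by
  simp only [tripleCost]
  rw [pairCost_comm s y z]
  ring

theorem pairCost_self (s : ℝ) (hs : 0 < s) (x : E) : pairCost s x x = ⊤ := by
  unfold pairCost
  rw [sub_self, norm_zero, ENNReal.ofReal_zero, ENNReal.zero_rpow_of_neg (by linarith)]

theorem pairCost_of_ne (s : ℝ) (x y : E) (h : x ≠ y) :
    pairCost s x y = ENNReal.ofReal (‖x - y‖ ^ (-s)) := by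
  unfold pairCost
  rw [ENNReal.ofReal_rpow_of_pos (norm_pos_iff.mpr (sub_ne_zero.mpr h))]

theorem pairCost_pos (s : ℝ) (hs : 0 < s) (x y : E) : 0 < pairCost s x y := by
  by_cases h : x = y
  · subst h; rw [pairCost_self s hs]; exact ENNReal.zero_lt_top
  · rw [pairCost_of_ne s x y h, ENNReal.ofReal_pos]
    exact Real.rpow_pos_of_pos (norm_pos_iff.mpr (sub_ne_zero.mpr h)) _

theorem continuous_tripleCost (s : ℝ) : Continuous (fun p : E × E × E => tripleCost s p) := by
  have h : Continuous (fun p : E × E => pairCost s p.1 p.2) := by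
    unfold pairCost
    exact ENNReal.continuous_rpow_const.comp (ENNReal.continuous_ofReal.comp (by fun_prop))
  have h1 : Continuous (fun p : E × E × E => pairCost s p.1 p.2.1) :=
    h.comp (f := fun p : E × E × E => (p.1, p.2.1)) (by fun_prop)
  have h2 : Continuous (fun p : E × E × E => pairCost s p.1 p.2.2) :=
    h.comp (f := fun p : E × E × E => (p.1, p.2.2)) (by fun_prop)
  have h3 : Continuous (fun p : E × E × E => pairCost s p.2.1 p.2.2) :=
    h.comp (f := fun p : E × E × E => (p.2.1, p.2.2)) (by fun_prop)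
  exact (h1.add h2).add h3

theorem tripleCost_of_ne (s : ℝ) (x y z : E) (h1 : x ≠ y) (h2 : x ≠ z) (h3 : y ≠ z) :
    tripleCost s (x, y, z) = ENNReal.ofReal (cR s x y z) := by
  simp only [tripleCost, cR]
  rw [pairCost_of_ne s x y h1, pairCost_of_ne s x z h2, pairCost_of_ne s y z h3,
    norm_sub_rev y x, norm_sub_rev z x, ENNReal.ofReal_add (by positivity) (by positivity),
    ENNReal.ofReal_add (by positivity) (by positivity)]

end Cost

section Discrete

variable {d : ℕ}

local notation "𝔼" => EuclideanSpace ℝ (Fin d)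

/-- axis of the family `f`. -/
def ax (hd : 2 ≤ d) (f : Bool) : Fin d := if f then ⟨1, by omega⟩ else ⟨0, by omega⟩

theorem ax_ne (hd : 2 ≤ d) (f f' : Bool) (h : f ≠ f') : ax hd f ≠ ax hd f' := by
  cases f <;> cases f' <;> simp [ax] at h ⊢

/-- cluster centres. -/
noncomputable def Pc (hd : 2 ≤ d) : Option (Bool × Bool) → 𝔼
  | none => 0
  | some (f, true) => bv (ax hd f)
  | some (f, false) => -bv (ax hd f)

/-- potential at the cluster centres. -/
noncomputable def uc (s : ℝ) : Option (Bool × Bool) → ℝ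
  | none => 2 + 2 ^ (-s)
  | some _ => 0

theorem norm_Pc (hd : 2 ≤ d) (v : Bool × Bool) : ‖Pc hd (some v)‖ = 1 := by
  obtain ⟨f, b⟩ := v
  cases b <;> simp [Pc, norm_bv]

theorem norm_Pc_sub (hd : 2 ≤ d) (f f' b b' : Bool) (h : f ≠ f') :
    ‖Pc hd (some (f, b)) - Pc hd (some (f', b'))‖ = Real.sqrt 2 := by
  have hin : ⟪(bv (ax hd f) : 𝔼), bv (ax hd f')⟫ = 0 := by
    simp [bv, EuclideanSpace.inner_single_left, (ax_ne hd f f' h)]
  have h2 : ‖Pc hd (some (f, b)) - Pc hd (some (f', b'))‖ ^ 2 = 2 := by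
    rw [norm_sub_sq_real, norm_Pc, norm_Pc]
    have : ⟪Pc hd (some (f, b)), Pc hd (some (f', b'))⟫ = 0 := by
      cases b <;> cases b' <;> simp [Pc, inner_neg_left, inner_neg_right, hin]
    rw [this]; norm_num
  rw [← h2, Real.sqrt_sq (norm_nonneg _)]

theorem strict_same12 (s : ℝ) (hs : 0 < s) {E : Type*} [NormedAddCommGroup E] [InnerProductSpace ℝ E]
    (c : ℝ) (x z : E) : ENNReal.ofReal c < tripleCost s (x, x, z) := by
  have : tripleCost s (x, x, z) = ⊤ := by
    simp only [tripleCost, pairCost_self s hs, top_add]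
  rw [this]; exact ENNReal.ofReal_lt_top

theorem strict_vert (s : ℝ) (hs : 0 < s) {E : Type*} [NormedAddCommGroup E] [InnerProductSpace ℝ E]
    (x y z : E) : ENNReal.ofReal 0 < tripleCost s (x, y, z) := by
  rw [ENNReal.ofReal_zero]
  simp only [tripleCost]
  exact lt_of_lt_of_le (pairCost_pos s hs x y) (by rw [add_assoc]; exact le_self_add)

theorem strict_cross (s : ℝ) (hs : 0 < s) (hd : 2 ≤ d) (f f' b b' : Bool) (h : f ≠ f') :
    ENNReal.ofReal (2 + 2 ^ (-s)) < tripleCost s (0, Pc hd (some (f, b)), Pc hd (some (f', b'))) := by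
  have hn := norm_Pc_sub hd f f' b b' h
  have h1 : (0 : 𝔼) ≠ Pc hd (some (f, b)) := by
    intro h0; have := norm_Pc hd (f, b); rw [← h0, norm_zero] at this; exact zero_ne_one this
  have h2 : (0 : 𝔼) ≠ Pc hd (some (f', b')) := by
    intro h0; have := norm_Pc hd (f', b'); rw [← h0, norm_zero] at this; exact zero_ne_one this
  have h3 : Pc hd (some (f, b)) ≠ Pc hd (some (f', b')) := by
    intro h0
    rw [h0, sub_self, norm_zero] at hn
    have : (0 : ℝ) < Real.sqrt 2 := by positivity
    linarith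
  rw [tripleCost_of_ne s _ _ _ h1 h2 h3]
  apply (ENNReal.ofReal_lt_ofReal_iff_of_nonneg (by positivity)).mpr
  unfold cR
  rw [hn, sub_zero, sub_zero, norm_Pc, norm_Pc, Real.one_rpow]
  have h4 : Real.sqrt 2 < 2 := by
    rw [show (2 : ℝ) = Real.sqrt 4 by rw [show (4 : ℝ) = 2 ^ 2 by norm_num]; simp]
    exact Real.sqrt_lt_sqrt (by norm_num) (by simp [show (4 : ℝ) = 2 ^ 2 by norm_num]; norm_num)
  have h5 : (2 : ℝ) ^ (-s) < (Real.sqrt 2) ^ (-s) :=
    Real.rpow_lt_rpow_of_neg (by positivity) h4 (by linarith)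
  linarith

end Discrete

end Crest.Agent.OTLib
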