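import Mathlib
import Crest.Prelude.Def_MultiMarginal
import Crest.Agent.OTLibG

set_option autoImplicit false
set_option linter.unusedSectionVars false

open MeasureTheory Set Filter Topology
open scoped ENNReal ContDiff RealInnerProductSpace
open Crest.AnalysisR.OT

namespace Crest.Agent.OTLib

variable {d : ℕ}

local notation "𝔼" => EuclideanSpace ℝ (Fin d)

/-- cluster maps -/
noncomputable def tau (T S : Bool → 𝔼 → 𝔼) : Option (Bool × Bool) → 𝔼 → 𝔼
  | none => id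
  | some (f, true) => T f
  | some (f, false) => S f

/-- potentials in parameter form -/
noncomputable def Phi (s Λ : ℝ) (hd : 2 ≤ d) (T S : Bool → 𝔼 → 𝔼) : Option (Bool × Bool) → 𝔼 → ℝ
  | none => fun x => (2 + 2 ^ (-s)) - Λ / 2 * ‖x‖ ^ 2
  | some (f, true) => fun x => cR s x (T f x) (S f x) - ((2 + 2 ^ (-s)) - Λ / 2 * ‖x‖ ^ 2) -
      psi Λ (bv (ax hd f)) (Gv s (ax hd f)) (S f x)
  | some (f, false) => fun x => psi Λ (bv (ax hd f)) (Gv s (ax hd f)) (S f x)

theorem continuous_psi (Λ : ℝ) (e G : 𝔼) : Continuous (psi Λ e G) := by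
  unfold psi; fun_prop

theorem continuousAt_cR (s : ℝ) (T S : 𝔼 → 𝔼) (x : 𝔼) (hT : ContinuousAt T x) (hS : ContinuousAt S x)
    (h1 : T x - x ≠ 0) (h2 : S x - x ≠ 0) (h3 : T x - S x ≠ 0) :
    ContinuousAt (fun x => cR s x (T x) (S x)) x := by
  unfold cR
  refine ContinuousAt.add (ContinuousAt.add ?_ ?_) ?_
  · exact ((hT.sub continuousAt_id).norm).rpow_const (Or.inl (norm_ne_zero_iff.mpr h1))
  · exact ((hS.sub continuousAt_id).norm).rpow_const (Or.inl (norm_ne_zero_iff.mpr h2))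
  · exact ((hT.sub hS).norm).rpow_const (Or.inl (norm_ne_zero_iff.mpr h3))

theorem ne_of_balls {x y a b : 𝔼} {r : ℝ} (hx : x ∈ Metric.ball a r) (hy : y ∈ Metric.ball b r)
    (h : 2 * r ≤ ‖a - b‖) : x ≠ y := by
  intro hxy
  subst hxy
  rw [Metric.mem_ball, dist_eq_norm] at hx hy
  have : ‖a - b‖ ≤ ‖x - a‖ + ‖x - b‖ := by
    calc ‖a - b‖ = ‖(x - b) - (x - a)‖ := by congr 1; abel
      _ ≤ ‖x - b‖ + ‖x - a‖ := norm_sub_le _ _
      _ = _ := add_comm _ _
  linarith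

theorem one_le_norm_Pc_sub (hd : 2 ≤ d) (i j : Option (Bool × Bool)) (h : i ≠ j) :
    1 ≤ ‖Pc hd i - Pc hd j‖ := by
  rcases i with _ | ⟨f, b⟩ <;> rcases j with _ | ⟨f', b'⟩
  · exact absurd rfl h
  · have := norm_Pc hd (f', b')
    rw [show Pc hd none = 0 from rfl, zero_sub, norm_neg, this]
  · have := norm_Pc hd (f, b)
    rw [show Pc hd none = 0 from rfl, sub_zero, this]
  · by_cases hf : f = f'
    · subst hf
      have hb : b ≠ b' := by rintro rfl; exact h rfl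
      have h2 : ‖(bv (ax hd f) : 𝔼) + bv (ax hd f)‖ = 2 := by
        rw [← two_smul ℝ, norm_smul, norm_bv]; norm_num
      cases b <;> cases b'
      · exact absurd rfl hb
      · simp only [Pc]
        rw [show -bv (ax hd f) - bv (ax hd f) = -(bv (ax hd f) + bv (ax hd f) : 𝔼) by abel, norm_neg, h2]
        norm_num
      · simp only [Pc]
        rw [sub_neg_eq_add, h2]
        norm_num
      · exact absurd rfl hb
    · rw [norm_Pc_sub hd f f' b b' hf]
      exact Real.one_le_sqrt.mpr (by norm_num)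

/-- The relation we want for each triple of clusters. -/
def Rel (s : ℝ) (τ : Option (Bool × Bool) → 𝔼 → 𝔼) (Φ : Option (Bool × Bool) → 𝔼 → ℝ)
    (j1 j2 j3 : Option (Bool × Bool)) (p : 𝔼 × 𝔼 × 𝔼) : Prop :=
  ENNReal.ofReal (Φ j1 p.1 + Φ j2 p.2.1 + Φ j3 p.2.2) ≤
      tripleCost s (τ j1 p.1, τ j2 p.2.1, τ j3 p.2.2) ∧
    (tripleCost s (τ j1 p.1, τ j2 p.2.1, τ j3 p.2.2) =
      ENNReal.ofReal (Φ j1 p.1 + Φ j2 p.2.1 + Φ j3 p.2.2) → j1 = none → ∃ v, j2 = some v ∧ p.2.1 = p.1)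

theorem rel_of_strict (s : ℝ) (τ : Option (Bool × Bool) → 𝔼 → 𝔼) (Φ : Option (Bool × Bool) → 𝔼 → ℝ)
    (hτ : ∀ j, ContinuousAt (τ j) 0) (hΦ : ∀ j, ContinuousAt (Φ j) 0)
    (j1 j2 j3 : Option (Bool × Bool))
    (h : ENNReal.ofReal (Φ j1 0 + Φ j2 0 + Φ j3 0) < tripleCost s (τ j1 0, τ j2 0, τ j3 0)) :
    ∀ᶠ p in 𝓝 (0 : 𝔼 × 𝔼 × 𝔼), Rel s τ Φ j1 j2 j3 p := by
  have c1 : ContinuousAt (fun p : 𝔼 × 𝔼 × 𝔼 => p.1) 0 := continuousAt_fst
  have c2 : ContinuousAt (fun p : 𝔼 × 𝔼 × 𝔼 => p.2.1) 0 := continuous_snd.fst.continuousAt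
  have c3 : ContinuousAt (fun p : 𝔼 × 𝔼 × 𝔼 => p.2.2) 0 := continuous_snd.snd.continuousAt
  have t1 : ContinuousAt (fun p : 𝔼 × 𝔼 × 𝔼 => τ j1 p.1) 0 :=
    ContinuousAt.comp (g := τ j1) (hτ j1) c1
  have t2 : ContinuousAt (fun p : 𝔼 × 𝔼 × 𝔼 => τ j2 p.2.1) 0 :=
    ContinuousAt.comp (g := τ j2) (hτ j2) c2
  have t3 : ContinuousAt (fun p : 𝔼 × 𝔼 × 𝔼 => τ j3 p.2.2) 0 :=
    ContinuousAt.comp (g := τ j3) (hτ j3) c3
  have f1 : ContinuousAt (fun p : 𝔼 × 𝔼 × 𝔼 => Φ j1 p.1) 0 :=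
    ContinuousAt.comp (g := Φ j1) (hΦ j1) c1
  have f2 : ContinuousAt (fun p : 𝔼 × 𝔼 × 𝔼 => Φ j2 p.2.1) 0 :=
    ContinuousAt.comp (g := Φ j2) (hΦ j2) c2
  have f3 : ContinuousAt (fun p : 𝔼 × 𝔼 × 𝔼 => Φ j3 p.2.2) 0 :=
    ContinuousAt.comp (g := Φ j3) (hΦ j3) c3
  have hl : ContinuousAt (fun p : 𝔼 × 𝔼 × 𝔼 =>
      ENNReal.ofReal (Φ j1 p.1 + Φ j2 p.2.1 + Φ j3 p.2.2)) 0 :=
    ENNReal.continuous_ofReal.continuousAt.comp ((f1.add f2).add f3)
  have hr : ContinuousAt (fun p : 𝔼 × 𝔼 × 𝔼 => tripleCost s (τ j1 p.1, τ j2 p.2.1, τ j3 p.2.2)) 0 :=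
    (continuous_tripleCost s).continuousAt.comp (t1.prodMk (t2.prodMk t3))
  have := hl.tendsto.eventually_lt hr.tendsto h
  filter_upwards [this] with p hp
  exact ⟨hp.le, fun heq => absurd heq hp.ne'⟩

theorem exists_data (s : ℝ) (hs : 0 < s) (hd : 2 ≤ d) :
    ∃ (T S : Bool → OpenPartialHomeomorph 𝔼 𝔼) (Φ : Option (Bool × Bool) → 𝔼 → ℝ) (r : ℝ),
      0 < r ∧ r < 1 / 4 ∧
      (∀ f, ContDiffOn ℝ ∞ (T f) (T f).source) ∧ (∀ f, ContDiffOn ℝ ∞ (T f).symm (T f).target) ∧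
      (∀ f, ContDiffOn ℝ ∞ (S f) (S f).source) ∧ (∀ f, ContDiffOn ℝ ∞ (S f).symm (S f).target) ∧
      (∀ f, Metric.closedBall (0 : 𝔼) r ⊆ (T f).source) ∧
      (∀ f, Metric.closedBall (0 : 𝔼) r ⊆ (S f).source) ∧
      (∀ f, ∀ x ∈ Metric.closedBall (0 : 𝔼) r, T f x ∈ Metric.ball (Pc hd (some (f, true))) (1 / 4)) ∧
      (∀ f, ∀ x ∈ Metric.closedBall (0 : 𝔼) r, S f x ∈ Metric.ball (Pc hd (some (f, false))) (1 / 4)) ∧
      (∀ j, ContinuousOn (Φ j) (Metric.closedBall (0 : 𝔼) r)) ∧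
      (∀ j1 j2 j3, ∀ x1 ∈ Metric.closedBall (0 : 𝔼) r, ∀ x2 ∈ Metric.closedBall (0 : 𝔼) r,
        ∀ x3 ∈ Metric.closedBall (0 : 𝔼) r,
        Rel s (tau (fun f => T f) (fun f => S f)) Φ j1 j2 j3 (x1, x2, x3)) ∧
      (∀ f, ∀ x ∈ Metric.closedBall (0 : 𝔼) r,
        tripleCost s (x, T f x, S f x) =
          ENNReal.ofReal (Φ none x + Φ (some (f, true)) x + Φ (some (f, false)) x) ∧
        0 ≤ Φ none x + Φ (some (f, true)) x + Φ (some (f, false)) x) := by
  choose L0 hL0 using fun f : Bool => exists_local s hs (ax hd f)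
  set Λ := max (L0 true) (L0 false) with hΛdef
  have hex := fun f : Bool => hL0 f Λ (by cases f <;> simp [hΛdef])
  choose T S hT1 hT2 hS1 hS2 h0T h0S hT0 hS0 ρ hρ hbT hbS hineq using hex
  set τ := tau (fun f => (T f : 𝔼 → 𝔼)) (fun f => (S f : 𝔼 → 𝔼)) with hτdef
  set Φ := Phi s Λ hd (fun f => (T f : 𝔼 → 𝔼)) (fun f => (S f : 𝔼 → 𝔼)) with hΦdef
  have hτ0 : ∀ j, τ j 0 = Pc hd j := by
    intro j
    rcases j with _ | ⟨f, b⟩
    · rfl
    · cases b
      · exact hS0 f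
      · exact hT0 f
  have hτc : ∀ j, ContinuousAt (τ j) 0 := by
    intro j
    rcases j with _ | ⟨f, b⟩
    · exact continuousAt_id
    · cases b
      · exact (S f).continuousAt (h0S f)
      · exact (T f).continuousAt (h0T f)
  -- a good neighbourhood
  have hball : ∀ j, ∀ᶠ x in 𝓝 (0 : 𝔼), τ j x ∈ Metric.ball (Pc hd j) (1 / 4) := by
    intro j
    apply (hτc j).eventually
    rw [hτ0 j]
    exact Metric.ball_mem_nhds _ (by norm_num)
  have hsrcT : ∀ f, ∀ᶠ x in 𝓝 (0 : 𝔼), x ∈ (T f).source := fun f => (T f).open_source.mem_nhds (h0T f)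
  have hsrcS : ∀ f, ∀ᶠ x in 𝓝 (0 : 𝔼), x ∈ (S f).source := fun f => (S f).open_source.mem_nhds (h0S f)
  have hρe : ∀ f, ∀ᶠ x in 𝓝 (0 : 𝔼), x ∈ Metric.ball (0 : 𝔼) (ρ f) := fun f =>
    Metric.ball_mem_nhds _ (hρ f)
  -- the values of Φ at 0
  have hcR0 : ∀ f, cR s (0 : 𝔼) (T f 0) (S f 0) = 2 + 2 ^ (-s) := by
    intro f
    rw [hT0 f, hS0 f]
    unfold cR
    have h2 : ‖(bv (ax hd f) : 𝔼) + bv (ax hd f)‖ = 2 := by
      rw [← two_smul ℝ, norm_smul, norm_bv]; norm_num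
    rw [sub_zero, sub_zero, norm_neg, norm_bv, Real.one_rpow, sub_neg_eq_add, h2]
    norm_num
  have hpsi0 : ∀ f, psi Λ (bv (ax hd f)) (Gv s (ax hd f)) (S f 0) = 0 := by
    intro f
    rw [hS0 f]
    simp [psi]
  have hΦ0 : ∀ j, Φ j 0 = uc s j := by
    intro j
    rcases j with _ | ⟨f, b⟩
    · simp [hΦdef, Phi, uc]
    · cases b
      · exact hpsi0 f
      · show cR s 0 (T f 0) (S f 0) - ((2 + 2 ^ (-s)) - Λ / 2 * ‖(0 : 𝔼)‖ ^ 2) -
          psi Λ (bv (ax hd f)) (Gv s (ax hd f)) (S f 0) = 0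
        rw [hcR0, hpsi0]; simp
  have hdist : ∀ f x x' x'', x' ∈ Metric.ball (0 : 𝔼) (1 / 4) →
      T f x ∈ Metric.ball (Pc hd (some (f, true))) (1 / 4) →
      S f x'' ∈ Metric.ball (Pc hd (some (f, false))) (1 / 4) →
      x' ≠ T f x ∧ x' ≠ S f x'' ∧ T f x ≠ S f x'' := by
    intro f x x' x'' h1 h2 h3
    refine ⟨?_, ?_, ?_⟩
    · apply ne_of_balls h1 h2
      have := one_le_norm_Pc_sub hd none (some (f, true)) (by simp)
      rw [show Pc hd none = 0 from rfl] at this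
      linarith
    · apply ne_of_balls h1 h3
      have := one_le_norm_Pc_sub hd none (some (f, false)) (by simp)
      rw [show Pc hd none = 0 from rfl] at this
      linarith
    · apply ne_of_balls h2 h3
      have := one_le_norm_Pc_sub hd (some (f, true)) (some (f, false)) (by simp)
      linarith
  have hΦcAt : ∀ j, ∀ x, (∀ j', ContinuousAt (τ j') x) → (∀ j', τ j' x ∈ Metric.ball (Pc hd j') (1 / 4)) →
      ContinuousAt (Φ j) x := by
    intro j x hc hb
    have h0 : ContinuousAt (fun x : 𝔼 => (2 + 2 ^ (-s)) - Λ / 2 * ‖x‖ ^ 2) x := by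
      fun_prop
    rcases j with _ | ⟨f, b⟩
    · exact h0
    · have hSf : ContinuousAt (S f) x := hc (some (f, false))
      have hTf : ContinuousAt (T f) x := hc (some (f, true))
      have hps : ContinuousAt (fun x => psi Λ (bv (ax hd f)) (Gv s (ax hd f)) (S f x)) x :=
        ContinuousAt.comp (g := psi Λ (bv (ax hd f)) (Gv s (ax hd f)))
          (continuous_psi _ _ _).continuousAt hSf
      cases b
      · exact hps
      · have hd1 := hdist f x x x (hb none) (hb (some (f, true))) (hb (some (f, false)))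
        exact ((continuousAt_cR s (T f) (S f) x hTf hSf (sub_ne_zero.mpr hd1.1.symm)
          (sub_ne_zero.mpr hd1.2.1.symm) (sub_ne_zero.mpr hd1.2.2)).sub h0).sub hps
  have hb0 : ∀ j, τ j 0 ∈ Metric.ball (Pc hd j) (1 / 4) := by
    intro j; rw [hτ0 j]; exact Metric.mem_ball_self (by norm_num)
  have hΦc : ∀ j, ContinuousAt (Φ j) 0 := fun j => hΦcAt j 0 hτc hb0
  -- family inequality
  have hFM : ∀ f x x' x'', x ∈ Metric.ball (0 : 𝔼) (ρ f) → x' ∈ Metric.ball (0 : 𝔼) (ρ f) →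
      x'' ∈ Metric.ball (0 : 𝔼) (ρ f) → x' ∈ Metric.ball (0 : 𝔼) (1 / 4) →
      T f x ∈ Metric.ball (Pc hd (some (f, true))) (1 / 4) →
      S f x'' ∈ Metric.ball (Pc hd (some (f, false))) (1 / 4) →
      ENNReal.ofReal (Φ none x' + Φ (some (f, true)) x + Φ (some (f, false)) x'') ≤
        tripleCost s (x', T f x, S f x'') ∧
      (tripleCost s (x', T f x, S f x'') =
        ENNReal.ofReal (Φ none x' + Φ (some (f, true)) x + Φ (some (f, false)) x'') →
        x' = x ∧ x'' = x) := by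
    intro f x x' x'' hx hx' hx'' h1 h2 h3
    obtain ⟨d1, d2, d3⟩ := hdist f x x' x'' h1 h2 h3
    rw [tripleCost_of_ne s _ _ _ d1 d2 d3]
    obtain ⟨i1, i2⟩ := hineq f x hx x' hx' x'' hx''
    have hsum : Φ none x' + Φ (some (f, true)) x + Φ (some (f, false)) x'' =
        cR s x (T f x) (S f x) + Λ / 2 * ‖x‖ ^ 2 - psi Λ (bv (ax hd f)) (Gv s (ax hd f)) (S f x)
        - Λ / 2 * ‖x'‖ ^ 2 + psi Λ (bv (ax hd f)) (Gv s (ax hd f)) (S f x'') := by
      simp only [hΦdef, Phi]; ring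
    have hpos : 0 < cR s x' (T f x) (S f x'') := by
      unfold cR
      have : 0 < ‖T f x - x'‖ := norm_pos_iff.mpr (sub_ne_zero.mpr d1.symm)
      positivity
    refine ⟨ENNReal.ofReal_le_ofReal (by rw [hsum]; linarith), ?_⟩
    intro heq
    apply i2
    have h4 : cR s x' (T f x) (S f x'') =
        Φ none x' + Φ (some (f, true)) x + Φ (some (f, false)) x'' := by
      by_cases hneg : Φ none x' + Φ (some (f, true)) x + Φ (some (f, false)) x'' ≤ 0
      · rw [ENNReal.ofReal_of_nonpos hneg, ENNReal.ofReal_eq_zero] at heq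
        linarith
      · push Not at hneg
        exact (ENNReal.ofReal_eq_ofReal_iff hpos.le hneg.le).mp heq
    rw [hsum] at h4
    linarith
  have hfamE : ∀ f, ∀ᶠ x in 𝓝 (0 : 𝔼), (x ∈ Metric.ball (0 : 𝔼) (ρ f) ∧ x ∈ Metric.ball (0 : 𝔼) (1 / 4) ∧
      T f x ∈ Metric.ball (Pc hd (some (f, true))) (1 / 4) ∧
      S f x ∈ Metric.ball (Pc hd (some (f, false))) (1 / 4)) := by
    intro f
    filter_upwards [hρe f, hball none, hball (some (f, true)), hball (some (f, false))] with x a b c e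
    exact ⟨a, b, c, e⟩
  have hrel : ∀ j1 j2 j3, ∀ᶠ p in 𝓝 (0 : 𝔼 × 𝔼 × 𝔼), Rel s τ Φ j1 j2 j3 p := by
    have hE1 : ∀ f, ∀ᶠ p : 𝔼 × 𝔼 × 𝔼 in 𝓝 0, (fun x => (x ∈ Metric.ball (0 : 𝔼) (ρ f) ∧
        x ∈ Metric.ball (0 : 𝔼) (1 / 4) ∧
        T f x ∈ Metric.ball (Pc hd (some (f, true))) (1 / 4) ∧
        S f x ∈ Metric.ball (Pc hd (some (f, false))) (1 / 4))) p.1 := fun f =>
      (continuousAt_fst (p := (0 : 𝔼 × 𝔼 × 𝔼))).eventually (hfamE f)
    have hE2 : ∀ f, ∀ᶠ p : 𝔼 × 𝔼 × 𝔼 in 𝓝 0, (fun x => (x ∈ Metric.ball (0 : 𝔼) (ρ f) ∧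
        x ∈ Metric.ball (0 : 𝔼) (1 / 4) ∧
        T f x ∈ Metric.ball (Pc hd (some (f, true))) (1 / 4) ∧
        S f x ∈ Metric.ball (Pc hd (some (f, false))) (1 / 4))) p.2.1 := fun f =>
      ((continuous_snd.fst : Continuous fun p : 𝔼 × 𝔼 × 𝔼 => p.2.1).continuousAt
        (x := (0 : 𝔼 × 𝔼 × 𝔼))).eventually (hfamE f)
    have hE3 : ∀ f, ∀ᶠ p : 𝔼 × 𝔼 × 𝔼 in 𝓝 0, (fun x => (x ∈ Metric.ball (0 : 𝔼) (ρ f) ∧
        x ∈ Metric.ball (0 : 𝔼) (1 / 4) ∧
        T f x ∈ Metric.ball (Pc hd (some (f, true))) (1 / 4) ∧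
        S f x ∈ Metric.ball (Pc hd (some (f, false))) (1 / 4))) p.2.2 := fun f =>
      ((continuous_snd.snd : Continuous fun p : 𝔼 × 𝔼 × 𝔼 => p.2.2).continuousAt
        (x := (0 : 𝔼 × 𝔼 × 𝔼))).eventually (hfamE f)
    have hstrict : ∀ j1 j2 j3, ENNReal.ofReal (uc s j1 + uc s j2 + uc s j3) <
        tripleCost s (Pc hd j1, Pc hd j2, Pc hd j3) → ∀ᶠ p in 𝓝 (0 : 𝔼 × 𝔼 × 𝔼), Rel s τ Φ j1 j2 j3 p := by
      intro j1 j2 j3 h
      apply rel_of_strict s τ Φ hτc hΦc
      rw [hΦ0, hΦ0, hΦ0, hτ0, hτ0, hτ0]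
      exact h
    intro j1 j2 j3
    rcases j1 with _ | ⟨f1, b1⟩ <;> rcases j2 with _ | ⟨f2, b2⟩ <;> rcases j3 with _ | ⟨f3, b3⟩
    · exact hstrict _ _ _ (strict_same12 s hs _ _ _)
    · exact hstrict _ _ _ (strict_same12 s hs _ _ _)
    · apply hstrict
      rw [tripleCost_swap23]; exact strict_same12 s hs _ _ _
    · -- none, some, some
      by_cases hf : f2 = f3
      · subst hf
        cases b2 <;> cases b3
        · apply hstrict
          rw [tripleCost_swap12, tripleCost_swap23]; exact strict_same12 s hs _ _ _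
        · filter_upwards [hE1 f2, hE2 f2, hE3 f2] with p h1 h2 h3
          have hF := hFM f2 p.2.2 p.1 p.2.1 h3.1 h1.1 h2.1 h1.2.1 h3.2.2.1 h2.2.2.2
          constructor
          · show ENNReal.ofReal (Φ none p.1 + Φ (some (f2, false)) p.2.1 + Φ (some (f2, true)) p.2.2) ≤
              tripleCost s (p.1, S f2 p.2.1, T f2 p.2.2)
            rw [tripleCost_swap23, add_right_comm]; exact hF.1
          · intro heq _
            have heq' : tripleCost s (p.1, S f2 p.2.1, T f2 p.2.2) =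
              ENNReal.ofReal (Φ none p.1 + Φ (some (f2, false)) p.2.1 + Φ (some (f2, true)) p.2.2) := heq
            rw [tripleCost_swap23, add_right_comm] at heq'
            obtain ⟨q1, q2⟩ := hF.2 heq'
            exact ⟨_, rfl, by rw [q1, q2]⟩
        · filter_upwards [hE1 f2, hE2 f2, hE3 f2] with p h1 h2 h3
          have hF := hFM f2 p.2.1 p.1 p.2.2 h2.1 h1.1 h3.1 h1.2.1 h2.2.2.1 h3.2.2.2
          constructor
          · exact hF.1
          · intro heq _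
            obtain ⟨q1, q2⟩ := hF.2 heq
            exact ⟨_, rfl, q1.symm⟩
        · apply hstrict
          rw [tripleCost_swap12, tripleCost_swap23]; exact strict_same12 s hs _ _ _
      · apply hstrict
        simp only [uc, add_zero]
        exact strict_cross s hs hd f2 f3 b2 b3 hf
    · apply hstrict
      rw [tripleCost_swap12, tripleCost_swap23]; exact strict_same12 s hs _ _ _
    · -- some, none, some
      by_cases hf : f1 = f3
      · subst hf
        cases b1 <;> cases b3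
        · apply hstrict
          rw [tripleCost_swap23]; exact strict_same12 s hs _ _ _
        · filter_upwards [hE1 f1, hE2 f1, hE3 f1] with p h1 h2 h3
          have hF := hFM f1 p.2.2 p.2.1 p.1 h3.1 h2.1 h1.1 h2.2.1 h3.2.2.1 h1.2.2.2
          refine ⟨?_, fun _ h => absurd h (by simp)⟩
          show ENNReal.ofReal (Φ (some (f1, false)) p.1 + Φ none p.2.1 + Φ (some (f1, true)) p.2.2) ≤
              tripleCost s (S f1 p.1, p.2.1, T f1 p.2.2)
          rw [tripleCost_swap12, tripleCost_swap23,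
            show Φ (some (f1, false)) p.1 + Φ none p.2.1 + Φ (some (f1, true)) p.2.2 =
              Φ none p.2.1 + Φ (some (f1, true)) p.2.2 + Φ (some (f1, false)) p.1 by ring]
          exact hF.1
        · filter_upwards [hE1 f1, hE2 f1, hE3 f1] with p h1 h2 h3
          have hF := hFM f1 p.1 p.2.1 p.2.2 h1.1 h2.1 h3.1 h2.2.1 h1.2.2.1 h3.2.2.2
          refine ⟨?_, fun _ h => absurd h (by simp)⟩
          show ENNReal.ofReal (Φ (some (f1, true)) p.1 + Φ none p.2.1 + Φ (some (f1, false)) p.2.2) ≤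
              tripleCost s (T f1 p.1, p.2.1, S f1 p.2.2)
          rw [tripleCost_swap12,
            show Φ (some (f1, true)) p.1 + Φ none p.2.1 + Φ (some (f1, false)) p.2.2 =
              Φ none p.2.1 + Φ (some (f1, true)) p.1 + Φ (some (f1, false)) p.2.2 by ring]
          exact hF.1
        · apply hstrict
          rw [tripleCost_swap23]; exact strict_same12 s hs _ _ _
      · apply hstrict
        simp only [uc, add_zero, zero_add]
        rw [tripleCost_swap12]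
        exact strict_cross s hs hd f1 f3 b1 b3 hf
    · -- some, some, none
      by_cases hf : f1 = f2
      · subst hf
        cases b1 <;> cases b2
        · apply hstrict; exact strict_same12 s hs _ _ _
        · filter_upwards [hE1 f1, hE2 f1, hE3 f1] with p h1 h2 h3
          have hF := hFM f1 p.2.1 p.2.2 p.1 h2.1 h3.1 h1.1 h3.2.1 h2.2.2.1 h1.2.2.2
          refine ⟨?_, fun _ h => absurd h (by simp)⟩
          show ENNReal.ofReal (Φ (some (f1, false)) p.1 + Φ (some (f1, true)) p.2.1 + Φ none p.2.2) ≤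
              tripleCost s (S f1 p.1, T f1 p.2.1, p.2.2)
          rw [tripleCost_swap12, tripleCost_swap23, tripleCost_swap12,
            show Φ (some (f1, false)) p.1 + Φ (some (f1, true)) p.2.1 + Φ none p.2.2 =
              Φ none p.2.2 + Φ (some (f1, true)) p.2.1 + Φ (some (f1, false)) p.1 by ring]
          exact hF.1
        · filter_upwards [hE1 f1, hE2 f1, hE3 f1] with p h1 h2 h3
          have hF := hFM f1 p.1 p.2.2 p.2.1 h1.1 h3.1 h2.1 h3.2.1 h1.2.2.1 h2.2.2.2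
          refine ⟨?_, fun _ h => absurd h (by simp)⟩
          show ENNReal.ofReal (Φ (some (f1, true)) p.1 + Φ (some (f1, false)) p.2.1 + Φ none p.2.2) ≤
              tripleCost s (T f1 p.1, S f1 p.2.1, p.2.2)
          rw [tripleCost_swap23, tripleCost_swap12,
            show Φ (some (f1, true)) p.1 + Φ (some (f1, false)) p.2.1 + Φ none p.2.2 =
              Φ none p.2.2 + Φ (some (f1, true)) p.1 + Φ (some (f1, false)) p.2.1 by ring]
          exact hF.1
        · apply hstrict; exact strict_same12 s hs _ _ _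
      · apply hstrict
        simp only [uc, add_zero, zero_add]
        rw [tripleCost_swap23, tripleCost_swap12]
        exact strict_cross s hs hd f1 f2 b1 b2 hf
    · apply hstrict
      simp only [uc, add_zero]
      exact strict_vert s hs _ _ _
  -- choose the radius
  have hrelall : ∀ᶠ p in 𝓝 (0 : 𝔼 × 𝔼 × 𝔼), ∀ j1 j2 j3, Rel s τ Φ j1 j2 j3 p := by
    simp only [eventually_all]
    exact hrel
  obtain ⟨r1, hr1, hr1'⟩ := Metric.eventually_nhds_iff_ball.mp hrelall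
  have hone : ∀ᶠ x in 𝓝 (0 : 𝔼), (∀ j, τ j x ∈ Metric.ball (Pc hd j) (1 / 4)) ∧
      (∀ f, x ∈ (T f).source) ∧ (∀ f, x ∈ (S f).source) ∧ (∀ f, x ∈ Metric.ball (0 : 𝔼) (ρ f)) := by
    refine (eventually_all.mpr hball).and ((eventually_all.mpr hsrcT).and
      ((eventually_all.mpr hsrcS).and (eventually_all.mpr hρe)))
  obtain ⟨r2, hr2, hr2'⟩ := Metric.eventually_nhds_iff_ball.mp hone
  set r := min (min r1 r2) (1 / 4) / 2 with hr
  have hrpos : 0 < r := by
    have : 0 < min (min r1 r2) (1 / 4 : ℝ) := lt_min (lt_min hr1 hr2) (by norm_num)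
    positivity
  have hrr1 : r < r1 := by
    have h1 : min (min r1 r2) (1 / 4 : ℝ) ≤ r1 := (min_le_left _ _).trans (min_le_left _ _)
    linarith
  have hrr2 : r < r2 := by
    have h1 : min (min r1 r2) (1 / 4 : ℝ) ≤ r2 := (min_le_left _ _).trans (min_le_right _ _)
    linarith
  have hr4 : r < 1 / 4 := by
    have h1 : min (min r1 r2) (1 / 4 : ℝ) ≤ 1 / 4 := min_le_right _ _
    linarith
  have hsub2 : ∀ x ∈ Metric.closedBall (0 : 𝔼) r, x ∈ Metric.ball (0 : 𝔼) r2 := fun x hx =>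
    Metric.closedBall_subset_ball hrr2 hx
  refine ⟨T, S, Φ, r, hrpos, hr4, hT1, hT2, hS1, hS2, ?_, ?_, ?_, ?_, ?_, ?_, ?_⟩
  · intro f x hx; exact (hr2' x (hsub2 x hx)).2.1 f
  · intro f x hx; exact (hr2' x (hsub2 x hx)).2.2.1 f
  · intro f x hx; exact (hr2' x (hsub2 x hx)).1 (some (f, true))
  · intro f x hx; exact (hr2' x (hsub2 x hx)).1 (some (f, false))
  · intro j x hx
    apply ContinuousAt.continuousWithinAt
    apply hΦcAt j x _ (hr2' x (hsub2 x hx)).1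
    intro j'
    rcases j' with _ | ⟨f, b⟩
    · exact continuousAt_id
    · cases b
      · exact (S f).continuousAt ((hr2' x (hsub2 x hx)).2.2.1 f)
      · exact (T f).continuousAt ((hr2' x (hsub2 x hx)).2.1 f)
  · intro j1 j2 j3 x1 hx1 x2 hx2 x3 hx3
    apply hr1' (x1, x2, x3) _ j1 j2 j3
    rw [Metric.mem_closedBall] at hx1 hx2 hx3
    rw [Metric.mem_ball, Prod.dist_eq, Prod.dist_eq]
    exact max_lt (lt_of_le_of_lt hx1 hrr1) (max_lt (lt_of_le_of_lt hx2 hrr1) (lt_of_le_of_lt hx3 hrr1))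
  · intro f x hx
    have hb := (hr2' x (hsub2 x hx)).1
    obtain ⟨d1, d2, d3⟩ := hdist f x x x (hb none) (hb (some (f, true))) (hb (some (f, false)))
    have hsum : Φ none x + Φ (some (f, true)) x + Φ (some (f, false)) x = cR s x (T f x) (S f x) := by
      simp only [hΦdef, Phi]; ring
    rw [hsum, tripleCost_of_ne s _ _ _ d1 d2 d3]
    refine ⟨rfl, ?_⟩
    unfold cR; positivity

end Crest.Agent.OTLib
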