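import Mathlib
import Crest.Agent.OTLibA

set_option autoImplicit false
set_option linter.unusedSectionVars false

open MeasureTheory Set Filter Topology
open scoped ENNReal

namespace Crest.Agent.OTLib

theorem exists_coupled_map {E F : Type*} [MeasurableSpace E] [StandardBorelSpace E]
    [MeasurableSpace F] [StandardBorelSpace F] [Nonempty F]
    (ν : Measure E) [IsFiniteMeasure ν] [NullSingletonClass ν] (κ : E → ℕ) (hκ : Measurable κ)
    (θ : Measure (ℕ × F)) [IsFiniteMeasure θ] (h : θ.map Prod.fst = ν.map κ) :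
    ∃ f : E → F, Measurable f ∧ ν.map (fun x => (κ x, f x)) = θ := by
  have hmass : ∀ n, (((θ.restrict (Prod.fst ⁻¹' {n})).map Prod.snd) : Measure F) univ =
      (ν.restrict (κ ⁻¹' {n})) univ := by
    intro n
    rw [Measure.map_apply measurable_snd MeasurableSet.univ, preimage_univ,
      Measure.restrict_apply_univ, Measure.restrict_apply_univ]
    rw [← Measure.map_apply measurable_fst (measurableSet_singleton n), h,
      Measure.map_apply hκ (measurableSet_singleton n)]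
  have hex : ∀ n, ∃ f : E → F, Measurable f ∧
      (ν.restrict (κ ⁻¹' {n})).map f = (θ.restrict (Prod.fst ⁻¹' {n})).map Prod.snd := fun n =>
    exists_map_eq (ν.restrict (κ ⁻¹' {n})) ((θ.restrict (Prod.fst ⁻¹' {n})).map Prod.snd) (hmass n)
  choose fn hfn hfn' using hex
  let f : E → F := fun x => fn (κ x) x
  have hf : Measurable f := by
    have h1 : Measurable (fun p : ℕ × E => fn p.1 p.2) := by
      apply measurable_from_prod_countable_right
      intro n
      exact hfn n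
    exact h1.comp (hκ.prodMk measurable_id)
  refine ⟨f, hf, ?_⟩
  ext A hA
  have hm : Measurable (fun x => (κ x, f x)) := hκ.prodMk hf
  rw [Measure.map_apply hm hA]
  have hAn : ∀ n, MeasurableSet {y : F | (n, y) ∈ A} := fun n =>
    measurable_prodMk_left hA
  have hU : (fun x => (κ x, f x)) ⁻¹' A = ⋃ n, (κ ⁻¹' {n} ∩ fn n ⁻¹' {y | (n, y) ∈ A}) := by
    ext x
    simp only [mem_preimage, mem_iUnion, mem_inter_iff, mem_singleton_iff, mem_ofPred_eq]
    constructor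
    · intro hx; exact ⟨κ x, rfl, hx⟩
    · rintro ⟨n, rfl, hx⟩; exact hx
  have hV : A = ⋃ n, (Prod.fst ⁻¹' {n} ∩ Prod.snd ⁻¹' {y | (n, y) ∈ A}) := by
    ext ⟨m, y⟩
    simp only [mem_preimage, mem_iUnion, mem_inter_iff, mem_singleton_iff, mem_ofPred_eq]
    constructor
    · intro hx; exact ⟨m, rfl, hx⟩
    · rintro ⟨n, rfl, hx⟩; exact hx
  rw [hU, measure_iUnion]
  · conv_rhs => rw [hV]
    rw [measure_iUnion]
    · congr 1
      funext n
      have h1 : ((ν.restrict (κ ⁻¹' {n})).map (fn n)) {y : F | (n, y) ∈ A} =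
          ((θ.restrict (Prod.fst ⁻¹' {n})).map Prod.snd) {y : F | (n, y) ∈ A} := by rw [hfn' n]
      rw [Measure.map_apply (hfn n) (hAn n), Measure.map_apply measurable_snd (hAn n),
        Measure.restrict_apply (hfn n (hAn n)), Measure.restrict_apply (measurable_snd (hAn n))] at h1
      rw [inter_comm, h1, inter_comm]
    · intro a b hab
      rw [Function.onFun, disjoint_left]
      rintro x ⟨h1, -⟩ ⟨h2, -⟩
      exact hab ((mem_singleton_iff.mp h1).symm.trans (mem_singleton_iff.mp h2))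
    · intro n
      exact (measurable_fst (measurableSet_singleton n)).inter (measurable_snd (hAn n))
  · intro a b hab
    rw [Function.onFun, disjoint_left]
    rintro x ⟨h1, -⟩ ⟨h2, -⟩
    exact hab ((mem_singleton_iff.mp h1).symm.trans (mem_singleton_iff.mp h2))
  · intro n
    exact (hκ (measurableSet_singleton n)).inter (hfn n (hAn n))

/-- Abstract data for the non-attainment mechanism. -/
structure OTData (E : Type*) [MeasurableSpace E] where
  c : E × E × E → ℝ≥0∞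
  hc : Measurable c
  c_rot : ∀ x y z, c (x, y, z) = c (y, z, x)
  K : Set E
  hK : MeasurableSet K
  μ0 : Measure E
  fin0 : IsFiniteMeasure μ0
  atom0 : NullSingletonClass μ0
  hμK : μ0 Kᶜ = 0
  hμ0 : μ0 ≠ 0
  T : Bool → E → E
  S : Bool → E → E
  hT : ∀ f, Measurable (T f)
  hS : ∀ f, Measurable (S f)
  T' : Bool → E → E
  S' : Bool → E → E
  hT' : ∀ f, Measurable (T' f)
  hS' : ∀ f, Measurable (S' f)
  hTT' : ∀ f, ∀ x ∈ K, T' f (T f x) = x
  hSS' : ∀ f, ∀ x ∈ K, S' f (S f x) = x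
  X : Option (Bool × Bool) → Set E
  hX : ∀ j, MeasurableSet (X j)
  hKX : K ⊆ X none
  hTX : ∀ f, ∀ x ∈ K, T f x ∈ X (some (f, true))
  hSX : ∀ f, ∀ x ∈ K, S f x ∈ X (some (f, false))
  hXX : ∀ i j, i ≠ j → ∀ x ∈ X i, x ∉ X j
  φ : E → ℝ
  hφ : Measurable φ
  M : ℝ
  hM : ∀ x, |φ x| ≤ M
  Y : Set E
  hYm : MeasurableSet Y
  hKY : K ⊆ Y
  hTY : ∀ f, ∀ x ∈ K, T f x ∈ Y
  hSY : ∀ f, ∀ x ∈ K, S f x ∈ Y
  ineq : ∀ x ∈ Y, ∀ y ∈ Y, ∀ z ∈ Y, ENNReal.ofReal (φ x + φ y + φ z) ≤ c (x, y, z)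
  eqn : ∀ f, ∀ x ∈ K, c (x, T f x, S f x) = ENNReal.ofReal (φ x + φ (T f x) + φ (S f x)) ∧
    0 ≤ φ x + φ (T f x) + φ (S f x)
  strict : ∀ x ∈ K, ∀ y ∈ Y, ∀ z ∈ Y, c (x, y, z) = ENNReal.ofReal (φ x + φ y + φ z) →
    ∃ f, y = T f x ∨ y = S f x

namespace OTData

variable {E : Type*} [MeasurableSpace E] (D : OTData E)

instance : IsFiniteMeasure D.μ0 := D.fin0
instance : NullSingletonClass D.μ0 := D.atom0

/-- the marginal -/
noncomputable def mu : Measure E :=
  D.μ0 + (2 : ℝ≥0∞)⁻¹ • (D.μ0.map (D.T true) + D.μ0.map (D.S true) +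
    (D.μ0.map (D.T false) + D.μ0.map (D.S false)))

/-- the optimal plan -/
noncomputable def pi0 : Measure (E × E × E) :=
  (2 : ℝ≥0∞)⁻¹ • ((D.μ0.map (fun x => (x, D.T true x, D.S true x)) +
      D.μ0.map (fun x => (D.T true x, D.S true x, x)) +
      D.μ0.map (fun x => (D.S true x, x, D.T true x))) +
    (D.μ0.map (fun x => (x, D.T false x, D.S false x)) +
      D.μ0.map (fun x => (D.T false x, D.S false x, x)) +
      D.μ0.map (fun x => (D.S false x, x, D.T false x))))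

theorem lintegral_mu (g : E → ℝ≥0∞) (hg : Measurable g) :
    ∫⁻ x, g x ∂D.mu = ∫⁻ x, g x ∂D.μ0 + 2⁻¹ * (∫⁻ x, g (D.T true x) ∂D.μ0 + ∫⁻ x, g (D.S true x) ∂D.μ0 +
      (∫⁻ x, g (D.T false x) ∂D.μ0 + ∫⁻ x, g (D.S false x) ∂D.μ0)) := by
  unfold mu
  rw [lintegral_add_measure, lintegral_smul_measure, lintegral_add_measure, lintegral_add_measure,
    lintegral_add_measure, lintegral_map hg (D.hT true), lintegral_map hg (D.hT false),
    lintegral_map hg (D.hS true), lintegral_map hg (D.hS false)]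
  rfl

theorem meas1 (f : Bool) : Measurable (fun x => (x, D.T f x, D.S f x)) :=
  measurable_id.prodMk ((D.hT f).prodMk (D.hS f))
theorem meas2 (f : Bool) : Measurable (fun x => (D.T f x, D.S f x, x)) :=
  (D.hT f).prodMk ((D.hS f).prodMk measurable_id)
theorem meas3 (f : Bool) : Measurable (fun x => (D.S f x, x, D.T f x)) :=
  (D.hS f).prodMk (measurable_id.prodMk (D.hT f))

theorem lintegral_pi0 (g : E × E × E → ℝ≥0∞) (hg : Measurable g) :
    ∫⁻ p, g p ∂D.pi0 = 2⁻¹ * ((∫⁻ x, g (x, D.T true x, D.S true x) ∂D.μ0 +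
      ∫⁻ x, g (D.T true x, D.S true x, x) ∂D.μ0 + ∫⁻ x, g (D.S true x, x, D.T true x) ∂D.μ0) +
      (∫⁻ x, g (x, D.T false x, D.S false x) ∂D.μ0 +
      ∫⁻ x, g (D.T false x, D.S false x, x) ∂D.μ0 + ∫⁻ x, g (D.S false x, x, D.T false x) ∂D.μ0)) := by
  unfold pi0
  rw [lintegral_smul_measure, lintegral_add_measure, lintegral_add_measure, lintegral_add_measure,
    lintegral_add_measure, lintegral_add_measure,
    lintegral_map hg (D.meas1 true), lintegral_map hg (D.meas2 true), lintegral_map hg (D.meas3 true),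
    lintegral_map hg (D.meas1 false), lintegral_map hg (D.meas2 false),
    lintegral_map hg (D.meas3 false)]
  rfl

theorem half_add (a : ℝ≥0∞) : 2⁻¹ * (a + a) = a := by
  rw [← two_mul, ← mul_assoc, ENNReal.inv_mul_cancel (by norm_num) (by norm_num), one_mul]

theorem alg1 (a b1 c1 b2 c2 : ℝ≥0∞) :
    2⁻¹ * ((a + b1 + c1) + (a + b2 + c2)) = a + 2⁻¹ * (b1 + c1 + (b2 + c2)) := by
  conv_rhs => rw [← half_add a]
  rw [← mul_add]
  congr 1
  ring

theorem pi0_fst : D.pi0.map (fun p => p.1) = D.mu := by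
  apply Measure.ext_of_lintegral
  intro g hg
  rw [lintegral_map hg measurable_fst, D.lintegral_pi0 (fun p => g p.1) (hg.comp measurable_fst), D.lintegral_mu g hg,
    alg1]

theorem pi0_snd : D.pi0.map (fun p => p.2.1) = D.mu := by
  apply Measure.ext_of_lintegral
  intro g hg
  have hm : Measurable (fun p : E × E × E => p.2.1) := measurable_snd.fst
  rw [lintegral_map hg hm, D.lintegral_pi0 (fun p => g p.2.1) (hg.comp hm), D.lintegral_mu g hg]
  rw [← alg1]
  congr 1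
  ring

theorem pi0_trd : D.pi0.map (fun p => p.2.2) = D.mu := by
  apply Measure.ext_of_lintegral
  intro g hg
  have hm : Measurable (fun p : E × E × E => p.2.2) := measurable_snd.snd
  rw [lintegral_map hg hm, D.lintegral_pi0 (fun p => g p.2.2) (hg.comp hm), D.lintegral_mu g hg]
  rw [← alg1]
  congr 1
  ring

theorem ae_K : ∀ᵐ x ∂D.μ0, x ∈ D.K := by
  rw [ae_iff]; exact D.hμK

theorem ae_mu_of (p : E → Prop) (hp : MeasurableSet {x | p x}) (h0 : ∀ᵐ x ∂D.μ0, p x)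
    (hT : ∀ f, ∀ᵐ x ∂D.μ0, p (D.T f x)) (hS : ∀ f, ∀ᵐ x ∂D.μ0, p (D.S f x)) : ∀ᵐ x ∂D.mu, p x := by
  unfold mu
  rw [ae_add_measure_iff]
  refine ⟨h0, ?_⟩
  apply Measure.ae_smul_measure
  rw [ae_add_measure_iff, ae_add_measure_iff, ae_add_measure_iff]
  refine ⟨⟨?_, ?_⟩, ?_, ?_⟩
  · exact (ae_map_iff (D.hT true).aemeasurable hp).mpr (hT true)
  · exact (ae_map_iff (D.hS true).aemeasurable hp).mpr (hS true)
  · exact (ae_map_iff (D.hT false).aemeasurable hp).mpr (hT false)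
  · exact (ae_map_iff (D.hS false).aemeasurable hp).mpr (hS false)

theorem ae_Y : ∀ᵐ x ∂D.mu, x ∈ D.Y := by
  apply D.ae_mu_of _ D.hYm
  · filter_upwards [D.ae_K] with x hx using D.hKY hx
  · intro f; filter_upwards [D.ae_K] with x hx using D.hTY f x hx
  · intro f; filter_upwards [D.ae_K] with x hx using D.hSY f x hx

theorem mu_univ : D.mu univ = 3 * D.μ0 univ := by
  have h := D.lintegral_mu (fun _ => 1) measurable_const
  simp only [lintegral_const, one_mul] at h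
  rw [h]
  have h4 : D.μ0 univ + D.μ0 univ + (D.μ0 univ + D.μ0 univ) = 2 * (2 * D.μ0 univ) := by ring
  rw [h4, ← mul_assoc, ENNReal.inv_mul_cancel (by norm_num) (by norm_num), one_mul]
  ring

instance : IsFiniteMeasure D.mu := ⟨by
  rw [D.mu_univ]; exact ENNReal.mul_lt_top (by norm_num) (measure_lt_top _ _)⟩

/-- shifted potential -/
noncomputable def g (x : E) : ℝ≥0∞ := ENNReal.ofReal (D.φ x + D.M)

theorem hg : Measurable D.g := (D.hφ.add_const _).ennreal_ofReal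

theorem g_nonneg (x : E) : 0 ≤ D.φ x + D.M := by
  have := (abs_le.mp (D.hM x)).1; linarith

theorem M_nonneg (x : E) : 0 ≤ D.M := (abs_nonneg _).trans (D.hM x)

theorem g_sum (x y z : E) : D.g x + D.g y + D.g z =
    ENNReal.ofReal (D.φ x + D.φ y + D.φ z + 3 * D.M) := by
  unfold g
  rw [← ENNReal.ofReal_add (D.g_nonneg x) (D.g_nonneg y),
    ← ENNReal.ofReal_add (add_nonneg (D.g_nonneg x) (D.g_nonneg y)) (D.g_nonneg z)]
  congr 1; ring

theorem g_le (x y z : E) (hx : x ∈ D.Y) (hy : y ∈ D.Y) (hz : z ∈ D.Y) :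
    D.g x + D.g y + D.g z ≤ D.c (x, y, z) + ENNReal.ofReal (3 * D.M) := by
  rw [D.g_sum]
  refine (ENNReal.ofReal_add_le).trans ?_
  exact add_le_add_left (D.ineq x hx y hy z hz) _

theorem g_eq_imp (x y z : E) (h : D.g x + D.g y + D.g z = D.c (x, y, z) + ENNReal.ofReal (3 * D.M)) :
    D.c (x, y, z) = ENNReal.ofReal (D.φ x + D.φ y + D.φ z) := by
  rw [D.g_sum] at h
  have hM : 0 ≤ 3 * D.M := by have := D.M_nonneg x; linarith
  by_cases hs : 0 ≤ D.φ x + D.φ y + D.φ z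
  · rw [ENNReal.ofReal_add hs hM] at h
    exact (ENNReal.add_left_inj ENNReal.ofReal_ne_top).mp h.symm
  · push Not at hs
    exfalso
    have h1 : ENNReal.ofReal (D.φ x + D.φ y + D.φ z + 3 * D.M) < ENNReal.ofReal (3 * D.M) ∨
        (3 * D.M = 0) := by
      by_cases h0 : 3 * D.M = 0
      · exact Or.inr h0
      · left
        apply (ENNReal.ofReal_lt_ofReal_iff (lt_of_le_of_ne hM (Ne.symm h0))).mpr
        linarith
    rcases h1 with h1 | h1
    · rw [h] at h1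
      exact absurd h1 (not_lt.mpr le_add_self)
    · have hM0 : D.M = 0 := by linarith
      have a := D.g_nonneg x
      have b := D.g_nonneg y
      have c := D.g_nonneg z
      linarith

theorem lintegral_g_sum (π : Measure (E × E × E)) (h1 : π.map (fun p => p.1) = D.mu)
    (h2 : π.map (fun p => p.2.1) = D.mu) (h3 : π.map (fun p => p.2.2) = D.mu) :
    ∫⁻ p, (D.g p.1 + D.g p.2.1 + D.g p.2.2) ∂π =
      ∫⁻ x, D.g x ∂D.mu + ∫⁻ x, D.g x ∂D.mu + ∫⁻ x, D.g x ∂D.mu := by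
  have m1 : Measurable (fun p : E × E × E => p.1) := measurable_fst
  have m2 : Measurable (fun p : E × E × E => p.2.1) := measurable_snd.fst
  have m3 : Measurable (fun p : E × E × E => p.2.2) := measurable_snd.snd
  have n1 : Measurable (fun p : E × E × E => D.g p.1) := D.hg.comp m1
  have n2 : Measurable (fun p : E × E × E => D.g p.2.1) := D.hg.comp m2
  have n12 : Measurable (fun p : E × E × E => D.g p.1 + D.g p.2.1) := n1.add n2
  rw [lintegral_add_left n12, lintegral_add_left n1]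
  congr 1
  · congr 1
    · rw [← h1, lintegral_map D.hg m1]
    · rw [← h2, lintegral_map D.hg m2]
  · rw [← h3, lintegral_map D.hg m3]

theorem lintegral_g_lt_top : ∫⁻ x, D.g x ∂D.mu < ⊤ := by
  by_cases hE : IsEmpty E
  · rw [lintegral_of_isEmpty]; exact ENNReal.zero_lt_top
  · rw [not_isEmpty_iff] at hE
    have hb : ∀ x, D.g x ≤ ENNReal.ofReal (2 * D.M) := by
      intro x
      apply ENNReal.ofReal_le_ofReal
      have := (abs_le.mp (D.hM x)).2
      linarith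
    refine lt_of_le_of_lt (lintegral_mono hb) ?_
    rw [lintegral_const]
    exact ENNReal.mul_lt_top ENNReal.ofReal_lt_top (measure_lt_top _ _)

theorem lower_bound (π : Measure (E × E × E)) (h1 : π.map (fun p => p.1) = D.mu)
    (h2 : π.map (fun p => p.2.1) = D.mu) (h3 : π.map (fun p => p.2.2) = D.mu) :
    ∀ᵐ p ∂π, D.g p.1 + D.g p.2.1 + D.g p.2.2 ≤ D.c p + ENNReal.ofReal (3 * D.M) := by
  have m1 : Measurable (fun p : E × E × E => p.1) := measurable_fst
  have m2 : Measurable (fun p : E × E × E => p.2.1) := measurable_snd.fst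
  have m3 : Measurable (fun p : E × E × E => p.2.2) := measurable_snd.snd
  have a1 : ∀ᵐ p ∂π, p.1 ∈ D.Y := ae_of_ae_map m1.aemeasurable (by rw [h1]; exact D.ae_Y)
  have a2 : ∀ᵐ p ∂π, p.2.1 ∈ D.Y := ae_of_ae_map m2.aemeasurable (by rw [h2]; exact D.ae_Y)
  have a3 : ∀ᵐ p ∂π, p.2.2 ∈ D.Y := ae_of_ae_map m3.aemeasurable (by rw [h3]; exact D.ae_Y)
  filter_upwards [a1, a2, a3] with p b1 b2 b3
  exact D.g_le _ _ _ b1 b2 b3

theorem lintegral_c_add (π : Measure (E × E × E)) :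
    ∫⁻ p, (D.c p + ENNReal.ofReal (3 * D.M)) ∂π =
      ∫⁻ p, D.c p ∂π + ENNReal.ofReal (3 * D.M) * π univ := by
  rw [lintegral_add_left D.hc, lintegral_const]

theorem pi0_eq : ∫⁻ p, D.c p ∂D.pi0 + ENNReal.ofReal (3 * D.M) * D.pi0 univ =
    ∫⁻ x, D.g x ∂D.mu + ∫⁻ x, D.g x ∂D.mu + ∫⁻ x, D.g x ∂D.mu := by
  rw [← D.lintegral_c_add, ← D.lintegral_g_sum D.pi0 D.pi0_fst D.pi0_snd D.pi0_trd]
  have m1 : Measurable (fun p : E × E × E => p.1) := measurable_fst
  have m2 : Measurable (fun p : E × E × E => p.2.1) := measurable_snd.fst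
  have m3 : Measurable (fun p : E × E × E => p.2.2) := measurable_snd.snd
  rw [D.lintegral_pi0 _ (D.hc.add_const _),
    D.lintegral_pi0 (fun p => D.g p.1 + D.g p.2.1 + D.g p.2.2)
    (((D.hg.comp m1).add (D.hg.comp m2)).add (D.hg.comp m3))]
  have key : ∀ f, ∀ x ∈ D.K, D.c (x, D.T f x, D.S f x) + ENNReal.ofReal (3 * D.M) =
      D.g x + D.g (D.T f x) + D.g (D.S f x) := by
    intro f x hx
    obtain ⟨e1, e2⟩ := D.eqn f x hx
    have hM : 0 ≤ 3 * D.M := by have := D.M_nonneg x; linarith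
    rw [D.g_sum, e1, ← ENNReal.ofReal_add e2 hM]
  have k1 : ∀ f, ∫⁻ x, (D.c (x, D.T f x, D.S f x) + ENNReal.ofReal (3 * D.M)) ∂D.μ0 =
      ∫⁻ x, (D.g x + D.g (D.T f x) + D.g (D.S f x)) ∂D.μ0 := by
    intro f
    apply lintegral_congr_ae
    filter_upwards [D.ae_K] with x hx using key f x hx
  have k2 : ∀ f, ∫⁻ x, (D.c (D.T f x, D.S f x, x) + ENNReal.ofReal (3 * D.M)) ∂D.μ0 =
      ∫⁻ x, (D.g (D.T f x) + D.g (D.S f x) + D.g x) ∂D.μ0 := by
    intro f
    apply lintegral_congr_ae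
    filter_upwards [D.ae_K] with x hx
    rw [← D.c_rot, key f x hx]; ring
  have k3 : ∀ f, ∫⁻ x, (D.c (D.S f x, x, D.T f x) + ENNReal.ofReal (3 * D.M)) ∂D.μ0 =
      ∫⁻ x, (D.g (D.S f x) + D.g x + D.g (D.T f x)) ∂D.μ0 := by
    intro f
    apply lintegral_congr_ae
    filter_upwards [D.ae_K] with x hx
    rw [D.c_rot, key f x hx]; ring
  simp only [k1, k2, k3]

theorem coupling_univ (π : Measure (E × E × E)) (h1 : π.map (fun p => p.1) = D.mu) :
    π univ = D.mu univ := by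
  rw [← h1, Measure.map_apply measurable_fst MeasurableSet.univ, preimage_univ]

theorem pi0_cost_lt_top : ∫⁻ p, D.c p ∂D.pi0 < ⊤ := by
  have h := D.pi0_eq
  have h2 : ∫⁻ x, D.g x ∂D.mu + ∫⁻ x, D.g x ∂D.mu + ∫⁻ x, D.g x ∂D.mu < ⊤ :=
    ENNReal.add_lt_top.mpr ⟨ENNReal.add_lt_top.mpr ⟨D.lintegral_g_lt_top, D.lintegral_g_lt_top⟩,
      D.lintegral_g_lt_top⟩
  rw [← h] at h2
  exact (ENNReal.add_lt_top.mp h2).1

theorem const_ne_top : ENNReal.ofReal (3 * D.M) * D.mu univ ≠ ⊤ :=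
  (ENNReal.mul_lt_top ENNReal.ofReal_lt_top (measure_lt_top _ _)).ne

theorem pi0_min (π : Measure (E × E × E)) (h1 : π.map (fun p => p.1) = D.mu)
    (h2 : π.map (fun p => p.2.1) = D.mu) (h3 : π.map (fun p => p.2.2) = D.mu) :
    ∫⁻ p, D.c p ∂D.pi0 ≤ ∫⁻ p, D.c p ∂π := by
  have a : ∫⁻ p, (D.g p.1 + D.g p.2.1 + D.g p.2.2) ∂π ≤
      ∫⁻ p, (D.c p + ENNReal.ofReal (3 * D.M)) ∂π := lintegral_mono_ae (D.lower_bound π h1 h2 h3)
  rw [D.lintegral_g_sum π h1 h2 h3, D.lintegral_c_add, ← D.pi0_eq, D.coupling_univ π h1,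
    D.coupling_univ D.pi0 D.pi0_fst] at a
  exact (ENNReal.add_le_add_iff_right D.const_ne_top).mp a

theorem mu_apply (A : Set E) (hA : MeasurableSet A) :
    D.mu A = D.μ0 A + 2⁻¹ * (D.μ0 (D.T true ⁻¹' A) + D.μ0 (D.S true ⁻¹' A) +
      (D.μ0 (D.T false ⁻¹' A) + D.μ0 (D.S false ⁻¹' A))) := by
  unfold mu
  simp only [Measure.add_apply, Measure.smul_apply, smul_eq_mul]
  rw [Measure.map_apply (D.hT true) hA, Measure.map_apply (D.hS true) hA,
    Measure.map_apply (D.hT false) hA, Measure.map_apply (D.hS false) hA]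

/-- vertex maps -/
def tv (f b : Bool) : E → E := if b then D.T f else D.S f
/-- inverse vertex maps -/
def tv' (f b : Bool) : E → E := if b then D.T' f else D.S' f

theorem tv_mem (f b : Bool) (x : E) (hx : x ∈ D.K) : D.tv f b x ∈ D.X (some (f, b)) := by
  cases b
  · exact D.hSX f x hx
  · exact D.hTX f x hx

theorem tv'_tv (f b : Bool) (x : E) (hx : x ∈ D.K) : D.tv' f b (D.tv f b x) = x := by
  cases b
  · exact D.hSS' f x hx
  · exact D.hTT' f x hx

theorem meas_tv' (f b : Bool) : Measurable (D.tv' f b) := by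
  cases b
  · exact D.hS' f
  · exact D.hT' f

theorem mu_le (f b : Bool) (A : Set E) (hA : MeasurableSet A) (hAX : A ⊆ D.X (some (f, b))) :
    D.mu A ≤ 2⁻¹ * D.μ0 (D.tv f b ⁻¹' A) := by
  have h0 : D.μ0 A = 0 := by
    apply measure_mono_null _ D.hμK
    intro x hx hK
    exact D.hXX none (some (f, b)) (by simp) x (D.hKX hK) (hAX hx)
  have h1 : ∀ f' b', (f', b') ≠ (f, b) → D.μ0 (D.tv f' b' ⁻¹' A) = 0 := by
    intro f' b' hne
    apply measure_mono_null _ D.hμK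
    intro x hx hK
    exact D.hXX (some (f', b')) (some (f, b)) (by simpa using hne) _ (D.tv_mem f' b' x hK) (hAX hx)
  rw [D.mu_apply A hA, h0, zero_add]
  apply le_of_eq
  congr 1
  have e1 : ∀ f', D.T f' = D.tv f' true := fun f' => rfl
  have e2 : ∀ f', D.S f' = D.tv f' false := fun f' => rfl
  simp only [e1, e2]
  cases f <;> cases b
  · rw [h1 true true (by simp), h1 true false (by simp), h1 false true (by simp)]; simp
  · rw [h1 true true (by simp), h1 true false (by simp), h1 false false (by simp)]; simp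
  · rw [h1 true true (by simp), h1 false true (by simp), h1 false false (by simp)]; simp
  · rw [h1 true false (by simp), h1 false true (by simp), h1 false false (by simp)]; simp

theorem B_null (T2 : E → E) (hT2 : Measurable T2) (p2 : D.mu.map T2 = D.mu) (f b : Bool)
    (hae : ∀ᵐ x ∂D.μ0, T2 x ∈ D.X (some (f, b)) → T2 x = D.tv f b x) :
    D.μ0 (T2 ⁻¹' D.X (some (f, b))) = 0 := by
  set B := T2 ⁻¹' D.X (some (f, b)) with hB
  have hBm : MeasurableSet B := hT2 (D.hX _)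
  set A := D.X (some (f, b)) ∩ D.tv' f b ⁻¹' B with hA
  have hAm : MeasurableSet A := (D.hX _).inter (D.meas_tv' f b hBm)
  have h1 : D.μ0 B ≤ D.μ0 (T2 ⁻¹' A) := by
    apply measure_mono_ae
    filter_upwards [hae, D.ae_K] with x h1 h2 h3
    have h4 := h1 h3
    refine ⟨h3, ?_⟩
    show D.tv' f b (T2 x) ∈ B
    rw [h4, D.tv'_tv f b x h2]
    exact h3
  have h2 : D.μ0 (T2 ⁻¹' A) ≤ D.mu (T2 ⁻¹' A) := by
    unfold mu
    exact (Measure.le_add_right le_rfl : D.μ0 ≤ D.μ0 + _) _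
  have h3 : D.mu (T2 ⁻¹' A) = D.mu A := by
    rw [← Measure.map_apply hT2 hAm, p2]
  have h4 := D.mu_le f b A hAm inter_subset_left
  have h5 : D.μ0 (D.tv f b ⁻¹' A) ≤ D.μ0 B := by
    apply measure_mono_ae
    filter_upwards [D.ae_K] with x h1 h2
    have h6 : D.tv' f b (D.tv f b x) ∈ B := h2.2
    rw [D.tv'_tv f b x h1] at h6
    exact h6
  have h6 : D.μ0 B ≤ 2⁻¹ * D.μ0 B := by
    calc D.μ0 B ≤ D.mu A := h1.trans (h2.trans_eq h3)
      _ ≤ _ := h4.trans (mul_le_mul_right h5 _)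
  by_contra hne
  have hlt : 2⁻¹ * D.μ0 B < D.μ0 B := by
    rw [mul_comm, ← div_eq_mul_inv]
    exact ENNReal.half_lt_self hne (measure_ne_top _ _)
  exact absurd h6 (not_le.mpr hlt)

theorem monge_strict (T2 T3 : E → E) (hT2 : Measurable T2) (hT3 : Measurable T3)
    (p2 : D.mu.map T2 = D.mu) (p3 : D.mu.map T3 = D.mu) :
    ∫⁻ p, D.c p ∂D.pi0 < ∫⁻ x, D.c (x, T2 x, T3 x) ∂D.mu := by
  by_contra hcon
  push Not at hcon
  have hmeas : Measurable (fun x => (x, T2 x, T3 x)) := measurable_id.prodMk (hT2.prodMk hT3)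
  set π := D.mu.map (fun x => (x, T2 x, T3 x)) with hπ
  have m1 : Measurable (fun p : E × E × E => p.1) := measurable_fst
  have m2 : Measurable (fun p : E × E × E => p.2.1) := measurable_snd.fst
  have m3 : Measurable (fun p : E × E × E => p.2.2) := measurable_snd.snd
  have q1 : π.map (fun p => p.1) = D.mu := by
    rw [hπ, Measure.map_map m1 hmeas]
    exact Measure.map_id
  have q2 : π.map (fun p => p.2.1) = D.mu := by
    rw [hπ, Measure.map_map m2 hmeas]
    exact p2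
  have q3 : π.map (fun p => p.2.2) = D.mu := by
    rw [hπ, Measure.map_map m3 hmeas]
    exact p3
  have hcπ : ∫⁻ p, D.c p ∂π = ∫⁻ x, D.c (x, T2 x, T3 x) ∂D.mu := by
    rw [hπ, lintegral_map D.hc hmeas]
  have hlow := D.lower_bound π q1 q2 q3
  have hsumeq := D.lintegral_g_sum π q1 q2 q3
  have hfin : ∫⁻ p, (D.g p.1 + D.g p.2.1 + D.g p.2.2) ∂π ≠ ⊤ := by
    rw [hsumeq]
    exact (ENNReal.add_lt_top.mpr ⟨ENNReal.add_lt_top.mpr ⟨D.lintegral_g_lt_top,
      D.lintegral_g_lt_top⟩, D.lintegral_g_lt_top⟩).ne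
  have hup : ∫⁻ p, (D.c p + ENNReal.ofReal (3 * D.M)) ∂π ≤
      ∫⁻ p, (D.g p.1 + D.g p.2.1 + D.g p.2.2) ∂π := by
    rw [hsumeq, ← D.pi0_eq, D.lintegral_c_add, D.coupling_univ π q1, D.coupling_univ D.pi0 D.pi0_fst,
      hcπ]
    gcongr
  have hae := ae_eq_of_ae_le_of_lintegral_le hlow hfin (D.hc.add_const _).aemeasurable hup
  have hae2 : ∀ᵐ x ∂D.mu, D.g x + D.g (T2 x) + D.g (T3 x) =
      D.c (x, T2 x, T3 x) + ENNReal.ofReal (3 * D.M) := ae_of_ae_map hmeas.aemeasurable hae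
  have hY2 : ∀ᵐ x ∂D.mu, T2 x ∈ D.Y := ae_of_ae_map hT2.aemeasurable (by rw [p2]; exact D.ae_Y)
  have hY3 : ∀ᵐ x ∂D.mu, T3 x ∈ D.Y := ae_of_ae_map hT3.aemeasurable (by rw [p3]; exact D.ae_Y)
  have hac : ∀ p : E → Prop, (∀ᵐ x ∂D.mu, p x) → ∀ᵐ x ∂D.μ0, p x := by
    intro p hp
    unfold mu at hp
    exact (ae_add_measure_iff.mp hp).1
  have hmain : ∀ᵐ x ∂D.μ0, ∃ f, T2 x = D.T f x ∨ T2 x = D.S f x := by
    filter_upwards [D.ae_K, hac _ hae2, hac _ hY2, hac _ hY3] with x h1 h2 h3 h4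
    exact D.strict x h1 _ h3 _ h4 (D.g_eq_imp _ _ _ h2)
  have hX' : ∀ f b, ∀ᵐ x ∂D.μ0, T2 x ∈ D.X (some (f, b)) → T2 x = D.tv f b x := by
    intro f b
    filter_upwards [D.ae_K, hmain] with x h1 h2 h3
    obtain ⟨f', h4⟩ := h2
    obtain ⟨b', h5⟩ : ∃ b', T2 x = D.tv f' b' x := by
      rcases h4 with h4 | h4
      · exact ⟨true, h4⟩
      · exact ⟨false, h4⟩
    have h6 := D.tv_mem f' b' x h1
    rw [← h5] at h6
    by_cases he : (f', b') = (f, b)
    · obtain ⟨rfl, rfl⟩ := Prod.mk.inj he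
      exact h5
    · exact absurd h3 (D.hXX (some (f', b')) (some (f, b)) (by simpa using he) _ h6)
  have hnull : ∀ f b, D.μ0 (T2 ⁻¹' D.X (some (f, b))) = 0 := fun f b =>
    D.B_null T2 hT2 p2 f b (hX' f b)
  have hfalse : ∀ᵐ x ∂D.μ0, False := by
    have hn : ∀ f b, ∀ᵐ x ∂D.μ0, x ∉ T2 ⁻¹' D.X (some (f, b)) := fun f b => by
      rw [ae_iff]; simp only [not_not]; exact hnull f b
    filter_upwards [D.ae_K, hmain, hn true true, hn true false, hn false true, hn false false]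
      with x h1 h2 a1 a2 a3 a4
    obtain ⟨f', h4⟩ := h2
    obtain ⟨b', h5⟩ : ∃ b', T2 x = D.tv f' b' x := by
      rcases h4 with h4 | h4
      · exact ⟨true, h4⟩
      · exact ⟨false, h4⟩
    have h6 := D.tv_mem f' b' x h1
    rw [← h5] at h6
    cases f' <;> cases b'
    · exact a4 h6
    · exact a3 h6
    · exact a2 h6
    · exact a1 h6
  rw [ae_iff] at hfalse
  simp only [not_false_eq_true] at hfalse
  have : D.μ0 = 0 := by
    rw [← Measure.measure_univ_eq_zero]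
    convert hfalse using 1
    congr 1
  exact D.hμ0 this

/-- piecewise map -/
noncomputable def pw (a : Option (Bool × Bool) → E → E) (x : E) : E :=
  open Classical in
  if x ∈ D.X (some (true, true)) then a (some (true, true)) x else
  if x ∈ D.X (some (true, false)) then a (some (true, false)) x else
  if x ∈ D.X (some (false, true)) then a (some (false, true)) x else
  if x ∈ D.X (some (false, false)) then a (some (false, false)) x else a none x

theorem meas_pw (a : Option (Bool × Bool) → E → E) (ha : ∀ j, Measurable (a j)) :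
    Measurable (D.pw a) := by
  unfold pw
  exact Measurable.ite (D.hX _) (ha _) (Measurable.ite (D.hX _) (ha _)
    (Measurable.ite (D.hX _) (ha _) (Measurable.ite (D.hX _) (ha _) (ha _))))

theorem pw_mem (a : Option (Bool × Bool) → E → E) (j : Option (Bool × Bool)) (x : E)
    (hx : x ∈ D.X j) : D.pw a x = a j x := by
  have hno : ∀ i, i ≠ j → x ∉ D.X i := fun i hi => D.hXX j i (Ne.symm hi) x hx
  unfold pw
  rcases j with _ | ⟨f, b⟩
  · rw [if_neg (hno _ (by simp)), if_neg (hno _ (by simp)), if_neg (hno _ (by simp)),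
      if_neg (hno _ (by simp))]
  · cases f <;> cases b
    · rw [if_neg (hno _ (by simp)), if_neg (hno _ (by simp)), if_neg (hno _ (by simp)), if_pos hx]
    · rw [if_neg (hno _ (by simp)), if_neg (hno _ (by simp)), if_pos hx]
    · rw [if_neg (hno _ (by simp)), if_pos hx]
    · rw [if_pos hx]

theorem alg2 (t1 t2 s1 s2 a : ℝ≥0∞) :
    2⁻¹ * (t1 + t2) + 2⁻¹ * (s1 + a + (s2 + a)) = a + 2⁻¹ * (t1 + s1 + (t2 + s2)) := by
  conv_rhs => rw [← half_add a]
  rw [← mul_add, ← mul_add]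
  congr 1
  ring

theorem alg3 (t1 t2 s1 s2 a : ℝ≥0∞) :
    2⁻¹ * (s1 + s2) + 2⁻¹ * (a + t1 + (a + t2)) = a + 2⁻¹ * (t1 + s1 + (t2 + s2)) := by
  conv_rhs => rw [← half_add a]
  rw [← mul_add, ← mul_add]
  congr 1
  ring

theorem approx [StandardBorelSpace E] [Nonempty E] [MeasurableEq E]
    (happ : ∀ ε : ℝ≥0∞, 0 < ε → ∃ κ : E → ℕ, Measurable κ ∧ ∃ ξ : ℕ → E, ∀ x ∈ D.K, ∀ f, ∀ x'' ∈ D.K,
      D.c (x, D.T f x'', D.S f x'') ≤ D.c (ξ (κ x), D.T f x'', D.S f x'') + ε ∧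
      D.c (ξ (κ x), D.T f x'', D.S f x'') ≤ D.c (x, D.T f x'', D.S f x'') + ε)
    (ε : ℝ≥0∞) (hε : 0 < ε) :
    ∃ T2 T3 : E → E, Measurable T2 ∧ Measurable T3 ∧ D.mu.map T2 = D.mu ∧ D.mu.map T3 = D.mu ∧
      ∫⁻ x, D.c (x, T2 x, T3 x) ∂D.mu < ∫⁻ p, D.c p ∂D.pi0 + ε := by
  obtain ⟨e', he', hee⟩ : ∃ n : NNReal, 0 < n ∧ (n : ℝ≥0∞) * (2 * D.μ0 univ) < ε := by
    apply ENNReal.exists_nnreal_pos_mul_lt
    · exact (ENNReal.mul_lt_top (by norm_num) (measure_lt_top _ _)).ne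
    · exact hε.ne'
  obtain ⟨κ, hκ, ξ, hξ⟩ := happ e' (by exact_mod_cast he')
  -- joint law
  have mj : ∀ f, Measurable (fun x => (κ x, (D.T f x, D.S f x))) := fun f =>
    hκ.prodMk ((D.hT f).prodMk (D.hS f))
  set θ : Measure (ℕ × (E × E)) := (2 : ℝ≥0∞)⁻¹ • (D.μ0.map (fun x => (κ x, (D.T true x, D.S true x))) +
    D.μ0.map (fun x => (κ x, (D.T false x, D.S false x)))) with hθ
  have hθint : ∀ g : ℕ × (E × E) → ℝ≥0∞, Measurable g → ∫⁻ p, g p ∂θ =
      2⁻¹ * (∫⁻ x, g (κ x, (D.T true x, D.S true x)) ∂D.μ0 +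
        ∫⁻ x, g (κ x, (D.T false x, D.S false x)) ∂D.μ0) := by
    intro g hg
    rw [hθ, lintegral_smul_measure, lintegral_add_measure, lintegral_map hg (mj true),
      lintegral_map hg (mj false)]
    rfl
  have hθfin : IsFiniteMeasure θ := by
    refine ⟨?_⟩
    have h1 := hθint (fun _ => 1) measurable_const
    simp only [lintegral_const, one_mul] at h1
    rw [h1]
    exact ENNReal.mul_lt_top (by simp) (ENNReal.add_lt_top.mpr ⟨measure_lt_top _ _, measure_lt_top _ _⟩)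
  have hθfst : θ.map Prod.fst = D.μ0.map κ := by
    apply Measure.ext_of_lintegral
    intro g hg
    rw [lintegral_map hg measurable_fst, hθint (fun p => g p.1) (hg.comp measurable_fst),
      lintegral_map hg hκ]
    exact half_add _
  obtain ⟨f, hf, hfθ⟩ := exists_coupled_map D.μ0 κ hκ θ hθfst
  have hfint : ∀ g : ℕ × (E × E) → ℝ≥0∞, Measurable g → ∫⁻ x, g (κ x, f x) ∂D.μ0 =
      2⁻¹ * (∫⁻ x, g (κ x, (D.T true x, D.S true x)) ∂D.μ0 +
        ∫⁻ x, g (κ x, (D.T false x, D.S false x)) ∂D.μ0) := by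
    intro g hg
    rw [← hθint g hg, ← hfθ, lintegral_map hg (hκ.prodMk hf)]
  -- support of f
  let W : Set (E × E) := ⋃ f' : Bool, {q | D.T' f' q.1 ∈ D.K ∧ q.2 = D.S f' (D.T' f' q.1) ∧
    D.T f' (D.T' f' q.1) = q.1}
  have hWm : MeasurableSet W := by
    apply MeasurableSet.iUnion
    intro f'
    have k1 : Measurable (fun q : E × E => D.T' f' q.1) := (D.hT' f').comp measurable_fst
    refine MeasurableSet.inter (k1 D.hK) (MeasurableSet.inter ?_ ?_)
    · exact measurableSet_eq_fun measurable_snd ((D.hS f').comp k1)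
    · exact measurableSet_eq_fun ((D.hT f').comp k1) measurable_fst
  have hWspec : ∀ q ∈ W, ∃ f', ∃ x'' ∈ D.K, q = (D.T f' x'', D.S f' x'') := by
    intro q hq
    obtain ⟨f', h1, h2, h3⟩ := mem_iUnion.mp hq
    exact ⟨f', D.T' f' q.1, h1, Prod.ext h3.symm h2⟩
  have hWae0 : ∀ f', ∀ᵐ x ∂D.μ0, (D.T f' x, D.S f' x) ∈ W := by
    intro f'
    filter_upwards [D.ae_K] with x hx
    refine mem_iUnion.mpr ⟨f', ?_, ?_, ?_⟩
    · show D.T' f' (D.T f' x) ∈ D.K
      rw [D.hTT' f' x hx]; exact hx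
    · show D.S f' x = D.S f' (D.T' f' (D.T f' x))
      rw [D.hTT' f' x hx]
    · show D.T f' (D.T' f' (D.T f' x)) = D.T f' x
      rw [D.hTT' f' x hx]
  have hWθ : ∀ᵐ p ∂θ, p.2 ∈ W := by
    rw [hθ]
    apply Measure.ae_smul_measure
    rw [ae_add_measure_iff]
    have hms : MeasurableSet {p : ℕ × (E × E) | p.2 ∈ W} := measurable_snd hWm
    exact ⟨(ae_map_iff (mj true).aemeasurable hms).mpr (hWae0 true),
      (ae_map_iff (mj false).aemeasurable hms).mpr (hWae0 false)⟩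
  have hfW : ∀ᵐ x ∂D.μ0, f x ∈ W := by
    have := ae_of_ae_map (hκ.prodMk hf).aemeasurable (by rw [hfθ]; exact hWθ)
    exact this
  -- the bound on the centre part
  have hξm : Measurable ξ := measurable_from_top
  have hgm : Measurable (fun p : ℕ × (E × E) => D.c (ξ p.1, p.2)) :=
    D.hc.comp ((hξm.comp measurable_fst).prodMk measurable_snd)
  have hIf : ∫⁻ x, D.c (x, f x) ∂D.μ0 ≤
      2⁻¹ * (∫⁻ x, D.c (x, D.T true x, D.S true x) ∂D.μ0 +
        ∫⁻ x, D.c (x, D.T false x, D.S false x) ∂D.μ0) + e' * (2 * D.μ0 univ) := by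
    have s1 : ∫⁻ x, D.c (x, f x) ∂D.μ0 ≤ ∫⁻ x, (D.c (ξ (κ x), f x) + e') ∂D.μ0 := by
      apply lintegral_mono_ae
      filter_upwards [D.ae_K, hfW] with x hx hW
      obtain ⟨f', x'', hx'', heq⟩ := hWspec _ hW
      rw [heq]
      exact (hξ x hx f' x'' hx'').1
    have s2 : ∫⁻ x, (D.c (ξ (κ x), f x) + e') ∂D.μ0 =
        2⁻¹ * (∫⁻ x, D.c (ξ (κ x), (D.T true x, D.S true x)) ∂D.μ0 +
        ∫⁻ x, D.c (ξ (κ x), (D.T false x, D.S false x)) ∂D.μ0) + e' * D.μ0 univ := by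
      have hm : Measurable (fun x => D.c (ξ (κ x), f x)) :=
        D.hc.comp ((hξm.comp hκ).prodMk hf)
      rw [lintegral_add_left hm, lintegral_const]
      rw [← hfint _ hgm]
    have s3 : ∀ f', ∫⁻ x, D.c (ξ (κ x), (D.T f' x, D.S f' x)) ∂D.μ0 ≤
        ∫⁻ x, D.c (x, D.T f' x, D.S f' x) ∂D.μ0 + e' * D.μ0 univ := by
      intro f'
      have hm : Measurable (fun x => D.c (x, D.T f' x, D.S f' x)) := D.hc.comp (D.meas1 f')
      rw [← lintegral_const, ← lintegral_add_left hm]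
      apply lintegral_mono_ae
      filter_upwards [D.ae_K] with x hx
      exact (hξ x hx f' x hx).2
    refine s1.trans (s2.le.trans ?_)
    calc 2⁻¹ * (∫⁻ x, D.c (ξ (κ x), (D.T true x, D.S true x)) ∂D.μ0 +
        ∫⁻ x, D.c (ξ (κ x), (D.T false x, D.S false x)) ∂D.μ0) + e' * D.μ0 univ
        ≤ 2⁻¹ * ((∫⁻ x, D.c (x, D.T true x, D.S true x) ∂D.μ0 + e' * D.μ0 univ) +
          (∫⁻ x, D.c (x, D.T false x, D.S false x) ∂D.μ0 + e' * D.μ0 univ)) + e' * D.μ0 univ := by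
          gcongr
          · exact s3 true
          · exact s3 false
      _ = 2⁻¹ * (∫⁻ x, D.c (x, D.T true x, D.S true x) ∂D.μ0 +
        ∫⁻ x, D.c (x, D.T false x, D.S false x) ∂D.μ0) +
          (2⁻¹ * (e' * D.μ0 univ + e' * D.μ0 univ) + e' * D.μ0 univ) := by ring
      _ = _ := by rw [half_add]; ring
  -- the maps
  let a2 : Option (Bool × Bool) → E → E
    | none => fun x => (f x).1
    | some (f', true) => fun x => D.S f' (D.T' f' x)
    | some (f', false) => fun x => D.S' f' x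
  let a3 : Option (Bool × Bool) → E → E
    | none => fun x => (f x).2
    | some (f', true) => fun x => D.T' f' x
    | some (f', false) => fun x => D.T f' (D.S' f' x)
  have ha2 : ∀ j, Measurable (a2 j) := by
    intro j
    rcases j with _ | ⟨f', b⟩
    · exact hf.fst
    · cases b
      · exact D.hS' f'
      · exact (D.hS f').comp (D.hT' f')
  have ha3 : ∀ j, Measurable (a3 j) := by
    intro j
    rcases j with _ | ⟨f', b⟩
    · exact hf.snd
    · cases b
      · exact (D.hT f').comp (D.hS' f')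
      · exact D.hT' f'
  have b2n : ∀ x ∈ D.K, D.pw a2 x = (f x).1 := fun x hx => D.pw_mem a2 none x (D.hKX hx)
  have b3n : ∀ x ∈ D.K, D.pw a3 x = (f x).2 := fun x hx => D.pw_mem a3 none x (D.hKX hx)
  have b2T : ∀ f', ∀ x ∈ D.K, D.pw a2 (D.T f' x) = D.S f' x := by
    intro f' x hx
    rw [D.pw_mem a2 (some (f', true)) _ (D.hTX f' x hx)]
    show D.S f' (D.T' f' (D.T f' x)) = D.S f' x
    rw [D.hTT' f' x hx]
  have b2S : ∀ f', ∀ x ∈ D.K, D.pw a2 (D.S f' x) = x := by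
    intro f' x hx
    rw [D.pw_mem a2 (some (f', false)) _ (D.hSX f' x hx)]
    exact D.hSS' f' x hx
  have b3T : ∀ f', ∀ x ∈ D.K, D.pw a3 (D.T f' x) = x := by
    intro f' x hx
    rw [D.pw_mem a3 (some (f', true)) _ (D.hTX f' x hx)]
    exact D.hTT' f' x hx
  have b3S : ∀ f', ∀ x ∈ D.K, D.pw a3 (D.S f' x) = D.T f' x := by
    intro f' x hx
    rw [D.pw_mem a3 (some (f', false)) _ (D.hSX f' x hx)]
    show D.T f' (D.S' f' (D.S f' x)) = D.T f' x
    rw [D.hSS' f' x hx]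
  have hm2 := D.meas_pw a2 ha2
  have hm3 := D.meas_pw a3 ha3
  refine ⟨D.pw a2, D.pw a3, hm2, hm3, ?_, ?_, ?_⟩
  · apply Measure.ext_of_lintegral
    intro g hg
    rw [lintegral_map hg hm2, D.lintegral_mu (fun x => g (D.pw a2 x)) (hg.comp hm2), D.lintegral_mu g hg]
    have c1 : ∫⁻ x, g (D.pw a2 x) ∂D.μ0 = 2⁻¹ * (∫⁻ x, g (D.T true x) ∂D.μ0 + ∫⁻ x, g (D.T false x) ∂D.μ0) := by
      rw [← hfint (fun p => g p.2.1) (hg.comp (measurable_snd.fst))]
      apply lintegral_congr_ae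
      filter_upwards [D.ae_K] with x hx
      rw [b2n x hx]
    have c2 : ∀ f', ∫⁻ x, g (D.pw a2 (D.T f' x)) ∂D.μ0 = ∫⁻ x, g (D.S f' x) ∂D.μ0 := by
      intro f'
      apply lintegral_congr_ae
      filter_upwards [D.ae_K] with x hx
      rw [b2T f' x hx]
    have c3 : ∀ f', ∫⁻ x, g (D.pw a2 (D.S f' x)) ∂D.μ0 = ∫⁻ x, g x ∂D.μ0 := by
      intro f'
      apply lintegral_congr_ae
      filter_upwards [D.ae_K] with x hx
      rw [b2S f' x hx]
    simp only [c1, c2, c3]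
    exact alg2 _ _ _ _ _
  · apply Measure.ext_of_lintegral
    intro g hg
    rw [lintegral_map hg hm3, D.lintegral_mu (fun x => g (D.pw a3 x)) (hg.comp hm3), D.lintegral_mu g hg]
    have c1 : ∫⁻ x, g (D.pw a3 x) ∂D.μ0 = 2⁻¹ * (∫⁻ x, g (D.S true x) ∂D.μ0 + ∫⁻ x, g (D.S false x) ∂D.μ0) := by
      rw [← hfint (fun p => g p.2.2) (hg.comp (measurable_snd.snd))]
      apply lintegral_congr_ae
      filter_upwards [D.ae_K] with x hx
      rw [b3n x hx]
    have c2 : ∀ f', ∫⁻ x, g (D.pw a3 (D.T f' x)) ∂D.μ0 = ∫⁻ x, g x ∂D.μ0 := by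
      intro f'
      apply lintegral_congr_ae
      filter_upwards [D.ae_K] with x hx
      rw [b3T f' x hx]
    have c3 : ∀ f', ∫⁻ x, g (D.pw a3 (D.S f' x)) ∂D.μ0 = ∫⁻ x, g (D.T f' x) ∂D.μ0 := by
      intro f'
      apply lintegral_congr_ae
      filter_upwards [D.ae_K] with x hx
      rw [b3S f' x hx]
    simp only [c1, c2, c3]
    exact alg3 _ _ _ _ _
  · have hmm : Measurable (fun x => D.c (x, D.pw a2 x, D.pw a3 x)) :=
      D.hc.comp (measurable_id.prodMk (hm2.prodMk hm3))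
    rw [D.lintegral_mu _ hmm]
    have c1 : ∫⁻ x, D.c (x, D.pw a2 x, D.pw a3 x) ∂D.μ0 = ∫⁻ x, D.c (x, f x) ∂D.μ0 := by
      apply lintegral_congr_ae
      filter_upwards [D.ae_K] with x hx
      rw [b2n x hx, b3n x hx]
    have c2 : ∀ f', ∫⁻ x, D.c (D.T f' x, D.pw a2 (D.T f' x), D.pw a3 (D.T f' x)) ∂D.μ0 =
        ∫⁻ x, D.c (D.T f' x, D.S f' x, x) ∂D.μ0 := by
      intro f'
      apply lintegral_congr_ae
      filter_upwards [D.ae_K] with x hx
      rw [b2T f' x hx, b3T f' x hx]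
    have c3 : ∀ f', ∫⁻ x, D.c (D.S f' x, D.pw a2 (D.S f' x), D.pw a3 (D.S f' x)) ∂D.μ0 =
        ∫⁻ x, D.c (D.S f' x, x, D.T f' x) ∂D.μ0 := by
      intro f'
      apply lintegral_congr_ae
      filter_upwards [D.ae_K] with x hx
      rw [b2S f' x hx, b3S f' x hx]
    simp only [c1, c2, c3]
    have hfin := D.pi0_cost_lt_top
    have hle : ∫⁻ x, D.c (x, f x) ∂D.μ0 + 2⁻¹ * (∫⁻ x, D.c (D.T true x, D.S true x, x) ∂D.μ0 +
        ∫⁻ x, D.c (D.S true x, x, D.T true x) ∂D.μ0 +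
        (∫⁻ x, D.c (D.T false x, D.S false x, x) ∂D.μ0 +
        ∫⁻ x, D.c (D.S false x, x, D.T false x) ∂D.μ0)) ≤
        ∫⁻ p, D.c p ∂D.pi0 + e' * (2 * D.μ0 univ) := by
      rw [D.lintegral_pi0 _ D.hc]
      refine (add_le_add_left hIf _).trans (le_of_eq ?_)
      ring
    refine lt_of_le_of_lt hle ?_
    exact ENNReal.add_lt_add_left hfin.ne hee

end OTData

end Crest.Agent.OTLib
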