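import Mathlib
import Crest.Prelude.Def_MultiMarginal
import Crest.Agent.OTLibH
import Crest.Agent.OTLibM

set_option autoImplicit false
set_option linter.unusedSectionVars false

open MeasureTheory Set Filter Topology
open scoped ENNReal ContDiff RealInnerProductSpace
open Crest.AnalysisR.OT

namespace Crest.Agent.OTLib

variable {d : ℕ}

local notation "𝔼" => EuclideanSpace ℝ (Fin d)

/-- clusters -/
def Xc (hd : 2 ≤ d) (j : Option (Bool × Bool)) : Set 𝔼 := Metric.ball (Pc hd j) (1 / 4)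

theorem Xc_disj (hd : 2 ≤ d) (i j : Option (Bool × Bool)) (h : i ≠ j) (x : 𝔼) (hx : x ∈ Xc hd i) :
    x ∉ Xc hd j := by
  intro hx'
  have := ne_of_balls hx hx' (by
    have := one_le_norm_Pc_sub hd i j h
    linarith)
  exact this rfl

/-- A bump function with prescribed L² norm. -/
theorem exists_bump (r : ℝ) (hr : 0 < r) : ∃ b : 𝔼 → ℝ, ContDiff ℝ ∞ b ∧ (∀ x, 0 ≤ b x) ∧
    (∀ x, x ∉ Metric.closedBall (0 : 𝔼) r → b x = 0) ∧ HasCompactSupport b ∧
    ∫⁻ x, ENNReal.ofReal (b x ^ 2) = ENNReal.ofReal (1 / 3) := by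
  let f : ContDiffBump (0 : 𝔼) := ⟨r / 2, r, by positivity, by linarith⟩
  have hfs : HasCompactSupport (f : 𝔼 → ℝ) := f.hasCompactSupport
  have hcont : Continuous (fun x => f x ^ 2) := (f.continuous).pow 2
  have hcs : HasCompactSupport (fun x => f x ^ 2) := by
    have := hfs.comp_left (g := fun t : ℝ => t ^ 2) (by norm_num)
    exact this
  have hint : Integrable (fun x => f x ^ 2) (volume : Measure 𝔼) := hcont.integrable_of_hasCompactSupport hcs
  have hpos : 0 < ∫ x, f x ^ 2 := by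
    rw [integral_pos_iff_support_of_nonneg (fun x => sq_nonneg _) hint]
    refine (hcont.isOpen_support).measure_pos volume ⟨0, ?_⟩
    have : f 0 = 1 := f.one_of_mem_closedBall (Metric.mem_closedBall_self f.rIn_pos.le)
    simp [Function.mem_support, this]
  set I := ∫ x, f x ^ 2 with hI
  refine ⟨fun x => Real.sqrt (1 / (3 * I)) * f x, ?_, ?_, ?_, ?_, ?_⟩
  · exact contDiff_const.mul f.contDiff
  · intro x; exact mul_nonneg (Real.sqrt_nonneg _) f.nonneg
  · intro x hx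
    have : f x = 0 := by
      apply f.zero_of_le_dist
      rw [Metric.mem_closedBall, not_le] at hx
      exact hx.le
    simp [this]
  · exact hfs.mul_left
  · have h1 : ∀ x, (Real.sqrt (1 / (3 * I)) * f x) ^ 2 = (1 / (3 * I)) * f x ^ 2 := by
      intro x
      rw [mul_pow, Real.sq_sqrt (by positivity)]
    simp_rw [h1]
    rw [← ofReal_integral_eq_lintegral_ofReal (hint.const_mul _) (ae_of_all _ (fun x => by positivity)),
      integral_const_mul]
    congr 1
    rw [← hI]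
    field_simp

/-- measurable version of a map on `K`. -/
noncomputable def mv (K : Set 𝔼) (T : 𝔼 → 𝔼) : 𝔼 → 𝔼 :=
  open Classical in K.piecewise T (fun _ => 0)

theorem mv_eq (K : Set 𝔼) (T : 𝔼 → 𝔼) (x : 𝔼) (hx : x ∈ K) : mv K T x = T x := by
  classical
  exact Set.piecewise_eq_of_mem K T _ hx

theorem meas_mv (K : Set 𝔼) (hK : MeasurableSet K) (T : 𝔼 → 𝔼) (hT : ContinuousOn T K) :
    Measurable (mv K T) := by
  classical
  exact hT.measurable_piecewise continuousOn_const hK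

/-- measurable version of a function on `K`. -/
noncomputable def mr (K : Set 𝔼) (T : 𝔼 → ℝ) : 𝔼 → ℝ :=
  open Classical in K.piecewise T (fun _ => 0)

theorem mr_eq (K : Set 𝔼) (T : 𝔼 → ℝ) (x : 𝔼) (hx : x ∈ K) : mr K T x = T x := by
  classical
  exact Set.piecewise_eq_of_mem K T _ hx

theorem meas_mr (K : Set 𝔼) (hK : MeasurableSet K) (T : 𝔼 → ℝ) (hT : ContinuousOn T K) :
    Measurable (mr K T) := by
  classical
  exact hT.measurable_piecewise continuousOn_const hK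

theorem bdd_mr (K : Set 𝔼) (hK : IsCompact K) (T : 𝔼 → ℝ) (hT : ContinuousOn T K) :
    ∃ M, ∀ x, |mr K T x| ≤ M := by
  obtain ⟨M, hM⟩ := hK.exists_bound_of_continuousOn hT
  refine ⟨max M 0, fun x => ?_⟩
  by_cases hx : x ∈ K
  · rw [mr_eq K T x hx]
    exact (hM x hx).trans (le_max_left _ _)
  · classical
    have : mr K T x = 0 := Set.piecewise_eq_of_notMem K T _ hx
    rw [this, abs_zero]; exact le_max_right _ _

/-- partition maps with small cells -/
theorem exists_cells (K : Set 𝔼) (δ : ℝ) (hδ : 0 < δ) : ∃ κ : 𝔼 → ℕ, Measurable κ ∧ ∃ ξ : ℕ → 𝔼,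
    ∀ x ∈ K, ξ (κ x) ∈ K ∧ dist x (ξ (κ x)) < δ := by
  classical
  have hex : ∀ x : 𝔼, ∃ n, dist x (TopologicalSpace.denseSeq 𝔼 n) < δ / 2 := by
    intro x
    exact (TopologicalSpace.denseRange_denseSeq 𝔼).exists_dist_lt x (half_pos hδ)
  let κ : 𝔼 → ℕ := fun x => Nat.find (hex x)
  have hκ : Measurable κ := by
    apply measurable_find
    intro n
    exact measurableSet_lt (by fun_prop) measurable_const
  have hκs : ∀ x, dist x (TopologicalSpace.denseSeq 𝔼 (κ x)) < δ / 2 := fun x => Nat.find_spec (hex x)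
  let ξ : ℕ → 𝔼 := fun n => if h : ∃ y ∈ K, κ y = n then h.choose else 0
  refine ⟨κ, hκ, ξ, ?_⟩
  intro x hx
  have h : ∃ y ∈ K, κ y = κ x := ⟨x, hx, rfl⟩
  have hξ : ξ (κ x) = h.choose := by simp only [ξ]; rw [dif_pos h]
  obtain ⟨h1, h2⟩ := h.choose_spec
  rw [hξ]
  refine ⟨h1, ?_⟩
  have a1 := hκs x
  have a2 := hκs h.choose
  rw [h2] at a2
  calc dist x h.choose ≤ dist x (TopologicalSpace.denseSeq 𝔼 (κ x)) +
        dist (TopologicalSpace.denseSeq 𝔼 (κ x)) h.choose := dist_triangle _ _ _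
    _ < δ := by rw [dist_comm _ h.choose]; linarith

/-- uniform approximation property. -/
theorem happ_aux (s : ℝ) (K : Set 𝔼) (hK : IsCompact K) (T S : Bool → 𝔼 → 𝔼)
    (hT : ∀ f, ContinuousOn (T f) K) (hS : ∀ f, ContinuousOn (S f) K)
    (hd : ∀ f, ∀ x ∈ K, ∀ y ∈ K, x ≠ T f y ∧ x ≠ S f y ∧ T f y ≠ S f y)
    (ε : ℝ≥0∞) (hε : 0 < ε) : ∃ κ : 𝔼 → ℕ, Measurable κ ∧ ∃ ξ : ℕ → 𝔼, ∀ x ∈ K, ∀ f, ∀ x'' ∈ K,
      tripleCost s (x, T f x'', S f x'') ≤ tripleCost s (ξ (κ x), T f x'', S f x'') + ε ∧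
      tripleCost s (ξ (κ x), T f x'', S f x'') ≤ tripleCost s (x, T f x'', S f x'') + ε := by
  obtain ⟨e, he0, hee⟩ := ENNReal.lt_iff_exists_nnreal_btwn.mp hε
  have he : (0 : ℝ) < e := by exact_mod_cast he0
  have huc : ∀ f, ∃ δ > 0, ∀ x ∈ K, ∀ x' ∈ K, ∀ x'' ∈ K, dist x x' < δ →
      |cR s x (T f x'') (S f x'') - cR s x' (T f x'') (S f x'')| ≤ e := by
    intro f
    have hc : ContinuousOn (fun p : 𝔼 × 𝔼 => cR s p.1 (T f p.2) (S f p.2)) (K ×ˢ K) := by
      have hT2 : ContinuousOn (fun p : 𝔼 × 𝔼 => T f p.2) (K ×ˢ K) :=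
        (hT f).comp continuousOn_snd (fun p hp => hp.2)
      have hS2 : ContinuousOn (fun p : 𝔼 × 𝔼 => S f p.2) (K ×ˢ K) :=
        (hS f).comp continuousOn_snd (fun p hp => hp.2)
      have h1 : ContinuousOn (fun p : 𝔼 × 𝔼 => p.1) (K ×ˢ K) := continuousOn_fst
      unfold cR
      refine ContinuousOn.add (ContinuousOn.add ?_ ?_) ?_
      · refine ((hT2.sub h1).norm).rpow_const (fun p hp => Or.inl ?_)
        exact norm_ne_zero_iff.mpr (sub_ne_zero.mpr (hd f p.1 hp.1 p.2 hp.2).1.symm)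
      · refine ((hS2.sub h1).norm).rpow_const (fun p hp => Or.inl ?_)
        exact norm_ne_zero_iff.mpr (sub_ne_zero.mpr (hd f p.1 hp.1 p.2 hp.2).2.1.symm)
      · refine ((hT2.sub hS2).norm).rpow_const (fun p hp => Or.inl ?_)
        exact norm_ne_zero_iff.mpr (sub_ne_zero.mpr (hd f p.1 hp.1 p.2 hp.2).2.2)
    have hu := (hK.prod hK).uniformContinuousOn_of_continuous hc
    rw [Metric.uniformContinuousOn_iff] at hu
    obtain ⟨δ, hδ, hu⟩ := hu e he
    refine ⟨δ, hδ, ?_⟩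
    intro x hx x' hx' x'' hx'' hdist
    have := hu (x, x'') ⟨hx, hx''⟩ (x', x'') ⟨hx', hx''⟩ (by
      rw [Prod.dist_eq]; simpa [hδ] using hdist)
    rw [Real.dist_eq] at this
    exact this.le
  choose δ hδ hδ' using huc
  obtain ⟨κ, hκ, ξ, hξ⟩ := exists_cells K (min (δ true) (δ false)) (lt_min (hδ true) (hδ false))
  refine ⟨κ, hκ, ξ, ?_⟩
  intro x hx f x'' hx''
  obtain ⟨k1, k2⟩ := hξ x hx
  have hdf : dist x (ξ (κ x)) < δ f := by
    cases f
    · exact k2.trans_le (min_le_right _ _)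
    · exact k2.trans_le (min_le_left _ _)
  have habs := hδ' f x hx _ k1 x'' hx'' hdf
  rw [abs_le] at habs
  obtain ⟨d1, d2, d3⟩ := hd f x hx x'' hx''
  obtain ⟨d1', d2', -⟩ := hd f _ k1 x'' hx''
  rw [tripleCost_of_ne s _ _ _ d1 d2 d3, tripleCost_of_ne s _ _ _ d1' d2' d3]
  have heε : ENNReal.ofReal (e : ℝ) ≤ ε := by
    rw [ENNReal.ofReal_coe_nnreal]; exact hee.le
  have hnn : ∀ x y z : 𝔼, 0 ≤ cR s x y z := by intro x y z; unfold cR; positivity
  constructor
  · refine le_trans ?_ (add_le_add_right heε _)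
    rw [← ENNReal.ofReal_add (hnn _ _ _) he.le]
    apply ENNReal.ofReal_le_ofReal
    linarith
  · refine le_trans ?_ (add_le_add_right heε _)
    rw [← ENNReal.ofReal_add (hnn _ _ _) he.le]
    apply ENNReal.ofReal_le_ofReal
    linarith

end Crest.Agent.OTLib
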