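import Mathlib
import Crest.Prelude.Def_QuadraticTransport

/-!
Row 82 (S0109, S0110), interface file.  Owner: helper3.
Each `def ... : Prop` below is a sub-goal to be proved in its own file.
-/

set_option autoImplicit false

namespace Crest.Agent.QT

open MeasureTheory Set
open scoped ENNReal NNReal
open Crest.AnalysisR.OT

abbrev Eu (d : ℕ) := EuclideanSpace ℝ (Fin d)

/-- (PL) midpoint Prékopa–Leindler inequality. -/
def PrekopaLeindler : Prop :=
  ∀ (d : ℕ) (F G H : Eu d → ℝ≥0∞), Measurable F → Measurable G → Measurable H →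
    (∀ a b, F a * G b ≤ H ((1 / 2 : ℝ) • (a + b)) ^ 2) →
    (∫⁻ x, F x) * (∫⁻ x, G x) ≤ (∫⁻ x, H x) ^ 2

/-- (INT) interpolation inequality for Lipschitz convex functions. -/
def Interpolation : Prop :=
  ∀ (d : ℕ) (K : Set (Eu d)), IsCompact K → Convex ℝ K → ∀ L : ℝ≥0,
    ∃ C : ℝ, 0 ≤ C ∧ ∀ φ χ : Eu d → ℝ, ConvexOn ℝ univ φ → ConvexOn ℝ univ χ →
      LipschitzWith L φ → LipschitzWith L χ →
      ∫ x in K, ‖gradient φ x - gradient χ x‖ ^ 2
        ≤ C * (∫ x in K, (φ x - χ x) ^ 2) ^ (1 / 3 : ℝ)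

/-- (OPT) a.e. gradient of a convex Lipschitz function is the unique optimal map. -/
def OptimalUnique : Prop :=
  ∀ (d : ℕ) (K : Set (Eu d)), IsCompact K → Convex ℝ K → (interior K).Nonempty →
    ∀ (μ : Measure (Eu d)) (φ : Eu d → ℝ), ConvexOn ℝ univ φ →
    ∀ (L : ℝ≥0), LipschitzWith L φ →
    ∀ T₀ : Eu d → Eu d, Measurable T₀ →
      (∀ᵐ x ∂(uniformProbOn K), HasGradientAt φ (T₀ x) x) →
      (uniformProbOn K).map T₀ = μ →
      IsOptimalMap (uniformProbOn K) μ T₀ ∧
        ∀ T, IsOptimalMap (uniformProbOn K) μ T → T =ᵐ[uniformProbOn K] T₀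

section Semidiscrete

variable {d N : ℕ}

/-- Laguerre cell of index `i` for atoms `y` and weights `c`. -/
def cell (y : Fin N → Eu d) (c : Fin N → ℝ) (i : Fin N) : Set (Eu d) :=
  {x | ∀ j, inner ℝ x (y j) - c j ≤ inner ℝ x (y i) - c i}

/-- The semidiscrete potential. -/
noncomputable def pot (y : Fin N → Eu d) (c : Fin N → ℝ) (x : Eu d) : ℝ :=
  ⨆ i, (inner ℝ x (y i) - c i)

end Semidiscrete

/-- (SD) existence of semidiscrete weights: the minimiser property of the dual functional together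
with the cell masses, and a uniform bound on the normalised weights. `σ` is any probability
measure absolutely continuous w.r.t. Lebesgue, concentrated on the ball of radius `R`. -/
def SemidiscreteExists : Prop :=
  ∀ (d N : ℕ) (y : Fin N → Eu d), Function.Injective y → ∀ (m : Fin N → ℝ), (∀ i, 0 < m i) →
    ∑ i, m i = 1 → ∀ (R M : ℝ), (∀ i, ‖y i‖ ≤ M) →
    ∃ B : ℝ, ∀ σ : Measure (Eu d), IsProbabilityMeasure σ → σ ≪ volume →
      σ (Metric.closedBall 0 R)ᶜ = 0 →
      ∃ c : Fin N → ℝ, (∀ i, 0 ≤ c i) ∧ (∀ i, c i ≤ B) ∧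
        ∀ i, σ (cell y c i) = ENNReal.ofReal (m i)

end Crest.Agent.QT
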