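import Mathlib
import Crest.Agent.QTDefs

/-! Row 82: basic facts on Laguerre cells. -/

set_option autoImplicit false

namespace Crest.Agent.QT

open MeasureTheory Set
open scoped ENNReal NNReal
open Crest.AnalysisR.OT

variable {d N : ℕ}

theorem hyperplane_null (v : Eu d) (hv : v ≠ 0) (t : ℝ) :
    (volume : Measure (Eu d)) {x | inner ℝ x v = t} = 0 := by
  have hvv : (inner ℝ v v : ℝ) ≠ 0 := by
    rw [real_inner_self_eq_norm_sq]; positivity
  set x₀ : Eu d := (t / inner ℝ v v) • v with hx₀
  have h0 : inner ℝ x₀ v = t := by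
    rw [hx₀, real_inner_smul_left]; field_simp
  let S : AffineSubspace ℝ (Eu d) := AffineSubspace.mk' x₀ (Submodule.span ℝ {v})ᗮ
  have hS : ({x | inner ℝ x v = t} : Set (Eu d)) = (S : Set (Eu d)) := by
    ext x
    simp only [Set.mem_ofPred_eq, SetLike.mem_coe, S, AffineSubspace.mem_mk']
    rw [Submodule.mem_orthogonal_singleton_iff_inner_left, vsub_eq_sub, inner_sub_left, h0]
    constructor <;> intro h <;> linarith
  rw [hS]
  apply Measure.addHaar_affineSubspace
  intro htop
  have : x₀ + v ∈ S := by rw [htop]; trivial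
  have h2 : inner ℝ (x₀ + v) v = t := by
    have : x₀ + v ∈ ({x | inner ℝ x v = t} : Set (Eu d)) := by rw [hS]; exact this
    exact this
  rw [inner_add_left, h0] at h2
  apply hvv
  linarith

theorem isClosed_cell (y : Fin N → Eu d) (c : Fin N → ℝ) (i : Fin N) :
    IsClosed (cell y c i) := by
  unfold cell
  rw [Set.ofPred_forall]
  refine isClosed_iInter fun j => ?_
  exact isClosed_le (by fun_prop) (by fun_prop)

theorem measurableSet_cell (y : Fin N → Eu d) (c : Fin N → ℝ) (i : Fin N) :
    MeasurableSet (cell y c i) := (isClosed_cell y c i).measurableSet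

theorem cell_inter_null (y : Fin N → Eu d) (hy : Function.Injective y) (c : Fin N → ℝ)
    {i j : Fin N} (hij : i ≠ j) :
    (volume : Measure (Eu d)) (cell y c i ∩ cell y c j) = 0 := by
  refine measure_mono_null ?_ (hyperplane_null (y i - y j) ?_ (c i - c j))
  · rintro x ⟨h1, h2⟩
    have h3 := h1 j
    have h4 := h2 i
    simp only [Set.mem_ofPred_eq, inner_sub_right]
    linarith
  · intro h
    exact hij (hy (sub_eq_zero.mp h))

theorem iUnion_cell (hN : 0 < N) (y : Fin N → Eu d) (c : Fin N → ℝ) :
    (⋃ i, cell y c i) = univ := by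
  haveI : Nonempty (Fin N) := ⟨⟨0, hN⟩⟩
  refine eq_univ_of_forall fun x => ?_
  obtain ⟨i, hi⟩ := Finite.exists_max (fun j => inner ℝ x (y j) - c j)
  exact mem_iUnion.mpr ⟨i, hi⟩

theorem cell_mid (y : Fin N → Eu d) (c c' : Fin N → ℝ) (i : Fin N) {a b : Eu d}
    (ha : a ∈ cell y c i) (hb : b ∈ cell y c' i) :
    (1 / 2 : ℝ) • (a + b) ∈ cell y (fun j => (c j + c' j) / 2) i := by
  intro j
  have h1 := ha j
  have h2 := hb j
  simp only [real_inner_smul_left, inner_add_left]
  linarith

/-- Splitting an integral along the cells, for any measure absolutely continuous w.r.t. volume. -/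
theorem sum_integral_cell {F : Type*} [NormedAddCommGroup F] [NormedSpace ℝ F]
    (hN : 0 < N) (y : Fin N → Eu d) (hy : Function.Injective y)
    (c : Fin N → ℝ) (σ : Measure (Eu d)) (hσ : σ ≪ volume) (f : Eu d → F) (hf : Integrable f σ) :
    ∑ i, ∫ x in cell y c i, f x ∂σ = ∫ x, f x ∂σ := by
  have h := integral_iUnion_ae (μ := σ) (f := f) (s := fun i => cell y c i)
    (fun i => (measurableSet_cell y c i).nullMeasurableSet)
    (fun i j hij => hσ (cell_inter_null y hy c hij)) hf.integrableOn
  rw [iUnion_cell hN, setIntegral_univ, tsum_fintype] at h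
  exact h.symm

theorem sum_measure_cell (hN : 0 < N) (y : Fin N → Eu d) (hy : Function.Injective y)
    (c : Fin N → ℝ) (σ : Measure (Eu d)) (hσ : σ ≪ volume) :
    ∑ i, σ (cell y c i) = σ univ := by
  rw [← iUnion_cell hN y c, measure_iUnion₀, tsum_fintype]
  · exact fun i j hij => hσ (cell_inter_null y hy c hij)
  · exact fun i => (measurableSet_cell y c i).nullMeasurableSet

end Crest.Agent.QT
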