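import Mathlib
import Crest.Agent.QTDefs

/-!
Row 82 (S0109, S0110), piece (OPT): the a.e. gradient of a convex Lipschitz function is the
unique optimal transport map.  Owner: helper8.
-/

set_option autoImplicit false

namespace Crest.Agent.QT

open MeasureTheory Set Filter Topology
open scoped ENNReal NNReal
open Crest.AnalysisR.OT

section Basics

variable {d : ℕ}

theorem isProb_uniformProbOn {K : Set (Eu d)} (hK : IsCompact K) (hi : (interior K).Nonempty) :
    IsProbabilityMeasure (uniformProbOn K) := by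
  constructor
  have h0 : volume K ≠ 0 := by
    have : 0 < volume (interior K) := isOpen_interior.measure_pos _ hi
    exact (this.trans_le (measure_mono interior_subset)).ne'
  have h1 : volume K ≠ ⊤ := hK.measure_lt_top.ne
  simp [uniformProbOn, ENNReal.inv_mul_cancel h0 h1]

theorem uniformProbOn_absCont (K : Set (Eu d)) :
    uniformProbOn K ≪ (volume.restrict K : Measure (Eu d)) := by
  unfold uniformProbOn
  exact Measure.smul_absolutelyContinuous

theorem uniformProbOn_absCont_volume (K : Set (Eu d)) :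
    uniformProbOn K ≪ (volume : Measure (Eu d)) :=
  (uniformProbOn_absCont K).trans Measure.restrict_le_self.absolutelyContinuous

theorem ae_mem_interior {K : Set (Eu d)} (hK : IsCompact K) (hKv : Convex ℝ K) :
    ∀ᵐ x ∂(uniformProbOn K), x ∈ interior K := by
  apply (uniformProbOn_absCont K).ae_le
  have h1 : ∀ᵐ x ∂((volume : Measure (Eu d)).restrict K), x ∈ K :=
    ae_restrict_mem hK.measurableSet
  have h2 : ∀ᵐ x ∂((volume : Measure (Eu d)).restrict K), x ∉ frontier K := by
    have : (volume : Measure (Eu d)) (frontier K) = 0 := hKv.addHaar_frontier volume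
    exact Measure.restrict_le_self.absolutelyContinuous.ae_le (measure_eq_zero_iff_ae_notMem.1 this)
  filter_upwards [h1, h2] with x hx1 hx2
  by_contra hcon
  exact hx2 ⟨subset_closure hx1, hcon⟩

/-- gradient inequality for convex functions -/
theorem gradient_ineq {φ : Eu d → ℝ} (hφ : ConvexOn ℝ univ φ) {g x : Eu d}
    (hg : HasGradientAt φ g x) (z : Eu d) : φ x + inner ℝ g (z - x) ≤ φ z := by
  set ψ : ℝ → ℝ := fun t => φ (x + t • (z - x)) with hψ
  have hline : ∀ t : ℝ, HasDerivAt (fun t : ℝ => x + t • (z - x)) (z - x) t := by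
    intro t
    have := ((hasDerivAt_id t).smul_const (z - x)).const_add x
    simpa using this
  have hconv : ConvexOn ℝ univ ψ := by
    have h1 := hφ.comp_affineMap (AffineMap.lineMap x z : ℝ →ᵃ[ℝ] Eu d)
    have h2 : (φ ∘ (AffineMap.lineMap x z : ℝ →ᵃ[ℝ] Eu d)) = ψ := by
      funext t
      simp [hψ, AffineMap.lineMap_apply, add_comm]
    rw [h2] at h1
    simpa using h1
  have hder : HasDerivAt ψ (inner ℝ g (z - x)) 0 := by
    have h1 : HasFDerivAt φ (InnerProductSpace.toDual ℝ (Eu d) g) (x + (0 : ℝ) • (z - x)) := by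
      simpa using hg.hasFDerivAt
    have h2 := h1.comp_hasDerivAt (0 : ℝ) (hline 0)
    rw [InnerProductSpace.toDual_apply_apply] at h2
    exact h2
  have := hconv.le_slope_of_hasDerivAt (mem_univ (0 : ℝ)) (mem_univ (1 : ℝ)) one_pos hder
  rw [slope_def_field] at this
  simp only [hψ, one_smul, zero_smul, add_zero, sub_zero, div_one, add_sub_cancel] at this
  linarith

theorem norm_gradient_le {φ : Eu d → ℝ} {L : ℝ≥0} (hL : LipschitzWith L φ) {g x : Eu d}
    (hg : HasGradientAt φ g x) : ‖g‖ ≤ L := by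
  have := hg.hasFDerivAt.le_of_lipschitz hL
  simpa using this

end Basics

section Conj

variable {d : ℕ}

/-- conjugate over `K` -/
noncomputable def conj (K : Set (Eu d)) (φ : Eu d → ℝ) (y : Eu d) : ℝ :=
  ⨆ x : K, (inner ℝ (x : Eu d) y - φ x)

theorem conj_bdd {K : Set (Eu d)} (hK : IsCompact K) {φ : Eu d → ℝ} (hφ : Continuous φ)
    (y : Eu d) : BddAbove (range fun x : K => (inner ℝ (x : Eu d) y - φ x)) := by
  have hc : ContinuousOn (fun x : Eu d => inner ℝ x y - φ x) K :=
    ((continuous_id.inner continuous_const).sub hφ).continuousOn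
  have := (hK.image_of_continuousOn hc).bddAbove
  refine this.mono ?_
  rintro _ ⟨x, rfl⟩
  exact ⟨x, x.2, rfl⟩

theorem le_conj {K : Set (Eu d)} (hK : IsCompact K) {φ : Eu d → ℝ} (hφ : Continuous φ)
    {x : Eu d} (hx : x ∈ K) (y : Eu d) : inner ℝ x y - φ x ≤ conj K φ y :=
  le_ciSup (conj_bdd hK hφ y) (⟨x, hx⟩ : K)

theorem conj_le {K : Set (Eu d)} (hne : K.Nonempty) {φ : Eu d → ℝ} {y : Eu d} {c : ℝ}
    (h : ∀ x ∈ K, inner ℝ x y - φ x ≤ c) : conj K φ y ≤ c := by
  have : Nonempty K := hne.to_subtype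
  exact ciSup_le fun x => h x x.2

theorem conj_lipschitz {K : Set (Eu d)} (hK : IsCompact K) (hne : K.Nonempty) {φ : Eu d → ℝ}
    (hφ : Continuous φ) : ∃ R : ℝ≥0, LipschitzWith R (conj K φ) := by
  obtain ⟨R, hR⟩ := hK.isBounded.exists_norm_le
  refine ⟨Real.toNNReal R, LipschitzWith.of_dist_le_mul fun y z => ?_⟩
  have hR0 : 0 ≤ R := by
    obtain ⟨x, hx⟩ := hne
    exact (norm_nonneg x).trans (hR x hx)
  rw [Real.coe_toNNReal _ hR0]
  have key : ∀ y z : Eu d, conj K φ y ≤ conj K φ z + R * dist y z := by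
    intro y z
    apply conj_le hne
    intro x hx
    have h1 := le_conj hK hφ hx z
    have h2 : inner ℝ x y - inner ℝ x z ≤ R * dist y z := by
      rw [← inner_sub_right, dist_eq_norm]
      calc inner ℝ x (y - z) ≤ ‖x‖ * ‖y - z‖ := real_inner_le_norm _ _
        _ ≤ R * ‖y - z‖ := by gcongr; exact hR x hx
    linarith
  rw [Real.dist_eq, abs_le]
  constructor
  · have := key z y
    rw [dist_comm] at this
    linarith
  · have := key y z
    linarith

end Conj

section Main

variable {d : ℕ}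

theorem lintegral_cost_eq {ρ : Measure (Eu d)} [IsProbabilityMeasure ρ] {T : Eu d → Eu d}
    (hT : Measurable T) {R L : ℝ} (hR : ∀ᵐ x ∂ρ, ‖x‖ ≤ R) (hL : ∀ᵐ x ∂ρ, ‖T x‖ ≤ L) :
    Integrable (fun x => ‖x - T x‖ ^ 2) ρ ∧
    ∫⁻ x, ‖x - T x‖ₑ ^ 2 ∂ρ = ENNReal.ofReal (∫ x, ‖x - T x‖ ^ 2 ∂ρ) := by
  have hint : Integrable (fun x => ‖x - T x‖ ^ 2) ρ := by
    refine Integrable.of_bound ((measurable_id.sub hT).norm.pow_const 2).aestronglyMeasurable
      ((R + L) ^ 2) ?_
    filter_upwards [hR, hL] with x h1 h2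
    rw [Real.norm_of_nonneg (by positivity)]
    have h3 : ‖x - T x‖ ≤ R + L := (norm_sub_le _ _).trans (by linarith)
    exact pow_le_pow_left₀ (norm_nonneg _) h3 2
  refine ⟨hint, ?_⟩
  rw [ofReal_integral_eq_lintegral_ofReal hint (Eventually.of_forall fun x => by positivity)]
  refine lintegral_congr fun x => ?_
  rw [ENNReal.ofReal_pow (norm_nonneg _), ofReal_norm]

theorem integral_cost_eq {ρ : Measure (Eu d)} [IsProbabilityMeasure ρ] {T : Eu d → Eu d}
    (hT : Measurable T) {R L : ℝ} (hR : ∀ᵐ x ∂ρ, ‖x‖ ≤ R) (hL : ∀ᵐ x ∂ρ, ‖T x‖ ≤ L) :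
    Integrable (fun x => inner ℝ x (T x)) ρ ∧
    ∫ x, ‖x - T x‖ ^ 2 ∂ρ = ∫ x, ‖x‖ ^ 2 ∂ρ - 2 * ∫ x, inner ℝ x (T x) ∂ρ
      + ∫ y, ‖y‖ ^ 2 ∂(ρ.map T) := by
  have hi1 : Integrable (fun x : Eu d => ‖x‖ ^ 2) ρ := by
    refine Integrable.of_bound (measurable_id.norm.pow_const 2).aestronglyMeasurable
      (R ^ 2) ?_
    filter_upwards [hR] with x h1
    rw [Real.norm_of_nonneg (by positivity)]
    exact pow_le_pow_left₀ (norm_nonneg _) h1 2
  have hi2 : Integrable (fun x : Eu d => ‖T x‖ ^ 2) ρ := by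
    refine Integrable.of_bound (hT.norm.pow_const 2).aestronglyMeasurable
      (L ^ 2) ?_
    filter_upwards [hL] with x h1
    rw [Real.norm_of_nonneg (by positivity)]
    exact pow_le_pow_left₀ (norm_nonneg _) h1 2
  have hi3 : Integrable (fun x => inner ℝ x (T x)) ρ := by
    refine Integrable.of_bound (measurable_id.inner hT).aestronglyMeasurable
      (R * L) ?_
    filter_upwards [hR, hL] with x h1 h2
    rw [Real.norm_eq_abs]
    calc |inner ℝ x (T x)| ≤ ‖x‖ * ‖T x‖ := abs_real_inner_le_norm _ _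
      _ ≤ R * L := mul_le_mul h1 h2 (norm_nonneg _) ((norm_nonneg _).trans h1)
  refine ⟨hi3, ?_⟩
  have e1 : (fun x => ‖x - T x‖ ^ 2) = fun x => (‖x‖ ^ 2 - 2 * inner ℝ x (T x)) + ‖T x‖ ^ 2 := by
    funext x
    rw [norm_sub_sq_real]
  rw [e1, integral_add (f := fun x => ‖x‖ ^ 2 - 2 * inner ℝ x (T x)) (g := fun x => ‖T x‖ ^ 2)
      (hi1.sub (hi3.const_mul 2)) hi2,
    integral_sub (f := fun x => ‖x‖ ^ 2) (g := fun x => 2 * inner ℝ x (T x))
      hi1 (hi3.const_mul 2),
    integral_const_mul, integral_map (f := fun y => ‖y‖ ^ 2) hT.aemeasurable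
      (measurable_norm.pow_const 2).aestronglyMeasurable]

theorem optimalUnique : OptimalUnique := by
  intro d K hK hKv hKi μ φ hφ L hL T₀ hT₀ hgrad hmap
  have := isProb_uniformProbOn hK hKi
  set ρ := uniformProbOn K with hρ
  have hne : K.Nonempty := hKi.mono interior_subset
  obtain ⟨R, hRK⟩ := hK.isBounded.exists_norm_le
  have hint : ∀ᵐ x ∂ρ, x ∈ interior K := ae_mem_interior hK hKv
  have hR : ∀ᵐ x ∂ρ, ‖x‖ ≤ R := by
    filter_upwards [hint] with x hx
    exact hRK x (interior_subset hx)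
  have hL₀ : ∀ᵐ x ∂ρ, ‖T₀ x‖ ≤ L := by
    filter_upwards [hgrad] with x hx using norm_gradient_le hL hx
  have hφc : Continuous φ := hL.continuous
  obtain ⟨R', hR'⟩ := conj_lipschitz hK hne hφc
  have hcc : Continuous (conj K φ) := hR'.continuous
  -- bound for other maps
  have hms : MeasurableSet {y : Eu d | ¬ ‖y‖ ≤ L} :=
    (measurableSet_le measurable_norm measurable_const).compl
  have hball : μ {y | ¬ ‖y‖ ≤ L} = 0 := by
    rw [← hmap, Measure.map_apply hT₀ hms]
    exact hL₀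
  have hLS : ∀ S : Eu d → Eu d, Measurable S → ρ.map S = μ → ∀ᵐ x ∂ρ, ‖S x‖ ≤ L := by
    intro S hS hSm
    rw [← hSm, Measure.map_apply hS hms] at hball
    exact hball
  -- the basic inequality
  have hφb : ∃ B : ℝ, ∀ x ∈ K, |φ x| ≤ B := by
    obtain ⟨B, hB⟩ := (hK.image hφc).isBounded.exists_norm_le
    exact ⟨B, fun x hx => by simpa using hB (φ x) ⟨x, hx, rfl⟩⟩
  obtain ⟨B, hB⟩ := hφb
  have hiφ : Integrable φ ρ := by
    refine Integrable.of_bound hφc.aestronglyMeasurable B ?_
    filter_upwards [hint] with x hx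
    simpa using hB x (interior_subset hx)
  have hconjb : ∀ y : Eu d, ‖y‖ ≤ L → |conj K φ y| ≤ |conj K φ 0| + R' * L := by
    intro y hy
    have h1 := hR'.dist_le_mul y 0
    rw [Real.dist_eq, dist_zero_right] at h1
    have h2 : |conj K φ y| ≤ |conj K φ 0| + |conj K φ y - conj K φ 0| := by
      have := abs_add_le (conj K φ 0) (conj K φ y - conj K φ 0)
      simpa using this
    have h3 : (R' : ℝ) * ‖y‖ ≤ R' * L := by gcongr
    linarith
  have hiconj : ∀ S : Eu d → Eu d, Measurable S → ρ.map S = μ →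
      Integrable (fun x => conj K φ (S x)) ρ := by
    intro S hS hSm
    refine Integrable.of_bound (hcc.measurable.comp hS).aestronglyMeasurable
      (|conj K φ 0| + R' * L) ?_
    filter_upwards [hLS S hS hSm] with x hx
    exact hconjb _ hx
  have hconjint : ∀ S : Eu d → Eu d, Measurable S → ρ.map S = μ →
      ∫ x, conj K φ (S x) ∂ρ = ∫ y, conj K φ y ∂μ := by
    intro S hS hSm
    rw [← hSm, integral_map hS.aemeasurable hcc.aestronglyMeasurable]
  have hge : ∀ S : Eu d → Eu d, ∀ᵐ x ∂ρ, 0 ≤ φ x + conj K φ (S x) - inner ℝ x (S x) := by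
    intro S
    filter_upwards [hint] with x hx
    have := le_conj hK hφc (interior_subset hx) (S x)
    linarith
  have heq₀ : ∀ᵐ x ∂ρ, φ x + conj K φ (T₀ x) - inner ℝ x (T₀ x) = 0 := by
    filter_upwards [hint, hgrad] with x hx hgx
    apply le_antisymm
    · have : conj K φ (T₀ x) ≤ inner ℝ x (T₀ x) - φ x := by
        apply conj_le hne
        intro z hz
        have h1 := gradient_ineq hφ hgx z
        rw [inner_sub_right, real_inner_comm z, real_inner_comm x] at h1
        linarith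
      linarith
    · have := le_conj hK hφc (interior_subset hx) (T₀ x)
      linarith
  have hgap : ∀ S : Eu d → Eu d, Measurable S → ρ.map S = μ →
      ∫ x, (φ x + conj K φ (S x) - inner ℝ x (S x)) ∂ρ
        = ∫ x, φ x ∂ρ + ∫ y, conj K φ y ∂μ - ∫ x, inner ℝ x (S x) ∂ρ := by
    intro S hS hSm
    rw [integral_sub (f := fun x => φ x + conj K φ (S x)) (g := fun x => inner ℝ x (S x))
        (hiφ.add (hiconj S hS hSm)) (integral_cost_eq hS hR (hLS S hS hSm)).1,
      integral_add (f := fun x => φ x) (g := fun x => conj K φ (S x)) hiφ (hiconj S hS hSm),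
      hconjint S hS hSm]
  have hgap₀ : ∫ x, φ x ∂ρ + ∫ y, conj K φ y ∂μ - ∫ x, inner ℝ x (T₀ x) ∂ρ = 0 := by
    rw [← hgap T₀ hT₀ hmap]
    rw [integral_congr_ae heq₀]
    simp
  have hcost : ∀ S : Eu d → Eu d, Measurable S → ρ.map S = μ →
      ∫ x, ‖x - S x‖ ^ 2 ∂ρ = ∫ x, ‖x - T₀ x‖ ^ 2 ∂ρ
        + 2 * ∫ x, (φ x + conj K φ (S x) - inner ℝ x (S x)) ∂ρ := by
    intro S hS hSm
    rw [hgap S hS hSm, (integral_cost_eq hS hR (hLS S hS hSm)).2,
      (integral_cost_eq hT₀ hR hL₀).2, hSm, hmap]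
    linarith
  refine ⟨⟨hT₀, hmap, ?_⟩, ?_⟩
  · intro S hS hSm
    rw [(lintegral_cost_eq hT₀ hR hL₀).2, (lintegral_cost_eq hS hR (hLS S hS hSm)).2]
    apply ENNReal.ofReal_le_ofReal
    rw [hcost S hS hSm]
    have := integral_nonneg_of_ae (hge S)
    linarith
  · intro T hT
    obtain ⟨hTm, hTmap, hTopt⟩ := hT
    have h1 := hTopt T₀ hT₀ hmap
    rw [(lintegral_cost_eq hT₀ hR hL₀).2, (lintegral_cost_eq hTm hR (hLS T hTm hTmap)).2,
      ENNReal.ofReal_le_ofReal_iff (integral_nonneg fun x => by positivity),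
      hcost T hTm hTmap] at h1
    have h2 := integral_nonneg_of_ae (hge T)
    have h3 : ∫ x, (φ x + conj K φ (T x) - inner ℝ x (T x)) ∂ρ = 0 := by
      apply le_antisymm
      · linarith
      · exact h2
    have hiT : Integrable (fun x => φ x + conj K φ (T x) - inner ℝ x (T x)) ρ :=
      (hiφ.add (hiconj T hTm hTmap)).sub (integral_cost_eq hTm hR (hLS T hTm hTmap)).1
    have h4 := (integral_eq_zero_iff_of_nonneg_ae (hge T) hiT).1 h3
    filter_upwards [h4, hint, hgrad] with x hx hxi hgx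
    have hx' : φ x + conj K φ (T x) - inner ℝ x (T x) = 0 := hx
    -- local max
    have hmax : IsLocalMax (fun z => (InnerProductSpace.toDual ℝ (Eu d) (T x)) z - φ z) x := by
      filter_upwards [isOpen_interior.mem_nhds hxi] with z hz
      have h5 := le_conj hK hφc (interior_subset hz) (T x)
      simp only [InnerProductSpace.toDual_apply_apply]
      rw [real_inner_comm z, real_inner_comm x]
      linarith
    have hder := ((InnerProductSpace.toDual ℝ (Eu d) (T x)).hasFDerivAt (x := x)).sub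
      hgx.hasFDerivAt
    have h6 := hmax.hasFDerivAt_eq_zero hder
    have h7 := sub_eq_zero.1 h6
    exact (InnerProductSpace.toDual ℝ (Eu d)).injective h7

end Main

end Crest.Agent.QT
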