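import Mathlib
import Crest.Agent.QTDefs

/-! Row 82: basic facts on the uniform probability measure of a convex body, and the
Prékopa–Leindler inequality transported to it. -/

set_option autoImplicit false

namespace Crest.Agent.QT

open MeasureTheory Set
open scoped ENNReal NNReal
open Crest.AnalysisR.OT

variable {d : ℕ} {K : Set (Eu d)}

theorem vol_ne_zero (hKi : (interior K).Nonempty) : (volume : Measure (Eu d)) K ≠ 0 := by
  intro h
  have h2 : (volume : Measure (Eu d)) (interior K) = 0 := measure_mono_null interior_subset h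
  exact (isOpen_interior.measure_pos volume hKi).ne' h2

theorem vol_ne_top (hKc : IsCompact K) : (volume : Measure (Eu d)) K ≠ ∞ :=
  hKc.measure_lt_top.ne

theorem isProb_unif (hKc : IsCompact K) (hKi : (interior K).Nonempty) :
    IsProbabilityMeasure (uniformProbOn K) := by
  constructor
  unfold uniformProbOn
  rw [Measure.smul_apply, Measure.restrict_apply_univ, smul_eq_mul]
  exact ENNReal.inv_mul_cancel (vol_ne_zero hKi) (vol_ne_top hKc)

theorem unif_ac : (uniformProbOn K) ≪ (volume : Measure (Eu d)) := by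
  unfold uniformProbOn
  exact (Measure.absolutelyContinuous_of_le Measure.restrict_le_self).smul_left _

theorem unif_compl (hKc : IsCompact K) : (uniformProbOn K) Kᶜ = 0 := by
  unfold uniformProbOn
  rw [Measure.smul_apply, Measure.restrict_apply hKc.measurableSet.compl]
  simp

theorem ae_mem (hKc : IsCompact K) : ∀ᵐ x ∂(uniformProbOn K), x ∈ K := by
  rw [ae_iff]
  exact unif_compl hKc

theorem unif_ae_mem_interior (hKc : IsCompact K) (hKv : Convex ℝ K) :
    ∀ᵐ x ∂(uniformProbOn K), x ∈ interior K := by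
  have h1 : (uniformProbOn K) (frontier K) = 0 :=
    unif_ac (hKv.addHaar_frontier volume)
  have h2 : ∀ᵐ x ∂(uniformProbOn K), x ∉ frontier K := by
    rw [ae_iff]; simpa using h1
  filter_upwards [ae_mem hKc, h2] with x hx hx2
  by_contra hx3
  exact hx2 ⟨subset_closure hx, hx3⟩

theorem integrable_of_continuous {F : Type*} [NormedAddCommGroup F] [NormedSpace ℝ F]
    (hKc : IsCompact K) (hKi : (interior K).Nonempty) {f : Eu d → F}
    (hf : Continuous f) : Integrable f (uniformProbOn K) := by
  unfold uniformProbOn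
  refine Integrable.smul_measure ?_ (ENNReal.inv_ne_top.mpr (vol_ne_zero hKi))
  exact hf.continuousOn.integrableOn_compact hKc

theorem setIntegral_unif (f : Eu d → ℝ) {A : Set (Eu d)}
    (hA : MeasurableSet A) :
    ∫ x in A, f x ∂(uniformProbOn K) = (volume K).toReal⁻¹ * ∫ x in A ∩ K, f x := by
  unfold uniformProbOn
  rw [Measure.restrict_smul, integral_smul_measure, Measure.restrict_restrict hA,
    ENNReal.toReal_inv, smul_eq_mul]

/-- Prékopa–Leindler for the uniform measure. -/
theorem pl_unif (hPL : PrekopaLeindler) (hKc : IsCompact K)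
    {A B M : Set (Eu d)} (hA : MeasurableSet A) (hB : MeasurableSet B) (hM : MeasurableSet M)
    {f g h : Eu d → ℝ} (hf : Continuous f) (hg : Continuous g) (hh : Continuous h)
    (hf0 : ∀ x, 0 ≤ f x) (hg0 : ∀ x, 0 ≤ g x) (hh0 : ∀ x, 0 ≤ h x)
    (hmid : ∀ a b, a ∈ A → a ∈ K → b ∈ B → b ∈ K → (1 / 2 : ℝ) • (a + b) ∈ M ∧
      (1 / 2 : ℝ) • (a + b) ∈ K ∧ f a * g b ≤ h ((1 / 2 : ℝ) • (a + b)) ^ 2) :
    (∫ x in A, f x ∂(uniformProbOn K)) * (∫ x in B, g x ∂(uniformProbOn K)) ≤
      (∫ x in M, h x ∂(uniformProbOn K)) ^ 2 := by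
  have key : (∫ x in A ∩ K, f x) * (∫ x in B ∩ K, g x) ≤ (∫ x in M ∩ K, h x) ^ 2 := by
    have hint : ∀ (u : Eu d → ℝ) (S : Set (Eu d)), Continuous u → 
        Integrable u ((volume : Measure (Eu d)).restrict (S ∩ K)) := fun u S hu =>
      (hu.continuousOn.integrableOn_compact hKc).mono_set inter_subset_right
    have hconv : ∀ (u : Eu d → ℝ) (S : Set (Eu d)), Continuous u → (∀ x, 0 ≤ u x) →
        MeasurableSet S →
        ∫⁻ x, (S ∩ K).indicator (fun x => ENNReal.ofReal (u x)) x =
          ENNReal.ofReal (∫ x in S ∩ K, u x) := by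
      intro u S hu hu0 hS
      rw [lintegral_indicator (hS.inter hKc.measurableSet),
        ofReal_integral_eq_lintegral_ofReal (hint u S hu) (Filter.Eventually.of_forall hu0)]
    have h1 := hPL d ((A ∩ K).indicator (fun x => ENNReal.ofReal (f x)))
      ((B ∩ K).indicator (fun x => ENNReal.ofReal (g x)))
      ((M ∩ K).indicator (fun x => ENNReal.ofReal (h x)))
      ((by fun_prop : Measurable fun x => ENNReal.ofReal (f x)).indicator
        (hA.inter hKc.measurableSet))
      ((by fun_prop : Measurable fun x => ENNReal.ofReal (g x)).indicator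
        (hB.inter hKc.measurableSet))
      ((by fun_prop : Measurable fun x => ENNReal.ofReal (h x)).indicator
        (hM.inter hKc.measurableSet)) ?_
    · rw [hconv f A hf hf0 hA, hconv g B hg hg0 hB, hconv h M hh hh0 hM,
        ← ENNReal.ofReal_mul (integral_nonneg hf0),
        ← ENNReal.ofReal_pow (integral_nonneg hh0)] at h1
      exact (ENNReal.ofReal_le_ofReal_iff (by positivity)).mp h1
    · intro a b
      by_cases ha : a ∈ A ∩ K
      · by_cases hb : b ∈ B ∩ K
        · obtain ⟨h1, h2, h3⟩ := hmid a b ha.1 ha.2 hb.1 hb.2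
          have hm : (1 / 2 : ℝ) • (a + b) ∈ M ∩ K := ⟨h1, h2⟩
          rw [indicator_of_mem ha, indicator_of_mem hb, indicator_of_mem hm,
            ← ENNReal.ofReal_mul (hf0 a), ← ENNReal.ofReal_pow (hh0 _)]
          exact ENNReal.ofReal_le_ofReal h3
        · rw [indicator_of_notMem hb]; simp
      · rw [indicator_of_notMem ha]; simp
  rw [setIntegral_unif f hA, setIntegral_unif g hB, setIntegral_unif h hM]
  have hv : 0 ≤ ((volume : Measure (Eu d)) K).toReal⁻¹ := by positivity
  nlinarith [mul_le_mul_of_nonneg_left key (mul_nonneg hv hv)]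

end Crest.Agent.QT
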