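import Mathlib
import Crest.Agent.QTCell
import Crest.Agent.QTUnif

/-! Row 82: the semidiscrete potential and weak duality. -/

set_option autoImplicit false

namespace Crest.Agent.QT

open MeasureTheory Set
open scoped ENNReal NNReal
open Crest.AnalysisR.OT

variable {d N : ℕ} {K : Set (Eu d)}

theorem le_pot (y : Fin N → Eu d) (c : Fin N → ℝ) (x : Eu d) (i : Fin N) :
    inner ℝ x (y i) - c i ≤ pot y c x :=
  le_ciSup (f := fun i => inner ℝ x (y i) - c i) (Set.finite_range _).bddAbove i

theorem pot_eq_of_mem (y : Fin N → Eu d) (c : Fin N → ℝ) {x : Eu d} {i : Fin N}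
    (hx : x ∈ cell y c i) : pot y c x = inner ℝ x (y i) - c i := by
  haveI : Nonempty (Fin N) := ⟨i⟩
  exact le_antisymm (ciSup_le hx) (le_pot y c x i)

theorem exists_cell (hN : 0 < N) (y : Fin N → Eu d) (c : Fin N → ℝ) (x : Eu d) :
    ∃ i, x ∈ cell y c i := by
  have := iUnion_cell hN y c
  have hx : x ∈ ⋃ i, cell y c i := by rw [this]; trivial
  exact mem_iUnion.mp hx

theorem pot_le_add (hN : 0 < N) (y : Fin N → Eu d) (c : Fin N → ℝ) {M : ℝ}
    (hM : ∀ i, ‖y i‖ ≤ M) (x x' : Eu d) : pot y c x ≤ pot y c x' + M * dist x x' := by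
  obtain ⟨i, hi⟩ := exists_cell hN y c x
  rw [pot_eq_of_mem y c hi]
  have h1 := le_pot y c x' i
  have h2 : inner ℝ x (y i) = inner ℝ x' (y i) + inner ℝ (x - x') (y i) := by
    rw [inner_sub_left]; ring
  have h3 : inner ℝ (x - x') (y i) ≤ ‖x - x'‖ * ‖y i‖ := real_inner_le_norm _ _
  have h4 : ‖x - x'‖ * ‖y i‖ ≤ M * dist x x' := by
    rw [dist_eq_norm, mul_comm]
    have := hM i
    gcongr
  linarith

theorem pot_lipschitz (hN : 0 < N) (y : Fin N → Eu d) (c : Fin N → ℝ) {M : ℝ≥0}
    (hM : ∀ i, ‖y i‖ ≤ M) : LipschitzWith M (pot y c) :=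
  LipschitzWith.of_le_add_mul M (pot_le_add hN y c hM)

theorem pot_continuous (hN : 0 < N) (y : Fin N → Eu d) (c : Fin N → ℝ) :
    Continuous (pot y c) := by
  set M : ℝ≥0 := ⟨∑ i, ‖y i‖, by positivity⟩ with hM
  refine (pot_lipschitz hN y c (M := M) fun i => ?_).continuous
  exact Finset.single_le_sum (f := fun i => ‖y i‖) (fun _ _ => norm_nonneg _) (Finset.mem_univ i)

theorem pot_convex (hN : 0 < N) (y : Fin N → Eu d) (c : Fin N → ℝ) :
    ConvexOn ℝ univ (pot y c) := by
  refine ⟨convex_univ, fun x _ x' _ a b ha hb hab => ?_⟩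
  obtain ⟨i, hi⟩ := exists_cell hN y c (a • x + b • x')
  rw [pot_eq_of_mem y c hi, inner_add_left, real_inner_smul_left, real_inner_smul_left]
  have h1 := mul_le_mul_of_nonneg_left (le_pot y c x i) ha
  have h2 := mul_le_mul_of_nonneg_left (le_pot y c x' i) hb
  simp only [smul_eq_mul]
  have h3 : c i = a * c i + b * c i := by rw [← add_mul, hab, one_mul]
  linarith

theorem pot_le_add_dist (hN : 0 < N) (y : Fin N → Eu d) (c c' : Fin N → ℝ) (x : Eu d) :
    pot y c x ≤ pot y c' x + dist c c' := by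
  obtain ⟨i, hi⟩ := exists_cell hN y c x
  rw [pot_eq_of_mem y c hi]
  have h1 := le_pot y c' x i
  have h2 := dist_le_pi_dist c c' i
  rw [Real.dist_eq] at h2
  have h3 := (abs_le.mp h2).1
  linarith

theorem integrable_supp {F : Type*} [NormedAddCommGroup F] [NormedSpace ℝ F]
    (hKc : IsCompact K) (σ : Measure (Eu d)) [IsFiniteMeasure σ] (hσK : σ Kᶜ = 0)
    {f : Eu d → F} (hf : Continuous f) : Integrable f σ := by
  have h1 : IntegrableOn f K σ := hf.continuousOn.integrableOn_compact hKc
  have h2 : σ.restrict K = σ := Measure.restrict_eq_self_of_ae_mem (by rw [ae_iff]; exact hσK)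
  rwa [IntegrableOn, h2] at h1

section Duality

variable (hKc : IsCompact K) (σ : Measure (Eu d)) [IsProbabilityMeasure σ] (hσ : σ ≪ volume)
  (hσK : σ Kᶜ = 0) (hN : 0 < N)

include hKc hσ hσK hN

/-- weak duality -/
theorem weak_duality (y : Fin N → Eu d) (c : Fin N → ℝ) (z : Fin N → Eu d)
    (hz : Function.Injective z) (c' : Fin N → ℝ) (m : Fin N → ℝ)
    (hm : ∀ i, σ.real (cell z c' i) = m i) :
    ∑ i, inner ℝ (y i) (∫ x in cell z c' i, x ∂σ) ≤ (∫ x, pot y c x ∂σ) + ∑ i, m i * c i := by
  have hpc := pot_continuous hN y c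
  have hint : Integrable (pot y c) σ := integrable_supp hKc σ hσK hpc
  rw [← sum_integral_cell hN z hz c' σ hσ (pot y c) hint, ← Finset.sum_add_distrib]
  refine Finset.sum_le_sum fun i _ => ?_
  have hid : Integrable (fun x : Eu d => x) (σ.restrict (cell z c' i)) :=
    (integrable_supp hKc σ hσK continuous_id').restrict
  have h1 : ∫ x in cell z c' i, (inner ℝ (y i) x - c i) ∂σ ≤ ∫ x in cell z c' i, pot y c x ∂σ := by
    refine integral_mono ?_ hint.restrict fun x => ?_
    · exact (integrable_supp hKc σ hσK (by fun_prop)).restrict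
    · show inner ℝ (y i) x - c i ≤ pot y c x
      rw [real_inner_comm]
      exact le_pot y c x i
  rw [integral_sub (integrable_supp hKc σ hσK (by fun_prop)).restrict (integrable_const _),
    integral_inner hid, setIntegral_const, smul_eq_mul, hm i] at h1
  linarith

/-- strong duality -/
theorem strong_duality (y : Fin N → Eu d) (hy : Function.Injective y) (c : Fin N → ℝ)
    (m : Fin N → ℝ) (hm : ∀ i, σ.real (cell y c i) = m i) :
    ∑ i, inner ℝ (y i) (∫ x in cell y c i, x ∂σ) = (∫ x, pot y c x ∂σ) + ∑ i, m i * c i := by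
  have hpc := pot_continuous hN y c
  have hint : Integrable (pot y c) σ := integrable_supp hKc σ hσK hpc
  rw [← sum_integral_cell hN y hy c σ hσ (pot y c) hint, ← Finset.sum_add_distrib]
  refine Finset.sum_congr rfl fun i _ => ?_
  have hid : Integrable (fun x : Eu d => x) (σ.restrict (cell y c i)) :=
    (integrable_supp hKc σ hσK continuous_id').restrict
  have h1 : ∫ x in cell y c i, pot y c x ∂σ = ∫ x in cell y c i, (inner ℝ (y i) x - c i) ∂σ := by
    refine setIntegral_congr_fun (measurableSet_cell y c i) fun x hx => ?_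
    show pot y c x = inner ℝ (y i) x - c i
    rw [real_inner_comm]
    exact pot_eq_of_mem y c hx
  rw [h1, integral_sub (integrable_supp hKc σ hσK (by fun_prop)).restrict (integrable_const _),
    integral_inner hid, setIntegral_const, smul_eq_mul, hm i]
  ring

theorem opt_cell (y : Fin N → Eu d) (hy : Function.Injective y) (c : Fin N → ℝ)
    (m : Fin N → ℝ) (hm : ∀ i, σ.real (cell y c i) = m i)
    (z : Fin N → Eu d) (hz : Function.Injective z) (c' : Fin N → ℝ)
    (hm' : ∀ i, σ.real (cell z c' i) = m i) :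
    ∑ i, inner ℝ (y i) (∫ x in cell z c' i, x ∂σ) ≤
      ∑ i, inner ℝ (y i) (∫ x in cell y c i, x ∂σ) := by
  rw [strong_duality hKc σ hσ hσK hN y hy c m hm]
  exact weak_duality hKc σ hσ hσK hN y c z hz c' m hm'

end Duality

end Crest.Agent.QT
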