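import Crest.Agent.QTDefs2
import Crest.Agent.QTUnif
import Crest.Agent.QTCell
import Crest.Agent.QTPot
import Crest.Agent.QTOpt

/-! Row 82 (S0109): final assembly. -/

set_option autoImplicit false

namespace Crest.Agent.QT

open MeasureTheory Set Filter Topology
open scoped ENNReal NNReal
open Crest.AnalysisR.OT

namespace Asm

/-! ### gradients of potentials -/

section Grad

variable {d N : ℕ} {y : Fin N → Eu d} {c : Fin N → ℝ}

lemma gradient_pot_sub {a : ℝ} {x : Eu d} {i : Fin N}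
    (hx : x ∈ cell y c i) (hd : DifferentiableAt ℝ (fun w => pot y c w - a) x) :
    gradient (fun w => pot y c w - a) x = y i := by
  have hg := hd.hasGradientAt
  set g := gradient (fun w => pot y c w - a) x with hgdef
  have h1 : HasFDerivAt (fun w : Eu d => (pot y c w - a) - inner ℝ (y i) w)
      ((InnerProductSpace.toDual ℝ (Eu d)) g - (InnerProductSpace.toDual ℝ (Eu d)) (y i)) x := by
    refine hg.hasFDerivAt.sub ?_
    exact ((InnerProductSpace.toDual ℝ (Eu d)) (y i)).hasFDerivAt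
  have h2 : IsLocalMin (fun w : Eu d => (pot y c w - a) - inner ℝ (y i) w) x := by
    refine Filter.Eventually.of_forall fun w => ?_
    have h3 := pot_eq_of_mem y c hx
    have h4 := le_pot y c w i
    simp only
    rw [h3, real_inner_comm x (y i), real_inner_comm w (y i)]
    linarith
  have h3 := h2.hasFDerivAt_eq_zero h1
  have h4 : (InnerProductSpace.toDual ℝ (Eu d)) g = (InnerProductSpace.toDual ℝ (Eu d)) (y i) :=
    sub_eq_zero.1 h3
  exact (InnerProductSpace.toDual ℝ (Eu d)).injective h4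

lemma measurable_gradient' (f : Eu d → ℝ) : Measurable (gradient f) := by
  unfold gradient
  exact ((InnerProductSpace.toDual ℝ (Eu d)).symm.continuous.measurable).comp
    (measurable_fderiv ℝ f)

lemma ae_differentiable {L : ℝ≥0} {f : Eu d → ℝ} (hf : LipschitzWith L f) (K : Set (Eu d)) :
    ∀ᵐ x ∂(uniformProbOn K), DifferentiableAt ℝ f x :=
  (unif_ac (K := K)).ae_le hf.ae_differentiableAt

lemma integral_gradient_pot {K : Set (Eu d)} [IsProbabilityMeasure (uniformProbOn K)]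
    (hN : 0 < N) (hy : Function.Injective y) {m : Fin N → ℝ}
    (hm : ∀ i, (uniformProbOn K).real (cell y c i) = m i) (a : ℝ)
    {f : Eu d → ℝ} (hf : Continuous f) (hb : ∃ C, ∀ x, |f x| ≤ C) {L : ℝ≥0}
    (hL : LipschitzWith L (fun w => pot y c w - a)) :
    ∫ x, f (gradient (fun w => pot y c w - a) x) ∂(uniformProbOn K) = ∑ i, m i * f (y i) := by
  obtain ⟨C, hC⟩ := hb
  have hmeas : Measurable fun x => f (gradient (fun w => pot y c w - a) x) :=
    hf.measurable.comp (measurable_gradient' _)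
  have hint : Integrable (fun x => f (gradient (fun w => pot y c w - a) x)) (uniformProbOn K) :=
    (integrable_const C).mono' hmeas.aestronglyMeasurable
      (Eventually.of_forall fun x => by rw [Real.norm_eq_abs]; exact hC _)
  rw [← sum_integral_cell hN y hy c (uniformProbOn K) unif_ac _ hint]
  refine Finset.sum_congr rfl fun i _ => ?_
  have h1 : ∫ x in cell y c i, f (gradient (fun w => pot y c w - a) x) ∂(uniformProbOn K) =
      ∫ x in cell y c i, f (y i) ∂(uniformProbOn K) := by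
    refine setIntegral_congr_ae (measurableSet_cell y c i) ?_
    filter_upwards [ae_differentiable hL K] with x hx hxc
    rw [gradient_pot_sub hxc hx]
  rw [h1, setIntegral_const, hm, smul_eq_mul]

end Grad

/-! ### discretisation interface -/

/-- statement of (A1) -/
def Discretise : Prop :=
  ∀ (d : ℕ), 2 ≤ d → ∀ (π : Measure (Eu d × Eu d)), IsProbabilityMeasure π →
    ∀ (Y : Set (Eu d)), IsCompact Y → π (Y ×ˢ Y)ᶜ = 0 → ∀ ε : ℝ, 0 < ε →
    ∃ (N : ℕ) (y z : Fin N → Eu d) (m : Fin N → ℝ) (ι : Eu d × Eu d → Fin N),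
      Measurable ι ∧ Function.Injective y ∧ Function.Injective z ∧ (∀ i, 0 < m i) ∧
      ∑ i, m i = 1 ∧ (∀ i, π.real (ι ⁻¹' {i}) = m i) ∧
      (∀ i, Metric.infDist (y i) Y ≤ ε ∧ Metric.infDist (z i) Y ≤ ε) ∧
      ∀ᵐ p ∂π, ‖y (ι p) - p.1‖ ≤ ε ∧ ‖z (ι p) - p.2‖ ≤ ε

lemma sum_eq_integral {Ω : Type*} [MeasurableSpace Ω] {π : Measure Ω} [IsProbabilityMeasure π]
    {N : ℕ} {ι : Ω → Fin N} (hι : Measurable ι) {m : Fin N → ℝ}
    (hm : ∀ i, π.real (ι ⁻¹' {i}) = m i) (g : Fin N → ℝ) :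
    ∑ i, m i * g i = ∫ p, g (ι p) ∂π := by
  have h1 : ∫ p, g (ι p) ∂π = ∫ i, g i ∂(π.map ι) := by
    rw [integral_map hι.aemeasurable (measurable_of_finite g).aestronglyMeasurable]
  have : IsProbabilityMeasure (π.map ι) := Measure.isProbabilityMeasure_map hι.aemeasurable
  rw [h1, integral_fintype Integrable.of_finite]
  refine Finset.sum_congr rfl fun i _ => ?_
  rw [map_measureReal_apply hι (measurableSet_singleton i), hm, smul_eq_mul]

lemma norm_le_of_infDist {d : ℕ} {Y : Set (Eu d)} (hY : IsCompact Y) (hne : Y.Nonempty) {M : ℝ}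
    (hYM : Y ⊆ Metric.closedBall 0 M) {y : Eu d} {ε : ℝ} (hε : ε ≤ 1)
    (h : Metric.infDist y Y ≤ ε) : ‖y‖ ≤ M + 1 := by
  obtain ⟨w, hw, hd⟩ := hY.exists_infDist_eq_dist hne y
  have h1 : ‖w‖ ≤ M := by simpa using hYM hw
  have h2 : dist y w ≤ 1 := by rw [← hd]; exact h.trans hε
  calc ‖y‖ = ‖w + (y - w)‖ := by congr 1; abel
    _ ≤ ‖w‖ + ‖y - w‖ := norm_add_le _ _
    _ ≤ M + 1 := by rw [dist_eq_norm] at h2; linarith

lemma convexOn_sub_const {d : ℕ} {f : Eu d → ℝ} (hf : ConvexOn ℝ univ f) (a : ℝ) :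
    ConvexOn ℝ univ (fun w => f w - a) := by
  refine ⟨convex_univ, fun x _ y _ s t hs ht hst => ?_⟩
  have h := hf.2 (mem_univ x) (mem_univ y) hs ht hst
  simp only [smul_eq_mul] at h ⊢
  have h2 : s * (f x - a) + t * (f y - a) = s * f x + t * f y - a := by
    linear_combination -a * hst
  rw [h2]
  linarith

lemma lipschitz_sub_const {d : ℕ} {L : ℝ≥0} {f : Eu d → ℝ} (hf : LipschitzWith L f) (a : ℝ) :
    LipschitzWith L (fun w => f w - a) := by
  refine LipschitzWith.of_dist_le_mul fun x y => ?_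
  have := hf.dist_le_mul x y
  simpa [Real.dist_eq] using this

/-- semidiscrete approximation -/
lemma approx (hPS : PotStab) (hSD : SemidiscreteExists) (hA1 : Discretise) {d : ℕ} (hd : 2 ≤ d)
    {K : Set (Eu d)} (hKc : IsCompact K) (hKv : Convex ℝ K) (hKi : (interior K).Nonempty)
    {R : ℝ} (hR : 0 < R) (hKR : K ⊆ Metric.closedBall 0 R)
    {Y : Set (Eu d)} (hY : IsCompact Y) (hne : Y.Nonempty) {M : ℝ≥0}
    (hYM : Y ⊆ Metric.closedBall 0 M) {π : Measure (Eu d × Eu d)} [IsProbabilityMeasure π]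
    (hπ : π (Y ×ˢ Y)ᶜ = 0) {ε : ℝ} (hε : 0 < ε) (hε1 : ε ≤ 1) :
    ∃ (φ χ : Eu d → ℝ) (Yf Zf : Eu d × Eu d → Eu d), Measurable Yf ∧ Measurable Zf ∧
      ConvexOn ℝ univ φ ∧ ConvexOn ℝ univ χ ∧ LipschitzWith (M + 1) φ ∧ LipschitzWith (M + 1) χ ∧
      φ 0 = 0 ∧
      ∫ x, (χ x - φ x) ^ 2 ∂(uniformProbOn K) ≤ 1000000 * R ^ 2 * ∫ p, ‖Zf p - Yf p‖ ^ 2 ∂π ∧
      (∀ f : Eu d → ℝ, Continuous f → (∃ C, ∀ x, |f x| ≤ C) →
        ∫ x, f (gradient φ x) ∂(uniformProbOn K) = ∫ p, f (Yf p) ∂π) ∧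
      (∀ f : Eu d → ℝ, Continuous f → (∃ C, ∀ x, |f x| ≤ C) →
        ∫ x, f (gradient χ x) ∂(uniformProbOn K) = ∫ p, f (Zf p) ∂π) ∧
      (∀ᵐ p ∂π, ‖Yf p - p.1‖ ≤ ε ∧ ‖Zf p - p.2‖ ≤ ε) ∧
      (∀ p, ‖Yf p‖ ≤ M + 1 ∧ ‖Zf p‖ ≤ M + 1) := by
  have hρ : IsProbabilityMeasure (uniformProbOn K) := isProb_unif hKc hKi
  obtain ⟨N, y, z, m, ι, hι, hy, hz, hm0, hm1, hm, hinf, hae⟩ := hA1 d hd π inferInstance Y hY hπ ε hε
  have hyM : ∀ i, ‖y i‖ ≤ (M + 1 : ℝ) := fun i => norm_le_of_infDist hY hne hYM hε1 (hinf i).1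
  have hzM : ∀ i, ‖z i‖ ≤ (M + 1 : ℝ) := fun i => norm_le_of_infDist hY hne hYM hε1 (hinf i).2
  have hN : 0 < N := by
    rcases Nat.eq_zero_or_pos N with h | h
    · subst h; simp at hm1
    · exact h
  have hcompl : (uniformProbOn K) (Metric.closedBall 0 R)ᶜ = 0 :=
    measure_mono_null (compl_subset_compl.2 hKR) (unif_compl hKc)
  obtain ⟨B, hB⟩ := hSD d N y hy m hm0 hm1 R (M + 1) hyM
  obtain ⟨c, _, _, hc⟩ := hB (uniformProbOn K) hρ unif_ac hcompl
  obtain ⟨B', hB'⟩ := hSD d N z hz m hm0 hm1 R (M + 1) hzM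
  obtain ⟨c', _, _, hc'⟩ := hB' (uniformProbOn K) hρ unif_ac hcompl
  have hcr : ∀ i, (uniformProbOn K).real (cell y c i) = m i := fun i => by
    rw [measureReal_def, hc i, ENNReal.toReal_ofReal (hm0 i).le]
  have hcr' : ∀ i, (uniformProbOn K).real (cell z c' i) = m i := fun i => by
    rw [measureReal_def, hc' i, ENNReal.toReal_ofReal (hm0 i).le]
  obtain ⟨A, hA⟩ := hPS d K hKc hKv hKi R hR hKR N y z hy hz m hm0 hm1 c c' hcr hcr'
  have hyM' : ∀ i, ‖y i‖ ≤ ((M + 1 : ℝ≥0) : ℝ) := fun i => by push_cast; exact hyM i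
  have hzM' : ∀ i, ‖z i‖ ≤ ((M + 1 : ℝ≥0) : ℝ) := fun i => by push_cast; exact hzM i
  have hL1 : LipschitzWith (M + 1) (fun w => pot y c w - pot y c 0) :=
    lipschitz_sub_const (pot_lipschitz hN y c hyM') _
  have hL2 : LipschitzWith (M + 1) (fun w => pot z c' w - (A + pot y c 0)) :=
    lipschitz_sub_const (pot_lipschitz hN z c' hzM') _
  refine ⟨fun w => pot y c w - pot y c 0, fun w => pot z c' w - (A + pot y c 0),
    fun p => y (ι p), fun p => z (ι p), (measurable_of_finite y).comp hι,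
    (measurable_of_finite z).comp hι, convexOn_sub_const (pot_convex hN y c) _,
    convexOn_sub_const (pot_convex hN z c') _, hL1, hL2, by simp, ?_, ?_, ?_, hae,
    fun p => ⟨hyM _, hzM _⟩⟩
  · have h1 : ∫ p, ‖z (ι p) - y (ι p)‖ ^ 2 ∂π = ∑ i, m i * ‖z i - y i‖ ^ 2 :=
      (sum_eq_integral hι hm (fun i => ‖z i - y i‖ ^ 2)).symm
    rw [h1]
    refine le_trans (le_of_eq ?_) hA
    refine integral_congr_ae (Eventually.of_forall fun x => ?_)
    simp only
    ring
  · intro f hf hb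
    rw [integral_gradient_pot hN hy hcr _ hf hb hL1]
    exact sum_eq_integral hι hm (fun i => f (y i))
  · intro f hf hb
    rw [integral_gradient_pot hN hz hcr' _ hf hb hL2]
    exact sum_eq_integral hι hm (fun i => f (z i))

/-! ### limits -/

/-- statement of (A2) -/
def SubseqLimit : Prop :=
  ∀ (d : ℕ) (L : ℝ≥0) (B : ℝ) (F G : ℕ → Eu d → ℝ), (∀ n, LipschitzWith L (F n)) →
    (∀ n, LipschitzWith L (G n)) → (∀ n, |F n 0| ≤ B) → (∀ n, |G n 0| ≤ B) →
    ∃ (s : ℕ → ℕ) (f g : Eu d → ℝ), StrictMono s ∧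
      (∀ x, Tendsto (fun n => F (s n) x) atTop (𝓝 (f x))) ∧
      (∀ x, Tendsto (fun n => G (s n) x) atTop (𝓝 (g x)))

/-- statement of (A3) -/
def GradTendsto : Prop :=
  ∀ (d : ℕ) (F : ℕ → Eu d → ℝ) (f : Eu d → ℝ), (∀ n, ConvexOn ℝ univ (F n)) →
    ConvexOn ℝ univ f → (∀ x, Tendsto (fun n => F n x) atTop (𝓝 (f x))) → ∀ x : Eu d,
    (∀ n, DifferentiableAt ℝ (F n) x) → DifferentiableAt ℝ f x →
    Tendsto (fun n => gradient (F n) x) atTop (𝓝 (gradient f x))

lemma map_gradient_eq {d : ℕ} {ρ : Measure (Eu d)} [IsProbabilityMeasure ρ] {Ω : Type*}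
    [MeasurableSpace Ω] {π : Measure Ω} [IsProbabilityMeasure π] {F : ℕ → Eu d → ℝ}
    {f : Eu d → ℝ} {V : ℕ → Ω → Eu d} {W : Ω → Eu d}
    (hF : ∀ᵐ x ∂ρ, Tendsto (fun n => gradient (F n) x) atTop (𝓝 (gradient f x)))
    (hV : ∀ᵐ p ∂π, Tendsto (fun n => V n p) atTop (𝓝 (W p))) (hVm : ∀ n, Measurable (V n))
    (hWm : Measurable W)
    (heq : ∀ n, ∀ g : Eu d → ℝ, Continuous g → (∃ C, ∀ x, |g x| ≤ C) →
      ∫ x, g (gradient (F n) x) ∂ρ = ∫ p, g (V n p) ∂π) :
    ρ.map (gradient f) = π.map W := by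
  have i1 : IsProbabilityMeasure (ρ.map (gradient f)) :=
    Measure.isProbabilityMeasure_map (measurable_gradient' f).aemeasurable
  have i2 : IsProbabilityMeasure (π.map W) := Measure.isProbabilityMeasure_map hWm.aemeasurable
  refine ext_of_forall_integral_eq_of_IsFiniteMeasure fun g => ?_
  rw [integral_map (measurable_gradient' f).aemeasurable g.continuous.aestronglyMeasurable,
    integral_map hWm.aemeasurable g.continuous.aestronglyMeasurable]
  have hb : ∀ x, |g x| ≤ ‖g‖ := fun x => g.norm_coe_le_norm x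
  have h1 : Tendsto (fun n => ∫ x, g (gradient (F n) x) ∂ρ) atTop
      (𝓝 (∫ x, g (gradient f x) ∂ρ)) := by
    refine tendsto_integral_of_dominated_convergence (fun _ => ‖g‖) (fun n =>
      (g.continuous.measurable.comp (measurable_gradient' _)).aestronglyMeasurable)
      (integrable_const _) (fun n => Eventually.of_forall fun x => by
        rw [Real.norm_eq_abs]; exact hb _) ?_
    filter_upwards [hF] with x hx
    exact (g.continuous.tendsto _).comp hx
  have h2 : Tendsto (fun n => ∫ p, g (V n p) ∂π) atTop (𝓝 (∫ p, g (W p) ∂π)) := by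
    refine tendsto_integral_of_dominated_convergence (fun _ => ‖g‖) (fun n =>
      (g.continuous.measurable.comp (hVm n)).aestronglyMeasurable)
      (integrable_const _) (fun n => Eventually.of_forall fun x => by
        rw [Real.norm_eq_abs]; exact hb _) ?_
    filter_upwards [hV] with p hp
    exact (g.continuous.tendsto _).comp hp
  refine tendsto_nhds_unique h1 (h2.congr fun n => ?_)
  exact (heq n g g.continuous ⟨_, hb⟩).symm

lemma convexOn_limit {d : ℕ} {F : ℕ → Eu d → ℝ} {f : Eu d → ℝ} (hF : ∀ n, ConvexOn ℝ univ (F n))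
    (hlim : ∀ x, Tendsto (fun n => F n x) atTop (𝓝 (f x))) : ConvexOn ℝ univ f := by
  refine ⟨convex_univ, fun x _ y _ s t hs ht hst => ?_⟩
  refine le_of_tendsto_of_tendsto' (hlim _)
    (((hlim x).const_smul s).add ((hlim y).const_smul t)) fun n => ?_
  exact (hF n).2 (mem_univ x) (mem_univ y) hs ht hst

lemma lipschitz_limit {d : ℕ} {L : ℝ≥0} {F : ℕ → Eu d → ℝ} {f : Eu d → ℝ}
    (hF : ∀ n, LipschitzWith L (F n))
    (hlim : ∀ x, Tendsto (fun n => F n x) atTop (𝓝 (f x))) : LipschitzWith L f := by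
  refine LipschitzWith.of_dist_le_mul fun x y => ?_
  exact le_of_tendsto' ((hlim x).dist (hlim y)) fun n => (hF n).dist_le_mul x y

lemma abs_le_of_sq {t a : ℝ} (h : t ^ 2 ≤ a) : |t| ≤ 1 + a := by
  have h1 : |t| ^ 2 = t ^ 2 := sq_abs t
  nlinarith [abs_nonneg t, sq_nonneg (|t| - 1)]

lemma tendsto_of_norm_le {d : ℕ} {v : ℕ → Eu d} {w : Eu d}
    (h : ∀ n : ℕ, ‖v n - w‖ ≤ 1 / ((n : ℝ) + 1)) : Tendsto v atTop (𝓝 w) := by
  rw [tendsto_iff_norm_sub_tendsto_zero]
  exact squeeze_zero (fun n => norm_nonneg _) h tendsto_one_div_add_atTop_nhds_zero_nat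

lemma limit_exists (hPS : PotStab) (hSD : SemidiscreteExists) (hA1 : Discretise)
    (hA2 : SubseqLimit) (hA3 : GradTendsto) {d : ℕ} (hd : 2 ≤ d)
    {K : Set (Eu d)} (hKc : IsCompact K) (hKv : Convex ℝ K) (hKi : (interior K).Nonempty)
    {R : ℝ} (hR : 0 < R) (hKR : K ⊆ Metric.closedBall 0 R)
    {Y : Set (Eu d)} (hY : IsCompact Y) (hne : Y.Nonempty) {M : ℝ≥0}
    (hYM : Y ⊆ Metric.closedBall 0 M) {π : Measure (Eu d × Eu d)} [IsProbabilityMeasure π]
    (hπ : π (Y ×ˢ Y)ᶜ = 0) :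
    ∃ φ χ : Eu d → ℝ, ConvexOn ℝ univ φ ∧ ConvexOn ℝ univ χ ∧ LipschitzWith (M + 1) φ ∧
      LipschitzWith (M + 1) χ ∧
      ∫ x, (χ x - φ x) ^ 2 ∂(uniformProbOn K) ≤ 1000000 * R ^ 2 * ∫ p, ‖p.2 - p.1‖ ^ 2 ∂π ∧
      (uniformProbOn K).map (gradient φ) = π.map Prod.fst ∧
      (uniformProbOn K).map (gradient χ) = π.map Prod.snd := by
  have hρ : IsProbabilityMeasure (uniformProbOn K) := isProb_unif hKc hKi
  have key := fun n : ℕ => approx hPS hSD hA1 hd hKc hKv hKi hR hKR hY hne hYM hπ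
    (ε := 1 / ((n : ℝ) + 1)) (by positivity) (by
      rw [div_le_one (by positivity)]; have : (0 : ℝ) ≤ n := Nat.cast_nonneg n; linarith)
  choose φ χ Yf Zf hYm hZm hφc hχc hφL hχL hφ0 hint hlawφ hlawχ hclose hbound using key
  set M1 : ℝ := (M : ℝ) + 1 with hM1
  have hM1nn : 0 ≤ M1 := by positivity
  have hKn : ∀ᵐ x ∂(uniformProbOn K), ‖x‖ ≤ R := by
    filter_upwards [ae_mem hKc] with x hx
    simpa using hKR hx
  -- bound on the displacement
  have hE : ∀ n, ∫ p, ‖Zf n p - Yf n p‖ ^ 2 ∂π ≤ (2 * M1) ^ 2 := by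
    intro n
    have h1 : ∀ p, ‖Zf n p - Yf n p‖ ^ 2 ≤ (2 * M1) ^ 2 := by
      intro p
      have h2 := norm_sub_le (Zf n p) (Yf n p)
      have h3 := (hbound n p).1
      have h4 := (hbound n p).2
      have h5 : ‖Zf n p - Yf n p‖ ≤ 2 * M1 := by rw [hM1]; linarith
      exact pow_le_pow_left₀ (norm_nonneg _) h5 2
    calc ∫ p, ‖Zf n p - Yf n p‖ ^ 2 ∂π ≤ ∫ _, (2 * M1) ^ 2 ∂π := by
          refine integral_mono_of_nonneg (Eventually.of_forall fun p => by positivity)
            (integrable_const _) (Eventually.of_forall h1)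
      _ = (2 * M1) ^ 2 := by simp
  have hhL : ∀ n x y, |(χ n x - φ n x) - (χ n y - φ n y)| ≤ 2 * M1 * ‖x - y‖ := by
    intro n x y
    have h1 := (hφL n).dist_le_mul x y
    have h2 := (hχL n).dist_le_mul x y
    rw [Real.dist_eq, dist_eq_norm] at h1 h2
    push_cast at h1 h2
    rw [← hM1] at h1 h2
    calc |(χ n x - φ n x) - (χ n y - φ n y)| = |(χ n x - χ n y) - (φ n x - φ n y)| := by
          congr 1; ring
      _ ≤ |χ n x - χ n y| + |φ n x - φ n y| := abs_sub _ _
      _ ≤ 2 * M1 * ‖x - y‖ := by linarith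
  set D : ℝ := 1000000 * R ^ 2 * (2 * M1) ^ 2 with hD
  set B : ℝ := 1 + (2 * D + 2 * (2 * M1 * R) ^ 2) with hB
  have hcont : ∀ n, Continuous (fun x => (χ n x - φ n x) ^ 2) := fun n =>
    ((hχL n).continuous.sub (hφL n).continuous).pow 2
  have hχ0 : ∀ n, |χ n 0| ≤ B := by
    intro n
    refine abs_le_of_sq ?_
    have h1 : ∫ _ : Eu d, (χ n 0) ^ 2 ∂(uniformProbOn K) ≤
        ∫ x, (2 * (χ n x - φ n x) ^ 2 + 2 * (2 * M1 * R) ^ 2) ∂(uniformProbOn K) := by
      refine integral_mono_ae (integrable_const _)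
        ((((integrable_of_continuous hKc hKi (hcont n)).const_mul 2)).add (integrable_const _)) ?_
      filter_upwards [hKn] with x hx
      have h2 := hhL n 0 x
      rw [hφ0 n, sub_zero, zero_sub, norm_neg] at h2
      have h3 : |χ n 0 - (χ n x - φ n x)| ≤ 2 * M1 * R :=
        h2.trans (mul_le_mul_of_nonneg_left hx (by positivity))
      have h4 : (χ n 0 - (χ n x - φ n x)) ^ 2 ≤ (2 * M1 * R) ^ 2 := by
        rw [← sq_abs]; exact pow_le_pow_left₀ (abs_nonneg _) h3 2
      nlinarith [sq_nonneg (χ n 0 - 2 * (χ n x - φ n x))]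
    rw [integral_add ((integrable_of_continuous hKc hKi (hcont n)).const_mul 2)
      (integrable_const _), integral_const_mul] at h1
    simp only [integral_const, measureReal_def, measure_univ, ENNReal.toReal_one, one_smul] at h1
    have h5 := (hint n).trans (mul_le_mul_of_nonneg_left (hE n) (by positivity))
    rw [← hD] at h5
    linarith
  obtain ⟨s, f, g, hs, hf, hg⟩ := hA2 d (M + 1) B φ χ hφL hχL
    (fun n => by rw [hφ0 n, abs_zero]; positivity) hχ0
  have hfc : ConvexOn ℝ univ f := convexOn_limit (fun n => hφc (s n)) hf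
  have hgc : ConvexOn ℝ univ g := convexOn_limit (fun n => hχc (s n)) hg
  have hfL : LipschitzWith (M + 1) f := lipschitz_limit (fun n => hφL (s n)) hf
  have hgL : LipschitzWith (M + 1) g := lipschitz_limit (fun n => hχL (s n)) hg
  have hclose' : ∀ᵐ p ∂π, ∀ n : ℕ, ‖Yf n p - p.1‖ ≤ 1 / ((n : ℝ) + 1) ∧
      ‖Zf n p - p.2‖ ≤ 1 / ((n : ℝ) + 1) := ae_all_iff.2 hclose
  refine ⟨f, g, hfc, hgc, hfL, hgL, ?_, ?_, ?_⟩
  · -- integral estimate
    have h1 : Tendsto (fun n => ∫ x, (χ (s n) x - φ (s n) x) ^ 2 ∂(uniformProbOn K)) atTop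
        (𝓝 (∫ x, (g x - f x) ^ 2 ∂(uniformProbOn K))) := by
      refine tendsto_integral_of_dominated_convergence (fun _ => (B + 2 * M1 * R) ^ 2)
        (fun n => (hcont (s n)).aestronglyMeasurable) (integrable_const _) (fun n => ?_) ?_
      · filter_upwards [hKn] with x hx
        rw [Real.norm_eq_abs, abs_of_nonneg (sq_nonneg _), ← sq_abs]
        refine pow_le_pow_left₀ (abs_nonneg _) ?_ 2
        have h2 := hhL (s n) x 0
        rw [hφ0 (s n), sub_zero, sub_zero] at h2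
        have h3 := hχ0 (s n)
        have h4 : 2 * M1 * ‖x‖ ≤ 2 * M1 * R := mul_le_mul_of_nonneg_left hx (by positivity)
        calc |χ (s n) x - φ (s n) x|
            = |(χ (s n) x - φ (s n) x - χ (s n) 0) + χ (s n) 0| := by congr 1; ring
          _ ≤ |χ (s n) x - φ (s n) x - χ (s n) 0| + |χ (s n) 0| := abs_add_le _ _
          _ ≤ _ := by linarith
      · exact Eventually.of_forall fun x => ((hg x).sub (hf x)).pow 2
    have h2 : Tendsto (fun n => ∫ p, ‖Zf (s n) p - Yf (s n) p‖ ^ 2 ∂π) atTop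
        (𝓝 (∫ p, ‖p.2 - p.1‖ ^ 2 ∂π)) := by
      refine tendsto_integral_of_dominated_convergence (fun _ => (2 * M1) ^ 2)
        (fun n => (((hZm (s n)).sub (hYm (s n))).norm.pow_const 2).aestronglyMeasurable)
        (integrable_const _) (fun n => Eventually.of_forall fun p => ?_) ?_
      · rw [Real.norm_eq_abs, abs_of_nonneg (by positivity)]
        refine pow_le_pow_left₀ (norm_nonneg _) ?_ 2
        have h2 := norm_sub_le (Zf (s n) p) (Yf (s n) p)
        have h3 := (hbound (s n) p).1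
        have h4 := (hbound (s n) p).2
        rw [hM1]; linarith
      · filter_upwards [hclose'] with p hp
        have a1 : Tendsto (fun n => Yf n p) atTop (𝓝 p.1) := tendsto_of_norm_le fun n => (hp n).1
        have a2 : Tendsto (fun n => Zf n p) atTop (𝓝 p.2) := tendsto_of_norm_le fun n => (hp n).2
        exact (((a2.sub a1).norm.pow 2)).comp hs.tendsto_atTop
    exact le_of_tendsto_of_tendsto' h1 (h2.const_mul _) fun n => hint (s n)
  · have hgrad : ∀ᵐ x ∂(uniformProbOn K), Tendsto (fun n => gradient (φ (s n)) x) atTop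
        (𝓝 (gradient f x)) := by
      have h1 : ∀ᵐ x ∂(uniformProbOn K), ∀ n, DifferentiableAt ℝ (φ (s n)) x :=
        ae_all_iff.2 fun n => ae_differentiable (hφL (s n)) K
      filter_upwards [h1, ae_differentiable hfL K] with x hx hx2
      exact hA3 d (fun n => φ (s n)) f (fun n => hφc (s n)) hfc hf x hx hx2
    refine map_gradient_eq (V := fun n => Yf (s n)) hgrad ?_ (fun n => hYm (s n)) measurable_fst
      (fun n g hg hb => hlawφ (s n) g hg hb)
    filter_upwards [hclose'] with p hp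
    have a1 : Tendsto (fun n => Yf n p) atTop (𝓝 p.1) := tendsto_of_norm_le fun n => (hp n).1
    exact a1.comp hs.tendsto_atTop
  · have hgrad : ∀ᵐ x ∂(uniformProbOn K), Tendsto (fun n => gradient (χ (s n)) x) atTop
        (𝓝 (gradient g x)) := by
      have h1 : ∀ᵐ x ∂(uniformProbOn K), ∀ n, DifferentiableAt ℝ (χ (s n)) x :=
        ae_all_iff.2 fun n => ae_differentiable (hχL (s n)) K
      filter_upwards [h1, ae_differentiable hgL K] with x hx hx2
      exact hA3 d (fun n => χ (s n)) g (fun n => hχc (s n)) hgc hg x hx hx2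
    refine map_gradient_eq (V := fun n => Zf (s n)) hgrad ?_ (fun n => hZm (s n)) measurable_snd
      (fun n g hg hb => hlawχ (s n) g hg hb)
    filter_upwards [hclose'] with p hp
    have a1 : Tendsto (fun n => Zf n p) atTop (𝓝 p.2) := tendsto_of_norm_le fun n => (hp n).2
    exact a1.comp hs.tendsto_atTop

lemma isProb_of_coupling {d : ℕ} {μ ν : Measure (Eu d)} {π : Measure (Eu d × Eu d)}
    [IsProbabilityMeasure μ] (h : IsPairCoupling μ ν π) : IsProbabilityMeasure π := by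
  constructor
  have h1 : (π.map Prod.fst) univ = 1 := by rw [h.1]; exact measure_univ
  rwa [Measure.map_apply measurable_fst MeasurableSet.univ, preimage_univ] at h1

lemma coupling_compl {d : ℕ} {μ ν : Measure (Eu d)} {π : Measure (Eu d × Eu d)} {Y : Set (Eu d)}
    (hY : MeasurableSet Y) (hμ : μ Yᶜ = 0) (hν : ν Yᶜ = 0) (h : IsPairCoupling μ ν π) :
    π (Y ×ˢ Y)ᶜ = 0 := by
  rw [← h.1, Measure.map_apply measurable_fst hY.compl] at hμ
  rw [← h.2, Measure.map_apply measurable_snd hY.compl] at hν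
  refine measure_mono_null ?_ (measure_union_null hμ hν)
  intro p hp
  simp only [mem_compl_iff, mem_prod, not_and_or] at hp
  exact hp

theorem assembly' (hA1 : Discretise) (hA2 : SubseqLimit) (hA3 : GradTendsto) : Assembly := by
  intro hPS hSD hOU hInt d hd K hKc hKv hKi Y hY hne
  have hρ : IsProbabilityMeasure (uniformProbOn K) := isProb_unif hKc hKi
  -- radii
  obtain ⟨R, hR, hKR⟩ : ∃ R : ℝ, 0 < R ∧ K ⊆ Metric.closedBall 0 R := by
    obtain ⟨R, hR⟩ := hKc.isBounded.subset_closedBall 0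
    exact ⟨max R 1, lt_max_of_lt_right one_pos,
      hR.trans (Metric.closedBall_subset_closedBall (le_max_left _ _))⟩
  obtain ⟨M, hYM⟩ : ∃ M : ℝ≥0, Y ⊆ Metric.closedBall 0 M := by
    obtain ⟨R, hR⟩ := hY.isBounded.subset_closedBall 0
    exact ⟨R.toNNReal, hR.trans (Metric.closedBall_subset_closedBall (Real.le_coe_toNNReal R))⟩
  obtain ⟨CI, hCI0, hCI⟩ := hInt d K hKc hKv (M + 1)
  set V : ℝ := (volume K).toReal with hV
  have hV0 : 0 ≤ V := ENNReal.toReal_nonneg
  have hVpos : 0 < V := ENNReal.toReal_pos (vol_ne_zero hKi) (vol_ne_top hKc)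
  set C : ℝ := V⁻¹ * (CI * (V * (1000000 * R ^ 2)) ^ (1 / 3 : ℝ)) with hC
  have hC0 : 0 ≤ C := by positivity
  refine ⟨C.toNNReal, fun μ ν hμ hν Tμ Tν hTμ hTν π hπ => ?_⟩
  have := hμ.1
  have := hν.1
  have hπp : IsProbabilityMeasure π := isProb_of_coupling hπ
  have hπY : π (Y ×ˢ Y)ᶜ = 0 := coupling_compl hY.measurableSet hμ.2 hν.2 hπ
  obtain ⟨φ, χ, hφc, hχc, hφL, hχL, hint, hmapφ, hmapχ⟩ :=
    limit_exists hPS hSD hA1 hA2 hA3 hd hKc hKv hKi hR hKR hY hne hYM hπY
  rw [hπ.1] at hmapφ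
  rw [hπ.2] at hmapχ
  have hTφ : Tμ =ᵐ[uniformProbOn K] gradient φ :=
    (hOU d K hKc hKv hKi μ φ hφc (M + 1) hφL (gradient φ) (measurable_gradient' φ)
      ((ae_differentiable hφL K).mono fun x hx => hx.hasGradientAt) hmapφ).2 Tμ hTμ
  have hTχ : Tν =ᵐ[uniformProbOn K] gradient χ :=
    (hOU d K hKc hKv hKi ν χ hχc (M + 1) hχL (gradient χ) (measurable_gradient' χ)
      ((ae_differentiable hχL K).mono fun x hx => hx.hasGradientAt) hmapχ).2 Tν hTν
  -- reduce to the gradients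
  have h1 : ∫⁻ x, ‖Tμ x - Tν x‖ₑ ^ 2 ∂(uniformProbOn K) =
      ∫⁻ x, ENNReal.ofReal (‖gradient φ x - gradient χ x‖ ^ 2) ∂(uniformProbOn K) := by
    refine lintegral_congr_ae ?_
    filter_upwards [hTφ, hTχ] with x h1 h2
    rw [h1, h2, ENNReal.ofReal_pow (norm_nonneg _), ofReal_norm]
  have hgm : Measurable fun x => ‖gradient φ x - gradient χ x‖ ^ 2 :=
    (((measurable_gradient' φ).sub (measurable_gradient' χ)).norm).pow_const 2
  have hgi : Integrable (fun x => ‖gradient φ x - gradient χ x‖ ^ 2) (uniformProbOn K) := by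
    refine (integrable_const ((2 * ((M : ℝ) + 1)) ^ 2)).mono' hgm.aestronglyMeasurable ?_
    filter_upwards [ae_differentiable hφL K, ae_differentiable hχL K] with x h1 h2
    rw [Real.norm_eq_abs, abs_of_nonneg (by positivity)]
    refine pow_le_pow_left₀ (norm_nonneg _) ?_ 2
    have a1 := norm_gradient_le hφL h1.hasGradientAt
    have a2 := norm_gradient_le hχL h2.hasGradientAt
    push_cast at a1 a2
    have a3 := norm_sub_le (gradient φ x) (gradient χ x)
    linarith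
  have h2 : ∫⁻ x, ENNReal.ofReal (‖gradient φ x - gradient χ x‖ ^ 2) ∂(uniformProbOn K) =
      ENNReal.ofReal (∫ x, ‖gradient φ x - gradient χ x‖ ^ 2 ∂(uniformProbOn K)) :=
    (ofReal_integral_eq_lintegral_ofReal hgi (Eventually.of_forall fun x => by positivity)).symm
  -- the cost
  set E : ℝ := ∫ p, ‖p.2 - p.1‖ ^ 2 ∂π with hE
  have hE0 : 0 ≤ E := integral_nonneg fun p => by positivity
  have h3 : quadCost π = ENNReal.ofReal E := by
    unfold quadCost
    rw [hE, ofReal_integral_eq_lintegral_ofReal]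
    · refine lintegral_congr fun p => ?_
      rw [ENNReal.ofReal_pow (norm_nonneg _), ofReal_norm, ← neg_sub, enorm_neg]
    · have hae : ∀ᵐ p ∂π, p ∈ Y ×ˢ Y := by rw [ae_iff]; exact hπY
      refine (integrable_const ((2 * (M : ℝ)) ^ 2)).mono'
        ((measurable_snd.sub measurable_fst).norm.pow_const 2).aestronglyMeasurable ?_
      filter_upwards [hae] with p hp
      rw [Real.norm_eq_abs, abs_of_nonneg (by positivity)]
      refine pow_le_pow_left₀ (norm_nonneg _) ?_ 2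
      have a1 : ‖p.1‖ ≤ M := by simpa using hYM hp.1
      have a2 : ‖p.2‖ ≤ M := by simpa using hYM hp.2
      have a3 := norm_sub_le p.2 p.1
      linarith
    · exact Eventually.of_forall fun p => by positivity
  -- interpolation
  have h4 : ∫ x, ‖gradient φ x - gradient χ x‖ ^ 2 ∂(uniformProbOn K) =
      V⁻¹ * ∫ x in K, ‖gradient φ x - gradient χ x‖ ^ 2 := by
    have := setIntegral_unif (K := K) (fun x => ‖gradient φ x - gradient χ x‖ ^ 2)
      MeasurableSet.univ
    rwa [setIntegral_univ, univ_inter] at this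
  have h5 : ∫ x in K, (φ x - χ x) ^ 2 = V * ∫ x, (χ x - φ x) ^ 2 ∂(uniformProbOn K) := by
    have h6 := setIntegral_unif (K := K) (fun x => (χ x - φ x) ^ 2) MeasurableSet.univ
    rw [setIntegral_univ, univ_inter] at h6
    rw [h6, ← mul_assoc, ← hV, mul_inv_cancel₀ hVpos.ne', one_mul]
    refine integral_congr_ae (Eventually.of_forall fun x => ?_)
    simp only
    ring
  have h6 := hCI φ χ hφc hχc hφL hχL
  have h7 : ∫ x, ‖gradient φ x - gradient χ x‖ ^ 2 ∂(uniformProbOn K) ≤ C * E ^ (1 / 3 : ℝ) := by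
    rw [h4]
    have h8 : ∫ x in K, (φ x - χ x) ^ 2 ≤ V * (1000000 * R ^ 2) * E := by
      rw [h5, mul_assoc]
      exact mul_le_mul_of_nonneg_left hint hV0
    have h9 : (∫ x in K, (φ x - χ x) ^ 2) ^ (1 / 3 : ℝ) ≤
        (V * (1000000 * R ^ 2)) ^ (1 / 3 : ℝ) * E ^ (1 / 3 : ℝ) := by
      rw [← Real.mul_rpow (by positivity) hE0]
      exact Real.rpow_le_rpow (integral_nonneg fun x => sq_nonneg _) h8 (by norm_num)
    calc V⁻¹ * ∫ x in K, ‖gradient φ x - gradient χ x‖ ^ 2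
        ≤ V⁻¹ * (CI * ((V * (1000000 * R ^ 2)) ^ (1 / 3 : ℝ) * E ^ (1 / 3 : ℝ))) := by
          refine mul_le_mul_of_nonneg_left (h6.trans ?_) (by positivity)
          exact mul_le_mul_of_nonneg_left h9 hCI0
      _ = C * E ^ (1 / 3 : ℝ) := by rw [hC]; ring
  rw [h1, h2, h3, ENNReal.ofReal_rpow_of_nonneg hE0 (by norm_num)]
  refine (ENNReal.ofReal_le_ofReal h7).trans ?_
  rw [ENNReal.ofReal_mul hC0]
  rfl

end Asm

end Crest.Agent.QT
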