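import Crest.Agent.QTAsm

/-! Row 82: (A1) discretisation of a coupling. -/

set_option autoImplicit false

namespace Crest.Agent.QT

open MeasureTheory Set Filter Topology
open scoped ENNReal NNReal

namespace Disc

/-- choosing distinct points in infinite sets -/
lemma exists_injective_choice {α : Type*} {n : ℕ} (S : Fin n → Set α) (hS : ∀ i, (S i).Infinite) :
    ∃ f : Fin n → α, Function.Injective f ∧ ∀ i, f i ∈ S i := by
  classical
  choose t ht using fun i => (hS i).exists_subset_card_eq n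
  have hall : ∀ A : Finset (Fin n), A.card ≤ (A.biUnion t).card := by
    intro A
    rcases A.eq_empty_or_nonempty with h | ⟨i, hi⟩
    · subst h; simp
    · calc A.card ≤ n := by simpa using Finset.card_le_univ A
        _ = (t i).card := (ht i).2.symm
        _ ≤ _ := Finset.card_le_card (Finset.subset_biUnion_of_mem t hi)
  obtain ⟨f, hf, hft⟩ := (Finset.all_card_le_biUnion_card_iff_exists_injective t).1 hall
  exact ⟨f, hf, fun i => (ht i).1 (Finset.mem_coe.2 (hft i))⟩

lemma infinite_ball {d : ℕ} (hd : 2 ≤ d) (x : Eu d) {ε : ℝ} (hε : 0 < ε) :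
    (Metric.ball x ε).Infinite := by
  have : Nontrivial (Eu d) := by
    have : Nonempty (Fin d) := ⟨⟨0, by omega⟩⟩
    infer_instance
  exact infinite_of_mem_nhds x (Metric.ball_mem_nhds x hε)

theorem discretise : Asm.Discretise := by
  classical
  intro d hd π hπ Y hY hπY ε hε
  have hYY : IsCompact (Y ×ˢ Y) := hY.prod hY
  have hae : ∀ᵐ p ∂π, p ∈ Y ×ˢ Y := by rw [ae_iff]; exact hπY
  have hYne : (Y ×ˢ Y).Nonempty := hae.exists
  -- finite cover by balls centred in `Y × Y`
  obtain ⟨t, htY, htfin, hcov⟩ := hYY.elim_finite_subcover_image (b := Y ×ˢ Y)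
    (c := fun p => Metric.ball p (ε / 2)) (fun p _ => Metric.isOpen_ball)
    (fun p hp => mem_iUnion₂.2 ⟨p, hp, Metric.mem_ball_self (by positivity)⟩)
  have htne : t.Nonempty := by
    obtain ⟨p, hp⟩ := hYne
    obtain ⟨q, hq, _⟩ := mem_iUnion₂.1 (hcov hp)
    exact ⟨q, hq⟩
  obtain ⟨e, he⟩ := htfin.countable.exists_eq_range htne
  have heY : ∀ k, e k ∈ Y ×ˢ Y := fun k => htY (by rw [he]; exact mem_range_self k)
  -- indices up to `N₀` suffice
  obtain ⟨N₀, hN₀⟩ : ∃ N₀ : ℕ, ∀ q ∈ t, ∃ k ≤ N₀, e k = q := by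
    have h1 : ∀ q ∈ t, ∃ k, e k = q := fun q hq => by rw [he] at hq; exact hq
    choose! idx hidx using h1
    refine ⟨htfin.toFinset.sup idx, fun q hq => ⟨idx q, ?_, hidx q hq⟩⟩
    exact Finset.le_sup (f := idx) (htfin.mem_toFinset.2 hq)
  set ι₀ := SimpleFunc.nearestPtInd e N₀ with hι₀
  have hnear : ∀ p ∈ Y ×ˢ Y, dist (e (ι₀ p)) p ≤ ε / 2 := by
    intro p hp
    obtain ⟨q, hq, hpq⟩ := mem_iUnion₂.1 (hcov hp)
    obtain ⟨k, hk, hkq⟩ := hN₀ q hq
    have h1 := SimpleFunc.edist_nearestPt_le e p hk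
    rw [SimpleFunc.nearestPt] at h1
    simp only [SimpleFunc.map_apply] at h1
    rw [edist_dist, edist_dist] at h1
    have h2 := (ENNReal.ofReal_le_ofReal_iff dist_nonneg).1 h1
    rw [hkq] at h2
    rw [Metric.mem_ball, dist_comm] at hpq
    exact h2.trans hpq.le
  -- indices of positive mass
  set J : Finset ℕ := (Finset.range (N₀ + 1)).filter (fun k => π (ι₀ ⁻¹' {k}) ≠ 0) with hJ
  have hι₀le : ∀ p, ι₀ p ≤ N₀ := fun p => SimpleFunc.nearestPtInd_le e N₀ p
  have hJae : ∀ᵐ p ∂π, ι₀ p ∈ J := by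
    have h1 : ∀ᵐ p ∂π, ∀ k : ℕ, π (ι₀ ⁻¹' {k}) = 0 → ι₀ p ≠ k := by
      rw [ae_all_iff]
      intro k
      by_cases hk : π (ι₀ ⁻¹' {k}) = 0
      · have : ∀ᵐ p ∂π, p ∉ ι₀ ⁻¹' {k} := measure_eq_zero_iff_ae_notMem.1 hk
        filter_upwards [this] with p hp _
        exact hp
      · exact Eventually.of_forall fun p h => absurd h hk
    filter_upwards [h1] with p hp
    rw [hJ, Finset.mem_filter, Finset.mem_range]
    exact ⟨Nat.lt_succ_of_le (hι₀le p), fun h => hp _ h rfl⟩
  have hJne : J.Nonempty := by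
    obtain ⟨p, hp⟩ := hJae.exists
    exact ⟨_, hp⟩
  obtain ⟨j₀, hj₀⟩ := hJne
  set g : ℕ → Fin J.card := fun k => if h : k ∈ J then J.equivFin ⟨k, h⟩ else J.equivFin ⟨j₀, hj₀⟩
    with hg
  set κ : Fin J.card → ℕ := fun i => (J.equivFin.symm i : ℕ) with hκ
  have hκJ : ∀ i, κ i ∈ J := fun i => (J.equivFin.symm i).2
  have hgκ : ∀ i, g (κ i) = i := by
    intro i
    simp only [hg, hκ, (J.equivFin.symm i).2, dif_pos]
    simp
  have hκg : ∀ k ∈ J, κ (g k) = k := by
    intro k hk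
    simp only [hg, hκ, hk, dif_pos]
    simp
  have hιm : Measurable (fun p => g (ι₀ p)) := (measurable_of_countable g).comp ι₀.measurable
  obtain ⟨y, hyinj, hy⟩ := exists_injective_choice
    (fun i : Fin J.card => Metric.ball (e (κ i)).1 (ε / 2)) (fun i => infinite_ball hd _ (by positivity))
  obtain ⟨z, hzinj, hz⟩ := exists_injective_choice
    (fun i : Fin J.card => Metric.ball (e (κ i)).2 (ε / 2)) (fun i => infinite_ball hd _ (by positivity))
  refine ⟨J.card, y, z, fun i => π.real ((fun p => g (ι₀ p)) ⁻¹' {i}), fun p => g (ι₀ p), hιm,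
    hyinj, hzinj, ?_, ?_, fun i => rfl, ?_, ?_⟩
  · intro i
    have h1 : ι₀ ⁻¹' {κ i} ⊆ (fun p => g (ι₀ p)) ⁻¹' {i} := by
      intro p hp
      simp only [mem_preimage, mem_singleton_iff] at hp ⊢
      rw [hp, hgκ]
    have h2 : π (ι₀ ⁻¹' {κ i}) ≠ 0 := by
      have := hκJ i
      rw [hJ, Finset.mem_filter] at this
      exact this.2
    refine ENNReal.toReal_pos (fun h => h2 (measure_mono_null h1 h)) (measure_ne_top _ _)
  · have := Asm.sum_eq_integral (π := π) hιm (fun i => rfl) (fun _ => (1 : ℝ))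
    simpa using this
  · intro i
    constructor
    · refine (Metric.infDist_le_dist_of_mem (heY (κ i)).1).trans ?_
      have := Metric.mem_ball.1 (hy i)
      linarith
    · refine (Metric.infDist_le_dist_of_mem (heY (κ i)).2).trans ?_
      have := Metric.mem_ball.1 (hz i)
      linarith
  · filter_upwards [hae, hJae] with p hp hpJ
    have h1 := hnear p hp
    rw [Prod.dist_eq] at h1
    have h2 : κ (g (ι₀ p)) = ι₀ p := hκg _ hpJ
    have h3 := Metric.mem_ball.1 (hy (g (ι₀ p)))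
    have h4 := Metric.mem_ball.1 (hz (g (ι₀ p)))
    rw [h2] at h3 h4
    constructor
    · rw [← dist_eq_norm]
      calc dist (y (g (ι₀ p))) p.1 ≤ dist (y (g (ι₀ p))) (e (ι₀ p)).1 + dist (e (ι₀ p)).1 p.1 :=
            dist_triangle _ _ _
        _ ≤ ε := by have := (le_max_left _ _).trans h1; linarith
    · rw [← dist_eq_norm]
      calc dist (z (g (ι₀ p))) p.2 ≤ dist (z (g (ι₀ p))) (e (ι₀ p)).2 + dist (e (ι₀ p)).2 p.2 :=
            dist_triangle _ _ _
        _ ≤ ε := by have := (le_max_right _ _).trans h1; linarith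

end Disc

end Crest.Agent.QT
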