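import Crest.Agent.QTAsm
import Crest.Agent.QTLimB
import Crest.Agent.QTDisc

/-! Row 82: `Assembly`. -/

set_option autoImplicit false

namespace Crest.Agent.QT

theorem assembly : Assembly := Asm.assembly' Disc.discretise Lim.subseqLimit Lim.gradTendsto

end Crest.Agent.QT
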