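import Mathlib
import Crest.Agent.QTDefs

/-! Row 82: second interface file.  `PotStab` is Lemma F (helper3, QTStab.lean). -/

set_option autoImplicit false

namespace Crest.Agent.QT

open MeasureTheory Set
open scoped ENNReal NNReal
open Crest.AnalysisR.OT

/-- (STAB) `L²` stability of semidiscrete potentials under a displacement of the atoms. -/
def PotStab : Prop :=
  ∀ (d : ℕ) (K : Set (Eu d)), IsCompact K → Convex ℝ K → (interior K).Nonempty →
    ∀ R : ℝ, 0 < R → K ⊆ Metric.closedBall 0 R →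
    ∀ (N : ℕ) (y z : Fin N → Eu d), Function.Injective y → Function.Injective z →
    ∀ m : Fin N → ℝ, (∀ i, 0 < m i) → ∑ i, m i = 1 →
    ∀ c c' : Fin N → ℝ, (∀ i, (uniformProbOn K).real (cell y c i) = m i) →
      (∀ i, (uniformProbOn K).real (cell z c' i) = m i) →
      ∃ A : ℝ, ∫ x, (pot z c' x - pot y c x - A) ^ 2 ∂(uniformProbOn K) ≤
        1000000 * R ^ 2 * ∑ i, m i * ‖z i - y i‖ ^ 2

/-- (ASM) the final assembly: everything for S0109. -/
def Assembly : Prop :=
  PotStab → SemidiscreteExists → OptimalUnique → Interpolation →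
  ∀ (d : ℕ), 2 ≤ d → ∀ (K : Set (Eu d)), IsCompact K → Convex ℝ K → (interior K).Nonempty →
    ∀ (Y : Set (Eu d)), IsCompact Y → Y.Nonempty →
    ∃ C : ℝ≥0, ∀ μ ν : Measure (Eu d), IsProbabilityOn Y μ → IsProbabilityOn Y ν →
      ∀ Tμ Tν : Eu d → Eu d,
        IsOptimalMap (uniformProbOn K) μ Tμ → IsOptimalMap (uniformProbOn K) ν Tν →
        ∀ π : Measure (Eu d × Eu d), IsPairCoupling μ ν π →
          ∫⁻ x, ‖Tμ x - Tν x‖ₑ ^ 2 ∂(uniformProbOn K) ≤ C * quadCost π ^ (1 / 3 : ℝ)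

end Crest.Agent.QT
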