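import Crest.Agent.QTDefs
import Crest.Agent.QTOpt

set_option autoImplicit false

namespace Crest.Agent.QT.Int

open MeasureTheory Set
open scoped ENNReal NNReal

variable {d : ℕ}

theorem norm_grad_le {φ : Eu d → ℝ} {L : ℝ≥0} (hL : LipschitzWith L φ) (x : Eu d) :
    ‖gradient φ x‖ ≤ L := by
  unfold gradient
  rw [LinearIsometryEquiv.norm_map]
  exact norm_fderiv_le_of_lipschitz ℝ hL

theorem measurable_grad (φ : Eu d → ℝ) : Measurable (gradient φ) := by
  unfold gradient
  exact (LinearIsometryEquiv.continuous _).measurable.comp (measurable_fderiv ℝ φ)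

theorem ae_hasGradient {φ : Eu d → ℝ} {L : ℝ≥0} (hL : LipschitzWith L φ) :
    ∀ᵐ x : Eu d, HasGradientAt φ (gradient φ x) x := by
  filter_upwards [hL.ae_differentiableAt (μ := volume)] with x hx
  exact hx.hasGradientAt

/-- translation of set integrals -/
theorem setIntegral_translate (F : Eu d → ℝ) (G : Set (Eu d)) (v : Eu d) :
    ∫ x in G, F (x + v) = ∫ y in (fun x => x + v) '' G, F y := by
  have h := (measurePreserving_add_right (volume : Measure (Eu d)) v).setIntegral_preimage_emb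
    (measurableEmbedding_addRight v) F ((fun x => x + v) '' G)
  rw [Set.preimage_image_eq _ (add_left_injective v)] at h
  exact h

theorem vol_translate (G : Set (Eu d)) (v : Eu d) :
    volume.real ((fun x => x + v) '' G) = volume.real G := by
  unfold Measure.real
  congr 1
  rw [Set.image_add_right]
  exact measure_preimage_add_right _ _ _

/-- pointwise inequality -/
theorem pointwise {φ χ : Eu d → ℝ} (hφ : ConvexOn ℝ univ φ) (hχ : ConvexOn ℝ univ χ) {L : ℝ≥0}
    (hLφ : LipschitzWith L φ) (hLχ : LipschitzWith L χ) {e : Eu d} (he : ‖e‖ ≤ 1) {h : ℝ} (hh : 0 < h)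
    {x gφ gχ : Eu d} (h1 : HasGradientAt φ gφ x) (h2 : HasGradientAt χ gχ x) :
    (inner ℝ (gφ - gχ) e : ℝ) ^ 2 ≤ 6 / h ^ 2 * ((φ (x + h • e) - χ (x + h • e)) ^ 2 + (φ x - χ x) ^ 2 +
      (φ (x + (-h) • e) - χ (x + (-h) • e)) ^ 2) +
      4 * L * ((χ (x + h • e) - χ x) / h - (χ x - χ (x + (-h) • e)) / h) := by
  have a1 := gradient_ineq hφ h1 (x + h • e)
  have a2 := gradient_ineq hφ h1 (x + (-h) • e)
  have b1 := gradient_ineq hχ h2 (x + h • e)
  have b2 := gradient_ineq hχ h2 (x + (-h) • e)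
  simp only [add_sub_cancel_left, inner_smul_right] at a1 a2 b1 b2
  rw [inner_sub_left]
  set a := (inner ℝ gφ e : ℝ)
  set b := (inner ℝ gχ e : ℝ)
  have c1 : |χ (x + h • e) - χ x| ≤ L * h := by
    have := hLχ.dist_le_mul (x + h • e) x
    rw [Real.dist_eq, dist_eq_norm] at this
    simp only [add_sub_cancel_left, norm_smul, Real.norm_eq_abs, abs_of_pos hh] at this
    calc _ ≤ _ := this
      _ ≤ L * (h * 1) := by gcongr
      _ = L * h := by ring
  have c2 : |χ x - χ (x + (-h) • e)| ≤ L * h := by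
    have := hLχ.dist_le_mul x (x + (-h) • e)
    rw [Real.dist_eq, dist_eq_norm] at this
    simp only [sub_add_cancel_left, norm_neg, norm_smul, Real.norm_eq_abs, abs_neg, abs_of_pos hh] at this
    calc _ ≤ _ := this
      _ ≤ L * (h * 1) := by gcongr
      _ = L * h := by ring
  set φp := φ (x + h • e)
  set φm := φ (x + (-h) • e)
  set χp := χ (x + h • e)
  set χm := χ (x + (-h) • e)
  set φ0 := φ x
  set χ0 := χ x
  -- scaled quantities
  set s := (χp - χ0) / h - (χ0 - χm) / h with hs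
  have hs' : h * s = χp - χ0 - (χ0 - χm) := by rw [hs]; field_simp
  have hs0 : 0 ≤ s := by
    have : 0 ≤ h * s := by rw [hs']; linarith
    exact nonneg_of_mul_nonneg_right this hh
  have hs2 : s ≤ 2 * L := by
    have : h * s ≤ h * (2 * L) := by
      rw [hs']
      have := (abs_le.mp c1).2
      have := (abs_le.mp c2).1
      linarith
    exact le_of_mul_le_mul_left this hh
  set wp := φp - χp with hwp
  set wm := φm - χm with hwm
  set w0 := φ0 - χ0 with hw0
  have p1 : h * (a - b) ≤ (wp - w0) + h * s := by rw [hs']; linarith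
  have p2 : (w0 - wm) - h * s ≤ h * (a - b) := by rw [hs']; linarith
  have p3 : |h * (a - b)| ≤ (|wp| + |w0| + |wm|) + h * s := by
    rw [abs_le]
    constructor
    · have := neg_abs_le w0; have := le_abs_self wm; have := abs_nonneg wp; linarith
    · have := le_abs_self wp; have := neg_abs_le w0; have := abs_nonneg wm; linarith
  have p4 : (h * (a - b)) ^ 2 ≤ 6 * (wp ^ 2 + w0 ^ 2 + wm ^ 2) + 2 * (h * s) ^ 2 := by
    have h1 : (h * (a - b)) ^ 2 ≤ ((|wp| + |w0| + |wm|) + h * s) ^ 2 := by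
      rw [← sq_abs (h * (a - b))]
      exact pow_le_pow_left₀ (abs_nonneg _) p3 2
    have h2 : (|wp| + |w0| + |wm|) ^ 2 ≤ 3 * (wp ^ 2 + w0 ^ 2 + wm ^ 2) := by
      rw [← sq_abs wp, ← sq_abs w0, ← sq_abs wm]
      nlinarith [sq_nonneg (|wp| - |w0|), sq_nonneg (|w0| - |wm|), sq_nonneg (|wp| - |wm|)]
    nlinarith [sq_nonneg ((|wp| + |w0| + |wm|) - h * s)]
  have hh2 : 0 < h ^ 2 := by positivity
  have p5 : h ^ 2 * (a - b) ^ 2 ≤ h ^ 2 * (6 / h ^ 2 * (wp ^ 2 + w0 ^ 2 + wm ^ 2) + 4 * L * s) := by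
    have e1 : h ^ 2 * (6 / h ^ 2 * (wp ^ 2 + w0 ^ 2 + wm ^ 2) + 4 * L * s) =
        6 * (wp ^ 2 + w0 ^ 2 + wm ^ 2) + h ^ 2 * (4 * L * s) := by field_simp
    rw [e1]
    have e2 : (h * s) ^ 2 ≤ h ^ 2 * (2 * L * s) := by
      have : s ^ 2 ≤ 2 * L * s := by nlinarith
      nlinarith
    nlinarith
  exact le_of_mul_le_mul_left p5 hh2


theorem lip_cont {φ : Eu d → ℝ} {L : ℝ≥0} (hL : LipschitzWith L φ) : Continuous φ := hL.continuous

section dir
variable {K : Set (Eu d)} (hK : IsCompact K) (hc : Convex ℝ K)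
include hK

theorem diff_bound {f : Eu d → ℝ} (hf : IntegrableOn f K volume) {M : ℝ} (hM : ∀ x ∈ K, |f x| ≤ M) {G : Set (Eu d)}
    (hG : MeasurableSet G) (hGK : G ⊆ K) :
    |(∫ x in K, f x) - ∫ x in G, f x| ≤ M * (volume.real K - volume.real G) := by
  have hKfin : volume K ≠ ⊤ := hK.measure_lt_top.ne
  have hGfin : volume G ≠ ⊤ := (lt_of_le_of_lt (measure_mono hGK) hK.measure_lt_top).ne
  rw [← integral_diff hG hf hGK]
  have h1 : volume.real (K \ G) = volume.real K - volume.real G :=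
    measureReal_diff hGK hG hKfin
  rw [← h1]
  have h2 : volume (K \ G) < ⊤ := lt_of_le_of_lt (measure_mono sdiff_subset) hK.measure_lt_top
  have h3 := norm_setIntegral_le_of_norm_le_const h2 (C := M) (f := f) (fun x hx => by
    rw [Real.norm_eq_abs]; exact hM x hx.1)
  rwa [Real.norm_eq_abs] at h3

include hc in
theorem hom_mem {c : Eu d} {r : ℝ} (hr : 0 < r) (hball : Metric.closedBall c r ⊆ K) {h : ℝ} (hh : 0 < h)
    (hhr : 2 * h ≤ r) {x : Eu d} (hx : x ∈ AffineMap.homothety c (1 - 2 * h / r) '' K) {v : Eu d}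
    (hv : ‖v‖ ≤ 2 * h) : x + v ∈ K := by
  obtain ⟨y, hy, rfl⟩ := hx
  set δ := 2 * h / r with hδ
  have hδ0 : 0 < δ := by positivity
  have hδ1 : δ ≤ 1 := by rw [hδ, div_le_one hr]; exact hhr
  have hz : c + δ⁻¹ • v ∈ K := by
    apply hball
    rw [Metric.mem_closedBall, dist_eq_norm, add_sub_cancel_left, norm_smul, norm_inv, Real.norm_eq_abs,
      abs_of_pos hδ0]
    rw [inv_mul_le_iff₀ hδ0]
    calc ‖v‖ ≤ 2 * h := hv
      _ = δ * r := by rw [hδ]; field_simp
  have := hc hy hz (by linarith : (0 : ℝ) ≤ 1 - δ) hδ0.le (by ring)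
  convert this using 1
  rw [AffineMap.homothety_apply, smul_add, smul_smul, mul_inv_cancel₀ hδ0.ne', one_smul]
  simp only [vsub_eq_sub, vadd_eq_add, smul_sub, sub_smul, one_smul]
  abel

include hc in
theorem dir_bound {c : Eu d} {r : ℝ} (hr : 0 < r) (hball : Metric.closedBall c r ⊆ K) {φ χ : Eu d → ℝ}
    (hφ : ConvexOn ℝ univ φ) (hχ : ConvexOn ℝ univ χ) {L : ℝ≥0}
    (hLφ : LipschitzWith L φ) (hLχ : LipschitzWith L χ) {e : Eu d} (he : ‖e‖ ≤ 1) {h : ℝ} (hh : 0 < h)
    (hhr : 2 * h ≤ r) :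
    ∫ x in K, (inner ℝ (gradient φ x - gradient χ x) e : ℝ) ^ 2 ≤
      12 * L ^ 2 * (volume.real K - (1 - 2 * h / r) ^ d * volume.real K) +
        18 / h ^ 2 * ∫ x in K, (φ x - χ x) ^ 2 := by
  set G := AffineMap.homothety c (1 - 2 * h / r) '' K with hGdef
  have hcont : Continuous (AffineMap.homothety c (1 - 2 * h / r) : Eu d → Eu d) :=
    AffineMap.homothety_continuous _ _
  have hGc : IsCompact G := hK.image hcont
  have hGm : MeasurableSet G := hGc.measurableSet
  have hKm : MeasurableSet K := hK.measurableSet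
  have hmem : ∀ x ∈ G, ∀ v : Eu d, ‖v‖ ≤ 2 * h → x + v ∈ K := fun x hx v hv =>
    hom_mem hK hc hr hball hh hhr hx hv
  have hGK : G ⊆ K := fun x hx => by simpa using hmem x hx 0 (by simp; positivity)
  have hδ1 : 0 ≤ 1 - 2 * h / r := by
    have : 2 * h / r ≤ 1 := by rw [div_le_one hr]; exact hhr
    linarith
  have hvolG : volume.real G = (1 - 2 * h / r) ^ d * volume.real K := by
    unfold Measure.real
    rw [hGdef, Measure.addHaar_image_homothety, ENNReal.toReal_mul, ENNReal.toReal_ofReal (abs_nonneg _),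
      abs_of_nonneg (pow_nonneg hδ1 _)]
    simp
  rw [← hvolG]
  have hnhe : ‖h • e‖ ≤ 2 * h := by
    rw [norm_smul, Real.norm_eq_abs, abs_of_pos hh]; nlinarith
  have hnhe' : ‖(-h) • e‖ ≤ 2 * h := by
    rw [neg_smul, norm_neg]; exact hnhe
  have hφc := hLφ.continuous
  have hχc := hLχ.continuous
  -- f
  set f : Eu d → ℝ := fun x => (inner ℝ (gradient φ x - gradient χ x) e : ℝ) ^ 2 with hf
  have hfb : ∀ x, |f x| ≤ 4 * L ^ 2 := by
    intro x
    rw [hf]
    dsimp only
    rw [abs_pow]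
    have h1 : |(inner ℝ (gradient φ x - gradient χ x) e : ℝ)| ≤ 2 * L := by
      calc _ ≤ ‖gradient φ x - gradient χ x‖ * ‖e‖ := abs_real_inner_le_norm _ _
        _ ≤ ‖gradient φ x - gradient χ x‖ * 1 := by gcongr
        _ ≤ (‖gradient φ x‖ + ‖gradient χ x‖) * 1 := by gcongr; exact norm_sub_le _ _
        _ ≤ 2 * L := by
          have := norm_grad_le hLφ x
          have := norm_grad_le hLχ x
          linarith
    calc _ ≤ (2 * (L : ℝ)) ^ 2 := pow_le_pow_left₀ (abs_nonneg _) h1 2
      _ = _ := by ring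
  have hfm : Measurable f := by
    rw [hf]
    exact ((((measurable_grad φ).sub (measurable_grad χ)).inner measurable_const)).pow_const 2
  have hfi : IntegrableOn f K volume := by
    apply Measure.integrableOn_of_bounded (M := 4 * L ^ 2) hK.measure_lt_top.ne hfm.aestronglyMeasurable
    filter_upwards with x
    rw [Real.norm_eq_abs]; exact hfb x
  have hfiG : IntegrableOn f G volume := hfi.mono_set hGK
  -- F
  set F : Eu d → ℝ := fun x => (φ x - χ x) ^ 2 with hF
  have hFc : Continuous F := (hφc.sub hχc).pow 2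
  have hFi : IntegrableOn F K volume := hFc.continuousOn.integrableOn_compact hK
  have hF0 : ∀ x, 0 ≤ F x := fun x => sq_nonneg _
  have hFt : ∀ v : Eu d, ‖v‖ ≤ 2 * h → ∫ x in G, F (x + v) ≤ ∫ x in K, F x := by
    intro v hv
    rw [setIntegral_translate]
    apply setIntegral_mono_set hFi
    · filter_upwards with x using hF0 x
    · apply Filter.Eventually.of_forall
      rintro _ ⟨x, hx, rfl⟩
      exact hmem x hx v hv
  -- D
  set D : Eu d → ℝ := fun x => (χ (x + h • e) - χ x) / h with hD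
  have hDc : Continuous D := by
    rw [hD]; fun_prop
  have hDi : IntegrableOn D K volume := hDc.continuousOn.integrableOn_compact hK
  have hDb : ∀ x, |D x| ≤ L := by
    intro x
    have := hLχ.dist_le_mul (x + h • e) x
    rw [Real.dist_eq, dist_eq_norm] at this
    simp only [add_sub_cancel_left, norm_smul, Real.norm_eq_abs, abs_of_pos hh] at this
    rw [hD]
    dsimp only
    rw [abs_div, abs_of_pos hh, div_le_iff₀ hh]
    calc _ ≤ _ := this
      _ ≤ L * (h * 1) := by gcongr
      _ = L * h := by ring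
  have hD1 := diff_bound hK hDi (fun x _ => hDb x) hGm hGK
  have hGv : MeasurableSet ((fun x => x + (-h) • e) '' G) := by
    apply IsCompact.measurableSet
    exact hGc.image (by fun_prop)
  have hGvK : (fun x => x + (-h) • e) '' G ⊆ K := by
    rintro _ ⟨x, hx, rfl⟩
    exact hmem x hx _ hnhe'
  have hD2 := diff_bound hK hDi (fun x _ => hDb x) hGv hGvK
  rw [vol_translate, ← setIntegral_translate] at hD2
  have hDs : ∀ x, D (x + (-h) • e) = (χ x - χ (x + (-h) • e)) / h := by
    intro x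
    rw [hD]
    dsimp only
    congr 3
    rw [add_assoc, ← add_smul]; simp
  -- decomposition
  have hfK := diff_bound hK hfi (fun x _ => hfb x) hGm hGK
  have hpt : ∫ x in G, f x ≤ ∫ x in G, (6 / h ^ 2 * (F (x + h • e) + F x + F (x + (-h) • e)) +
      4 * L * (D x - D (x + (-h) • e))) := by
    apply setIntegral_mono_ae_restrict hfiG
    · exact (Continuous.continuousOn (by fun_prop)).integrableOn_compact hGc
    · filter_upwards [ae_restrict_of_ae (ae_hasGradient hLφ), ae_restrict_of_ae (ae_hasGradient hLχ)] with x h1 h2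
      rw [hDs]
      exact pointwise hφ hχ hLφ hLχ he hh h1 h2
  have hFiG : ∀ v : Eu d, IntegrableOn (fun x => F (x + v)) G volume := fun v =>
    (Continuous.continuousOn (by fun_prop)).integrableOn_compact hGc
  have hFiG0 : IntegrableOn (fun x => F x) G volume := hFi.mono_set hGK
  have hDiG0 : IntegrableOn (fun x => D x) G volume := hDi.mono_set hGK
  have hDiG : IntegrableOn (fun x => D (x + (-h) • e)) G volume :=
    (Continuous.continuousOn (by fun_prop)).integrableOn_compact hGc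
  have hexp : ∫ x in G, (6 / h ^ 2 * (F (x + h • e) + F x + F (x + (-h) • e)) +
      4 * L * (D x - D (x + (-h) • e))) = 6 / h ^ 2 * ((∫ x in G, F (x + h • e)) + (∫ x in G, F x) +
        ∫ x in G, F (x + (-h) • e)) + 4 * L * ((∫ x in G, D x) - ∫ x in G, D (x + (-h) • e)) := by
    rw [integral_add, integral_const_mul, integral_const_mul, integral_add, integral_add, integral_sub]
    · exact hDiG0
    · exact hDiG
    · exact hFiG _
    · exact hFiG0
    · exact (hFiG _).add hFiG0
    · exact hFiG _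
    · exact (((hFiG _).add hFiG0).add (hFiG _)).const_mul _
    · exact (hDiG0.sub hDiG).const_mul _
  rw [hexp] at hpt
  have i1 := hFt _ hnhe
  have i2 := hFt _ hnhe'
  have i3 : ∫ x in G, F x ≤ ∫ x in K, F x := by
    apply setIntegral_mono_set hFi
    · filter_upwards with x using hF0 x
    · exact Filter.Eventually.of_forall hGK
  have j1 := (abs_le.mp hD1).1
  have j2 := (abs_le.mp hD2).2
  have j3 := (abs_le.mp hfK).2
  have hh2 : 0 ≤ 6 / h ^ 2 := by positivity
  have k1 : 6 / h ^ 2 * ((∫ x in G, F (x + h • e)) + (∫ x in G, F x) + ∫ x in G, F (x + (-h) • e)) ≤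
      18 / h ^ 2 * ∫ x in K, F x := by
    calc _ ≤ 6 / h ^ 2 * ((∫ x in K, F x) + (∫ x in K, F x) + ∫ x in K, F x) := by gcongr
      _ = _ := by ring
  have k2 : (∫ x in G, D x) - ∫ x in G, D (x + (-h) • e) ≤ 2 * (L * (volume.real K - volume.real G)) := by
    linarith
  have k3 : 4 * (L : ℝ) * ((∫ x in G, D x) - ∫ x in G, D (x + (-h) • e)) ≤
      4 * L * (2 * (L * (volume.real K - volume.real G))) := by gcongr
  have k4 : 4 * (L : ℝ) * (2 * (L * (volume.real K - volume.real G))) = 8 * L ^ 2 * (volume.real K - volume.real G) := by ring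
  linarith

end dir


theorem dir_bound2 {K : Set (Eu d)} (hK : IsCompact K) (hc : Convex ℝ K) (hint : (interior K).Nonempty) (L : ℝ≥0) :
    ∃ C : ℝ, 0 ≤ C ∧ ∀ φ χ : Eu d → ℝ, ConvexOn ℝ univ φ → ConvexOn ℝ univ χ →
      LipschitzWith L φ → LipschitzWith L χ → ∀ e : Eu d, ‖e‖ ≤ 1 → ∀ h : ℝ, 0 < h →
      ∫ x in K, (inner ℝ (gradient φ x - gradient χ x) e : ℝ) ^ 2
        ≤ C * (h + (∫ x in K, (φ x - χ x) ^ 2) / h ^ 2) := by
  obtain ⟨c, hcint⟩ := hint
  obtain ⟨r, hr, hball'⟩ := Metric.nhds_basis_closedBall.mem_iff.mp (mem_interior_iff_mem_nhds.mp hcint)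
  set V := volume.real K with hV
  have hV0 : 0 ≤ V := measureReal_nonneg
  refine ⟨24 * L ^ 2 * (d + 1) * V / r + 18, by positivity, ?_⟩
  intro φ χ hφ hχ hLφ hLχ e he h hh
  set A := ∫ x in K, (φ x - χ x) ^ 2 with hA
  have hA0 : 0 ≤ A := by
    rw [hA]
    exact integral_nonneg fun x => sq_nonneg _
  by_cases hhr : 2 * h ≤ r
  · have h1 := dir_bound hK hc hr hball' hφ hχ hLφ hLχ he hh hhr
    have hδ1 : 2 * h / r ≤ 1 := by rw [div_le_one hr]; exact hhr
    have hbern : 1 - d * (2 * h / r) ≤ (1 - 2 * h / r) ^ d := by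
      have := one_add_mul_le_pow (a := -(2 * h / r)) (by linarith) d
      calc _ = 1 + (d : ℝ) * -(2 * h / r) := by ring
        _ ≤ (1 + -(2 * h / r)) ^ d := this
        _ = _ := by ring_nf
    have h2 : V - (1 - 2 * h / r) ^ d * V ≤ (d * (2 * h / r)) * V := by nlinarith
    have h3 : 12 * (L : ℝ) ^ 2 * (V - (1 - 2 * h / r) ^ d * V) ≤ 12 * L ^ 2 * ((d * (2 * h / r)) * V) := by gcongr
    have h4 : 12 * (L : ℝ) ^ 2 * ((d * (2 * h / r)) * V) = (24 * L ^ 2 * d * V / r) * h := by ring
    have h5 : (24 * (L : ℝ) ^ 2 * d * V / r) * h ≤ (24 * L ^ 2 * (d + 1) * V / r + 18) * h := by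
      gcongr
      have : 24 * (L : ℝ) ^ 2 * d * V / r ≤ 24 * L ^ 2 * (d + 1) * V / r := by gcongr; linarith
      linarith
    have h6 : 18 / h ^ 2 * A ≤ (24 * (L : ℝ) ^ 2 * (d + 1) * V / r + 18) * (A / h ^ 2) := by
      have e1 : 18 / h ^ 2 * A = 18 * (A / h ^ 2) := by ring
      rw [e1]
      have : 0 ≤ A / h ^ 2 := by positivity
      have h7 : 0 ≤ 24 * (L : ℝ) ^ 2 * (d + 1) * V / r := by positivity
      nlinarith
    linarith
  · push Not at hhr
    have hfb : ∀ x, |(inner ℝ (gradient φ x - gradient χ x) e : ℝ) ^ 2| ≤ 4 * L ^ 2 := by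
      intro x
      rw [abs_pow]
      have h1 : |(inner ℝ (gradient φ x - gradient χ x) e : ℝ)| ≤ 2 * L := by
        calc _ ≤ ‖gradient φ x - gradient χ x‖ * ‖e‖ := abs_real_inner_le_norm _ _
          _ ≤ ‖gradient φ x - gradient χ x‖ * 1 := by gcongr
          _ ≤ (‖gradient φ x‖ + ‖gradient χ x‖) * 1 := by gcongr; exact norm_sub_le _ _
          _ ≤ 2 * L := by
            have := norm_grad_le hLφ x
            have := norm_grad_le hLχ x
            linarith
      calc _ ≤ (2 * (L : ℝ)) ^ 2 := pow_le_pow_left₀ (abs_nonneg _) h1 2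
        _ = _ := by ring
    have hfin : (volume : Measure (Eu d)) K < ⊤ := hK.measure_lt_top
    have h3 := norm_setIntegral_le_of_norm_le_const hfin (C := 4 * L ^ 2)
      (f := fun x => (inner ℝ (gradient φ x - gradient χ x) e : ℝ) ^ 2) (fun x _ => by
      rw [Real.norm_eq_abs]; exact hfb x)
    rw [Real.norm_eq_abs] at h3
    have h4 := (abs_le.mp h3).2
    have h5 : 4 * (L : ℝ) ^ 2 * V ≤ (24 * L ^ 2 * (d + 1) * V / r) * h := by
      have : 1 ≤ 2 * h / r := by rw [le_div_iff₀ hr]; linarith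
      calc 4 * (L : ℝ) ^ 2 * V ≤ (12 * L ^ 2 * (d + 1) * V) * 1 := by
            have : 0 ≤ (L : ℝ) ^ 2 * V := by positivity
            have hd : (0 : ℝ) ≤ d := Nat.cast_nonneg d
            nlinarith
        _ ≤ (12 * L ^ 2 * (d + 1) * V) * (2 * h / r) := by gcongr
        _ = _ := by ring
    have h6 : (24 * (L : ℝ) ^ 2 * (d + 1) * V / r) * h ≤ (24 * L ^ 2 * (d + 1) * V / r + 18) * (h + A / h ^ 2) := by
      gcongr
      · linarith
      · have : 0 ≤ A / h ^ 2 := by positivity
        linarith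
    linarith

end Crest.Agent.QT.Int

namespace Crest.Agent.QT
open MeasureTheory Set
open scoped ENNReal NNReal

theorem interpolation : Interpolation := by
  intro d K hK hc L
  by_cases hint : (interior K).Nonempty
  · obtain ⟨C, hC0, hC⟩ := Int.dir_bound2 hK hc hint L
    refine ⟨2 * d * C, by positivity, ?_⟩
    intro φ χ hφ hχ hLφ hLχ
    set A := ∫ x in K, (φ x - χ x) ^ 2 with hA
    have hA0 : 0 ≤ A := by
      rw [hA]
      exact integral_nonneg fun x => sq_nonneg _
    have hdir : ∀ e : Eu d, ‖e‖ ≤ 1 →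
        ∫ x in K, (inner ℝ (gradient φ x - gradient χ x) e : ℝ) ^ 2 ≤ 2 * C * A ^ (1 / 3 : ℝ) := by
      intro e he
      rcases hA0.eq_or_lt with h0 | hpos
      · rw [← h0, Real.zero_rpow (by norm_num), mul_zero]
        by_contra hcon
        push Not at hcon
        set I := ∫ x in K, (inner ℝ (gradient φ x - gradient χ x) e : ℝ) ^ 2 with hI
        have h1 := hC φ χ hφ hχ hLφ hLχ e he (I / (2 * (C + 1))) (by positivity)
        rw [← hA, ← h0, zero_div, add_zero, ← hI] at h1
        have h2 : C * (I / (2 * (C + 1))) ≤ I / 2 := by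
          have : C * (I / (2 * (C + 1))) = (C / (C + 1)) * (I / 2) := by field_simp
          rw [this]
          have h3 : C / (C + 1) ≤ 1 := by rw [div_le_one (by positivity)]; linarith
          nlinarith
        linarith
      · have h1 := hC φ χ hφ hχ hLφ hLχ e he (A ^ (1 / 3 : ℝ)) (Real.rpow_pos_of_pos hpos _)
        rw [← hA] at h1
        have h2 : A / (A ^ (1 / 3 : ℝ)) ^ 2 = A ^ (1 / 3 : ℝ) := by
          rw [← Real.rpow_natCast, ← Real.rpow_mul hA0]
          nth_rewrite 1 [← Real.rpow_one A]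
          rw [← Real.rpow_sub hpos]
          norm_num
        rw [h2] at h1
        linarith
    have hb : ∀ i : Fin d, ‖(EuclideanSpace.basisFun (Fin d) ℝ i : Eu d)‖ ≤ 1 := by
      intro i
      rw [(EuclideanSpace.basisFun (Fin d) ℝ).norm_eq_one i]
    have hnorm : ∀ g : Eu d, ‖g‖ ^ 2 = ∑ i, (inner ℝ g (EuclideanSpace.basisFun (Fin d) ℝ i : Eu d) : ℝ) ^ 2 := by
      intro g
      rw [EuclideanSpace.norm_sq_eq]
      refine Finset.sum_congr rfl fun i _ => ?_
      rw [EuclideanSpace.basisFun_apply, EuclideanSpace.inner_single_right]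
      simp
    have hmeas : Measurable fun x => gradient φ x - gradient χ x :=
      (Int.measurable_grad φ).sub (Int.measurable_grad χ)
    have hsum : ∫ x in K, ‖gradient φ x - gradient χ x‖ ^ 2 =
        ∑ i, ∫ x in K, (inner ℝ (gradient φ x - gradient χ x) (EuclideanSpace.basisFun (Fin d) ℝ i : Eu d) : ℝ) ^ 2 := by
      simp only [hnorm]
      rw [integral_finsetSum]
      intro i _
      have hmi : Measurable fun x => (inner ℝ (gradient φ x - gradient χ x) (EuclideanSpace.basisFun (Fin d) ℝ i : Eu d) : ℝ) ^ 2 :=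
        (hmeas.inner (𝕜 := ℝ) measurable_const).pow_const 2
      refine Measure.integrableOn_of_bounded (M := (2 * L) ^ 2) hK.measure_lt_top.ne hmi.aestronglyMeasurable ?_
      · filter_upwards with x
        rw [Real.norm_eq_abs, abs_pow]
        apply pow_le_pow_left₀ (abs_nonneg _)
        calc _ ≤ ‖gradient φ x - gradient χ x‖ * ‖(EuclideanSpace.basisFun (Fin d) ℝ i : Eu d)‖ := abs_real_inner_le_norm _ _
          _ ≤ ‖gradient φ x - gradient χ x‖ * 1 := by gcongr; exact hb i
          _ ≤ (‖gradient φ x‖ + ‖gradient χ x‖) * 1 := by gcongr; exact norm_sub_le _ _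
          _ ≤ 2 * L := by
            have := Int.norm_grad_le hLφ x
            have := Int.norm_grad_le hLχ x
            linarith
    rw [hsum]
    calc _ ≤ ∑ i : Fin d, 2 * C * A ^ (1 / 3 : ℝ) := Finset.sum_le_sum fun i _ => hdir _ (hb i)
      _ = _ := by simp; ring
  · refine ⟨0, le_rfl, ?_⟩
    intro φ χ _ _ _ _
    have hvol : volume K = 0 := by
      have h1 : K ⊆ frontier K := by
        intro x hx
        rw [frontier, Set.not_nonempty_iff_eq_empty.mp hint]
        simpa using subset_closure hx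
      exact measure_mono_null h1 (hc.addHaar_frontier volume)
    rw [Measure.restrict_eq_zero.mpr hvol]
    simp

end Crest.Agent.QT
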