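import Mathlib

/-! Row 82: the scalar inequality behind the static cell estimate. -/

set_option autoImplicit false

namespace Crest.Agent.QT

theorem realJ {m P P' Q Q' H κ R τ : ℝ} (hm : 0 < m) (hκ : 0 < κ) (hR : 0 < R)
    (hκR : κ * R ^ 2 ≤ 1 / 120)
    (hP1 : 239 / 240 * m ≤ P) (hP2 : P ≤ m) (hP1' : 2 / 3 * (239 / 240) * m ≤ P')
    (hP2' : P' ≤ 2 * m) (hQ : |Q| ≤ R * m) (hQ' : |Q'| ≤ 2 * R * m)
    (hQQ : Q' ≤ Q) (hH0 : 0 ≤ H) (hτ : τ = (Q - Q') / (4 * m))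
    (hH : Real.exp (-(κ / 4 * τ ^ 2)) * ((P + κ / 2 * τ * Q) * (P' - κ / 2 * τ * Q')) ≤ H ^ 2) :
    (P + P') / 2 + κ / 28 * ((Q - Q') ^ 2 / m) - (P - P') ^ 2 / m ≤ H := by
  obtain ⟨hQa, hQb⟩ := abs_le.mp hQ
  obtain ⟨hQa', hQb'⟩ := abs_le.mp hQ'
  have hτ0 : 0 ≤ τ := by rw [hτ]; exact div_nonneg (by linarith) (by linarith)
  have hτR : τ ≤ 3 / 4 * R := by
    rw [hτ, div_le_iff₀ (by linarith)]; nlinarith
  have hQm : Q - Q' = 4 * m * τ := by rw [hτ]; field_simp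
  -- u = κ/2 τ
  set u : ℝ := κ / 2 * τ with hu
  have hu0 : 0 ≤ u := by positivity
  have huR : u * R ≤ 1 / 320 := by
    have : u * R ≤ κ / 2 * (3 / 4 * R) * R := by
      rw [hu]; gcongr
    nlinarith
  have huQ1 : |u * Q| ≤ 1 / 320 * m := by
    rw [abs_mul, abs_of_nonneg hu0]
    calc u * |Q| ≤ u * (R * m) := by gcongr
      _ = u * R * m := by ring
      _ ≤ 1 / 320 * m := by gcongr
  have huQ2 : |u * Q'| ≤ 1 / 160 * m := by
    rw [abs_mul, abs_of_nonneg hu0]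
    calc u * |Q'| ≤ u * (2 * R * m) := by gcongr
      _ = 2 * (u * R) * m := by ring
      _ ≤ 2 * (1 / 320) * m := by gcongr
      _ = 1 / 160 * m := by ring
  obtain ⟨h1a, h1b⟩ := abs_le.mp huQ1
  obtain ⟨h2a, h2b⟩ := abs_le.mp huQ2
  set A : ℝ := P + u * Q with hA
  set B : ℝ := P' - u * Q' with hB
  have hA0 : 0 < A := by rw [hA]; linarith
  have hB0 : 0 < B := by rw [hB]; linarith
  have hAB1 : m ≤ A + B := by rw [hA, hB]; linarith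
  have hAB2 : A + B ≤ 31 / 10 * m := by rw [hA, hB]; linarith
  have hAB0 : 0 < A + B := by linarith
  -- κ τ² small
  have hκτ : κ * τ ^ 2 ≤ 1 := by
    have : κ * τ ^ 2 ≤ κ * (3 / 4 * R) ^ 2 := by gcongr
    nlinarith
  set r : ℝ := 1 - κ * τ ^ 2 / 8 with hr
  have hr0 : 0 ≤ r := by rw [hr]; linarith
  have hexp : r ^ 2 ≤ Real.exp (-(κ / 4 * τ ^ 2)) := by
    have h1 : r ≤ Real.exp (-(κ / 8 * τ ^ 2)) := by
      have := Real.add_one_le_exp (-(κ / 8 * τ ^ 2))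
      rw [hr]; linarith
    calc r ^ 2 ≤ Real.exp (-(κ / 8 * τ ^ 2)) ^ 2 := by gcongr
      _ = Real.exp (-(κ / 4 * τ ^ 2)) := by
        rw [← Real.exp_nat_mul]; congr 1; push_cast; ring
  set Hm : ℝ := 2 * A * B / (A + B) with hHm
  have hHm0 : 0 < Hm := by positivity
  have hHm2 : Hm ^ 2 ≤ A * B := by
    rw [hHm, div_pow, div_le_iff₀ (by positivity)]
    nlinarith [mul_nonneg (mul_nonneg hA0.le hB0.le) (sq_nonneg (A - B))]
  have hHmH : r * Hm ≤ H := by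
    have h1 : (r * Hm) ^ 2 ≤ H ^ 2 := by
      calc (r * Hm) ^ 2 = r ^ 2 * Hm ^ 2 := by ring
        _ ≤ Real.exp (-(κ / 4 * τ ^ 2)) * (A * B) := by gcongr
        _ ≤ H ^ 2 := hH
    exact le_of_sq_le_sq h1 hH0
  refine le_trans ?_ hHmH
  have hHmid : Hm = (A + B) / 2 - (A - B) ^ 2 / (2 * (A + B)) := by
    rw [hHm]; field_simp; ring
  have hHmle : Hm ≤ (A + B) / 2 := by
    rw [hHmid]; have : 0 ≤ (A - B) ^ 2 / (2 * (A + B)) := by positivity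
    linarith
  have hfrac : (A - B) ^ 2 / (2 * (A + B)) ≤ (A - B) ^ 2 / (2 * m) := by
    gcongr
  have hABd : (A - B) ^ 2 ≤ 2 * (P - P') ^ 2 + 9 / 2 * (κ ^ 2 * τ ^ 2 * R ^ 2 * m ^ 2) := by
    have e1 : A - B = (P - P') + u * (Q + Q') := by rw [hA, hB]; ring
    have e2 : (u * (Q + Q')) ^ 2 ≤ (u * (3 * R * m)) ^ 2 := by
      have : |u * (Q + Q')| ≤ |u * (3 * R * m)| := by
        rw [abs_mul u, abs_mul u, abs_of_nonneg hu0, abs_of_nonneg (by positivity : 0 ≤ 3 * R * m)]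
        refine mul_le_mul_of_nonneg_left ?_ hu0
        exact abs_le.mpr ⟨by linarith, by linarith⟩
      exact sq_le_sq.mpr this
    have e3 : (A - B) ^ 2 ≤ 2 * (P - P') ^ 2 + 2 * (u * (Q + Q')) ^ 2 := by
      rw [e1]; nlinarith [sq_nonneg ((P - P') - u * (Q + Q'))]
    have e4 : 2 * (u * (3 * R * m)) ^ 2 = 9 / 2 * (κ ^ 2 * τ ^ 2 * R ^ 2 * m ^ 2) := by
      rw [hu]; ring
    linarith
  have hfrac2 : (A - B) ^ 2 / (2 * m) ≤ (P - P') ^ 2 / m + 9 / 4 * (κ * R ^ 2) * (κ * τ ^ 2 * m) := by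
    rw [div_le_iff₀ (by positivity)]
    have : ((P - P') ^ 2 / m + 9 / 4 * (κ * R ^ 2) * (κ * τ ^ 2 * m)) * (2 * m) =
        2 * (P - P') ^ 2 + 9 / 2 * (κ ^ 2 * τ ^ 2 * R ^ 2 * m ^ 2) := by
      field_simp
      ring
    rw [this]; exact hABd
  have hsum : (A + B) / 2 = (P + P') / 2 + κ * τ ^ 2 * m := by
    have : A + B = P + P' + u * (Q - Q') := by rw [hA, hB]; ring
    rw [this, hQm, hu]; ring
  have hlow : (P + P') / 2 + κ * τ ^ 2 * m - ((P - P') ^ 2 / m +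
      9 / 4 * (κ * R ^ 2) * (κ * τ ^ 2 * m)) - κ * τ ^ 2 / 8 * (31 / 20 * m) ≤ r * Hm := by
    have e1 : r * Hm = Hm - κ * τ ^ 2 / 8 * Hm := by rw [hr]; ring
    have e2 : κ * τ ^ 2 / 8 * Hm ≤ κ * τ ^ 2 / 8 * (31 / 20 * m) := by
      have : Hm ≤ 31 / 20 * m := by linarith
      gcongr
    rw [e1]
    linarith [hHmid, hfrac, hfrac2, hsum, e2]
  refine le_trans ?_ hlow
  have e5 : κ / 28 * ((Q - Q') ^ 2 / m) = 16 / 28 * (κ * τ ^ 2 * m) := by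
    rw [hQm]; field_simp; ring
  rw [e5]
  have hX : 0 ≤ κ * τ ^ 2 * m := by positivity
  have e6 : 9 / 4 * (κ * R ^ 2) * (κ * τ ^ 2 * m) ≤ 9 / 4 * (1 / 120) * (κ * τ ^ 2 * m) := by
    gcongr
  linarith

end Crest.Agent.QT
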