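import Mathlib
import Crest.Agent.QTDefs
import Crest.Agent.QTCell
import Crest.Agent.QTUnif
import Crest.Agent.QTReal

/-! Row 82: the static cell inequality. -/

set_option autoImplicit false

namespace Crest.Agent.QT

open MeasureTheory Set
open scoped ENNReal NNReal
open Crest.AnalysisR.OT

variable {d N : ℕ} {K : Set (Eu d)}

/-- Gaussian weight. -/
noncomputable def om (κ : ℝ) (x : Eu d) : ℝ := Real.exp (-(κ / 2 * ‖x‖ ^ 2))

theorem om_pos (κ : ℝ) (x : Eu d) : 0 < om κ x := Real.exp_pos _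

theorem om_continuous (κ : ℝ) : Continuous (om κ : Eu d → ℝ) := by
  unfold om; fun_prop

theorem om_le_one {κ : ℝ} (hκ : 0 < κ) (x : Eu d) : om κ x ≤ 1 := by
  unfold om
  rw [Real.exp_le_one_iff]
  have : 0 ≤ κ / 2 * ‖x‖ ^ 2 := by positivity
  linarith

theorem om_ge {κ R : ℝ} (hκ : 0 < κ) (hκR : κ * R ^ 2 ≤ 1 / 120) {x : Eu d} (hx : ‖x‖ ≤ R) :
    239 / 240 ≤ om κ x := by
  unfold om
  have h1 := Real.add_one_le_exp (-(κ / 2 * ‖x‖ ^ 2))
  have h2 : κ / 2 * ‖x‖ ^ 2 ≤ κ / 2 * R ^ 2 := by gcongr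
  linarith

theorem om_mid (κ : ℝ) (a b : Eu d) :
    om κ ((1 / 2 : ℝ) • (a + b)) ^ 2 = om κ a * om κ b * Real.exp (κ / 4 * ‖a - b‖ ^ 2) := by
  unfold om
  rw [← Real.exp_nat_mul, ← Real.exp_add, ← Real.exp_add]
  congr 1
  have h1 := parallelogram_law_with_norm ℝ a b
  rw [norm_smul, Real.norm_of_nonneg (by norm_num : (0:ℝ) ≤ 1 / 2)]
  push_cast
  linear_combination (-(κ / 4)) * h1

theorem pl_pair (hPL : PrekopaLeindler) (hKc : IsCompact K) (hKv : Convex ℝ K)
    (hKi : (interior K).Nonempty) (y : Fin N → Eu d) (c c' : Fin N → ℝ) (i : Fin N)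
    {κ : ℝ} (hκ : 0 < κ) (q : Eu d → ℝ) (hqc : Continuous q)
    (hq1 : ∀ a ∈ K, ∀ b ∈ K, |q a - q b| ≤ ‖a - b‖) (τ : ℝ) (hτ : 0 ≤ τ)
    (hA0 : 0 ≤ (∫ x in cell y c i, om κ x ∂(uniformProbOn K)) +
        κ / 2 * τ * ∫ x in cell y c i, om κ x * q x ∂(uniformProbOn K)) :
    Real.exp (-(κ / 4 * τ ^ 2)) *
      (((∫ x in cell y c i, om κ x ∂(uniformProbOn K)) +
        κ / 2 * τ * ∫ x in cell y c i, om κ x * q x ∂(uniformProbOn K)) *
       ((∫ x in cell y c' i, om κ x ∂(uniformProbOn K)) -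
        κ / 2 * τ * ∫ x in cell y c' i, om κ x * q x ∂(uniformProbOn K))) ≤
      (∫ x in cell y (fun j => (c j + c' j) / 2) i, om κ x ∂(uniformProbOn K)) ^ 2 := by
  have homc : Continuous (om κ : Eu d → ℝ) := om_continuous κ
  have hPL' := pl_unif hPL hKc (measurableSet_cell y c i) (measurableSet_cell y c' i)
    (measurableSet_cell y (fun j => (c j + c' j) / 2) i)
    (f := fun x => om κ x * Real.exp (κ / 2 * τ * q x - κ / 4 * τ ^ 2))
    (g := fun x => om κ x * Real.exp (-(κ / 2 * τ * q x)))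
    (h := om κ) (by fun_prop) (by fun_prop) homc
    (fun x => mul_nonneg (om_pos κ x).le (Real.exp_pos _).le)
    (fun x => mul_nonneg (om_pos κ x).le (Real.exp_pos _).le)
    (fun x => (om_pos κ x).le) ?_
  · refine le_trans ?_ hPL'
    have hint : ∀ u : Eu d → ℝ, Continuous u → ∀ S : Set (Eu d),
        Integrable u ((uniformProbOn K).restrict S) := fun u hu S =>
      (integrable_of_continuous hKc hKi hu).restrict
    have e1 : Real.exp (-(κ / 4 * τ ^ 2)) * ((∫ x in cell y c i, om κ x ∂(uniformProbOn K)) +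
        κ / 2 * τ * ∫ x in cell y c i, om κ x * q x ∂(uniformProbOn K)) ≤
        ∫ x in cell y c i, om κ x * Real.exp (κ / 2 * τ * q x - κ / 4 * τ ^ 2)
          ∂(uniformProbOn K) := by
      rw [← integral_const_mul, ← integral_add (hint _ homc _)
        (hint _ (by fun_prop) _), ← integral_const_mul]
      refine integral_mono (hint _ (by fun_prop) _) (hint _ (by fun_prop) _) fun x => ?_
      have h1 : Real.exp (κ / 2 * τ * q x - κ / 4 * τ ^ 2) =
          Real.exp (-(κ / 4 * τ ^ 2)) * Real.exp (κ / 2 * τ * q x) := by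
        rw [← Real.exp_add]; congr 1; ring
      have h2 := Real.add_one_le_exp (κ / 2 * τ * q x)
      have h3 : om κ x + κ / 2 * τ * (om κ x * q x) = om κ x * (κ / 2 * τ * q x + 1) := by ring
      simp only [h1, h3]
      have h4 := (om_pos κ x).le
      have h5 := (Real.exp_pos (-(κ / 4 * τ ^ 2))).le
      calc Real.exp (-(κ / 4 * τ ^ 2)) * (om κ x * (κ / 2 * τ * q x + 1))
          ≤ Real.exp (-(κ / 4 * τ ^ 2)) * (om κ x * Real.exp (κ / 2 * τ * q x)) := by gcongr
        _ = om κ x * (Real.exp (-(κ / 4 * τ ^ 2)) * Real.exp (κ / 2 * τ * q x)) := by ring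
    have e2 : (∫ x in cell y c' i, om κ x ∂(uniformProbOn K)) -
        κ / 2 * τ * ∫ x in cell y c' i, om κ x * q x ∂(uniformProbOn K) ≤
        ∫ x in cell y c' i, om κ x * Real.exp (-(κ / 2 * τ * q x)) ∂(uniformProbOn K) := by
      rw [← integral_const_mul, ← integral_sub (hint _ homc _)
        (hint _ (by fun_prop) _)]
      refine integral_mono (hint _ (by fun_prop) _) (hint _ (by fun_prop) _) fun x => ?_
      have h2 := Real.add_one_le_exp (-(κ / 2 * τ * q x))
      have h3 : om κ x - κ / 2 * τ * (om κ x * q x) = om κ x * (-(κ / 2 * τ * q x) + 1) := by ring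
      simp only [h3]
      have h4 := (om_pos κ x).le
      gcongr
    have e3 : 0 ≤ ∫ x in cell y c' i, om κ x * Real.exp (-(κ / 2 * τ * q x))
        ∂(uniformProbOn K) :=
      integral_nonneg fun x => mul_nonneg (om_pos κ x).le (Real.exp_pos _).le
    have e4 : 0 ≤ Real.exp (-(κ / 4 * τ ^ 2)) * ((∫ x in cell y c i, om κ x ∂(uniformProbOn K)) +
        κ / 2 * τ * ∫ x in cell y c i, om κ x * q x ∂(uniformProbOn K)) :=
      mul_nonneg (Real.exp_pos _).le hA0
    rw [← mul_assoc]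
    calc _ ≤ _ := mul_le_mul_of_nonneg_left e2 e4
      _ ≤ _ := mul_le_mul_of_nonneg_right e1 e3
  · intro a b ha haK hb hbK
    refine ⟨cell_mid y c c' i ha hb, ?_, ?_⟩
    · have := hKv haK hbK (by norm_num : (0:ℝ) ≤ 1/2) (by norm_num : (0:ℝ) ≤ 1/2) (by norm_num)
      rwa [← smul_add] at this
    · rw [om_mid]
      have h1 : om κ a * Real.exp (κ / 2 * τ * q a - κ / 4 * τ ^ 2) *
          (om κ b * Real.exp (-(κ / 2 * τ * q b))) = om κ a * om κ b *
          Real.exp (κ / 2 * τ * (q a - q b) - κ / 4 * τ ^ 2) := by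
        have : Real.exp (κ / 2 * τ * (q a - q b) - κ / 4 * τ ^ 2) =
          Real.exp (κ / 2 * τ * q a - κ / 4 * τ ^ 2) * Real.exp (-(κ / 2 * τ * q b)) := by
          rw [← Real.exp_add]; congr 1; ring
        rw [this]; ring
      rw [h1]
      refine mul_le_mul_of_nonneg_left ?_ (mul_nonneg (om_pos κ a).le (om_pos κ b).le)
      apply Real.exp_le_exp.mpr
      have h2 : q a - q b ≤ ‖a - b‖ := (le_abs_self _).trans (hq1 a haK b hbK)
      have h3 : κ / 2 * τ * (q a - q b) ≤ κ / 2 * τ * ‖a - b‖ := by gcongr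
      nlinarith [sq_nonneg (τ - ‖a - b‖), hκ]

/-- Lemma J. -/
theorem lemmaJ (hPL : PrekopaLeindler) (hKc : IsCompact K) (hKv : Convex ℝ K)
    (hKi : (interior K).Nonempty) (hN : 0 < N) (y : Fin N → Eu d) (hy : Function.Injective y)
    (c c' : Fin N → ℝ) (m : Fin N → ℝ) (hm : ∀ i, 0 < m i)
    {κ R : ℝ} (hκ : 0 < κ) (hR : 0 < R) (hκR : κ * R ^ 2 ≤ 1 / 120) (hKR : ∀ x ∈ K, ‖x‖ ≤ R)
    (hC : ∀ i, (uniformProbOn K).real (cell y c i) = m i)
    (hD1 : ∀ i, (uniformProbOn K).real (cell y c' i) ≤ 2 * m i)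
    (hD2 : ∀ i, 2 / 3 * m i ≤ (uniformProbOn K).real (cell y c' i))
    (q : Fin N → Eu d → ℝ) (hqc : ∀ i, Continuous (q i))
    (hq1 : ∀ i, ∀ a ∈ K, ∀ b ∈ K, |q i a - q i b| ≤ ‖a - b‖)
    (hq2 : ∀ i, ∀ a ∈ K, |q i a| ≤ R)
    (hQ : ∀ i, ∫ x in cell y c' i, om κ x * q i x ∂(uniformProbOn K) ≤
      ∫ x in cell y c i, om κ x * q i x ∂(uniformProbOn K)) :
    κ / 28 * ∑ i, ((∫ x in cell y c i, om κ x * q i x ∂(uniformProbOn K)) -
        ∫ x in cell y c' i, om κ x * q i x ∂(uniformProbOn K)) ^ 2 / m i ≤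
      ∑ i, ((∫ x in cell y c i, om κ x ∂(uniformProbOn K)) -
        ∫ x in cell y c' i, om κ x ∂(uniformProbOn K)) ^ 2 / m i := by
  have := isProb_unif hKc hKi
  set ρ := uniformProbOn K with hρ
  have homc : Continuous (om κ : Eu d → ℝ) := om_continuous κ
  have hint : ∀ u : Eu d → ℝ, Continuous u → ∀ S : Set (Eu d),
      Integrable u (ρ.restrict S) := fun u hu S =>
    (integrable_of_continuous hKc hKi hu).restrict
  have haeK : ∀ᵐ x ∂ρ, x ∈ K := ae_mem hKc
  -- bounds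
  have hPle : ∀ S : Set (Eu d), ∫ x in S, om κ x ∂ρ ≤ ρ.real S := by
    intro S
    have := norm_setIntegral_le_of_norm_le_const_ae (μ := ρ) (s := S) (f := om κ) (C := 1)
      (measure_lt_top _ _) (Filter.Eventually.of_forall fun x => by
        rw [Real.norm_of_nonneg (om_pos κ x).le]; exact om_le_one hκ x)
    rw [one_mul] at this
    exact (le_abs_self _).trans this
  have hPge : ∀ S : Set (Eu d), 239 / 240 * ρ.real S ≤ ∫ x in S, om κ x ∂ρ := by
    intro S
    have h1 : ∫ _ in S, (239 / 240 : ℝ) ∂ρ ≤ ∫ x in S, om κ x ∂ρ := by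
      refine integral_mono_ae (integrable_const _) (hint _ homc _) ?_
      filter_upwards [ae_restrict_of_ae haeK] with x hx
      exact om_ge hκ hκR (hKR x hx)
    rw [setIntegral_const, smul_eq_mul] at h1
    linarith
  have hQle : ∀ (i : Fin N) (S : Set (Eu d)), |∫ x in S, om κ x * q i x ∂ρ| ≤ R * ρ.real S := by
    intro i S
    rw [← Real.norm_eq_abs]
    refine norm_setIntegral_le_of_norm_le_const_ae (μ := ρ) (s := S)
      (f := fun x => om κ x * q i x) (measure_lt_top _ _) ?_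
    filter_upwards [ae_restrict_of_ae haeK] with x hx
    rw [norm_mul, Real.norm_of_nonneg (om_pos κ x).le, Real.norm_eq_abs]
    calc om κ x * |q i x| ≤ 1 * R := by
          gcongr
          · exact om_le_one hκ x
          · exact hq2 i x hx
      _ = R := one_mul R
  have key : ∀ i, ((∫ x in cell y c i, om κ x ∂ρ) + ∫ x in cell y c' i, om κ x ∂ρ) / 2 +
      κ / 28 * (((∫ x in cell y c i, om κ x * q i x ∂ρ) -
        ∫ x in cell y c' i, om κ x * q i x ∂ρ) ^ 2 / m i) -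
      ((∫ x in cell y c i, om κ x ∂ρ) - ∫ x in cell y c' i, om κ x ∂ρ) ^ 2 / m i ≤
      ∫ x in cell y (fun j => (c j + c' j) / 2) i, om κ x ∂ρ := by
    intro i
    have hmi := hm i
    set P := ∫ x in cell y c i, om κ x ∂ρ
    set P' := ∫ x in cell y c' i, om κ x ∂ρ
    set Q := ∫ x in cell y c i, om κ x * q i x ∂ρ
    set Q' := ∫ x in cell y c' i, om κ x * q i x ∂ρ
    set H := ∫ x in cell y (fun j => (c j + c' j) / 2) i, om κ x ∂ρ
    have hP1 : 239 / 240 * m i ≤ P := by rw [← hC i]; exact hPge _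
    have hP2 : P ≤ m i := by rw [← hC i]; exact hPle _
    have hP1' : 2 / 3 * (239 / 240) * m i ≤ P' := by
      have := hPge (cell y c' i)
      have h2 := hD2 i
      nlinarith
    have hP2' : P' ≤ 2 * m i := (hPle _).trans (hD1 i)
    have hQ1 : |Q| ≤ R * m i := by rw [← hC i]; exact hQle i _
    have hQ1' : |Q'| ≤ 2 * R * m i := by
      refine (hQle i _).trans ?_
      have := hD1 i
      nlinarith
    have hQQ : Q' ≤ Q := hQ i
    have hH0 : 0 ≤ H := integral_nonneg fun x => (om_pos κ x).le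
    set τ : ℝ := (Q - Q') / (4 * m i) with hτ
    have hτ0 : 0 ≤ τ := div_nonneg (by linarith) (by linarith)
    have hτR : τ ≤ 3 / 4 * R := by
      rw [hτ, div_le_iff₀ (by linarith)]
      have := (abs_le.mp hQ1).2
      have := (abs_le.mp hQ1').1
      nlinarith
    have hA0 : 0 ≤ P + κ / 2 * τ * Q := by
      have h1 : |κ / 2 * τ * Q| ≤ κ / 2 * (3 / 4 * R) * (R * m i) := by
        rw [abs_mul, abs_of_nonneg (by positivity : 0 ≤ κ / 2 * τ)]
        gcongr
      have h2 := (abs_le.mp h1).1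
      nlinarith
    refine realJ hmi hκ hR hκR hP1 hP2 hP1' hP2' hQ1 hQ1' hQQ hH0 hτ ?_
    exact pl_pair hPL hKc hKv hKi y c c' i hκ (q i) (hqc i) (hq1 i) τ hτ0 hA0
  have hsum := Finset.sum_le_sum fun i (_ : i ∈ Finset.univ) => key i
  have hintρ : Integrable (om κ) ρ := integrable_of_continuous hKc hKi homc
  rw [sum_integral_cell hN y hy (fun j => (c j + c' j) / 2) ρ unif_ac (om κ) hintρ,
    Finset.sum_sub_distrib, Finset.sum_add_distrib, ← Finset.sum_div, Finset.sum_add_distrib,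
    sum_integral_cell hN y hy c ρ unif_ac (om κ) hintρ,
    sum_integral_cell hN y hy c' ρ unif_ac (om κ) hintρ, ← Finset.mul_sum] at hsum
  linarith

end Crest.Agent.QT
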