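import Mathlib
import Crest.Agent.QTStatic

/-! Row 82: the static cell inequality (centroid stability under a change of source density). -/

set_option autoImplicit false

namespace Crest.Agent.QT

open MeasureTheory Set
open scoped ENNReal NNReal
open Crest.AnalysisR.OT

variable {d N : ℕ} {K : Set (Eu d)}

theorem sq_setIntegral_le {X : Type*} [MeasurableSpace X] (ρ : Measure X) [IsFiniteMeasure ρ]
    (S : Set X) (g : X → ℝ) (hg : Integrable g (ρ.restrict S))
    (hg2 : Integrable (fun x => g x ^ 2) (ρ.restrict S)) :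
    (∫ x in S, g x ∂ρ) ^ 2 ≤ ρ.real S * ∫ x in S, g x ^ 2 ∂ρ := by
  set a := ρ.real S with ha
  set γ := ∫ x in S, g x ∂ρ with hγ
  set G := ∫ x in S, g x ^ 2 ∂ρ with hG
  have key : ∀ t : ℝ, 0 ≤ G - 2 * t * γ + t ^ 2 * a := by
    intro t
    have h1 : 0 ≤ ∫ x in S, (g x - t) ^ 2 ∂ρ := integral_nonneg fun x => sq_nonneg _
    have h2 : ∫ x in S, (g x - t) ^ 2 ∂ρ = G - 2 * t * γ + t ^ 2 * a := by
      have e : ∀ x, (g x - t) ^ 2 = g x ^ 2 - (2 * t) * g x + t ^ 2 := fun x => by ring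
      simp_rw [e]
      have i1 : Integrable (fun x => g x ^ 2 - 2 * t * g x) (ρ.restrict S) :=
        hg2.sub (hg.const_mul _)
      rw [integral_add i1 (integrable_const _),
        integral_sub hg2 (hg.const_mul _), integral_const_mul, setIntegral_const, smul_eq_mul]
      ring
    rwa [h2] at h1
  have ha0 : 0 ≤ a := measureReal_nonneg
  have hG0 : 0 ≤ G := integral_nonneg fun x => sq_nonneg _
  rcases eq_or_lt_of_le ha0 with h0 | h0
  · have hS : ρ.restrict S = 0 := by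
      rw [Measure.restrict_eq_zero]
      have := h0.symm
      rw [ha, measureReal_def, ENNReal.toReal_eq_zero_iff] at this
      exact this.resolve_right (measure_ne_top _ _)
    have : γ = 0 := by rw [hγ, hS, integral_zero_measure]
    rw [this, ← h0]; simp
  · have := key (γ / a)
    have e : G - 2 * (γ / a) * γ + (γ / a) ^ 2 * a = G - γ ^ 2 / a := by field_simp; ring
    rw [e] at this
    have h3 : γ ^ 2 / a ≤ G := by linarith
    rw [div_le_iff₀ h0] at h3
    linarith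

theorem exp_lip {u v : ℝ} (hu : u ≤ 1 / 240) (hv : v ≤ 1 / 240) :
    |Real.exp u - Real.exp v| ≤ 2 * |u - v| := by
  have main : ∀ u v : ℝ, u ≤ 1 / 240 → v ≤ u → Real.exp u - Real.exp v ≤ 2 * (u - v) := by
    intro u v hu hvu
    have h1 : Real.exp v = Real.exp u * Real.exp (v - u) := by rw [← Real.exp_add]; congr 1; ring
    have h2 := Real.add_one_le_exp (v - u)
    have h3 : Real.exp u ≤ 2 := by
      have h4 : Real.exp u ≤ Real.exp (1 / 240) := Real.exp_le_exp.mpr hu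
      have h5 : Real.exp (1 / 240 : ℝ) ≤ 2 := by
        have h6 : Real.exp (1 / 240 : ℝ) ≤ Real.exp (Real.log 2) := by
          apply Real.exp_le_exp.mpr
          have := Real.log_two_gt_d9
          linarith
        rwa [Real.exp_log (by norm_num)] at h6
      linarith
    have h4 := (Real.exp_pos u)
    rw [h1]
    nlinarith
  rcases le_total v u with h | h
  · rw [abs_of_nonneg (sub_nonneg.mpr (Real.exp_le_exp.mpr h)), abs_of_nonneg (sub_nonneg.mpr h)]
    exact main u v hu h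
  · rw [abs_sub_comm, abs_sub_comm u v, abs_of_nonneg (sub_nonneg.mpr (Real.exp_le_exp.mpr h)),
      abs_of_nonneg (sub_nonneg.mpr h)]
    exact main v u hv h

theorem h_lip {κ R : ℝ} (hκ : 0 < κ) {a b : Eu d} (ha : ‖a‖ ≤ R) (hb : ‖b‖ ≤ R) :
    |κ / 2 * ‖a‖ ^ 2 - κ / 2 * ‖b‖ ^ 2| ≤ κ * R * ‖a - b‖ := by
  have h1 : κ / 2 * ‖a‖ ^ 2 - κ / 2 * ‖b‖ ^ 2 = κ / 2 * ((‖a‖ - ‖b‖) * (‖a‖ + ‖b‖)) := by ring
  rw [h1, abs_mul, abs_mul, abs_of_pos (by positivity : 0 < κ / 2),
    abs_of_nonneg (by positivity : 0 ≤ ‖a‖ + ‖b‖)]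
  have h2 := abs_norm_sub_norm_le a b
  calc κ / 2 * (|‖a‖ - ‖b‖| * (‖a‖ + ‖b‖)) ≤ κ / 2 * (‖a - b‖ * (R + R)) := by gcongr
    _ = κ * R * ‖a - b‖ := by ring

theorem norm_setIntegral_smul_sq (hKc : IsCompact K) (hKi : (interior K).Nonempty) {R : ℝ}
    (hR : 0 < R) (hKR : ∀ x ∈ K, ‖x‖ ≤ R) (g : Eu d → ℝ) (hg : Continuous g) (S : Set (Eu d)) :
    ‖∫ x in S, g x • x ∂(uniformProbOn K)‖ ^ 2 ≤
      R ^ 2 * ((uniformProbOn K).real S * ∫ x in S, g x ^ 2 ∂(uniformProbOn K)) := by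
  have := isProb_unif hKc hKi
  have hint : ∀ u : Eu d → ℝ, Continuous u → 
      Integrable u ((uniformProbOn K).restrict S) := fun u hu =>
    (integrable_of_continuous hKc hKi hu).restrict
  have h1 : ‖∫ x in S, g x • x ∂(uniformProbOn K)‖ ≤ R * ∫ x in S, |g x| ∂(uniformProbOn K) := by
    rw [← integral_const_mul]
    refine norm_integral_le_of_norm_le (hint _ (by fun_prop)) ?_
    filter_upwards [ae_restrict_of_ae (ae_mem hKc)] with x hx
    rw [norm_smul, Real.norm_eq_abs, mul_comm]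
    gcongr
    exact hKR x hx
  have h2 := sq_setIntegral_le (uniformProbOn K) S (fun x => |g x|) (hint _ (by fun_prop))
    (hint _ (by fun_prop))
  simp only [sq_abs] at h2
  have h3 : 0 ≤ ∫ x in S, |g x| ∂(uniformProbOn K) := integral_nonneg fun x => abs_nonneg _
  calc ‖∫ x in S, g x • x ∂(uniformProbOn K)‖ ^ 2 
      ≤ (R * ∫ x in S, |g x| ∂(uniformProbOn K)) ^ 2 := by gcongr
    _ = R ^ 2 * (∫ x in S, |g x| ∂(uniformProbOn K)) ^ 2 := by ring
    _ ≤ _ := by gcongr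

/-- Static cell inequality. -/
theorem staticCell (hPL : PrekopaLeindler) (hKc : IsCompact K) (hKv : Convex ℝ K)
    (hKi : (interior K).Nonempty) {R : ℝ} (hR : 0 < R) (hKR : ∀ x ∈ K, ‖x‖ ≤ R)
    (hN : 0 < N) (y : Fin N → Eu d) (hy : Function.Injective y)
    (c c' : Fin N → ℝ) (m : Fin N → ℝ) (hm : ∀ i, 0 < m i)
    (g : Eu d → ℝ) (hg : Continuous g) (s : ℝ) (hsg : ∀ x ∈ K, |s * g x| ≤ 1 / 2)
    (hC : ∀ i, (uniformProbOn K).real (cell y c i) = m i)
    (hD : ∀ i, ∫ x in cell y c' i, (1 + s * g x) ∂(uniformProbOn K) = m i) :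
    ∑ i, ‖(∫ x in cell y c i, x ∂(uniformProbOn K)) -
        ∫ x in cell y c' i, (1 + s * g x) • x ∂(uniformProbOn K)‖ ^ 2 / m i ≤
      1000000 * R ^ 2 * (s ^ 2 * ∫ x, g x ^ 2 ∂(uniformProbOn K)) := by
  have := isProb_unif hKc hKi
  set ρ := uniformProbOn K with hρ
  set κ : ℝ := 1 / (480 * R ^ 2) with hκdef
  have hκ : 0 < κ := by positivity
  have hκR2 : κ * R ^ 2 = 1 / 480 := by rw [hκdef]; field_simp
  have hκR : κ * R ^ 2 ≤ 1 / 120 := by rw [hκR2]; norm_num
  have hint : ∀ u : Eu d → ℝ, Continuous u → ∀ S : Set (Eu d),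
      Integrable u (ρ.restrict S) := fun u hu S =>
    (integrable_of_continuous hKc hKi hu).restrict
  have hintv : ∀ u : Eu d → Eu d, Continuous u → ∀ S : Set (Eu d),
      Integrable u (ρ.restrict S) := fun u hu S =>
    (integrable_of_continuous hKc hKi hu).restrict
  have haeK : ∀ᵐ x ∂ρ, x ∈ K := ae_mem hKc
  have homc : Continuous (om κ : Eu d → ℝ) := om_continuous κ
  -- masses of the second family of cells
  set a : Fin N → ℝ := fun i => ρ.real (cell y c' i) with ha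
  set γ : Fin N → ℝ := fun i => ∫ x in cell y c' i, g x ∂ρ with hγ
  set G2 : Fin N → ℝ := fun i => ∫ x in cell y c' i, g x ^ 2 ∂ρ with hG2
  set GG : ℝ := ∫ x, g x ^ 2 ∂ρ with hGG
  have hG2sum : ∑ i, G2 i = GG :=
    sum_integral_cell hN y hy c' ρ unif_ac (fun x => g x ^ 2)
      (integrable_of_continuous hKc hKi (by fun_prop))
  have hG20 : ∀ i, 0 ≤ G2 i := fun i => integral_nonneg fun x => sq_nonneg _
  have hGG0 : 0 ≤ GG := integral_nonneg fun x => sq_nonneg _
  have hma : ∀ i, m i = a i + s * γ i := by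
    intro i
    rw [← hD i, integral_add (integrable_const _) (hint _ (by fun_prop) _), integral_const_mul,
      setIntegral_const, smul_eq_mul, mul_one]
  have hD1 : ∀ i, a i ≤ 2 * m i := by
    intro i
    have h1 : ∫ _ in cell y c' i, (1 / 2 : ℝ) ∂ρ ≤ ∫ x in cell y c' i, (1 + s * g x) ∂ρ := by
      refine integral_mono_ae (integrable_const _) (hint _ (by fun_prop) _) ?_
      filter_upwards [ae_restrict_of_ae haeK] with x hx
      have := (abs_le.mp (hsg x hx)).1
      show (1 / 2 : ℝ) ≤ 1 + s * g x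
      linarith
    rw [hD i, setIntegral_const, smul_eq_mul] at h1
    have : a i = ρ.real (cell y c' i) := rfl
    linarith
  have hD2 : ∀ i, 2 / 3 * m i ≤ a i := by
    intro i
    have h1 : ∫ x in cell y c' i, (1 + s * g x) ∂ρ ≤ ∫ _ in cell y c' i, (3 / 2 : ℝ) ∂ρ := by
      refine integral_mono_ae (hint _ (by fun_prop) _) (integrable_const _) ?_
      filter_upwards [ae_restrict_of_ae haeK] with x hx
      have := (abs_le.mp (hsg x hx)).2
      show 1 + s * g x ≤ (3 / 2 : ℝ)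
      linarith
    rw [hD i, setIntegral_const, smul_eq_mul] at h1
    have : a i = ρ.real (cell y c' i) := rfl
    linarith
  have hγ2 : ∀ i, γ i ^ 2 ≤ 2 * m i * G2 i := by
    intro i
    have h1 := sq_setIntegral_le ρ (cell y c' i) g (hint _ hg _) (hint _ (by fun_prop) _)
    calc γ i ^ 2 ≤ a i * G2 i := h1
      _ ≤ 2 * m i * G2 i := by
        have := hD1 i
        have := hG20 i
        gcongr
  -- S_e
  have hSe : ∑ i, (m i - a i) ^ 2 / m i ≤ 2 * (s ^ 2 * GG) := by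
    have h1 : ∀ i, (m i - a i) ^ 2 / m i ≤ 2 * s ^ 2 * G2 i := by
      intro i
      have hmi := hm i
      rw [div_le_iff₀ hmi]
      have h2 : m i - a i = s * γ i := by rw [hma i]; ring
      rw [h2, mul_pow]
      calc s ^ 2 * γ i ^ 2 ≤ s ^ 2 * (2 * m i * G2 i) := by
            have := hγ2 i
            gcongr
        _ = 2 * s ^ 2 * G2 i * m i := by ring
    calc _ ≤ ∑ i, 2 * s ^ 2 * G2 i := Finset.sum_le_sum fun i _ => h1 i
      _ = 2 * (s ^ 2 * GG) := by rw [← Finset.mul_sum, hG2sum]; ring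
  -- P, P'
  set P : Fin N → ℝ := fun i => ∫ x in cell y c i, om κ x ∂ρ with hP
  set P' : Fin N → ℝ := fun i => ∫ x in cell y c' i, om κ x ∂ρ with hP'
  -- step 1
  set L : ℝ := 2 * κ * R with hL
  have hL0 : 0 < L := by positivity
  have hh : ∀ x ∈ K, κ / 2 * ‖x‖ ^ 2 ≤ 1 / 960 := by
    intro x hx
    have : κ / 2 * ‖x‖ ^ 2 ≤ κ / 2 * R ^ 2 := by
      have := hKR x hx
      gcongr
    linarith
  have hexp_om : ∀ x : Eu d, om κ x * Real.exp (κ / 2 * ‖x‖ ^ 2) = 1 := by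
    intro x
    unfold om
    rw [← Real.exp_add, neg_add_cancel, Real.exp_zero]
  have hSp : ∑ i, (P i - P' i) ^ 2 / m i ≤ 8 * (s ^ 2 * GG) := by
    -- sign choice
    set D : Fin N → ℝ := fun i => (m i - a i) - (P i - P' i) with hDdef
    set ε : Fin N → ℝ := fun i => if 0 ≤ D i then 1 else -1 with hε
    have hε1 : ∀ i, |ε i| = 1 := by intro i; simp only [hε]; split_ifs <;> simp
    have hε2 : ∀ i, ε i ^ 2 = 1 := by intro i; simp only [hε]; split_ifs <;> norm_num
    have hεD : ∀ i, 0 ≤ ε i * D i := by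
      intro i; simp only [hε]; split_ifs with h
      · simpa using h
      · push Not at h; linarith
    set q : Fin N → Eu d → ℝ := fun i x => ε i * ((Real.exp (κ / 2 * ‖x‖ ^ 2) - 1) / L) with hq
    have hqc : ∀ i, Continuous (q i) := by intro i; simp only [hq]; fun_prop
    have hωq : ∀ i x, om κ x * q i x = ε i / L * (1 - om κ x) := by
      intro i x
      simp only [hq]
      have := hexp_om x
      generalize Real.exp (κ / 2 * ‖x‖ ^ 2) = Ex at this
      field_simp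
      linear_combination (ε i) * this
    have hq1 : ∀ i, ∀ a ∈ K, ∀ b ∈ K, |q i a - q i b| ≤ ‖a - b‖ := by
      intro i a ha b hb
      have e : q i a - q i b = ε i * ((Real.exp (κ / 2 * ‖a‖ ^ 2) -
          Real.exp (κ / 2 * ‖b‖ ^ 2)) / L) := by simp only [hq]; ring
      rw [e, abs_mul, hε1, one_mul, abs_div, abs_of_pos hL0, div_le_iff₀ hL0]
      have h1 := exp_lip (u := κ / 2 * ‖a‖ ^ 2) (v := κ / 2 * ‖b‖ ^ 2)
        (by linarith [hh a ha]) (by linarith [hh b hb])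
      have h2 := h_lip hκ (hKR a ha) (hKR b hb)
      rw [hL]; nlinarith
    have hq2 : ∀ i, ∀ a ∈ K, |q i a| ≤ R := by
      intro i a ha
      simp only [hq]
      rw [abs_mul, hε1, one_mul, abs_div, abs_of_pos hL0, div_le_iff₀ hL0]
      have h1 := exp_lip (u := κ / 2 * ‖a‖ ^ 2) (v := 0)
        (by linarith [hh a ha]) (by norm_num)
      rw [Real.exp_zero, sub_zero, abs_of_nonneg (by positivity : 0 ≤ κ / 2 * ‖a‖ ^ 2)] at h1
      have h2 : κ / 2 * ‖a‖ ^ 2 ≤ κ / 2 * R ^ 2 := by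
        have := hKR a ha
        gcongr
      rw [hL]; nlinarith
    have hQQ : ∀ i, (∫ x in cell y c i, om κ x * q i x ∂ρ) -
        ∫ x in cell y c' i, om κ x * q i x ∂ρ = ε i / L * D i := by
      intro i
      simp_rw [hωq i]
      rw [integral_const_mul, integral_const_mul,
        integral_sub (integrable_const _) (hint _ homc _),
        integral_sub (integrable_const _) (hint _ homc _), setIntegral_const, setIntegral_const,
        smul_eq_mul, smul_eq_mul, mul_one, mul_one, hC i]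
      simp only [hDdef, ha, hP, hP']
      ring
    have hJ := lemmaJ hPL hKc hKv hKi hN y hy c c' m hm hκ hR hκR hKR hC hD1 hD2 q hqc hq1 hq2
      (fun i => by
        have h1 := hQQ i
        have h2 : 0 ≤ ε i / L * D i := by
          rw [div_mul_eq_mul_div]; exact div_nonneg (hεD i) hL0.le
        linarith)
    rw [← hρ] at hJ
    simp_rw [hQQ] at hJ
    have e1 : ∀ i, (ε i / L * D i) ^ 2 / m i = 120 / κ * (D i ^ 2 / m i) := by
      intro i
      rw [mul_pow, div_pow, hε2]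
      have hL2 : L ^ 2 = κ / 120 := by
        have : L ^ 2 = 4 * κ * (κ * R ^ 2) := by rw [hL]; ring
        rw [this, hκR2]; ring
      rw [hL2]
      field_simp
    simp_rw [e1] at hJ
    rw [← Finset.mul_sum, ← mul_assoc] at hJ
    have e2 : κ / 28 * (120 / κ) = 30 / 7 := by field_simp; norm_num
    rw [e2] at hJ
    have e3 : ∑ i, (P i - P' i) ^ 2 / m i ≤ 2 * ∑ i, D i ^ 2 / m i +
        2 * ∑ i, (m i - a i) ^ 2 / m i := by
      rw [Finset.mul_sum, Finset.mul_sum, ← Finset.sum_add_distrib]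
      refine Finset.sum_le_sum fun i _ => ?_
      have hmi := hm i
      rw [← mul_div_assoc, ← mul_div_assoc, ← add_div]
      gcongr
      simp only [hDdef]
      nlinarith [sq_nonneg (2 * (m i - a i) - (P i - P' i))]
    have hJ' : 30 / 7 * ∑ i, D i ^ 2 / m i ≤ ∑ i, (P i - P' i) ^ 2 / m i := hJ
    have hS0 : 0 ≤ ∑ i, D i ^ 2 / m i :=
      Finset.sum_nonneg fun i _ => div_nonneg (sq_nonneg _) (hm i).le
    nlinarith
  -- step 2: centroids
  set w : Fin N → Eu d := fun i => (∫ x in cell y c i, x ∂ρ) - ∫ x in cell y c' i, x ∂ρ with hw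
  have hSw : ∑ i, ‖w i‖ ^ 2 / m i ≤ 430080 * R ^ 2 * (s ^ 2 * GG) := by
    set u : Fin N → Eu d := fun i => ‖w i‖⁻¹ • w i with hu
    have hu1 : ∀ i, ‖u i‖ ≤ 1 := by
      intro i
      simp only [hu]
      rw [norm_smul, norm_inv, norm_norm]
      exact inv_mul_le_one
    have hwu : ∀ i, inner ℝ (w i) (u i) = ‖w i‖ := by
      intro i
      simp only [hu]
      rw [inner_smul_right, real_inner_self_eq_norm_sq]
      rcases eq_or_ne (‖w i‖) 0 with h | h
      · rw [h]; simp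
      · field_simp
    set q : Fin N → Eu d → ℝ :=
      fun i x => Real.exp (κ / 2 * ‖x‖ ^ 2) * (inner ℝ (u i) x / 2) with hq
    have hqc : ∀ i, Continuous (q i) := by intro i; simp only [hq]; fun_prop
    have hωq : ∀ i x, om κ x * q i x = 1 / 2 * inner ℝ (u i) x := by
      intro i x
      simp only [hq]
      rw [← mul_assoc, hexp_om]; ring
    have hin : ∀ i, ∀ a : Eu d, |inner ℝ (u i) a| ≤ ‖a‖ := by
      intro i a
      refine (abs_real_inner_le_norm _ _).trans ?_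
      calc ‖u i‖ * ‖a‖ ≤ 1 * ‖a‖ := by gcongr; exact hu1 i
        _ = ‖a‖ := one_mul _
    have hexp2 : ∀ a ∈ K, Real.exp (κ / 2 * ‖a‖ ^ 2) ≤ 3 / 2 := by
      intro a ha
      have h1 := exp_lip (u := κ / 2 * ‖a‖ ^ 2) (v := 0)
        (by linarith [hh a ha]) (by norm_num)
      rw [Real.exp_zero, sub_zero, abs_of_nonneg (by positivity : 0 ≤ κ / 2 * ‖a‖ ^ 2)] at h1
      have := (abs_le.mp h1).2
      linarith [hh a ha]
    have hq1 : ∀ i, ∀ a ∈ K, ∀ b ∈ K, |q i a - q i b| ≤ ‖a - b‖ := by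
      intro i a ha b hb
      have e : q i a - q i b = Real.exp (κ / 2 * ‖a‖ ^ 2) * (inner ℝ (u i) (a - b) / 2) +
          (Real.exp (κ / 2 * ‖a‖ ^ 2) - Real.exp (κ / 2 * ‖b‖ ^ 2)) * (inner ℝ (u i) b / 2) := by
        simp only [hq]; rw [inner_sub_right]; ring
      have h1 := exp_lip (u := κ / 2 * ‖a‖ ^ 2) (v := κ / 2 * ‖b‖ ^ 2)
        (by linarith [hh a ha]) (by linarith [hh b hb])
      have h2 := h_lip hκ (hKR a ha) (hKR b hb)
      have h3 : |Real.exp (κ / 2 * ‖a‖ ^ 2) * (inner ℝ (u i) (a - b) / 2)| ≤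
          3 / 2 * (‖a - b‖ / 2) := by
        rw [abs_mul, abs_of_pos (Real.exp_pos _), abs_div, abs_of_pos (by norm_num : (0:ℝ) < 2)]
        have := hexp2 a ha
        have := hin i (a - b)
        gcongr
      have h4 : |(Real.exp (κ / 2 * ‖a‖ ^ 2) - Real.exp (κ / 2 * ‖b‖ ^ 2)) *
          (inner ℝ (u i) b / 2)| ≤ (2 * (κ * R * ‖a - b‖)) * (R / 2) := by
        rw [abs_mul, abs_div, abs_of_pos (by norm_num : (0:ℝ) < 2)]
        have h5 : |inner ℝ (u i) b| ≤ R := (hin i b).trans (hKR b hb)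
        have h6 : |Real.exp (κ / 2 * ‖a‖ ^ 2) - Real.exp (κ / 2 * ‖b‖ ^ 2)| ≤
          2 * (κ * R * ‖a - b‖) := by linarith
        gcongr
      rw [e]
      refine (abs_add_le _ _).trans ?_
      have h7 : (2 * (κ * R * ‖a - b‖)) * (R / 2) = (κ * R ^ 2) * ‖a - b‖ := by ring
      rw [h7, hκR2] at h4
      nlinarith [norm_nonneg (a - b)]
    have hq2 : ∀ i, ∀ a ∈ K, |q i a| ≤ R := by
      intro i a ha
      simp only [hq]
      rw [abs_mul, abs_of_pos (Real.exp_pos _), abs_div, abs_of_pos (by norm_num : (0:ℝ) < 2)]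
      have h5 : |inner ℝ (u i) a| ≤ R := (hin i a).trans (hKR a ha)
      have := hexp2 a ha
      calc Real.exp (κ / 2 * ‖a‖ ^ 2) * (|inner ℝ (u i) a| / 2) ≤ 3 / 2 * (R / 2) := by gcongr
        _ ≤ R := by linarith
    have hQQ : ∀ i, (∫ x in cell y c i, om κ x * q i x ∂ρ) -
        ∫ x in cell y c' i, om κ x * q i x ∂ρ = 1 / 2 * ‖w i‖ := by
      intro i
      simp_rw [hωq i]
      rw [integral_const_mul, integral_const_mul, integral_inner (hintv _ continuous_id' _),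
        integral_inner (hintv _ continuous_id' _), ← hwu i]
      simp only [hw]
      rw [real_inner_comm, real_inner_comm _ (u i), ← mul_sub, ← inner_sub_left]
    have hJ := lemmaJ hPL hKc hKv hKi hN y hy c c' m hm hκ hR hκR hKR hC hD1 hD2 q hqc hq1 hq2
      (fun i => by
        have h1 := hQQ i
        have h2 : 0 ≤ 1 / 2 * ‖w i‖ := by positivity
        linarith)
    rw [← hρ] at hJ
    simp_rw [hQQ] at hJ
    have e1 : ∀ i, (1 / 2 * ‖w i‖) ^ 2 / m i = 1 / 4 * (‖w i‖ ^ 2 / m i) := by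
      intro i; ring
    simp_rw [e1] at hJ
    rw [← Finset.mul_sum] at hJ
    have hJ' : κ / 28 * (1 / 4 * ∑ i, ‖w i‖ ^ 2 / m i) ≤ 8 * (s ^ 2 * GG) := hJ.trans hSp
    have e4 : κ / 28 * (1 / 4 * ∑ i, ‖w i‖ ^ 2 / m i) =
        (1 / (53760 * R ^ 2)) * ∑ i, ‖w i‖ ^ 2 / m i := by
      rw [hκdef]; field_simp; ring
    rw [e4, div_mul_eq_mul_div, one_mul, div_le_iff₀ (by positivity)] at hJ'
    nlinarith
  -- conclusion
  have hfin : ∀ i, ‖(∫ x in cell y c i, x ∂ρ) -
        ∫ x in cell y c' i, (1 + s * g x) • x ∂ρ‖ ^ 2 / m i ≤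
      2 * (‖w i‖ ^ 2 / m i) + 4 * R ^ 2 * s ^ 2 * G2 i := by
    intro i
    have hmi := hm i
    have e1 : (∫ x in cell y c i, x ∂ρ) - ∫ x in cell y c' i, (1 + s * g x) • x ∂ρ =
        w i - s • ∫ x in cell y c' i, g x • x ∂ρ := by
      have : ∀ x : Eu d, (1 + s * g x) • x = x + s • (g x • x) := by
        intro x; rw [add_smul, one_smul, mul_smul]
      simp_rw [this]
      rw [integral_add (hintv (fun x => x) continuous_id' _)
        (hintv (fun x => s • (g x • x)) (by fun_prop) _), integral_smul]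
      simp only [hw]
      abel
    rw [e1]
    have h1 := norm_setIntegral_smul_sq hKc hKi hR hKR g hg (cell y c' i)
    have h2 : ‖w i - s • ∫ x in cell y c' i, g x • x ∂ρ‖ ^ 2 ≤
        2 * ‖w i‖ ^ 2 + 2 * (s ^ 2 * ‖∫ x in cell y c' i, g x • x ∂ρ‖ ^ 2) := by
      have h3 := norm_sub_le (w i) (s • ∫ x in cell y c' i, g x • x ∂ρ)
      rw [norm_smul, Real.norm_eq_abs] at h3
      have h4 : ‖w i - s • ∫ x in cell y c' i, g x • x ∂ρ‖ ^ 2 ≤
          (‖w i‖ + |s| * ‖∫ x in cell y c' i, g x • x ∂ρ‖) ^ 2 := by gcongr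
      have h5 : s ^ 2 = |s| ^ 2 := (sq_abs s).symm
      rw [h5]
      nlinarith [sq_nonneg (‖w i‖ - |s| * ‖∫ x in cell y c' i, g x • x ∂ρ‖)]
    have h3 : ‖∫ x in cell y c' i, g x • x ∂ρ‖ ^ 2 ≤ R ^ 2 * (2 * m i * G2 i) := by
      refine h1.trans ?_
      have h4 : ρ.real (cell y c' i) ≤ 2 * m i := hD1 i
      have h5 := hG20 i
      have h6 : ρ.real (cell y c' i) * ∫ x in cell y c' i, g x ^ 2 ∂ρ ≤ 2 * m i * G2 i :=
        mul_le_mul_of_nonneg_right h4 h5
      gcongr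
    rw [div_le_iff₀ hmi]
    calc _ ≤ 2 * ‖w i‖ ^ 2 + 2 * (s ^ 2 * ‖∫ x in cell y c' i, g x • x ∂ρ‖ ^ 2) := h2
      _ ≤ 2 * ‖w i‖ ^ 2 + 2 * (s ^ 2 * (R ^ 2 * (2 * m i * G2 i))) := by gcongr
      _ = (2 * (‖w i‖ ^ 2 / m i) + 4 * R ^ 2 * s ^ 2 * G2 i) * m i := by field_simp; ring
  calc _ ≤ ∑ i, (2 * (‖w i‖ ^ 2 / m i) + 4 * R ^ 2 * s ^ 2 * G2 i) :=
        Finset.sum_le_sum fun i _ => hfin i
    _ = 2 * (∑ i, ‖w i‖ ^ 2 / m i) + 4 * R ^ 2 * s ^ 2 * GG := by
        rw [Finset.sum_add_distrib, ← Finset.mul_sum, ← Finset.mul_sum, hG2sum]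
    _ ≤ 2 * (430080 * R ^ 2 * (s ^ 2 * GG)) + 4 * R ^ 2 * s ^ 2 * GG := by gcongr
    _ ≤ 1000000 * R ^ 2 * (s ^ 2 * GG) := by
        have : 0 ≤ R ^ 2 * (s ^ 2 * GG) := by positivity
        nlinarith

end Crest.Agent.QT
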