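import Mathlib
import Crest.Agent.QTPot
import Crest.Agent.QTStatic2

/-! Row 82: tilted source measures. -/

set_option autoImplicit false

namespace Crest.Agent.QT

open MeasureTheory Set Filter Topology
open scoped ENNReal NNReal
open Crest.AnalysisR.OT

variable {d N : ℕ} {K : Set (Eu d)}

/-- tilted source measure -/
noncomputable def sig (K : Set (Eu d)) (g : Eu d → ℝ) (s : ℝ) : Measure (Eu d) :=
  (uniformProbOn K).withDensity (fun x => ENNReal.ofReal (1 + s * g x))

section Sig

variable (hKc : IsCompact K) (hKi : (interior K).Nonempty) {g : Eu d → ℝ} (hg : Continuous g)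
  {s : ℝ} (hsg : ∀ x ∈ K, |s * g x| ≤ 1 / 2)

theorem sig_ac : sig K g s ≪ (volume : Measure (Eu d)) :=
  (withDensity_absolutelyContinuous _ _).trans unif_ac

include hKc in
theorem sig_compl : sig K g s Kᶜ = 0 :=
  withDensity_absolutelyContinuous _ _ (unif_compl hKc)

include hKc hg hsg in
theorem sig_setIntegral {F : Type*} [NormedAddCommGroup F] [NormedSpace ℝ F] (f : Eu d → F)
    {S : Set (Eu d)} (hS : MeasurableSet S) :
    ∫ x in S, f x ∂(sig K g s) = ∫ x in S, (1 + s * g x) • f x ∂(uniformProbOn K) := by
  unfold sig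
  rw [setIntegral_withDensity_eq_setIntegral_toReal_smul (by fun_prop)
    (Eventually.of_forall fun x => ENNReal.ofReal_lt_top) _ hS]
  refine integral_congr_ae ?_
  have h : ∀ᵐ x ∂((uniformProbOn K).restrict S), x ∈ K := ae_restrict_of_ae (ae_mem hKc)
  filter_upwards [h] with x hx
  have h1 := abs_le.mp (hsg x hx)
  show (ENNReal.ofReal (1 + s * g x)).toReal • f x = (1 + s * g x) • f x
  rw [ENNReal.toReal_ofReal (by linarith [h1.1])]

include hKc hg hsg in
theorem sig_integral {F : Type*} [NormedAddCommGroup F] [NormedSpace ℝ F] (f : Eu d → F) :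
    ∫ x, f x ∂(sig K g s) = ∫ x, (1 + s * g x) • f x ∂(uniformProbOn K) := by
  have := sig_setIntegral hKc hg hsg f MeasurableSet.univ
  simpa using this

include hKc hKi hg hsg in
theorem sig_prob (h0 : ∫ x, g x ∂(uniformProbOn K) = 0) : IsProbabilityMeasure (sig K g s) := by
  have := isProb_unif hKc hKi
  constructor
  unfold sig
  rw [withDensity_apply _ MeasurableSet.univ, Measure.restrict_univ,
    ← ofReal_integral_eq_lintegral_ofReal]
  · rw [integral_add (integrable_const _) ((integrable_of_continuous hKc hKi hg).const_mul _),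
      integral_const_mul, h0]
    simp
  · exact integrable_of_continuous hKc hKi (by fun_prop)
  · filter_upwards [ae_mem hKc] with x hx
    have h1 := abs_le.mp (hsg x hx)
    show (0 : ℝ) ≤ 1 + s * g x
    linarith [h1.1]

include hKc hKi hg hsg in
theorem sig_integral_sub {f : Eu d → ℝ} (hf : Continuous f) :
    ∫ x, f x ∂(sig K g s) - ∫ x, f x ∂(uniformProbOn K) =
      s * ∫ x, f x * g x ∂(uniformProbOn K) := by
  rw [sig_integral hKc hg hsg f]
  have e : ∀ x, (1 + s * g x) • f x = f x + s * (f x * g x) := fun x => by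
    simp only [smul_eq_mul]; ring
  simp_rw [e]
  have i1 : Integrable (fun x => s * (f x * g x)) (uniformProbOn K) :=
    (integrable_of_continuous hKc hKi (hf.mul hg)).const_mul _
  rw [integral_add (integrable_of_continuous hKc hKi hf) i1, integral_const_mul]
  ring

include hKc hg hsg in
theorem sig_real {S : Set (Eu d)} (hS : MeasurableSet S) :
    (sig K g s).real S = ∫ x in S, (1 + s * g x) ∂(uniformProbOn K) := by
  have := sig_setIntegral hKc hg hsg (fun _ => (1 : ℝ)) hS
  simpa using this

end Sig

end Crest.Agent.QT
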