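import Mathlib
import Crest.Agent.QTSig

/-! Row 82: the discretised path argument. -/

set_option autoImplicit false

namespace Crest.Agent.QT

open MeasureTheory Set Filter Topology
open scoped ENNReal NNReal
open Crest.AnalysisR.OT

variable {d N : ℕ} {K : Set (Eu d)}

/-- point of the segment from `y` to `z` -/
noncomputable def seg (y z : Fin N → Eu d) (t : ℝ) (i : Fin N) : Eu d := y i + t • (z i - y i)

theorem seg_zero (y z : Fin N → Eu d) : seg y z 0 = y := by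
  funext i; simp [seg]

theorem seg_one (y z : Fin N → Eu d) : seg y z 1 = z := by
  funext i; simp [seg]

/-- bad parameters for a pair are at most one -/
theorem seg_bad_unique (y z : Fin N → Eu d) (hy : Function.Injective y)
    {i j : Fin N} (hij : i ≠ j) {t t' : ℝ} (ht : seg y z t i = seg y z t j)
    (ht' : seg y z t' i = seg y z t' j) : t = t' := by
  by_contra hne
  simp only [seg] at ht ht'
  have h1 : (y i - y j) + t • ((z i - y i) - (z j - y j)) = 0 := by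
    rw [smul_sub]
    have : y i - y j + (t • (z i - y i) - t • (z j - y j)) =
      (y i + t • (z i - y i)) - (y j + t • (z j - y j)) := by abel
    rw [this, ht, sub_self]
  have h2 : (y i - y j) + t' • ((z i - y i) - (z j - y j)) = 0 := by
    rw [smul_sub]
    have : y i - y j + (t' • (z i - y i) - t' • (z j - y j)) =
      (y i + t' • (z i - y i)) - (y j + t' • (z j - y j)) := by abel
    rw [this, ht', sub_self]
  have h3 : (t - t') • ((z i - y i) - (z j - y j)) = 0 := by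
    rw [sub_smul]
    have e : t • ((z i - y i) - (z j - y j)) - t' • ((z i - y i) - (z j - y j)) =
      ((y i - y j) + t • ((z i - y i) - (z j - y j))) -
        ((y i - y j) + t' • ((z i - y i) - (z j - y j))) := by abel
    rw [e, h1, h2, sub_zero]
  rcases smul_eq_zero.mp h3 with h4 | h4
  · exact hne (sub_eq_zero.mp h4)
  · rw [h4, smul_zero, add_zero] at h1
    exact hij (hy (sub_eq_zero.mp h1))

theorem exists_good (y z : Fin N → Eu d) (hy : Function.Injective y) (hz : Function.Injective z)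
    (M : ℕ) : ∃ n : ℕ, M ≤ n ∧ 0 < n ∧ ∀ k ≤ n, Function.Injective (seg y z ((k : ℝ) / n)) := by
  -- bad primes
  let P : Fin N × Fin N → Set ℕ := fun q => {p | p.Prime ∧ q.1 ≠ q.2 ∧ ∃ k, 0 < k ∧ k < p ∧
    seg y z ((k : ℝ) / p) q.1 = seg y z ((k : ℝ) / p) q.2}
  have hPs : ∀ q, (P q).Subsingleton := by
    rintro q p ⟨hp, hq, k, hk0, hkp, hk⟩ p' ⟨hp', _, k', hk0', hkp', hk'⟩
    have e := seg_bad_unique y z hy hq hk hk'
    have hp0 : (p : ℝ) ≠ 0 := by exact_mod_cast hp.ne_zero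
    have hp0' : (p' : ℝ) ≠ 0 := by exact_mod_cast hp'.ne_zero
    rw [div_eq_div_iff hp0 hp0'] at e
    have e2 : k * p' = k' * p := by exact_mod_cast e
    have h3 : p ∣ k * p' := ⟨k', by rw [e2, mul_comm]⟩
    rcases (Nat.Prime.dvd_mul hp).mp h3 with h4 | h4
    · exact absurd (Nat.le_of_dvd hk0 h4) (by omega)
    · exact (Nat.prime_dvd_prime_iff_eq hp hp').mp h4
  have hfin : (⋃ q, P q).Finite := finite_iUnion fun q => (hPs q).finite
  obtain ⟨b, hb⟩ := hfin.bddAbove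
  obtain ⟨n, hn, hnp⟩ := Nat.exists_infinite_primes (max M (b + 1))
  refine ⟨n, le_trans (le_max_left _ _) hn, hnp.pos, fun k hk => ?_⟩
  have hn0 : (n : ℝ) ≠ 0 := by exact_mod_cast hnp.ne_zero
  rcases Nat.eq_zero_or_pos k with rfl | hk0
  · simpa [seg_zero] using hy
  rcases eq_or_lt_of_le hk with rfl | hkn
  · rw [div_self hn0, seg_one]; exact hz
  intro i j hij
  by_contra hne
  have : n ∈ ⋃ q, P q := mem_iUnion.mpr ⟨(i, j), hnp, hne, k, hk0, hkn, hij⟩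
  have h5 := hb this
  have h6 := le_trans (le_max_right M (b + 1)) hn
  omega

theorem norm_bary_le {R : ℝ} (hKR : ∀ x ∈ K, ‖x‖ ≤ R)
    (σ : Measure (Eu d)) [IsProbabilityMeasure σ] (hσK : σ Kᶜ = 0) (S : Set (Eu d)) :
    ‖∫ x in S, x ∂σ‖ ≤ R * σ.real S := by
  refine norm_setIntegral_le_of_norm_le_const_ae' (measure_lt_top _ _) ?_
  have h : ∀ᵐ x ∂σ, x ∈ K := by rw [ae_iff]; exact hσK
  filter_upwards [h] with x hx _
  exact hKR x hx

theorem tele {Ws Wr Fs Fr : ℕ → ℝ} {n : ℕ} (hn : 0 < n) {E X : ℝ}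
    (h1 : ∀ k < n, Ws (k + 1) - Ws k ≤ (1 / n : ℝ) * Fs (k + 1))
    (h2 : ∀ k < n, (1 / n : ℝ) * Fr k ≤ Wr (k + 1) - Wr k)
    (h3 : ∀ k < n, Fs k - Fr k ≤ X) (h4 : Fs n - Fs 0 ≤ E) :
    (Ws n - Ws 0) - (Wr n - Wr 0) ≤ X + E / n := by
  have hn' : (0 : ℝ) < n := by exact_mod_cast hn
  have e1 : Ws n - Ws 0 = ∑ k ∈ Finset.range n, (Ws (k + 1) - Ws k) :=
    (Finset.sum_range_sub Ws n).symm
  have e2 : Wr n - Wr 0 = ∑ k ∈ Finset.range n, (Wr (k + 1) - Wr k) :=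
    (Finset.sum_range_sub Wr n).symm
  have e3 : ∑ k ∈ Finset.range n, (Ws (k + 1) - Ws k) ≤
      (1 / n : ℝ) * ∑ k ∈ Finset.range n, Fs (k + 1) := by
    rw [Finset.mul_sum]
    exact Finset.sum_le_sum fun k hk => h1 k (Finset.mem_range.mp hk)
  have e4 : (1 / n : ℝ) * ∑ k ∈ Finset.range n, Fr k ≤
      ∑ k ∈ Finset.range n, (Wr (k + 1) - Wr k) := by
    rw [Finset.mul_sum]
    exact Finset.sum_le_sum fun k hk => h2 k (Finset.mem_range.mp hk)
  have e5 : ∑ k ∈ Finset.range n, Fs (k + 1) = ∑ k ∈ Finset.range n, Fs k + (Fs n - Fs 0) := by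
    rw [← Finset.sum_range_sub Fs n, ← Finset.sum_add_distrib]
    refine Finset.sum_congr rfl fun k _ => by ring
  have e6 : ∑ k ∈ Finset.range n, (Fs k - Fr k) ≤ n * X := by
    have := Finset.sum_le_card_nsmul (Finset.range n) (fun k => Fs k - Fr k) X
      (fun k hk => h3 k (Finset.mem_range.mp hk))
    simpa using this
  rw [Finset.sum_sub_distrib] at e6
  have e7 : (1 / n : ℝ) * (n * X + E) = X + E / n := by field_simp
  have e8 : (1 / n : ℝ) * (∑ k ∈ Finset.range n, Fs (k + 1) - ∑ k ∈ Finset.range n, Fr k) ≤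
      (1 / n : ℝ) * (n * X + E) := by
    refine mul_le_mul_of_nonneg_left ?_ (by positivity)
    rw [e5]; linarith
  rw [e1, e2, ← e7]
  rw [mul_sub] at e8
  linarith

theorem cs_bary (m : Fin N → ℝ) (hm : ∀ i, 0 < m i) (v b : Fin N → Eu d) :
    ∑ i, inner ℝ (v i) (b i) ≤ √(∑ i, m i * ‖v i‖ ^ 2) * √(∑ i, ‖b i‖ ^ 2 / m i) := by
  have h1 : ∀ i, inner ℝ (v i) (b i) ≤ (√(m i) * ‖v i‖) * (‖b i‖ / √(m i)) := by
    intro i
    have h2 : (√(m i) * ‖v i‖) * (‖b i‖ / √(m i)) = ‖v i‖ * ‖b i‖ := by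
      have : √(m i) ≠ 0 := (Real.sqrt_pos.mpr (hm i)).ne'
      field_simp
    rw [h2]
    exact real_inner_le_norm _ _
  refine (Finset.sum_le_sum fun i _ => h1 i).trans ?_
  refine (Real.sum_mul_le_sqrt_mul_sqrt _ _ _).trans_eq ?_
  congr 2
  · refine Finset.sum_congr rfl fun i _ => ?_
    rw [mul_pow, Real.sq_sqrt (hm i).le]
  · refine Finset.sum_congr rfl fun i _ => ?_
    rw [div_pow, Real.sq_sqrt (hm i).le]

/-- the dual value -/
noncomputable def Wv (σ : Measure (Eu d)) (y : Fin N → Eu d) (c : Fin N → ℝ) : ℝ :=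
  ∑ i, inner ℝ (y i) (∫ x in cell y c i, x ∂σ)

theorem path_bound (hPL : PrekopaLeindler) (hKc : IsCompact K) (hKv : Convex ℝ K)
    (hKi : (interior K).Nonempty) {R : ℝ} (hR : 0 < R) (hKR : ∀ x ∈ K, ‖x‖ ≤ R)
    (hN : 0 < N) (y z : Fin N → Eu d) (m : Fin N → ℝ) (hm : ∀ i, 0 < m i)
    (g : Eu d → ℝ) (hg : Continuous g) (hg0 : ∫ x, g x ∂(uniformProbOn K) = 0)
    (s : ℝ) (hs : 0 ≤ s) (hsg : ∀ x ∈ K, |s * g x| ≤ 1 / 2)
    (n : ℕ) (hn : 0 < n) (hinj : ∀ k ≤ n, Function.Injective (seg y z ((k : ℝ) / n)))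
    (cs cr : ℕ → Fin N → ℝ)
    (hcs : ∀ k ≤ n, ∀ i, (sig K g s).real (cell (seg y z ((k : ℝ) / n)) (cs k) i) = m i)
    (hcr : ∀ k ≤ n, ∀ i, (uniformProbOn K).real (cell (seg y z ((k : ℝ) / n)) (cr k) i) = m i) :
    (Wv (sig K g s) (seg y z ((n : ℝ) / n)) (cs n) -
        Wv (sig K g s) (seg y z (((0 : ℕ) : ℝ) / n)) (cs 0)) -
      (Wv (uniformProbOn K) (seg y z ((n : ℝ) / n)) (cr n) -
        Wv (uniformProbOn K) (seg y z (((0 : ℕ) : ℝ) / n)) (cr 0)) ≤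
      1000 * R * (s * √(∫ x, g x ^ 2 ∂(uniformProbOn K))) * √(∑ i, m i * ‖z i - y i‖ ^ 2) +
        (2 * R * ∑ i, m i * ‖z i - y i‖) / n := by
  have hρp := isProb_unif hKc hKi
  have hσp := sig_prob hKc hKi hg hsg hg0
  have hn' : (0 : ℝ) < n := by exact_mod_cast hn
  set ρ := uniformProbOn K with hρ
  set σ := sig K g s with hσ
  have hstep : ∀ k : ℕ, ∀ i, seg y z (((k + 1 : ℕ) : ℝ) / n) i =
      seg y z ((k : ℝ) / n) i + (1 / n : ℝ) • (z i - y i) := by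
    intro k i
    simp only [seg]
    push_cast
    rw [add_div, add_smul, add_assoc]
  refine tele (Ws := fun k => Wv σ (seg y z ((k : ℝ) / n)) (cs k))
    (Wr := fun k => Wv ρ (seg y z ((k : ℝ) / n)) (cr k))
    (Fs := fun k => ∑ i, inner ℝ (z i - y i) (∫ x in cell (seg y z ((k : ℝ) / n)) (cs k) i, x ∂σ))
    (Fr := fun k => ∑ i, inner ℝ (z i - y i) (∫ x in cell (seg y z ((k : ℝ) / n)) (cr k) i, x ∂ρ))
    hn ?_ ?_ ?_ ?_
  · intro k hk
    have h1 := opt_cell hKc σ sig_ac (sig_compl hKc) hN (seg y z ((k : ℝ) / n))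
      (hinj k hk.le) (cs k) m (hcs k hk.le) (seg y z (((k + 1 : ℕ) : ℝ) / n))
      (hinj (k + 1) hk) (cs (k + 1)) (hcs (k + 1) hk)
    have h2 : Wv σ (seg y z (((k + 1 : ℕ) : ℝ) / n)) (cs (k + 1)) =
        ∑ i, inner ℝ (seg y z ((k : ℝ) / n) i)
          (∫ x in cell (seg y z (((k + 1 : ℕ) : ℝ) / n)) (cs (k + 1)) i, x ∂σ) +
        (1 / n : ℝ) * ∑ i, inner ℝ (z i - y i)
          (∫ x in cell (seg y z (((k + 1 : ℕ) : ℝ) / n)) (cs (k + 1)) i, x ∂σ) := by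
      unfold Wv
      rw [Finset.mul_sum, ← Finset.sum_add_distrib]
      refine Finset.sum_congr rfl fun i _ => ?_
      conv_lhs => rw [hstep k i]
      rw [inner_add_left, real_inner_smul_left]
    show Wv σ (seg y z (((k + 1 : ℕ) : ℝ) / n)) (cs (k + 1)) -
      Wv σ (seg y z ((k : ℝ) / n)) (cs k) ≤ _
    rw [h2]
    simp only [Wv]
    linarith
  · intro k hk
    have h1 := opt_cell hKc ρ unif_ac (unif_compl hKc) hN (seg y z (((k + 1 : ℕ) : ℝ) / n))
      (hinj (k + 1) hk) (cr (k + 1)) m (hcr (k + 1) hk) (seg y z ((k : ℝ) / n))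
      (hinj k hk.le) (cr k) (hcr k hk.le)
    have h2 : ∑ i, inner ℝ (seg y z (((k + 1 : ℕ) : ℝ) / n) i)
          (∫ x in cell (seg y z ((k : ℝ) / n)) (cr k) i, x ∂ρ) =
        Wv ρ (seg y z ((k : ℝ) / n)) (cr k) +
        (1 / n : ℝ) * ∑ i, inner ℝ (z i - y i)
          (∫ x in cell (seg y z ((k : ℝ) / n)) (cr k) i, x ∂ρ) := by
      unfold Wv
      rw [Finset.mul_sum, ← Finset.sum_add_distrib]
      refine Finset.sum_congr rfl fun i _ => ?_
      rw [hstep k i, inner_add_left, real_inner_smul_left]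
    rw [h2] at h1
    show _ ≤ Wv ρ (seg y z (((k + 1 : ℕ) : ℝ) / n)) (cr (k + 1)) -
      Wv ρ (seg y z ((k : ℝ) / n)) (cr k)
    have h3 : Wv ρ (seg y z (((k + 1 : ℕ) : ℝ) / n)) (cr (k + 1)) =
      ∑ i, inner ℝ (seg y z (((k + 1 : ℕ) : ℝ) / n) i)
        (∫ x in cell (seg y z (((k + 1 : ℕ) : ℝ) / n)) (cr (k + 1)) i, x ∂ρ) := rfl
    rw [h3]
    linarith
  · intro k hk
    show ∑ i, inner ℝ (z i - y i) (∫ x in cell (seg y z ((k : ℝ) / n)) (cs k) i, x ∂σ) -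
      ∑ i, inner ℝ (z i - y i) (∫ x in cell (seg y z ((k : ℝ) / n)) (cr k) i, x ∂ρ) ≤ _
    rw [← Finset.sum_sub_distrib]
    simp_rw [← inner_sub_right]
    have h1 := cs_bary m hm (fun i => z i - y i) (fun i =>
      (∫ x in cell (seg y z ((k : ℝ) / n)) (cs k) i, x ∂σ) -
        ∫ x in cell (seg y z ((k : ℝ) / n)) (cr k) i, x ∂ρ)
    refine h1.trans ?_
    have h2 := staticCell hPL hKc hKv hKi hR hKR hN (seg y z ((k : ℝ) / n)) (hinj k hk.le)
      (cr k) (cs k) m hm g hg s hsg (hcr k hk.le) (fun i => by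
        rw [← sig_real hKc hg hsg (measurableSet_cell _ _ _)]
        exact hcs k hk.le i)
    have h3 : ∑ i, ‖(∫ x in cell (seg y z ((k : ℝ) / n)) (cs k) i, x ∂σ) -
        ∫ x in cell (seg y z ((k : ℝ) / n)) (cr k) i, x ∂ρ‖ ^ 2 / m i ≤
        1000000 * R ^ 2 * (s ^ 2 * ∫ x, g x ^ 2 ∂ρ) := by
      refine le_trans (le_of_eq ?_) h2
      refine Finset.sum_congr rfl fun i _ => ?_
      rw [hσ, sig_setIntegral hKc hg hsg (fun x => x) (measurableSet_cell _ _ _), norm_sub_rev]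
    have h4 : √(1000000 * R ^ 2 * (s ^ 2 * ∫ x, g x ^ 2 ∂ρ)) =
        1000 * R * (s * √(∫ x, g x ^ 2 ∂ρ)) := by
      have e : 1000000 * R ^ 2 * (s ^ 2 * ∫ x, g x ^ 2 ∂ρ) =
        (1000 * R * s) ^ 2 * ∫ x, g x ^ 2 ∂ρ := by ring
      rw [e, Real.sqrt_mul (by positivity), Real.sqrt_sq (by positivity)]
      ring
    rw [mul_comm, ← h4]
    gcongr
  · show ∑ i, inner ℝ (z i - y i) (∫ x in cell (seg y z ((n : ℝ) / n)) (cs n) i, x ∂σ) -
      ∑ i, inner ℝ (z i - y i) (∫ x in cell (seg y z (((0 : ℕ) : ℝ) / n)) (cs 0) i, x ∂σ) ≤ _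
    rw [← Finset.sum_sub_distrib, Finset.mul_sum]
    refine Finset.sum_le_sum fun i _ => ?_
    rw [← inner_sub_right]
    refine (real_inner_le_norm _ _).trans ?_
    have h1 := norm_bary_le hKR σ (sig_compl hKc) (cell (seg y z ((n : ℝ) / n)) (cs n) i)
    have h2 := norm_bary_le hKR σ (sig_compl hKc) (cell (seg y z (((0 : ℕ) : ℝ) / n)) (cs 0) i)
    rw [hcs n le_rfl i] at h1
    rw [hcs 0 (Nat.zero_le _) i] at h2
    have h3 := norm_sub_le (∫ x in cell (seg y z ((n : ℝ) / n)) (cs n) i, x ∂σ)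
      (∫ x in cell (seg y z (((0 : ℕ) : ℝ) / n)) (cs 0) i, x ∂σ)
    have h4 : ‖(∫ x in cell (seg y z ((n : ℝ) / n)) (cs n) i, x ∂σ) -
      (∫ x in cell (seg y z (((0 : ℕ) : ℝ) / n)) (cs 0) i, x ∂σ)‖ ≤ 2 * R * m i := by linarith
    calc _ ≤ ‖z i - y i‖ * (2 * R * m i) := by gcongr
      _ = _ := by ring

end Crest.Agent.QT
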