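import Mathlib
import Crest.Agent.QTDefs

set_option autoImplicit false

namespace Crest.Agent.QT

open MeasureTheory Set Filter Topology
open scoped ENNReal NNReal

/-! ### one-dimensional Brunn–Minkowski -/

lemma bm_compact {A B : Set ℝ} (hA : IsCompact A) (hB : IsCompact B) (hA0 : A.Nonempty)
    (hB0 : B.Nonempty) {C : Set ℝ} (hC : ∀ a ∈ A, ∀ b ∈ B, (a + b) / 2 ∈ C) :
    volume A + volume B ≤ 2 * volume C := by
  obtain ⟨a0, ha0, hmax⟩ := hA.exists_isMaxOn hA0 continuous_id.continuousOn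
  obtain ⟨b0, hb0, hmin⟩ := hB.exists_isMinOn hB0 continuous_id.continuousOn
  have hmax' : ∀ a ∈ A, a ≤ a0 := fun a ha => hmax ha
  have hmin' : ∀ b ∈ B, b0 ≤ b := fun b hb => hmin hb
  set A' : Set ℝ := (fun x => x - b0) ⁻¹' A with hA'
  set B' : Set ℝ := (fun x => x - a0) ⁻¹' B with hB'
  have vA : volume A' = volume A := by
    have := measure_preimage_add_right (volume : Measure ℝ) (-b0) A
    simpa [hA', sub_eq_add_neg] using this
  have vB : volume B' = volume B := by
    have := measure_preimage_add_right (volume : Measure ℝ) (-a0) B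
    simpa [hB', sub_eq_add_neg] using this
  have hsub : A' ∪ B' ⊆ (fun x : ℝ => (1 / 2 : ℝ) * x) ⁻¹' C := by
    rintro x (hx | hx)
    · have := hC _ hx _ hb0
      simp only [mem_preimage]
      convert this using 1
      ring
    · have := hC _ ha0 _ hx
      simp only [mem_preimage]
      convert this using 1
      ring
  have vC : volume ((fun x : ℝ => (1 / 2 : ℝ) * x) ⁻¹' C) = 2 * volume C := by
    rw [Real.volume_preimage_mul_left (by norm_num : (1 / 2 : ℝ) ≠ 0)]
    congr 1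
    norm_num
  have hint : A' ∩ B' ⊆ {a0 + b0} := by
    rintro x ⟨h1, h2⟩
    have h3 := hmax' _ h1
    have h4 := hmin' _ h2
    simp only [mem_singleton_iff]
    linarith
  have hB'm : MeasurableSet B' := (hB.measurableSet).preimage (measurable_id.sub_const a0)
  have h0 : volume (A' ∩ B') = 0 := measure_mono_null hint Real.volume_singleton
  calc volume A + volume B = volume A' + volume B' := by rw [vA, vB]
    _ = volume (A' ∪ B') + volume (A' ∩ B') := (measure_union_add_inter A' hB'm).symm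
    _ = volume (A' ∪ B') := by rw [h0, add_zero]
    _ ≤ volume ((fun x : ℝ => (1 / 2 : ℝ) * x) ⁻¹' C) := measure_mono hsub
    _ = 2 * volume C := vC

lemma bm_meas {A B : Set ℝ} (hA : MeasurableSet A) (hB : MeasurableSet B) (hA0 : A.Nonempty)
    (hB0 : B.Nonempty) {C : Set ℝ} (hC : ∀ a ∈ A, ∀ b ∈ B, (a + b) / 2 ∈ C) :
    volume A + volume B ≤ 2 * volume C := by
  obtain ⟨a0, ha0⟩ := hA0
  obtain ⟨b0, hb0⟩ := hB0
  rw [hA.measure_eq_iSup_isCompact, hB.measure_eq_iSup_isCompact]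
  have key : ∀ K ⊆ A, IsCompact K → ∀ L ⊆ B, IsCompact L → volume K + volume L ≤ 2 * volume C := by
    intro K hK hKc L hL hLc
    have h1 := bm_compact (hKc.insert a0) (hLc.insert b0) (insert_nonempty _ _)
      (insert_nonempty _ _) (C := C) (fun a ha b hb => hC a
        (insert_subset ha0 hK ha) b (insert_subset hb0 hL hb))
    exact (add_le_add (measure_mono (subset_insert _ _)) (measure_mono (subset_insert _ _))).trans h1
  have h0 : ∀ K : {K : Set ℝ // K ⊆ A ∧ IsCompact K}, ∀ L : {L : Set ℝ // L ⊆ B ∧ IsCompact L},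
      volume K.1 + volume L.1 ≤ 2 * volume C := fun K L => key K.1 K.2.1 K.2.2 L.1 L.2.1 L.2.2
  have e1 : (⨆ (K : Set ℝ) (_ : K ⊆ A) (_ : IsCompact K), volume K) =
      ⨆ K : {K : Set ℝ // K ⊆ A ∧ IsCompact K}, volume K.1 := by
    rw [iSup_subtype]
    simp only [iSup_and]
  have e2 : (⨆ (K : Set ℝ) (_ : K ⊆ B) (_ : IsCompact K), volume K) =
      ⨆ K : {K : Set ℝ // K ⊆ B ∧ IsCompact K}, volume K.1 := by
    rw [iSup_subtype]
    simp only [iSup_and]
  rw [e1, e2]
  have : Nonempty {K : Set ℝ // K ⊆ A ∧ IsCompact K} := ⟨⟨∅, empty_subset _, isCompact_empty⟩⟩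
  have : Nonempty {K : Set ℝ // K ⊆ B ∧ IsCompact K} := ⟨⟨∅, empty_subset _, isCompact_empty⟩⟩
  exact ENNReal.iSup_add_iSup_le h0

/-! ### one-dimensional Prékopa–Leindler, normalised -/

lemma pl_norm {f g h : ℝ → ℝ} (hf : Measurable f) (hg : Measurable g) (hh : Measurable h)
    (f0 : ∀ x, 0 ≤ f x) (g0 : ∀ x, 0 ≤ g x) (h0 : ∀ x, 0 ≤ h x)
    (f1 : ∀ x, f x ≤ 1) (g1 : ∀ x, g x ≤ 1)
    (fs : ∀ t < 1, ∃ x, t < f x) (gs : ∀ t < 1, ∃ x, t < g x)
    (H : ∀ a b, f a * g b ≤ h ((a + b) / 2) ^ 2) :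
    (∫⁻ x, ENNReal.ofReal (f x)) + ∫⁻ x, ENNReal.ofReal (g x) ≤
      2 * ∫⁻ x, ENNReal.ofReal (h x) := by
  rw [lintegral_eq_lintegral_meas_lt volume (Eventually.of_forall f0) hf.aemeasurable,
    lintegral_eq_lintegral_meas_lt volume (Eventually.of_forall g0) hg.aemeasurable,
    lintegral_eq_lintegral_meas_lt volume (Eventually.of_forall h0) hh.aemeasurable]
  have hmf : Measurable fun t : ℝ => volume {a : ℝ | t < f a} :=
    Antitone.measurable fun s t hst => measure_mono fun x (hx : t < f x) => lt_of_le_of_lt hst hx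
  have hmh : Measurable fun t : ℝ => volume {a : ℝ | t < h a} :=
    Antitone.measurable fun s t hst => measure_mono fun x (hx : t < h x) => lt_of_le_of_lt hst hx
  rw [← lintegral_add_left hmf, ← lintegral_const_mul _ hmh]
  refine setLIntegral_mono (hmh.const_mul _) fun t ht => ?_
  have ht0 : 0 < t := ht
  by_cases h1 : t < 1
  · refine bm_meas (measurableSet_lt measurable_const hf) (measurableSet_lt measurable_const hg)
      (fs t h1) (gs t h1) fun a ha b hb => ?_
    have ha' : t < f a := ha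
    have hb' : t < g b := hb
    show t < h ((a + b) / 2)
    have h2 : t ^ 2 < h ((a + b) / 2) ^ 2 :=
      lt_of_lt_of_le (by nlinarith) (H a b)
    exact lt_of_pow_lt_pow_left₀ 2 (h0 _) h2
  · have e1 : {a : ℝ | t < f a} = ∅ := by
      ext x
      simp only [mem_ofPred_eq, mem_empty_iff_false, iff_false, not_lt]
      exact (f1 x).trans (not_lt.1 h1)
    have e2 : {a : ℝ | t < g a} = ∅ := by
      ext x
      simp only [mem_ofPred_eq, mem_empty_iff_false, iff_false, not_lt]
      exact (g1 x).trans (not_lt.1 h1)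
    rw [e1, e2]
    simp

lemma amgm_ennreal {a b c : ℝ≥0∞} (h : a + b ≤ 2 * c) : a * b ≤ c ^ 2 := by
  by_cases hc : c = ∞
  · rw [hc]
    simp
  have h2c : 2 * c ≠ ∞ := ENNReal.mul_ne_top (by norm_num) hc
  have ha : a ≠ ∞ := ne_top_of_le_ne_top h2c (le_self_add.trans h)
  have hb : b ≠ ∞ := ne_top_of_le_ne_top h2c (le_add_self.trans h)
  lift a to ℝ≥0 using ha
  lift b to ℝ≥0 using hb
  lift c to ℝ≥0 using hc
  have h' : (a : ℝ) + b ≤ 2 * c := by exact_mod_cast h
  have : (a : ℝ) * b ≤ (c : ℝ) ^ 2 := by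
    nlinarith [sq_nonneg ((a : ℝ) - b), a.coe_nonneg, b.coe_nonneg, c.coe_nonneg]
  exact_mod_cast this

/-- bounded real-valued version -/
lemma pl_bdd {f g h : ℝ → ℝ} (hf : Measurable f) (hg : Measurable g) (hh : Measurable h)
    (f0 : ∀ x, 0 ≤ f x) (g0 : ∀ x, 0 ≤ g x) (h0 : ∀ x, 0 ≤ h x)
    (M : ℝ) (f1 : ∀ x, f x ≤ M) (g1 : ∀ x, g x ≤ M)
    (H : ∀ a b, f a * g b ≤ h ((a + b) / 2) ^ 2) :
    (∫⁻ x, ENNReal.ofReal (f x)) * (∫⁻ x, ENNReal.ofReal (g x)) ≤
      (∫⁻ x, ENNReal.ofReal (h x)) ^ 2 := by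
  have bf : BddAbove (range f) := ⟨M, by rintro _ ⟨x, rfl⟩; exact f1 x⟩
  have bg : BddAbove (range g) := ⟨M, by rintro _ ⟨x, rfl⟩; exact g1 x⟩
  set A := ⨆ x, f x with hA
  set B := ⨆ x, g x with hB
  have fA : ∀ x, f x ≤ A := fun x => le_ciSup bf x
  have gB : ∀ x, g x ≤ B := fun x => le_ciSup bg x
  by_cases hA0 : A ≤ 0
  · have : ∀ x, f x = 0 := fun x => le_antisymm ((fA x).trans hA0) (f0 x)
    simp [this]
  by_cases hB0 : B ≤ 0
  · have : ∀ x, g x = 0 := fun x => le_antisymm ((gB x).trans hB0) (g0 x)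
    simp [this]
  rw [not_le] at hA0 hB0
  set r := Real.sqrt (A * B) with hr
  have hAB : 0 < A * B := mul_pos hA0 hB0
  have hr0 : 0 < r := Real.sqrt_pos.2 hAB
  have hr2 : r ^ 2 = A * B := Real.sq_sqrt hAB.le
  have key := pl_norm (f := fun x => A⁻¹ * f x) (g := fun x => B⁻¹ * g x)
    (h := fun x => r⁻¹ * h x) (hf.const_mul _) (hg.const_mul _) (hh.const_mul _)
    (fun x => mul_nonneg (inv_nonneg.2 hA0.le) (f0 x))
    (fun x => mul_nonneg (inv_nonneg.2 hB0.le) (g0 x))
    (fun x => mul_nonneg (inv_nonneg.2 hr0.le) (h0 x))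
    (fun x => by
      rw [inv_mul_le_iff₀ hA0, mul_one]
      exact fA x)
    (fun x => by
      rw [inv_mul_le_iff₀ hB0, mul_one]
      exact gB x)
    (fun t ht => by
      have h1 : t * A < A := by nlinarith
      obtain ⟨x, hx⟩ := exists_lt_of_lt_ciSup h1
      exact ⟨x, by rw [lt_inv_mul_iff₀ hA0]; linarith⟩)
    (fun t ht => by
      have h1 : t * B < B := by nlinarith
      obtain ⟨x, hx⟩ := exists_lt_of_lt_ciSup h1
      exact ⟨x, by rw [lt_inv_mul_iff₀ hB0]; linarith⟩)
    (fun a b => by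
      have h1 := H a b
      have e1 : A⁻¹ * f a * (B⁻¹ * g b) = (A * B)⁻¹ * (f a * g b) := by
        rw [mul_inv]
        ring
      have e2 : (r⁻¹ * h ((a + b) / 2)) ^ 2 = (A * B)⁻¹ * h ((a + b) / 2) ^ 2 := by
        rw [mul_pow, inv_pow, hr2]
      simp only [e1, e2]
      exact mul_le_mul_of_nonneg_left h1 (inv_nonneg.2 hAB.le))
  have hs : ∀ (c : ℝ) (k : ℝ → ℝ), 0 < c → Measurable k →
      ∫⁻ x, ENNReal.ofReal (c⁻¹ * k x) = ENNReal.ofReal c⁻¹ * ∫⁻ x, ENNReal.ofReal (k x) := by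
    intro c k hc hk
    rw [← lintegral_const_mul _ hk.ennreal_ofReal]
    refine lintegral_congr fun x => ?_
    rw [ENNReal.ofReal_mul (inv_nonneg.2 hc.le)]
  rw [hs A f hA0 hf, hs B g hB0 hg, hs r h hr0 hh] at key
  have key2 := amgm_ennreal key
  set P := ∫⁻ x, ENNReal.ofReal (f x)
  set Q := ∫⁻ x, ENNReal.ofReal (g x)
  set R := ∫⁻ x, ENNReal.ofReal (h x)
  have e3 : ENNReal.ofReal A⁻¹ * P * (ENNReal.ofReal B⁻¹ * Q) =
      ENNReal.ofReal (A * B)⁻¹ * (P * Q) := by
    rw [mul_inv, ENNReal.ofReal_mul (inv_nonneg.2 hA0.le)]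
    ring
  have e4 : (ENNReal.ofReal r⁻¹ * R) ^ 2 = ENNReal.ofReal (A * B)⁻¹ * R ^ 2 := by
    rw [mul_pow, ← ENNReal.ofReal_pow (inv_nonneg.2 hr0.le), inv_pow, hr2]
  rw [e3, e4] at key2
  have hne : ENNReal.ofReal (A * B)⁻¹ ≠ 0 := (ENNReal.ofReal_pos.2 (inv_pos.2 hAB)).ne'
  exact (ENNReal.mul_le_mul_iff_right hne ENNReal.ofReal_ne_top).1 key2

/-- Prékopa–Leindler as a property of a space -/
def PLe (E : Type*) [AddCommGroup E] [Module ℝ E] [MeasureSpace E] : Prop :=
  ∀ F G H : E → ℝ≥0∞, Measurable F → Measurable G → Measurable H →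
    (∀ a b, F a * G b ≤ H ((1 / 2 : ℝ) • (a + b)) ^ 2) →
    (∫⁻ x, F x) * (∫⁻ x, G x) ≤ (∫⁻ x, H x) ^ 2

theorem ple_real : PLe ℝ := by
  intro F G H hF hG hH hyp
  -- truncated versions
  have key : ∀ n : ℕ, (∫⁻ x, min (F x) n) * (∫⁻ x, min (G x) n) ≤ (∫⁻ x, H x) ^ 2 := by
    intro n
    have hn : (n : ℝ≥0∞) ≠ ∞ := ENNReal.natCast_ne_top n
    have hmF : ∀ x, min (F x) n ≠ ∞ := fun x => ne_top_of_le_ne_top hn (min_le_right _ _)
    have hmG : ∀ x, min (G x) n ≠ ∞ := fun x => ne_top_of_le_ne_top hn (min_le_right _ _)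
    have hmH : ∀ x, min (H x) n ≠ ∞ := fun x => ne_top_of_le_ne_top hn (min_le_right _ _)
    have h1 := pl_bdd (f := fun x => (min (F x) n).toReal) (g := fun x => (min (G x) n).toReal)
      (h := fun x => (min (H x) n).toReal)
      (hF.min measurable_const).ennreal_toReal (hG.min measurable_const).ennreal_toReal
      (hH.min measurable_const).ennreal_toReal
      (fun x => ENNReal.toReal_nonneg) (fun x => ENNReal.toReal_nonneg)
      (fun x => ENNReal.toReal_nonneg) n
      (fun x => by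
        have := ENNReal.toReal_mono hn (min_le_right (F x) n)
        simpa using this)
      (fun x => by
        have := ENNReal.toReal_mono hn (min_le_right (G x) n)
        simpa using this)
      (fun a b => by
        rw [← ENNReal.toReal_mul, ← ENNReal.toReal_pow]
        refine ENNReal.toReal_mono (ENNReal.pow_ne_top (hmH _)) ?_
        have e : (1 / 2 : ℝ) • (a + b) = (a + b) / 2 := by
          rw [smul_eq_mul]
          ring
        have h2 := hyp a b
        rw [e] at h2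
        rcases le_total (H ((a + b) / 2)) n with h3 | h3
        · rw [min_eq_left h3]
          exact (mul_le_mul' (min_le_left _ _) (min_le_left _ _)).trans h2
        · rw [min_eq_right h3, pow_two]
          exact mul_le_mul' (min_le_right _ _) (min_le_right _ _))
    simp only [ENNReal.ofReal_toReal (hmF _), ENNReal.ofReal_toReal (hmG _),
      ENNReal.ofReal_toReal (hmH _)] at h1
    exact h1.trans (pow_le_pow_left' (lintegral_mono fun x => min_le_left _ _) 2)
  have hlim : ∀ K : ℝ → ℝ≥0∞, Measurable K →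
      Tendsto (fun n : ℕ => ∫⁻ x, min (K x) n) atTop (𝓝 (∫⁻ x, K x)) := by
    intro K hK
    refine lintegral_tendsto_of_tendsto_of_monotone
      (fun n => (hK.min measurable_const).aemeasurable) (Eventually.of_forall fun x => ?_)
      (Eventually.of_forall fun x => ?_)
    · intro n m hnm
      exact min_le_min le_rfl (by exact_mod_cast hnm)
    · have h1 : Tendsto (fun n : ℕ => min (K x) (n : ℝ≥0∞)) atTop (𝓝 (min (K x) ∞)) :=
        tendsto_const_nhds.min ENNReal.tendsto_nat_nhds_top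
      simpa using h1
  have hF' := hlim F hF
  have hG' := hlim G hG
  -- pass to the limit using monotonicity
  have hFs : (∫⁻ x, F x) = ⨆ n : ℕ, ∫⁻ x, min (F x) n :=
    tendsto_nhds_unique hF' (tendsto_atTop_iSup fun n m hnm =>
      lintegral_mono fun x => min_le_min le_rfl (by exact_mod_cast hnm))
  have hGs : (∫⁻ x, G x) = ⨆ n : ℕ, ∫⁻ x, min (G x) n :=
    tendsto_nhds_unique hG' (tendsto_atTop_iSup fun n m hnm =>
      lintegral_mono fun x => min_le_min le_rfl (by exact_mod_cast hnm))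
  rw [hFs, hGs, ENNReal.iSup_mul]
  refine iSup_le fun n => ?_
  rw [ENNReal.mul_iSup]
  refine iSup_le fun m => ?_
  refine le_trans (mul_le_mul' ?_ ?_) (key (max n m))
  · exact lintegral_mono fun x => min_le_min le_rfl (by exact_mod_cast le_max_left n m)
  · exact lintegral_mono fun x => min_le_min le_rfl (by exact_mod_cast le_max_right n m)

theorem ple_prod {E₁ E₂ : Type*} [AddCommGroup E₁] [Module ℝ E₁] [MeasureSpace E₁]
    [AddCommGroup E₂] [Module ℝ E₂] [MeasureSpace E₂] [SFinite (volume : Measure E₁)]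
    [SFinite (volume : Measure E₂)] (h1 : PLe E₁) (h2 : PLe E₂) : PLe (E₁ × E₂) := by
  intro F G H hF hG hH hyp
  have e : ∀ K : E₁ × E₂ → ℝ≥0∞, Measurable K → ∫⁻ z, K z = ∫⁻ x, ∫⁻ y, K (x, y) := by
    intro K hK
    rw [Measure.volume_eq_prod]
    exact lintegral_prod _ hK.aemeasurable
  rw [e F hF, e G hG, e H hH]
  refine h1 _ _ _ hF.lintegral_prod_right' hG.lintegral_prod_right' hH.lintegral_prod_right'
    fun a b => ?_
  refine h2 _ _ _ (hF.comp measurable_prodMk_left) (hG.comp measurable_prodMk_left)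
    (hH.comp measurable_prodMk_left) fun y z => ?_
  exact hyp (a, y) (b, z)

theorem ple_transfer {E E' : Type*} [AddCommGroup E] [Module ℝ E] [MeasureSpace E]
    [AddCommGroup E'] [Module ℝ E'] [MeasureSpace E'] (e : E' → E)
    (he : MeasurePreserving e volume volume)
    (hlin : ∀ a b, e ((1 / 2 : ℝ) • (a + b)) = (1 / 2 : ℝ) • (e a + e b))
    (h : PLe E') : PLe E := by
  intro F G H hF hG hH hyp
  rw [← he.lintegral_comp hF, ← he.lintegral_comp hG, ← he.lintegral_comp hH]
  refine h _ _ _ (hF.comp he.measurable) (hG.comp he.measurable) (hH.comp he.measurable)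
    fun a b => ?_
  simp only [hlin]
  exact hyp _ _

theorem ple_pi (n : ℕ) : PLe (Fin n → ℝ) := by
  induction n with
  | zero =>
    intro F G H hF hG hH hyp
    have e : ∀ K : (Fin 0 → ℝ) → ℝ≥0∞, ∫⁻ x, K x = K 0 := by
      intro K
      have h1 : (volume : Measure (Fin 0 → ℝ)) = Measure.dirac 0 := by
        rw [volume_pi, Measure.pi_of_empty (x := (0 : Fin 0 → ℝ))]
      rw [h1]
      exact lintegral_dirac _ _
    rw [e, e, e]
    have := hyp 0 0
    simpa using this
  | succ n ih =>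
    have h1 := ple_prod ple_real ih
    refine ple_transfer (E' := ℝ × (Fin n → ℝ))
      (MeasurableEquiv.piFinSuccAbove (fun _ : Fin (n + 1) => ℝ) 0).symm
      (volume_preserving_piFinSuccAbove (fun _ : Fin (n + 1) => ℝ) 0).symm ?_ h1
    intro a b
    funext i
    refine Fin.cases ?_ (fun j => ?_) i
    · simp [MeasurableEquiv.piFinSuccAbove]
      ring
    · simp [MeasurableEquiv.piFinSuccAbove]
      ring

theorem prekopaLeindler : PrekopaLeindler := by
  intro d
  exact ple_transfer (E' := Fin d → ℝ) (E := EuclideanSpace ℝ (Fin d))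
    (WithLp.toLp 2) (PiLp.volume_preserving_toLp (Fin d)) (fun a b => by simp) (ple_pi d)

end Crest.Agent.QT
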