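import Crest.Agent.QTDefs

/-!
Row 82, sub-goal (SD): existence of semidiscrete weights.
-/

set_option autoImplicit false

namespace Crest.Agent.QT

open MeasureTheory Set Filter Topology
open scoped ENNReal NNReal

namespace Semi

variable {d N : ℕ} {y : Fin N → Eu d}

lemma le_pot (c : Fin N → ℝ) (x : Eu d) (i : Fin N) : inner ℝ x (y i) - c i ≤ pot y c x := by
  unfold pot
  exact le_ciSup (f := fun i => inner ℝ x (y i) - c i) (Set.finite_range _).bddAbove i

lemma pot_le [Nonempty (Fin N)] (c : Fin N → ℝ) (x : Eu d) {a : ℝ}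
    (h : ∀ i, inner ℝ x (y i) - c i ≤ a) : pot y c x ≤ a :=
  ciSup_le h

lemma pot_le_pot [Nonempty (Fin N)] {c c' : Fin N → ℝ} (x : Eu d) {a : ℝ}
    (h : ∀ i, c' i ≤ c i + a) : pot y c x ≤ pot y c' x + a := by
  refine pot_le c x fun i => ?_
  have := le_pot (y := y) c' x i
  have := h i
  linarith

lemma continuous_pot [Nonempty (Fin N)] (c : Fin N → ℝ) : Continuous (pot y c) := by
  unfold pot
  have : (fun x : Eu d => ⨆ i, (inner ℝ x (y i) - c i)) =
      fun x => Finset.univ.sup' Finset.univ_nonempty (fun i => inner ℝ x (y i) - c i) := by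
    funext x
    rw [Finset.sup'_univ_eq_ciSup]
  rw [this]
  refine Continuous.finset_sup'_apply _ fun i _ => ?_
  fun_prop

lemma abs_inner_le {R M : ℝ} (hM : ∀ i, ‖y i‖ ≤ M) {x : Eu d} (hx : ‖x‖ ≤ R) (i : Fin N) :
    |inner ℝ x (y i)| ≤ R * M := by
  refine (abs_real_inner_le_norm x (y i)).trans ?_
  exact mul_le_mul hx (hM i) (norm_nonneg _) ((norm_nonneg _).trans hx)

section
variable [Nonempty (Fin N)] {σ : Measure (Eu d)} [IsProbabilityMeasure σ] {R M : ℝ}

lemma ae_norm_le (hR : σ (Metric.closedBall 0 R)ᶜ = 0) : ∀ᵐ x ∂σ, ‖x‖ ≤ R := by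
  rw [ae_iff]
  refine measure_mono_null ?_ hR
  intro x hx
  simpa using hx

lemma integrable_pot (hM : ∀ i, ‖y i‖ ≤ M) (hR : σ (Metric.closedBall 0 R)ᶜ = 0)
    (c : Fin N → ℝ) : Integrable (pot y c) σ := by
  refine (integrable_const (R * M + ‖c‖)).mono' (continuous_pot c).aestronglyMeasurable ?_
  filter_upwards [ae_norm_le hR] with x hx
  rw [Real.norm_eq_abs, abs_le]
  have hc : ∀ i, |c i| ≤ ‖c‖ := fun i => norm_le_pi_norm c i
  constructor
  · obtain ⟨i⟩ := ‹Nonempty (Fin N)›
    have h1 := le_pot (y := y) c x i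
    have h2 := abs_le.1 (abs_inner_le hM hx i)
    have h3 := abs_le.1 (hc i)
    linarith
  · refine pot_le c x fun i => ?_
    have h2 := abs_le.1 (abs_inner_le hM hx i)
    have h3 := abs_le.1 (hc i)
    linarith

/-- dual functional -/
noncomputable def GG (y : Fin N → Eu d) (m : Fin N → ℝ) (σ : Measure (Eu d)) (c : Fin N → ℝ) : ℝ :=
  ∫ x, pot y c x ∂σ + ∑ i, m i * c i

lemma continuous_GG (hM : ∀ i, ‖y i‖ ≤ M) (hR : σ (Metric.closedBall 0 R)ᶜ = 0)
    (m : Fin N → ℝ) : Continuous (GG y m σ) := by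
  unfold GG
  refine Continuous.add ?_ (continuous_finsetSum _ fun i _ => (continuous_apply i).const_mul _)
  have h : LipschitzWith 1 (fun c : Fin N → ℝ => ∫ x, pot y c x ∂σ) := by
    refine LipschitzWith.of_le_add fun c c' => ?_
    have h1 : ∫ x, pot y c x ∂σ ≤ ∫ x, (pot y c' x + dist c c') ∂σ := by
      refine integral_mono (integrable_pot hM hR c)
        ((integrable_pot hM hR c').add (integrable_const _)) fun x => ?_
      refine pot_le_pot x fun i => ?_
      have := dist_le_pi_dist c c' i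
      rw [Real.dist_eq, abs_le] at this
      linarith
    refine h1.trans ?_
    rw [integral_add (integrable_pot hM hR c') (integrable_const _)]
    simp
  exact h.continuous

lemma GG_shift (m : Fin N → ℝ) (hm : ∑ i, m i = 1) (hM : ∀ i, ‖y i‖ ≤ M)
    (hR : σ (Metric.closedBall 0 R)ᶜ = 0) (c : Fin N → ℝ) (t : ℝ) :
    GG y m σ (fun i => c i - t) = GG y m σ c := by
  unfold GG
  have h1 : ∀ x, pot y (fun i => c i - t) x = pot y c x + t := by
    intro x
    apply le_antisymm
    · exact pot_le_pot x fun i => by linarith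
    · have := pot_le_pot (y := y) (c := c) (c' := fun i => c i - t) x (a := -t)
        (fun i => by linarith)
      linarith
  simp only [h1]
  rw [integral_add (integrable_pot hM hR c) (integrable_const _)]
  have h2 : ∑ i, m i * (c i - t) = ∑ i, m i * c i - t := by
    simp only [mul_sub, Finset.sum_sub_distrib]
    rw [← Finset.sum_mul, hm, one_mul]
  rw [h2]
  simp

/-- global minimiser with bounds -/
lemma exists_min (m : Fin N → ℝ) (hm0 : ∀ i, 0 < m i) (hm : ∑ i, m i = 1)
    (hM : ∀ i, ‖y i‖ ≤ M) (hR : σ (Metric.closedBall 0 R)ᶜ = 0) {B : ℝ}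
    (hB : ∀ i, 2 * (R * M) < m i * B) (hB0 : 0 ≤ B) :
    ∃ c : Fin N → ℝ, (∀ i, 0 ≤ c i) ∧ (∀ i, c i ≤ B) ∧ ∀ c', GG y m σ c ≤ GG y m σ c' := by
  have hK : IsCompact (Set.Icc (0 : Fin N → ℝ) (fun _ => B)) := isCompact_Icc
  obtain ⟨c, hc, hmin⟩ := hK.exists_isMinOn
    ⟨0, Set.mem_Icc.2 ⟨le_refl _, fun _ => hB0⟩⟩ (continuous_GG (σ := σ) hM hR m).continuousOn
  refine ⟨c, fun i => hc.1 i, fun i => hc.2 i, fun c' => ?_⟩
  -- normalise `c'`
  obtain ⟨i₀, hi₀⟩ := Finite.exists_min c'
  rw [← GG_shift (σ := σ) m hm hM hR c' (c' i₀)]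
  set c'' : Fin N → ℝ := fun i => c' i - c' i₀ with hc''
  have h0 : ∀ i, 0 ≤ c'' i := fun i => sub_nonneg.2 (hi₀ i)
  by_cases hb : ∀ i, c'' i ≤ B
  · exact hmin (Set.mem_Icc.2 ⟨h0, hb⟩)
  · push Not at hb
    obtain ⟨j, hj⟩ := hb
    have h1 : GG y m σ 0 ≤ R * M := by
      unfold GG
      simp only [Pi.zero_apply, mul_zero, Finset.sum_const_zero, add_zero]
      calc ∫ x, pot y 0 x ∂σ ≤ ∫ _, R * M ∂σ := by
            refine integral_mono_ae (integrable_pot hM hR 0) (integrable_const _) ?_
            filter_upwards [ae_norm_le hR] with x hx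
            refine pot_le 0 x fun i => ?_
            have := abs_le.1 (abs_inner_le hM hx i)
            simp only [Pi.zero_apply]
            linarith
        _ = R * M := by simp
    have h2 : -(R * M) + m j * B ≤ GG y m σ c'' := by
      unfold GG
      refine add_le_add ?_ ?_
      · calc -(R * M) = ∫ _, -(R * M) ∂σ := by simp
          _ ≤ _ := by
            refine integral_mono_ae (integrable_const _) (integrable_pot hM hR c'') ?_
            filter_upwards [ae_norm_le hR] with x hx
            have h3 := le_pot (y := y) c'' x i₀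
            have h4 := abs_le.1 (abs_inner_le hM hx i₀)
            have h5 : c'' i₀ = 0 := by simp [hc'']
            rw [h5] at h3
            linarith
      · calc m j * B ≤ m j * c'' j := mul_le_mul_of_nonneg_left hj.le (hm0 j).le
          _ ≤ ∑ i, m i * c'' i := Finset.single_le_sum
            (fun i _ => mul_nonneg (hm0 i).le (h0 i)) (Finset.mem_univ j)
    have h3 : GG y m σ c ≤ GG y m σ 0 := hmin (Set.mem_Icc.2 ⟨le_refl _, fun _ => hB0⟩)
    have h4 := hB j
    linarith

/-- strict cells with margin -/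
lemma margin_le {m : Fin N → ℝ} (hM : ∀ i, ‖y i‖ ≤ M) (hR : σ (Metric.closedBall 0 R)ᶜ = 0)
    {c : Fin N → ℝ} (hmin : ∀ c', GG y m σ c ≤ GG y m σ c') (i : Fin N) {t : ℝ} (ht : 0 < t) :
    σ {x | ∀ j, j ≠ i → inner ℝ x (y j) - c j ≤ inner ℝ x (y i) - c i - t} ≤
      ENNReal.ofReal (m i) := by
  classical
  set A : Set (Eu d) := {x | ∀ j, j ≠ i → inner ℝ x (y j) - c j ≤ inner ℝ x (y i) - c i - t}
    with hA
  have hAm : MeasurableSet A := by
    have : A = ⋂ j, ⋂ (_ : j ≠ i), {x | inner ℝ x (y j) - c j ≤ inner ℝ x (y i) - c i - t} := by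
      ext x; simp [hA]
    rw [this]
    refine MeasurableSet.iInter fun j => MeasurableSet.iInter fun _ => ?_
    exact (isClosed_le (by fun_prop) (by fun_prop)).measurableSet
  set c' : Fin N → ℝ := fun k => if k = i then c k + t else c k with hc'
  have h1 : ∀ x, pot y c' x ≤ pot y c x := fun x => by
    have := pot_le_pot (y := y) (c := c') (c' := c) x (a := 0) (fun k => by
      simp only [hc', add_zero]; split_ifs <;> linarith)
    simpa using this
  have h2 : ∀ x ∈ A, pot y c' x + t ≤ pot y c x := by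
    intro x hx
    have h3 : pot y c' x ≤ inner ℝ x (y i) - c i - t := by
      refine pot_le c' x fun k => ?_
      by_cases hk : k = i
      · subst hk; simp only [hc', if_true]; linarith
      · simp only [hc', hk, if_false]; exact hx k hk
    have := le_pot (y := y) c x i
    linarith
  have h3 : ∫ x, pot y c' x ∂σ + t * σ.real A ≤ ∫ x, pot y c x ∂σ := by
    have h4 : ∫ x, (pot y c' x + A.indicator (fun _ => t) x) ∂σ ≤ ∫ x, pot y c x ∂σ := by
      refine integral_mono ((integrable_pot hM hR c').add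
        ((integrable_const t).indicator hAm)) (integrable_pot hM hR c) fun x => ?_
      by_cases hx : x ∈ A
      · simp only [indicator_of_mem hx]; exact h2 x hx
      · simp only [indicator_of_notMem hx, add_zero]; exact h1 x
    rw [integral_add (integrable_pot hM hR c') ((integrable_const t).indicator hAm),
      integral_indicator_const _ hAm] at h4
    rw [mul_comm]
    simpa using h4
  have h5 := hmin c'
  unfold GG at h5
  have h6 : ∑ k, m k * c' k = ∑ k, m k * c k + m i * t := by
    have : ∀ k, m k * c' k = m k * c k + if k = i then m i * t else 0 := by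
      intro k
      simp only [hc']
      by_cases hk : k = i
      · subst hk; simp; ring
      · simp [hk]
    simp only [this, Finset.sum_add_distrib]
    simp
  rw [h6] at h5
  have h7 : t * σ.real A ≤ t * m i := by linarith
  have h8 : σ.real A ≤ m i := le_of_mul_le_mul_left h7 ht
  rw [← ofReal_measureReal]
  exact ENNReal.ofReal_le_ofReal h8

lemma strict_le {m : Fin N → ℝ} (hM : ∀ i, ‖y i‖ ≤ M) (hR : σ (Metric.closedBall 0 R)ᶜ = 0)
    {c : Fin N → ℝ} (hmin : ∀ c', GG y m σ c ≤ GG y m σ c') (i : Fin N) :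
    σ {x | ∀ j, j ≠ i → inner ℝ x (y j) - c j < inner ℝ x (y i) - c i} ≤
      ENNReal.ofReal (m i) := by
  set A : ℕ → Set (Eu d) := fun n =>
    {x | ∀ j, j ≠ i → inner ℝ x (y j) - c j ≤ inner ℝ x (y i) - c i - 1 / ((n : ℝ) + 1)} with hA
  have hmono : Monotone A := by
    intro n n' hn x hx j hj
    have h1 := hx j hj
    have h2 : 1 / ((n' : ℝ) + 1) ≤ 1 / ((n : ℝ) + 1) := by
      have : (n : ℝ) ≤ n' := Nat.cast_le.2 hn
      exact one_div_le_one_div_of_le (by positivity) (by linarith)
    linarith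
  have hU : {x | ∀ j, j ≠ i → inner ℝ x (y j) - c j < inner ℝ x (y i) - c i} ⊆ ⋃ n, A n := by
    intro x hx
    rw [mem_iUnion]
    have h1 : ∀ j : Fin N, ∃ n : ℕ, j ≠ i → inner ℝ x (y j) - c j ≤
        inner ℝ x (y i) - c i - 1 / ((n : ℝ) + 1) := by
      intro j
      by_cases hj : j ≠ i
      · obtain ⟨n, hn⟩ := exists_nat_one_div_lt (sub_pos.2 (hx j hj))
        exact ⟨n, fun _ => by linarith⟩
      · exact ⟨0, fun h => absurd h hj⟩
    choose n hn using h1
    refine ⟨Finset.univ.sup n, fun j hj => ?_⟩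
    have h2 := hn j hj
    have h3 : 1 / (((Finset.univ.sup n : ℕ) : ℝ) + 1) ≤ 1 / ((n j : ℝ) + 1) := by
      have : (n j : ℝ) ≤ (Finset.univ.sup n : ℕ) :=
        Nat.cast_le.2 (Finset.le_sup (f := n) (Finset.mem_univ j))
      exact one_div_le_one_div_of_le (by positivity) (by linarith)
    linarith
  refine (measure_mono hU).trans ?_
  rw [hmono.measure_iUnion]
  exact iSup_le fun n => margin_le hM hR hmin i (by positivity)

lemma null_hyperplane (hσ : σ ≪ volume) {v : Eu d} (hv : v ≠ 0) (a : ℝ) :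
    σ {x | inner ℝ x v = a} = 0 := by
  apply hσ
  set f : Eu d →ₗ[ℝ] ℝ := (innerSL ℝ v).toLinearMap with hf
  have hsub : LinearMap.ker f ≠ ⊤ := by
    intro h
    have : f v = 0 := by
      rw [← LinearMap.mem_ker, h]; trivial
    simp only [hf] at this
    have h2 : inner ℝ v v = (0 : ℝ) := this
    exact hv (inner_self_eq_zero.1 h2)
  by_cases hne : ∃ x₀ : Eu d, inner ℝ x₀ v = a
  · obtain ⟨x₀, hx₀⟩ := hne
    have h1 : {x : Eu d | inner ℝ x v = a} =
        (fun x => x + (-x₀)) ⁻¹' (LinearMap.ker f : Set (Eu d)) := by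
      ext x
      simp only [Set.mem_ofPred_eq, mem_preimage, SetLike.mem_coe, LinearMap.mem_ker, hf,
        ← sub_eq_add_neg]
      have : (innerSL ℝ v).toLinearMap (x - x₀) = inner ℝ x v - inner ℝ x₀ v := by
        change inner ℝ v (x - x₀) = _
        rw [real_inner_comm, inner_sub_left]
      rw [this, hx₀, sub_eq_zero]
    rw [h1, measure_preimage_add_right]
    exact Measure.addHaar_submodule volume (LinearMap.ker f) hsub
  · have h1 : {x : Eu d | inner ℝ x v = a} = ∅ := by
      ext x
      simp only [Set.mem_ofPred_eq, mem_empty_iff_false, iff_false]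
      exact fun h => hne ⟨x, h⟩
    rw [h1]; simp

end

end Semi

theorem semidiscreteExists : SemidiscreteExists := by
  intro d N y hy m hm0 hm R M hM
  have hN : Nonempty (Fin N) := by
    by_contra h
    rw [not_nonempty_iff] at h
    simp at hm
  refine ⟨∑ i, (2 * |R * M| + 1) / m i, fun σ hσ hac hR => ?_⟩
  have hpos : ∀ i, 0 ≤ (2 * |R * M| + 1) / m i := fun i =>
    div_nonneg (by positivity) (hm0 i).le
  obtain ⟨c, hc0, hcB, hmin⟩ := Semi.exists_min (y := y) (σ := σ) m hm0 hm hM hR
    (B := ∑ i, (2 * |R * M| + 1) / m i) (fun i => by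
      have h1 : (2 * |R * M| + 1) / m i ≤ ∑ i, (2 * |R * M| + 1) / m i :=
        Finset.single_le_sum (fun i _ => hpos i) (Finset.mem_univ i)
      have h2 : m i * ((2 * |R * M| + 1) / m i) = 2 * |R * M| + 1 := by
        rw [mul_div_assoc']; exact mul_div_cancel_left₀ _ (hm0 i).ne'
      have h3 := mul_le_mul_of_nonneg_left h1 (hm0 i).le
      have h4 := le_abs_self (R * M)
      linarith) (Finset.sum_nonneg fun i _ => hpos i)
  refine ⟨c, hc0, hcB, ?_⟩
  -- the cells cover, ties are null
  have hle : ∀ i, σ (cell y c i) ≤ ENNReal.ofReal (m i) := by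
    intro i
    refine le_trans ?_ (Semi.strict_le hM hR hmin i)
    have hsub : cell y c i ⊆ {x | ∀ j, j ≠ i → inner ℝ x (y j) - c j < inner ℝ x (y i) - c i} ∪
        ⋃ j : {j : Fin N // j ≠ i}, {x : Eu d | inner ℝ x (y j - y i) = c j - c i} := by
      intro x hx
      by_cases h : ∀ j, j ≠ i → inner ℝ x (y j) - c j < inner ℝ x (y i) - c i
      · exact Or.inl h
      · push Not at h
        obtain ⟨j, hj, hle⟩ := h
        right
        rw [mem_iUnion]
        refine ⟨⟨j, hj⟩, ?_⟩
        have h1 := hx j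
        simp only [Set.mem_ofPred_eq]
        rw [inner_sub_right]
        linarith
    refine (measure_mono hsub).trans ((measure_union_le _ _).trans ?_)
    have h0 : σ (⋃ j : {j : Fin N // j ≠ i}, {x : Eu d | inner ℝ x (y j - y i) = c j - c i}) = 0 := by
      rw [measure_iUnion_null_iff]
      rintro ⟨j, hj⟩
      exact Semi.null_hyperplane hac (sub_ne_zero.2 fun h => hj (hy h)) _
    rw [h0, add_zero]
  have hcov : (1 : ℝ≥0∞) ≤ ∑ i, σ (cell y c i) := by
    have h1 : (Set.univ : Set (Eu d)) ⊆ ⋃ i, cell y c i := by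
      intro x _
      rw [mem_iUnion]
      obtain ⟨i, hi⟩ := Finite.exists_max (fun i => inner ℝ x (y i) - c i)
      exact ⟨i, hi⟩
    calc (1 : ℝ≥0∞) = σ Set.univ := measure_univ.symm
      _ ≤ σ (⋃ i, cell y c i) := measure_mono h1
      _ ≤ ∑ i, σ (cell y c i) := by
        refine (measure_iUnion_le _).trans ?_
        rw [tsum_fintype]
  have hsum : ∑ i, ENNReal.ofReal (m i) = 1 := by
    rw [← ENNReal.ofReal_sum_of_nonneg fun i _ => (hm0 i).le, hm, ENNReal.ofReal_one]
  intro i
  by_contra hne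
  have hlt : σ (cell y c i) < ENNReal.ofReal (m i) := lt_of_le_of_ne (hle i) hne
  have : ∑ i, σ (cell y c i) < ∑ i, ENNReal.ofReal (m i) := by
    rw [← Finset.add_sum_erase _ _ (Finset.mem_univ i),
      ← Finset.add_sum_erase _ (fun i => ENNReal.ofReal (m i)) (Finset.mem_univ i)]
    refine ENNReal.add_lt_add_of_lt_of_le ?_ hlt (Finset.sum_le_sum fun j _ => hle j)
    exact (ENNReal.sum_lt_top.2 fun j _ => measure_lt_top _ _).ne
  rw [hsum] at this
  exact absurd hcov (not_le.2 this)

end Crest.Agent.QT
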