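import Mathlib
import Crest.Agent.QTOpt

/-!
Row 82, S0110: sharpness of the exponent 1/3.  Owner: helper8.
-/

set_option autoImplicit false

namespace Crest.Agent.QTSharp

open MeasureTheory Set Filter Topology
open scoped ENNReal NNReal
open Crest.AnalysisR.OT
open Crest.Agent.QT

variable {d : ℕ}

/-- the cube -/
def Q (d : ℕ) : Set (Eu d) := {x | ∀ i, |x i| ≤ 1}

/-- boxes -/
def Box (a b : Fin d → ℝ) : Set (Eu d) := {x | ∀ i, a i ≤ x i ∧ x i ≤ b i}

theorem box_eq (a b : Fin d → ℝ) :
    Box a b = (WithLp.ofLp : Eu d → (Fin d → ℝ)) ⁻¹' (Icc a b) := by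
  ext x
  simp only [Box, mem_ofPred_eq, mem_preimage, mem_Icc, Pi.le_def]
  constructor
  · intro h
    exact ⟨fun i => (h i).1, fun i => (h i).2⟩
  · rintro ⟨h1, h2⟩ i
    exact ⟨h1 i, h2 i⟩

theorem Q_eq : Q d = Box (fun _ => -1) (fun _ => 1) := by
  ext x
  simp [Q, Box, abs_le]

theorem measurableSet_box (a b : Fin d → ℝ) : MeasurableSet (Box a b) := by
  rw [box_eq]
  exact (PiLp.volume_preserving_ofLp (Fin d)).measurable measurableSet_Icc

theorem volume_box (a b : Fin d → ℝ) :
    volume (Box a b) = ∏ i, ENNReal.ofReal (b i - a i) := by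
  rw [box_eq, (PiLp.volume_preserving_ofLp (Fin d)).measure_preimage
    measurableSet_Icc.nullMeasurableSet, Real.volume_Icc_pi]

theorem isCompact_Q : IsCompact (Q d) := by
  rw [Q_eq, box_eq]
  have h : IsCompact (Icc (fun _ => -1 : Fin d → ℝ) (fun _ => 1)) := isCompact_Icc
  have h2 := (EuclideanSpace.equiv (Fin d) ℝ).toHomeomorph.isCompact_preimage.2 h
  exact h2

theorem convex_Q : Convex ℝ (Q d) := by
  intro x hx y hy a b ha hb hab i
  have h1 := hx i
  have h2 := hy i
  simp only [PiLp.add_apply, PiLp.smul_apply, smul_eq_mul]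
  calc |a * x i + b * y i| ≤ |a * x i| + |b * y i| := abs_add_le _ _
    _ = a * |x i| + b * |y i| := by rw [abs_mul, abs_mul, abs_of_nonneg ha, abs_of_nonneg hb]
    _ ≤ a * 1 + b * 1 := by gcongr
    _ = 1 := by linarith

theorem interior_Q_nonempty : (interior (Q d)).Nonempty := by
  refine ⟨0, mem_interior.2 ⟨{x | ∀ i, |x i| < 1}, ?_, ?_, ?_⟩⟩
  · intro x hx i
    exact (hx i).le
  · rw [ofPred_forall]
    apply isOpen_iInter_of_finite
    intro i
    have : Continuous fun x : Eu d => |x i| := by fun_prop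
    exact isOpen_lt this continuous_const
  · intro i
    simp

/-- the source measure -/
noncomputable abbrev ρ (d : ℕ) : Measure (Eu d) := uniformProbOn (Q d)

instance instProb : IsProbabilityMeasure (ρ d) :=
  isProb_uniformProbOn isCompact_Q interior_Q_nonempty

theorem measurableSet_Q : MeasurableSet (Q d) := isCompact_Q.measurableSet

theorem rho_apply (s : Set (Eu d)) (hs : MeasurableSet s) :
    ρ d s = (volume (Q d))⁻¹ * volume (s ∩ Q d) := by
  simp [ρ, uniformProbOn, Measure.restrict_apply hs]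

theorem rho_box (a b : Fin d → ℝ) (h1 : ∀ i, -1 ≤ a i) (h2 : ∀ i, b i ≤ 1) :
    ρ d (Box a b) = ∏ i, ENNReal.ofReal ((b i - a i) / 2) := by
  have hsub : Box a b ∩ Q d = Box a b := by
    apply inter_eq_left.2
    intro x hx i
    have := hx i
    rw [abs_le]
    constructor
    · linarith [h1 i]
    · linarith [h2 i]
  rw [rho_apply _ (measurableSet_box a b), hsub, Q_eq, volume_box, volume_box]
  have e1 : ∀ i, ENNReal.ofReal (b i - a i)
      = ENNReal.ofReal (1 - (-1)) * ENNReal.ofReal ((b i - a i) / 2) := by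
    intro i
    rw [← ENNReal.ofReal_mul (by norm_num)]
    congr 1
    ring
  simp_rw [e1]
  rw [Finset.prod_mul_distrib, ← mul_assoc, ENNReal.inv_mul_cancel, one_mul]
  · rw [Finset.prod_ne_zero_iff]
    intro i _
    simp
  · exact ENNReal.prod_ne_top fun i _ => by simp

theorem rho_Qc : ρ d (Q d)ᶜ = 0 := by
  rw [rho_apply _ measurableSet_Q.compl]
  simp

theorem rho_null_of_volume_null {s : Set (Eu d)} (hs : volume s = 0) : ρ d s = 0 :=
  uniformProbOn_absCont_volume _ hs

/-- the reflection in coordinate `j` -/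
noncomputable def rfx (j : Fin d) : Eu d ≃ₗᵢ[ℝ] Eu d :=
  LinearIsometryEquiv.piLpCongrRight 2
    (fun i => if i = j then LinearIsometryEquiv.neg ℝ else LinearIsometryEquiv.refl ℝ ℝ)

theorem rfx_apply (j : Fin d) (x : Eu d) (i : Fin d) :
    rfx j x i = if i = j then - x i else x i := by
  simp only [rfx, LinearIsometryEquiv.piLpCongrRight_apply]
  split_ifs with h <;> simp

theorem rfx_rfx (j : Fin d) (x : Eu d) : rfx j (rfx j x) = x := by
  ext i
  simp only [rfx_apply]
  split_ifs <;> simp

theorem rfx_mem_Q (j : Fin d) (x : Eu d) : rfx j x ∈ Q d ↔ x ∈ Q d := by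
  simp only [Q, mem_ofPred_eq, rfx_apply]
  constructor
  · intro h i
    have := h i
    split_ifs at this
    · simpa using this
    · exact this
  · intro h i
    split_ifs
    · simpa using h i
    · exact h i

theorem measurePreserving_rfx (j : Fin d) : MeasurePreserving (rfx j) (ρ d) (ρ d) := by
  have h0 : MeasurePreserving (rfx j) (volume : Measure (Eu d)) volume :=
    (rfx j).measurePreserving
  have h1 := h0.restrict_preimage (measurableSet_Q (d := d))
  have h2 : (rfx j) ⁻¹' (Q d) = Q d := by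
    ext x
    exact rfx_mem_Q j x
  rw [h2] at h1
  exact h1.smul_measure _

section Maps

variable (i0 i1 : Fin d) (h : ℝ)

/-- the transport map -/
noncomputable def Tp (x : Eu d) : Eu d :=
  if |x i0| / 2 ≤ h * x i1 then EuclideanSpace.single i1 h
  else if 0 < x i0 then EuclideanSpace.single i0 (1 / 2)
  else EuclideanSpace.single i0 (-(1 / 2))

/-- the potential -/
noncomputable def phi (x : Eu d) : ℝ := max (|x i0| / 2) (h * x i1)

theorem measurable_coord (i : Fin d) : Measurable fun x : Eu d => x i := by fun_prop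

theorem measurable_Tp : Measurable (Tp i0 i1 h) := by
  unfold Tp
  refine Measurable.ite ?_ measurable_const (Measurable.ite ?_ measurable_const measurable_const)
  · exact measurableSet_le (by fun_prop) (by fun_prop)
  · exact measurableSet_lt measurable_const (measurable_coord i0)

theorem convex_phi : ConvexOn ℝ univ (phi (d := d) i0 i1 h) := by
  refine ⟨convex_univ, ?_⟩
  intro x _ y _ a b ha hb hab
  simp only [phi, PiLp.add_apply, PiLp.smul_apply, smul_eq_mul]
  have h1 := le_max_left (|x i0| / 2) (h * x i1)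
  have h2 := le_max_right (|x i0| / 2) (h * x i1)
  have h3 := le_max_left (|y i0| / 2) (h * y i1)
  have h4 := le_max_right (|y i0| / 2) (h * y i1)
  apply max_le
  · calc |a * x i0 + b * y i0| / 2 ≤ (|a * x i0| + |b * y i0|) / 2 := by
          have := abs_add_le (a * x i0) (b * y i0)
          linarith
      _ = a * (|x i0| / 2) + b * (|y i0| / 2) := by
          rw [abs_mul, abs_mul, abs_of_nonneg ha, abs_of_nonneg hb]; ring
      _ ≤ _ := by gcongr
  · calc h * (a * x i1 + b * y i1) = a * (h * x i1) + b * (h * y i1) := by ring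
      _ ≤ _ := by gcongr

theorem abs_coord_sub_le (x y : Eu d) (i : Fin d) : |x i - y i| ≤ dist x y := by
  rw [dist_eq_norm]
  have := PiLp.norm_apply_le (x - y) i
  simpa using this

theorem lipschitz_phi (h0 : 0 ≤ h) (h1 : h ≤ 1) : LipschitzWith 1 (phi (d := d) i0 i1 h) := by
  refine LipschitzWith.of_dist_le_mul fun x y => ?_
  rw [Real.dist_eq]
  simp only [phi, NNReal.coe_one, one_mul]
  refine (abs_max_sub_max_le_max _ _ _ _).trans (max_le ?_ ?_)
  · have e1 : |x i0| / 2 - |y i0| / 2 = (|x i0| - |y i0|) / 2 := by ring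
    rw [e1, abs_div, abs_of_pos (by norm_num : (0 : ℝ) < 2)]
    have h2 := abs_abs_sub_abs_le_abs_sub (x i0) (y i0)
    have h3 := abs_coord_sub_le x y i0
    have h4 : 0 ≤ dist x y := dist_nonneg
    linarith
  · have e1 : h * x i1 - h * y i1 = h * (x i1 - y i1) := by ring
    rw [e1, abs_mul, abs_of_nonneg h0]
    have h3 := abs_coord_sub_le x y i1
    have h4 : 0 ≤ dist x y := dist_nonneg
    nlinarith [abs_nonneg (x i1 - y i1)]

theorem hasGradientAt_inner (g x : Eu d) : HasGradientAt (fun z : Eu d => inner ℝ g z) g x :=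
  (InnerProductSpace.toDual ℝ (Eu d) g).hasFDerivAt

theorem hasGradient_phi (x : Eu d) (hx0 : x i0 ≠ 0) (hx1 : |x i0| / 2 ≠ h * x i1) :
    HasGradientAt (phi (d := d) i0 i1 h) (Tp i0 i1 h x) x := by
  have c0 : Continuous fun z : Eu d => |z i0| / 2 := by fun_prop
  have c1 : Continuous fun z : Eu d => h * z i1 := by fun_prop
  have c2 : Continuous fun z : Eu d => z i0 := by fun_prop
  rcases lt_or_gt_of_ne hx1 with hlt | hgt
  · have e1 : Tp i0 i1 h x = EuclideanSpace.single i1 h := by
      simp [Tp, hlt.le]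
    rw [e1]
    refine (hasGradientAt_inner (EuclideanSpace.single i1 h) x).congr_of_eventuallyEq ?_
    filter_upwards [c0.continuousAt.eventually_lt c1.continuousAt hlt] with z hz
    have e2 : phi i0 i1 h z = h * z i1 := max_eq_right hz.le
    rw [e2, EuclideanSpace.inner_single_left]
    simp
  · have hn : ¬ (|x i0| / 2 ≤ h * x i1) := not_le.2 hgt
    rcases lt_or_gt_of_ne hx0 with hneg | hpos
    · have e1 : Tp i0 i1 h x = EuclideanSpace.single i0 (-(1 / 2)) := by
        simp [Tp, hn, not_lt.2 hneg.le]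
      rw [e1]
      refine (hasGradientAt_inner (EuclideanSpace.single i0 (-(1 / 2))) x).congr_of_eventuallyEq ?_
      filter_upwards [c1.continuousAt.eventually_lt c0.continuousAt hgt,
        c2.continuousAt.eventually_lt continuousAt_const hneg] with z hz hz2
      have e2 : phi i0 i1 h z = |z i0| / 2 := max_eq_left hz.le
      rw [e2, EuclideanSpace.inner_single_left, abs_of_neg hz2]
      simp
      ring
    · have e1 : Tp i0 i1 h x = EuclideanSpace.single i0 (1 / 2) := by
        simp [Tp, hn, hpos]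
      rw [e1]
      refine (hasGradientAt_inner (EuclideanSpace.single i0 (1 / 2)) x).congr_of_eventuallyEq ?_
      filter_upwards [c1.continuousAt.eventually_lt c0.continuousAt hgt,
        continuousAt_const.eventually_lt c2.continuousAt hpos] with z hz hz2
      have e2 : phi i0 i1 h z = |z i0| / 2 := max_eq_left hz.le
      rw [e2, EuclideanSpace.inner_single_left, abs_of_pos hz2]
      simp
      ring

theorem null_linear (ℓ : Eu d →L[ℝ] ℝ) (hℓ : ℓ ≠ 0) : volume {x : Eu d | ℓ x = 0} = 0 := by
  have h1 : (LinearMap.ker (ℓ : Eu d →ₗ[ℝ] ℝ)) ≠ ⊤ := by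
    intro hc
    apply hℓ
    ext x
    have : x ∈ LinearMap.ker (ℓ : Eu d →ₗ[ℝ] ℝ) := by rw [hc]; trivial
    simpa using this
  have h2 := Measure.addHaar_submodule (volume : Measure (Eu d))
    (LinearMap.ker (ℓ : Eu d →ₗ[ℝ] ℝ)) h1
  refine measure_mono_null (fun x hx => ?_) h2
  exact hx

theorem null_coord (i : Fin d) : volume {x : Eu d | x i = 0} = 0 := by
  have h1 := null_linear (EuclideanSpace.proj i : Eu d →L[ℝ] ℝ) (by
    intro hc
    have := congrArg (fun ℓ : Eu d →L[ℝ] ℝ => ℓ (EuclideanSpace.single i 1)) hc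
    simp at this)
  simpa using h1

theorem null_comb (hij : i0 ≠ i1) (c : ℝ) : volume {x : Eu d | x i0 = c * x i1} = 0 := by
  have h1 := null_linear ((EuclideanSpace.proj i0 : Eu d →L[ℝ] ℝ)
    - c • (EuclideanSpace.proj i1 : Eu d →L[ℝ] ℝ)) (by
    intro hc
    have := congrArg (fun ℓ : Eu d →L[ℝ] ℝ => ℓ (EuclideanSpace.single i0 1)) hc
    simp [hij.symm] at this)
  refine measure_mono_null (fun x hx => ?_) h1
  have hx' : x i0 = c * x i1 := hx
  simp [hx']

theorem ae_good (hij : i0 ≠ i1) :
    ∀ᵐ x ∂(volume : Measure (Eu d)), x i0 ≠ 0 ∧ |x i0| / 2 ≠ h * x i1 := by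
  have h0 := measure_eq_zero_iff_ae_notMem.1 (null_coord i0)
  have h1 := measure_eq_zero_iff_ae_notMem.1 (null_comb i0 i1 hij (2 * h))
  have h2 := measure_eq_zero_iff_ae_notMem.1 (null_comb i0 i1 hij (-(2 * h)))
  filter_upwards [h0, h1, h2] with x hx0 hx1 hx2
  refine ⟨hx0, fun hc => ?_⟩
  rcases abs_cases (x i0) with ⟨ha, _⟩ | ⟨ha, _⟩
  · apply hx1
    rw [ha] at hc
    show x i0 = 2 * h * x i1
    linarith
  · apply hx2
    rw [ha] at hc
    show x i0 = -(2 * h) * x i1
    linarith

/-- the thin region -/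
def A : Set (Eu d) := {x | |x i0| / 2 ≤ h * x i1}

theorem measurableSet_A : MeasurableSet (A (d := d) i0 i1 h) :=
  measurableSet_le (by fun_prop) (by fun_prop)

theorem prod_two (hij : i0 ≠ i1) (f : Fin d → ℝ≥0∞) (hf : ∀ i, i ≠ i0 → i ≠ i1 → f i = 1) :
    ∏ i, f i = f i0 * f i1 :=
  Finset.prod_eq_mul i0 i1 hij (fun c _ hc => hf c hc.1 hc.2) (fun hc => absurd (Finset.mem_univ _) hc)
    (fun hc => absurd (Finset.mem_univ _) hc)

theorem prod_one (f : Fin d → ℝ≥0∞) (hf : ∀ i, i ≠ i0 → f i = 1) :
    ∏ i, f i = f i0 :=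
  Finset.prod_eq_single i0 (fun c _ hc => hf c hc) (fun hc => absurd (Finset.mem_univ _) hc)

theorem rho_A_ge (hij : i0 ≠ i1) (h0 : 0 < h) (h1 : h ≤ 1) :
    ENNReal.ofReal (h / 4) ≤ ρ d (A i0 i1 h) := by
  set a : Fin d → ℝ := fun i => if i = i0 then -h else if i = i1 then 1 / 2 else -1 with ha
  set b : Fin d → ℝ := fun i => if i = i0 then h else 1 with hb
  have e := rho_box a b (by
    intro i; simp only [ha]; split_ifs <;> linarith) (by
    intro i; simp only [hb]; split_ifs <;> linarith)
  have hsub : Box a b ⊆ A i0 i1 h := by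
    intro x hx
    have hx0 := hx i0
    have hx1 := hx i1
    simp only [ha, hb, if_true, hij.symm, if_false] at hx0 hx1
    show |x i0| / 2 ≤ h * x i1
    have : |x i0| ≤ h := abs_le.2 hx0
    nlinarith
  refine le_trans (le_of_eq ?_) (measure_mono hsub)
  rw [e, prod_two i0 i1 hij]
  · simp only [ha, hb, if_true, hij.symm, if_false]
    rw [← ENNReal.ofReal_mul (by linarith)]
    congr 1
    ring
  · intro i hi hi'
    simp only [ha, hb, hi, hi', if_false]
    norm_num

theorem rho_A_le (h0 : 0 < h) (h1 : h ≤ 1 / 2) :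
    ρ d (A i0 i1 h) ≤ ENNReal.ofReal (2 * h) := by
  set a : Fin d → ℝ := fun i => if i = i0 then -(2 * h) else -1 with ha
  set b : Fin d → ℝ := fun i => if i = i0 then 2 * h else 1 with hb
  have e := rho_box a b (by
    intro i; simp only [ha]; split_ifs <;> linarith) (by
    intro i; simp only [hb]; split_ifs <;> linarith)
  have hsub : A i0 i1 h ⊆ Box a b ∪ (Q d)ᶜ := by
    intro x hx
    by_cases hxQ : x ∈ Q d
    · left
      intro i
      have h3 := abs_le.1 (hxQ i)
      by_cases hi : i = i0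
      · simp only [ha, hb, hi, if_true]
        have hx' : |x i0| / 2 ≤ h * x i1 := hx
        have h4 := (abs_le.1 (hxQ i1)).2
        have h5 : |x i0| ≤ 2 * h := by nlinarith
        exact abs_le.1 h5
      · simp only [ha, hb, hi, if_false]
        exact h3
    · right
      exact hxQ
  refine (measure_mono hsub).trans ((measure_union_le _ _).trans ?_)
  rw [rho_Qc, add_zero, e, prod_one i0]
  · simp only [ha, hb, if_true]
    apply ENNReal.ofReal_le_ofReal
    linarith
  · intro i hi
    simp only [ha, hb, hi, if_false]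
    norm_num

theorem rho_pos_side (h0 : 0 < h) (h1 : h < 1 / 4) :
    0 < ρ d (Tp i0 i1 h ⁻¹' {EuclideanSpace.single i0 (1 / 2)}) := by
  set a : Fin d → ℝ := fun i => if i = i0 then 1 / 2 else -1 with ha
  set b : Fin d → ℝ := fun i => 1 with hb
  have e := rho_box a b (by
    intro i; simp only [ha]; split_ifs <;> linarith) (by
    intro i; simp only [hb]; exact le_refl _)
  have hsub : Box a b ⊆ (Tp i0 i1 h ⁻¹' {EuclideanSpace.single i0 (1 / 2)}) ∪ (Q d)ᶜ := by
    intro x hx
    by_cases hxQ : x ∈ Q d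
    · left
      have hx0 := hx i0
      simp only [ha, hb, if_true] at hx0
      have h4 := (abs_le.1 (hxQ i1)).2
      have h5 : ¬ (|x i0| / 2 ≤ h * x i1) := by
        have : x i0 ≤ |x i0| := le_abs_self _
        nlinarith
      have h6 : 0 < x i0 := by linarith
      show Tp i0 i1 h x = _
      simp [Tp, h5, h6]
    · right
      exact hxQ
  have h7 := (measure_mono (μ := ρ d) hsub).trans (measure_union_le _ _)
  rw [rho_Qc, add_zero, e, prod_one i0] at h7
  · refine lt_of_lt_of_le ?_ h7
    simp only [ha, hb, if_true]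
    rw [ENNReal.ofReal_pos]
    norm_num
  · intro i hi
    simp only [ha, hb, hi, if_false]
    norm_num

theorem rho_neg_side (h0 : 0 < h) (h1 : h < 1 / 4) :
    0 < ρ d (Tp i0 i1 h ⁻¹' {EuclideanSpace.single i0 (-(1 / 2))}) := by
  set a : Fin d → ℝ := fun i => -1 with ha
  set b : Fin d → ℝ := fun i => if i = i0 then -(1 / 2) else 1 with hb
  have e := rho_box a b (by
    intro i; simp only [ha]; exact le_refl _) (by
    intro i; simp only [hb]; split_ifs <;> linarith)
  have hsub : Box a b ⊆ (Tp i0 i1 h ⁻¹' {EuclideanSpace.single i0 (-(1 / 2))}) ∪ (Q d)ᶜ := by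
    intro x hx
    by_cases hxQ : x ∈ Q d
    · left
      have hx0 := hx i0
      simp only [ha, hb, if_true] at hx0
      have h4 := (abs_le.1 (hxQ i1)).2
      have h5 : ¬ (|x i0| / 2 ≤ h * x i1) := by
        have : - x i0 ≤ |x i0| := neg_le_abs _
        nlinarith
      have h6 : ¬ 0 < x i0 := by linarith
      show Tp i0 i1 h x = _
      simp [Tp, h5, h6]
    · right
      exact hxQ
  have h7 := (measure_mono (μ := ρ d) hsub).trans (measure_union_le _ _)
  rw [rho_Qc, add_zero, e, prod_one i0] at h7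
  · refine lt_of_lt_of_le ?_ h7
    simp only [ha, hb, if_true]
    rw [ENNReal.ofReal_pos]
    norm_num
  · intro i hi
    simp only [ha, hb, hi, if_false]
    norm_num

/-- the three atoms -/
noncomputable def atoms : Fin 3 → Eu d :=
  ![EuclideanSpace.single i1 h, EuclideanSpace.single i0 (1 / 2),
    EuclideanSpace.single i0 (-(1 / 2))]

theorem atoms_injective (hij : i0 ≠ i1) (h0 : 0 < h) :
    Function.Injective (atoms (d := d) i0 i1 h) := by
  have e1 : (EuclideanSpace.single i1 h : Eu d) ≠ EuclideanSpace.single i0 (1 / 2) := by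
    intro hc
    have := congrArg (fun x : Eu d => x i1) hc
    simp [hij.symm, h0.ne'] at this
  have e2 : (EuclideanSpace.single i1 h : Eu d) ≠ EuclideanSpace.single i0 (-(1 / 2)) := by
    intro hc
    have := congrArg (fun x : Eu d => x i1) hc
    simp [hij.symm, h0.ne'] at this
  have e3 : (EuclideanSpace.single i0 (1 / 2) : Eu d) ≠ EuclideanSpace.single i0 (-(1 / 2)) := by
    intro hc
    have := congrArg (fun x : Eu d => x i0) hc
    simp at this
    norm_num at this
  intro a b hab
  fin_cases a <;> fin_cases b <;> simp [atoms] at hab ⊢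
  all_goals first
    | exact e1 (by simpa using hab)
    | exact e2 (by simpa using hab)
    | exact e3 (by simpa using hab)
    | exact e1.symm (by simpa using hab)
    | exact e2.symm (by simpa using hab)
    | exact e3.symm (by simpa using hab)

theorem Tp_mem_atoms (x : Eu d) : ∃ k, Tp i0 i1 h x = atoms i0 i1 h k := by
  unfold Tp
  split_ifs
  · exact ⟨0, rfl⟩
  · exact ⟨1, rfl⟩
  · exact ⟨2, rfl⟩

theorem Tp_mass_pos (hij : i0 ≠ i1) (h0 : 0 < h) (h1 : h < 1 / 4) (k : Fin 3) :
    0 < ρ d (Tp i0 i1 h ⁻¹' {atoms i0 i1 h k}) := by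
  fin_cases k
  · have h2 : A i0 i1 h ⊆ Tp i0 i1 h ⁻¹' {atoms (d := d) i0 i1 h 0} := by
      intro x hx
      have hx' : |x i0| / 2 ≤ h * x i1 := hx
      show Tp i0 i1 h x = EuclideanSpace.single i1 h
      simp [Tp, hx']
    refine lt_of_lt_of_le ?_ ((rho_A_ge i0 i1 h hij h0 (by linarith)).trans (measure_mono h2))
    rw [ENNReal.ofReal_pos]
    linarith
  · exact rho_pos_side i0 i1 h h0 h1
  · exact rho_neg_side i0 i1 h h0 h1

end Maps

theorem isThreeAtomic_map {X E : Type*} [MeasurableSpace X] [MeasurableSpace E]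
    [MeasurableSingletonClass E] (ρ : Measure X) [IsProbabilityMeasure ρ] (f : X → E)
    (hf : Measurable f) (y : Fin 3 → E) (hy : Function.Injective y) (hfy : ∀ x, ∃ k, f x = y k)
    (hpos : ∀ k, 0 < ρ (f ⁻¹' {y k})) : IsThreeAtomic (ρ.map f) := by
  refine ⟨y, hy, fun k => (ρ (f ⁻¹' {y k})).toReal, fun k => ?_, ?_⟩
  · exact ENNReal.toReal_pos (hpos k).ne' (measure_ne_top _ _)
  · ext s hs
    rw [Measure.map_apply hf hs]
    simp only [Measure.coe_finsetSum, Finset.sum_apply, Measure.smul_apply, smul_eq_mul]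
    have e1 : f ⁻¹' s = ⋃ k, (f ⁻¹' {y k}) ∩ {_x | y k ∈ s} := by
      ext x
      simp only [mem_preimage, mem_iUnion, mem_inter_iff, mem_singleton_iff, mem_ofPred_eq]
      constructor
      · intro hx
        obtain ⟨k, hk⟩ := hfy x
        exact ⟨k, hk, hk ▸ hx⟩
      · rintro ⟨k, hk, hk2⟩
        rw [hk]; exact hk2
    rw [e1, measure_iUnion]
    · rw [tsum_fintype]
      refine Finset.sum_congr rfl fun k _ => ?_
      rw [ENNReal.ofReal_toReal (measure_ne_top _ _), Measure.dirac_apply' _ hs]
      by_cases hk : y k ∈ s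
      · simp [hk]
      · simp [hk]
    · intro a b hab
      rw [Function.onFun, Set.disjoint_left]
      intro x hx hx'
      apply hab
      apply hy
      have h1 : f x = y a := hx.1
      have h2 : f x = y b := hx'.1
      rw [← h1, ← h2]
    · intro k
      refine (hf (measurableSet_singleton _)).inter ?_
      by_cases hk : y k ∈ s
      · simp [hk]
      · simp [hk]

end Crest.Agent.QTSharp
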