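import Mathlib
import Crest.Agent.QTPath
import Crest.Agent.QTDefs2

/-! Row 82: stability of semidiscrete potentials. -/

set_option autoImplicit false

namespace Crest.Agent.QT

open MeasureTheory Set Filter Topology
open scoped ENNReal NNReal
open Crest.AnalysisR.OT

variable {d N : ℕ} {K : Set (Eu d)}

theorem compl_ball_null {R : ℝ} (hKR : ∀ x ∈ K, ‖x‖ ≤ R) (σ : Measure (Eu d))
    (hσK : σ Kᶜ = 0) : σ (Metric.closedBall 0 R)ᶜ = 0 := by
  refine measure_mono_null ?_ hσK
  intro x hx hxK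
  exact hx (by simpa using hKR x hxK)

theorem exists_weights (hSD : SemidiscreteExists) {R : ℝ} (hKR : ∀ x ∈ K, ‖x‖ ≤ R)
    (σ : Measure (Eu d)) [IsProbabilityMeasure σ] (hσ : σ ≪ volume) (hσK : σ Kᶜ = 0)
    (y : Fin N → Eu d) (hy : Function.Injective y) (m : Fin N → ℝ) (hm : ∀ i, 0 < m i)
    (hm1 : ∑ i, m i = 1) : ∃ c : Fin N → ℝ, ∀ i, σ.real (cell y c i) = m i := by
  obtain ⟨B, hB⟩ := hSD d N y hy m hm hm1 R (∑ i, ‖y i‖)
    (fun i => Finset.single_le_sum (f := fun i => ‖y i‖) (fun _ _ => norm_nonneg _)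
      (Finset.mem_univ i))
  obtain ⟨c, -, -, hc⟩ := hB σ inferInstance hσ (compl_ball_null hKR σ hσK)
  refine ⟨c, fun i => ?_⟩
  rw [measureReal_def, hc i, ENNReal.toReal_ofReal (hm i).le]

theorem Wv_unique (hKc : IsCompact K) (σ : Measure (Eu d)) [IsProbabilityMeasure σ]
    (hσ : σ ≪ volume) (hσK : σ Kᶜ = 0) (hN : 0 < N) (y : Fin N → Eu d)
    (hy : Function.Injective y) (m : Fin N → ℝ) (c c' : Fin N → ℝ)
    (hc : ∀ i, σ.real (cell y c i) = m i) (hc' : ∀ i, σ.real (cell y c' i) = m i) :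
    Wv σ y c = Wv σ y c' :=
  le_antisymm (opt_cell hKc σ hσ hσK hN y hy c' m hc' y hy c hc)
    (opt_cell hKc σ hσ hσK hN y hy c m hc y hy c' hc')

theorem tilt_le (hKc : IsCompact K) (hKi : (interior K).Nonempty)
    (hN : 0 < N) (y z : Fin N → Eu d) (hy : Function.Injective y) (hz : Function.Injective z)
    (m : Fin N → ℝ) (g : Eu d → ℝ) (hg : Continuous g)
    (hg0 : ∫ x, g x ∂(uniformProbOn K) = 0)
    (s : ℝ) (hsg : ∀ x ∈ K, |s * g x| ≤ 1 / 2)
    (c c' cy cz : Fin N → ℝ) (hc : ∀ i, (uniformProbOn K).real (cell y c i) = m i)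
    (hc' : ∀ i, (uniformProbOn K).real (cell z c' i) = m i)
    (hcy : ∀ i, (sig K g s).real (cell y cy i) = m i)
    (hcz : ∀ i, (sig K g s).real (cell z cz i) = m i) :
    s * ∫ x, (pot z cz x - pot y c x) * g x ∂(uniformProbOn K) ≤
      (Wv (sig K g s) z cz - Wv (sig K g s) y cy) -
        (Wv (uniformProbOn K) z c' - Wv (uniformProbOn K) y c) := by
  have hρp := isProb_unif hKc hKi
  have hσp := sig_prob hKc hKi hg hsg hg0
  have h1 : Wv (sig K g s) z cz = _ :=
    strong_duality hKc (sig K g s) sig_ac (sig_compl hKc) hN z hz cz m hcz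
  have h2 : Wv (uniformProbOn K) z c' ≤ _ :=
    weak_duality hKc (uniformProbOn K) unif_ac (unif_compl hKc) hN z cz z hz c' m hc'
  have h3 : Wv (sig K g s) y cy ≤ _ :=
    weak_duality hKc (sig K g s) sig_ac (sig_compl hKc) hN y c y hy cy m hcy
  have h4 : Wv (uniformProbOn K) y c = _ :=
    strong_duality hKc (uniformProbOn K) unif_ac (unif_compl hKc) hN y hy c m hc
  have hcz' := pot_continuous hN z cz
  have hcy' := pot_continuous hN y c
  have h5 := sig_integral_sub hKc hKi hg hsg hcz'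
  have h6 := sig_integral_sub hKc hKi hg hsg hcy'
  have h7 : ∫ x, (pot z cz x - pot y c x) * g x ∂(uniformProbOn K) =
      ∫ x, pot z cz x * g x ∂(uniformProbOn K) - ∫ x, pot y c x * g x ∂(uniformProbOn K) := by
    have i1 : Integrable (fun x => pot z cz x * g x) (uniformProbOn K) :=
      integrable_of_continuous hKc hKi (hcz'.mul hg)
    have i2 : Integrable (fun x => pot y c x * g x) (uniformProbOn K) :=
      integrable_of_continuous hKc hKi (hcy'.mul hg)
    rw [← integral_sub i1 i2]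
    refine integral_congr_ae (Eventually.of_forall fun x => ?_)
    show (pot z cz x - pot y c x) * g x = pot z cz x * g x - pot y c x * g x
    ring
  rw [h7, mul_sub, ← h5, ← h6]
  linarith

theorem K1 (hPL : PrekopaLeindler) (hSD : SemidiscreteExists) (hKc : IsCompact K)
    (hKv : Convex ℝ K)
    (hKi : (interior K).Nonempty) {R : ℝ} (hR : 0 < R) (hKR : ∀ x ∈ K, ‖x‖ ≤ R)
    (hN : 0 < N) (y z : Fin N → Eu d) (hy : Function.Injective y) (hz : Function.Injective z)
    (m : Fin N → ℝ) (hm : ∀ i, 0 < m i) (hm1 : ∑ i, m i = 1)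
    (g : Eu d → ℝ) (hg : Continuous g) (hg0 : ∫ x, g x ∂(uniformProbOn K) = 0)
    (s : ℝ) (hs : 0 < s) (hsg : ∀ x ∈ K, |s * g x| ≤ 1 / 2)
    (c c' cz : Fin N → ℝ) (hc : ∀ i, (uniformProbOn K).real (cell y c i) = m i)
    (hc' : ∀ i, (uniformProbOn K).real (cell z c' i) = m i)
    (hcz : ∀ i, (sig K g s).real (cell z cz i) = m i) :
    ∫ x, (pot z cz x - pot y c x) * g x ∂(uniformProbOn K) ≤
      1000 * R * √(∫ x, g x ^ 2 ∂(uniformProbOn K)) * √(∑ i, m i * ‖z i - y i‖ ^ 2) := by
  have hρp := isProb_unif hKc hKi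
  have hσp := sig_prob hKc hKi hg hsg hg0
  obtain ⟨cy, hcy⟩ := exists_weights hSD hKR (sig K g s) sig_ac (sig_compl hKc) y hy m hm hm1
  have h1 := tilt_le hKc hKi hN y z hy hz m g hg hg0 s hsg c c' cy cz hc hc' hcy hcz
  set E : ℝ := 2 * R * ∑ i, m i * ‖z i - y i‖ with hE
  have hE0 : 0 ≤ E := by
    have : ∀ i, 0 ≤ m i * ‖z i - y i‖ := fun i => mul_nonneg (hm i).le (norm_nonneg _)
    have := Finset.sum_nonneg fun i (_ : i ∈ Finset.univ) => this i
    positivity
  set a := s * ∫ x, (pot z cz x - pot y c x) * g x ∂(uniformProbOn K) with ha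
  set b := 1000 * R * (s * √(∫ x, g x ^ 2 ∂(uniformProbOn K))) *
    √(∑ i, m i * ‖z i - y i‖ ^ 2) with hb
  have key : ∀ M : ℕ, 0 < M → a ≤ b + E / M := by
    intro M hM
    obtain ⟨n, hMn, hn, hinj⟩ := exists_good y z hy hz M
    have hex1 : ∀ k : ℕ, ∃ cc : Fin N → ℝ, k ≤ n →
        ∀ i, (sig K g s).real (cell (seg y z ((k : ℝ) / n)) cc i) = m i := by
      intro k
      by_cases hk : k ≤ n
      · obtain ⟨cc, hcc⟩ := exists_weights hSD hKR (sig K g s) sig_ac (sig_compl hKc) _
          (hinj k hk) m hm hm1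
        exact ⟨cc, fun _ => hcc⟩
      · exact ⟨0, fun h => absurd h hk⟩
    have hex2 : ∀ k : ℕ, ∃ cc : Fin N → ℝ, k ≤ n →
        ∀ i, (uniformProbOn K).real (cell (seg y z ((k : ℝ) / n)) cc i) = m i := by
      intro k
      by_cases hk : k ≤ n
      · obtain ⟨cc, hcc⟩ := exists_weights hSD hKR (uniformProbOn K) unif_ac (unif_compl hKc) _
          (hinj k hk) m hm hm1
        exact ⟨cc, fun _ => hcc⟩
      · exact ⟨0, fun h => absurd h hk⟩
    choose cs hcs using hex1
    choose cr hcr using hex2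
    have h2 := path_bound hPL hKc hKv hKi hR hKR hN y z m hm g hg hg0 s hs.le hsg n hn hinj
      cs cr hcs hcr
    have hn' : (0 : ℝ) < n := by exact_mod_cast hn
    have e0 : seg y z (((0 : ℕ) : ℝ) / n) = y := by
      rw [Nat.cast_zero, zero_div]; exact seg_zero y z
    have e1 : seg y z ((n : ℝ) / n) = z := by
      rw [div_self hn'.ne']; exact seg_one y z
    have hs0 := hcs 0 (Nat.zero_le _)
    have hsn := hcs n le_rfl
    have hr0 := hcr 0 (Nat.zero_le _)
    have hrn := hcr n le_rfl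
    rw [e0] at hs0 hr0 h2
    rw [e1] at hsn hrn h2
    rw [Wv_unique hKc (sig K g s) sig_ac (sig_compl hKc) hN z hz m (cs n) cz hsn hcz,
      Wv_unique hKc (sig K g s) sig_ac (sig_compl hKc) hN y hy m (cs 0) cy hs0 hcy,
      Wv_unique hKc (uniformProbOn K) unif_ac (unif_compl hKc) hN z hz m (cr n) c' hrn hc',
      Wv_unique hKc (uniformProbOn K) unif_ac (unif_compl hKc) hN y hy m (cr 0) c hr0 hc] at h2
    have h3 : E / n ≤ E / M := by
      have : (0 : ℝ) < M := by exact_mod_cast hM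
      have : (M : ℝ) ≤ n := by exact_mod_cast hMn
      gcongr
    linarith
  have hab : a ≤ b := by
    refine le_of_forall_pos_le_add fun ε hε => ?_
    obtain ⟨M, hM⟩ := exists_nat_gt (E / ε)
    have hM0 : (0 : ℝ) < M := lt_of_le_of_lt (by positivity) hM
    have h4 := key M (by exact_mod_cast hM0)
    have h5 : E / M ≤ ε := by
      rw [div_le_iff₀ hM0]
      rw [div_lt_iff₀ hε] at hM
      linarith
    linarith
  have e : b = s * (1000 * R * √(∫ x, g x ^ 2 ∂(uniformProbOn K)) *
    √(∑ i, m i * ‖z i - y i‖ ^ 2)) := by rw [hb]; ring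
  rw [ha, e] at hab
  exact le_of_mul_le_mul_left hab hs

theorem ofCont_eq_of_ae (hKv : Convex ℝ K) (hKc : IsCompact K) (hKi : (interior K).Nonempty)
    {h : Eu d → ℝ} (hh : Continuous h) {F : Set ℝ} (hF : F.Finite)
    (hae : ∀ᵐ x ∂(uniformProbOn K), h x ∈ F) : ∃ κ : ℝ, ∀ x ∈ interior K, h x = κ := by
  have hU : IsOpen (interior K ∩ h ⁻¹' Fᶜ) :=
    isOpen_interior.inter (hF.isClosed.isOpen_compl.preimage hh)
  have hU0 : (volume : Measure (Eu d)) (interior K ∩ h ⁻¹' Fᶜ) = 0 := by
    have h1 : (uniformProbOn K) (interior K ∩ h ⁻¹' Fᶜ) = 0 := by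
      refine measure_mono_null inter_subset_right ?_
      rw [ae_iff] at hae
      exact hae
    unfold uniformProbOn at h1
    rw [Measure.smul_apply, smul_eq_mul, mul_eq_zero] at h1
    rcases h1 with h1 | h1
    · exact absurd h1 (ENNReal.inv_ne_zero.mpr (vol_ne_top hKc))
    · rw [Measure.restrict_apply hU.measurableSet] at h1
      refine measure_mono_null ?_ h1
      intro x hx
      exact ⟨hx, interior_subset hx.1⟩
  have hUe : interior K ∩ h ⁻¹' Fᶜ = ∅ := by
    by_contra hne
    exact (hU.measure_pos volume (nonempty_iff_ne_empty.mpr hne)).ne' hU0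
  have hmaps : MapsTo h (interior K) F := by
    intro x hx
    by_contra hxF
    have : x ∈ interior K ∩ h ⁻¹' Fᶜ := ⟨hx, hxF⟩
    rw [hUe] at this
    exact this
  obtain ⟨x₀, hx₀⟩ := hKi
  refine ⟨h x₀, fun x hx => ?_⟩
  exact hKv.interior.isPreconnected.constant_of_mapsTo hF.isDiscrete hh.continuousOn hmaps hx hx₀

theorem potential_unique (hKc : IsCompact K) (hKv : Convex ℝ K) (hKi : (interior K).Nonempty)
    (hN : 0 < N) (z : Fin N → Eu d) (hz : Function.Injective z)
    (m : Fin N → ℝ) (c' c₁ : Fin N → ℝ)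
    (hc' : ∀ i, (uniformProbOn K).real (cell z c' i) = m i)
    (hle : (∫ x, pot z c₁ x ∂(uniformProbOn K)) + ∑ i, m i * c₁ i ≤
      (∫ x, pot z c' x ∂(uniformProbOn K)) + ∑ i, m i * c' i) :
    ∃ κ : ℝ, ∀ x ∈ interior K, pot z c₁ x - pot z c' x = κ := by
  have hρp := isProb_unif hKc hKi
  have hpc := pot_continuous hN z c₁
  have hpc' := pot_continuous hN z c'
  refine ofCont_eq_of_ae hKv hKc hKi (hpc.sub hpc') (F := range fun i => c' i - c₁ i)
    (finite_range _) ?_
  have hf : ∀ i, Continuous fun x : Eu d => pot z c₁ x - (inner ℝ (z i) x - c₁ i) := by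
    intro i; fun_prop
  have hf0 : ∀ i, ∀ x : Eu d, 0 ≤ pot z c₁ x - (inner ℝ (z i) x - c₁ i) := by
    intro i x
    rw [real_inner_comm]
    have := le_pot z c₁ x i
    linarith
  have h1 : ∀ i, 0 ≤ ∫ x in cell z c' i, (pot z c₁ x - (inner ℝ (z i) x - c₁ i))
      ∂(uniformProbOn K) := fun i => integral_nonneg (hf0 i)
  have h2 : ∑ i, ∫ x in cell z c' i, (pot z c₁ x - (inner ℝ (z i) x - c₁ i))
      ∂(uniformProbOn K) ≤ 0 := by
    have hs := strong_duality hKc (uniformProbOn K) unif_ac (unif_compl hKc) hN z hz c' m hc'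
    have e : ∀ i, ∫ x in cell z c' i, (pot z c₁ x - (inner ℝ (z i) x - c₁ i))
        ∂(uniformProbOn K) = (∫ x in cell z c' i, pot z c₁ x ∂(uniformProbOn K)) -
          (inner ℝ (z i) (∫ x in cell z c' i, x ∂(uniformProbOn K)) - m i * c₁ i) := by
      intro i
      have hid : Integrable (fun x : Eu d => x) ((uniformProbOn K).restrict (cell z c' i)) :=
        (integrable_of_continuous hKc hKi continuous_id').restrict
      have i1 : Integrable (pot z c₁) ((uniformProbOn K).restrict (cell z c' i)) :=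
        (integrable_of_continuous hKc hKi hpc).restrict
      have i2 : Integrable (fun x : Eu d => inner ℝ (z i) x)
          ((uniformProbOn K).restrict (cell z c' i)) :=
        (integrable_of_continuous hKc hKi (by fun_prop)).restrict
      have i3 : Integrable (fun x : Eu d => inner ℝ (z i) x - c₁ i)
          ((uniformProbOn K).restrict (cell z c' i)) := i2.sub (integrable_const _)
      rw [integral_sub i1 i3, integral_sub i2 (integrable_const _), integral_inner hid,
        setIntegral_const, smul_eq_mul, hc' i]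
    rw [Finset.sum_congr rfl fun i _ => e i, Finset.sum_sub_distrib, Finset.sum_sub_distrib,
      sum_integral_cell hN z hz c' (uniformProbOn K) unif_ac (pot z c₁)
      (integrable_of_continuous hKc hKi hpc), hs]
    linarith
  have h3 : ∀ i, ∫ x in cell z c' i, (pot z c₁ x - (inner ℝ (z i) x - c₁ i))
      ∂(uniformProbOn K) = 0 := by
    intro i
    have h4 := Finset.single_le_sum (f := fun i => ∫ x in cell z c' i,
      (pot z c₁ x - (inner ℝ (z i) x - c₁ i)) ∂(uniformProbOn K)) (fun i _ => h1 i)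
      (Finset.mem_univ i)
    exact le_antisymm (h4.trans h2) (h1 i)
  have h5 : ∀ i, ∀ᵐ x ∂(uniformProbOn K), x ∈ cell z c' i →
      pot z c₁ x - (inner ℝ (z i) x - c₁ i) = 0 := by
    intro i
    have h6 := (setIntegral_eq_zero_iff_of_nonneg_ae (Eventually.of_forall (hf0 i))
      (integrable_of_continuous hKc hKi (hf i)).integrableOn).mp (h3 i)
    exact (ae_restrict_iff' (measurableSet_cell z c' i)).mp h6
  rw [← ae_all_iff] at h5
  filter_upwards [h5] with x hx
  obtain ⟨i, hi⟩ := exists_cell hN z c' x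
  have h7 := hx i hi
  refine ⟨i, ?_⟩
  show c' i - c₁ i = pot z c₁ x - pot z c' x
  rw [pot_eq_of_mem z c' hi]
  rw [real_inner_comm] at h7
  linarith

theorem continuous_int_pot (hKc : IsCompact K) (hKi : (interior K).Nonempty)
    (hN : 0 < N) (z : Fin N → Eu d) {w : Eu d → ℝ} (hw : Continuous w) :
    Continuous fun c : Fin N → ℝ => ∫ x, pot z c x * w x ∂(uniformProbOn K) := by
  have hρp := isProb_unif hKc hKi
  set W : ℝ≥0 := ⟨∫ x, |w x| ∂(uniformProbOn K), integral_nonneg fun x => abs_nonneg _⟩ with hW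
  refine (LipschitzWith.of_dist_le_mul (K := W) fun c c' => ?_).continuous
  have i1 : ∀ c : Fin N → ℝ, Integrable (fun x => pot z c x * w x) (uniformProbOn K) :=
    fun c => integrable_of_continuous hKc hKi ((pot_continuous hN z c).mul hw)
  rw [Real.dist_eq, ← integral_sub (i1 c) (i1 c')]
  refine (abs_integral_le_integral_abs).trans ?_
  have e : (W : ℝ) * dist c c' = ∫ x, |w x| * dist c c' ∂(uniformProbOn K) := by
    rw [integral_mul_const]; rfl
  rw [e]
  refine integral_mono ?_ ?_ fun x => ?_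
  · exact ((i1 c).sub (i1 c')).abs
  · exact (integrable_of_continuous hKc hKi hw.abs).mul_const _
  · show |pot z c x * w x - pot z c' x * w x| ≤ |w x| * dist c c'
    rw [← sub_mul, abs_mul, mul_comm]
    refine mul_le_mul_of_nonneg_left ?_ (abs_nonneg _)
    rw [abs_le]
    have h1 := pot_le_add_dist hN z c c' x
    have h2 := pot_le_add_dist hN z c' c x
    rw [dist_comm c' c] at h2
    constructor <;> linarith

theorem potStab_aux (hPL : PrekopaLeindler) (hSD : SemidiscreteExists) (hKc : IsCompact K)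
    (hKv : Convex ℝ K)
    (hKi : (interior K).Nonempty) {R : ℝ} (hR : 0 < R) (hKR : ∀ x ∈ K, ‖x‖ ≤ R)
    (hN : 0 < N) (y z : Fin N → Eu d) (hy : Function.Injective y) (hz : Function.Injective z)
    (m : Fin N → ℝ) (hm : ∀ i, 0 < m i) (hm1 : ∑ i, m i = 1)
    (c c' : Fin N → ℝ) (hc : ∀ i, (uniformProbOn K).real (cell y c i) = m i)
    (hc' : ∀ i, (uniformProbOn K).real (cell z c' i) = m i)
    (A : ℝ) (hA : A = ∫ x, (pot z c' x - pot y c x) ∂(uniformProbOn K)) :
    ∫ x, (pot z c' x - pot y c x - A) ^ 2 ∂(uniformProbOn K) ≤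
      1000000 * R ^ 2 * ∑ i, m i * ‖z i - y i‖ ^ 2 := by
  have hρp := isProb_unif hKc hKi
  have hpc' := pot_continuous hN z c'
  have hpc := pot_continuous hN y c
  set g : Eu d → ℝ := fun x => pot z c' x - pot y c x - A with hgdef
  have hg : Continuous g := by fun_prop
  have hg0 : ∫ x, g x ∂(uniformProbOn K) = 0 := by
    simp only [hgdef]
    have i1 : Integrable (fun x => pot z c' x - pot y c x) (uniformProbOn K) :=
      integrable_of_continuous hKc hKi (hpc'.sub hpc)
    rw [integral_sub i1 (integrable_const _), ← hA]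
    simp
  obtain ⟨G₀, hG₀⟩ := hKc.exists_bound_of_continuousOn hg.continuousOn
  set G : ℝ := |G₀| + 1 with hG
  have hGpos : 0 < G := by positivity
  have hGb : ∀ x ∈ K, |g x| ≤ G := fun x hx => by
    have h1 := hG₀ x hx
    rw [Real.norm_eq_abs] at h1
    have h2 := le_abs_self G₀
    linarith
  set s : ℕ → ℝ := fun j => 1 / (2 * G) * (1 / ((j : ℝ) + 1)) with hs
  have hspos : ∀ j, 0 < s j := fun j => by positivity
  have hs0 : Tendsto s atTop (𝓝 0) := by
    have := (tendsto_one_div_add_atTop_nhds_zero_nat (𝕜 := ℝ)).const_mul (1 / (2 * G))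
    simpa [hs] using this
  have hsg : ∀ j, ∀ x ∈ K, |s j * g x| ≤ 1 / 2 := by
    intro j x hx
    rw [abs_mul, abs_of_pos (hspos j)]
    have h1 : s j ≤ 1 / (2 * G) := by
      have : (1 : ℝ) / ((j : ℝ) + 1) ≤ 1 := by
        rw [div_le_one (by positivity)]
        have : (0 : ℝ) ≤ j := Nat.cast_nonneg j
        linarith
      have h2 : (0 : ℝ) < 1 / (2 * G) := by positivity
      calc s j ≤ 1 / (2 * G) * 1 := by
            simp only [hs]; gcongr
        _ = _ := mul_one _
    calc s j * |g x| ≤ 1 / (2 * G) * G := by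
          have := hGb x hx
          gcongr
      _ = 1 / 2 := by field_simp
  -- weights for the tilted measures
  obtain ⟨B, hB⟩ := hSD d N z hz m hm hm1 R (∑ i, ‖z i‖)
    (fun i => Finset.single_le_sum (f := fun i => ‖z i‖) (fun _ _ => norm_nonneg _)
      (Finset.mem_univ i))
  have hex : ∀ j, ∃ cc : Fin N → ℝ, cc ∈ Icc (0 : Fin N → ℝ) (fun _ => B) ∧
      ∀ i, (sig K g (s j)).real (cell z cc i) = m i := by
    intro j
    obtain ⟨cc, h1, h2, h3⟩ := hB (sig K g (s j)) (sig_prob hKc hKi hg (hsg j) hg0) sig_ac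
      (compl_ball_null hKR _ (sig_compl hKc))
    refine ⟨cc, ⟨fun i => h1 i, fun i => h2 i⟩, fun i => ?_⟩
    rw [measureReal_def, h3 i, ENNReal.toReal_ofReal (hm i).le]
  choose cj hcjI hcj using hex
  obtain ⟨cinf, -, φ, hφ, hlim⟩ := isCompact_Icc.tendsto_subseq hcjI
  set D : ℝ := √(∑ i, m i * ‖z i - y i‖ ^ 2) with hD
  set Q : ℝ := ∫ x, g x ^ 2 ∂(uniformProbOn K) with hQ
  -- (i)
  have hcont_g := continuous_int_pot hKc hKi hN z hg
  have hcont_1 := continuous_int_pot hKc hKi hN z (w := fun _ => (1 : ℝ)) continuous_const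
  have ipc : ∀ cc : Fin N → ℝ, Integrable (fun x => pot z cc x * g x) (uniformProbOn K) :=
    fun cc => integrable_of_continuous hKc hKi ((pot_continuous hN z cc).mul hg)
  have ipy : Integrable (fun x => pot y c x * g x) (uniformProbOn K) :=
    integrable_of_continuous hKc hKi (hpc.mul hg)
  have hsplit : ∀ cc : Fin N → ℝ, ∫ x, (pot z cc x - pot y c x) * g x ∂(uniformProbOn K) =
      ∫ x, pot z cc x * g x ∂(uniformProbOn K) - ∫ x, pot y c x * g x ∂(uniformProbOn K) := by
    intro cc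
    rw [← integral_sub (ipc cc) ipy]
    refine integral_congr_ae (Eventually.of_forall fun x => ?_)
    show (pot z cc x - pot y c x) * g x = pot z cc x * g x - pot y c x * g x
    ring
  have hK1 : ∫ x, (pot z cinf x - pot y c x) * g x ∂(uniformProbOn K) ≤ 1000 * R * √Q * D := by
    rw [hsplit]
    have ht : Tendsto (fun k => ∫ x, pot z (cj (φ k)) x * g x ∂(uniformProbOn K) -
        ∫ x, pot y c x * g x ∂(uniformProbOn K)) atTop
        (𝓝 (∫ x, pot z cinf x * g x ∂(uniformProbOn K) -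
        ∫ x, pot y c x * g x ∂(uniformProbOn K))) :=
      ((hcont_g.tendsto cinf).comp hlim).sub_const _
    refine le_of_tendsto ht (Eventually.of_forall fun k => ?_)
    have := K1 hPL hSD hKc hKv hKi hR hKR hN y z hy hz m hm hm1 g hg hg0 (s (φ k)) (hspos _)
      (hsg _) c c' (cj (φ k)) hc hc' (hcj (φ k))
    rw [hsplit] at this
    exact this
  -- (ii)
  have hmin : (∫ x, pot z cinf x ∂(uniformProbOn K)) + ∑ i, m i * cinf i ≤
      (∫ x, pot z c' x ∂(uniformProbOn K)) + ∑ i, m i * c' i := by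
    have hsφ : Tendsto (fun k => s (φ k)) atTop (𝓝 0) := hs0.comp hφ.tendsto_atTop
    have t1 : Tendsto (fun k => ∫ x, pot z (cj (φ k)) x * 1 ∂(uniformProbOn K)) atTop
        (𝓝 (∫ x, pot z cinf x * 1 ∂(uniformProbOn K))) := (hcont_1.tendsto cinf).comp hlim
    have t2 : Tendsto (fun k => ∫ x, pot z (cj (φ k)) x * g x ∂(uniformProbOn K)) atTop
        (𝓝 (∫ x, pot z cinf x * g x ∂(uniformProbOn K))) := (hcont_g.tendsto cinf).comp hlim
    have t3 : Tendsto (fun k => ∑ i, m i * cj (φ k) i) atTop (𝓝 (∑ i, m i * cinf i)) := by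
      refine tendsto_finsetSum _ fun i _ => ?_
      exact ((tendsto_pi_nhds.mp hlim) i).const_mul _
    have t4 := (t1.add (hsφ.mul t2)).add t3
    have t5 : Tendsto (fun k => ∫ x, pot z c' x ∂(uniformProbOn K) +
        s (φ k) * ∫ x, pot z c' x * g x ∂(uniformProbOn K) + ∑ i, m i * c' i) atTop
        (𝓝 (∫ x, pot z c' x ∂(uniformProbOn K) +
        0 * ∫ x, pot z c' x * g x ∂(uniformProbOn K) + ∑ i, m i * c' i)) :=
      (tendsto_const_nhds.add (hsφ.mul_const _)).add_const _
    have h6 := le_of_tendsto_of_tendsto' t4 t5 fun k => by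
      have hσp := sig_prob hKc hKi hg (hsg (φ k)) hg0
      have a1 := strong_duality hKc (sig K g (s (φ k))) sig_ac (sig_compl hKc) hN z hz
        (cj (φ k)) m (hcj (φ k))
      have a2 := weak_duality hKc (sig K g (s (φ k))) sig_ac (sig_compl hKc) hN z c' z hz
        (cj (φ k)) m (hcj (φ k))
      have a3 := sig_integral_sub hKc hKi hg (hsg (φ k)) (pot_continuous hN z (cj (φ k)))
      have a4 := sig_integral_sub hKc hKi hg (hsg (φ k)) hpc'
      simp only [mul_one]
      linarith
    simpa using h6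
  obtain ⟨κ, hκ⟩ := potential_unique hKc hKv hKi hN z hz m c' cinf hc' hmin
  -- (iii)
  have h7 : ∫ x, (pot z cinf x - pot y c x) * g x ∂(uniformProbOn K) = Q := by
    have e1 : ∫ x, (pot z cinf x - pot y c x) * g x ∂(uniformProbOn K) =
        ∫ x, (g x ^ 2 + (A + κ) * g x) ∂(uniformProbOn K) := by
      refine integral_congr_ae ?_
      filter_upwards [unif_ae_mem_interior hKc hKv] with x hx
      have := hκ x hx
      have e2 : pot z cinf x - pot y c x = g x + (A + κ) := by
        simp only [hgdef]; linarith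
      show (pot z cinf x - pot y c x) * g x = g x ^ 2 + (A + κ) * g x
      rw [e2]; ring
    have i1 : Integrable (fun x => g x ^ 2) (uniformProbOn K) :=
      integrable_of_continuous hKc hKi (hg.pow 2)
    have i2 : Integrable (fun x => (A + κ) * g x) (uniformProbOn K) :=
      (integrable_of_continuous hKc hKi hg).const_mul _
    rw [e1, integral_add i1 i2, integral_const_mul, hg0]
    simp [hQ]
  rw [h7] at hK1
  have hQ0 : 0 ≤ Q := integral_nonneg fun x => sq_nonneg _
  have hD0 : 0 ≤ D := Real.sqrt_nonneg _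
  have hDsq : D ^ 2 = ∑ i, m i * ‖z i - y i‖ ^ 2 := by
    rw [hD, Real.sq_sqrt]
    exact Finset.sum_nonneg fun i _ => mul_nonneg (hm i).le (sq_nonneg _)
  rw [← hDsq]
  have hsq : √Q ≤ 1000 * R * D := by
    rcases eq_or_lt_of_le (Real.sqrt_nonneg Q) with h0 | h0
    · rw [← h0]; positivity
    · have e : Q = √Q * √Q := (Real.mul_self_sqrt hQ0).symm
      rw [e] at hK1
      have : √Q * √Q ≤ (1000 * R * D) * √Q := by
        rw [Real.sqrt_mul_self h0.le] at hK1
        linarith
      exact le_of_mul_le_mul_right this h0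
  calc Q = √Q ^ 2 := (Real.sq_sqrt hQ0).symm
    _ ≤ (1000 * R * D) ^ 2 := by gcongr
    _ = _ := by ring

theorem potStab (hPL : PrekopaLeindler) (hSD : SemidiscreteExists) : PotStab := by
  intro d K hKc hKv hKi R hR hKR N y z hy hz m hm hm1 c c' hc hc'
  have hN : 0 < N := by
    rcases Nat.eq_zero_or_pos N with rfl | h
    · simp at hm1
    · exact h
  exact ⟨_, potStab_aux hPL hSD hKc hKv hKi hR (fun x hx => by simpa using hKR hx) hN y z hy hz
    m hm hm1 c c' hc hc' _ rfl⟩

end Crest.Agent.QT
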