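import Mathlib

/-! Covering ruled sets by sheared cylinders: common library for S0326, S0327, S0329. -/

set_option autoImplicit false
open MeasureTheory Set Metric
open scoped Pointwise

namespace Crest.Agent.RuledCover

abbrev E2 := EuclideanSpace ℝ (Fin 2)

/-- the closed parallelogram of half-size `r` centred at `q` in the basis `b` -/
def cell (b : Module.Basis (Fin 2) ℝ E2) (q : E2) (r : ℝ) : Set E2 :=
  {p | ∀ i, |b.coord i (p - q)| ≤ r}

lemma continuous_coord (b : Module.Basis (Fin 2) ℝ E2) (i : Fin 2) : Continuous (b.coord i) :=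
  LinearMap.continuous_of_finiteDimensional _

lemma sum_coord (b : Module.Basis (Fin 2) ℝ E2) (p : E2) : b.coord 0 p • b 0 + b.coord 1 p • b 1 = p := by
  have := b.sum_repr p
  rw [Fin.sum_univ_two] at this
  exact this

lemma norm_le_of_coord (b : Module.Basis (Fin 2) ℝ E2) (p : E2) (r : ℝ) (h : ∀ i, |b.coord i p| ≤ r) :
    ‖p‖ ≤ r * (‖b 0‖ + ‖b 1‖) := by
  rw [← sum_coord b p]
  refine (norm_add_le _ _).trans ?_
  rw [norm_smul, norm_smul, Real.norm_eq_abs, Real.norm_eq_abs, mul_add]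
  exact add_le_add (mul_le_mul_of_nonneg_right (h 0) (norm_nonneg _)) (mul_le_mul_of_nonneg_right (h 1) (norm_nonneg _))

lemma null_functional (f : E2 →ₗ[ℝ] ℝ) (hf : f ≠ 0) (c : ℝ) : volume {p : E2 | f p = c} = 0 := by
  by_cases h : ∃ p₀, f p₀ = c
  · obtain ⟨p₀, hp₀⟩ := h
    have h1 : {p : E2 | f p = c} = (fun p => p + (-p₀)) ⁻¹' (LinearMap.ker f : Set E2) := by
      ext p
      simp only [mem_ofPred_eq, mem_preimage, SetLike.mem_coe, LinearMap.mem_ker, map_add, map_neg, hp₀]
      constructor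
      · intro h; rw [h]; ring
      · intro h; linarith
    rw [h1, measure_preimage_add_right]
    apply Measure.addHaar_submodule
    rwa [Ne, LinearMap.ker_eq_top]
  · have : {p : E2 | f p = c} = ∅ := by
      ext p
      simp only [mem_ofPred_eq, mem_empty_iff_false, iff_false]
      exact fun hp => h ⟨p, hp⟩
    rw [this, measure_empty]

lemma coord_ne_zero (b : Module.Basis (Fin 2) ℝ E2) (i : Fin 2) : b.coord i ≠ 0 := by
  intro h
  have := congrArg (fun f => f (b i)) h
  simp at this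

lemma isClosed_cell (b : Module.Basis (Fin 2) ℝ E2) (q : E2) (r : ℝ) : IsClosed (cell b q r) := by
  have : cell b q r = ⋂ i, {p | |b.coord i (p - q)| ≤ r} := by
    ext p; simp [cell]
  rw [this]
  apply isClosed_iInter
  intro i
  exact isClosed_le ((continuous_coord b i).comp (continuous_id.sub continuous_const)).abs continuous_const

lemma cell_subset_closedBall (b : Module.Basis (Fin 2) ℝ E2) (q : E2) (r : ℝ) :
    cell b q r ⊆ closedBall q (r * (‖b 0‖ + ‖b 1‖)) := by
  intro p hp
  rw [mem_closedBall, dist_eq_norm]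
  exact norm_le_of_coord b _ r hp

lemma isCompact_cell (b : Module.Basis (Fin 2) ℝ E2) (q : E2) (r : ℝ) : IsCompact (cell b q r) :=
  (isCompact_closedBall q _).of_isClosed_subset (isClosed_cell b q r) (cell_subset_closedBall b q r)

lemma volume_cell (b : Module.Basis (Fin 2) ℝ E2) (q : E2) (r : ℝ) :
    volume (cell b q r) = volume (cell b 0 r) := by
  have : cell b q r = (fun p => p + (-q)) ⁻¹' (cell b 0 r) := by
    ext p; simp [cell, sub_eq_add_neg]
  rw [this, measure_preimage_add_right]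

lemma volume_cell_smul (b : Module.Basis (Fin 2) ℝ E2) (r t : ℝ) (ht : 0 < t) :
    volume (cell b 0 (t * r)) = ENNReal.ofReal (t ^ 2) * volume (cell b 0 r) := by
  have : cell b 0 (t * r) = t • cell b 0 r := by
    ext p
    rw [Set.mem_smul_set_iff_inv_smul_mem₀ ht.ne']
    simp only [cell, sub_zero, mem_ofPred_eq, map_smul, smul_eq_mul, abs_mul, abs_inv, abs_of_pos ht]
    refine forall_congr' fun i => ?_
    rw [inv_mul_le_iff₀ ht]
  rw [this, Measure.addHaar_smul]
  simp

/-- **Grid lemma**: a compact set is covered by finitely many small translates of a parallelogram, of total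
area at most the area of the set plus `ε`. -/
theorem grid_cover (b : Module.Basis (Fin 2) ℝ E2) (K : Set E2) (hK : IsCompact K) (ρ ε : ℝ)
    (hρ : 0 < ρ) (hε : 0 < ε) :
    ∃ (r : ℝ) (s : Finset (Fin 2 → ℤ)) (q : (Fin 2 → ℤ) → E2), 0 < r ∧ r ≤ ρ ∧
      (K ⊆ ⋃ z ∈ s, cell b (q z) r) ∧ (∀ z ∈ s, cell b (q z) r ⊆ cthickening ρ K) ∧
      s.card * (volume (cell b 0 r)).toReal ≤ (volume K).toReal + ε := by
  classical
  set S : ℝ := ‖b 0‖ + ‖b 1‖ with hS
  have hS0 : 0 < S := by
    have h0 : 0 < ‖b 0‖ := norm_pos_iff.mpr (b.ne_zero 0)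
    have h1 : 0 ≤ ‖b 1‖ := norm_nonneg _
    linarith
  -- choose the thickening
  have hKtop : volume K ≠ ⊤ := hK.measure_lt_top.ne
  have htend := tendsto_measure_cthickening_of_isCompact (μ := (volume : Measure E2)) hK
  have hlt : volume K < volume K + ENNReal.ofReal ε :=
    ENNReal.lt_add_right hKtop (by simpa using hε)
  have hev := htend.eventually_lt_const hlt
  obtain ⟨d, hd, hdball⟩ := Metric.eventually_nhds_iff.mp hev
  set ρ' : ℝ := min ρ (d / 2) with hρ'
  have hρ'0 : 0 < ρ' := lt_min hρ (half_pos hd)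
  have hvol : volume (cthickening ρ' K) < volume K + ENNReal.ofReal ε := by
    apply hdball
    rw [Real.dist_eq, sub_zero, abs_of_pos hρ'0]
    exact lt_of_le_of_lt (min_le_right _ _) (by linarith)
  set r : ℝ := min ρ (ρ' / (2 * S)) with hr
  have hr0 : 0 < r := lt_min hρ (by positivity)
  have hrS : 2 * r * S ≤ ρ' := by
    have : r ≤ ρ' / (2 * S) := min_le_right _ _
    rw [le_div_iff₀ (by positivity)] at this
    linarith
  set q : (Fin 2 → ℤ) → E2 := fun z => ((2 * (z 0 : ℝ) + 1) * r) • b 0 + ((2 * (z 1 : ℝ) + 1) * r) • b 1 with hq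
  have hqc : ∀ z i, b.coord i (q z) = (2 * (z i : ℝ) + 1) * r := by
    intro z i
    fin_cases i <;> simp [hq]
  -- bound on the coordinates
  have hbd : ∀ i, ∃ C, ∀ p ∈ K, ‖b.coord i p‖ ≤ C := fun i =>
    hK.exists_bound_of_continuousOn (continuous_coord b i).continuousOn
  choose C hC using hbd
  obtain ⟨N, hN⟩ : ∃ N : ℕ, ∀ i, C i / (2 * r) + 1 ≤ N := by
    obtain ⟨N0, hN0⟩ := exists_nat_ge (C 0 / (2 * r) + 1)
    obtain ⟨N1, hN1⟩ := exists_nat_ge (C 1 / (2 * r) + 1)
    refine ⟨max N0 N1, fun i => ?_⟩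
    fin_cases i
    · exact hN0.trans (by exact_mod_cast le_max_left _ _)
    · exact hN1.trans (by exact_mod_cast le_max_right _ _)
  set s : Finset (Fin 2 → ℤ) := (Fintype.piFinset fun _ : Fin 2 => Finset.Icc (-(N : ℤ)) N).filter
    (fun z => (cell b (q z) r ∩ K).Nonempty) with hs
  have hcov : K ⊆ ⋃ z ∈ s, cell b (q z) r := by
    intro p hp
    set z : Fin 2 → ℤ := fun i => ⌊b.coord i p / (2 * r)⌋ with hz
    have hpz : p ∈ cell b (q z) r := by
      intro i
      rw [map_sub, hqc]
      have h1 := Int.floor_le (b.coord i p / (2 * r))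
      have h2 := (Int.lt_floor_add_one (b.coord i p / (2 * r))).le
      rw [le_div_iff₀ (by positivity)] at h1
      rw [div_le_iff₀ (by positivity)] at h2
      rw [abs_le]
      simp only [hz]
      constructor <;> nlinarith
    have hzs : z ∈ s := by
      rw [hs, Finset.mem_filter]
      refine ⟨?_, ⟨p, hpz, hp⟩⟩
      rw [Fintype.mem_piFinset]
      intro i
      rw [Finset.mem_Icc]
      have hb := hC i p hp
      rw [Real.norm_eq_abs, abs_le] at hb
      have hNi := hN i
      have h3 : |b.coord i p / (2 * r)| ≤ C i / (2 * r) := by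
        rw [abs_div, abs_of_pos (show 0 < 2 * r by positivity)]
        apply div_le_div_of_nonneg_right _ (by positivity)
        rw [abs_le]; exact hb
      rw [abs_le] at h3
      constructor
      · simp only [hz]
        rw [Int.le_floor]
        push_cast
        linarith [h3.1]
      · simp only [hz]
        have : (⌊b.coord i p / (2 * r)⌋ : ℝ) ≤ N := (Int.floor_le _).trans (by linarith [h3.2])
        exact_mod_cast this
    exact mem_biUnion hzs hpz
  have hsub : ∀ z ∈ s, cell b (q z) r ⊆ cthickening ρ' K := by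
    intro z hz p hp
    rw [hs, Finset.mem_filter] at hz
    obtain ⟨p', hp', hp'K⟩ := hz.2
    apply mem_cthickening_of_dist_le p p' ρ' K hp'K
    rw [dist_eq_norm]
    have : ∀ i, |b.coord i (p - p')| ≤ 2 * r := by
      intro i
      have h1 := hp i
      have h2 := hp' i
      rw [map_sub, abs_le] at h1 h2
      rw [map_sub, abs_le]
      constructor <;> linarith [h1.1, h1.2, h2.1, h2.2]
    exact (norm_le_of_coord b _ _ this).trans hrS
  refine ⟨r, s, q, hr0, min_le_left _ _, hcov, fun z hz => (hsub z hz).trans (cthickening_mono (min_le_left _ _) K), ?_⟩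
  -- measure
  have hdisj : ((s : Set (Fin 2 → ℤ))).Pairwise (Function.onFun (AEDisjoint volume) fun z => cell b (q z) r) := by
    have key : ∀ z z' : Fin 2 → ℤ, ∀ i, z i < z' i → volume (cell b (q z) r ∩ cell b (q z') r) = 0 := by
      intro z z' i hi
      refine measure_mono_null ?_ (null_functional (b.coord i) (coord_ne_zero b i) (2 * (z' i : ℝ) * r))
      rintro p ⟨h1, h2⟩
      have h1 := h1 i
      have h2 := h2 i
      rw [map_sub, hqc, abs_le] at h1 h2
      have hi' : (z i : ℝ) + 1 ≤ z' i := by exact_mod_cast hi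
      simp only [mem_ofPred_eq]
      nlinarith [h1.1, h1.2, h2.1, h2.2]
    intro z _ z' _ hne
    obtain ⟨i, hi⟩ := Function.ne_iff.mp hne
    rcases lt_or_gt_of_ne hi with h | h
    · exact key z z' i h
    · show volume (cell b (q z) r ∩ cell b (q z') r) = 0
      rw [inter_comm]
      exact key z' z i h
  have hmeas := measure_biUnion_finset₀ hdisj (fun z _ => (isClosed_cell b (q z) r).measurableSet.nullMeasurableSet)
  have hle : volume (⋃ z ∈ s, cell b (q z) r) ≤ volume K + ENNReal.ofReal ε :=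
    (measure_mono (iUnion₂_subset hsub)).trans hvol.le
  rw [hmeas] at hle
  simp_rw [volume_cell b (q _) r] at hle
  rw [Finset.sum_const, nsmul_eq_mul] at hle
  have := ENNReal.toReal_mono (by simp [hKtop]) hle
  rw [ENNReal.toReal_mul, ENNReal.toReal_add hKtop (by simp), ENNReal.toReal_ofReal hε.le] at this
  simpa using this


/-! ### Linear algebra -/

lemma sq_apply (M : E2 →ₗ[ℝ] E2) (htr : LinearMap.trace ℝ _ M = 0) (x : E2) :
    M (M x) = (-LinearMap.det M) • x := by
  have h1 : M.charpoly = Polynomial.X ^ 2 + Polynomial.C (LinearMap.det M) := by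
    set b := (EuclideanSpace.basisFun (Fin 2) ℝ).toBasis
    rw [← LinearMap.charpoly_toMatrix M b, Matrix.charpoly_fin_two, ← LinearMap.trace_eq_matrix_trace,
      htr, LinearMap.det_toMatrix]
    simp
  have h2 := LinearMap.aeval_self_charpoly M
  rw [h1] at h2
  have h3 := congrArg (fun f : E2 →ₗ[ℝ] E2 => f x) h2
  simp only [map_add, map_pow, Polynomial.aeval_X, Polynomial.aeval_C, LinearMap.add_apply,
    LinearMap.zero_apply, Module.algebraMap_end_apply] at h3
  rw [pow_two, Module.End.mul_apply] at h3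
  rw [neg_smul, eq_neg_iff_add_eq_zero]
  exact h3

lemma exists_basis_pair (v w : E2) (h : ∀ s t : ℝ, s • v + t • w = 0 → s = 0 ∧ t = 0) :
    ∃ b : Module.Basis (Fin 2) ℝ E2, b 0 = v ∧ b 1 = w := by
  have hli : LinearIndependent ℝ ![v, w] := LinearIndependent.pair_iff.mpr h
  have hcard : Fintype.card (Fin 2) = Module.finrank ℝ E2 := by simp
  refine ⟨basisOfLinearIndependentOfCardEqFinrank hli hcard, ?_, ?_⟩
  · simp
  · simp

lemma coord_eq_of (b : Module.Basis (Fin 2) ℝ E2) (x y : ℝ) :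
    b.coord 0 (x • b 0 + y • b 1) = x ∧ b.coord 1 (x • b 0 + y • b 1) = y := by
  constructor <;> simp

lemma exists_good_basis (M : E2 →ₗ[ℝ] E2) (htr : LinearMap.trace ℝ _ M = 0) (L : ℝ) (hL : 0 < L)
    (hdet : -(L ^ 2)⁻¹ < LinearMap.det M ∧ LinearMap.det M ≤ 0) (η : ℝ) (hη : 0 < η) :
    ∃ (b : Module.Basis (Fin 2) ℝ E2) (μ : ℝ), 0 ≤ μ ∧ μ * L ≤ 1 ∧
      ∀ (x : E2) (m : ℝ), (∀ k, |b.coord k x| ≤ m) →
        |b.coord 0 (M x) - (-μ) * b.coord 0 x| ≤ η * m ∧ |b.coord 1 (M x) - μ * b.coord 1 x| ≤ η * m := by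
  have hsq := sq_apply M htr
  rcases lt_or_eq_of_le hdet.2 with hneg | hzero
  · -- hyperbolic case
    set μ : ℝ := Real.sqrt (-LinearMap.det M) with hμ
    have hμ0 : 0 < μ := Real.sqrt_pos.mpr (by linarith)
    have hμ2 : μ ^ 2 = -LinearMap.det M := Real.sq_sqrt (by linarith)
    have hμL : μ * L ≤ 1 := by
      have h1 : μ ^ 2 < (L ^ 2)⁻¹ := by rw [hμ2]; linarith [hdet.1]
      have h2 : (μ * L) ^ 2 < 1 := by
        rw [mul_pow]
        calc μ ^ 2 * L ^ 2 < (L ^ 2)⁻¹ * L ^ 2 := by
              apply mul_lt_mul_of_pos_right h1 (by positivity)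
          _ = 1 := inv_mul_cancel₀ (by positivity)
      nlinarith [mul_pos hμ0 hL]
    have hMM : ∀ x, M (M x) = (μ ^ 2) • x := by intro x; rw [hsq, hμ2]
    have hnz : ∀ τ : ℝ, τ ^ 2 = μ ^ 2 → ∃ u, M u + τ • u ≠ 0 := by
      intro τ hτ
      by_contra hcon
      push Not at hcon
      have hM : M = (-τ) • LinearMap.id := by
        ext1 u
        have := hcon u
        rw [LinearMap.smul_apply, LinearMap.id_apply, neg_smul]
        exact eq_neg_of_add_eq_zero_left this
      rw [hM, map_smul, LinearMap.trace_id] at htr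
      simp at htr
      rw [htr] at hτ
      have : 0 < μ ^ 2 := by positivity
      simp at hτ
      linarith
    obtain ⟨u1, hu1⟩ := hnz (-μ) (by ring)
    obtain ⟨u2, hu2⟩ := hnz μ rfl
    set v1 : E2 := M u1 + (-μ) • u1 with hv1
    set v2 : E2 := M u2 + μ • u2 with hv2
    have hMv1 : M v1 = (-μ) • v1 := by
      rw [hv1, map_add, map_smul, hMM]; module
    have hMv2 : M v2 = μ • v2 := by
      rw [hv2, map_add, map_smul, hMM]; module
    obtain ⟨b, hb0, hb1⟩ := exists_basis_pair v1 v2 (by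
      intro s t hst
      have h1 := congrArg M hst
      rw [map_add, map_smul, map_smul, hMv1, hMv2, map_zero] at h1
      have h2 : (2 * μ * t) • v2 = 0 := by
        have : (2 * μ * t) • v2 = (s • -μ • v1 + t • μ • v2) + μ • (s • v1 + t • v2) := by module
        rw [this, h1, hst]; simp
      have h3 : (2 * μ * s) • v1 = 0 := by
        have : (2 * μ * s) • v1 = μ • (s • v1 + t • v2) - (s • -μ • v1 + t • μ • v2) := by module
        rw [this, h1, hst]; simp
      rw [smul_eq_zero] at h2 h3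
      constructor
      · rcases h3 with h | h
        · have : (2 * μ) ≠ 0 := by positivity
          exact (mul_eq_zero.mp h).resolve_left this
        · exact absurd h hu1
      · rcases h2 with h | h
        · have : (2 * μ) ≠ 0 := by positivity
          exact (mul_eq_zero.mp h).resolve_left this
        · exact absurd h hu2)
    refine ⟨b, μ, hμ0.le, hμL, ?_⟩
    intro x m hx
    have hm : 0 ≤ m := (abs_nonneg _).trans (hx 0)
    have hMx : M x = (-μ * b.coord 0 x) • b 0 + (μ * b.coord 1 x) • b 1 := by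
      conv_lhs => rw [← sum_coord b x]
      rw [map_add, map_smul, map_smul, hb0, hb1, hMv1, hMv2]
      module
    rw [hMx, (coord_eq_of b _ _).1, (coord_eq_of b _ _).2]
    constructor
    · simp; positivity
    · simp; positivity
  · -- nilpotent case
    have hMM : ∀ x, M (M x) = 0 := by intro x; rw [hsq, hzero]; simp
    by_cases hM0 : M = 0
    · refine ⟨(EuclideanSpace.basisFun (Fin 2) ℝ).toBasis, 0, le_rfl, by simp, ?_⟩
      intro x m hx
      have hm : 0 ≤ m := (abs_nonneg _).trans (hx 0)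
      rw [hM0]
      simp
      positivity
    · obtain ⟨u, hu⟩ : ∃ u, M u ≠ 0 := by
        by_contra hcon
        push Not at hcon
        exact hM0 (LinearMap.ext hcon)
      obtain ⟨b, hb0, hb1⟩ := exists_basis_pair (M u) (η • u) (by
        intro s t hst
        have h1 := congrArg M hst
        rw [map_add, map_smul, map_smul, map_smul, hMM, map_zero, smul_zero, zero_add, smul_smul, smul_eq_zero] at h1
        have ht : t = 0 := by
          rcases h1 with h | h
          · exact (mul_eq_zero.mp h).resolve_right hη.ne'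
          · exact absurd h hu
        rw [ht, zero_smul, add_zero, smul_eq_zero] at hst
        exact ⟨hst.resolve_right hu, ht⟩)
      refine ⟨b, 0, le_rfl, by simp, ?_⟩
      intro x m hx
      have hm : 0 ≤ m := (abs_nonneg _).trans (hx 0)
      have hMx : M x = (η * b.coord 1 x) • b 0 + (0 : ℝ) • b 1 := by
        conv_lhs => rw [← sum_coord b x]
        rw [map_add, map_smul, map_smul, hb0, hb1, hMM, map_smul]
        module
      rw [hMx, (coord_eq_of b _ _).1, (coord_eq_of b _ _).2]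
      constructor
      · rw [neg_zero, zero_mul, sub_zero, abs_mul, abs_of_pos hη]
        exact mul_le_mul_of_nonneg_left (hx 1) hη.le
      · simp; positivity

/-! ### The four triangles of a parallelogram -/

/-- the triangle of the parallelogram adjacent to the edge `σ x_i = r` -/
def tri (b : Module.Basis (Fin 2) ℝ E2) (q : E2) (i : Fin 2) (σ r : ℝ) : Set E2 :=
  {p | (∀ k, |b.coord k (p - q)| ≤ σ * b.coord i (p - q)) ∧ σ * b.coord i (p - q) ≤ r}

lemma tri_subset_cell (b : Module.Basis (Fin 2) ℝ E2) (q : E2) (i : Fin 2) (σ r : ℝ) :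
    tri b q i σ r ⊆ cell b q r := fun _ hp k => (hp.1 k).trans hp.2

lemma isClosed_tri (b : Module.Basis (Fin 2) ℝ E2) (q : E2) (i : Fin 2) (σ r : ℝ) :
    IsClosed (tri b q i σ r) := by
  have hc : ∀ k, Continuous fun p : E2 => b.coord k (p - q) := fun k =>
    (continuous_coord b k).comp (continuous_id.sub continuous_const)
  have : tri b q i σ r = (⋂ k, {p | |b.coord k (p - q)| ≤ σ * b.coord i (p - q)}) ∩
      {p | σ * b.coord i (p - q) ≤ r} := by
    ext p; simp [tri]
  rw [this]
  apply IsClosed.inter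
  · apply isClosed_iInter
    intro k
    exact isClosed_le (hc k).abs (continuous_const.mul (hc i))
  · exact isClosed_le (continuous_const.mul (hc i)) continuous_const

lemma isCompact_tri (b : Module.Basis (Fin 2) ℝ E2) (q : E2) (i : Fin 2) (σ r : ℝ) :
    IsCompact (tri b q i σ r) :=
  (isCompact_cell b q r).of_isClosed_subset (isClosed_tri b q i σ r) (tri_subset_cell b q i σ r)

/-- sign -/
def sg (s : Bool) : ℝ := if s then 1 else -1

lemma four_aux (f : Fin 2 → ℝ) {j j' : Fin 2 × Bool} (hne : j ≠ j')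
    (h1 : ∀ k, |f k| ≤ sg j.2 * f j.1) (h2 : ∀ k, |f k| ≤ sg j'.2 * f j'.1) :
    f 0 = 0 ∨ f 1 = 0 ∨ f 0 + f 1 = 0 ∨ f 0 - f 1 = 0 := by
  have a0 := h1 0
  have a1 := h1 1
  have c0 := h2 0
  have c1 := h2 1
  rw [abs_le] at a0 a1 c0 c1
  obtain ⟨i, s⟩ := j
  obtain ⟨i', s'⟩ := j'
  fin_cases i <;> fin_cases i' <;> cases s <;> cases s' <;> simp [sg] at hne a0 a1 c0 c1 ⊢ <;>
    first
      | (left; linarith)
      | (right; left; linarith)
      | (right; right; left; linarith)
      | (right; right; right; linarith)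

lemma sum_tri_le (b : Module.Basis (Fin 2) ℝ E2) (q : E2) (r : ℝ) :
    ∑ j : Fin 2 × Bool, volume (tri b q j.1 (sg j.2) r) ≤ volume (cell b q r) := by
  classical
  have hdisj : (((Finset.univ : Finset (Fin 2 × Bool)) : Set (Fin 2 × Bool))).Pairwise
      (Function.onFun (AEDisjoint volume) fun j => tri b q j.1 (sg j.2) r) := by
    have tr : ∀ (f : E2 →ₗ[ℝ] ℝ), f ≠ 0 → volume {p : E2 | f (p - q) = 0} = 0 := by
      intro f hf
      have := null_functional f hf (f q)
      convert this using 2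
      ext p
      simp only [mem_ofPred_eq, map_sub, sub_eq_zero]
    have hsum : b.coord 0 + b.coord 1 ≠ 0 := by
      intro h
      have := congrArg (fun f => f (b 0)) h
      simp at this
    have hdif : b.coord 0 - b.coord 1 ≠ 0 := by
      intro h
      have := congrArg (fun f => f (b 0)) h
      simp at this
    have hnull : volume ({p : E2 | b.coord 0 (p - q) = 0} ∪ {p : E2 | b.coord 1 (p - q) = 0} ∪
      {p : E2 | (b.coord 0 + b.coord 1) (p - q) = 0} ∪ {p : E2 | (b.coord 0 - b.coord 1) (p - q) = 0}) = 0 := by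
      rw [measure_union_null_iff, measure_union_null_iff, measure_union_null_iff]
      exact ⟨⟨⟨tr _ (coord_ne_zero b 0), tr _ (coord_ne_zero b 1)⟩, tr _ hsum⟩, tr _ hdif⟩
    intro j _ j' _ hne
    refine measure_mono_null ?_ hnull
    rintro p ⟨⟨h1, -⟩, ⟨h2, -⟩⟩
    simp only [mem_union, mem_ofPred_eq, LinearMap.add_apply, LinearMap.sub_apply]
    rcases four_aux (fun k => b.coord k (p - q)) hne h1 h2 with h | h | h | h
    · exact Or.inl (Or.inl (Or.inl h))
    · exact Or.inl (Or.inl (Or.inr h))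
    · exact Or.inl (Or.inr h)
    · exact Or.inr h
  have hmeas := measure_biUnion_finset₀ hdisj
    (fun j _ => (isClosed_tri b q j.1 (sg j.2) r).measurableSet.nullMeasurableSet)
  rw [← hmeas]
  exact measure_mono (iUnion₂_subset fun j _ => tri_subset_cell b q j.1 (sg j.2) r)


/-! ### Covers with compact bases -/

/-- the weight of a velocity -/
noncomputable def J (h : ℝ) (g : E2) : ℝ := 1 / Real.sqrt (1 + (g 0) ^ 2 + h ^ 2 * (g 1) ^ 2)

lemma J_arg_pos (h : ℝ) (g : E2) : 0 < 1 + (g 0) ^ 2 + h ^ 2 * (g 1) ^ 2 := by positivity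

lemma J_pos (h : ℝ) (g : E2) : 0 < J h g := by
  have := Real.sqrt_pos.mpr (J_arg_pos h g)
  unfold J; positivity

lemma J_le_one (h : ℝ) (g : E2) : J h g ≤ 1 := by
  unfold J
  rw [div_le_one (Real.sqrt_pos.mpr (J_arg_pos h g))]
  rw [Real.one_le_sqrt]
  nlinarith [sq_nonneg (g 0), mul_nonneg (sq_nonneg h) (sq_nonneg (g 1))]

lemma continuous_J (h : ℝ) : Continuous (J h) := by
  unfold J
  apply Continuous.div continuous_const
  · apply Real.continuous_sqrt.comp
    fun_prop
  · intro g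
    exact (Real.sqrt_pos.mpr (J_arg_pos h g)).ne'

/-- `E` is covered by finitely many sheared cylinders with compact bases of total cost at most `c`. -/
def Cov (h : ℝ) (E : Set (ℝ × E2)) (c : ℝ) : Prop :=
  ∃ l : List (Set E2 × E2), (∀ x ∈ l, IsCompact x.1) ∧ (∀ z ∈ E, ∃ x ∈ l, z.2 - z.1 • x.2 ∈ x.1) ∧
    (l.map (fun x => (volume x.1).toReal * J h x.2)).sum ≤ c

lemma Cov.mono {h : ℝ} {E E' : Set (ℝ × E2)} {c c' : ℝ} (H : Cov h E c) (hE : E' ⊆ E) (hc : c ≤ c') :
    Cov h E' c' := by
  obtain ⟨l, h1, h2, h3⟩ := H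
  exact ⟨l, h1, fun z hz => h2 z (hE hz), h3.trans hc⟩

lemma Cov.union {h : ℝ} {E E' : Set (ℝ × E2)} {c c' : ℝ} (H : Cov h E c) (H' : Cov h E' c') :
    Cov h (E ∪ E') (c + c') := by
  obtain ⟨l, h1, h2, h3⟩ := H
  obtain ⟨l', h1', h2', h3'⟩ := H'
  refine ⟨l ++ l', ?_, ?_, ?_⟩
  · intro x hx
    rcases List.mem_append.mp hx with hx | hx
    · exact h1 x hx
    · exact h1' x hx
  · intro z hz
    rcases hz with hz | hz
    · obtain ⟨x, hx, hxz⟩ := h2 z hz
      exact ⟨x, List.mem_append_left _ hx, hxz⟩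
    · obtain ⟨x, hx, hxz⟩ := h2' z hz
      exact ⟨x, List.mem_append_right _ hx, hxz⟩
  · rw [List.map_append, List.sum_append]
    exact add_le_add h3 h3'

lemma Cov.empty (h : ℝ) : Cov h ∅ 0 := ⟨[], by simp, by simp, by simp⟩

lemma Cov.biUnion {h : ℝ} {ι : Type*} (s : Finset ι) (E : ι → Set (ℝ × E2)) (c : ι → ℝ)
    (H : ∀ i ∈ s, Cov h (E i) (c i)) : Cov h (⋃ i ∈ s, E i) (∑ i ∈ s, c i) := by
  classical
  induction s using Finset.induction_on with
  | empty => simpa using Cov.empty h
  | insert a s ha ih =>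
    rw [Finset.sum_insert ha, Finset.set_biUnion_insert]
    exact (H a (Finset.mem_insert_self a s)).union (ih fun i hi => H i (Finset.mem_insert_of_mem hi))

/-- the ruled set over `K` -/
def ruled (V : E2 → E2) (L : ℝ) (K : Set E2) : Set (ℝ × E2) := {z | ∃ p ∈ K, |z.1| ≤ L ∧ z.2 = p + z.1 • V p}

lemma ruled_mono (V : E2 → E2) (L : ℝ) {K K' : Set E2} (hK : K ⊆ K') : ruled V L K ⊆ ruled V L K' := by
  rintro z ⟨p, hp, h⟩
  exact ⟨p, hK hp, h⟩

/-- velocity of the triangle `(i,σ)` -/
noncomputable def vel (b : Module.Basis (Fin 2) ℝ E2) (lam : Fin 2 → ℝ) (v₀ : E2) (r : ℝ) (j : Fin 2 × Bool) : E2 :=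
  v₀ + (sg j.2 * lam j.1 * r) • b j.1

lemma sg_sq (s : Bool) : sg s * sg s = 1 := by cases s <;> simp [sg]
lemma abs_sg (s : Bool) : |sg s| = 1 := by cases s <;> simp [sg]

lemma exists_sg (x : ℝ) : ∃ s : Bool, sg s * x = |x| := by
  rcases le_total 0 x with h | h
  · exact ⟨true, by simp [sg, abs_of_nonneg h]⟩
  · exact ⟨false, by simp [sg, abs_of_nonpos h]⟩

theorem tile_cover (h L κ r μ B : ℝ) (V : E2 → E2) (b : Module.Basis (Fin 2) ℝ E2) (q v₀ : E2) (K : Set E2)
    (hκ : 0 ≤ κ) (hL : 0 < L) (hμ : 0 ≤ μ) (hμL : μ * L ≤ 1)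
    (hK : ∀ p ∈ K, p ∈ cell b q r)
    (h0 : ∀ p ∈ K, |b.coord 0 (V p - v₀) - (-μ) * b.coord 0 (p - q)| ≤ κ * r)
    (h1 : ∀ p ∈ K, |b.coord 1 (V p - v₀) - μ * b.coord 1 (p - q)| ≤ κ * r)
    (hB : ∀ j, J h (vel b ![-μ, μ] v₀ r j) ≤ B) :
    Cov h (ruled V L K) ((1 + L * κ) ^ 2 * (volume (cell b 0 r)).toReal * B) := by
  classical
  set r' : ℝ := (1 + L * κ) * r with hr'
  set lam : Fin 2 → ℝ := ![-μ, μ] with hlam
  refine ⟨(Finset.univ : Finset (Fin 2 × Bool)).toList.map
    (fun j => (tri b q j.1 (sg j.2) r', vel b lam v₀ r j)), ?_, ?_, ?_⟩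
  · intro x hx
    rw [List.mem_map] at hx
    obtain ⟨j, -, rfl⟩ := hx
    exact isCompact_tri _ _ _ _ _
  · rintro ⟨s, ξ⟩ ⟨p, hp, hs, hz⟩
    simp only at hs hz
    suffices H : ∃ j : Fin 2 × Bool, ξ - s • vel b lam v₀ r j ∈ tri b q j.1 (sg j.2) r' by
      obtain ⟨j, hj⟩ := H
      refine ⟨_, List.mem_map.mpr ⟨j, by simp, rfl⟩, hj⟩
    -- coordinates
    set e0 : ℝ := b.coord 0 (V p - v₀) - (-μ) * b.coord 0 (p - q) with he0
    set e1 : ℝ := b.coord 1 (V p - v₀) - μ * b.coord 1 (p - q) with he1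
    set x0 : ℝ := b.coord 0 (p - q) with hx0
    set x1 : ℝ := b.coord 1 (p - q) with hx1
    have hb0 : |x0| ≤ r := hK p hp 0
    have hb1 : |x1| ≤ r := hK p hp 1
    have hE0 : |e0| ≤ κ * r := h0 p hp
    have hE1 : |e1| ≤ κ * r := h1 p hp
    set X0 : ℝ := x0 * (1 - s * μ) + s * e0 with hX0
    set X1 : ℝ := x1 * (1 + s * μ) + s * e1 with hX1
    have hsμ : |s * μ| ≤ 1 := by
      rw [abs_mul, abs_of_nonneg hμ]
      calc |s| * μ ≤ L * μ := mul_le_mul_of_nonneg_right hs hμ
        _ ≤ 1 := by linarith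
    rw [abs_le] at hsμ
    have hse : ∀ e : ℝ, |e| ≤ κ * r → |s * e| ≤ L * κ * r := by
      intro e he
      rw [abs_mul]
      calc |s| * |e| ≤ L * (κ * r) := mul_le_mul hs he (abs_nonneg _) hL.le
        _ = _ := by ring
    have hX0b : |X0| ≤ (1 - s * μ) * r + L * κ * r := by
      rw [hX0]
      refine (abs_add_le _ _).trans (add_le_add ?_ (hse _ hE0))
      rw [abs_mul, abs_of_nonneg (by linarith : 0 ≤ 1 - s * μ), mul_comm]
      exact mul_le_mul_of_nonneg_left hb0 (by linarith)
    have hX1b : |X1| ≤ (1 + s * μ) * r + L * κ * r := by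
      rw [hX1]
      refine (abs_add_le _ _).trans (add_le_add ?_ (hse _ hE1))
      rw [abs_mul, abs_of_nonneg (by linarith : 0 ≤ 1 + s * μ), mul_comm]
      exact mul_le_mul_of_nonneg_left hb1 (by linarith)
    have hc : ∀ j : Fin 2 × Bool, ∀ k, b.coord k (ξ - s • vel b lam v₀ r j - q) =
        b.coord k (p - q) + s * b.coord k (V p - v₀) - s * (sg j.2 * lam j.1 * r) * b.coord k (b j.1) := by
      intro j k
      have : ξ - s • vel b lam v₀ r j - q = (p - q) + s • (V p - v₀) - (s * (sg j.2 * lam j.1 * r)) • b j.1 := by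
        rw [hz, vel]; module
      rw [this, map_sub, map_add, map_smul, map_smul, smul_eq_mul, smul_eq_mul]
    have hV0 : b.coord 0 (p - q) + s * b.coord 0 (V p - v₀) = X0 := by
      rw [hX0, he0, ← hx0]; ring
    have hV1 : b.coord 1 (p - q) + s * b.coord 1 (V p - v₀) = X1 := by
      rw [hX1, he1, ← hx1]; ring
    have hr'b : r' = r + L * κ * r := by rw [hr']; ring
    by_cases hcase : |X0| ≤ |X1| - s * μ * r
    · obtain ⟨σ, hσ⟩ := exists_sg X1
      refine ⟨(1, σ), ?_⟩
      have c0 := hc (1, σ) 0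
      have c1 := hc (1, σ) 1
      rw [hV0] at c0
      rw [hV1] at c1
      simp only [hlam, Matrix.cons_val_one, Matrix.cons_val_zero] at c0 c1
      have e01 : b.coord 0 (b 1) = 0 := by simp
      have e11 : b.coord 1 (b 1) = 1 := by simp
      rw [e01, mul_zero, sub_zero] at c0
      rw [e11, mul_one] at c1
      have hY : sg σ * b.coord 1 (ξ - s • vel b lam v₀ r (1, σ) - q) = |X1| - s * μ * r := by
        rw [c1, mul_sub, hσ]
        have := sg_sq σ
        linear_combination (-(s * μ * r)) * this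
      have hYnn : 0 ≤ |X1| - s * μ * r := (abs_nonneg _).trans hcase
      refine ⟨?_, ?_⟩
      · intro k
        show |b.coord k (ξ - s • vel b lam v₀ r (1, σ) - q)| ≤ sg σ * b.coord 1 (ξ - s • vel b lam v₀ r (1, σ) - q)
        rw [hY]
        fin_cases k
        · show |b.coord 0 (ξ - s • vel b lam v₀ r (1, σ) - q)| ≤ _
          rw [c0]; exact hcase
        · show |b.coord 1 (ξ - s • vel b lam v₀ r (1, σ) - q)| ≤ _
          have : |b.coord 1 (ξ - s • vel b lam v₀ r (1, σ) - q)| = |sg σ * b.coord 1 (ξ - s • vel b lam v₀ r (1, σ) - q)| := by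
            rw [abs_mul, abs_sg, one_mul]
          rw [this, hY, abs_of_nonneg hYnn]
      · show sg σ * b.coord 1 (ξ - s • vel b lam v₀ r (1, σ) - q) ≤ r'
        rw [hY, hr'b]
        linarith
    · push Not at hcase
      have hcase' : |X1| ≤ |X0| + s * μ * r := by linarith
      obtain ⟨σ, hσ⟩ := exists_sg X0
      refine ⟨(0, σ), ?_⟩
      have c0 := hc (0, σ) 0
      have c1 := hc (0, σ) 1
      rw [hV0] at c0
      rw [hV1] at c1
      simp only [hlam, Matrix.cons_val_zero] at c0 c1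
      have e00 : b.coord 0 (b 0) = 1 := by simp
      have e10 : b.coord 1 (b 0) = 0 := by simp
      rw [e10, mul_zero, sub_zero] at c1
      rw [e00, mul_one] at c0
      have hY : sg σ * b.coord 0 (ξ - s • vel b lam v₀ r (0, σ) - q) = |X0| + s * μ * r := by
        rw [c0, mul_sub, hσ]
        have := sg_sq σ
        linear_combination (s * μ * r) * this
      have hYnn : 0 ≤ |X0| + s * μ * r := (abs_nonneg _).trans hcase'
      refine ⟨?_, ?_⟩
      · intro k
        show |b.coord k (ξ - s • vel b lam v₀ r (0, σ) - q)| ≤ sg σ * b.coord 0 (ξ - s • vel b lam v₀ r (0, σ) - q)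
        rw [hY]
        fin_cases k
        · show |b.coord 0 (ξ - s • vel b lam v₀ r (0, σ) - q)| ≤ _
          have : |b.coord 0 (ξ - s • vel b lam v₀ r (0, σ) - q)| = |sg σ * b.coord 0 (ξ - s • vel b lam v₀ r (0, σ) - q)| := by
            rw [abs_mul, abs_sg, one_mul]
          rw [this, hY, abs_of_nonneg hYnn]
        · show |b.coord 1 (ξ - s • vel b lam v₀ r (0, σ) - q)| ≤ _
          rw [c1]; exact hcase'
      · show sg σ * b.coord 0 (ξ - s • vel b lam v₀ r (0, σ) - q) ≤ r'
        rw [hY, hr'b]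
        linarith
  · rw [List.map_map]
    have e1 : ((Finset.univ : Finset (Fin 2 × Bool)).toList.map
        ((fun x : Set E2 × E2 => (volume x.1).toReal * J h x.2) ∘
          fun j => (tri b q j.1 (sg j.2) r', vel b lam v₀ r j))).sum
        = ∑ j : Fin 2 × Bool, (volume (tri b q j.1 (sg j.2) r')).toReal * J h (vel b lam v₀ r j) := by
      rw [Finset.sum_map_toList]
      rfl
    rw [e1]
    have hB0 : 0 ≤ B := (J_pos h _).le.trans (hB (0, true))
    have hfin : ∀ j : Fin 2 × Bool, volume (tri b q j.1 (sg j.2) r') ≠ ⊤ := fun j =>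
      (isCompact_tri _ _ _ _ _).measure_lt_top.ne
    have hκ' : 0 < 1 + L * κ := by positivity
    calc ∑ j : Fin 2 × Bool, (volume (tri b q j.1 (sg j.2) r')).toReal * J h (vel b lam v₀ r j)
        ≤ ∑ j : Fin 2 × Bool, (volume (tri b q j.1 (sg j.2) r')).toReal * B := by
          apply Finset.sum_le_sum
          intro j _
          exact mul_le_mul_of_nonneg_left (hB j) ENNReal.toReal_nonneg
      _ = (∑ j : Fin 2 × Bool, volume (tri b q j.1 (sg j.2) r')).toReal * B := by
          rw [← Finset.sum_mul, ENNReal.toReal_sum fun j _ => hfin j]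
      _ ≤ (volume (cell b q r')).toReal * B := by
          apply mul_le_mul_of_nonneg_right _ hB0
          exact ENNReal.toReal_mono (isCompact_cell _ _ _).measure_lt_top.ne (sum_tri_le b q r')
      _ = (1 + L * κ) ^ 2 * (volume (cell b 0 r)).toReal * B := by
          rw [volume_cell, hr', volume_cell_smul b r _ hκ', ENNReal.toReal_mul, ENNReal.toReal_ofReal (by positivity)]


/-! ### Local covering lemma -/

lemma strict_ball {V : E2 → E2} {M : E2 →L[ℝ] E2} {p₀ : E2} (hV : HasStrictFDerivAt V M p₀) (c : ℝ) (hc : 0 < c) :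
    ∃ δ > 0, ∀ x ∈ ball p₀ δ, ∀ y ∈ ball p₀ δ, ‖V x - V y - M (x - y)‖ ≤ c * ‖x - y‖ := by
  have h := hV.isLittleO.def hc
  rw [Metric.eventually_nhds_iff] at h
  obtain ⟨δ, hδ, hb⟩ := h
  refine ⟨δ, hδ, fun x hx y hy => ?_⟩
  have := hb (y := (x, y)) (by
    rw [Prod.dist_eq]
    exact max_lt hx hy)
  simpa using this

theorem local_cover (h L : ℝ) (hL : 0 < L) (V : E2 → E2) (M : E2 →L[ℝ] E2) (p₀ : E2)
    (hV : HasStrictFDerivAt V M p₀) (htr : LinearMap.trace ℝ _ M.toLinearMap = 0)
    (hdet : -(L ^ 2)⁻¹ < LinearMap.det M.toLinearMap ∧ LinearMap.det M.toLinearMap ≤ 0)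
    (η : ℝ) (hη : 0 < η) :
    ∃ δ > 0, ∀ K : Set E2, IsCompact K → K ⊆ closedBall p₀ δ → ContinuousOn V K → ∀ ε : ℝ, 0 < ε →
      Cov h (ruled V L K) ((∫ p in K, J h (V p)) + η * (volume K).toReal + ε) := by
  set η₃ : ℝ := min 1 (η / 4) with hη₃
  have hη₃0 : 0 < η₃ := lt_min one_pos (by positivity)
  have hη₃1 : η₃ ≤ 1 := min_le_left _ _
  have hη₃4 : 4 * η₃ ≤ η := by have := min_le_right 1 (η / 4); linarith
  set κ : ℝ := η₃ / (3 * L) with hκ
  have hκ0 : 0 < κ := by positivity
  have hLκ : L * κ = η₃ / 3 := by rw [hκ]; field_simp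
  obtain ⟨b, μ, hμ, hμL, hb⟩ := exists_good_basis M.toLinearMap htr L hL hdet (κ / 2) (by positivity)
  set S : ℝ := ‖b 0‖ + ‖b 1‖ with hS
  have hS0 : 0 < S := by
    have h0 : 0 < ‖b 0‖ := norm_pos_iff.mpr (b.ne_zero 0)
    have h1 : 0 ≤ ‖b 1‖ := norm_nonneg _
    linarith
  -- operator bound of the coordinates
  obtain ⟨C, hC0, hC⟩ : ∃ C : ℝ, 0 < C ∧ ∀ k x, |b.coord k x| ≤ C * ‖x‖ := by
    have hk : ∀ k, ∃ C : ℝ, 0 ≤ C ∧ ∀ x, |b.coord k x| ≤ C * ‖x‖ := by
      intro k
      refine ⟨‖(b.coord k).toContinuousLinearMap‖, norm_nonneg _, fun x => ?_⟩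
      have := (b.coord k).toContinuousLinearMap.le_opNorm x
      simpa using this
    obtain ⟨C0, hC0, h0⟩ := hk 0
    obtain ⟨C1, hC1, h1⟩ := hk 1
    refine ⟨C0 + C1 + 1, by positivity, fun k x => ?_⟩
    have hx := norm_nonneg x
    fin_cases k
    · exact (h0 x).trans (by nlinarith)
    · exact (h1 x).trans (by nlinarith)
  -- strict differentiability
  obtain ⟨δ₁, hδ₁, hstr⟩ := strict_ball hV (κ / (2 * C * S)) (by positivity)
  -- continuity of J
  have hJc : ContinuousAt (J h) (V p₀) := (continuous_J h).continuousAt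
  obtain ⟨δ₂, hδ₂, hJ⟩ := Metric.continuousAt_iff.mp hJc η₃ hη₃0
  obtain ⟨δ₃, hδ₃, hVc⟩ := Metric.continuousAt_iff.mp hV.continuousAt (δ₂ / 2) (by positivity)
  set δ : ℝ := min δ₁ δ₃ / 4 with hδ
  have hδ0 : 0 < δ := by have := lt_min hδ₁ hδ₃; positivity
  have hδ1 : 4 * δ ≤ δ₁ := by have := min_le_left δ₁ δ₃; linarith
  have hδ3 : 4 * δ ≤ δ₃ := by have := min_le_right δ₁ δ₃; linarith
  refine ⟨δ, hδ0, ?_⟩
  intro K hK hKb hVK ε hε
  set J₀ : ℝ := J h (V p₀) with hJ₀
  have hJ₀0 : 0 < J₀ := J_pos _ _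
  have hJ₀1 : J₀ ≤ 1 := J_le_one _ _
  set ρ : ℝ := min δ (δ₂ / (4 * (μ + 1) * S)) with hρ
  have hρ0 : 0 < ρ := lt_min hδ0 (by positivity)
  obtain ⟨r, s, q, hr0, hrρ, hcov, hsub, hcard⟩ := grid_cover b K hK ρ (ε / 4) hρ0 (by positivity)
  -- points of the cells
  have hnear : ∀ z ∈ s, ∀ p ∈ cell b (q z) r, p ∈ ball p₀ (4 * δ) := by
    intro z hz p hp
    have h1 : p ∈ cthickening ρ K := hsub z hz hp
    have h2 : p ∈ cthickening ρ (closedBall p₀ δ) := cthickening_subset_of_subset ρ hKb h1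
    have h3 := cthickening_closedBall hρ0.le hδ0.le p₀ ▸ h2
    rw [mem_closedBall] at h3
    rw [mem_ball]
    have : ρ ≤ δ := min_le_left _ _
    linarith
  have hqc : ∀ z, q z ∈ cell b (q z) r := by
    intro z i
    simp [hr0.le]
  have hcell : ∀ z ∈ s, Cov h (ruled V L (K ∩ cell b (q z) r))
      ((1 + L * κ) ^ 2 * (volume (cell b 0 r)).toReal * (J₀ + η₃)) := by
    intro z hz
    have hqball := hnear z hz (q z) (hqc z)
    have hVq : dist (V (q z)) (V p₀) < δ₂ / 2 := hVc (lt_of_lt_of_le (mem_ball.mp hqball) hδ3)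
    have hcoord : ∀ p ∈ K ∩ cell b (q z) r,
        |b.coord 0 (V p - V (q z)) - (-μ) * b.coord 0 (p - q z)| ≤ κ * r ∧
        |b.coord 1 (V p - V (q z)) - μ * b.coord 1 (p - q z)| ≤ κ * r := by
      rintro p ⟨-, hp⟩
      have hpball := hnear z hz p hp
      have h1 := hstr p (ball_subset_ball hδ1 hpball) (q z) (ball_subset_ball hδ1 hqball)
      have h2 : ‖p - q z‖ ≤ r * S := norm_le_of_coord b _ r hp
      have h3 : ‖V p - V (q z) - M (p - q z)‖ ≤ κ / (2 * C) * r := by
        refine h1.trans ?_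
        calc κ / (2 * C * S) * ‖p - q z‖ ≤ κ / (2 * C * S) * (r * S) := by
              apply mul_le_mul_of_nonneg_left h2 (by positivity)
          _ = κ / (2 * C) * r := by field_simp
      have h4 : ∀ k, |b.coord k (V p - V (q z) - M (p - q z))| ≤ κ / 2 * r := by
        intro k
        refine (hC k _).trans ?_
        calc C * ‖V p - V (q z) - M (p - q z)‖ ≤ C * (κ / (2 * C) * r) := by
              apply mul_le_mul_of_nonneg_left h3 hC0.le
          _ = κ / 2 * r := by field_simp
      obtain ⟨h5, h6⟩ := hb (p - q z) r hp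
      constructor
      · have : b.coord 0 (V p - V (q z)) - (-μ) * b.coord 0 (p - q z) =
            b.coord 0 (V p - V (q z) - M (p - q z)) + (b.coord 0 (M.toLinearMap (p - q z)) - (-μ) * b.coord 0 (p - q z)) := by
          rw [map_sub (b.coord 0) (V p - V (q z)) (M (p - q z))]
          simp only [ContinuousLinearMap.coe_coe]
          ring
        rw [this]
        refine (abs_add_le _ _).trans ?_
        have := h4 0
        linarith
      · have : b.coord 1 (V p - V (q z)) - μ * b.coord 1 (p - q z) =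
            b.coord 1 (V p - V (q z) - M (p - q z)) + (b.coord 1 (M.toLinearMap (p - q z)) - μ * b.coord 1 (p - q z)) := by
          rw [map_sub (b.coord 1) (V p - V (q z)) (M (p - q z))]
          simp only [ContinuousLinearMap.coe_coe]
          ring
        rw [this]
        refine (abs_add_le _ _).trans ?_
        have := h4 1
        linarith
    apply tile_cover h L κ r μ (J₀ + η₃) V b (q z) (V (q z)) (K ∩ cell b (q z) r) hκ0.le hL hμ hμL
      (fun p hp => hp.2) (fun p hp => (hcoord p hp).1) (fun p hp => (hcoord p hp).2)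
    intro j
    have hd : dist (vel b ![-μ, μ] (V (q z)) r j) (V p₀) < δ₂ := by
      have h1 : dist (vel b ![-μ, μ] (V (q z)) r j) (V (q z)) ≤ δ₂ / 4 := by
        rw [dist_eq_norm, vel, add_sub_cancel_left, norm_smul, Real.norm_eq_abs, abs_mul, abs_mul, abs_sg, one_mul,
          abs_of_pos hr0]
        have hlam : |(![-μ, μ] : Fin 2 → ℝ) j.1| ≤ μ + 1 := by
          obtain ⟨i, s⟩ := j
          fin_cases i
          · simp [abs_of_nonneg hμ]
          · simp [abs_of_nonneg hμ]
        have hbj : ‖b j.1‖ ≤ S := by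
          obtain ⟨i, s⟩ := j
          fin_cases i
          · exact le_add_of_nonneg_right (norm_nonneg _)
          · exact le_add_of_nonneg_left (norm_nonneg _)
        have hr4 : r ≤ δ₂ / (4 * (μ + 1) * S) := hrρ.trans (min_le_right _ _)
        calc |(![-μ, μ] : Fin 2 → ℝ) j.1| * r * ‖b j.1‖ ≤ (μ + 1) * (δ₂ / (4 * (μ + 1) * S)) * S := by
              apply mul_le_mul (mul_le_mul hlam hr4 hr0.le (by positivity)) hbj (norm_nonneg _)
              positivity
          _ = δ₂ / 4 := by
              field_simp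
      calc dist (vel b ![-μ, μ] (V (q z)) r j) (V p₀) ≤ dist (vel b ![-μ, μ] (V (q z)) r j) (V (q z)) + dist (V (q z)) (V p₀) :=
            dist_triangle _ _ _
        _ < δ₂ := by linarith
    have := hJ hd
    rw [Real.dist_eq, abs_lt] at this
    linarith [this.2]
  have hall := Cov.biUnion s _ _ hcell
  refine hall.mono ?_ ?_
  · rintro w ⟨p, hp, hw⟩
    have := hcov hp
    rw [mem_iUnion₂] at this
    obtain ⟨z, hz, hpz⟩ := this
    exact mem_biUnion hz ⟨p, ⟨hp, hpz⟩, hw⟩
  · rw [Finset.sum_const, nsmul_eq_mul]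
    have hI : (J₀ - η₃) * (volume K).toReal ≤ ∫ p in K, J h (V p) := by
      have hint : IntegrableOn (fun p => J h (V p)) K volume :=
        ContinuousOn.integrableOn_compact hK ((continuous_J h).comp_continuousOn hVK)
      have := setIntegral_ge_of_const_le (c := J₀ - η₃) hK.measurableSet hK.measure_lt_top.ne (fun p hp => by
        have hpd : dist p p₀ < δ₃ := by
          have := hKb hp
          rw [mem_closedBall] at this
          linarith
        have h1 := hVc hpd
        have h2 := hJ (lt_trans h1 (by linarith))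
        rw [Real.dist_eq, abs_lt] at h2
        show J₀ - η₃ ≤ J h (V p)
        linarith [h2.1]) hint
      rw [smul_eq_mul, mul_comm] at this
      exact this
    have hv0 : 0 ≤ (volume K).toReal := ENNReal.toReal_nonneg
    have ht : (1 + L * κ) ^ 2 ≤ 1 + η₃ := by rw [hLκ]; nlinarith
    have ht0 : 0 ≤ (1 + L * κ) ^ 2 := by positivity
    have hA : (1 + L * κ) ^ 2 * (J₀ + η₃) ≤ J₀ + 3 * η₃ := by nlinarith
    have hA4 : (1 + L * κ) ^ 2 * (J₀ + η₃) ≤ 4 := by nlinarith
    have hA0 : 0 ≤ (1 + L * κ) ^ 2 * (J₀ + η₃) := by positivity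
    calc (s.card : ℝ) * ((1 + L * κ) ^ 2 * (volume (cell b 0 r)).toReal * (J₀ + η₃))
        = ((1 + L * κ) ^ 2 * (J₀ + η₃)) * (s.card * (volume (cell b 0 r)).toReal) := by ring
      _ ≤ ((1 + L * κ) ^ 2 * (J₀ + η₃)) * ((volume K).toReal + ε / 4) := by
          apply mul_le_mul_of_nonneg_left hcard hA0
      _ = ((1 + L * κ) ^ 2 * (J₀ + η₃)) * (volume K).toReal + ((1 + L * κ) ^ 2 * (J₀ + η₃)) * (ε / 4) := by ring
      _ ≤ (J₀ + 3 * η₃) * (volume K).toReal + 4 * (ε / 4) := by
          apply add_le_add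
          · exact mul_le_mul_of_nonneg_right hA hv0
          · exact mul_le_mul_of_nonneg_right hA4 (by positivity)
      _ ≤ (∫ p in K, J h (V p)) + η * (volume K).toReal + ε := by nlinarith

/-! ### Global covering theorem -/

theorem global_cover (h L : ℝ) (hL : 0 < L) (D : Set E2) (hD : IsCompact D) (V : E2 → E2) (U : Set E2)
    (hU : IsOpen U) (hDU : D ⊆ U) (hV : ContDiffOn ℝ 1 V U)
    (htr : ∀ p ∈ D, LinearMap.trace ℝ _ (fderiv ℝ V p).toLinearMap = 0)
    (hdet : ∀ p ∈ D, -(L ^ 2)⁻¹ < LinearMap.det (fderiv ℝ V p).toLinearMap ∧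
      LinearMap.det (fderiv ℝ V p).toLinearMap ≤ 0) (ε : ℝ) (hε : 0 < ε) :
    Cov h (ruled V L D) ((∫ p in D, J h (V p)) + ε) := by
  classical
  set η : ℝ := ε / (2 * ((volume D).toReal + 1)) with hη
  have hvD : 0 ≤ (volume D).toReal := ENNReal.toReal_nonneg
  have hη0 : 0 < η := by positivity
  have hVc : ContinuousOn V D := hV.continuousOn.mono hDU
  have hloc : ∀ p₀ : E2, p₀ ∈ D → ∃ δ > 0, ∀ K : Set E2, IsCompact K → K ⊆ closedBall p₀ δ → ContinuousOn V K → ∀ ε : ℝ, 0 < ε →
      Cov h (ruled V L K) ((∫ p in K, J h (V p)) + η * (volume K).toReal + ε) := by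
    intro p₀ hp₀
    have hs : HasStrictFDerivAt V (fderiv ℝ V p₀) p₀ :=
      (hV.contDiffAt (hU.mem_nhds (hDU hp₀))).hasStrictFDerivAt (by norm_num)
    exact local_cover h L hL V _ p₀ hs (htr p₀ hp₀) (hdet p₀ hp₀) η hη0
  choose! δ hδ hcovδ using hloc
  obtain ⟨t, htD, ht⟩ := hD.elim_nhds_subcover (fun p => ball p (δ p)) (fun p hp => ball_mem_nhds p (hδ p hp))
  -- induction on the finite family of balls
  have key : ∀ (t : Finset E2), (∀ p ∈ t, p ∈ D) → ∀ K : Set E2, IsCompact K → K ⊆ D → K ⊆ ⋃ p ∈ t, ball p (δ p) →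
      ∀ ε : ℝ, 0 < ε → Cov h (ruled V L K) ((∫ p in K, J h (V p)) + η * (volume K).toReal + ε) := by
    intro t
    induction t using Finset.induction_on with
    | empty =>
      intro _ K _ _ hKt ε hε
      have hK0 : K = ∅ := by
        simpa using hKt
      rw [hK0]
      have : ruled V L (∅ : Set E2) = ∅ := by
        ext z; simp [ruled]
      rw [this]
      refine (Cov.empty h).mono subset_rfl ?_
      simp; exact hε.le
    | insert a t ha ih =>
      intro hmem K hK hKD hKt ε hε
      set K1 : Set E2 := K ∩ closedBall a (δ a) with hK1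
      set K2 : Set E2 := K \ ball a (δ a) with hK2
      have hK1c : IsCompact K1 := hK.inter_right isClosed_closedBall
      have hK2c : IsCompact K2 := hK.diff isOpen_ball
      have haD : a ∈ D := hmem a (Finset.mem_insert_self a t)
      have c1 := hcovδ a haD K1 hK1c inter_subset_right (hVc.mono (inter_subset_left.trans hKD)) (ε / 2) (by positivity)
      have c2 := ih (fun p hp => hmem p (Finset.mem_insert_of_mem hp)) K2 hK2c (sdiff_subset.trans hKD) (by
        intro p hp
        have := hKt hp.1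
        rw [Finset.set_biUnion_insert] at this
        rcases this with h | h
        · exact absurd h hp.2
        · exact h) (ε / 2) (by positivity)
      refine (c1.union c2).mono ?_ ?_
      · rintro z ⟨p, hp, hz⟩
        by_cases hpb : p ∈ ball a (δ a)
        · exact Or.inl ⟨p, ⟨hp, ball_subset_closedBall hpb⟩, hz⟩
        · exact Or.inr ⟨p, ⟨hp, hpb⟩, hz⟩
      · have hae : K2 =ᵐ[volume] (K \ closedBall a (δ a) : Set E2) := by
          have hsub : K \ closedBall a (δ a) ⊆ K2 := sdiff_subset_sdiff_right ball_subset_closedBall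
          have hdiff : K2 \ (K \ closedBall a (δ a)) ⊆ sphere a (δ a) := by
            rintro p ⟨⟨hp, hp1⟩, hp2⟩
            have : p ∈ closedBall a (δ a) := by
              by_contra hcon; exact hp2 ⟨hp, hcon⟩
            rw [← closedBall_sdiff_ball]
            exact ⟨this, hp1⟩
          refine (Filter.EventuallyLE.antisymm ?_ hsub.eventuallyLE)
          rw [ae_le_set]
          exact measure_mono_null hdiff (Measure.addHaar_sphere _ _ _)
        have hint : IntegrableOn (fun p => J h (V p)) K volume :=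
          ContinuousOn.integrableOn_compact hK ((continuous_J h).comp_continuousOn (hVc.mono hKD))
        have hI := integral_inter_add_sdiff (isClosed_closedBall (x := a) (ε := δ a)).measurableSet hint
        have hI2 := setIntegral_congr_set (f := fun p => J h (V p)) hae
        have hm : (volume K1).toReal + (volume K2).toReal = (volume K).toReal := by
          rw [measure_congr hae, ← ENNReal.toReal_add hK1c.measure_lt_top.ne, measure_inter_add_sdiff₀]
          · exact (isClosed_closedBall (x := a) (ε := δ a)).measurableSet.nullMeasurableSet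
          · exact ((measure_mono sdiff_subset).trans_lt hK.measure_lt_top).ne
        rw [← hI, ← hI2, ← hm]
        apply le_of_eq
        ring
  have := key t htD D hD subset_rfl ht (ε / 2) (by positivity)
  refine this.mono subset_rfl ?_
  have : η * (volume D).toReal ≤ ε / 2 := by
    rw [hη, div_mul_eq_mul_div, div_le_iff₀ (by positivity)]
    nlinarith
  linarith


/-! ### From compact bases to squares -/

/-- axis-parallel square with corner `c` and side `s` -/
def sq (c : E2) (s : ℝ) : Set E2 := {p | (0 ≤ p 0 - c 0 ∧ p 0 - c 0 ≤ s) ∧ (0 ≤ p 1 - c 1 ∧ p 1 - c 1 ≤ s)}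

/-- `E` is covered by finitely many sheared cylinders over squares `(corner, side, velocity)`, total cost at most `c`. -/
def CovSq (h : ℝ) (E : Set (ℝ × E2)) (c : ℝ) : Prop :=
  ∃ l : List (E2 × ℝ × E2), (∀ x ∈ l, 0 < x.2.1) ∧ (∀ z ∈ E, ∃ x ∈ l, z.2 - z.1 • x.2.2 ∈ sq x.1 x.2.1) ∧
    (l.map (fun x => x.2.1 ^ 2 * J h x.2.2)).sum ≤ c

noncomputable def stdb : Module.Basis (Fin 2) ℝ E2 := (EuclideanSpace.basisFun (Fin 2) ℝ).toBasis

lemma stdb_coord (i : Fin 2) (p : E2) : stdb.coord i p = p i := by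
  simp [stdb]

lemma volume_cell_stdb (r : ℝ) (hr : 0 ≤ r) : volume (cell stdb 0 r) = ENNReal.ofReal ((2 * r) ^ 2) := by
  have h1 : cell stdb 0 r = (WithLp.ofLp : E2 → (Fin 2 → ℝ)) ⁻¹' (Set.Icc (fun _ => -r) (fun _ => r)) := by
    ext p
    simp only [cell, mem_ofPred_eq, sub_zero, stdb_coord, mem_preimage, Set.mem_Icc, Pi.le_def, abs_le]
    exact forall_and
  rw [h1, (PiLp.volume_preserving_ofLp (Fin 2)).measure_preimage measurableSet_Icc.nullMeasurableSet,
    Real.volume_Icc_pi]
  rw [Fin.prod_univ_two, ← ENNReal.ofReal_mul (by linarith)]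
  congr 1; ring

theorem square_cover (T : Set E2) (hT : IsCompact T) (ε : ℝ) (hε : 0 < ε) :
    ∃ (s : ℝ) (l : List E2), 0 < s ∧ (∀ p ∈ T, ∃ c ∈ l, p ∈ sq c s) ∧ l.length * s ^ 2 ≤ (volume T).toReal + ε := by
  obtain ⟨r, t, q, hr, -, hcov, -, hcard⟩ := grid_cover stdb T hT 1 ε one_pos hε
  refine ⟨2 * r, t.toList.map (fun z => WithLp.toLp 2 ![q z 0 - r, q z 1 - r]), by positivity, ?_, ?_⟩
  · intro p hp
    have := hcov hp
    rw [mem_iUnion₂] at this
    obtain ⟨z, hz, hpz⟩ := this
    refine ⟨_, List.mem_map.mpr ⟨z, Finset.mem_toList.mpr hz, rfl⟩, ?_⟩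
    have h0 := hpz 0
    have h1 := hpz 1
    rw [stdb_coord, abs_le] at h0 h1
    simp only [PiLp.sub_apply] at h0 h1
    simp only [sq, mem_ofPred_eq, Matrix.cons_val_zero, Matrix.cons_val_one]
    refine ⟨⟨?_, ?_⟩, ⟨?_, ?_⟩⟩ <;> linarith [h0.1, h0.2, h1.1, h1.2]
  · rw [List.length_map, Finset.length_toList]
    rw [volume_cell_stdb r hr.le, ENNReal.toReal_ofReal (by positivity)] at hcard
    exact hcard

lemma Cov.toSq_aux (h : ℝ) : ∀ (l : List (Set E2 × E2)), (∀ x ∈ l, IsCompact x.1) → ∀ ε : ℝ, 0 < ε →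
    CovSq h {z | ∃ x ∈ l, z.2 - z.1 • x.2 ∈ x.1} ((l.map (fun x => (volume x.1).toReal * J h x.2)).sum + ε) := by
  intro l
  induction l with
  | nil =>
    intro _ ε hε
    refine ⟨[], by simp, ?_, by simp; exact hε.le⟩
    rintro z ⟨x, hx, _⟩
    simp at hx
  | cons y l ih =>
    intro hc ε hε
    obtain ⟨l', h1, h2, h3⟩ := ih (fun x hx => hc x (List.mem_cons_of_mem _ hx)) (ε / 2) (by positivity)
    obtain ⟨s, m, hs, hm, hcard⟩ := square_cover y.1 (hc y List.mem_cons_self) (ε / 2) (by positivity)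
    refine ⟨m.map (fun c => (c, s, y.2)) ++ l', ?_, ?_, ?_⟩
    · intro x hx
      rcases List.mem_append.mp hx with hx | hx
      · obtain ⟨c, -, rfl⟩ := List.mem_map.mp hx
        exact hs
      · exact h1 x hx
    · rintro z ⟨x, hx, hz⟩
      rcases List.mem_cons.mp hx with rfl | hx
      · obtain ⟨c, hcm, hcz⟩ := hm _ hz
        exact ⟨(c, s, x.2), List.mem_append_left _ (List.mem_map.mpr ⟨c, hcm, rfl⟩), hcz⟩
      · obtain ⟨w, hw, hwz⟩ := h2 z ⟨x, hx, hz⟩
        exact ⟨w, List.mem_append_right _ hw, hwz⟩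
    · rw [List.map_append, List.sum_append, List.map_cons, List.sum_cons, List.map_map]
      have e1 : (m.map ((fun x : E2 × ℝ × E2 => x.2.1 ^ 2 * J h x.2.2) ∘ fun c => (c, s, y.2))).sum
          = m.length * s ^ 2 * J h y.2 := by
        have : ((fun x : E2 × ℝ × E2 => x.2.1 ^ 2 * J h x.2.2) ∘ fun c => (c, s, y.2)) = fun _ => s ^ 2 * J h y.2 := by
          funext c; rfl
        rw [this, List.map_const', List.sum_replicate, nsmul_eq_mul]
        ring
      rw [e1]
      have hJ0 := (J_pos h y.2).le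
      have hJ1 := J_le_one h y.2
      have : m.length * s ^ 2 * J h y.2 ≤ (volume y.1).toReal * J h y.2 + ε / 2 := by
        calc m.length * s ^ 2 * J h y.2 ≤ ((volume y.1).toReal + ε / 2) * J h y.2 :=
              mul_le_mul_of_nonneg_right hcard hJ0
          _ = (volume y.1).toReal * J h y.2 + ε / 2 * J h y.2 := by ring
          _ ≤ (volume y.1).toReal * J h y.2 + ε / 2 := by nlinarith
      linarith

lemma CovSq.mono {h : ℝ} {E E' : Set (ℝ × E2)} {c c' : ℝ} (H : CovSq h E c) (hE : E' ⊆ E) (hc : c ≤ c') :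
    CovSq h E' c' := by
  obtain ⟨l, h1, h2, h3⟩ := H
  exact ⟨l, h1, fun z hz => h2 z (hE hz), h3.trans hc⟩

lemma Cov.toSq {h : ℝ} {E : Set (ℝ × E2)} {c : ℝ} (H : Cov h E c) (ε : ℝ) (hε : 0 < ε) : CovSq h E (c + ε) := by
  obtain ⟨l, h1, h2, h3⟩ := H
  exact (Cov.toSq_aux h l h1 ε hε).mono h2 (by linarith)

end Crest.Agent.RuledCover
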