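import Crest.Statements.S0010
import Crest.Agent.MKGlobal
import Crest.Agent.MKRel
import Crest.Agent.MKUniq
import Crest.Agent.MKFG
import Crest.Agent.MKFGPow

set_option autoImplicit false
open Crest.NumberTheoryR.MilnorK
open Crest Crest.NumberTheoryR

namespace Crest.Agent.S0010

theorem map_eq {p : ℕ} [Fact p.Prime]
    {K L : Type*} [Field K] [Field L] [CharP K p] [CharP L p] (k : Subfield K) (l : Subfield L)
    [IsAlgClosed k] [IsAlgClosed l]
    (hK : ∃ s : Finset K, Subfield.closure ((k : Set K) ∪ (s : Set K)) = ⊤)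
    (hL : ∃ s : Finset L, Subfield.closure ((l : Set L) ∪ (s : Set L)) = ⊤) (α : K ≃+* L) :
    k.map α.toRingHom = l := by
  ext z
  rw [MK.mem_iff_forall_pow (p := p) l hL z, Subfield.mem_map]
  constructor
  · rintro ⟨x, hx, rfl⟩ n
    obtain ⟨w, hw⟩ := (MK.mem_iff_forall_pow (p := p) k hK x).1 hx n
    exact ⟨α w, by rw [← map_pow, hw]; rfl⟩
  · intro h
    refine ⟨α.symm z, ?_, α.apply_symm_apply z⟩
    rw [MK.mem_iff_forall_pow (p := p) k hK]
    intro n
    obtain ⟨w, hw⟩ := h n
    exact ⟨α.symm w, by rw [← map_pow, hw]⟩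

/-- Let K and L be fields of characteristic p that are finitely generated and of transcendence degree at least 2 over algebraically closed subfields k and l. Let Θ be a linear isomorphism, over the integers mod p, from Kˣ/(Kˣ)^p to Lˣ/(Lˣ)^p that maps the span of the Steinberg elements [f] ⊗ [1 - f] (f ≠ 0, 1) of K exactly onto that of L. Then there is exactly one field isomorphism α from K to L with α(k) = l such that, for some non-zero scalar c, Θ[u] = c · [α(u)] for every unit u of K. -/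
theorem result {p : ℕ} [Fact p.Prime]
    {K L : Type*} [Field K] [Field L] [CharP K p] [CharP L p] (k : Subfield K) (l : Subfield L)
    [IsAlgClosed k] [IsAlgClosed l]
    (hK : ∃ s : Finset K, Subfield.closure ((k : Set K) ∪ (s : Set K)) = ⊤)
    (hL : ∃ s : Finset L, Subfield.closure ((l : Set L) ∪ (s : Set L)) = ⊤)
    (hK2 : 2 ≤ Algebra.trdeg k K) (hL2 : 2 ≤ Algebra.trdeg l L)
    (Θ : KOne K p ≃ₗ[ZMod p] KOne L p) (hΘ : IsCompatible Θ) :
    ∃! α : K ≃+* L, k.map α.toRingHom = l ∧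
      ∃ c : ZMod p, c ≠ 0 ∧ ∀ u : Kˣ, Θ (cls K p u) = c • cls L p (Units.map α.toRingHom.toMonoidHom u) := by
  have dK := MK.exists_indep (p := p) k hK hK2
  have dL := MK.exists_indep (p := p) l hL hL2
  have hdep : MK.PDep Θ := fun x y X Y hX hY => MK.adj_iff_of_compatible Θ hΘ x y X Y hX hY
  obtain ⟨α, c, hc, hα⟩ := MK.exists_ringEquiv hdep dK dL
  refine ⟨α, ⟨map_eq (p := p) k l hK hL α, c, hc, hα⟩, ?_⟩
  rintro β ⟨-, c', hc', hβ⟩
  obtain ⟨x, -, hx, -⟩ := dK
  refine MK.uniq (p := p) β α c' c hc' hc ⟨x, hx⟩ ?_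
  intro u
  rw [← hα u, ← hβ u]

end Crest.Agent.S0010
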