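import Crest.Agent.SnakyCert

/-!
From a family of root certificates to the statement.
-/

set_option autoImplicit false

namespace Crest.Agent.Snaky

open Crest.CombinatoricsR.PolyominoGame

def W1 (b : Cell) : Prop := Wins 20 (insert ((0, 0) : Cell) ∅) (insert b ∅)

lemma W1.reflect {x y : ℤ} (h : W1 (x, y)) : W1 (-x, y) := by
  have := Wins.map (fun p : Cell => (-p.1, p.2)) (fun p => by simp) (fun _ hX => containsCopy_reflect hX) h
  have e1 : {p : Cell | (-p.1, p.2) ∈ (insert ((0, 0) : Cell) ∅ : Set Cell)} = insert ((0, 0) : Cell) ∅ := by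
    ext ⟨u, v⟩
    simp
  have e2 : {p : Cell | (-p.1, p.2) ∈ (insert ((x, y) : Cell) ∅ : Set Cell)} = insert ((-x, y) : Cell) ∅ := by
    ext ⟨u, v⟩
    simp only [Set.mem_ofPred_eq, Set.mem_insert_iff, Set.mem_empty_iff_false, or_false, Prod.mk.injEq]
    constructor
    · rintro ⟨h1, h2⟩; exact ⟨by omega, h2⟩
    · rintro ⟨h1, h2⟩; exact ⟨by omega, h2⟩
  unfold W1
  rw [← e1, ← e2]
  exact this

lemma W1.swap {x y : ℤ} (h : W1 (x, y)) : W1 (y, x) := by
  have := Wins.map (fun p : Cell => (p.2, p.1)) (fun p => by simp) (fun _ hX => containsCopy_swap hX) h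
  have e1 : {p : Cell | (p.2, p.1) ∈ (insert ((0, 0) : Cell) ∅ : Set Cell)} = insert ((0, 0) : Cell) ∅ := by
    ext ⟨u, v⟩
    simp only [Set.mem_ofPred_eq, Set.mem_insert_iff, Set.mem_empty_iff_false, or_false, Prod.mk.injEq]
    tauto
  have e2 : {p : Cell | (p.2, p.1) ∈ (insert ((x, y) : Cell) ∅ : Set Cell)} = insert ((y, x) : Cell) ∅ := by
    ext ⟨u, v⟩
    simp only [Set.mem_ofPred_eq, Set.mem_insert_iff, Set.mem_empty_iff_false, or_false, Prod.mk.injEq]
    tauto
  unfold W1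
  rw [← e1, ← e2]
  exact this

lemma W1.reflect' {x y : ℤ} (h : W1 (-x, y)) : W1 (x, y) := by
  have := h.reflect
  rwa [neg_neg] at this

lemma W1.reflect2 {x y : ℤ} (h : W1 (x, -y)) : W1 (x, y) := h.swap.reflect'.swap

/-- index of a cell. -/
def enc (x y : ℤ) : ℕ := ((y + 9) * 24 + (x + 9)).toNat

lemma dec_enc {x y : ℤ} (hx1 : -9 ≤ x) (hx2 : x ≤ 14) (hy1 : -9 ≤ y) : dec (enc x y) = (x, y) := by
  unfold dec enc
  rw [Prod.mk.injEq]
  constructor <;> omega

lemma cells_root : cells (bit1 225) = insert ((0, 0) : Cell) ∅ := by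
  have h : dec 225 = (0, 0) := by
    unfold dec
    norm_num
  rw [cells_bit1, h]
  simp

lemma W1.of_notMem {C : ℕ} {b : Cell} (h : NW 20 (bit1 225) C) (hb : b ∉ cells C) : W1 b := by
  unfold NW at h
  rw [cells_root] at h
  refine h.2 _ ?_
  intro p hp hpb
  rcases hpb with hpb | hpb
  · exact hb (hpb ▸ hp)
  · exact hpb

lemma W1.of_tb {C : ℕ} {x y : ℤ} (h : NW 20 (bit1 225) C) (hx1 : -9 ≤ x) (hx2 : x ≤ 14) (hy1 : -9 ≤ y)
    (ht : tb C (enc x y) = false) : W1 (x, y) := by
  refine W1.of_notMem h ?_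
  rw [← dec_enc hx1 hx2 hy1, dec_mem_cells, ← tb_eq, ht]
  simp

/-- some symmetric image of `(x, y)` avoids `C`. -/
def im (C : ℕ) (x y : ℤ) : Bool :=
  !tb C (enc x y) || !tb C (enc (-x) y) || !tb C (enc x (-y)) || !tb C (enc (-x) (-y)) ||
  !tb C (enc y x) || !tb C (enc (-y) x) || !tb C (enc y (-x)) || !tb C (enc (-y) (-x))

lemma W1.of_im {C : ℕ} {x y : ℤ} (h : NW 20 (bit1 225) C) (hx : |x| ≤ 9) (hy : |y| ≤ 9)
    (hi : im C x y = true) : W1 (x, y) := by
  rw [abs_le] at hx hy
  simp only [im, Bool.or_eq_true, Bool.not_eq_true'] at hi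
  rcases hi with ((((((hi | hi) | hi) | hi) | hi) | hi) | hi) | hi
  · exact W1.of_tb h (by omega) (by omega) (by omega) hi
  · exact (W1.of_tb h (by omega) (by omega) (by omega) hi).reflect'
  · exact (W1.of_tb h (by omega) (by omega) (by omega) hi).reflect2
  · exact (W1.of_tb h (by omega) (by omega) (by omega) hi).reflect'.reflect2
  · exact (W1.of_tb h (by omega) (by omega) (by omega) hi).swap
  · exact (W1.of_tb h (by omega) (by omega) (by omega) hi).reflect'.swap
  · exact (W1.of_tb h (by omega) (by omega) (by omega) hi).reflect2.swap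
  · exact (W1.of_tb h (by omega) (by omega) (by omega) hi).reflect'.reflect2.swap

/-- columns `0..18`, rows `0..18`. -/
def board : ℕ := (List.range 19).foldr (fun r a => Nat.lor (Nat.shiftLeft 524287 (24 * r)) a) 0

lemma board_bit (i : ℕ) (h : board.testBit i = true) : i % 24 ≤ 18 ∧ i / 24 ≤ 18 := by
  have hlt : i < 456 := by
    by_contra hcon
    have : board.testBit i = false := by
      apply Nat.testBit_lt_two_pow
      calc board < 2 ^ 456 := by decide +kernel
        _ ≤ 2 ^ i := Nat.pow_le_pow_right (by norm_num) (by omega)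
    rw [this] at h
    exact Bool.noConfusion h
  have key : ∀ j : Fin 456, board.testBit j.1 = true → j.1 % 24 ≤ 18 ∧ j.1 / 24 ≤ 18 := by
    decide +kernel
  exact key ⟨i, hlt⟩ h

lemma far {C : ℕ} (hC : Nat.land C board = C) {x y : ℤ} (hx : 10 ≤ x) : ((x, y) : Cell) ∉ cells C := by
  rintro ⟨i, hi, he⟩
  have h2 : (C &&& board).testBit i = true := by
    change (Nat.land C board).testBit i = true
    rw [hC]; exact hi
  rw [Nat.testBit_land, Bool.and_eq_true] at h2
  have := board_bit i h2.2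
  unfold dec at he
  rw [Prod.mk.injEq] at he
  omega

def covers (L : List ℕ) : Bool :=
  (List.range 10).all fun x => (List.range (x + 1)).all fun y =>
    (x == 0) || L.any fun C => im C (x : ℤ) (y : ℤ)

theorem final (L : List ℕ) (C0 : ℕ) (hL : ∀ C ∈ L, NW 20 (bit1 225) C) (h0 : NW 20 (bit1 225) C0)
    (hC0 : Nat.land C0 board = C0) (hcov : covers L = true) :
    ∃ σ : List (ℤ × ℤ) → ℤ × ℤ, ∀ b : ℕ → ℤ × ℤ,
      (∀ k : ℕ, k < 20 →
        (∀ j : ℕ, j ≤ k → b k ≠ makerClaim σ b j) ∧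
        (∀ j : ℕ, j < k → b k ≠ b j)) →
      (∀ k : ℕ, k ≤ 20 →
        (∀ j : ℕ, j < k → makerClaim σ b k ≠ makerClaim σ b j) ∧
        (∀ j : ℕ, j < k → makerClaim σ b k ≠ b j)) ∧
      ContainsCopy {c | ∃ j : ℕ, j ≤ 20 ∧ c = makerClaim σ b j} := by
  apply main_of_wins
  have key1 : ∀ x y : ℤ, 0 ≤ y → y ≤ x → 0 < x → W1 (x, y) := by
    intro x y hy hyx hx
    by_cases hfar : 10 ≤ x
    · exact W1.of_notMem h0 (far hC0 hfar)
    · obtain ⟨a, rfl⟩ := Int.eq_ofNat_of_zero_le hx.le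
      obtain ⟨c, rfl⟩ := Int.eq_ofNat_of_zero_le hy
      unfold covers at hcov
      rw [List.all_eq_true] at hcov
      have h1 := hcov a (List.mem_range.2 (by omega))
      rw [List.all_eq_true] at h1
      have h2 := h1 c (List.mem_range.2 (by omega))
      rw [Bool.or_eq_true] at h2
      rcases h2 with h2 | h2
      · rw [beq_iff_eq] at h2; omega
      · rw [List.any_eq_true] at h2
        obtain ⟨C, hC, him⟩ := h2
        exact W1.of_im (hL C hC) (by rw [abs_le]; omega) (by rw [abs_le]; omega) him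
  have key2 : ∀ x y : ℤ, 0 ≤ x → 0 ≤ y → (x, y) ≠ ((0, 0) : Cell) → W1 (x, y) := by
    intro x y hx hy hne
    have hne' : ¬ (x = 0 ∧ y = 0) := fun h => hne (by rw [h.1, h.2])
    rcases le_total y x with h | h
    · exact key1 x y hy h (by omega)
    · exact (key1 y x hx h (by omega)).swap
  have key3 : ∀ b : Cell, b ≠ (0, 0) → W1 b := by
    rintro ⟨x, y⟩ hne
    have hne' : ¬ (x = 0 ∧ y = 0) := fun h => hne (by rw [h.1, h.2])
    rcases le_total 0 x with hx | hx <;> rcases le_total 0 y with hy | hy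
    · exact key2 x y hx hy hne
    · refine W1.reflect2 (key2 x (-y) hx (by omega) ?_)
      intro h; rw [Prod.mk.injEq] at h; omega
    · refine W1.reflect' (key2 (-x) y (by omega) hy ?_)
      intro h; rw [Prod.mk.injEq] at h; omega
    · refine W1.reflect' (W1.reflect2 (key2 (-x) (-y) (by omega) (by omega) ?_))
      intro h; rw [Prod.mk.injEq] at h; omega
  refine Or.inr ⟨(0, 0), Set.notMem_empty _, Set.notMem_empty _, fun b _ hb _ => key3 b hb⟩

end Crest.Agent.Snaky
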