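import Crest.Statements.S0047
import Crest.Agent.SnakyRoot
import Crest.Agent.SnakyD22
import Crest.Agent.SnakyA20
import Crest.Agent.SnakyD31
import Crest.Agent.SnakyD21
import Crest.Agent.SnakyAAe
import Crest.Agent.SnakyDAe

set_option autoImplicit false
open Crest Crest.CombinatoricsR

namespace Crest.Agent.S0047

/-- In the Maker–Breaker game on the board ℤ × ℤ (Maker first; the players alternately claim one unclaimed cell), Maker has a policy — a rule giving its next cell from Breaker's replies so far — such that against every sequence of Breaker replies whose first 20 are legal (each a cell not claimed before), Maker's first 21 claims are legal and contain a copy of the six-cell polyomino Snaky {(0,0),(1,0),(2,0),(3,0),(3,1),(4,1)} under a translation composed with a signed coordinate permutation. -/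
theorem result :
    ∃ σ : List (ℤ × ℤ) → ℤ × ℤ, ∀ b : ℕ → ℤ × ℤ,
      (∀ k : ℕ, k < 20 →
        (∀ j : ℕ, j ≤ k → b k ≠ Crest.CombinatoricsR.PolyominoGame.makerClaim σ b j) ∧
        (∀ j : ℕ, j < k → b k ≠ b j)) →
      (∀ k : ℕ, k ≤ 20 →
        (∀ j : ℕ, j < k → Crest.CombinatoricsR.PolyominoGame.makerClaim σ b k ≠
          Crest.CombinatoricsR.PolyominoGame.makerClaim σ b j) ∧
        (∀ j : ℕ, j < k → Crest.CombinatoricsR.PolyominoGame.makerClaim σ b k ≠ b j)) ∧
      Crest.CombinatoricsR.PolyominoGame.ContainsCopy
        {c | ∃ j : ℕ, j ≤ 20 ∧ c = Crest.CombinatoricsR.PolyominoGame.makerClaim σ b j} := by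
  have hb : Crest.Agent.Snaky.bit1 225 = 0x200000000000000000000000000000000000000000000000000000000 := by decide +kernel
  refine Crest.Agent.Snaky.final
    [0x500000f00000fc0003fc00007e0003ff8003df8003ff8001ff0001fe0000fe00007c0000000000000000000000000,
     0x280001fc0001ff0007ff0003ff8007ffc0005f8001ffc003ff0001ff8000fe00007c0000000000000000000000000,
     0x780001f80001fe0000ff000fdf000fff000fff0007ff000fff0001f80000700000000000000000000,
     0x1400007e00007f0000ff0001ffc003ffc0077fc007df800fffc007ffc00fffc001ff0007ff0001fe0001fc0000000000000,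
     0x5fc000fff000fff001fff001fffc01fffe01fbfe01fdfe01fffc01fffe01fffe00fffe00fff8005ff8001fe00007c0000000,
     0x2800017f0001ff8007ff8007ffe00ffff00ffff01ffff01f9ff00ffff01ffff00ffff007fff003fff007ffe001ffc0000e00000a0]
    0x500000f00000fc0003fc00007e0003ff8003df8003ff8001ff0001fe0000fe00007c0000000000000000000000000 ?_ ?_ (by decide +kernel) (by decide +kernel)
  · intro C hC
    rw [hb]
    simp only [List.mem_cons, List.not_mem_nil, or_false] at hC
    rcases hC with h | h | h | h | h | h <;> subst h
    · exact Crest.Agent.Snaky.d22q853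
    · exact Crest.Agent.Snaky.a20q1295
    · exact Crest.Agent.Snaky.d31q685
    · exact Crest.Agent.Snaky.d21q2696
    · exact Crest.Agent.Snaky.a11q11951
    · exact Crest.Agent.Snaky.d10q12006
  · rw [hb]
    exact Crest.Agent.Snaky.d22q853

end Crest.Agent.S0047
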