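import Crest.Statements.S0066

set_option autoImplicit false
open Crest Crest.CombinatoricsR

namespace Crest.Agent.S0066

/-- Gadget types. -/
inductive Gad
  | N1
  | N2 (a : Bool)
  | S1
  | S2 (a : Bool)
  deriving DecidableEq, Fintype

/-- Labels of rows (and of columns). -/
inductive Lab (h : ℕ)
  | F (l : Fin h) (g : Gad) (i : Fin 64) (s : Fin h → Bool)
  | P (l : Fin h) (x : Fin h → Bool)
  | Q (l : Fin h) (x : Fin h → Bool)
  | X (x : Fin h → Bool)
  | Z (s : Fin h → Bool)

def labEquiv (h : ℕ) : Lab h ≃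
    ((Fin h × Gad × Fin 64 × (Fin h → Bool)) ⊕ (Fin h × (Fin h → Bool)) ⊕
      (Fin h × (Fin h → Bool)) ⊕ (Fin h → Bool) ⊕ (Fin h → Bool)) where
  toFun
    | .F l g i s => .inl (l, g, i, s)
    | .P l x => .inr (.inl (l, x))
    | .Q l x => .inr (.inr (.inl (l, x)))
    | .X x => .inr (.inr (.inr (.inl x)))
    | .Z x => .inr (.inr (.inr (.inr x)))
  invFun
    | .inl (l, g, i, s) => .F l g i s
    | .inr (.inl (l, x)) => .P l x
    | .inr (.inr (.inl (l, x))) => .Q l x
    | .inr (.inr (.inr (.inl x))) => .X x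
    | .inr (.inr (.inr (.inr x))) => .Z x
  left_inv := by rintro (_ | _ | _ | _ | _) <;> rfl
  right_inv := by rintro (_ | _ | _ | _ | _) <;> rfl

noncomputable instance (h : ℕ) : Fintype (Lab h) := Fintype.ofEquiv _ (labEquiv h).symm

lemma card_gad : Fintype.card Gad = 6 := by decide

lemma card_lab (h : ℕ) : Fintype.card (Lab h) = (386 * h + 2) * 2 ^ h := by
  rw [Fintype.card_congr (labEquiv h)]
  simp only [Fintype.card_sum, Fintype.card_prod, Fintype.card_fin, card_gad,
    Fintype.card_fun, Fintype.card_bool]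
  ring

/-- `i`-th bit. -/
def bit {h : ℕ} (x : Fin h → Bool) (i : ℕ) : Bool := if hi : i < h then x ⟨i, hi⟩ else false

/-- monotone code of the prefix of length `l` -/
def code {h : ℕ} (x : Fin h → Bool) : ℕ → ℕ
  | 0 => 0
  | l + 1 => 4 * code x l + ((bit x l).toNat + 1)

lemma code_succ {h : ℕ} (x : Fin h → Bool) (l : ℕ) :
    code x (l + 1) = 4 * code x l + ((bit x l).toNat + 1) := rfl

lemma toNat_le_one (b : Bool) : b.toNat ≤ 1 := by cases b <;> simp

lemma code_lt {h : ℕ} (x : Fin h → Bool) (l : ℕ) : code x l < 4 ^ l := by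
  induction l with
  | zero => simp [code]
  | succ l ih =>
    have := toNat_le_one (bit x l)
    rw [code_succ, pow_succ]; omega

lemma code_congr {h : ℕ} (x y : Fin h → Bool) (l : ℕ) (hxy : ∀ i, i < l → bit x i = bit y i) :
    code x l = code y l := by
  induction l with
  | zero => rfl
  | succ l ih =>
    rw [code_succ, code_succ, ih (fun i hi => hxy i (by omega)), hxy l (by omega)]

lemma code_inj {h : ℕ} (x y : Fin h → Bool) (l : ℕ) (hxy : code x l = code y l) :
    ∀ i, i < l → bit x i = bit y i := by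
  induction l with
  | zero => intro i hi; omega
  | succ l ih =>
    rw [code_succ, code_succ] at hxy
    have h1 := toNat_le_one (bit x l)
    have h2 := toNat_le_one (bit y l)
    have h3 : code x l = code y l := by omega
    have h4 : (bit x l).toNat = (bit y l).toNat := by omega
    intro i hi
    rcases Nat.lt_succ_iff_lt_or_eq.mp hi with hi | rfl
    · exact ih h3 i hi
    · cases hb : bit x i <;> cases hb' : bit y i <;> simp_all

lemma code_inj_full {h : ℕ} (x y : Fin h → Bool) (hxy : code x h = code y h) : x = y := by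
  funext i
  have := code_inj x y h hxy i.1 i.2
  simpa [bit] using this

/-- opening position -/
def op (h : ℕ) (l : ℕ) (x : Fin h → Bool) : ℕ := code x l * 4 ^ (h + 1 - l)
/-- closing position -/
def cl (h : ℕ) (l : ℕ) (x : Fin h → Bool) : ℕ := (4 * code x l + 3) * 4 ^ (h - l)

lemma op_lt (h l : ℕ) (hl : l ≤ h) (x : Fin h → Bool) : op h l x < 4 ^ (h + 1) := by
  unfold op
  have h1 := code_lt x l
  calc code x l * 4 ^ (h + 1 - l) < 4 ^ l * 4 ^ (h + 1 - l) :=
        Nat.mul_lt_mul_of_pos_right h1 (by positivity)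
    _ = 4 ^ (h + 1) := by rw [← pow_add]; congr 1; omega

lemma cl_lt (h l : ℕ) (hl : l ≤ h) (x : Fin h → Bool) : cl h l x < 4 ^ (h + 1) := by
  unfold cl
  have h1 := code_lt x l
  calc (4 * code x l + 3) * 4 ^ (h - l) < (4 ^ (l + 1)) * 4 ^ (h - l) :=
        Nat.mul_lt_mul_of_pos_right (by rw [pow_succ]; omega) (by positivity)
    _ = 4 ^ (h + 1) := by rw [← pow_add]; congr 1; omega

/-- expand at level `l < h`: scaled by `4^(h-1-l)` -/
lemma op_eq (h l : ℕ) (hl : l < h) (x : Fin h → Bool) :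
    op h l x = (16 * code x l) * 4 ^ (h - 1 - l) := by
  unfold op
  have : h + 1 - l = (h - 1 - l) + 2 := by omega
  rw [this, pow_add]; ring

lemma cl_eq (h l : ℕ) (hl : l < h) (x : Fin h → Bool) :
    cl h l x = (16 * code x l + 12) * 4 ^ (h - 1 - l) := by
  unfold cl
  have : h - l = (h - 1 - l) + 1 := by omega
  rw [this, pow_add]; ring

lemma op_succ_eq (h l : ℕ) (hl : l < h) (x : Fin h → Bool) :
    op h (l + 1) x = (16 * code x l + 4 * (bit x l).toNat + 4) * 4 ^ (h - 1 - l) := by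
  unfold op
  have : h + 1 - (l + 1) = (h - 1 - l) + 1 := by omega
  rw [this, pow_add, code_succ]; ring

lemma cl_succ_eq (h l : ℕ) (hl : l < h) (x : Fin h → Bool) :
    cl h (l + 1) x = (16 * code x l + 4 * (bit x l).toNat + 7) * 4 ^ (h - 1 - l) := by
  unfold cl
  have : h - (l + 1) = (h - 1 - l) := by omega
  rw [this, code_succ]; ring

lemma scale_le {a b k : ℕ} : a * 4 ^ k ≤ b * 4 ^ k ↔ a ≤ b :=
  Nat.mul_le_mul_right_iff (by positivity)

lemma scale_lt {a b k : ℕ} : a * 4 ^ k < b * 4 ^ k ↔ a < b :=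
  Nat.mul_lt_mul_right (by positivity)

/-- the core adjacency -/
def coreAdj {h : ℕ} : Lab h → Lab h → Prop
  | .P l x, .Q l' y => op h l' y ≤ cl h l x
  | .P l x, .X y => op h h y ≤ cl h l x
  | .X x, .Q l' y => op h l' y ≤ cl h h x
  | .X x, .X y => op h h y ≤ cl h h x
  | .X x, .P l' y => cl h l' y < op h h x
  | .Q l x, .P l' y => cl h l' y < op h l x
  | .Q l x, .X y => cl h h y < op h l x
  | _, _ => False

def mkP {h : ℕ} (l : ℕ) (x : Fin h → Bool) : Lab h := if hl : l < h then .P ⟨l, hl⟩ x else .X x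
def mkQ {h : ℕ} (l : ℕ) (x : Fin h → Bool) : Lab h := if hl : l < h then .Q ⟨l, hl⟩ x else .X x

/-- rows accepted by a gadget -/
def accR {h : ℕ} (l : ℕ) : Gad → Lab h → Prop
  | .N1, r => (∃ x, r = mkP l x) ∨ ∃ s, r = .Z s
  | .N2 a, r => (∃ x, r = mkP l x) ∨ (∃ x, r = mkP (l + 1) x ∧ bit x l = a)
  | .S1, r => (∃ x, r = mkQ l x) ∨ ∃ s, r = .Z s
  | .S2 a, r => (∃ x, r = mkQ l x) ∨ (∃ x, r = mkQ (l + 1) x ∧ bit x l = a)

/-- columns accepted by a gadget -/
def accC {h : ℕ} (l : ℕ) : Gad → Lab h → Prop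
  | .N1, c => (∃ y, c = mkQ l y) ∨ (∃ y, c = mkQ (l + 1) y)
  | .N2 a, c => (∃ y, c = mkQ (l + 1) y ∧ bit y l = a) ∨ ∃ t, c = .Z t
  | .S1, c => (∃ y, c = mkP l y) ∨ (∃ y, c = mkP (l + 1) y)
  | .S2 a, c => (∃ y, c = mkP (l + 1) y ∧ bit y l = a) ∨ ∃ t, c = .Z t

/-- the pattern -/
def Hf (i j : ℕ) : Prop := (i = 0 ∧ j ≠ 0) ∨ (j = 0 ∧ i ≠ 0) ∨ (i = j ∧ i ≠ 0 ∧ i ≤ 64)

instance (i j : ℕ) : Decidable (Hf i j) := by unfold Hf; infer_instance

/-- full adjacency -/
def Adj {h : ℕ} : Lab h → Lab h → Prop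
  | .F l g i _, .F l' g' j _ => l = l' ∧ g = g' ∧ Hf i j
  | .F l g i _, c => i = 0 ∧ accC l g c
  | r, .F l g j _ => j = 0 ∧ accR l g r
  | r, c => coreAdj r c

/-- row key -/
def rk {h : ℕ} : Lab h → ℤ
  | .F _ _ i _ => (i : ℤ) - 64
  | .P l x => op h l x
  | .Q l x => cl h l x
  | .X x => op h h x
  | .Z _ => 4 ^ (h + 1)

/-- column key -/
def ck {h : ℕ} : Lab h → ℤ
  | .F _ _ i _ => (i : ℤ) - 64 - 4 ^ (h + 1)
  | .P l x => -op h l x
  | .Q l x => -cl h l x
  | .X x => -op h h x
  | .Z _ => 1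

/-- value of a core label -/
def val {h : ℕ} : Lab h → ℕ
  | .P l x => op h l x
  | .Q l x => cl h l x
  | .X x => op h h x
  | _ => 0

/-- core labels -/
def IsCore {h : ℕ} : Lab h → Prop
  | .P _ _ => True
  | .Q _ _ => True
  | .X _ => True
  | _ => False

section vals
variable {h : ℕ}

lemma isCore_mkP (l : ℕ) (x : Fin h → Bool) : IsCore (mkP l x) := by
  unfold mkP; split_ifs <;> trivial
lemma isCore_mkQ (l : ℕ) (x : Fin h → Bool) : IsCore (mkQ l x) := by
  unfold mkQ; split_ifs <;> trivial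

lemma rk_core {r : Lab h} (hr : IsCore r) : rk r = (val r : ℤ) := by
  cases r <;> simp_all [IsCore, rk, val]
lemma ck_core {r : Lab h} (hr : IsCore r) : ck r = -(val r : ℤ) := by
  cases r <;> simp_all [IsCore, ck, val]

lemma val_lt {r : Lab h} : val r < 4 ^ (h + 1) := by
  cases r with
  | F => simp [val]
  | P l x => exact op_lt h l l.2.le x
  | Q l x => exact cl_lt h l l.2.le x
  | X x => exact op_lt h h le_rfl x
  | Z => simp [val]

lemma val_mkP (l : ℕ) (hl : l < h) (x : Fin h → Bool) :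
    val (mkP l x) = (16 * code x l) * 4 ^ (h - 1 - l) := by
  simp [mkP, hl, val, op_eq h l hl x]

lemma val_mkP_succ (l : ℕ) (hl : l < h) (x : Fin h → Bool) :
    val (mkP (l + 1) x) = (16 * code x l + 4 * (bit x l).toNat + 4) * 4 ^ (h - 1 - l) := by
  unfold mkP
  split_ifs with h1
  · simp only [val]; exact op_succ_eq h l hl x
  · have : l + 1 = h := by omega
    simp only [val]
    have := op_succ_eq h l hl x
    rwa [‹l + 1 = h›] at this

lemma val_mkQ (l : ℕ) (hl : l < h) (x : Fin h → Bool) :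
    val (mkQ l x) = (16 * code x l + 12) * 4 ^ (h - 1 - l) := by
  simp [mkQ, hl, val, cl_eq h l hl x]

lemma val_mkQ_succ (l : ℕ) (hl : l < h) (x : Fin h → Bool) :
    ∃ d, (d = 4 ∨ d = 7) ∧
    val (mkQ (l + 1) x) = (16 * code x l + 4 * (bit x l).toNat + d) * 4 ^ (h - 1 - l) ∧
    (d = 7 ↔ l + 1 < h) := by
  unfold mkQ
  split_ifs with h1
  · exact ⟨7, Or.inr rfl, by simp only [val]; exact cl_succ_eq h l hl x, by simp [h1]⟩
  · have h2 : l + 1 = h := by omega
    refine ⟨4, Or.inl rfl, ?_, by simp [h1]⟩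
    simp only [val]
    have := op_succ_eq h l hl x
    rwa [h2] at this

-- adjacency at code level
lemma adjN_00 (l : ℕ) (hl : l < h) (x y : Fin h → Bool) :
    coreAdj (mkP l x) (mkQ l y) ↔ code y l ≤ code x l := by
  simp only [mkP, mkQ, hl, dif_pos, coreAdj, op_eq h l hl y, cl_eq h l hl x, scale_le]
  omega

lemma adjN_01 (l : ℕ) (hl : l < h) (x y : Fin h → Bool) :
    coreAdj (mkP l x) (mkQ (l + 1) y) ↔ code y l ≤ code x l := by
  have hb := toNat_le_one (bit y l)
  have key : op h (l + 1) y ≤ cl h l x ↔ code y l ≤ code x l := by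
    rw [op_succ_eq h l hl y, cl_eq h l hl x, scale_le]; omega
  by_cases h1 : l + 1 < h
  · simp only [mkP, mkQ, hl, h1, dif_pos, coreAdj, key]
  · have h2 : l + 1 = h := by omega
    rw [← key]
    simp [mkP, mkQ, hl, coreAdj, h2]

lemma adjN_11 (l : ℕ) (hl : l < h) (x y : Fin h → Bool) :
    coreAdj (mkP (l + 1) x) (mkQ (l + 1) y) ↔ code y (l + 1) ≤ code x (l + 1) := by
  have key : op h (l + 1) y ≤ cl h (l + 1) x ↔ code y (l + 1) ≤ code x (l + 1) := by
    rw [op_succ_eq h l hl y, cl_succ_eq h l hl x, scale_le, code_succ, code_succ]; omega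
  by_cases h1 : l + 1 < h
  · simp only [mkP, mkQ, h1, dif_pos, coreAdj, key]
  · have h2 : l + 1 = h := by omega
    rw [← key]
    simp [mkP, mkQ, coreAdj, h2]

lemma adjS_00 (l : ℕ) (hl : l < h) (x y : Fin h → Bool) :
    coreAdj (mkQ l x) (mkP l y) ↔ code y l < code x l := by
  simp only [mkP, mkQ, hl, dif_pos, coreAdj, op_eq h l hl x, cl_eq h l hl y, scale_lt]
  omega

lemma adjS_01 (l : ℕ) (hl : l < h) (x y : Fin h → Bool) :
    coreAdj (mkQ l x) (mkP (l + 1) y) ↔ code y l < code x l := by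
  have hb := toNat_le_one (bit y l)
  have key : cl h (l + 1) y < op h l x ↔ code y l < code x l := by
    rw [cl_succ_eq h l hl y, op_eq h l hl x, scale_lt]; omega
  by_cases h1 : l + 1 < h
  · simp only [mkP, mkQ, hl, h1, dif_pos, coreAdj, key]
  · have h2 : l + 1 = h := by omega
    rw [← key]
    simp [mkP, mkQ, hl, coreAdj, h2]

lemma adjS_11 (l : ℕ) (hl : l + 1 < h) (x y : Fin h → Bool) :
    coreAdj (mkQ (l + 1) x) (mkP (l + 1) y) ↔ code y (l + 1) < code x (l + 1) := by
  have key : cl h (l + 1) y < op h (l + 1) x ↔ code y (l + 1) < code x (l + 1) := by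
    rw [cl_succ_eq h l (by omega) y, op_succ_eq h l (by omega) x, scale_lt, code_succ, code_succ]
    omega
  simp only [mkP, mkQ, hl, dif_pos, coreAdj, key]

lemma adjX (x y : Fin h → Bool) :
    coreAdj (.X x : Lab h) (.X y) ↔ code y h ≤ code x h := by
  simp only [coreAdj, op, cl]
  have : h + 1 - h = 1 := by omega
  rw [this]; simp; omega

lemma mkP_h (x : Fin h → Bool) : mkP h x = .X x := by simp [mkP]
lemma mkQ_h (x : Fin h → Bool) : mkQ h x = .X x := by simp [mkQ]

end vals

section order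
variable {h : ℕ}

lemma oP_00 {l : ℕ} (hl : l < h) {x y : Fin h → Bool} (H : val (mkP l x) ≤ val (mkP l y)) :
    code x l ≤ code y l := by
  rw [val_mkP l hl, val_mkP l hl, scale_le] at H; omega
lemma oP_01 {l : ℕ} (hl : l < h) {x y : Fin h → Bool} (H : val (mkP l x) ≤ val (mkP (l+1) y)) :
    code x l ≤ code y l := by
  have := toNat_le_one (bit y l)
  rw [val_mkP l hl, val_mkP_succ l hl, scale_le] at H; omega
lemma oP_10 {l : ℕ} (hl : l < h) {x y : Fin h → Bool} (H : val (mkP (l+1) x) ≤ val (mkP l y)) :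
    code x l < code y l := by
  have := toNat_le_one (bit x l)
  rw [val_mkP l hl, val_mkP_succ l hl, scale_le] at H; omega
lemma oP_11 {l : ℕ} (hl : l < h) {x y : Fin h → Bool}
    (H : val (mkP (l+1) x) ≤ val (mkP (l+1) y)) :
    code x (l+1) ≤ code y (l+1) := by
  rw [val_mkP_succ l hl, val_mkP_succ l hl, scale_le] at H
  rw [code_succ, code_succ]; omega
lemma oQ_00 {l : ℕ} (hl : l < h) {x y : Fin h → Bool} (H : val (mkQ l x) ≤ val (mkQ l y)) :
    code x l ≤ code y l := by
  rw [val_mkQ l hl, val_mkQ l hl, scale_le] at H; omega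
lemma oQ_01 {l : ℕ} (hl : l < h) {x y : Fin h → Bool} (H : val (mkQ l x) ≤ val (mkQ (l+1) y)) :
    code x l < code y l := by
  have := toNat_le_one (bit y l)
  obtain ⟨d, hd, h1, -⟩ := val_mkQ_succ l hl y
  rw [val_mkQ l hl, h1, scale_le] at H; omega
lemma oQ_10 {l : ℕ} (hl : l < h) {x y : Fin h → Bool} (H : val (mkQ (l+1) x) ≤ val (mkQ l y)) :
    code x l ≤ code y l := by
  have := toNat_le_one (bit x l)
  obtain ⟨d, hd, h1, -⟩ := val_mkQ_succ l hl x
  rw [val_mkQ l hl, h1, scale_le] at H; omega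
lemma oQ_11 {l : ℕ} (hl : l < h) {x y : Fin h → Bool}
    (H : val (mkQ (l+1) x) ≤ val (mkQ (l+1) y)) :
    code x (l+1) ≤ code y (l+1) := by
  obtain ⟨d, hd, h1, hd2⟩ := val_mkQ_succ l hl x
  obtain ⟨d', hd', h1', hd2'⟩ := val_mkQ_succ l hl y
  have hdd : d = d' := by
    by_cases hh : l + 1 < h
    · rw [hd2.mpr hh, hd2'.mpr hh]
    · have : d ≠ 7 := fun e => hh (hd2.mp e)
      have : d' ≠ 7 := fun e => hh (hd2'.mp e)
      omega
  rw [h1, h1', scale_le] at H
  rw [code_succ, code_succ]; omega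

lemma code_mono_succ {x y : Fin h → Bool} {l : ℕ} (H : code x (l+1) ≤ code y (l+1)) :
    code x l ≤ code y l := by
  have := toNat_le_one (bit x l)
  have := toNat_le_one (bit y l)
  rw [code_succ, code_succ] at H; omega

lemma code_succ_le_of_le {x y : Fin h → Bool} {l : ℕ} (hb : bit x l = bit y l)
    (H : code x l ≤ code y l) : code x (l+1) ≤ code y (l+1) := by
  rw [code_succ, code_succ, hb]; omega

lemma code_succ_lt_of_lt {x y : Fin h → Bool} {l : ℕ}
    (H : code x l < code y l) : code x (l+1) < code y (l+1) := by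
  have := toNat_le_one (bit x l)
  have := toNat_le_one (bit y l)
  rw [code_succ, code_succ]; omega

/-- In the core the forbidden `2 × 2` pattern only occurs at a common leaf. -/
lemma noK (l : ℕ) (hl : l < h) (g : Gad) (r1 r2 c1 c2 : Lab h)
    (hr1 : accR l g r1) (hr2 : accR l g r2) (hc1 : accC l g c1) (hc2 : accC l g c2)
    (hr1c : IsCore r1) (hc1c : IsCore c1)
    (hr : IsCore r2 → val r1 ≤ val r2) (hc : IsCore c2 → val c2 ≤ val c1)
    (h11 : coreAdj r1 c1) (h12 : ¬ coreAdj r1 c2) (h21 : ¬ coreAdj r2 c1)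
    (hZr : g = .N1 ∨ g = .S1 → IsCore c2) (hZc : (∃ a, g = .N2 a ∨ g = .S2 a) → IsCore r2) :
    ∃ x, r1 = .X x ∧ c1 = .X x := by
  cases g with
  | N1 =>
    exfalso
    have hc2c := hZr (Or.inl rfl)
    have hc' := hc hc2c
    rcases hr1 with ⟨x, rfl⟩ | ⟨s, rfl⟩
    swap; · exact hr1c
    apply h12
    rcases hc1 with ⟨y, rfl⟩ | ⟨y, rfl⟩ <;> rcases hc2 with ⟨y2, rfl⟩ | ⟨y2, rfl⟩
    · rw [adjN_00 l hl] at h11 ⊢
      exact (oQ_00 hl hc').trans h11
    · rw [adjN_00 l hl] at h11
      rw [adjN_01 l hl]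
      exact (oQ_10 hl hc').trans h11
    · rw [adjN_01 l hl] at h11
      rw [adjN_00 l hl]
      exact (oQ_01 hl hc').le.trans h11
    · rw [adjN_01 l hl] at h11 ⊢
      exact (code_mono_succ (oQ_11 hl hc')).trans h11
  | N2 a =>
    exfalso
    have hr2c := hZc ⟨a, Or.inl rfl⟩
    have hr' := hr hr2c
    rcases hc1 with ⟨y, rfl, hy⟩ | ⟨s, rfl⟩
    swap; · exact hc1c
    apply h21
    rcases hr1 with ⟨x, rfl⟩ | ⟨x, rfl, hx⟩ <;> rcases hr2 with ⟨x2, rfl⟩ | ⟨x2, rfl, hx2⟩
    · rw [adjN_01 l hl] at h11 ⊢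
      exact h11.trans (oP_00 hl hr')
    · rw [adjN_01 l hl] at h11
      rw [adjN_11 l hl]
      exact code_succ_le_of_le (by rw [hy, hx2]) (h11.trans (oP_01 hl hr'))
    · rw [adjN_11 l hl] at h11
      rw [adjN_01 l hl]
      exact (code_mono_succ h11).trans (oP_10 hl hr').le
    · rw [adjN_11 l hl] at h11 ⊢
      exact h11.trans (oP_11 hl hr')
  | S1 =>
    exfalso
    have hc2c := hZr (Or.inr rfl)
    have hc' := hc hc2c
    rcases hr1 with ⟨x, rfl⟩ | ⟨s, rfl⟩
    swap; · exact hr1c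
    apply h12
    rcases hc1 with ⟨y, rfl⟩ | ⟨y, rfl⟩ <;> rcases hc2 with ⟨y2, rfl⟩ | ⟨y2, rfl⟩
    · rw [adjS_00 l hl] at h11 ⊢
      exact (oP_00 hl hc').trans_lt h11
    · rw [adjS_00 l hl] at h11
      rw [adjS_01 l hl]
      exact (oP_10 hl hc').trans h11
    · rw [adjS_01 l hl] at h11
      rw [adjS_00 l hl]
      exact (oP_01 hl hc').trans_lt h11
    · rw [adjS_01 l hl] at h11 ⊢
      exact (code_mono_succ (oP_11 hl hc')).trans_lt h11
  | S2 a =>
    have hr2c := hZc ⟨a, Or.inr rfl⟩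
    have hr' := hr hr2c
    rcases hc1 with ⟨y, rfl, hy⟩ | ⟨s, rfl⟩
    swap; · exact hc1c.elim
    by_cases hh : l + 1 < h
    · exfalso
      apply h21
      rcases hr1 with ⟨x, rfl⟩ | ⟨x, rfl, hx⟩ <;> rcases hr2 with ⟨x2, rfl⟩ | ⟨x2, rfl, hx2⟩
      · rw [adjS_01 l hl] at h11 ⊢
        exact h11.trans_le (oQ_00 hl hr')
      · rw [adjS_01 l hl] at h11
        rw [adjS_11 l hh]
        exact code_succ_lt_of_lt (h11.trans (oQ_01 hl hr'))
      · rw [adjS_11 l hh] at h11
        rw [adjS_01 l hl]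
        have h3 := oQ_10 hl hr'
        rw [code_succ, code_succ, hy, hx] at h11
        omega
      · rw [adjS_11 l hh] at h11 ⊢
        exact h11.trans_le (oQ_11 hl hr')
    · have h2 : l + 1 = h := by omega
      have eP : ∀ z : Fin h → Bool, mkP (l+1) z = .X z := fun z => by simp [mkP, h2]
      have eQ : ∀ z : Fin h → Bool, mkQ (l+1) z = .X z := fun z => by simp [mkQ, h2]
      have eC : ∀ z : Fin h → Bool, code z h = code z (l + 1) := fun z => congrArg (code z) h2.symm
      rcases hr1 with ⟨x, rfl⟩ | ⟨x, rfl, hx⟩ <;> rcases hr2 with ⟨x2, rfl⟩ | ⟨x2, rfl, hx2⟩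
      · exfalso; apply h21
        rw [adjS_01 l hl] at h11 ⊢
        exact h11.trans_le (oQ_00 hl hr')
      · exfalso; apply h21
        rw [adjS_01 l hl] at h11
        rw [eP, eQ, adjX, eC, eC]
        exact (code_succ_lt_of_lt (h11.trans (oQ_01 hl hr'))).le
      · refine ⟨x, eQ x, ?_⟩
        rw [eP]
        have h3 := oQ_10 hl hr'
        rw [eP, eQ, adjX, eC, eC] at h11
        rw [adjS_01 l hl] at h21
        congr 1
        apply code_inj_full
        rw [eC, eC]
        apply le_antisymm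
        · exact h11
        · exact code_succ_le_of_le (by rw [hx, hy]) (by omega)
      · exfalso; apply h21
        have h3 := oQ_11 hl hr'
        rw [eP, eQ, adjX, eC, eC] at h11 ⊢
        exact h11.trans h3
end order

section struct
variable {h : ℕ}

/-- frame labels -/
def IsF {h : ℕ} : Lab h → Prop
  | .F _ _ _ _ => True
  | _ => False

/-- level of a core label -/
def lvl {h : ℕ} : Lab h → ℕ
  | .P l _ => l
  | .Q l _ => l
  | .X _ => h
  | _ => 0

lemma lvl_mkP {l : ℕ} (hl : l ≤ h) (x : Fin h → Bool) : lvl (mkP l x) = l := by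
  unfold mkP
  split_ifs with h1
  · rfl
  · simp only [lvl]; omega

lemma lvl_mkQ {l : ℕ} (hl : l ≤ h) (x : Fin h → Bool) : lvl (mkQ l x) = l := by
  unfold mkQ
  split_ifs with h1
  · rfl
  · simp only [lvl]; omega

lemma accR_level {l : ℕ} (hl : l < h) {g : Gad} {r : Lab h} (H : accR l g r) (hr : IsCore r) :
    lvl r = l ∨ lvl r = l + 1 := by
  cases g
  · rcases H with ⟨x, rfl⟩ | ⟨s, rfl⟩
    · left; exact lvl_mkP hl.le x
    · exact hr.elim
  · rcases H with ⟨x, rfl⟩ | ⟨x, rfl, -⟩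
    · left; exact lvl_mkP hl.le x
    · right; exact lvl_mkP hl x
  · rcases H with ⟨x, rfl⟩ | ⟨s, rfl⟩
    · left; exact lvl_mkQ hl.le x
    · exact hr.elim
  · rcases H with ⟨x, rfl⟩ | ⟨x, rfl, -⟩
    · left; exact lvl_mkQ hl.le x
    · right; exact lvl_mkQ hl x

lemma accC_level {l : ℕ} (hl : l < h) {g : Gad} {c : Lab h} (H : accC l g c) (hc : IsCore c) :
    lvl c = l ∨ lvl c = l + 1 := by
  cases g
  · rcases H with ⟨x, rfl⟩ | ⟨x, rfl⟩
    · left; exact lvl_mkQ hl.le x
    · right; exact lvl_mkQ hl x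
  · rcases H with ⟨x, rfl, -⟩ | ⟨s, rfl⟩
    · right; exact lvl_mkQ hl x
    · exact hc.elim
  · rcases H with ⟨x, rfl⟩ | ⟨x, rfl⟩
    · left; exact lvl_mkP hl.le x
    · right; exact lvl_mkP hl x
  · rcases H with ⟨x, rfl, -⟩ | ⟨s, rfl⟩
    · right; exact lvl_mkP hl x
    · exact hc.elim

lemma accR_not_F {l : ℕ} {g : Gad} {r : Lab h} (H : accR l g r) : ¬ IsF r := by
  have eP : ∀ (k : ℕ) (x : Fin h → Bool), ¬ IsF (mkP k x) := by
    intro k x; unfold mkP; split_ifs <;> simp [IsF]
  have eQ : ∀ (k : ℕ) (x : Fin h → Bool), ¬ IsF (mkQ k x) := by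
    intro k x; unfold mkQ; split_ifs <;> simp [IsF]
  cases g
  · rcases H with ⟨x, rfl⟩ | ⟨s, rfl⟩
    · exact eP _ _
    · simp [IsF]
  · rcases H with ⟨x, rfl⟩ | ⟨x, rfl, -⟩ <;> exact eP _ _
  · rcases H with ⟨x, rfl⟩ | ⟨s, rfl⟩
    · exact eQ _ _
    · simp [IsF]
  · rcases H with ⟨x, rfl⟩ | ⟨x, rfl, -⟩ <;> exact eQ _ _

lemma coreAdj_core {r c : Lab h} (H : coreAdj r c) : IsCore r ∧ IsCore c := by
  cases r <;> cases c <;> simp_all [coreAdj, IsCore]

/-- kind of a label -/
def kind {h : ℕ} : Lab h → Fin 3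
  | .P _ _ => 0
  | .Q _ _ => 1
  | _ => 2

def mu {h : ℕ} : Lab h → ℕ
  | .P l x => cl h l x
  | .Q l x => op h l x
  | .X x => op h h x
  | _ => 0

lemma nest {r r' c : Lab h} (hr : IsCore r) (hr' : IsCore r') (hk : kind r = kind r')
    (hm : mu r ≤ mu r') (H : coreAdj r c) : coreAdj r' c := by
  have e1 : ∀ x : Fin h → Bool, op h h x = 4 * code x h := by
    intro x; unfold op
    have : h + 1 - h = 1 := by omega
    rw [this]; ring
  have e2 : ∀ x : Fin h → Bool, cl h h x = 4 * code x h + 3 := by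
    intro x; unfold cl
    simp
  cases r <;> cases r' <;> simp_all [kind, IsCore] <;> cases c <;>
    simp_all [coreAdj, mu] <;> omega

lemma adj_F_col (r : Lab h) (l : Fin h) (g : Gad) (j : Fin 64) (t t' : Fin h → Bool) :
    Adj r (.F l g j t) ↔ Adj r (.F l g j t') := by cases r <;> exact Iff.rfl

lemma adj_F_row (c : Lab h) (l : Fin h) (g : Gad) (j : Fin 64) (t t' : Fin h → Bool) :
    Adj (.F l g j t) c ↔ Adj (.F l g j t') c := by cases c <;> exact Iff.rfl

lemma accZ_congr {l : ℕ} {g : Gad} {s s' : Fin h → Bool} (H : accR l g (.Z s : Lab h)) :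
    accR l g (.Z s' : Lab h) := by
  cases g <;> simp_all [accR, mkP, mkQ] <;>
  · rcases H with ⟨x, H⟩ | ⟨x, H, -⟩ <;> split_ifs at H

lemma accZ_congr' {l : ℕ} {g : Gad} {s s' : Fin h → Bool} (H : accC l g (.Z s : Lab h)) :
    accC l g (.Z s' : Lab h) := by
  cases g <;> simp_all [accC, mkP, mkQ] <;>
  · rcases H with ⟨x, H⟩ | ⟨x, H⟩ <;> split_ifs at H

lemma adj_Z_row (c : Lab h) (s s' : Fin h → Bool) (H : Adj (.Z s) c) : Adj (.Z s') c := by
  cases c with
  | F l g j t => exact ⟨H.1, accZ_congr H.2⟩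
  | P => exact H
  | Q => exact H
  | X => exact H
  | Z => exact H

lemma adj_Z_col (r : Lab h) (s s' : Fin h → Bool) (H : Adj r (.Z s)) : Adj r (.Z s') := by
  cases r with
  | F l g j t => exact ⟨H.1, accZ_congr' H.2⟩
  | P => exact H
  | Q => exact H
  | X => exact H
  | Z => exact H

lemma adj_nonF {r c : Lab h} (hr : ¬ IsF r) (hc : ¬ IsF c) : Adj r c ↔ coreAdj r c := by
  cases r <;> cases c <;> simp_all [IsF, Adj]

lemma adj_nonF_F {r : Lab h} (hr : ¬ IsF r) (l : Fin h) (g : Gad) (j : Fin 64)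
    (t : Fin h → Bool) : Adj r (.F l g j t) ↔ (j = 0 ∧ accR l g r) := by
  cases r <;> simp_all [IsF, Adj]

lemma adj_F_nonF {c : Lab h} (hc : ¬ IsF c) (l : Fin h) (g : Gad) (i : Fin 64)
    (s : Fin h → Bool) : Adj (.F l g i s) c ↔ (i = 0 ∧ accC l g c) := by
  cases c <;> simp_all [IsF, Adj]

lemma rk_F_iff (r : Lab h) : rk r < 0 ↔ IsF r := by
  cases r with
  | F l g i s => simp only [rk, IsF, iff_true]; have := i.2; omega
  | P l x => simp [rk, IsF]
  | Q l x => simp [rk, IsF]
  | X x => simp [rk, IsF]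
  | Z s => simp only [rk, IsF, iff_false, not_lt]; positivity

lemma ck_F_iff (c : Lab h) : ck c < -4 ^ (h + 1) ↔ IsF c := by
  cases c with
  | F l g i s => simp only [ck, IsF, iff_true]; have := i.2; omega
  | P l x =>
    simp only [ck, IsF, iff_false, not_lt]
    have := op_lt h l l.2.le x
    have : (op h l x : ℤ) < 4 ^ (h + 1) := by exact_mod_cast this
    omega
  | Q l x =>
    simp only [ck, IsF, iff_false, not_lt]
    have := cl_lt h l l.2.le x
    have : (cl h l x : ℤ) < 4 ^ (h + 1) := by exact_mod_cast this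
    omega
  | X x =>
    simp only [ck, IsF, iff_false, not_lt]
    have := op_lt h h le_rfl x
    have : (op h h x : ℤ) < 4 ^ (h + 1) := by exact_mod_cast this
    omega
  | Z s =>
    simp only [ck, IsF, iff_false, not_lt]
    have : (0:ℤ) < 4 ^ (h + 1) := by positivity
    omega

lemma rk_Z_max {r : Lab h} (H : (4:ℤ) ^ (h + 1) ≤ rk r) : ∃ s, r = .Z s := by
  cases r with
  | F l g i s =>
    simp only [rk] at H
    have : (0:ℤ) < 4 ^ (h + 1) := by positivity
    have := i.2
    omega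
  | P l x =>
    simp only [rk] at H
    have := op_lt h l l.2.le x
    have : (op h l x : ℤ) < 4 ^ (h + 1) := by exact_mod_cast this
    omega
  | Q l x =>
    simp only [rk] at H
    have := cl_lt h l l.2.le x
    have : (cl h l x : ℤ) < 4 ^ (h + 1) := by exact_mod_cast this
    omega
  | X x =>
    simp only [rk] at H
    have := op_lt h h le_rfl x
    have : (op h h x : ℤ) < 4 ^ (h + 1) := by exact_mod_cast this
    omega
  | Z s => exact ⟨s, rfl⟩

lemma ck_Z_max {r : Lab h} (H : 1 ≤ ck r) : ∃ s, r = .Z s := by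
  cases r with
  | F l g i s =>
    simp only [ck] at H
    have : (0:ℤ) < 4 ^ (h + 1) := by positivity
    have := i.2
    omega
  | P l x => simp only [ck] at H; omega
  | Q l x => simp only [ck] at H; omega
  | X x => simp only [ck] at H; omega
  | Z s => exact ⟨s, rfl⟩

end struct

section main
variable {h : ℕ}

lemma ph {T : Type} [Fintype T] (hT : Fintype.card T < 63) (rel : Fin 63 → T → Prop)
    (hex : ∀ j, ∃ t, rel j t) (hc : ∀ j k t, j ≠ k → rel j t → rel k t → False) : False := by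
  choose f hf using hex
  obtain ⟨j, k, hjk, hfe⟩ := Fintype.exists_ne_map_eq_of_card_lt f (by simpa using hT)
  exact hc j k (f j) hjk (hf j) (hfe ▸ hf k)

/-- the roles `1..63` -/
def e (j : Fin 63) : Fin 66 := ⟨j + 1, by omega⟩

lemma hf_e (j k : Fin 63) : Hf (e j) (e k) ↔ j = k := by
  unfold Hf e; simp only [Fin.ext_iff]; omega
lemma hf_0e (k : Fin 63) : Hf (0 : Fin 66) (e k) := by
  unfold Hf e; simp
lemma hf_e0 (k : Fin 63) : Hf (e k) (0 : Fin 66) := by
  unfold Hf e; simp

lemma core_of_not {r : Lab h} (h1 : ¬ IsF r) : IsCore r ∨ ∃ s, r = .Z s := by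
  cases r <;> simp_all [IsF, IsCore]

variable (R C : Fin 66 → Lab h)
  (hR : ∀ i j, i < j → rk (R i) ≤ rk (R j)) (hC : ∀ i j, i < j → ck (C i) ≤ ck (C j))
  (hA : ∀ i j : Fin 66, Adj (R i) (C j) ↔ Hf i j)

include hR hC hA

omit hR hC in
lemma core_kind_false (hcc : ∀ j : Fin 63, ∃ t : Fin 3, kind (R (e j)) = t ∧ IsCore (R (e j)) ∧
    ¬ IsF (C (e j))) : False := by
  refine ph (T := Fin 3) (by decide)
    (fun j t => kind (R (e j)) = t ∧ IsCore (R (e j)) ∧ ¬ IsF (C (e j))) hcc ?_
  rintro j k t hjk ⟨h1, h2, h3⟩ ⟨h1', h2', h3'⟩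
  have n1 : ¬ IsF (R (e j)) := by
    intro hh; cases hr : R (e j) <;> simp_all [IsF, IsCore]
  have n2 : ¬ IsF (R (e k)) := by
    intro hh; cases hr : R (e k) <;> simp_all [IsF, IsCore]
  have a1 : coreAdj (R (e j)) (C (e j)) := (adj_nonF n1 h3).1 ((hA _ _).2 ((hf_e _ _).2 rfl))
  have a2 : coreAdj (R (e k)) (C (e k)) := (adj_nonF n2 h3').1 ((hA _ _).2 ((hf_e _ _).2 rfl))
  rcases le_total (mu (R (e j))) (mu (R (e k))) with hm | hm
  · have := nest h2 h2' (h1.trans h1'.symm) hm a1
    exact hjk ((hf_e _ _).1 ((hA _ _).1 ((adj_nonF n2 h3).2 this))).symm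
  · have := nest h2' h2 (h1'.trans h1.symm) hm a2
    exact hjk ((hf_e _ _).1 ((hA _ _).1 ((adj_nonF n1 h3').2 this)))

omit hC in
lemma rows0 : ∃ l g s, R 0 = .F l g 0 s := by
  by_cases hF : IsF (R 0)
  · cases hr : R 0 with
    | F l g i s =>
      by_cases hi : i = 0
      · exact ⟨l, g, s, by rw [hi]⟩
      · exfalso
        refine ph (T := Bool) (by decide)
          (fun j t => ∃ j' u, C (e j) = .F l g j' u ∧ (t = true ↔ j' = 0) ∧ (j' = 0 ∨ j' = i))
          ?_ ?_
        · intro j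
          have a := (hA 0 (e j)).2 (hf_0e j)
          rw [hr] at a
          by_cases hc : IsF (C (e j))
          · cases hcc : C (e j) with
            | F l' g' j' u =>
              rw [hcc] at a
              obtain ⟨rfl, rfl, hh⟩ := a
              refine ⟨decide (j' = 0), j', u, rfl, by simp, ?_⟩
              unfold Hf at hh
              have : (i : ℕ) ≠ 0 := fun h0 => hi (Fin.ext h0)
              rcases hh with hh | hh | hh
              · exact absurd hh.1 this
              · left; exact Fin.ext hh.1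
              · right; exact Fin.ext hh.1.symm
            | _ => simp_all [IsF]
          · rw [adj_F_nonF hc] at a
            exact absurd a.1 hi
        · rintro j k t hjk ⟨j', u, h1, h2, h3⟩ ⟨j'', u', h1', h2', h3'⟩
          have hjj : j' = j'' := by
            rcases h3 with h3 | h3 <;> rcases h3' with h3' | h3'
            · rw [h3, h3']
            · exact h3.trans (h2'.1 (h2.2 h3)).symm
            · exact (h2.1 (h2'.2 h3')).trans h3'.symm
            · rw [h3, h3']
          have a := (hA (e j) (e j)).2 ((hf_e _ _).2 rfl)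
          rw [h1, hjj, adj_F_col _ _ _ _ _ u', ← h1'] at a
          exact hjk ((hf_e _ _).1 ((hA _ _).1 a))
    | _ => simp_all [IsF]
  · exfalso
    rcases core_of_not hF with hco | ⟨s, hs⟩
    · have hnF : ∀ j, ¬ IsF (R (e j)) := by
        intro j hj
        have h1 := (rk_F_iff _).2 hj
        have h2 := hR 0 (e j) (by simp [e, Fin.lt_def])
        exact hF ((rk_F_iff _).1 (lt_of_le_of_lt h2 h1))
      refine ph (T := (Bool × Gad) ⊕ Fin 3) (by simp [card_gad])
        (fun j t => match t with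
          | .inl (b, g) => ∃ l u, C (e j) = .F l g 0 u ∧
              (lvl (R 0) = (l : ℕ) ∨ lvl (R 0) = l + 1) ∧ (b = true ↔ lvl (R 0) = (l : ℕ))
          | .inr t => kind (R (e j)) = t ∧ IsCore (R (e j)) ∧ ¬ IsF (C (e j))) ?_ ?_
      · intro j
        by_cases hc : IsF (C (e j))
        · have a := (hA 0 (e j)).2 (hf_0e j)
          cases hcc : C (e j) with
          | F l' g' j' u =>
            rw [hcc, adj_nonF_F hF] at a
            refine ⟨.inl (decide (lvl (R 0) = (l' : ℕ)), g'), l', u, ?_, ?_, by simp⟩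
            · rw [← a.1]
            · exact accR_level l'.2 a.2 hco
          | _ => simp_all [IsF]
        · have a := (hA (e j) (e j)).2 ((hf_e _ _).2 rfl)
          rw [adj_nonF (hnF j) hc] at a
          exact ⟨.inr (kind (R (e j))), rfl, (coreAdj_core a).1, hc⟩
      · rintro j k (⟨b, g⟩ | t) hjk h1 h2
        · obtain ⟨l, u, e1, e2, e3⟩ := h1
          obtain ⟨l', u', e1', e2', e3'⟩ := h2
          have hll : l = l' := by
            apply Fin.ext
            by_cases hb : b = true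
            · exact (e3.1 hb).symm.trans (e3'.1 hb)
            · have n1 : ¬ lvl (R 0) = (l : ℕ) := fun hh => hb (e3.2 hh)
              have n2 : ¬ lvl (R 0) = (l' : ℕ) := fun hh => hb (e3'.2 hh)
              omega
          have a := (hA (e j) (e j)).2 ((hf_e _ _).2 rfl)
          rw [e1, hll, adj_F_col _ _ _ _ _ u', ← e1'] at a
          exact hjk ((hf_e _ _).1 ((hA _ _).1 a))
        · obtain ⟨h1, h2', h3⟩ := h1
          obtain ⟨h1', h2'', h3'⟩ := h2
          have a1 : coreAdj (R (e j)) (C (e j)) :=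
            (adj_nonF (hnF j) h3).1 ((hA _ _).2 ((hf_e _ _).2 rfl))
          have a2 : coreAdj (R (e k)) (C (e k)) :=
            (adj_nonF (hnF k) h3').1 ((hA _ _).2 ((hf_e _ _).2 rfl))
          rcases le_total (mu (R (e j))) (mu (R (e k))) with hm | hm
          · have := nest h2' h2'' (h1.trans h1'.symm) hm a1
            exact hjk ((hf_e _ _).1 ((hA _ _).1 ((adj_nonF (hnF k) h3).2 this))).symm
          · have := nest h2'' h2' (h1'.trans h1.symm) hm a2
            exact hjk ((hf_e _ _).1 ((hA _ _).1 ((adj_nonF (hnF j) h3').2 this)))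
    · have h1 := hR 0 1 (by decide)
      rw [hs] at h1
      obtain ⟨s', hs'⟩ := rk_Z_max h1
      have a := (hA 0 2).2 (by unfold Hf; decide)
      rw [hs] at a
      have a' := adj_Z_row _ s s' a
      rw [← hs'] at a'
      have := (hA 1 2).1 a'
      revert this
      unfold Hf; decide

omit hR in
lemma cols0 : ∃ l g s, C 0 = .F l g 0 s := by
  by_cases hF : IsF (C 0)
  · cases hr : C 0 with
    | F l g i s =>
      by_cases hi : i = 0
      · exact ⟨l, g, s, by rw [hi]⟩
      · exfalso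
        refine ph (T := Bool) (by decide)
          (fun j t => ∃ j' u, R (e j) = .F l g j' u ∧ (t = true ↔ j' = 0) ∧ (j' = 0 ∨ j' = i))
          ?_ ?_
        · intro j
          have a := (hA (e j) 0).2 (hf_e0 j)
          rw [hr] at a
          by_cases hc : IsF (R (e j))
          · cases hcc : R (e j) with
            | F l' g' j' u =>
              rw [hcc] at a
              obtain ⟨rfl, rfl, hh⟩ := a
              refine ⟨decide (j' = 0), j', u, rfl, by simp, ?_⟩
              unfold Hf at hh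
              have : (i : ℕ) ≠ 0 := fun h0 => hi (Fin.ext h0)
              rcases hh with hh | hh | hh
              · left; exact Fin.ext hh.1
              · exact absurd hh.1 this
              · right; exact Fin.ext hh.1
            | _ => simp_all [IsF]
          · rw [adj_nonF_F hc] at a
            exact absurd a.1 hi
        · rintro j k t hjk ⟨j', u, h1, h2, h3⟩ ⟨j'', u', h1', h2', h3'⟩
          have hjj : j' = j'' := by
            rcases h3 with h3 | h3 <;> rcases h3' with h3' | h3'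
            · rw [h3, h3']
            · exact h3.trans (h2'.1 (h2.2 h3)).symm
            · exact (h2.1 (h2'.2 h3')).trans h3'.symm
            · rw [h3, h3']
          have a := (hA (e j) (e j)).2 ((hf_e _ _).2 rfl)
          rw [h1, hjj, adj_F_row _ _ _ _ _ u', ← h1'] at a
          exact hjk ((hf_e _ _).1 ((hA _ _).1 a)).symm
    | _ => simp_all [IsF]
  · exfalso
    rcases core_of_not hF with hco | ⟨s, hs⟩
    · have hnF : ∀ j, ¬ IsF (C (e j)) := by
        intro j hj
        have h1 := (ck_F_iff _).2 hj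
        have h2 := hC 0 (e j) (by simp [e, Fin.lt_def])
        exact hF ((ck_F_iff _).1 (lt_of_le_of_lt h2 h1))
      refine ph (T := (Bool × Gad) ⊕ Fin 3) (by simp [card_gad])
        (fun j t => match t with
          | .inl (b, g) => ∃ l u, R (e j) = .F l g 0 u ∧
              (lvl (C 0) = (l : ℕ) ∨ lvl (C 0) = l + 1) ∧ (b = true ↔ lvl (C 0) = (l : ℕ))
          | .inr t => kind (R (e j)) = t ∧ IsCore (R (e j)) ∧ ¬ IsF (R (e j))) ?_ ?_
      · intro j
        by_cases hc : IsF (R (e j))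
        · have a := (hA (e j) 0).2 (hf_e0 j)
          cases hcc : R (e j) with
          | F l' g' j' u =>
            rw [hcc, adj_F_nonF hF] at a
            refine ⟨.inl (decide (lvl (C 0) = (l' : ℕ)), g'), l', u, ?_, ?_, by simp⟩
            · rw [← a.1]
            · exact accC_level l'.2 a.2 hco
          | _ => simp_all [IsF]
        · have a := (hA (e j) (e j)).2 ((hf_e _ _).2 rfl)
          rw [adj_nonF hc (hnF j)] at a
          exact ⟨.inr (kind (R (e j))), rfl, (coreAdj_core a).1, hc⟩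
      · rintro j k (⟨b, g⟩ | t) hjk h1 h2
        · obtain ⟨l, u, e1, e2, e3⟩ := h1
          obtain ⟨l', u', e1', e2', e3'⟩ := h2
          have hll : l = l' := by
            apply Fin.ext
            by_cases hb : b = true
            · exact (e3.1 hb).symm.trans (e3'.1 hb)
            · have n1 : ¬ lvl (C 0) = (l : ℕ) := fun hh => hb (e3.2 hh)
              have n2 : ¬ lvl (C 0) = (l' : ℕ) := fun hh => hb (e3'.2 hh)
              omega
          have a := (hA (e j) (e j)).2 ((hf_e _ _).2 rfl)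
          rw [e1, hll, adj_F_row _ _ _ _ _ u', ← e1'] at a
          exact hjk ((hf_e _ _).1 ((hA _ _).1 a)).symm
        · obtain ⟨h1, h2', h3⟩ := h1
          obtain ⟨h1', h2'', h3'⟩ := h2
          have a1 : coreAdj (R (e j)) (C (e j)) :=
            (adj_nonF h3 (hnF j)).1 ((hA _ _).2 ((hf_e _ _).2 rfl))
          have a2 : coreAdj (R (e k)) (C (e k)) :=
            (adj_nonF h3' (hnF k)).1 ((hA _ _).2 ((hf_e _ _).2 rfl))
          rcases le_total (mu (R (e j))) (mu (R (e k))) with hm | hm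
          · have := nest h2' h2'' (h1.trans h1'.symm) hm a1
            exact hjk ((hf_e _ _).1 ((hA _ _).1 ((adj_nonF h3' (hnF j)).2 this))).symm
          · have := nest h2'' h2' (h1'.trans h1.symm) hm a2
            exact hjk ((hf_e _ _).1 ((hA _ _).1 ((adj_nonF h3 (hnF k)).2 this)))
    · have h1 := hC 0 1 (by decide)
      rw [hs] at h1
      obtain ⟨s', hs'⟩ := ck_Z_max h1
      have a := (hA 2 0).2 (by unfold Hf; decide)
      rw [hs] at a
      have a' := adj_Z_col _ s s' a
      rw [← hs'] at a'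
      have := (hA 2 1).1 a'
      revert this
      unfold Hf; decide

/-- main structural lemma -/
theorem struct : ∃ x, R 64 = .X x ∧ C 64 = .X x := by
  obtain ⟨l, g, s, hR0⟩ := rows0 R C hR hA
  obtain ⟨l', g', s', hC0⟩ := cols0 R C hC hA
  -- same gadget
  have hG : l = l' ∧ g = g' := by
    by_contra hne
    refine core_kind_false R C hA ?_
    intro j
    have a1 := (hA 0 (e j)).2 (hf_0e j)
    have a2 := (hA (e j) 0).2 (hf_e0 j)
    have a3 := (hA (e j) (e j)).2 ((hf_e _ _).2 rfl)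
    rw [hR0] at a1
    rw [hC0] at a2
    by_cases hr : IsF (R (e j)) <;> by_cases hc : IsF (C (e j))
    · exfalso
      cases hrr : R (e j) with
      | F l1 g1 i1 s1 =>
        cases hcc : C (e j) with
        | F l2 g2 i2 s2 =>
          rw [hcc] at a1; rw [hrr] at a2; rw [hrr, hcc] at a3
          exact hne ⟨a1.1.trans (a3.1.symm.trans a2.1), a1.2.1.trans (a3.2.1.symm.trans a2.2.1)⟩
        | _ => simp_all [IsF]
      | _ => simp_all [IsF]
    · exfalso
      cases hrr : R (e j) with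
      | F l1 g1 i1 s1 =>
        rw [hrr, adj_F_nonF hc] at a3
        rw [hrr] at a2
        have := a2.2.2
        rw [a3.1] at this
        revert this; unfold Hf; simp
      | _ => simp_all [IsF]
    · exfalso
      cases hcc : C (e j) with
      | F l1 g1 i1 s1 =>
        rw [hcc, adj_nonF_F hr] at a3
        rw [hcc] at a1
        have := a1.2.2
        rw [a3.1] at this
        revert this; unfold Hf; simp
      | _ => simp_all [IsF]
    · rw [adj_nonF hr hc] at a3
      exact ⟨kind (R (e j)), rfl, (coreAdj_core a3).1, hc⟩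
  obtain ⟨rfl, rfl⟩ := hG
  -- the last two rows and columns are not frames
  have hnr : ¬ IsF (R 64) := by
    intro h64
    have hF : ∀ j : Fin 64, ∃ i : {i : Fin 64 // i ≠ 0}, ∃ u,
        R ⟨j + 1, by omega⟩ = .F l g i u := by
      intro j
      have h1 : IsF (R ⟨j + 1, by omega⟩) := by
        rcases lt_or_ge (j : ℕ) 63 with hj | hj
        · have h2 := hR ⟨j + 1, by omega⟩ 64 (by simp [Fin.lt_def]; omega)
          exact (rk_F_iff _).1 (lt_of_le_of_lt h2 ((rk_F_iff _).2 h64))
        · have : (⟨j + 1, by omega⟩ : Fin 66) = 64 := by apply Fin.ext; simp; omega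
          rw [this]; exact h64
      have a2 := (hA ⟨j + 1, by omega⟩ 0).2 (by unfold Hf; simp)
      rw [hC0] at a2
      cases hrr : R ⟨j + 1, by omega⟩ with
      | F l1 g1 i1 s1 =>
        rw [hrr] at a2
        obtain ⟨rfl, rfl, h3⟩ := a2
        refine ⟨⟨i1, ?_⟩, s1, rfl⟩
        rintro rfl
        revert h3; unfold Hf; simp
      | _ => simp_all [IsF]
    choose f hf using hF
    obtain ⟨j, k, hjk, hfe⟩ := Fintype.exists_ne_map_eq_of_card_lt f (by
      rw [Fintype.card_subtype_compl]; simp)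
    obtain ⟨u, hu⟩ := hf j
    obtain ⟨u', hu'⟩ := hf k
    have a := (hA ⟨j + 1, by omega⟩ ⟨j + 1, by omega⟩).2 (by unfold Hf; simp)
    rw [hu, hfe, adj_F_row _ _ _ _ _ u', ← hu'] at a
    have := (hA _ _).1 a
    apply hjk
    unfold Hf at this
    apply Fin.ext
    simp at this
    omega
  have hnr' : ¬ IsF (R 65) := by
    intro h65
    have h2 := hR 64 65 (by decide)
    exact hnr ((rk_F_iff _).1 (lt_of_le_of_lt h2 ((rk_F_iff _).2 h65)))
  have hnc : ¬ IsF (C 64) := by
    intro h64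
    have hF : ∀ j : Fin 64, ∃ i : {i : Fin 64 // i ≠ 0}, ∃ u,
        C ⟨j + 1, by omega⟩ = .F l g i u := by
      intro j
      have h1 : IsF (C ⟨j + 1, by omega⟩) := by
        rcases lt_or_ge (j : ℕ) 63 with hj | hj
        · have h2 := hC ⟨j + 1, by omega⟩ 64 (by simp [Fin.lt_def]; omega)
          exact (ck_F_iff _).1 (lt_of_le_of_lt h2 ((ck_F_iff _).2 h64))
        · have : (⟨j + 1, by omega⟩ : Fin 66) = 64 := by apply Fin.ext; simp; omega
          rw [this]; exact h64
      have a2 := (hA 0 ⟨j + 1, by omega⟩).2 (by unfold Hf; simp)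
      rw [hR0] at a2
      cases hrr : C ⟨j + 1, by omega⟩ with
      | F l1 g1 i1 s1 =>
        rw [hrr] at a2
        obtain ⟨rfl, rfl, h3⟩ := a2
        refine ⟨⟨i1, ?_⟩, s1, rfl⟩
        rintro rfl
        revert h3; unfold Hf; simp
      | _ => simp_all [IsF]
    choose f hf using hF
    obtain ⟨j, k, hjk, hfe⟩ := Fintype.exists_ne_map_eq_of_card_lt f (by
      rw [Fintype.card_subtype_compl]; simp)
    obtain ⟨u, hu⟩ := hf j
    obtain ⟨u', hu'⟩ := hf k
    have a := (hA ⟨j + 1, by omega⟩ ⟨j + 1, by omega⟩).2 (by unfold Hf; simp)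
    rw [hu, hfe, adj_F_col _ _ _ _ _ u', ← hu'] at a
    have := (hA _ _).1 a
    apply hjk
    unfold Hf at this
    apply Fin.ext
    simp at this
    omega
  have hnc' : ¬ IsF (C 65) := by
    intro h65
    have h2 := hC 64 65 (by decide)
    exact hnc ((ck_F_iff _).1 (lt_of_le_of_lt h2 ((ck_F_iff _).2 h65)))
  have r1 : accR l g (R 64) := by
    have a := (hA 64 0).2 (by unfold Hf; decide)
    rw [hC0, adj_nonF_F hnr] at a; exact a.2
  have r2 : accR l g (R 65) := by
    have a := (hA 65 0).2 (by unfold Hf; decide)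
    rw [hC0, adj_nonF_F hnr'] at a; exact a.2
  have c1 : accC l g (C 64) := by
    have a := (hA 0 64).2 (by unfold Hf; decide)
    rw [hR0, adj_F_nonF hnc] at a; exact a.2
  have c2 : accC l g (C 65) := by
    have a := (hA 0 65).2 (by unfold Hf; decide)
    rw [hR0, adj_F_nonF hnc'] at a; exact a.2
  have k11 : coreAdj (R 64) (C 64) := (adj_nonF hnr hnc).1 ((hA 64 64).2 (by unfold Hf; decide))
  have k12 : ¬ coreAdj (R 64) (C 65) := fun hh => by
    have := (hA 64 65).1 ((adj_nonF hnr hnc').2 hh)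
    revert this; unfold Hf; decide
  have k21 : ¬ coreAdj (R 65) (C 64) := fun hh => by
    have := (hA 65 64).1 ((adj_nonF hnr' hnc).2 hh)
    revert this; unfold Hf; decide
  have core := coreAdj_core k11
  refine noK l l.2 g (R 64) (R 65) (C 64) (C 65) r1 r2 c1 c2 core.1 core.2 ?_ ?_ k11 k12 k21 ?_ ?_
  · intro h2
    have := hR 64 65 (by decide)
    rw [rk_core core.1, rk_core h2] at this
    exact_mod_cast this
  · intro h2
    have := hC 64 65 (by decide)
    rw [ck_core core.2, ck_core h2] at this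
    omega
  · rintro (rfl | rfl)
    · rcases c2 with ⟨y, hy⟩ | ⟨y, hy⟩ <;> rw [hy] <;> exact isCore_mkQ _ _
    · rcases c2 with ⟨y, hy⟩ | ⟨y, hy⟩ <;> rw [hy] <;> exact isCore_mkP _ _
  · rintro ⟨a, (rfl | rfl)⟩
    · rcases r2 with ⟨y, hy⟩ | ⟨y, hy, -⟩ <;> rw [hy] <;> exact isCore_mkP _ _
    · rcases r2 with ⟨y, hy⟩ | ⟨y, hy, -⟩ <;> rw [hy] <;> exact isCore_mkQ _ _

end main

section far
variable {h : ℕ}

def mix (l : ℕ) (x t : Fin h → Bool) : Fin h → Bool :=
  fun i => if (i : ℕ) < l then xor (x i) (t i) else x i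

def idx : Lab h → (Fin h → Bool)
  | .F _ _ _ s => s
  | .P _ x => x
  | .Q _ x => x
  | .X x => x
  | .Z s => s

def tag (r c : Lab h) : (Fin h → Bool) × (Fin h → Bool) :=
  (mix (lvl r) (idx r) (idx c), mix (lvl c) (idx c) (idx r))

lemma mix_zero (x t : Fin h → Bool) : mix 0 x t = x := by
  funext i; simp [mix]

lemma mix_mix (l : ℕ) (x t : Fin h → Bool) : mix l (mix l x t) t = x := by
  funext i; unfold mix; split_ifs <;> simp

lemma bit_mix_lt (l : ℕ) (x t : Fin h → Bool) (i : ℕ) (hi : i < l) (hh : i < h) :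
    bit (mix l x t) i = xor (bit x i) (bit t i) := by
  simp [bit, mix, hh, hi]

lemma code_mix (l m : ℕ) (hl : l ≤ m) (hm : l ≤ h) (x t : Fin h → Bool) :
    code (mix m x t) l = code (mix l x t) l := by
  apply code_congr
  intro i hi
  rw [bit_mix_lt _ _ _ _ (by omega) (by omega), bit_mix_lt _ _ _ _ (by omega) (by omega)]

lemma code_mix_comm (l : ℕ) (hm : l ≤ h) (x t : Fin h → Bool) :
    code (mix l x t) l = code (mix l t x) l := by
  apply code_congr
  intro i hi
  rw [bit_mix_lt _ _ _ _ (by omega) (by omega), bit_mix_lt _ _ _ _ (by omega) (by omega),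
    Bool.xor_comm]

lemma idx_mkP (l : ℕ) (x : Fin h → Bool) : idx (mkP l x) = x := by
  unfold mkP; split_ifs <;> rfl
lemma idx_mkQ (l : ℕ) (x : Fin h → Bool) : idx (mkQ l x) = x := by
  unfold mkQ; split_ifs <;> rfl

def NoCopy (B : Lab h → Lab h → Prop) : Prop :=
  ∀ R C : Fin 66 → Lab h, (∀ i j, i < j → rk (R i) < rk (R j)) →
    (∀ i j, i < j → ck (C i) < ck (C j)) → ¬ ∀ i j : Fin 66, (B (R i) (C j) ↔ Hf i j)

lemma tag_row {r : Lab h} {s t : Fin h → Bool} (hr : mix (lvl r) (idx r) t = s)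
    (l : Fin h) (g : Gad) (j : Fin 64) : tag r (.F l g j t) = (s, t) := by
  show (mix (lvl r) (idx r) t, mix 0 t (idx r)) = (s, t)
  rw [hr, mix_zero]

lemma tag_col {c : Lab h} {s t : Fin h → Bool} (hc : mix (lvl c) (idx c) s = t)
    (l : Fin h) (g : Gad) (j : Fin 64) : tag (.F l g j s) c = (s, t) := by
  show (mix 0 s (idx c), mix (lvl c) (idx c) s) = (s, t)
  rw [hc, mix_zero]

lemma tag_rowZ {r : Lab h} {s t : Fin h → Bool} (hr : mix (lvl r) (idx r) t = s) :
    tag r (.Z t) = (s, t) := by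
  show (mix (lvl r) (idx r) t, mix 0 t (idx r)) = (s, t)
  rw [hr, mix_zero]

lemma tag_colZ {c : Lab h} {s t : Fin h → Bool} (hc : mix (lvl c) (idx c) s = t) :
    tag (.Z s) c = (s, t) := by
  show (mix 0 s (idx c), mix (lvl c) (idx c) s) = (s, t)
  rw [hc, mix_zero]

lemma mkcopy (B : Lab h → Lab h → Prop) (hN : NoCopy B) (s t : Fin h → Bool)
    (hB : ∀ r c, tag r c = (s, t) → (B r c ↔ Adj r c))
    (l : Fin h) (g : Gad) (r1 r2 c1 c2 : Lab h)
    (ar1 : accR l g r1) (ar2 : accR l g r2) (ac1 : accC l g c1) (ac2 : accC l g c2)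
    (nr1 : ¬ IsF r1) (nr2 : ¬ IsF r2) (nc1 : ¬ IsF c1) (nc2 : ¬ IsF c2)
    (kr : rk r1 < rk r2) (kc : ck c1 < ck c2)
    (tr1 : mix (lvl r1) (idx r1) t = s) (tr2 : mix (lvl r2) (idx r2) t = s)
    (tc1 : mix (lvl c1) (idx c1) s = t) (tc2 : mix (lvl c2) (idx c2) s = t)
    (b11 : B r1 c1) (b12 : ¬ B r1 c2) (b21 : ¬ B r2 c1) (b22 : ¬ B r2 c2) : False := by
  have pr1 : 0 ≤ rk r1 := not_lt.1 (fun hh => nr1 ((rk_F_iff _).1 hh))
  have pr2 : 0 ≤ rk r2 := not_lt.1 (fun hh => nr2 ((rk_F_iff _).1 hh))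
  have pc1 : -4 ^ (h+1) ≤ ck c1 := not_lt.1 (fun hh => nc1 ((ck_F_iff _).1 hh))
  have pc2 : -4 ^ (h+1) ≤ ck c2 := not_lt.1 (fun hh => nc2 ((ck_F_iff _).1 hh))
  refine hN (fun i => if hi : (i : ℕ) < 64 then .F l g ⟨i, hi⟩ s else if (i : ℕ) = 64 then r1 else r2)
    (fun i => if hi : (i : ℕ) < 64 then .F l g ⟨i, hi⟩ t else if (i : ℕ) = 64 then c1 else c2)
    ?_ ?_ ?_
  · intro i j hij
    have hij' : (i : ℕ) < j := hij
    by_cases hi : (i : ℕ) < 64
    · by_cases hj : (j : ℕ) < 64
      · simp only [hi, hj, dif_pos, rk]; omega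
      · simp only [hi, hj, dif_pos, dif_neg, not_false_eq_true]
        have : rk (Lab.F l g ⟨i, hi⟩ s) < 0 := (rk_F_iff _).2 trivial
        split_ifs <;> omega
    · have hi' : (i : ℕ) = 64 := by omega
      have hj' : ¬ (j : ℕ) < 64 := by omega
      have hj'' : ¬ (j : ℕ) = 64 := by omega
      simp only [hi', hj', hj'', dif_neg, if_neg, lt_irrefl, not_false_eq_true, if_true]
      exact kr
  · intro i j hij
    have hij' : (i : ℕ) < j := hij
    by_cases hi : (i : ℕ) < 64
    · by_cases hj : (j : ℕ) < 64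
      · simp only [hi, hj, dif_pos, ck]; omega
      · simp only [hi, hj, dif_pos, dif_neg, not_false_eq_true]
        have : ck (Lab.F l g ⟨i, hi⟩ t) < -4 ^ (h + 1) := (ck_F_iff _).2 trivial
        split_ifs <;> omega
    · have hi' : (i : ℕ) = 64 := by omega
      have hj' : ¬ (j : ℕ) < 64 := by omega
      have hj'' : ¬ (j : ℕ) = 64 := by omega
      simp only [hi', hj', hj'', dif_neg, if_neg, lt_irrefl, not_false_eq_true, if_true]
      exact kc
  · intro i j
    have hi66 := i.2
    have hj66 := j.2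
    by_cases hi : (i : ℕ) < 64
    · by_cases hj : (j : ℕ) < 64
      · simp only [hi, hj, dif_pos]
        rw [hB _ _ (tag_row (r := .F l g ⟨i, hi⟩ s) (by simp [lvl, idx, mix_zero]) l g ⟨j, hj⟩)]
        simp [Adj]
      · simp only [hi, hj, dif_pos, dif_neg, not_false_eq_true]
        have key : ∀ c : Lab h, accC l g c → ¬ IsF c → mix (lvl c) (idx c) s = t →
            (B (.F l g ⟨i, hi⟩ s) c ↔ Hf i j) := by
          intro c hc1 hc2 hc3
          rw [hB _ _ (tag_col hc3 l g _), adj_F_nonF hc2]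
          unfold Hf
          simp only [Fin.ext_iff, Fin.val_zero]
          constructor
          · rintro ⟨h1, h2⟩; omega
          · intro h1; refine ⟨by omega, hc1⟩
        split_ifs
        · exact key c1 ac1 nc1 tc1
        · exact key c2 ac2 nc2 tc2
    · by_cases hj : (j : ℕ) < 64
      · simp only [hi, hj, dif_pos, dif_neg, not_false_eq_true]
        have key : ∀ r : Lab h, accR l g r → ¬ IsF r → mix (lvl r) (idx r) t = s →
            (B r (.F l g ⟨j, hj⟩ t) ↔ Hf i j) := by
          intro c hc1 hc2 hc3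
          rw [hB _ _ (tag_row hc3 l g _), adj_nonF_F hc2]
          unfold Hf
          simp only [Fin.ext_iff, Fin.val_zero]
          constructor
          · rintro ⟨h1, h2⟩; omega
          · intro h1; refine ⟨by omega, hc1⟩
        split_ifs
        · exact key r1 ar1 nr1 tr1
        · exact key r2 ar2 nr2 tr2
      · simp only [hi, hj, dif_neg, not_false_eq_true]
        unfold Hf
        split_ifs with h1 h2 h2
        · simp only [b11, true_iff]; omega
        · simp only [b12, false_iff]; omega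
        · simp only [b21, false_iff]; omega
        · simp only [b22, false_iff]; omega

lemma nF_mkP (l : ℕ) (x : Fin h → Bool) : ¬ IsF (mkP l x) := by
  unfold mkP; split_ifs <;> simp [IsF]
lemma nF_mkQ (l : ℕ) (x : Fin h → Bool) : ¬ IsF (mkQ l x) := by
  unfold mkQ; split_ifs <;> simp [IsF]

lemma trowP {l : ℕ} (hl : l ≤ h) (s t : Fin h → Bool) :
    mix (lvl (mkP l (mix l s t))) (idx (mkP l (mix l s t))) t = s := by
  rw [lvl_mkP hl, idx_mkP, mix_mix]
lemma trowQ {l : ℕ} (hl : l ≤ h) (s t : Fin h → Bool) :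
    mix (lvl (mkQ l (mix l s t))) (idx (mkQ l (mix l s t))) t = s := by
  rw [lvl_mkQ hl, idx_mkQ, mix_mix]

lemma tZ (s t : Fin h → Bool) : mix (lvl (.Z s : Lab h)) (idx (.Z s : Lab h)) t = s := by
  simp [lvl, idx, mix_zero]

lemma coreAdj_Z_left (s : Fin h → Bool) (c : Lab h) : ¬ coreAdj (.Z s) c := by
  cases c <;> simp [coreAdj]
lemma coreAdj_Z_right (s : Fin h → Bool) (r : Lab h) : ¬ coreAdj r (.Z s) := by
  cases r <;> simp [coreAdj]

lemma nF_Z (s : Fin h → Bool) : ¬ IsF (.Z s : Lab h) := by simp [IsF]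

lemma chain (h1 : 0 < h) (B : Lab h → Lab h → Prop) (hN : NoCopy B) (s t : Fin h → Bool)
    (hB : ∀ r c, tag r c = (s, t) → (B r c ↔ Adj r c)) : False := by
  have hZrow : ∀ c : Lab h, ¬ IsF c → mix (lvl c) (idx c) s = t → ¬ B (.Z s) c := by
    intro c hc htc hb
    rw [hB _ _ (tag_colZ htc), adj_nonF (nF_Z s) hc] at hb
    exact coreAdj_Z_left _ _ hb
  have hZcol : ∀ r : Lab h, ¬ IsF r → mix (lvl r) (idx r) t = s → ¬ B r (.Z t) := by
    intro c hc htc hb
    rw [hB _ _ (tag_rowZ htc), adj_nonF hc (nF_Z t)] at hb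
    exact coreAdj_Z_right _ _ hb
  have rkZ : ∀ r : Lab h, IsCore r → rk r < rk (.Z s : Lab h) := by
    intro r hr
    rw [rk_core hr]
    simp only [rk]
    exact_mod_cast val_lt
  have ckZ : ∀ c : Lab h, IsCore c → ck c < ck (.Z t : Lab h) := by
    intro r hr
    rw [ck_core hr]
    simp only [ck]
    omega
  have hpos : ∀ k, 0 < 4 ^ k := fun k => by positivity
  -- N chain
  have hNch : ∀ l, l ≤ h → B (mkP l (mix l s t)) (mkQ l (mix l t s)) := by
    intro l
    induction l with
    | zero =>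
      intro _
      rw [hB]
      · rw [adj_nonF (nF_mkP _ _) (nF_mkQ _ _)]
        rcases Nat.eq_zero_or_pos h with h0 | h0
        · subst h0
          rw [mkP_h, mkQ_h, adjX]; simp [code]
        · rw [adjN_00 0 h0]; simp [code]
      · unfold tag
        rw [lvl_mkP (Nat.zero_le _), lvl_mkQ (Nat.zero_le _), idx_mkP, idx_mkQ]
        simp only [mix_zero]
    | succ l ih =>
      intro hl
      have hl' : l < h := hl
      have b0 := ih hl'.le
      have tq1 := trowQ (l := l) hl'.le t s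
      have tq2 := trowQ (l := l + 1) hl t s
      have tp1 := trowP (l := l) hl'.le s t
      have tp2 := trowP (l := l + 1) hl s t
      -- first step
      have b1 : B (mkP l (mix l s t)) (mkQ (l+1) (mix (l+1) t s)) := by
        by_contra hb
        refine mkcopy B hN s t hB ⟨l, hl'⟩ .N1 (mkP l (mix l s t)) (.Z s)
          (mkQ l (mix l t s)) (mkQ (l+1) (mix (l+1) t s))
          (Or.inl ⟨_, rfl⟩) (Or.inr ⟨_, rfl⟩) (Or.inl ⟨_, rfl⟩) (Or.inr ⟨_, rfl⟩)
          (nF_mkP _ _) (nF_Z _) (nF_mkQ _ _) (nF_mkQ _ _)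
          (rkZ _ (isCore_mkP _ _)) ?_ tp1 (tZ _ _) tq1 tq2 b0 hb
          (hZrow _ (nF_mkQ _ _) tq1) (hZrow _ (nF_mkQ _ _) tq2)
        rw [ck_core (isCore_mkQ _ _), ck_core (isCore_mkQ _ _)]
        obtain ⟨d, hd, h1, -⟩ := val_mkQ_succ l hl' (mix (l+1) t s)
        have : val (mkQ (l+1) (mix (l+1) t s)) < val (mkQ l (mix l t s)) := by
          rw [h1, val_mkQ l hl', scale_lt, code_mix l (l+1) (by omega) hl'.le]
          have := toNat_le_one (bit (mix (l+1) t s) l)
          omega
        omega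
      -- second step
      by_contra hb
      have hbit : bit (mix (l+1) t s) l = bit (mix (l+1) s t) l := by
        rw [bit_mix_lt _ _ _ _ (by omega) hl', bit_mix_lt _ _ _ _ (by omega) hl', Bool.xor_comm]
      refine mkcopy B hN s t hB ⟨l, hl'⟩ (.N2 (bit (mix (l+1) s t) l))
          (mkP l (mix l s t)) (mkP (l+1) (mix (l+1) s t))
          (mkQ (l+1) (mix (l+1) t s)) (.Z t)
          (Or.inl ⟨_, rfl⟩) (Or.inr ⟨_, rfl, rfl⟩) (Or.inl ⟨_, rfl, hbit⟩) (Or.inr ⟨_, rfl⟩)
          (nF_mkP _ _) (nF_mkP _ _) (nF_mkQ _ _) (nF_Z _)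
          ?_ (ckZ _ (isCore_mkQ _ _)) tp1 tp2 tq2 (tZ _ _) b1
          (hZcol _ (nF_mkP _ _) tp1) hb (hZcol _ (nF_mkP _ _) tp2)
      rw [rk_core (isCore_mkP _ _), rk_core (isCore_mkP _ _)]
      have : val (mkP l (mix l s t)) < val (mkP (l+1) (mix (l+1) s t)) := by
        rw [val_mkP l hl', val_mkP_succ l hl', scale_lt, code_mix l (l+1) (by omega) hl'.le]
        omega
      omega
  -- S chain
  have hSch : ∀ l, l ≤ h → 1 ≤ h → ¬ B (mkQ l (mix l s t)) (mkP l (mix l t s)) := by
    intro l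
    induction l with
    | zero =>
      intro _ h0
      rw [hB]
      · rw [adj_nonF (nF_mkQ _ _) (nF_mkP _ _), adjS_00 0 h0]; simp [code]
      · unfold tag
        rw [lvl_mkP (Nat.zero_le _), lvl_mkQ (Nat.zero_le _), idx_mkP, idx_mkQ]
        simp only [mix_zero]
    | succ l ih =>
      intro hl h0
      have hl' : l < h := hl
      have b0 := ih hl'.le h0
      have tq1 := trowQ (l := l) hl'.le s t
      have tq2 := trowQ (l := l + 1) hl s t
      have tp1 := trowP (l := l) hl'.le t s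
      have tp2 := trowP (l := l + 1) hl t s
      -- first step
      have b1 : ¬ B (mkQ l (mix l s t)) (mkP (l+1) (mix (l+1) t s)) := by
        intro hb
        refine mkcopy B hN s t hB ⟨l, hl'⟩ .S1 (mkQ l (mix l s t)) (.Z s)
          (mkP (l+1) (mix (l+1) t s)) (mkP l (mix l t s))
          (Or.inl ⟨_, rfl⟩) (Or.inr ⟨_, rfl⟩) (Or.inr ⟨_, rfl⟩) (Or.inl ⟨_, rfl⟩)
          (nF_mkQ _ _) (nF_Z _) (nF_mkP _ _) (nF_mkP _ _)
          (rkZ _ (isCore_mkQ _ _)) ?_ tq1 (tZ _ _) tp2 tp1 hb b0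
          (hZrow _ (nF_mkP _ _) tp2) (hZrow _ (nF_mkP _ _) tp1)
        rw [ck_core (isCore_mkP _ _), ck_core (isCore_mkP _ _)]
        have : val (mkP l (mix l t s)) < val (mkP (l+1) (mix (l+1) t s)) := by
          rw [val_mkP l hl', val_mkP_succ l hl', scale_lt, code_mix l (l+1) (by omega) hl'.le]
          omega
        omega
      -- second step
      intro hb
      have hbit : bit (mix (l+1) t s) l = bit (mix (l+1) s t) l := by
        rw [bit_mix_lt _ _ _ _ (by omega) hl', bit_mix_lt _ _ _ _ (by omega) hl', Bool.xor_comm]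
      refine mkcopy B hN s t hB ⟨l, hl'⟩ (.S2 (bit (mix (l+1) s t) l))
          (mkQ (l+1) (mix (l+1) s t)) (mkQ l (mix l s t))
          (mkP (l+1) (mix (l+1) t s)) (.Z t)
          (Or.inr ⟨_, rfl, rfl⟩) (Or.inl ⟨_, rfl⟩) (Or.inl ⟨_, rfl, hbit⟩) (Or.inr ⟨_, rfl⟩)
          (nF_mkQ _ _) (nF_mkQ _ _) (nF_mkP _ _) (nF_Z _)
          ?_ (ckZ _ (isCore_mkP _ _)) tq2 tq1 tp2 (tZ _ _) hb
          (hZcol _ (nF_mkQ _ _) tq2) b1 (hZcol _ (nF_mkQ _ _) tq1)
      rw [rk_core (isCore_mkQ _ _), rk_core (isCore_mkQ _ _)]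
      obtain ⟨d, hd, h1, -⟩ := val_mkQ_succ l hl' (mix (l+1) s t)
      have : val (mkQ (l+1) (mix (l+1) s t)) < val (mkQ l (mix l s t)) := by
        rw [h1, val_mkQ l hl', scale_lt, code_mix l (l+1) (by omega) hl'.le]
        have := toNat_le_one (bit (mix (l+1) s t) l)
        omega
      omega
  have b1 := hNch h le_rfl
  have b2 := hSch h le_rfl h1
  rw [mkP_h, mkQ_h] at b1 b2
  have e1 : mix h s t = mix h t s := by
    funext i
    have := i.2
    simp only [mix, this, if_true, Bool.xor_comm]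
  rw [e1] at b1 b2
  exact b2 b1

end far

lemma exists_sort {α : Type} [Fintype α] {n : ℕ} (hn : Fintype.card α = n) (key : α → ℤ) :
    ∃ e : α ≃ Fin n, ∀ x y, key x < key y → e x < e y := by
  classical
  let e0 : α ≃ Fin n := Fintype.equivFinOfCardEq hn
  let f : α → ℤ ×ₗ Fin n := fun x => toLex (key x, e0 x)
  have hf : Function.Injective f := by
    intro x y hxy
    have : (key x, e0 x) = (key y, e0 y) := toLex.injective hxy
    exact e0.injective (Prod.ext_iff.1 this).2
  let _ : LinearOrder α := LinearOrder.lift' f hf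
  let o : Fin n ≃o α := monoEquivOfFin α hn
  refine ⟨o.symm.toEquiv, ?_⟩
  intro x y hxy
  have : x < y := by
    show f x < f y
    rw [Prod.Lex.lt_iff]
    exact Or.inl hxy
  exact o.symm.strictMono this

/-- There is a fixed 66 × 66 binary pattern H such that for every h ≥ 1, with n = (386h + 2) · 2^h and ε = (386h + 2)⁻², some n × n binary matrix A is ε-far from free of ordered copies of H (every n × n binary matrix without an ordered copy of H differs from A in at least ε · n² cells) while the number of ordered copies of H in A is at most ε · 2^(-h) · n^132. An ordered copy picks 66 rows and 66 columns in increasing order on which A coincides with H, zeros included. -/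
theorem result :
    ∃ H : Fin 66 → Fin 66 → Bool, ∀ h : ℕ, 1 ≤ h →
      ∃ A : Fin ((386 * h + 2) * 2 ^ h) → Fin ((386 * h + 2) * 2 ^ h) → Bool,
        (∀ B : Fin ((386 * h + 2) * 2 ^ h) → Fin ((386 * h + 2) * 2 ^ h) → Bool,
          Crest.CombinatoricsR.OrderedMatrix.orderedCopyCount H B = 0 →
            ((386 * (h : ℝ) + 2) ^ 2)⁻¹ * (((386 * h + 2) * 2 ^ h : ℕ) : ℝ) ^ 2 ≤
              ((Finset.univ.filter (fun rc : Fin ((386 * h + 2) * 2 ^ h) × Fin ((386 * h + 2) * 2 ^ h) =>
                A rc.1 rc.2 ≠ B rc.1 rc.2)).card : ℝ)) ∧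
        (Crest.CombinatoricsR.OrderedMatrix.orderedCopyCount H A : ℝ) /
            (((386 * h + 2) * 2 ^ h : ℕ) : ℝ) ^ 132 ≤
          ((386 * (h : ℝ) + 2) ^ 2)⁻¹ * (2 : ℝ)⁻¹ ^ h := by
  classical
  refine ⟨fun i j => decide (Hf i j), ?_⟩
  intro h hh
  obtain ⟨er, her⟩ := exists_sort (card_lab h) rk
  obtain ⟨ec, hec⟩ := exists_sort (card_lab h) ck
  refine ⟨fun r c => decide (Adj (er.symm r) (ec.symm c)), ?_, ?_⟩
  · intro B hB
    have hemp := Fintype.card_eq_zero_iff.1 hB
    have hN : NoCopy (fun r c : Lab h => B (er r) (ec c) = true) := by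
      intro R C hR hC hRC
      refine hemp.false ⟨(fun i => er (R i), fun j => ec (C j)), ?_, ?_, ?_⟩
      · intro i j hij; exact her _ _ (hR i j hij)
      · intro i j hij; exact hec _ _ (hC i j hij)
      · intro i j
        show B (er (R i)) (ec (C j)) = decide (Hf i j)
        have := hRC i j
        by_cases hf : Hf i j
        · simp only [hf, decide_true]; exact this.2 hf
        · simp only [hf, decide_false]
          rw [← Bool.not_eq_true]
          exact fun hb => hf (this.1 hb)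
    have hcard : Fintype.card ((Fin h → Bool) × (Fin h → Bool)) ≤
        (Finset.univ.filter (fun rc : Fin ((386 * h + 2) * 2 ^ h) × Fin ((386 * h + 2) * 2 ^ h) =>
                decide (Adj (er.symm rc.1) (ec.symm rc.2)) ≠ B rc.1 rc.2)).card := by
      rw [← Finset.card_univ]
      refine Finset.card_le_card_of_surjOn (fun rc => tag (er.symm rc.1) (ec.symm rc.2)) ?_
      rintro ⟨s, t⟩ -
      by_contra hcon
      refine chain (by omega) _ hN s t ?_
      intro r c hrc
      by_contra hne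
      apply hcon
      refine ⟨(er r, ec c), ?_, ?_⟩
      · simp only [Finset.coe_filter, Finset.mem_univ, true_and, Set.mem_ofPred_eq,
          Equiv.symm_apply_apply]
        intro heq
        apply hne
        rw [← heq, decide_eq_true_iff]
      · simp only [Equiv.symm_apply_apply]
        exact hrc
    have hc2 : Fintype.card ((Fin h → Bool) × (Fin h → Bool)) = 2 ^ h * 2 ^ h := by
      simp
    rw [hc2] at hcard
    have hcard' : (2:ℝ) ^ h * 2 ^ h ≤ ((Finset.univ.filter (fun rc : Fin ((386 * h + 2) * 2 ^ h) × Fin ((386 * h + 2) * 2 ^ h) =>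
                decide (Adj (er.symm rc.1) (ec.symm rc.2)) ≠ B rc.1 rc.2)).card : ℝ) := by
      exact_mod_cast hcard
    refine le_trans (le_of_eq ?_) hcard'
    push_cast
    have : (386 * (h:ℝ) + 2) ≠ 0 := by positivity
    field_simp
  · have hcount : Crest.CombinatoricsR.OrderedMatrix.orderedCopyCount
        (fun i j : Fin 66 => decide (Hf i j))
        (fun r c : Fin ((386 * h + 2) * 2 ^ h) => decide (Adj (er.symm r) (ec.symm c))) ≤
        2 ^ h * (((386 * h + 2) * 2 ^ h) ^ 65 * ((386 * h + 2) * 2 ^ h) ^ 65) := by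
      have hstruct : ∀ rows cols : Fin 66 → Fin ((386 * h + 2) * 2 ^ h), StrictMono rows →
          StrictMono cols → (∀ i j, decide (Adj (er.symm (rows i)) (ec.symm (cols j))) =
            decide (Hf i j)) → ∃ x, rows 64 = er (.X x) ∧ cols 64 = ec (.X x) := by
        intro rows cols hr hc hA
        have q1 : ∀ i j, i < j → rk (er.symm (rows i)) ≤ rk (er.symm (rows j)) := by
          intro i j hij
          by_contra hlt
          push Not at hlt
          have := her _ _ hlt
          simp only [Equiv.apply_symm_apply] at this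
          exact absurd (hr hij) (not_lt.2 this.le)
        have q2 : ∀ i j, i < j → ck (ec.symm (cols i)) ≤ ck (ec.symm (cols j)) := by
          intro i j hij
          by_contra hlt
          push Not at hlt
          have := hec _ _ hlt
          simp only [Equiv.apply_symm_apply] at this
          exact absurd (hc hij) (not_lt.2 this.le)
        obtain ⟨x, hx1, hx2⟩ := struct (fun i => er.symm (rows i)) (fun j => ec.symm (cols j))
          q1 q2 (fun i j => decide_eq_decide.1 (hA i j))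
        exact ⟨x, (Equiv.symm_apply_eq _).1 hx1, (Equiv.symm_apply_eq _).1 hx2⟩
      have hcardT : Fintype.card ((Fin h → Bool) ×
          (({i : Fin 66 // i ≠ 64} → Fin ((386 * h + 2) * 2 ^ h)) ×
            ({i : Fin 66 // i ≠ 64} → Fin ((386 * h + 2) * 2 ^ h)))) =
          2 ^ h * (((386 * h + 2) * 2 ^ h) ^ 65 * ((386 * h + 2) * 2 ^ h) ^ 65) := by
        have h65 : Fintype.card {i : Fin 66 // i ≠ 64} = 65 := by decide
        simp only [Fintype.card_prod, Fintype.card_fun, Fintype.card_bool, Fintype.card_fin, h65]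
      rw [← hcardT]
      unfold Crest.CombinatoricsR.OrderedMatrix.orderedCopyCount
      refine Fintype.card_le_of_injective (fun p =>
        (idx (er.symm (p.1.1 64)), (fun i => p.1.1 i.1, fun i => p.1.2 i.1))) ?_
      rintro ⟨⟨r1, c1⟩, hr1, hc1, hA1⟩ ⟨⟨r2, c2⟩, hr2, hc2, hA2⟩ heq
      simp only [Prod.mk.injEq] at heq
      obtain ⟨hx, hrr, hcc⟩ := heq
      obtain ⟨x1, hx1, hy1⟩ := hstruct r1 c1 hr1 hc1 hA1
      obtain ⟨x2, hx2, hy2⟩ := hstruct r2 c2 hr2 hc2 hA2
      rw [hx1, hx2] at hx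
      simp only [Equiv.symm_apply_apply, idx] at hx
      subst hx
      have er' : r1 = r2 := by
        funext i
        by_cases hi : i = 64
        · rw [hi, hx1, hx2]
        · exact congrFun hrr ⟨i, hi⟩
      have ec' : c1 = c2 := by
        funext i
        by_cases hi : i = 64
        · rw [hi, hy1, hy2]
        · exact congrFun hcc ⟨i, hi⟩
      subst er' ec'
      rfl
    have hcount' : (Crest.CombinatoricsR.OrderedMatrix.orderedCopyCount
        (fun i j : Fin 66 => decide (Hf i j))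
        (fun r c : Fin ((386 * h + 2) * 2 ^ h) => decide (Adj (er.symm r) (ec.symm c))) : ℝ) ≤
        2 ^ h * ((((386 * h + 2) * 2 ^ h : ℕ) : ℝ) ^ 65 * (((386 * h + 2) * 2 ^ h : ℕ) : ℝ) ^ 65) := by
      exact_mod_cast hcount
    have hnpos : (0:ℝ) < (((386 * h + 2) * 2 ^ h : ℕ) : ℝ) := by positivity
    rw [div_le_iff₀ (by positivity)]
    refine hcount'.trans (le_of_eq ?_)
    have hne : (386 * (h:ℝ) + 2) ≠ 0 := by positivity
    have e1 : (((386 * h + 2) * 2 ^ h : ℕ) : ℝ) ^ 132 =
        ((((386 * h + 2) * 2 ^ h : ℕ) : ℝ) ^ 65 * (((386 * h + 2) * 2 ^ h : ℕ) : ℝ) ^ 65) *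
        (((386 * h + 2) * 2 ^ h : ℕ) : ℝ) ^ 2 := by ring
    rw [e1]
    have e2 : (((386 * h + 2) * 2 ^ h : ℕ) : ℝ) ^ 2 = (386 * (h:ℝ) + 2) ^ 2 * (2 ^ h * 2 ^ h) := by
      push_cast; ring
    rw [e2, inv_pow]
    generalize ((((386 * h + 2) * 2 ^ h : ℕ) : ℝ) ^ 65 * (((386 * h + 2) * 2 ^ h : ℕ) : ℝ) ^ 65) = W
    field_simp

end Crest.Agent.S0066
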