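import Crest.Statements.S0110
import Crest.Agent.QTSharp

set_option autoImplicit false
open MeasureTheory
open scoped ENNReal NNReal
open Crest.AnalysisR.OT
open Crest Crest.AnalysisR Crest.AnalysisR.OT

namespace Crest.Agent.QTSharp

open Set Filter Topology
open Crest.Agent.QT

variable {d : ℕ}

section Final

variable (i0 i1 : Fin d) (h : ℝ)

/-- reflected transport map -/
noncomputable def Tm (x : Eu d) : Eu d := rfx i1 (Tp i0 i1 h (rfx i1 x))

theorem measurable_Tm : Measurable (Tm i0 i1 h) :=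
  (rfx i1).continuous.measurable.comp
    ((measurable_Tp i0 i1 h).comp (rfx i1).continuous.measurable)

theorem map_Tm : (ρ d).map (Tm i0 i1 h) = (ρ d).map (fun x => rfx i1 (Tp i0 i1 h x)) := by
  have h1 : Tm i0 i1 h = (fun x => rfx i1 (Tp i0 i1 h x)) ∘ (rfx i1) := rfl
  have hm : Measurable (fun x => rfx i1 (Tp i0 i1 h x)) :=
    (rfx i1).continuous.measurable.comp (measurable_Tp i0 i1 h)
  rw [h1, ← Measure.map_map hm (rfx i1).continuous.measurable,
    (measurePreserving_rfx i1).map_eq]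

theorem hasGradient_rfx {φ : Eu d → ℝ} {g x : Eu d} (hg : HasGradientAt φ g (rfx i1 x)) :
    HasGradientAt (fun z => φ (rfx i1 z)) (rfx i1 g) x := by
  have h1 : HasFDerivAt φ (InnerProductSpace.toDual ℝ (Eu d) g) (rfx i1 x) := hg
  have h2 := h1.comp x ((rfx i1).toContinuousLinearEquiv.toContinuousLinearMap.hasFDerivAt)
  show HasFDerivAt (fun z => φ (rfx i1 z)) (InnerProductSpace.toDual ℝ (Eu d) (rfx i1 g)) x
  have e : InnerProductSpace.toDual ℝ (Eu d) (rfx i1 g)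
      = (InnerProductSpace.toDual ℝ (Eu d) g).comp
        ((rfx i1).toContinuousLinearEquiv.toContinuousLinearMap) := by
    ext v
    have h3 : inner ℝ (rfx i1 g) v = inner ℝ g (rfx i1 v) := by
      rw [← (rfx i1).inner_map_map (rfx i1 g) v, rfx_rfx]
    simpa using h3
  rw [e]
  exact h2

theorem optimal_Tp (hij : i0 ≠ i1) (h0 : 0 ≤ h) (h1 : h ≤ 1) :
    IsOptimalMap (ρ d) ((ρ d).map (Tp i0 i1 h)) (Tp i0 i1 h) ∧
      ∀ T, IsOptimalMap (ρ d) ((ρ d).map (Tp i0 i1 h)) T → T =ᵐ[ρ d] Tp i0 i1 h := by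
  refine optimalUnique d (Q d) isCompact_Q convex_Q interior_Q_nonempty _
    (phi i0 i1 h) (convex_phi i0 i1 h) 1 (lipschitz_phi i0 i1 h h0 h1) _
    (measurable_Tp i0 i1 h) ?_ rfl
  filter_upwards [(uniformProbOn_absCont_volume (Q d)).ae_le (ae_good i0 i1 h hij)] with x hx
  exact hasGradient_phi i0 i1 h x hx.1 hx.2

theorem optimal_Tm (hij : i0 ≠ i1) (h0 : 0 ≤ h) (h1 : h ≤ 1) :
    IsOptimalMap (ρ d) ((ρ d).map (Tm i0 i1 h)) (Tm i0 i1 h) ∧
      ∀ T, IsOptimalMap (ρ d) ((ρ d).map (Tm i0 i1 h)) T → T =ᵐ[ρ d] Tm i0 i1 h := by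
  refine optimalUnique d (Q d) isCompact_Q convex_Q interior_Q_nonempty _
    (fun z => phi i0 i1 h (rfx i1 z)) ?_ 1 ?_ _
    (measurable_Tm i0 i1 h) ?_ rfl
  · have := (convex_phi i0 i1 h).comp_linearMap (rfx i1).toLinearEquiv.toLinearMap
    rw [preimage_univ] at this
    exact this
  · have := (lipschitz_phi i0 i1 h h0 h1).comp (rfx i1).isometry.lipschitz
    rw [one_mul] at this
    exact this
  · have h2 : ∀ᵐ x ∂(ρ d), x i0 ≠ 0 ∧ |x i0| / 2 ≠ h * x i1 :=
      (uniformProbOn_absCont_volume (Q d)).ae_le (ae_good i0 i1 h hij)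
    have h3 := (measurePreserving_rfx i1).quasiMeasurePreserving.ae h2
    filter_upwards [h3] with x hx
    exact hasGradient_rfx i1 (hasGradient_phi i0 i1 h _ hx.1 hx.2)

theorem Tp_mem_Q (h0 : 0 ≤ h) (h1 : h ≤ 1) (x : Eu d) : Tp i0 i1 h x ∈ Q d := by
  intro i
  unfold Tp
  split_ifs
  · by_cases hi : i = i1 <;> simp [hi, abs_of_nonneg h0, h1]
  · by_cases hi : i = i0
    · simp only [hi, PiLp.single_apply, if_true]
      rw [abs_of_pos] <;> norm_num
    · simp [hi]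
  · by_cases hi : i = i0
    · simp only [hi, PiLp.single_apply, if_true]
      rw [abs_of_neg] <;> norm_num
    · simp [hi]

/-- the coupling -/
noncomputable def coup : Measure (Eu d × Eu d) :=
  (ρ d).map (fun x => (Tp i0 i1 h x, rfx i1 (Tp i0 i1 h x)))

theorem measurable_pair :
    Measurable fun x : Eu d => (Tp i0 i1 h x, rfx i1 (Tp i0 i1 h x)) :=
  (measurable_Tp i0 i1 h).prodMk
    ((rfx i1).continuous.measurable.comp (measurable_Tp i0 i1 h))

theorem coup_isPairCoupling :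
    IsPairCoupling ((ρ d).map (Tp i0 i1 h)) ((ρ d).map (Tm i0 i1 h)) (coup i0 i1 h) := by
  constructor
  · rw [coup, Measure.map_map measurable_fst (measurable_pair i0 i1 h)]
    rfl
  · rw [coup, Measure.map_map measurable_snd (measurable_pair i0 i1 h), map_Tm]
    rfl

theorem enorm_sub_le (hij : i0 ≠ i1) (h0 : 0 ≤ h) (x : Eu d) :
    ‖Tp i0 i1 h x - rfx i1 (Tp i0 i1 h x)‖ₑ ^ 2
      = (A i0 i1 h).indicator (fun _ => ENNReal.ofReal (4 * h ^ 2)) x := by
  by_cases hx : x ∈ A i0 i1 h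
  · rw [indicator_of_mem hx]
    have hx' : |x i0| / 2 ≤ h * x i1 := hx
    have e1 : Tp i0 i1 h x = EuclideanSpace.single i1 h := by simp [Tp, hx']
    have e2 : (EuclideanSpace.single i1 h : Eu d) - rfx i1 (EuclideanSpace.single i1 h)
        = EuclideanSpace.single i1 (2 * h) := by
      ext i
      simp only [PiLp.sub_apply, rfx_apply, PiLp.single_apply]
      split_ifs <;> ring
    rw [e1, e2, ← ofReal_norm, PiLp.norm_single, ← ENNReal.ofReal_pow (norm_nonneg _)]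
    congr 1
    rw [Real.norm_eq_abs, sq_abs]
    ring
  · rw [indicator_of_notMem hx]
    have hx' : ¬ |x i0| / 2 ≤ h * x i1 := hx
    have key : ∀ c : ℝ, rfx i1 (EuclideanSpace.single i0 c : Eu d)
        = EuclideanSpace.single i0 c := by
      intro c
      ext i
      simp only [rfx_apply, PiLp.single_apply]
      split_ifs with ha hb
      · exact absurd (hb.symm.trans ha) hij
      · simp
      · rfl
      · rfl
    have e1 : rfx i1 (Tp i0 i1 h x) = Tp i0 i1 h x := by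
      by_cases hp : 0 < x i0
      · simp only [Tp, hx', hp, if_true, if_false, key]
      · simp only [Tp, hx', hp, if_false, key]
    rw [e1]
    simp

theorem quadCost_coup (hij : i0 ≠ i1) (h0 : 0 ≤ h) :
    quadCost (coup i0 i1 h) = ENNReal.ofReal (4 * h ^ 2) * ρ d (A i0 i1 h) := by
  rw [quadCost, coup, lintegral_map (by fun_prop) (measurable_pair i0 i1 h)]
  simp only
  rw [lintegral_congr (enorm_sub_le i0 i1 h hij h0),
    lintegral_indicator_const (measurableSet_A i0 i1 h)]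

theorem diff_lower (hij : i0 ≠ i1) (h0 : 0 ≤ h) (x : Eu d) (hx : x ∈ A i0 i1 h)
    (hx0 : x i0 ≠ 0) : ENNReal.ofReal (1 / 4) ≤ ‖Tp i0 i1 h x - Tm i0 i1 h x‖ₑ ^ 2 := by
  have hx' : |x i0| / 2 ≤ h * x i1 := hx
  have e1 : Tp i0 i1 h x = EuclideanSpace.single i1 h := by simp [Tp, hx']
  have e2 : ¬ |(rfx i1 x) i0| / 2 ≤ h * (rfx i1 x) i1 := by
    simp only [rfx_apply, hij, if_true, if_false]
    have := abs_pos.2 hx0
    intro hc
    nlinarith
  have key : |(Tp i0 i1 h x - Tm i0 i1 h x) i0| = 1 / 2 := by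
    have e3 : (rfx i1 x) i0 = x i0 := by simp [rfx_apply, hij]
    by_cases hp : 0 < x i0
    · have e4 : Tp i0 i1 h (rfx i1 x) = EuclideanSpace.single i0 (1 / 2) := by
        have : 0 < (rfx i1 x) i0 := by rw [e3]; exact hp
        simp only [Tp, e2, this, if_true, if_false]
      simp only [Tm, e4, e1, PiLp.sub_apply, rfx_apply, hij, if_false,
        PiLp.single_apply, if_true, zero_sub, abs_neg]
      rw [abs_of_pos] <;> norm_num
    · have e4 : Tp i0 i1 h (rfx i1 x) = EuclideanSpace.single i0 (-(1 / 2)) := by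
        have : ¬ 0 < (rfx i1 x) i0 := by rw [e3]; exact hp
        simp only [Tp, e2, this, if_false]
      simp only [Tm, e4, e1, PiLp.sub_apply, rfx_apply, hij, if_false,
        PiLp.single_apply, if_true, zero_sub, abs_neg, neg_neg]
      rw [abs_of_pos] <;> norm_num
  have h2 := PiLp.norm_apply_le (Tp i0 i1 h x - Tm i0 i1 h x) i0
  rw [Real.norm_eq_abs, key] at h2
  rw [← ofReal_norm, ← ENNReal.ofReal_pow (norm_nonneg _)]
  apply ENNReal.ofReal_le_ofReal
  nlinarith [norm_nonneg (Tp i0 i1 h x - Tm i0 i1 h x)]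

theorem lintegral_diff_ge (hij : i0 ≠ i1) (h0 : 0 ≤ h) :
    ENNReal.ofReal (1 / 4) * ρ d (A i0 i1 h)
      ≤ ∫⁻ x, ‖Tp i0 i1 h x - Tm i0 i1 h x‖ₑ ^ 2 ∂(ρ d) := by
  rw [← lintegral_indicator_const (measurableSet_A i0 i1 h)]
  apply lintegral_mono_ae
  have h1 : ∀ᵐ x ∂(ρ d), x ∉ {x : Eu d | x i0 = 0} :=
    (uniformProbOn_absCont_volume (Q d)).ae_le (measure_eq_zero_iff_ae_notMem.1 (null_coord i0))
  filter_upwards [h1] with x hx
  by_cases hxA : x ∈ A i0 i1 h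
  · rw [indicator_of_mem hxA]
    exact diff_lower i0 i1 h hij h0 x hxA hx
  · rw [indicator_of_notMem hxA]
    exact zero_le

end Final

theorem exists_h (α : ℝ) (hα : 1 / 3 < α) (C : ℝ) (hC : 0 ≤ C) :
    ∃ h : ℝ, 0 < h ∧ h < 1 / 4 ∧ C * (8 * h ^ 3) ^ α < h / 16 := by
  have hexp : 0 < 3 * α - 1 := by linarith
  have h1 : Tendsto (fun h : ℝ => C * 16 * 8 ^ α * h ^ (3 * α - 1)) (𝓝[>] 0) (𝓝 0) := by
    have h2 : ContinuousAt (fun h : ℝ => h ^ (3 * α - 1)) 0 :=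
      Real.continuousAt_rpow_const 0 _ (Or.inr hexp.le)
    have h3 : Tendsto (fun h : ℝ => h ^ (3 * α - 1)) (𝓝[>] 0) (𝓝 0) := by
      have := h2.tendsto.mono_left (nhdsWithin_le_nhds (s := Ioi (0 : ℝ)))
      simpa [Real.zero_rpow hexp.ne'] using this
    have h4 := h3.const_mul (C * 16 * 8 ^ α)
    simpa using h4
  have h5 : ∀ᶠ h : ℝ in 𝓝[>] 0, C * 16 * 8 ^ α * h ^ (3 * α - 1) < 1 :=
    h1.eventually_lt_const one_pos
  have h6 : ∀ᶠ h : ℝ in 𝓝[>] 0, h < 1 / 4 :=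
    (tendsto_nhdsWithin_of_tendsto_nhds tendsto_id).eventually_lt_const (by norm_num)
  have h7 : ∀ᶠ h : ℝ in 𝓝[>] 0, 0 < h := self_mem_nhdsWithin
  obtain ⟨h, ha, hb, hc⟩ := (h5.and (h6.and h7)).exists
  refine ⟨h, hc, hb, ?_⟩
  have e1 : (8 * h ^ 3 : ℝ) ^ α = 8 ^ α * (h ^ (3 * α - 1) * h) := by
    rw [Real.mul_rpow (by norm_num) (by positivity)]
    congr 1
    have : h ^ 3 = h ^ (3 : ℝ) := by norm_cast
    rw [this, ← Real.rpow_mul hc.le]
    have e2 : 3 * α = (3 * α - 1) + 1 := by ring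
    conv_lhs => rw [e2]
    rw [Real.rpow_add hc, Real.rpow_one]
  rw [e1]
  have h8 : C * (8 ^ α * (h ^ (3 * α - 1) * h)) * 16 = (C * 16 * 8 ^ α * h ^ (3 * α - 1)) * h := by
    ring
  have h9 : (C * 16 * 8 ^ α * h ^ (3 * α - 1)) * h < 1 * h := by
    exact mul_lt_mul_of_pos_right ha hc
  linarith

end Crest.Agent.QTSharp

namespace Crest.Agent.S0110

open Crest.Agent.QTSharp Crest.Agent.QT

/-- The exponent one third is optimal, even on the cube with three-atom targets: for d ≥ 2, ρ the uniform probability measure on the cube of points of ℝᵈ with all coordinates in [-1, 1], every α > 1/3 and every C ≥ 0, there are three-atomic probability measures μ, ν on that cube, each admitting a quadratic optimal transport map from ρ, such that for all such optimal maps Tμ, Tν some coupling π of μ, ν has C · (∫ ‖y - z‖² dπ)^α < ∫ ‖Tμ - Tν‖² dρ. Hence ‖Tμ - Tν‖_{L²(ρ)} > √C · W₂(μ, ν)^α. -/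
theorem result
    (d : ℕ) (hd : 2 ≤ d) (α : ℝ) (hα : 1 / 3 < α) (C : ℝ≥0) :
    ∃ μ ν : Measure (EuclideanSpace ℝ (Fin d)),
      IsProbabilityOn {x : EuclideanSpace ℝ (Fin d) | ∀ i, |x i| ≤ 1} μ ∧
      IsProbabilityOn {x : EuclideanSpace ℝ (Fin d) | ∀ i, |x i| ≤ 1} ν ∧
      IsThreeAtomic μ ∧ IsThreeAtomic ν ∧
      (∃ T, IsOptimalMap (uniformProbOn {x : EuclideanSpace ℝ (Fin d) | ∀ i, |x i| ≤ 1}) μ T) ∧
      (∃ T, IsOptimalMap (uniformProbOn {x : EuclideanSpace ℝ (Fin d) | ∀ i, |x i| ≤ 1}) ν T) ∧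
      ∀ Tμ Tν : EuclideanSpace ℝ (Fin d) → EuclideanSpace ℝ (Fin d),
        IsOptimalMap (uniformProbOn {x : EuclideanSpace ℝ (Fin d) | ∀ i, |x i| ≤ 1}) μ Tμ →
        IsOptimalMap (uniformProbOn {x : EuclideanSpace ℝ (Fin d) | ∀ i, |x i| ≤ 1}) ν Tν →
        ∃ π : Measure (EuclideanSpace ℝ (Fin d) × EuclideanSpace ℝ (Fin d)), IsPairCoupling μ ν π ∧
          (C : ℝ≥0∞) * quadCost π ^ α < ∫⁻ x, ‖Tμ x - Tν x‖ₑ ^ 2 ∂(uniformProbOn {x : EuclideanSpace ℝ (Fin d) | ∀ i, |x i| ≤ 1}) := by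
  obtain ⟨h, h0, h1, h2⟩ := exists_h α hα C C.2
  set i0 : Fin d := ⟨0, by omega⟩ with hi0
  set i1 : Fin d := ⟨1, by omega⟩ with hi1
  have hij : i0 ≠ i1 := by
    intro hc
    have := congrArg Fin.val hc
    simp [hi0, hi1] at this
  have h0' : 0 ≤ h := h0.le
  have h1' : h ≤ 1 := by linarith
  have oP := optimal_Tp i0 i1 h hij h0' h1'
  have oM := optimal_Tm i0 i1 h hij h0' h1'
  refine ⟨(ρ d).map (Tp i0 i1 h), (ρ d).map (Tm i0 i1 h), ⟨?_, ?_⟩, ⟨?_, ?_⟩, ?_, ?_,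
    ⟨_, oP.1⟩, ⟨_, oM.1⟩, ?_⟩
  · exact Measure.isProbabilityMeasure_map (measurable_Tp i0 i1 h).aemeasurable
  · show (ρ d).map (Tp i0 i1 h) (Q d)ᶜ = 0
    rw [Measure.map_apply (measurable_Tp i0 i1 h) measurableSet_Q.compl]
    have : Tp i0 i1 h ⁻¹' (Q d)ᶜ = ∅ := by
      ext x
      simp [Tp_mem_Q i0 i1 h h0' h1' x]
    rw [this]
    simp
  · exact Measure.isProbabilityMeasure_map (measurable_Tm i0 i1 h).aemeasurable
  · show (ρ d).map (Tm i0 i1 h) (Q d)ᶜ = 0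
    rw [Measure.map_apply (measurable_Tm i0 i1 h) measurableSet_Q.compl]
    have : Tm i0 i1 h ⁻¹' (Q d)ᶜ = ∅ := by
      ext x
      simp [Tm, rfx_mem_Q, Tp_mem_Q i0 i1 h h0' h1' (rfx i1 x)]
    rw [this]
    simp
  · exact isThreeAtomic_map _ _ (measurable_Tp i0 i1 h) (atoms i0 i1 h)
      (atoms_injective i0 i1 h hij h0) (Tp_mem_atoms i0 i1 h) (Tp_mass_pos i0 i1 h hij h0 h1)
  · rw [map_Tm]
    refine isThreeAtomic_map _ _
      ((rfx i1).continuous.measurable.comp (measurable_Tp i0 i1 h))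
      (fun k => rfx i1 (atoms i0 i1 h k))
      (fun a b hab => atoms_injective i0 i1 h hij h0 ((rfx i1).injective hab)) ?_ ?_
    · intro x
      obtain ⟨k, hk⟩ := Tp_mem_atoms i0 i1 h x
      exact ⟨k, by rw [hk]⟩
    · intro k
      have e : (fun x => rfx i1 (Tp i0 i1 h x)) ⁻¹' {rfx i1 (atoms i0 i1 h k)}
          = Tp i0 i1 h ⁻¹' {atoms i0 i1 h k} := by
        ext x
        simp
      rw [e]
      exact Tp_mass_pos i0 i1 h hij h0 h1 k
  · intro Tμ Tν hTμ hTν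
    have aeμ := oP.2 Tμ hTμ
    have aeν := oM.2 Tν hTν
    refine ⟨coup i0 i1 h, coup_isPairCoupling i0 i1 h, ?_⟩
    have e1 : ∫⁻ x, ‖Tμ x - Tν x‖ₑ ^ 2 ∂(ρ d)
        = ∫⁻ x, ‖Tp i0 i1 h x - Tm i0 i1 h x‖ₑ ^ 2 ∂(ρ d) := by
      apply lintegral_congr_ae
      filter_upwards [aeμ, aeν] with x hx hx'
      rw [hx, hx']
    show (C : ℝ≥0∞) * quadCost (coup i0 i1 h) ^ α < ∫⁻ x, ‖Tμ x - Tν x‖ₑ ^ 2 ∂(ρ d)
    rw [e1, quadCost_coup i0 i1 h hij h0']
    refine lt_of_lt_of_le ?_ (lintegral_diff_ge i0 i1 h hij h0')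
    have hα0 : 0 ≤ α := by linarith
    calc (C : ℝ≥0∞) * (ENNReal.ofReal (4 * h ^ 2) * ρ d (A i0 i1 h)) ^ α
        ≤ (C : ℝ≥0∞) * (ENNReal.ofReal (4 * h ^ 2) * ENNReal.ofReal (2 * h)) ^ α := by
          gcongr
          exact rho_A_le i0 i1 h h0 (by linarith)
      _ = ENNReal.ofReal (C * (8 * h ^ 3) ^ α) := by
          rw [← ENNReal.ofReal_mul (by positivity), ENNReal.ofReal_rpow_of_nonneg (by positivity) hα0,
            ENNReal.ofReal_mul (by positivity), ENNReal.ofReal_coe_nnreal]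
          congr 3
          ring
      _ < ENNReal.ofReal (h / 16) := (ENNReal.ofReal_lt_ofReal_iff (by linarith)).2 h2
      _ = ENNReal.ofReal (1 / 4) * ENNReal.ofReal (h / 4) := by
          rw [← ENNReal.ofReal_mul (by norm_num)]
          congr 1
          ring
      _ ≤ ENNReal.ofReal (1 / 4) * ρ d (A i0 i1 h) := by
          gcongr
          exact rho_A_ge i0 i1 h hij h0 h1'

end Crest.Agent.S0110
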