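import Crest.Agent.S0166Space

set_option autoImplicit false

namespace Crest.Agent.S0166Main

open Crest.AnalysisR Crest.AnalysisR.TreePotential Crest.Agent.S0168 Crest.Agent.S0166Space
open Crest.Agent.L2Sum (J P)
open scoped InnerProductSpace

theorem JJ_single (n : ℕ) (s : Vtx n) (c : ℝ) :
    JJ n (lp.single 2 s c) = c • coordVector .global s.1 := by
  ext f
  rw [JJ_apply, lp.inner_single_right]
  change c * (resT n f s) = c * f.1 s.1
  rw [resT_apply]

theorem hasSum_JJ (n : ℕ) (h : H n) :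
    HasSum (fun s : Vtx n => h s • coordVector .global s.1) (JJ n h) := by
  have h1 := (JJ n).hasSum (lp.hasSum_single (p := 2) (by norm_num) h)
  simpa only [JJ_single] using h1

theorem coord_mem_XX {n : ℕ} {s : List ℕ} (hs : s.length ≤ n) :
    coordVector .global s ∈ XX n :=
  ⟨lp.single 2 (⟨s, hs⟩ : Vtx n) 1, by
    have := JJ_single n ⟨s, hs⟩ 1
    rw [one_smul] at this
    exact this⟩

theorem XX_le (n : ℕ) : XX n ≤ modelSpace .global := by
  rintro _ ⟨h, rfl⟩
  have h1 := hasSum_JJ n h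
  refine (Submodule.isClosed_topologicalClosure _).mem_of_tendsto h1
    (Filter.Eventually.of_forall fun A => ?_)
  refine Submodule.sum_mem _ fun s _ => Submodule.smul_mem _ _ ?_
  exact Submodule.le_topologicalClosure _ (Submodule.subset_span ⟨s.1, rfl⟩)

/-- the key inequality -/
theorem key_ineq {T : Finset (List ℕ)} (hT0 : ([] : List ℕ) ∈ T)
    (hTc : ∀ a v, a :: v ∈ T → v ∈ T) {x y : L}
    (hx : x ∈ Submodule.span ℝ (coordVector .global '' (T : Set (List ℕ))))
    (hy : y ∈ modelSpace .global) (hyT : ∀ s ∈ T, ev .global (indTest .global s) y = 0) :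
    2 * Real.sqrt (‖x‖ ^ 2 + ‖y‖ ^ 2 / 4) ≤ ‖x + y‖ + ‖x - y‖ := by
  have hxm : x ∈ modelSpace .global := by
    refine (Submodule.span_mono ?_).trans (Submodule.le_topologicalClosure _) hx
    exact Set.image_subset_range _ _
  -- first inequality
  have h1 : ∀ α β : ℝ, 0 ≤ α → α ≤ 1 → 0 ≤ β → β ≤ 1 / 4 → α ^ 2 + 4 * β ^ 2 ≤ 1 →
      2 * (α * ‖x‖ + β * ‖y‖) ≤ ‖x + y‖ + ‖x - y‖ := by
    intro α β hα hα1 hβ hβ1 hαβ
    refine le_of_forall_pos_le_add fun ε hε => ?_
    obtain ⟨f, hf⟩ := exists_test hxm (η := ε / 4) (by linarith)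
    obtain ⟨g, hg⟩ := exists_test hy (η := ε / 4) (by linarith)
    set Pt := tP f g T hT0 hTc hα hα1 hβ hβ1 hαβ with hP'
    set M := tM f g T hT0 hTc hα hα1 hβ hβ1 hαβ with hM'
    have hid := key_identity f g T hT0 hTc hα hα1 hβ hβ1 hαβ hy hyT
    rw [← hP', ← hM'] at hid
    have hxP : ev .global Pt x = α * ev .global f x := by
      have : ((ev .global Pt : L →L[ℝ] ℝ) : L →ₗ[ℝ] ℝ) x =
          ((α • ev .global f : L →L[ℝ] ℝ) : L →ₗ[ℝ] ℝ) x := by
        refine LinearMap.eqOn_span ?_ hx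
        rintro _ ⟨s, hs, rfl⟩
        change hP f g T α β s = α * f.1 s
        exact hP_mem f g T hT0 hTc hs
      exact this
    have hxM : ev .global M x = α * ev .global f x := by
      have : ((ev .global M : L →L[ℝ] ℝ) : L →ₗ[ℝ] ℝ) x =
          ((α • ev .global f : L →L[ℝ] ℝ) : L →ₗ[ℝ] ℝ) x := by
        refine LinearMap.eqOn_span ?_ hx
        rintro _ ⟨s, hs, rfl⟩
        change hM f g T α β s = α * f.1 s
        exact hM_mem f g T hT0 hTc hs
      exact this
    have n1 := ev_le_norm .global Pt (x + y)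
    have n2 := ev_le_norm .global M (x - y)
    rw [map_add] at n1
    rw [map_sub] at n2
    have k1 : α * (‖x‖ - ε / 4) ≤ α * ev .global f x := mul_le_mul_of_nonneg_left hf.le hα
    have k2 : β * (‖y‖ - ε / 4) ≤ β * ev .global g y := mul_le_mul_of_nonneg_left hg.le hβ
    nlinarith
  rcases le_or_gt (3 * ‖y‖ ^ 2) (4 * ‖x‖ ^ 2) with hc | hc
  · set R := Real.sqrt (‖x‖ ^ 2 + ‖y‖ ^ 2 / 4) with hR
    have hR2 : R ^ 2 = ‖x‖ ^ 2 + ‖y‖ ^ 2 / 4 := Real.sq_sqrt (by positivity)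
    rcases (Real.sqrt_nonneg (‖x‖ ^ 2 + ‖y‖ ^ 2 / 4)).eq_or_lt with h0 | h0
    · rw [hR, ← h0, mul_zero]; positivity
    · have hRpos : 0 < R := h0
      have hxR : ‖x‖ ≤ R := by
        rw [hR]; exact Real.le_sqrt_of_sq_le (by nlinarith [sq_nonneg ‖y‖])
      have hyR : ‖y‖ ≤ R := by
        rw [hR]; exact Real.le_sqrt_of_sq_le (by nlinarith)
      have h2 := h1 (‖x‖ / R) (‖y‖ / (4 * R)) (by positivity) (by rwa [div_le_one hRpos])
        (by positivity) (by
          rw [div_le_div_iff₀ (by positivity) (by norm_num)]; linarith) (by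
          have : (‖x‖ / R) ^ 2 + 4 * (‖y‖ / (4 * R)) ^ 2 = (‖x‖ ^ 2 + ‖y‖ ^ 2 / 4) / R ^ 2 := by
            field_simp
          rw [this, hR2, div_self (by rw [← hR2]; positivity)])
      have h3 : ‖x‖ / R * ‖x‖ + ‖y‖ / (4 * R) * ‖y‖ = R := by
        have : ‖x‖ / R * ‖x‖ + ‖y‖ / (4 * R) * ‖y‖ = (‖x‖ ^ 2 + ‖y‖ ^ 2 / 4) / R := by
          field_simp
        rw [this, ← hR2]; field_simp
      rw [h3] at h2
      exact h2
  · have h2 : 2 * ‖y‖ ≤ ‖x + y‖ + ‖x - y‖ := by
      have h3 : (2 : ℝ) • y = (x + y) - (x - y) := by module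
      have h4 : ‖(2 : ℝ) • y‖ = 2 * ‖y‖ := by
        rw [norm_smul, Real.norm_of_nonneg (by norm_num)]
      rw [← h4, h3]
      exact norm_sub_le _ _
    have h3 : Real.sqrt (‖x‖ ^ 2 + ‖y‖ ^ 2 / 4) ≤ ‖y‖ := by
      rw [Real.sqrt_le_left (norm_nonneg _)]
      nlinarith
    linarith

/-- coordinatewise inequalities sum up -/
theorem l2_ineq {X : ℕ → Type*} [∀ n, NormedAddCommGroup (X n)] [∀ n, NormedSpace ℝ (X n)]
    (x y : lp X 2)
    (h : ∀ n, 2 * Real.sqrt (‖x n‖ ^ 2 + ‖y n‖ ^ 2 / 4) ≤ ‖x n + y n‖ + ‖x n - y n‖) :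
    2 * Real.sqrt (‖x‖ ^ 2 + ‖y‖ ^ 2 / 4) ≤ ‖x + y‖ + ‖x - y‖ := by
  set a : lp (fun _ : ℕ => ℝ) 2 := lp.toNorm (x + y) with ha
  set b : lp (fun _ : ℕ => ℝ) 2 := lp.toNorm (x - y) with hb
  have hna : ‖a‖ = ‖x + y‖ := lp.norm_toNorm
  have hnb : ‖b‖ = ‖x - y‖ := lp.norm_toNorm
  rw [← hna, ← hnb]
  refine le_trans ?_ (norm_add_le a b)
  have h1 := L2Sum.hasSum_sq x
  have h2 := L2Sum.hasSum_sq y
  have h3 := L2Sum.hasSum_sq (a + b)
  have h4 : HasSum (fun n => 4 * (‖x n‖ ^ 2 + ‖y n‖ ^ 2 / 4)) (4 * (‖x‖ ^ 2 + ‖y‖ ^ 2 / 4)) :=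
    (h1.add (h2.div_const 4)).mul_left 4
  have h5 : 4 * (‖x‖ ^ 2 + ‖y‖ ^ 2 / 4) ≤ ‖a + b‖ ^ 2 := by
    refine hasSum_le (fun n => ?_) h4 h3
    have h6 : (a + b) n = ‖x n + y n‖ + ‖x n - y n‖ := rfl
    rw [h6, Real.norm_eq_abs, sq_abs]
    have h7 := pow_le_pow_left₀ (by positivity) (h n) 2
    rw [mul_pow, Real.sq_sqrt (by positivity)] at h7
    linarith
  have h6 : 2 * Real.sqrt (‖x‖ ^ 2 + ‖y‖ ^ 2 / 4) =
      Real.sqrt (4 * (‖x‖ ^ 2 + ‖y‖ ^ 2 / 4)) := by
    rw [Real.sqrt_mul (by norm_num)]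
    congr 1
    rw [show (4 : ℝ) = 2 ^ 2 by norm_num, Real.sqrt_sq (by norm_num)]
  rw [h6]
  exact Real.sqrt_le_iff.2 ⟨norm_nonneg _, h5⟩

/-- the space -/
abbrev E : Type := lp (fun n => XX n) 2

/-- as a record -/
noncomputable def EB : RealBanach := ⟨E, inferInstance, inferInstance, inferInstance⟩

/-- coordinate vectors -/
noncomputable def ec (p : Σ n, Vtx n) : E :=
  J (fun n => XX n) p.1 ⟨coordVector .global p.2.1, coord_mem_XX p.2.2⟩

theorem dense_span (x : E) : x ∈ closure (Submodule.span ℝ (Set.range ec) : Set E) := by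
  have h1 : ∀ n (z : XX n), J (fun n => XX n) n z ∈
      (Submodule.span ℝ (Set.range ec)).topologicalClosure := by
    rintro n ⟨_, h, rfl⟩
    have h2 := hasSum_JJ n h
    have h3 : HasSum (fun s : Vtx n => h s •
        (⟨coordVector .global s.1, coord_mem_XX s.2⟩ : XX n)) ⟨JJ n h, ⟨h, rfl⟩⟩ := by
      have h4 : Filter.Tendsto (fun A : Finset (Vtx n) => ((∑ s ∈ A, h s •
        (⟨coordVector .global s.1, coord_mem_XX s.2⟩ : XX n) : XX n) : L)) Filter.atTop
        (nhds (JJ n h)) := by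
        have h5 : (fun A : Finset (Vtx n) => ((∑ s ∈ A, h s •
            (⟨coordVector .global s.1, coord_mem_XX s.2⟩ : XX n) : XX n) : L)) =
            fun A => ∑ s ∈ A, h s • coordVector .global s.1 := by
          funext A
          rw [Submodule.coe_sum]
          rfl
        rw [h5]
        exact h2
      exact tendsto_subtype_rng.2 h4
    have h4 := (J (fun n => XX n) n).hasSum h3
    refine (Submodule.isClosed_topologicalClosure _).mem_of_tendsto h4
      (Filter.Eventually.of_forall fun A => ?_)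
    refine Submodule.sum_mem _ fun s _ => ?_
    rw [map_smul]
    refine Submodule.smul_mem _ _ ?_
    exact Submodule.le_topologicalClosure _ (Submodule.subset_span ⟨⟨n, s⟩, rfl⟩)
  have h2 := L2Sum.hasSum_J x
  have h3 : x ∈ (Submodule.span ℝ (Set.range ec)).topologicalClosure := by
    refine (Submodule.isClosed_topologicalClosure _).mem_of_tendsto h2
      (Filter.Eventually.of_forall fun A => ?_)
    exact Submodule.sum_mem _ fun n _ => h1 n _
  have h4 : x ∈ ((Submodule.span ℝ (Set.range ec)).topologicalClosure : Set E) := h3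
  rwa [Submodule.topologicalClosure_coe] at h4

/-- the annihilating subspace -/
noncomputable def FE (N : ℕ) (T : Finset (List ℕ)) : Submodule ℝ E :=
  LinearMap.ker (LinearMap.pi (fun q : (Finset.range N ×ˢ T : Finset (ℕ × List ℕ)) =>
    (((ev .global (indTest .global q.1.2)).comp ((XX q.1.1).subtypeL.comp
      (P (fun n => XX n) q.1.1))).toLinearMap : E →ₗ[ℝ] ℝ)))

theorem mem_FE {N : ℕ} {T : Finset (List ℕ)} {y : E} :
    y ∈ FE N T ↔ ∀ n < N, ∀ s ∈ T, ev .global (indTest .global s) ((y n : XX n) : L) = 0 := by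
  simp only [FE, LinearMap.mem_ker]
  constructor
  · intro h n hn s hs
    have := congrFun h ⟨(n, s), Finset.mem_product.2 ⟨Finset.mem_range.2 hn, hs⟩⟩
    exact this
  · intro h
    funext q
    have := Finset.mem_product.1 q.2
    exact h q.1.1 (Finset.mem_range.1 this.1) q.1.2 this.2

theorem cof_FE (N : ℕ) (T : Finset (List ℕ)) : AUCLemma.Cof (FE N T : Set E) := by
  refine ⟨FE N T, rfl, ?_, ?_⟩
  · have : (FE N T : Set E) = ⋂ q ∈ (Finset.range N ×ˢ T : Finset (ℕ × List ℕ)),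
        {y : E | ((ev .global (indTest .global q.2)).comp ((XX q.1).subtypeL.comp
          (P (fun n => XX n) q.1))) y = 0} := by
      ext y
      simp only [SetLike.mem_coe, mem_FE, Set.mem_iInter]
      constructor
      · intro h q hq
        have := Finset.mem_product.1 hq
        exact h q.1 (Finset.mem_range.1 this.1) q.2 this.2
      · intro h n hn s hs
        exact h (n, s) (Finset.mem_product.2 ⟨Finset.mem_range.2 hn, hs⟩)
    rw [this]
    refine isClosed_biInter fun q _ => ?_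
    exact isClosed_eq (ContinuousLinearMap.continuous _) continuous_const
  · exact LinearEquiv.finiteDimensional (LinearMap.quotKerEquivRange (LinearMap.pi
      (fun q : (Finset.range N ×ˢ T : Finset (ℕ × List ℕ)) =>
      (((ev .global (indTest .global q.1.2)).comp ((XX q.1.1).subtypeL.comp
        (P (fun n => XX n) q.1.1))).toLinearMap : E →ₗ[ℝ] ℝ)))).symm

/-- finite vectors have the key inequality with all vectors of some `FE` -/
theorem finite_key {x : E} (hx : x ∈ Submodule.span ℝ (Set.range ec)) :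
    ∃ F : Set E, AUCLemma.Cof F ∧ ∀ y ∈ F,
      2 * Real.sqrt (‖x‖ ^ 2 + ‖y‖ ^ 2 / 4) ≤ ‖x + y‖ + ‖x - y‖ := by
  obtain ⟨c, hc⟩ := (Finsupp.mem_span_range_iff_exists_finsupp).1 hx
  set A := c.support with hA
  set T := sufClosure (A.image (fun p => p.2.1)) with hTdef
  set N := A.sup (fun p => p.1 + 1) with hN
  have hT0 : ([] : List ℕ) ∈ T := mem_sufClosure.2 (Or.inl rfl)
  have hTc : ∀ a v, a :: v ∈ T → v ∈ T := by
    intro a v h
    rcases mem_sufClosure.1 h with h | ⟨s, hs, hsuf⟩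
    · cases h
    · exact mem_sufClosure.2 (Or.inr ⟨s, hs, (List.suffix_cons a v).trans hsuf⟩)
  have hsupp : ∀ p ∈ A, p.2.1 ∈ T := fun p hp =>
    mem_sufClosure.2 (Or.inr ⟨p.2.1, Finset.mem_image.2 ⟨p, hp, rfl⟩, List.suffix_refl _⟩)
  have hxn : ∀ n, ((x n : XX n) : L) = ∑ p ∈ A, c p • (((ec p) n : XX n) : L) := by
    intro n
    rw [← hc, Finsupp.sum]
    have h1 : ((∑ p ∈ c.support, c p • ec p : E) n : XX n) =
        ∑ p ∈ c.support, c p • ((ec p) n : XX n) := by
      rw [lp.coeFn_sum, Finset.sum_apply]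
      rfl
    rw [h1, Submodule.coe_sum]
    rfl
  have hec : ∀ (p : Σ n, Vtx n) (n : ℕ), p.1 ≠ n → ((ec p) n : XX n) = 0 := by
    intro p n hpn
    exact lp.single_apply_ne 2 p.1 _ (Ne.symm hpn)
  have hec' : ∀ (p : Σ n, Vtx n), (((ec p) p.1 : XX p.1) : L) = coordVector .global p.2.1 := by
    intro p
    have : ((ec p) p.1 : XX p.1) = ⟨coordVector .global p.2.1, coord_mem_XX p.2.2⟩ :=
      lp.single_apply_self 2 p.1 _
    rw [this]
  refine ⟨FE N T, cof_FE N T, fun y hy => l2_ineq x y fun n => ?_⟩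
  have hy' := mem_FE.1 hy
  by_cases hn : n < N
  · have h1 : ((x n : XX n) : L) ∈
        Submodule.span ℝ (coordVector .global '' (T : Set (List ℕ))) := by
      rw [hxn n]
      refine Submodule.sum_mem _ fun p hp => Submodule.smul_mem _ _ ?_
      by_cases hpn : p.1 = n
      · subst hpn
        rw [hec' p]
        exact Submodule.subset_span ⟨p.2.1, hsupp p hp, rfl⟩
      · rw [hec p n hpn]
        exact Submodule.zero_mem _
    exact key_ineq hT0 hTc h1 (XX_le n (y n : XX n).2) (hy' n hn)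
  · have h1 : x n = 0 := by
      have h2 : ((x n : XX n) : L) = 0 := by
        rw [hxn n]
        refine Finset.sum_eq_zero fun p hp => ?_
        have h3 : p.1 + 1 ≤ N := Finset.le_sup (f := fun p : (Σ n, Vtx n) => p.1 + 1) hp
        have h4 : p.1 ≠ n := by omega
        rw [hec p n h4]
        simp
      exact Subtype.ext h2
    rw [h1, zero_add, zero_sub, norm_neg, norm_zero]
    have h2 : Real.sqrt (0 ^ 2 + ‖y n‖ ^ 2 / 4) ≤ ‖y n‖ := by
      rw [Real.sqrt_le_left (norm_nonneg _)]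
      nlinarith [sq_nonneg ‖y n‖]
    linarith

/-- the averaged midpoint modulus -/
theorem midpoint (t : ℝ) (ht : 0 < t) :
    EB.MidpointModulusGE EB.norm t (Real.sqrt (1 + t ^ 2 / 4) - 1) := by
  intro x hx η hη
  change E at x
  change ‖x‖ = 1 at hx
  obtain ⟨x₀, hx₀, hxx₀⟩ := Metric.mem_closure_iff.1 (dense_span x) (η / 2) (by linarith)
  rw [dist_eq_norm] at hxx₀
  obtain ⟨F, hF, hFy⟩ := finite_key hx₀
  refine ⟨F, hF, fun y hy hy1 => ?_⟩
  change E at y
  change ‖y‖ = 1 at hy1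
  change Real.sqrt (1 + t ^ 2 / 4) - 1 - η ≤ (‖x + t • y‖ + ‖x - t • y‖) / 2 - 1
  have hty : t • y ∈ F := by
    obtain ⟨S, hS, -, -⟩ := hF
    rw [← hS] at hy ⊢
    exact S.smul_mem _ hy
  have h1 := hFy _ hty
  rw [norm_smul, hy1, Real.norm_of_nonneg ht.le, mul_one] at h1
  have h2 : 1 - η / 2 ≤ ‖x₀‖ := by
    have := norm_sub_norm_le x x₀
    linarith
  have h3 : ‖x₀ + t • y‖ ≤ ‖x + t • y‖ + η / 2 := by
    have : x₀ + t • y = (x + t • y) - (x - x₀) := by abel
    rw [this]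
    exact (norm_sub_le _ _).trans (by linarith)
  have h4 : ‖x₀ - t • y‖ ≤ ‖x - t • y‖ + η / 2 := by
    have : x₀ - t • y = (x - t • y) - (x - x₀) := by abel
    rw [this]
    exact (norm_sub_le _ _).trans (by linarith)
  -- sqrt (1 + t²/4) ≤ sqrt (‖x₀‖² + t²/4) + η/2
  have h5 : Real.sqrt (1 + t ^ 2 / 4) ≤ Real.sqrt (‖x₀‖ ^ 2 + t ^ 2 / 4) + η / 2 := by
    set s := Real.sqrt (‖x₀‖ ^ 2 + t ^ 2 / 4) with hs
    have hs2 : s ^ 2 = ‖x₀‖ ^ 2 + t ^ 2 / 4 := Real.sq_sqrt (by positivity)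
    have hs0 : ‖x₀‖ ≤ s := by
      rw [hs]; exact Real.le_sqrt_of_sq_le (by nlinarith [sq_nonneg t])
    rw [Real.sqrt_le_iff]
    have h0 := norm_nonneg x₀
    constructor
    · linarith
    · nlinarith
  linarith

end Crest.Agent.S0166Main
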