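import Crest.Statements.S0166
import Crest.Agent.S0166Main

set_option autoImplicit false
open Crest Crest.AnalysisR

namespace Crest.Agent.S0166

open Crest.AnalysisR.TreePotential Crest.Agent.S0168 Crest.Agent.S0166Space Crest.Agent.S0166Main
open Crest.Agent.AUCLemma
open Crest.Agent.L2Sum (J P)

section growth

variable {X : Type*} [NormedAddCommGroup X] [NormedSpace ℝ X]

/-- one-step growth under an AUC norm -/
theorem growth (N : X → ℝ) (hsub : ∀ x y : X, N (x + y) ≤ N x + N y)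
    (hhom : ∀ (a : ℝ) (x : X), N (a • x) = |a| * N x) {a b : ℝ} (ha : 0 < a) (hb : 0 < b)
    (hab : ∀ x : X, a * ‖x‖ ≤ N x ∧ N x ≤ b * ‖x‖) {B δ : ℝ} (hB : 0 < B) (hδ : 0 < δ)
    (hauc : ∀ t : ℝ, 0 < t → ∃ c : ℝ, 0 < c ∧ ∀ x : X, N x = 1 → ∃ F : Set X, Cof F ∧
      ∀ y ∈ F, N y = 1 → c ≤ N (x + t • y) - 1) :
    ∃ q : ℝ, 1 < q ∧ ∀ (x : X) (K : Set X), x ≠ 0 → ‖x‖ ≤ B →
      (∀ F : Set X, Cof F → ∀ ε : ℝ, 0 < ε →
        ∃ y ∈ F, δ ≤ ‖y‖ ∧ ∃ x' ∈ K, ‖x' - (x + y)‖ ≤ ε) →
      ∃ x' ∈ K, q * N x ≤ N x' := by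
  set t : ℝ := a * δ / (b * B) with ht
  have htpos : 0 < t := by positivity
  obtain ⟨c, hc, hcF⟩ := hauc t htpos
  refine ⟨1 + c / 2, by linarith, fun x K hx hxB hstep => ?_⟩
  have hNx : 0 < N x := lt_of_lt_of_le (mul_pos ha (norm_pos_iff.2 hx)) (hab x).1
  have hu : N ((N x)⁻¹ • x) = 1 := by
    rw [hhom, abs_of_pos (inv_pos.2 hNx), inv_mul_cancel₀ hNx.ne']
  obtain ⟨F, hF, hFy⟩ := hcF _ hu
  obtain ⟨y, hyF, hyδ, x', hx'K, hx'⟩ := hstep F hF (c / 2 * N x / b) (by positivity)
  refine ⟨x', hx'K, ?_⟩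
  have hyn : 0 < ‖y‖ := lt_of_lt_of_le hδ hyδ
  have hNy : 0 < N y := lt_of_lt_of_le (mul_pos ha hyn) (hab y).1
  have hyunit : N ((N y)⁻¹ • y) = 1 := by
    rw [hhom, abs_of_pos (inv_pos.2 hNy), inv_mul_cancel₀ hNy.ne']
  have hyF' : (N y)⁻¹ • y ∈ F := by
    obtain ⟨S, hS, -, -⟩ := hF
    rw [← hS] at hyF ⊢
    exact S.smul_mem _ hyF
  have h1 := hFy _ hyF' hyunit
  have hratio : t ≤ N y / N x := by
    rw [le_div_iff₀ hNx]
    have h2 : t * N x ≤ t * (b * B) := by
      refine mul_le_mul_of_nonneg_left ?_ htpos.le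
      exact (hab x).2.trans (mul_le_mul_of_nonneg_left hxB hb.le)
    have h3 : t * (b * B) = a * δ := by
      rw [ht]; field_simp
    have h4 : a * δ ≤ a * ‖y‖ := mul_le_mul_of_nonneg_left hyδ ha.le
    linarith [(hab y).1]
  have h5 := step_mono N hsub hhom hu htpos hc.le hratio h1
  have h6 : N (x + y) = N x * N ((N x)⁻¹ • x + (N y / N x) • ((N y)⁻¹ • y)) := by
    have : x + y = N x • ((N x)⁻¹ • x + (N y / N x) • ((N y)⁻¹ • y)) := by
      rw [smul_add, smul_smul, smul_smul, smul_smul, mul_inv_cancel₀ hNx.ne', one_smul]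
      have : N x * (N y / N x) * (N y)⁻¹ = 1 := by field_simp
      rw [this, one_smul]
    rw [this, hhom, abs_of_pos hNx]
  have h7 : (1 + c) * N x ≤ N (x + y) := by
    rw [h6, mul_comm]
    exact mul_le_mul_of_nonneg_left h5 hNx.le
  have h8 : N (x + y) ≤ N x' + b * (c / 2 * N x / b) := by
    have : x + y = x' + (-(x' - (x + y))) := by abel
    calc N (x + y) = N (x' + (-(x' - (x + y)))) := by rw [← this]
      _ ≤ N x' + N (-(x' - (x + y))) := hsub _ _
      _ ≤ N x' + b * ‖-(x' - (x + y))‖ := by linarith [(hab (-(x' - (x + y)))).2]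
      _ ≤ N x' + b * (c / 2 * N x / b) := by
        rw [norm_neg]
        linarith [mul_le_mul_of_nonneg_left hx' hb.le]
  have h9 : b * (c / 2 * N x / b) = c / 2 * N x := by field_simp
  rw [h9] at h8
  linarith

end growth

/-- path vectors lie in the depth spaces -/
theorem pathVec_mem (n : ℕ) : ∀ s : List ℕ, s.length ≤ n →
    ((pathVec .global s : modelSpace .global) : L) ∈ XX n
  | [], _ => coord_mem_XX (by simp)
  | a :: v, h => by
    have h1 : v.length ≤ n := by simp at h; omega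
    have h2 := pathVec_mem n v h1
    have h3 : coordVector .global (a :: v) ∈ XX n := coord_mem_XX h
    have h4 : ((pathVec .global (a :: v) : modelSpace .global) : L) =
      ((pathVec .global v : modelSpace .global) : L) + coordVector .global (a :: v) := rfl
    rw [h4]
    exact Submodule.add_mem _ h2 h3

/-- states -/
noncomputable def st (n : ℕ) (s : List ℕ) (h : s.length ≤ n) : E :=
  J (fun n => XX n) n ⟨_, pathVec_mem n s h⟩

theorem norm_st_le (n : ℕ) (s : List ℕ) (h : s.length ≤ n) : ‖st n s h‖ ≤ 1 := by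
  rw [st, L2Sum.norm_J]
  change ‖((pathVec .global s : modelSpace .global) : L)‖ ≤ 1
  refine lp.norm_le_of_forall_le zero_le_one fun f => ?_
  have := f.2.1 s
  rw [Real.norm_eq_abs, ← ev_apply, pathVec_ev]
  exact this

theorem one_le_coord (s : List ℕ) : 1 ≤ ‖coordVector .global s‖ := by
  have h1 := ev_le_norm .global (indTest .global s) (coordVector .global s)
  have h2 : ev .global (indTest .global s) (coordVector .global s) = 1 := by
    rw [ev_coord]
    cases s with
    | nil => change (if ([] : List ℕ) = [] then (1 : ℝ) else 0) = 1; simp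
    | cons a v => rw [indTest_apply_cons]; simp
  rw [h2] at h1
  exact h1

theorem st_nil (n : ℕ) : 1 ≤ ‖st n [] (by simp)‖ := by
  rw [st, L2Sum.norm_J]
  exact one_le_coord []

theorem st_sub (n : ℕ) (s : List ℕ) (i : ℕ) (h : (i :: s).length ≤ n) (h' : s.length ≤ n) :
    st n (i :: s) h - st n s h' =
      J (fun n => XX n) n ⟨coordVector .global (i :: s), coord_mem_XX h⟩ := by
  rw [st, st, ← map_sub]
  congr 1
  apply Subtype.ext
  change ((pathVec .global s : modelSpace .global) : L) + coordVector .global (i :: s) -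
    ((pathVec .global s : modelSpace .global) : L) = _
  abel

theorem step_st (n : ℕ) (s : List ℕ) (h : s.length + 1 ≤ n) (h' : s.length ≤ n) (F : Set E)
    (hF : Cof F) (ε : ℝ) (hε : 0 < ε) :
    ∃ y ∈ F, (1 / 2 : ℝ) ≤ ‖y‖ ∧ ∃ x' ∈ Set.range (fun i : ℕ => st n (i :: s) (by simpa using h)),
      ‖x' - (st n s h' + y)‖ ≤ ε := by
  have hw : ∀ φ : E →L[ℝ] ℝ, Filter.Tendsto (fun i : ℕ =>
      φ (st n (i :: s) (by simpa using h) - st n s h')) Filter.atTop (nhds 0) := by
    refine tendsto_zero_of_l2 (C := 1) ?_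
    intro A r
    have h1 : ∑ i ∈ A, r i • (st n (i :: s) (by simpa using h) - st n s h') =
        J (fun n => XX n) n (∑ i ∈ A, r i •
          (⟨coordVector .global (i :: s), coord_mem_XX (by simpa using h)⟩ : XX n)) := by
      rw [map_sum]
      refine Finset.sum_congr rfl fun i _ => ?_
      rw [map_smul, st_sub n s i (by simpa using h) h']
    rw [h1, L2Sum.norm_J, one_mul]
    change ‖((∑ i ∈ A, r i •
          (⟨coordVector .global (i :: s), coord_mem_XX (by simpa using h)⟩ : XX n) : XX n) : L)‖ ≤ _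
    rw [Submodule.coe_sum]
    refine lp.norm_le_of_forall_le (by positivity) fun f => ?_
    rw [Real.norm_eq_abs, ← ev_apply, map_sum]
    have h2 : ∑ i ∈ A, ev .global f ((r i •
          (⟨coordVector .global (i :: s), coord_mem_XX (by simpa using h)⟩ : XX n) : XX n) : L) =
        ∑ i ∈ A, r i * f.1 (i :: s) := by
      refine Finset.sum_congr rfl fun i _ => ?_
      rw [Submodule.coe_smul, map_smul, smul_eq_mul]; rfl
    rw [h2]
    have h3 := Finset.sum_mul_sq_le_sq_mul_sq A r (fun i => f.1 (i :: s))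
    have h4 := sib_sum_le f s A
    have h5 : (∑ i ∈ A, r i * f.1 (i :: s)) ^ 2 ≤ ∑ i ∈ A, r i ^ 2 := by
      have h5 : 0 ≤ ∑ i ∈ A, r i ^ 2 := Finset.sum_nonneg fun _ _ => sq_nonneg _
      nlinarith
    exact Real.abs_le_sqrt h5
  obtain ⟨n₀, hn₀⟩ := exists_near_of_weakNull hw hF (ε := min ε (1 / 2)) (by positivity)
  obtain ⟨z, hz, hz'⟩ := hn₀ n₀ le_rfl
  refine ⟨z, hz, ?_, _, ⟨n₀, rfl⟩, ?_⟩
  · have h1 : 1 ≤ ‖st n (n₀ :: s) (by simpa using h) - st n s h'‖ := by
      rw [st_sub n s n₀ (by simpa using h) h', L2Sum.norm_J]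
      exact one_le_coord _
    have h2 : ‖st n (n₀ :: s) (by simpa using h) - st n s h'‖ ≤
        ‖st n (n₀ :: s) (by simpa using h) - st n s h' - z‖ + ‖z‖ := by
      have := norm_add_le (st n (n₀ :: s) (by simpa using h) - st n s h' - z) z
      simpa using this
    have h3 : ‖st n (n₀ :: s) (by simpa using h) - st n s h' - z‖ < 1 / 2 :=
      lt_of_lt_of_le hz' (min_le_right _ _)
    linarith
  · have : st n (n₀ :: s) (by simpa using h) - (st n s h' + z) =
        st n (n₀ :: s) (by simpa using h) - st n s h' - z := by abel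
    change ‖st n (n₀ :: s) (by simpa using h) - (st n s h' + z)‖ ≤ ε
    rw [this]
    exact (lt_of_lt_of_le hz' (min_le_left _ _)).le

theorem noAUC (N : EB.X → ℝ) (hN : EB.IsEquivNorm N) : ¬ EB.IsAUC N := by
  intro hauc
  obtain ⟨hsub, hhom, a, b, ha, hab⟩ := hN
  have hab' : ∀ x : E, a * ‖x‖ ≤ N x ∧ N x ≤ b * ‖x‖ := hab
  have hb : 0 < b := by
    have h1 := (hab' (st 0 [] (by simp))).1
    have h2 := (hab' (st 0 [] (by simp))).2
    have h3 := st_nil 0
    have h4 : 0 < a * ‖st 0 [] (by simp)‖ := mul_pos ha (by linarith)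
    by_contra hb
    push Not at hb
    have : b * ‖st 0 [] (by simp)‖ ≤ 0 := mul_nonpos_of_nonpos_of_nonneg hb (norm_nonneg _)
    linarith
  obtain ⟨q, hq, hgrow⟩ := growth (X := E) N hsub hhom ha hb hab' (B := 1) (δ := 1 / 2) one_pos
    (by norm_num) hauc
  have key : ∀ n j : ℕ, (hj : j ≤ n) → ∃ (s : List ℕ) (hs : s.length = j),
      q ^ j * a ≤ N (st n s (hs.le.trans hj)) := by
    intro n j
    induction j with
    | zero =>
      intro _
      refine ⟨[], rfl, ?_⟩
      have h1 := (hab' (st n [] (by simp))).1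
      have h2 := st_nil n
      have h3 : a * 1 ≤ a * ‖st n [] (by simp)‖ := mul_le_mul_of_nonneg_left h2 ha.le
      rw [pow_zero, one_mul]
      linarith
    | succ j ih =>
      intro hj
      obtain ⟨s, hs, hsN⟩ := ih (by omega)
      have hpos : 0 < N (st n s (by omega)) :=
        lt_of_lt_of_le (mul_pos (pow_pos (by linarith) j) ha) hsN
      have hne : st n s (by omega) ≠ 0 := by
        intro h0
        have h1 := (hab' (st n s (by omega))).2
        rw [h0, norm_zero, mul_zero] at h1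
        rw [h0] at hpos
        linarith
      obtain ⟨_, ⟨i, rfl⟩, hi⟩ := hgrow (st n s (by omega)) _ hne (norm_st_le n s _)
        (fun F hF ε hε => step_st n s (by omega) (by omega) F hF ε hε)
      refine ⟨i :: s, by simp [hs], ?_⟩
      have h1 : q * (q ^ j * a) ≤ q * N (st n s (by omega)) :=
        mul_le_mul_of_nonneg_left hsN (by linarith)
      calc q ^ (j + 1) * a = q * (q ^ j * a) := by ring
        _ ≤ q * N (st n s (by omega)) := h1
        _ ≤ _ := hi
  obtain ⟨n, hn⟩ := pow_unbounded_of_one_lt (b / a) hq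
  obtain ⟨s, hs, hsN⟩ := key n n le_rfl
  have h1 := (hab' (st n s (by omega))).2
  have h2 := norm_st_le n s (by omega)
  have h3 : b * ‖st n s (by omega)‖ ≤ b * 1 := mul_le_mul_of_nonneg_left h2 hb.le
  rw [div_lt_iff₀ ha] at hn
  linarith

theorem sep : TopologicalSpace.SeparableSpace E := by
  have h1 : ∀ n, TopologicalSpace.SeparableSpace (XX n) := by
    intro n
    have h2 : TopologicalSpace.SeparableSpace (modelSpace .global) :=
      (separable_infinite .global).1
    have h3 : TopologicalSpace.IsSeparable (modelSpace .global : Set L) :=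
      TopologicalSpace.IsSeparable.of_subtype _
    exact (h3.mono (XX_le n)).separableSpace
  exact L2Sum.separable_lp

theorem inf : ¬ FiniteDimensional ℝ E := by
  intro hfd
  have h1 : EB.IsEquivNorm EB.norm := by
    refine ⟨fun (x y : E) => norm_add_le x y, fun a (x : E) => ?_, 1, 1, one_pos,
      fun (x : E) => ?_⟩
    · change ‖a • x‖ = |a| * ‖x‖
      rw [norm_smul, Real.norm_eq_abs]
    · change 1 * ‖x‖ ≤ ‖x‖ ∧ ‖x‖ ≤ 1 * ‖x‖
      rw [one_mul]
      exact ⟨le_rfl, le_rfl⟩
  have h2 : EB.IsAUC EB.norm := by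
    intro t ht
    refine ⟨1, one_pos, fun (x : E) _ => ⟨({0} : Set E), ⟨(⊥ : Submodule ℝ E), ?_, ?_, ?_⟩, ?_⟩⟩
    · change ((⊥ : Submodule ℝ E) : Set E) = {0}
      simp
    · change IsClosed ({0} : Set E)
      exact isClosed_singleton
    · change FiniteDimensional ℝ (E ⧸ (⊥ : Submodule ℝ E))
      infer_instance
    · intro (y : E) hy hy1
      have hy : y = 0 := hy
      change ‖y‖ = 1 at hy1
      rw [hy, norm_zero] at hy1
      norm_num at hy1
  exact noAUC _ h1 h2

theorem maxMod : DiamondLemma.MaxMod E := by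
  intro t ht x hx η hη
  obtain ⟨F, hF, hFy⟩ := midpoint t ht x hx η hη
  refine ⟨F, hF, fun y hy hy1 => ?_⟩
  have h1 : Real.sqrt (1 + t ^ 2 / 4) - 1 - η ≤ (‖x + t • y‖ + ‖x - t • y‖) / 2 - 1 :=
    hFy y hy hy1
  have h2 := le_max_left ‖x + t • y‖ ‖x - t • y‖
  have h3 := le_max_right ‖x + t • y‖ ‖x - t • y‖
  linarith

/-- There is a real Banach space (RealBanach record) that is separable, infinite-dimensional and reflexive, whose given norm has at every t > 0 averaged midpoint asymptotic modulus at least √(1 + t²/12) - 1 and at least (√(1 + t²/4) - 1)/2 and maximum-based midpoint modulus at least √(1 + t²/4) - 1, on which no equivalent norm is asymptotically uniformly convex, and in which for every k every map of the depth-k countably branching diamond graph of distortion at most D has 1 + k/4 ≤ D². -/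
theorem result :
    ∃ E : Crest.AnalysisR.RealBanach, E.IsSeparableInfiniteDim ∧ E.IsReflexive ∧
      (∀ t : ℝ, 0 < t → E.MidpointModulusGE E.norm t (Real.sqrt (1 + t ^ 2 / 12) - 1) ∧
        E.MidpointModulusGE E.norm t ((Real.sqrt (1 + t ^ 2 / 4) - 1) / 2) ∧
        E.MaxMidpointModulusGE E.norm t (Real.sqrt (1 + t ^ 2 / 4) - 1)) ∧
      (∀ N : E.X → ℝ, E.IsEquivNorm N → ¬ E.IsAUC N) ∧
      ∀ (k : ℕ) (f : Crest.AnalysisR.DiamondVertex k → E.X) (D : ℝ),
        E.HasDistortionLE k f D → 1 + (k : ℝ) / 4 ≤ D ^ 2 := by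
  refine ⟨EB, ⟨sep, inf⟩, L2Sum.refl_lp refl_XX, ?_, noAUC, ?_⟩
  · intro t ht
    have h0 : 1 ≤ Real.sqrt (1 + t ^ 2 / 4) := by
      rw [Real.one_le_sqrt]; nlinarith [sq_nonneg t]
    refine ⟨?_, ?_, maxMod t ht⟩
    · intro x hx η hη
      obtain ⟨F, hF, hFy⟩ := midpoint t ht x hx η hη
      refine ⟨F, hF, fun y hy hy1 => ?_⟩
      have h1 := hFy y hy hy1
      have h2 : Real.sqrt (1 + t ^ 2 / 12) ≤ Real.sqrt (1 + t ^ 2 / 4) :=
        Real.sqrt_le_sqrt (by nlinarith [sq_nonneg t])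
      linarith
    · intro x hx η hη
      obtain ⟨F, hF, hFy⟩ := midpoint t ht x hx η hη
      refine ⟨F, hF, fun y hy hy1 => ?_⟩
      have h1 := hFy y hy hy1
      linarith
  · rintro k f D ⟨s, hs, hf⟩
    exact DiamondLemma.diamond_bound (X := E) maxMod k f s D hs hf

end Crest.Agent.S0166
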