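import Crest.Prelude.Def_Diamond
import Crest.Agent.AUCLemma

set_option autoImplicit false

/-!
Diamond graphs: lower bound for the distortion from a lower bound on the max-midpoint modulus.
-/

namespace Crest.Agent.S0166

open Crest.AnalysisR Crest.Agent.AUCLemma

section graph

theorem diamond_adj_of_edge {k : ℕ} (e : DiamondEdge k) :
    (diamondGraph k).dist (diamondSrc k e) (diamondTgt k e) ≤ 1 := by
  by_cases h : diamondSrc k e = diamondTgt k e
  · rw [h, SimpleGraph.dist_self]; exact zero_le_one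
  · have : (diamondGraph k).Adj (diamondSrc k e) (diamondTgt k e) := by
      rw [diamondGraph, SimpleGraph.fromRel_adj]
      exact ⟨h, Or.inl ⟨e, rfl, rfl⟩⟩
    exact (SimpleGraph.dist_eq_one_iff_adj.2 this).le

theorem diamond_reach_edge {k : ℕ} (e : DiamondEdge k) :
    (diamondGraph k).Reachable (diamondSrc k e) (diamondTgt k e) := by
  by_cases h : diamondSrc k e = diamondTgt k e
  · rw [h]
  · have : (diamondGraph k).Adj (diamondSrc k e) (diamondTgt k e) := by
      rw [diamondGraph, SimpleGraph.fromRel_adj]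
      exact ⟨h, Or.inl ⟨e, rfl, rfl⟩⟩
    exact this.reachable

theorem diamond_reach_inl_inr {k : ℕ} (e : DiamondEdge k) (i : ℕ) :
    (diamondGraph (k+1)).Reachable (Sum.inl (diamondSrc k e)) (Sum.inr (e, i)) :=
  diamond_reach_edge (k := k+1) (e, i, false)

theorem diamond_reach_inr_inl {k : ℕ} (e : DiamondEdge k) (i : ℕ) :
    (diamondGraph (k+1)).Reachable (Sum.inr (e, i)) (Sum.inl (diamondTgt k e)) :=
  diamond_reach_edge (k := k+1) (e, i, true)

theorem diamond_reach_lift {k : ℕ} {u v : DiamondVertex k} (h : (diamondGraph k).Reachable u v) :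
    (diamondGraph (k+1)).Reachable (Sum.inl u) (Sum.inl v) := by
  obtain ⟨p⟩ := h
  induction p with
  | nil => exact SimpleGraph.Reachable.refl _
  | cons hadj _ ih =>
    refine SimpleGraph.Reachable.trans ?_ ih
    rw [diamondGraph, SimpleGraph.fromRel_adj] at hadj
    obtain ⟨-, ⟨e, h1, h2⟩ | ⟨e, h1, h2⟩⟩ := hadj
    · subst h1 h2
      exact (diamond_reach_inl_inr e 0).trans (diamond_reach_inr_inl e 0)
    · subst h1 h2
      exact ((diamond_reach_inl_inr e 0).trans (diamond_reach_inr_inl e 0)).symm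

theorem diamond_reach : ∀ (k : ℕ) (u v : DiamondVertex k), (diamondGraph k).Reachable u v
  | 0, u, v => by
    have h := diamond_reach_edge (k := 0) ()
    cases u <;> cases v
    · exact SimpleGraph.Reachable.refl _
    · exact h
    · exact h.symm
    · exact SimpleGraph.Reachable.refl _
  | k+1, u, v => by
    have key : ∀ w : DiamondVertex (k+1), ∃ w' : DiamondVertex k,
        (diamondGraph (k+1)).Reachable (Sum.inl w') w := by
      rintro (w | ⟨e, i⟩)
      · exact ⟨w, SimpleGraph.Reachable.refl _⟩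
      · exact ⟨_, diamond_reach_inl_inr e i⟩
    obtain ⟨u', hu⟩ := key u
    obtain ⟨v', hv⟩ := key v
    exact (hu.symm.trans (diamond_reach_lift (diamond_reach k u' v'))).trans hv

/-- 1-Lipschitz functions along edges are bounded by walk length -/
theorem lip_walk {k : ℕ} (φ : DiamondVertex k → ℤ)
    (hφ : ∀ e, |φ (diamondSrc k e) - φ (diamondTgt k e)| ≤ 1) {u v : DiamondVertex k}
    (p : (diamondGraph k).Walk u v) : |φ u - φ v| ≤ p.length := by
  induction p with
  | nil => simp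
  | @cons a b c hadj p ih =>
    rw [diamondGraph, SimpleGraph.fromRel_adj] at hadj
    have h1 : |φ a - φ b| ≤ 1 := by
      obtain ⟨-, ⟨e, h1, h2⟩ | ⟨e, h1, h2⟩⟩ := hadj
      · subst h1 h2; exact hφ e
      · subst h1 h2; rw [abs_sub_comm]; exact hφ e
    have h2 : φ a - φ c = (φ a - φ b) + (φ b - φ c) := by ring
    rw [h2]
    refine (abs_add_le _ _).trans ?_
    rw [SimpleGraph.Walk.length_cons]
    push_cast
    linarith

/-- extension of a potential to the next diamond -/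
def extendPot {k : ℕ} (φ : DiamondVertex k → ℤ) : DiamondVertex (k+1) → ℤ
  | Sum.inl u => 2 * φ u
  | Sum.inr (e, _) => φ (diamondSrc k e) + φ (diamondTgt k e)

theorem extendPot_lip {k : ℕ} (φ : DiamondVertex k → ℤ)
    (hφ : ∀ e, |φ (diamondSrc k e) - φ (diamondTgt k e)| ≤ 1) (e : DiamondEdge (k+1)) :
    |extendPot φ (diamondSrc (k+1) e) - extendPot φ (diamondTgt (k+1) e)| ≤ 1 := by
  obtain ⟨e, i, b⟩ := e
  have h := hφ e
  cases b
  · have : extendPot φ (diamondSrc (k+1) (e, i, false)) - extendPot φ (diamondTgt (k+1) (e, i, false))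
        = φ (diamondSrc k e) - φ (diamondTgt k e) := by
      simp only [diamondSrc, diamondTgt, extendPot, cond_false]
      ring
    rw [this]; exact h
  · have : extendPot φ (diamondSrc (k+1) (e, i, true)) - extendPot φ (diamondTgt (k+1) (e, i, true))
        = φ (diamondSrc k e) - φ (diamondTgt k e) := by
      simp only [diamondSrc, diamondTgt, extendPot, cond_true]
      ring
    rw [this]; exact h

theorem dist_lip {k : ℕ} (u : DiamondVertex k) (e : DiamondEdge k) :
    |((diamondDist k u (diamondSrc k e) : ℕ) : ℤ) - (diamondDist k u (diamondTgt k e) : ℕ)| ≤ 1 := by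
  have h1 := diamond_adj_of_edge e
  have hc : (diamondGraph k).Connected := by
    haveI : Nonempty (DiamondVertex k) := ⟨u⟩
    exact ⟨fun a b => diamond_reach k a b⟩
  have h2 := hc.dist_triangle (u := u) (v := diamondSrc k e) (w := diamondTgt k e)
  have h3 := hc.dist_triangle (u := u) (v := diamondTgt k e) (w := diamondSrc k e)
  rw [SimpleGraph.dist_comm (u := diamondTgt k e) (v := diamondSrc k e)] at h3
  unfold diamondDist
  rw [abs_le]
  constructor <;> omega

theorem dist_inl {k : ℕ} (u v : DiamondVertex k) :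
    2 * diamondDist k u v ≤ diamondDist (k+1) (Sum.inl u) (Sum.inl v) := by
  obtain ⟨p, hp⟩ := (diamond_reach (k+1) (Sum.inl u) (Sum.inl v)).exists_walk_length_eq_dist
  have h := lip_walk (extendPot fun w => ((diamondDist k u w : ℕ) : ℤ))
    (extendPot_lip _ (dist_lip u)) p
  have h0 : diamondDist k u u = 0 := SimpleGraph.dist_self
  simp only [extendPot, h0] at h
  unfold diamondDist at h ⊢
  rw [← hp]
  rw [abs_le] at h
  omega

theorem dist_mid {k : ℕ} (e : DiamondEdge k) {i j : ℕ} (hij : i ≠ j) :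
    2 ≤ diamondDist (k+1) (Sum.inr (e, i)) (Sum.inr (e, j)) := by
  apply (diamond_reach (k+1) _ _).one_lt_dist_of_ne_of_not_adj
  · intro h
    have := Sum.inr_injective h
    simp at this
    exact hij this
  · intro h
    rw [diamondGraph, SimpleGraph.fromRel_adj] at h
    obtain ⟨-, ⟨⟨e', i', b⟩, h1, h2⟩ | ⟨⟨e', i', b⟩, h1, h2⟩⟩ := h <;>
      cases b <;> simp [diamondSrc, diamondTgt] at h1 h2

end graph

section banach

variable {X : Type*} [NormedAddCommGroup X] [NormedSpace ℝ X]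

/-- pigeonhole in a finite-dimensional quotient -/
theorem exists_pair_near {F : Set X} (hF : Cof F) (z : ℕ → X) {C : ℝ} (hz : ∀ i, ‖z i‖ ≤ C)
    {ε : ℝ} (hε : 0 < ε) : ∃ i j, i ≠ j ∧ ∃ y ∈ F, ‖(z i - z j) - y‖ < ε := by
  obtain ⟨S, rfl, hcl, hfd⟩ := hF
  haveI : IsClosed (S : Set X) := hcl
  haveI : ProperSpace (X ⧸ S) := FiniteDimensional.proper ℝ (X ⧸ S)
  have hb : ∀ i, (S.mkQ (z i) : X ⧸ S) ∈ Metric.closedBall (0 : X ⧸ S) C := by
    intro i
    rw [mem_closedBall_zero_iff]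
    exact (Submodule.Quotient.norm_mk_le S (z i)).trans (hz i)
  obtain ⟨a, -, φ, hφ, hlim⟩ := (isCompact_closedBall (0 : X ⧸ S) C).tendsto_subseq hb
  have hcau := hlim.cauchySeq
  rw [Metric.cauchySeq_iff'] at hcau
  obtain ⟨N, hN⟩ := hcau ε hε
  have h1 := hN (N+1) (by omega)
  rw [dist_eq_norm] at h1
  simp only [Function.comp_def] at h1
  rw [← map_sub] at h1
  refine ⟨φ (N+1), φ N, ?_, ?_⟩
  · intro h
    have := hφ (Nat.lt_succ_self N)
    simp at this
    omega
  · obtain ⟨m, hm, hm'⟩ := Submodule.Quotient.norm_mk_lt (S := S) (S.mkQ (z (φ (N+1)) - z (φ N)))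
      (ε := ε - ‖S.mkQ (z (φ (N+1)) - z (φ N))‖) (by linarith)
    refine ⟨z (φ (N+1)) - z (φ N) - m, ?_, ?_⟩
    · have : S.mkQ (z (φ (N+1)) - z (φ N) - m) = 0 := by
        rw [map_sub, sub_eq_zero]
        exact hm.symm
      rw [Submodule.mkQ_apply, Submodule.Quotient.mk_eq_zero] at this
      exact this
    · simpa using (by linarith : ‖m‖ < ε)

/-- homogeneous form of the max-midpoint modulus bound -/
theorem max_mid_hom (H : ∀ t : ℝ, 0 < t → ∀ x : X, ‖x‖ = 1 → ∀ η : ℝ, 0 < η → ∃ F : Set X, Cof F ∧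
      ∀ y ∈ F, ‖y‖ = 1 → (Real.sqrt (1 + t ^ 2 / 4) - 1) - η ≤ max ‖x + t • y‖ ‖x - t • y‖ - 1)
    (x : X) (hx : x ≠ 0) {τ : ℝ} (hτ : 0 < τ) {η : ℝ} (hη : 0 < η) :
    ∃ F : Set X, Cof F ∧ ∀ y ∈ F, τ ≤ ‖y‖ →
      Real.sqrt (‖x‖ ^ 2 + τ ^ 2 / 4) - η ≤ max ‖x + y‖ ‖x - y‖ := by
  have hxn : 0 < ‖x‖ := norm_pos_iff.2 hx
  obtain ⟨F, hF, h⟩ := H (τ / ‖x‖) (div_pos hτ hxn) (‖x‖⁻¹ • x)
    (by rw [norm_smul, norm_inv, norm_norm, inv_mul_cancel₀ hxn.ne']) (η / ‖x‖) (div_pos hη hxn)
  refine ⟨F, hF, fun y hy hyτ => ?_⟩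
  have hyn : 0 < ‖y‖ := lt_of_lt_of_le hτ hyτ
  have hyF : ‖y‖⁻¹ • y ∈ F := by
    obtain ⟨S, hS, -, -⟩ := hF
    rw [← hS] at hy ⊢
    exact S.smul_mem _ hy
  have h1 := h _ hyF (by rw [norm_smul, norm_inv, norm_norm, inv_mul_cancel₀ hyn.ne'])
  set w : X := (τ / ‖y‖) • y with hw
  have e1 : ‖x‖⁻¹ • x + (τ / ‖x‖) • (‖y‖⁻¹ • y) = ‖x‖⁻¹ • (x + w) := by
    rw [hw, smul_add, smul_smul, smul_smul]
    congr 2
    rw [div_eq_mul_inv, div_eq_mul_inv]; ring
  have e2 : ‖x‖⁻¹ • x - (τ / ‖x‖) • (‖y‖⁻¹ • y) = ‖x‖⁻¹ • (x - w) := by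
    rw [hw, smul_sub, smul_smul, smul_smul]
    congr 2
    rw [div_eq_mul_inv, div_eq_mul_inv]; ring
  rw [e1, e2, norm_smul, norm_smul, norm_inv, norm_norm] at h1
  have h2 : Real.sqrt (1 + (τ / ‖x‖) ^ 2 / 4) = ‖x‖⁻¹ * Real.sqrt (‖x‖ ^ 2 + τ ^ 2 / 4) := by
    have : 1 + (τ / ‖x‖) ^ 2 / 4 = (‖x‖⁻¹) ^ 2 * (‖x‖ ^ 2 + τ ^ 2 / 4) := by
      field_simp
    rw [this, Real.sqrt_mul (by positivity), Real.sqrt_sq (by positivity)]
  rw [h2, ← mul_max_of_nonneg _ _ (by positivity : (0:ℝ) ≤ ‖x‖⁻¹)] at h1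
  have h3 : Real.sqrt (‖x‖ ^ 2 + τ ^ 2 / 4) - η ≤ max ‖x + w‖ ‖x - w‖ := by
    have h4 := mul_le_mul_of_nonneg_left h1 hxn.le
    have h5 : ‖x‖ * (‖x‖⁻¹ * Real.sqrt (‖x‖ ^ 2 + τ ^ 2 / 4) - 1 - η / ‖x‖)
        = Real.sqrt (‖x‖ ^ 2 + τ ^ 2 / 4) - ‖x‖ - η := by
      field_simp
    have h6 : ‖x‖ * (‖x‖⁻¹ * max ‖x + w‖ ‖x - w‖ - 1) = max ‖x + w‖ ‖x - w‖ - ‖x‖ := by
      field_simp
    rw [h5, h6] at h4
    linarith
  refine h3.trans ?_
  -- monotonicity
  have hr1 : τ / ‖y‖ ≤ 1 := (div_le_one hyn).2 hyτ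
  have hr0 : 0 ≤ τ / ‖y‖ := by positivity
  set r := τ / ‖y‖ with hr
  have k1 : x + w = ((1 + r) / 2) • (x + y) + ((1 - r) / 2) • (x - y) := by
    rw [hw]; module
  have k2 : x - w = ((1 - r) / 2) • (x + y) + ((1 + r) / 2) • (x - y) := by
    rw [hw]; module
  have hM1 := le_max_left ‖x + y‖ ‖x - y‖
  have hM2 := le_max_right ‖x + y‖ ‖x - y‖
  refine max_le ?_ ?_
  · rw [k1]
    refine (norm_add_le _ _).trans ?_
    rw [norm_smul, norm_smul, Real.norm_of_nonneg (by linarith), Real.norm_of_nonneg (by linarith)]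
    nlinarith
  · rw [k2]
    refine (norm_add_le _ _).trans ?_
    rw [norm_smul, norm_smul, Real.norm_of_nonneg (by linarith), Real.norm_of_nonneg (by linarith)]
    nlinarith

/-- one step of the diamond argument -/
theorem mid_step (H : ∀ t : ℝ, 0 < t → ∀ x : X, ‖x‖ = 1 → ∀ η : ℝ, 0 < η → ∃ F : Set X, Cof F ∧
      ∀ y ∈ F, ‖y‖ = 1 → (Real.sqrt (1 + t ^ 2 / 4) - 1) - η ≤ max ‖x + t • y‖ ‖x - t • y‖ - 1)
    (u v : X) (huv : u ≠ v) (m : ℕ → X) {s L : ℝ} (hs : 0 < s)
    (hm : ∀ i j, i ≠ j → 2 * s ≤ ‖m i - m j‖) (h1 : ∀ i, ‖u - m i‖ ≤ L) (h2 : ∀ i, ‖m i - v‖ ≤ L) :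
    ‖u - v‖ ^ 2 ≤ 4 * L ^ 2 - s ^ 2 := by
  set x : X := (1 / 2 : ℝ) • (v - u) with hxdef
  have hx : x ≠ 0 := by
    rw [hxdef]
    intro h
    rw [smul_eq_zero] at h
    rcases h with h | h
    · norm_num at h
    · exact huv (sub_eq_zero.1 h).symm
  have hL : 0 ≤ L := (norm_nonneg _).trans (h1 0)
  have key : ∀ ε : ℝ, 0 < ε → ε < s → Real.sqrt (‖x‖ ^ 2 + (s - ε) ^ 2 / 4) ≤ L + 2 * ε := by
    intro ε hε hεs
    obtain ⟨F, hF, hFy⟩ := max_mid_hom H x hx (τ := s - ε) (by linarith) hε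
    obtain ⟨i, j, hij, y, hy, hyn⟩ := exists_pair_near hF (fun i => (1 / 2 : ℝ) • m i) (C := (1/2) * (‖u‖ + L))
      (by
        intro i
        rw [norm_smul, Real.norm_of_nonneg (by norm_num)]
        have : ‖m i‖ ≤ ‖u‖ + ‖u - m i‖ := by
          have := norm_sub_le u (u - m i)
          simpa using this
        have := h1 i
        linarith) hε
    have hz : s ≤ ‖(1 / 2 : ℝ) • m i - (1 / 2 : ℝ) • m j‖ := by
      rw [← smul_sub, norm_smul, Real.norm_of_nonneg (by norm_num)]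
      have := hm i j hij
      linarith
    have hyn' : s - ε ≤ ‖y‖ := by
      have : ‖(1 / 2 : ℝ) • m i - (1 / 2 : ℝ) • m j‖ ≤
          ‖(1 / 2 : ℝ) • m i - (1 / 2 : ℝ) • m j - y‖ + ‖y‖ := by
        have := norm_add_le ((1 / 2 : ℝ) • m i - (1 / 2 : ℝ) • m j - y) y
        simpa using this
      linarith
    have h3 := hFy y hy hyn'
    have h4 : max ‖x + y‖ ‖x - y‖ ≤ L + ε := by
      have a1 : ‖x + ((1 / 2 : ℝ) • m i - (1 / 2 : ℝ) • m j)‖ ≤ L := by
        have : x + ((1 / 2 : ℝ) • m i - (1 / 2 : ℝ) • m j)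
            = (1 / 2 : ℝ) • (-(u - m i)) + (1 / 2 : ℝ) • (-(m j - v)) := by
          rw [hxdef]; module
        rw [this]
        refine (norm_add_le _ _).trans ?_
        rw [norm_smul, norm_smul, norm_neg, norm_neg, Real.norm_of_nonneg (by norm_num)]
        linarith [h1 i, h2 j]
      have a2 : ‖x - ((1 / 2 : ℝ) • m i - (1 / 2 : ℝ) • m j)‖ ≤ L := by
        have : x - ((1 / 2 : ℝ) • m i - (1 / 2 : ℝ) • m j)
            = (1 / 2 : ℝ) • (-(m i - v)) + (1 / 2 : ℝ) • (-(u - m j)) := by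
          rw [hxdef]; module
        rw [this]
        refine (norm_add_le _ _).trans ?_
        rw [norm_smul, norm_smul, norm_neg, norm_neg, Real.norm_of_nonneg (by norm_num)]
        linarith [h1 j, h2 i]
      refine max_le ?_ ?_
      · have : x + y = (x + ((1 / 2 : ℝ) • m i - (1 / 2 : ℝ) • m j))
            - (((1 / 2 : ℝ) • m i - (1 / 2 : ℝ) • m j) - y) := by abel
        rw [this]
        refine (norm_sub_le _ _).trans ?_
        linarith
      · have : x - y = (x - ((1 / 2 : ℝ) • m i - (1 / 2 : ℝ) • m j))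
            + (((1 / 2 : ℝ) • m i - (1 / 2 : ℝ) • m j) - y) := by abel
        rw [this]
        refine (norm_add_le _ _).trans ?_
        linarith
    linarith
  -- pass to the limit
  have hlim : Real.sqrt (‖x‖ ^ 2 + s ^ 2 / 4) ≤ L := by
    have hc1 : Filter.Tendsto (fun ε : ℝ => Real.sqrt (‖x‖ ^ 2 + (s - ε) ^ 2 / 4))
        (nhdsWithin 0 (Set.Ioi 0)) (nhds (Real.sqrt (‖x‖ ^ 2 + (s - 0) ^ 2 / 4))) := by
      have : Continuous (fun ε : ℝ => Real.sqrt (‖x‖ ^ 2 + (s - ε) ^ 2 / 4)) := by fun_prop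
      exact this.continuousWithinAt
    have hc2 : Filter.Tendsto (fun ε : ℝ => L + 2 * ε)
        (nhdsWithin 0 (Set.Ioi 0)) (nhds (L + 2 * 0)) := by
      have : Continuous (fun ε : ℝ => L + 2 * ε) := by fun_prop
      exact this.continuousWithinAt
    have h5 := le_of_tendsto_of_tendsto hc1 hc2 (by
      have : Set.Ioo (0:ℝ) s ∈ nhdsWithin 0 (Set.Ioi (0:ℝ)) := Ioo_mem_nhdsGT hs
      filter_upwards [this] with ε hε
      exact key ε hε.1 hε.2)
    simpa using h5
  have h6 : ‖x‖ ^ 2 + s ^ 2 / 4 ≤ L ^ 2 := by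
    have := (Real.sqrt_le_left hL).1 hlim
    exact this
  have h7 : ‖x‖ = (1 / 2) * ‖u - v‖ := by
    rw [hxdef, norm_smul, Real.norm_of_nonneg (by norm_num), norm_sub_rev]
  rw [h7] at h6
  nlinarith

theorem diamond_core
    (H : ∀ t : ℝ, 0 < t → ∀ x : X, ‖x‖ = 1 → ∀ η : ℝ, 0 < η → ∃ F : Set X, Cof F ∧
      ∀ y ∈ F, ‖y‖ = 1 → (Real.sqrt (1 + t ^ 2 / 4) - 1) - η ≤ max ‖x + t • y‖ ‖x - t • y‖ - 1) :
    ∀ (k : ℕ) (f : DiamondVertex k → X) (s L : ℝ), 0 < s →
      (∀ u v, s * (diamondDist k u v : ℝ) ≤ ‖f u - f v‖) →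
      (∀ e, ‖f (diamondSrc k e) - f (diamondTgt k e)‖ ≤ L) →
      s ^ 2 * (1 + (k : ℝ) / 4) ≤ L ^ 2
  | 0, f, s, L, hs, h1, h2 => by
    have h3 := h1 false true
    have h4 := h2 ()
    have h5 : (diamondGraph 0).dist false true = 1 := by
      rw [SimpleGraph.dist_eq_one_iff_adj, diamondGraph, SimpleGraph.fromRel_adj]
      exact ⟨by simp, Or.inl ⟨(), rfl, rfl⟩⟩
    rw [diamondDist, h5] at h3
    have h6 : s ≤ L := by
      have : diamondSrc 0 () = false := rfl
      have : diamondTgt 0 () = true := rfl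
      simp only [diamondSrc, diamondTgt] at h4
      push_cast at h3
      linarith
    simp only [CharP.cast_eq_zero, zero_div, add_zero, mul_one]
    exact pow_le_pow_left₀ hs.le h6 2
  | k+1, f, s, L, hs, h1, h2 => by
    have hL : 0 ≤ L := by
      have e : DiamondEdge (k+1) := by
        have : ∀ k, Nonempty (DiamondEdge k) := by
          intro k
          induction k with
          | zero => exact ⟨()⟩
          | succ k ih => exact ⟨(ih.some, 0, false)⟩
        exact (this (k+1)).some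
      exact (norm_nonneg _).trans (h2 e)
    have hg1 : ∀ u v : DiamondVertex k, (2 * s) * (diamondDist k u v : ℝ) ≤
        ‖f (Sum.inl u) - f (Sum.inl v)‖ := by
      intro u v
      refine le_trans ?_ (h1 (Sum.inl u) (Sum.inl v))
      have := dist_inl u v
      have h3 : (2 : ℝ) * (diamondDist k u v : ℝ) ≤ (diamondDist (k+1) (Sum.inl u) (Sum.inl v) : ℝ) := by
        exact_mod_cast this
      nlinarith
    have hne : ∀ e : DiamondEdge k, diamondSrc k e ≠ diamondTgt k e := by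
      intro e he
      -- distances: the midpoint would ... use recursion on the structure
      exact absurd he (by
        clear * -
        induction k with
        | zero => simp [diamondSrc, diamondTgt]
        | succ k ih =>
          obtain ⟨e, i, b⟩ := e
          cases b <;> simp [diamondSrc, diamondTgt])
    have hedge : ∀ e : DiamondEdge k, ‖f (Sum.inl (diamondSrc k e)) - f (Sum.inl (diamondTgt k e))‖ ^ 2
        ≤ 4 * L ^ 2 - s ^ 2 := by
      intro e
      refine mid_step H _ _ ?_ (fun i => f (Sum.inr (e, i))) hs ?_ ?_ ?_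
      · intro h
        have h3 := hg1 (diamondSrc k e) (diamondTgt k e)
        rw [h, sub_self, norm_zero] at h3
        have h4 := (diamond_reach k (diamondSrc k e) (diamondTgt k e)).pos_dist_of_ne (hne e)
        have h5 : (0 : ℝ) < (diamondDist k (diamondSrc k e) (diamondTgt k e) : ℝ) := by
          exact_mod_cast h4
        nlinarith
      · intro i j hij
        refine le_trans ?_ (h1 _ _)
        have := dist_mid e hij
        have h3 : (2 : ℝ) ≤ (diamondDist (k+1) (Sum.inr (e, i)) (Sum.inr (e, j)) : ℝ) := by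
          exact_mod_cast this
        nlinarith
      · intro i
        exact h2 (e, i, false)
      · intro i
        exact h2 (e, i, true)
    have hpos : 0 ≤ 4 * L ^ 2 - s ^ 2 := by
      have e : DiamondEdge k := by
        have : ∀ k, Nonempty (DiamondEdge k) := by
          intro k
          induction k with
          | zero => exact ⟨()⟩
          | succ k ih => exact ⟨(ih.some, 0, false)⟩
        exact (this k).some
      exact (sq_nonneg _).trans (hedge e)
    have ih := diamond_core H k (fun u => f (Sum.inl u)) (2 * s) (Real.sqrt (4 * L ^ 2 - s ^ 2))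
      (by linarith) hg1 (fun e => Real.le_sqrt_of_sq_le (hedge e))
    rw [Real.sq_sqrt hpos] at ih
    push_cast
    nlinarith

end banach

/-- max-midpoint modulus bound implies the diamond distortion bound -/
theorem diamond_lower (E : RealBanach)
    (h : ∀ t : ℝ, 0 < t → E.MaxMidpointModulusGE E.norm t (Real.sqrt (1 + t ^ 2 / 4) - 1))
    (k : ℕ) (f : DiamondVertex k → E.X) (D : ℝ) (hD : E.HasDistortionLE k f D) :
    1 + (k : ℝ) / 4 ≤ D ^ 2 := by
  letI := E.normed
  letI := E.space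
  obtain ⟨s, hs, hf⟩ := hD
  have hne : ∀ (k : ℕ) (e : DiamondEdge k), diamondSrc k e ≠ diamondTgt k e := by
    intro k
    induction k with
    | zero => intro e; simp [diamondSrc, diamondTgt]
    | succ k ih =>
      rintro ⟨e, i, b⟩
      cases b <;> simp [diamondSrc, diamondTgt]
  have hDpos : 0 ≤ D := by
    have e : DiamondEdge k := by
      have : ∀ k, Nonempty (DiamondEdge k) := by
        intro k
        induction k with
        | zero => exact ⟨()⟩
        | succ k ih => exact ⟨(ih.some, 0, false)⟩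
      exact (this k).some
    have h1 := hf (diamondSrc k e) (diamondTgt k e)
    have h4 := (diamond_reach k (diamondSrc k e) (diamondTgt k e)).pos_dist_of_ne (hne k e)
    have h5 : (0 : ℝ) < (diamondDist k (diamondSrc k e) (diamondTgt k e) : ℝ) := by
      exact_mod_cast h4
    by_contra hneg
    push Not at hneg
    have h6 : s * (diamondDist k (diamondSrc k e) (diamondTgt k e) : ℝ) > 0 := mul_pos hs h5
    have h7 : D * s * (diamondDist k (diamondSrc k e) (diamondTgt k e) : ℝ) < 0 := by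
      rw [mul_assoc]; exact mul_neg_of_neg_of_pos hneg h6
    linarith [h1.1, h1.2]
  have := diamond_core (X := E.X) (fun t ht x hx η hη => h t ht x hx η hη) k f s (D * s) hs
    (fun u v => (hf u v).1) (fun e => by
      refine (hf _ _).2.trans ?_
      have h1 : (diamondDist k (diamondSrc k e) (diamondTgt k e) : ℝ) ≤ 1 := by
        exact_mod_cast diamond_adj_of_edge e
      have h2 : 0 ≤ D * s := mul_nonneg hDpos hs.le
      nlinarith)
  rw [mul_pow, mul_comm (D ^ 2)] at this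
  exact le_of_mul_le_mul_left this (by positivity)

end Crest.Agent.S0166
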