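import Mathlib

set_option autoImplicit false

/-!
Reflexivity of Hilbert spaces, invariance under isomorphism, and `ℓ²`-sums.
-/

namespace Crest.Agent.S0166

open NormedSpace

open scoped ENNReal

theorem refl_hilbert (H : Type*) [NormedAddCommGroup H] [InnerProductSpace ℝ H] [CompleteSpace H] :
    Function.Surjective (inclusionInDoubleDual ℝ H) := by
  intro Φ
  let ψ : StrongDual ℝ H := LinearMap.mkContinuous
    { toFun := fun h => Φ (InnerProductSpace.toDual ℝ H h)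
      map_add' := fun a b => by rw [map_add, map_add]
      map_smul' := fun c a => by
        rw [map_smulₛₗ, map_smul]
        simp } ‖Φ‖ (fun h => by
          have := Φ.le_opNorm (InnerProductSpace.toDual ℝ H h)
          rwa [LinearIsometryEquiv.norm_map] at this)
  refine ⟨(InnerProductSpace.toDual ℝ H).symm ψ, ?_⟩
  ext φ
  rw [dual_def]
  obtain ⟨h, rfl⟩ := (InnerProductSpace.toDual ℝ H).surjective φ
  rw [InnerProductSpace.toDual_apply_apply, real_inner_comm, InnerProductSpace.toDual_symm_apply]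
  rfl

theorem refl_congr {X Y : Type*} [NormedAddCommGroup X] [NormedSpace ℝ X]
    [NormedAddCommGroup Y] [NormedSpace ℝ Y] (e : X ≃L[ℝ] Y)
    (hX : Function.Surjective (inclusionInDoubleDual ℝ X)) :
    Function.Surjective (inclusionInDoubleDual ℝ Y) := by
  intro Φ
  let Ψ : StrongDual ℝ (StrongDual ℝ X) :=
    Φ.comp ((ContinuousLinearMap.compL ℝ Y X ℝ).flip (e.symm : Y →L[ℝ] X))
  obtain ⟨x, hx⟩ := hX Ψ
  refine ⟨e x, ?_⟩
  ext φ
  rw [dual_def]
  have h1 : Ψ (φ.comp (e : X →L[ℝ] Y)) = Φ φ := by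
    change Φ ((φ.comp (e : X →L[ℝ] Y)).comp (e.symm : Y →L[ℝ] X)) = Φ φ
    congr 1
    ext y
    simp
  rw [← h1, ← hx, dual_def]
  rfl

section lp

variable {X : ℕ → Type} [∀ n, NormedAddCommGroup (X n)] [∀ n, NormedSpace ℝ (X n)]

/-- ℓ²-sum -/
abbrev L2 (X : ℕ → Type) [∀ n, NormedAddCommGroup (X n)] : Type := lp X 2

theorem L2_sum_sq_le (x : L2 X) (A : Finset ℕ) : ∑ i ∈ A, ‖x i‖ ^ 2 ≤ ‖x‖ ^ 2 := by
  have := lp.sum_rpow_le_norm_rpow (p := 2) (by norm_num) x A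
  simpa using this

theorem L2_norm_sq_single (u : ∀ i, X i) (A : Finset ℕ) :
    ‖∑ i ∈ A, lp.single (E := X) 2 i (u i)‖ ^ 2 = ∑ i ∈ A, ‖u i‖ ^ 2 := by
  have := lp.norm_sum_single (p := 2) (E := X) (by norm_num) u A
  simpa using this

theorem L2_hasSum_sq (x : L2 X) : HasSum (fun i => ‖x i‖ ^ 2) (‖x‖ ^ 2) := by
  have := lp.hasSum_norm (p := 2) (by norm_num) x
  simpa using this

theorem mem_L2 {u : ∀ i, X i} {C : ℝ} (h : ∀ A : Finset ℕ, ∑ i ∈ A, ‖u i‖ ^ 2 ≤ C) :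
    Memℓp u 2 := by
  apply memℓp_gen' (C := C)
  simpa using h

/-- finite sums of functionals on the coordinates -/
theorem norm_sum_comp_eval_le (φ : ∀ i, StrongDual ℝ (X i)) (A : Finset ℕ) :
    ‖∑ i ∈ A, (φ i).comp (lp.evalCLM ℝ X 2 i)‖ ≤ Real.sqrt (∑ i ∈ A, ‖φ i‖ ^ 2) := by
  refine ContinuousLinearMap.opNorm_le_bound _ (Real.sqrt_nonneg _) fun x => ?_
  rw [ContinuousLinearMap.sum_apply]
  calc ‖∑ i ∈ A, ((φ i).comp (lp.evalCLM ℝ X 2 i)) x‖
      ≤ ∑ i ∈ A, ‖φ i‖ * ‖x i‖ := by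
        refine (norm_sum_le _ _).trans (Finset.sum_le_sum fun i _ => ?_)
        exact (φ i).le_opNorm (x i)
    _ ≤ Real.sqrt (∑ i ∈ A, ‖φ i‖ ^ 2) * Real.sqrt (∑ i ∈ A, ‖x i‖ ^ 2) :=
        Real.sum_mul_le_sqrt_mul_sqrt _ _ _
    _ ≤ Real.sqrt (∑ i ∈ A, ‖φ i‖ ^ 2) * ‖x‖ := by
        refine mul_le_mul_of_nonneg_left ?_ (Real.sqrt_nonneg _)
        rw [Real.sqrt_le_left (norm_nonneg _)]
        exact L2_sum_sq_le x A

theorem sq_le_of_le_mul_sqrt {S M : ℝ} (hS : 0 ≤ S) (h : S ≤ M * Real.sqrt S) : S ≤ M ^ 2 := by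
  rcases hS.eq_or_lt with h0 | h0
  · rw [← h0]; positivity
  · have hsq : 0 < Real.sqrt S := Real.sqrt_pos.2 h0
    have h4 : S = Real.sqrt S * Real.sqrt S := (Real.mul_self_sqrt hS).symm
    have h5 : Real.sqrt S ≤ M := by
      have : Real.sqrt S * Real.sqrt S ≤ M * Real.sqrt S := by linarith
      exact le_of_mul_le_mul_right this hsq
    calc S = Real.sqrt S ^ 2 := (Real.sq_sqrt hS).symm
      _ ≤ M ^ 2 := pow_le_pow_left₀ hsq.le h5 2

theorem sum_sq_restrict_le (φ : StrongDual ℝ (L2 X)) (A : Finset ℕ) :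
    ∑ i ∈ A, ‖φ.comp (lp.singleContinuousLinearMap ℝ X 2 i)‖ ^ 2 ≤ (2 * ‖φ‖) ^ 2 := by
  set c : ℕ → ℝ := fun i => ‖φ.comp (lp.singleContinuousLinearMap ℝ X 2 i)‖ with hc
  have hu : ∀ i, ∃ u : X i, ‖u‖ ≤ 1 ∧ c i / 2 ≤ φ (lp.single 2 i u) := by
    intro i
    by_cases h0 : c i = 0
    · exact ⟨0, by simp, by rw [h0, lp.single_zero]; simp⟩
    · have hpos : 0 < c i := lt_of_le_of_ne (norm_nonneg _) (Ne.symm h0)
      obtain ⟨u, hu1, hu2⟩ := (φ.comp (lp.singleContinuousLinearMap ℝ X 2 i)).exists_lt_apply_of_lt_opNorm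
        (r := c i / 2) (by simp only [hc] at hpos ⊢; linarith)
      simp only [ContinuousLinearMap.comp_apply, lp.singleContinuousLinearMap_apply,
        Real.norm_eq_abs] at hu2
      rcases abs_cases (φ (lp.single 2 i u)) with ⟨h, -⟩ | ⟨h, -⟩
      · exact ⟨u, hu1.le, by rw [h] at hu2; exact hu2.le⟩
      · refine ⟨-u, by rw [norm_neg]; exact hu1.le, ?_⟩
        rw [lp.single_neg, map_neg]
        rw [h] at hu2; exact hu2.le
  choose u hu1 hu2 using hu
  set S := ∑ i ∈ A, c i ^ 2 with hS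
  have hS0 : 0 ≤ S := Finset.sum_nonneg fun i _ => sq_nonneg _
  have h1 : S / 2 ≤ φ (∑ i ∈ A, lp.single 2 i (c i • u i)) := by
    rw [map_sum, hS, Finset.sum_div]
    refine Finset.sum_le_sum fun i _ => ?_
    rw [lp.single_smul, map_smul, smul_eq_mul]
    have := mul_le_mul_of_nonneg_left (hu2 i) (norm_nonneg _ : 0 ≤ c i)
    calc c i ^ 2 / 2 = c i * (c i / 2) := by ring
      _ ≤ _ := this
  have h2 : ‖∑ i ∈ A, lp.single (E := X) 2 i (c i • u i)‖ ≤ Real.sqrt S := by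
    apply Real.le_sqrt_of_sq_le
    rw [L2_norm_sq_single]
    refine Finset.sum_le_sum fun i _ => ?_
    rw [norm_smul, Real.norm_of_nonneg (norm_nonneg _ : 0 ≤ c i), mul_pow]
    have : ‖u i‖ ^ 2 ≤ 1 := pow_le_one₀ (norm_nonneg _) (hu1 i)
    nlinarith [sq_nonneg (c i)]
  have h3 : S ≤ (2 * ‖φ‖) * Real.sqrt S := by
    have h4 := φ.le_opNorm (∑ i ∈ A, lp.single (E := X) 2 i (c i • u i))
    have h5 := Real.le_norm_self (φ (∑ i ∈ A, lp.single 2 i (c i • u i)))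
    have h6 := mul_le_mul_of_nonneg_left h2 (norm_nonneg φ)
    linarith
  exact sq_le_of_le_mul_sqrt hS0 h3

theorem hasSum_functional (φ : StrongDual ℝ (L2 X)) :
    HasSum (fun i => (φ.comp (lp.singleContinuousLinearMap ℝ X 2 i)).comp (lp.evalCLM ℝ X 2 i)) φ := by
  have hs : Summable (fun i => ‖φ.comp (lp.singleContinuousLinearMap ℝ X 2 i)‖ ^ 2) :=
    summable_of_sum_le (fun i => sq_nonneg _) (sum_sq_restrict_le φ)
  have hsum : Summable (fun i => (φ.comp (lp.singleContinuousLinearMap ℝ X 2 i)).comp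
      (lp.evalCLM ℝ X 2 i)) := by
    rw [summable_iff_vanishing_norm]
    intro ε hε
    rw [summable_iff_vanishing_norm] at hs
    obtain ⟨s, hs⟩ := hs (ε ^ 2) (by positivity)
    refine ⟨s, fun t ht => ?_⟩
    refine (norm_sum_comp_eval_le (fun i => φ.comp (lp.singleContinuousLinearMap ℝ X 2 i)) t).trans_lt ?_
    have := hs t ht
    rw [Real.norm_of_nonneg (Finset.sum_nonneg fun i _ => sq_nonneg _)] at this
    rw [Real.sqrt_lt' hε]
    exact this
  have : (∑' i, (φ.comp (lp.singleContinuousLinearMap ℝ X 2 i)).comp (lp.evalCLM ℝ X 2 i)) = φ := by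
    apply lp.ext_continuousLinearMap (by norm_num)
    intro j
    ext u
    have h1 := hsum.hasSum.mapL (ContinuousLinearMap.apply ℝ ℝ
      (lp.singleContinuousLinearMap ℝ X 2 j u))
    have h2 : HasSum (fun i => ((φ.comp (lp.singleContinuousLinearMap ℝ X 2 i)).comp
      (lp.evalCLM ℝ X 2 i)) (lp.singleContinuousLinearMap ℝ X 2 j u))
      (φ (lp.single 2 j u)) := by
      have h3 : ∀ i, i ≠ j → ((φ.comp (lp.singleContinuousLinearMap ℝ X 2 i)).comp
          (lp.evalCLM ℝ X 2 i)) (lp.singleContinuousLinearMap ℝ X 2 j u) = 0 := by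
        intro i hij
        simp only [ContinuousLinearMap.comp_apply, lp.singleContinuousLinearMap_apply]
        have : (lp.evalCLM ℝ X 2 i) (lp.single 2 j u) = 0 := by
          change lp.single 2 j u i = 0
          exact lp.single_apply_ne _ _ _ hij
        rw [this, lp.single_zero, map_zero]
      have h4 := hasSum_single j h3
      have h5 : ((φ.comp (lp.singleContinuousLinearMap ℝ X 2 j)).comp
          (lp.evalCLM ℝ X 2 j)) (lp.singleContinuousLinearMap ℝ X 2 j u) = φ (lp.single 2 j u) := by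
        simp only [ContinuousLinearMap.comp_apply, lp.singleContinuousLinearMap_apply]
        have : (lp.evalCLM ℝ X 2 j) (lp.single 2 j u) = u := by
          change lp.single 2 j u j = u
          exact lp.single_apply_self _ _ _
        rw [this]
      rwa [h5] at h4
    exact h1.unique h2
  rw [← this] at hsum ⊢
  simpa [this] using hsum.hasSum

theorem refl_L2 (hX : ∀ n, Function.Surjective (inclusionInDoubleDual ℝ (X n))) :
    Function.Surjective (inclusionInDoubleDual ℝ (L2 X)) := by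
  intro Φ
  have h1 : ∀ i, ∃ x : X i, ∀ φ : StrongDual ℝ (X i), Φ (φ.comp (lp.evalCLM ℝ X 2 i)) = φ x := by
    intro i
    obtain ⟨x, hx⟩ := hX i (Φ.comp ((ContinuousLinearMap.compL ℝ (L2 X) (X i) ℝ).flip
      (lp.evalCLM ℝ X 2 i)))
    refine ⟨x, fun φ => ?_⟩
    have := congrArg (fun Ψ => Ψ φ) hx
    simp only [dual_def] at this
    rw [this]
    rfl
  choose x hx using h1
  have hb : ∀ A : Finset ℕ, ∑ i ∈ A, ‖x i‖ ^ 2 ≤ ‖Φ‖ ^ 2 := by
    intro A
    have h2 : ∀ i, ∃ φ : StrongDual ℝ (X i), ‖φ‖ ≤ 1 ∧ φ (x i) = ‖x i‖ := by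
      intro i
      obtain ⟨g, hg1, hg2⟩ := exists_dual_vector'' ℝ (x i)
      exact ⟨g, hg1, by simpa using hg2⟩
    choose φ hφ1 hφ2 using h2
    set S := ∑ i ∈ A, ‖x i‖ ^ 2 with hS
    have hS0 : 0 ≤ S := Finset.sum_nonneg fun i _ => sq_nonneg _
    have h3 : Φ (∑ i ∈ A, (‖x i‖ • φ i).comp (lp.evalCLM ℝ X 2 i)) = S := by
      rw [map_sum, hS]
      refine Finset.sum_congr rfl fun i _ => ?_
      rw [hx]
      simp [hφ2, sq]
    have h4 : ‖∑ i ∈ A, (‖x i‖ • φ i).comp (lp.evalCLM ℝ X 2 i)‖ ≤ Real.sqrt S := by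
      refine (norm_sum_comp_eval_le (fun i => ‖x i‖ • φ i) A).trans ?_
      apply Real.sqrt_le_sqrt
      refine Finset.sum_le_sum fun i _ => ?_
      rw [norm_smul, norm_norm, mul_pow]
      have : ‖φ i‖ ^ 2 ≤ 1 := pow_le_one₀ (norm_nonneg _) (hφ1 i)
      nlinarith [sq_nonneg ‖x i‖]
    have h5 : S ≤ ‖Φ‖ * Real.sqrt S := by
      have h6 := Φ.le_opNorm (∑ i ∈ A, (‖x i‖ • φ i).comp (lp.evalCLM ℝ X 2 i))
      rw [h3, Real.norm_of_nonneg hS0] at h6
      exact h6.trans (mul_le_mul_of_nonneg_left h4 (norm_nonneg _))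
    exact sq_le_of_le_mul_sqrt hS0 h5
  let y : L2 X := ⟨x, mem_L2 hb⟩
  refine ⟨y, ?_⟩
  ext φ
  rw [dual_def]
  have hs := hasSum_functional φ
  have h1 := hs.mapL Φ
  have h2 := hs.mapL (ContinuousLinearMap.apply ℝ ℝ y)
  have h3 : (fun i => Φ ((φ.comp (lp.singleContinuousLinearMap ℝ X 2 i)).comp
      (lp.evalCLM ℝ X 2 i))) = fun i => (ContinuousLinearMap.apply ℝ ℝ y)
      ((φ.comp (lp.singleContinuousLinearMap ℝ X 2 i)).comp (lp.evalCLM ℝ X 2 i)) := by
    funext i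
    rw [hx]
    rfl
  rw [h3] at h1
  exact (h1.unique h2).symm

end lp

end Crest.Agent.S0166
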