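import Crest.Agent.S0166B

set_option autoImplicit false

/-!
The pieces `X n`: `ℓ²(List ℕ)` with the norm given by tests with potentials bounded up to depth `n`.
-/

namespace Crest.Agent.S0166

open scoped ENNReal RealInnerProductSpace

/-- the underlying Hilbert space -/
abbrev H : Type := lp (fun _ : List ℕ => ℝ) 2

/-- path potential -/
def pot (f : List ℕ → ℝ) : List ℕ → ℝ
  | [] => f []
  | a :: v => pot f v + f (a :: v)

theorem H_inner (f x : H) : ⟪f, x⟫ = ∑' s, f s * x s := by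
  rw [lp.inner_eq_tsum]
  refine tsum_congr fun s => ?_
  simp [mul_comm]

theorem H_hasSum_inner (f x : H) : HasSum (fun s => f s * x s) ⟪f, x⟫ := by
  have := lp.hasSum_inner (𝕜 := ℝ) f x
  refine this.congr_fun ?_ |> fun h => h
  intro s
  simp [mul_comm]

theorem H_sum_sq_le (x : H) (A : Finset (List ℕ)) : ∑ i ∈ A, x i ^ 2 ≤ ‖x‖ ^ 2 := by
  have := lp.sum_rpow_le_norm_rpow (p := 2) (by norm_num) x A
  simpa using this

theorem H_norm_le {x : H} {C : ℝ} (hC : 0 ≤ C) (h : ∀ A : Finset (List ℕ), ∑ i ∈ A, x i ^ 2 ≤ C ^ 2) :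
    ‖x‖ ≤ C := by
  refine lp.norm_le_of_forall_sum_le (p := 2) (by norm_num) hC ?_
  simpa using h

/-- tests for the `n`-th piece -/
def K (n : ℕ) : Set H := {f | ‖f‖ ≤ 1 ∧ ∀ s : List ℕ, s.length ≤ n → |pot f s| ≤ 1}

theorem abs_inner_le_of_mem {n : ℕ} {f : H} (hf : f ∈ K n) (x : H) : |⟪f, x⟫| ≤ ‖x‖ :=
  (abs_real_inner_le_norm f x).trans (by
    have := mul_le_mul_of_nonneg_right hf.1 (norm_nonneg x)
    linarith)

/-- the test map -/
noncomputable def J (n : ℕ) : H →ₗ[ℝ] lp (fun _ : K n => ℝ) ⊤ where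
  toFun x := ⟨fun f => ⟪f.1, x⟫, memℓp_infty ⟨‖x‖, by
    rintro _ ⟨f, rfl⟩
    exact abs_inner_le_of_mem f.2 x⟩⟩
  map_add' x y := by
    ext f
    simp [inner_add_right]
  map_smul' c x := by
    ext f
    simp [inner_smul_right]

theorem J_apply (n : ℕ) (x : H) (f : K n) : J n x f = ⟪f.1, x⟫ := rfl

theorem pot_bound (f : H) (s : List ℕ) : |pot f s| ≤ (s.length + 1) * ‖f‖ := by
  induction s with
  | nil =>
    simp only [pot, List.length_nil, CharP.cast_eq_zero, zero_add, one_mul]
    exact lp.norm_apply_le_norm (by norm_num) f []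
  | cons a v ih =>
    simp only [pot, List.length_cons]
    push_cast
    have h1 : |f (a :: v)| ≤ ‖f‖ := lp.norm_apply_le_norm (by norm_num) f (a :: v)
    refine (abs_add_le _ _).trans ?_
    linarith

theorem pot_smul (c : ℝ) (f : H) (s : List ℕ) : pot (c • f : H) s = c * pot f s := by
  induction s with
  | nil => simp [pot]
  | cons a v ih =>
    rw [pot, pot, ih]
    have : (c • f : H) (a :: v) = c * f (a :: v) := by simp
    rw [this]; ring

/-- the small ball consists of tests -/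
theorem smul_mem_K (n : ℕ) (x : H) (hx : ‖x‖ ≤ 1) : ((n : ℝ) + 1)⁻¹ • x ∈ K n := by
  have hn : (0 : ℝ) < (n : ℝ) + 1 := by positivity
  refine ⟨?_, fun s hs => ?_⟩
  · rw [norm_smul, norm_inv, Real.norm_of_nonneg hn.le, inv_mul_le_iff₀ hn]
    have : (0 : ℝ) ≤ n := Nat.cast_nonneg n
    linarith
  · rw [pot_smul, abs_mul, abs_inv, abs_of_pos hn, inv_mul_le_iff₀ hn]
    refine (pot_bound x s).trans ?_
    have h1 : (s.length : ℝ) + 1 ≤ (n : ℝ) + 1 := by
      have : (s.length : ℝ) ≤ n := by exact_mod_cast hs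
      linarith
    nlinarith [norm_nonneg x]

theorem J_norm_le (n : ℕ) (x : H) : ‖J n x‖ ≤ ‖x‖ := by
  refine lp.norm_le_of_forall_le (norm_nonneg x) fun f => ?_
  rw [J_apply]
  exact abs_inner_le_of_mem f.2 x

theorem le_J_norm (n : ℕ) (x : H) : ‖x‖ ≤ ((n : ℝ) + 1) * ‖J n x‖ := by
  by_cases hx : x = 0
  · subst hx; simp
  have hxn : 0 < ‖x‖ := norm_pos_iff.2 hx
  have hn : (0 : ℝ) < (n : ℝ) + 1 := by positivity
  have hmem := smul_mem_K n (‖x‖⁻¹ • x) (by
    rw [norm_smul, norm_inv, norm_norm, inv_mul_cancel₀ hxn.ne'])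
  have h1 := lp.norm_apply_le_norm (by norm_num) (J n x) ⟨_, hmem⟩
  rw [J_apply, inner_smul_left, inner_smul_left, real_inner_self_eq_norm_sq] at h1
  simp only [conj_trivial, Real.norm_eq_abs] at h1
  have h2 : ((n : ℝ) + 1)⁻¹ * (‖x‖⁻¹ * ‖x‖ ^ 2) = ‖x‖ / ((n : ℝ) + 1) := by
    field_simp
  rw [h2, abs_of_nonneg (by positivity), div_le_iff₀ hn] at h1
  linarith

theorem J_injective (n : ℕ) : Function.Injective (J n) := by
  rw [injective_iff_map_eq_zero]
  intro x hx
  have := le_J_norm n x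
  rw [hx, norm_zero, mul_zero] at this
  exact norm_le_zero_iff.1 this

/-- the `n`-th piece, a type synonym of `H` -/
def X (_n : ℕ) : Type := H

noncomputable instance (n : ℕ) : AddCommGroup (X n) := inferInstanceAs (AddCommGroup H)
noncomputable instance (n : ℕ) : Module ℝ (X n) := inferInstanceAs (Module ℝ H)

/-- the identity map -/
noncomputable def toX (n : ℕ) : H ≃ₗ[ℝ] X n := LinearEquiv.refl ℝ H

/-- the test map on `X n` -/
noncomputable def JX (n : ℕ) : X n →ₗ[ℝ] lp (fun _ : K n => ℝ) ⊤ := (J n).comp (toX n).symm.toLinearMap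

theorem JX_injective (n : ℕ) : Function.Injective (JX n) :=
  (J_injective n).comp (toX n).symm.injective

noncomputable instance (n : ℕ) : NormedAddCommGroup (X n) :=
  NormedAddCommGroup.induced (X n) (lp (fun _ : K n => ℝ) ⊤) (JX n) (JX_injective n)

noncomputable instance (n : ℕ) : NormedSpace ℝ (X n) :=
  NormedSpace.induced ℝ (X n) (lp (fun _ : K n => ℝ) ⊤) (JX n)

theorem norm_toX (n : ℕ) (x : H) : ‖toX n x‖ = ‖J n x‖ := rfl

theorem norm_toX_le (n : ℕ) (x : H) : ‖toX n x‖ ≤ ‖x‖ := J_norm_le n x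

theorem le_norm_toX (n : ℕ) (x : H) : ‖x‖ ≤ ((n : ℝ) + 1) * ‖toX n x‖ := le_J_norm n x

theorem test_le (n : ℕ) {f : H} (hf : f ∈ K n) (x : H) : |⟪f, x⟫| ≤ ‖toX n x‖ := by
  rw [norm_toX]
  exact lp.norm_apply_le_norm (by norm_num) (J n x) ⟨f, hf⟩

theorem norm_toX_le_of (n : ℕ) (x : H) {C : ℝ} (hC : 0 ≤ C) (h : ∀ f ∈ K n, |⟪f, x⟫| ≤ C) :
    ‖toX n x‖ ≤ C := by
  rw [norm_toX]
  refine lp.norm_le_of_forall_le hC fun f => ?_
  rw [J_apply]
  exact h f.1 f.2

theorem neg_mem_K {n : ℕ} {f : H} (hf : f ∈ K n) : -f ∈ K n := by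
  refine ⟨by rw [norm_neg]; exact hf.1, fun s hs => ?_⟩
  have : pot (-f : H) s = - pot f s := by
    have := pot_smul (-1) f s
    simpa using this
  rw [this, abs_neg]
  exact hf.2 s hs

theorem exists_test (n : ℕ) (x : H) {c : ℝ} (hc : c < ‖toX n x‖) : ∃ f ∈ K n, c < ⟪f, x⟫ := by
  by_contra hcon
  push Not at hcon
  have h0 : (0 : H) ∈ K n := ⟨by simp, fun s _ => by
    have := pot_smul 0 0 s
    simp at this
    simp [this]⟩
  have hc0 : 0 ≤ c := by
    have := hcon 0 h0
    simpa using this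
  have := norm_toX_le_of n x hc0 (fun f hf => by
    rw [abs_le]
    constructor
    · have := hcon (-f) (neg_mem_K hf)
      rw [inner_neg_left] at this
      linarith
    · exact hcon f hf)
  linarith

/-- the isomorphism with the Hilbert space -/
noncomputable def eX (n : ℕ) : H ≃L[ℝ] X n :=
  (toX n).toContinuousLinearEquivOfBounds 1 ((n : ℝ) + 1)
    (fun x => by rw [one_mul]; exact norm_toX_le n x)
    (fun x => by
      have := le_norm_toX n ((toX n).symm x)
      rwa [LinearEquiv.apply_symm_apply] at this)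

theorem eX_apply (n : ℕ) (x : H) : eX n x = toX n x := rfl

instance (n : ℕ) : CompleteSpace (X n) :=
  (completeSpace_congr (e := (eX n).toLinearEquiv.toEquiv) (eX n).isUniformEmbedding).1 inferInstance

theorem refl_X (n : ℕ) : Function.Surjective (NormedSpace.inclusionInDoubleDual ℝ (X n)) :=
  refl_congr (eX n) (refl_hilbert H)

/-- unit vectors -/
noncomputable def δ (s : List ℕ) : H := lp.single 2 s (1 : ℝ)

theorem norm_δ (s : List ℕ) : ‖δ s‖ = 1 := by
  rw [δ, lp.norm_single (by norm_num)]; simp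

theorem inner_δ (f : H) (s : List ℕ) : ⟪f, δ s⟫ = f s := by
  rw [δ, lp.inner_single_right]; simp

theorem δ_apply (s u : List ℕ) : δ s u = if u = s then 1 else 0 := by
  rw [δ, lp.single_apply, Pi.single_apply]

theorem pot_ite (s u : List ℕ) :
    pot (fun v => if v = s then (1 : ℝ) else 0) u = if s <:+ u then 1 else 0 := by
  induction u with
  | nil =>
    simp only [pot, List.suffix_nil]
    by_cases h : s = []
    · simp [h]
    · simp [h, Ne.symm h]
  | cons a v ih =>
    rw [pot, ih]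
    by_cases h : a :: v = s
    · subst h
      have : ¬ (a :: v) <:+ v := fun h => by
        have := h.length_le
        simp at this
      simp [this]
    · have : s <:+ a :: v ↔ s <:+ v := by
        rw [List.suffix_cons_iff]
        constructor
        · rintro (h' | h')
          · exact absurd h'.symm h
          · exact h'
        · exact Or.inr
      simp [h, this]

theorem δ_mem_K (n : ℕ) (s : List ℕ) : δ s ∈ K n := by
  refine ⟨(norm_δ s).le, fun u _ => ?_⟩
  have : (δ s : List ℕ → ℝ) = fun v => if v = s then (1 : ℝ) else 0 := by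
    funext v; exact δ_apply s v
  rw [this, pot_ite]
  split_ifs <;> simp

theorem abs_coord_le (n : ℕ) (x : H) (s : List ℕ) : |x s| ≤ ‖toX n x‖ := by
  have := test_le n (δ_mem_K n s) x
  rwa [real_inner_comm, inner_δ] at this

theorem norm_toX_δ (n : ℕ) (s : List ℕ) : 1 ≤ ‖toX n (δ s)‖ := by
  have := abs_coord_le n (δ s) s
  simpa [δ_apply] using this

/-- path vectors -/
noncomputable def pathVec : List ℕ → H
  | [] => δ []
  | a :: v => pathVec v + δ (a :: v)

theorem inner_pathVec (f : H) (s : List ℕ) : ⟪f, pathVec s⟫ = pot f s := by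
  induction s with
  | nil => simp [pathVec, pot, inner_δ]
  | cons a v ih => rw [pathVec, inner_add_right, ih, inner_δ, pot]

theorem norm_pathVec_le (n : ℕ) (s : List ℕ) (hs : s.length ≤ n) : ‖toX n (pathVec s)‖ ≤ 1 := by
  refine norm_toX_le_of n _ zero_le_one fun f hf => ?_
  rw [inner_pathVec]
  exact hf.2 s hs

theorem norm_sum_δ_le (s : List ℕ) (A : Finset ℕ) (r : ℕ → ℝ) :
    ‖∑ a ∈ A, r a • δ (a :: s)‖ ≤ Real.sqrt (∑ a ∈ A, r a ^ 2) := by
  have horth : Orthonormal ℝ (fun a : ℕ => δ (a :: s)) := by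
    rw [orthonormal_iff_ite]
    intro a b
    rw [inner_δ, δ_apply]
    by_cases h : a = b
    · simp [h]
    · have : ¬ (b :: s = a :: s) := by
        intro h'; simp at h'; exact h h'.symm
      simp [h, this]
  apply Real.le_sqrt_of_sq_le
  rw [← real_inner_self_eq_norm_sq, horth.inner_sum]
  simp [sq]

end Crest.Agent.S0166
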