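import Crest.Agent.S0166C

set_option autoImplicit false

/-!
The midpoint inequality in the pieces `X n`.
-/

namespace Crest.Agent.S0166

open scoped ENNReal RealInnerProductSpace

/-- the deepest ancestor in `T` (for suffix-closed `T` containing the root) -/
def anc (T : Finset (List ℕ)) : List ℕ → List ℕ
  | [] => []
  | a :: v => if a :: v ∈ T then a :: v else anc T v

/-- the one-sided truncation used to build the two tests -/
noncomputable def kap (u z : ℝ) : ℝ := if 0 ≤ u then min z 0 else max z 0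

/-- the potential of the test adapted to `x + y` -/
noncomputable def potP (T : Finset (List ℕ)) (α β : ℝ) (F G : List ℕ → ℝ) (s : List ℕ) : ℝ :=
  α * F (anc T s) + 2 * β * kap (F (anc T s)) (G s - G (anc T s))

/-- the potential of the test adapted to `x - y` -/
noncomputable def potM (T : Finset (List ℕ)) (α β : ℝ) (F G : List ℕ → ℝ) (s : List ℕ) : ℝ :=
  α * F (anc T s) + 2 * β * (kap (F (anc T s)) (G s - G (anc T s)) - (G s - G (anc T s)))

theorem kap_zero (u : ℝ) : kap u 0 = 0 := by unfold kap; split_ifs <;> simp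

theorem kap_lip (u z w : ℝ) : |kap u z - kap u w| ≤ |z - w| := by
  unfold kap
  split_ifs
  · simpa using abs_min_sub_min_le_max z 0 w 0
  · simpa using abs_max_sub_max_le_max z 0 w 0

theorem kap_sub_lip (u z w : ℝ) : |(kap u z - z) - (kap u w - w)| ≤ |z - w| := by
  unfold kap
  split_ifs
  · have h : ∀ x : ℝ, min x 0 - x = - max x 0 := by
      intro x
      rcases le_total x 0 with h | h <;> simp [h]
    rw [h, h]
    have := abs_max_sub_max_le_max w 0 z 0
    rw [abs_sub_comm w z] at this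
    have h2 : -max z 0 - -max w 0 = max w 0 - max z 0 := by ring
    rw [h2]; simpa using this
  · have h : ∀ x : ℝ, max x 0 - x = - min x 0 := by
      intro x
      rcases le_total x 0 with h | h <;> simp [h]
    rw [h, h]
    have := abs_min_sub_min_le_max w 0 z 0
    rw [abs_sub_comm w z] at this
    have h2 : -min z 0 - -min w 0 = min w 0 - min z 0 := by ring
    rw [h2]; simpa using this

theorem pot_bounds {α β u z : ℝ} (hα : 0 ≤ α) (hα1 : α ≤ 1) (hβ : 0 ≤ β) (hβ1 : β ≤ 1 / 4)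
    (hu : |u| ≤ 1) (hz : |z| ≤ 2) :
    |α * u + 2 * β * kap u z| ≤ 1 ∧ |α * u + 2 * β * (kap u z - z)| ≤ 1 := by
  rw [abs_le] at hu hz
  unfold kap
  split_ifs with h
  · have h1 : 0 ≤ α * u := mul_nonneg hα h
    have h2 : α * u ≤ 1 := by nlinarith
    have hm1 : min z 0 ≤ 0 := min_le_right _ _
    have hm2 : -2 ≤ min z 0 := le_min hz.1 (by norm_num)
    have hm3 : min z 0 - z ≤ 0 := by linarith [min_le_left z 0]
    have hm4 : -2 ≤ min z 0 - z := by
      rcases le_total z 0 with h | h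
      · rw [min_eq_left h]; linarith
      · rw [min_eq_right h]; linarith [hz.2]
    constructor
    · rw [abs_le]; constructor <;> nlinarith
    · rw [abs_le]; constructor <;> nlinarith
  · push Not at h
    have h1 : α * u ≤ 0 := mul_nonpos_of_nonneg_of_nonpos hα h.le
    have h2 : -1 ≤ α * u := by nlinarith
    have hm1 : 0 ≤ max z 0 := le_max_right _ _
    have hm2 : max z 0 ≤ 2 := max_le hz.2 (by norm_num)
    have hm3 : 0 ≤ max z 0 - z := by linarith [le_max_left z 0]
    have hm4 : max z 0 - z ≤ 2 := by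
      rcases le_total z 0 with h | h
      · rw [max_eq_right h]; linarith [hz.1]
      · rw [max_eq_left h]; linarith
    constructor
    · rw [abs_le]; constructor <;> nlinarith
    · rw [abs_le]; constructor <;> nlinarith

theorem anc_mem {T : Finset (List ℕ)} {s : List ℕ} (hs : s ∈ T) : anc T s = s := by
  cases s with
  | nil => rfl
  | cons a v => simp [anc, hs]

theorem anc_cons_notMem {T : Finset (List ℕ)} {a : ℕ} {v : List ℕ} (hs : a :: v ∉ T) :
    anc T (a :: v) = anc T v := by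
  simp [anc, hs]

theorem anc_length (T : Finset (List ℕ)) (s : List ℕ) : (anc T s).length ≤ s.length := by
  induction s with
  | nil => simp [anc]
  | cons a v ih =>
    by_cases h : a :: v ∈ T
    · rw [anc_mem h]
    · rw [anc_cons_notMem h]
      simp only [List.length_cons]
      omega

/-- increments of a function on vertices -/
def incr (P : List ℕ → ℝ) : List ℕ → ℝ
  | [] => P []
  | a :: v => P (a :: v) - P v

section build

variable {n : ℕ} {f g : H} (T : Finset (List ℕ))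
  (hT0 : ([] : List ℕ) ∈ T) (hTc : ∀ a v, a :: v ∈ T → v ∈ T) {α β : ℝ}
  (hα : 0 ≤ α) (hα1 : α ≤ 1) (hβ : 0 ≤ β) (hβ1 : β ≤ 1 / 4) (hαβ : α ^ 2 + 4 * β ^ 2 ≤ 1)

open Classical in
/-- coefficients of the modified tests -/
noncomputable def hTest (n : ℕ) (f g : H) (T : Finset (List ℕ)) (α β : ℝ) (P : List ℕ → ℝ) (c : ℝ)
    (s : List ℕ) : ℝ :=
  if s ∈ T then α * f s else if s.length ≤ n then incr P s else c * g s

include hT0 hTc

theorem pot_hTest (P : List ℕ → ℝ) (c : ℝ) (hPT : ∀ s ∈ T, P s = α * pot f s) (s : List ℕ)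
    (hs : s.length ≤ n) : pot (hTest n f g T α β P c) s = P s := by
  induction s with
  | nil =>
    rw [pot, hTest, if_pos hT0, hPT _ hT0, pot]
  | cons a v ih =>
    have hv : v.length ≤ n := by simp only [List.length_cons] at hs; omega
    rw [pot, ih hv, hTest]
    by_cases h : a :: v ∈ T
    · rw [if_pos h, hPT _ h, hPT _ (hTc a v h), pot]
      ring
    · rw [if_neg h, if_pos hs, incr]
      ring

theorem potP_of_mem {s : List ℕ} (hs : s ∈ T) : potP T α β (pot f) (pot g) s = α * pot f s := by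
  rw [potP, anc_mem hs, sub_self, kap_zero, mul_zero, add_zero]

theorem potM_of_mem {s : List ℕ} (hs : s ∈ T) : potM T α β (pot f) (pot g) s = α * pot f s := by
  rw [potM, anc_mem hs, sub_self, kap_zero, sub_zero, mul_zero, add_zero]

include hβ

theorem abs_hTest_le (P : List ℕ → ℝ) {c : ℝ} (hc : |c| ≤ 2 * β)
    (hP : ∀ a v, a :: v ∉ T → |P (a :: v) - P v| ≤ 2 * β * |g (a :: v)|) (s : List ℕ) :
    hTest n f g T α β P c s ^ 2 ≤ α ^ 2 * f s ^ 2 + 4 * β ^ 2 * g s ^ 2 := by
  rw [hTest]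
  split_ifs with h1 h2
  · rw [mul_pow]
    have : 0 ≤ 4 * β ^ 2 * g s ^ 2 := by positivity
    linarith
  · cases s with
    | nil => exact absurd hT0 h1
    | cons a v =>
      have h3 := hP a v h1
      rw [incr]
      have h4 : (P (a :: v) - P v) ^ 2 ≤ (2 * β * |g (a :: v)|) ^ 2 := by
        rw [← sq_abs (P (a :: v) - P v)]
        exact pow_le_pow_left₀ (abs_nonneg _) h3 2
      have h5 : (2 * β * |g (a :: v)|) ^ 2 = 4 * β ^ 2 * g (a :: v) ^ 2 := by
        rw [mul_pow, sq_abs]; ring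
      have : 0 ≤ α ^ 2 * f (a :: v) ^ 2 := by positivity
      linarith
  · have h4 : (c * g s) ^ 2 ≤ 4 * β ^ 2 * g s ^ 2 := by
      rw [mul_pow]
      have : c ^ 2 ≤ (2 * β) ^ 2 := by
        rw [← sq_abs c]
        exact pow_le_pow_left₀ (abs_nonneg _) hc 2
      nlinarith [sq_nonneg (g s)]
    have : 0 ≤ α ^ 2 * f s ^ 2 := by positivity
    linarith

include hαβ

theorem hTest_mem (hf : f ∈ K n) (hg : g ∈ K n) (P : List ℕ → ℝ) {c : ℝ} (hc : |c| ≤ 2 * β)
    (hP : ∀ a v, a :: v ∉ T → |P (a :: v) - P v| ≤ 2 * β * |g (a :: v)|)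
    (hPT : ∀ s ∈ T, P s = α * pot f s) (hPb : ∀ s : List ℕ, s.length ≤ n → |P s| ≤ 1) :
    ∃ h : H, (∀ s, h s = hTest n f g T α β P c s) ∧ h ∈ K n := by
  have hsum : ∀ A : Finset (List ℕ), ∑ s ∈ A, hTest n f g T α β P c s ^ 2 ≤ 1 ^ 2 := by
    intro A
    calc ∑ s ∈ A, hTest n f g T α β P c s ^ 2
        ≤ ∑ s ∈ A, (α ^ 2 * f s ^ 2 + 4 * β ^ 2 * g s ^ 2) :=
          Finset.sum_le_sum fun s _ => abs_hTest_le T hT0 hTc hβ P hc hP s
      _ = α ^ 2 * ∑ s ∈ A, f s ^ 2 + 4 * β ^ 2 * ∑ s ∈ A, g s ^ 2 := by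
          rw [Finset.sum_add_distrib, Finset.mul_sum, Finset.mul_sum]
      _ ≤ α ^ 2 * 1 + 4 * β ^ 2 * 1 := by
          have h1 : ∑ s ∈ A, f s ^ 2 ≤ 1 := (H_sum_sq_le f A).trans
            (pow_le_one₀ (norm_nonneg _) hf.1)
          have h2 : ∑ s ∈ A, g s ^ 2 ≤ 1 := (H_sum_sq_le g A).trans
            (pow_le_one₀ (norm_nonneg _) hg.1)
          have := mul_le_mul_of_nonneg_left h1 (sq_nonneg α)
          have := mul_le_mul_of_nonneg_left h2 (by positivity : (0:ℝ) ≤ 4 * β ^ 2)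
          linarith
      _ ≤ 1 ^ 2 := by linarith
  have hmem : Memℓp (hTest n f g T α β P c) 2 := by
    apply memℓp_gen' (C := 1 ^ 2)
    simpa using hsum
  refine ⟨⟨hTest n f g T α β P c, hmem⟩, fun s => rfl, ?_, fun s hs => ?_⟩
  · exact H_norm_le zero_le_one hsum
  · have := pot_hTest (β := β) (g := g) T hT0 hTc P c hPT s hs
    change |pot (hTest n f g T α β P c) s| ≤ 1
    rw [this]
    exact hPb s hs

include hα hα1 hβ1

theorem exists_tests (hf : f ∈ K n) (hg : g ∈ K n) :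
    ∃ h₁ ∈ K n, ∃ h₂ ∈ K n, (∀ s ∈ T, h₁ s + h₂ s = 2 * α * f s) ∧
      (∀ s ∉ T, h₁ s - h₂ s = 2 * β * g s) := by
  have hFb : ∀ s : List ℕ, s.length ≤ n → |pot f (anc T s)| ≤ 1 := fun s hs =>
    hf.2 _ ((anc_length T s).trans hs)
  have hGb : ∀ s : List ℕ, s.length ≤ n → |pot g s - pot g (anc T s)| ≤ 2 := fun s hs => by
    have h1 := hg.2 s hs
    have h2 := hg.2 _ ((anc_length T s).trans hs)
    have := abs_sub (pot g s) (pot g (anc T s))
    linarith
  obtain ⟨h₁, h1a, h1b⟩ := hTest_mem (α := α) T hT0 hTc hβ hαβ hf hg (potP T α β (pot f) (pot g))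
    (c := 2 * β) (by rw [abs_of_nonneg (by linarith)]) (by
      intro a v hav
      rw [potP, potP, anc_cons_notMem hav]
      have h3 := kap_lip (pot f (anc T v)) (pot g (a :: v) - pot g (anc T v)) (pot g v - pot g (anc T v))
      have h4 : pot g (a :: v) - pot g (anc T v) - (pot g v - pot g (anc T v)) = g (a :: v) := by
        rw [pot]; ring
      rw [h4] at h3
      have h5 : α * pot f (anc T v) + 2 * β * kap (pot f (anc T v)) (pot g (a :: v) - pot g (anc T v)) -
          (α * pot f (anc T v) + 2 * β * kap (pot f (anc T v)) (pot g v - pot g (anc T v)))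
          = 2 * β * (kap (pot f (anc T v)) (pot g (a :: v) - pot g (anc T v))
            - kap (pot f (anc T v)) (pot g v - pot g (anc T v))) := by ring
      rw [h5, abs_mul, abs_of_nonneg (by linarith : (0:ℝ) ≤ 2 * β)]
      exact mul_le_mul_of_nonneg_left h3 (by linarith))
    (fun s hs => potP_of_mem T hT0 hTc hs)
    (fun s hs => (pot_bounds hα hα1 hβ hβ1 (hFb s hs) (hGb s hs)).1)
  obtain ⟨h₂, h2a, h2b⟩ := hTest_mem (α := α) T hT0 hTc hβ hαβ hf hg (potM T α β (pot f) (pot g))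
    (c := 0) (by rw [abs_zero]; linarith) (by
      intro a v hav
      rw [potM, potM, anc_cons_notMem hav]
      have h3 := kap_sub_lip (pot f (anc T v)) (pot g (a :: v) - pot g (anc T v)) (pot g v - pot g (anc T v))
      have h4 : pot g (a :: v) - pot g (anc T v) - (pot g v - pot g (anc T v)) = g (a :: v) := by
        rw [pot]; ring
      rw [h4] at h3
      have h5 : α * pot f (anc T v) + 2 * β * (kap (pot f (anc T v)) (pot g (a :: v) - pot g (anc T v)) -
          (pot g (a :: v) - pot g (anc T v))) -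
          (α * pot f (anc T v) + 2 * β * (kap (pot f (anc T v)) (pot g v - pot g (anc T v))
            - (pot g v - pot g (anc T v))))
          = 2 * β * (kap (pot f (anc T v)) (pot g (a :: v) - pot g (anc T v)) -
            (pot g (a :: v) - pot g (anc T v)) -
            (kap (pot f (anc T v)) (pot g v - pot g (anc T v)) - (pot g v - pot g (anc T v)))) := by ring
      rw [h5, abs_mul, abs_of_nonneg (by linarith : (0:ℝ) ≤ 2 * β)]
      exact mul_le_mul_of_nonneg_left h3 (by linarith))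
    (fun s hs => potM_of_mem T hT0 hTc hs)
    (fun s hs => (pot_bounds hα hα1 hβ hβ1 (hFb s hs) (hGb s hs)).2)
  refine ⟨h₁, h1b, h₂, h2b, fun s hs => ?_, fun s hs => ?_⟩
  · rw [h1a, h2a, hTest, hTest, if_pos hs, if_pos hs]; ring
  · rw [h1a, h2a, hTest, hTest, if_neg hs, if_neg hs]
    by_cases hsn : s.length ≤ n
    · rw [if_pos hsn, if_pos hsn]
      cases s with
      | nil => exact absurd hT0 hs
      | cons a v =>
        rw [incr, incr, potP, potP, potM, potM, anc_cons_notMem hs]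
        have h4 : pot g (a :: v) = pot g v + g (a :: v) := rfl
        rw [h4]
        ring
    · rw [if_neg hsn, if_neg hsn]; ring

theorem mid_tests (hf : f ∈ K n) (hg : g ∈ K n) {x y : H} (hx : ∀ s ∉ T, x s = 0)
    (hy : ∀ s ∈ T, y s = 0) :
    α * ⟪f, x⟫ + β * ⟪g, y⟫ ≤ (‖toX n (x + y)‖ + ‖toX n (x - y)‖) / 2 := by
  obtain ⟨h₁, hh1, h₂, hh2, hsumT, hdiff⟩ := exists_tests T hT0 hTc hα hα1 hβ hβ1 hαβ hf hg
  have h1 := (le_abs_self _).trans (test_le n hh1 (x + y))
  have h2 := (le_abs_self _).trans (test_le n hh2 (x - y))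
  have h3 : ⟪h₁, x + y⟫ + ⟪h₂, x - y⟫ = ⟪h₁ + h₂, x⟫ + ⟪h₁ - h₂, y⟫ := by
    simp only [inner_add_right, inner_sub_right, inner_add_left, inner_sub_left]
    ring
  have h4 : ⟪h₁ + h₂, x⟫ = 2 * α * ⟪f, x⟫ := by
    rw [H_inner, H_inner, ← tsum_mul_left]
    refine tsum_congr fun s => ?_
    by_cases hs : s ∈ T
    · have : (h₁ + h₂ : H) s = h₁ s + h₂ s := rfl
      rw [this, hsumT s hs]; ring
    · rw [hx s hs]; ring
  have h5 : ⟪h₁ - h₂, y⟫ = 2 * β * ⟪g, y⟫ := by
    rw [H_inner, H_inner, ← tsum_mul_left]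
    refine tsum_congr fun s => ?_
    by_cases hs : s ∈ T
    · rw [hy s hs]; ring
    · have : (h₁ - h₂ : H) s = h₁ s - h₂ s := rfl
      rw [this, hdiff s hs]; ring
  rw [h4, h5] at h3
  linarith

theorem mid_norms {x y : H} (hx : ∀ s ∉ T, x s = 0) (hy : ∀ s ∈ T, y s = 0) :
    α * ‖toX n x‖ + β * ‖toX n y‖ ≤ (‖toX n (x + y)‖ + ‖toX n (x - y)‖) / 2 := by
  refine le_of_forall_pos_lt_add fun ε hε => ?_
  obtain ⟨f, hf, hfx⟩ := exists_test n x (c := ‖toX n x‖ - ε / 2) (by linarith)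
  obtain ⟨g, hg, hgy⟩ := exists_test n y (c := ‖toX n y‖ - ε / 2) (by linarith)
  have h := mid_tests T hT0 hTc hα hα1 hβ hβ1 hαβ hf hg hx hy
  have h1 : α * (‖toX n x‖ - ε / 2) ≤ α * ⟪f, x⟫ := mul_le_mul_of_nonneg_left hfx.le hα
  have h2 : β * (‖toX n y‖ - ε / 2) ≤ β * ⟪g, y⟫ := mul_le_mul_of_nonneg_left hgy.le hβ
  nlinarith

end build

/-- midpoint inequality in the `n`-th piece -/
theorem mid_X (n : ℕ) (T : Finset (List ℕ)) (hT : T.Nonempty → ([] : List ℕ) ∈ T)
    (hTc : ∀ a v, a :: v ∈ T → v ∈ T) {x y : H} (hx : ∀ s ∉ T, x s = 0) (hy : ∀ s ∈ T, y s = 0) :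
    Real.sqrt (‖toX n x‖ ^ 2 + ‖toX n y‖ ^ 2 / 4) ≤ (‖toX n (x + y)‖ + ‖toX n (x - y)‖) / 2 := by
  set a := ‖toX n x‖ with ha
  set b := ‖toX n y‖ with hb
  have ha0 : 0 ≤ a := norm_nonneg _
  have hb0 : 0 ≤ b := norm_nonneg _
  have htriv : b ≤ (‖toX n (x + y)‖ + ‖toX n (x - y)‖) / 2 := by
    have h1 : (2 : ℝ) • toX n y = toX n (x + y) - toX n (x - y) := by
      rw [map_add, map_sub, two_smul]; abel
    have h2 : ‖(2 : ℝ) • toX n y‖ = 2 * b := by
      rw [norm_smul]; norm_num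
      rfl
    rw [h1] at h2
    have := norm_sub_le (toX n (x + y)) (toX n (x - y))
    linarith
  by_cases hbig : 4 * a ^ 2 ≤ 3 * b ^ 2
  · refine le_trans ?_ htriv
    rw [Real.sqrt_le_left hb0]
    linarith
  push Not at hbig
  have hane : a ≠ 0 := by
    intro h
    rw [h] at hbig
    nlinarith [sq_nonneg b]
  have hapos : 0 < a := lt_of_le_of_ne ha0 (Ne.symm hane)
  have hTne : T.Nonempty := by
    by_contra hcon
    rw [Finset.not_nonempty_iff_eq_empty] at hcon
    have : x = 0 := by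
      ext s
      exact hx s (by simp [hcon])
    rw [this, map_zero, norm_zero] at ha
    exact hane ha
  set R := Real.sqrt (a ^ 2 + b ^ 2 / 4) with hR
  have hR2 : R ^ 2 = a ^ 2 + b ^ 2 / 4 := Real.sq_sqrt (by positivity)
  have hRpos : 0 < R := Real.sqrt_pos.2 (by positivity)
  have hbR : b ≤ R := by
    apply Real.le_sqrt_of_sq_le
    linarith
  have haR : a ≤ R := by
    apply Real.le_sqrt_of_sq_le
    nlinarith [sq_nonneg b]
  have h := mid_norms (n := n) (α := a / R) (β := b / (4 * R)) T (hT hTne) hTc (by positivity)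
    ((div_le_one hRpos).2 haR) (by positivity) (by
      rw [div_le_iff₀ (by positivity)]; linarith) (by
      rw [div_pow, div_pow, mul_pow]
      have : a ^ 2 / R ^ 2 + 4 * (b ^ 2 / (4 ^ 2 * R ^ 2)) = (a ^ 2 + b ^ 2 / 4) / R ^ 2 := by
        field_simp
      rw [this, ← hR2, div_self (by positivity)]) hx hy
  have h2 : a / R * a + b / (4 * R) * b = R := by
    have : a / R * a + b / (4 * R) * b = (a ^ 2 + b ^ 2 / 4) / R := by
      field_simp
    rw [this, ← hR2]; field_simp
  rw [← ha, ← hb, h2] at h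
  exact h

end Crest.Agent.S0166
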