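import Crest.Agent.S0166A
import Crest.Agent.S0166D

set_option autoImplicit false

/-!
The space `E = (⊕ X n)_{ℓ²}`.
-/

namespace Crest.Agent.S0166

open scoped ENNReal RealInnerProductSpace

open Crest.Agent.AUCLemma

/-- the space -/
abbrev E : Type := L2 X

/-- coordinate vectors -/
noncomputable def vec (p : ℕ × List ℕ) : E := lp.single 2 p.1 (toX p.1 (δ p.2))

/-- coordinates -/
noncomputable def coord (p : ℕ × List ℕ) (x : E) : ℝ := ((toX p.1).symm (x p.1) : H) p.2

theorem coord_add (p : ℕ × List ℕ) (x y : E) : coord p (x + y) = coord p x + coord p y := by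
  unfold coord
  rw [lp.coeFn_add, Pi.add_apply, map_add]
  rfl

theorem coord_smul (p : ℕ × List ℕ) (c : ℝ) (x : E) : coord p (c • x) = c * coord p x := by
  unfold coord
  rw [lp.coeFn_smul, Pi.smul_apply, map_smul]
  rfl

theorem abs_coord_le_norm (p : ℕ × List ℕ) (x : E) : |coord p x| ≤ ‖x‖ := by
  unfold coord
  refine (abs_coord_le p.1 ((toX p.1).symm (x p.1)) p.2).trans ?_
  rw [LinearEquiv.apply_symm_apply]
  exact lp.norm_apply_le_norm (by norm_num) x p.1

theorem coord_vec (p q : ℕ × List ℕ) : coord p (vec q) = if p = q then 1 else 0 := by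
  unfold coord vec
  rw [lp.single_apply]
  by_cases h : p.1 = q.1
  · obtain ⟨a, s⟩ := p
    obtain ⟨b, t⟩ := q
    simp only at h
    subst h
    simp only [Pi.single_eq_same, LinearEquiv.symm_apply_apply, δ_apply, Prod.mk.injEq, true_and]
  · rw [Pi.single_eq_of_ne h, map_zero]
    have : p ≠ q := fun h' => h (by rw [h'])
    rw [if_neg this]
    rfl

/-- coordinates as a linear map -/
noncomputable def coordL (S : Finset (ℕ × List ℕ)) : E →L[ℝ] (S → ℝ) :=
  ContinuousLinearMap.pi fun p => LinearMap.mkContinuous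
    { toFun := coord p.1
      map_add' := coord_add p.1
      map_smul' := fun c x => by rw [coord_smul]; rfl } 1 (fun x => by
        rw [one_mul]; exact abs_coord_le_norm p.1 x)

theorem coordL_apply (S : Finset (ℕ × List ℕ)) (x : E) (p : S) : coordL S x p = coord p.1 x := rfl

theorem cof_coord (S : Finset (ℕ × List ℕ)) : Cof {y : E | ∀ p ∈ S, coord p y = 0} := by
  have hset : ((LinearMap.ker (coordL S).toLinearMap : Submodule ℝ E) : Set E) =
      {y : E | ∀ p ∈ S, coord p y = 0} := by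
    ext y
    simp only [SetLike.mem_coe, LinearMap.mem_ker, Set.mem_setOf_eq]
    constructor
    · intro h p hp
      have := congrFun h ⟨p, hp⟩
      exact this
    · intro h
      funext p
      exact h p.1 p.2
  refine ⟨LinearMap.ker (coordL S).toLinearMap, hset, ?_, ?_⟩
  · rw [← hset]
    exact (coordL S).isClosed_ker
  · exact FiniteDimensional.of_injective
      ((LinearMap.quotKerEquivRange (coordL S).toLinearMap).toLinearMap)
      (LinearMap.quotKerEquivRange (coordL S).toLinearMap).injective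

/-- finitely supported vectors are dense -/
theorem dense_span : (Submodule.span ℝ (Set.range vec)).topologicalClosure = ⊤ := by
  rw [eq_top_iff]
  rintro x -
  set D := (Submodule.span ℝ (Set.range vec)).topologicalClosure with hD
  have hcl : IsClosed (D : Set E) := Submodule.isClosed_topologicalClosure _
  have h1 : ∀ (n : ℕ) (u : H), lp.single (E := X) 2 n (toX n u) ∈ D := by
    intro n u
    have hs : HasSum (fun s : List ℕ => lp.single 2 s (u s : ℝ)) u := lp.hasSum_single (by norm_num) u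
    have hs2 := (hs.mapL (eX n : H →L[ℝ] X n)).mapL (lp.singleContinuousLinearMap ℝ X 2 n)
    refine hcl.mem_of_tendsto hs2 (Filter.Eventually.of_forall fun A => ?_)
    refine Submodule.sum_mem _ fun s _ => ?_
    have : (lp.singleContinuousLinearMap ℝ X 2 n) ((eX n : H →L[ℝ] X n) (lp.single 2 s (u s : ℝ)))
        = u s • vec (n, s) := by
      have h2 : (lp.single 2 s (u s : ℝ) : H) = u s • δ s := by
        rw [δ, ← lp.single_smul]; simp
      rw [h2, map_smul, map_smul]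
      rfl
    rw [this]
    exact D.smul_mem _ (Submodule.le_topologicalClosure _ (Submodule.subset_span ⟨_, rfl⟩))
  have hs : HasSum (fun n => lp.single (E := X) 2 n (x n)) x := lp.hasSum_single (by norm_num) x
  refine hcl.mem_of_tendsto hs (Filter.Eventually.of_forall fun A => ?_)
  refine Submodule.sum_mem _ fun n _ => ?_
  have := h1 n ((toX n).symm (x n))
  rwa [LinearEquiv.apply_symm_apply] at this

/-- support of finitely supported vectors -/
theorem exists_support {x : E} (hx : x ∈ Submodule.span ℝ (Set.range vec)) :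
    ∃ S : Finset (ℕ × List ℕ), ∀ p, p ∉ S → coord p x = 0 := by
  classical
  induction hx using Submodule.span_induction with
  | mem x hx =>
    obtain ⟨q, rfl⟩ := hx
    refine ⟨{q}, fun p hp => ?_⟩
    rw [coord_vec, if_neg (by simpa using hp)]
  | zero =>
    refine ⟨∅, fun p _ => ?_⟩
    have := coord_smul p 0 0
    simpa using this
  | add x y _ _ hx hy =>
    obtain ⟨S, hS⟩ := hx
    obtain ⟨T, hT⟩ := hy
    refine ⟨S ∪ T, fun p hp => ?_⟩
    rw [Finset.notMem_union] at hp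
    rw [coord_add, hS p hp.1, hT p hp.2, add_zero]
  | smul c x _ hx =>
    obtain ⟨S, hS⟩ := hx
    refine ⟨S, fun p hp => ?_⟩
    rw [coord_smul, hS p hp, mul_zero]

/-- closed supports -/
theorem exists_closed_support (S : Finset (ℕ × List ℕ)) : ∃ S' : Finset (ℕ × List ℕ), S ⊆ S' ∧
    (∀ n a v, (n, a :: v) ∈ S' → (n, v) ∈ S') ∧ (∀ n v, (n, v) ∈ S' → (n, []) ∈ S') := by
  classical
  refine ⟨S.biUnion fun p => (p.2.tails.toFinset).image fun v => (p.1, v), ?_, ?_, ?_⟩
  · intro p hp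
    rw [Finset.mem_biUnion]
    refine ⟨p, hp, ?_⟩
    rw [Finset.mem_image]
    exact ⟨p.2, by simp, rfl⟩
  · intro n a v h
    rw [Finset.mem_biUnion] at h ⊢
    obtain ⟨p, hp, h⟩ := h
    rw [Finset.mem_image] at h
    obtain ⟨w, hw, hw2⟩ := h
    simp only [Prod.mk.injEq] at hw2
    obtain ⟨rfl, rfl⟩ := hw2
    refine ⟨p, hp, ?_⟩
    rw [Finset.mem_image]
    refine ⟨v, ?_, rfl⟩
    rw [List.mem_toFinset, List.mem_tails] at hw ⊢
    exact (List.suffix_cons a v).trans hw
  · intro n v h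
    rw [Finset.mem_biUnion] at h ⊢
    obtain ⟨p, hp, h⟩ := h
    rw [Finset.mem_image] at h
    obtain ⟨w, hw, hw2⟩ := h
    simp only [Prod.mk.injEq] at hw2
    obtain ⟨rfl, rfl⟩ := hw2
    refine ⟨p, hp, ?_⟩
    rw [Finset.mem_image]
    refine ⟨[], ?_, rfl⟩
    rw [List.mem_toFinset, List.mem_tails]
    exact List.nil_suffix

theorem mid_finite (S : Finset (ℕ × List ℕ)) (hS1 : ∀ n a v, (n, a :: v) ∈ S → (n, v) ∈ S)
    (hS2 : ∀ n v, (n, v) ∈ S → (n, []) ∈ S) {x y : E} (hx : ∀ p, p ∉ S → coord p x = 0)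
    (hy : ∀ p ∈ S, coord p y = 0) :
    Real.sqrt (‖x‖ ^ 2 + ‖y‖ ^ 2 / 4) ≤ (‖x + y‖ + ‖x - y‖) / 2 := by
  classical
  have hn : ∀ n, ‖x n‖ ^ 2 + ‖y n‖ ^ 2 / 4 ≤ ((‖(x + y) n‖ + ‖(x - y) n‖) / 2) ^ 2 := by
    intro n
    let T : Finset (List ℕ) := (S.filter fun p => p.1 = n).image Prod.snd
    have hT : ∀ s, s ∈ T ↔ (n, s) ∈ S := by
      intro s
      simp [T]
    have := mid_X n T (fun ⟨s, hs⟩ => (hT _).2 (hS2 n s ((hT s).1 hs)))
      (fun a v h => (hT _).2 (hS1 n a v ((hT _).1 h)))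
      (x := (toX n).symm (x n)) (y := (toX n).symm (y n))
      (fun s hs => hx (n, s) (fun h => hs ((hT s).2 h)))
      (fun s hs => hy (n, s) ((hT s).1 hs))
    rw [← map_add, ← map_sub, LinearEquiv.apply_symm_apply, LinearEquiv.apply_symm_apply,
      LinearEquiv.apply_symm_apply, LinearEquiv.apply_symm_apply] at this
    rw [Real.sqrt_le_left (by positivity)] at this
    exact this
  -- Minkowski
  have h1 := L2_hasSum_sq x
  have h2 := L2_hasSum_sq y
  have h3 := L2_hasSum_sq (x + y)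
  have h4 := L2_hasSum_sq (x - y)
  rw [Real.sqrt_le_left (by positivity)]
  have h5 : HasSum (fun n => ‖x n‖ ^ 2 + ‖y n‖ ^ 2 / 4) (‖x‖ ^ 2 + ‖y‖ ^ 2 / 4) :=
    h1.add (h2.div_const 4)
  refine hasSum_le_of_sum_le h5 fun A => ?_
  refine (Finset.sum_le_sum fun n _ => hn n).trans ?_
  set a : ℕ → ℝ := fun n => ‖(x + y) n‖ with ha
  set b : ℕ → ℝ := fun n => ‖(x - y) n‖ with hb
  have ha2 : ∑ n ∈ A, a n ^ 2 ≤ ‖x + y‖ ^ 2 := L2_sum_sq_le _ _
  have hb2 : ∑ n ∈ A, b n ^ 2 ≤ ‖x - y‖ ^ 2 := L2_sum_sq_le _ _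
  have hab : ∑ n ∈ A, a n * b n ≤ ‖x + y‖ * ‖x - y‖ := by
    refine (Real.sum_mul_le_sqrt_mul_sqrt A a b).trans ?_
    exact mul_le_mul ((Real.sqrt_le_left (norm_nonneg _)).2 ha2)
      ((Real.sqrt_le_left (norm_nonneg _)).2 hb2) (Real.sqrt_nonneg _) (norm_nonneg _)
  calc ∑ n ∈ A, ((a n + b n) / 2) ^ 2
      = (∑ n ∈ A, a n ^ 2 + 2 * ∑ n ∈ A, a n * b n + ∑ n ∈ A, b n ^ 2) / 4 := by
        rw [Finset.mul_sum, ← Finset.sum_add_distrib, ← Finset.sum_add_distrib, Finset.sum_div]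
        refine Finset.sum_congr rfl fun n _ => ?_
        ring
    _ ≤ (‖x + y‖ ^ 2 + 2 * (‖x + y‖ * ‖x - y‖) + ‖x - y‖ ^ 2) / 4 := by linarith
    _ = ((‖x + y‖ + ‖x - y‖) / 2) ^ 2 := by ring

theorem sqrt_lip (a b c : ℝ) (ha : 0 ≤ a) (hb : 0 ≤ b) (hc : 0 ≤ c) :
    Real.sqrt (a ^ 2 + c) ≤ Real.sqrt (b ^ 2 + c) + |a - b| := by
  rw [Real.sqrt_le_left (by positivity)]
  have h1 : Real.sqrt (b ^ 2 + c) ^ 2 = b ^ 2 + c := Real.sq_sqrt (by positivity)
  have h2 : b ≤ Real.sqrt (b ^ 2 + c) := Real.le_sqrt_of_sq_le (by linarith)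
  have h3 : a ≤ b + |a - b| := by linarith [le_abs_self (a - b)]
  have h4 : a ^ 2 ≤ (b + |a - b|) ^ 2 := pow_le_pow_left₀ ha h3 2
  nlinarith [abs_nonneg (a - b)]

/-- averaged midpoint modulus of `E` -/
theorem mid_E (t : ℝ) (x : E) (hx : ‖x‖ = 1) (η : ℝ) (hη : 0 < η) :
    ∃ F : Set E, Cof F ∧ ∀ y ∈ F, ‖y‖ = 1 →
      Real.sqrt (1 + t ^ 2 / 4) - 1 - η ≤ (‖x + t • y‖ + ‖x - t • y‖) / 2 - 1 := by
  have hxD : x ∈ closure ((Submodule.span ℝ (Set.range vec) : Submodule ℝ E) : Set E) := by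
    rw [← Submodule.topologicalClosure_coe, dense_span]; trivial
  rw [Metric.mem_closure_iff] at hxD
  obtain ⟨x', hx'D, hx'⟩ := hxD (η / 2) (by positivity)
  obtain ⟨S, hS⟩ := exists_support hx'D
  obtain ⟨S', hSS', hS1, hS2⟩ := exists_closed_support S
  refine ⟨_, cof_coord S', fun y hy hy1 => ?_⟩
  have h1 := mid_finite S' hS1 hS2 (x := x') (y := t • y) (fun p hp => hS p fun h => hp (hSS' h))
    (fun p hp => by rw [coord_smul, hy p hp, mul_zero])
  rw [norm_smul, hy1, mul_one, Real.norm_eq_abs, sq_abs] at h1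
  rw [dist_eq_norm] at hx'
  have h2 : ‖x' + t • y‖ ≤ ‖x + t • y‖ + ‖x - x'‖ := by
    have : x' + t • y = (x + t • y) - (x - x') := by abel
    rw [this]; exact norm_sub_le _ _
  have h3 : ‖x' - t • y‖ ≤ ‖x - t • y‖ + ‖x - x'‖ := by
    have : x' - t • y = (x - t • y) - (x - x') := by abel
    rw [this]; exact norm_sub_le _ _
  have h4 := sqrt_lip ‖x‖ ‖x'‖ (t ^ 2 / 4) (norm_nonneg _) (norm_nonneg _) (by positivity)
  have h5 : |‖x‖ - ‖x'‖| ≤ ‖x - x'‖ := abs_norm_sub_norm_le x x'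
  rw [hx] at h4 h5
  rw [one_pow] at h4
  linarith

theorem separable_E : TopologicalSpace.SeparableSpace E := by
  rw [← TopologicalSpace.isSeparable_univ_iff]
  have h1 : TopologicalSpace.IsSeparable (Set.range vec) :=
    (Set.countable_range vec).isSeparable
  have h2 := h1.span (R := ℝ)
  have h3 := h2.closure
  have : closure ((Submodule.span ℝ (Set.range vec) : Submodule ℝ E) : Set E) = Set.univ := by
    rw [← Submodule.topologicalClosure_coe, dense_span]; rfl
  rwa [this] at h3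

theorem infinite_E : ¬ FiniteDimensional ℝ E := by
  intro h
  have hli : LinearIndependent ℝ vec := by
    rw [linearIndependent_iff']
    intro A g hg p hp
    have h1 : coordL {p} (∑ q ∈ A, g q • vec q) = 0 := by rw [hg, map_zero]
    have h2 := congrFun h1 ⟨p, by simp⟩
    rw [map_sum, Finset.sum_apply] at h2
    have h3 : ∀ q ∈ A, (coordL {p} (g q • vec q)) ⟨p, by simp⟩ = if p = q then g q else 0 := by
      intro q _
      rw [coordL_apply, coord_smul, coord_vec]
      simp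
    rw [Finset.sum_congr rfl h3, Finset.sum_ite_eq, if_pos hp] at h2
    simpa using h2
  have : Finite (ℕ × List ℕ) := hli.finite
  exact not_finite (ℕ × List ℕ)

section noauc

variable {Y : Type*} [NormedAddCommGroup Y] [NormedSpace ℝ Y]

/-- one step of the growth argument -/
theorem growth_step (N : Y → ℝ) (hsub : ∀ x y : Y, N (x + y) ≤ N x + N y)
    (hhom : ∀ (a : ℝ) (x : Y), N (a • x) = |a| * N x) {a b : ℝ} (ha : 0 < a)
    (hab : ∀ x : Y, a * ‖x‖ ≤ N x ∧ N x ≤ b * ‖x‖) (hb : 0 < b)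
    {B δ t c : ℝ} (hδ : 0 < δ) (hB : 0 < B) (ht : 0 < t) (htB : t * (b * B) ≤ a * (δ / 2)) (hc : 0 < c)
    (hF : ∀ x : Y, N x = 1 → ∃ F : Set Y, Cof F ∧ ∀ y ∈ F, N y = 1 → c ≤ N (x + t • y) - 1)
    (x : Y) (hx : ‖x‖ ≤ B) (hNx : 0 < N x) (z : ℕ → Y) (hz : ∀ i, δ ≤ ‖z i‖)
    (hw : ∀ φ : Y →L[ℝ] ℝ, Filter.Tendsto (fun n => φ (z n)) Filter.atTop (nhds 0)) :
    ∃ i, (1 + c / 2) * N x ≤ N (x + z i) := by
  have hu : N ((N x)⁻¹ • x) = 1 := by
    rw [hhom, abs_of_pos (inv_pos.2 hNx), inv_mul_cancel₀ hNx.ne']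
  obtain ⟨F, hF, hFy⟩ := hF _ hu
  set ε : ℝ := min (δ / 2) (c * N x / (2 * b)) with hε
  have hεpos : 0 < ε := by positivity
  obtain ⟨n₀, hn₀⟩ := exists_near_of_weakNull hw hF hεpos
  obtain ⟨y, hy, hyz⟩ := hn₀ n₀ le_rfl
  refine ⟨n₀, ?_⟩
  have hyn : δ / 2 ≤ ‖y‖ := by
    have h1 := hz n₀
    have h2 : ‖z n₀‖ ≤ ‖z n₀ - y‖ + ‖y‖ := by
      have := norm_add_le (z n₀ - y) y
      simpa using this
    have h3 : ‖z n₀ - y‖ < δ / 2 := lt_of_lt_of_le hyz (min_le_left _ _)
    linarith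
  have hyn0 : 0 < ‖y‖ := by linarith
  have hNy : 0 < N y := lt_of_lt_of_le (mul_pos ha hyn0) (hab y).1
  have hyunit : N ((N y)⁻¹ • y) = 1 := by
    rw [hhom, abs_of_pos (inv_pos.2 hNy), inv_mul_cancel₀ hNy.ne']
  have hyF' : (N y)⁻¹ • y ∈ F := by
    obtain ⟨S, hS, -, -⟩ := hF
    rw [← hS] at hy ⊢
    exact S.smul_mem _ hy
  have h1 := hFy _ hyF' hyunit
  have hratio : t ≤ N y / N x := by
    rw [le_div_iff₀ hNx]
    have h2 : t * N x ≤ t * (b * B) := mul_le_mul_of_nonneg_left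
      ((hab x).2.trans (mul_le_mul_of_nonneg_left hx hb.le)) ht.le
    have h4 : a * (δ / 2) ≤ a * ‖y‖ := mul_le_mul_of_nonneg_left hyn ha.le
    linarith [(hab y).1]
  have h5 := step_mono N hsub hhom hu ht hc.le hratio h1
  have h6 : N (x + y) = N x * N ((N x)⁻¹ • x + (N y / N x) • ((N y)⁻¹ • y)) := by
    have : x + y = N x • ((N x)⁻¹ • x + (N y / N x) • ((N y)⁻¹ • y)) := by
      rw [smul_add, smul_smul, smul_smul, smul_smul, mul_inv_cancel₀ hNx.ne', one_smul]
      have : N x * (N y / N x) * (N y)⁻¹ = 1 := by field_simp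
      rw [this, one_smul]
    rw [this, hhom, abs_of_pos hNx]
  have h7 : (1 + c) * N x ≤ N (x + y) := by
    rw [h6, mul_comm]
    exact mul_le_mul_of_nonneg_left h5 hNx.le
  have h8 : N (x + y) ≤ N (x + z n₀) + b * ε := by
    have : x + y = (x + z n₀) + (-(z n₀ - y)) := by abel
    calc N (x + y) = N ((x + z n₀) + (-(z n₀ - y))) := by rw [← this]
      _ ≤ N (x + z n₀) + N (-(z n₀ - y)) := hsub _ _
      _ ≤ N (x + z n₀) + b * ‖-(z n₀ - y)‖ := by linarith [(hab (-(z n₀ - y))).2]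
      _ ≤ N (x + z n₀) + b * ε := by
        rw [norm_neg]
        linarith [mul_le_mul_of_nonneg_left hyz.le hb.le]
  have h9 : b * ε ≤ c / 2 * N x := by
    have : ε ≤ c * N x / (2 * b) := min_le_right _ _
    calc b * ε ≤ b * (c * N x / (2 * b)) := mul_le_mul_of_nonneg_left this hb.le
      _ = c / 2 * N x := by field_simp
  linarith

end noauc

theorem single_norm (n : ℕ) (u : H) : ‖lp.single (E := X) 2 n (toX n u)‖ = ‖toX n u‖ :=
  lp.norm_single (by norm_num) n _

theorem weakNull_children (n : ℕ) (s : List ℕ) (φ : E →L[ℝ] ℝ) :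
    Filter.Tendsto (fun a => φ (lp.single (E := X) 2 n (toX n (δ (a :: s))))) Filter.atTop (nhds 0) := by
  refine tendsto_zero_of_l2 (C := 1) (fun A r => ?_) φ
  have : ∑ a ∈ A, r a • lp.single (E := X) 2 n (toX n (δ (a :: s)))
      = lp.single (E := X) 2 n (toX n (∑ a ∈ A, r a • δ (a :: s))) := by
    rw [map_sum]
    have h := map_sum (lp.singleContinuousLinearMap ℝ X 2 n) (fun a => toX n (r a • δ (a :: s))) A
    simp only [lp.singleContinuousLinearMap_apply] at h
    rw [h]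
    refine Finset.sum_congr rfl fun a _ => ?_
    rw [map_smul, lp.single_smul]
  rw [this, single_norm, one_mul]
  exact (norm_toX_le n _).trans (norm_sum_δ_le s A r)

theorem noAUC_E (N : E → ℝ) (hsub : ∀ x y : E, N (x + y) ≤ N x + N y)
    (hhom : ∀ (a : ℝ) (x : E), N (a • x) = |a| * N x) {a b : ℝ} (ha : 0 < a)
    (hab : ∀ x : E, a * ‖x‖ ≤ N x ∧ N x ≤ b * ‖x‖)
    (hauc : ∀ t : ℝ, 0 < t → ∃ c : ℝ, 0 < c ∧ ∀ x : E, N x = 1 → ∃ F : Set E, Cof F ∧
      ∀ y ∈ F, N y = 1 → c ≤ N (x + t • y) - 1) : False := by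
  have hroot : ∀ n, 1 ≤ ‖lp.single (E := X) 2 n (toX n (pathVec []))‖ := by
    intro n
    rw [single_norm]
    exact norm_toX_δ n []
  have hb : 0 < b := by
    have h1 := hab (lp.single (E := X) 2 0 (toX 0 (pathVec [])))
    have h2 := hroot 0
    by_contra hb
    push Not at hb
    nlinarith
  set t : ℝ := a * (1 / 2) / (b * 1) with ht
  have htpos : 0 < t := by positivity
  obtain ⟨c, hc, hcF⟩ := hauc t htpos
  -- growth
  have hgrow : ∀ n : ℕ, ∀ j : ℕ, j ≤ n → ∃ s : List ℕ, s.length = j ∧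
      (1 + c / 2) ^ j * a ≤ N (lp.single (E := X) 2 n (toX n (pathVec s))) := by
    intro n j
    induction j with
    | zero =>
      intro _
      refine ⟨[], rfl, ?_⟩
      rw [pow_zero, one_mul]
      have := (hab (lp.single (E := X) 2 n (toX n (pathVec [])))).1
      have h2 := hroot n
      nlinarith
    | succ j ih =>
      intro hj
      obtain ⟨s, hs, hNs⟩ := ih (by omega)
      have hNpos : 0 < N (lp.single (E := X) 2 n (toX n (pathVec s))) :=
        lt_of_lt_of_le (by positivity) hNs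
      obtain ⟨i, hi⟩ := growth_step N hsub hhom ha hab hb (B := 1) (δ := 1) (t := t) (c := c)
        one_pos one_pos htpos (by rw [ht]; apply le_of_eq; field_simp) hc hcF
        (lp.single (E := X) 2 n (toX n (pathVec s)))
        (by rw [single_norm]; exact norm_pathVec_le n s (by omega)) hNpos
        (fun i => lp.single (E := X) 2 n (toX n (δ (i :: s))))
        (fun i => by rw [single_norm]; exact norm_toX_δ n _)
        (weakNull_children n s)
      refine ⟨i :: s, by simp [hs], ?_⟩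
      have h1 : lp.single (E := X) 2 n (toX n (pathVec s)) + lp.single (E := X) 2 n (toX n (δ (i :: s)))
          = lp.single (E := X) 2 n (toX n (pathVec (i :: s))) := by
        rw [pathVec, map_add, lp.single_add]
      rw [h1] at hi
      refine le_trans ?_ hi
      rw [pow_succ]
      nlinarith
  obtain ⟨n, hn⟩ := pow_unbounded_of_one_lt (b / a) (by linarith : 1 < 1 + c / 2)
  obtain ⟨s, hs, hNs⟩ := hgrow n n le_rfl
  have h1 := (hab (lp.single (E := X) 2 n (toX n (pathVec s)))).2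
  have h2 : ‖lp.single (E := X) 2 n (toX n (pathVec s))‖ ≤ 1 := by
    rw [single_norm]; exact norm_pathVec_le n s hs.le
  rw [div_lt_iff₀ ha] at hn
  nlinarith

end Crest.Agent.S0166
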