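import Crest.Agent.S0168
import Crest.Agent.L2Sum
import Crest.Agent.AUCLemma
import Crest.Agent.DiamondLemma

set_option autoImplicit false

/-!
The space of S0166: the `ℓ²` sum of the finite-depth subspaces of the global potential model.
-/

namespace Crest.Agent.S0166Space

open Crest.AnalysisR Crest.AnalysisR.TreePotential Crest.Agent.S0168
open scoped InnerProductSpace

/-- tests of the global model -/
abbrev Tst := PotentialTest .global

/-- the ambient space -/
abbrev L := lp (fun _ : PotentialTest .global => ℝ) ⊤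

/-- vertices of depth at most `n` -/
abbrev Vtx (n : ℕ) := {s : List ℕ // s.length ≤ n}

abbrev H (n : ℕ) := lp (fun _ : Vtx n => ℝ) 2

theorem tst_sq (f : Tst) (A : Finset (List ℕ)) : ∑ u ∈ A, f.1 u ^ 2 ≤ 1 := f.2.2 A

/-- restriction of a test to depth at most `n` -/
noncomputable def resT (n : ℕ) (f : Tst) : H n :=
  ⟨fun s => f.1 s.1, memℓp_gen' (C := 1) fun A => by
    have h := tst_sq f (A.map (Function.Embedding.subtype _))
    rw [Finset.sum_map] at h
    simpa using h⟩

theorem resT_apply (n : ℕ) (f : Tst) (s : Vtx n) : resT n f s = f.1 s.1 := rfl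

theorem norm_resT_le (n : ℕ) (f : Tst) : ‖resT n f‖ ≤ 1 := by
  refine lp.norm_le_of_forall_sum_le (by norm_num) zero_le_one fun A => ?_
  have h := tst_sq f (A.map (Function.Embedding.subtype _))
  rw [Finset.sum_map] at h
  simpa [resT_apply] using h

/-- the evaluation map -/
noncomputable def JJ (n : ℕ) : H n →L[ℝ] L :=
  LinearMap.mkContinuous
    { toFun := fun h => ⟨fun f => ⟪resT n f, h⟫_ℝ, memℓp_infty ⟨‖h‖, by
        rintro _ ⟨f, rfl⟩
        refine (norm_inner_le_norm _ _).trans ?_
        have := mul_le_mul_of_nonneg_right (norm_resT_le n f) (norm_nonneg h)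
        simpa using this⟩⟩
      map_add' := fun x y => by
        ext f
        change ⟪resT n f, x + y⟫_ℝ = ⟪resT n f, x⟫_ℝ + ⟪resT n f, y⟫_ℝ
        exact inner_add_right _ _ _
      map_smul' := fun c x => by
        ext f
        change ⟪resT n f, c • x⟫_ℝ = c * ⟪resT n f, x⟫_ℝ
        exact real_inner_smul_right _ _ _ } 1 (fun h => by
      refine lp.norm_le_of_forall_le (by positivity) fun f => ?_
      change ‖⟪resT n f, h⟫_ℝ‖ ≤ _
      refine (norm_inner_le_norm _ _).trans ?_
      exact mul_le_mul_of_nonneg_right (norm_resT_le n f) (norm_nonneg h))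

theorem JJ_apply (n : ℕ) (h : H n) (f : Tst) : JJ n h f = ⟪resT n f, h⟫_ℝ := rfl

/-- potentials are sums over few vertices -/
theorem pot_eq_sum (f : List ℕ → ℝ) (s : List ℕ) : ∃ A : Finset (List ℕ),
    (∀ u ∈ A, u.length ≤ s.length) ∧ A.card ≤ s.length + 1 ∧
      pathPotential f s = ∑ u ∈ A, f u := by
  induction s with
  | nil => exact ⟨{[]}, by simp, by simp, by simp [pathPotential]⟩
  | cons a v ih =>
    obtain ⟨A, hA1, hA2, hA3⟩ := ih
    have hn : a :: v ∉ A := fun h => by
      have := hA1 _ h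
      simp at this
    refine ⟨insert (a :: v) A, ?_, ?_, ?_⟩
    · intro u hu
      rcases Finset.mem_insert.1 hu with rfl | hu
      · exact le_rfl
      · have := hA1 u hu
        simp; omega
    · rw [Finset.card_insert_of_notMem hn]
      simp; omega
    · rw [Finset.sum_insert hn, pathPotential, hA3]; ring

/-- extension by zero of a square summable function, scaled to be a test -/
theorem exists_testOf (n : ℕ) (h : H n) (hh : ‖h‖ ^ 2 * (n + 1) ≤ 1) :
    ∃ f : Tst, resT n f = h := by
  classical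
  set g : List ℕ → ℝ := fun s => if hs : s.length ≤ n then h ⟨s, hs⟩ else 0 with hg
  have hgs : ∀ (s : List ℕ) (hs : s.length ≤ n), g s = h ⟨s, hs⟩ := fun s hs => by simp [hg, hs]
  have hg0 : ∀ (s : List ℕ), ¬ s.length ≤ n → g s = 0 := fun s hs => by simp [hg, hs]
  have hsq : ∀ A : Finset (List ℕ), ∑ u ∈ A, g u ^ 2 ≤ ‖h‖ ^ 2 := by
    intro A
    have h1 : ∑ u ∈ A, g u ^ 2 = ∑ u ∈ A.filter (fun u => u.length ≤ n), g u ^ 2 := by
      rw [Finset.sum_filter]
      refine Finset.sum_congr rfl fun u _ => ?_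
      split_ifs with hu
      · rfl
      · rw [hg0 u hu]; simp
    rw [h1]
    have h2 : ∑ u ∈ A.filter (fun u => u.length ≤ n), g u ^ 2 =
        ∑ u ∈ A.subtype (fun u => u.length ≤ n), (h u) ^ 2 := by
      rw [← Finset.sum_subtype_of_mem (p := fun u : List ℕ => u.length ≤ n)
        (s := A.filter (fun u => u.length ≤ n)) (f := fun u => g u ^ 2)
        (fun u hu => (Finset.mem_filter.1 hu).2)]
      have h3 : (A.filter (fun u => u.length ≤ n)).subtype (fun u => u.length ≤ n) =
          A.subtype (fun u => u.length ≤ n) := by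
        ext u
        simp [u.2]
      rw [h3]
      refine Finset.sum_congr rfl fun u _ => ?_
      rw [hgs u.1 u.2]
    rw [h2]
    have h3 := lp.sum_rpow_le_norm_rpow (p := 2) (by norm_num) h
      (A.subtype (fun u => u.length ≤ n))
    simpa using h3
  have hn1 : (0 : ℝ) < (n : ℝ) + 1 := by positivity
  have hh1 : ‖h‖ ^ 2 ≤ 1 := by nlinarith [sq_nonneg ‖h‖, (Nat.cast_nonneg n : (0 : ℝ) ≤ (n : ℝ))]
  have hpot : ∀ s, |pathPotential g s| ≤ 1 := by
    intro s
    induction s with
    | nil =>
      obtain ⟨A, -, hA2, hA3⟩ := pot_eq_sum g []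
      rw [hA3]
      have h1 := sq_sum_le_card_mul_sum_sq (s := A) (f := g)
      have h2 := hsq A
      have h3 : (A.card : ℝ) ≤ 1 := by exact_mod_cast hA2
      have h4 : (∑ u ∈ A, g u) ^ 2 ≤ 1 := by
        have h5 : 0 ≤ ∑ u ∈ A, g u ^ 2 := Finset.sum_nonneg fun _ _ => sq_nonneg _
        nlinarith
      exact abs_le_one_iff_mul_self_le_one.2 (by nlinarith)
    | cons a v ih =>
      by_cases hs : (a :: v).length ≤ n
      · obtain ⟨A, -, hA2, hA3⟩ := pot_eq_sum g (a :: v)
        rw [hA3]
        have h1 := sq_sum_le_card_mul_sum_sq (s := A) (f := g)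
        have h2 := hsq A
        have h3 : (A.card : ℝ) ≤ n + 1 := by
          have : A.card ≤ n + 1 := hA2.trans (by omega)
          exact_mod_cast this
        have h5 : 0 ≤ ∑ u ∈ A, g u ^ 2 := Finset.sum_nonneg fun _ _ => sq_nonneg _
        have h4 : (∑ u ∈ A, g u) ^ 2 ≤ 1 := by
          calc (∑ u ∈ A, g u) ^ 2 ≤ A.card * ∑ u ∈ A, g u ^ 2 := h1
            _ ≤ (n + 1) * ‖h‖ ^ 2 := mul_le_mul h3 h2 h5 (by positivity)
            _ ≤ 1 := by linarith
        exact abs_le_one_iff_mul_self_le_one.2 (by nlinarith)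
      · rw [pathPotential, hg0 _ hs, add_zero]
        exact ih
  refine ⟨⟨g, hpot, fun A => (hsq A).trans hh1⟩, ?_⟩
  ext s
  rw [resT_apply]
  exact hgs s.1 s.2

theorem norm_le_JJ (n : ℕ) (h : H n) : ‖h‖ ≤ Real.sqrt (n + 1) * ‖JJ n h‖ := by
  rcases (norm_nonneg h).eq_or_lt with h0 | h0
  · rw [← h0]; positivity
  · set r := Real.sqrt ((n : ℝ) + 1) with hr
    have hr2 : r ^ 2 = (n : ℝ) + 1 := Real.sq_sqrt (by positivity)
    have hrpos : 0 < r := Real.sqrt_pos.2 (by positivity)
    set c : ℝ := 1 / (r * ‖h‖) with hc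
    have hcpos : 0 < c := by positivity
    have hcn : ‖c • h‖ = 1 / r := by
      rw [norm_smul, Real.norm_of_nonneg hcpos.le, hc]
      field_simp
    obtain ⟨f, hf⟩ := exists_testOf n (c • h) (by
      rw [hcn, ← hr2]
      rw [div_pow, one_pow]
      rw [div_mul_cancel₀]
      positivity)
    have h1 : JJ n h f = ‖h‖ / r := by
      rw [JJ_apply, hf, real_inner_smul_left, real_inner_self_eq_norm_sq, hc]
      field_simp
    have h2 := lp.norm_apply_le_norm (by simp) (JJ n h) f
    rw [h1, Real.norm_of_nonneg (by positivity), div_le_iff₀ hrpos] at h2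
    linarith

/-- the depth `n` space -/
noncomputable def XX (n : ℕ) : Submodule ℝ L := (JJ n).range

theorem JJ_antilip (n : ℕ) :
    AntilipschitzWith (Real.toNNReal (Real.sqrt ((n : ℝ) + 1))) (JJ n) := by
  refine ContinuousLinearMap.antilipschitz_of_bound _ fun x => ?_
  rw [Real.coe_toNNReal _ (Real.sqrt_nonneg _)]
  exact norm_le_JJ n x

theorem isClosed_XX (n : ℕ) : IsClosed (XX n : Set L) := by
  have h := (JJ_antilip n).isClosed_range (JJ n).uniformContinuous
  exact h

instance (n : ℕ) : CompleteSpace (XX n) := (isClosed_XX n).completeSpace_coe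

theorem refl_XX (n : ℕ) : L2Sum.Refl (XX n) :=
  L2Sum.refl_of_equiv ((JJ n).equivRange (JJ_antilip n).injective (isClosed_XX n))
    (L2Sum.refl_hilbert (H n))

end Crest.Agent.S0166Space
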