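import Crest.Prelude.Def_DaugavetL1

set_option autoImplicit false

/-!
Smallness in measure and the `L¹` norm.
-/

namespace Crest.Agent.S0167

open Crest.AnalysisR MeasureTheory Filter Topology
open scoped ENNReal

variable {Ω : Type} [MeasurableSpace Ω] {P : Measure Ω}

/-- `δ`-small in measure -/
def sm (P : Measure Ω) (δ : ℝ) (h : Lp ℝ 1 P) : Prop :=
  P {z | δ < |h z|} < ENNReal.ofReal δ

theorem sm_pos {δ : ℝ} {h : Lp ℝ 1 P} (hh : sm P δ h) : 0 < δ := by
  by_contra hcon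
  push Not at hcon
  unfold sm at hh
  rw [ENNReal.ofReal_of_nonpos hcon] at hh
  exact absurd hh not_lt_zero

theorem sm_mono {δ δ' : ℝ} (hδ : δ ≤ δ') {h : Lp ℝ 1 P} (hh : sm P δ h) : sm P δ' h := by
  refine lt_of_le_of_lt (measure_mono ?_) (lt_of_lt_of_le hh (ENNReal.ofReal_le_ofReal hδ))
  intro z hz
  exact lt_of_le_of_lt hδ hz

theorem sm_add {δ δ' : ℝ} {h h' : Lp ℝ 1 P} (hh : sm P δ h) (hh' : sm P δ' h') :
    sm P (δ + δ') (h + h') := by
  unfold sm
  rw [ENNReal.ofReal_add (sm_pos hh).le (sm_pos hh').le]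
  refine lt_of_le_of_lt ?_ (ENNReal.add_lt_add hh hh')
  refine le_trans (measure_mono_ae ?_) (measure_union_le _ _)
  filter_upwards [Lp.coeFn_add h h'] with z hz hzs
  have hzs' : δ + δ' < |(h + h' : Lp ℝ 1 P) z| := hzs
  rw [hz, Pi.add_apply] at hzs'
  by_contra hcon
  have hcon' : ¬ (δ < |h z| ∨ δ' < |h' z|) := hcon
  push Not at hcon'
  have := abs_add_le (h z) (h' z)
  linarith [hcon'.1, hcon'.2]

theorem sm_smul {δ M c : ℝ} (hM : 1 ≤ M) (hc : |c| ≤ M) {h : Lp ℝ 1 P} (hh : sm P δ h) :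
    sm P (M * δ) (c • h) := by
  have hδ := sm_pos hh
  unfold sm
  refine lt_of_le_of_lt (measure_mono_ae ?_) (lt_of_lt_of_le hh (ENNReal.ofReal_le_ofReal
    (by nlinarith : δ ≤ M * δ)))
  filter_upwards [Lp.coeFn_smul c h] with z hz hzs
  have hzs' : M * δ < |(c • h : Lp ℝ 1 P) z| := hzs
  rw [hz, Pi.smul_apply, smul_eq_mul, abs_mul] at hzs'
  change δ < |h z|
  by_contra hcon
  push Not at hcon
  have : |c| * |h z| ≤ M * δ := mul_le_mul hc hcon (abs_nonneg _) (by linarith)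
  linarith

theorem sm_smul_one {δ c : ℝ} (hc : |c| ≤ 1) {h : Lp ℝ 1 P} (hh : sm P δ h) :
    sm P δ (c • h) := by
  have := sm_smul (M := 1) le_rfl hc hh
  rwa [one_mul] at this

theorem sm_neg {δ : ℝ} {h : Lp ℝ 1 P} (hh : sm P δ h) : sm P δ (-h) := by
  have := sm_smul_one (c := -1) (by simp) hh
  simpa using this

theorem sm_sub_comm {δ : ℝ} {f g : Lp ℝ 1 P} (hh : sm P δ (f - g)) : sm P δ (g - f) := by
  have := sm_neg hh
  simpa using this

theorem sm_zero {δ : ℝ} (hδ : 0 < δ) : sm P δ 0 := by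
  unfold sm
  have : P {z | δ < |(0 : Lp ℝ 1 P) z|} = 0 := by
    rw [← nonpos_iff_eq_zero]
    refine le_trans (measure_mono_ae (t := ∅) ?_) (by simp)
    filter_upwards [Lp.coeFn_zero ℝ 1 P] with z hz hzs
    have hzs' : δ < |(0 : Lp ℝ 1 P) z| := hzs
    rw [hz, Pi.zero_apply, abs_zero] at hzs'
    exact absurd hzs' (not_lt.2 hδ.le)
  rw [this]
  exact ENNReal.ofReal_pos.2 hδ

theorem sm_of_measureDist [IsProbabilityMeasure P] {f g : Lp ℝ 1 P} {ε : ℝ}
    (h : L1Subspace.measureDist P f g < ε) : sm P ε (f - g) := by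
  unfold L1Subspace.measureDist at h
  obtain ⟨a, ⟨ha0, ha⟩, haε⟩ := exists_lt_of_csInf_lt (by
    refine ⟨2, by norm_num, ?_⟩
    refine lt_of_le_of_lt prob_le_one ?_
    rw [← ENNReal.ofReal_one]
    exact (ENNReal.ofReal_lt_ofReal_iff (by norm_num)).2 (by norm_num)) h
  refine sm_mono haε.le ?_
  unfold sm
  refine lt_of_le_of_lt (measure_mono_ae ?_) ha
  filter_upwards [Lp.coeFn_sub f g] with z hz hzs
  have hzs' : a < |(f - g : Lp ℝ 1 P) z| := hzs
  rw [hz, Pi.sub_apply] at hzs'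
  exact hzs'

theorem norm_L1 (f : Lp ℝ 1 P) : ‖f‖ = ∫ z, |f z| ∂P := by
  rw [L1.norm_eq_integral_norm]
  rfl

theorem integrable_L1 (f : Lp ℝ 1 P) : Integrable f P := L1.integrable_coeFn f

theorem integrable_abs (f : Lp ℝ 1 P) : Integrable (fun z => |f z|) P := (L1.integrable_coeFn f).abs

theorem meas_set (δ : ℝ) (h : Lp ℝ 1 P) : MeasurableSet {z | δ < |h z|} := by
  have : Measurable (h : Ω → ℝ) := (Lp.stronglyMeasurable h).measurable
  exact measurableSet_lt measurable_const this.abs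

/-- uniform integrability of one function -/
theorem exists_unif_int (u : Lp ℝ 1 P) {ε : ℝ} (hε : 0 < ε) :
    ∃ δ : ℝ, 0 < δ ∧ ∀ s : Set Ω, MeasurableSet s → P s < ENNReal.ofReal δ → ∫ z in s, |u z| ∂P < ε := by
  have hu : ∫⁻ z, ‖u z‖ₑ ∂P ≠ ∞ := ((integrable_L1 u).hasFiniteIntegral).ne
  obtain ⟨δ, hδ, hδ'⟩ := exists_pos_setLIntegral_lt_of_measure_lt hu
    (ε := ENNReal.ofReal ε) (ENNReal.ofReal_pos.2 hε).ne'
  obtain ⟨r, hr0, hr⟩ : ∃ r : ℝ, 0 < r ∧ ENNReal.ofReal r ≤ δ := by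
    by_cases h : δ = ∞
    · exact ⟨1, one_pos, by rw [h]; exact le_top⟩
    · exact ⟨δ.toReal, ENNReal.toReal_pos hδ.ne' h, by rw [ENNReal.ofReal_toReal h]⟩
  refine ⟨r, hr0, fun s hs hPs => ?_⟩
  have h1 := hδ' s (lt_of_lt_of_le hPs hr)
  rw [integral_eq_lintegral_of_nonneg_ae (Eventually.of_forall fun z => abs_nonneg _)
    ((integrable_abs u).aestronglyMeasurable.restrict)]
  have h2 : ∫⁻ z in s, ENNReal.ofReal |u z| ∂P = ∫⁻ z in s, ‖u z‖ₑ ∂P := by
    refine lintegral_congr fun z => ?_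
    rw [← Real.norm_eq_abs, ofReal_norm]
  rw [h2]
  have h3 := ENNReal.toReal_lt_of_lt_ofReal h1
  exact h3

/-- Brezis–Lieb type lemma -/
theorem norm_add_ge [IsProbabilityMeasure P] (u : Lp ℝ 1 P) {ε : ℝ} (hε : 0 < ε) :
    ∃ δ : ℝ, 0 < δ ∧ ∀ h : Lp ℝ 1 P, sm P δ h → ‖u‖ + ‖h‖ - ε ≤ ‖u + h‖ := by
  obtain ⟨δ, hδ, hu⟩ := exists_unif_int u (ε := ε / 4) (by positivity)
  refine ⟨min δ (ε / 4), by positivity, fun h hh => ?_⟩
  set δ' := min δ (ε / 4) with hδ'
  set B : Set Ω := {z | δ' < |h z|} with hB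
  have hBm : MeasurableSet B := meas_set _ _
  have hBu : ∫ z in B, |u z| ∂P < ε / 4 := by
    refine hu B hBm (lt_of_lt_of_le hh (ENNReal.ofReal_le_ofReal (min_le_left _ _)))
  rw [norm_L1, norm_L1, norm_L1]
  have hind : Integrable (B.indicator fun z => |u z|) P := (integrable_abs u).indicator hBm
  have h1 : ∫ z, (|u z| + |h z| - 2 * B.indicator (fun z => |u z|) z - 2 * δ') ∂P ≤
      ∫ z, |(u + h : Lp ℝ 1 P) z| ∂P := by
    refine integral_mono_ae ?_ (integrable_abs _) ?_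
    · exact (((integrable_abs u).add (integrable_abs h)).sub (hind.const_mul 2)).sub
        (integrable_const _)
    · filter_upwards [Lp.coeFn_add u h] with z hz
      rw [hz, Pi.add_apply]
      by_cases hzB : z ∈ B
      · rw [Set.indicator_of_mem hzB]
        have h2 := abs_sub_abs_le_abs_sub (h z) (-u z)
        rw [abs_neg, sub_neg_eq_add, add_comm (h z)] at h2
        have h3 : 0 ≤ δ' := by positivity
        linarith
      · rw [Set.indicator_of_notMem hzB]
        have h2 := abs_sub_abs_le_abs_sub (u z) (-h z)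
        rw [abs_neg, sub_neg_eq_add] at h2
        have h3 : |h z| ≤ δ' := not_lt.1 hzB
        linarith
  have h2 : ∫ z, (|u z| + |h z| - 2 * B.indicator (fun z => |u z|) z - 2 * δ') ∂P
      = ∫ z, |u z| ∂P + ∫ z, |h z| ∂P - 2 * ∫ z in B, |u z| ∂P - 2 * δ' := by
    rw [integral_sub, integral_sub, integral_add (integrable_abs u) (integrable_abs h),
      integral_const_mul, integral_indicator hBm]
    · simp
    · exact (integrable_abs u).add (integrable_abs h)
    · exact hind.const_mul 2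
    · exact ((integrable_abs u).add (integrable_abs h)).sub (hind.const_mul 2)
    · exact integrable_const _
  have h3 : δ' ≤ ε / 4 := min_le_right _ _
  linarith

/-- if `z` is close in measure to `g` and `‖z - g‖` is almost `‖z‖ + ‖g‖` then `z` is concentrated -/
theorem sm_of_far [IsProbabilityMeasure P] {z g : Lp ℝ 1 P} {c : ℝ} (hc : 0 < c)
    (h1 : sm P (c / 2) (z - g)) (h2 : ‖z‖ + ‖g‖ - c ^ 2 / 4 ≤ ‖z - g‖) : sm P c z := by
  set B : Set Ω := {w | c / 2 < |(z - g : Lp ℝ 1 P) w|} with hB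
  set φ : Ω → ℝ := fun w => |z w| + |g w| - |(z - g : Lp ℝ 1 P) w| with hφ
  have hφi : Integrable φ P := ((integrable_abs z).add (integrable_abs g)).sub (integrable_abs _)
  have hφ0 : 0 ≤ᵐ[P] φ := by
    filter_upwards [Lp.coeFn_sub z g] with w hw
    simp only [hφ, Pi.zero_apply]
    rw [hw, Pi.sub_apply]
    have := abs_sub (z w) (g w)
    linarith
  have hφint : ∫ w, φ w ∂P ≤ c ^ 2 / 4 := by
    have : ∫ w, φ w ∂P = ‖z‖ + ‖g‖ - ‖z - g‖ := by
      rw [norm_L1, norm_L1, norm_L1]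
      rw [hφ, integral_sub, integral_add (integrable_abs z) (integrable_abs g)]
      · exact (integrable_abs z).add (integrable_abs g)
      · exact integrable_abs _
    rw [this]; linarith
  have hmark := mul_meas_ge_le_integral_of_nonneg hφ0 hφi (c / 2)
  have hm : P.real {w | c / 2 ≤ φ w} ≤ c / 2 := by
    have : c / 2 * P.real {w | c / 2 ≤ φ w} ≤ c ^ 2 / 4 := hmark.trans hφint
    have h4 : c ^ 2 / 4 = c / 2 * (c / 2) := by ring
    rw [h4] at this
    exact le_of_mul_le_mul_left this (by positivity)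
  have hm' : P {w | c / 2 ≤ φ w} ≤ ENNReal.ofReal (c / 2) := by
    rw [← ENNReal.ofReal_toReal (measure_ne_top P {w | c / 2 ≤ φ w})]
    exact ENNReal.ofReal_le_ofReal hm
  unfold sm
  have hsub : P {w | c < |z w|} ≤ P B + P {w | c / 2 ≤ φ w} := by
    refine le_trans (measure_mono_ae ?_) (measure_union_le _ _)
    filter_upwards [Lp.coeFn_sub z g] with w hw hws
    have hws' : c < |z w| := hws
    by_cases hwB : w ∈ B
    · exact Or.inl hwB
    · right
      change c / 2 ≤ φ w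
      have h3 : |(z - g : Lp ℝ 1 P) w| ≤ c / 2 := not_lt.1 hwB
      have h4 : 0 ≤ |g w| := abs_nonneg _
      simp only [hφ]
      linarith
  refine lt_of_le_of_lt hsub ?_
  have : ENNReal.ofReal c = ENNReal.ofReal (c / 2) + ENNReal.ofReal (c / 2) := by
    rw [← ENNReal.ofReal_add (by positivity) (by positivity)]
    congr 1; ring
  rw [this]
  exact ENNReal.add_lt_add_of_lt_of_le (ne_top_of_le_ne_top ENNReal.ofReal_ne_top hm') h1 hm'

/-- limit of a fast Cauchy sequence in measure -/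
theorem exists_limit_seq [IsProbabilityMeasure P] (c : ℕ → Lp ℝ 1 P) (hc : ∀ j, ‖c j‖ ≤ 1)
    (hcc : ∀ j, sm P ((1 / 2 : ℝ) ^ j) (c (j + 1) - c j)) :
    ∃ g : Lp ℝ 1 P, ‖g‖ ≤ 1 ∧ ∀ δ : ℝ, 0 < δ → ∀ᶠ j in atTop, sm P δ (c j - g) := by
  -- a.e. convergence
  have hae : ∀ᵐ z ∂P, ∃ l, Tendsto (fun j => c j z) atTop (𝓝 l) := by
    have hsum : (∑' j, P {z | (1 / 2 : ℝ) ^ j < |(c (j + 1) - c j : Lp ℝ 1 P) z|}) ≠ ∞ := by
      refine ne_top_of_le_ne_top ?_ (ENNReal.tsum_le_tsum fun j => (hcc j).le)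
      have h1 : ∀ j : ℕ, ENNReal.ofReal ((1 / 2 : ℝ) ^ j) = (2⁻¹ : ℝ≥0∞) ^ j := by
        intro j
        rw [ENNReal.ofReal_pow (by norm_num)]
        congr 1
        rw [one_div, ENNReal.ofReal_inv_of_pos (by norm_num)]
        norm_num
      simp_rw [h1]
      rw [ENNReal.tsum_geometric]
      simp
    have h1 := ae_eventually_notMem hsum
    have h2 : ∀ᵐ z ∂P, ∀ j, (c (j + 1) - c j : Lp ℝ 1 P) z = c (j + 1) z - c j z := by
      rw [ae_all_iff]
      intro j
      filter_upwards [Lp.coeFn_sub (c (j + 1)) (c j)] with z hz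
      rw [hz, Pi.sub_apply]
    filter_upwards [h1, h2] with z hz1 hz2
    rw [eventually_atTop] at hz1
    obtain ⟨J, hJ⟩ := hz1
    have hcau : CauchySeq (fun j => c (j + J) z) := by
      refine cauchySeq_of_le_geometric (1 / 2 : ℝ) ((1 / 2) ^ J) (by norm_num) fun j => ?_
      have h3 := hJ (j + J) (by omega)
      have h4 : ¬ ((1 / 2 : ℝ) ^ (j + J) < |(c (j + J + 1) - c (j + J) : Lp ℝ 1 P) z|) := h3
      rw [hz2] at h4
      push Not at h4
      rw [Real.dist_eq, abs_sub_comm]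
      have h5 : j + 1 + J = j + J + 1 := by omega
      rw [h5]
      refine h4.trans (le_of_eq ?_)
      rw [pow_add]; ring
    obtain ⟨l, hl⟩ := cauchySeq_tendsto_of_complete hcau
    exact ⟨l, (tendsto_add_atTop_iff_nat J).1 hl⟩
  obtain ⟨G, hGm, hG⟩ := exists_stronglyMeasurable_limit_of_tendsto_ae
    (fun j => (Lp.aestronglyMeasurable (c j))) hae
  have hfatou := Lp.eLpNorm_lim_le_liminf_eLpNorm (p := 1) (f := fun j => (c j : Ω → ℝ))
    (fun j => Lp.aestronglyMeasurable (c j)) G hG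
  have hb : liminf (fun j => eLpNorm (c j : Ω → ℝ) 1 P) atTop ≤ 1 := by
    refine liminf_le_of_frequently_le' (Eventually.frequently (Eventually.of_forall fun j => ?_))
    have := hc j
    rw [Lp.norm_def] at this
    have h2 : eLpNorm (c j : Ω → ℝ) 1 P ≤ ENNReal.ofReal 1 :=
      (ENNReal.le_ofReal_iff_toReal_le (Lp.eLpNorm_ne_top (c j)) zero_le_one).2 this
    simpa using h2
  have hG1 : eLpNorm G 1 P ≤ 1 := hfatou.trans hb
  have hGmem : MemLp G 1 P := ⟨hGm.aestronglyMeasurable, lt_of_le_of_lt hG1 ENNReal.one_lt_top⟩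
  refine ⟨hGmem.toLp G, ?_, fun δ hδ => ?_⟩
  · rw [Lp.norm_toLp]
    exact ENNReal.toReal_le_of_le_ofReal zero_le_one (by simpa using hG1)
  · have htm := tendstoInMeasure_of_tendsto_ae (fun j => Lp.aestronglyMeasurable (c j)) hG
    have h1 := htm (ENNReal.ofReal δ) (ENNReal.ofReal_pos.2 hδ)
    have h2 := h1.eventually_lt_const (ENNReal.ofReal_pos.2 hδ)
    filter_upwards [h2] with j hj
    unfold sm
    refine lt_of_le_of_lt (measure_mono_ae ?_) hj
    filter_upwards [Lp.coeFn_sub (c j) (hGmem.toLp G), hGmem.coeFn_toLp] with z hz hz2 hzs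
    have hzs' : δ < |(c j - hGmem.toLp G : Lp ℝ 1 P) z| := hzs
    rw [hz, Pi.sub_apply, hz2] at hzs'
    change ENNReal.ofReal δ ≤ edist (c j z) (G z)
    rw [edist_dist, Real.dist_eq]
    exact ENNReal.ofReal_le_ofReal hzs'.le

end Crest.Agent.S0167
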