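import Crest.Agent.S0167A
import Crest.Agent.S0167B

set_option autoImplicit false

/-!
Main argument for S0167.
-/

namespace Crest.Agent.S0167

open Crest.AnalysisR MeasureTheory Filter Topology Crest.Agent.AUCLemma
open scoped ENNReal

variable {Ω : Type} [MeasurableSpace Ω] {P : Measure Ω} [IsProbabilityMeasure P]
  {E : Submodule ℝ (Lp ℝ 1 P)}

/-- slices contain concentrated vectors -/
theorem exists_concentrated (htb : L1Subspace.UnitBallTotallyBoundedInMeasure P E)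
    (hD : L1Subspace.HasDaugavetProperty E) (φ : E →L[ℝ] ℝ) {a : ℝ} (ha : 0 ≤ a)
    {x₀ : E} (hx₀ : ‖x₀‖ ≤ 1) (hφ : a < φ x₀) {c : ℝ} (hc : 0 < c) :
    ∃ z : E, ‖z‖ ≤ 1 ∧ a < φ z ∧ sm P c (z : Lp ℝ 1 P) := by
  classical
  obtain ⟨s, hs1, hs2⟩ := htb (c / 2) (by positivity)
  let s' : Finset E := s.subtype (fun g => g ∈ E)
  obtain ⟨z, hz, hz1, hz2⟩ := slice_ball hD (ε := c ^ 2 / 4) (by positivity) s' (by
    intro g hg
    have : (g : Lp ℝ 1 P) ∈ s := by simpa [s'] using hg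
    exact (hs1 _ this).2) φ ha hx₀ hφ
  refine ⟨z, hz, hz1, ?_⟩
  obtain ⟨g, hg, hzg⟩ := hs2 z z.2 hz
  have h1 := sm_of_measureDist hzg
  have hgE : g ∈ E := (hs1 g hg).1
  have h2 := hz2 ⟨g, hgE⟩ (by simpa [s'] using hg)
  exact sm_of_far hc h1 h2

/-- KEY lemma, abstract form -/
theorem key_abstract {V : Type*} [NormedAddCommGroup V] [NormedSpace ℝ V] (C : ℝ → Set V)
    (hmono : ∀ ε ε', ε ≤ ε' → C ε ⊆ C ε')
    (hconv : ∀ ε, ∀ z ∈ C (ε / 2), ∀ z' ∈ C (ε / 2), ∀ a b : ℝ, 0 ≤ a → 0 ≤ b → a + b = 1 →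
      a • z + b • z' ∈ C ε)
    (h0 : ∀ ε, 0 < ε → (0 : V) ∈ C ε) (hball : ∀ ε, ∀ z ∈ C ε, ‖z‖ ≤ 1)
    (hslice : ∀ (φ : V →L[ℝ] ℝ) (a : ℝ), 0 ≤ a → ∀ x₀ : V, ‖x₀‖ ≤ 1 → a < φ x₀ → ∀ c : ℝ, 0 < c →
      ∃ z ∈ C c, a < φ z)
    {x : V} (hx : ‖x‖ ≤ 1) {F : Set V} (hF : Cof F) {ε : ℝ} (hε : 0 < ε) :
    ∃ z ∈ C ε, ∃ w ∈ F, ‖(z - x) - w‖ < ε := by
  obtain ⟨S, rfl, hcl, hfd⟩ := hF
  have : IsClosed (S : Set V) := hcl
  -- the set of limit images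
  let Q : Set (V ⧸ S) := {p | ∀ ε : ℝ, 0 < ε → ∃ z ∈ C ε, ‖S.mkQ z - p‖ < ε}
  have hQconv : Convex ℝ Q := by
    intro p hp p' hp' a b ha hb hab ε hε
    obtain ⟨z, hz, hz2⟩ := hp (ε / 2) (by positivity)
    obtain ⟨z', hz', hz2'⟩ := hp' (ε / 2) (by positivity)
    refine ⟨a • z + b • z', hconv ε z hz z' hz' a b ha hb hab, ?_⟩
    rw [map_add, map_smul, map_smul]
    have h3 : a • S.mkQ z + b • S.mkQ z' - (a • p + b • p') = a • (S.mkQ z - p) + b • (S.mkQ z' - p') := by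
      module
    rw [h3]
    calc ‖a • (S.mkQ z - p) + b • (S.mkQ z' - p')‖
        ≤ ‖a • (S.mkQ z - p)‖ + ‖b • (S.mkQ z' - p')‖ := norm_add_le _ _
      _ ≤ a * (ε / 2) + b * (ε / 2) := by
        rw [norm_smul, norm_smul, Real.norm_of_nonneg ha, Real.norm_of_nonneg hb]
        exact add_le_add (mul_le_mul_of_nonneg_left hz2.le ha) (mul_le_mul_of_nonneg_left hz2'.le hb)
      _ = ε / 2 := by rw [← add_mul, hab, one_mul]
      _ < ε := by linarith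
  have hQcl : IsClosed Q := by
    refine isClosed_of_closure_subset fun p hp => ?_
    intro ε hε
    rw [Metric.mem_closure_iff] at hp
    obtain ⟨p', hp', hpp'⟩ := hp (ε / 2) (by positivity)
    obtain ⟨z, hz, hz2⟩ := hp' (ε / 2) (by positivity)
    refine ⟨z, hmono _ _ (by linarith) hz, ?_⟩
    have h3 : S.mkQ z - p = (S.mkQ z - p') - (p - p') := by abel
    rw [h3]
    refine (norm_sub_le _ _).trans_lt ?_
    rw [dist_eq_norm] at hpp'
    linarith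
  have hxQ : S.mkQ x ∈ Q := by
    by_contra hcon
    obtain ⟨φ, α, hφ1, hφ2⟩ := geometric_hahn_banach_closed_point hQconv hQcl hcon
    have h0 : (0 : V ⧸ S) ∈ Q := by
      intro ε hε
      exact ⟨0, h0 ε hε, by simpa using hε⟩
    have hα : 0 < α := by
      have := hφ1 0 h0
      simpa using this
    -- pull back
    let Φ : V →L[ℝ] ℝ := φ.comp S.mkQL
    have hΦ : ∀ z : V, Φ z = φ (S.mkQ z) := fun z => rfl
    have hz : ∀ n : ℕ, ∃ z : V, z ∈ C (1 / ((n : ℝ) + 1)) ∧ α < Φ z :=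
      fun n => hslice Φ α hα.le x hx hφ2 _ (by positivity)
    choose z hz1 hz2 using hz
    have : ProperSpace (V ⧸ S) := FiniteDimensional.proper ℝ (V ⧸ S)
    have hb : ∀ i, (S.mkQ (z i) : V ⧸ S) ∈ Metric.closedBall (0 : V ⧸ S) 1 := by
      intro i
      rw [mem_closedBall_zero_iff]
      exact (Submodule.Quotient.norm_mk_le S (z i)).trans (hball _ _ (hz1 i))
    obtain ⟨p, -, ψ, hψ, hlim⟩ := (isCompact_closedBall (0 : V ⧸ S) 1).tendsto_subseq hb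
    have hpQ : p ∈ Q := by
      intro ε hε
      have h1 : ∀ᶠ n : ℕ in atTop, ‖S.mkQ (z (ψ n)) - p‖ < ε := by
        have := hlim (Metric.ball_mem_nhds p hε)
        rw [mem_map] at this
        filter_upwards [this] with n hn
        have : S.mkQ (z (ψ n)) ∈ Metric.ball p ε := hn
        rwa [Metric.mem_ball, dist_eq_norm] at this
      have h2 : ∀ᶠ n : ℕ in atTop, 1 / ((ψ n : ℝ) + 1) ≤ ε := by
        have h3 : Tendsto (fun n : ℕ => 1 / ((ψ n : ℝ) + 1)) atTop (𝓝 0) :=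
          (tendsto_one_div_add_atTop_nhds_zero_nat (𝕜 := ℝ)).comp hψ.tendsto_atTop
        filter_upwards [h3.eventually_lt_const hε] with n hn
        exact hn.le
      obtain ⟨n, hn1, hn2⟩ := (h1.and h2).exists
      exact ⟨z (ψ n), hmono _ _ hn2 (hz1 _), hn1⟩
    have h1 := hφ1 p hpQ
    have h2 : α ≤ φ p := by
      have h3 := (φ.continuous.tendsto p).comp hlim
      exact ge_of_tendsto h3 (Eventually.of_forall fun n => (hz2 (ψ n)).le)
    linarith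
  obtain ⟨z, hz, hz2⟩ := hxQ ε hε
  refine ⟨z, hz, ?_⟩
  rw [← map_sub] at hz2
  obtain ⟨m, hm, hm'⟩ := Submodule.Quotient.norm_mk_lt (S := S) (S.mkQ (z - x))
    (ε := ε - ‖S.mkQ (z - x)‖) (by linarith)
  refine ⟨z - x - m, ?_, ?_⟩
  · have : S.mkQ (z - x - m) = 0 := by
      rw [map_sub, sub_eq_zero]
      exact hm.symm
    rw [Submodule.mkQ_apply, Submodule.Quotient.mk_eq_zero] at this
    exact this
  · simpa using (by linarith : ‖m‖ < ε)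

/-- KEY lemma -/
theorem key (htb : L1Subspace.UnitBallTotallyBoundedInMeasure P E)
    (hD : L1Subspace.HasDaugavetProperty E) {x : E} (hx : ‖x‖ ≤ 1) {F : Set E} (hF : Cof F)
    {ε : ℝ} (hε : 0 < ε) :
    ∃ z : E, ‖z‖ ≤ 1 ∧ sm P ε (z : Lp ℝ 1 P) ∧ ∃ w ∈ F, ‖(z - x) - w‖ < ε := by
  obtain ⟨z, ⟨hz, hz1⟩, hw⟩ := key_abstract (V := E)
    (fun c => {z : E | ‖z‖ ≤ 1 ∧ sm P c (z : Lp ℝ 1 P)})
    (fun c c' hcc z hz => ⟨hz.1, sm_mono hcc hz.2⟩)
    (fun c z hz z' hz' a b ha hb hab => by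
      obtain ⟨hz, hz1⟩ := hz
      obtain ⟨hz', hz1'⟩ := hz'
      have ha1 : |a| ≤ 1 := by rw [abs_of_nonneg ha]; linarith
      have hb1 : |b| ≤ 1 := by rw [abs_of_nonneg hb]; linarith
      refine ⟨?_, ?_⟩
      · calc ‖a • z + b • z'‖ ≤ ‖a • z‖ + ‖b • z'‖ := norm_add_le _ _
          _ ≤ a * 1 + b * 1 := by
            rw [norm_smul, norm_smul, Real.norm_of_nonneg ha, Real.norm_of_nonneg hb]
            exact add_le_add (mul_le_mul_of_nonneg_left hz ha) (mul_le_mul_of_nonneg_left hz' hb)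
          _ = 1 := by linarith
      · have h := sm_add (sm_smul_one ha1 hz1) (sm_smul_one hb1 hz1')
        rw [add_halves] at h
        exact h)
    (fun c hc => ⟨by simp, sm_zero hc⟩) (fun c z hz => hz.1)
    (fun φ a ha x₀ hx₀ hφ c hc => by
      obtain ⟨z, h1, h2, h3⟩ := exists_concentrated htb hD φ ha hx₀ hφ hc
      exact ⟨z, ⟨h1, h3⟩, h2⟩) hx hF hε
  exact ⟨z, hz, hz1, hw⟩

/-- KEY lemma with norms: `z` almost norm one, `w ∈ F` close to `z - x`, `‖w‖` almost two -/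
theorem key2 (htb : L1Subspace.UnitBallTotallyBoundedInMeasure P E)
    (hD : L1Subspace.HasDaugavetProperty E) {x : E} (hx : ‖x‖ = 1) {F : Set E} (hF : Cof F)
    {ε : ℝ} (hε : 0 < ε) :
    ∃ z : E, ‖z‖ ≤ 1 ∧ 1 - ε ≤ ‖z‖ ∧ ∃ w ∈ F, ‖(z - x) - w‖ < ε ∧ 2 - ε ≤ ‖w‖ := by
  obtain ⟨ψ, hψ1, hψ2⟩ := exists_dual_vector'' ℝ x
  have hψ2' : ψ x = 1 := by
    have : ψ x = ‖x‖ := by simpa using hψ2
    rw [this, hx]
  obtain ⟨δ, hδ, hBL⟩ := norm_add_ge (-(x : Lp ℝ 1 P)) (ε := ε / 4) (by positivity)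
  obtain ⟨z, hz, hz1, w, hw, hzw⟩ := key htb hD hx.le (cof_inter hF (cof_ker ψ))
    (ε := min δ (ε / 4)) (by positivity)
  have hε4 : min δ (ε / 4) ≤ ε / 4 := min_le_right _ _
  have hψb : ∀ v : E, ψ v ≤ ‖v‖ := fun v => by
    calc ψ v ≤ ‖ψ v‖ := Real.le_norm_self _
      _ ≤ ‖ψ‖ * ‖v‖ := ψ.le_opNorm _
      _ ≤ 1 * ‖v‖ := mul_le_mul_of_nonneg_right hψ1 (norm_nonneg _)
      _ = ‖v‖ := one_mul _
  have hzn : 1 - ε / 4 ≤ ‖z‖ := by
    have h1 := hψb (-(z - x - w))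
    rw [norm_neg] at h1
    have h2 : ψ w = 0 := hw.2
    have h3 : ψ (-(z - x - w)) = 1 - ψ z := by
      rw [map_neg, map_sub, map_sub, hψ2', h2]; ring
    have h4 := hψb z
    rw [h3] at h1
    linarith
  refine ⟨z, hz, by linarith, w, hw.1, by linarith, ?_⟩
  have h5 := hBL (z : Lp ℝ 1 P) (sm_mono (min_le_left _ _) hz1)
  have h6 : ‖z - x‖ = ‖-(x : Lp ℝ 1 P) + (z : Lp ℝ 1 P)‖ := by
    have h10 : ‖z - x‖ = ‖((z - x : E) : Lp ℝ 1 P)‖ := rfl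
    rw [h10, Submodule.coe_sub]
    congr 1; abel
  rw [norm_neg] at h5
  have h7 : ‖(x : Lp ℝ 1 P)‖ = 1 := hx
  have h8 : ‖(z : Lp ℝ 1 P)‖ = ‖z‖ := rfl
  have h9 : ‖z - x‖ ≤ ‖z - x - w‖ + ‖w‖ := by
    have := norm_add_le (z - x - w) w
    simpa using this
  rw [h6] at h9
  linarith

/-- the direction used for the upper bounds -/
theorem exists_direction (htb : L1Subspace.UnitBallTotallyBoundedInMeasure P E)
    (hD : L1Subspace.HasDaugavetProperty E) {x : E} (hx : ‖x‖ = 1) {F : Set E} (hF : Cof F)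
    {t : ℝ} (ht : 0 < t) {η : ℝ} (hη : 0 < η) :
    ∃ y ∈ F, ‖y‖ = 1 ∧ ‖x + t • y‖ ≤ |1 - t / 2| + t / 2 + η := by
  set ε : ℝ := min 1 (η / (2 * t)) with hεdef
  have hε : 0 < ε := by positivity
  obtain ⟨z, hz, hz1, w, hw, hzw, hwn⟩ := key2 htb hD hx hF hε
  have hε1 : ε ≤ 1 := min_le_left _ _
  have hε2 : 2 * t * ε ≤ η := by
    have : ε ≤ η / (2 * t) := min_le_right _ _
    rw [le_div_iff₀ (by positivity)] at this
    linarith
  have hwpos : 0 < ‖w‖ := by linarith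
  refine ⟨‖w‖⁻¹ • w, cof_smul_mem hF _ hw, ?_, ?_⟩
  · rw [norm_smul, norm_inv, norm_norm, inv_mul_cancel₀ hwpos.ne']
  · have hw2 : ‖w‖ ≤ 2 + ε := by
      have h1 : ‖w‖ ≤ ‖z - x‖ + ‖z - x - w‖ := by
        have := norm_sub_le (z - x) (z - x - w)
        simpa using this
      have h2 : ‖z - x‖ ≤ 2 := (norm_sub_le _ _).trans (by rw [hx]; linarith)
      linarith
    have h1 : x + t • (‖w‖⁻¹ • w) = ((1 - t / 2) • x + (t / 2) • z) +
        (t • ((‖w‖⁻¹ - 1 / 2) • w) - (t / 2) • (z - x - w)) := by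
      module
    have h2 : ‖(1 - t / 2) • x + (t / 2) • z‖ ≤ |1 - t / 2| + t / 2 := by
      refine (norm_add_le _ _).trans ?_
      rw [norm_smul, norm_smul, hx, mul_one, Real.norm_eq_abs, Real.norm_of_nonneg (by positivity)]
      have := mul_le_mul_of_nonneg_left hz (by positivity : 0 ≤ t / 2)
      linarith
    have h3 : ‖(‖w‖⁻¹ - 1 / 2) • w‖ ≤ ε / 2 := by
      rw [norm_smul, Real.norm_eq_abs]
      have : |‖w‖⁻¹ - 1 / 2| * ‖w‖ = |1 - ‖w‖ / 2| := by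
        rw [← abs_of_pos hwpos, ← abs_mul, abs_of_pos hwpos]
        congr 1
        field_simp
      rw [this, abs_le]
      constructor <;> linarith
    rw [h1]
    refine (norm_add_le _ _).trans ?_
    have h4 : ‖t • ((‖w‖⁻¹ - 1 / 2) • w) - (t / 2) • (z - x - w)‖ ≤ t * (ε / 2) + t / 2 * ε := by
      refine (norm_sub_le _ _).trans ?_
      rw [norm_smul t, norm_smul (t / 2), Real.norm_of_nonneg ht.le, Real.norm_of_nonneg (by positivity)]
      have := mul_le_mul_of_nonneg_left h3 ht.le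
      have := mul_le_mul_of_nonneg_left hzw.le (by positivity : 0 ≤ t / 2)
      linarith
    nlinarith

theorem abs_form (t : ℝ) (ht : 0 < t) : |1 - t / 2| + t / 2 - 1 = max 0 (t - 2) := by
  rcases le_total t 2 with h | h
  · rw [abs_of_nonneg (by linarith), max_eq_left (by linarith)]; ring
  · rw [abs_of_nonpos (by linarith), max_eq_right (by linarith)]; ring

theorem avg_form (t : ℝ) (ht : 0 < t) : ((|1 - t / 2| + t / 2) + (1 + t)) / 2 - 1 = max (t / 2) (t - 1) := by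
  rcases le_total t 2 with h | h
  · rw [abs_of_nonneg (by linarith), max_eq_left (by linarith)]; ring
  · rw [abs_of_nonpos (by linarith), max_eq_right (by linarith)]; ring

/-- upper bound for the averaged modulus -/
theorem mid_le (htb : L1Subspace.UnitBallTotallyBoundedInMeasure P E)
    (hD : L1Subspace.HasDaugavetProperty E) {x : E} (hx : ‖x‖ = 1) {F : Set E} (hF : Cof F)
    {t : ℝ} (ht : 0 < t) {η : ℝ} (hη : 0 < η) :
    ∃ y ∈ F, ‖y‖ = 1 ∧ (‖x + t • y‖ + ‖x - t • y‖) / 2 - 1 ≤ max (t / 2) (t - 1) + η := by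
  obtain ⟨y, hy, hy1, hxy⟩ := exists_direction htb hD hx hF ht (η := 2 * η) (by positivity)
  refine ⟨y, hy, hy1, ?_⟩
  rw [← avg_form t ht]
  have h2 : ‖x - t • y‖ ≤ 1 + t := by
    refine (norm_sub_le _ _).trans ?_
    rw [norm_smul, hx, hy1, Real.norm_of_nonneg ht.le, mul_one]
  linarith

/-- upper bound for the one-sided modulus -/
theorem one_le (htb : L1Subspace.UnitBallTotallyBoundedInMeasure P E)
    (hD : L1Subspace.HasDaugavetProperty E) {x : E} (hx : ‖x‖ = 1) {F : Set E} (hF : Cof F)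
    {t : ℝ} (ht : 0 < t) {η : ℝ} (hη : 0 < η) :
    ∃ y ∈ F, ‖y‖ = 1 ∧ ‖x + t • y‖ - 1 ≤ max 0 (t - 2) + η := by
  obtain ⟨y, hy, hy1, hxy⟩ := exists_direction htb hD hx hF ht hη
  refine ⟨y, hy, hy1, ?_⟩
  rw [← abs_form t ht]
  linarith

/-- lower bound for the one-sided modulus -/
theorem one_ge {x : E} (hx : ‖x‖ = 1) {t : ℝ} (ht : 0 < t) {η : ℝ} (hη : 0 < η) :
    ∃ F : Set E, Cof F ∧ ∀ y ∈ F, ‖y‖ = 1 → max 0 (t - 2) - η ≤ ‖x + t • y‖ - 1 := by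
  obtain ⟨ψ, hψ1, hψ2⟩ := exists_dual_vector'' ℝ x
  have hψ2' : ψ x = 1 := by
    have : ψ x = ‖x‖ := by simpa using hψ2
    rw [this, hx]
  refine ⟨{y : E | ψ y = 0}, cof_ker ψ, fun y hy hy1 => ?_⟩
  have h1 : (1 : ℝ) ≤ ‖x + t • y‖ := by
    have h3 : ψ (x + t • y) = 1 := by
      rw [map_add, map_smul]
      have : ψ y = 0 := hy
      rw [this, smul_zero, add_zero]
      exact hψ2'
    calc (1 : ℝ) = ψ (x + t • y) := h3.symm
      _ ≤ ‖ψ (x + t • y)‖ := Real.le_norm_self _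
      _ ≤ ‖ψ‖ * ‖x + t • y‖ := ψ.le_opNorm _
      _ ≤ 1 * ‖x + t • y‖ := mul_le_mul_of_nonneg_right hψ1 (norm_nonneg _)
      _ = _ := one_mul _
  have h2 : t - 1 ≤ ‖x + t • y‖ := by
    have h3 := norm_sub_le (x + t • y) x
    rw [add_sub_cancel_left, norm_smul, hx, hy1, Real.norm_of_nonneg ht.le, mul_one] at h3
    linarith
  have : max 0 (t - 2) ≤ ‖x + t • y‖ - 1 := max_le (by linarith) (by linarith)
  linarith

/-- no equivalent AUC norm -/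
theorem not_auc (htb : L1Subspace.UnitBallTotallyBoundedInMeasure P E)
    (hD : L1Subspace.HasDaugavetProperty E) (hinf : ¬ FiniteDimensional ℝ E)
    (N : E → ℝ) (hsub : ∀ x y : E, N (x + y) ≤ N x + N y)
    (hhom : ∀ (a : ℝ) (x : E), N (a • x) = |a| * N x) {a b : ℝ} (ha : 0 < a)
    (hab : ∀ x : E, a * ‖x‖ ≤ N x ∧ N x ≤ b * ‖x‖)
    (hauc : ∀ t : ℝ, 0 < t → ∃ c : ℝ, 0 < c ∧ ∀ x : E, N x = 1 → ∃ F : Set E, Cof F ∧
      ∀ y ∈ F, N y = 1 → c ≤ N (x + t • y) - 1) : False := by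
  have hnt : ∃ x : E, x ≠ 0 := by
    by_contra hcon
    push Not at hcon
    apply hinf
    haveI : Subsingleton E := ⟨fun a b => by rw [hcon a, hcon b]⟩
    infer_instance
  refine noAUC_core N hsub hhom ha hab {x : E | ‖x‖ = 1} (B := 1) (δ := 1) one_pos
    (fun x hx => le_of_eq hx) ?_ ?_ hauc
  · obtain ⟨x, hx⟩ := hnt
    have hxn : ‖x‖ ≠ 0 := norm_ne_zero_iff.2 hx
    refine ⟨‖x‖⁻¹ • x, ?_, smul_ne_zero (inv_ne_zero hxn) hx⟩
    change ‖‖x‖⁻¹ • x‖ = 1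
    rw [norm_smul, norm_inv, norm_norm, inv_mul_cancel₀ hxn]
  · intro x hx F hF ε hε
    set ε' : ℝ := min (1 / 2) (ε / 2) with hε'
    obtain ⟨z, hz, hz1, w, hw, hzw, hwn⟩ := key2 htb hD hx hF (ε := ε') (by positivity)
    have e1 : ε' ≤ 1 / 2 := min_le_left _ _
    have e2 : ε' ≤ ε / 2 := min_le_right _ _
    have hzpos : 0 < ‖z‖ := by linarith
    refine ⟨w, hw, by linarith, ‖z‖⁻¹ • z, ?_, ?_⟩
    · change ‖‖z‖⁻¹ • z‖ = 1
      rw [norm_smul, norm_inv, norm_norm, inv_mul_cancel₀ hzpos.ne']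
    · have h1 : ‖z‖⁻¹ • z - (x + w) = (‖z‖⁻¹ - 1) • z + (z - x - w) := by module
      rw [h1]
      refine (norm_add_le _ _).trans ?_
      have h2 : ‖(‖z‖⁻¹ - 1) • z‖ = 1 - ‖z‖ := by
        rw [norm_smul, Real.norm_eq_abs, abs_of_nonneg]
        · field_simp
        · have : 1 ≤ ‖z‖⁻¹ := (one_le_inv₀ hzpos).2 hz
          linarith
      rw [h2]
      linarith

/-- limit in measure along an ultrafilter -/
theorem exists_limit (htb : L1Subspace.UnitBallTotallyBoundedInMeasure P E) (U : Ultrafilter E)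
    (hU : {f : E | ‖f‖ ≤ 1} ∈ U) :
    ∃ g : Lp ℝ 1 P, ‖g‖ ≤ 1 ∧ ∀ δ : ℝ, 0 < δ → {f : E | sm P δ ((f : Lp ℝ 1 P) - g)} ∈ U := by
  have h1 : ∀ j : ℕ, ∃ c : Lp ℝ 1 P, ‖c‖ ≤ 1 ∧
      {f : E | L1Subspace.measureDist P (f : Lp ℝ 1 P) c < (1 / 2 : ℝ) ^ (j + 2)} ∈ U := by
    intro j
    obtain ⟨s, hs1, hs2⟩ := htb ((1 / 2 : ℝ) ^ (j + 2)) (by positivity)
    have h2 : (⋃ c ∈ (s : Set (Lp ℝ 1 P)),
        {f : E | L1Subspace.measureDist P (f : Lp ℝ 1 P) c < (1 / 2 : ℝ) ^ (j + 2)}) ∈ U := by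
      refine mem_of_superset hU fun f hf => ?_
      obtain ⟨g, hg, hfg⟩ := hs2 f f.2 hf
      exact Set.mem_biUnion hg hfg
    rw [Ultrafilter.finite_biUnion_mem_iff s.finite_toSet] at h2
    obtain ⟨c, hc, hcU⟩ := h2
    exact ⟨c, (hs1 c hc).2, hcU⟩
  choose c hc hcU using h1
  have hcc : ∀ j, sm P ((1 / 2 : ℝ) ^ j) (c (j + 1) - c j) := by
    intro j
    obtain ⟨f, hf1, hf2⟩ := U.nonempty_of_mem (inter_mem (hcU j) (hcU (j + 1)))
    have h3 := sm_of_measureDist hf1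
    have h4 := sm_of_measureDist hf2
    have h5 := sm_add h3 (sm_neg h4)
    have h6 : (f : Lp ℝ 1 P) - c j + -((f : Lp ℝ 1 P) - c (j + 1)) = c (j + 1) - c j := by abel
    rw [h6] at h5
    refine sm_mono ?_ h5
    have : (0 : ℝ) < (1 / 2) ^ j := by positivity
    rw [pow_add, pow_add, pow_add]
    nlinarith
  obtain ⟨g, hg, hlim⟩ := exists_limit_seq c hc hcc
  refine ⟨g, hg, fun δ hδ => ?_⟩
  have h2 : ∀ᶠ j : ℕ in atTop, (1 / 2 : ℝ) ^ (j + 2) ≤ δ / 2 := by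
    have h3 : Tendsto (fun j : ℕ => (1 / 2 : ℝ) ^ (j + 2)) atTop (𝓝 0) :=
      (tendsto_pow_atTop_nhds_zero_of_lt_one (by norm_num) (by norm_num)).comp
        (tendsto_add_atTop_nat 2)
    filter_upwards [h3.eventually_lt_const (half_pos hδ)] with n hn
    exact hn.le
  obtain ⟨j, hj1, hj2⟩ := ((hlim (δ / 2) (by positivity)).and h2).exists
  refine mem_of_superset (hcU j) fun f hf => ?_
  have h3 := sm_mono hj2 (sm_of_measureDist hf)
  have h4 := sm_add h3 hj1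
  have h5 : (f : Lp ℝ 1 P) - c j + (c j - g) = (f : Lp ℝ 1 P) - g := by abel
  rw [h5, add_halves] at h4
  exact h4

/-- lower bound for the averaged midpoint modulus -/
theorem mid_ge (htb : L1Subspace.UnitBallTotallyBoundedInMeasure P E)
    {t : ℝ} (ht : 0 < t) {x : E} (hx : ‖x‖ = 1) {η : ℝ} (hη : 0 < η) :
    ∃ F : Set E, Cof F ∧ ∀ y ∈ F, ‖y‖ = 1 →
      max (t / 2) (t - 1) - η ≤ (‖x + t • y‖ + ‖x - t • y‖) / 2 - 1 := by
  by_contra hcon
  push Not at hcon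
  -- bad sets
  let bad : Set E := {y | ‖y‖ = 1 ∧ (‖x + t • y‖ + ‖x - t • y‖) / 2 - 1 < max (t / 2) (t - 1) - η}
  let 𝓑 : Filter E := ⨅ F : {F : Set E // Cof F}, 𝓟 (F.1 ∩ bad)
  have hne : 𝓑.NeBot := by
    haveI : Nonempty {F : Set E // Cof F} := ⟨⟨_, cof_univ⟩⟩
    refine iInf_neBot_of_directed ?_ ?_
    · intro F G
      refine ⟨⟨F.1 ∩ G.1, cof_inter F.2 G.2⟩, ?_, ?_⟩
      · change 𝓟 (F.1 ∩ G.1 ∩ bad) ≤ 𝓟 (F.1 ∩ bad)
        rw [le_principal_iff, mem_principal]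
        rintro y ⟨⟨h1, h2⟩, h3⟩
        exact ⟨h1, h3⟩
      · change 𝓟 (F.1 ∩ G.1 ∩ bad) ≤ 𝓟 (G.1 ∩ bad)
        rw [le_principal_iff, mem_principal]
        rintro y ⟨⟨h1, h2⟩, h3⟩
        exact ⟨h2, h3⟩
    · intro F
      rw [principal_neBot_iff]
      obtain ⟨y, hy, hy1, hy2⟩ := hcon F.1 F.2
      exact ⟨y, hy, hy1, hy2⟩
  let U : Ultrafilter E := Ultrafilter.of 𝓑
  have hUF : ∀ F : Set E, Cof F → F ∩ bad ∈ U := by
    intro F hF
    have h1 : (U : Filter E) ≤ 𝓑 := Ultrafilter.of_le 𝓑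
    have h2 : 𝓑 ≤ 𝓟 (F ∩ bad) := iInf_le (fun F : {F : Set E // Cof F} => 𝓟 (F.1 ∩ bad)) ⟨F, hF⟩
    exact (h1.trans h2) (mem_principal_self _)
  have hUbad : bad ∈ U := mem_of_superset (hUF _ cof_univ) Set.inter_subset_right
  have hUb : {f : E | ‖f‖ ≤ 1} ∈ U := mem_of_superset hUbad fun f hf => le_of_eq hf.1
  obtain ⟨g, hg, hgU⟩ := exists_limit htb U hUb
  set γ := ‖g‖ with hγ
  have hγ0 : 0 ≤ γ := norm_nonneg g
  -- norm of f - g
  have hfg : ∀ ε : ℝ, 0 < ε → {f : E | ‖(f : Lp ℝ 1 P) - g‖ ≤ 1 - γ + ε} ∈ U := by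
    intro ε hε
    obtain ⟨δ, hδ, hBL⟩ := norm_add_ge g hε
    filter_upwards [hgU δ hδ, hUbad] with f hf hfb
    have h1 := hBL _ hf
    have h2 : g + ((f : Lp ℝ 1 P) - g) = f := by abel
    rw [h2] at h1
    have h3 : ‖(f : Lp ℝ 1 P)‖ = 1 := hfb.1
    rw [h3] at h1
    linarith
  -- γ ≤ 1/2
  have hγhalf : γ ≤ 1 / 2 := by
    by_contra hcon2
    push Not at hcon2
    set ε : ℝ := γ - 1 / 2 with hε
    have hε0 : 0 < ε := by linarith
    let A : Set E := {f : E | ‖(f : Lp ℝ 1 P) - g‖ ≤ 1 - γ + ε}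
    have hAconv : Convex ℝ A := by
      intro f hf f' hf' a b ha hb hab
      have h1 : ((a • f + b • f' : E) : Lp ℝ 1 P) - g = a • ((f : Lp ℝ 1 P) - g) + b • ((f' : Lp ℝ 1 P) - g) := by
        have : g = a • g + b • g := by rw [← add_smul, hab, one_smul]
        conv_lhs => rw [this]
        rw [Submodule.coe_add, Submodule.coe_smul, Submodule.coe_smul]
        module
      change ‖((a • f + b • f' : E) : Lp ℝ 1 P) - g‖ ≤ 1 - γ + ε
      rw [h1]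
      refine (norm_add_le _ _).trans ?_
      rw [norm_smul, norm_smul, Real.norm_of_nonneg ha, Real.norm_of_nonneg hb]
      have h2 := mul_le_mul_of_nonneg_left (hf : ‖(f : Lp ℝ 1 P) - g‖ ≤ 1 - γ + ε) ha
      have h3 := mul_le_mul_of_nonneg_left (hf' : ‖(f' : Lp ℝ 1 P) - g‖ ≤ 1 - γ + ε) hb
      have h4 : a * (1 - γ + ε) + b * (1 - γ + ε) = 1 - γ + ε := by rw [← add_mul, hab, one_mul]
      linarith
    have hAcl : IsClosed A := by
      have hcont : Continuous (fun f : E => ‖(f : Lp ℝ 1 P) - g‖) :=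
        (continuous_subtype_val.sub continuous_const).norm
      exact isClosed_le hcont continuous_const
    have h0 : (0 : E) ∉ A := by
      intro h
      have h1 : ‖((0 : E) : Lp ℝ 1 P) - g‖ ≤ 1 - γ + ε := h
      rw [Submodule.coe_zero, zero_sub, norm_neg] at h1
      linarith
    obtain ⟨φ, α, hφ1, hφ2⟩ := geometric_hahn_banach_point_closed hAconv hAcl h0
    rw [map_zero] at hφ1
    obtain ⟨f, hf1, hf2⟩ := U.nonempty_of_mem (inter_mem (hUF _ (cof_ker φ)) (hfg ε hε0))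
    have h1 := hφ2 f hf2
    have h2 : φ f = 0 := hf1.1
    linarith
  -- conclusion
  have hεη : (0 : ℝ) < η / 2 := by positivity
  set M : ℝ := max 1 t with hM
  have hM1 : 1 ≤ M := le_max_left _ _
  have hMt : t ≤ M := le_max_right _ _
  obtain ⟨δ₁, hδ₁, hBL₁⟩ := norm_add_ge ((x : Lp ℝ 1 P) + t • g) hεη
  obtain ⟨δ₂, hδ₂, hBL₂⟩ := norm_add_ge ((x : Lp ℝ 1 P) - t • g) hεη
  obtain ⟨f, ⟨hf1, hf2⟩, hfb⟩ := U.nonempty_of_mem (inter_mem (inter_mem (hgU (δ₁ / M) (by positivity))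
    (hgU (δ₂ / M) (by positivity))) hUbad)
  have hs1 := sm_smul hM1 (by rw [abs_of_pos ht]; exact hMt : |t| ≤ M) hf1
  have hs2 := sm_smul hM1 (by rw [abs_neg, abs_of_pos ht]; exact hMt : |-t| ≤ M) hf2
  have hMd1 : M * (δ₁ / M) = δ₁ := by field_simp
  have hMd2 : M * (δ₂ / M) = δ₂ := by field_simp
  rw [hMd1] at hs1
  rw [hMd2] at hs2
  have h1 := hBL₁ _ hs1
  have h2 := hBL₂ _ hs2
  have e1 : (x : Lp ℝ 1 P) + t • g + t • ((f : Lp ℝ 1 P) - g) = ((x + t • f : E) : Lp ℝ 1 P) := by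
    rw [Submodule.coe_add, Submodule.coe_smul]; module
  have e2 : (x : Lp ℝ 1 P) - t • g + (-t) • ((f : Lp ℝ 1 P) - g) = ((x - t • f : E) : Lp ℝ 1 P) := by
    rw [Submodule.coe_sub, Submodule.coe_smul]; module
  rw [e1, norm_smul, Real.norm_of_nonneg ht.le] at h1
  rw [e2, norm_smul, norm_neg, Real.norm_of_nonneg ht.le] at h2
  have e3 : ‖((x + t • f : E) : Lp ℝ 1 P)‖ = ‖x + t • f‖ := rfl
  have e4 : ‖((x - t • f : E) : Lp ℝ 1 P)‖ = ‖x - t • f‖ := rfl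
  rw [e3] at h1
  rw [e4] at h2
  have h3 : 1 - γ ≤ ‖(f : Lp ℝ 1 P) - g‖ := by
    have h4 : ‖(f : Lp ℝ 1 P)‖ = 1 := hfb.1
    have h5 := norm_sub_norm_le (f : Lp ℝ 1 P) g
    rw [h4] at h5
    exact h5
  have h4 : 2 ≤ ‖(x : Lp ℝ 1 P) + t • g‖ + ‖(x : Lp ℝ 1 P) - t • g‖ := by
    have h5 := norm_add_le ((x : Lp ℝ 1 P) + t • g) ((x : Lp ℝ 1 P) - t • g)
    have h6 : (x : Lp ℝ 1 P) + t • g + ((x : Lp ℝ 1 P) - t • g) = (2 : ℝ) • (x : Lp ℝ 1 P) := by module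
    rw [h6, norm_smul] at h5
    have h7 : ‖(x : Lp ℝ 1 P)‖ = 1 := hx
    rw [h7] at h5
    norm_num at h5
    exact h5
  have h5 : 2 * (t * γ) ≤ ‖(x : Lp ℝ 1 P) + t • g‖ + ‖(x : Lp ℝ 1 P) - t • g‖ := by
    have h5 := norm_sub_le ((x : Lp ℝ 1 P) + t • g) ((x : Lp ℝ 1 P) - t • g)
    have h6 : (x : Lp ℝ 1 P) + t • g - ((x : Lp ℝ 1 P) - t • g) = (2 * t) • g := by module
    rw [h6, norm_smul, Real.norm_of_nonneg (by positivity)] at h5
    linarith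
  have h6 : t * (1 - γ) ≤ t * ‖(f : Lp ℝ 1 P) - g‖ := mul_le_mul_of_nonneg_left h3 ht.le
  have h7 := hfb.2
  have h8 : max (t / 2) (t - 1) ≤ (‖x + t • f‖ + ‖x - t • f‖) / 2 - 1 + η / 2 := by
    refine max_le ?_ ?_
    · have : t * γ ≤ t / 2 := by nlinarith
      nlinarith
    · nlinarith
  linarith

end Crest.Agent.S0167
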