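import Crest.Prelude.Def_DaugavetL1
import Crest.Agent.AUCLemma

set_option autoImplicit false

/-!
Daugavet slice lemmas, finite-codimensional subspaces.
-/

namespace Crest.Agent.S0167

open Crest.AnalysisR Crest.Agent.AUCLemma

section banach

variable {V : Type*} [NormedAddCommGroup V] [NormedSpace ℝ V]

theorem cof_ker (φ : V →L[ℝ] ℝ) : Cof {y : V | φ y = 0} := by
  have hset : ((LinearMap.ker φ.toLinearMap : Submodule ℝ V) : Set V) = {y : V | φ y = 0} := by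
    ext y; simp
  refine ⟨LinearMap.ker φ.toLinearMap, hset, ?_, ?_⟩
  · rw [← hset]; exact φ.isClosed_ker
  · exact FiniteDimensional.of_injective
      ((LinearMap.quotKerEquivRange φ.toLinearMap).toLinearMap)
      (LinearMap.quotKerEquivRange φ.toLinearMap).injective

theorem cof_inter {F G : Set V} (hF : Cof F) (hG : Cof G) : Cof (F ∩ G) := by
  obtain ⟨S, rfl, hS, hSf⟩ := hF
  obtain ⟨T, rfl, hT, hTf⟩ := hG
  refine ⟨S ⊓ T, rfl, hS.inter hT, ?_⟩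
  have : Submodule.CoFG (S ⊓ T) := by
    have h1 : Submodule.CoFG S := hSf
    have h2 : Submodule.CoFG T := hTf
    exact h1.inf h2
  exact this

theorem cof_univ : Cof (Set.univ : Set V) := by
  refine ⟨⊤, rfl, isClosed_univ, ?_⟩
  infer_instance

theorem cof_zero_mem {F : Set V} (hF : Cof F) : (0 : V) ∈ F := by
  obtain ⟨S, rfl, -, -⟩ := hF
  exact S.zero_mem

theorem cof_smul_mem {F : Set V} (hF : Cof F) (c : ℝ) {y : V} (hy : y ∈ F) : c • y ∈ F := by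
  obtain ⟨S, rfl, -, -⟩ := hF
  exact S.smul_mem c hy

/-- single slice lemma -/
theorem slice_one (hD : L1Subspace.HasDaugavetProperty V) (φ : V →L[ℝ] ℝ) {a : ℝ} (ha : 0 ≤ a)
    {x₀ : V} (hx₀ : ‖x₀‖ ≤ 1) (hφ : a < φ x₀) {y : V} (hy : ‖y‖ = 1) {ε : ℝ} (hε : 0 < ε) :
    ∃ (φ' : V →L[ℝ] ℝ) (a' : ℝ), 0 ≤ a' ∧ (∃ x₁ : V, ‖x₁‖ ≤ 1 ∧ a' < φ' x₁) ∧
      ∀ z : V, ‖z‖ ≤ 1 → a' < φ' z → a < φ z ∧ 2 - ε ≤ ‖y + z‖ := by
  have hφn : a < ‖φ‖ := by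
    calc a < φ x₀ := hφ
      _ ≤ ‖φ x₀‖ := Real.le_norm_self _
      _ ≤ ‖φ‖ * ‖x₀‖ := φ.le_opNorm _
      _ ≤ ‖φ‖ * 1 := mul_le_mul_of_nonneg_left hx₀ (norm_nonneg _)
      _ = ‖φ‖ := mul_one _
  have hφ0 : 0 < ‖φ‖ := lt_of_le_of_lt ha hφn
  set f : V →L[ℝ] ℝ := ‖φ‖⁻¹ • φ with hf
  have hfn : ‖f‖ = 1 := by rw [hf, norm_smul, norm_inv, norm_norm, inv_mul_cancel₀ hφ0.ne']
  have har : a / ‖φ‖ < 1 := (div_lt_one hφ0).2 hφn
  have har0 : 0 ≤ a / ‖φ‖ := by positivity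
  set d : ℝ := min ((1 - a / ‖φ‖) / 3) (ε / 4) with hd
  have hd0 : 0 < d := lt_min (by linarith) (by linarith)
  have hd1 : 3 * d ≤ 1 - a / ‖φ‖ := by
    have := min_le_left ((1 - a / ‖φ‖) / 3) (ε / 4)
    rw [← hd] at this; linarith
  have hd2 : 4 * d ≤ ε := by
    have := min_le_right ((1 - a / ‖φ‖) / 3) (ε / 4)
    rw [← hd] at this; linarith
  have h1 := hD f y
  have h2 : ‖f.smulRight y‖ = 1 := by rw [ContinuousLinearMap.norm_smulRight_apply, hfn, hy, one_mul]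
  rw [h2] at h1
  obtain ⟨u, hu1, hu2⟩ := (ContinuousLinearMap.id ℝ V + f.smulRight y).exists_lt_apply_of_lt_opNorm
    (r := 2 - d) (by rw [h1]; linarith)
  -- wlog f u ≥ 0
  obtain ⟨v, hv1, hv2, hv3⟩ : ∃ v : V, ‖v‖ ≤ 1 ∧ 0 ≤ f v ∧ 2 - d < ‖v + f v • y‖ := by
    have hu2' : 2 - d < ‖u + f u • y‖ := by
      simpa using hu2
    rcases le_total 0 (f u) with h | h
    · exact ⟨u, hu1.le, h, hu2'⟩
    · refine ⟨-u, by rw [norm_neg]; exact hu1.le, by rw [map_neg]; linarith, ?_⟩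
      have : -u + f (-u) • y = -(u + f u • y) := by
        rw [map_neg]; module
      rw [this, norm_neg]; exact hu2'
  obtain ⟨ψ, hψ1, hψ2⟩ := exists_dual_vector'' ℝ (v + f v • y)
  have hψ2' : ψ v + f v * ψ y = ‖v + f v • y‖ := by
    have : ψ (v + f v • y) = ‖v + f v • y‖ := by simpa using hψ2
    rw [map_add, map_smul, smul_eq_mul] at this
    exact this
  have hψb : ∀ w : V, ‖w‖ ≤ 1 → ψ w ≤ 1 := fun w hw => by
    calc ψ w ≤ ‖ψ w‖ := Real.le_norm_self _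
      _ ≤ ‖ψ‖ * ‖w‖ := ψ.le_opNorm _
      _ ≤ 1 * 1 := mul_le_mul hψ1 hw (norm_nonneg _) zero_le_one
      _ = 1 := one_mul _
  have hfb : ∀ w : V, ‖w‖ ≤ 1 → f w ≤ 1 := fun w hw => by
    calc f w ≤ ‖f w‖ := Real.le_norm_self _
      _ ≤ ‖f‖ * ‖w‖ := f.le_opNorm _
      _ ≤ 1 * 1 := mul_le_mul hfn.le hw (norm_nonneg _) zero_le_one
      _ = 1 := one_mul _
  have hd3 : 3 * d ≤ 1 := by linarith
  have e1 : ψ v ≤ 1 := hψb v hv1
  have e2 : f v ≤ 1 := hfb v hv1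
  have e3 : ψ y ≤ 1 := hψb y hy.le
  have e4 : f v * ψ y ≤ f v := by nlinarith
  have e5 : 1 - d < f v * ψ y := by linarith
  have e6 : 1 - d < f v := by linarith
  have e7 : 1 - d < ψ y := by
    by_contra hcon
    push Not at hcon
    have : f v * ψ y ≤ f v * (1 - d) := mul_le_mul_of_nonneg_left hcon hv2
    nlinarith
  have e8 : f v * ψ y ≤ 1 := by linarith
  have e9 : 1 - d < ψ v := by linarith
  refine ⟨f + ψ, 2 - 3 * d, by linarith, ⟨v, hv1, ?_⟩, fun z hz hzs => ?_⟩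
  · rw [ContinuousLinearMap.add_apply]; linarith
  · rw [ContinuousLinearMap.add_apply] at hzs
    have g1 := hψb z hz
    have g2 := hfb z hz
    constructor
    · have : a / ‖φ‖ < f z := by linarith
      rw [hf, ContinuousLinearMap.smul_apply, smul_eq_mul, div_lt_iff₀ hφ0] at this
      have h5 : ‖φ‖⁻¹ * φ z * ‖φ‖ = φ z := by field_simp
      rwa [h5] at this
    · have h6 : ψ (y + z) ≤ ‖y + z‖ := by
        calc ψ (y + z) ≤ ‖ψ (y + z)‖ := Real.le_norm_self _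
          _ ≤ ‖ψ‖ * ‖y + z‖ := ψ.le_opNorm _
          _ ≤ 1 * ‖y + z‖ := mul_le_mul_of_nonneg_right hψ1 (norm_nonneg _)
          _ = ‖y + z‖ := one_mul _
      rw [map_add] at h6
      linarith

/-- finitely many unit vectors -/
theorem slice_many (hD : L1Subspace.HasDaugavetProperty V) {ε : ℝ} (hε : 0 < ε) (s : Finset V)
    (hs : ∀ y ∈ s, ‖y‖ = 1) (φ : V →L[ℝ] ℝ) {a : ℝ} (ha : 0 ≤ a)
    {x₀ : V} (hx₀ : ‖x₀‖ ≤ 1) (hφ : a < φ x₀) :
    ∃ z : V, ‖z‖ ≤ 1 ∧ a < φ z ∧ ∀ y ∈ s, 2 - ε ≤ ‖y + z‖ := by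
  classical
  induction s using Finset.induction_on generalizing φ a x₀ with
  | empty => exact ⟨x₀, hx₀, hφ, by simp⟩
  | insert y s hys ih =>
    obtain ⟨φ', a', ha', ⟨x₁, hx₁, hφ'⟩, h⟩ := slice_one hD φ ha hx₀ hφ (hs y (by simp)) hε
    obtain ⟨z, hz, hz1, hz2⟩ := ih (fun w hw => hs w (Finset.mem_insert_of_mem hw)) φ' ha' hx₁ hφ'
    obtain ⟨h1, h2⟩ := h z hz hz1
    refine ⟨z, hz, h1, fun w hw => ?_⟩
    rw [Finset.mem_insert] at hw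
    rcases hw with rfl | hw
    · exact h2
    · exact hz2 w hw

/-- ball elements -/
theorem slice_ball (hD : L1Subspace.HasDaugavetProperty V) {ε : ℝ} (hε : 0 < ε) (s : Finset V)
    (hs : ∀ g ∈ s, ‖g‖ ≤ 1) (φ : V →L[ℝ] ℝ) {a : ℝ} (ha : 0 ≤ a)
    {x₀ : V} (hx₀ : ‖x₀‖ ≤ 1) (hφ : a < φ x₀) :
    ∃ z : V, ‖z‖ ≤ 1 ∧ a < φ z ∧ ∀ g ∈ s, ‖z‖ + ‖g‖ - ε ≤ ‖z - g‖ := by
  classical
  obtain ⟨z, hz, hz1, hz2⟩ := slice_many hD hε ((s.filter (fun g => g ≠ 0)).image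
    fun g => (-‖g‖⁻¹) • g) (by
      intro y hy
      rw [Finset.mem_image] at hy
      obtain ⟨g, hg, rfl⟩ := hy
      rw [Finset.mem_filter] at hg
      rw [norm_smul, norm_neg, norm_inv, norm_norm, inv_mul_cancel₀ (norm_ne_zero_iff.2 hg.2)])
    φ ha hx₀ hφ
  refine ⟨z, hz, hz1, fun g hg => ?_⟩
  by_cases hg0 : g = 0
  · subst hg0
    simp only [norm_zero, add_zero, sub_zero]
    linarith
  · have h1 := hz2 ((-‖g‖⁻¹) • g) (Finset.mem_image_of_mem _ (Finset.mem_filter.2 ⟨hg, hg0⟩))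
    have hgn : 0 < ‖g‖ := norm_pos_iff.2 hg0
    have h2 : (-‖g‖⁻¹) • g + z = (z - g) + (1 - ‖g‖⁻¹) • g := by module
    have h3 : ‖(1 - ‖g‖⁻¹) • g‖ = 1 - ‖g‖ := by
      rw [norm_smul, Real.norm_eq_abs, abs_of_nonpos]
      · field_simp
        ring
      · have : 1 ≤ ‖g‖⁻¹ := (one_le_inv₀ hgn).2 (hs g hg)
        linarith
    rw [h2] at h1
    have h4 := norm_add_le (z - g) ((1 - ‖g‖⁻¹) • g)
    rw [h3] at h4
    linarith

end banach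

end Crest.Agent.S0167
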