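import Crest.Statements.S0168
import Crest.Agent.AUCLemma

set_option autoImplicit false
open Crest Crest.AnalysisR

namespace Crest.Agent.S0168

open Crest.AnalysisR.TreePotential

/-! ### Increments of a potential -/

/-- increments of a function on vertices -/
def incr (P : List ℕ → ℝ) : List ℕ → ℝ
  | [] => P []
  | a :: v => P (a :: v) - P v

theorem pathPotential_incr (P : List ℕ → ℝ) (s : List ℕ) : pathPotential (incr P) s = P s := by
  induction s with
  | nil => rfl
  | cons a v ih => simp [pathPotential, incr, ih]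

/-- the evaluation functional at a test -/
noncomputable def ev (m : PotentialModel) (f : PotentialTest m) :
    lp (fun _ : PotentialTest m => ℝ) ⊤ →L[ℝ] ℝ :=
  lp.evalCLM ℝ (fun _ : PotentialTest m => ℝ) ⊤ f

@[simp] theorem ev_apply (m : PotentialModel) (f : PotentialTest m)
    (x : lp (fun _ : PotentialTest m => ℝ) ⊤) : ev m f x = x f := rfl

theorem ev_coord (m : PotentialModel) (f : PotentialTest m) (s : List ℕ) :
    ev m f (coordVector m s) = f.1 s := rfl

theorem ev_le_norm (m : PotentialModel) (f : PotentialTest m)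
    (x : lp (fun _ : PotentialTest m => ℝ) ⊤) : ev m f x ≤ ‖x‖ :=
  (Real.le_norm_self _).trans (lp.norm_apply_le_norm (by simp) x f)

/-- Two continuous functionals that agree on the coordinate vectors agree on the model space. -/
theorem agree_on_model (m : PotentialModel) (Λ₁ Λ₂ : lp (fun _ : PotentialTest m => ℝ) ⊤ →L[ℝ] ℝ)
    (h : ∀ s, Λ₁ (coordVector m s) = Λ₂ (coordVector m s))
    {x : lp (fun _ : PotentialTest m => ℝ) ⊤} (hx : x ∈ modelSpace m) : Λ₁ x = Λ₂ x := by
  have hle : modelSpace m ≤ LinearMap.ker (Λ₁ - Λ₂).toLinearMap := by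
    refine Submodule.topologicalClosure_minimal _ ?_ (Λ₁ - Λ₂).isClosed_ker
    rw [Submodule.span_le]
    rintro _ ⟨s, rfl⟩
    simp [h s]
  have := hle hx
  simpa [sub_eq_zero] using this

/-! ### Tests -/

/-- negation of a test -/
def negTest {m : PotentialModel} (f : PotentialTest m) : PotentialTest m :=
  ⟨fun s => - f.1 s, by
    have hp : ∀ s, pathPotential (fun s => - f.1 s) s = - pathPotential f.1 s := by
      intro s
      induction s with
      | nil => rfl
      | cons a v ih => simp [pathPotential, ih]; ring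
    refine ⟨fun s => by rw [hp, abs_neg]; exact f.2.1 s, ?_⟩
    have h := f.2.2
    cases m with
    | rootlessSibling => exact ⟨by simpa using h.1, fun r A => by simpa using h.2 r A⟩
    | rootedSibling => exact fun r A => by simpa using h r A
    | antichain =>
      refine ⟨?_, fun A hA => by simpa using h.2 A hA⟩
      have : (Function.support fun s => - f.1 s) = Function.support f.1 := by
        ext s; simp
      rw [this]; exact h.1
    | global => exact fun A => by simpa using h A⟩

theorem ev_neg {m : PotentialModel} (f : PotentialTest m)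
    {x : lp (fun _ : PotentialTest m => ℝ) ⊤} (hx : x ∈ modelSpace m) :
    ev m (negTest f) x = - ev m f x := by
  have := agree_on_model m (ev m (negTest f)) (- ev m f) (fun s => by
    rw [neg_apply, ev_coord, ev_coord]; rfl) hx
  simpa using this

/-- indicator function of a vertex (the zero function at the root of the rootless model) -/
def indFun (m : PotentialModel) (s : List ℕ) : List ℕ → ℝ :=
  match m, s with
  | .rootlessSibling, [] => fun _ => 0
  | _, s => fun u => if u = s then 1 else 0

theorem pathPotential_ite (s u : List ℕ) :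
    pathPotential (fun v => if v = s then (1 : ℝ) else 0) u = if s <:+ u then 1 else 0 := by
  induction u with
  | nil =>
    simp only [pathPotential, List.suffix_nil]
    by_cases h : s = []
    · simp [h]
    · simp [h, Ne.symm h]
  | cons a v ih =>
    rw [pathPotential, ih]
    by_cases h : a :: v = s
    · subst h
      have : ¬ (a :: v) <:+ v := fun h => by
        have := h.length_le
        simp at this
      simp [this]
    · have : s <:+ a :: v ↔ s <:+ v := by
        rw [List.suffix_cons_iff]
        constructor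
        · rintro (h' | h')
          · exact absurd h'.symm h
          · exact h'
        · exact Or.inr
      simp [h, this]

theorem sum_ite_sq_le {ι : Type*} [DecidableEq ι] (A : Finset ι) (s : ι) :
    ∑ u ∈ A, (if u = s then (1 : ℝ) else 0) ^ 2 ≤ 1 := by
  have : ∀ u ∈ A, (if u = s then (1 : ℝ) else 0) ^ 2 = if u = s then 1 else 0 := by
    intro u _
    split_ifs <;> simp
  rw [Finset.sum_congr rfl this, Finset.sum_ite_eq']
  split_ifs <;> simp

theorem sum_ite_cons_sq_le (A : Finset ℕ) (r s : List ℕ) :
    ∑ n ∈ A, (if n :: r = s then (1 : ℝ) else 0) ^ 2 ≤ 1 := by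
  cases s with
  | nil => simp
  | cons b t =>
    by_cases h : r = t
    · subst h
      simpa using sum_ite_sq_le A b
    · simp [h]

/-- the indicator test of a vertex -/
def indTest (m : PotentialModel) (s : List ℕ) : PotentialTest m :=
  ⟨indFun m s, by
    have hzero : ∀ u, pathPotential (fun _ : List ℕ => (0 : ℝ)) u = 0 := by
      intro u
      induction u with
      | nil => rfl
      | cons a v ih => simp [pathPotential, ih]
    have hpp : ∀ s u : List ℕ, |pathPotential (fun v => if v = s then (1 : ℝ) else 0) u| ≤ 1 := by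
      intro s u
      rw [pathPotential_ite]
      split_ifs <;> simp
    cases m with
    | rootlessSibling =>
      cases s with
      | nil =>
        refine ⟨fun u => ?_, ?_, ?_⟩
        · simp [indFun, hzero]
        · simp [indFun]
        · simp [indFun]
      | cons a v =>
        refine ⟨fun u => hpp (a :: v) u, ?_, ?_⟩
        · simp [indFun]
        · intro r A
          exact sum_ite_cons_sq_le A r (a :: v)
    | rootedSibling =>
      exact ⟨fun u => hpp s u, fun r A => sum_ite_cons_sq_le A r s⟩
    | antichain =>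
      refine ⟨fun u => hpp s u, ?_, fun A _ => sum_ite_sq_le A s⟩
      refine (Set.finite_singleton s).subset ?_
      intro u hu
      by_contra h
      simp only [Set.mem_singleton_iff] at h
      exact hu (by simp [indFun, h])
    | global => exact ⟨fun u => hpp s u, fun A => sum_ite_sq_le A s⟩⟩

theorem indTest_apply_cons (m : PotentialModel) (a : ℕ) (v u : List ℕ) :
    (indTest m (a :: v)).1 u = if u = a :: v then 1 else 0 := by
  cases m <;> rfl

/-! ### Admissible families of finite sets -/

/-- the finite vertex sets whose square sums are controlled in each model -/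
def Adm : PotentialModel → Set (Finset (List ℕ))
  | .rootlessSibling => {A | ∃ r : List ℕ, ∀ u ∈ A, ∃ n, u = n :: r}
  | .rootedSibling => {A | ∃ r : List ℕ, ∀ u ∈ A, ∃ n, u = n :: r}
  | .antichain => {A | IsTreeAntichain A}
  | .global => Set.univ

theorem Adm.mono {m : PotentialModel} {A B : Finset (List ℕ)} (hA : A ∈ Adm m) (hB : B ⊆ A) :
    B ∈ Adm m := by
  cases m with
  | rootlessSibling => obtain ⟨r, hr⟩ := hA; exact ⟨r, fun u hu => hr u (hB hu)⟩
  | rootedSibling => obtain ⟨r, hr⟩ := hA; exact ⟨r, fun u hu => hr u (hB hu)⟩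
  | antichain => exact fun u hu v hv huv => hA u (hB hu) v (hB hv) huv
  | global => trivial

theorem children_of_sib {f : List ℕ → ℝ}
    (h : ∀ (r : List ℕ) (A : Finset ℕ), ∑ n ∈ A, f (n :: r) ^ 2 ≤ 1)
    {A : Finset (List ℕ)} (hA : ∃ r : List ℕ, ∀ u ∈ A, ∃ n, u = n :: r) :
    ∑ u ∈ A, f u ^ 2 ≤ 1 := by
  obtain ⟨r, hr⟩ := hA
  have hh : ∀ u ∈ A, u = (u.headD 0) :: r := by
    intro u hu
    obtain ⟨n, rfl⟩ := hr u hu
    rfl
  have : ∑ u ∈ A, f u ^ 2 = ∑ n ∈ A.image (fun u => u.headD 0), f (n :: r) ^ 2 := by
    rw [Finset.sum_image]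
    · exact Finset.sum_congr rfl fun u hu => by rw [← hh u hu]
    · intro u hu v hv huv
      rw [hh u hu, hh v hv]
      exact congrArg (· :: r) huv
  rw [this]
  exact h r _

theorem adm_sum_le {m : PotentialModel} (f : PotentialTest m) {A : Finset (List ℕ)}
    (hA : A ∈ Adm m) : ∑ u ∈ A, f.1 u ^ 2 ≤ 1 := by
  have h := f.2.2
  cases m with
  | rootlessSibling => exact children_of_sib h.2 hA
  | rootedSibling => exact children_of_sib h hA
  | antichain => exact h.2 A hA
  | global => exact h A

/-- the children of a vertex form an admissible set -/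
theorem adm_children (m : PotentialModel) (r : List ℕ) (A : Finset ℕ) :
    A.image (fun n => n :: r) ∈ Adm m := by
  have h1 : ∃ r' : List ℕ, ∀ u ∈ A.image (fun n => n :: r), ∃ n, u = n :: r' := by
    refine ⟨r, fun u hu => ?_⟩
    obtain ⟨n, -, rfl⟩ := Finset.mem_image.1 hu
    exact ⟨n, rfl⟩
  cases m with
  | rootlessSibling => exact h1
  | rootedSibling => exact h1
  | antichain =>
    intro u hu v hv huv hsuf
    obtain ⟨n, -, rfl⟩ := Finset.mem_image.1 hu
    obtain ⟨k, -, rfl⟩ := Finset.mem_image.1 hv
    exact huv (hsuf.eq_of_length (by simp))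
  | global => trivial

theorem sib_sum_le {m : PotentialModel} (f : PotentialTest m) (r : List ℕ) (A : Finset ℕ) :
    ∑ n ∈ A, f.1 (n :: r) ^ 2 ≤ 1 := by
  have := adm_sum_le f (adm_children m r A)
  rwa [Finset.sum_image (by intro a _ b _ h; simpa using h)] at this

/-! ### Building tests -/

/-- A function with bounded potential, controlled by a test inside `T` and another one outside `T`
is a test. -/
theorem isTest_of {m : PotentialModel} (f g : PotentialTest m) (h : List ℕ → ℝ)
    (T : Finset (List ℕ)) {α β : ℝ} (hαβ : α ^ 2 + 4 * β ^ 2 ≤ 1)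
    (hpot : ∀ s, |pathPotential h s| ≤ 1) (hroot : h [] = α * f.1 [])
    (hT : ∀ s ∈ T, h s = α * f.1 s) (hTc : ∀ s, s ∉ T → |h s| ≤ 2 * β * |g.1 s|) :
    IsTest m h := by
  have hsq : ∀ A ∈ Adm m, ∑ u ∈ A, h u ^ 2 ≤ 1 := by
    intro A hA
    rw [← Finset.sum_filter_add_sum_filter_not A (fun u => u ∈ T)]
    have h1 : ∑ u ∈ A.filter (fun u => u ∈ T), h u ^ 2 ≤ α ^ 2 := by
      calc ∑ u ∈ A.filter (fun u => u ∈ T), h u ^ 2
          = α ^ 2 * ∑ u ∈ A.filter (fun u => u ∈ T), f.1 u ^ 2 := by
            rw [Finset.mul_sum]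
            refine Finset.sum_congr rfl fun u hu => ?_
            rw [hT u (Finset.mem_filter.1 hu).2]; ring
        _ ≤ α ^ 2 * 1 := by
            refine mul_le_mul_of_nonneg_left ?_ (sq_nonneg _)
            exact adm_sum_le f (Adm.mono hA (Finset.filter_subset _ _))
        _ = α ^ 2 := mul_one _
    have h2 : ∑ u ∈ A.filter (fun u => u ∉ T), h u ^ 2 ≤ 4 * β ^ 2 := by
      calc ∑ u ∈ A.filter (fun u => u ∉ T), h u ^ 2
          ≤ ∑ u ∈ A.filter (fun u => u ∉ T), 4 * β ^ 2 * g.1 u ^ 2 := by
            refine Finset.sum_le_sum fun u hu => ?_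
            have := hTc u (Finset.mem_filter.1 hu).2
            calc h u ^ 2 = |h u| ^ 2 := (sq_abs _).symm
              _ ≤ (2 * β * |g.1 u|) ^ 2 := pow_le_pow_left₀ (abs_nonneg _) this 2
              _ = 4 * β ^ 2 * g.1 u ^ 2 := by rw [mul_pow, sq_abs]; ring
        _ = 4 * β ^ 2 * ∑ u ∈ A.filter (fun u => u ∉ T), g.1 u ^ 2 := by rw [Finset.mul_sum]
        _ ≤ 4 * β ^ 2 * 1 := by
            refine mul_le_mul_of_nonneg_left ?_ (by positivity)
            exact adm_sum_le g (Adm.mono hA (Finset.filter_subset _ _))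
        _ = 4 * β ^ 2 := mul_one _
    linarith
  have hsib : ∀ (r : List ℕ) (A : Finset ℕ), ∑ n ∈ A, h (n :: r) ^ 2 ≤ 1 := by
    intro r A
    have := hsq _ (adm_children m r A)
    rwa [Finset.sum_image (by intro a _ b _ h; simpa using h)] at this
  refine ⟨hpot, ?_⟩
  cases m with
  | rootlessSibling =>
    refine ⟨?_, hsib⟩
    rw [hroot, f.2.2.1, mul_zero]
  | rootedSibling => exact hsib
  | antichain =>
    refine ⟨?_, fun A hA => hsq A hA⟩
    refine ((T.finite_toSet).union g.2.2.1).subset ?_
    intro u hu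
    by_cases huT : u ∈ T
    · exact Or.inl huT
    · right
      intro hg
      have h1 := hTc u huT
      have hg' : g.1 u = 0 := hg
      rw [hg', abs_zero, mul_zero] at h1
      exact hu (abs_nonpos_iff.1 h1)
  | global => exact fun A => hsq A (Set.mem_univ _)

/-- the deepest ancestor in `T` (for suffix-closed `T` containing the root) -/
def anc (T : Finset (List ℕ)) : List ℕ → List ℕ
  | [] => []
  | a :: v => if a :: v ∈ T then a :: v else anc T v

/-- the one-sided truncation used to build the two tests -/
noncomputable def kap (u z : ℝ) : ℝ := if 0 ≤ u then min z 0 else max z 0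

/-- the potential of the test adapted to `x + t y` -/
noncomputable def potP (T : Finset (List ℕ)) (α β : ℝ) (F G : List ℕ → ℝ) (s : List ℕ) : ℝ :=
  α * F (anc T s) + 2 * β * kap (F (anc T s)) (G s - G (anc T s))

/-- the potential of the test adapted to `x - t y` -/
noncomputable def potM (T : Finset (List ℕ)) (α β : ℝ) (F G : List ℕ → ℝ) (s : List ℕ) : ℝ :=
  α * F (anc T s) + 2 * β * (kap (F (anc T s)) (G s - G (anc T s)) - (G s - G (anc T s)))

theorem kap_zero (u : ℝ) : kap u 0 = 0 := by unfold kap; split_ifs <;> simp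

theorem kap_lip (u z w : ℝ) : |kap u z - kap u w| ≤ |z - w| := by
  unfold kap
  split_ifs
  · simpa using abs_min_sub_min_le_max z 0 w 0
  · simpa using abs_max_sub_max_le_max z 0 w 0

theorem kap_sub_lip (u z w : ℝ) : |(kap u z - z) - (kap u w - w)| ≤ |z - w| := by
  unfold kap
  split_ifs
  · have h : ∀ x : ℝ, min x 0 - x = - max x 0 := by
      intro x
      rcases le_total x 0 with h | h <;> simp [h]
    rw [h, h]
    have := abs_max_sub_max_le_max w 0 z 0
    rw [abs_sub_comm w z] at this
    have h2 : -max z 0 - -max w 0 = max w 0 - max z 0 := by ring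
    rw [h2]; simpa using this
  · have h : ∀ x : ℝ, max x 0 - x = - min x 0 := by
      intro x
      rcases le_total x 0 with h | h <;> simp [h]
    rw [h, h]
    have := abs_min_sub_min_le_max w 0 z 0
    rw [abs_sub_comm w z] at this
    have h2 : -min z 0 - -min w 0 = min w 0 - min z 0 := by ring
    rw [h2]; simpa using this

theorem pot_bounds {α β u z : ℝ} (hα : 0 ≤ α) (hα1 : α ≤ 1) (hβ : 0 ≤ β) (hβ1 : β ≤ 1 / 4)
    (hu : |u| ≤ 1) (hz : |z| ≤ 2) :
    |α * u + 2 * β * kap u z| ≤ 1 ∧ |α * u + 2 * β * (kap u z - z)| ≤ 1 := by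
  rw [abs_le] at hu hz
  unfold kap
  split_ifs with h
  · have h1 : 0 ≤ α * u := mul_nonneg hα h
    have h2 : α * u ≤ 1 := by nlinarith
    have hm1 : min z 0 ≤ 0 := min_le_right _ _
    have hm2 : -2 ≤ min z 0 := le_min hz.1 (by norm_num)
    have hm3 : min z 0 - z ≤ 0 := by linarith [min_le_left z 0]
    have hm4 : -2 ≤ min z 0 - z := by
      rcases le_total z 0 with h | h
      · rw [min_eq_left h]; linarith
      · rw [min_eq_right h]; linarith [hz.2]
    constructor
    · rw [abs_le]; constructor <;> nlinarith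
    · rw [abs_le]; constructor <;> nlinarith
  · push Not at h
    have h1 : α * u ≤ 0 := mul_nonpos_of_nonneg_of_nonpos hα h.le
    have h2 : -1 ≤ α * u := by nlinarith
    have hm1 : 0 ≤ max z 0 := le_max_right _ _
    have hm2 : max z 0 ≤ 2 := max_le hz.2 (by norm_num)
    have hm3 : 0 ≤ max z 0 - z := by linarith [le_max_left z 0]
    have hm4 : max z 0 - z ≤ 2 := by
      rcases le_total z 0 with h | h
      · rw [max_eq_right h]; linarith [hz.1]
      · rw [max_eq_left h]; linarith
    constructor
    · rw [abs_le]; constructor <;> nlinarith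
    · rw [abs_le]; constructor <;> nlinarith

theorem anc_mem {T : Finset (List ℕ)} {s : List ℕ} (hs : s ∈ T) : anc T s = s := by
  cases s with
  | nil => rfl
  | cons a v => simp [anc, hs]

theorem anc_cons_notMem {T : Finset (List ℕ)} {a : ℕ} {v : List ℕ} (hs : a :: v ∉ T) :
    anc T (a :: v) = anc T v := by
  simp [anc, hs]

section build

variable {m : PotentialModel} (f g : PotentialTest m) (T : Finset (List ℕ))
  (hT0 : ([] : List ℕ) ∈ T) (hTc : ∀ a v, a :: v ∈ T → v ∈ T) {α β : ℝ}
  (hα : 0 ≤ α) (hα1 : α ≤ 1) (hβ : 0 ≤ β) (hβ1 : β ≤ 1 / 4)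

/-- coefficient family for `x + t y` -/
noncomputable def hP (α β : ℝ) : List ℕ → ℝ :=
  incr (potP T α β (pathPotential f.1) (pathPotential g.1))

/-- coefficient family for `x - t y` -/
noncomputable def hM (α β : ℝ) : List ℕ → ℝ :=
  incr (potM T α β (pathPotential f.1) (pathPotential g.1))

include hT0 hTc

theorem hP_mem {s : List ℕ} (hs : s ∈ T) : hP f g T α β s = α * f.1 s := by
  cases s with
  | nil => simp [hP, incr, potP, anc, kap_zero, pathPotential]
  | cons a v =>
    have hv := hTc a v hs
    simp only [hP, incr, potP, anc_mem hs, anc_mem hv, sub_self, kap_zero, pathPotential]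
    ring

theorem hM_mem {s : List ℕ} (hs : s ∈ T) : hM f g T α β s = α * f.1 s := by
  cases s with
  | nil => simp [hM, incr, potM, anc, kap_zero, pathPotential]
  | cons a v =>
    have hv := hTc a v hs
    simp only [hM, incr, potM, anc_mem hs, anc_mem hv, sub_self, kap_zero, pathPotential]
    ring

include hβ

theorem hP_notMem {s : List ℕ} (hs : s ∉ T) : |hP f g T α β s| ≤ 2 * β * |g.1 s| := by
  cases s with
  | nil => exact absurd hT0 hs
  | cons a v =>
    simp only [hP, incr, potP, anc_cons_notMem hs]
    set u := pathPotential f.1 (anc T v)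
    set c := pathPotential g.1 (anc T v)
    have h1 := kap_lip u (pathPotential g.1 (a :: v) - c) (pathPotential g.1 v - c)
    have h2 : (pathPotential g.1 (a :: v) - c) - (pathPotential g.1 v - c) = g.1 (a :: v) := by
      simp [pathPotential]
    rw [h2] at h1
    have h3 : α * u + 2 * β * kap u (pathPotential g.1 (a :: v) - c) -
        (α * u + 2 * β * kap u (pathPotential g.1 v - c)) =
        2 * β * (kap u (pathPotential g.1 (a :: v) - c) - kap u (pathPotential g.1 v - c)) := by
      ring
    rw [h3, abs_mul, abs_of_nonneg (by positivity : (0 : ℝ) ≤ 2 * β)]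
    exact mul_le_mul_of_nonneg_left h1 (by positivity)

theorem hM_notMem {s : List ℕ} (hs : s ∉ T) : |hM f g T α β s| ≤ 2 * β * |g.1 s| := by
  cases s with
  | nil => exact absurd hT0 hs
  | cons a v =>
    simp only [hM, incr, potM, anc_cons_notMem hs]
    set u := pathPotential f.1 (anc T v)
    set c := pathPotential g.1 (anc T v)
    have h1 := kap_sub_lip u (pathPotential g.1 (a :: v) - c) (pathPotential g.1 v - c)
    have h2 : (pathPotential g.1 (a :: v) - c) - (pathPotential g.1 v - c) = g.1 (a :: v) := by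
      simp [pathPotential]
    rw [h2] at h1
    have h3 : α * u + 2 * β * (kap u (pathPotential g.1 (a :: v) - c) -
          (pathPotential g.1 (a :: v) - c)) -
        (α * u + 2 * β * (kap u (pathPotential g.1 v - c) - (pathPotential g.1 v - c))) =
        2 * β * ((kap u (pathPotential g.1 (a :: v) - c) - (pathPotential g.1 (a :: v) - c)) -
          (kap u (pathPotential g.1 v - c) - (pathPotential g.1 v - c))) := by
      ring
    rw [h3, abs_mul, abs_of_nonneg (by positivity : (0 : ℝ) ≤ 2 * β)]
    exact mul_le_mul_of_nonneg_left h1 (by positivity)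

omit hβ in
theorem hP_sub_hM {s : List ℕ} (hs : s ∉ T) :
    hP f g T α β s - hM f g T α β s = 2 * β * g.1 s := by
  cases s with
  | nil => exact absurd hT0 hs
  | cons a v =>
    simp only [hP, hM, incr, potP, potM, anc_cons_notMem hs, pathPotential]
    ring

include hα hα1 hβ1

omit hT0 hTc in
theorem hP_pot (s : List ℕ) : |pathPotential (hP f g T α β) s| ≤ 1 := by
  rw [hP, pathPotential_incr, potP]
  have h1 := f.2.1 (anc T s)
  have h2 := g.2.1 (anc T s)
  have h3 := g.2.1 s
  refine (pot_bounds hα hα1 hβ hβ1 h1 ?_).1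
  rw [abs_le] at *
  constructor <;> linarith [h2.1, h2.2, h3.1, h3.2]

omit hT0 hTc in
theorem hM_pot (s : List ℕ) : |pathPotential (hM f g T α β) s| ≤ 1 := by
  rw [hM, pathPotential_incr, potM]
  have h1 := f.2.1 (anc T s)
  have h2 := g.2.1 (anc T s)
  have h3 := g.2.1 s
  refine (pot_bounds hα hα1 hβ hβ1 h1 ?_).2
  rw [abs_le] at *
  constructor <;> linarith [h2.1, h2.2, h3.1, h3.2]

/-- the two tests -/
noncomputable def tP (hαβ : α ^ 2 + 4 * β ^ 2 ≤ 1) : PotentialTest m :=
  ⟨hP f g T α β, isTest_of f g _ T hαβ (hP_pot f g T hα hα1 hβ hβ1)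
    (hP_mem f g T hT0 hTc hT0) (fun _ hs => hP_mem f g T hT0 hTc hs)
    (fun _ hs => hP_notMem f g T hT0 hTc hβ hs)⟩

/-- the two tests -/
noncomputable def tM (hαβ : α ^ 2 + 4 * β ^ 2 ≤ 1) : PotentialTest m :=
  ⟨hM f g T α β, isTest_of f g _ T hαβ (hM_pot f g T hα hα1 hβ hβ1)
    (hM_mem f g T hT0 hTc hT0) (fun _ hs => hM_mem f g T hT0 hTc hs)
    (fun _ hs => hM_notMem f g T hT0 hTc hβ hs)⟩

end build

theorem ind_mul {m : PotentialModel} (g : PotentialTest m) (s t : List ℕ) :
    g.1 s * (indTest m s).1 t = if t = s then g.1 s else 0 := by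
  cases s with
  | cons a v => rw [indTest_apply_cons]; split_ifs <;> simp
  | nil =>
    cases m with
    | rootlessSibling =>
      have h1 : g.1 [] = 0 := g.2.2.1
      rw [h1]; simp
    | rootedSibling =>
      change g.1 [] * (if t = [] then (1 : ℝ) else 0) = _
      split_ifs <;> simp
    | antichain =>
      change g.1 [] * (if t = [] then (1 : ℝ) else 0) = _
      split_ifs <;> simp
    | global =>
      change g.1 [] * (if t = [] then (1 : ℝ) else 0) = _
      split_ifs <;> simp

/-- Key identity between the two tests. -/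
theorem key_identity {m : PotentialModel} (f g : PotentialTest m) (T : Finset (List ℕ))
    (hT0 : ([] : List ℕ) ∈ T) (hTc : ∀ a v, a :: v ∈ T → v ∈ T) {α β : ℝ}
    (hα : 0 ≤ α) (hα1 : α ≤ 1) (hβ : 0 ≤ β) (hβ1 : β ≤ 1 / 4) (hαβ : α ^ 2 + 4 * β ^ 2 ≤ 1)
    {y : lp (fun _ : PotentialTest m => ℝ) ⊤} (hy : y ∈ modelSpace m)
    (hyT : ∀ s ∈ T, ev m (indTest m s) y = 0) :
    ev m (tP f g T hT0 hTc hα hα1 hβ hβ1 hαβ) y - ev m (tM f g T hT0 hTc hα hα1 hβ hβ1 hαβ) y
      = 2 * β * ev m g y := by
  have h := agree_on_model m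
    (ev m (tP f g T hT0 hTc hα hα1 hβ hβ1 hαβ) - ev m (tM f g T hT0 hTc hα hα1 hβ hβ1 hαβ))
    ((2 * β) • (ev m g - ∑ s ∈ T, g.1 s • ev m (indTest m s))) (fun t => by
      rw [sub_apply, smul_apply, sub_apply, ContinuousLinearMap.sum_apply, ev_coord, ev_coord,
        ev_coord]
      have h1 : ∑ s ∈ T, (g.1 s • ev m (indTest m s)) (coordVector m t)
          = if t ∈ T then g.1 t else 0 := by
        rw [← Finset.sum_ite_eq T t (fun s => g.1 s)]
        refine Finset.sum_congr rfl fun s _ => ?_
        rw [smul_apply, ev_coord, smul_eq_mul]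
        exact ind_mul g s t
      rw [h1, smul_eq_mul]
      by_cases ht : t ∈ T
      · rw [if_pos ht]
        have h2 := hP_mem f g T hT0 hTc (α := α) (β := β) ht
        have h3 := hM_mem f g T hT0 hTc (α := α) (β := β) ht
        change hP f g T α β t - hM f g T α β t = _
        rw [h2, h3]; ring
      · rw [if_neg ht]
        have h2 := hP_sub_hM f g T hT0 hTc (α := α) (β := β) ht
        change hP f g T α β t - hM f g T α β t = _
        rw [h2]; ring) hy
  rw [sub_apply, smul_apply, sub_apply, ContinuousLinearMap.sum_apply] at h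
  have h2 : ∑ s ∈ T, (g.1 s • ev m (indTest m s)) y = 0 :=
    Finset.sum_eq_zero fun s hs => by rw [smul_apply, hyT s hs, smul_zero]
  rw [h, h2, sub_zero, smul_eq_mul]

/-- every vector of the model space is nearly normed by a test -/
theorem exists_test {m : PotentialModel} {x : lp (fun _ : PotentialTest m => ℝ) ⊤}
    (hx : x ∈ modelSpace m) {η : ℝ} (hη : 0 < η) : ∃ f : PotentialTest m, ‖x‖ - η < ev m f x := by
  haveI : Nonempty (PotentialTest m) := ⟨indTest m []⟩
  have h := lp.isLUB_norm x
  have h1 : ∃ c ∈ Set.range (fun i => ‖x i‖), ‖x‖ - η < c := by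
    by_contra hcon
    push Not at hcon
    have := h.2 hcon
    linarith
  obtain ⟨_, ⟨f, rfl⟩, hf⟩ := h1
  rcases le_total 0 (x f) with h0 | h0
  · refine ⟨f, ?_⟩
    rw [ev_apply]
    simpa [Real.norm_eq_abs, abs_of_nonneg h0] using hf
  · refine ⟨negTest f, ?_⟩
    rw [ev_neg f hx, ev_apply]
    simpa [Real.norm_eq_abs, abs_of_nonpos h0] using hf

/-- the suffix closure of a finite set of vertices, with the root -/
def sufClosure (A : Finset (List ℕ)) : Finset (List ℕ) :=
  insert [] (A.biUnion fun s => s.tails.toFinset)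

theorem mem_sufClosure {A : Finset (List ℕ)} {u : List ℕ} :
    u ∈ sufClosure A ↔ u = [] ∨ ∃ s ∈ A, u <:+ s := by
  simp [sufClosure]

/-- finite-codimensional kernel set -/
noncomputable def Fset (m : PotentialModel) (T : Finset (List ℕ)) : Submodule ℝ (modelSpace m) :=
  LinearMap.ker (LinearMap.pi (fun s : T => ((ev m (indTest m s.1)).toLinearMap.comp
    (modelSpace m).subtype)))

theorem mem_Fset {m : PotentialModel} {T : Finset (List ℕ)} {y : modelSpace m} :
    y ∈ Fset m T ↔ ∀ s ∈ T, ev m (indTest m s) (y : lp (fun _ : PotentialTest m => ℝ) ⊤) = 0 := by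
  simp only [Fset, LinearMap.mem_ker]
  constructor
  · intro h s hs
    have := congrFun h ⟨s, hs⟩
    simpa using this
  · intro h
    funext s
    simpa using h s.1 s.2

theorem isCof_Fset (m : PotentialModel) (T : Finset (List ℕ)) :
    (modelBanach m).IsCof (Fset m T : Set (modelSpace m)) := by
  refine ⟨Fset m T, rfl, ?_, ?_⟩
  · have : (Fset m T : Set (modelSpace m)) =
        ⋂ s ∈ T, {y : modelSpace m | ev m (indTest m s) (y : lp (fun _ : PotentialTest m => ℝ) ⊤) = 0} := by
      ext y
      simp only [SetLike.mem_coe, mem_Fset, Set.mem_iInter, Set.mem_ofPred_eq]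
    change IsClosed (Fset m T : Set (modelSpace m))
    rw [this]
    refine isClosed_biInter fun s _ => ?_
    exact isClosed_eq ((ev m (indTest m s)).continuous.comp continuous_subtype_val)
      continuous_const
  · change FiniteDimensional ℝ (modelSpace m ⧸ Fset m T)
    exact LinearEquiv.finiteDimensional (LinearMap.quotKerEquivRange (LinearMap.pi (fun s : T =>
      ((ev m (indTest m s.1)).toLinearMap.comp (modelSpace m).subtype)))).symm

theorem midpoint (m : PotentialModel) (t : ℝ) (ht : 0 < t) (ht1 : t < 1) :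
    (modelBanach m).MidpointModulusGE (modelBanach m).norm t (Real.sqrt (1 + t ^ 2 / 4) - 1) := by
  intro x hx η hη
  change modelSpace m at x
  change ‖x‖ = 1 at hx
  set ε : ℝ := min (η / 8) 1 with hε
  have hεpos : 0 < ε := by positivity
  -- approximate `x` by a finite combination
  have hxcl : (x : lp (fun _ : PotentialTest m => ℝ) ⊤) ∈ closure
      ((Submodule.span ℝ (Set.range (coordVector m)) : Set (lp (fun _ : PotentialTest m => ℝ) ⊤))) := by
    have h1 : (x : lp (fun _ : PotentialTest m => ℝ) ⊤) ∈
      ((Submodule.span ℝ (Set.range (coordVector m))).topologicalClosure :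
        Set (lp (fun _ : PotentialTest m => ℝ) ⊤)) := x.2
    rwa [Submodule.topologicalClosure_coe] at h1
  obtain ⟨x₀, hx₀, hxx₀⟩ := Metric.mem_closure_iff.1 hxcl ε hεpos
  rw [dist_eq_norm] at hxx₀
  obtain ⟨c, hc⟩ := (Finsupp.mem_span_range_iff_exists_finsupp).1 hx₀
  set T := sufClosure c.support with hTdef
  have hT0 : ([] : List ℕ) ∈ T := mem_sufClosure.2 (Or.inl rfl)
  have hTc : ∀ a v, a :: v ∈ T → v ∈ T := by
    intro a v h
    rcases mem_sufClosure.1 h with h | ⟨s, hs, hsuf⟩
    · cases h
    · exact mem_sufClosure.2 (Or.inr ⟨s, hs, (List.suffix_cons a v).trans hsuf⟩)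
  have hsupp : ∀ s ∈ c.support, s ∈ T := fun s hs =>
    mem_sufClosure.2 (Or.inr ⟨s, hs, List.suffix_refl s⟩)
  refine ⟨(Fset m T : Set (modelSpace m)), isCof_Fset m T, ?_⟩
  intro y hy hy1
  change modelSpace m at y
  change ‖y‖ = 1 at hy1
  have hyT := mem_Fset.1 hy
  change Real.sqrt (1 + t ^ 2 / 4) - 1 - η ≤ (‖x + t • y‖ + ‖x - t • y‖) / 2 - 1
  obtain ⟨f, hf⟩ := exists_test x.2 hεpos
  obtain ⟨g, hg⟩ := exists_test y.2 hεpos
  set r := Real.sqrt (1 + t ^ 2 / 4) with hr
  have hr2 : r ^ 2 = 1 + t ^ 2 / 4 := Real.sq_sqrt (by positivity)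
  have hr1 : 1 ≤ r := by
    rw [hr, Real.one_le_sqrt]; nlinarith [sq_nonneg t]
  have hr0 : 0 < r := by linarith
  set α : ℝ := 1 / r with hα'
  set β : ℝ := t / 4 / r with hβ'
  have hα : 0 ≤ α := by positivity
  have hα1 : α ≤ 1 := by rw [hα', div_le_one hr0]; exact hr1
  have hβ : 0 ≤ β := by positivity
  have hβ1 : β ≤ 1 / 4 := by
    rw [hβ', div_le_iff₀ hr0]; nlinarith
  have hαβ : α ^ 2 + 4 * β ^ 2 ≤ 1 := by
    have : α ^ 2 + 4 * β ^ 2 = 1 := by
      rw [hα', hβ']
      field_simp
      nlinarith
    exact this.le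
  set P := tP f g T hT0 hTc hα hα1 hβ hβ1 hαβ with hP'
  set M := tM f g T hT0 hTc hα hα1 hβ hβ1 hαβ with hM'
  have hid := key_identity f g T hT0 hTc hα hα1 hβ hβ1 hαβ y.2 hyT
  rw [← hP', ← hM'] at hid
  -- values at x₀
  have hx0P : ev m P x₀ = α * ev m f x₀ := by
    rw [← hc, Finsupp.sum, map_sum, map_sum, Finset.mul_sum]
    refine Finset.sum_congr rfl fun s hs => ?_
    rw [map_smul, map_smul, ev_coord, ev_coord]
    change c s * hP f g T α β s = α * (c s * f.1 s)
    rw [hP_mem f g T hT0 hTc (hsupp s hs)]; ring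
  have hx0M : ev m M x₀ = α * ev m f x₀ := by
    rw [← hc, Finsupp.sum, map_sum, map_sum, Finset.mul_sum]
    refine Finset.sum_congr rfl fun s hs => ?_
    rw [map_smul, map_smul, ev_coord, ev_coord]
    change c s * hM f g T α β s = α * (c s * f.1 s)
    rw [hM_mem f g T hT0 hTc (hsupp s hs)]; ring
  have hdiff : ∀ h : PotentialTest m, |ev m h x - ev m h x₀| ≤ ε := by
    intro h
    rw [← map_sub]
    have h1 := lp.norm_apply_le_norm (by simp) ((x : lp (fun _ : PotentialTest m => ℝ) ⊤) - x₀) h
    rw [Real.norm_eq_abs] at h1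
    exact h1.trans hxx₀.le
  have e1 := hdiff P
  have e2 := hdiff M
  have e3 := hdiff f
  rw [abs_le] at e1 e2 e3
  -- norms
  have n1 : ev m P x + t * ev m P y ≤ ‖x + t • y‖ := by
    have := ev_le_norm m P ((x + t • y : modelSpace m) : lp (fun _ : PotentialTest m => ℝ) ⊤)
    rw [Submodule.coe_add, Submodule.coe_smul, map_add, map_smul, smul_eq_mul] at this
    exact this
  have n2 : ev m M x - t * ev m M y ≤ ‖x - t • y‖ := by
    have := ev_le_norm m M ((x - t • y : modelSpace m) : lp (fun _ : PotentialTest m => ℝ) ⊤)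
    rw [Submodule.coe_sub, Submodule.coe_smul, map_sub, map_smul, smul_eq_mul] at this
    exact this
  have hf' : 1 - ε < ev m f x := by
    have : ‖(x : lp (fun _ : PotentialTest m => ℝ) ⊤)‖ = 1 := hx
    rw [this] at hf; exact hf
  have hg' : 1 - ε < ev m g y := by
    have : ‖(y : lp (fun _ : PotentialTest m => ℝ) ⊤)‖ = 1 := hy1
    rw [this] at hg; exact hg
  have hεη : 8 * ε ≤ η := by
    have : ε ≤ η / 8 := min_le_left _ _
    linarith
  have hsum : α + β * t = r := by
    rw [hα', hβ']
    field_simp
    nlinarith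
  have k1 : α * (1 - 2 * ε) ≤ α * ev m f x₀ := mul_le_mul_of_nonneg_left (by linarith) hα
  have k2 : t * (2 * β) * (1 - ε) ≤ t * (2 * β) * ev m g y :=
    mul_le_mul_of_nonneg_left hg'.le (by positivity)
  have k3 : t * ev m P y - t * ev m M y = t * (2 * β) * ev m g y := by
    rw [← mul_sub, hid]; ring
  have k4 : α * ε ≤ ε := by nlinarith
  have k5 : t * β * ε ≤ ε := by
    have : t * β ≤ 1 := by nlinarith
    nlinarith
  nlinarith

/-! ### Separability, infinite dimension, no AUC renorming -/

/-- coordinate vectors as elements of the model space -/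
noncomputable def cv (m : PotentialModel) (s : List ℕ) : modelSpace m :=
  ⟨coordVector m s, Submodule.le_topologicalClosure _ (Submodule.subset_span ⟨s, rfl⟩)⟩

theorem separable_infinite (m : PotentialModel) : (modelBanach m).IsSeparableInfiniteDim := by
  constructor
  · change TopologicalSpace.SeparableSpace (modelSpace m)
    have h1 : TopologicalSpace.IsSeparable (Set.range (coordVector m)) :=
      (Set.countable_range _).isSeparable
    have h2 : TopologicalSpace.IsSeparable
        (modelSpace m : Set (lp (fun _ : PotentialTest m => ℝ) ⊤)) := by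
      have h3 := h1.span (R := ℝ)
      have h4 := h3.closure
      have h5 : (modelSpace m : Set (lp (fun _ : PotentialTest m => ℝ) ⊤)) =
        closure (Submodule.span ℝ (Set.range (coordVector m)) :
          Set (lp (fun _ : PotentialTest m => ℝ) ⊤)) :=
        Submodule.topologicalClosure_coe _
      rw [h5]; exact h4
    exact h2.separableSpace
  · change ¬ FiniteDimensional ℝ (modelSpace m)
    intro hfd
    have hli : LinearIndependent ℝ (fun n : ℕ => cv m [n]) := by
      rw [linearIndependent_iff']
      intro A c hc n hn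
      have h1 := congrArg (fun z : modelSpace m =>
        ev m (indTest m [n]) (z : lp (fun _ : PotentialTest m => ℝ) ⊤)) hc
      simp only [Submodule.coe_sum, Submodule.coe_smul, map_sum, map_smul, smul_eq_mul,
        ZeroMemClass.coe_zero, map_zero] at h1
      have h2 : ∀ i ∈ A, c i * ev m (indTest m [n]) (cv m [i] : lp (fun _ : PotentialTest m => ℝ) ⊤)
          = if i = n then c n else 0 := by
        intro i _
        have h3 : ev m (indTest m [n]) (cv m [i] : lp (fun _ : PotentialTest m => ℝ) ⊤)
            = if ([i] : List ℕ) = [n] then 1 else 0 := by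
          change (indTest m [n]).1 [i] = _
          rw [indTest_apply_cons]
        rw [h3]
        by_cases h : i = n
        · simp [h]
        · simp [h]
      rw [Finset.sum_congr rfl h2, Finset.sum_ite_eq' A n] at h1
      simpa [hn] using h1
    have := hli.finite_of_isNoetherian
    exact not_finite ℕ

/-- root path sums -/
noncomputable def pathVec (m : PotentialModel) : List ℕ → modelSpace m
  | [] => cv m []
  | a :: v => pathVec m v + cv m (a :: v)

theorem pathVec_ev (m : PotentialModel) (f : PotentialTest m) (s : List ℕ) :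
    ev m f (pathVec m s : lp (fun _ : PotentialTest m => ℝ) ⊤) = pathPotential f.1 s := by
  induction s with
  | nil => rfl
  | cons a v ih =>
    rw [pathVec, Submodule.coe_add, map_add, ih]; rfl

theorem noAUC (m : PotentialModel) (N : (modelBanach m).X → ℝ)
    (hN : (modelBanach m).IsEquivNorm N) : ¬ (modelBanach m).IsAUC N := by
  refine Crest.Agent.AUCLemma.noAUC_of_tree' (modelBanach m) (pathVec m) (B := 1) (δ := 1)
    one_pos ?_ ?_ ?_ ?_ N hN
  · intro s
    change ‖(pathVec m s : lp (fun _ : PotentialTest m => ℝ) ⊤)‖ ≤ 1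
    refine lp.norm_le_of_forall_le zero_le_one fun f => ?_
    have := f.2.1 s
    rw [Real.norm_eq_abs, ← ev_apply, pathVec_ev]
    exact this
  · refine ⟨[0], ?_⟩
    change 0 < ‖(pathVec m [0] : lp (fun _ : PotentialTest m => ℝ) ⊤)‖
    have h1 := ev_le_norm m (indTest m [0]) (pathVec m [0])
    rw [pathVec_ev] at h1
    have h2 : pathPotential (indTest m [0]).1 [0] = 1 := by
      have h3 : (indTest m [0]).1 = fun u => if u = [0] then (1 : ℝ) else 0 := by
        funext u; rw [indTest_apply_cons]
      rw [h3, pathPotential_ite]; simp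
    rw [h2] at h1
    linarith
  · intro n s
    change 1 ≤ ‖((pathVec m (n :: s) - pathVec m s : modelSpace m) :
      lp (fun _ : PotentialTest m => ℝ) ⊤)‖
    have h0 : pathVec m (n :: s) - pathVec m s = cv m (n :: s) := by
      rw [pathVec]; abel
    rw [h0]
    have h1 := ev_le_norm m (indTest m (n :: s)) (cv m (n :: s))
    have h2 : ev m (indTest m (n :: s)) (cv m (n :: s)) = 1 := by
      change (indTest m (n :: s)).1 (n :: s) = 1
      rw [indTest_apply_cons]; simp
    rw [h2] at h1
    exact h1
  · intro s φ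
    refine Crest.Agent.AUCLemma.tendsto_zero_of_l2 (X := modelSpace m)
      (y := fun n => pathVec m (n :: s) - pathVec m s) (C := 1) ?_ φ
    intro A r
    have h0 : ∀ n, pathVec m (n :: s) - pathVec m s = cv m (n :: s) := by
      intro n
      rw [pathVec]; abel
    simp only [h0]
    change ‖((∑ n ∈ A, r n • cv m (n :: s) : modelSpace m) :
      lp (fun _ : PotentialTest m => ℝ) ⊤)‖ ≤ _
    refine lp.norm_le_of_forall_le (by positivity) fun f => ?_
    rw [Real.norm_eq_abs, ← ev_apply, Submodule.coe_sum, map_sum]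
    have h1 : ∑ n ∈ A, ev m f ((r n • cv m (n :: s) : modelSpace m) :
        lp (fun _ : PotentialTest m => ℝ) ⊤) = ∑ n ∈ A, r n * f.1 (n :: s) := by
      refine Finset.sum_congr rfl fun n _ => ?_
      rw [Submodule.coe_smul, map_smul, smul_eq_mul]; rfl
    rw [h1, one_mul]
    have h2 := Finset.sum_mul_sq_le_sq_mul_sq A r (fun n => f.1 (n :: s))
    have h3 := sib_sum_le f s A
    have h4 : (∑ n ∈ A, r n * f.1 (n :: s)) ^ 2 ≤ ∑ n ∈ A, r n ^ 2 := by
      have h5 : 0 ≤ ∑ n ∈ A, r n ^ 2 := Finset.sum_nonneg fun _ _ => sq_nonneg _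
      nlinarith
    exact Real.abs_le_sqrt h4

/-- For each of the four bounded-potential coordinate models on the countably branching tree (rootless sibling, rooted sibling, antichain, global), the generated space, namely the closure of the span of the coordinate vectors in the supremum norm over the model's tests, is separable and infinite-dimensional, its norm has at every unit centre and every 0 < t < 1 averaged midpoint asymptotic quantity at least √(1 + t²/4) - 1, and no equivalent norm on it is asymptotically uniformly convex. -/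
theorem result
    (m : Crest.AnalysisR.TreePotential.PotentialModel) :
    (Crest.AnalysisR.TreePotential.modelBanach m).IsSeparableInfiniteDim ∧
      (∀ t : ℝ, 0 < t → t < 1 →
        (Crest.AnalysisR.TreePotential.modelBanach m).MidpointModulusGE
          (Crest.AnalysisR.TreePotential.modelBanach m).norm t (Real.sqrt (1 + t ^ 2 / 4) - 1)) ∧
      ∀ N : (Crest.AnalysisR.TreePotential.modelBanach m).X → ℝ,
        (Crest.AnalysisR.TreePotential.modelBanach m).IsEquivNorm N →
          ¬ (Crest.AnalysisR.TreePotential.modelBanach m).IsAUC N :=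
  ⟨separable_infinite m, midpoint m, noAUC m⟩

end Crest.Agent.S0168
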