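import Crest.Statements.S0169
import Crest.Agent.AUCLemma

set_option autoImplicit false
open MeasureTheory ProbabilityTheory
open Crest Crest.AnalysisR

namespace Crest.Agent.S0169

open Crest.AnalysisR.TreeProduct

/-- products along root paths, as a function of the family -/
def PP (w : List ℕ → ℝ) : List ℕ → ℝ
  | [] => 1
  | a :: v => PP w v * w (a :: v)

theorem pathProduct_eq {Ω : Type} (W : List ℕ → Ω → ℝ) (v : List ℕ) (z : Ω) :
    pathProduct W v z = PP (fun u => W u z) v := by
  induction v with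
  | nil => rfl
  | cons a v ih =>
    change pathProduct W v z * W (a :: v) z = _
    rw [PP, ih]

theorem PP_congr {w w' : List ℕ → ℝ} {v : List ℕ} (h : ∀ u, u <:+ v → w u = w' u) :
    PP w v = PP w' v := by
  induction v with
  | nil => rfl
  | cons a v ih =>
    rw [PP, PP, ih (fun u hu => h u (hu.trans (List.suffix_cons a v))),
      h (a :: v) (List.suffix_refl _)]

/-- extension of a finite family -/
noncomputable def ext (S : Finset (List ℕ)) (x : S → ℝ) (u : List ℕ) : ℝ :=
  if h : u ∈ S then x ⟨u, h⟩ else 0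

theorem measurable_ext (S : Finset (List ℕ)) (u : List ℕ) : Measurable (fun x => ext S x u) := by
  unfold ext
  split_ifs with h
  · exact measurable_pi_apply _
  · exact measurable_const

theorem measurable_PP (S : Finset (List ℕ)) (v : List ℕ) :
    Measurable (fun x : S → ℝ => PP (ext S x) v) := by
  induction v with
  | nil => exact measurable_const
  | cons a v ih => exact ih.mul (measurable_ext S _)

section

variable {ν : Measure ℝ} [IsProbabilityMeasure ν] {Ω : Type} [MeasurableSpace Ω]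
  {μ : Measure Ω} [IsProbabilityMeasure μ] {W : List ℕ → Ω → ℝ}

theorem measurable_pp (hW : IsRealization ν μ W) (v : List ℕ) : Measurable (pathProduct W v) := by
  induction v with
  | nil => exact measurable_const
  | cons a v ih => exact ih.mul (hW.1 _)

theorem indep_pp (hW : IsRealization ν μ W) (v : List ℕ) (T : Finset (List ℕ))
    (hT : ∀ u ∈ T, ¬ u <:+ v) :
    IndepFun (pathProduct W v) (fun z (i : T) => W i z) μ := by
  set S := v.tails.toFinset with hS
  have hdisj : Disjoint S T := by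
    rw [Finset.disjoint_left]
    intro u hu hu'
    rw [hS, List.mem_toFinset, List.mem_tails] at hu
    exact hT u hu' hu
  have h := hW.2.1.indepFun_finset S T hdisj hW.1
  have h2 := h.comp (measurable_PP S v) measurable_id
  have h3 : (fun x : S → ℝ => PP (ext S x) v) ∘ (fun z (i : S) => W i z) = pathProduct W v := by
    funext z
    rw [pathProduct_eq]
    refine PP_congr fun u hu => ?_
    have : u ∈ S := by rw [hS, List.mem_toFinset, List.mem_tails]; exact hu
    simp [ext, this]
  rw [h3] at h2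
  exact h2

theorem indep_pp_one (hW : IsRealization ν μ W) (v u : List ℕ) (hu : ¬ u <:+ v) :
    IndepFun (pathProduct W v) (W u) μ := by
  have h := indep_pp hW v {u} (by simpa using hu)
  have h2 := h.comp measurable_id
    (measurable_pi_apply (⟨u, Finset.mem_singleton_self u⟩ : ({u} : Finset (List ℕ))))
  exact h2

theorem ae_pos (hpos : ν (Set.Ioi 0) = 1) : ∀ᵐ x ∂ν, 0 < x := by
  rw [ae_iff]
  have : {x : ℝ | ¬ 0 < x} = (Set.Ioi (0 : ℝ))ᶜ := by ext x; simp
  rw [this, prob_compl_eq_one_sub measurableSet_Ioi, hpos]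
  simp

theorem integrable_id (hm2 : Integrable (fun x : ℝ => x ^ 2) ν) :
    Integrable (fun x : ℝ => x) ν := by
  have : MemLp (fun x : ℝ => x) 2 ν :=
    (memLp_two_iff_integrable_sq measurable_id.aestronglyMeasurable).2 hm2
  exact this.integrable (by norm_num)

theorem integral_W (hW : IsRealization ν μ W) {u : List ℕ} (hu : u ≠ []) (φ : ℝ → ℝ)
    (hφ : Measurable φ) : ∫ z, φ (W u z) ∂μ = ∫ x, φ x ∂ν := by
  rw [← hW.2.2 u hu, integral_map (hW.1 u).aemeasurable]
  rw [hW.2.2 u hu]; exact hφ.aestronglyMeasurable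

theorem integrable_W (hW : IsRealization ν μ W) {u : List ℕ} (hu : u ≠ []) (φ : ℝ → ℝ)
    (hφ : Integrable φ ν) : Integrable (fun z => φ (W u z)) μ := by
  rw [← hW.2.2 u hu] at hφ
  exact hφ.comp_measurable (hW.1 u)

theorem not_suffix_cons (a : ℕ) (v : List ℕ) : ¬ (a :: v) <:+ v := fun h => by
  have := h.length_le
  simp at this

theorem pp_integrable (hW : IsRealization ν μ W) (hpos : ν (Set.Ioi 0) = 1)
    (hmean : ∫ x, x ∂ν = 1) (hm2 : Integrable (fun x : ℝ => x ^ 2) ν) (v : List ℕ) :
    Integrable (pathProduct W v) μ ∧ ∫ z, |pathProduct W v z| ∂μ = 1 := by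
  induction v with
  | nil =>
    constructor
    · exact integrable_const _
    · simp [pathProduct]
  | cons a v ih =>
    have hu : (a :: v) ≠ [] := by simp
    have hind := indep_pp_one hW v (a :: v) (not_suffix_cons a v)
    have hWint : Integrable (W (a :: v)) μ := integrable_W hW hu (fun x => x) (integrable_id hm2)
    constructor
    · exact hind.integrable_mul ih.1 hWint
    · have h1 : ∀ z, |pathProduct W (a :: v) z| = |pathProduct W v z| * |W (a :: v) z| := by
        intro z; rw [pathProduct, abs_mul]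
      simp_rw [h1]
      have hind2 : IndepFun (fun z => |pathProduct W v z|) (fun z => |W (a :: v) z|) μ :=
        hind.comp (φ := fun x => |x|) (ψ := fun x => |x|) (by fun_prop) (by fun_prop)
      rw [hind2.integral_fun_mul_eq_mul_integral
        (measurable_pp hW v).norm.aestronglyMeasurable (hW.1 _).norm.aestronglyMeasurable]
      have h2 : ∫ z, |W (a :: v) z| ∂μ = 1 := by
        rw [integral_W hW hu (fun x => |x|) (by fun_prop)]
        rw [← hmean]
        refine integral_congr_ae ?_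
        filter_upwards [ae_pos hpos] with x hx
        exact abs_of_pos hx
      rw [h2, ih.2, mul_one]

/-- the mean absolute deviation of the multiplier -/
noncomputable def dev (ν : Measure ℝ) : ℝ := ∫ x, |x - 1| ∂ν

theorem dev_pos (hnc : ∀ c : ℝ, ν ≠ Measure.dirac c)
    (hm2 : Integrable (fun x : ℝ => x ^ 2) ν) : 0 < dev ν := by
  have h0 : 0 ≤ dev ν := integral_nonneg fun x => abs_nonneg _
  rcases h0.eq_or_lt with h | h
  · exfalso
    have hint : Integrable (fun x : ℝ => |x - 1|) ν :=
      ((integrable_id hm2).sub (integrable_const 1)).abs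
    have h1 := (integral_eq_zero_iff_of_nonneg (fun x => abs_nonneg (x - 1)) hint).1 h.symm
    have h2 : (fun x : ℝ => x) =ᵐ[ν] fun _ => (1 : ℝ) := by
      filter_upwards [h1] with x hx
      have : |x - 1| = 0 := hx
      have := abs_eq_zero.1 this
      linarith
    apply hnc 1
    have h3 : ν.map (fun x : ℝ => x) = ν.map (fun _ => (1 : ℝ)) := Measure.map_congr h2
    rw [Measure.map_id', Measure.map_const] at h3
    simpa using h3
  · exact h

theorem integral_diff (hW : IsRealization ν μ W) (hpos : ν (Set.Ioi 0) = 1)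
    (hmean : ∫ x, x ∂ν = 1) (hm2 : Integrable (fun x : ℝ => x ^ 2) ν) (a : ℕ) (v : List ℕ) :
    ∫ z, |pathProduct W (a :: v) z - pathProduct W v z| ∂μ = dev ν := by
  have hu : (a :: v) ≠ [] := by simp
  have hind := indep_pp_one hW v (a :: v) (not_suffix_cons a v)
  have h1 : ∀ z, |pathProduct W (a :: v) z - pathProduct W v z| =
      |pathProduct W v z| * |W (a :: v) z - 1| := by
    intro z
    rw [← abs_mul, mul_sub, mul_one]; rfl
  simp_rw [h1]
  have hind2 : IndepFun (fun z => |pathProduct W v z|) (fun z => |W (a :: v) z - 1|) μ :=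
    hind.comp (φ := fun x => |x|) (ψ := fun x => |x - 1|) (by fun_prop) (by fun_prop)
  rw [hind2.integral_fun_mul_eq_mul_integral
    (measurable_pp hW v).norm.aestronglyMeasurable
    ((hW.1 _).sub_const 1).norm.aestronglyMeasurable]
  have h2 : ∫ z, |W (a :: v) z - 1| ∂μ = dev ν :=
    integral_W hW hu (fun x => |x - 1|) (by fun_prop)
  rw [h2, (pp_integrable hW hpos hmean hm2 v).2, one_mul]

theorem memLp_W (hW : IsRealization ν μ W) (hm2 : Integrable (fun x : ℝ => x ^ 2) ν)
    {u : List ℕ} (hu : u ≠ []) : MemLp (fun z => W u z - 1) 2 μ := by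
  have h1 : MemLp (W u) 2 μ :=
    (memLp_two_iff_integrable_sq (hW.1 u).aestronglyMeasurable).2
      (integrable_W hW hu (fun x => x ^ 2) hm2)
  exact h1.sub (memLp_const 1)

theorem integral_abs_le_sqrt {Y : Ω → ℝ} (hY : MemLp Y 2 μ) :
    ∫ z, |Y z| ∂μ ≤ Real.sqrt (∫ z, Y z ^ 2 ∂μ) := by
  have h1 : MemLp (fun z => |Y z|) 2 μ := hY.abs
  have h2 := variance_nonneg (fun z => |Y z|) μ
  rw [variance_eq_sub h1] at h2
  apply Real.le_sqrt_of_sq_le
  have h3 : μ[(fun z => |Y z|) ^ 2] = ∫ z, Y z ^ 2 ∂μ := by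
    refine integral_congr_ae (Filter.Eventually.of_forall fun z => ?_)
    simp [sq_abs]
  rw [h3] at h2
  linarith

theorem l2_est (hW : IsRealization ν μ W) (hmean : ∫ x, x ∂ν = 1)
    (hm2 : Integrable (fun x : ℝ => x ^ 2) ν) (v : List ℕ) (A : Finset ℕ) (r : ℕ → ℝ) :
    ∫ z, |∑ n ∈ A, r n * (W (n :: v) z - 1)| ∂μ ≤
      Real.sqrt (∫ x, (x - 1) ^ 2 ∂ν) * Real.sqrt (∑ n ∈ A, r n ^ 2) := by
  set Y : ℕ → Ω → ℝ := fun n z => r n * (W (n :: v) z - 1) with hYdef
  have hYm : ∀ n, MemLp (Y n) 2 μ := fun n => (memLp_W hW hm2 (by simp)).const_mul (r n)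
  have hY0 : ∀ n, ∫ z, Y n z ∂μ = 0 := by
    intro n
    rw [hYdef]
    simp only
    rw [integral_const_mul, integral_W hW (by simp : (n :: v) ≠ []) (fun x => x - 1) (by fun_prop),
      integral_sub (integrable_id hm2) (integrable_const 1), hmean]
    simp
  have hYi : Set.Pairwise (A : Set ℕ) fun i j => IndepFun (Y i) (Y j) μ := by
    intro i _ j _ hij
    have h1 : IndepFun (W (i :: v)) (W (j :: v)) μ := hW.2.1.indepFun (by simpa using hij)
    exact h1.comp (φ := fun x => r i * (x - 1)) (ψ := fun x => r j * (x - 1))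
      (by fun_prop) (by fun_prop)
  have hvar := IndepFun.variance_sum (X := Y) (s := A) (fun i _ => hYm i) hYi
  have hsum : MemLp (fun z => ∑ n ∈ A, Y n z) 2 μ := memLp_finset_sum A fun n _ => hYm n
  have hS0 : ∫ z, ∑ n ∈ A, Y n z ∂μ = 0 := by
    rw [integral_finset_sum A fun n _ => (hYm n).integrable (by norm_num)]
    simp [hY0]
  have h1 : Var[∑ n ∈ A, Y n; μ] = ∫ z, (∑ n ∈ A, Y n z) ^ 2 ∂μ := by
    have h2 : (∑ n ∈ A, Y n) = fun z => ∑ n ∈ A, Y n z := by
      funext z; simp
    rw [h2, variance_eq_sub hsum, hS0]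
    simp
  have h3 : ∀ n, Var[Y n; μ] = r n ^ 2 * ∫ x, (x - 1) ^ 2 ∂ν := by
    intro n
    rw [variance_eq_sub (hYm n), hY0 n]
    have h4 : μ[Y n ^ 2] = ∫ z, r n ^ 2 * (W (n :: v) z - 1) ^ 2 ∂μ := by
      refine integral_congr_ae (Filter.Eventually.of_forall fun z => ?_)
      simp [hYdef, mul_pow]
    rw [h4, integral_const_mul,
      integral_W hW (by simp : (n :: v) ≠ []) (fun x => (x - 1) ^ 2) (by fun_prop)]
    ring
  have h5 : ∫ z, (∑ n ∈ A, Y n z) ^ 2 ∂μ = (∫ x, (x - 1) ^ 2 ∂ν) * ∑ n ∈ A, r n ^ 2 := by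
    rw [← h1, hvar, Finset.mul_sum]
    refine Finset.sum_congr rfl fun n _ => ?_
    rw [h3]; ring
  refine (integral_abs_le_sqrt hsum).trans ?_
  rw [h5, Real.sqrt_mul (integral_nonneg fun x => sq_nonneg _)]

/-- the class of a path product -/
noncomputable def pv (hW : IsRealization ν μ W) (hpos : ν (Set.Ioi 0) = 1)
    (hmean : ∫ x, x ∂ν = 1) (hm2 : Integrable (fun x : ℝ => x ^ 2) ν) (v : List ℕ) :
    productSpan μ W :=
  ⟨(pp_integrable hW hpos hmean hm2 v).1.toL1 _,
    Submodule.le_topologicalClosure _ (Submodule.subset_span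
      ⟨v, (pp_integrable hW hpos hmean hm2 v).1.coeFn_toL1⟩)⟩

theorem norm_pv (hW : IsRealization ν μ W) (hpos : ν (Set.Ioi 0) = 1)
    (hmean : ∫ x, x ∂ν = 1) (hm2 : Integrable (fun x : ℝ => x ^ 2) ν) (v : List ℕ) :
    ‖pv hW hpos hmean hm2 v‖ = 1 := by
  change ‖(pp_integrable hW hpos hmean hm2 v).1.toL1 _‖ = 1
  rw [L1.norm_of_fun_eq_integral_norm]
  exact (pp_integrable hW hpos hmean hm2 v).2

theorem norm_diff (hW : IsRealization ν μ W) (hpos : ν (Set.Ioi 0) = 1)
    (hmean : ∫ x, x ∂ν = 1) (hm2 : Integrable (fun x : ℝ => x ^ 2) ν) (n : ℕ) (v : List ℕ) :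
    ‖pv hW hpos hmean hm2 (n :: v) - pv hW hpos hmean hm2 v‖ = dev ν := by
  change ‖(pp_integrable hW hpos hmean hm2 (n :: v)).1.toL1 _ -
    (pp_integrable hW hpos hmean hm2 v).1.toL1 _‖ = _
  rw [← Integrable.toL1_sub, L1.norm_of_fun_eq_integral_norm]
  exact integral_diff hW hpos hmean hm2 n v

theorem norm_comb (hW : IsRealization ν μ W) (hpos : ν (Set.Ioi 0) = 1)
    (hmean : ∫ x, x ∂ν = 1) (hm2 : Integrable (fun x : ℝ => x ^ 2) ν) (v : List ℕ)
    (A : Finset ℕ) (r : ℕ → ℝ) :
    ‖∑ n ∈ A, r n • (pv hW hpos hmean hm2 (n :: v) - pv hW hpos hmean hm2 v)‖ ≤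
      Real.sqrt (∫ x, (x - 1) ^ 2 ∂ν) * Real.sqrt (∑ n ∈ A, r n ^ 2) := by
  set X : Ω → ℝ := fun z => pathProduct W v z * ∑ n ∈ A, r n * (W (n :: v) z - 1) with hX
  have hcoe : ((∑ n ∈ A, r n • (pv hW hpos hmean hm2 (n :: v) - pv hW hpos hmean hm2 v) :
      productSpan μ W) : Lp ℝ 1 μ) = ∑ n ∈ A, r n • ((pp_integrable hW hpos hmean hm2 (n :: v)).1.toL1 _ -
    (pp_integrable hW hpos hmean hm2 v).1.toL1 _) := by
    rw [Submodule.coe_sum]
    rfl
  change ‖((∑ n ∈ A, r n • (pv hW hpos hmean hm2 (n :: v) - pv hW hpos hmean hm2 v) :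
      productSpan μ W) : Lp ℝ 1 μ)‖ ≤ _
  rw [L1.norm_eq_integral_norm]
  have hind0 : ∀ B : Finset ℕ, ((∑ n ∈ B, r n • ((pp_integrable hW hpos hmean hm2 (n :: v)).1.toL1 _ -
      (pp_integrable hW hpos hmean hm2 v).1.toL1 _) : Lp ℝ 1 μ) : Ω → ℝ) =ᵐ[μ]
      fun z => ∑ n ∈ B, r n * (pathProduct W (n :: v) z - pathProduct W v z) := by
    intro B
    induction B using Finset.induction_on with
    | empty =>
      simp only [Finset.sum_empty]
      exact Lp.coeFn_zero _ _ _
    | insert n B hn ih =>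
      rw [Finset.sum_insert hn]
      have h1 := Lp.coeFn_add (r n • ((pp_integrable hW hpos hmean hm2 (n :: v)).1.toL1 _ -
        (pp_integrable hW hpos hmean hm2 v).1.toL1 _))
        (∑ n ∈ B, r n • ((pp_integrable hW hpos hmean hm2 (n :: v)).1.toL1 _ -
        (pp_integrable hW hpos hmean hm2 v).1.toL1 _))
      have h2 := Lp.coeFn_smul (r n) ((pp_integrable hW hpos hmean hm2 (n :: v)).1.toL1 _ -
        (pp_integrable hW hpos hmean hm2 v).1.toL1 _)
      have h3 := Lp.coeFn_sub ((pp_integrable hW hpos hmean hm2 (n :: v)).1.toL1 _)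
        ((pp_integrable hW hpos hmean hm2 v).1.toL1 _)
      have h4 := (pp_integrable hW hpos hmean hm2 (n :: v)).1.coeFn_toL1
      have h5 := (pp_integrable hW hpos hmean hm2 v).1.coeFn_toL1
      filter_upwards [h1, h2, h3, h4, h5, ih] with z h1 h2 h3 h4 h5 ih
      rw [h1, Pi.add_apply, ih, h2, Pi.smul_apply, h3, Pi.sub_apply, h4, h5,
        Finset.sum_insert hn, smul_eq_mul]
  have hae : (fun z => ‖((∑ n ∈ A, r n • (pv hW hpos hmean hm2 (n :: v) -
      pv hW hpos hmean hm2 v) : productSpan μ W) : Lp ℝ 1 μ) z‖) =ᵐ[μ] fun z => |X z| := by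
    rw [hcoe]
    filter_upwards [hind0 A] with z hz
    rw [hz, Real.norm_eq_abs, hX]
    congr 1
    simp only
    rw [Finset.mul_sum]
    refine Finset.sum_congr rfl fun n _ => ?_
    change r n * (pathProduct W v z * W (n :: v) z - pathProduct W v z) = _
    ring
  rw [integral_congr_ae hae]
  have hind : IndepFun (pathProduct W v) (fun z => ∑ n ∈ A, r n * (W (n :: v) z - 1)) μ := by
    have h1 := indep_pp hW v (A.image fun n => n :: v) (by
      intro u hu
      obtain ⟨n, -, rfl⟩ := Finset.mem_image.1 hu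
      exact not_suffix_cons n v)
    set T := A.image fun n => n :: v with hT
    have h2 := h1.comp (φ := fun x => x)
      (ψ := fun x : T → ℝ => ∑ n ∈ A, r n * (ext T x (n :: v) - 1)) (by fun_prop) (by
        refine Finset.measurable_sum _ fun n _ => ?_
        exact ((measurable_ext T (n :: v)).sub_const 1).const_mul _)
    have h3 : (fun x : T → ℝ => ∑ n ∈ A, r n * (ext T x (n :: v) - 1)) ∘
        (fun z (i : T) => W i z) = fun z => ∑ n ∈ A, r n * (W (n :: v) z - 1) := by
      funext z
      refine Finset.sum_congr rfl fun n hn => ?_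
      have : n :: v ∈ T := Finset.mem_image_of_mem _ hn
      simp [ext, this]
    rw [h3] at h2
    exact h2
  have hmeas : Measurable (fun z => ∑ n ∈ A, r n * (W (n :: v) z - 1)) :=
    Finset.measurable_sum _ fun n _ => ((hW.1 _).sub_const 1).const_mul _
  have h4 : ∫ z, |X z| ∂μ = ∫ z, |∑ n ∈ A, r n * (W (n :: v) z - 1)| ∂μ := by
    have hind2 : IndepFun (fun z => |pathProduct W v z|)
        (fun z => |∑ n ∈ A, r n * (W (n :: v) z - 1)|) μ :=
      hind.comp (φ := fun x => |x|) (ψ := fun x => |x|) (by fun_prop) (by fun_prop)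
    simp_rw [hX, abs_mul]
    rw [hind2.integral_fun_mul_eq_mul_integral
      (measurable_pp hW v).norm.aestronglyMeasurable hmeas.norm.aestronglyMeasurable,
      (pp_integrable hW hpos hmean hm2 v).2, one_mul]
  rw [h4]
  exact l2_est hW hmean hm2 v A r

end

/-- Let ν be a Borel probability law on ℝ carried by (0,∞), not a point mass, with mean 1 and finite second moment, and W an independent family of real random variables on a probability space indexed by the vertices of the countably branching tree (finite lists of naturals; root [], parent of a :: v is v), each non-root one with law ν. Then the closed linear span in L¹ of the path products ∏_{root ≺ u ≼ v} W_u is infinite-dimensional and has no equivalent asymptotically uniformly convex norm. -/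
theorem result (ν : Measure ℝ) [IsProbabilityMeasure ν] (hpos : ν (Set.Ioi 0) = 1)
    (hnc : ∀ c : ℝ, ν ≠ Measure.dirac c) (hmean : ∫ x, x ∂ν = 1)
    (hm2 : Integrable (fun x : ℝ => x ^ 2) ν)
    (Ω : Type) [MeasurableSpace Ω] (μ : Measure Ω) [IsProbabilityMeasure μ]
    (W : List ℕ → Ω → ℝ) (hW : Crest.AnalysisR.TreeProduct.IsRealization ν μ W) :
    ¬ FiniteDimensional ℝ (Crest.AnalysisR.TreeProduct.productSpan μ W) ∧
      ∀ N : (Crest.AnalysisR.TreeProduct.spanBanach μ W).X → ℝ,
        (Crest.AnalysisR.TreeProduct.spanBanach μ W).IsEquivNorm N →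
          ¬ (Crest.AnalysisR.TreeProduct.spanBanach μ W).IsAUC N := by
  have hδ := dev_pos hnc hm2
  have hweak : ∀ (s : List ℕ) (φ : productSpan μ W →L[ℝ] ℝ),
      Filter.Tendsto (fun n => φ (pv hW hpos hmean hm2 (n :: s) - pv hW hpos hmean hm2 s))
        Filter.atTop (nhds 0) := fun s φ =>
    Crest.Agent.AUCLemma.tendsto_zero_of_l2 (norm_comb hW hpos hmean hm2 s) φ
  constructor
  · intro hfd
    have hcof : Crest.Agent.AUCLemma.Cof ({0} : Set (productSpan μ W)) := by
      refine ⟨⊥, by simp, isClosed_singleton, ?_⟩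
      infer_instance
    obtain ⟨n₀, hn₀⟩ := Crest.Agent.AUCLemma.exists_near_of_weakNull (hweak []) hcof hδ
    obtain ⟨z, hz, hz'⟩ := hn₀ n₀ le_rfl
    rw [Set.mem_singleton_iff] at hz
    rw [hz, sub_zero, norm_diff] at hz'
    exact lt_irrefl _ hz'
  · intro N hN
    refine Crest.Agent.AUCLemma.noAUC_of_tree' (spanBanach μ W) (pv hW hpos hmean hm2)
      (B := 1) hδ ?_ ?_ ?_ ?_ N hN
    · intro s
      exact (norm_pv hW hpos hmean hm2 s).le
    · refine ⟨[], ?_⟩
      have := norm_pv hW hpos hmean hm2 []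
      change 0 < ‖pv hW hpos hmean hm2 []‖
      rw [this]; exact one_pos
    · intro n s
      exact (norm_diff hW hpos hmean hm2 n s).ge
    · exact hweak

end Crest.Agent.S0169
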