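import Crest.Statements.S0175
import Crest.Agent.OTLibN

set_option autoImplicit false
open MeasureTheory
open scoped ENNReal ContDiff
open Crest.AnalysisR.OT
open Crest Crest.AnalysisR Crest.AnalysisR.OT

namespace Crest.Agent.OTLib

open Set Filter Topology

variable {d : ℕ}

local notation "𝔼" => EuclideanSpace ℝ (Fin d)

theorem half_real (b p1 p2 p3 p4 : ℝ) (hb : 0 ≤ b) (h1 : 0 ≤ p1) (h2 : 0 ≤ p2) (h3 : 0 ≤ p3)
    (h4 : 0 ≤ p4)
    (e1 : b * p1 = 0) (e2 : b * p2 = 0) (e3 : b * p3 = 0) (e4 : b * p4 = 0)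
    (e5 : p1 * p2 = 0) (e6 : p1 * p3 = 0) (e7 : p1 * p4 = 0) (e8 : p2 * p3 = 0) (e9 : p2 * p4 = 0)
    (e10 : p3 * p4 = 0) :
    ENNReal.ofReal ((b + Real.sqrt (1 / 2) * (p1 + p2 + (p3 + p4))) ^ 2) =
      ENNReal.ofReal (b ^ 2) + 2⁻¹ * (ENNReal.ofReal (p1 ^ 2) + ENNReal.ofReal (p2 ^ 2) +
        (ENNReal.ofReal (p3 ^ 2) + ENNReal.ofReal (p4 ^ 2))) := by
  have hsq : Real.sqrt (1 / 2) ^ 2 = 1 / 2 := Real.sq_sqrt (by norm_num)
  have hexp : (b + Real.sqrt (1 / 2) * (p1 + p2 + (p3 + p4))) ^ 2 =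
      b ^ 2 + (1 / 2) * (p1 ^ 2 + p2 ^ 2 + (p3 ^ 2 + p4 ^ 2)) := by
    have : (b + Real.sqrt (1 / 2) * (p1 + p2 + (p3 + p4))) ^ 2 = b ^ 2 +
      2 * Real.sqrt (1 / 2) * (b * p1 + b * p2 + b * p3 + b * p4) + Real.sqrt (1 / 2) ^ 2 *
        (p1 ^ 2 + p2 ^ 2 + (p3 ^ 2 + p4 ^ 2) + 2 * (p1 * p2 + p1 * p3 + p1 * p4 + p2 * p3 + p2 * p4 +
          p3 * p4)) := by ring
    rw [this, hsq, e1, e2, e3, e4, e5, e6, e7, e8, e9, e10]
    ring
  rw [hexp, ENNReal.ofReal_add (by positivity) (by positivity), ENNReal.ofReal_mul (by norm_num),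
    ENNReal.ofReal_add (by positivity) (by positivity), ENNReal.ofReal_add (by positivity) (by positivity),
    ENNReal.ofReal_add (by positivity) (by positivity)]
  congr 2
  rw [one_div, ENNReal.ofReal_inv_of_pos (by norm_num)]
  norm_num

theorem main_thm (s : ℝ) (hs : 0 < s) (hd : 2 ≤ d) :
    ∃ ρ : 𝔼 → ℝ, (∀ x, 0 ≤ ρ x) ∧ ContDiff ℝ ∞ ρ ∧ HasCompactSupport ρ ∧
      ContDiff ℝ ∞ (fun x => Real.sqrt (ρ x)) ∧ ∫ x, ρ x = 1 ∧
      ∃ π₀ : Measure (𝔼 × 𝔼 × 𝔼),
        IsCoupling₃ (measOfDensity ρ) π₀ ∧ ∫⁻ p, tripleCost s p ∂π₀ < ⊤ ∧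
        (∀ π : Measure (𝔼 × 𝔼 × 𝔼), IsCoupling₃ (measOfDensity ρ) π →
          ∫⁻ p, tripleCost s p ∂π₀ ≤ ∫⁻ p, tripleCost s p ∂π) ∧
        (∀ T₂ T₃ : 𝔼 → 𝔼, Measurable T₂ → Measurable T₃ →
          (measOfDensity ρ).map T₂ = measOfDensity ρ → (measOfDensity ρ).map T₃ = measOfDensity ρ →
          ∫⁻ p, tripleCost s p ∂π₀ < ∫⁻ x, tripleCost s (x, T₂ x, T₃ x) ∂(measOfDensity ρ)) ∧
        (∀ ε : ℝ≥0∞, 0 < ε → ∃ T₂ T₃ : 𝔼 → 𝔼, Measurable T₂ ∧ Measurable T₃ ∧
          (measOfDensity ρ).map T₂ = measOfDensity ρ ∧ (measOfDensity ρ).map T₃ = measOfDensity ρ ∧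
          ∫⁻ x, tripleCost s (x, T₂ x, T₃ x) ∂(measOfDensity ρ) < ∫⁻ p, tripleCost s p ∂π₀ + ε) := by
  obtain ⟨T, S, Φ, r, hr, hr4, hT1, hT2, hS1, hS2, hTs, hSs, hTb, hSb, hΦc, hRel, hEqn⟩ :=
    exists_data s hs hd
  set K := Metric.closedBall (0 : 𝔼) r with hKdef
  have hKc : IsCompact K := isCompact_closedBall _ _
  have hKm : MeasurableSet K := hKc.isClosed.measurableSet
  obtain ⟨b, hb1, hb2, hb3, hb4, hb5⟩ := exists_bump (d := d) r hr
  have hTc : ∀ f, ContinuousOn (T f) K := fun f => (T f).continuousOn.mono (hTs f)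
  have hSc : ∀ f, ContinuousOn (S f) K := fun f => (S f).continuousOn.mono (hSs f)
  let μ0 : Measure 𝔼 := volume.withDensity fun x => ENNReal.ofReal (b x ^ 2)
  have hbm : Measurable (fun x => ENNReal.ofReal (b x ^ 2)) :=
    ((hb1.continuous.pow 2).measurable).ennreal_ofReal
  have hμ0univ : μ0 univ = ENNReal.ofReal (1 / 3) := by
    rw [← hb5]
    simp only [μ0, withDensity_apply _ MeasurableSet.univ, Measure.restrict_univ]
  have hfin : IsFiniteMeasure μ0 := ⟨by rw [hμ0univ]; exact ENNReal.ofReal_lt_top⟩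
  have hnt : Nontrivial 𝔼 := ⟨0, bv (ax hd true), (bv_ne_zero _).symm⟩
  have hatom : NullSingletonClass μ0 := ⟨fun x =>
    (withDensity_absolutelyContinuous _ _) (measure_singleton x)⟩
  -- maps
  let Tm : Bool → 𝔼 → 𝔼 := fun f => mv K (T f)
  let Sm : Bool → 𝔼 → 𝔼 := fun f => mv K (S f)
  let Ti : Bool → 𝔼 → 𝔼 := fun f => mv (T f).target (T f).symm
  let Si : Bool → 𝔼 → 𝔼 := fun f => mv (S f).target (S f).symm
  have hTm : ∀ f, Measurable (Tm f) := fun f => meas_mv K hKm _ (hTc f)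
  have hSm : ∀ f, Measurable (Sm f) := fun f => meas_mv K hKm _ (hSc f)
  have hTi : ∀ f, Measurable (Ti f) := fun f =>
    meas_mv _ (T f).open_target.measurableSet _ (T f).continuousOn_symm
  have hSi : ∀ f, Measurable (Si f) := fun f =>
    meas_mv _ (S f).open_target.measurableSet _ (S f).continuousOn_symm
  have hTmK : ∀ f, ∀ x ∈ K, Tm f x = T f x := fun f x hx => mv_eq K _ x hx
  have hSmK : ∀ f, ∀ x ∈ K, Sm f x = S f x := fun f x hx => mv_eq K _ x hx
  have hTiT : ∀ f, ∀ x ∈ K, Ti f (T f x) = x := by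
    intro f x hx
    have hx' := hTs f hx
    show mv (T f).target (T f).symm (T f x) = x
    rw [mv_eq _ _ _ ((T f).map_source hx'), (T f).left_inv hx']
  have hSiS : ∀ f, ∀ x ∈ K, Si f (S f x) = x := by
    intro f x hx
    have hx' := hSs f hx
    show mv (S f).target (S f).symm (S f x) = x
    rw [mv_eq _ _ _ ((S f).map_source hx'), (S f).left_inv hx']
  let τ := tau (fun f => (T f : 𝔼 → 𝔼)) (fun f => (S f : 𝔼 → 𝔼))
  let τm : Option (Bool × Bool) → 𝔼 → 𝔼 := tau Tm Sm
  let sg : Option (Bool × Bool) → 𝔼 → 𝔼 := tau Ti Si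
  have hτm : ∀ j, ∀ x ∈ K, τm j x = τ j x := by
    intro j x hx
    rcases j with _ | ⟨f, b⟩
    · rfl
    · cases b
      · exact hSmK f x hx
      · exact hTmK f x hx
  have hτmm : ∀ j, Measurable (τm j) := by
    intro j
    rcases j with _ | ⟨f, b⟩
    · exact measurable_id
    · cases b
      · exact hSm f
      · exact hTm f
  have hsgm : ∀ j, Measurable (sg j) := by
    intro j
    rcases j with _ | ⟨f, b⟩
    · exact measurable_id
    · cases b
      · exact hSi f
      · exact hTi f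
  have hsg : ∀ j, ∀ x ∈ K, sg j (τ j x) = x := by
    intro j x hx
    rcases j with _ | ⟨f, b⟩
    · rfl
    · cases b
      · exact hSiS f x hx
      · exact hTiT f x hx
  have hτX : ∀ j, ∀ x ∈ K, τ j x ∈ Xc hd j := by
    intro j x hx
    rcases j with _ | ⟨f, b⟩
    · show x ∈ Metric.ball 0 (1 / 4)
      exact Metric.closedBall_subset_ball hr4 hx
    · cases b
      · exact hSb f x hx
      · exact hTb f x hx
  -- potential
  let φ : 𝔼 → ℝ := fun y => ∑ j, (Xc hd j).indicator (fun y => mr K (Φ j) (sg j y)) y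
  have hφm : Measurable φ := by
    apply Finset.measurable_sum
    intro j _
    exact ((meas_mr K hKm _ (hΦc j)).comp (hsgm j)).indicator measurableSet_ball
  choose Mj hMj using fun j => bdd_mr K hKc (Φ j) (hΦc j)
  have hφval : ∀ j, ∀ x ∈ K, φ (τ j x) = Φ j x := by
    intro j x hx
    show ∑ i, (Xc hd i).indicator (fun y => mr K (Φ i) (sg i y)) (τ j x) = Φ j x
    rw [Finset.sum_eq_single j]
    · rw [indicator_of_mem (hτX j x hx), hsg j x hx, mr_eq K _ x hx]
    · intro i _ hij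
      exact indicator_of_notMem (Xc_disj hd j i (Ne.symm hij) _ (hτX j x hx)) _
    · intro h; exact absurd (Finset.mem_univ j) h
  have hφM : ∀ x, |φ x| ≤ ∑ j, Mj j := by
    intro x
    refine (Finset.abs_sum_le_sum_abs _ _).trans (Finset.sum_le_sum fun j _ => ?_)
    by_cases hx : x ∈ Xc hd j
    · rw [indicator_of_mem hx]; exact hMj j _
    · rw [indicator_of_notMem hx, abs_zero]
      exact (abs_nonneg _).trans (hMj j x)
  let Y : Set 𝔼 := ⋃ j, {y | sg j y ∈ K ∧ τm j (sg j y) = y}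
  have hYm : MeasurableSet Y := by
    apply MeasurableSet.iUnion
    intro j
    exact ((hsgm j) hKm).inter (measurableSet_eq_fun ((hτmm j).comp (hsgm j)) measurable_id)
  have hYin : ∀ j, ∀ x ∈ K, τ j x ∈ Y := by
    intro j x hx
    refine mem_iUnion.mpr ⟨j, ?_, ?_⟩
    · show sg j (τ j x) ∈ K
      rw [hsg j x hx]; exact hx
    · show τm j (sg j (τ j x)) = τ j x
      rw [hsg j x hx, hτm j x hx]
  have hYout : ∀ y ∈ Y, ∃ j, ∃ x ∈ K, y = τ j x := by
    intro y hy
    obtain ⟨j, h1, h2⟩ := mem_iUnion.mp hy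
    exact ⟨j, sg j y, h1, by rw [← hτm j _ h1]; exact h2.symm⟩
  -- the data
  let D : OTData 𝔼 :=
    { c := fun p => tripleCost s p
      hc := (continuous_tripleCost s).measurable
      c_rot := fun x y z => by rw [tripleCost_swap12, tripleCost_swap23]
      K := K
      hK := hKm
      μ0 := μ0
      fin0 := hfin
      atom0 := hatom
      hμK := by
        show (volume.withDensity fun x => ENNReal.ofReal (b x ^ 2)) Kᶜ = 0
        rw [withDensity_apply _ hKm.compl]
        rw [setLIntegral_congr_fun (g := fun _ => (0 : ℝ≥0∞)) hKm.compl]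
        · simp
        · intro x hx
          simp [hb3 x hx]
      hμ0 := by
        intro h
        have h3 : (0 : ℝ≥0∞) < ENNReal.ofReal (1 / 3) := ENNReal.ofReal_pos.mpr (by norm_num)
        rw [← hμ0univ, h] at h3
        simp at h3
      T := Tm
      S := Sm
      hT := hTm
      hS := hSm
      T' := Ti
      S' := Si
      hT' := hTi
      hS' := hSi
      hTT' := fun f x hx => by rw [hTmK f x hx]; exact hTiT f x hx
      hSS' := fun f x hx => by rw [hSmK f x hx]; exact hSiS f x hx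
      X := Xc hd
      hX := fun j => measurableSet_ball
      hKX := fun x hx => hτX none x hx
      hTX := fun f x hx => by rw [hTmK f x hx]; exact hτX (some (f, true)) x hx
      hSX := fun f x hx => by rw [hSmK f x hx]; exact hτX (some (f, false)) x hx
      hXX := Xc_disj hd
      φ := φ
      hφ := hφm
      M := ∑ j, Mj j
      hM := hφM
      Y := Y
      hYm := hYm
      hKY := fun x hx => hYin none x hx
      hTY := fun f x hx => by rw [hTmK f x hx]; exact hYin (some (f, true)) x hx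
      hSY := fun f x hx => by rw [hSmK f x hx]; exact hYin (some (f, false)) x hx
      ineq := by
        intro x hx y hy z hz
        obtain ⟨j1, x1, h1, rfl⟩ := hYout x hx
        obtain ⟨j2, x2, h2, rfl⟩ := hYout y hy
        obtain ⟨j3, x3, h3, rfl⟩ := hYout z hz
        rw [hφval j1 x1 h1, hφval j2 x2 h2, hφval j3 x3 h3]
        exact (hRel j1 j2 j3 x1 h1 x2 h2 x3 h3).1
      eqn := by
        intro f x hx
        rw [hTmK f x hx, hSmK f x hx]
        have e1 := hφval none x hx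
        have e2 := hφval (some (f, true)) x hx
        have e3 := hφval (some (f, false)) x hx
        have e1' : φ x = Φ none x := e1
        have e2' : φ (T f x) = Φ (some (f, true)) x := e2
        have e3' : φ (S f x) = Φ (some (f, false)) x := e3
        rw [e1', e2', e3']
        exact hEqn f x hx
      strict := by
        intro x hx y hy z hz heq
        obtain ⟨j2, x2, h2, rfl⟩ := hYout y hy
        obtain ⟨j3, x3, h3, rfl⟩ := hYout z hz
        have e1' : φ x = Φ none x := hφval none x hx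
        rw [e1', hφval j2 x2 h2, hφval j3 x3 h3] at heq
        obtain ⟨v, hv, hxx⟩ := (hRel none j2 j3 x hx x2 h2 x3 h3).2 heq rfl
        subst hv
        have hxx' : x2 = x := hxx
        subst hxx'
        obtain ⟨f, b'⟩ := v
        refine ⟨f, ?_⟩
        cases b'
        · right; exact (hSmK f x2 h2).symm
        · left; exact (hTmK f x2 h2).symm }
  -- the density
  let pT : Bool → 𝔼 → ℝ := fun f => pushRoot (T f) b
  let pS : Bool → 𝔼 → ℝ := fun f => pushRoot (S f) b
  have hpT0 : ∀ f y, 0 ≤ pT f y := fun f y => pushRoot_nonneg _ _ hb2 y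
  have hpS0 : ∀ f y, 0 ≤ pS f y := fun f y => pushRoot_nonneg _ _ hb2 y
  have hpTs : ∀ f, ContDiff ℝ ∞ (pT f) := fun f =>
    contDiff_pushRoot (T f) (hT1 f) (hT2 f) b hb1 K hKc (hTs f) hb3
  have hpSs : ∀ f, ContDiff ℝ ∞ (pS f) := fun f =>
    contDiff_pushRoot (S f) (hS1 f) (hS2 f) b hb1 K hKc (hSs f) hb3
  have hpTz : ∀ f y, y ∉ T f '' K → pT f y = 0 := by
    intro f y hy
    apply pushRoot_eq_zero (T f) b K hb3
    rintro ⟨x, hx, rfl⟩
    exact hy ⟨x, hx.1, rfl⟩
  have hpSz : ∀ f y, y ∉ S f '' K → pS f y = 0 := by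
    intro f y hy
    apply pushRoot_eq_zero (S f) b K hb3
    rintro ⟨x, hx, rfl⟩
    exact hy ⟨x, hx.1, rfl⟩
  have hpTX : ∀ f y, y ∉ Xc hd (some (f, true)) → pT f y = 0 := by
    intro f y hy
    apply hpTz
    rintro ⟨x, hx, rfl⟩
    exact hy (hTb f x hx)
  have hpSX : ∀ f y, y ∉ Xc hd (some (f, false)) → pS f y = 0 := by
    intro f y hy
    apply hpSz
    rintro ⟨x, hx, rfl⟩
    exact hy (hSb f x hx)
  have hbX : ∀ y, y ∉ Xc hd none → b y = 0 := by
    intro y hy
    apply hb3
    intro hK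
    exact hy (hτX none y hK)
  have hprod : ∀ (u v : 𝔼 → ℝ) (i j : Option (Bool × Bool)), i ≠ j → (∀ y, y ∉ Xc hd i → u y = 0) →
      (∀ y, y ∉ Xc hd j → v y = 0) → ∀ y, u y * v y = 0 := by
    intro u v i j hij hu hv y
    by_cases hy : y ∈ Xc hd i
    · rw [hv y (Xc_disj hd i j hij y hy), mul_zero]
    · rw [hu y hy, zero_mul]
  let B : 𝔼 → ℝ := fun y => b y + Real.sqrt (1 / 2) * (pT true y + pS true y + (pT false y + pS false y))
  have hB0 : ∀ y, 0 ≤ B y := by
    intro y
    have h1 := hb2 y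
    have h2 := hpT0 true y
    have h3 := hpS0 true y
    have h4 := hpT0 false y
    have h5 := hpS0 false y
    have h6 := Real.sqrt_nonneg (1 / 2)
    show 0 ≤ b y + Real.sqrt (1 / 2) * (pT true y + pS true y + (pT false y + pS false y))
    positivity
  have hBs : ContDiff ℝ ∞ B :=
    hb1.add (contDiff_const.mul (((hpTs true).add (hpSs true)).add ((hpTs false).add (hpSs false))))
  have hBsq : ∀ y, ENNReal.ofReal (B y ^ 2) = ENNReal.ofReal (b y ^ 2) +
      2⁻¹ * (ENNReal.ofReal (pT true y ^ 2) + ENNReal.ofReal (pS true y ^ 2) +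
        (ENNReal.ofReal (pT false y ^ 2) + ENNReal.ofReal (pS false y ^ 2))) := by
    intro y
    apply half_real _ _ _ _ _ (hb2 y) (hpT0 true y) (hpS0 true y) (hpT0 false y) (hpS0 false y)
    · exact hprod _ _ none (some (true, true)) (by simp) hbX (hpTX true) y
    · exact hprod _ _ none (some (true, false)) (by simp) hbX (hpSX true) y
    · exact hprod _ _ none (some (false, true)) (by simp) hbX (hpTX false) y
    · exact hprod _ _ none (some (false, false)) (by simp) hbX (hpSX false) y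
    · exact hprod _ _ (some (true, true)) (some (true, false)) (by simp) (hpTX true) (hpSX true) y
    · exact hprod _ _ (some (true, true)) (some (false, true)) (by simp) (hpTX true) (hpTX false) y
    · exact hprod _ _ (some (true, true)) (some (false, false)) (by simp) (hpTX true) (hpSX false) y
    · exact hprod _ _ (some (true, false)) (some (false, true)) (by simp) (hpSX true) (hpTX false) y
    · exact hprod _ _ (some (true, false)) (some (false, false)) (by simp) (hpSX true) (hpSX false) y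
    · exact hprod _ _ (some (false, true)) (some (false, false)) (by simp) (hpTX false) (hpSX false) y
  have hmapT : ∀ f, μ0.map (Tm f) = volume.withDensity (fun y => ENNReal.ofReal (pT f y ^ 2)) := by
    intro f
    exact map_pushRoot volume (T f) (hT1 f) (hT2 f) b hb1.continuous hb2 K (hTs f) hb3 (Tm f) (hTm f)
      (hTmK f)
  have hmapS : ∀ f, μ0.map (Sm f) = volume.withDensity (fun y => ENNReal.ofReal (pS f y ^ 2)) := by
    intro f
    exact map_pushRoot volume (S f) (hS1 f) (hS2 f) b hb1.continuous hb2 K (hSs f) hb3 (Sm f) (hSm f)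
      (hSmK f)
  have hmT : ∀ f, Measurable (fun y => ENNReal.ofReal (pT f y ^ 2)) := fun f =>
    (((hpTs f).continuous.pow 2).measurable).ennreal_ofReal
  have hmS : ∀ f, Measurable (fun y => ENNReal.ofReal (pS f y ^ 2)) := fun f =>
    (((hpSs f).continuous.pow 2).measurable).ennreal_ofReal
  have hmu : D.mu = measOfDensity (fun y => B y ^ 2) := by
    show μ0 + (2 : ℝ≥0∞)⁻¹ • (μ0.map (Tm true) + μ0.map (Sm true) + (μ0.map (Tm false) + μ0.map (Sm false))) =
      volume.withDensity (fun y => ENNReal.ofReal (B y ^ 2))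
    rw [hmapT, hmapS, hmapT, hmapS]
    ext A hA
    simp only [Measure.add_apply, Measure.smul_apply, smul_eq_mul, μ0, withDensity_apply _ hA]
    simp_rw [hBsq]
    have q1 : Measurable (fun y => ENNReal.ofReal (pT true y ^ 2) + ENNReal.ofReal (pS true y ^ 2)) :=
      (hmT true).add (hmS true)
    have q2 : Measurable (fun y => ENNReal.ofReal (pT false y ^ 2) + ENNReal.ofReal (pS false y ^ 2)) :=
      (hmT false).add (hmS false)
    have q3 : Measurable (fun y => ENNReal.ofReal (pT true y ^ 2) + ENNReal.ofReal (pS true y ^ 2) +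
        (ENNReal.ofReal (pT false y ^ 2) + ENNReal.ofReal (pS false y ^ 2))) := q1.add q2
    rw [lintegral_add_left hbm, lintegral_const_mul _ q3, lintegral_add_left q1,
      lintegral_add_left (hmT true), lintegral_add_left (hmT false)]
  have hcs : HasCompactSupport (fun y => B y ^ 2) := by
    have hcomp : IsCompact (K ∪ ((T true '' K ∪ S true '' K) ∪ (T false '' K ∪ S false '' K))) :=
      hKc.union (((hKc.image_of_continuousOn (hTc true)).union
        (hKc.image_of_continuousOn (hSc true))).union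
        ((hKc.image_of_continuousOn (hTc false)).union (hKc.image_of_continuousOn (hSc false))))
    apply HasCompactSupport.intro hcomp
    intro x hx
    simp only [mem_union, not_or] at hx
    obtain ⟨h1, ⟨h2, h3⟩, h4, h5⟩ := hx
    show (b x + Real.sqrt (1 / 2) * (pT true x + pS true x + (pT false x + pS false x))) ^ 2 = 0
    rw [hb3 x h1, hpTz true x h2, hpSz true x h3, hpTz false x h4, hpSz false x h5]
    norm_num
  have hcoup : ∀ π : Measure (𝔼 × 𝔼 × 𝔼), IsCoupling₃ (measOfDensity (fun y => B y ^ 2)) π →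
      π.map (fun p => p.1) = D.mu ∧ π.map (fun p => p.2.1) = D.mu ∧ π.map (fun p => p.2.2) = D.mu := by
    intro π hπ
    rw [hmu]; exact hπ
  refine ⟨fun y => B y ^ 2, fun y => sq_nonneg _, hBs.pow 2, hcs, ?_, ?_, D.pi0, ?_, ?_, ?_, ?_, ?_⟩
  · have : (fun x => Real.sqrt (B x ^ 2)) = B := by
      funext x; exact Real.sqrt_sq (hB0 x)
    rw [this]; exact hBs
  · have h1 : D.mu univ = 1 := by
      rw [D.mu_univ]
      show 3 * μ0 univ = 1
      rw [hμ0univ, one_div, ENNReal.ofReal_inv_of_pos (by norm_num)]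
      norm_num
      exact ENNReal.mul_inv_cancel (by norm_num) (by norm_num)
    rw [integral_eq_lintegral_of_nonneg_ae (ae_of_all _ fun y => sq_nonneg _)
      (hBs.continuous.pow 2).aestronglyMeasurable]
    have h2 : ∫⁻ y, ENNReal.ofReal (B y ^ 2) = 1 := by
      rw [← h1, hmu]
      simp [measOfDensity]
    rw [h2]; rfl
  · rw [← hmu]
    exact ⟨D.pi0_fst, D.pi0_snd, D.pi0_trd⟩
  · exact D.pi0_cost_lt_top
  · intro π hπ
    obtain ⟨h1, h2, h3⟩ := hcoup π hπ
    exact D.pi0_min π h1 h2 h3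
  · intro T2 T3 h2 h3 p2 p3
    rw [← hmu] at p2 p3 ⊢
    exact D.monge_strict T2 T3 h2 h3 p2 p3
  · intro ε hε
    have happ := fun (ε : ℝ≥0∞) (hε : 0 < ε) => happ_aux s K hKc Tm Sm
      (fun f => (hTc f).congr (hTmK f)) (fun f => (hSc f).congr (hSmK f)) (by
        intro f x hx y hy
        have h1 := hτX none x hx
        have h2 := hτX (some (f, true)) y hy
        have h3 := hτX (some (f, false)) y hy
        rw [hTmK f y hy, hSmK f y hy]
        refine ⟨?_, ?_, ?_⟩
        · intro h; exact Xc_disj hd none (some (f, true)) (by simp) x h1 (by rw [h]; exact h2)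
        · intro h; exact Xc_disj hd none (some (f, false)) (by simp) x h1 (by rw [h]; exact h3)
        · intro h
          exact Xc_disj hd (some (f, true)) (some (f, false)) (by simp) _ h2 (by
            show T f y ∈ _
            rw [h]; exact h3)) ε hε
    rw [← hmu]
    exact D.approx happ ε hε

end Crest.Agent.OTLib

namespace Crest.Agent.S0175

/-- For every d ≥ 2 and s > 0 there is a smooth, compactly supported, nonnegative ρ on ℝᵈ with integral 1 and smooth square root such that, for μ = ρ dx and the cost summing ‖xᵢ - xⱼ‖^(-s) over the three pairs of a triple: some coupling with all three marginals μ has finite cost, minimal among all such couplings; every pair of Borel maps T₂, T₃ pushing μ to itself gives the plan x ↦ (x, T₂ x, T₃ x) strictly larger cost; and such pairs have costs arbitrarily close to that minimum. -/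
theorem result
    (d : ℕ) (hd : 2 ≤ d) (s : ℝ) (hs : 0 < s) :
    ∃ ρ : EuclideanSpace ℝ (Fin d) → ℝ, (∀ x, 0 ≤ ρ x) ∧ ContDiff ℝ ∞ ρ ∧ HasCompactSupport ρ ∧
      ContDiff ℝ ∞ (fun x => Real.sqrt (ρ x)) ∧ ∫ x, ρ x = 1 ∧
      ∃ π₀ : Measure (EuclideanSpace ℝ (Fin d) × EuclideanSpace ℝ (Fin d) × EuclideanSpace ℝ (Fin d)),
        IsCoupling₃ (measOfDensity ρ) π₀ ∧ ∫⁻ p, tripleCost s p ∂π₀ < ⊤ ∧
        (∀ π : Measure (EuclideanSpace ℝ (Fin d) × EuclideanSpace ℝ (Fin d) × EuclideanSpace ℝ (Fin d)), IsCoupling₃ (measOfDensity ρ) π →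
          ∫⁻ p, tripleCost s p ∂π₀ ≤ ∫⁻ p, tripleCost s p ∂π) ∧
        (∀ T₂ T₃ : EuclideanSpace ℝ (Fin d) → EuclideanSpace ℝ (Fin d), Measurable T₂ → Measurable T₃ →
          (measOfDensity ρ).map T₂ = measOfDensity ρ → (measOfDensity ρ).map T₃ = measOfDensity ρ →
          ∫⁻ p, tripleCost s p ∂π₀ < ∫⁻ x, tripleCost s (x, T₂ x, T₃ x) ∂(measOfDensity ρ)) ∧
        (∀ ε : ℝ≥0∞, 0 < ε → ∃ T₂ T₃ : EuclideanSpace ℝ (Fin d) → EuclideanSpace ℝ (Fin d), Measurable T₂ ∧ Measurable T₃ ∧
          (measOfDensity ρ).map T₂ = measOfDensity ρ ∧ (measOfDensity ρ).map T₃ = measOfDensity ρ ∧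
          ∫⁻ x, tripleCost s (x, T₂ x, T₃ x) ∂(measOfDensity ρ) < ∫⁻ p, tripleCost s p ∂π₀ + ε) := by
  exact Crest.Agent.OTLib.main_thm s hs hd

end Crest.Agent.S0175
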