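import Crest.Agent.TIEnergyB

/-!
Row 160 (S0241), piece (P4): the energy identity.
-/

set_option autoImplicit false

namespace Crest.Agent.TI.Energy

open MeasureTheory unitInterval Set Filter Topology
open scoped ENNReal

variable {d : ℕ} {θ : ℝ}

/-! ### measurability -/

lemma measurable_mN (θ : ℝ) (N : ℕ) : Measurable (fun y : W d → ℝ => mN θ N y) :=
  Pair.measurable_tanh.comp (Pair.measurable_msg θ N W.root)

lemma measurable_cN (θ : ℝ) (N : ℕ) (u : W d) : Measurable (fun y : W d → ℝ => cN θ N y u) := by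
  unfold cN
  exact Finset.measurable_fun_prod _ fun j _ =>
    (measurable_phid θ).comp (Pair.measurable_msg θ _ _)

lemma measurable_clk (b : W d × ℕ) :
    Measurable (fun q : Cl (W d) × Om (W d) => ((q.1 b : I) : ℝ)) := by
  have h5 : Measurable (fun q : Cl (W d) × Om (W d) => q.1 b) :=
    (measurable_pi_apply b).comp measurable_fst
  exact measurable_subtype_coe.comp h5

lemma measurable_yA (k : ℕ) (u : W d) :
    Measurable (fun q : Cl (W d) × Om (W d) => yA k u q.1 q.2) := by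
  rw [measurable_pi_iff]
  intro w
  unfold yA upd
  have h1 : Measurable (fun q : Cl (W d) × Om (W d) => yF k (q.1 (u, k)) q.1 q.2 w) :=
    (measurable_pi_apply w).comp (measurable_yFc k u)
  have h2 : Measurable (fun q : Cl (W d) × Om (W d) => q.1 (u, k)) :=
    (measurable_pi_apply (u, k)).comp measurable_fst
  have h3 : Measurable (fun q : Cl (W d) × Om (W d) => ell (q.1 (u, k)) (Zc q.1 q.2 (u, k))) :=
    Pair.meas_ell h2 (Pair.measurable_Zc_at (u, k))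
  by_cases hw : w = u
  · simp only [hw, if_true] at h1 ⊢
    exact h1.add h3
  · simp only [hw, if_false]
    exact h1

lemma measurable_DN (θ : ℝ) (N k : ℕ) (u : W d) :
    Measurable (fun q : Cl (W d) × Om (W d) => DN θ N k u q.1 q.2) := by
  unfold DN
  exact ((measurable_mN θ N).comp (measurable_yA k u)).sub
    ((measurable_mN θ N).comp (measurable_yFc k u))

lemma measurableSet_win (k : ℕ) (s t : ℝ) (u : W d) :
    MeasurableSet {q : Cl (W d) × Om (W d) | s ≤ (q.1 (u, k) : ℝ) ∧ (q.1 (u, k) : ℝ) < t} :=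
  (measurableSet_le measurable_const (measurable_clk (u, k))).inter
    (measurableSet_lt (measurable_clk (u, k)) measurable_const)

/-- the integrand of the finite volume energy -/
noncomputable def eN (θ : ℝ) (N k : ℕ) (s t : ℝ) (u : W d) (q : Cl (W d) × Om (W d)) : ℝ :=
  if s ≤ (q.1 (u, k) : ℝ) ∧ (q.1 (u, k) : ℝ) < t then DN θ N k u q.1 q.2 ^ 2 else 0

lemma measurable_eN (θ : ℝ) (N k : ℕ) (s t : ℝ) (u : W d) : Measurable (eN θ N k s t u) :=
  Measurable.ite (measurableSet_win k s t u) ((measurable_DN θ N k u).pow_const 2) measurable_const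

lemma eN_nonneg (θ : ℝ) (N k : ℕ) (s t : ℝ) (u : W d) (q : Cl (W d) × Om (W d)) :
    0 ≤ eN θ N k s t u q := by
  unfold eN
  split_ifs
  · exact sq_nonneg _
  · exact le_rfl

lemma eN_le_four (θ : ℝ) (N k : ℕ) (s t : ℝ) (u : W d) (q : Cl (W d) × Om (W d)) :
    eN θ N k s t u q ≤ 4 := by
  unfold eN
  split_ifs
  · have := abs_DN_le_two θ N k u q.1 q.2
    rw [← sq_abs]
    nlinarith [abs_nonneg (DN θ N k u q.1 q.2)]
  · norm_num

lemma abs_eN_le (θ : ℝ) (N k : ℕ) (s t : ℝ) (u : W d) (q : Cl (W d) × Om (W d)) :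
    ‖eN θ N k s t u q‖ ≤ 4 := by
  rw [Real.norm_eq_abs, abs_of_nonneg (eN_nonneg θ N k s t u q)]
  exact eN_le_four θ N k s t u q

/-- the finite volume energy -/
noncomputable def aN (θ : ℝ) (N k : ℕ) (s t : ℝ) (u : W d) : ℝ :=
  ∫ q, eN θ N k s t u q ∂(Pt (nu d θ))

lemma mN_sq_le (θ : ℝ) (N : ℕ) (y : W d → ℝ) : ‖mN θ N y ^ 2‖ ≤ 1 := by
  rw [Real.norm_eq_abs, abs_of_nonneg (sq_nonneg _), ← sq_abs]
  exact pow_le_one₀ (abs_nonneg _) (abs_mN_le θ N y)

lemma aN_out (θ : ℝ) (N k : ℕ) (s t : ℝ) {u : W d} (hu : N < u.len) : aN θ N k s t u = 0 := by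
  unfold aN
  have : ∀ q, eN θ N k s t u q = 0 := by
    intro q
    unfold eN DN yA
    rw [mN_upd_out θ N _ hu, sub_self]
    simp
  simp [this]

/-- finite volume energy identity -/
theorem energy_N (h0 : 0 ≤ θ) (h1 : θ ≤ 1) (N k : ℕ) {s t : ℝ} (hst : s ≤ t) :
    ∫ q, mN θ N (yF k t q.1 q.2) ^ 2 ∂(Pt (nu d θ)) -
      ∫ q, mN θ N (yF k s q.1 q.2) ^ 2 ∂(Pt (nu d θ)) = ∑' u : W d, aN θ N k s t u := by
  have i0 := isProb_nu d h1
  have i1 := Pair.isProb_Pt (d := d) h1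
  have hP : Pt (nu d θ) = (μI (W d × ℕ)).prod (PPn (nu d θ)) := rfl
  rw [tsum_eq_sum (s := W.ball d N) (fun u hu => aN_out θ N k s t (by
    rw [W.mem_ball] at hu; omega))]
  have hm : ∀ r : ℝ, Integrable (fun q : Cl (W d) × Om (W d) => mN θ N (yF k r q.1 q.2) ^ 2)
      ((μI (W d × ℕ)).prod (PPn (nu d θ))) := fun r =>
    Integrable.of_bound (C := 1)
      (((measurable_mN θ N).comp (Pair.measurable_yF k r)).pow_const 2).aestronglyMeasurable
      (Eventually.of_forall fun q => mN_sq_le θ N _)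
  have he : ∀ u : W d, Integrable (eN θ N k s t u) ((μI (W d × ℕ)).prod (PPn (nu d θ))) := fun u =>
    Integrable.of_bound (C := 4) (measurable_eN θ N k s t u).aestronglyMeasurable
      (Eventually.of_forall fun q => abs_eN_le θ N k s t u q)
  unfold aN
  rw [hP, integral_prod _ (hm t), integral_prod _ (hm s),
    ← integral_sub (hm t).integral_prod_left (hm s).integral_prod_left]
  have e1 : ∀ u ∈ W.ball d N, ∫ q, eN θ N k s t u q ∂((μI (W d × ℕ)).prod (PPn (nu d θ))) =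
      ∫ c, (∫ p, eN θ N k s t u (c, p) ∂(PPn (nu d θ))) ∂(μI (W d × ℕ)) := fun u _ =>
    integral_prod _ (he u)
  rw [Finset.sum_congr rfl e1, ← integral_finsetSum _ fun u _ => (he u).integral_prod_left]
  refine integral_congr_ae ?_
  filter_upwards [Law.ae_inj_clock (d := d)] with c hc
  exact energy_fin h0 h1 N k hst c hc

/-! ### domination -/

lemma eN_le_cN (h0 : 0 ≤ θ) (h1 : θ < 1) (N k : ℕ) (s t : ℝ) {u : W d} (hu : u.len ≤ N)
    (q : Cl (W d) × Om (W d)) : ENNReal.ofReal (eN θ N k s t u q) ≤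
      if s ≤ (q.1 (u, k) : ℝ) ∧ (q.1 (u, k) : ℝ) < t then
        ENNReal.ofReal (cN θ N (yF k (q.1 (u, k)) q.1 q.2) u ^ 2) else 0 := by
  unfold eN
  split_ifs
  · refine ENNReal.ofReal_le_ofReal ?_
    have h2 : |DN θ N k u q.1 q.2| ≤ cN θ N (yF k (q.1 (u, k)) q.1 q.2) u := by
      refine abs_mN_upd_le h0 h1 N _ hu ?_
      rw [tanh_ell]
      exact (abs_amp_g_le _ _).trans (amp_le _)
    rw [← sq_abs]
    exact pow_le_pow_left₀ (abs_nonneg _) h2 2
  · simp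

/-- rate of decay -/
noncomputable def rt (θ x : ℝ) : ℝ := θ ^ 2 * (1 - (1 - θ ^ 2) * x)

lemma xx_le_one (μ : Measure ℝ) [IsProbabilityMeasure μ] : xx μ ≤ 1 := by
  unfold xx
  calc ∫ h, Real.tanh h ^ 2 ∂μ ≤ ∫ _, (1 : ℝ) ∂μ := by
        refine integral_mono_of_nonneg (Eventually.of_forall fun h => sq_nonneg _)
          (integrable_const _) (Eventually.of_forall fun h => Scal.tanh_sq_le_one h)
    _ = 1 := by simp

lemma rt_nonneg (h0 : 0 ≤ θ) (h1 : θ < 1) {x : ℝ} (hx : x ≤ 1) (hx0 : 0 ≤ x) : 0 ≤ rt θ x := by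
  unfold rt
  have h2 : θ ^ 2 ≤ 1 := pow_le_one₀ h0 h1.le
  have h3 : (1 - θ ^ 2) * x ≤ 1 * 1 :=
    mul_le_mul (by linarith [sq_nonneg θ]) hx hx0 zero_le_one
  exact mul_nonneg (sq_nonneg θ) (by linarith)

lemma cN_field (h0 : 0 ≤ θ) (h1 : θ < 1) (N k : ℕ) (r : ℝ) {x : ℝ} (hx0 : 0 ≤ x)
    (hx : x ≤ xx (muY k r)) {u : W d} (hu : u.len ≤ N) :
    ∫⁻ c, (∫⁻ p, ENNReal.ofReal (cN θ N (yF k r c p) u ^ 2) ∂(PPn (nu d θ))) ∂(μI (W d × ℕ)) ≤
      ENNReal.ofReal (rt θ x ^ u.len) := by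
  have i0 := isProb_nu d h1.le
  have i1 := Pair.isProb_Pt (d := d) h1.le
  have hm : Measurable (fun y : W d → ℝ => ENNReal.ofReal (cN θ N y u ^ 2)) :=
    ((measurable_cN θ N u).pow_const 2).ennreal_ofReal
  have hm2 : Measurable (fun q : Cl (W d) × Om (W d) =>
      ENNReal.ofReal (cN θ N (yF k r q.1 q.2) u ^ 2)) := hm.comp (Pair.measurable_yF k r)
  have e1 : ∫⁻ c, (∫⁻ p, ENNReal.ofReal (cN θ N (yF k r c p) u ^ 2) ∂(PPn (nu d θ)))
      ∂(μI (W d × ℕ)) = ∫⁻ y, ENNReal.ofReal (cN θ N y u ^ 2) ∂(fieldLaw d θ (muY k r)) := by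
    rw [← Pair.law_yF h1.le k r, lintegral_map hm (Pair.measurable_yF k r)]
    exact (lintegral_prod _ hm2.aemeasurable).symm
  rw [e1]
  have i2 : IsProbabilityMeasure (fieldLaw d θ (muY k r)) := by
    rw [← Pair.law_yF h1.le k r]
    exact Measure.isProbabilityMeasure_map (Pair.measurable_yF k r).aemeasurable
  have hb : ∀ y : W d → ℝ, cN θ N y u ^ 2 ≤ 1 := by
    intro y
    have h3 : cN θ N y u ≤ 1 := by
      refine Finset.prod_le_one (fun _ _ => phid_nonneg h0 h1 _) fun j _ => ?_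
      rw [TreeB.phid_eq h0 h1]
      have h4 := TreeB.GG_nonneg h0 h1 (msg θ y (N - (u.len - j)) (W.par^[j] u))
      have h5 : Real.exp (-GG θ (msg θ y (N - (u.len - j)) (W.par^[j] u))) ≤ 1 :=
        Real.exp_le_one_iff.2 (by linarith)
      nlinarith [Real.exp_pos (-GG θ (msg θ y (N - (u.len - j)) (W.par^[j] u)))]
    exact pow_le_one₀ (cN_nonneg h0 h1 N y u) h3
  rw [← ofReal_integral_eq_lintegral_ofReal]
  · refine ENNReal.ofReal_le_ofReal ?_
    have h7 := Conc.Cn7 (d := d) h0 h1 (μy := muY k r) (Mu.cons_muY k r) (Mu.bddSupp_muY k r) N u hu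
    have e2 : ∀ y : W d → ℝ, cN θ N y u ^ 2 =
        ∏ j ∈ Finset.range u.len, phid θ (msg θ y (N - (u.len - j)) (W.par^[j] u)) ^ 2 := fun y => by
      unfold cN; rw [Finset.prod_pow]
    simp only [e2]
    refine h7.trans ?_
    have h8 : xx (muY k r) ≤ 1 := xx_le_one _
    refine pow_le_pow_left₀ (rt_nonneg h0 h1 h8 (hx0.trans hx)) ?_ _
    unfold rt
    have h2 : θ ^ 2 ≤ 1 := pow_le_one₀ h0 h1.le
    refine mul_le_mul_of_nonneg_left ?_ (sq_nonneg θ)
    have := mul_le_mul_of_nonneg_left hx (by linarith : 0 ≤ 1 - θ ^ 2)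
    linarith
  · refine Integrable.of_bound (C := 1) ((measurable_cN θ N u).pow_const 2).aestronglyMeasurable
      (Eventually.of_forall fun y => ?_)
    rw [Real.norm_eq_abs, abs_of_nonneg (sq_nonneg _)]
    exact hb y
  · exact Eventually.of_forall fun y => sq_nonneg _

theorem aN_le (h0 : 0 ≤ θ) (h1 : θ < 1) (N k : ℕ) {s t : ℝ} (hs : 0 ≤ s) (ht : t ≤ 1 / 2)
    {x : ℝ} (hx0 : 0 ≤ x) (hx1 : x ≤ 1) (hx : ∀ r, s ≤ r → r < t → x ≤ xx (muY k r)) (u : W d) :
    aN θ N k s t u ≤ rt θ x ^ u.len := by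
  have i0 := isProb_nu d h1.le
  have i1 := Pair.isProb_Pt (d := d) h1.le
  have hr0 : 0 ≤ rt θ x ^ u.len := pow_nonneg (rt_nonneg h0 h1 hx1 hx0) _
  by_cases hu : u.len ≤ N
  swap
  · rw [aN_out θ N k s t (by omega)]; exact hr0
  unfold aN
  rw [integral_eq_lintegral_of_nonneg_ae (Eventually.of_forall fun q => eN_nonneg θ N k s t u q)
    (measurable_eN θ N k s t u).aestronglyMeasurable]
  refine ENNReal.toReal_le_of_le_ofReal hr0 ?_
  refine (lintegral_mono fun q => eN_le_cN h0 h1 N k s t hu q).trans ?_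
  have hm : Measurable (fun y : W d → ℝ => ENNReal.ofReal (cN θ N y u ^ 2)) :=
    ((measurable_cN θ N u).pow_const 2).ennreal_ofReal
  set Λ : (W d × ℕ → I) → ℝ → ℝ≥0∞ := fun c r =>
    ∫⁻ p, ENNReal.ofReal (cN θ N (yF k r c p) u ^ 2) ∂(PPn (nu d θ)) with hΛ
  have hyr : Measurable (fun q : ((Cl (W d)) × ℝ) × Om (W d) => yF k q.1.2 q.1.1 q.2) :=
    Pair.meas_fieldAt k (measurable_fst.comp measurable_fst)
      (Pair.meas_Zc (measurable_fst.comp measurable_fst) measurable_snd)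
      (measurable_snd.comp measurable_fst)
  have hΛm : Measurable (fun q : (W d × ℕ → I) × ℝ => Λ q.1 q.2) := by
    have h3 : Measurable (fun q : ((Cl (W d)) × ℝ) × Om (W d) =>
      ENNReal.ofReal (cN θ N (yF k q.1.2 q.1.1 q.2) u ^ 2)) := hm.comp hyr
    exact h3.lintegral_prod_right'
  have key := Clock.decouple (u, k) Λ hΛm (fun _ => 1) measurable_const hs ht Set.univ
    (Eventually.of_forall fun _ => Set.mem_univ _) (by
      intro c _ r' hr' hc _
      simp only [hΛ]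
      refine lintegral_congr fun p => ?_
      rw [Clock.yF_congr (Clock.agree_update hr' hc) p])
  simp only [one_mul] at key
  have e1 : ∫⁻ q, (if s ≤ (q.1 (u, k) : ℝ) ∧ (q.1 (u, k) : ℝ) < t then
        ENNReal.ofReal (cN θ N (yF k (q.1 (u, k)) q.1 q.2) u ^ 2) else 0) ∂(Pt (nu d θ)) =
      ∫⁻ c, (if s ≤ (c (u, k) : ℝ) ∧ (c (u, k) : ℝ) < t then Λ c (c (u, k)) else 0)
        ∂(μI (W d × ℕ)) := by
    have h4 : Measurable (fun q : Cl (W d) × Om (W d) =>
        (if s ≤ (q.1 (u, k) : ℝ) ∧ (q.1 (u, k) : ℝ) < t then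
          ENNReal.ofReal (cN θ N (yF k (q.1 (u, k)) q.1 q.2) u ^ 2) else 0)) :=
      Measurable.ite (measurableSet_win k s t u) (hm.comp (measurable_yFc k u)) measurable_const
    have h5 := lintegral_prod (μ := μI (W d × ℕ)) (ν := PPn (nu d θ)) _ h4.aemeasurable
    refine Eq.trans h5 (lintegral_congr fun c => ?_)
    simp only
    split_ifs
    · rfl
    · simp
  rw [e1]
  refine key.trans ?_
  have h6 : ∫⁻ r in Ico s t, (∫⁻ c, Λ c r ∂(μI (W d × ℕ))) ≤
      ∫⁻ _ in Ico s t, ENNReal.ofReal (rt θ x ^ u.len) := by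
    refine setLIntegral_mono measurable_const fun r hr => ?_
    exact cN_field h0 h1 N k r hx0 (hx r hr.1 hr.2) hu
  refine (mul_le_mul_right h6 2).trans ?_
  rw [setLIntegral_const, Real.volume_Ico]
  calc 2 * (ENNReal.ofReal (rt θ x ^ u.len) * ENNReal.ofReal (t - s))
      ≤ 2 * (ENNReal.ofReal (rt θ x ^ u.len) * ENNReal.ofReal (1 / 2)) := by
        refine mul_le_mul_right (mul_le_mul_right (ENNReal.ofReal_le_ofReal (by linarith)) _) _
    _ = ENNReal.ofReal (rt θ x ^ u.len) := by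
        rw [mul_comm (ENNReal.ofReal (rt θ x ^ u.len)), ← mul_assoc]
        have : (2 : ℝ≥0∞) * ENNReal.ofReal (1 / 2) = 1 := by
          rw [show (2 : ℝ≥0∞) = ENNReal.ofReal 2 by norm_num, ← ENNReal.ofReal_mul (by norm_num)]
          norm_num
        rw [this, one_mul]

lemma tsum_sphere (f : W d → ℝ≥0∞) : ∑' u, f u = ∑' k, ∑ u ∈ W.sphere d k, f u := by
  rw [← (Equiv.sigmaFiberEquiv (W.len : W d → ℕ)).tsum_eq f, ENNReal.tsum_sigma']
  congr 1
  funext k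
  have h : ∀ u : W d, u.len = k ↔ u ∈ W.sphere d k := fun u => W.mem_sphere.symm
  have e := (Equiv.subtypeEquivRight h).tsum_eq (fun u : {u // u ∈ W.sphere d k} => f u.1)
  rw [Finset.tsum_subtype (W.sphere d k) f] at e
  rw [← e]
  rfl

lemma summable_pow_len (hd : 2 ≤ d) {ρ : ℝ} (hρ0 : 0 ≤ ρ) (hρ : ((d : ℝ) - 1) * ρ < 1) :
    Summable (fun u : W d => ρ ^ u.len) := by
  have hd' : (2 : ℝ) ≤ d := by exact_mod_cast hd
  have hb0 : 0 ≤ ((d : ℝ) - 1) * ρ := mul_nonneg (by linarith) hρ0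
  have h1 : ∑' u : W d, ENNReal.ofReal (ρ ^ u.len) ≠ ∞ := by
    rw [tsum_sphere]
    have h2 : ∀ k : ℕ, ∑ u ∈ W.sphere d k, ENNReal.ofReal (ρ ^ u.len) ≤
        ENNReal.ofReal (2 * (((d : ℝ) - 1) * ρ) ^ k) := by
      intro k
      have e : ∑ u ∈ W.sphere d k, ENNReal.ofReal (ρ ^ u.len) =
          ENNReal.ofReal ((W.sphere d k).card * ρ ^ k) := by
        rw [Finset.sum_congr rfl (fun u hu => by rw [W.mem_sphere.1 hu]), Finset.sum_const,
          nsmul_eq_mul, ENNReal.ofReal_mul (Nat.cast_nonneg _), ENNReal.ofReal_natCast]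
      rw [e]
      refine ENNReal.ofReal_le_ofReal ?_
      rw [mul_pow, ← mul_assoc]
      exact mul_le_mul_of_nonneg_right (W.card_sphere_le hd k) (pow_nonneg hρ0 k)
    refine ne_top_of_le_ne_top ?_ (ENNReal.tsum_le_tsum h2)
    have h3 : Summable (fun k : ℕ => 2 * (((d : ℝ) - 1) * ρ) ^ k) :=
      (summable_geometric_of_lt_one hb0 hρ).mul_left 2
    rw [← ENNReal.ofReal_tsum_of_nonneg (fun k => by positivity) h3]
    exact ENNReal.ofReal_ne_top
  have h2 := ENNReal.summable_toReal h1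
  refine h2.congr fun u => ?_
  rw [ENNReal.toReal_ofReal (pow_nonneg hρ0 _)]

lemma rt_mul_lt_one (hd : 2 ≤ d) (h0 : 0 ≤ θ) (h1 : θ < 1) (hbθ : ((d : ℝ) - 1) * θ ^ 2 ≤ 1)
    {x : ℝ} (hx : 0 < x) (hx1 : x ≤ 1) : ((d : ℝ) - 1) * rt θ x < 1 := by
  have hd' : (2 : ℝ) ≤ d := by exact_mod_cast hd
  unfold rt
  have h2 : θ ^ 2 < 1 := by nlinarith
  have h3 : 0 < (1 - θ ^ 2) * x := mul_pos (by linarith) hx
  have h4 : (1 - θ ^ 2) * x ≤ 1 * 1 :=
    mul_le_mul (by linarith [sq_nonneg θ]) hx1 hx.le zero_le_one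
  rw [← mul_assoc]
  calc ((d : ℝ) - 1) * θ ^ 2 * (1 - (1 - θ ^ 2) * x) ≤ 1 * (1 - (1 - θ ^ 2) * x) :=
        mul_le_mul_of_nonneg_right hbθ (by linarith)
    _ < 1 := by linarith

/-! ### limits -/

lemma ae_good_Pt (h0 : 0 ≤ θ) (h1 : θ < 1) (k : ℕ) (r : ℝ) :
    ∀ᵐ q ∂(Pt (nu d θ)), Good θ (yF k r q.1 q.2) := by
  have i0 := isProb_nu d h1.le
  have h := (Measure.ae_prod_iff_ae_ae (μ := μI (W d × ℕ)) (ν := PPn (nu d θ))
    (p := fun q : Cl (W d) × Om (W d) => Good θ (yF k r q.1 q.2))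
    ((measurableSet_good θ).preimage (Pair.measurable_yF k r))).2
  exact h (Eventually.of_forall fun c => Law.good_ae_fieldAt h0 h1 c k r)

lemma ae_good_Ptc (h0 : 0 ≤ θ) (h1 : θ < 1) (k : ℕ) (u : W d) :
    ∀ᵐ q ∂(Pt (nu d θ)), Good θ (yF k (q.1 (u, k)) q.1 q.2) := by
  have i0 := isProb_nu d h1.le
  have h := (Measure.ae_prod_iff_ae_ae (μ := μI (W d × ℕ)) (ν := PPn (nu d θ))
    (p := fun q : Cl (W d) × Om (W d) => Good θ (yF k (q.1 (u, k)) q.1 q.2))
    ((measurableSet_good θ).preimage (measurable_yFc k u))).2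
  exact h (Eventually.of_forall fun c => Law.good_ae_fieldAt h0 h1 c k (c (u, k)))

lemma tendsto_mNsq (h0 : 0 ≤ θ) (h1 : θ < 1) (k : ℕ) (r : ℝ) :
    Tendsto (fun N => ∫ q, mN θ N (yF k r q.1 q.2) ^ 2 ∂(Pt (nu d θ))) atTop
      (𝓝 (∫ q, mR θ (yF k r q.1 q.2) ^ 2 ∂(Pt (nu d θ)))) := by
  have i1 := Pair.isProb_Pt (d := d) h1.le
  refine tendsto_integral_of_dominated_convergence (fun _ => (1 : ℝ)) (fun N => ?_)
    (integrable_const _) (fun N => Eventually.of_forall fun q => mN_sq_le θ N _) ?_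
  · exact (((measurable_mN θ N).comp (Pair.measurable_yF k r)).pow_const 2).aestronglyMeasurable
  · filter_upwards [ae_good_Pt h0 h1 k r] with q hq
    exact (tendsto_mN hq).pow 2

/-- (T5) for the field just after an observation -/
lemma mR_yA (h0 : 0 ≤ θ) (h1 : θ < 1) (k : ℕ) (u : W d) (c : Cl (W d)) (p : Om (W d))
    (hq : Good θ (yF k (c (u, k)) c p)) :
    mR θ (yA k u c p) - mR θ (yF k (c (u, k)) c p) =
      covR θ (yF k (c (u, k)) c p) u * Jb θ c p (u, k) := by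
  unfold yA
  rw [mR_upd h0 h1 hq, tanh_ell]
  congr 1
  unfold Jb drift
  rw [mul_comm (mR θ _)]
  rfl

lemma tendsto_aN (h0 : 0 ≤ θ) (h1 : θ < 1) (k : ℕ) (s t : ℝ) (u : W d) :
    Tendsto (fun N => aN θ N k s t u) atTop
      (𝓝 (∫ q, xi θ k s t u q.1 q.2 ^ 2 ∂(Pt (nu d θ)))) := by
  have i1 := Pair.isProb_Pt (d := d) h1.le
  refine tendsto_integral_of_dominated_convergence (fun _ => (4 : ℝ)) (fun N => ?_)
    (integrable_const _) (fun N => Eventually.of_forall fun q => abs_eN_le θ N k s t u q) ?_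
  · exact (measurable_eN θ N k s t u).aestronglyMeasurable
  · filter_upwards [ae_good_Ptc h0 h1 k u] with q hq
    unfold eN xi
    split_ifs with hc
    · rw [← mR_yA h0 h1 k u q.1 q.2 hq]
      refine ((tendsto_mN ?_).sub (tendsto_mN hq)).pow 2
      exact good_upd h0 h1 hq _ _
    · simp

/-- (P4) the energy identity -/
theorem energy (hd : 2 ≤ d) (h0 : 0 ≤ θ) (h1 : θ < 1) (hbθ : ((d : ℝ) - 1) * θ ^ 2 ≤ 1) (k : ℕ)
    {s t : ℝ} (hs : 0 < s ∨ (1 ≤ k ∧ 0 ≤ s)) (hst : s ≤ t) (ht : t ≤ 1 / 2) :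
    HasSum (fun u : W d => ∫ q, xi θ k s t u q.1 q.2 ^ 2 ∂(Pt (nu d θ)))
      (∫ q, mR θ (yF k t q.1 q.2) ^ 2 ∂(Pt (nu d θ)) -
        ∫ q, mR θ (yF k s q.1 q.2) ^ 2 ∂(Pt (nu d θ))) := by
  have hs0 : 0 ≤ s := by
    rcases hs with h | h
    · exact h.le
    · exact h.2
  obtain ⟨x, hx0, hx1, hx⟩ : ∃ x : ℝ, 0 < x ∧ x ≤ 1 ∧
      ∀ r, s ≤ r → r < t → x ≤ xx (muY k r) := by
    rcases hs with h | ⟨hk, _⟩
    · have h2 : s ^ 3 ≤ 1 := pow_le_one₀ hs0 (by linarith)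
      refine ⟨s ^ 3 / 36, by positivity, by linarith, fun r hr hrt => ?_⟩
      exact Mu.xx_muY_lower k hs0 hr (by linarith)
    · exact ⟨1 / 288, by norm_num, by norm_num, fun r _ _ => Mu.xx_muY_succ k hk r⟩
  have hrt0 := rt_nonneg h0 h1 hx1 hx0.le
  have hsum := summable_pow_len (d := d) hd hrt0 (rt_mul_lt_one hd h0 h1 hbθ hx0 hx1)
  have hle : ∀ N (u : W d), aN θ N k s t u ≤ rt θ x ^ u.len := fun N u =>
    aN_le h0 h1 N k hs0 ht hx0.le hx1 hx u
  have hnn : ∀ N (u : W d), 0 ≤ aN θ N k s t u := fun N u =>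
    integral_nonneg fun q => eN_nonneg θ N k s t u q
  have hlim := fun u : W d => tendsto_aN (d := d) h0 h1 k s t u
  have hT := tendsto_tsum_of_dominated_convergence (𝓕 := atTop)
    (f := fun (N : ℕ) (u : W d) => aN θ N k s t u) hsum hlim
    (Eventually.of_forall fun N u => by
      rw [Real.norm_eq_abs, abs_of_nonneg (hnn N u)]; exact hle N u)
  have hsa : Summable (fun u : W d => ∫ q, xi θ k s t u q.1 q.2 ^ 2 ∂(Pt (nu d θ))) := by
    refine Summable.of_nonneg_of_le (fun u => integral_nonneg fun q => sq_nonneg _) (fun u => ?_) hsum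
    exact le_of_tendsto (hlim u) (Eventually.of_forall fun N => hle N u)
  have hT2 : Tendsto (fun N => ∑' u : W d, aN θ N k s t u) atTop
      (𝓝 (∫ q, mR θ (yF k t q.1 q.2) ^ 2 ∂(Pt (nu d θ)) -
        ∫ q, mR θ (yF k s q.1 q.2) ^ 2 ∂(Pt (nu d θ)))) := by
    have h3 := (tendsto_mNsq (d := d) h0 h1 k t).sub (tendsto_mNsq (d := d) h0 h1 k s)
    refine h3.congr fun N => ?_
    exact energy_N h0 h1.le N k hst
  rw [← tendsto_nhds_unique hT hT2]
  exact hsa.hasSum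

end Crest.Agent.TI.Energy
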