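import Mathlib
import Crest.Agent.FIIDMain

set_option autoImplicit false

namespace Crest.Agent.TI

open MeasureTheory unitInterval Set Filter Topology ProbabilityTheory
open scoped ENNReal
open FIID (μI)

/-! ### conditional expectation given a finite-valued variable -/

section condexp

variable {Ω S : Type*} [MeasurableSpace Ω] [Fintype S]

/-- conditional mean on the fibre of a finite-valued variable -/
noncomputable def fibMean (μ : Measure Ω) (f : Ω → ℝ) (X : Ω → S) (a : S) : ℝ :=
  (∫ x in X ⁻¹' {a}, f x ∂μ) / μ.real (X ⁻¹' {a})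

theorem condExp_fib (μ : Measure Ω) [IsProbabilityMeasure μ] (f : Ω → ℝ) (hf : Integrable f μ)
    (X : Ω → S) (hX : ∀ a, MeasurableSet (X ⁻¹' {a})) :
    (fun ω => fibMean μ f X (X ω)) =ᵐ[μ] μ[f | MeasurableSpace.comap X ⊤] := by
  classical
  have hXall : ∀ A : Set S, MeasurableSet (X ⁻¹' A) := by
    intro A
    have : X ⁻¹' A = ⋃ a ∈ A.toFinset, X ⁻¹' {a} := by
      ext x
      simp
    rw [this]
    exact Finset.measurableSet_biUnion _ fun a _ => hX a
  have hm : MeasurableSpace.comap X ⊤ ≤ ‹MeasurableSpace Ω› := by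
    rintro _ ⟨A, -, rfl⟩
    exact hXall A
  have hint : Integrable (fun ω => fibMean μ f X (X ω)) μ := by
    have h1 : (fun ω => fibMean μ f X (X ω)) =
        fun ω => ∑ a : S, (X ⁻¹' {a}).indicator (fun _ => fibMean μ f X a) ω := by
      funext ω
      rw [Finset.sum_eq_single (X ω)]
      · simp
      · intro b _ hb
        rw [Set.indicator_of_notMem]
        simpa using hb.symm
      · simp
    rw [h1]
    exact integrable_finsetSum _ fun a _ => (integrable_const _).indicator (hX a)
  refine ae_eq_condExp_of_forall_setIntegral_eq hm hf (fun s _ _ => hint.integrableOn) ?_ ?_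
  · rintro _ ⟨A, -, rfl⟩ -
    have h1 : X ⁻¹' A = ⋃ a ∈ A.toFinset, X ⁻¹' {a} := by
      ext x
      simp
    have hd : (A.toFinset : Set S).PairwiseDisjoint (fun a => X ⁻¹' {a}) := by
      intro a _ b _ hab
      rw [Function.onFun, Set.disjoint_left]
      intro x hx hx'
      exact hab ((show X x = a from hx).symm.trans hx')
    rw [h1, integral_biUnion_finset _ (fun a _ => hX a) hd (fun a _ => hint.integrableOn),
      integral_biUnion_finset _ (fun a _ => hX a) hd (fun a _ => hf.integrableOn)]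
    refine Finset.sum_congr rfl fun a _ => ?_
    have h2 : ∫ x in X ⁻¹' {a}, fibMean μ f X (X x) ∂μ =
        ∫ x in X ⁻¹' {a}, fibMean μ f X a ∂μ := by
      refine setIntegral_congr_fun (hX a) fun x hx => ?_
      have hx' : X x = a := hx
      simp only [hx']
    rw [h2, setIntegral_const, smul_eq_mul]
    unfold fibMean
    by_cases h0 : μ.real (X ⁻¹' {a}) = 0
    · rw [h0, zero_mul]
      symm
      refine setIntegral_measure_zero _ ?_
      rwa [measureReal_eq_zero_iff] at h0
    · field_simp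
  · have h2 : Measurable[MeasurableSpace.comap X ⊤] (fun ω => fibMean μ f X (X ω)) := by
      intro s _
      exact ⟨(fibMean μ f X) ⁻¹' s, trivial, rfl⟩
    exact h2.stronglyMeasurable.aestronglyMeasurable

end condexp

/-! ### dyadic digits -/

/-- dyadic cell of order `n` -/
noncomputable def dig (n : ℕ) (x : I) : Fin (2 ^ n + 1) :=
  Fin.ofNat (2 ^ n + 1) ⌊(2 : ℝ) ^ n * (x : ℝ)⌋₊

lemma dig_val (n : ℕ) (x : I) : ((dig n x : Fin (2 ^ n + 1)) : ℕ) = ⌊(2 : ℝ) ^ n * (x : ℝ)⌋₊ := by
  have h1 : (2 : ℝ) ^ n * (x : ℝ) ≤ ((2 ^ n : ℕ) : ℝ) := by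
    push_cast
    exact mul_le_of_le_one_right (by positivity) x.2.2
  have h2 : ⌊(2 : ℝ) ^ n * (x : ℝ)⌋₊ ≤ 2 ^ n := Nat.floor_le_of_le h1
  simp only [dig, Fin.ofNat]
  exact Nat.mod_eq_of_lt (by omega)

lemma measurable_dig (n : ℕ) : Measurable (dig n) := by
  unfold dig
  refine (measurable_of_countable (fun k : ℕ => Fin.ofNat (2 ^ n + 1) k)).comp ?_
  exact Nat.measurable_floor.comp (measurable_subtype_coe.const_mul _)

lemma dig_succ {n : ℕ} {x y : I} (h : dig (n + 1) x = dig (n + 1) y) : dig n x = dig n y := by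
  have h1 : ⌊(2 : ℝ) ^ (n + 1) * (x : ℝ)⌋₊ = ⌊(2 : ℝ) ^ (n + 1) * (y : ℝ)⌋₊ := by
    rw [← dig_val, ← dig_val, h]
  have h2 : ∀ z : I, ⌊(2 : ℝ) ^ n * (z : ℝ)⌋₊ = ⌊(2 : ℝ) ^ (n + 1) * (z : ℝ)⌋₊ / 2 := by
    intro z
    rw [← Nat.floor_div_ofNat]
    congr 1
    rw [pow_succ]
    ring
  apply Fin.ext
  rw [dig_val, dig_val, h2, h2, h1]

lemma dig_approx (n : ℕ) (x : I) :
    |((dig n x : Fin (2 ^ n + 1)) : ℕ) / (2 : ℝ) ^ n - (x : ℝ)| ≤ 1 / 2 ^ n := by
  rw [dig_val]
  have h0 : (0 : ℝ) < 2 ^ n := by positivity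
  have h1 : (⌊(2 : ℝ) ^ n * (x : ℝ)⌋₊ : ℝ) ≤ 2 ^ n * x := Nat.floor_le (mul_nonneg h0.le x.2.1)
  have h2 : (2 : ℝ) ^ n * x < ⌊(2 : ℝ) ^ n * (x : ℝ)⌋₊ + 1 := Nat.lt_floor_add_one _
  rw [abs_le]
  constructor
  · rw [neg_le_sub_iff_le_add, ← add_div, le_div_iff₀ h0]
    nlinarith
  · rw [sub_le_iff_le_add, div_le_iff₀ h0, add_mul, one_div, inv_mul_cancel₀ h0.ne']
    nlinarith

section levy

variable {κ : Type*}

/-- the digits of a configuration on a finite set -/
noncomputable def DD (J : Finset κ) (n : ℕ) (L : κ → I) : J → Fin (2 ^ n + 1) :=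
  fun b => dig n (L b.1)

/-- agreement on the digits of order `n` on `J` -/
def agree (J : Finset κ) (n : ℕ) (l : κ → I) : Set (κ → I) :=
  {L | ∀ b ∈ J, dig n (L b) = dig n (l b)}

lemma DD_eq_iff (J : Finset κ) (n : ℕ) (L l : κ → I) :
    DD J n L = DD J n l ↔ ∀ b ∈ J, dig n (L b) = dig n (l b) := by
  constructor
  · intro h b hb
    exact congrFun h ⟨b, hb⟩
  · intro h
    funext b
    exact h b.1 b.2

lemma agree_eq (J : Finset κ) (n : ℕ) (l : κ → I) : agree J n l = DD J n ⁻¹' {DD J n l} := by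
  ext L
  exact (DD_eq_iff J n L l).symm

lemma measurable_DD (J : Finset κ) (n : ℕ) : Measurable (DD J n) := by
  rw [measurable_pi_iff]
  intro b
  exact (measurable_dig n).comp (measurable_pi_apply _)

lemma measurableSet_agree (J : Finset κ) (n : ℕ) (l : κ → I) : MeasurableSet (agree J n l) := by
  rw [agree_eq]
  exact measurable_DD J n (MeasurableSet.singleton _)

/-- the filtration of digits -/
noncomputable def digFilt {J : ℕ → Finset κ} (hJ : Monotone J) :
    Filtration ℕ (inferInstance : MeasurableSpace (κ → I)) where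
  seq n := MeasurableSpace.comap (DD (J n) n) ⊤
  mono' := by
    refine monotone_nat_of_le_succ fun n => ?_
    rintro _ ⟨A, -, rfl⟩
    refine ⟨DD (J (n + 1)) (n + 1) '' (DD (J n) n ⁻¹' A), trivial, ?_⟩
    ext L
    constructor
    · rintro ⟨L', hL', h⟩
      have h1 := (DD_eq_iff _ _ _ _).1 h
      have h2 : DD (J n) n L' = DD (J n) n L :=
        (DD_eq_iff _ _ _ _).2 fun b hb => dig_succ (h1 b (hJ (Nat.le_succ n) hb))
      have h3 : DD (J n) n L' ∈ A := hL'
      rw [h2] at h3
      exact h3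
    · intro h
      exact ⟨L, h, rfl⟩
  le' n := by
    rintro _ ⟨A, -, rfl⟩
    exact measurable_DD (J n) n (MeasurableSet.of_discrete)

lemma pi_le_iSup {J : ℕ → Finset κ} (hJ : Monotone J) (hcov : ∀ b, ∃ n, b ∈ J n) :
    (inferInstance : MeasurableSpace (κ → I)) ≤ ⨆ n, (digFilt hJ) n := by
  have key : ∀ b : κ, Measurable[⨆ n, (digFilt hJ) n] (fun L : κ → I => L b) := by
    intro b
    obtain ⟨n0, hn0⟩ := hcov b
    have h1 : ∀ n : ℕ, Measurable[⨆ n, (digFilt hJ) n]
        (fun L : κ → I => ((dig (n + n0) (L b) : Fin (2 ^ (n + n0) + 1)) : ℕ) /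
          (2 : ℝ) ^ (n + n0)) := by
      intro n
      have hb : b ∈ J (n + n0) := hJ (Nat.le_add_left n0 n) hn0
      have h2 : Measurable[(digFilt hJ) (n + n0)]
          (fun L : κ → I => ((dig (n + n0) (L b) : Fin (2 ^ (n + n0) + 1)) : ℕ) /
            (2 : ℝ) ^ (n + n0)) := by
        intro s _
        refine ⟨{a | ((a ⟨b, hb⟩ : Fin (2 ^ (n + n0) + 1)) : ℕ) / (2 : ℝ) ^ (n + n0) ∈ s},
          trivial, rfl⟩
      exact h2.mono (le_iSup (fun n => (digFilt hJ) n) (n + n0)) le_rfl
    have h3 : Measurable[⨆ n, (digFilt hJ) n] (fun L : κ → I => (L b : ℝ)) := by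
      refine @measurable_of_tendsto_metrizable _ _ (⨆ n, (digFilt hJ) n) _ _ _ _ _ _ h1 ?_
      rw [tendsto_pi_nhds]
      intro L
      rw [tendsto_iff_dist_tendsto_zero]
      refine squeeze_zero (fun _ => dist_nonneg) (fun n => ?_)
        (tendsto_pow_atTop_nhds_zero_of_lt_one (by norm_num : (0 : ℝ) ≤ 1 / 2) (by norm_num))
      rw [Real.dist_eq]
      refine (dig_approx (n + n0) (L b)).trans ?_
      rw [one_div_pow]
      exact one_div_le_one_div_of_le (by positivity)
        (pow_le_pow_right₀ (by norm_num) (Nat.le_add_right n n0))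
    exact @Measurable.subtype_mk _ _ (⨆ n, (digFilt hJ) n) _ _ _ h3 fun L => (L b).2
  have h4 : (MeasurableSpace.pi : MeasurableSpace (κ → I)) ≤ ⨆ n, (digFilt hJ) n :=
    iSup_le fun b => (key b).comap_le
  exact h4

theorem ratio_tendsto (μ : Measure (κ → I)) [IsProbabilityMeasure μ] {J : ℕ → Finset κ}
    (hJ : Monotone J) (hcov : ∀ b, ∃ n, b ∈ J n) (A : Set (κ → I)) (hA : MeasurableSet A) :
    ∀ᵐ l ∂μ, Tendsto (fun n => μ.real (A ∩ agree (J n) n l) / μ.real (agree (J n) n l)) atTop
      (𝓝 (A.indicator (fun _ => (1 : ℝ)) l)) := by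
  classical
  set f : (κ → I) → ℝ := A.indicator (fun _ => (1 : ℝ)) with hf
  have hfi : Integrable f μ := (integrable_const _).indicator hA
  have hle : (⨆ n, (digFilt hJ) n) ≤ (inferInstance : MeasurableSpace (κ → I)) :=
    iSup_le fun n => (digFilt hJ).le n
  have h1 := tendsto_ae_condExp (ℱ := digFilt hJ) (μ := μ) f
  have h2 : μ[f | ⨆ n, (digFilt hJ) n] = f := by
    refine condExp_of_stronglyMeasurable hle ?_ hfi
    have : Measurable[⨆ n, (digFilt hJ) n] f :=
      (measurable_const.indicator hA).mono (pi_le_iSup hJ hcov) le_rfl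
    exact this.stronglyMeasurable
  have h3 : ∀ n, (fun l => fibMean μ f (DD (J n) n) (DD (J n) n l)) =ᵐ[μ] μ[f | (digFilt hJ) n] :=
    fun n => condExp_fib μ f hfi (DD (J n) n) fun a => measurable_DD (J n) n
      (MeasurableSet.singleton a)
  have h4 := ae_all_iff.2 h3
  filter_upwards [h1, h4] with l hl1 hl2
  rw [h2] at hl1
  refine hl1.congr fun n => ?_
  rw [← hl2 n]
  unfold fibMean
  rw [← agree_eq, hf]
  congr 1
  rw [integral_indicator hA, Measure.restrict_restrict hA]
  simp

end levy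

/-! ### canonical equivariant version -/

section equivariant

variable {V : Type*}

/-- the action of a permutation of the sites on the labels -/
def act (g : V → V) (L : V × ℕ → I) : V × ℕ → I := fun b => L (g b.1, b.2)

lemma measurable_act (g : V → V) : Measurable (act g) := by
  rw [measurable_pi_iff]
  intro b
  exact measurable_pi_apply _

/-- the explicit conditional probabilities -/
noncomputable def rat (μ : Measure (V × ℕ → I)) (F : (V × ℕ → I) → (V → Bool))
    (B : V → ℕ → Finset V) (v : V) (n : ℕ) (l : V × ℕ → I) : ℝ :=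
  μ.real ({L | F L v = true} ∩ agree (B v n ×ˢ Finset.range n) n l) /
    μ.real (agree (B v n ×ˢ Finset.range n) n l)

lemma measurable_rat (μ : Measure (V × ℕ → I)) (F : (V × ℕ → I) → (V → Bool))
    (B : V → ℕ → Finset V) (v : V) (n : ℕ) : Measurable (rat μ F B v n) := by
  set J := B v n ×ˢ Finset.range n with hJ
  have h : rat μ F B v n = (fun a : J → Fin (2 ^ n + 1) =>
      μ.real ({L | F L v = true} ∩ DD J n ⁻¹' {a}) / μ.real (DD J n ⁻¹' {a})) ∘ DD J n := by
    funext l
    simp only [rat, Function.comp, ← hJ, agree_eq]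
  rw [h]
  exact (measurable_of_countable _).comp (measurable_DD J n)

/-- the canonical version -/
noncomputable def canon (μ : Measure (V × ℕ → I)) (F : (V × ℕ → I) → (V → Bool))
    (B : V → ℕ → Finset V) (l : V × ℕ → I) (v : V) : Bool :=
  open Classical in decide (1 / 2 < limsup (fun n => rat μ F B v n l) atTop)

lemma measurable_canon (μ : Measure (V × ℕ → I)) (F : (V × ℕ → I) → (V → Bool))
    (B : V → ℕ → Finset V) : Measurable (canon μ F B) := by
  rw [measurable_pi_iff]
  intro v
  have h1 : Measurable fun l => limsup (fun n => rat μ F B v n l) atTop :=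
    Measurable.limsup fun n => measurable_rat μ F B v n
  have h2 : MeasurableSet {l | 1 / 2 < limsup (fun n => rat μ F B v n l) atTop} :=
    measurableSet_lt measurable_const h1
  refine measurable_to_bool ?_
  have h3 : (fun l => canon μ F B l v) ⁻¹' {true} =
      {l | 1 / 2 < limsup (fun n => rat μ F B v n l) atTop} := by
    ext l
    simp [canon]
  rw [h3]
  exact h2

theorem canon_ae [Countable V] (μ : Measure (V × ℕ → I)) [IsProbabilityMeasure μ]
    (F : (V × ℕ → I) → (V → Bool)) (hF : Measurable F) (B : V → ℕ → Finset V)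
    (hmono : ∀ v, Monotone (B v)) (hcov : ∀ v w, ∃ n, w ∈ B v n) :
    ∀ᵐ l ∂μ, canon μ F B l = F l := by
  have h1 : ∀ v, ∀ᵐ l ∂μ, Tendsto (fun n => rat μ F B v n l) atTop
      (𝓝 (({L | F L v = true}).indicator (fun _ => (1 : ℝ)) l)) := by
    intro v
    refine ratio_tendsto μ (J := fun n => B v n ×ˢ Finset.range n) ?_ ?_ _ ?_
    · intro n m hnm
      exact Finset.product_subset_product (hmono v hnm) (Finset.range_mono hnm)
    · rintro ⟨w, k⟩
      obtain ⟨n, hn⟩ := hcov v w
      refine ⟨max n (k + 1), ?_⟩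
      rw [Finset.mem_product]
      exact ⟨hmono v (le_max_left _ _) hn, Finset.mem_range.2 (by
        have := le_max_right n (k + 1)
        simp only
        omega)⟩
    · exact ((measurable_pi_apply v).comp hF) (MeasurableSet.singleton true)
  filter_upwards [ae_all_iff.2 h1] with l hl
  funext v
  have h2 := (hl v).limsup_eq
  unfold canon
  rw [h2]
  by_cases h3 : F l v = true
  · rw [Set.indicator_of_mem (show l ∈ {L | F L v = true} from h3), h3]
    norm_num
  · rw [Set.indicator_of_notMem (show l ∉ {L | F L v = true} from h3)]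
    have : F l v = false := by simpa using h3
    rw [this]
    norm_num

lemma rat_act (μ : Measure (V × ℕ → I)) (F : (V × ℕ → I) → (V → Bool)) (hF : Measurable F)
    (B : V → ℕ → Finset V) (g : V ≃ V) (hμ : μ.map (act g) = μ)
    (hFg : ∀ᵐ L ∂μ, F (act g L) = F L ∘ g) (hB : ∀ v n, (B v n).map g.toEmbedding = B (g v) n)
    (v : V) (n : ℕ) (l : V × ℕ → I) : rat μ F B v n (act g l) = rat μ F B (g v) n l := by
  have hag : act g ⁻¹' agree (B v n ×ˢ Finset.range n) n (act g l) =
      agree (B (g v) n ×ˢ Finset.range n) n l := by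
    ext L
    constructor
    · rintro h ⟨w, k⟩ hb
      rw [Finset.mem_product, ← hB, Finset.mem_map] at hb
      obtain ⟨⟨w', hw', hw⟩, hk⟩ := hb
      have h1 := h (w', k) (Finset.mem_product.2 ⟨hw', hk⟩)
      simp only [act] at h1
      have hw2 : g w' = w := hw
      rw [hw2] at h1
      exact h1
    · rintro h ⟨w, k⟩ hb
      rw [Finset.mem_product] at hb
      refine h (g w, k) (Finset.mem_product.2 ⟨?_, hb.2⟩)
      rw [← hB, Finset.mem_map]
      exact ⟨w, hb.1, rfl⟩
  have hmF : MeasurableSet {L | F L v = true} :=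
    ((measurable_pi_apply v).comp hF) (MeasurableSet.singleton true)
  have e1 : μ (agree (B v n ×ˢ Finset.range n) n (act g l)) =
      μ (agree (B (g v) n ×ˢ Finset.range n) n l) := by
    conv_lhs => rw [← hμ]
    rw [Measure.map_apply (measurable_act g) (measurableSet_agree _ _ _), hag]
  have e2 : μ ({L | F L v = true} ∩ agree (B v n ×ˢ Finset.range n) n (act g l)) =
      μ ({L | F L (g v) = true} ∩ agree (B (g v) n ×ˢ Finset.range n) n l) := by
    conv_lhs => rw [← hμ]
    rw [Measure.map_apply (measurable_act g) (hmF.inter (measurableSet_agree _ _ _)),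
      preimage_inter, hag]
    refine measure_congr ?_
    refine Filter.EventuallyEq.inter ?_ (ae_eq_refl _)
    filter_upwards [hFg] with L hL
    change (F (act g L) v = true) = (F L (g v) = true)
    rw [hL]
    rfl
  unfold rat
  rw [measureReal_def, measureReal_def, measureReal_def, measureReal_def, e1, e2]

lemma canon_act (μ : Measure (V × ℕ → I)) (F : (V × ℕ → I) → (V → Bool)) (hF : Measurable F)
    (B : V → ℕ → Finset V) (g : V ≃ V) (hμ : μ.map (act g) = μ)
    (hFg : ∀ᵐ L ∂μ, F (act g L) = F L ∘ g) (hB : ∀ v n, (B v n).map g.toEmbedding = B (g v) n)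
    (l : V × ℕ → I) : canon μ F B (act g l) = canon μ F B l ∘ g := by
  funext v
  simp only [canon, Function.comp, rat_act μ F hF B g hμ hFg hB]

/-- (FIN2) an invariant coupling in which the configuration is a function of the labels gives an
everywhere equivariant factor map. -/
theorem exists_equivariant [Countable V] (𝒢 : Set (V ≃ V))
    (P : Measure ((V → Bool) × (V × ℕ → I))) [IsProbabilityMeasure P]
    (hP2 : P.map Prod.snd = μI (V × ℕ))
    (hinv : ∀ g ∈ 𝒢, P.map (fun p => (p.1 ∘ g, fun b : V × ℕ => p.2 (g b.1, b.2))) = P)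
    (B : V → ℕ → Finset V) (hmono : ∀ v, Monotone (B v)) (hcov : ∀ v w, ∃ n, w ∈ B v n)
    (hB : ∀ g ∈ 𝒢, ∀ v n, (B v n).map g.toEmbedding = B (g v) n)
    (F : (V × ℕ → I) → (V → Bool)) (hF : Measurable F) (hFP : ∀ᵐ p ∂P, F p.2 = p.1) :
    ∃ Φ : (V → I) → (V → Bool), Measurable Φ ∧ (∀ g ∈ 𝒢, ∀ u, Φ (u ∘ g) = Φ u ∘ g) ∧
      (μI V).map Φ = P.map Prod.fst := by
  obtain ⟨s, hs, hs2⟩ := FIID.exists_split (ℕ ⊕ ℕ)
  set μ := μI (V × ℕ) with hμdef
  -- the action on pairs
  have hact : ∀ g : V ≃ V, Measurable (fun p : (V → Bool) × (V × ℕ → I) =>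
      (p.1 ∘ g, fun b : V × ℕ => p.2 (g b.1, b.2))) := by
    intro g
    refine Measurable.prodMk ?_ ?_
    · rw [measurable_pi_iff]
      intro v
      exact (measurable_pi_apply (g v)).comp measurable_fst
    · exact (measurable_act g).comp measurable_snd
  have hμg : ∀ g ∈ 𝒢, μ.map (act g) = μ := by
    intro g hg
    conv_rhs => rw [← hP2, ← hinv g hg]
    rw [← hP2, Measure.map_map (measurable_act g) measurable_snd,
      Measure.map_map measurable_snd (hact g)]
    rfl
  have hFg : ∀ g ∈ 𝒢, ∀ᵐ L ∂μ, F (act g L) = F L ∘ g := by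
    intro g hg
    have hms : MeasurableSet {L : V × ℕ → I | F (act g L) = F L ∘ g} := by
      refine measurableSet_eq_fun (hF.comp (measurable_act g)) ?_
      rw [measurable_pi_iff]
      intro v
      exact (measurable_pi_apply (g v)).comp hF
    have h1 : ∀ᵐ p ∂P, F (act g p.2) = p.1 ∘ g := by
      have h2 : ∀ᵐ p ∂(P.map (fun p => (p.1 ∘ g, fun b : V × ℕ => p.2 (g b.1, b.2)))),
          F p.2 = p.1 := by
        rw [hinv g hg]
        exact hFP
      exact ae_of_ae_map (hact g).aemeasurable h2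
    rw [← hP2, ae_map_iff measurable_snd.aemeasurable hms]
    filter_upwards [h1, hFP] with p h3 h4
    rw [h3, h4]
  set Ls : (V → I) → (V × ℕ → I) := FIID.lab1 s with hLs
  have hLm : Measurable Ls := FIID.measurable_lab1 hs
  have hLmap : (μI V).map Ls = μ := by
    have h1 := FIID.map_lab (V := V) hs hs2
    have h2 := congrArg (fun m => Measure.map Prod.fst m) h1
    rw [Measure.map_map measurable_fst (hLm.prodMk (FIID.measurable_lab2 hs))] at h2
    have h4 : (μI V).map Ls = Measure.map Prod.fst ((μI (V × ℕ)).prod (μI (V × ℕ))) := h2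
    rw [h4]
    exact Measure.fst_prod
  refine ⟨fun u => canon μ F B (Ls u), (measurable_canon μ F B).comp hLm, ?_, ?_⟩
  · intro g hg u
    have h1 : Ls (u ∘ g) = act g (Ls u) := rfl
    simp only [h1]
    exact canon_act μ F hF B g (hμg g hg) (hFg g hg) (hB g hg) (Ls u)
  · have h1 : (μI V).map (fun u => canon μ F B (Ls u)) = μ.map (canon μ F B) := by
      rw [← hLmap, Measure.map_map (measurable_canon _ F B) hLm]
      rfl
    rw [h1, Measure.map_congr (canon_ae μ F hF B hmono hcov), ← hP2,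
      Measure.map_map hF measurable_snd]
    refine Measure.map_congr ?_
    filter_upwards [hFP] with p hp
    exact hp

end equivariant

end Crest.Agent.TI
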