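import Mathlib

/-!
Row 160 (S0241).  General facts about independent identically distributed labels.
-/

set_option autoImplicit false

namespace Crest.Agent.TI

open MeasureTheory Set Filter Topology ProbabilityTheory
open scoped ENNReal

section iid

variable {ι κ X : Type*} [MeasurableSpace X]

/-- reindexing iid labels along an injective map -/
theorem iid_map_inj (lam : Measure X) [IsProbabilityMeasure lam] (e : ι → κ)
    (he : Function.Injective e) :
    (Measure.infinitePi fun _ : κ => lam).map (fun ω i => ω (e i)) =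
      Measure.infinitePi fun _ : ι => lam := by
  classical
  refine Measure.eq_infinitePi _ fun s t ht => ?_
  have hm : Measurable (fun (ω : κ → X) (i : ι) => ω (e i)) := by fun_prop
  rw [Measure.map_apply hm (.pi s.countable_toSet fun _ _ => ht _)]
  have h1 : (fun (ω : κ → X) (i : ι) => ω (e i)) ⁻¹' ((s : Set ι).pi t) =
      ((s.map ⟨e, he⟩ : Finset κ) : Set κ).pi
        (fun k => if h : ∃ i, e i = k then t h.choose else univ) := by
    ext ω
    simp only [mem_preimage, Set.mem_pi, Finset.coe_map, Function.Embedding.coeFn_mk, mem_image,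
      Finset.mem_coe, forall_exists_index, and_imp, forall_apply_eq_imp_iff₂]
    refine forall₂_congr fun i hi => ?_
    have hex : ∃ j, e j = e i := ⟨i, rfl⟩
    rw [dif_pos hex]
    have : hex.choose = i := he hex.choose_spec
    rw [this]
  rw [h1, Measure.infinitePi_pi]
  · rw [Finset.prod_map]
    refine Finset.prod_congr rfl fun i hi => ?_
    have hex : ∃ j, e j = e i := ⟨i, rfl⟩
    simp only [Function.Embedding.coeFn_mk]
    rw [dif_pos hex]
    have : hex.choose = i := he hex.choose_spec
    rw [this]
  · intro k hk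
    split_ifs with h
    · exact ht _
    · exact MeasurableSet.univ

lemma measurable_updateG [DecidableEq ι] (i : ι) :
    Measurable (fun p : (ι → X) × X => Function.update p.1 i p.2) := by
  rw [measurable_pi_iff]
  intro j
  by_cases h : j = i
  · subst h; simpa using measurable_snd
  · simp only [Function.update_of_ne h]
    exact (measurable_pi_apply j).comp measurable_fst

/-- resampling one coordinate -/
theorem iid_map_update [DecidableEq ι] (lam : ι → Measure X) [∀ i, IsProbabilityMeasure (lam i)]
    (i : ι) :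
    ((Measure.infinitePi lam).prod (lam i)).map (fun p => Function.update p.1 i p.2) =
      Measure.infinitePi lam := by
  refine Measure.eq_infinitePi _ fun s t ht => ?_
  rw [Measure.map_apply (measurable_updateG i) (.pi s.countable_toSet fun _ _ => ht _)]
  by_cases hi : i ∈ s
  · have h1 : (fun p : (ι → X) × X => Function.update p.1 i p.2) ⁻¹' ((s : Set ι).pi t) =
        (((s.erase i : Finset ι) : Set ι).pi t) ×ˢ (t i) := by
      ext p
      simp only [mem_preimage, Set.mem_pi, mem_prod]
      constructor
      · intro h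
        refine ⟨fun j hj => ?_, ?_⟩
        · have hj' := Finset.mem_erase.1 (Finset.mem_coe.1 hj)
          have := h j (Finset.mem_coe.2 hj'.2)
          rwa [Function.update_of_ne hj'.1] at this
        · have := h i (Finset.mem_coe.2 hi)
          rwa [Function.update_self] at this
      · rintro ⟨h1, h2⟩ j hj
        by_cases hji : j = i
        · subst hji; rwa [Function.update_self]
        · rw [Function.update_of_ne hji]
          exact h1 j (Finset.mem_coe.2 (Finset.mem_erase.2 ⟨hji, hj⟩))
    rw [h1, Measure.prod_prod, Measure.infinitePi_pi _ (fun j _ => ht j), mul_comm,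
      Finset.mul_prod_erase s (fun j => lam j (t j)) hi]
  · have h1 : (fun p : (ι → X) × X => Function.update p.1 i p.2) ⁻¹' ((s : Set ι).pi t) =
        ((s : Set ι).pi t) ×ˢ univ := by
      ext p
      simp only [mem_preimage, Set.mem_pi, mem_prod, mem_univ, and_true]
      refine forall₂_congr fun j hj => ?_
      have : j ≠ i := fun h => hi (h ▸ (Finset.mem_coe.1 hj))
      rw [Function.update_of_ne this]
    rw [h1, Measure.prod_prod, Measure.infinitePi_pi _ (fun j _ => ht j)]
    simp

theorem iid_integral_update [DecidableEq ι] (lam : ι → Measure X)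
    [∀ i, IsProbabilityMeasure (lam i)] (i : ι) (f : (ι → X) → ℝ)
    (hf : Integrable f (Measure.infinitePi lam)) :
    ∫ ω, f ω ∂(Measure.infinitePi lam) =
      ∫ ω, (∫ a, f (Function.update ω i a) ∂(lam i)) ∂(Measure.infinitePi lam) := by
  have h1 := iid_map_update lam i
  have hf' : Integrable f (((Measure.infinitePi lam).prod (lam i)).map
      (fun p => Function.update p.1 i p.2)) := by rw [h1]; exact hf
  conv_lhs => rw [← h1]
  rw [integral_map (measurable_updateG i).aemeasurable hf'.aestronglyMeasurable]
  rw [integral_prod]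
  exact hf'.comp_measurable (measurable_updateG i)

theorem iid_lintegral_update [DecidableEq ι] (lam : ι → Measure X)
    [∀ i, IsProbabilityMeasure (lam i)] (i : ι) (f : (ι → X) → ℝ≥0∞) (hf : Measurable f) :
    ∫⁻ ω, f ω ∂(Measure.infinitePi lam) =
      ∫⁻ ω, (∫⁻ a, f (Function.update ω i a) ∂(lam i)) ∂(Measure.infinitePi lam) := by
  conv_lhs => rw [← iid_map_update lam i]
  rw [lintegral_map hf (measurable_updateG i)]
  exact lintegral_prod (fun p : (ι → X) × X => f (Function.update p.1 i p.2))
    (hf.comp (measurable_updateG i)).aemeasurable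

/-- gluing two independent copies -/
theorem iid_glue (lam : ι → Measure X) [∀ i, IsProbabilityMeasure (lam i)] (A : Set ι)
    [DecidablePred (· ∈ A)] :
    ((Measure.infinitePi lam).prod (Measure.infinitePi lam)).map
      (fun p i => if i ∈ A then p.1 i else p.2 i) = Measure.infinitePi lam := by
  classical
  have hm : Measurable (fun (p : (ι → X) × (ι → X)) i => if i ∈ A then p.1 i else p.2 i) := by
    rw [measurable_pi_iff]
    intro i
    by_cases h : i ∈ A
    · simp only [h, if_true]; fun_prop
    · simp only [h, if_false]; fun_prop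
  refine Measure.eq_infinitePi _ fun s t ht => ?_
  rw [Measure.map_apply hm (.pi s.countable_toSet fun _ _ => ht _)]
  have h1 : (fun (p : (ι → X) × (ι → X)) i => if i ∈ A then p.1 i else p.2 i) ⁻¹'
      ((s : Set ι).pi t) =
      (((s.filter (· ∈ A) : Finset ι) : Set ι).pi t) ×ˢ
        (((s.filter (fun i => ¬ i ∈ A) : Finset ι) : Set ι).pi t) := by
    ext p
    simp only [mem_preimage, Set.mem_pi, mem_prod, Finset.coe_filter, mem_ofPred_eq,
      Finset.mem_coe]
    constructor
    · intro h
      refine ⟨fun i hi => ?_, fun i hi => ?_⟩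
      · have := h i hi.1
        rwa [if_pos hi.2] at this
      · have := h i hi.1
        rwa [if_neg hi.2] at this
    · rintro ⟨h1, h2⟩ i hi
      by_cases hA : i ∈ A
      · rw [if_pos hA]; exact h1 i ⟨hi, hA⟩
      · rw [if_neg hA]; exact h2 i ⟨hi, hA⟩
  rw [h1, Measure.prod_prod, Measure.infinitePi_pi _ (fun j _ => ht j),
    Measure.infinitePi_pi _ (fun j _ => ht j)]
  exact Finset.prod_filter_mul_prod_filter_not s (· ∈ A) (fun i => lam i (t i))

end iid

section glue

variable {α β γ γ' : Type*} [MeasurableSpace α] [MeasurableSpace β] [MeasurableSpace γ]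
  [MeasurableSpace γ']

theorem glue_prod (P : Measure α) (Q : Measure β) [SFinite P] [SFinite Q]
    (g1 : α × α → α) (g2 : β × β → β) (m1 : Measurable g1) (m2 : Measurable g2)
    (h1 : (P.prod P).map g1 = P) (h2 : (Q.prod Q).map g2 = Q) :
    ((P.prod Q).prod (P.prod Q)).map (fun z => (g1 (z.1.1, z.2.1), g2 (z.1.2, z.2.2))) =
      P.prod Q := by
  have hm : Measurable (fun z : (α × β) × (α × β) => (g1 (z.1.1, z.2.1), g2 (z.1.2, z.2.2))) := by
    fun_prop
  refine Measure.ext_of_lintegral _ fun F hF => ?_
  rw [lintegral_map hF hm]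
  have hFm : Measurable (fun z : (α × β) × (α × β) => F (g1 (z.1.1, z.2.1), g2 (z.1.2, z.2.2))) :=
    hF.comp hm
  rw [lintegral_prod _ hFm.aemeasurable]
  have hG : Measurable (fun z : α × β => ∫⁻ (y : α × β), F (g1 (z.1, y.1), g2 (z.2, y.2))
      ∂(P.prod Q)) := by
    exact Measurable.lintegral_prod_right' (f := fun z : (α × β) × (α × β) =>
      F (g1 (z.1.1, z.2.1), g2 (z.1.2, z.2.2))) (hF.comp hm)
  rw [lintegral_prod _ hG.aemeasurable]
  have e1 : ∀ (a : α) (b : β), ∫⁻ (y : α × β), F (g1 (a, y.1), g2 (b, y.2)) ∂(P.prod Q) =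
      ∫⁻ a', ∫⁻ b', F (g1 (a, a'), g2 (b, b')) ∂Q ∂P := fun a b => by
    rw [lintegral_prod]
    exact (hF.comp (by fun_prop : Measurable (fun y : α × β =>
      (g1 (a, y.1), g2 (b, y.2))))).aemeasurable
  simp only [e1]
  have e2 : ∀ a : α, ∫⁻ b, ∫⁻ a', ∫⁻ b', F (g1 (a, a'), g2 (b, b')) ∂Q ∂P ∂Q =
      ∫⁻ a', ∫⁻ b, F (g1 (a, a'), b) ∂Q ∂P := fun a => by
    rw [lintegral_lintegral_swap]
    · refine lintegral_congr fun a' => ?_
      conv_rhs => rw [← h2]
      rw [lintegral_map (by fun_prop) m2, lintegral_prod]
      exact (hF.comp (by fun_prop : Measurable (fun y : β × β =>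
        (g1 (a, a'), g2 y)))).aemeasurable
    · have : Measurable (fun q : (β × α) × β => F (g1 (a, q.1.2), g2 (q.1.1, q.2))) :=
        hF.comp (by fun_prop)
      exact (Measurable.lintegral_prod_right' this).aemeasurable
  simp only [e2]
  have e3 : ∫⁻ a, ∫⁻ a', ∫⁻ b, F (g1 (a, a'), b) ∂Q ∂P ∂P = ∫⁻ a, ∫⁻ b, F (a, b) ∂Q ∂P := by
    have hH : Measurable (fun a : α => ∫⁻ b, F (a, b) ∂Q) := Measurable.lintegral_prod_right' hF
    conv_rhs => rw [← h1]
    have hHm : Measurable (fun z : α × α => ∫⁻ b, F (g1 z, b) ∂Q) := hH.comp m1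
    rw [lintegral_map hH m1, lintegral_prod _ hHm.aemeasurable]
  rw [e3, lintegral_prod _ hF.aemeasurable]

/-- two functions that depend on complementary parts of the randomness are independent -/
theorem law_pair_of_glue (M : Measure α) [SFinite M] (G : α × α → α) (hG : Measurable G)
    (hM : (M.prod M).map G = M) (f : α → γ) (g : α → γ') (hf : Measurable f) (hg : Measurable g)
    (hfG : ∀ z, f (G z) = f z.1) (hgG : ∀ z, g (G z) = g z.2) :
    M.map (fun x => (f x, g x)) = (M.map f).prod (M.map g) := by
  conv_lhs => rw [← hM]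
  rw [Measure.map_map (hf.prodMk hg) hG, Measure.map_prod_map _ _ hf hg]
  congr 1
  funext z
  exact Prod.ext (hfG z) (hgG z)

end glue

end Crest.Agent.TI
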