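import Mathlib
import Crest.Agent.TIIid

/-!
Row 160 (S0241).  Block independence under infinite product measures.  Owner: helper8.
-/

set_option autoImplicit false

namespace Crest.Agent.TI

open MeasureTheory Set Filter Topology ProbabilityTheory
open scoped ENNReal

section unzip

variable {ι α β : Type*} [MeasurableSpace α] [MeasurableSpace β]

lemma measurable_unzip : Measurable (fun (ω : ι → α × β) =>
    ((fun i => (ω i).1 : ι → α), (fun i => (ω i).2 : ι → β))) := by
  fun_prop

/-- iid pairs are pairs of independent iid families. -/
theorem map_unzip (μ : Measure α) (ν : Measure β) [IsProbabilityMeasure μ]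
    [IsProbabilityMeasure ν] :
    (Measure.infinitePi fun _ : ι => μ.prod ν).map
        (fun ω => ((fun i => (ω i).1 : ι → α), (fun i => (ω i).2 : ι → β))) =
      (Measure.infinitePi fun _ : ι => μ).prod (Measure.infinitePi fun _ : ι => ν) := by
  symm
  have huniv1 : (univ : Set (ι → α)) ∈
      squareCylinders (fun _ : ι => {s : Set α | MeasurableSet s}) := by
    refine ⟨∅, fun _ => univ, ?_, by simp⟩
    intro i _
    exact MeasurableSet.univ
  have huniv2 : (univ : Set (ι → β)) ∈
      squareCylinders (fun _ : ι => {s : Set β | MeasurableSet s}) := by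
    refine ⟨∅, fun _ => univ, ?_, by simp⟩
    intro i _
    exact MeasurableSet.univ
  refine Measure.prod_eq_generateFrom (C := squareCylinders (fun _ : ι => {s : Set α | MeasurableSet s}))
    (D := squareCylinders (fun _ : ι => {s : Set β | MeasurableSet s}))
    generateFrom_squareCylinders generateFrom_squareCylinders
    (isPiSystem_squareCylinders (fun _ => MeasurableSpace.isPiSystem_measurableSet) (by simp))
    (isPiSystem_squareCylinders (fun _ => MeasurableSpace.isPiSystem_measurableSet) (by simp))
    ⟨fun _ => univ, fun _ => huniv1, fun _ => measure_lt_top _ _, iUnion_const _⟩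
    ⟨fun _ => univ, fun _ => huniv2, fun _ => measure_lt_top _ _, iUnion_const _⟩ ?_
  classical
  rintro _ ⟨s, t, ht, rfl⟩ _ ⟨s', t', ht', rfl⟩
  have ht1 : ∀ i, MeasurableSet (t i) := fun i => ht i (mem_univ i)
  have ht2 : ∀ i, MeasurableSet (t' i) := fun i => ht' i (mem_univ i)
  rw [Measure.map_apply measurable_unzip
    ((MeasurableSet.pi s.countable_toSet fun i _ => ht1 i).prod
      (MeasurableSet.pi s'.countable_toSet fun i _ => ht2 i))]
  set u : ι → Set α := fun i => if i ∈ s then t i else univ with hu
  set u' : ι → Set β := fun i => if i ∈ s' then t' i else univ with hu'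
  have e1 : (fun (ω : ι → α × β) => ((fun i => (ω i).1 : ι → α), (fun i => (ω i).2 : ι → β))) ⁻¹'
      ((s : Set ι).pi t ×ˢ (s' : Set ι).pi t') =
      ((s ∪ s' : Finset ι) : Set ι).pi (fun i => u i ×ˢ u' i) := by
    ext ω
    simp only [mem_preimage, mem_prod, Set.mem_pi, Finset.mem_coe, Finset.mem_union, hu, hu']
    constructor
    · rintro ⟨h1, h2⟩ i _
      constructor
      · split_ifs with h
        · exact h1 i h
        · exact mem_univ _
      · split_ifs with h
        · exact h2 i h
        · exact mem_univ _
    · intro h
      constructor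
      · intro i hi
        have := (h i (Or.inl hi)).1
        rwa [if_pos hi] at this
      · intro i hi
        have := (h i (Or.inr hi)).2
        rwa [if_pos hi] at this
  have hum : ∀ i, MeasurableSet (u i) := by
    intro i; simp only [hu]; split_ifs
    · exact ht1 i
    · exact MeasurableSet.univ
  have hum' : ∀ i, MeasurableSet (u' i) := by
    intro i; simp only [hu']; split_ifs
    · exact ht2 i
    · exact MeasurableSet.univ
  rw [e1, Measure.infinitePi_pi _ (fun i _ => (hum i).prod (hum' i)),
    Measure.infinitePi_pi _ (fun i _ => ht1 i), Measure.infinitePi_pi _ (fun i _ => ht2 i)]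
  simp only [Measure.prod_prod]
  rw [Finset.prod_mul_distrib]
  congr 1
  · rw [← Finset.prod_subset (Finset.subset_union_left (s₁ := s) (s₂ := s'))]
    · refine Finset.prod_congr rfl fun i hi => ?_
      simp only [hu, if_pos hi]
    · intro i _ hi
      simp only [hu, if_neg hi, measure_univ]
  · rw [← Finset.prod_subset (Finset.subset_union_right (s₁ := s) (s₂ := s'))]
    · refine Finset.prod_congr rfl fun i hi => ?_
      simp only [hu', if_pos hi]
    · intro i _ hi
      simp only [hu', if_neg hi, measure_univ]

end unzip

section blocks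

variable {ι κ X : Type*} [MeasurableSpace X]

/-- restrictions of iid labels to pairwise disjoint blocks are independent. -/
theorem iIndepFun_restrict (lam : Measure X) [IsProbabilityMeasure lam] (B : κ → Set ι)
    (hB : Pairwise (Function.onFun Disjoint B)) :
    iIndepFun (fun (k : κ) (ω : ι → X) (i : B k) => ω i)
      (Measure.infinitePi fun _ : ι => lam) := by
  rw [iIndepFun_iff_map_fun_eq_infinitePi_map (by fun_prop)]
  have h1 : ∀ k, (Measure.infinitePi fun _ : ι => lam).map (fun (ω : ι → X) (i : B k) => ω i) =
      Measure.infinitePi fun _ : B k => lam := fun k =>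
    iid_map_inj lam (fun i : B k => (i : ι)) Subtype.val_injective
  simp_rw [h1]
  have hinj : Function.Injective (fun p : (Σ k, B k) => (p.2 : ι)) := by
    rintro ⟨k, i, hi⟩ ⟨l, j, hj⟩ h
    simp only at h
    subst h
    by_cases hkl : k = l
    · subst hkl; rfl
    · exact absurd (Set.disjoint_left.1 (hB hkl) hi hj) (by simp)
  have h2 := iid_map_inj lam (fun p : (Σ k, B k) => (p.2 : ι)) hinj
  have h3 := Measure.infinitePi_map_piCurry (ι := κ) (κ := fun k => B k) (X := fun _ _ => X)
    (fun _ _ => lam)
  rw [← h3, ← h2, Measure.map_map (by fun_prop) (by fun_prop)]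
  rfl

/-- functions of pairwise disjoint blocks of iid labels are independent. -/
theorem iIndepFun_blocks (lam : Measure X) [IsProbabilityMeasure lam] (B : κ → Set ι)
    (hB : Pairwise (Function.onFun Disjoint B)) {Y : κ → Type*} [∀ k, MeasurableSpace (Y k)]
    (g : (k : κ) → (B k → X) → Y k) (hg : ∀ k, Measurable (g k)) :
    iIndepFun (fun (k : κ) (ω : ι → X) => g k (fun i : B k => ω i))
      (Measure.infinitePi fun _ : ι => lam) :=
  (iIndepFun_restrict lam B hB).comp g hg

/-- two-block version. -/
theorem indepFun_blocks (lam : Measure X) [IsProbabilityMeasure lam] (A B : Set ι)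
    (hAB : Disjoint A B) {Y Z : Type*} [MeasurableSpace Y] [MeasurableSpace Z]
    (f : (A → X) → Y) (hf : Measurable f) (g : (B → X) → Z) (hg : Measurable g) :
    IndepFun (fun ω : ι → X => f (fun i : A => ω i)) (fun ω : ι → X => g (fun i : B => ω i))
      (Measure.infinitePi fun _ : ι => lam) := by
  have h := iIndepFun_restrict (κ := Bool) lam (fun b => if b then A else B) (by
    intro a b hab
    cases a <;> cases b <;> simp_all [Function.onFun, hAB.symm])
  have h2 := h.indepFun (i := true) (j := false) (by simp)
  exact h2.comp hf hg

end blocks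

end Crest.Agent.TI
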