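import Crest.Agent.TIDefs
import Mathlib.Probability.Kernel.CondDistrib

/-!
Row 160 (S0241).  The replica pair given the clocks and the innovations: definitions.
-/

set_option autoImplicit false

namespace Crest.Agent.TI

open MeasureTheory ProbabilityTheory unitInterval Set Filter Topology

section

variable {d : ℕ}

instance : Countable (W d) := by unfold W; infer_instance

/-- clocks and innovations -/
noncomputable def WWm (θ : ℝ) (q : Cl (W d) × Om (W d)) : Cl (W d) × (W d × ℕ → I) :=
  (q.1, innov θ q.1 q.2)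

/-- law of the configuration and noise given clocks and innovations -/
noncomputable def kap (θ : ℝ) (ν : Measure (W d → Bool)) [IsFiniteMeasure (Pt ν)] :
    Kernel (Cl (W d) × (W d × ℕ → I)) (Om (W d)) :=
  condDistrib Prod.snd (WWm θ) (Pt ν)

/-- clocks, innovations and two replicas -/
noncomputable def pairM (θ : ℝ) (ν : Measure (W d → Bool)) [IsFiniteMeasure (Pt ν)] :
    Measure ((Cl (W d) × (W d × ℕ → I)) × (Om (W d) × Om (W d))) :=
  ((Pt ν).map (WWm θ)) ⊗ₘ (kap θ ν ×ₖ kap θ ν)

/-- the field at time `(k, r)` -/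
noncomputable def yF (k : ℕ) (r : ℝ) (c : Cl (W d)) (p : Om (W d)) : W d → ℝ :=
  fieldAt c (Zc c p) k r

/-- law of the two fields at time `(k, r)` -/
noncomputable def rhoP (θ : ℝ) (ν : Measure (W d → Bool)) [IsFiniteMeasure (Pt ν)] (k : ℕ) (r : ℝ) :
    Measure ((W d → ℝ) × (W d → ℝ)) :=
  (pairM θ ν).map (fun a => (yF k r a.1.1 a.2.1, yF k r a.1.1 a.2.2))

end

/-- the local field at time `(k, r)` seen from a `+` spin, as a function of clocks and noise -/
noncomputable def locY (k : ℕ) (r : ℝ) (q : (ℕ → I) × (ℕ → I)) : ℝ :=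
  ∑ j ∈ Finset.range k, ell (q.1 j) (QK (amp (q.1 j)) (q.2 j)) +
    if (q.1 k : ℝ) < r then ell (q.1 k) (QK (amp (q.1 k)) (q.2 k)) else 0

/-- law of the local field at time `(k, r)` given that the spin is `+` -/
noncomputable def muY (k : ℕ) (r : ℝ) : Measure ℝ := ((μI ℕ).prod (μI ℕ)).map (locY k r)

end Crest.Agent.TI
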