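import Crest.Agent.TINuB
import Crest.Agent.TIBlock
import Crest.Agent.TIPairDefs

/-!
Row 160 (S0241).  Measurability, translations and the global flip.
-/

set_option autoImplicit false

namespace Crest.Agent.TI.Pair

open MeasureTheory ProbabilityTheory unitInterval Set Filter Topology
open scoped ENNReal

/-! ### measurability -/

lemma measurable_artanh : Measurable Real.artanh := by
  unfold Real.artanh
  fun_prop

lemma artanh_neg' (x : ℝ) : Real.artanh (-x) = - Real.artanh x := by
  unfold Real.artanh
  rw [show (1 + -x) / (1 - -x) = ((1 + x) / (1 - x))⁻¹ by rw [inv_div]; ring_nf,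
    Real.sqrt_inv, Real.log_inv]

lemma measurable_tanh : Measurable Real.tanh := Scal.continuous_tanh.measurable

lemma measurable_phi (θ : ℝ) : Measurable (phi θ) :=
  measurable_artanh.comp (measurable_tanh.const_mul θ)

lemma phi_odd (θ h : ℝ) : phi θ (-h) = - phi θ h := by
  unfold phi
  rw [Real.tanh_neg, mul_neg, artanh_neg']

lemma measurable_amp : Measurable amp := by
  unfold amp
  refine Measurable.ite ?_ (measurable_subtype_coe.div_const 2) measurable_const
  exact measurableSet_lt measurable_subtype_coe measurable_const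

lemma measurable_ell : Measurable (fun q : I × I => ell q.1 q.2) := by
  unfold ell
  refine measurable_artanh.comp ((measurable_amp.comp measurable_fst).mul ?_)
  exact measurable_const.sub ((measurable_subtype_coe.comp measurable_snd).const_mul 2)

lemma meas_ell {T : Type*} [MeasurableSpace T] {f g : T → I} (hf : Measurable f)
    (hg : Measurable g) : Measurable (fun t => ell (f t) (g t)) :=
  measurable_ell.comp (hf.prodMk hg)

lemma measurable_clamp : Measurable clamp := by
  unfold clamp
  exact measurable_const.max (measurable_id.min measurable_const)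

lemma measurable_HK : Measurable (fun q : ℝ × I => HK q.1 q.2) := by
  unfold HK hK
  refine continuous_projIcc.measurable.comp ?_
  have h1 : Measurable (fun q : ℝ × I => clamp q.1) := measurable_clamp.comp measurable_fst
  have h2 : Measurable (fun q : ℝ × I => (q.2 : ℝ)) := measurable_subtype_coe.comp measurable_snd
  exact h2.add ((h1.mul h2).mul (measurable_const.sub h2))

lemma measurable_QK : Measurable (fun q : ℝ × I => QK q.1 q.2) := by
  unfold QK fK
  refine continuous_projIcc.measurable.comp ?_
  have h1 : Measurable (fun q : ℝ × I => clamp q.1) := measurable_clamp.comp measurable_fst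
  have h2 : Measurable (fun q : ℝ × I => (q.2 : ℝ)) := measurable_subtype_coe.comp measurable_snd
  refine (h2.const_mul 2).div ((measurable_const.add h1).add ?_)
  exact (((measurable_const.add h1).pow_const 2).sub ((h1.const_mul 4).mul h2)).sqrt

lemma meas_HK {T : Type*} [MeasurableSpace T] {f : T → ℝ} {g : T → I} (hf : Measurable f)
    (hg : Measurable g) : Measurable (fun t => HK (f t) (g t)) :=
  measurable_HK.comp (hf.prodMk hg)

lemma meas_QK {T : Type*} [MeasurableSpace T] {f : T → ℝ} {g : T → I} (hf : Measurable f)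
    (hg : Measurable g) : Measurable (fun t => QK (f t) (g t)) :=
  measurable_QK.comp (hf.prodMk hg)

section meas

variable {V : Type*}

lemma measurable_Zc_at (b : V × ℕ) :
    Measurable (fun q : Cl V × Om V => Zc q.1 q.2 b) := by
  unfold Zc
  have h1 : Measurable (fun q : Cl V × Om V => amp (q.1 b) * sg (q.2.1 b.1)) := by
    refine Measurable.mul (measurable_amp.comp ((measurable_pi_apply b).comp measurable_fst)) ?_
    exact measurable_sg.comp
      ((measurable_pi_apply b.1).comp (measurable_fst.comp measurable_snd))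
  have h2 : Measurable (fun q : Cl V × Om V => q.2.2 b) :=
    (measurable_pi_apply b).comp (measurable_snd.comp measurable_snd)
  exact meas_QK h1 h2

lemma measurable_Zc : Measurable (fun q : Cl V × Om V => Zc q.1 q.2) :=
  measurable_pi_iff.2 measurable_Zc_at

/-- joint measurability of the field, in clocks, observations and time -/
lemma measurable_fieldAt_at (k : ℕ) (v : V) :
    Measurable (fun q : (Cl V × (V × ℕ → I)) × ℝ => fieldAt q.1.1 q.1.2 k q.2 v) := by
  unfold fieldAt
  have he : ∀ j : ℕ, Measurable (fun q : (Cl V × (V × ℕ → I)) × ℝ =>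
      ell (q.1.1 (v, j)) (q.1.2 (v, j))) := fun j =>
    meas_ell ((measurable_pi_apply (v, j)).comp (measurable_fst.comp measurable_fst))
        ((measurable_pi_apply (v, j)).comp (measurable_snd.comp measurable_fst))
  refine (Finset.measurable_fun_sum _ fun j _ => he j).add (Measurable.ite ?_ (he k)
    measurable_const)
  exact measurableSet_lt (measurable_subtype_coe.comp
    ((measurable_pi_apply (v, k)).comp (measurable_fst.comp measurable_fst))) measurable_snd

lemma measurable_fieldAt (k : ℕ) :
    Measurable (fun q : (Cl V × (V × ℕ → I)) × ℝ => fieldAt q.1.1 q.1.2 k q.2) :=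
  measurable_pi_iff.2 fun v => measurable_fieldAt_at k v

lemma meas_fieldAt {T : Type*} [MeasurableSpace T] {f : T → Cl V} {g : T → V × ℕ → I} {r : T → ℝ}
    (k : ℕ) (hf : Measurable f) (hg : Measurable g) (hr : Measurable r) :
    Measurable (fun t => fieldAt (f t) (g t) k (r t)) := by
  have h := (measurable_fieldAt (V := V) k).comp ((hf.prodMk hg).prodMk hr)
  simp only [Function.comp_def] at h
  exact h

end meas

section words

variable {d : ℕ}

lemma measurable_msg (θ : ℝ) (n : ℕ) (w : W d) : Measurable (fun y : W d → ℝ => msg θ y n w) := by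
  induction n generalizing w with
  | zero => exact measurable_pi_apply w
  | succ n ih =>
    change Measurable (fun y : W d → ℝ => y w + ∑ i : Fin d,
      if w.head? = some i then 0 else phi θ (msg θ y n (W.nb i w)))
    refine (measurable_pi_apply w).add (Finset.measurable_fun_sum _ fun i _ => ?_)
    split_ifs
    · exact measurable_const
    · exact (measurable_phi θ).comp (ih _)

lemma measurable_msgI (θ : ℝ) (w : W d) : Measurable (fun y : W d → ℝ => msgI θ y w) := by
  unfold msgI
  exact Measurable.limsup fun n => measurable_msg θ n w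

lemma measurable_mR (θ : ℝ) : Measurable (fun y : W d → ℝ => mR θ y) :=
  measurable_tanh.comp (measurable_msgI θ W.root)

lemma measurable_comp_tr {X : Type*} [MeasurableSpace X] (v : W d) :
    Measurable (fun y : W d → X => y ∘ W.tr v) := by
  rw [measurable_pi_iff]; intro w; exact measurable_pi_apply _

lemma meas_drift {T : Type*} [MeasurableSpace T] {f : T → Cl (W d)} {g : T → W d × ℕ → I}
    (θ : ℝ) (b : W d × ℕ) (hf : Measurable f) (hg : Measurable g) :
    Measurable (fun t => drift θ (f t) (g t) b) := by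
  have h1 : Measurable (fun t => ((f t b : I) : ℝ)) := by
    have := measurable_subtype_coe.comp ((measurable_pi_apply b).comp hf)
    simp only [Function.comp_def] at this
    exact this
  have h2 := meas_fieldAt b.2 hf hg h1
  have h3 := (measurable_comp_tr (X := ℝ) b.1).comp h2
  have h4 := (measurable_mR θ).comp h3
  unfold drift
  simp only [Function.comp_def] at h4 ⊢
  exact h4

lemma meas_Zc {V T : Type*} [MeasurableSpace T] {f : T → Cl V} {g : T → Om V}
    (hf : Measurable f) (hg : Measurable g) : Measurable (fun t => Zc (f t) (g t)) := by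
  have h := (measurable_Zc (V := V)).comp (hf.prodMk hg)
  simp only [Function.comp_def] at h
  exact h

lemma measurable_innov (θ : ℝ) :
    Measurable (fun q : Cl (W d) × Om (W d) => innov θ q.1 q.2) := by
  rw [measurable_pi_iff]
  intro b
  have h2 := meas_drift θ b (measurable_fst (α := Cl (W d)) (β := Om (W d)))
    (meas_Zc measurable_fst measurable_snd)
  have h3 : Measurable (fun q : Cl (W d) × Om (W d) => amp (q.1 b)) := by
    have h5 : Measurable (fun q : Cl (W d) × Om (W d) => q.1 b) :=
      (measurable_pi_apply b).comp measurable_fst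
    have h6 := measurable_amp.comp h5
    simp only [Function.comp_def] at h6
    exact h6
  have h4 := meas_HK (h3.mul h2) (measurable_Zc_at b)
  unfold innov
  exact h4

lemma measurable_WWm (θ : ℝ) : Measurable (WWm (d := d) θ) :=
  measurable_fst.prodMk (measurable_innov θ)

lemma measurable_yF (k : ℕ) (r : ℝ) :
    Measurable (fun q : Cl (W d) × Om (W d) => yF k r q.1 q.2) :=
  meas_fieldAt k measurable_fst (meas_Zc measurable_fst measurable_snd) measurable_const

lemma measurable_locY (k : ℕ) (r : ℝ) : Measurable (locY k r) := by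
  unfold locY
  have he : ∀ j : ℕ, Measurable (fun q : (ℕ → I) × (ℕ → I) =>
      ell (q.1 j) (QK (amp (q.1 j)) (q.2 j))) := fun j => by
    have m1 : Measurable (fun q : (ℕ → I) × (ℕ → I) => q.1 j) :=
      (measurable_pi_apply j).comp measurable_fst
    have m2 : Measurable (fun q : (ℕ → I) × (ℕ → I) => q.2 j) :=
      (measurable_pi_apply j).comp measurable_snd
    exact meas_ell m1 (meas_QK (measurable_amp.comp m1) m2)
  refine (Finset.measurable_fun_sum _ fun j _ => he j).add (Measurable.ite ?_ (he k)
    measurable_const)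
  exact measurableSet_lt (measurable_subtype_coe.comp
    ((measurable_pi_apply k).comp measurable_fst)) measurable_const

instance isProb_muY (k : ℕ) (r : ℝ) : IsProbabilityMeasure (muY k r) := by
  unfold muY
  exact Measure.isProbabilityMeasure_map (measurable_locY k r).aemeasurable

/-! ### translations -/

/-- translation of indices -/
def trP (v : W d) (b : W d × ℕ) : W d × ℕ := (W.tr v b.1, b.2)

/-- translation of everything -/
def trA (v : W d) (q : Cl (W d) × Om (W d)) : Cl (W d) × Om (W d) :=
  (q.1 ∘ trP v, (q.2.1 ∘ W.tr v, q.2.2 ∘ trP v))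

/-- translation of the configuration and the noise -/
def trO (v : W d) (p : Om (W d)) : Om (W d) := (p.1 ∘ W.tr v, p.2 ∘ trP v)

lemma Zc_tr (v : W d) (c : Cl (W d)) (p : Om (W d)) :
    Zc (c ∘ trP v) (trO v p) = Zc c p ∘ trP v := rfl

lemma fieldAt_tr (v : W d) (c : Cl (W d)) (z : W d × ℕ → I) (k : ℕ) (r : ℝ) :
    fieldAt (c ∘ trP v) (z ∘ trP v) k r = fieldAt c z k r ∘ W.tr v := rfl

lemma drift_tr (θ : ℝ) (v : W d) (c : Cl (W d)) (z : W d × ℕ → I) (b : W d × ℕ) :
    drift θ (c ∘ trP v) (z ∘ trP v) b = drift θ c z (trP v b) := by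
  unfold drift
  rw [fieldAt_tr]
  have : (fieldAt c z b.2 ((c ∘ trP v) b) ∘ W.tr v) ∘ W.tr b.1 =
      fieldAt c z b.2 ((c ∘ trP v) b) ∘ W.tr (W.tr v b.1) := by
    funext w
    simp only [Function.comp_apply, W.tr_tr]
  rw [this]
  rfl

lemma innov_tr (θ : ℝ) (v : W d) (c : Cl (W d)) (p : Om (W d)) :
    innov θ (c ∘ trP v) (trO v p) = innov θ c p ∘ trP v := by
  funext b
  unfold innov
  rw [Zc_tr, drift_tr]
  rfl

lemma yF_tr (v : W d) (k : ℕ) (r : ℝ) (c : Cl (W d)) (p : Om (W d)) :
    yF k r (c ∘ trP v) (trO v p) = yF k r c p ∘ W.tr v := rfl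

lemma trP_inj (v : W d) : Function.Injective (trP v) := fun a b hab => by
  have h := Prod.mk.inj hab
  exact Prod.ext ((W.trE v).injective h.1) h.2

lemma trP_inv (v : W d) (b : W d × ℕ) : trP (W.inv v) (trP v b) = b := by
  unfold trP; rw [W.tr_inv_tr]

lemma trP_inv' (v : W d) (b : W d × ℕ) : trP v (trP (W.inv v) b) = b := by
  unfold trP; rw [W.tr_tr_inv]

lemma measurable_comp_trP {X : Type*} [MeasurableSpace X] (v : W d) :
    Measurable (fun y : W d × ℕ → X => y ∘ trP v) := by
  rw [measurable_pi_iff]; intro w; exact measurable_pi_apply _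

lemma measurable_trO (v : W d) : Measurable (trO v) :=
  ((measurable_comp_tr v).comp measurable_fst).prodMk ((measurable_comp_trP v).comp measurable_snd)

lemma measurable_trA (v : W d) : Measurable (trA v) :=
  ((measurable_comp_trP v).comp measurable_fst).prodMk ((measurable_trO v).comp measurable_snd)

instance isProb_μI' (ι : Type*) : IsProbabilityMeasure (μI ι) := by
  unfold μI FIID.μI; infer_instance

lemma isProb_Pt {θ : ℝ} (h1 : θ ≤ 1) : IsProbabilityMeasure (Pt (nu d θ)) := by
  have := isProb_nu d h1
  unfold Pt; infer_instance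

lemma mp_μI_tr (v : W d) :
    MeasurePreserving (fun y : W d × ℕ → I => y ∘ trP v) (μI (W d × ℕ)) (μI (W d × ℕ)) :=
  ⟨measurable_comp_trP v, iid_map_inj _ (trP v) (trP_inj v)⟩

lemma mp_nu_tr {θ : ℝ} (h1 : θ ≤ 1) (v : W d) :
    MeasurePreserving (fun y : W d → Bool => y ∘ W.tr v) (nu d θ) (nu d θ) :=
  ⟨measurable_comp_tr v, nu_tr θ h1 v⟩

lemma mp_trO {θ : ℝ} (h1 : θ ≤ 1) (v : W d) :
    MeasurePreserving (trO v) ((nu d θ).prod (μI (W d × ℕ))) ((nu d θ).prod (μI (W d × ℕ))) := by
  have := isProb_nu d h1
  exact (mp_nu_tr h1 v).prod (mp_μI_tr v)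

theorem mp_trA {θ : ℝ} (h1 : θ ≤ 1) (v : W d) :
    MeasurePreserving (trA v) (Pt (nu d θ)) (Pt (nu d θ)) := by
  have := isProb_nu d h1
  exact (mp_μI_tr v).prod (mp_trO h1 v)

/-- translation of clocks and innovations -/
def trB (v : W d) : (Cl (W d) × (W d × ℕ → I)) ≃ᵐ (Cl (W d) × (W d × ℕ → I)) where
  toFun q := (q.1 ∘ trP v, q.2 ∘ trP v)
  invFun q := (q.1 ∘ trP (W.inv v), q.2 ∘ trP (W.inv v))
  left_inv q := by
    refine Prod.ext ?_ ?_ <;> funext b <;> simp only [Function.comp_apply, trP_inv']
  right_inv q := by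
    refine Prod.ext ?_ ?_ <;> funext b <;> simp only [Function.comp_apply, trP_inv]
  measurable_toFun := ((measurable_comp_trP v).comp measurable_fst).prodMk
    ((measurable_comp_trP v).comp measurable_snd)
  measurable_invFun := ((measurable_comp_trP _).comp measurable_fst).prodMk
    ((measurable_comp_trP _).comp measurable_snd)

lemma WWm_trA (θ : ℝ) (v : W d) (q : Cl (W d) × Om (W d)) :
    WWm θ (trA v q) = trB v (WWm θ q) := by
  refine Prod.ext rfl ?_
  exact innov_tr θ v q.1 q.2

end words

/-! ### the flip of the channel -/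

lemma fK_flip {κ u : ℝ} (hκ : |κ| ≤ 1 / 4) (hu0 : 0 ≤ u) (hu1 : u ≤ 1) :
    fK (-κ) (1 - u) = 1 - fK κ u := by
  have hk := abs_le.1 hκ
  have hs0 : 0 ≤ (1 + κ) ^ 2 - 4 * κ * u := by nlinarith [mul_nonneg hu0 (sub_nonneg.2 hu1)]
  have hs : (1 + -κ) ^ 2 - 4 * (-κ) * (1 - u) = (1 + κ) ^ 2 - 4 * κ * u := by ring
  unfold fK
  rw [hs]
  set s := Real.sqrt ((1 + κ) ^ 2 - 4 * κ * u) with hsdef
  have hs2 : s ^ 2 = (1 + κ) ^ 2 - 4 * κ * u := Real.sq_sqrt hs0
  have hsn : 0 ≤ s := Real.sqrt_nonneg _
  have hd1 : (0 : ℝ) < 1 + -κ + s := by linarith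
  have hd2 : (0 : ℝ) < 1 + κ + s := by linarith
  rw [eq_sub_iff_add_eq, div_add_div _ _ hd1.ne' hd2.ne', div_eq_one_iff_eq (by positivity)]
  nlinarith [hs2]

lemma hK_flip (κ z : ℝ) : hK (-κ) (1 - z) = 1 - hK κ z := by unfold hK; ring

lemma clamp_neg (κ : ℝ) : clamp (-κ) = - clamp κ := by
  unfold clamp
  simp only [min_def, max_def]
  split_ifs <;> linarith

lemma symm_projIcc (x : ℝ) :
    (Set.projIcc (0 : ℝ) 1 zero_le_one (1 - x) : I) = σ (Set.projIcc 0 1 zero_le_one x) := by
  refine Subtype.ext ?_
  simp only [Set.coe_projIcc, unitInterval.coe_symm_eq]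
  simp only [min_def, max_def]
  split_ifs <;> linarith

lemma HK_flip (κ : ℝ) (z : I) : HK (-κ) (σ z) = σ (HK κ z) := by
  unfold HK
  rw [clamp_neg, unitInterval.coe_symm_eq, hK_flip, symm_projIcc]

lemma QK_flip (κ : ℝ) (u : I) : QK (-κ) (σ u) = σ (QK κ u) := by
  unfold QK
  rw [clamp_neg, unitInterval.coe_symm_eq, fK_flip (clamp_abs_le κ) u.2.1 u.2.2, symm_projIcc]

lemma ell_flip (c z : I) : ell c (σ z) = - ell c z := by
  unfold ell
  rw [← artanh_neg', unitInterval.coe_symm_eq]
  congr 1
  ring

end Crest.Agent.TI.Pair
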