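import Mathlib

/-!
Row 160 (S0241).  The `d`-regular tree as the set of reduced words in `d` involutive letters.
The root is the empty word, `nb i w` is the neighbour of `w` in direction `i` (acts at the head),
`tr v` is the colour preserving automorphism that maps the root to `v` (`tr v w` = the word `w`
acting on `v`).
-/

set_option autoImplicit false

namespace Crest.Agent.TI

/-- reduced words -/
def W (d : ℕ) : Type := {l : List (Fin d) // l.IsChain (· ≠ ·)}

namespace W

variable {d : ℕ}

instance : DecidableEq (W d) := inferInstanceAs (DecidableEq {l : List (Fin d) // l.IsChain (· ≠ ·)})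
instance : Countable (W d) := inferInstanceAs (Countable {l : List (Fin d) // l.IsChain (· ≠ ·)})

/-- the root -/
def root : W d := ⟨[], List.isChain_nil⟩

/-- the length of a word: the distance to the root -/
def len (w : W d) : ℕ := w.1.length

/-- neighbour on lists -/
def nbL (i : Fin d) : List (Fin d) → List (Fin d)
  | [] => [i]
  | j :: t => if i = j then t else i :: j :: t

lemma nbL_chain (i : Fin d) {l : List (Fin d)} (h : l.IsChain (· ≠ ·)) :
    (nbL i l).IsChain (· ≠ ·) := by
  cases l with
  | nil => simp [nbL]
  | cons j t =>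
    by_cases hij : i = j
    · have : nbL i (j :: t) = t := by simp [nbL, hij]
      rw [this]; exact h.tail
    · have : nbL i (j :: t) = i :: j :: t := by simp [nbL, hij]
      rw [this]; exact List.IsChain.cons_cons hij h

/-- the neighbour of `w` in direction `i` -/
def nb (i : Fin d) (w : W d) : W d := ⟨nbL i w.1, nbL_chain i w.2⟩

lemma nb_nb (i : Fin d) (w : W d) : nb i (nb i w) = w := by
  obtain ⟨l, hl⟩ := w
  apply Subtype.ext
  change nbL i (nbL i l) = l
  cases l with
  | nil => simp [nbL]
  | cons j t =>
    by_cases hij : i = j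
    · subst hij
      have h1 : nbL i (i :: t) = t := by simp [nbL]
      rw [h1]
      cases t with
      | nil => rfl
      | cons k t' =>
        have hik : i ≠ k := by
          have := List.isChain_cons_cons.1 hl
          exact this.1
        simp [nbL, hik]
    · have h1 : nbL i (j :: t) = i :: j :: t := by simp [nbL, hij]
      rw [h1]
      simp [nbL]

/-- the head letter of a word -/
def head? (w : W d) : Option (Fin d) := w.1.head?

/-- translation: the word `w` acting on `v` -/
def tr (v w : W d) : W d := w.1.foldr nb v

@[simp] lemma tr_root (v : W d) : tr v root = v := rfl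

lemma tr_nb (v w : W d) (i : Fin d) : tr v (nb i w) = nb i (tr v w) := by
  obtain ⟨l, hl⟩ := w
  cases l with
  | nil => rfl
  | cons j t =>
    by_cases hij : i = j
    · subst hij
      have h1 : nb i (⟨i :: t, hl⟩ : W d) = ⟨t, hl.tail⟩ := by
        apply Subtype.ext; simp [nb, nbL]
      rw [h1]
      change _ = nb i (nb i (t.foldr nb v))
      rw [nb_nb]
      rfl
    · have h1 : (nb i (⟨j :: t, hl⟩ : W d)).1 = i :: j :: t := by simp [nb, nbL, hij]
      unfold tr
      rw [h1]
      rfl

/-- induction along neighbours -/
lemma nb_induction {P : W d → Prop} (h0 : P root) (hs : ∀ w i, P w → P (nb i w)) (w : W d) : P w := by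
  obtain ⟨l, hl⟩ := w
  induction l with
  | nil => exact h0
  | cons j t ih =>
    have h1 := hs ⟨t, hl.tail⟩ j (ih hl.tail)
    have h2 : nb j (⟨t, hl.tail⟩ : W d) = ⟨j :: t, hl⟩ := by
      apply Subtype.ext
      change nbL j t = j :: t
      cases t with
      | nil => rfl
      | cons k t' =>
        have : j ≠ k := (List.isChain_cons_cons.1 hl).1
        simp [nbL, this]
    rwa [h2] at h1

@[simp] lemma root_tr (w : W d) : tr root w = w := by
  induction w using nb_induction with
  | h0 => rfl
  | hs w i ih => rw [tr_nb, ih]

lemma tr_tr (v u w : W d) : tr (tr v u) w = tr v (tr u w) := by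
  induction w using nb_induction with
  | h0 => rfl
  | hs w i ih => rw [tr_nb, ih, tr_nb, tr_nb]

/-- the inverse word -/
def inv (v : W d) : W d := ⟨v.1.reverse, by
  rw [List.isChain_reverse]
  exact v.2.imp fun a b h => h.symm⟩

lemma len_inv (v : W d) : len (inv v) = len v := by simp [len, inv]

@[simp] lemma inv_inv (v : W d) : inv (inv v) = v := Subtype.ext (by simp [inv])

lemma foldr_reverse (l : List (Fin d)) (hl : l.IsChain (· ≠ ·)) :
    l.reverse.foldr nb (⟨l, hl⟩ : W d) = root := by
  induction l with
  | nil => rfl
  | cons j t ih =>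
    rw [List.reverse_cons, List.foldr_append]
    have h1 : List.foldr nb (⟨j :: t, hl⟩ : W d) [j] = ⟨t, hl.tail⟩ := by
      apply Subtype.ext; simp [nb, nbL]
    rw [h1]
    exact ih hl.tail

@[simp] lemma tr_inv (v : W d) : tr v (inv v) = root := foldr_reverse v.1 v.2

@[simp] lemma tr_inv' (v : W d) : tr (inv v) v = root := by
  have := tr_inv (inv v)
  rwa [inv_inv] at this

lemma tr_inv_tr (v w : W d) : tr (inv v) (tr v w) = w := by
  rw [← tr_tr, tr_inv', root_tr]

lemma tr_tr_inv (v w : W d) : tr v (tr (inv v) w) = w := by
  rw [← tr_tr, tr_inv, root_tr]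

/-- translation as an equivalence -/
def trE (v : W d) : W d ≃ W d where
  toFun := tr v
  invFun := tr (inv v)
  left_inv := tr_inv_tr v
  right_inv := tr_tr_inv v

end W

/-- the graph on words -/
def wordGraph (d : ℕ) : SimpleGraph (W d) where
  Adj v w := ∃ i, w = W.nb i v
  symm := ⟨by rintro v w ⟨i, rfl⟩; exact ⟨i, (W.nb_nb i v).symm⟩⟩
  loopless := ⟨by
    rintro v ⟨i, h⟩
    have : (W.nb i v).1.length ≠ v.1.length := by
      obtain ⟨l, hl⟩ := v
      cases l with
      | nil => simp [W.nb, W.nbL]
      | cons j t =>
        simp only [W.nb, W.nbL]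
        split_ifs <;> simp
    rw [← h] at this
    exact this rfl⟩

end Crest.Agent.TI
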