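import Mathlib
import Crest.Agent.TIWords

set_option autoImplicit false

namespace Crest.Agent.TI

universe u

section

variable {V : Type u} {G : SimpleGraph V}

lemma closer_unique (hT : G.IsTree) {r v a b : V} (ha : G.Adj a v) (hb : G.Adj b v)
    (hda : G.dist r v = G.dist r a + 1) (hdb : G.dist r v = G.dist r b + 1) : a = b := by
  obtain ⟨p, hp⟩ := hT.connected.exists_walk_length_eq_dist r a
  obtain ⟨q, hq⟩ := hT.connected.exists_walk_length_eq_dist r b
  have h1 : (p.concat ha).IsPath := by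
    refine SimpleGraph.Walk.isPath_of_length_eq_dist _ ?_
    rw [SimpleGraph.Walk.length_concat, hp, hda]
  have h2 : (q.concat hb).IsPath := by
    refine SimpleGraph.Walk.isPath_of_length_eq_dist _ ?_
    rw [SimpleGraph.Walk.length_concat, hq, hdb]
  have h3 := (hT.existsUnique_path r v).unique h1 h2
  have h4 := congrArg SimpleGraph.Walk.penultimate h3
  rwa [SimpleGraph.Walk.penultimate_concat, SimpleGraph.Walk.penultimate_concat] at h4

/-- a state: a vertex with an enumeration of its neighbours -/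
structure St (G : SimpleGraph V) (d : ℕ) where
  v : V
  e : Fin d ≃ G.neighborSet v

variable {d : ℕ}

lemma exists_step (hE : ∀ v : V, Nonempty (Fin d ≃ G.neighborSet v)) (s : St G d) (i : Fin d) :
    ∃ s' : St G d, s'.v = s.e i ∧ (s'.e i : V) = s.v := by
  have hadj : G.Adj (s.e i : V) s.v := ((s.e i).2 : G.Adj s.v (s.e i)).symm
  obtain ⟨e0⟩ := hE (s.e i : V)
  refine ⟨⟨(s.e i : V), (Equiv.swap i (e0.symm ⟨s.v, hadj⟩)).trans e0⟩, rfl, ?_⟩
  simp

/-- one step -/
noncomputable def step (hE : ∀ v : V, Nonempty (Fin d ≃ G.neighborSet v)) (s : St G d)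
    (i : Fin d) : St G d := (exists_step hE s i).choose

lemma step_v (hE : ∀ v : V, Nonempty (Fin d ≃ G.neighborSet v)) (s : St G d) (i : Fin d) :
    (step hE s i).v = s.e i := (exists_step hE s i).choose_spec.1

lemma step_e (hE : ∀ v : V, Nonempty (Fin d ≃ G.neighborSet v)) (s : St G d) (i : Fin d) :
    ((step hE s i).e i : V) = s.v := (exists_step hE s i).choose_spec.2

/-- states along lists -/
noncomputable def stL (hE : ∀ v : V, Nonempty (Fin d ≃ G.neighborSet v)) (s0 : St G d) :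
    List (Fin d) → St G d
  | [] => s0
  | i :: t => step hE (stL hE s0 t) i

lemma stL_nb (hE : ∀ v : V, Nonempty (Fin d ≃ G.neighborSet v)) (s0 : St G d) (w : W d)
    (i : Fin d) : (stL hE s0 (W.nb i w).1).v = ((stL hE s0 w.1).e i : V) := by
  obtain ⟨l, hl⟩ := w
  cases l with
  | nil =>
    have : (W.nb i (⟨[], hl⟩ : W d)).1 = [i] := by simp [W.nb, W.nbL]
    rw [this]
    exact step_v hE _ i
  | cons j t =>
    by_cases hij : i = j
    · subst hij
      have : (W.nb i (⟨i :: t, hl⟩ : W d)).1 = t := by simp [W.nb, W.nbL]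
      rw [this]
      exact (step_e hE _ i).symm
    · have : (W.nb i (⟨j :: t, hl⟩ : W d)).1 = i :: j :: t := by simp [W.nb, W.nbL, hij]
      rw [this]
      exact step_v hE _ i

/-- the covering map -/
noncomputable def phiW (hE : ∀ v : V, Nonempty (Fin d ≃ G.neighborSet v)) (s0 : St G d) (w : W d) :
    V := (stL hE s0 w.1).v

lemma phiW_nb (hE : ∀ v : V, Nonempty (Fin d ≃ G.neighborSet v)) (s0 : St G d) (w : W d)
    (i : Fin d) : phiW hE s0 (W.nb i w) = ((stL hE s0 w.1).e i : V) := stL_nb hE s0 w i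

lemma phiW_adj (hE : ∀ v : V, Nonempty (Fin d ≃ G.neighborSet v)) (s0 : St G d) (w : W d)
    (i : Fin d) : G.Adj (phiW hE s0 w) (phiW hE s0 (W.nb i w)) := by
  rw [phiW_nb]
  exact ((stL hE s0 w.1).e i).2

lemma phiW_exists (hE : ∀ v : V, Nonempty (Fin d ≃ G.neighborSet v)) (s0 : St G d) (w : W d)
    (x : V) (hx : G.Adj (phiW hE s0 w) x) : ∃ i, x = phiW hE s0 (W.nb i w) := by
  refine ⟨(stL hE s0 w.1).e.symm ⟨x, hx⟩, ?_⟩
  rw [phiW_nb]
  simp

lemma phiW_nb_inj (hE : ∀ v : V, Nonempty (Fin d ≃ G.neighborSet v)) (s0 : St G d) (w : W d)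
    (i j : Fin d) (h : phiW hE s0 (W.nb i w) = phiW hE s0 (W.nb j w)) : i = j := by
  rw [phiW_nb, phiW_nb] at h
  exact (stL hE s0 w.1).e.injective (Subtype.ext h)

lemma isoNb_cons {i : Fin d} {t : List (Fin d)} (h : (i :: t).IsChain (· ≠ ·)) :
    W.nb i (⟨t, h.tail⟩ : W d) = ⟨i :: t, h⟩ := by
  apply Subtype.ext
  cases t with
  | nil => simp [W.nb, W.nbL]
  | cons j t' =>
    have : i ≠ j := (List.isChain_cons_cons.1 h).1
    simp [W.nb, W.nbL, this]

lemma isoNb_cons' {i : Fin d} {t : List (Fin d)} (h : (i :: t).IsChain (· ≠ ·)) :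
    W.nb i (⟨i :: t, h⟩ : W d) = ⟨t, h.tail⟩ := by
  rw [← isoNb_cons h, W.nb_nb]

lemma phiW_dist_aux (hT : G.IsTree) (hE : ∀ v : V, Nonempty (Fin d ≃ G.neighborSet v)) (s0 : St G d)
    (l : List (Fin d)) : (∀ hl : l.IsChain (· ≠ ·), G.dist s0.v (phiW hE s0 ⟨l, hl⟩) = l.length) ∧
      (∀ hl : l.tail.IsChain (· ≠ ·), G.dist s0.v (phiW hE s0 ⟨l.tail, hl⟩) = l.tail.length) := by
  induction l with
  | nil =>
    refine ⟨fun hl => ?_, fun hl => ?_⟩
    · change G.dist s0.v s0.v = 0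
      simp
    · change G.dist s0.v s0.v = 0
      simp
  | cons i t ih =>
    refine ⟨fun hl => ?_, fun hl => ih.1 hl⟩
    have h1 := ih.1 hl.tail
    have hadj : G.Adj (phiW hE s0 ⟨t, hl.tail⟩) (phiW hE s0 ⟨i :: t, hl⟩) := by
      have := phiW_adj hE s0 ⟨t, hl.tail⟩ i
      rwa [isoNb_cons hl] at this
    rcases hT.dist_eq_dist_add_one_of_adj s0.v hadj with h2 | h2
    · exfalso
      cases t with
      | nil =>
        have h0 : G.dist s0.v (phiW hE s0 ⟨[], hl.tail⟩) = 0 := by simpa using h1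
        omega
      | cons j t' =>
        have h3 := ih.2 hl.tail.tail
        have hadj2 : G.Adj (phiW hE s0 ⟨t', hl.tail.tail⟩) (phiW hE s0 ⟨j :: t', hl.tail⟩) := by
          have := phiW_adj hE s0 ⟨t', hl.tail.tail⟩ j
          rwa [isoNb_cons hl.tail] at this
        have h4 : G.dist s0.v (phiW hE s0 ⟨j :: t', hl.tail⟩) =
            G.dist s0.v (phiW hE s0 ⟨t', hl.tail.tail⟩) + 1 := by
          rw [h1]
          simp only [List.tail_cons] at h3
          rw [h3]
          simp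
        have h5 := closer_unique hT hadj.symm hadj2 h2 h4
        have h6 : phiW hE s0 (W.nb i ⟨j :: t', hl.tail⟩) = phiW hE s0 (W.nb j ⟨j :: t', hl.tail⟩) := by
          rw [isoNb_cons hl, isoNb_cons' hl.tail]
          exact h5
        have h7 := phiW_nb_inj hE s0 _ _ _ h6
        exact (List.isChain_cons_cons.1 hl).1 h7
    · rw [h2, h1]
      simp

lemma phiW_dist (hT : G.IsTree) (hE : ∀ v : V, Nonempty (Fin d ≃ G.neighborSet v)) (s0 : St G d)
    (w : W d) : G.dist s0.v (phiW hE s0 w) = w.1.length :=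
  (phiW_dist_aux hT hE s0 w.1).1 w.2

lemma phiW_inj (hT : G.IsTree) (hE : ∀ v : V, Nonempty (Fin d ≃ G.neighborSet v)) (s0 : St G d)
    (l : List (Fin d)) : ∀ (hl : l.IsChain (· ≠ ·)) (w' : W d),
      phiW hE s0 ⟨l, hl⟩ = phiW hE s0 w' → (⟨l, hl⟩ : W d) = w' := by
  induction l with
  | nil =>
    intro hl w' h
    have h1 := phiW_dist hT hE s0 ⟨[], hl⟩
    have h2 := phiW_dist hT hE s0 w'
    rw [← h, h1] at h2
    apply Subtype.ext
    exact (List.length_eq_zero_iff.1 h2.symm).symm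
  | cons i t ih =>
    intro hl w' h
    obtain ⟨l', hl'⟩ := w'
    have h1 := phiW_dist hT hE s0 ⟨i :: t, hl⟩
    have h2 := phiW_dist hT hE s0 ⟨l', hl'⟩
    rw [← h, h1] at h2
    cases l' with
    | nil => simp at h2
    | cons j t' =>
      have ha : G.Adj (phiW hE s0 ⟨t, hl.tail⟩) (phiW hE s0 ⟨i :: t, hl⟩) := by
        have := phiW_adj hE s0 ⟨t, hl.tail⟩ i
        rwa [isoNb_cons hl] at this
      have hb : G.Adj (phiW hE s0 ⟨t', hl'.tail⟩) (phiW hE s0 ⟨i :: t, hl⟩) := by
        have := phiW_adj hE s0 ⟨t', hl'.tail⟩ j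
        rw [isoNb_cons hl', ← h] at this
        exact this
      have da := phiW_dist hT hE s0 ⟨t, hl.tail⟩
      have db := phiW_dist hT hE s0 ⟨t', hl'.tail⟩
      have h3 := closer_unique hT ha hb (r := s0.v) (by rw [h1, da]; simp)
        (by rw [h1, db, h2]; simp)
      have h4 := ih hl.tail ⟨t', hl'.tail⟩ h3
      have h5 : t = t' := congrArg Subtype.val h4
      subst h5
      have h6 : phiW hE s0 (W.nb i ⟨t, hl.tail⟩) = phiW hE s0 (W.nb j ⟨t, hl.tail⟩) := by
        rw [isoNb_cons hl, isoNb_cons hl']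
        exact h
      have h7 := phiW_nb_inj hE s0 _ _ _ h6
      subst h7
      rfl

lemma phiW_surj (hT : G.IsTree) (hE : ∀ v : V, Nonempty (Fin d ≃ G.neighborSet v)) (s0 : St G d)
    (x : V) : ∃ w, phiW hE s0 w = x := by
  obtain ⟨p⟩ := hT.connected s0.v x
  have key : ∀ (a b : V) (p : G.Walk a b), (∃ w, phiW hE s0 w = a) → ∃ w, phiW hE s0 w = b := by
    intro a b p
    induction p with
    | nil => exact id
    | cons h _ ih =>
      rintro ⟨w, rfl⟩
      obtain ⟨i, hi⟩ := phiW_exists hE s0 w _ h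
      exact ih ⟨_, hi.symm⟩
  exact key _ _ p ⟨W.root, rfl⟩

end

/-- every `d`-regular tree is the word tree -/
theorem exists_iso {V : Type u} (G : SimpleGraph V) [G.LocallyFinite] (hT : G.IsTree) {d : ℕ}
    (hreg : G.IsRegularOfDegree d) : Nonempty (G ≃g wordGraph d) := by
  classical
  have hE : ∀ v : V, Nonempty (Fin d ≃ G.neighborSet v) := by
    intro v
    have h1 : Fintype.card (G.neighborSet v) = d := by
      rw [SimpleGraph.card_neighborSet_eq_degree]
      exact hreg v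
    exact ⟨(Fintype.equivFinOfCardEq h1).symm⟩
  obtain ⟨r⟩ := hT.connected.nonempty
  obtain ⟨e0⟩ := hE r
  set s0 : St G d := ⟨r, e0⟩
  have hinj : Function.Injective (phiW hE s0) := fun w w' h => phiW_inj hT hE s0 w.1 w.2 w' h
  have hsurj : Function.Surjective (phiW hE s0) := phiW_surj hT hE s0
  set E : W d ≃ V := Equiv.ofBijective _ ⟨hinj, hsurj⟩ with hEdef
  refine ⟨(RelIso.symm ⟨E, ?_⟩ : G ≃g wordGraph d)⟩
  intro w w'
  change G.Adj (phiW hE s0 w) (phiW hE s0 w') ↔ ∃ i, w' = W.nb i w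
  constructor
  · intro h
    obtain ⟨i, hi⟩ := phiW_exists hE s0 w _ h
    exact ⟨i, hinj hi⟩
  · rintro ⟨i, rfl⟩
    exact phiW_adj hE s0 w i

end Crest.Agent.TI
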