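import Crest.Agent.TIAut
import Crest.Agent.TIEquiv
import Crest.Agent.TIIso
import Crest.Agent.TIGauge

/-!
Row 160 (S0241).  From the strong solution on words to the equivariant map on the tree.
-/

set_option autoImplicit false

namespace Crest.Agent.TI

open MeasureTheory unitInterval Set Filter Topology
open scoped ENNReal

universe u

variable {d : ℕ}

/-! ### combining two families of labels -/

/-- pairing of two copies of the naturals -/
noncomputable irreducible_def eN : ℕ ⊕ ℕ ≃ ℕ := Equiv.natSumNatEquivNat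

/-- combine clocks and innovations into one family of labels -/
noncomputable def comb (c U : W d × ℕ → I) (b : W d × ℕ) : I :=
  Sum.elim (fun j => c (b.1, j)) (fun j => U (b.1, j)) (eN.symm b.2)

/-- decode -/
noncomputable def decomb (L : W d × ℕ → I) : (W d × ℕ → I) × (W d × ℕ → I) :=
  (fun b => L (b.1, eN (Sum.inl b.2)),
    fun b => L (b.1, eN (Sum.inr b.2)))

lemma decomb_comb (c U : W d × ℕ → I) : decomb (comb c U) = (c, U) := by
  unfold decomb comb
  refine Prod.ext ?_ ?_
  · funext b; simp
  · funext b; simp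

lemma measurable_comb : Measurable (fun q : (W d × ℕ → I) × (W d × ℕ → I) => comb q.1 q.2) := by
  rw [measurable_pi_iff]
  intro b
  unfold comb
  cases eN.symm b.2 with
  | inl j => exact (measurable_pi_apply _).comp measurable_fst
  | inr j => exact (measurable_pi_apply _).comp measurable_snd

lemma measurable_decomb : Measurable (decomb (d := d)) := by
  unfold decomb
  refine Measurable.prodMk ?_ ?_
  · rw [measurable_pi_iff]; intro b; exact measurable_pi_apply _
  · rw [measurable_pi_iff]; intro b; exact measurable_pi_apply _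

theorem law_comb : ((μI (W d × ℕ)).prod (μI (W d × ℕ))).map
    (fun q : (W d × ℕ → I) × (W d × ℕ → I) => comb q.1 q.2) = μI (W d × ℕ) := by
  classical
  set e1 : W d × ℕ → W d × ℕ := fun b => (b.1, eN (Sum.inl b.2)) with he1
  set e2 : W d × ℕ → W d × ℕ := fun b => (b.1, eN (Sum.inr b.2)) with he2
  have hi1 : Function.Injective e1 := by
    intro a b h
    have h1 := congrArg Prod.fst h
    have h2 := congrArg Prod.snd h
    simp only [he1] at h1 h2
    exact Prod.ext h1 (Sum.inl_injective (eN.injective h2))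
  have hi2 : Function.Injective e2 := by
    intro a b h
    have h1 := congrArg Prod.fst h
    have h2 := congrArg Prod.snd h
    simp only [he2] at h1 h2
    exact Prod.ext h1 (Sum.inr_injective (eN.injective h2))
  have m1 : Measurable (fun (L : W d × ℕ → I) i => L (e1 i)) := by fun_prop
  have m2 : Measurable (fun (L : W d × ℕ → I) i => L (e2 i)) := by fun_prop
  have l1 : (μI (W d × ℕ)).map (fun L i => L (e1 i)) = μI (W d × ℕ) :=
    iid_map_inj (volume : Measure I) e1 hi1
  have l2 : (μI (W d × ℕ)).map (fun L i => L (e2 i)) = μI (W d × ℕ) :=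
    iid_map_inj (volume : Measure I) e2 hi2
  have h1 : (μI (W d × ℕ)).prod (μI (W d × ℕ)) =
      ((μI (W d × ℕ)).prod (μI (W d × ℕ))).map
        (Prod.map (fun L i => L (e1 i)) (fun L i => L (e2 i))) := by
    rw [← Measure.map_prod_map _ _ m1 m2, l1, l2]
  rw [h1, Measure.map_map measurable_comb (m1.prodMap m2)]
  have h2 := iid_glue (fun _ : W d × ℕ => (volume : Measure I))
    {b : W d × ℕ | (eN.symm b.2).isLeft = true}
  have h3 : ((fun q : (W d × ℕ → I) × (W d × ℕ → I) => comb q.1 q.2) ∘
      (Prod.map (fun L i => L (e1 i)) (fun L i => L (e2 i)))) =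
      (fun (p : (W d × ℕ → I) × (W d × ℕ → I)) i =>
        if i ∈ {b : W d × ℕ | (eN.symm b.2).isLeft = true} then p.1 i
        else p.2 i) := by
    funext p b
    simp only [Function.comp_apply, comb, Prod.map_fst, Prod.map_snd, Set.mem_ofPred_eq, he1, he2]
    have hb : b = (b.1, eN (eN.symm b.2)) := by simp
    by_cases hl : (eN.symm b.2).isLeft = true
    · rw [if_pos hl]
      obtain ⟨j, hj⟩ := Sum.isLeft_iff.1 hl
      rw [hj, Sum.elim_inl]
      rw [hj] at hb
      rw [← hb]
    · rw [if_neg hl]
      have hr : (eN.symm b.2).isRight = true := by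
        rw [← Sum.not_isLeft]; simpa using hl
      obtain ⟨j, hj⟩ := Sum.isRight_iff.1 hr
      rw [hj, Sum.elim_inr]
      rw [hj] at hb
      rw [← hb]
  rw [h3]
  exact h2

/-! ### balls around a vertex -/

/-- ball around `v` -/
def ballAt (v : W d) (n : ℕ) : Finset (W d) := (W.ball d n).image (W.tr v)

lemma ballAt_mono (v : W d) : Monotone (ballAt v) := by
  intro m n hmn
  refine Finset.image_subset_image fun w hw => ?_
  rw [W.mem_ball] at hw ⊢
  omega

lemma ballAt_cov (v w : W d) : ∃ n, w ∈ ballAt v n := by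
  refine ⟨(W.tr (W.inv v) w).len, Finset.mem_image.2 ⟨W.tr (W.inv v) w, ?_, W.tr_tr_inv v w⟩⟩
  rw [W.mem_ball]

lemma ballAt_aut (g : wordGraph d ≃g wordGraph d) (v : W d) (n : ℕ) :
    (ballAt v n).map g.toEquiv.toEmbedding = ballAt (g v) n := by
  set h : wordGraph d ≃g wordGraph d := ((trG v).trans g).trans (trG (g v)).symm with hh
  have hr : h W.root = W.root := by
    apply (trG (g v)).injective
    change (trG (g v)) ((trG (g v)).symm (g ((trG v) W.root))) = _
    rw [(trG (g v)).apply_symm_apply, trG_apply, trG_apply, W.tr_root, W.tr_root]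
  have e : ∀ w, g (W.tr v w) = W.tr (g v) (h w) := by
    intro w
    change _ = (trG (g v)) ((trG (g v)).symm (g ((trG v) w)))
    rw [(trG (g v)).apply_symm_apply]
    rfl
  have hlen : ∀ w, (h w).len = w.len := fun w => (aut_par h hr _ w rfl).1
  ext x
  simp only [ballAt, Finset.mem_map, Finset.mem_image, W.mem_ball]
  constructor
  · rintro ⟨a, ⟨w, hw, rfl⟩, rfl⟩
    exact ⟨h w, by rw [hlen]; exact hw, (e w).symm⟩
  · rintro ⟨w, hw, rfl⟩
    refine ⟨W.tr v (h.symm w), ⟨h.symm w, ?_, rfl⟩, ?_⟩
    · have := hlen (h.symm w)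
      rw [h.apply_symm_apply] at this
      omega
    · change g (W.tr v (h.symm w)) = _
      rw [e, h.apply_symm_apply]

/-! ### invariance of the process -/

/-- action on clocks, configurations and noise -/
def actQ (g : W d → W d) (q : Cl (W d) × Om (W d)) : Cl (W d) × Om (W d) :=
  (q.1 ∘ actB g, (q.2.1 ∘ g, q.2.2 ∘ actB g))

lemma actB_inj {g : W d → W d} (hg : Function.Injective g) : Function.Injective (actB g) := by
  intro a b h
  have h1 := congrArg Prod.fst h
  have h2 := congrArg Prod.snd h
  exact Prod.ext (hg h1) h2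

lemma μI_actB {g : W d → W d} (hg : Function.Injective g) :
    (μI (W d × ℕ)).map (fun L => L ∘ actB g) = μI (W d × ℕ) :=
  iid_map_inj (volume : Measure I) (actB g) (actB_inj hg)

theorem Pt_aut {θ : ℝ} (h0 : 0 ≤ θ) (h1 : θ ≤ 1) (g : wordGraph d ≃g wordGraph d) :
    (Pt (nu d θ)).map (actQ g) = Pt (nu d θ) := by
  have i1 := isProb_nu d h1
  have mB : Measurable (fun L : W d × ℕ → I => L ∘ actB g) := by
    rw [measurable_pi_iff]; intro w; exact measurable_pi_apply _
  have mx : Measurable (fun x : W d → Bool => x ∘ g) := by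
    rw [measurable_pi_iff]; intro w; exact measurable_pi_apply _
  have e : actQ (g : W d → W d) = Prod.map (fun L : W d × ℕ → I => L ∘ actB g)
      (Prod.map (fun x : W d → Bool => x ∘ g) (fun L : W d × ℕ → I => L ∘ actB g)) := rfl
  unfold Pt
  rw [e, ← Measure.map_prod_map _ _ mB (mx.prodMap mB), ← Measure.map_prod_map _ _ mx mB,
    μI_actB g.injective, nu_aut h0 h1 g]

/-- configuration and combined labels -/
noncomputable def cfg (θ : ℝ) (q : Cl (W d) × Om (W d)) : (W d → Bool) × (W d × ℕ → I) :=
  (q.2.1, comb q.1 (innov θ q.1 q.2))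

lemma measurable_cfg (θ : ℝ) : Measurable (cfg (d := d) θ) := by
  have h : cfg (d := d) θ = fun q => (q.2.1, (fun z : (W d × ℕ → I) × (W d × ℕ → I) =>
      comb z.1 z.2) (WWm θ q)) := rfl
  rw [h]
  exact (measurable_fst.comp measurable_snd).prodMk (measurable_comb.comp (Pair.measurable_WWm θ))

lemma cfg_act (θ : ℝ) (g : wordGraph d ≃g wordGraph d) (q : Cl (W d) × Om (W d)) :
    cfg θ (actQ g q) = ((cfg θ q).1 ∘ g, fun b : W d × ℕ => (cfg θ q).2 (g b.1, b.2)) := by
  unfold cfg actQ
  simp only
  rw [innov_equivariant g θ q.1 q.2]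
  rfl

/-- the equivariant map on words -/
theorem exists_on_words {θ : ℝ} (h0 : 0 ≤ θ) (h1 : θ ≤ 1)
    (hlaw : (Pt (nu d θ)).map (WWm θ) = (μI (W d × ℕ)).prod (μI (W d × ℕ)))
    (hF : ∃ F : Cl (W d) × (W d × ℕ → I) → (W d → Bool), Measurable F ∧
      ∀ᵐ q ∂(Pt (nu d θ)), F (WWm θ q) = q.2.1) :
    ∃ Φ : (W d → I) → (W d → Bool), Measurable Φ ∧
      (∀ (g : wordGraph d ≃g wordGraph d) (u : W d → I), Φ (u ∘ g) = Φ u ∘ g) ∧
      (μI (W d)).map Φ = nu d θ := by
  have i1 := isProb_nu d h1
  have iPt : IsProbabilityMeasure (Pt (nu d θ)) := by unfold Pt; infer_instance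
  obtain ⟨F, hFm, hFae⟩ := hF
  set P := (Pt (nu d θ)).map (cfg θ) with hP
  have iP : IsProbabilityMeasure P :=
    Measure.isProbabilityMeasure_map (measurable_cfg θ).aemeasurable
  have hWm := Pair.measurable_WWm (d := d) θ
  -- second marginal
  have hP2 : P.map Prod.snd = μI (W d × ℕ) := by
    rw [hP, Measure.map_map measurable_snd (measurable_cfg θ)]
    have e : Prod.snd ∘ cfg (d := d) θ = (fun z : (W d × ℕ → I) × (W d × ℕ → I) =>
      comb z.1 z.2) ∘ (WWm θ) := rfl
    rw [e, ← Measure.map_map measurable_comb hWm, hlaw, law_comb]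
  have hP1 : P.map Prod.fst = nu d θ := by
    rw [hP, Measure.map_map measurable_fst (measurable_cfg θ)]
    have e : Prod.fst ∘ cfg (d := d) θ = Prod.fst ∘ (Prod.snd : Cl (W d) × Om (W d) → Om (W d)) :=
      rfl
    rw [e, ← Measure.map_map measurable_fst measurable_snd]
    unfold Pt
    rw [Measure.map_snd_prod, measure_univ, one_smul, Measure.map_fst_prod, measure_univ, one_smul]
  have hinv : ∀ g ∈ {g : W d ≃ W d | ∃ g' : wordGraph d ≃g wordGraph d, g'.toEquiv = g},
      P.map (fun p => (p.1 ∘ g, fun b : W d × ℕ => p.2 (g b.1, b.2))) = P := by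
    rintro g ⟨g', rfl⟩
    have mact : Measurable (fun p : (W d → Bool) × (W d × ℕ → I) =>
        (p.1 ∘ g'.toEquiv, fun b : W d × ℕ => p.2 (g'.toEquiv b.1, b.2))) := by
      refine Measurable.prodMk ?_ ?_
      · rw [measurable_pi_iff]; intro w; exact (measurable_pi_apply _).comp measurable_fst
      · rw [measurable_pi_iff]; intro w; exact (measurable_pi_apply _).comp measurable_snd
    have mQ : Measurable (actQ (g' : W d → W d)) := by
      have mB : Measurable (fun L : W d × ℕ → I => L ∘ actB g') := by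
        rw [measurable_pi_iff]; intro w; exact measurable_pi_apply _
      have mx : Measurable (fun x : W d → Bool => x ∘ g') := by
        rw [measurable_pi_iff]; intro w; exact measurable_pi_apply _
      exact mB.prodMap (mx.prodMap mB)
    rw [hP, Measure.map_map mact (measurable_cfg θ)]
    have e : (fun p : (W d → Bool) × (W d × ℕ → I) =>
        (p.1 ∘ g'.toEquiv, fun b : W d × ℕ => p.2 (g'.toEquiv b.1, b.2))) ∘ cfg θ =
        cfg θ ∘ actQ (g' : W d → W d) := by
      funext q
      exact (cfg_act θ g' q).symm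
    rw [e, ← Measure.map_map (measurable_cfg θ) mQ, Pt_aut h0 h1 g']
  obtain ⟨Φ, hΦm, hΦe, hΦl⟩ := exists_equivariant
    {g : W d ≃ W d | ∃ g' : wordGraph d ≃g wordGraph d, g'.toEquiv = g} P hP2 hinv
    ballAt ballAt_mono ballAt_cov
    (by rintro g ⟨g', rfl⟩ v n; exact ballAt_aut g' v n)
    (fun L => F (decomb L)) (hFm.comp measurable_decomb)
    (by
      have hms : MeasurableSet {p : (W d → Bool) × (W d × ℕ → I) | F (decomb p.2) = p.1} :=
        measurableSet_eq_fun (hFm.comp (measurable_decomb.comp measurable_snd)) measurable_fst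
      rw [hP, ae_map_iff (measurable_cfg θ).aemeasurable hms]
      filter_upwards [hFae] with q hq
      change F (decomb (comb q.1 (innov θ q.1 q.2))) = q.2.1
      rw [decomb_comb]
      exact hq)
  exact ⟨Φ, hΦm, fun g u => hΦe g.toEquiv ⟨g, rfl⟩ u, by rw [hΦl, hP1]⟩

/-- the final statement, for an abstract tree -/
theorem assemble {θ : ℝ} (h0 : 0 ≤ θ) (h1 : θ ≤ 1)
    (hlaw : (Pt (nu d θ)).map (WWm θ) = (μI (W d × ℕ)).prod (μI (W d × ℕ)))
    (hF : ∃ F : Cl (W d) × (W d × ℕ → I) → (W d → Bool), Measurable F ∧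
      ∀ᵐ q ∂(Pt (nu d θ)), F (WWm θ q) = q.2.1)
    (V : Type u) (G : SimpleGraph V) [G.LocallyFinite] (hT : G.IsTree)
    (hreg : G.IsRegularOfDegree d) :
    ∃ Φ : (V → unitInterval) → (V → Bool),
      Measurable Φ ∧
      (∀ (g : G ≃g G) (x : V → unitInterval), Φ (x ∘ ⇑g) = Φ x ∘ ⇑g) ∧
      ∀ (S : Finset V) (η : V → Bool), (G.induce (S : Set V)).Connected →
        (Crest.ProbabilityR.Labels.labelMeasure V).map Φ {τ | ∀ v ∈ S, τ v = η v} =
          ENNReal.ofReal (Crest.ProbabilityR.TreeIsing.isingWeight G θ S η) := by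
  obtain ⟨Φ, hΦm, hΦe, hΦl⟩ := exists_on_words h0 h1 hlaw hF
  obtain ⟨e⟩ := exists_iso G hT hreg
  set mW : (V → I) → (W d → I) := fun u => u ∘ e.symm with hmW
  have mmW : Measurable mW := by
    rw [measurable_pi_iff]; intro w; exact measurable_pi_apply _
  have mmV : Measurable (fun x : W d → Bool => x ∘ e) := by
    rw [measurable_pi_iff]; intro w; exact measurable_pi_apply _
  refine ⟨fun u => Φ (mW u) ∘ e, mmV.comp (hΦm.comp mmW), fun g x => ?_, fun S η hS => ?_⟩
  · have e1 : mW (x ∘ ⇑g) = mW x ∘ ((e.symm.trans g).trans e) := by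
      funext w
      simp only [hmW, Function.comp_apply]
      congr 1
      change g (e.symm w) = e.symm (e (g (e.symm w)))
      rw [e.symm_apply_apply]
    simp only
    rw [e1, hΦe]
    funext v
    simp only [Function.comp_apply]
    congr 1
    change e (g (e.symm (e v))) = e (g v)
    rw [e.symm_apply_apply]
  · have hlab : (Crest.ProbabilityR.Labels.labelMeasure V).map mW = μI (W d) :=
      iid_map_inj (volume : Measure I) (e.symm : W d → V) e.symm.injective
    have hcomp : (Crest.ProbabilityR.Labels.labelMeasure V).map (fun u => Φ (mW u) ∘ e) =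
        (nu d θ).map (fun x => x ∘ e) := by
      have e2 : (fun u : V → I => Φ (mW u) ∘ e) = (fun x : W d → Bool => x ∘ e) ∘ (Φ ∘ mW) := rfl
      rw [e2, ← Measure.map_map mmV (hΦm.comp mmW), ← Measure.map_map hΦm mmW, hlab, hΦl]
    rw [hcomp]
    have hms : MeasurableSet {τ : V → Bool | ∀ v ∈ S, τ v = η v} := by
      have : {τ : V → Bool | ∀ v ∈ S, τ v = η v} = ⋂ v ∈ S, {τ | τ v = η v} := by ext x; simp
      rw [this]
      exact Finset.measurableSet_biInter _ fun v _ =>
        measurableSet_eq_fun (measurable_pi_apply v) measurable_const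
    rw [Measure.map_apply mmV hms]
    have e3 : (fun x : W d → Bool => x ∘ e) ⁻¹' {τ : V → Bool | ∀ v ∈ S, τ v = η v} =
        {x | ∀ w ∈ S.map e.toEquiv.toEmbedding, x w = (η ∘ e.symm) w} := by
      ext x
      simp only [Set.mem_preimage, Set.mem_ofPred_eq, Finset.mem_map, Function.comp_apply,
        forall_exists_index, and_imp]
      constructor
      · rintro h2 v a ha rfl
        rw [show e.symm (e.toEquiv.toEmbedding a) = a from e.symm_apply_apply a]
        exact h2 a ha
      · intro h2 v hv
        have := h2 (e v) v hv rfl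
        rwa [show e.symm (e v) = v from e.symm_apply_apply v] at this
    rw [e3, nu_connected h0 h1 _ _ (connected_image _ _ e _ hS), ← weight_iso G _ e]
    congr 2
    funext v
    simp only [Function.comp_apply]
    rw [show e.symm (e v) = v from e.symm_apply_apply v]

end Crest.Agent.TI
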