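import Crest.Agent.TIConcD

/-!
Row 160 (S0241), piece CONC: final statements for the field law.  Owner: helper8.
-/

set_option autoImplicit false

namespace Crest.Agent.TI.Conc

open MeasureTheory Set Filter Topology ProbabilityTheory
open scoped ENNReal
open Crest.Agent.TI Crest.Agent.TI.Scal

variable {d : ℕ} {θ : ℝ} {μy : Measure ℝ}

/-! ### transfer principles -/

lemma isProb_fieldLaw' (h0 : 0 ≤ θ) (h1 : θ < 1) [IsProbabilityMeasure μy] :
    IsProbabilityMeasure (fieldLaw d θ μy) := by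
  have hL := isProb_Lam (d := d) h0 h1.le μy
  rw [fieldLaw_eq h0 h1.le]
  exact Measure.isProbabilityMeasure_map measurable_fld.aemeasurable

lemma map_snd_Lam (h0 : 0 ≤ θ) (h1 : θ < 1) [IsProbabilityMeasure μy] :
    ((signLaw 0).prod (Lam d θ μy)).map Prod.snd = Lam d θ μy := by
  have hL := isProb_Lam (d := d) h0 h1.le μy
  rw [Measure.map_snd_prod, measure_univ, one_smul]

/-- integrals of functionals that only depend on the gauge fixed labels. -/
theorem integral_field_eq (h0 : 0 ≤ θ) (h1 : θ < 1) [IsProbabilityMeasure μy]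
    {F : (W d → ℝ) → ℝ} (hF : Measurable F) {H : (W d → Bool × ℝ) → ℝ} (hH : Measurable H)
    (h : ∀ᵐ q ∂((signLaw 0).prod (Lam d θ μy)), F (fld q) = H q.2) :
    ∫ y, F y ∂(fieldLaw d θ μy) = ∫ ω, H ω ∂(Lam d θ μy) := by
  rw [fieldLaw_eq h0 h1.le, integral_map measurable_fld.aemeasurable hF.aestronglyMeasurable,
    integral_congr_ae h]
  conv_rhs => rw [← map_snd_Lam h0 h1]
  rw [integral_map measurable_snd.aemeasurable hH.aestronglyMeasurable]

/-- probabilities of events implied by an event of the gauge fixed labels. -/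
theorem measure_field_le (h0 : 0 ≤ θ) (h1 : θ < 1) [IsProbabilityMeasure μy]
    {A : Set (W d → ℝ)} (hA : MeasurableSet A) {B : Set (W d → Bool × ℝ)}
    (h : ∀ᵐ q ∂((signLaw 0).prod (Lam d θ μy)), fld q ∈ A → q.2 ∈ B) :
    (fieldLaw d θ μy).real A ≤ (Lam d θ μy).real B := by
  have hL := isProb_Lam (d := d) h0 h1.le μy
  have h2 : (fieldLaw d θ μy) A ≤ (Lam d θ μy) B := by
    rw [fieldLaw_eq h0 h1.le, Measure.map_apply measurable_fld hA]
    calc ((signLaw 0).prod (Lam d θ μy)) (fld ⁻¹' A)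
        ≤ ((signLaw 0).prod (Lam d θ μy)) (Prod.snd ⁻¹' B) := by
          apply measure_mono_ae
          filter_upwards [h] with q hq using hq
      _ = ((signLaw 0).prod (Lam d θ μy)) (univ ×ˢ B) := by
          congr 1
          ext q
          simp
      _ = (Lam d θ μy) B := by
          rw [Measure.prod_prod, measure_univ, one_mul]
  exact ENNReal.toReal_mono (measure_ne_top _ _) h2

lemma measurable_msg (h0 : 0 ≤ θ) (h1 : θ < 1) (n : ℕ) (w : W d) :
    Measurable (fun y : W d → ℝ => msg θ y n w) := by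
  induction n generalizing w with
  | zero => exact measurable_pi_apply w
  | succ n ih =>
    have e : (fun y : W d → ℝ => msg θ y (n + 1) w) = fun y => y w +
      ∑ i : Fin d, if w.head? = some i then 0 else phi θ (msg θ y n (W.nb i w)) := rfl
    rw [e]
    apply Measurable.add (measurable_pi_apply w)
    apply Finset.measurable_sum
    intro i _
    split_ifs
    · exact measurable_const
    · exact (Scal.continuous_phi h0 h1).measurable.comp (ih _)

lemma measurable_msgI (h0 : 0 ≤ θ) (h1 : θ < 1) (w : W d) :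
    Measurable (fun y : W d → ℝ => msgI θ y w) :=
  Measurable.limsup fun n => measurable_msg h0 h1 n w

lemma phid_sg_mul (b : Bool) (h : ℝ) : phid θ (sg b * h) = phid θ h := by
  cases b
  · simp only [sg, Bool.false_eq_true, if_false]
    rw [show (-1 : ℝ) * h = -h by ring, phid_neg]
  · simp [sg]

lemma tanh_sg_mul_sq (b : Bool) (h : ℝ) : Real.tanh (sg b * h) ^ 2 = Real.tanh h ^ 2 := by
  cases b
  · simp only [sg, Bool.false_eq_true, if_false]
    rw [show (-1 : ℝ) * h = -h by ring, Real.tanh_neg]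
    ring
  · simp [sg]

lemma abs_tanh_sg_mul (b : Bool) (h : ℝ) : |Real.tanh (sg b * h)| = |Real.tanh h| := by
  cases b
  · simp only [sg, Bool.false_eq_true, if_false]
    rw [show (-1 : ℝ) * h = -h by ring, Real.tanh_neg, abs_neg]
  · simp [sg]

/-! ### (Cn1) -/

theorem integral_tanh_msgI (h0 : 0 ≤ θ) (h1 : θ < 1) [IsProbabilityMeasure μy]
    (hG : ∀ᵐ y ∂(fieldLaw d θ μy), Good θ y) (v : W d) :
    ∫ y, Real.tanh (msgI θ y v) ^ 2 ∂(fieldLaw d θ μy) = Xi μy θ v := by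
  apply integral_field_eq h0 h1
  · exact LB.tanh_sq.1.comp (measurable_msgI h0 h1 v)
  · exact LB.tanh_sq.1.comp (measurable_GI h0 h1 v)
  · filter_upwards [ae_good_fld h0 h1 hG] with q hq
    rw [msgI_fld h0 h1 hq, tanh_sg_mul_sq]

/-- (Cn1). -/
theorem Cn1 (h0 : 0 ≤ θ) (h1 : θ < 1) [IsProbabilityMeasure μy]
    (hG : ∀ᵐ y ∂(fieldLaw d θ μy), Good θ y) {v : W d} (hv : v ≠ W.root) :
    Tendsto (fun n => xx (msgLaw θ μy (d - 1) n)) atTop
      (𝓝 (∫ y, Real.tanh (msgI θ y v) ^ 2 ∂(fieldLaw d θ μy))) := by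
  rw [integral_tanh_msgI h0 h1 hG]
  exact tendsto_xx h0 h1 (ae_goodG h0 h1 hG) hv

/-! ### (Cn3) -/

lemma wtI_add (u : W d) (m k : ℕ) (ω : W d → Bool × ℝ) :
    wtI θ u (m + k) ω = wtI θ u k ω * wtI θ (W.par^[k] u) m ω := by
  rw [add_comm m k, wtI, Finset.prod_range_add]
  congr 1
  refine Finset.prod_congr rfl fun i _ => ?_
  rw [add_comm k i, Function.iterate_add_apply]

lemma QQ_fld (h0 : 0 ≤ θ) (h1 : θ < 1) {q : Bool × (W d → Bool × ℝ)} (hq : Good θ (fld q))
    (n : ℕ) : QQ θ (fld q) n = ∑ u ∈ W.sphere d n, wtI θ u n q.2 := by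
  unfold QQ
  refine Finset.sum_congr rfl fun u hu => ?_
  rw [cpr, wtI, ← Finset.prod_pow, W.mem_sphere.1 hu]
  refine Finset.prod_congr rfl fun i _ => ?_
  rw [msgI_fld h0 h1 hq, phid_sg_mul]

lemma QQ_fld_le (h0 : 0 ≤ θ) (h1 : θ < 1) {q : Bool × (W d → Bool × ℝ)} (hq : Good θ (fld q))
    (m k : ℕ) :
    QQ θ (fld q) (m + k) ≤ (θ ^ 2) ^ m * ∑ v ∈ W.sphere d m, Fv θ m k v q.2 := by
  rw [QQ_fld h0 h1 hq]
  have hmaps : ∀ u ∈ W.sphere d (m + k), W.par^[k] u ∈ W.sphere d m := by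
    intro u hu
    have hl := W.mem_sphere.1 hu
    have := len_par_iter u k (by omega)
    exact W.mem_sphere.2 (by omega)
  calc ∑ u ∈ W.sphere d (m + k), wtI θ u (m + k) q.2
      ≤ ∑ u ∈ W.sphere d (m + k), (θ ^ 2) ^ m * wtI θ u k q.2 := by
        refine Finset.sum_le_sum fun u _ => ?_
        rw [wtI_add, mul_comm]
        exact mul_le_mul_of_nonneg_right (wtI_le h0 h1 _ _ _) (wtI_nonneg _ _ _)
    _ = (θ ^ 2) ^ m * ∑ u ∈ W.sphere d (m + k), wtI θ u k q.2 := by rw [Finset.mul_sum]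
    _ = (θ ^ 2) ^ m * ∑ v ∈ W.sphere d m, Fv θ m k v q.2 := by
        congr 1
        rw [← Finset.sum_fiberwise_of_maps_to hmaps]
        rfl

lemma measurable_QQ (h0 : 0 ≤ θ) (h1 : θ < 1) (n : ℕ) :
    Measurable (fun y : W d → ℝ => QQ θ y n) := by
  unfold QQ cpr
  apply Finset.measurable_sum
  intro u _
  apply Measurable.pow_const
  apply Finset.measurable_prod
  intro i _
  exact (Scal.continuous_phid h0 h1).measurable.comp (measurable_msgI h0 h1 _)

lemma QQ_le_two (h0 : 0 ≤ θ) (h1 : θ < 1) (hd : 3 ≤ d) (hbθ : ((d : ℝ) - 1) * θ ^ 2 ≤ 1)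
    (y : W d → ℝ) (n : ℕ) : QQ θ y n ≤ 2 := by
  have hd' : (3 : ℝ) ≤ d := by exact_mod_cast hd
  calc QQ θ y n ≤ ∑ _u ∈ W.sphere d n, (θ ^ 2) ^ n := by
        unfold QQ
        refine Finset.sum_le_sum fun u hu => ?_
        rw [cpr, ← Finset.prod_pow, W.mem_sphere.1 hu]
        calc ∏ i ∈ Finset.range n, phid θ (msgI θ y (W.par^[i] u)) ^ 2
            ≤ ∏ _i ∈ Finset.range n, θ ^ 2 :=
              Finset.prod_le_prod (fun _ _ => sq_nonneg _) (fun _ _ => phid_sq_le_sq h0 h1 _)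
          _ = _ := by simp
    _ = (W.sphere d n).card * (θ ^ 2) ^ n := by simp
    _ ≤ (2 * ((d : ℝ) - 1) ^ n) * (θ ^ 2) ^ n :=
        mul_le_mul_of_nonneg_right (W.card_sphere_le (by omega) n) (by positivity)
    _ = 2 * (((d : ℝ) - 1) * θ ^ 2) ^ n := by rw [mul_pow]; ring
    _ ≤ 2 * 1 := by
        apply mul_le_mul_of_nonneg_left _ (by norm_num)
        apply pow_le_one₀ _ hbθ
        have : 0 ≤ (d : ℝ) - 1 := by linarith
        positivity
    _ = 2 := by norm_num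

/-- (Cn3) tail bound for `QQ`. -/
theorem Cn3 (h0 : 0 ≤ θ) (h1 : θ < 1) (hd : 3 ≤ d) (hbθ : ((d : ℝ) - 1) * θ ^ 2 ≤ 1)
    [IsProbabilityMeasure μy] (hcy : Cons μy) (hby : BddSupp μy)
    (hG : ∀ᵐ y ∂(fieldLaw d θ μy), Good θ y) {X : ℝ}
    (hX : Tendsto (fun n => xx (msgLaw θ μy (d - 1) n)) atTop (𝓝 X)) {q : ℝ} (hq1 : q ≤ 1)
    (hqX : ((d : ℝ) - 1) * θ ^ 2 * (1 - (1 - θ ^ 2) * (θ ^ 2 * X)) ≤ q)
    (hqb : ((d : ℝ) - 1) ^ (-(1 / 8) : ℝ) ≤ q) (n : ℕ) :
    (fieldLaw d θ μy).real {y | 4 * q ^ (n / 2) < QQ θ y n} ≤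
      Real.exp (-(Real.sqrt ((d : ℝ) - 1)) ^ (n / 2)) := by
  have hL := isProb_Lam (d := d) h0 h1.le μy
  have hP := isProb_fieldLaw' (d := d) (μy := μy) h0 h1
  have hd' : (3 : ℝ) ≤ d := by exact_mod_cast hd
  set b : ℝ := (d : ℝ) - 1 with hb
  have hb2 : 2 ≤ b := by linarith
  have hbpos : 0 < b := by linarith
  have hbcast : ((d - 1 : ℕ) : ℝ) = b := by
    rw [hb, Nat.cast_sub (by omega), Nat.cast_one]
  have hq0 : 0 < q := lt_of_lt_of_le (Real.rpow_pos_of_pos hbpos _) hqb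
  set m := n / 2 with hm
  set k := n - m with hk
  have hn : n = m + k := by omega
  have hmk : m ≤ k := by omega
  rcases Nat.eq_zero_or_pos m with hm0 | hmpos
  · have : {y : W d → ℝ | 4 * q ^ m < QQ θ y n} = ∅ := by
      ext y
      simp only [Set.mem_ofPred_eq, mem_empty_iff_false, iff_false, not_lt, hm0, pow_zero, mul_one]
      exact (QQ_le_two h0 h1 hd hbθ y n).trans (by norm_num)
    rw [this]
    simp
    positivity
  have hGG := ae_goodG h0 h1 hG
  set Q : ℝ := (b * θ ^ 2 * (1 - (1 - θ ^ 2) * (θ ^ 2 * X))) ^ k with hQ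
  have hX1 : X ≤ 1 := by
    apply le_of_tendsto hX
    filter_upwards with n
    obtain ⟨m1, m2, m3⟩ := msgLaw_props h0 h1 hcy hby (d - 1) n
    exact xx_le_one m3
  have hX0 : 0 ≤ X := by
    apply ge_of_tendsto hX
    filter_upwards with n
    exact xx_nonneg _
  have hθ1 : θ ^ 2 ≤ 1 := by nlinarith
  have hpos : 0 ≤ b * θ ^ 2 * (1 - (1 - θ ^ 2) * (θ ^ 2 * X)) := by
    apply mul_nonneg (by positivity)
    have h3 : (1 - θ ^ 2) * (θ ^ 2 * X) ≤ 1 * (1 * 1) := by
      apply mul_le_mul (by nlinarith [sq_nonneg θ]) _ (by positivity) (by norm_num)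
      exact mul_le_mul hθ1 hX1 hX0 (by norm_num)
    linarith
  have hQm : Q ≤ q ^ m := by
    calc Q ≤ q ^ k := pow_le_pow_left₀ hpos hqX k
      _ ≤ q ^ m := pow_le_pow_of_le_one hq0.le hq1 hmk
  have hhoef := hoeffding_Fv (μy := μy) h0 h1 hd (by rw [hbcast]; exact hbθ) hmpos k (Q := Q)
    (t := q ^ m) (by positivity) (fun v => by
      have := integral_Fv_le h0 h1 hd hcy hby hGG hX hmpos k v
      rw [hbcast] at this
      exact this)
  set N : ℝ := ((W.sphere d m).card : ℝ) with hN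
  have hNlow : b ^ m ≤ N := by
    have := card_sphere_ge (d := d) (m := m)
    rw [hN, ← hbcast]
    exact_mod_cast this
  have hNup : N ≤ 2 * b ^ m := W.card_sphere_le (by omega) m
  have hmeas : MeasurableSet {y : W d → ℝ | 4 * q ^ m < QQ θ y n} :=
    measurableSet_lt measurable_const (measurable_QQ h0 h1 n)
  have hle := measure_field_le (μy := μy) h0 h1 hmeas
    (B := {ω | N * (Q + q ^ m) ≤ ∑ v ∈ W.sphere d m, Fv θ m k v ω}) (by
      filter_upwards [ae_good_fld h0 h1 hG] with p hp hA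
      have hA' : 4 * q ^ m < QQ θ (fld p) n := hA
      show N * (Q + q ^ m) ≤ ∑ v ∈ W.sphere d m, Fv θ m k v p.2
      by_contra hcon
      rw [not_le] at hcon
      have h3 : QQ θ (fld p) n ≤ (θ ^ 2) ^ m * ∑ v ∈ W.sphere d m, Fv θ m k v p.2 := by
        rw [hn]
        exact QQ_fld_le h0 h1 hp m k
      have h4 : (θ ^ 2) ^ m * ∑ v ∈ W.sphere d m, Fv θ m k v p.2 ≤
          (θ ^ 2) ^ m * (N * (Q + q ^ m)) :=
        mul_le_mul_of_nonneg_left hcon.le (by positivity)
      have h5 : (θ ^ 2) ^ m * (N * (Q + q ^ m)) ≤ (θ ^ 2) ^ m * ((2 * b ^ m) * (q ^ m + q ^ m)) := by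
        apply mul_le_mul_of_nonneg_left _ (by positivity)
        apply mul_le_mul hNup (by linarith) (by positivity) (by positivity)
      have h6 : (θ ^ 2) ^ m * ((2 * b ^ m) * (q ^ m + q ^ m)) = (b * θ ^ 2) ^ m * (4 * q ^ m) := by
        rw [mul_pow b]
        ring
      have h7 : (b * θ ^ 2) ^ m * (4 * q ^ m) ≤ 1 * (4 * q ^ m) := by
        apply mul_le_mul_of_nonneg_right _ (by positivity)
        exact pow_le_one₀ (by positivity) hbθ
      linarith)
  refine hle.trans (hhoef.trans ?_)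
  apply Real.exp_le_exp.2
  apply neg_le_neg
  -- (√b)^m ≤ 2 N (q^m)^2
  have hsq : Real.sqrt b ≤ q ^ 2 * b := by
    have e1 : (b ^ (-(1 / 8) : ℝ)) ^ 2 ≤ q ^ 2 :=
      pow_le_pow_left₀ (Real.rpow_nonneg hbpos.le _) hqb 2
    have e2 : (b ^ (-(1 / 8) : ℝ)) ^ 2 = b ^ (-(1 / 4) : ℝ) := by
      rw [← Real.rpow_natCast, ← Real.rpow_mul hbpos.le]
      norm_num
    have e3 : b ^ (-(1 / 4) : ℝ) * b = b ^ ((3 / 4) : ℝ) := by
      rw [← Real.rpow_add_one hbpos.ne']
      norm_num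
    calc Real.sqrt b = b ^ ((1 / 2) : ℝ) := Real.sqrt_eq_rpow b
      _ ≤ b ^ ((3 / 4) : ℝ) := Real.rpow_le_rpow_of_exponent_le (by linarith) (by norm_num)
      _ = b ^ (-(1 / 4) : ℝ) * b := e3.symm
      _ ≤ q ^ 2 * b := by
          rw [← e2]
          exact mul_le_mul_of_nonneg_right e1 hbpos.le
  calc Real.sqrt b ^ m ≤ (q ^ 2 * b) ^ m := pow_le_pow_left₀ (Real.sqrt_nonneg _) hsq m
    _ = b ^ m * (q ^ m) ^ 2 := by rw [mul_pow, ← pow_mul, ← pow_mul, mul_comm 2 m]; ring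
    _ ≤ N * (q ^ m) ^ 2 := mul_le_mul_of_nonneg_right hNlow (sq_nonneg _)
    _ ≤ 2 * N * (q ^ m) ^ 2 := by
        have hN0 : 0 ≤ N := Nat.cast_nonneg _
        have h9 : 0 ≤ N * (q ^ m) ^ 2 := mul_nonneg hN0 (sq_nonneg _)
        linarith

/-! ### (Cn4) -/

/-- fixed point inequality for the limit -/
lemma fixed_point (h0 : 0 ≤ θ) (h1 : θ < 1) [IsProbabilityMeasure μy] (hcy : Cons μy)
    (hby : BddSupp μy) (b : ℕ) {X : ℝ}
    (hX : Tendsto (fun n => xx (msgLaw θ μy b n)) atTop (𝓝 X)) :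
    xx μy + b * θ ^ 2 * X - 2 * b * θ ^ 2 * X * (xx μy + b * θ ^ 2 * X) ≤ X := by
  have h1' : Tendsto (fun n => xx (msgLaw θ μy b (n + 1))) atTop (𝓝 X) :=
    hX.comp (tendsto_add_atTop_nat 1)
  have h2 : Tendsto (fun n => xx μy + b * θ ^ 2 * xx (msgLaw θ μy b n) -
      2 * b * θ ^ 2 * xx (msgLaw θ μy b n) * (xx μy + b * θ ^ 2 * xx (msgLaw θ μy b n))) atTop
      (𝓝 (xx μy + b * θ ^ 2 * X - 2 * b * θ ^ 2 * X * (xx μy + b * θ ^ 2 * X))) := by
    have c : Continuous (fun x : ℝ => xx μy + b * θ ^ 2 * x -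
      2 * b * θ ^ 2 * x * (xx μy + b * θ ^ 2 * x)) := by fun_prop
    exact (c.tendsto X).comp hX
  exact le_of_tendsto_of_tendsto' h2 h1' fun n => le_xx_msg_succ h0 h1 hcy hby b n

/-- (Cn4). -/
theorem Cn4 (h0 : 0 ≤ θ) (h1 : θ < 1) (hd : 3 ≤ d) (hbθ : ((d : ℝ) - 1) * θ ^ 2 ≤ 1) :
    ∃ c : ℝ, 0 < c ∧ ∀ (μy : Measure ℝ), IsProbabilityMeasure μy → Cons μy → BddSupp μy →
      ∀ X : ℝ, Tendsto (fun n => xx (msgLaw θ μy (d - 1) n)) atTop (𝓝 X) →
        max (((d : ℝ) - 1) * θ ^ 2 * (1 - (1 - θ ^ 2) * (θ ^ 2 * X)))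
          (((d : ℝ) - 1) ^ (-(1 / 8) : ℝ)) ≤ 1 - c * Real.sqrt (xx μy) := by
  have hd' : (3 : ℝ) ≤ d := by exact_mod_cast hd
  set b : ℝ := (d : ℝ) - 1 with hb
  have hb2 : 2 ≤ b := by linarith
  have hbpos : 0 < b := by linarith
  have hbcast : ((d - 1 : ℕ) : ℝ) = b := by
    rw [hb, Nat.cast_sub (by omega), Nat.cast_one]
  have hb8 : b ^ (-(1 / 8) : ℝ) < 1 := Real.rpow_lt_one_of_one_lt_of_neg (by linarith) (by norm_num)
  have hθ1 : θ ^ 2 < 1 := by nlinarith
  have hX01 : ∀ (μy : Measure ℝ), IsProbabilityMeasure μy → Cons μy → BddSupp μy →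
      ∀ X : ℝ, Tendsto (fun n => xx (msgLaw θ μy (d - 1) n)) atTop (𝓝 X) → 0 ≤ X ∧ X ≤ 1 := by
    intro μy hp hcy hby X hX
    refine ⟨ge_of_tendsto hX ?_, le_of_tendsto hX ?_⟩
    · filter_upwards with n
      exact xx_nonneg _
    · filter_upwards with n
      obtain ⟨m1, m2, m3⟩ := msgLaw_props h0 h1 hcy hby (d - 1) n
      exact xx_le_one m3
  have hs01 : ∀ (μy : Measure ℝ), IsProbabilityMeasure μy → BddSupp μy →
      Real.sqrt (xx μy) ≤ 1 := by
    intro μy hp hby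
    exact Real.sqrt_le_one.2 (xx_le_one hby)
  rcases lt_or_eq_of_le hbθ with hlt | heq
  · refine ⟨min (1 - b * θ ^ 2) (1 - b ^ (-(1 / 8) : ℝ)), lt_min (by linarith) (by linarith), ?_⟩
    intro μy hp hcy hby X hX
    obtain ⟨hX0, hX1⟩ := hX01 μy hp hcy hby X hX
    have hs := hs01 μy hp hby
    have hs0 := Real.sqrt_nonneg (xx μy)
    set c := min (1 - b * θ ^ 2) (1 - b ^ (-(1 / 8) : ℝ)) with hc
    have hc0 : 0 < c := lt_min (by linarith) (by linarith)
    have hcs : c * Real.sqrt (xx μy) ≤ c := by nlinarith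
    have hc1 : c ≤ 1 - b * θ ^ 2 := min_le_left _ _
    have hc2 : c ≤ 1 - b ^ (-(1 / 8) : ℝ) := min_le_right _ _
    apply max_le
    · have : b * θ ^ 2 * (1 - (1 - θ ^ 2) * (θ ^ 2 * X)) ≤ b * θ ^ 2 * 1 := by
        apply mul_le_mul_of_nonneg_left _ (by positivity)
        have : 0 ≤ (1 - θ ^ 2) * (θ ^ 2 * X) :=
          mul_nonneg (by linarith) (by positivity)
        linarith
      linarith
    · linarith
  · have hθpos : 0 < θ ^ 2 := by
      rcases (sq_nonneg θ).lt_or_eq with h | h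
      · exact h
      · rw [← h] at heq
        norm_num at heq
    have hc1pos : 0 < (1 - θ ^ 2) * θ ^ 2 / 4 := by
      have : 0 < 1 - θ ^ 2 := by linarith
      positivity
    refine ⟨min ((1 - θ ^ 2) * θ ^ 2 / 4) (1 - b ^ (-(1 / 8) : ℝ)),
      lt_min hc1pos (by linarith), ?_⟩
    intro μy hp hcy hby X hX
    obtain ⟨hX0, hX1⟩ := hX01 μy hp hcy hby X hX
    have hs := hs01 μy hp hby
    have hs0 := Real.sqrt_nonneg (xx μy)
    set s := Real.sqrt (xx μy) with hsdef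
    have hs2 : s ^ 2 = xx μy := Real.sq_sqrt (xx_nonneg _)
    set c := min ((1 - θ ^ 2) * θ ^ 2 / 4) (1 - b ^ (-(1 / 8) : ℝ)) with hc
    have hc0 : 0 < c := lt_min hc1pos (by linarith)
    have hcs : c * s ≤ c := by nlinarith
    have hc1 : c ≤ (1 - θ ^ 2) * θ ^ 2 / 4 := min_le_left _ _
    have hc2 : c ≤ 1 - b ^ (-(1 / 8) : ℝ) := min_le_right _ _
    have hfp := fixed_point h0 h1 hcy hby (d - 1) hX
    rw [hbcast] at hfp
    have e1 : 2 * b * θ ^ 2 * X * (xx μy + b * θ ^ 2 * X) =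
      2 * (b * θ ^ 2) * X * (xx μy + (b * θ ^ 2) * X) := by ring
    rw [e1, heq, one_mul, ← hs2] at hfp
    have hXs : s / 4 ≤ X := by
      by_contra hcon
      rw [not_le] at hcon
      have hspos : 0 < s := by linarith
      have k1 : X * (s ^ 2 + X) ≤ s / 4 * (s ^ 2 + s / 4) := by
        apply mul_le_mul hcon.le (by linarith) (by positivity) (by positivity)
      have k2 : s / 4 * (s ^ 2 + s / 4) ≤ s ^ 2 * (5 / 16) := by nlinarith
      nlinarith
    apply max_le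
    · rw [heq, one_mul]
      have : (1 - θ ^ 2) * (θ ^ 2 * (s / 4)) ≤ (1 - θ ^ 2) * (θ ^ 2 * X) := by
        apply mul_le_mul_of_nonneg_left _ (by linarith)
        exact mul_le_mul_of_nonneg_left hXs hθpos.le
      have k3 : c * s ≤ (1 - θ ^ 2) * θ ^ 2 / 4 * s := mul_le_mul_of_nonneg_right hc1 hs0
      nlinarith
    · linarith

/-! ### (Cn5) -/

lemma cosh_ge_exp (x : ℝ) : Real.exp x / 2 ≤ Real.cosh x := by
  rw [Real.cosh_eq]
  have := Real.exp_pos (-x)
  linarith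

/-- tail bound for finite volume messages. -/
lemma tail_G (h0 : 0 ≤ θ) (h1 : θ < 1) [IsProbabilityMeasure μy] (hcy : Cons μy)
    (hby : BddSupp μy) {l : ℝ} (hl : 0 ≤ l) (n : ℕ)
    (hM : ∫ h, Real.cosh (l * h) ∂(msgLaw θ μy (d - 1) n) ≤ 2) {v : W d} (hv : v ≠ W.root)
    (K : ℝ) :
    (Lam d θ μy) {ω | K < |G θ n v ω|} ≤ ENNReal.ofReal (4 * Real.exp (-(l * K))) := by
  have hL := isProb_Lam (d := d) h0 h1.le μy
  obtain ⟨m1, m2, m3⟩ := msgLaw_props h0 h1 hcy hby (d - 1) n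
  have hmG := measurable_G (d := d) h0 h1 n v
  have hms : MeasurableSet {h : ℝ | K < |h|} := measurableSet_lt measurable_const continuous_abs.measurable
  have e1 : (Lam d θ μy) {ω | K < |G θ n v ω|} = (msgLaw θ μy (d - 1) n) {h | K < |h|} := by
    rw [← map_G h0 h1 n hv, Measure.map_apply hmG hms]
    rfl
  rw [e1]
  have hcosh : ∀ h ∈ {h : ℝ | K < |h|}, Real.exp (l * K) / 2 ≤ Real.cosh (l * h) := by
    intro h hh
    have hh' : K < |h| := hh
    have a1 : Real.cosh (l * h) = Real.cosh (l * |h|) := by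
      rw [← Real.cosh_abs (l * h), abs_mul, abs_of_nonneg hl]
    rw [a1]
    refine le_trans ?_ (cosh_ge_exp _)
    apply div_le_div_of_nonneg_right _ (by norm_num)
    apply Real.exp_le_exp.2
    exact mul_le_mul_of_nonneg_left hh'.le hl
  have hcint := (LB.cosh_mul l).integrable m3
  have hmark := mul_meas_ge_le_integral_of_nonneg (μ := msgLaw θ μy (d - 1) n)
    (f := fun h => Real.cosh (l * h)) (by filter_upwards with x using (Real.cosh_pos _).le) hcint
    (Real.exp (l * K) / 2)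
  have h3 : (msgLaw θ μy (d - 1) n).real {h | K < |h|} ≤ 4 * Real.exp (-(l * K)) := by
    have h4 : (msgLaw θ μy (d - 1) n).real {h | K < |h|} ≤
        (msgLaw θ μy (d - 1) n).real {x | Real.exp (l * K) / 2 ≤ Real.cosh (l * x)} :=
      measureReal_mono hcosh
    have hpos : 0 < Real.exp (l * K) / 2 := by positivity
    have h5 : Real.exp (l * K) / 2 * (msgLaw θ μy (d - 1) n).real {h | K < |h|} ≤ 2 := by
      calc _ ≤ Real.exp (l * K) / 2 * (msgLaw θ μy (d - 1) n).real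
            {x | Real.exp (l * K) / 2 ≤ Real.cosh (l * x)} :=
            mul_le_mul_of_nonneg_left h4 hpos.le
        _ ≤ _ := hmark
        _ ≤ 2 := hM
    rw [Real.exp_neg]
    rw [show 4 * (Real.exp (l * K))⁻¹ = 2 / (Real.exp (l * K) / 2) by field_simp; norm_num]
    rw [le_div_iff₀ hpos]
    linarith
  rw [← ENNReal.ofReal_toReal (measure_ne_top _ {h | K < |h|})]
  exact ENNReal.ofReal_le_ofReal h3

/-- (Cn5). -/
theorem Cn5 (h0 : 0 ≤ θ) (h1 : θ < 1) [IsProbabilityMeasure μy] (hcy : Cons μy)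
    (hby : BddSupp μy) (hG : ∀ᵐ y ∂(fieldLaw d θ μy), Good θ y) {l : ℝ} (hl : 0 ≤ l)
    (hM : ∀ n, ∫ h, Real.cosh (l * h) ∂(msgLaw θ μy (d - 1) n) ≤ 2) {v : W d} (hv : v ≠ W.root)
    (K : ℝ) :
    (fieldLaw d θ μy).real {y | K < |Real.tanh (msgI θ y v)|} ≤ 4 * Real.exp (-(l * K)) := by
  have hL := isProb_Lam (d := d) h0 h1.le μy
  have hmeas : MeasurableSet {y : W d → ℝ | K < |Real.tanh (msgI θ y v)|} :=
    measurableSet_lt measurable_const
      ((continuous_abs.comp continuous_tanh).measurable.comp (measurable_msgI h0 h1 v))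
  have hle := measure_field_le (μy := μy) h0 h1 hmeas (B := {ω | GoodG θ ω → K < |GI θ v ω|}) (by
    filter_upwards [ae_good_fld h0 h1 hG] with p hp hA
    have hA' : K < |Real.tanh (msgI θ (fld p) v)| := hA
    intro _
    rw [msgI_fld h0 h1 hp, abs_tanh_sg_mul] at hA'
    exact lt_of_lt_of_le hA' (abs_tanh_le _))
  refine hle.trans ?_
  have hmG : ∀ n, MeasurableSet {ω : W d → Bool × ℝ | K < |G θ n v ω|} := fun n =>
    measurableSet_lt measurable_const (continuous_abs.measurable.comp (measurable_G h0 h1 n v))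
  have h2 : (Lam d θ μy) {ω | GoodG θ ω → K < |GI θ v ω|} ≤
      ENNReal.ofReal (4 * Real.exp (-(l * K))) := by
    calc (Lam d θ μy) {ω | GoodG θ ω → K < |GI θ v ω|}
        ≤ (Lam d θ μy) {ω | K < |GI θ v ω| ∧ GoodG θ ω} := by
          apply measure_mono_ae
          filter_upwards [ae_goodG h0 h1 hG] with ω hω h
          exact ⟨h hω, hω⟩
      _ ≤ ∫⁻ ω, liminf (fun n => ({ω : W d → Bool × ℝ | K < |G θ n v ω|}).indicator
            (1 : (W d → Bool × ℝ) → ℝ≥0∞) ω) atTop ∂(Lam d θ μy) := by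
          have hm : MeasurableSet {ω : W d → Bool × ℝ | K < |GI θ v ω|} :=
            measurableSet_lt measurable_const
              (continuous_abs.measurable.comp (measurable_GI h0 h1 v))
          calc (Lam d θ μy) {ω | K < |GI θ v ω| ∧ GoodG θ ω}
              ≤ (Lam d θ μy) {ω | K < |GI θ v ω|} := measure_mono fun ω hω => hω.1
            _ = ∫⁻ ω, ({ω : W d → Bool × ℝ | K < |GI θ v ω|}).indicator 1 ω ∂(Lam d θ μy) :=
                (lintegral_indicator_one hm).symm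
            _ ≤ _ := by
                apply lintegral_mono_ae
                filter_upwards [ae_goodG h0 h1 hG] with ω hω
                by_cases hK : ω ∈ {ω : W d → Bool × ℝ | K < |GI θ v ω|}
                · rw [indicator_of_mem hK]
                  have hK' : K < |GI θ v ω| := hK
                  have ht : Tendsto (fun n => |G θ n v ω|) atTop (𝓝 |GI θ v ω|) :=
                    (hω.tendsto v).abs
                  have hev := ht.eventually_const_lt hK'
                  apply le_liminf_of_le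
                  · isBoundedDefault
                  · filter_upwards [hev] with n hn
                    rw [indicator_of_mem (show ω ∈ {ω : W d → Bool × ℝ | K < |G θ n v ω|} from hn)]
                · rw [indicator_of_notMem hK]
                  exact bot_le
      _ ≤ liminf (fun n => ∫⁻ ω, ({ω : W d → Bool × ℝ | K < |G θ n v ω|}).indicator
            (1 : (W d → Bool × ℝ) → ℝ≥0∞) ω ∂(Lam d θ μy)) atTop :=
          lintegral_liminf_le fun n => measurable_one.indicator (hmG n)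
      _ ≤ ENNReal.ofReal (4 * Real.exp (-(l * K))) := by
          apply liminf_le_of_le
          · isBoundedDefault
          · intro c hc
            obtain ⟨n, hn⟩ := hc.exists
            refine hn.trans ?_
            rw [lintegral_indicator_one (hmG n)]
            exact tail_G h0 h1 hcy hby hl n (hM n) hv K
  rw [Measure.real]
  exact ENNReal.toReal_le_of_le_ofReal (by positivity) h2

/-! ### (Cn6) -/

/-- (Cn6). -/
theorem Cn6 (h0 : 0 ≤ θ) (h1 : θ < 1) (hd : 3 ≤ d) (hbθ : ((d : ℝ) - 1) * θ ^ 2 ≤ 1)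
    [IsProbabilityMeasure μy] (hcy : Cons μy) (hby : BddSupp μy)
    (hG : ∀ᵐ y ∂(fieldLaw d θ μy), Good θ y) :
    ∫ y, mR θ y ^ 2 ∂(fieldLaw d θ μy) ≤ (3 + 3 * d) * Real.sqrt (xx μy) := by
  have hL := isProb_Lam (d := d) h0 h1.le μy
  have hd' : (3 : ℝ) ≤ d := by exact_mod_cast hd
  have hbcast : ((d - 1 : ℕ) : ℝ) = (d : ℝ) - 1 := by
    rw [Nat.cast_sub (by omega)]; simp
  have e1 : ∫ y, mR θ y ^ 2 ∂(fieldLaw d θ μy) = Xi μy θ (W.root : W d) :=
    integral_tanh_msgI h0 h1 hG W.root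
  rw [e1]
  have ht := (tendsto_integral_G h0 h1 (ae_goodG h0 h1 hG) (W.root : W d)).comp
    (tendsto_add_atTop_nat 1)
  apply le_of_tendsto ht
  filter_upwards with n
  obtain ⟨m1, m2, m3⟩ := msgLaw_props h0 h1 hcy hby (d - 1) n
  obtain ⟨s1, s2, s3⟩ := stepLaw_props h0 h1 hcy hby m2 m3 d
  have e2 : ∫ ω, Real.tanh (G θ (n + 1) W.root ω) ^ 2 ∂(Lam d θ μy) =
      xx (stepLaw θ μy (msgLaw θ μy (d - 1) n) d) := by
    rw [← map_G_root h0 h1 n, xx, integral_map (measurable_G h0 h1 _ _).aemeasurable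
      LB.tanh_sq.1.aestronglyMeasurable]
  show ∫ ω, Real.tanh (G θ (n + 1) W.root ω) ^ 2 ∂(Lam d θ μy) ≤ _
  rw [e2]
  set s := Real.sqrt (xx μy) with hs
  have hs0 : 0 ≤ s := Real.sqrt_nonneg _
  have hs2 : s ^ 2 = xx μy := Real.sq_sqrt (xx_nonneg _)
  have hs1 : s ≤ 1 := Real.sqrt_le_one.2 (xx_le_one hby)
  by_cases hτ : 6 * xx μy ≤ 1
  · have hbound := xx_step_msg_le h0 h1 (b := d - 1) (by omega) (by rw [hbcast]; exact hbθ) hcy hby
      hτ n d
    refine hbound.trans ?_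
    have h6 : Real.sqrt (6 * xx μy) ≤ 3 * s := by
      rw [← hs2, Real.sqrt_le_left (by positivity)]
      nlinarith
    have h7 : (d : ℝ) * θ ^ 2 * Real.sqrt (6 * xx μy) ≤ d * 1 * (3 * s) := by
      apply mul_le_mul _ h6 (Real.sqrt_nonneg _) (by positivity)
      apply mul_le_mul_of_nonneg_left _ (by positivity)
      nlinarith
    nlinarith
  · have h8 : xx (stepLaw θ μy (msgLaw θ μy (d - 1) n) d) ≤ 1 := xx_le_one s3
    have h9 : 1 ≤ 3 * s := by
      rw [← hs2] at hτ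
      nlinarith
    have : 0 ≤ 3 * (d : ℝ) * s := by positivity
    linarith

/-! ### (Cn7) -/

/-- (Cn7) finite volume domination. -/
theorem Cn7 (h0 : 0 ≤ θ) (h1 : θ < 1) [IsProbabilityMeasure μy] (hcy : Cons μy)
    (hby : BddSupp μy) (N : ℕ) (u : W d) (hu : u.len ≤ N) :
    ∫ y, (∏ j ∈ Finset.range u.len, phid θ (msg θ y (N - (u.len - j)) (W.par^[j] u)) ^ 2)
        ∂(fieldLaw d θ μy) ≤ (θ ^ 2 * (1 - (1 - θ ^ 2) * xx μy)) ^ u.len := by
  have h2 := path_bound_own h0 h1 hcy hby (N - u.len) u u.len le_rfl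
  refine le_trans (le_of_eq ?_) h2
  rw [Mk]
  apply integral_field_eq h0 h1
  · apply Finset.measurable_prod
    intro j _
    exact ((Scal.continuous_phid h0 h1).measurable.comp (measurable_msg h0 h1 _ _)).pow_const 2
  · exact measurable_wt h0 h1 _ _ _
  · filter_upwards with q
    unfold wt
    refine Finset.prod_congr rfl fun j hj => ?_
    have hj' := Finset.mem_range.1 hj
    rw [msg_fld h0 h1, phid_sg_mul]
    rw [show N - (u.len - j) = N - u.len + j by omega]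

end Crest.Agent.TI.Conc
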