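import Crest.Agent.TIWords
import Crest.Agent.FIIDLaw2

/-!
Row 160 (S0241).  Shared definitions.
-/

set_option autoImplicit false

namespace Crest.Agent.TI

open MeasureTheory unitInterval Set Filter Topology

/-- independent uniform labels -/
noncomputable abbrev μI (ι : Type*) : Measure (ι → I) := FIID.μI ι

/-- configurations and noise labels -/
abbrev Om (V : Type*) := (V → Bool) × (V × ℕ → I)

/-- clocks -/
abbrev Cl (V : Type*) := V × ℕ → I

/-- spin value -/
def sg (b : Bool) : ℝ := if b then 1 else -1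

/-! ### messages -/

/-- half log-likelihood ratio after one edge -/
noncomputable def phi (θ h : ℝ) : ℝ := Real.artanh (θ * Real.tanh h)

/-- derivative of `phi` -/
noncomputable def phid (θ h : ℝ) : ℝ :=
  θ * (1 - Real.tanh h ^ 2) / (1 - θ ^ 2 * Real.tanh h ^ 2)

/-! ### laws of messages -/

/-- consistent law: law of a half log-likelihood ratio given that the spin is `+` -/
def Cons (μ : Measure ℝ) : Prop :=
  ∀ f : ℝ → ℝ, Measurable f → (∃ C, ∀ x, |f x| ≤ C) →
    ∫ h, f (-h) ∂μ = ∫ h, f h * Real.exp (-2 * h) ∂μ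

/-- essentially bounded -/
def BddSupp (μ : Measure ℝ) : Prop := ∃ B : ℝ, ∀ᵐ h ∂μ, |h| ≤ B

/-- second moment of the magnetisation -/
noncomputable def xx (μ : Measure ℝ) : ℝ := ∫ h, Real.tanh h ^ 2 ∂μ

/-- law of the message after one edge -/
noncomputable def edgeLaw (θ : ℝ) (μ : Measure ℝ) : Measure ℝ :=
  ENNReal.ofReal ((1 + θ) / 2) • μ.map (phi θ) +
    ENNReal.ofReal ((1 - θ) / 2) • μ.map (fun h => - phi θ h)

/-- own field plus `n` children -/
noncomputable def stepLaw (θ : ℝ) (μy μ : Measure ℝ) : ℕ → Measure ℝ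
  | 0 => μy
  | n + 1 => (stepLaw θ μy μ n).conv (edgeLaw θ μ)

/-- law of the message of depth `n` on a tree with `b` children per vertex -/
noncomputable def msgLaw (θ : ℝ) (μy : Measure ℝ) (b : ℕ) : ℕ → Measure ℝ
  | 0 => μy
  | n + 1 => stepLaw θ μy (msgLaw θ μy b n) b

section msg

variable {d : ℕ}

/-- the message sent by `w` towards the root (for `w` the root: the full field), depth `n` -/
noncomputable def msg (θ : ℝ) (y : W d → ℝ) : ℕ → W d → ℝ
  | 0, w => y w
  | n + 1, w => y w + ∑ i : Fin d, if w.head? = some i then 0 else phi θ (msg θ y n (W.nb i w))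

/-- the message in infinite volume -/
noncomputable def msgI (θ : ℝ) (y : W d → ℝ) (w : W d) : ℝ :=
  limsup (fun n => msg θ y n w) atTop

/-- all messages seen from all vertices converge -/
def Good (θ : ℝ) (y : W d → ℝ) : Prop :=
  ∀ v w : W d, ∃ l, Tendsto (fun n => msg θ (y ∘ W.tr v) n w) atTop (𝓝 l)

/-- magnetisation at the root; magnetisation at `v` is `mR θ (y ∘ W.tr v)` -/
noncomputable def mR (θ : ℝ) (y : W d → ℝ) : ℝ := Real.tanh (msgI θ y W.root)

/-- delete the head letter: the parent -/
def W.par (w : W d) : W d := ⟨w.1.tail, by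
  obtain ⟨l, hl⟩ := w
  exact hl.tail⟩

/-- product of the derivatives of the messages along the path from the root to `u` -/
noncomputable def cpr (θ : ℝ) (y : W d → ℝ) (u : W d) : ℝ :=
  ∏ j ∈ Finset.range u.len, phid θ (msgI θ y (W.par^[j] u))

/-- covariance of the spins at the root and at `u` -/
noncomputable def covR (θ : ℝ) (y : W d → ℝ) (u : W d) : ℝ := (1 - mR θ y ^ 2) * cpr θ y u

end msg

/-! ### the Ising measure on words -/

section ising

variable {d : ℕ}

/-- spins from the root spin and the (two per edge) edge signs; product of signs is `==` -/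
def spL (s : Bool) (ε : W d × Fin d → Bool) : (l : List (Fin d)) → l.IsChain (· ≠ ·) → Bool
  | [], _ => s
  | j :: t, h => (spL s ε t h.tail) == (ε (⟨t, h.tail⟩, j) == ε (⟨j :: t, h⟩, j))

/-- the spin at `w` -/
def sp (s : Bool) (ε : W d × Fin d → Bool) (w : W d) : Bool := spL s ε w.1 w.2

/-- law of a sign with mean `a` -/
noncomputable def signLaw (a : ℝ) : Measure Bool :=
  ENNReal.ofReal ((1 + a) / 2) • Measure.dirac true + ENNReal.ofReal ((1 - a) / 2) • Measure.dirac false

/-- the free Ising measure on words, edge parameter `θ`: each edge sign is the product of two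
independent signs of mean `√θ`, one at each end point -/
noncomputable def nu (d : ℕ) (θ : ℝ) : Measure (W d → Bool) :=
  ((signLaw 0).prod (Measure.infinitePi fun _ : W d × Fin d => signLaw (Real.sqrt θ))).map
    (fun q => sp q.1 q.2)

end ising

/-! ### the observation channel -/

/-- clamp to `[-1/4, 1/4]` -/
noncomputable def clamp (κ : ℝ) : ℝ := max (-(1 / 4)) (min κ (1 / 4))

lemma clamp_abs_le (κ : ℝ) : |clamp κ| ≤ 1 / 4 := by
  unfold clamp
  rw [abs_le]
  constructor
  · exact le_max_left _ _
  · exact max_le (by norm_num) (min_le_right _ _)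

lemma clamp_of_abs_le {κ : ℝ} (h : |κ| ≤ 1 / 4) : clamp κ = κ := by
  have := abs_le.1 h
  unfold clamp
  rw [min_eq_left this.2, max_eq_right this.1]

/-- density of the observation with parameter `κ` -/
noncomputable def densK (κ : ℝ) (z : I) : ℝ := 1 + clamp κ * (1 - 2 * z)

/-- distribution function, real version -/
noncomputable def hK (κ z : ℝ) : ℝ := z + κ * z * (1 - z)

/-- quantile function, real version -/
noncomputable def fK (κ u : ℝ) : ℝ := 2 * u / ((1 + κ) + Real.sqrt ((1 + κ) ^ 2 - 4 * κ * u))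

/-- distribution function of the observation with parameter `κ` (clamped) -/
noncomputable def HK (κ : ℝ) (z : I) : I := Set.projIcc 0 1 zero_le_one (hK (clamp κ) z)

/-- quantile function of the observation with parameter `κ` (clamped) -/
noncomputable def QK (κ : ℝ) (u : I) : I := Set.projIcc 0 1 zero_le_one (fK (clamp κ) u)

/-! ### the process -/

/-- amplitude of the observation as a function of the clock -/
noncomputable def amp (c : I) : ℝ := if (c : ℝ) < 1 / 2 then (c : ℝ) / 2 else 0

lemma amp_nonneg (c : I) : 0 ≤ amp c := by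
  unfold amp; split_ifs
  · have := c.2.1; positivity
  · exact le_rfl

lemma amp_le (c : I) : amp c ≤ 1 / 4 := by
  unfold amp; split_ifs with h
  · linarith
  · norm_num

/-- half log-likelihood ratio of an observation -/
noncomputable def ell (c z : I) : ℝ := Real.artanh (amp c * (1 - 2 * z))

section process

variable {V : Type*}

/-- the observations -/
noncomputable def Zc (c : Cl V) (p : Om V) (b : V × ℕ) : I :=
  QK (amp (c b) * sg (p.1 b.1)) (p.2 b)

/-- field accumulated at time `(k, r)`: rounds before `k`, and clocks `< r` in round `k` -/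
noncomputable def fieldAt (c : Cl V) (z : V × ℕ → I) (k : ℕ) (r : ℝ) (v : V) : ℝ :=
  ∑ j ∈ Finset.range k, ell (c (v, j)) (z (v, j)) +
    if (c (v, k) : ℝ) < r then ell (c (v, k)) (z (v, k)) else 0

/-- `a` is observed before time `(k, r)` -/
def Bef (c : Cl V) (k : ℕ) (r : ℝ) (a : V × ℕ) : Prop := a.2 < k ∨ (a.2 = k ∧ (c a : ℝ) < r)

/-- the set of clocks / noise labels together with configurations -/
noncomputable def Pt (ν : Measure (V → Bool)) : Measure (Cl V × Om V) :=
  (μI (V × ℕ)).prod (ν.prod (μI (V × ℕ)))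

end process

section innov

variable {d : ℕ}

/-- magnetisation at the site of `b` just before the observation `b` -/
noncomputable def drift (θ : ℝ) (c : Cl (W d)) (z : W d × ℕ → I) (b : W d × ℕ) : ℝ :=
  mR θ (fieldAt c z b.2 (c b) ∘ W.tr b.1)

/-- the innovations -/
noncomputable def innov (θ : ℝ) (c : Cl (W d)) (p : Om (W d)) (b : W d × ℕ) : I :=
  HK (amp (c b) * drift θ c (Zc c p) b) (Zc c p b)

end innov

/-! ### pairs of fields -/

/-- a field law: spins from the Ising measure, independent consistent local fields -/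
noncomputable def fieldLaw (d : ℕ) (θ : ℝ) (μy : Measure ℝ) : Measure (W d → ℝ) :=
  ((nu d θ).prod (Measure.infinitePi fun _ : W d => μy)).map (fun q v => sg (q.1 v) * q.2 v)

/-- the interface between probability and analysis: a translation invariant pair of fields with
the right marginals and tempered even differences -/
structure PairLaw {d : ℕ} (θ : ℝ) (μy : Measure ℝ) (ρ : Measure ((W d → ℝ) × (W d → ℝ))) : Prop where
  prob : IsProbabilityMeasure ρ
  fst : ρ.map Prod.fst = fieldLaw d θ μy
  snd : ρ.map Prod.snd = fieldLaw d θ μy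
  transl : ∀ v : W d, ρ.map (fun q => (q.1 ∘ W.tr v, q.2 ∘ W.tr v)) = ρ
  temper : ∀ (G₁ G₂ : (W d → ℝ) → ℝ), Measurable G₁ → Measurable G₂ →
    (∃ C, ∀ y, |G₁ y| ≤ C) → (∃ C, ∀ y, |G₂ y| ≤ C) →
    (∀ᵐ y ∂(fieldLaw d θ μy), G₁ (-y) = G₁ y) → (∀ᵐ y ∂(fieldLaw d θ μy), G₂ (-y) = G₂ y) →
    ∀ (l : ℕ) (S : Finset (W d)), (∀ w ∈ S, w.len = l) →
    ∑ w ∈ S, |∫ q, (G₁ q.1 - G₁ q.2) * (G₂ (q.1 ∘ W.tr w) - G₂ (q.2 ∘ W.tr w)) ∂ρ| ≤
      2 * (l + 1) * (Real.sqrt ((d : ℝ) - 1)) ^ l *
        Real.sqrt (∫ q, (G₁ q.1 - G₁ q.2) ^ 2 ∂ρ) * Real.sqrt (∫ q, (G₂ q.1 - G₂ q.2) ^ 2 ∂ρ)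

end Crest.Agent.TI
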