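import Mathlib
import Crest.Agent.TIDefs

/-!
Row 160 (S0241), piece SCALAR, part A: real-variable lemmas on `tanh`, `artanh` and
`phi θ h = artanh (θ tanh h)`.  Owner: helper8.
-/

set_option autoImplicit false

namespace Crest.Agent.TI.Scal

open MeasureTheory Set Filter Topology

theorem one_add_tanh_pos (h : ℝ) : 0 < 1 + Real.tanh h := by
  linarith [Real.neg_one_lt_tanh h]

theorem one_sub_tanh_pos (h : ℝ) : 0 < 1 - Real.tanh h := by
  linarith [Real.tanh_lt_one h]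

theorem exp_neg_two_mul_eq (h : ℝ) :
    Real.exp (-2 * h) = (1 - Real.tanh h) / (1 + Real.tanh h) := by
  have h1 := one_add_tanh_pos h
  rw [eq_div_iff h1.ne', Real.tanh_eq]
  have e1 : Real.exp (-h) * Real.exp h = 1 := by rw [← Real.exp_add]; simp
  have e2 : Real.exp (-2 * h) = Real.exp (-h) * Real.exp (-h) := by
    rw [← Real.exp_add]; congr 1; ring
  have hpos : 0 < Real.exp h + Real.exp (-h) := by positivity
  rw [e2]
  field_simp
  linear_combination (2 * Real.exp (-h)) * e1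

theorem exp_two_mul_eq (h : ℝ) :
    Real.exp (2 * h) = (1 + Real.tanh h) / (1 - Real.tanh h) := by
  have h1 := one_sub_tanh_pos h
  have h2 := one_add_tanh_pos h
  have := exp_neg_two_mul_eq (-h)
  rw [Real.tanh_neg] at this
  rw [show -2 * -h = 2 * h by ring] at this
  rw [this]
  ring

theorem tanh_sq_le_one (h : ℝ) : Real.tanh h ^ 2 ≤ 1 := (Real.tanh_sq_lt_one h).le

theorem abs_mul_tanh_lt {θ : ℝ} (h0 : 0 ≤ θ) (h1 : θ < 1) (h : ℝ) : |θ * Real.tanh h| < 1 := by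
  rw [abs_mul, abs_of_nonneg h0]
  have h2 := Real.abs_tanh_lt_one h
  have h3 := abs_nonneg (Real.tanh h)
  nlinarith

theorem mul_tanh_mem {θ : ℝ} (h0 : 0 ≤ θ) (h1 : θ < 1) (h : ℝ) :
    θ * Real.tanh h ∈ Ioo (-1 : ℝ) 1 := by
  have := abs_lt.1 (abs_mul_tanh_lt h0 h1 h)
  exact ⟨this.1, this.2⟩

theorem tanh_phi {θ : ℝ} (h0 : 0 ≤ θ) (h1 : θ < 1) (h : ℝ) :
    Real.tanh (phi θ h) = θ * Real.tanh h := Real.tanh_artanh (mul_tanh_mem h0 h1 h)

theorem phi_neg {θ : ℝ} (h0 : 0 ≤ θ) (h1 : θ < 1) (h : ℝ) : phi θ (-h) = - phi θ h := by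
  apply Real.tanh_injective
  rw [tanh_phi h0 h1, Real.tanh_neg, Real.tanh_neg, tanh_phi h0 h1]
  ring

theorem phi_zero (θ : ℝ) : phi θ 0 = 0 := by simp [phi]

theorem tanh_nonneg_iff {h : ℝ} : 0 ≤ Real.tanh h ↔ 0 ≤ h := by
  rw [Real.tanh_eq_sinh_div_cosh]
  constructor
  · intro H
    have hc := Real.cosh_pos h
    have : 0 ≤ Real.sinh h := by
      have := mul_nonneg H hc.le
      rwa [div_mul_cancel₀ _ hc.ne'] at this
    exact Real.sinh_nonneg_iff.1 this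
  · intro H
    exact div_nonneg (Real.sinh_nonneg_iff.2 H) (Real.cosh_pos h).le

theorem hasDerivAt_tanh (h : ℝ) : HasDerivAt Real.tanh (1 - Real.tanh h ^ 2) h := by
  have h1 : (Real.sinh / Real.cosh) = Real.tanh := by
    ext x; exact (Real.tanh_eq_sinh_div_cosh x).symm
  have hc := Real.cosh_pos h
  have h2 := (Real.hasDerivAt_sinh h).div (Real.hasDerivAt_cosh h) hc.ne'
  have h3 : (Real.cosh h * Real.cosh h - Real.sinh h * Real.sinh h) / Real.cosh h ^ 2
      = 1 - Real.tanh h ^ 2 := by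
    rw [Real.tanh_eq_sinh_div_cosh]
    field_simp
  rw [h3, h1] at h2
  exact h2

theorem continuous_tanh : Continuous Real.tanh :=
  continuous_iff_continuousAt.2 fun h => (hasDerivAt_tanh h).continuousAt

theorem tanh_strictMono : StrictMono Real.tanh := by
  apply strictMono_of_deriv_pos
  intro x
  rw [(hasDerivAt_tanh x).deriv]
  linarith [Real.tanh_sq_lt_one x]

theorem phi_eq_log {θ : ℝ} (h0 : 0 ≤ θ) (h1 : θ < 1) (h : ℝ) :
    phi θ h = 1 / 2 * (Real.log (1 + θ * Real.tanh h) - Real.log (1 - θ * Real.tanh h)) := by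
  have hm := mul_tanh_mem h0 h1 h
  rw [phi, Real.artanh_eq_half_log ⟨hm.1.le, hm.2.le⟩, Real.log_div]
  · linarith [hm.1]
  · linarith [hm.2]

theorem den_pos {θ : ℝ} (h0 : 0 ≤ θ) (h1 : θ < 1) (h : ℝ) :
    0 < 1 - θ ^ 2 * Real.tanh h ^ 2 := by
  have := (sq_lt_one_iff_abs_lt_one _).2 (abs_mul_tanh_lt h0 h1 h)
  rw [mul_pow] at this
  linarith

theorem hasDerivAt_phi {θ : ℝ} (h0 : 0 ≤ θ) (h1 : θ < 1) (h : ℝ) :
    HasDerivAt (phi θ) (phid θ h) h := by
  have hfun : phi θ = fun h =>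
      1 / 2 * (Real.log (1 + θ * Real.tanh h) - Real.log (1 - θ * Real.tanh h)) := by
    ext x; exact phi_eq_log h0 h1 x
  have hm := mul_tanh_mem h0 h1 h
  have hp : 0 < 1 + θ * Real.tanh h := by linarith [hm.1]
  have hq : 0 < 1 - θ * Real.tanh h := by linarith [hm.2]
  have d1 := ((hasDerivAt_tanh h).const_mul θ).const_add 1
  have d2 := ((hasDerivAt_tanh h).const_mul θ).const_sub 1
  have e1 := d1.log hp.ne'
  have e2 := d2.log hq.ne'
  have e3 := (e1.sub e2).const_mul (1 / 2 : ℝ)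
  rw [hfun]
  have e4 : 1 / 2 * (θ * (1 - Real.tanh h ^ 2) / (1 + θ * Real.tanh h) -
      -(θ * (1 - Real.tanh h ^ 2)) / (1 - θ * Real.tanh h)) = phid θ h := by
    unfold phid
    have : 1 - θ ^ 2 * Real.tanh h ^ 2 = (1 + θ * Real.tanh h) * (1 - θ * Real.tanh h) := by ring
    rw [this]
    field_simp
    ring
  rw [← e4]
  exact e3

theorem phid_nonneg {θ : ℝ} (h0 : 0 ≤ θ) (h1 : θ < 1) (h : ℝ) : 0 ≤ phid θ h := by
  unfold phid
  have h2 := Real.tanh_sq_lt_one h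
  have h3 := den_pos h0 h1 h
  have h4 : 0 ≤ 1 - Real.tanh h ^ 2 := by linarith
  positivity

theorem phid_le' {θ : ℝ} (h0 : 0 ≤ θ) (h1 : θ < 1) (h : ℝ) :
    phid θ h ≤ θ * (1 - (1 - θ ^ 2) * Real.tanh h ^ 2) := by
  unfold phid
  have h2 := Real.tanh_sq_lt_one h
  have h3 := den_pos h0 h1 h
  rw [div_le_iff₀ h3]
  have h4 : 0 ≤ θ ^ 2 * (1 - θ ^ 2) * (Real.tanh h ^ 2) ^ 2 := by
    have : 0 ≤ 1 - θ ^ 2 := by nlinarith
    positivity
  nlinarith [mul_nonneg h0 h4]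

theorem phid_le {θ : ℝ} (h0 : 0 ≤ θ) (h1 : θ < 1) (h : ℝ) : phid θ h ≤ θ := by
  refine (phid_le' h0 h1 h).trans ?_
  have : 0 ≤ (1 - θ ^ 2) * Real.tanh h ^ 2 := by
    have : 0 ≤ 1 - θ ^ 2 := by nlinarith
    positivity
  nlinarith [mul_nonneg h0 this]

theorem phid_sq_le {θ : ℝ} (h0 : 0 ≤ θ) (h1 : θ < 1) (h : ℝ) :
    phid θ h ^ 2 ≤ θ ^ 2 * (1 - (1 - θ ^ 2) * Real.tanh h ^ 2) := by
  have a1 := phid_le' h0 h1 h
  have a2 := phid_le h0 h1 h
  have a3 := phid_nonneg h0 h1 h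
  calc phid θ h ^ 2 = phid θ h * phid θ h := by ring
    _ ≤ θ * (θ * (1 - (1 - θ ^ 2) * Real.tanh h ^ 2)) := by
        apply mul_le_mul a2 a1 a3 h0
    _ = _ := by ring

theorem phid_neg (θ h : ℝ) : phid θ (-h) = phid θ h := by
  simp [phid, Real.tanh_neg]

theorem continuous_phi {θ : ℝ} (h0 : 0 ≤ θ) (h1 : θ < 1) : Continuous (phi θ) :=
  continuous_iff_continuousAt.2 fun h => (hasDerivAt_phi h0 h1 h).continuousAt

theorem continuous_phid {θ : ℝ} (h0 : 0 ≤ θ) (h1 : θ < 1) : Continuous (phid θ) := by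
  unfold phid
  apply Continuous.div
  · exact continuous_const.mul (continuous_const.sub (continuous_tanh.pow 2))
  · exact continuous_const.sub (continuous_const.mul (continuous_tanh.pow 2))
  · intro x; exact (den_pos h0 h1 x).ne'

theorem abs_phi_sub_le {θ : ℝ} (h0 : 0 ≤ θ) (h1 : θ < 1) (x y : ℝ) :
    |phi θ x - phi θ y| ≤ θ * |x - y| := by
  have := Convex.norm_image_sub_le_of_norm_hasDerivWithin_le (f := phi θ) (f' := phid θ)
    (s := univ) (x := y) (y := x) (C := θ)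
    (fun z _ => (hasDerivAt_phi h0 h1 z).hasDerivWithinAt)
    (fun z _ => by
      rw [Real.norm_eq_abs, abs_of_nonneg (phid_nonneg h0 h1 z)]
      exact phid_le h0 h1 z) convex_univ (mem_univ _) (mem_univ _)
  simpa [Real.norm_eq_abs] using this

theorem abs_phi_le {θ : ℝ} (h0 : 0 ≤ θ) (h1 : θ < 1) (h : ℝ) : |phi θ h| ≤ θ * |h| := by
  have := abs_phi_sub_le h0 h1 h 0
  simpa [phi_zero] using this

theorem phi_nonneg {θ : ℝ} (h0 : 0 ≤ θ) {h : ℝ} (hh : 0 ≤ h) : 0 ≤ phi θ h :=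
  Real.artanh_nonneg (mul_nonneg h0 (tanh_nonneg_iff.2 hh))

theorem phi_le_of_nonneg {θ : ℝ} (h0 : 0 ≤ θ) (h1 : θ < 1) {h : ℝ} (hh : 0 ≤ h) :
    phi θ h ≤ θ / (1 - θ) * Real.tanh h := by
  have ht : 0 ≤ Real.tanh h := tanh_nonneg_iff.2 hh
  have ht1 := Real.tanh_lt_one h
  have hm := mul_tanh_mem h0 h1 h
  have hq : 0 < 1 - θ * Real.tanh h := by linarith [hm.2]
  have hp : 0 < 1 + θ * Real.tanh h := by linarith [hm.1]
  have h1' : 0 < 1 - θ := by linarith
  rw [phi, Real.artanh_eq_half_log ⟨hm.1.le, hm.2.le⟩]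
  have h2 := Real.log_le_sub_one_of_pos (div_pos hp hq)
  have h3 : (1 + θ * Real.tanh h) / (1 - θ * Real.tanh h) - 1
      = 2 * (θ * Real.tanh h / (1 - θ * Real.tanh h)) := by
    field_simp; ring
  have h4 : θ * Real.tanh h / (1 - θ * Real.tanh h) ≤ θ / (1 - θ) * Real.tanh h := by
    rw [div_mul_eq_mul_div]
    apply div_le_div_of_nonneg_left (mul_nonneg h0 ht) h1'
    nlinarith
  linarith

theorem abs_phi_le_tanh {θ : ℝ} (h0 : 0 ≤ θ) (h1 : θ < 1) (h : ℝ) :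
    |phi θ h| ≤ θ / (1 - θ) * |Real.tanh h| := by
  rcases le_total 0 h with hh | hh
  · rw [abs_of_nonneg (phi_nonneg h0 hh), abs_of_nonneg (tanh_nonneg_iff.2 hh)]
    exact phi_le_of_nonneg h0 h1 hh
  · have hh' : 0 ≤ -h := by linarith
    have := phi_le_of_nonneg h0 h1 hh'
    have h2 := phi_nonneg h0 hh'
    have h3 := tanh_nonneg_iff.2 hh'
    rw [← abs_of_nonneg h2, ← abs_of_nonneg h3, phi_neg h0 h1, abs_neg, Real.tanh_neg, abs_neg]
      at this
    exact this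

theorem abs_tanh_le (h : ℝ) : |Real.tanh h| ≤ |h| := by
  have := Convex.norm_image_sub_le_of_norm_hasDerivWithin_le (f := Real.tanh)
    (f' := fun h => 1 - Real.tanh h ^ 2)
    (s := univ) (x := 0) (y := h) (C := 1)
    (fun z _ => (hasDerivAt_tanh z).hasDerivWithinAt)
    (fun z _ => by
      have h1 := Real.tanh_sq_lt_one z
      rw [Real.norm_eq_abs, abs_of_nonneg (by linarith)]
      nlinarith [sq_nonneg (Real.tanh z)]) convex_univ (mem_univ _) (mem_univ _)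
  simpa [Real.norm_eq_abs] using this

theorem tanh_add (x y : ℝ) :
    Real.tanh (x + y) = (Real.tanh x + Real.tanh y) / (1 + Real.tanh x * Real.tanh y) := by
  have hx := Real.cosh_pos x
  have hy := Real.cosh_pos y
  have hxy := Real.cosh_pos (x + y)
  have h1 : 1 + Real.tanh x * Real.tanh y = Real.cosh (x + y) / (Real.cosh x * Real.cosh y) := by
    rw [Real.tanh_eq_sinh_div_cosh, Real.tanh_eq_sinh_div_cosh, Real.cosh_add]
    field_simp
  have h2 : Real.tanh x + Real.tanh y = Real.sinh (x + y) / (Real.cosh x * Real.cosh y) := by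
    rw [Real.tanh_eq_sinh_div_cosh, Real.tanh_eq_sinh_div_cosh, Real.sinh_add]
    field_simp
  rw [h1, h2, Real.tanh_eq_sinh_div_cosh]
  field_simp

theorem one_add_mul_tanh_pos (x y : ℝ) : 0 < 1 + Real.tanh x * Real.tanh y := by
  have h1 := Real.abs_tanh_lt_one x
  have h2 := Real.abs_tanh_lt_one y
  have h3 : |Real.tanh x * Real.tanh y| < 1 := by
    rw [abs_mul]
    nlinarith [abs_nonneg (Real.tanh x), abs_nonneg (Real.tanh y)]
  linarith [(abs_lt.1 h3).1]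

theorem one_sub_mul_tanh_pos (x y : ℝ) : 0 < 1 - Real.tanh x * Real.tanh y := by
  have := one_add_mul_tanh_pos x (-y)
  rw [Real.tanh_neg] at this
  linarith

/-! ### the function `r z = cosh z - 1 - z²/2` -/

noncomputable def rr (z : ℝ) : ℝ := Real.cosh z - 1 - z ^ 2 / 2

theorem hasSum_rr (z : ℝ) :
    HasSum (fun k : ℕ => z ^ (2 * (k + 2)) / (Nat.factorial (2 * (k + 2)) : ℝ)) (rr z) := by
  have h := Real.hasSum_cosh z
  have h2 := (hasSum_nat_add_iff' 2).2 h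
  have h3 : rr z = Real.cosh z - ∑ i ∈ Finset.range 2,
      z ^ (2 * i) / (Nat.factorial (2 * i) : ℝ) := by
    unfold rr
    norm_num [Finset.sum_range_succ, Nat.factorial]
    ring
  rw [h3]
  exact h2

theorem rr_nonneg (z : ℝ) : 0 ≤ rr z := by
  apply (hasSum_rr z).nonneg
  intro k
  have : 0 ≤ z ^ (2 * (k + 2)) := by rw [pow_mul]; positivity
  positivity

theorem rr_neg (z : ℝ) : rr (-z) = rr z := by simp [rr, Real.cosh_neg]

theorem rr_mul_le {θ : ℝ} (h0 : 0 ≤ θ) (h1 : θ ≤ 1) (z : ℝ) : rr (θ * z) ≤ θ ^ 4 * rr z := by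
  have hA := hasSum_rr (θ * z)
  have hB := (hasSum_rr z).mul_left (θ ^ 4)
  refine hasSum_le (fun k => ?_) hA hB
  have hz : 0 ≤ z ^ (2 * (k + 2)) := by rw [pow_mul]; positivity
  rw [mul_pow, mul_div_assoc]
  apply mul_le_mul_of_nonneg_right _ (by positivity)
  exact pow_le_pow_of_le_one h0 h1 (by omega)

theorem abs_le_rr_mono {x y : ℝ} (h : |x| ≤ |y|) : rr x ≤ rr y := by
  refine hasSum_le (fun k => ?_) (hasSum_rr x) (hasSum_rr y)
  apply div_le_div_of_nonneg_right _ (by positivity)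
  rw [pow_mul, pow_mul]
  apply pow_le_pow_left₀ (by positivity)
  exact sq_le_sq.2 h

theorem succ_mul_pow_le {θ : ℝ} (h0 : 0 ≤ θ) (h1 : θ < 1) (m : ℕ) :
    ((m : ℝ) + 1) * θ ^ m ≤ 1 / (1 - θ) := by
  have h1' : 0 < 1 - θ := by linarith
  have hs : ((m : ℝ) + 1) * θ ^ m ≤ ∑ j ∈ Finset.range (m + 1), θ ^ j := by
    have : ∑ _j ∈ Finset.range (m + 1), θ ^ m ≤ ∑ j ∈ Finset.range (m + 1), θ ^ j := by
      apply Finset.sum_le_sum
      intro j hj
      apply pow_le_pow_of_le_one h0 h1.le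
      have := Finset.mem_range.1 hj
      omega
    simpa using this
  refine hs.trans ?_
  rw [le_div_iff₀ h1', geom_sum_mul_neg]
  have : 0 ≤ θ ^ (m + 1) := by positivity
  linarith

theorem hasSum_sinh_sub (z : ℝ) :
    HasSum (fun k : ℕ => z ^ (2 * (k + 1) + 1) / (Nat.factorial (2 * (k + 1) + 1) : ℝ))
      (Real.sinh z - z) := by
  have h := Real.hasSum_sinh z
  have h2 := (hasSum_nat_add_iff' 1).2 h
  have h3 : Real.sinh z - z = Real.sinh z - ∑ i ∈ Finset.range 1,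
      z ^ (2 * i + 1) / (Nat.factorial (2 * i + 1) : ℝ) := by
    norm_num [Finset.sum_range_succ, Nat.factorial]
  rw [h3]
  exact h2

theorem mul_sinh_sub_le {θ : ℝ} (h0 : 0 ≤ θ) (h1 : θ < 1) {z : ℝ} (_hz : 0 ≤ z) :
    z * (Real.sinh (θ * z) - θ * z) ≤ 1 / (1 - θ) * rr z := by
  have hA := (hasSum_sinh_sub (θ * z)).mul_left z
  have hB := (hasSum_rr z).mul_left (1 / (1 - θ))
  refine hasSum_le (fun k => ?_) hA hB
  have h2 := succ_mul_pow_le h0 h1 (2 * (k + 1) + 1)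
  have hfac : (Nat.factorial (2 * (k + 2)) : ℝ)
      = (((2 * (k + 1) + 1 : ℕ) : ℝ) + 1) * (Nat.factorial (2 * (k + 1) + 1) : ℝ) := by
    have : 2 * (k + 2) = (2 * (k + 1) + 1) + 1 := by ring
    rw [this, Nat.factorial_succ]
    push_cast
    ring
  rw [hfac]
  have hf : (0 : ℝ) < (Nat.factorial (2 * (k + 1) + 1) : ℝ) := by positivity
  have hm : (0 : ℝ) < (((2 * (k + 1) + 1 : ℕ) : ℝ) + 1) := by positivity
  have hz4 : z * z ^ (2 * (k + 1) + 1) = z ^ (2 * (k + 2)) := by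
    rw [← pow_succ']
    congr 1
  calc z * ((θ * z) ^ (2 * (k + 1) + 1) / (Nat.factorial (2 * (k + 1) + 1) : ℝ))
      = θ ^ (2 * (k + 1) + 1) * (z ^ (2 * (k + 2)) / (Nat.factorial (2 * (k + 1) + 1) : ℝ)) := by
        rw [mul_pow, ← hz4]; ring
    _ = ((((2 * (k + 1) + 1 : ℕ) : ℝ) + 1) * θ ^ (2 * (k + 1) + 1)) *
          (z ^ (2 * (k + 2)) / ((((2 * (k + 1) + 1 : ℕ) : ℝ) + 1) *
            (Nat.factorial (2 * (k + 1) + 1) : ℝ))) := by
        field_simp
    _ ≤ _ := by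
        apply mul_le_mul_of_nonneg_right h2
        have : 0 ≤ z ^ (2 * (k + 2)) := by positivity
        positivity

theorem sinh_sub_mono {x y : ℝ} (hx : 0 ≤ x) (hxy : x ≤ y) :
    Real.sinh x - x ≤ Real.sinh y - y := by
  refine hasSum_le (fun k => ?_) (hasSum_sinh_sub x) (hasSum_sinh_sub y)
  apply div_le_div_of_nonneg_right _ (by positivity)
  exact pow_le_pow_left₀ hx hxy _

theorem sinh_sub_nonneg {x : ℝ} (hx : 0 ≤ x) : 0 ≤ Real.sinh x - x := by
  have := sinh_sub_mono le_rfl hx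
  simpa using this

end Crest.Agent.TI.Scal
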