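import Mathlib
import Crest.Agent.TIScalarA

/-!
Row 160 (S0241), piece SCALAR: law-level recursion estimates for log-likelihood-ratio messages.
Owner: helper8.
-/

set_option autoImplicit false

namespace Crest.Agent.TI.Scal

open MeasureTheory Set Filter Topology
open scoped ENNReal NNReal

/-! ### locally bounded functions -/

/-- measurable and bounded on bounded sets. -/
def LB (f : ℝ → ℝ) : Prop := Measurable f ∧ ∀ B : ℝ, ∃ C : ℝ, ∀ x, |x| ≤ B → |f x| ≤ C

def LB2 (F : ℝ × ℝ → ℝ) : Prop :=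
  Measurable F ∧ ∀ B : ℝ, ∃ C : ℝ, ∀ p : ℝ × ℝ, |p.1| ≤ B → |p.2| ≤ B → |F p| ≤ C

theorem LB.of_continuous {f : ℝ → ℝ} (hf : Continuous f) : LB f := by
  refine ⟨hf.measurable, fun B => ?_⟩
  obtain ⟨C, hC⟩ := (isCompact_Icc (a := -B) (b := B)).exists_bound_of_continuousOn
    (f := f) hf.continuousOn
  exact ⟨C, fun x hx => hC x (abs_le.1 hx)⟩

theorem LB2.of_continuous {F : ℝ × ℝ → ℝ} (hF : Continuous F) : LB2 F := by
  refine ⟨hF.measurable, fun B => ?_⟩
  obtain ⟨C, hC⟩ := ((isCompact_Icc (a := -B) (b := B)).prod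
    (isCompact_Icc (a := -B) (b := B))).exists_bound_of_continuousOn (f := F) hF.continuousOn
  exact ⟨C, fun p h1 h2 => hC p ⟨abs_le.1 h1, abs_le.1 h2⟩⟩

theorem LB.of_bdd {f : ℝ → ℝ} (hf : Measurable f) (hb : ∃ C, ∀ x, |f x| ≤ C) : LB f := by
  obtain ⟨C, hC⟩ := hb
  exact ⟨hf, fun _ => ⟨C, fun x _ => hC x⟩⟩

theorem LB.mul {f g : ℝ → ℝ} (hf : LB f) (hg : LB g) : LB (fun x => f x * g x) := by
  refine ⟨hf.1.mul hg.1, fun B => ?_⟩
  obtain ⟨C, hC⟩ := hf.2 B
  obtain ⟨D, hD⟩ := hg.2 B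
  refine ⟨C * D, fun x hx => ?_⟩
  rw [abs_mul]
  exact mul_le_mul (hC x hx) (hD x hx) (abs_nonneg _) ((abs_nonneg _).trans (hC x hx))

theorem LB2.mul {f g : ℝ × ℝ → ℝ} (hf : LB2 f) (hg : LB2 g) : LB2 (fun x => f x * g x) := by
  refine ⟨hf.1.mul hg.1, fun B => ?_⟩
  obtain ⟨C, hC⟩ := hf.2 B
  obtain ⟨D, hD⟩ := hg.2 B
  refine ⟨C * D, fun x hx hy => ?_⟩
  rw [abs_mul]
  exact mul_le_mul (hC x hx hy) (hD x hx hy) (abs_nonneg _) ((abs_nonneg _).trans (hC x hx hy))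

theorem LB.neg_arg {f : ℝ → ℝ} (hf : LB f) : LB (fun x => f (-x)) := by
  refine ⟨hf.1.comp measurable_neg, fun B => ?_⟩
  obtain ⟨C, hC⟩ := hf.2 B
  exact ⟨C, fun x hx => hC _ (by rwa [abs_neg])⟩

theorem LB2.neg_snd {F : ℝ × ℝ → ℝ} (hF : LB2 F) : LB2 (fun p => F (p.1, -p.2)) := by
  refine ⟨hF.1.comp (measurable_fst.prodMk measurable_snd.neg), fun B => ?_⟩
  obtain ⟨C, hC⟩ := hF.2 B
  exact ⟨C, fun x hx hy => hC _ hx (by simpa using hy)⟩

theorem LB2.neg_fst {F : ℝ × ℝ → ℝ} (hF : LB2 F) : LB2 (fun p => F (-p.1, p.2)) := by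
  refine ⟨hF.1.comp (measurable_fst.neg.prodMk measurable_snd), fun B => ?_⟩
  obtain ⟨C, hC⟩ := hF.2 B
  exact ⟨C, fun x hx hy => hC _ (by simpa using hx) hy⟩

theorem LB2.swap {F : ℝ × ℝ → ℝ} (hF : LB2 F) : LB2 (fun p => F (p.2, p.1)) := by
  refine ⟨hF.1.comp (measurable_snd.prodMk measurable_fst), fun B => ?_⟩
  obtain ⟨C, hC⟩ := hF.2 B
  exact ⟨C, fun x hx hy => hC _ hy hx⟩

theorem LB2.section_ {F : ℝ × ℝ → ℝ} (hF : LB2 F) (x : ℝ) : LB (fun y => F (x, y)) := by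
  refine ⟨hF.1.comp (measurable_const.prodMk measurable_id), fun B => ?_⟩
  obtain ⟨C, hC⟩ := hF.2 (max B |x|)
  exact ⟨C, fun y hy => hC _ (le_max_right _ _) (hy.trans (le_max_left _ _))⟩

theorem LB.sum_arg {f : ℝ → ℝ} (hf : LB f) : LB2 (fun p => f (p.1 + p.2)) := by
  refine ⟨hf.1.comp (measurable_fst.add measurable_snd), fun B => ?_⟩
  obtain ⟨C, hC⟩ := hf.2 (B + B)
  exact ⟨C, fun x hx hy => hC _ ((abs_add_le _ _).trans (add_le_add hx hy))⟩

theorem LB.integrable {μ : Measure ℝ} [IsFiniteMeasure μ] (hb : BddSupp μ) {f : ℝ → ℝ}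
    (hf : LB f) : Integrable f μ := by
  obtain ⟨B, hB⟩ := hb
  obtain ⟨C, hC⟩ := hf.2 B
  refine Integrable.of_bound hf.1.aestronglyMeasurable C ?_
  filter_upwards [hB] with x hx
  exact hC x hx

theorem _root_.Crest.Agent.TI.BddSupp.prod_ae {α β : Measure ℝ} [IsFiniteMeasure α] [IsFiniteMeasure β]
    (ha : BddSupp α) (hb : BddSupp β) : ∃ B : ℝ, ∀ᵐ p ∂(α.prod β), |p.1| ≤ B ∧ |p.2| ≤ B := by
  obtain ⟨A, hA⟩ := ha
  obtain ⟨B, hB⟩ := hb
  refine ⟨max A B, ?_⟩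
  have h1 : ∀ᵐ p ∂(α.prod β), |p.1| ≤ A := Measure.quasiMeasurePreserving_fst.ae hA
  have h2 : ∀ᵐ p ∂(α.prod β), |p.2| ≤ B := Measure.quasiMeasurePreserving_snd.ae hB
  filter_upwards [h1, h2] with p hp hq
  exact ⟨hp.trans (le_max_left _ _), hq.trans (le_max_right _ _)⟩

theorem LB2.integrable {α β : Measure ℝ} [IsFiniteMeasure α] [IsFiniteMeasure β]
    (ha : BddSupp α) (hb : BddSupp β) {F : ℝ × ℝ → ℝ} (hF : LB2 F) :
    Integrable F (α.prod β) := by
  obtain ⟨B, hB⟩ := ha.prod_ae hb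
  obtain ⟨C, hC⟩ := hF.2 B
  refine Integrable.of_bound hF.1.aestronglyMeasurable C ?_
  filter_upwards [hB] with x hx
  exact hC x hx.1 hx.2

theorem LB.exp (c : ℝ) : LB (fun x => Real.exp (c * x)) :=
  LB.of_continuous (by fun_prop)

/-! ### consistency for locally bounded functions -/

theorem _root_.Crest.Agent.TI.Cons.integral_neg {μ : Measure ℝ} [IsFiniteMeasure μ] (hc : Cons μ) (hb : BddSupp μ)
    {f : ℝ → ℝ} (hf : LB f) : ∫ h, f (-h) ∂μ = ∫ h, f h * Real.exp (-2 * h) ∂μ := by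
  obtain ⟨B, hB⟩ := hb
  obtain ⟨C, hC⟩ := hf.2 B
  set s : Set ℝ := {x | |x| ≤ B} with hs
  have hsm : MeasurableSet s := by
    apply measurableSet_le
    · exact continuous_abs.measurable
    · exact measurable_const
  have h1 := hc (s.indicator f) (hf.1.indicator hsm) ⟨|C|, fun x => by
    by_cases hx : x ∈ s
    · rw [indicator_of_mem hx]
      exact (hC x hx).trans (le_abs_self C)
    · rw [indicator_of_notMem hx]
      simp⟩
  have h2 : ∫ h, f (-h) ∂μ = ∫ h, s.indicator f (-h) ∂μ := by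
    apply integral_congr_ae
    filter_upwards [hB] with x hx
    have : -x ∈ s := by
      show |-x| ≤ B
      rwa [abs_neg]
    simp only [indicator_of_mem this]
  have h3 : ∫ h, f h * Real.exp (-2 * h) ∂μ
      = ∫ h, s.indicator f h * Real.exp (-2 * h) ∂μ := by
    apply integral_congr_ae
    filter_upwards [hB] with x hx
    have : x ∈ s := hx
    simp only [indicator_of_mem this]
  rw [h2, h3, h1]

/-- the symmetrisation identity. -/
theorem _root_.Crest.Agent.TI.Cons.integral_sym {μ : Measure ℝ} [IsFiniteMeasure μ] (hc : Cons μ) (hb : BddSupp μ)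
    {f : ℝ → ℝ} (hf : LB f) :
    2 * ∫ h, f h ∂μ = ∫ h, (f h + f (-h) * Real.exp (-2 * h)) ∂μ := by
  have h1 := hc.integral_neg hb hf.neg_arg
  simp only [neg_neg] at h1
  rw [integral_add (hf.integrable hb) ((hf.neg_arg.mul (LB.exp (-2))).integrable hb), ← h1]
  ring

theorem _root_.Crest.Agent.TI.Cons.mono_of_sym {μ : Measure ℝ} [IsFiniteMeasure μ] (hc : Cons μ) (hb : BddSupp μ)
    {f g : ℝ → ℝ} (hf : LB f) (hg : LB g)
    (h : ∀ x, f x * (1 + Real.tanh x) + f (-x) * (1 - Real.tanh x) ≤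
      g x * (1 + Real.tanh x) + g (-x) * (1 - Real.tanh x)) :
    ∫ x, f x ∂μ ≤ ∫ x, g x ∂μ := by
  have h1 := hc.integral_sym hb hf
  have h2 := hc.integral_sym hb hg
  have h3 : ∫ h, (f h + f (-h) * Real.exp (-2 * h)) ∂μ
      ≤ ∫ h, (g h + g (-h) * Real.exp (-2 * h)) ∂μ := by
    apply integral_mono
    · exact (hf.integrable hb).add ((hf.neg_arg.mul (LB.exp (-2))).integrable hb)
    · exact (hg.integrable hb).add ((hg.neg_arg.mul (LB.exp (-2))).integrable hb)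
    · intro x
      simp only
      have hp := one_add_tanh_pos x
      rw [exp_neg_two_mul_eq]
      have e1 : ∀ u v : ℝ, u + v * ((1 - Real.tanh x) / (1 + Real.tanh x)) =
          (u * (1 + Real.tanh x) + v * (1 - Real.tanh x)) / (1 + Real.tanh x) := by
        intro u v; field_simp
      rw [e1, e1]
      exact div_le_div_of_nonneg_right (h x) hp.le
  linarith

theorem _root_.Crest.Agent.TI.Cons.eq_of_sym {μ : Measure ℝ} [IsFiniteMeasure μ] (hc : Cons μ) (hb : BddSupp μ)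
    {f g : ℝ → ℝ} (hf : LB f) (hg : LB g)
    (h : ∀ x, f x * (1 + Real.tanh x) + f (-x) * (1 - Real.tanh x) =
      g x * (1 + Real.tanh x) + g (-x) * (1 - Real.tanh x)) :
    ∫ x, f x ∂μ = ∫ x, g x ∂μ :=
  le_antisymm (hc.mono_of_sym hb hf hg fun x => (h x).le)
    (hc.mono_of_sym hb hg hf fun x => (h x).ge)

theorem LB.tanh : LB Real.tanh := LB.of_continuous continuous_tanh

theorem LB.tanh_sq : LB (fun x => Real.tanh x ^ 2) :=
  LB.of_continuous (continuous_tanh.pow 2)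

/-- for odd functions, `∫ f = ∫ f tanh`. -/
theorem _root_.Crest.Agent.TI.Cons.integral_odd {μ : Measure ℝ} [IsFiniteMeasure μ] (hc : Cons μ) (hb : BddSupp μ)
    {f : ℝ → ℝ} (hf : LB f) (hodd : ∀ x, f (-x) = - f x) :
    ∫ x, f x ∂μ = ∫ x, f x * Real.tanh x ∂μ := by
  apply hc.eq_of_sym hb hf (hf.mul LB.tanh)
  intro x
  rw [hodd, Real.tanh_neg]
  ring

theorem _root_.Crest.Agent.TI.Cons.integral_tanh {μ : Measure ℝ} [IsFiniteMeasure μ] (hc : Cons μ) (hb : BddSupp μ) :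
    ∫ x, Real.tanh x ∂μ = xx μ := by
  rw [hc.integral_odd hb LB.tanh Real.tanh_neg, xx]
  congr 1
  ext x
  ring

/-! ### two variables -/

section two

variable {α β : Measure ℝ} [IsFiniteMeasure α] [IsFiniteMeasure β]

theorem flip_snd (ha : BddSupp α) (hcb : Cons β) (hb : BddSupp β)
    {F : ℝ × ℝ → ℝ} (hF : LB2 F) :
    ∫ p, F p ∂(α.prod β) = ∫ p, F (p.1, -p.2) * Real.exp (-2 * p.2) ∂(α.prod β) := by
  have hE : LB2 (fun p => Real.exp (-2 * p.2)) := LB2.of_continuous (by fun_prop)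
  rw [integral_prod _ (hF.integrable ha hb),
    integral_prod _ ((hF.neg_snd.mul hE).integrable ha hb)]
  congr 1
  ext x
  have := hcb.integral_neg hb (hF.section_ x).neg_arg
  simp only [neg_neg] at this
  exact this

theorem flip_fst (hca : Cons α) (ha : BddSupp α) (hb : BddSupp β)
    {F : ℝ × ℝ → ℝ} (hF : LB2 F) :
    ∫ p, F p ∂(α.prod β) = ∫ p, F (-p.1, p.2) * Real.exp (-2 * p.1) ∂(α.prod β) := by
  have h1 := integral_prod_swap (μ := α) (ν := β) F
  have h2 := integral_prod_swap (μ := α) (ν := β)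
    (fun p : ℝ × ℝ => F (-p.1, p.2) * Real.exp (-2 * p.1))
  rw [← h1, ← h2]
  exact flip_snd (α := β) (β := α) hb hca ha hF.swap

/-- four-fold symmetrisation. -/
noncomputable def sym4 (F : ℝ × ℝ → ℝ) (p : ℝ × ℝ) : ℝ :=
  F p + F (p.1, -p.2) * Real.exp (-2 * p.2) +
    (F (-p.1, p.2) * Real.exp (-2 * p.1) +
      F (-p.1, -p.2) * Real.exp (-2 * p.2) * Real.exp (-2 * p.1))

theorem LB2.exp_fst : LB2 (fun p => Real.exp (-2 * p.1)) := LB2.of_continuous (by fun_prop)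
theorem LB2.exp_snd : LB2 (fun p => Real.exp (-2 * p.2)) := LB2.of_continuous (by fun_prop)

theorem integral_sym4 (hca : Cons α) (ha : BddSupp α) (hcb : Cons β) (hb : BddSupp β)
    {F : ℝ × ℝ → ℝ} (hF : LB2 F) :
    Integrable (sym4 F) (α.prod β) ∧
      ∫ p, sym4 F p ∂(α.prod β) = 4 * ∫ p, F p ∂(α.prod β) := by
  have i1 := hF.integrable ha hb
  have L2 : LB2 (fun p : ℝ × ℝ => F (p.1, -p.2) * Real.exp (-2 * p.2)) :=
    hF.neg_snd.mul LB2.exp_snd
  have L3 : LB2 (fun p : ℝ × ℝ => F (-p.1, p.2) * Real.exp (-2 * p.1)) :=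
    hF.neg_fst.mul LB2.exp_fst
  have L4 : LB2 (fun p : ℝ × ℝ =>
      F (-p.1, -p.2) * Real.exp (-2 * p.2) * Real.exp (-2 * p.1)) :=
    L2.neg_fst.mul LB2.exp_fst
  have i2 := L2.integrable ha hb
  have i3 := L3.integrable ha hb
  have i4 := L4.integrable ha hb
  have e2 := flip_snd ha hcb hb hF
  have e3 := flip_fst hca ha hb hF
  have e4 := flip_fst hca ha hb L2
  refine ⟨(i1.add i2).add (i3.add i4), ?_⟩
  have s1 : ∫ p, sym4 F p ∂(α.prod β)
      = (∫ p, F p ∂(α.prod β) + ∫ p, F (p.1, -p.2) * Real.exp (-2 * p.2) ∂(α.prod β)) +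
        (∫ p, F (-p.1, p.2) * Real.exp (-2 * p.1) ∂(α.prod β) +
          ∫ p, F (-p.1, -p.2) * Real.exp (-2 * p.2) * Real.exp (-2 * p.1) ∂(α.prod β)) := by
    rw [← integral_add i1 i2, ← integral_add i3 i4]
    exact integral_add (i1.add i2) (i3.add i4)
  rw [s1, ← e4, ← e2, ← e3]
  ring

theorem prod_mono_of_sym (hca : Cons α) (ha : BddSupp α) (hcb : Cons β) (hb : BddSupp β)
    {F G : ℝ × ℝ → ℝ} (hF : LB2 F) (hG : LB2 G)
    (h : ∀ x y : ℝ,
      F (x, y) * ((1 + Real.tanh x) * (1 + Real.tanh y)) +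
      F (x, -y) * ((1 + Real.tanh x) * (1 - Real.tanh y)) +
      (F (-x, y) * ((1 - Real.tanh x) * (1 + Real.tanh y)) +
      F (-x, -y) * ((1 - Real.tanh x) * (1 - Real.tanh y))) ≤
      G (x, y) * ((1 + Real.tanh x) * (1 + Real.tanh y)) +
      G (x, -y) * ((1 + Real.tanh x) * (1 - Real.tanh y)) +
      (G (-x, y) * ((1 - Real.tanh x) * (1 + Real.tanh y)) +
      G (-x, -y) * ((1 - Real.tanh x) * (1 - Real.tanh y)))) :
    ∫ p, F p ∂(α.prod β) ≤ ∫ p, G p ∂(α.prod β) := by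
  have h1 := integral_sym4 hca ha hcb hb hF
  have h2 := integral_sym4 hca ha hcb hb hG
  have h3 : ∫ p, sym4 F p ∂(α.prod β) ≤ ∫ p, sym4 G p ∂(α.prod β) := by
    apply integral_mono h1.1 h2.1
    rintro ⟨x, y⟩
    have hp := one_add_tanh_pos x
    have hq := one_add_tanh_pos y
    have e1 : ∀ H : ℝ × ℝ → ℝ, sym4 H (x, y) =
      (H (x, y) * ((1 + Real.tanh x) * (1 + Real.tanh y)) +
      H (x, -y) * ((1 + Real.tanh x) * (1 - Real.tanh y)) +
      (H (-x, y) * ((1 - Real.tanh x) * (1 + Real.tanh y)) +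
      H (-x, -y) * ((1 - Real.tanh x) * (1 - Real.tanh y)))) /
        ((1 + Real.tanh x) * (1 + Real.tanh y)) := by
      intro H
      simp only [sym4]
      rw [exp_neg_two_mul_eq, exp_neg_two_mul_eq]
      field_simp
    rw [e1, e1]
    exact div_le_div_of_nonneg_right (h x y) (mul_pos hp hq).le
  linarith [h1.2, h2.2]

omit [IsFiniteMeasure α] [IsFiniteMeasure β] in
theorem integral_conv_LB {f : ℝ → ℝ} (hf : LB f) :
    ∫ z, f z ∂(α ∗ β) = ∫ p, f (p.1 + p.2) ∂(α.prod β) := by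
  rw [Measure.conv, integral_map]
  · exact (measurable_fst.add measurable_snd).aemeasurable
  · exact hf.1.aestronglyMeasurable

theorem _root_.Crest.Agent.TI.BddSupp.conv (ha : BddSupp α) (hb : BddSupp β) : BddSupp (α ∗ β) := by
  obtain ⟨B, hB⟩ := ha.prod_ae hb
  refine ⟨B + B, ?_⟩
  rw [Measure.conv, ae_map_iff]
  · filter_upwards [hB] with p hp
    exact (abs_add_le _ _).trans (add_le_add hp.1 hp.2)
  · exact (measurable_fst.add measurable_snd).aemeasurable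
  · exact measurableSet_le continuous_abs.measurable measurable_const

theorem _root_.Crest.Agent.TI.Cons.conv (hca : Cons α) (ha : BddSupp α) (hcb : Cons β) (hb : BddSupp β) :
    Cons (α ∗ β) := by
  intro f hf hfb
  have Lf : LB f := LB.of_bdd hf hfb
  rw [integral_conv_LB Lf.neg_arg, integral_conv_LB (Lf.mul (LB.exp (-2)))]
  rw [flip_snd ha hcb hb Lf.neg_arg.sum_arg, flip_fst hca ha hb
    (Lf.neg_arg.sum_arg.neg_snd.mul LB2.exp_snd)]
  congr 1
  ext p
  simp only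
  rw [show -(-p.1 + -p.2) = p.1 + p.2 by ring, mul_assoc, ← Real.exp_add]
  congr 2
  ring

omit [IsFiniteMeasure α] in
theorem conv_univ : (α ∗ β) univ = α univ * β univ := by
  have hadd : Measurable (fun x : ℝ × ℝ => x.1 + x.2) := measurable_fst.add measurable_snd
  rw [Measure.conv, Measure.map_apply hadd MeasurableSet.univ,
    preimage_univ, ← univ_prod_univ, Measure.prod_prod]

end two

/-! ### edge laws -/

section edge

variable {θ : ℝ} {μ : Measure ℝ}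

instance instFiniteEdge [IsFiniteMeasure μ] : IsFiniteMeasure (edgeLaw θ μ) := by
  unfold edgeLaw
  have h1 : IsFiniteMeasure (ENNReal.ofReal ((1 + θ) / 2) • μ.map (phi θ)) :=
    Measure.smul_finite _ ENNReal.ofReal_ne_top
  have h2 : IsFiniteMeasure (ENNReal.ofReal ((1 - θ) / 2) • μ.map (fun h => - phi θ h)) :=
    Measure.smul_finite _ ENNReal.ofReal_ne_top
  infer_instance

theorem edgeLaw_univ (h0 : 0 ≤ θ) (h1 : θ < 1) : (edgeLaw θ μ) univ = μ univ := by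
  have hm := (continuous_phi h0 h1).measurable
  have hmn : Measurable (fun h => - phi θ h) := hm.neg
  simp only [edgeLaw, Measure.add_apply, Measure.smul_apply, smul_eq_mul]
  rw [Measure.map_apply hm MeasurableSet.univ, Measure.map_apply hmn MeasurableSet.univ,
    preimage_univ, preimage_univ, ← add_mul, ← ENNReal.ofReal_add (by linarith) (by linarith)]
  rw [show (1 + θ) / 2 + (1 - θ) / 2 = 1 by ring]
  simp

theorem isProb_edge (h0 : 0 ≤ θ) (h1 : θ < 1) [IsProbabilityMeasure μ] :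
    IsProbabilityMeasure (edgeLaw θ μ) := ⟨by rw [edgeLaw_univ h0 h1, measure_univ]⟩

theorem ae_edge (h0 : 0 ≤ θ) (h1 : θ < 1) {P : ℝ → Prop} (hP : MeasurableSet {x | P x})
    (h : ∀ᵐ x ∂μ, P (phi θ x) ∧ P (- phi θ x)) : ∀ᵐ x ∂(edgeLaw θ μ), P x := by
  have hm := (continuous_phi h0 h1).measurable
  have hmn : Measurable (fun h => - phi θ h) := hm.neg
  unfold edgeLaw
  rw [ae_add_measure_iff]
  constructor
  · apply Measure.ae_smul_measure
    rw [ae_map_iff hm.aemeasurable hP]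
    filter_upwards [h] with x hx using hx.1
  · apply Measure.ae_smul_measure
    rw [ae_map_iff hmn.aemeasurable hP]
    filter_upwards [h] with x hx using hx.2

theorem _root_.Crest.Agent.TI.BddSupp.edge (h0 : 0 ≤ θ) (h1 : θ < 1) (hb : BddSupp μ) : BddSupp (edgeLaw θ μ) := by
  obtain ⟨B, hB⟩ := hb
  refine ⟨B, ?_⟩
  apply ae_edge h0 h1 (measurableSet_le continuous_abs.measurable measurable_const)
  filter_upwards [hB] with x hx
  have := abs_phi_le h0 h1 x
  have h2 : |phi θ x| ≤ B := by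
    refine this.trans ?_
    nlinarith [abs_nonneg x]
  exact ⟨h2, by rwa [abs_neg]⟩

theorem edge_abs_tanh_le (h0 : 0 ≤ θ) (h1 : θ < 1) :
    ∀ᵐ x ∂(edgeLaw θ μ), |Real.tanh x| ≤ θ := by
  apply ae_edge h0 h1
  · exact measurableSet_le (continuous_abs.comp continuous_tanh).measurable measurable_const
  · filter_upwards with x
    have : |Real.tanh (phi θ x)| ≤ θ := by
      rw [tanh_phi h0 h1, abs_mul, abs_of_nonneg h0]
      have := Real.abs_tanh_lt_one x
      nlinarith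
    exact ⟨this, by rw [Real.tanh_neg, abs_neg]; exact this⟩

theorem LB.comp_phi (h0 : 0 ≤ θ) (h1 : θ < 1) {f : ℝ → ℝ} (hf : LB f) :
    LB (fun x => f (phi θ x)) := by
  refine ⟨hf.1.comp (continuous_phi h0 h1).measurable, fun B => ?_⟩
  obtain ⟨C, hC⟩ := hf.2 B
  refine ⟨C, fun x hx => hC _ ?_⟩
  have := abs_phi_le h0 h1 x
  refine this.trans ?_
  nlinarith [abs_nonneg x]

theorem integral_edge (h0 : 0 ≤ θ) (h1 : θ < 1) [IsFiniteMeasure μ] (hb : BddSupp μ)
    {f : ℝ → ℝ} (hf : LB f) :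
    ∫ x, f x ∂(edgeLaw θ μ) =
      (1 + θ) / 2 * ∫ x, f (phi θ x) ∂μ + (1 - θ) / 2 * ∫ x, f (- phi θ x) ∂μ := by
  have hm := (continuous_phi h0 h1).measurable
  have hmn : Measurable (fun h => - phi θ h) := hm.neg
  have i1 : Integrable f (μ.map (phi θ)) := by
    rw [integrable_map_measure hf.1.aestronglyMeasurable hm.aemeasurable]
    exact (hf.comp_phi h0 h1).integrable hb
  have i2 : Integrable f (μ.map (fun h => - phi θ h)) := by
    rw [integrable_map_measure hf.1.aestronglyMeasurable hmn.aemeasurable]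
    exact (hf.neg_arg.comp_phi h0 h1).integrable hb
  unfold edgeLaw
  rw [integral_add_measure (i1.smul_measure ENNReal.ofReal_ne_top)
    (i2.smul_measure ENNReal.ofReal_ne_top), integral_smul_measure, integral_smul_measure,
    integral_map hm.aemeasurable hf.1.aestronglyMeasurable,
    integral_map hmn.aemeasurable hf.1.aestronglyMeasurable,
    ENNReal.toReal_ofReal (by linarith), ENNReal.toReal_ofReal (by linarith)]
  simp only [smul_eq_mul]

theorem _root_.Crest.Agent.TI.Cons.edge (h0 : 0 ≤ θ) (h1 : θ < 1) [IsFiniteMeasure μ] (hc : Cons μ) (hb : BddSupp μ) :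
    Cons (edgeLaw θ μ) := by
  intro f hf hfb
  have Lf : LB f := LB.of_bdd hf hfb
  have Lg : LB (fun x => f x * Real.exp (-2 * x)) := Lf.mul (LB.exp (-2))
  rw [integral_edge h0 h1 hb Lf.neg_arg, integral_edge h0 h1 hb Lg]
  rw [← integral_const_mul, ← integral_const_mul, ← integral_const_mul, ← integral_const_mul]
  have c : ∀ c : ℝ, LB (fun _ => c) := fun c => LB.of_continuous continuous_const
  have A1 : LB (fun x => (1 + θ) / 2 * f (- phi θ x)) :=
    (c _).mul (Lf.neg_arg.comp_phi h0 h1)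
  have A2 : LB (fun x => (1 - θ) / 2 * f (- - phi θ x)) :=
    (c _).mul (Lf.neg_arg.neg_arg.comp_phi h0 h1)
  have A3 : LB (fun x => (1 + θ) / 2 * (f (phi θ x) * Real.exp (-2 * phi θ x))) :=
    (c _).mul (Lg.comp_phi h0 h1)
  have A4 : LB (fun x => (1 - θ) / 2 * (f (- phi θ x) * Real.exp (-2 * - phi θ x))) :=
    (c _).mul (Lg.neg_arg.comp_phi h0 h1)
  rw [← integral_add (A1.integrable hb) (A2.integrable hb),
    ← integral_add (A3.integrable hb) (A4.integrable hb)]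
  apply hc.eq_of_sym hb
  · refine ⟨A1.1.add A2.1, fun B => ?_⟩
    obtain ⟨C, hC⟩ := A1.2 B
    obtain ⟨D, hD⟩ := A2.2 B
    exact ⟨C + D, fun x hx => (abs_add_le _ _).trans (add_le_add (hC x hx) (hD x hx))⟩
  · refine ⟨A3.1.add A4.1, fun B => ?_⟩
    obtain ⟨C, hC⟩ := A3.2 B
    obtain ⟨D, hD⟩ := A4.2 B
    exact ⟨C + D, fun x hx => (abs_add_le _ _).trans (add_le_add (hC x hx) (hD x hx))⟩
  · intro x
    rw [phi_neg h0 h1]
    simp only [neg_neg]
    have e1 : Real.exp (-2 * phi θ x) = (1 - θ * Real.tanh x) / (1 + θ * Real.tanh x) := by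
      rw [exp_neg_two_mul_eq, tanh_phi h0 h1]
    have e2 : Real.exp (-2 * - phi θ x) = (1 + θ * Real.tanh x) / (1 - θ * Real.tanh x) := by
      rw [show -2 * - phi θ x = 2 * phi θ x by ring, exp_two_mul_eq, tanh_phi h0 h1]
    rw [e1, e2]
    have hm := mul_tanh_mem h0 h1 x
    have hp : 0 < 1 + θ * Real.tanh x := by linarith [hm.1]
    have hq : 0 < 1 - θ * Real.tanh x := by linarith [hm.2]
    field_simp
    ring

theorem xx_edge (h0 : 0 ≤ θ) (h1 : θ < 1) [IsFiniteMeasure μ] (hb : BddSupp μ) :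
    xx (edgeLaw θ μ) = θ ^ 2 * xx μ := by
  unfold xx
  rw [integral_edge h0 h1 hb LB.tanh_sq]
  have : ∀ x, Real.tanh (- phi θ x) ^ 2 = θ ^ 2 * Real.tanh x ^ 2 := by
    intro x; rw [Real.tanh_neg, tanh_phi h0 h1]; ring
  have h2 : ∀ x, Real.tanh (phi θ x) ^ 2 = θ ^ 2 * Real.tanh x ^ 2 := by
    intro x; rw [tanh_phi h0 h1]; ring
  simp only [this, h2, integral_const_mul]
  ring

end edge

/-! ### (S2) combination -/

section comb

variable {α β : Measure ℝ} [IsFiniteMeasure α] [IsFiniteMeasure β]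

theorem xx_nonneg (μ : Measure ℝ) : 0 ≤ xx μ := integral_nonneg fun _ => sq_nonneg _

theorem xx_le_mass (hb : BddSupp α) : xx α ≤ (α univ).toReal := by
  have h1 : ∫ _h, (1 : ℝ) ∂α = (α univ).toReal := by
    rw [integral_const]
    simp [Measure.real]
  rw [← h1, xx]
  apply integral_mono (LB.tanh_sq.integrable hb) (integrable_const _)
  intro x
  exact tanh_sq_le_one x

theorem xx_le_one {μ : Measure ℝ} [IsProbabilityMeasure μ] (hb : BddSupp μ) : xx μ ≤ 1 := by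
  have := xx_le_mass hb
  simpa using this

omit [IsFiniteMeasure α] [IsFiniteMeasure β] in
theorem xx_conv_eq : xx (α ∗ β) = ∫ p, Real.tanh (p.1 + p.2) ^ 2 ∂(α.prod β) := by
  rw [xx, integral_conv_LB LB.tanh_sq]

theorem integral_fst_sq : ∫ p : ℝ × ℝ, Real.tanh p.1 ^ 2 ∂(α.prod β)
    = (β univ).toReal * xx α := by
  have h := integral_prod_mul (μ := α) (ν := β) (fun x => Real.tanh x ^ 2) (fun _ => (1 : ℝ))
  simp only [mul_one] at h
  rw [h, xx, integral_const]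
  simp [Measure.real, mul_comm]

theorem integral_snd_sq : ∫ p : ℝ × ℝ, Real.tanh p.2 ^ 2 ∂(α.prod β)
    = (α univ).toReal * xx β := by
  have h := integral_prod_mul (μ := α) (ν := β) (fun _ => (1 : ℝ)) (fun x => Real.tanh x ^ 2)
  simp only [one_mul] at h
  rw [h, xx, integral_const]
  simp [Measure.real]

theorem integral_fst_snd_sq :
    ∫ p : ℝ × ℝ, Real.tanh p.1 ^ 2 * Real.tanh p.2 ^ 2 ∂(α.prod β) = xx α * xx β := by
  have h := integral_prod_mul (μ := α) (ν := β) (fun x => Real.tanh x ^ 2)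
    (fun x => Real.tanh x ^ 2)
  rw [h, xx, xx]

theorem LB2.tanh_fst_sq : LB2 (fun p => Real.tanh p.1 ^ 2) :=
  LB2.of_continuous ((continuous_tanh.comp continuous_fst).pow 2)
theorem LB2.tanh_snd_sq : LB2 (fun p => Real.tanh p.2 ^ 2) :=
  LB2.of_continuous ((continuous_tanh.comp continuous_snd).pow 2)
theorem LB2.tanh_fst_snd_sq : LB2 (fun p => Real.tanh p.1 ^ 2 * Real.tanh p.2 ^ 2) :=
  LB2.tanh_fst_sq.mul LB2.tanh_snd_sq
theorem LB2.tanh_add_sq : LB2 (fun p => Real.tanh (p.1 + p.2) ^ 2) := LB.tanh_sq.sum_arg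

/-- the symmetrised weight of `tanh²(x+y)`. -/
theorem sym_tanh_add (x y : ℝ) :
    Real.tanh (x + y) ^ 2 * ((1 + Real.tanh x) * (1 + Real.tanh y)) +
      Real.tanh (x + -y) ^ 2 * ((1 + Real.tanh x) * (1 - Real.tanh y)) +
      (Real.tanh (-x + y) ^ 2 * ((1 - Real.tanh x) * (1 + Real.tanh y)) +
      Real.tanh (-x + -y) ^ 2 * ((1 - Real.tanh x) * (1 - Real.tanh y))) =
    4 * ((Real.tanh x ^ 2 + Real.tanh y ^ 2 - 2 * (Real.tanh x ^ 2 * Real.tanh y ^ 2)) /
      (1 - Real.tanh x ^ 2 * Real.tanh y ^ 2)) := by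
  have h1 := one_add_mul_tanh_pos x y
  have h2 := one_sub_mul_tanh_pos x y
  have h3 : 1 - Real.tanh x ^ 2 * Real.tanh y ^ 2 =
    (1 + Real.tanh x * Real.tanh y) * (1 - Real.tanh x * Real.tanh y) := by ring
  rw [h3, tanh_add x y, tanh_add x (-y), tanh_add (-x) y, tanh_add (-x) (-y)]
  simp only [Real.tanh_neg]
  have e2 : 1 + Real.tanh x * -Real.tanh y = 1 - Real.tanh x * Real.tanh y := by ring
  have e3 : 1 + -Real.tanh x * Real.tanh y = 1 - Real.tanh x * Real.tanh y := by ring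
  have e4 : 1 + -Real.tanh x * -Real.tanh y = 1 + Real.tanh x * Real.tanh y := by ring
  rw [e2, e3, e4]
  field_simp
  ring

theorem den2_pos (x y : ℝ) : 0 < 1 - Real.tanh x ^ 2 * Real.tanh y ^ 2 := by
  have h1 := one_add_mul_tanh_pos x y
  have h2 := one_sub_mul_tanh_pos x y
  have h3 : 1 - Real.tanh x ^ 2 * Real.tanh y ^ 2 =
    (1 + Real.tanh x * Real.tanh y) * (1 - Real.tanh x * Real.tanh y) := by ring
  rw [h3]
  exact mul_pos h1 h2

/-- general comparison for even test functions. -/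
theorem xx_conv_le_of (hca : Cons α) (ha : BddSupp α) (hcb : Cons β) (hb : BddSupp β)
    {G : ℝ × ℝ → ℝ} (hG : LB2 G) (hG1 : ∀ x y, G (x, -y) = G (x, y))
    (hG2 : ∀ x y, G (-x, y) = G (x, y))
    (h : ∀ x y : ℝ, (Real.tanh x ^ 2 + Real.tanh y ^ 2 - 2 * (Real.tanh x ^ 2 * Real.tanh y ^ 2)) /
      (1 - Real.tanh x ^ 2 * Real.tanh y ^ 2) ≤ G (x, y)) :
    xx (α ∗ β) ≤ ∫ p, G p ∂(α.prod β) := by
  rw [xx_conv_eq]
  apply prod_mono_of_sym hca ha hcb hb LB2.tanh_add_sq hG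
  intro x y
  rw [sym_tanh_add, hG2 x (-y), hG1, hG2]
  have e : G (x, y) * ((1 + Real.tanh x) * (1 + Real.tanh y)) +
      G (x, y) * ((1 + Real.tanh x) * (1 - Real.tanh y)) +
      (G (x, y) * ((1 - Real.tanh x) * (1 + Real.tanh y)) +
      G (x, y) * ((1 - Real.tanh x) * (1 - Real.tanh y))) = 4 * G (x, y) := by ring
  rw [e]
  linarith [h x y]

theorem le_xx_conv_of (hca : Cons α) (ha : BddSupp α) (hcb : Cons β) (hb : BddSupp β)
    {G : ℝ × ℝ → ℝ} (hG : LB2 G) (hG1 : ∀ x y, G (x, -y) = G (x, y))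
    (hG2 : ∀ x y, G (-x, y) = G (x, y))
    (h : ∀ x y : ℝ, G (x, y) ≤
      (Real.tanh x ^ 2 + Real.tanh y ^ 2 - 2 * (Real.tanh x ^ 2 * Real.tanh y ^ 2)) /
      (1 - Real.tanh x ^ 2 * Real.tanh y ^ 2)) :
    ∫ p, G p ∂(α.prod β) ≤ xx (α ∗ β) := by
  rw [xx_conv_eq]
  apply prod_mono_of_sym hca ha hcb hb hG LB2.tanh_add_sq
  intro x y
  rw [sym_tanh_add, hG2 x (-y), hG1, hG2]
  have e : G (x, y) * ((1 + Real.tanh x) * (1 + Real.tanh y)) +
      G (x, y) * ((1 + Real.tanh x) * (1 - Real.tanh y)) +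
      (G (x, y) * ((1 - Real.tanh x) * (1 + Real.tanh y)) +
      G (x, y) * ((1 - Real.tanh x) * (1 - Real.tanh y))) = 4 * G (x, y) := by ring
  rw [e]
  linarith [h x y]

/-- (S2) upper bound. -/
theorem xx_conv_le (hca : Cons α) (ha : BddSupp α) (hcb : Cons β) (hb : BddSupp β) :
    xx (α ∗ β) ≤ (β univ).toReal * xx α + (α univ).toReal * xx β - xx α * xx β := by
  have h := xx_conv_le_of hca ha hcb hb
    (G := fun p => Real.tanh p.1 ^ 2 + Real.tanh p.2 ^ 2 - Real.tanh p.1 ^ 2 * Real.tanh p.2 ^ 2)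
    (LB2.of_continuous (by
      have h1 := (continuous_tanh.comp (continuous_fst (X := ℝ) (Y := ℝ)))
      have h2 := (continuous_tanh.comp (continuous_snd (X := ℝ) (Y := ℝ)))
      exact ((h1.pow 2).add (h2.pow 2)).sub ((h1.pow 2).mul (h2.pow 2))))
    (fun x y => by simp [Real.tanh_neg]) (fun x y => by simp [Real.tanh_neg])
    (fun x y => by
      rw [div_le_iff₀ (den2_pos x y)]
      have hP := tanh_sq_le_one x
      have hQ := tanh_sq_le_one y
      have hP0 := sq_nonneg (Real.tanh x)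
      have hQ0 := sq_nonneg (Real.tanh y)
      simp only
      have h1 : 0 ≤ (Real.tanh x ^ 2 * Real.tanh y ^ 2) *
          ((1 - Real.tanh x ^ 2) * (1 - Real.tanh y ^ 2)) := by
        apply mul_nonneg (mul_nonneg hP0 hQ0)
        apply mul_nonneg <;> linarith
      nlinarith)
  refine h.trans (le_of_eq ?_)
  have i1 := (LB2.tanh_fst_sq).integrable ha hb
  have i2 := (LB2.tanh_snd_sq).integrable ha hb
  have i3 := (LB2.tanh_fst_snd_sq).integrable ha hb
  rw [← integral_fst_sq (α := α) (β := β), ← integral_snd_sq (α := α) (β := β),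
    ← integral_fst_snd_sq (α := α) (β := β), ← integral_add i1 i2]
  exact integral_sub (i1.add i2) i3

/-- (S2) lower bound. -/
theorem le_xx_conv (hca : Cons α) (ha : BddSupp α) (hcb : Cons β) (hb : BddSupp β) :
    (β univ).toReal * xx α + (α univ).toReal * xx β - 2 * (xx α * xx β) ≤ xx (α ∗ β) := by
  have h := le_xx_conv_of hca ha hcb hb
    (G := fun p => Real.tanh p.1 ^ 2 + Real.tanh p.2 ^ 2 -
      2 * (Real.tanh p.1 ^ 2 * Real.tanh p.2 ^ 2))
    (LB2.of_continuous (by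
      have h1 := (continuous_tanh.comp (continuous_fst (X := ℝ) (Y := ℝ)))
      have h2 := (continuous_tanh.comp (continuous_snd (X := ℝ) (Y := ℝ)))
      exact ((h1.pow 2).add (h2.pow 2)).sub (continuous_const.mul ((h1.pow 2).mul (h2.pow 2)))))
    (fun x y => by simp [Real.tanh_neg]) (fun x y => by simp [Real.tanh_neg])
    (fun x y => by
      rw [le_div_iff₀ (den2_pos x y)]
      have hP := tanh_sq_le_one x
      have hQ := tanh_sq_le_one y
      have hP0 := sq_nonneg (Real.tanh x)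
      have hQ0 := sq_nonneg (Real.tanh y)
      simp only
      have h1 : 0 ≤ (Real.tanh x ^ 2 * Real.tanh y ^ 2) *
          (Real.tanh x ^ 2 * (1 - Real.tanh y ^ 2) + Real.tanh y ^ 2 * (1 - Real.tanh x ^ 2)) := by
        apply mul_nonneg (mul_nonneg hP0 hQ0)
        apply add_nonneg <;> apply mul_nonneg <;> linarith
      nlinarith)
  refine le_trans (le_of_eq ?_) h
  have i1 := (LB2.tanh_fst_sq).integrable ha hb
  have i2 := (LB2.tanh_snd_sq).integrable ha hb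
  have i3 := (LB2.tanh_fst_snd_sq).integrable ha hb
  rw [← integral_fst_sq (α := α) (β := β), ← integral_snd_sq (α := α) (β := β),
    ← integral_fst_snd_sq (α := α) (β := β), ← integral_add i1 i2, ← integral_const_mul]
  exact (integral_sub (i1.add i2) (i3.const_mul 2)).symm

/-- (S2) monotonicity in the first argument. -/
theorem le_xx_conv_fst (hca : Cons α) (ha : BddSupp α) (hcb : Cons β) (hb : BddSupp β) :
    (β univ).toReal * xx α ≤ xx (α ∗ β) := by
  have h := le_xx_conv_of hca ha hcb hb (G := fun p => Real.tanh p.1 ^ 2) LB2.tanh_fst_sq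
    (fun x y => rfl) (fun x y => by simp [Real.tanh_neg])
    (fun x y => by
      rw [le_div_iff₀ (den2_pos x y)]
      have hQ0 := sq_nonneg (Real.tanh y)
      simp only
      have h1 : 0 ≤ Real.tanh y ^ 2 * (1 - Real.tanh x ^ 2) ^ 2 := by positivity
      nlinarith)
  rwa [integral_fst_sq] at h

theorem le_xx_conv_snd (hca : Cons α) (ha : BddSupp α) (hcb : Cons β) (hb : BddSupp β) :
    (α univ).toReal * xx β ≤ xx (α ∗ β) := by
  rw [Measure.conv_comm]
  exact le_xx_conv_fst hcb hb hca ha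

end comb

/-! ### (S1) closure properties -/

section closure

variable {θ : ℝ} {μy μ : Measure ℝ}

theorem stepLaw_props (h0 : 0 ≤ θ) (h1 : θ < 1) [IsProbabilityMeasure μy]
    [IsProbabilityMeasure μ] (hcy : Cons μy) (hby : BddSupp μy) (hc : Cons μ) (hb : BddSupp μ)
    (m : ℕ) : IsProbabilityMeasure (stepLaw θ μy μ m) ∧ Cons (stepLaw θ μy μ m) ∧
      BddSupp (stepLaw θ μy μ m) := by
  induction m with
  | zero => exact ⟨‹_›, hcy, hby⟩
  | succ m ih =>
    obtain ⟨i1, i2, i3⟩ := ih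
    have i4 : IsProbabilityMeasure (edgeLaw θ μ) := isProb_edge h0 h1
    have c1 := hc.edge h0 h1 hb
    have b1 := hb.edge h0 h1
    refine ⟨?_, ?_, ?_⟩
    · show IsProbabilityMeasure ((stepLaw θ μy μ m) ∗ edgeLaw θ μ)
      infer_instance
    · exact i2.conv i3 c1 b1
    · exact i3.conv b1

theorem msgLaw_props (h0 : 0 ≤ θ) (h1 : θ < 1) [IsProbabilityMeasure μy]
    (hcy : Cons μy) (hby : BddSupp μy) (b n : ℕ) :
    IsProbabilityMeasure (msgLaw θ μy b n) ∧ Cons (msgLaw θ μy b n) ∧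
      BddSupp (msgLaw θ μy b n) := by
  induction n with
  | zero => exact ⟨‹_›, hcy, hby⟩
  | succ n ih =>
    obtain ⟨i1, i2, i3⟩ := ih
    exact stepLaw_props h0 h1 hcy hby i2 i3 b

section wd

variable {w : ℝ → ℝ}

theorem isFinite_withDensity [IsFiniteMeasure μ] (hwb : ∃ C, ∀ x, w x ≤ C) :
    IsFiniteMeasure (μ.withDensity fun x => ENNReal.ofReal (w x)) := by
  obtain ⟨C, hC⟩ := hwb
  apply isFiniteMeasure_withDensity
  refine ne_of_lt (lt_of_le_of_lt (lintegral_mono (g := fun _ => ENNReal.ofReal C) ?_) ?_)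
  · intro x
    exact ENNReal.ofReal_le_ofReal (hC x)
  · rw [lintegral_const]
    exact ENNReal.mul_lt_top ENNReal.ofReal_lt_top (measure_lt_top _ _)

theorem _root_.Crest.Agent.TI.BddSupp.withDensity (hb : BddSupp μ) :
    BddSupp (μ.withDensity fun x => ENNReal.ofReal (w x)) := by
  obtain ⟨B, hB⟩ := hb
  exact ⟨B, (withDensity_absolutelyContinuous μ _).ae_le hB⟩

theorem integral_withDensity_real [IsFiniteMeasure μ] (hw : Measurable w) (hw0 : ∀ x, 0 ≤ w x)
    (f : ℝ → ℝ) :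
    ∫ x, f x ∂(μ.withDensity fun x => ENNReal.ofReal (w x)) = ∫ x, w x * f x ∂μ := by
  rw [integral_withDensity_eq_integral_toReal_smul (by fun_prop)
    (by filter_upwards with x using ENNReal.ofReal_lt_top)]
  congr 1
  ext x
  rw [ENNReal.toReal_ofReal (hw0 x), smul_eq_mul]

theorem _root_.Crest.Agent.TI.Cons.withDensity [IsFiniteMeasure μ] (hc : Cons μ) (hw : Measurable w)
    (hw0 : ∀ x, 0 ≤ w x) (hwe : ∀ x, w (-x) = w x) (hwb : ∃ C, ∀ x, w x ≤ C) :
    Cons (μ.withDensity fun x => ENNReal.ofReal (w x)) := by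
  intro f hf hfb
  rw [integral_withDensity_real hw hw0, integral_withDensity_real hw hw0]
  have h := hc (fun x => w x * f x) (hw.mul hf) (by
    obtain ⟨C, hC⟩ := hwb
    obtain ⟨D, hD⟩ := hfb
    refine ⟨C * D, fun x => ?_⟩
    rw [abs_mul, abs_of_nonneg (hw0 x)]
    exact mul_le_mul (hC x) (hD x) (abs_nonneg _) ((hw0 x).trans (hC x)))
  simp only [hwe] at h
  rw [h]
  congr 1
  ext x
  ring

theorem withDensity_univ_toReal [IsFiniteMeasure μ] (hw : Measurable w) (hw0 : ∀ x, 0 ≤ w x)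
    (_hwb : ∃ C, ∀ x, w x ≤ C) :
    ((μ.withDensity fun x => ENNReal.ofReal (w x)) univ).toReal = ∫ x, w x ∂μ := by
  have h := integral_withDensity_real (μ := μ) hw hw0 (fun _ => 1)
  simp only [mul_one] at h
  rw [← h, integral_const]
  simp [Measure.real]

end wd

end closure

/-! ### (S3) upper bounds -/

section S3

variable {θ : ℝ} {μy μ : Measure ℝ} [IsProbabilityMeasure μy] [IsProbabilityMeasure μ]

theorem one_sub_xx_step (h0 : 0 ≤ θ) (h1 : θ < 1) (hcy : Cons μy) (hby : BddSupp μy)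
    (hc : Cons μ) (hb : BddSupp μ) (m : ℕ) :
    (1 - xx μy) * (1 - θ ^ 2 * xx μ) ^ m ≤ 1 - xx (stepLaw θ μy μ m) := by
  have hx1 := xx_le_one hb
  have hx0 := xx_nonneg μ
  have hy : 0 ≤ 1 - θ ^ 2 * xx μ := by nlinarith
  induction m with
  | zero => simp [stepLaw]
  | succ m ih =>
    obtain ⟨i1, i2, i3⟩ := stepLaw_props h0 h1 hcy hby hc hb m
    have i4 : IsProbabilityMeasure (edgeLaw θ μ) := isProb_edge h0 h1
    have h := xx_conv_le i2 i3 (hc.edge h0 h1 hb) (hb.edge h0 h1)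
    rw [xx_edge h0 h1 hb] at h
    simp only [measure_univ, ENNReal.toReal_one, one_mul] at h
    have e : xx (stepLaw θ μy μ (m + 1)) = xx (stepLaw θ μy μ m ∗ edgeLaw θ μ) := rfl
    rw [e, pow_succ, ← mul_assoc]
    have := mul_le_mul_of_nonneg_right ih hy
    nlinarith

theorem xx_step_le (h0 : 0 ≤ θ) (h1 : θ < 1) (hcy : Cons μy) (hby : BddSupp μy)
    (hc : Cons μ) (hb : BddSupp μ) (m : ℕ) :
    xx (stepLaw θ μy μ m) ≤ xx μy + m * (θ ^ 2 * xx μ) := by
  induction m with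
  | zero => simp [stepLaw]
  | succ m ih =>
    obtain ⟨i1, i2, i3⟩ := stepLaw_props h0 h1 hcy hby hc hb m
    have i4 : IsProbabilityMeasure (edgeLaw θ μ) := isProb_edge h0 h1
    have h := xx_conv_le i2 i3 (hc.edge h0 h1 hb) (hb.edge h0 h1)
    rw [xx_edge h0 h1 hb] at h
    simp only [measure_univ, ENNReal.toReal_one, one_mul] at h
    have e : xx (stepLaw θ μy μ (m + 1)) = xx (stepLaw θ μy μ m ∗ edgeLaw θ μ) := rfl
    have h2 := mul_nonneg (xx_nonneg (stepLaw θ μy μ m))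
      (mul_nonneg (sq_nonneg θ) (xx_nonneg μ))
    rw [e]
    push_cast
    linarith

theorem pow_lower {u : ℝ} (hu : 0 ≤ u) (b : ℕ) (hb : 2 ≤ b) (hbu : b * u ≤ 1) :
    (1 - b * u / 2) ^ 2 ≤ (1 - u) ^ b := by
  induction b, hb using Nat.le_induction with
  | base => 
    have : (1 - ((2 : ℕ) : ℝ) * u / 2) = 1 - u := by push_cast; ring
    rw [this]
  | succ b hb ih =>
    push_cast at hbu ⊢
    have hb' : (2 : ℝ) ≤ b := by exact_mod_cast hb
    have h1 : (b : ℝ) * u ≤ 1 := by nlinarith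
    have h2 := ih h1
    have hu1 : 0 ≤ 1 - u := by nlinarith
    rw [pow_succ (1 - u) b]
    have h3 := mul_le_mul_of_nonneg_right h2 hu1
    refine le_trans ?_ h3
    have h4 : u ≤ b * u / 2 := by nlinarith
    have h5 : (b : ℝ) * u / 2 ≤ 1 / 2 := by linarith
    nlinarith [mul_nonneg hu (mul_nonneg (by positivity : 0 ≤ (b : ℝ) * u / 2)
      (by linarith : 0 ≤ 1 - (b : ℝ) * u / 2)), mul_nonneg hu hu,
      mul_nonneg hu (by linarith : 0 ≤ b * u / 2 - u)]

theorem xx_msg_le_sqrt (h0 : 0 ≤ θ) (h1 : θ < 1) {b : ℕ} (hb2 : 2 ≤ b) (hbθ : b * θ ^ 2 ≤ 1)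
    (hcy : Cons μy) (hby : BddSupp μy) (hτ : 6 * xx μy ≤ 1) (n : ℕ) :
    xx (msgLaw θ μy b n) ≤ √(6 * xx μy) := by
  have hτ0 := xx_nonneg μy
  set s := √(6 * xx μy) with hs
  have hs0 : 0 ≤ s := Real.sqrt_nonneg _
  have hs2 : s ^ 2 = 6 * xx μy := Real.sq_sqrt (by linarith)
  have hs1 : s ≤ 1 := by
    rw [hs]
    exact Real.sqrt_le_one.2 hτ
  induction n with
  | zero =>
    show xx μy ≤ s
    nlinarith
  | succ n ih =>
    obtain ⟨i1, i2, i3⟩ := msgLaw_props h0 h1 hcy hby b n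
    have hx0 := xx_nonneg (msgLaw θ μy b n)
    have hb0 : (2 : ℝ) ≤ b := by exact_mod_cast hb2
    set x := xx (msgLaw θ μy b n) with hx
    have h := one_sub_xx_step h0 h1 hcy hby i2 i3 b
    rw [← hx] at h
    have hbu : (b : ℝ) * (θ ^ 2 * x) ≤ x := by nlinarith
    have hbu1 : (b : ℝ) * (θ ^ 2 * x) ≤ 1 := by linarith
    have h2 := pow_lower (u := θ ^ 2 * x) (by positivity) b hb2 hbu1
    have h3 : (1 - s / 2) ^ 2 ≤ (1 - b * (θ ^ 2 * x) / 2) ^ 2 := by
      apply pow_le_pow_left₀ <;> linarith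
    have h4 : (1 - xx μy) * (1 - s / 2) ^ 2 ≤ (1 - xx μy) * (1 - θ ^ 2 * x) ^ b :=
      mul_le_mul_of_nonneg_left (h3.trans h2) (by linarith)
    have h5 : 1 - s ≤ (1 - xx μy) * (1 - s / 2) ^ 2 := by
      have : xx μy = s ^ 2 / 6 := by linarith
      rw [this]
      nlinarith [pow_nonneg hs0 2, pow_nonneg hs0 3, pow_nonneg hs0 4,
        mul_nonneg (pow_nonneg hs0 3) (by linarith : 0 ≤ 1 - s)]
    have e : xx (msgLaw θ μy b (n + 1)) = xx (stepLaw θ μy (msgLaw θ μy b n) b) := rfl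
    rw [e]
    linarith

theorem xx_step_msg_le (h0 : 0 ≤ θ) (h1 : θ < 1) {b : ℕ} (hb2 : 2 ≤ b) (hbθ : b * θ ^ 2 ≤ 1)
    (hcy : Cons μy) (hby : BddSupp μy) (hτ : 6 * xx μy ≤ 1) (n m : ℕ) :
    xx (stepLaw θ μy (msgLaw θ μy b n) m) ≤ xx μy + m * θ ^ 2 * √(6 * xx μy) := by
  obtain ⟨i1, i2, i3⟩ := msgLaw_props h0 h1 hcy hby b n
  refine (xx_step_le h0 h1 hcy hby i2 i3 m).trans ?_
  have h2 := xx_msg_le_sqrt h0 h1 hb2 hbθ hcy hby hτ n
  have h3 : (0 : ℝ) ≤ m * θ ^ 2 := by positivity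
  nlinarith [mul_le_mul_of_nonneg_left h2 h3]

/-! ### (S4) lower bounds -/

theorem le_xx_step (h0 : 0 ≤ θ) (h1 : θ < 1) (hcy : Cons μy) (hby : BddSupp μy)
    (hc : Cons μ) (hb : BddSupp μ) (m : ℕ) :
    xx μy + m * θ ^ 2 * xx μ - 2 * m * θ ^ 2 * xx μ * (xx μy + m * θ ^ 2 * xx μ) ≤
      xx (stepLaw θ μy μ m) := by
  have hy0 := xx_nonneg μy
  have hx0 := mul_nonneg (sq_nonneg θ) (xx_nonneg μ)
  induction m with
  | zero => simp [stepLaw]
  | succ m ih =>
    obtain ⟨i1, i2, i3⟩ := stepLaw_props h0 h1 hcy hby hc hb m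
    have i4 : IsProbabilityMeasure (edgeLaw θ μ) := isProb_edge h0 h1
    have h := le_xx_conv i2 i3 (hc.edge h0 h1 hb) (hb.edge h0 h1)
    rw [xx_edge h0 h1 hb] at h
    simp only [measure_univ, ENNReal.toReal_one, one_mul] at h
    have e : xx (stepLaw θ μy μ (m + 1)) = xx (stepLaw θ μy μ m ∗ edgeLaw θ μ) := rfl
    have hup := xx_step_le h0 h1 hcy hby hc hb m
    rw [e]
    push_cast
    have hm : (0 : ℝ) ≤ m := by positivity
    nlinarith [mul_le_mul_of_nonneg_right hup hx0, mul_nonneg hx0 hx0, mul_nonneg hm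
      (mul_nonneg hx0 hx0)]

theorem le_xx_msg_succ (h0 : 0 ≤ θ) (h1 : θ < 1) (hcy : Cons μy) (hby : BddSupp μy) (b n : ℕ) :
    xx μy + b * θ ^ 2 * xx (msgLaw θ μy b n) - 2 * b * θ ^ 2 * xx (msgLaw θ μy b n) *
      (xx μy + b * θ ^ 2 * xx (msgLaw θ μy b n)) ≤ xx (msgLaw θ μy b (n + 1)) := by
  obtain ⟨i1, i2, i3⟩ := msgLaw_props h0 h1 hcy hby b n
  exact le_xx_step h0 h1 hcy hby i2 i3 b

theorem xx_step_mono (h0 : 0 ≤ θ) (h1 : θ < 1) (hcy : Cons μy) (hby : BddSupp μy)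
    (hc : Cons μ) (hb : BddSupp μ) (m : ℕ) :
    xx (stepLaw θ μy μ m) ≤ xx (stepLaw θ μy μ (m + 1)) := by
  obtain ⟨i1, i2, i3⟩ := stepLaw_props h0 h1 hcy hby hc hb m
  have i4 : IsProbabilityMeasure (edgeLaw θ μ) := isProb_edge h0 h1
  have h := le_xx_conv_fst i2 i3 (hc.edge h0 h1 hb) (hb.edge h0 h1)
  simp only [measure_univ, ENNReal.toReal_one, one_mul] at h
  exact h

theorem xx_self_le_step (h0 : 0 ≤ θ) (h1 : θ < 1) (hcy : Cons μy) (hby : BddSupp μy)
    (hc : Cons μ) (hb : BddSupp μ) (m : ℕ) : xx μy ≤ xx (stepLaw θ μy μ m) := by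
  induction m with
  | zero => exact le_rfl
  | succ m ih => exact ih.trans (xx_step_mono h0 h1 hcy hby hc hb m)

theorem sq_mul_xx_le_step (h0 : 0 ≤ θ) (h1 : θ < 1) (hcy : Cons μy) (hby : BddSupp μy)
    (hc : Cons μ) (hb : BddSupp μ) {m : ℕ} (hm : 1 ≤ m) :
    θ ^ 2 * xx μ ≤ xx (stepLaw θ μy μ m) := by
  obtain ⟨k, rfl⟩ : ∃ k, m = k + 1 := ⟨m - 1, by omega⟩
  obtain ⟨i1, i2, i3⟩ := stepLaw_props h0 h1 hcy hby hc hb k
  have i4 : IsProbabilityMeasure (edgeLaw θ μ) := isProb_edge h0 h1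
  have h := le_xx_conv_snd i2 i3 (hc.edge h0 h1 hb) (hb.edge h0 h1)
  simp only [measure_univ, ENNReal.toReal_one, one_mul] at h
  rw [xx_edge h0 h1 hb] at h
  exact h

end S3

/-! ### (S5) exponential moments -/

section S5

variable {θ : ℝ}

theorem rr_phi_le (h0 : 0 ≤ θ) (h1 : θ < 1) (l h : ℝ) :
    rr (l * phi θ h) ≤ θ ^ 4 * rr (l * h) := by
  have e : rr (l * phi θ h) ≤ rr (θ * (l * h)) := by
    apply abs_le_rr_mono
    rw [abs_mul, abs_mul, abs_mul, abs_of_nonneg h0]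
    have := abs_phi_le h0 h1 h
    nlinarith [abs_nonneg l, mul_le_mul_of_nonneg_left this (abs_nonneg l)]
  exact e.trans (rr_mul_le h0 h1.le _)

theorem cosh_phi_le (h0 : 0 ≤ θ) (h1 : θ < 1) (l h : ℝ) :
    Real.cosh (l * phi θ h) ≤
      1 + l ^ 2 * (θ / (1 - θ)) ^ 2 / 2 * Real.tanh h ^ 2 + θ ^ 4 * rr (l * h) := by
  have h2 := rr_phi_le h0 h1 l h
  have h3 : Real.cosh (l * phi θ h) = 1 + (l * phi θ h) ^ 2 / 2 + rr (l * phi θ h) := by
    unfold rr; ring
  have h4 := abs_phi_le_tanh h0 h1 h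
  have h5 : (phi θ h) ^ 2 ≤ (θ / (1 - θ)) ^ 2 * Real.tanh h ^ 2 := by
    rw [← mul_pow]
    apply sq_le_sq.2
    rw [abs_mul, abs_of_nonneg (div_nonneg h0 (by linarith))]
    exact h4
  have h6 : (l * phi θ h) ^ 2 ≤ l ^ 2 * ((θ / (1 - θ)) ^ 2 * Real.tanh h ^ 2) := by
    rw [mul_pow]
    exact mul_le_mul_of_nonneg_left h5 (sq_nonneg l)
  rw [h3]
  linarith

theorem sinh_phi_mul_tanh_le_of_nonneg (h0 : 0 ≤ θ) (h1 : θ < 1) {l : ℝ} (hl : 0 < l) {h : ℝ}
    (hh : 0 ≤ h) : Real.sinh (l * phi θ h) * Real.tanh h ≤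
      l * (θ / (1 - θ)) * Real.tanh h ^ 2 + 1 / (1 - θ) / l * rr (l * h) := by
  have hp := phi_nonneg h0 hh
  have ht := tanh_nonneg_iff.2 hh
  have hth : Real.tanh h ≤ h := by
    have := abs_tanh_le h
    rwa [abs_of_nonneg ht, abs_of_nonneg hh] at this
  have hphi : phi θ h ≤ θ * h := by
    have := abs_phi_le h0 h1 h
    rwa [abs_of_nonneg hp, abs_of_nonneg hh] at this
  have hlp : 0 ≤ l * phi θ h := mul_nonneg hl.le hp
  have h2 : Real.sinh (l * phi θ h) - l * phi θ h ≤ Real.sinh (θ * (l * h)) - θ * (l * h) := by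
    apply sinh_sub_mono hlp
    nlinarith
  have h3 := sinh_sub_nonneg hlp
  have h4 : (Real.sinh (l * phi θ h) - l * phi θ h) * Real.tanh h ≤
      (Real.sinh (θ * (l * h)) - θ * (l * h)) * h :=
    mul_le_mul h2 hth ht (h3.trans h2)
  have h5 := mul_sinh_sub_le h0 h1 (mul_nonneg hl.le hh)
  have h6 : (Real.sinh (θ * (l * h)) - θ * (l * h)) * h =
      1 / l * (l * h * (Real.sinh (θ * (l * h)) - θ * (l * h))) := by
    field_simp
  have h7 : 1 / l * (l * h * (Real.sinh (θ * (l * h)) - θ * (l * h))) ≤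
      1 / l * (1 / (1 - θ) * rr (l * h)) := mul_le_mul_of_nonneg_left h5 (by positivity)
  have h8 : l * phi θ h * Real.tanh h ≤ l * (θ / (1 - θ)) * Real.tanh h ^ 2 := by
    have := phi_le_of_nonneg h0 h1 hh
    calc l * phi θ h * Real.tanh h = l * Real.tanh h * phi θ h := by ring
      _ ≤ l * Real.tanh h * (θ / (1 - θ) * Real.tanh h) :=
          mul_le_mul_of_nonneg_left this (mul_nonneg hl.le ht)
      _ = _ := by ring
  have h9 : 1 / (1 - θ) / l * rr (l * h) = 1 / l * (1 / (1 - θ) * rr (l * h)) := by ring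
  rw [h9]
  have h10 : Real.sinh (l * phi θ h) * Real.tanh h =
      l * phi θ h * Real.tanh h + (Real.sinh (l * phi θ h) - l * phi θ h) * Real.tanh h := by
    ring
  rw [h10]
  linarith

theorem sinh_phi_mul_tanh_le (h0 : 0 ≤ θ) (h1 : θ < 1) {l : ℝ} (hl : 0 < l) (h : ℝ) :
    Real.sinh (l * phi θ h) * Real.tanh h ≤
      l * (θ / (1 - θ)) * Real.tanh h ^ 2 + 1 / (1 - θ) / l * rr (l * h) := by
  rcases le_total 0 h with hh | hh
  · exact sinh_phi_mul_tanh_le_of_nonneg h0 h1 hl hh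
  · have := sinh_phi_mul_tanh_le_of_nonneg h0 h1 hl (h := -h) (by linarith)
    rw [phi_neg h0 h1, Real.tanh_neg] at this
    rw [show l * -phi θ h = -(l * phi θ h) by ring, Real.sinh_neg,
      show l * -h = -(l * h) by ring, rr_neg] at this
    linarith

theorem continuous_rr : Continuous rr := by
  unfold rr
  exact (Real.continuous_cosh.sub continuous_const).sub ((continuous_id.pow 2).div_const 2)

theorem LB.rr_mul (l : ℝ) : LB (fun h => rr (l * h)) :=
  LB.of_continuous (continuous_rr.comp (continuous_const.mul continuous_id))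

theorem LB.cosh_mul (l : ℝ) : LB (fun h => Real.cosh (l * h)) :=
  LB.of_continuous (Real.continuous_cosh.comp (continuous_const.mul continuous_id))

theorem LB.sinh_mul (l : ℝ) : LB (fun h => Real.sinh (l * h)) :=
  LB.of_continuous (Real.continuous_sinh.comp (continuous_const.mul continuous_id))

theorem LB.add {f g : ℝ → ℝ} (hf : LB f) (hg : LB g) : LB (fun x => f x + g x) := by
  refine ⟨hf.1.add hg.1, fun B => ?_⟩
  obtain ⟨C, hC⟩ := hf.2 B
  obtain ⟨D, hD⟩ := hg.2 B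
  exact ⟨C + D, fun x hx => (abs_add_le _ _).trans (add_le_add (hC x hx) (hD x hx))⟩

theorem LB.const (c : ℝ) : LB (fun _ => c) := LB.of_continuous continuous_const

theorem edge_exp_le (h0 : 0 ≤ θ) (h1 : θ < 1) {l : ℝ} (hl : 0 < l) {μ : Measure ℝ}
    [IsProbabilityMeasure μ] (hc : Cons μ) (hb : BddSupp μ) :
    ∫ h, Real.exp (l * h) ∂(edgeLaw θ μ) ≤
      1 + (l ^ 2 * (θ / (1 - θ)) ^ 2 / 2 + θ * (l * (θ / (1 - θ)))) * xx μ +
        (θ ^ 4 + θ * (1 / (1 - θ) / l)) * ∫ h, rr (l * h) ∂μ := by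
  rw [integral_edge h0 h1 hb (LB.exp l)]
  have i1 := ((LB.exp l).comp_phi h0 h1).integrable hb
  have i2 := ((LB.exp l).neg_arg.comp_phi h0 h1).integrable hb
  have ic := ((LB.cosh_mul l).comp_phi h0 h1).integrable hb
  have is := ((LB.sinh_mul l).comp_phi h0 h1)
  have ist := (is.mul LB.tanh).integrable hb
  have e1 : (1 + θ) / 2 * ∫ x, Real.exp (l * phi θ x) ∂μ +
      (1 - θ) / 2 * ∫ x, Real.exp (l * - phi θ x) ∂μ =
      ∫ x, Real.cosh (l * phi θ x) ∂μ + θ * ∫ x, Real.sinh (l * phi θ x) ∂μ := by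
    rw [← integral_const_mul, ← integral_const_mul, ← integral_const_mul,
      ← integral_add (i1.const_mul _) (i2.const_mul _),
      ← integral_add ic ((is.integrable hb).const_mul _)]
    congr 1
    ext x
    rw [Real.cosh_eq, Real.sinh_eq, show l * - phi θ x = -(l * phi θ x) by ring]
    ring
  have e2 : ∫ x, Real.sinh (l * phi θ x) ∂μ = ∫ x, Real.sinh (l * phi θ x) * Real.tanh x ∂μ := by
    apply hc.integral_odd hb is
    intro x
    rw [phi_neg h0 h1, show l * - phi θ x = -(l * phi θ x) by ring, Real.sinh_neg]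
  rw [e1, e2]
  have j1 := LB.tanh_sq.integrable hb
  have j2 := (LB.rr_mul l).integrable hb
  have b1 : ∫ x, Real.cosh (l * phi θ x) ∂μ ≤
      1 + l ^ 2 * (θ / (1 - θ)) ^ 2 / 2 * xx μ + θ ^ 4 * ∫ h, rr (l * h) ∂μ := by
    have : ∫ x, (1 + l ^ 2 * (θ / (1 - θ)) ^ 2 / 2 * Real.tanh x ^ 2 + θ ^ 4 * rr (l * x)) ∂μ =
        1 + l ^ 2 * (θ / (1 - θ)) ^ 2 / 2 * xx μ + θ ^ 4 * ∫ h, rr (l * h) ∂μ := by
      have k1 : Integrable (fun x => 1 + l ^ 2 * (θ / (1 - θ)) ^ 2 / 2 * Real.tanh x ^ 2) μ :=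
        (integrable_const _).add (j1.const_mul _)
      rw [integral_add k1 (j2.const_mul _),
        integral_add (integrable_const _) (j1.const_mul _), integral_const_mul,
        integral_const_mul]
      simp [xx]
    rw [← this]
    apply integral_mono ic
    · exact ((integrable_const _).add (j1.const_mul _)).add (j2.const_mul _)
    · intro x
      exact cosh_phi_le h0 h1 l x
  have b2 : ∫ x, Real.sinh (l * phi θ x) * Real.tanh x ∂μ ≤
      l * (θ / (1 - θ)) * xx μ + 1 / (1 - θ) / l * ∫ h, rr (l * h) ∂μ := by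
    have : ∫ x, (l * (θ / (1 - θ)) * Real.tanh x ^ 2 + 1 / (1 - θ) / l * rr (l * x)) ∂μ =
        l * (θ / (1 - θ)) * xx μ + 1 / (1 - θ) / l * ∫ h, rr (l * h) ∂μ := by
      rw [integral_add (j1.const_mul _) (j2.const_mul _), integral_const_mul,
        integral_const_mul]
      rfl
    rw [← this]
    apply integral_mono ist
    · exact (j1.const_mul _).add (j2.const_mul _)
    · intro x
      exact sinh_phi_mul_tanh_le h0 h1 hl x
  have b3 := mul_le_mul_of_nonneg_left b2 h0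
  linarith

theorem integral_exp_conv {α β : Measure ℝ} [IsFiniteMeasure α] [IsFiniteMeasure β] (l : ℝ) :
    ∫ h, Real.exp (l * h) ∂(α ∗ β) =
      (∫ h, Real.exp (l * h) ∂α) * ∫ h, Real.exp (l * h) ∂β := by
  rw [integral_conv_LB (LB.exp l), ← integral_prod_mul]
  congr 1
  ext p
  rw [← Real.exp_add]
  congr 1
  ring

theorem integral_exp_step (h0 : 0 ≤ θ) (h1 : θ < 1) {μy μ : Measure ℝ} [IsProbabilityMeasure μy]
    [IsProbabilityMeasure μ] (hcy : Cons μy) (hby : BddSupp μy) (hc : Cons μ) (hb : BddSupp μ)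
    (l : ℝ) (m : ℕ) :
    ∫ h, Real.exp (l * h) ∂(stepLaw θ μy μ m) =
      (∫ h, Real.exp (l * h) ∂μy) * (∫ h, Real.exp (l * h) ∂(edgeLaw θ μ)) ^ m := by
  induction m with
  | zero => simp [stepLaw]
  | succ m ih =>
    obtain ⟨i1, i2, i3⟩ := stepLaw_props h0 h1 hcy hby hc hb m
    have i4 : IsProbabilityMeasure (edgeLaw θ μ) := isProb_edge h0 h1
    have e : stepLaw θ μy μ (m + 1) = stepLaw θ μy μ m ∗ edgeLaw θ μ := rfl
    rw [e, integral_exp_conv, ih, pow_succ]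
    ring

theorem integral_cosh_le_exp {μ : Measure ℝ} [IsFiniteMeasure μ] (hc : Cons μ) (hb : BddSupp μ)
    {l : ℝ} (hl : 0 ≤ l) : ∫ h, Real.cosh (l * h) ∂μ ≤ ∫ h, Real.exp (l * h) ∂μ := by
  have e : ∫ h, Real.exp (l * h) ∂μ =
      ∫ h, Real.cosh (l * h) ∂μ + ∫ h, Real.sinh (l * h) ∂μ := by
    rw [← integral_add ((LB.cosh_mul l).integrable hb) ((LB.sinh_mul l).integrable hb)]
    congr 1
    ext x
    rw [Real.cosh_add_sinh]
  have e2 : ∫ x, Real.sinh (l * x) ∂μ = ∫ x, Real.sinh (l * x) * Real.tanh x ∂μ := by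
    apply hc.integral_odd hb (LB.sinh_mul l)
    intro x
    rw [show l * - x = -(l * x) by ring, Real.sinh_neg]
  have e3 : 0 ≤ ∫ x, Real.sinh (l * x) * Real.tanh x ∂μ := by
    apply integral_nonneg
    intro x
    simp only [Pi.zero_apply]
    rcases le_total 0 x with hx | hx
    · exact mul_nonneg (Real.sinh_nonneg_iff.2 (mul_nonneg hl hx)) (tanh_nonneg_iff.2 hx)
    · apply mul_nonneg_of_nonpos_of_nonpos
      · exact Real.sinh_nonpos_iff.2 (mul_nonpos_of_nonneg_of_nonpos hl hx)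
      · have := tanh_nonneg_iff.2 (show 0 ≤ -x by linarith)
        rw [Real.tanh_neg] at this
        linarith
  rw [e, e2]
  linarith

theorem integral_rr_le {μ : Measure ℝ} [IsProbabilityMeasure μ] (hb : BddSupp μ) (l : ℝ) :
    ∫ h, rr (l * h) ∂μ ≤ ∫ h, Real.cosh (l * h) ∂μ - 1 := by
  have e : ∫ h, (Real.cosh (l * h) - 1) ∂μ = ∫ h, Real.cosh (l * h) ∂μ - 1 := by
    rw [integral_sub ((LB.cosh_mul l).integrable hb) (integrable_const _)]
    simp
  rw [← e]
  apply integral_mono ((LB.rr_mul l).integrable hb)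
  · exact ((LB.cosh_mul l).integrable hb).sub (integrable_const _)
  · intro x
    simp only [rr]
    nlinarith [sq_nonneg (l * x)]

/-- (S5), quantitative form. -/
theorem exp_moment_strong (h0 : 0 ≤ θ) (h1 : θ < 1) {b : ℕ} (hb2 : 2 ≤ b)
    (hbθ : b * θ ^ 2 ≤ 1) (C1 : ℝ) :
    ∃ G : ℝ, 0 ≤ G ∧ ∃ c0 : ℝ, 0 < c0 ∧ ∃ l0 : ℝ, 1 ≤ l0 ∧
      ∀ (μy : Measure ℝ), IsProbabilityMeasure μy → Cons μy → BddSupp μy →
        ∀ l : ℝ, l0 ≤ l → l ^ 4 * xx μy ≤ c0 →
          ∫ h, Real.exp (l * h) ∂μy ≤ 1 + C1 * l ^ 2 * xx μy →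
          G * (l ^ 2 * √(xx μy)) ≤ 1 / 18 ∧
          ∀ n, ∫ h, Real.cosh (l * h) ∂(msgLaw θ μy b n) ≤ 1 + 8 * (G * (l ^ 2 * √(xx μy))) := by
  set K : ℝ := θ / (1 - θ) with hK
  have h1' : 0 < 1 - θ := by linarith
  have hK0 : 0 ≤ K := div_nonneg h0 h1'.le
  set A : ℝ := max C1 0 with hA
  have hA0 : 0 ≤ A := le_max_right _ _
  set G : ℝ := A + 3 * b * (K ^ 2 / 2 + K) with hG
  have hbpos : (2 : ℝ) ≤ b := by exact_mod_cast hb2
  have hG0 : 0 ≤ G := by positivity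
  set c0 : ℝ := min (1 / 6) ((1 / (18 * (G + 1))) ^ 2) with hc0
  have hc0pos : 0 < c0 := by
    rw [hc0]
    apply lt_min (by norm_num)
    positivity
  refine ⟨G, hG0, c0, hc0pos, max 1 (8 * b * (1 / (1 - θ))), le_max_left _ _, ?_⟩
  intro μy hprob hcy hby l hl hlc hexp
  have hl1 : 1 ≤ l := (le_max_left _ _).trans hl
  have hl2 : 8 * b * (1 / (1 - θ)) ≤ l := (le_max_right _ _).trans hl
  have hl0 : 0 < l := by linarith
  set τ := xx μy with hτ
  have hτ0 : 0 ≤ τ := xx_nonneg μy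
  have hl4 : 1 ≤ l ^ 4 := one_le_pow₀ hl1
  have hτ6 : 6 * τ ≤ 1 := by
    have : l ^ 4 * τ ≤ 1 / 6 := hlc.trans (min_le_left _ _)
    nlinarith
  set s := √τ with hs
  have hs0 : 0 ≤ s := Real.sqrt_nonneg _
  have hs2 : s ^ 2 = τ := Real.sq_sqrt hτ0
  have hs1 : s ≤ 1 := by
    rw [hs]; exact Real.sqrt_le_one.2 (by linarith)
  have hτs : τ ≤ s := by nlinarith
  set σ := l ^ 2 * s with hσ
  have hσ0 : 0 ≤ σ := by positivity
  have hσle : σ ≤ 1 / (18 * (G + 1)) := by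
    have h2 : σ ^ 2 ≤ (1 / (18 * (G + 1))) ^ 2 := by
      calc σ ^ 2 = l ^ 4 * τ := by rw [hσ, mul_pow, hs2]; ring
        _ ≤ c0 := hlc
        _ ≤ _ := min_le_right _ _
    exact (sq_le_sq₀ hσ0 (by positivity)).1 h2
  have hw : G * σ ≤ 1 / 18 := by
    calc G * σ ≤ (G + 1) * (1 / (18 * (G + 1))) := by
          apply mul_le_mul _ hσle hσ0 (by linarith)
          linarith
      _ = 1 / 18 := by field_simp
  refine ⟨hw, ?_⟩
  set w := G * σ with hwdef
  have hw0 : 0 ≤ w := mul_nonneg hG0 hσ0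
  have hsqrt6 : √(6 * τ) ≤ 3 * s := by
    rw [show 6 * τ = 6 * s ^ 2 by rw [hs2]]
    rw [Real.sqrt_le_left (by positivity)]
    nlinarith
  have hexpw : Real.exp (6 * w) ≤ 1 + 8 * w := by
    have h6 : |6 * w| ≤ 1 := by
      rw [abs_of_nonneg (by positivity)]
      linarith
    have := Real.abs_exp_sub_one_sub_id_le h6
    have h7 := (abs_le.1 this).2
    nlinarith
  -- base bound on the own field
  have hbase : ∫ h, Real.exp (l * h) ∂μy ≤ 1 + A * σ := by
    refine hexp.trans ?_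
    have : C1 * l ^ 2 * τ ≤ A * σ := by
      calc C1 * l ^ 2 * τ ≤ A * l ^ 2 * τ := by
            apply mul_le_mul_of_nonneg_right _ hτ0
            exact mul_le_mul_of_nonneg_right (le_max_left _ _) (by positivity)
        _ ≤ A * l ^ 2 * s := mul_le_mul_of_nonneg_left hτs (by positivity)
        _ = A * σ := by rw [hσ]; ring
    linarith
  have hAw : A * σ ≤ w := by
    rw [hwdef, hG]
    have : 0 ≤ 3 * b * (K ^ 2 / 2 + K) * σ := by positivity
    nlinarith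
  intro n
  induction n with
  | zero =>
    have h2 := integral_cosh_le_exp hcy hby hl0.le
    show ∫ h, Real.cosh (l * h) ∂μy ≤ _
    linarith
  | succ n ih =>
    obtain ⟨i1, i2, i3⟩ := msgLaw_props h0 h1 hcy hby b n
    obtain ⟨j1, j2, j3⟩ := msgLaw_props h0 h1 hcy hby b (n + 1)
    have h2 := integral_cosh_le_exp j2 j3 hl0.le
    refine h2.trans ?_
    have e : msgLaw θ μy b (n + 1) = stepLaw θ μy (msgLaw θ μy b n) b := rfl
    rw [e, integral_exp_step h0 h1 hcy hby i2 i3]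
    have hx := xx_msg_le_sqrt h0 h1 hb2 hbθ hcy hby hτ6 n
    set x := xx (msgLaw θ μy b n) with hxdef
    have hx0 : 0 ≤ x := xx_nonneg _
    have hx3 : x ≤ 3 * s := hx.trans hsqrt6
    have hρ := integral_rr_le i3 l
    set ρ := ∫ h, rr (l * h) ∂(msgLaw θ μy b n) with hρdef
    have hρ0 : 0 ≤ ρ := integral_nonneg fun _ => rr_nonneg _
    have hρw : ρ ≤ 8 * w := by linarith
    have hE := edge_exp_le h0 h1 hl0 i2 i3
    rw [← hxdef, ← hρdef, ← hK] at hE
    set y := (l ^ 2 * K ^ 2 / 2 + θ * (l * K)) * x + (θ ^ 4 + θ * (1 / (1 - θ) / l)) * ρ with hy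
    have hE' : ∫ h, Real.exp (l * h) ∂(edgeLaw θ (msgLaw θ μy b n)) ≤ 1 + y := by
      rw [hy]; linarith
    have hE0 : 0 ≤ ∫ h, Real.exp (l * h) ∂(edgeLaw θ (msgLaw θ μy b n)) :=
      integral_nonneg fun _ => (Real.exp_pos _).le
    have hEexp : ∫ h, Real.exp (l * h) ∂(edgeLaw θ (msgLaw θ μy b n)) ≤ Real.exp y := by
      have := Real.add_one_le_exp y
      linarith
    have hpow : (∫ h, Real.exp (l * h) ∂(edgeLaw θ (msgLaw θ μy b n))) ^ b ≤
        Real.exp (b * y) := by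
      rw [Real.exp_nat_mul]
      exact pow_le_pow_left₀ hE0 hEexp b
    have hb1 : b * ((l ^ 2 * K ^ 2 / 2 + θ * (l * K)) * x) ≤ 3 * b * (K ^ 2 / 2 + K) * σ := by
      have q1 : l ^ 2 * K ^ 2 / 2 + θ * (l * K) ≤ l ^ 2 * (K ^ 2 / 2 + K) := by
        have : θ * (l * K) ≤ 1 * (l ^ 2 * K) := by
          apply mul_le_mul h1.le _ (by positivity) (by norm_num)
          apply mul_le_mul_of_nonneg_right _ hK0
          nlinarith
        linarith
      calc b * ((l ^ 2 * K ^ 2 / 2 + θ * (l * K)) * x)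
          ≤ b * ((l ^ 2 * (K ^ 2 / 2 + K)) * (3 * s)) := by
            apply mul_le_mul_of_nonneg_left _ (by positivity)
            exact mul_le_mul q1 hx3 hx0 (by positivity)
        _ = _ := by rw [hσ]; ring
    have hb2' : b * ((θ ^ 4 + θ * (1 / (1 - θ) / l)) * ρ) ≤ 5 / 8 * ρ := by
      have q1 : b * θ ^ 4 ≤ 1 / 2 := by
        have hθ2 : θ ^ 2 ≤ 1 / 2 := by nlinarith [sq_nonneg θ]
        have : b * θ ^ 4 = (b * θ ^ 2) * θ ^ 2 := by ring
        rw [this]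
        nlinarith [sq_nonneg θ]
      have q2 : b * (θ * (1 / (1 - θ) / l)) ≤ 1 / 8 := by
        have q3 : b * (1 / (1 - θ) / l) ≤ 1 / 8 := by
          rw [show b * (1 / (1 - θ) / l) = (b * (1 / (1 - θ))) / l by ring, div_le_iff₀ hl0]
          linarith
        calc b * (θ * (1 / (1 - θ) / l)) = θ * (b * (1 / (1 - θ) / l)) := by ring
          _ ≤ 1 * (b * (1 / (1 - θ) / l)) := by
              apply mul_le_mul_of_nonneg_right h1.le (by positivity)
          _ ≤ 1 / 8 := by linarith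
      calc b * ((θ ^ 4 + θ * (1 / (1 - θ) / l)) * ρ)
          = (b * θ ^ 4 + b * (θ * (1 / (1 - θ) / l))) * ρ := by ring
        _ ≤ (1 / 2 + 1 / 8) * ρ := by
            apply mul_le_mul_of_nonneg_right _ hρ0
            linarith
        _ = _ := by ring
    have hby' : b * y ≤ 3 * b * (K ^ 2 / 2 + K) * σ + 5 * w := by
      rw [hy, mul_add]
      linarith
    calc (∫ h, Real.exp (l * h) ∂μy) *
          (∫ h, Real.exp (l * h) ∂(edgeLaw θ (msgLaw θ μy b n))) ^ b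
        ≤ Real.exp (A * σ) * Real.exp (b * y) := by
          apply mul_le_mul _ hpow (pow_nonneg hE0 b) (Real.exp_pos _).le
          have := Real.add_one_le_exp (A * σ)
          linarith
      _ = Real.exp (A * σ + b * y) := by rw [Real.exp_add]
      _ ≤ Real.exp (6 * w) := by
          apply Real.exp_le_exp.2
          have : w = A * σ + 3 * b * (K ^ 2 / 2 + K) * σ := by rw [hwdef, hG]; ring
          linarith
      _ ≤ 1 + 8 * w := hexpw

/-- (S5). -/
theorem exp_moment (h0 : 0 ≤ θ) (h1 : θ < 1) {b : ℕ} (hb2 : 2 ≤ b)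
    (hbθ : b * θ ^ 2 ≤ 1) (C1 : ℝ) :
    ∃ c0 : ℝ, 0 < c0 ∧ ∃ l0 : ℝ, 1 ≤ l0 ∧
      ∀ (μy : Measure ℝ), IsProbabilityMeasure μy → Cons μy → BddSupp μy →
        ∀ l : ℝ, l0 ≤ l → l ^ 4 * xx μy ≤ c0 →
          ∫ h, Real.exp (l * h) ∂μy ≤ 1 + C1 * l ^ 2 * xx μy →
          ∀ n, ∫ h, Real.cosh (l * h) ∂(msgLaw θ μy b n) ≤ 2 := by
  obtain ⟨G, hG, c0, hc0, l0, hl0, H⟩ := exp_moment_strong h0 h1 hb2 hbθ C1
  refine ⟨c0, hc0, l0, hl0, ?_⟩
  intro μy hp hcy hby l hl hlc hexp n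
  obtain ⟨h2, h3⟩ := H μy hp hcy hby l hl hlc hexp
  refine (h3 n).trans ?_
  linarith

end S5

/-! ### (S6) damping -/

section S6

variable {θ : ℝ}

theorem LB.phid_sq (h0 : 0 ≤ θ) (h1 : θ < 1) : LB (fun h => phid θ h ^ 2) :=
  LB.of_continuous ((continuous_phid h0 h1).pow 2)

theorem phid_sq_le_one (h0 : 0 ≤ θ) (h1 : θ < 1) (h : ℝ) : phid θ h ^ 2 ≤ 1 := by
  have a1 := phid_le h0 h1 h
  have a2 := phid_nonneg h0 h1 h
  nlinarith

theorem damping (h0 : 0 ≤ θ) (h1 : θ < 1) {μs ρ : Measure ℝ} [IsProbabilityMeasure μs]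
    [IsFiniteMeasure ρ] (hcs : Cons μs) (hbs : BddSupp μs) (hc : Cons ρ) (hb : BddSupp ρ) :
    ∫ h, phid θ h ^ 2 ∂(μs ∗ edgeLaw θ ρ) ≤
      θ ^ 2 * (1 - (1 - θ ^ 2) * xx μs) * (ρ univ).toReal := by
  have c1 := hc.edge h0 h1 hb
  have b1 := hb.edge h0 h1
  have hB := hbs.conv b1
  have h := le_xx_conv_fst hcs hbs c1 b1
  rw [edgeLaw_univ h0 h1] at h
  have i1 := LB.tanh_sq.integrable hB
  have e : ∫ h, (θ ^ 2 * (1 - (1 - θ ^ 2) * Real.tanh h ^ 2)) ∂(μs ∗ edgeLaw θ ρ) =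
      θ ^ 2 * ((ρ univ).toReal - (1 - θ ^ 2) * xx (μs ∗ edgeLaw θ ρ)) := by
    rw [integral_const_mul, integral_sub (integrable_const _) (i1.const_mul _),
      integral_const_mul, integral_const]
    simp only [Measure.real, conv_univ, measure_univ, one_mul, edgeLaw_univ h0 h1, smul_eq_mul,
      mul_one, xx]
  calc ∫ h, phid θ h ^ 2 ∂(μs ∗ edgeLaw θ ρ)
      ≤ ∫ h, (θ ^ 2 * (1 - (1 - θ ^ 2) * Real.tanh h ^ 2)) ∂(μs ∗ edgeLaw θ ρ) := by
        apply integral_mono ((LB.phid_sq h0 h1).integrable hB)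
        · exact ((integrable_const _).sub (i1.const_mul _)).const_mul _
        · intro x
          exact phid_sq_le h0 h1 x
    _ = θ ^ 2 * ((ρ univ).toReal - (1 - θ ^ 2) * xx (μs ∗ edgeLaw θ ρ)) := e
    _ ≤ θ ^ 2 * ((ρ univ).toReal - (1 - θ ^ 2) * ((ρ univ).toReal * xx μs)) := by
        apply mul_le_mul_of_nonneg_left _ (sq_nonneg θ)
        have : 0 ≤ 1 - θ ^ 2 := by nlinarith
        have := mul_le_mul_of_nonneg_left h this
        linarith
    _ = _ := by ring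

/-- the weighted law of (S6). -/
noncomputable def dampLaw (θ : ℝ) (μs ρ : Measure ℝ) : Measure ℝ :=
  (μs ∗ edgeLaw θ ρ).withDensity fun h => ENNReal.ofReal (phid θ h ^ 2)

theorem dampLaw_props (h0 : 0 ≤ θ) (h1 : θ < 1) {μs ρ : Measure ℝ} [IsFiniteMeasure μs]
    [IsFiniteMeasure ρ] (hcs : Cons μs) (hbs : BddSupp μs) (hc : Cons ρ) (hb : BddSupp ρ) :
    IsFiniteMeasure (dampLaw θ μs ρ) ∧ Cons (dampLaw θ μs ρ) ∧ BddSupp (dampLaw θ μs ρ) := by
  have c1 := hc.edge h0 h1 hb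
  have b1 := hb.edge h0 h1
  refine ⟨?_, ?_, ?_⟩
  · exact isFinite_withDensity ⟨1, fun x => phid_sq_le_one h0 h1 x⟩
  · exact (hcs.conv hbs c1 b1).withDensity (LB.phid_sq h0 h1).1 (fun _ => sq_nonneg _)
      (fun x => by rw [phid_neg]) ⟨1, fun x => phid_sq_le_one h0 h1 x⟩
  · exact (hbs.conv b1).withDensity

theorem dampLaw_univ (h0 : 0 ≤ θ) (h1 : θ < 1) {μs ρ : Measure ℝ} [IsFiniteMeasure μs]
    [IsFiniteMeasure ρ] :
    ((dampLaw θ μs ρ) univ).toReal = ∫ h, phid θ h ^ 2 ∂(μs ∗ edgeLaw θ ρ) :=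
  withDensity_univ_toReal (LB.phid_sq h0 h1).1 (fun _ => sq_nonneg _)
    ⟨1, fun x => phid_sq_le_one h0 h1 x⟩

theorem dampLaw_univ_le (h0 : 0 ≤ θ) (h1 : θ < 1) {μs ρ : Measure ℝ} [IsProbabilityMeasure μs]
    [IsFiniteMeasure ρ] (hcs : Cons μs) (hbs : BddSupp μs) (hc : Cons ρ) (hb : BddSupp ρ) :
    ((dampLaw θ μs ρ) univ).toReal ≤
      θ ^ 2 * (1 - (1 - θ ^ 2) * xx μs) * (ρ univ).toReal := by
  rw [dampLaw_univ h0 h1]
  exact damping h0 h1 hcs hbs hc hb

end S6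

end Crest.Agent.TI.Scal
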