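import Crest.Agent.TIPairDefs
import Crest.Agent.TIScalar
import Crest.Agent.TIBlock

/-!
Row 160 (S0241).  Facts on the law `muY k r` of the local fields.
-/

set_option autoImplicit false

namespace Crest.Agent.TI

open MeasureTheory ProbabilityTheory unitInterval Set Filter Topology
open scoped ENNReal

namespace Mu

/-! ### measurability -/

lemma measurable_amp : Measurable amp := by
  unfold amp
  exact Measurable.ite (measurableSet_lt measurable_subtype_coe measurable_const)
    (measurable_subtype_coe.div_const _) measurable_const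

lemma continuous_clamp : Continuous clamp := by
  unfold clamp; fun_prop

lemma measurable_artanh : Measurable Real.artanh := by
  unfold Real.artanh
  fun_prop

lemma measurable_ell : Measurable (fun q : I × I => ell q.1 q.2) := by
  unfold ell
  exact measurable_artanh.comp ((measurable_amp.comp measurable_fst).mul
    (measurable_const.sub (measurable_const.mul (measurable_subtype_coe.comp measurable_snd))))

lemma measurable_QK : Measurable (fun q : ℝ × I => QK q.1 q.2) := by
  unfold QK fK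
  have h1 : Measurable (fun q : ℝ × I => clamp q.1) := continuous_clamp.measurable.comp measurable_fst
  have h2 : Measurable (fun q : ℝ × I => (q.2 : ℝ)) := measurable_subtype_coe.comp measurable_snd
  exact continuous_projIcc.measurable.comp ((h2.const_mul 2).div
    ((measurable_const.add h1).add (((measurable_const.add h1).pow_const 2).sub
      ((h1.const_mul 4).mul h2)).sqrt))

/-- one observation: clock and noise to clock and observed label -/
noncomputable def ob (q : I × I) : I × I := (q.1, QK (amp q.1) q.2)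

lemma measurable_ob : Measurable ob :=
  measurable_fst.prodMk (measurable_QK.comp ((measurable_amp.comp measurable_fst).prodMk
    measurable_snd))

/-! ### the channel -/

lemma QK_eq (κ : ℝ) (h0 : 0 ≤ κ) (h1 : κ ≤ 1 / 4) (u : I) :
    QK κ u = FIID.Q ⟨4 * κ, by constructor <;> linarith⟩ u := by
  apply Subtype.ext
  have hcl : clamp κ = κ := clamp_of_abs_le (by rw [abs_of_nonneg h0]; exact h1)
  have h : fK (clamp κ) u = FIID.fR (4 * κ) u := by
    unfold fK FIID.fR
    rw [hcl]
    congr 2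
    · ring
    · congr 2; ring
  have hm : FIID.fR (4 * κ) u ∈ Icc (0 : ℝ) 1 :=
    FIID.fR_mem ⟨by linarith, by linarith⟩ u.2
  unfold QK
  rw [h]
  rw [projIcc_of_mem zero_le_one hm]
  rfl

lemma lintegral_QK_amp (c : I) (g : I → ℝ≥0∞) (hg : Measurable g) :
    ∫⁻ u, g (QK (amp c) u) = ∫⁻ z, g z * ENNReal.ofReal (1 + amp c * (1 - 2 * z)) := by
  simp_rw [QK_eq (amp c) (amp_nonneg c) (amp_le c)]
  rw [FIID.lintegral_Q _ g hg]
  refine lintegral_congr fun z => ?_
  congr 2
  unfold FIID.dens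
  simp only
  ring

lemma dens_nonneg (c z : I) : 0 ≤ 1 + amp c * (1 - 2 * (z : ℝ)) := by
  have h1 := amp_nonneg c
  have h2 := amp_le c
  have h3 := z.2.1
  have h4 := z.2.2
  nlinarith

lemma dens_le (c z : I) : 1 + amp c * (1 - 2 * (z : ℝ)) ≤ 2 := by
  have h1 := amp_nonneg c
  have h2 := amp_le c
  have h3 := z.2.1
  have h4 := z.2.2
  nlinarith

lemma measurable_dens : Measurable (fun q : I × I => 1 + amp q.1 * (1 - 2 * (q.2 : ℝ))) :=
  measurable_const.add ((measurable_amp.comp measurable_fst).mul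
    (measurable_const.sub ((measurable_subtype_coe.comp measurable_snd).const_mul 2)))

theorem map_ob : ((volume : Measure I).prod (volume : Measure I)).map ob =
    ((volume : Measure I).prod (volume : Measure I)).withDensity
      (fun q => ENNReal.ofReal (1 + amp q.1 * (1 - 2 * (q.2 : ℝ)))) := by
  refine Measure.ext_of_lintegral _ fun F hF => ?_
  rw [lintegral_map hF measurable_ob,
    lintegral_withDensity_eq_lintegral_mul _ measurable_dens.ennreal_ofReal hF]
  have hFo : Measurable (fun q : I × I => F (ob q)) := hF.comp measurable_ob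
  rw [lintegral_prod _ hFo.aemeasurable]
  have hm : Measurable (fun q : I × I =>
      ENNReal.ofReal (1 + amp q.1 * (1 - 2 * (q.2 : ℝ))) * F q) :=
    measurable_dens.ennreal_ofReal.mul hF
  simp only [Pi.mul_apply]
  rw [lintegral_prod _ hm.aemeasurable]
  refine lintegral_congr fun c => ?_
  have h := lintegral_QK_amp c (fun z => F (c, z)) (hF.comp (measurable_const.prodMk measurable_id))
  simp only [ob]
  rw [h]
  refine lintegral_congr fun z => ?_
  rw [mul_comm]

/-- integrals over one observation -/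
theorem integral_ob (F : I × I → ℝ) (hF : Measurable F) (hFb : ∃ C, ∀ q, |F q| ≤ C) :
    ∫ q, F (ob q) ∂((volume : Measure I).prod (volume : Measure I)) =
      ∫ c : I, ∫ z : I, F (c, z) * (1 + amp c * (1 - 2 * (z : ℝ))) := by
  obtain ⟨C, hC⟩ := hFb
  rw [← integral_map (f := F) measurable_ob.aemeasurable hF.aestronglyMeasurable, map_ob]
  rw [integral_withDensity_eq_integral_toReal_smul measurable_dens.ennreal_ofReal
    (Filter.Eventually.of_forall fun _ => ENNReal.ofReal_lt_top)]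
  have e1 : (fun q : I × I => (ENNReal.ofReal (1 + amp q.1 * (1 - 2 * (q.2 : ℝ)))).toReal • F q) =
      fun q : I × I => F q * (1 + amp q.1 * (1 - 2 * (q.2 : ℝ))) := by
    funext q
    rw [ENNReal.toReal_ofReal (dens_nonneg _ _), smul_eq_mul, mul_comm]
  rw [e1, integral_prod]
  refine Integrable.of_bound (hF.mul measurable_dens).aestronglyMeasurable (C * 2)
    (Filter.Eventually.of_forall fun q => ?_)
  rw [Real.norm_eq_abs, abs_mul, abs_of_nonneg (dens_nonneg _ _)]
  exact mul_le_mul (hC q) (dens_le _ _) (dens_nonneg _ _) ((abs_nonneg _).trans (hC q))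

/-! ### one observation -/

/-- contribution of one site observed before time `r` -/
noncomputable def obsR (r : ℝ) (q : I × I) : ℝ := if (q.1 : ℝ) < r then ell q.1 q.2 else 0

/-- its law -/
noncomputable def oneLaw (r : ℝ) : Measure ℝ :=
  ((volume : Measure I).prod (volume : Measure I)).map (fun q => obsR r (ob q))

lemma measurable_obsR (r : ℝ) : Measurable (obsR r) := by
  unfold obsR
  exact Measurable.ite (measurableSet_lt (measurable_subtype_coe.comp measurable_fst)
    measurable_const) measurable_ell measurable_const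

lemma measurable_obsR_ob (r : ℝ) : Measurable (fun q => obsR r (ob q)) :=
  (measurable_obsR r).comp measurable_ob

lemma arg_abs_le (c z : I) : |amp c * (1 - 2 * (z : ℝ))| ≤ 1 / 4 := by
  rw [abs_mul, abs_of_nonneg (amp_nonneg c)]
  have h : |1 - 2 * (z : ℝ)| ≤ 1 := by
    rw [abs_le]; constructor <;> linarith [z.2.1, z.2.2]
  calc amp c * |1 - 2 * (z : ℝ)| ≤ 1 / 4 * 1 := by
        have := amp_le c
        have := amp_nonneg c
        gcongr
    _ = 1 / 4 := by ring

lemma arg_mem (c z : I) : amp c * (1 - 2 * (z : ℝ)) ∈ Ioo (-1 : ℝ) 1 := by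
  have := abs_le.1 (arg_abs_le c z)
  constructor <;> linarith [this.1, this.2]

lemma tanh_ell (c z : I) : Real.tanh (ell c z) = amp c * (1 - 2 * (z : ℝ)) :=
  Real.tanh_artanh (arg_mem c z)

lemma exp_ell (c z : I) : Real.exp (-2 * ell c z) * (1 + amp c * (1 - 2 * (z : ℝ))) =
    1 - amp c * (1 - 2 * (z : ℝ)) := by
  have h := Scal.exp_neg_two_mul_eq (ell c z)
  rw [tanh_ell] at h
  rw [h]
  have h2 := (arg_mem c z).1
  have h3 : (1 + amp c * (1 - 2 * (z : ℝ))) ≠ 0 := by linarith
  field_simp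

lemma abs_artanh_le (x : ℝ) (hx : |x| ≤ 1 / 4) : |Real.artanh x| ≤ Real.artanh (1 / 4) := by
  have h := abs_le.1 hx
  rw [abs_le]
  constructor
  · have h1 : Real.artanh (-x) ≤ Real.artanh (1 / 4) :=
      Real.artanh_le_artanh (by linarith [h.2]) (by norm_num) (by linarith [h.1])
    have h2 : Real.artanh (-x) = - Real.artanh x := by
      have hx1 : x ∈ Ioo (-1 : ℝ) 1 := ⟨by linarith [h.1], by linarith [h.2]⟩
      have hx2 : -x ∈ Ioo (-1 : ℝ) 1 := ⟨by linarith [h.2], by linarith [h.1]⟩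
      have h3 : Real.tanh (- Real.artanh x) = -x := by rw [Real.tanh_neg, Real.tanh_artanh hx1]
      rw [← h3, Real.artanh_tanh]
    linarith
  · exact Real.artanh_le_artanh (by linarith [h.1]) (by norm_num) h.2

lemma abs_ell_le (c z : I) : |ell c z| ≤ Real.artanh (1 / 4) := abs_artanh_le _ (arg_abs_le c z)

lemma artanh_quarter_nonneg : 0 ≤ Real.artanh (1 / 4) := Real.artanh_nonneg (by norm_num)

lemma abs_obsR_le (r : ℝ) (q : I × I) : |obsR r q| ≤ Real.artanh (1 / 4) := by
  unfold obsR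
  split_ifs
  · exact abs_ell_le _ _
  · simpa using artanh_quarter_nonneg

lemma ell_symm (c z : I) : ell c (σ z) = - ell c z := by
  have h1 : amp c * (1 - 2 * ((σ z : I) : ℝ)) = - (amp c * (1 - 2 * (z : ℝ))) := by
    rw [coe_symm_eq]; ring
  have h2 : Real.tanh (- ell c z) = amp c * (1 - 2 * ((σ z : I) : ℝ)) := by
    rw [Real.tanh_neg, tanh_ell, h1]
  unfold ell at h2 ⊢
  rw [← h2, Real.artanh_tanh]

instance isProb_oneLaw (r : ℝ) : IsProbabilityMeasure (oneLaw r) :=
  Measure.isProbabilityMeasure_map (measurable_obsR_ob r).aemeasurable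

lemma bdd_oneLaw (r : ℝ) : ∀ᵐ h ∂(oneLaw r), |h| ≤ Real.artanh (1 / 4) := by
  unfold oneLaw
  have hms : MeasurableSet {h : ℝ | |h| ≤ Real.artanh (1 / 4)} :=
    measurableSet_le (measurable_norm (α := ℝ)) measurable_const
  rw [ae_map_iff (measurable_obsR_ob r).aemeasurable hms]
  exact Filter.Eventually.of_forall fun q => abs_obsR_le r _

lemma integral_oneLaw (r : ℝ) (f : ℝ → ℝ) (hf : Measurable f) (hfb : ∃ C, ∀ x, |f x| ≤ C) :
    ∫ h, f h ∂(oneLaw r) =
      ∫ c : I, ∫ z : I, f (obsR r (c, z)) * (1 + amp c * (1 - 2 * (z : ℝ))) := by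
  unfold oneLaw
  rw [integral_map (measurable_obsR_ob r).aemeasurable hf.aestronglyMeasurable]
  obtain ⟨C, hC⟩ := hfb
  exact integral_ob (fun q => f (obsR r q)) (hf.comp (measurable_obsR r)) ⟨C, fun q => hC _⟩

lemma integral_symm_I (f : I → ℝ) : ∫ z : I, f (σ z) = ∫ z : I, f z :=
  (measurePreserving_symm).integral_comp symmMeasurableEquiv.measurableEmbedding f

theorem cons_oneLaw (r : ℝ) : Cons (oneLaw r) := by
  intro f hf hfb
  obtain ⟨C, hC⟩ := hfb
  have hC0 : 0 ≤ C := (abs_nonneg _).trans (hC 0)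
  -- truncate the exponential
  set T : ℝ → ℝ := fun h => max (-(Real.artanh (1 / 4))) (min h (Real.artanh (1 / 4))) with hT
  have hTm : Measurable T := by fun_prop
  have hTe : ∀ h : ℝ, |h| ≤ Real.artanh (1 / 4) → T h = h := by
    intro h hh
    have := abs_le.1 hh
    simp only [hT]
    rw [min_eq_left this.2, max_eq_right this.1]
  have hTb : ∀ h, -(Real.artanh (1 / 4)) ≤ T h := fun h => le_max_left _ _
  have e1 : ∫ h, f h * Real.exp (-2 * h) ∂(oneLaw r) =
      ∫ h, f h * Real.exp (-2 * T h) ∂(oneLaw r) := by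
    refine integral_congr_ae ?_
    filter_upwards [bdd_oneLaw r] with h hh
    rw [hTe h hh]
  rw [e1, integral_oneLaw r (fun h => f (-h)) (hf.comp measurable_neg) ⟨C, fun x => hC _⟩,
    integral_oneLaw r (fun h => f h * Real.exp (-2 * T h))
      (hf.mul (Real.measurable_exp.comp (hTm.const_mul _)))
      ⟨C * Real.exp (2 * Real.artanh (1 / 4)), fun x => by
        rw [abs_mul, Real.abs_exp]
        exact mul_le_mul (hC x) (Real.exp_le_exp.2 (by linarith [hTb x])) (Real.exp_pos _).le hC0⟩]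
  refine integral_congr_ae (Filter.Eventually.of_forall fun c => ?_)
  simp only
  by_cases hc : (c : ℝ) < r
  · simp only [obsR, hc, if_true]
    rw [← integral_symm_I (fun z => f (- ell c z) * (1 + amp c * (1 - 2 * (z : ℝ))))]
    refine integral_congr_ae (Filter.Eventually.of_forall fun z => ?_)
    simp only
    rw [hTe _ (abs_ell_le c z), ell_symm, neg_neg, mul_assoc, exp_ell, coe_symm_eq]
    ring
  · simp only [obsR, hc, if_false]
    refine integral_congr_ae (Filter.Eventually.of_forall fun z => ?_)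
    simp only
    rw [hTe 0 (by simpa using artanh_quarter_nonneg)]
    simp

lemma bddSupp_oneLaw (r : ℝ) : BddSupp (oneLaw r) := ⟨_, bdd_oneLaw r⟩

/-! ### second moment of one observation -/

lemma integral_I (f : ℝ → ℝ) : ∫ z : I, f z = ∫ x in (0 : ℝ)..1, f x := by
  rw [intervalIntegral.integral_of_le zero_le_one, ← integral_Icc_eq_integral_Ioc]
  exact measurePreserving_coe.integral_comp measurableEmbedding_coe f

lemma inner_sq (a : ℝ) : ∫ z : I, (a * (1 - 2 * (z : ℝ))) ^ 2 * (1 + a * (1 - 2 * (z : ℝ))) =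
    a ^ 2 / 3 := by
  rw [integral_I (fun x => (a * (1 - 2 * x)) ^ 2 * (1 + a * (1 - 2 * x)))]
  have hd : ∀ x ∈ uIcc (0 : ℝ) 1, HasDerivAt (fun x : ℝ => -(a ^ 2) * (1 - 2 * x) ^ 3 / 6 -
      a ^ 3 * (1 - 2 * x) ^ 4 / 8) ((a * (1 - 2 * x)) ^ 2 * (1 + a * (1 - 2 * x))) x := by
    intro x _
    have h1 : HasDerivAt (fun x : ℝ => 1 - 2 * x) (-2) x := by
      have := ((hasDerivAt_id x).const_mul (2 : ℝ)).const_sub 1
      simpa using this
    have h3 := h1.pow 3
    have h4 := h1.pow 4
    have h5 := ((h3.const_mul (-(a ^ 2))).div_const 6).sub ((h4.const_mul (a ^ 3)).div_const 8)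
    refine HasDerivAt.congr_deriv h5 ?_
    push_cast
    ring
  rw [intervalIntegral.integral_eq_sub_of_hasDerivAt hd]
  · norm_num
    ring
  · apply Continuous.intervalIntegrable; fun_prop

theorem xx_oneLaw (r : ℝ) (h0 : 0 ≤ r) (h1 : r ≤ 1 / 2) : xx (oneLaw r) = r ^ 3 / 36 := by
  unfold xx
  rw [integral_oneLaw r (fun h => Real.tanh h ^ 2) (by
      exact (Scal.continuous_tanh.measurable).pow_const 2) ⟨1, fun x => by
        rw [abs_of_nonneg (sq_nonneg _)]; exact Scal.tanh_sq_le_one x⟩]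
  have e1 : ∀ c : I, ∫ z : I, Real.tanh (obsR r (c, z)) ^ 2 * (1 + amp c * (1 - 2 * (z : ℝ))) =
      (Iio r).indicator (fun x : ℝ => x ^ 2 / 12) c := by
    intro c
    by_cases hc : (c : ℝ) < r
    · have hc2 : (c : ℝ) < 1 / 2 := by linarith
      simp only [obsR, hc, if_true, tanh_ell]
      rw [inner_sq, Set.indicator_of_mem (by exact hc)]
      simp only [amp, hc2, if_true]
      ring
    · simp only [obsR, hc, if_false, Real.tanh_zero]
      rw [Set.indicator_of_notMem (by exact hc)]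
      simp
  simp_rw [e1]
  rw [integral_I (fun x => (Iio r).indicator (fun x : ℝ => x ^ 2 / 12) x)]
  rw [intervalIntegral.integral_of_le zero_le_one, setIntegral_indicator measurableSet_Iio]
  have e2 : Ioc (0 : ℝ) 1 ∩ Iio r = Ioo 0 r := by
    ext x
    simp only [mem_inter_iff, mem_Ioc, mem_Iio, mem_Ioo]
    constructor
    · rintro ⟨⟨h1, h2⟩, h3⟩; exact ⟨h1, h3⟩
    · rintro ⟨h1, h2⟩; exact ⟨⟨h1, by linarith⟩, h2⟩
  rw [e2, ← integral_Ioc_eq_integral_Ioo, ← intervalIntegral.integral_of_le h0,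
    intervalIntegral.integral_div, integral_pow]
  norm_num
  ring

/-! ### sums over rounds -/

/-- law of a sum of `k` independent contributions -/
noncomputable def powLaw : ℕ → Measure ℝ
  | 0 => Measure.dirac 0
  | k + 1 => (powLaw k) ∗ (oneLaw (1 / 2))

lemma obsR_half (q : I × I) : obsR (1 / 2) q = ell q.1 q.2 := by
  unfold obsR
  split_ifs with h
  · rfl
  · unfold ell amp
    rw [if_neg h]
    simp

lemma law_sum {X : Type*} [MeasurableSpace X] (lam : Measure X) [IsProbabilityMeasure lam]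
    (F G : X → ℝ) (hF : Measurable F) (hG : Measurable G) (k : ℕ) :
    (Measure.infinitePi fun _ : ℕ => lam).map (fun ω => ∑ j ∈ Finset.range k, F (ω j) + G (ω k)) =
      ((Measure.infinitePi fun _ : ℕ => lam).map (fun ω => ∑ j ∈ Finset.range k, F (ω j))) ∗
        (lam.map G) := by
  classical
  have hS : Measurable (fun ω : ℕ → X => ∑ j ∈ Finset.range k, F (ω j)) :=
    Finset.measurable_fun_sum _ fun j _ => hF.comp (measurable_pi_apply j)
  have hGk : Measurable (fun ω : ℕ → X => G (ω k)) := hG.comp (measurable_pi_apply k)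
  have hglue : Measurable (fun (p : (ℕ → X) × (ℕ → X)) i =>
      if i ∈ {j : ℕ | j < k} then p.1 i else p.2 i) := by
    rw [measurable_pi_iff]
    intro i
    by_cases h : i ∈ {j : ℕ | j < k}
    · simp only [h, if_true]; fun_prop
    · simp only [h, if_false]; fun_prop
  have h := law_pair_of_glue (Measure.infinitePi fun _ : ℕ => lam)
    (fun (p : (ℕ → X) × (ℕ → X)) i => if i ∈ {j : ℕ | j < k} then p.1 i else p.2 i) hglue
    (iid_glue (fun _ : ℕ => lam) {j : ℕ | j < k}) (fun ω => ∑ j ∈ Finset.range k, F (ω j))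
    (fun ω => G (ω k)) hS hGk
    (fun z => by
      refine Finset.sum_congr rfl fun j hj => ?_
      have : j ∈ {j : ℕ | j < k} := Finset.mem_range.1 hj
      simp only [this, if_true])
    (fun z => by
      have : k ∉ {j : ℕ | j < k} := by simp
      simp only [this, if_false])
  have e1 : (Measure.infinitePi fun _ : ℕ => lam).map (fun ω => G (ω k)) = lam.map G := by
    have : (fun ω : ℕ → X => G (ω k)) = G ∘ (fun ω : ℕ → X => ω k) := rfl
    rw [this, ← Measure.map_map hG (measurable_pi_apply k), Measure.infinitePi_map_eval]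
  rw [e1] at h
  have hadd : Measurable (fun x : ℝ × ℝ => x.1 + x.2) := by fun_prop
  rw [Measure.conv, ← h, Measure.map_map hadd (hS.prodMk hGk)]
  rfl

lemma law_sum' (k : ℕ) :
    (Measure.infinitePi fun _ : ℕ => (volume : Measure I).prod (volume : Measure I)).map
      (fun ω => ∑ j ∈ Finset.range k, obsR (1 / 2) (ob (ω j))) = powLaw k := by
  induction k with
  | zero => simp [powLaw, Measure.map_const]
  | succ k ih =>
    simp_rw [Finset.sum_range_succ]
    rw [law_sum _ (fun q => obsR (1 / 2) (ob q)) (fun q => obsR (1 / 2) (ob q))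
      (measurable_obsR_ob _) (measurable_obsR_ob _), ih]
    rfl

lemma measurable_locY (k : ℕ) (r : ℝ) : Measurable (locY k r) := by
  have h1 : ∀ j : ℕ, Measurable (fun q : (ℕ → I) × (ℕ → I) => (q.1 j, q.2 j)) := fun j =>
    ((measurable_pi_apply j).comp measurable_fst).prodMk ((measurable_pi_apply j).comp measurable_snd)
  have h2 : ∀ j : ℕ, Measurable (fun q : (ℕ → I) × (ℕ → I) =>
      ell (q.1 j) (QK (amp (q.1 j)) (q.2 j))) := fun j =>
    measurable_ell.comp (measurable_ob.comp (h1 j))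
  unfold locY
  refine (Finset.measurable_fun_sum _ fun j _ => h2 j).add (Measurable.ite ?_ (h2 k) measurable_const)
  exact measurableSet_lt (measurable_subtype_coe.comp ((measurable_pi_apply k).comp measurable_fst))
    measurable_const

theorem muY_eq (k : ℕ) (r : ℝ) : muY k r = (powLaw k) ∗ (oneLaw r) := by
  unfold muY
  simp only [μI, FIID.μI]
  rw [← map_unzip, Measure.map_map (measurable_locY k r) measurable_unzip]
  have h := law_sum ((volume : Measure I).prod (volume : Measure I))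
    (fun q => obsR (1 / 2) (ob q)) (fun q => obsR r (ob q))
    (measurable_obsR_ob _) (measurable_obsR_ob _) k
  rw [law_sum'] at h
  unfold oneLaw
  rw [← h]
  congr 1
  funext ω
  simp only [Function.comp_apply, locY, obsR_half, ob]
  congr 1

lemma powLaw_props (k : ℕ) : IsProbabilityMeasure (powLaw k) ∧ Cons (powLaw k) ∧
    BddSupp (powLaw k) := by
  induction k with
  | zero =>
    refine ⟨by unfold powLaw; infer_instance, ?_, ⟨0, ?_⟩⟩
    · intro f hf hfb
      simp [powLaw]
    · simp only [powLaw]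
      have hms : MeasurableSet {h : ℝ | |h| ≤ 0} :=
        measurableSet_le (measurable_norm (α := ℝ)) measurable_const
      rw [ae_dirac_iff hms]
      simp
  | succ k ih =>
    obtain ⟨i1, i2, i3⟩ := ih
    exact ⟨by unfold powLaw; infer_instance, i2.conv i3 (cons_oneLaw _) (bddSupp_oneLaw _),
      i3.conv (bddSupp_oneLaw _)⟩

instance isProb_muY (k : ℕ) (r : ℝ) : IsProbabilityMeasure (muY k r) := by
  obtain ⟨i1, i2, i3⟩ := powLaw_props k
  rw [muY_eq]; infer_instance

theorem cons_muY (k : ℕ) (r : ℝ) : Cons (muY k r) := by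
  obtain ⟨i1, i2, i3⟩ := powLaw_props k
  rw [muY_eq]; exact i2.conv i3 (cons_oneLaw _) (bddSupp_oneLaw _)

lemma abs_locY_le (k : ℕ) (r : ℝ) (q : (ℕ → I) × (ℕ → I)) :
    |locY k r q| ≤ ((k : ℝ) + 1) * Real.artanh (1 / 4) := by
  unfold locY
  refine (abs_add_le _ _).trans ?_
  have h1 : |∑ j ∈ Finset.range k, ell (q.1 j) (QK (amp (q.1 j)) (q.2 j))| ≤
      k * Real.artanh (1 / 4) := by
    refine (Finset.abs_sum_le_sum_abs _ _).trans ?_
    refine (Finset.sum_le_sum fun j _ => abs_ell_le _ _).trans ?_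
    simp
  have h2 : |if ((q.1 k : I) : ℝ) < r then ell (q.1 k) (QK (amp (q.1 k)) (q.2 k)) else 0| ≤
      Real.artanh (1 / 4) := by
    split_ifs
    · exact abs_ell_le _ _
    · simpa using artanh_quarter_nonneg
  linarith

theorem bdd_muY (k : ℕ) (r : ℝ) :
    ∀ᵐ h ∂(muY k r), |h| ≤ ((k : ℝ) + 1) * Real.artanh (1 / 4) := by
  have hms : MeasurableSet {h : ℝ | |h| ≤ ((k : ℝ) + 1) * Real.artanh (1 / 4)} :=
    measurableSet_le (measurable_norm (α := ℝ)) measurable_const
  unfold muY
  rw [ae_map_iff (measurable_locY k r).aemeasurable hms]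
  exact Filter.Eventually.of_forall fun q => abs_locY_le k r q

theorem bddSupp_muY (k : ℕ) (r : ℝ) : BddSupp (muY k r) := ⟨_, bdd_muY k r⟩

/-! ### information -/

theorem muY_zero (r : ℝ) : muY 0 r = oneLaw r := by
  rw [muY_eq]
  simp [powLaw]

theorem xx_muY_zero (r : ℝ) (h0 : 0 ≤ r) (h1 : r ≤ 1 / 2) : xx (muY 0 r) = r ^ 3 / 36 := by
  rw [muY_zero, xx_oneLaw r h0 h1]

theorem le_xx_muY (k : ℕ) (r : ℝ) : xx (oneLaw r) ≤ xx (muY k r) := by
  obtain ⟨i1, i2, i3⟩ := powLaw_props k
  rw [muY_eq]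
  have := Scal.le_xx_conv_snd i2 i3 (cons_oneLaw r) (bddSupp_oneLaw r)
  simpa using this

theorem xx_muY_lower (k : ℕ) {s r : ℝ} (h0 : 0 ≤ s) (hsr : s ≤ r) (h1 : r ≤ 1 / 2) :
    s ^ 3 / 36 ≤ xx (muY k r) := by
  refine le_trans ?_ (le_xx_muY k r)
  rw [xx_oneLaw r (h0.trans hsr) h1]
  have : s ^ 3 ≤ r ^ 3 := by gcongr
  linarith

theorem xx_muY_succ (k : ℕ) (hk : 1 ≤ k) (r : ℝ) : 1 / 288 ≤ xx (muY k r) := by
  obtain ⟨k, rfl⟩ : ∃ m, k = m + 1 := ⟨k - 1, by omega⟩
  obtain ⟨i1, i2, i3⟩ := powLaw_props k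
  obtain ⟨j1, j2, j3⟩ := powLaw_props (k + 1)
  have h1 : xx (oneLaw (1 / 2)) ≤ xx (powLaw (k + 1)) := by
    have := Scal.le_xx_conv_snd i2 i3 (cons_oneLaw (1 / 2)) (bddSupp_oneLaw (1 / 2))
    simpa [powLaw] using this
  have h2 : xx (powLaw (k + 1)) ≤ xx (muY (k + 1) r) := by
    rw [muY_eq]
    have := Scal.le_xx_conv_fst j2 j3 (cons_oneLaw r) (bddSupp_oneLaw r)
    simpa using this
  rw [xx_oneLaw (1 / 2) (by norm_num) le_rfl] at h1
  norm_num at h1
  linarith

/-! ### exponential moments -/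

lemma exp_artanh_quarter : Real.exp (Real.artanh (1 / 4)) ≤ 2 := by
  rw [Real.exp_artanh (by constructor <;> norm_num)]
  rw [show (2 : ℝ) = Real.sqrt (2 ^ 2) by rw [Real.sqrt_sq (by norm_num)]]
  exact Real.sqrt_le_sqrt (by norm_num)

lemma abs_le_two_tanh {h : ℝ} (hh : |h| ≤ Real.artanh (1 / 4)) : |h| ≤ 2 * |Real.tanh h| := by
  have key : ∀ x : ℝ, 0 ≤ x → x ≤ Real.artanh (1 / 4) → x ≤ 2 * Real.tanh x := by
    intro x hx0 hx
    have h1 : x ≤ Real.sinh x := Real.self_le_sinh_iff.2 hx0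
    have h2 : Real.cosh x ≤ 2 := by
      have e1 : Real.cosh x ≤ Real.exp x := by
        have := Real.sinh_nonneg_iff.2 hx0
        have := Real.cosh_add_sinh x
        linarith
      exact e1.trans ((Real.exp_le_exp.2 hx).trans exp_artanh_quarter)
    rw [Real.tanh_eq_sinh_div_cosh]
    have h3 := Real.cosh_pos x
    rw [← mul_div_assoc, le_div_iff₀ h3]
    calc x * Real.cosh x ≤ x * 2 := by gcongr
      _ = 2 * x := by ring
      _ ≤ 2 * Real.sinh x := by gcongr
  rcases le_total 0 h with h0 | h0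
  · rw [abs_of_nonneg h0, abs_of_nonneg (Scal.tanh_nonneg_iff.2 h0)]
    rw [abs_of_nonneg h0] at hh
    exact key h h0 hh
  · have h1 : Real.tanh h ≤ 0 := by
      have := Scal.tanh_nonneg_iff.2 (neg_nonneg.2 h0)
      rw [Real.tanh_neg] at this
      linarith
    rw [abs_of_nonpos h0, abs_of_nonpos h1]
    rw [abs_of_nonpos h0] at hh
    have := key (-h) (neg_nonneg.2 h0) hh
    rwa [Real.tanh_neg] at this

lemma abs_obsR_le' {r : ℝ} (h0 : 0 ≤ r) (q : I × I) : |obsR r q| ≤ r := by
  have h1 := abs_le_two_tanh (abs_obsR_le r q)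
  refine h1.trans ?_
  unfold obsR
  split_ifs with h
  · rw [tanh_ell, abs_mul, abs_of_nonneg (amp_nonneg _)]
    have h2 : |1 - 2 * (q.2 : ℝ)| ≤ 1 := by
      rw [abs_le]; constructor <;> linarith [q.2.2.1, q.2.2.2]
    have h3 : amp q.1 ≤ r / 2 := by
      unfold amp
      split_ifs
      · linarith
      · linarith
    have h4 := amp_nonneg q.1
    calc 2 * (amp q.1 * |1 - 2 * (q.2 : ℝ)|) ≤ 2 * (r / 2 * 1) := by gcongr
      _ = r := by ring
  · simpa using h0

lemma bdd_oneLaw' {r : ℝ} (h0 : 0 ≤ r) : ∀ᵐ h ∂(oneLaw r), |h| ≤ r ∧ |h| ≤ 2 * |Real.tanh h| := by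
  unfold oneLaw
  have hms : MeasurableSet {h : ℝ | |h| ≤ r ∧ |h| ≤ 2 * |Real.tanh h|} := by
    refine MeasurableSet.inter (measurableSet_le (measurable_norm (α := ℝ)) measurable_const)
      (measurableSet_le (measurable_norm (α := ℝ)) ?_)
    exact ((measurable_norm (α := ℝ)).comp Scal.continuous_tanh.measurable).const_mul 2
  rw [ae_map_iff (measurable_obsR_ob r).aemeasurable hms]
  exact Filter.Eventually.of_forall fun q => ⟨abs_obsR_le' h0 _, abs_le_two_tanh (abs_obsR_le r _)⟩

theorem exp_oneLaw {r l : ℝ} (h0 : 0 ≤ r) (hl : 1 ≤ l) (hlr : l * r ≤ 1) :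
    ∫ h, Real.exp (l * h) ∂(oneLaw r) ≤ 1 + 6 * l ^ 2 * xx (oneLaw r) := by
  have hb := bddSupp_oneLaw r
  have hc := cons_oneLaw r
  have i1 : Integrable (fun h : ℝ => Real.exp (l * h)) (oneLaw r) := (Scal.LB.exp l).integrable hb
  have i2 : Integrable (fun h : ℝ => h) (oneLaw r) :=
    (Scal.LB.of_continuous continuous_id).integrable hb
  have i3 : Integrable (fun h : ℝ => Real.tanh h ^ 2) (oneLaw r) := Scal.LB.tanh_sq.integrable hb
  have i4 : Integrable (fun h : ℝ => h * Real.tanh h) (oneLaw r) :=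
    (Scal.LB.of_continuous (continuous_id.mul Scal.continuous_tanh)).integrable hb
  have h1 : ∫ h, Real.exp (l * h) ∂(oneLaw r) ≤
      ∫ h, (1 + l * h + 4 * l ^ 2 * Real.tanh h ^ 2) ∂(oneLaw r) := by
    refine integral_mono_ae i1 (((integrable_const _).add (i2.const_mul _)).add
      (i3.const_mul _)) ?_
    filter_upwards [bdd_oneLaw' h0] with h hh
    have h2 : |l * h| ≤ 1 := by
      rw [abs_mul, abs_of_nonneg (by linarith : 0 ≤ l)]
      calc l * |h| ≤ l * r := by
            have := hh.1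
            gcongr
        _ ≤ 1 := hlr
    have h3 := Real.abs_exp_sub_one_sub_id_le h2
    have h4 := (abs_le.1 h3).2
    have h5 : h ^ 2 ≤ 4 * Real.tanh h ^ 2 := by
      have := hh.2
      have e1 : |h| ^ 2 ≤ (2 * |Real.tanh h|) ^ 2 := by
        have := abs_nonneg h
        gcongr
      rw [sq_abs, mul_pow, sq_abs] at e1
      linarith
    have h6 : (l * h) ^ 2 ≤ 4 * l ^ 2 * Real.tanh h ^ 2 := by
      calc (l * h) ^ 2 = l ^ 2 * h ^ 2 := by ring
        _ ≤ l ^ 2 * (4 * Real.tanh h ^ 2) := by gcongr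
        _ = _ := by ring
    linarith
  have h2 : ∫ h, (1 + l * h + 4 * l ^ 2 * Real.tanh h ^ 2) ∂(oneLaw r) =
      1 + l * ∫ h, h ∂(oneLaw r) + 4 * l ^ 2 * xx (oneLaw r) := by
    have e1 : Integrable (fun h : ℝ => 1 + l * h) (oneLaw r) :=
      (integrable_const _).add (i2.const_mul _)
    rw [integral_add e1 (i3.const_mul _), integral_add (integrable_const _) (i2.const_mul _),
      integral_const_mul, integral_const_mul]
    simp [xx]
  have h3 : ∫ h, h ∂(oneLaw r) ≤ 2 * xx (oneLaw r) := by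
    rw [hc.integral_odd hb (f := fun x => x) (Scal.LB.of_continuous continuous_id) (fun x => rfl)]
    unfold xx
    rw [← integral_const_mul]
    refine integral_mono_ae i4 (i3.const_mul _) ?_
    filter_upwards [bdd_oneLaw' h0] with h hh
    calc h * Real.tanh h ≤ |h * Real.tanh h| := le_abs_self _
      _ = |h| * |Real.tanh h| := abs_mul _ _
      _ ≤ (2 * |Real.tanh h|) * |Real.tanh h| := by
          have := hh.2
          gcongr
      _ = 2 * Real.tanh h ^ 2 := by rw [mul_assoc, ← sq, sq_abs]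
  have hx0 : 0 ≤ xx (oneLaw r) := Scal.xx_nonneg _
  calc ∫ h, Real.exp (l * h) ∂(oneLaw r) ≤
        1 + l * ∫ h, h ∂(oneLaw r) + 4 * l ^ 2 * xx (oneLaw r) := by rw [← h2]; exact h1
    _ ≤ 1 + l * (2 * xx (oneLaw r)) + 4 * l ^ 2 * xx (oneLaw r) := by gcongr
    _ ≤ 1 + l ^ 2 * (2 * xx (oneLaw r)) + 4 * l ^ 2 * xx (oneLaw r) := by
        gcongr
        nlinarith
    _ = _ := by ring

/-- exponential moments of the messages in round `0` -/
theorem cosh_muY {θ : ℝ} (h0 : 0 ≤ θ) (h1 : θ < 1) {b : ℕ} (hb2 : 2 ≤ b) (hbθ : b * θ ^ 2 ≤ 1) :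
    ∃ c0 : ℝ, 0 < c0 ∧ ∃ l0 : ℝ, 1 ≤ l0 ∧ ∀ r : ℝ, 0 ≤ r → r ≤ 1 / 2 → ∀ l : ℝ, l0 ≤ l →
      l ^ 4 * r ^ 3 ≤ c0 → ∀ n, ∫ h, Real.cosh (l * h) ∂(msgLaw θ (muY 0 r) b n) ≤ 2 := by
  obtain ⟨c0, hc0, l0, hl0, H⟩ := Scal.exp_moment h0 h1 hb2 hbθ 6
  refine ⟨min (36 * c0) 2, by positivity, l0, hl0, fun r hr0 hr1 l hl hlr n => ?_⟩
  have hl1 : 1 ≤ l := hl0.trans hl
  have hA : l ^ 4 * r ^ 3 ≤ 36 * c0 := hlr.trans (min_le_left _ _)
  have hB : l ^ 4 * r ^ 3 ≤ 2 := hlr.trans (min_le_right _ _)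
  have hlr1 : l * r ≤ 1 := by
    have h2 : (l * r) ^ 4 ≤ 1 ^ 4 := by
      calc (l * r) ^ 4 = (l ^ 4 * r ^ 3) * r := by ring
        _ ≤ 2 * (1 / 2) := by
            have : 0 ≤ l ^ 4 * r ^ 3 := by positivity
            gcongr
        _ = 1 ^ 4 := by norm_num
    exact le_of_pow_le_pow_left₀ (by norm_num) (by norm_num) h2
  refine H (muY 0 r) (isProb_muY 0 r) (cons_muY 0 r) (bddSupp_muY 0 r) l hl ?_ ?_ n
  · rw [xx_muY_zero r hr0 hr1]; linarith
  · rw [muY_zero]; exact exp_oneLaw hr0 hl1 hlr1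

end Mu

end Crest.Agent.TI
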