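import Crest.Agent.TIFinalB
import Crest.Agent.TIMu
import Crest.Agent.TIConc

/-!
Row 160 (S0241).  The endgame: from KEY, CONC, evolution to `R = 0`.
-/

set_option autoImplicit false

namespace Crest.Agent.TI

open MeasureTheory Set Filter Topology
open scoped ENNReal

section

variable {d : ℕ}

/-- the expected squared difference of the magnetisations -/
noncomputable def RR (θ : ℝ) (ρ : Measure ((W d → ℝ) × (W d → ℝ))) : ℝ :=
  ∫ q, (mR θ q.1 - mR θ q.2) ^ 2 ∂ρ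

/-- the sum in the evolution inequality -/
noncomputable def SS (θ : ℝ) (ρ : Measure ((W d → ℝ) × (W d → ℝ))) : ℝ≥0∞ :=
  ∑' u : W d, ∫⁻ q, ENNReal.ofReal ((covR θ q.1 u - covR θ q.2 u) ^ 2 +
    covR θ q.2 u ^ 2 * (mR θ (q.1 ∘ W.tr u) - mR θ (q.2 ∘ W.tr u)) ^ 2) ∂ρ

/-- the statement of KEY -/
def KeyStmt (d : ℕ) (θ : ℝ) : Prop :=
  ∀ B : ℝ, ∃ C : ℝ, 0 < C ∧ ∀ (μy : Measure ℝ) [IsProbabilityMeasure μy],
    (∀ᵐ h ∂μy, |h| ≤ B) → ∀ ρ : Measure ((W d → ℝ) × (W d → ℝ)), PairLaw θ μy ρ →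
    (∀ᵐ y ∂(fieldLaw d θ μy), Good θ y) → ∀ q0 : ℝ, 0 < q0 → q0 < 1 →
    (∀ n : ℕ, (fieldLaw d θ μy).real {y | 4 * q0 ^ (n / 2) < QQ θ y n} ≤
      Real.exp (-(Real.sqrt ((d : ℝ) - 1)) ^ (n / 2))) →
    ∀ (K : ℕ) (s : ℝ), 0 ≤ s → ∀ Ps : ℝ, 0 ≤ Ps →
    (∀ i : Fin d, (fieldLaw d θ μy).real
      {y | s < |Real.tanh (msgI θ y (W.nb i W.root))|} ≤ Ps) →
    SS θ ρ ≤ ENNReal.ofReal (C * (((K : ℝ) + 1 +
      ∑' k : ℕ, ((K : ℝ) + k + 1) ^ 2 * q0 ^ ((K + k) / 4)) * RR θ ρ +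
      ((K : ℝ) + 1) ^ 2 * min (RR θ ρ) (s ^ 2 * RR θ ρ + Ps) +
      ∑' k : ℕ, ((K : ℝ) + k + 1) ^ 2 * Real.exp (-(Real.sqrt ((d : ℝ) - 1)) ^ ((K + k) / 4))))

lemma RR_nonneg (θ : ℝ) (ρ : Measure ((W d → ℝ) × (W d → ℝ))) : 0 ≤ RR θ ρ :=
  integral_nonneg fun _ => sq_nonneg _

lemma TG_nonneg {q : ℝ} (hq : 0 < q) (K : ℕ) : 0 ≤ TG q K :=
  tsum_nonneg fun k => by positivity

lemma TE_nonneg (b : ℝ) (K : ℕ) : 0 ≤ TE b K :=
  tsum_nonneg fun k => by positivity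

variable (hd : 3 ≤ d) {θ : ℝ} (h0 : 0 ≤ θ) (h1 : θ < 1) (hbθ : ((d : ℝ) - 1) * θ ^ 2 ≤ 1)

include hd h0 h1 hbθ

/-- the decay rate -/
theorem exists_rate : ∃ c : ℝ, 0 < c ∧ ∀ (μy : Measure ℝ) [IsProbabilityMeasure μy], Cons μy →
    BddSupp μy → (∀ᵐ y ∂(fieldLaw d θ μy), Good θ y) → ∃ q : ℝ, 0 < q ∧
      q ≤ 1 - c * Real.sqrt (xx μy) ∧ ∀ n : ℕ, (fieldLaw d θ μy).real {y | 4 * q ^ (n / 2) < QQ θ y n} ≤
      Real.exp (-(Real.sqrt ((d : ℝ) - 1)) ^ (n / 2)) := by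
  obtain ⟨c, hc, hC4⟩ := Conc.Cn4 (d := d) h0 h1 hd hbθ
  refine ⟨c, hc, fun μy _ hcy hby hG => ?_⟩
  have hd0 : 0 < d := by omega
  have hv : W.nb (⟨0, hd0⟩ : Fin d) W.root ≠ W.root := by
    intro h
    have h2 := congrArg W.len h
    rw [W.len_nb_of_ne (by simp [W.root, W.head?]), W.len_root] at h2
    omega
  have hX := Conc.Cn1 h0 h1 hG hv
  set X := ∫ y, Real.tanh (msgI θ y (W.nb (⟨0, hd0⟩ : Fin d) W.root)) ^ 2 ∂(fieldLaw d θ μy) with hXd
  set q := max (((d : ℝ) - 1) * θ ^ 2 * (1 - (1 - θ ^ 2) * (θ ^ 2 * X)))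
    (((d : ℝ) - 1) ^ (-(1 / 8) : ℝ)) with hq
  have hd' : (3 : ℝ) ≤ d := by exact_mod_cast hd
  have h4 := hC4 μy inferInstance hcy hby X hX
  have hsq : 0 ≤ c * Real.sqrt (xx μy) := mul_nonneg hc.le (Real.sqrt_nonneg _)
  refine ⟨q, lt_of_lt_of_le (Real.rpow_pos_of_pos (by linarith) _) (le_max_right _ _), h4,
    fun n => ?_⟩
  exact Conc.Cn3 h0 h1 hd hbθ hcy hby hG hX (by linarith) (le_max_left _ _) (le_max_right _ _) n

theorem RR_le {μy : Measure ℝ} [IsProbabilityMeasure μy] (hcy : Cons μy) (hby : BddSupp μy)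
    (hG : ∀ᵐ y ∂(fieldLaw d θ μy), Good θ y) {ρ : Measure ((W d → ℝ) × (W d → ℝ))}
    (hρ : PairLaw θ μy ρ) : RR θ ρ ≤ 4 * ((3 + 3 * d) * Real.sqrt (xx μy)) := by
  have h6 := Conc.Cn6 h0 h1 hd hbθ hcy hby hG
  have := hρ.prob
  have hm : Measurable (fun y : W d → ℝ => mR θ y) :=
    Scal.continuous_tanh.measurable.comp (Conc.measurable_msgI h0 h1 W.root)
  have hb : ∀ y : W d → ℝ, |mR θ y| ≤ 1 := fun y => (Real.abs_tanh_lt_one _).le
  have hb2 : ∀ y : W d → ℝ, mR θ y ^ 2 ≤ 1 := fun y => by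
    rw [← sq_abs]; exact pow_le_one₀ (abs_nonneg _) (hb y)
  have i1 : Integrable (fun q : (W d → ℝ) × (W d → ℝ) => mR θ q.1 ^ 2) ρ :=
    Integrable.of_bound ((hm.comp measurable_fst).pow_const 2).aestronglyMeasurable 1
      (Filter.Eventually.of_forall fun q => by
        rw [Real.norm_eq_abs, abs_of_nonneg (sq_nonneg _)]; exact hb2 _)
  have i2 : Integrable (fun q : (W d → ℝ) × (W d → ℝ) => mR θ q.2 ^ 2) ρ :=
    Integrable.of_bound ((hm.comp measurable_snd).pow_const 2).aestronglyMeasurable 1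
      (Filter.Eventually.of_forall fun q => by
        rw [Real.norm_eq_abs, abs_of_nonneg (sq_nonneg _)]; exact hb2 _)
  have e1 : ∫ q, mR θ q.1 ^ 2 ∂ρ = ∫ y, mR θ y ^ 2 ∂(fieldLaw d θ μy) := by
    rw [← hρ.fst, integral_map measurable_fst.aemeasurable
      (hm.pow_const 2).aestronglyMeasurable]
  have e2 : ∫ q, mR θ q.2 ^ 2 ∂ρ = ∫ y, mR θ y ^ 2 ∂(fieldLaw d θ μy) := by
    rw [← hρ.snd, integral_map measurable_snd.aemeasurable
      (hm.pow_const 2).aestronglyMeasurable]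
  have h2 : RR θ ρ ≤ ∫ q, (2 * mR θ q.1 ^ 2 + 2 * mR θ q.2 ^ 2) ∂ρ := by
    unfold RR
    refine integral_mono ?_ ((i1.const_mul 2).add (i2.const_mul 2)) fun q => ?_
    · refine Integrable.of_bound (((hm.comp measurable_fst).sub
        (hm.comp measurable_snd)).pow_const 2).aestronglyMeasurable 4
        (Filter.Eventually.of_forall fun q => ?_)
      rw [Real.norm_eq_abs, abs_of_nonneg (sq_nonneg _)]
      have g1 := abs_le.1 (hb q.1)
      have g2 := abs_le.1 (hb q.2)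
      nlinarith
    · simp only
      nlinarith [sq_nonneg (mR θ q.1 + mR θ q.2)]
  rw [integral_add (i1.const_mul 2) (i2.const_mul 2), integral_const_mul, integral_const_mul,
    e1, e2] at h2
  linarith

/-- all hypotheses on the process -/
structure EndHyp (d : ℕ) (θ : ℝ) (ρ : ℕ → ℝ → Measure ((W d → ℝ) × (W d → ℝ))) : Prop where
  good : ∀ k r, ∀ᵐ y ∂(fieldLaw d θ (muY k r)), Good θ y
  pair : ∀ k r, PairLaw θ (muY k r) (ρ k r)
  mono : ∀ k, MonotoneOn (fun r => RR θ (ρ k r)) (Icc 0 (1 / 2))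
  step : ∀ k, RR θ (ρ (k + 1) 0) = RR θ (ρ k (1 / 2))
  evol : ∃ K0 : ℝ, 0 ≤ K0 ∧ ∀ k, ∀ s t : ℝ, 0 ≤ s → s ≤ t → t ≤ 1 / 2 → (0 < s ∨ 1 ≤ k) →
    ENNReal.ofReal (RR θ (ρ k t)) ≤ ENNReal.ofReal (RR θ (ρ k s)) +
      ENNReal.ofReal K0 * ∫⁻ r in Ico s t, ENNReal.ofReal (r ^ 2) * SS θ (ρ k r)

theorem RR_zero (hK : KeyStmt d θ) (ρ : ℕ → ℝ → Measure ((W d → ℝ) × (W d → ℝ)))
    (H : EndHyp d θ ρ) (k : ℕ) : RR θ (ρ k (1 / 2)) = 0 := by
  obtain ⟨c, hc, hrate⟩ := exists_rate hd h0 h1 hbθ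
  obtain ⟨K0, hK0, hev⟩ := H.evol
  have hd' : (3 : ℝ) ≤ d := by exact_mod_cast hd
  have hb2 : (2 : ℝ) ≤ (d : ℝ) - 1 := by linarith
  -- rate functions
  have hrate' : ∀ k r, ∃ q : ℝ, 0 < q ∧ q ≤ 1 - c * Real.sqrt (xx (muY k r)) ∧
      ∀ n : ℕ, (fieldLaw d θ (muY k r)).real {y | 4 * q ^ (n / 2) < QQ θ y n} ≤
      Real.exp (-(Real.sqrt ((d : ℝ) - 1)) ^ (n / 2)) := fun k r =>
    hrate (muY k r) (Mu.cons_muY k r) (Mu.bddSupp_muY k r) (H.good k r)
  choose q hq0 hqc hqt using hrate'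
  induction k with
  | zero =>
    have hb2' : 2 ≤ d - 1 := by omega
    have hbc : ((d - 1 : ℕ) : ℝ) = (d : ℝ) - 1 := by
      rw [Nat.cast_sub (by omega), Nat.cast_one]
    obtain ⟨c0, hc0, l0, hl0, hcosh⟩ := Mu.cosh_muY h0 h1 hb2' (by rw [hbc]; exact hbθ)
    obtain ⟨CK, hCK, hkey⟩ := hK (((0 : ℕ) + 1 : ℝ) * Real.artanh (1 / 4))
    set C := CK + 64 / Real.sqrt c0 + l0 ^ 2 / Real.sqrt c0 + 4 * (3 + 3 * d) with hC
    have hsc0 : 0 < Real.sqrt c0 := Real.sqrt_pos.2 hc0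
    have hC0 : 0 < C := by positivity
    have hCK' : CK ≤ C := by
      have : 0 ≤ 64 / Real.sqrt c0 + l0 ^ 2 / Real.sqrt c0 + 4 * (3 + 3 * (d : ℝ)) := by positivity
      linarith
    refine round_zero (fun r => RR θ (ρ 0 r)) (fun r => SS θ (ρ 0 r)) (q 0) ((d : ℝ) - 1) K0 C
      (c / 6) 1 hb2 hK0 hC0 (by positivity) (fun t _ => RR_nonneg _ _) (H.mono 0)
      (fun s t hs hst ht => hev 0 s t hs.le hst ht (Or.inl hs)) ?_ ?_ ?_
    · -- initial
      intro r hr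
      have h2 := RR_le hd h0 h1 hbθ (Mu.cons_muY 0 r) (Mu.bddSupp_muY 0 r) (H.good 0 r) (H.pair 0 r)
      rw [Mu.xx_muY_zero r hr.1.le hr.2] at h2
      have h3 : Real.sqrt (r ^ 3 / 36) ≤ r ^ (3 / 2 : ℝ) := by
        rw [Real.sqrt_le_left (by have := hr.1; positivity)]
        rw [← Real.rpow_natCast (r ^ (3 / 2 : ℝ)) 2, ← Real.rpow_mul hr.1.le]
        norm_num
        have : 0 < r ^ 3 := pow_pos hr.1 3
        linarith
      have h4 : (4 * (3 + 3 * (d : ℝ))) ≤ C := by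
        have : 0 ≤ CK + 64 / Real.sqrt c0 + l0 ^ 2 / Real.sqrt c0 := by positivity
        linarith
      have h5 : 0 ≤ r ^ (3 / 2 : ℝ) := Real.rpow_nonneg hr.1.le _
      calc RR θ (ρ 0 r) ≤ 4 * ((3 + 3 * (d : ℝ)) * Real.sqrt (r ^ 3 / 36)) := h2
        _ = (4 * (3 + 3 * (d : ℝ))) * Real.sqrt (r ^ 3 / 36) := by ring
        _ ≤ C * r ^ (3 / 2 : ℝ) := by gcongr
    · -- rate
      intro r hr
      have h2 := hqc 0 r
      rw [Mu.xx_muY_zero r hr.1.le hr.2] at h2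
      have h3 : Real.sqrt (r ^ 3 / 36) = r ^ (3 / 2 : ℝ) / 6 := by
        have h4 : r ^ 3 / 36 = (r ^ (3 / 2 : ℝ) / 6) ^ 2 := by
          rw [div_pow, ← Real.rpow_natCast (r ^ (3 / 2 : ℝ)) 2, ← Real.rpow_mul hr.1.le]
          norm_num
        rw [h4, Real.sqrt_sq]
        have := Real.rpow_nonneg hr.1.le (3 / 2 : ℝ)
        positivity
      rw [h3] at h2
      have h5 : 0 < r ^ (3 / 2 : ℝ) := Real.rpow_pos_of_pos hr.1 _
      refine ⟨hq0 0 r, ?_, by linarith⟩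
      have : 0 < c * (r ^ (3 / 2 : ℝ) / 6) := by positivity
      linarith
    · -- key
      intro r hr K L hL
      have hr0 : 0 < r := hr.1
      have hr3 : 0 < r ^ 3 := pow_pos hr0 3
      set R := RR θ (ρ 0 r) with hR
      have hR0 : 0 ≤ R := RR_nonneg _ _
      have hq1 : q 0 r < 1 := by
        have h2 := hqc 0 r
        rw [Mu.xx_muY_zero r hr.1.le hr.2] at h2
        have h3 : 0 < Real.sqrt (r ^ 3 / 36) := Real.sqrt_pos.2 (by positivity)
        have : 0 < c * Real.sqrt (r ^ 3 / 36) := by positivity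
        linarith
      set l := (c0 / r ^ 3) ^ (1 / 4 : ℝ) with hl
      have hlpos : 0 < l := Real.rpow_pos_of_pos (by positivity) _
      have hl4 : l ^ 4 = c0 / r ^ 3 := by
        rw [hl, ← Real.rpow_natCast, ← Real.rpow_mul (by positivity)]; norm_num
      have hl2 : l ^ 2 * r ^ (3 / 2 : ℝ) = Real.sqrt c0 := by
        have e1 : (l ^ 2 * r ^ (3 / 2 : ℝ)) ^ 2 = c0 := by
          have e2 : (r ^ (3 / 2 : ℝ)) ^ 2 = r ^ 3 := by
            rw [← Real.rpow_natCast (r ^ (3 / 2 : ℝ)) 2, ← Real.rpow_mul hr0.le,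
              ← Real.rpow_natCast r 3]
            norm_num
          rw [mul_pow, e2, ← pow_mul]
          norm_num
          rw [hl4]
          field_simp
        rw [← e1, Real.sqrt_sq]
        have := Real.rpow_nonneg hr0.le (3 / 2 : ℝ)
        positivity
      have hr32 : 0 < r ^ (3 / 2 : ℝ) := Real.rpow_pos_of_pos hr0 _
      -- choose s and Ps
      obtain ⟨s, Ps, hs, hPs, hprob, hmin⟩ : ∃ s Ps : ℝ, 0 ≤ s ∧ 0 ≤ Ps ∧
          (∀ i : Fin d, (fieldLaw d θ (muY 0 r)).real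
            {y | s < |Real.tanh (msgI θ y (W.nb i W.root))|} ≤ Ps) ∧
          min R (s ^ 2 * R + Ps) ≤ min 1 (C * L ^ 2 * r ^ (3 / 2 : ℝ)) * R +
            Real.exp (-(4 * L)) := by
        by_cases hcase : l0 ≤ l
        · refine ⟨8 * L / l, Real.exp (-(4 * L)), by positivity, (Real.exp_pos _).le, ?_, ?_⟩
          · intro i
            have hv : W.nb i (W.root : W d) ≠ W.root := by
              intro h
              have h2 := congrArg W.len h
              rw [W.len_nb_of_ne (by simp [W.root, W.head?]), W.len_root] at h2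
              omega
            have h5 := Conc.Cn5 h0 h1 (Mu.cons_muY 0 r) (Mu.bddSupp_muY 0 r) (H.good 0 r)
              hlpos.le (hcosh r hr0.le hr.2 l hcase (by rw [hl4]; field_simp; exact le_rfl)) hv
              (8 * L / l)
            refine h5.trans ?_
            have e1 : l * (8 * L / l) = 4 * L + 4 * L := by field_simp; ring
            rw [e1, neg_add, Real.exp_add]
            have e2 : 4 * Real.exp (-(4 * L)) ≤ 1 := by
              have e3 : Real.exp (-(4 * L)) ≤ Real.exp (-4) := Real.exp_le_exp.2 (by linarith)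
              have e4 : Real.exp (-4) ≤ 1 / 4 := by
                rw [Real.exp_neg, ← one_div]
                have : (4 : ℝ) ≤ Real.exp 4 := by
                  have := Real.add_one_le_exp (4 : ℝ)
                  linarith
                exact one_div_le_one_div_of_le (by norm_num) this
              linarith
            have e5 := Real.exp_pos (-(4 * L))
            nlinarith
          · have hs2 : (8 * L / l) ^ 2 = 64 / Real.sqrt c0 * L ^ 2 * r ^ (3 / 2 : ℝ) := by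
              rw [← hl2]; field_simp; norm_num
            have hs3 : (8 * L / l) ^ 2 ≤ C * L ^ 2 * r ^ (3 / 2 : ℝ) := by
              rw [hs2]
              have : 64 / Real.sqrt c0 ≤ C := by
                have : 0 ≤ CK + l0 ^ 2 / Real.sqrt c0 + 4 * (3 + 3 * (d : ℝ)) := by positivity
                linarith
              gcongr
            rcases le_total 1 (C * L ^ 2 * r ^ (3 / 2 : ℝ)) with h | h
            · rw [min_eq_left h, one_mul]
              exact (min_le_left _ _).trans (by linarith [Real.exp_pos (-(4 * L))])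
            · rw [min_eq_right h]
              refine (min_le_right _ _).trans ?_
              gcongr
        · push Not at hcase
          refine ⟨0, 1, le_rfl, zero_le_one, fun i => ?_, ?_⟩
          · have := Conc.isProb_fieldLaw' (d := d) (μy := muY 0 r) h0 h1
            exact measureReal_le_one
          · have h2 : 1 ≤ C * L ^ 2 * r ^ (3 / 2 : ℝ) := by
              have e1 : l ^ 2 ≤ l0 ^ 2 := by gcongr
              have e2 : Real.sqrt c0 ≤ l0 ^ 2 * r ^ (3 / 2 : ℝ) := by rw [← hl2]; gcongr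
              have e3 : l0 ^ 2 / Real.sqrt c0 ≤ C := by
                have : 0 ≤ CK + 64 / Real.sqrt c0 + 4 * (3 + 3 * (d : ℝ)) := by positivity
                linarith
              have e4 : 1 ≤ l0 ^ 2 / Real.sqrt c0 * r ^ (3 / 2 : ℝ) := by
                rw [div_mul_eq_mul_div, le_div_iff₀ hsc0]
                linarith
              have e5 : (1 : ℝ) ≤ L ^ 2 := one_le_pow₀ hL
              calc (1 : ℝ) ≤ l0 ^ 2 / Real.sqrt c0 * r ^ (3 / 2 : ℝ) := e4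
                _ ≤ C * r ^ (3 / 2 : ℝ) := by gcongr
                _ = C * 1 * r ^ (3 / 2 : ℝ) := by ring
                _ ≤ C * L ^ 2 * r ^ (3 / 2 : ℝ) := by gcongr
            rw [min_eq_left h2, one_mul]
            exact (min_le_left _ _).trans (by linarith [Real.exp_pos (-(4 * L))])
      have hk := hkey (muY 0 r) (by simpa using Mu.bdd_muY 0 r) (ρ 0 r) (H.pair 0 r) (H.good 0 r)
        (q 0 r) (hq0 0 r) hq1 (hqt 0 r) K s hs Ps hPs hprob
      refine hk.trans (ENNReal.ofReal_le_ofReal ?_)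
      have hTG := TG_nonneg (hq0 0 r) K
      have hTE := TE_nonneg ((d : ℝ) - 1) K
      have hm0 : 0 ≤ min 1 (C * L ^ 2 * r ^ (3 / 2 : ℝ)) := le_min (by norm_num) (by positivity)
      change CK * (((K : ℝ) + 1 + TG (q 0 r) K) * R + ((K : ℝ) + 1) ^ 2 *
        min R (s ^ 2 * R + Ps) + TE ((d : ℝ) - 1) K) ≤ _
      have hb1 : ((K : ℝ) + 1 + TG (q 0 r) K) * R + ((K : ℝ) + 1) ^ 2 *
          min R (s ^ 2 * R + Ps) + TE ((d : ℝ) - 1) K ≤
          ((K : ℝ) + 1 + TG (q 0 r) K) * R + ((K : ℝ) + 1) ^ 2 *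
            (min 1 (C * L ^ 2 * r ^ (3 / 2 : ℝ)) * R + Real.exp (-(4 * L))) +
            TE ((d : ℝ) - 1) K := by gcongr
      have hb0 : 0 ≤ ((K : ℝ) + 1 + TG (q 0 r) K) * R + ((K : ℝ) + 1) ^ 2 *
            (min 1 (C * L ^ 2 * r ^ (3 / 2 : ℝ)) * R + Real.exp (-(4 * L))) +
            TE ((d : ℝ) - 1) K := by positivity
      calc _ ≤ CK * (((K : ℝ) + 1 + TG (q 0 r) K) * R + ((K : ℝ) + 1) ^ 2 *
            (min 1 (C * L ^ 2 * r ^ (3 / 2 : ℝ)) * R + Real.exp (-(4 * L))) +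
            TE ((d : ℝ) - 1) K) := mul_le_mul_of_nonneg_left hb1 hCK.le
        _ ≤ _ := mul_le_mul_of_nonneg_right hCK' hb0
  | succ k ih =>
    obtain ⟨CK, hCK, hkey⟩ := hK ((((k + 1 : ℕ) : ℝ) + 1) * Real.artanh (1 / 4))
    have hxx : ∀ r, 1 / 288 ≤ xx (muY (k + 1) r) := fun r => Mu.xx_muY_succ (k + 1) (by omega) r
    have hs288 : 0 < Real.sqrt (1 / 288) := Real.sqrt_pos.2 (by norm_num)
    have hqc' : ∀ r, q (k + 1) r ≤ 1 - c * Real.sqrt (1 / 288) := fun r => by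
      have h2 := hqc (k + 1) r
      have h3 : Real.sqrt (1 / 288) ≤ Real.sqrt (xx (muY (k + 1) r)) := Real.sqrt_le_sqrt (hxx r)
      have := mul_le_mul_of_nonneg_left h3 hc.le
      linarith
    have hq1 : ∀ r, q (k + 1) r < 1 := fun r => by
      have := hqc' r
      have : 0 < c * Real.sqrt (1 / 288) := by positivity
      linarith
    refine round_succ (fun r => RR θ (ρ (k + 1) r)) (fun r => SS θ (ρ (k + 1) r)) (q (k + 1))
      ((d : ℝ) - 1) K0 CK (c * Real.sqrt (1 / 288)) hb2 hK0 hCK (by positivity)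
      (fun t _ => RR_nonneg _ _) (H.mono (k + 1))
      (fun s t hs hst ht => hev (k + 1) s t hs hst ht (Or.inr (by omega))) ?_ ?_ ?_
    · rw [H.step k, ih]
    · intro r hr
      refine ⟨hq0 _ _, hq1 r, ?_⟩
      have := hqc' r
      linarith
    · intro r hr K
      set R := RR θ (ρ (k + 1) r) with hR
      have hR0 : 0 ≤ R := RR_nonneg _ _
      have hk := hkey (muY (k + 1) r) (Mu.bdd_muY (k + 1) r) (ρ (k + 1) r) (H.pair _ r)
        (H.good _ r) (q (k + 1) r) (hq0 _ r) (hq1 r) (hqt _ r) K 0 le_rfl 1 zero_le_one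
        (fun i => by
          have := Conc.isProb_fieldLaw' (d := d) (μy := muY (k + 1) r) h0 h1
          exact measureReal_le_one)
      refine hk.trans (ENNReal.ofReal_le_ofReal ?_)
      refine mul_le_mul_of_nonneg_left ?_ hCK.le
      change ((K : ℝ) + 1 + TG (q (k + 1) r) K) * R + ((K : ℝ) + 1) ^ 2 *
        min R (0 ^ 2 * R + 1) + TE ((d : ℝ) - 1) K ≤ _
      gcongr
      exact min_le_left _ _

end

end Crest.Agent.TI
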