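import Crest.Agent.TINu
import Crest.Prelude.Def_TreeIsing

/-!
Row 160 (S0241).  Marginals of the Ising measure on finite connected sets of words.
-/

set_option autoImplicit false

namespace Crest.Agent.TI

open MeasureTheory unitInterval Set Filter Topology
open scoped ENNReal

variable {d : ℕ}

/-- `v0` is the top of `S` -/
def TopOf (S : Finset (W d)) (v0 : W d) : Prop :=
  v0 ∈ S ∧ ∀ w ∈ S, w ≠ v0 → w ≠ W.root ∧ w.par ∈ S

lemma TopOf.len_le {S : Finset (W d)} {v0 : W d} (h : TopOf S v0) {w : W d} (hw : w ∈ S) :
    v0.len ≤ w.len := by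
  obtain ⟨m, hm, hmin⟩ := Finset.exists_min_image S W.len ⟨v0, h.1⟩
  by_cases e : m = v0
  · subst e; exact hmin w hw
  · obtain ⟨h1, h2⟩ := h.2 m hm e
    have h3 := hmin _ h2
    have h4 := W.len_par h1
    omega

lemma exists_top (S : Finset (W d))
    (hS : ((wordGraph d).induce (S : Set (W d))).Connected) : ∃ v0, TopOf S v0 := by
  obtain ⟨⟨v1, hv1⟩⟩ := hS.nonempty
  obtain ⟨v0, hv0, hmin⟩ := Finset.exists_min_image S W.len ⟨v1, hv1⟩
  refine ⟨v0, hv0, fun w hw hne => ?_⟩
  have hr : w ≠ W.root := by
    rintro rfl
    apply hne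
    have h1 := hmin _ hw
    rw [W.len_root] at h1
    exact (W.len_eq_zero.1 (by omega)).symm
  refine ⟨hr, ?_⟩
  obtain ⟨p⟩ := hS.preconnected ⟨w, hw⟩ ⟨v0, hv0⟩
  obtain ⟨e, -, h1, h2⟩ := p.exists_boundary_dart {x | w.1 <:+ x.1.1} List.suffix_rfl (by
    intro h
    exact hne (suffix_eq_of_len h (hmin w hw)))
  have hadj : (wordGraph d).Adj e.fst.1 e.snd.1 := e.adj
  obtain ⟨i, hi⟩ := hadj
  change w.1 <:+ e.fst.1.1 at h1
  change ¬ (w.1 <:+ e.snd.1.1) at h2
  by_cases hh : e.fst.1.head? = some i
  · have h3 : e.snd.1 = e.fst.1.par := by rw [hi, W.nb_eq_par hh]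
    have h4 : w = e.fst.1 := by
      by_contra h5
      apply h2
      rw [h3]
      obtain ⟨l, hl⟩ := h1
      cases l with
      | nil => exact absurd (Subtype.ext hl) h5
      | cons a t =>
        refine ⟨t, ?_⟩
        have : e.fst.1.par.1 = e.fst.1.1.tail := rfl
        rw [this, ← hl]
        rfl
    rw [h4, ← h3]
    exact e.snd.2
  · exfalso
    apply h2
    rw [hi]
    exact h1.trans (suffix_nb' hh)
where
  suffix_nb' {w : W d} {i : Fin d} (h : w.head? ≠ some i) : w.1 <:+ (W.nb i w).1 := by
    rw [W.nb_of_ne h]; exact List.suffix_cons _ _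

open Crest.ProbabilityR.TreeIsing

lemma adj_par {u : W d} (hu : u ≠ W.root) : (wordGraph d).Adj u u.par := by
  obtain ⟨i, hi⟩ := W.exists_head hu
  exact ⟨i, (W.nb_eq_par hi).symm⟩

lemma weight_singleton (θ : ℝ) (v : W d) (η : W d → Bool) :
    isingWeight (wordGraph d) θ {v} η = 1 / 2 := by
  classical
  unfold isingWeight
  have : ∀ (inst : DecidablePred (· ∈ (wordGraph d).edgeSet)),
      ({e ∈ ({v} : Finset (W d)).sym2 | e ∈ (wordGraph d).edgeSet} : Finset (Sym2 (W d))) = ∅ := by
    intro inst
    rw [Finset.filter_eq_empty_iff]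
    intro e he
    rw [Finset.mem_sym2_iff] at he
    induction e using Sym2.ind with
    | _ a b =>
      have ha := he a (Sym2.mem_mk_left a b)
      have hb := he b (Sym2.mem_mk_right a b)
      rw [Finset.mem_singleton] at ha hb
      subst ha; subst hb
      simp
  rw [this]
  simp

lemma weight_erase (θ : ℝ) {S : Finset (W d)} {u : W d} (hu : u ∈ S) (hur : u ≠ W.root)
    (hup : u.par ∈ S) (hmax : ∀ w ∈ S, w.len ≤ u.len) (η : W d → Bool) :
    isingWeight (wordGraph d) θ S η = isingWeight (wordGraph d) θ (S.erase u) η *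
      (if η u = η u.par then (1 + θ) / 2 else (1 - θ) / 2) := by
  classical
  unfold isingWeight
  have hne : u.par ≠ u := by
    intro h
    have := W.len_par hur
    rw [h] at this
    omega
  have key : ∀ (inst : DecidablePred (· ∈ (wordGraph d).edgeSet)),
      ({e ∈ S.sym2 | e ∈ (wordGraph d).edgeSet} : Finset (Sym2 (W d))) =
      insert s(u, u.par) ({e ∈ (S.erase u).sym2 | e ∈ (wordGraph d).edgeSet}) := by
    intro inst
    ext e
    induction e using Sym2.ind with
    | _ a b =>
      simp only [Finset.mem_filter, Finset.mk_mem_sym2_iff, SimpleGraph.mem_edgeSet,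
        Finset.mem_insert, Finset.mem_erase]
      constructor
      · rintro ⟨⟨ha, hb⟩, hab⟩
        by_cases h1 : a = u
        · left
          subst h1
          obtain ⟨i, hi⟩ := hab
          by_cases hh : a.head? = some i
          · rw [hi, W.nb_eq_par hh]
          · exfalso
            have := hmax b hb
            rw [hi, W.len_nb_of_ne hh] at this
            omega
        · by_cases h2 : b = u
          · left
            subst h2
            obtain ⟨i, hi⟩ := hab.symm
            by_cases hh : b.head? = some i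
            · rw [hi, W.nb_eq_par hh]
              exact Sym2.eq_swap
            · exfalso
              have := hmax a ha
              rw [hi, W.len_nb_of_ne hh] at this
              omega
          · right
            exact ⟨⟨⟨h1, ha⟩, ⟨h2, hb⟩⟩, hab⟩
      · rintro (h | ⟨⟨⟨h1, ha⟩, ⟨h2, hb⟩⟩, hab⟩)
        · rw [Sym2.eq_iff] at h
          rcases h with ⟨rfl, rfl⟩ | ⟨rfl, rfl⟩
          · exact ⟨⟨hu, hup⟩, adj_par hur⟩
          · exact ⟨⟨hup, hu⟩, (adj_par hur).symm⟩
        · exact ⟨⟨ha, hb⟩, hab⟩
  rw [key, Finset.prod_insert]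
  · simp only [Sym2.map_mk, Sym2.mk_isDiag_iff]
    ring
  · simp [Finset.mem_sym2_iff]

lemma Mg_ind (θ : ℝ) (b c : Bool) :
    Mg θ (fun a => if a = b then 1 else 0) c = if b = c then (1 + θ) / 2 else (1 - θ) / 2 := by
  unfold Mg
  cases b <;> cases c <;> simp

theorem nu_top {θ : ℝ} (h0 : 0 ≤ θ) (h1 : θ ≤ 1) (n : ℕ) (S : Finset (W d)) (hn : S.card = n + 1)
    (v0 : W d) (hT : TopOf S v0) (η : W d → Bool) :
    ∫ x, (if ∀ v ∈ S, x v = η v then (1 : ℝ) else 0) ∂(nu d θ) =
      isingWeight (wordGraph d) θ S η := by
  have i1 := isProb_nu d h1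
  induction n generalizing S with
  | zero =>
    have hS : S = {v0} := by
      obtain ⟨a, ha⟩ := Finset.card_eq_one.1 hn
      have := hT.1
      rw [ha, Finset.mem_singleton] at this
      rw [ha, this]
    subst hS
    rw [weight_singleton]
    have i2 := isProb_epsLaw d h1
    have e1 : ∀ x : W d → Bool, (if ∀ v ∈ ({v0} : Finset (W d)), x v = η v then (1 : ℝ) else 0) =
        (1 + sg (η v0) * sg (x v0)) / 2 := by
      intro x
      simp only [Finset.mem_singleton, forall_eq]
      cases x v0 <;> cases η v0 <;> norm_num [sg]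
    simp_rw [e1]
    have hsm : Measurable (fun x : W d → Bool => sg (x v0)) :=
      measurable_sg.comp (measurable_pi_apply v0)
    have hint : Integrable (fun x : W d → Bool => sg (x v0)) (nu d θ) :=
      Integrable.of_bound hsm.aestronglyMeasurable 1 (Filter.Eventually.of_forall fun x => by
        rw [Real.norm_eq_abs, abs_sg])
    have h0' : ∫ x, sg (x v0) ∂(nu d θ) = 0 := by
      have hc : Measurable (fun (x : W d → Bool) (v : W d) => !(x v)) := by
        rw [measurable_pi_iff]; intro w
        exact (measurable_of_countable (fun b : Bool => !b)).comp (measurable_pi_apply w)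
      have h3 : ∫ x, sg (x v0) ∂(nu d θ) = - ∫ x, sg (x v0) ∂(nu d θ) := by
        conv_lhs => rw [← nu_flip θ h1]
        rw [integral_map hc.aemeasurable hsm.aestronglyMeasurable, ← integral_neg]
        refine integral_congr_ae (Filter.Eventually.of_forall fun x => ?_)
        exact sg_not _
      linarith
    rw [integral_div, integral_add (integrable_const _) (hint.const_mul _), integral_const_mul, h0']
    simp
  | succ n ih =>
    have hcard : 0 < (S.erase v0).card := by
      rw [Finset.card_erase_of_mem hT.1]; omega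
    obtain ⟨u, hu, hmax⟩ := Finset.exists_max_image (S.erase v0) W.len (Finset.card_pos.1 hcard)
    obtain ⟨huv, huS⟩ := Finset.mem_erase.1 hu
    obtain ⟨hur, hup⟩ := hT.2 u huS huv
    have hmax' : ∀ w ∈ S, w.len ≤ u.len := by
      intro w hw
      by_cases h : w = v0
      · subst h; exact hT.len_le huS
      · exact hmax w (Finset.mem_erase.2 ⟨h, hw⟩)
    have hne : u.par ≠ u := by
      intro h
      have := W.len_par hur
      rw [h] at this
      omega
    have hT' : TopOf (S.erase u) v0 := by
      refine ⟨Finset.mem_erase.2 ⟨fun h => huv h.symm, hT.1⟩, fun w hw hwv => ?_⟩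
      obtain ⟨hwu, hwS⟩ := Finset.mem_erase.1 hw
      obtain ⟨h3, h4⟩ := hT.2 w hwS hwv
      refine ⟨h3, Finset.mem_erase.2 ⟨fun h => ?_, h4⟩⟩
      have h5 := W.len_par h3
      rw [h] at h5
      have := hmax' w hwS
      omega
    have hcard' : (S.erase u).card = n + 1 := by
      rw [Finset.card_erase_of_mem huS]; omega
    rw [weight_erase θ huS hur hup hmax' η, ← ih (S.erase u) hcard' hT']
    obtain ⟨i, hi⟩ := W.exists_head hur
    have hm1 : Measurable (fun x : W d → Bool =>
        (if ∀ v ∈ S.erase u, x v = η v then (1 : ℝ) else 0)) := by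
      refine Measurable.ite ?_ measurable_const measurable_const
      have : {x : W d → Bool | ∀ v ∈ S.erase u, x v = η v} =
          ⋂ v ∈ S.erase u, {x | x v = η v} := by
        ext x; simp
      rw [this]
      exact Finset.measurableSet_biInter _ fun v _ =>
        measurableSet_eq_fun (measurable_pi_apply v) measurable_const
    have e1 : ∀ x : W d → Bool, (if ∀ v ∈ S, x v = η v then (1 : ℝ) else 0) =
        (if ∀ v ∈ S.erase u, x v = η v then (1 : ℝ) else 0) *
          (fun a => if a = η u then (1 : ℝ) else 0) (x u) := by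
      intro x
      by_cases h2 : x u = η u
      · simp only [h2, if_true, mul_one]
        congr 1
        apply propext
        constructor
        · intro h v hv; exact h v (Finset.mem_of_mem_erase hv)
        · intro h v hv
          by_cases h3 : v = u
          · rw [h3]; exact h2
          · exact h v (Finset.mem_erase.2 ⟨h3, hv⟩)
      · simp only [h2, if_false, mul_zero]
        rw [if_neg]
        exact fun h => h2 (h u huS)
    simp_rw [e1]
    rw [markov h0 h1 hi _ hm1 ⟨1, fun x => by split_ifs <;> norm_num⟩ ?_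
      (fun a => if a = η u then (1 : ℝ) else 0)]
    · rw [← integral_mul_const]
      refine integral_congr_ae (Filter.Eventually.of_forall fun x => ?_)
      simp only
      by_cases h2 : ∀ v ∈ S.erase u, x v = η v
      · have h3 := Mg_ind θ (η u) (x u.par)
        unfold Mg at h3
        rw [h3, h2 u.par (Finset.mem_erase.2 ⟨hne, hup⟩)]
      · rw [if_neg h2]; ring
    · intro x x' hx
      congr 1
      apply propext
      refine forall₂_congr fun v hv => ?_
      rw [hx v]
      intro h3
      obtain ⟨hv1, hv2⟩ := Finset.mem_erase.1 hv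
      exact hv1 (suffix_eq_of_len h3 (hmax' v hv2)).symm

/-- marginals on finite connected sets -/
theorem nu_connected {θ : ℝ} (h0 : 0 ≤ θ) (h1 : θ ≤ 1) (S : Finset (W d)) (η : W d → Bool)
    (hS : ((wordGraph d).induce (S : Set (W d))).Connected) :
    nu d θ {x | ∀ v ∈ S, x v = η v} = ENNReal.ofReal (isingWeight (wordGraph d) θ S η) := by
  have i1 := isProb_nu d h1
  obtain ⟨v0, hv0⟩ := exists_top S hS
  have hcard : 0 < S.card := Finset.card_pos.2 ⟨v0, hv0.1⟩
  rw [← nu_top h0 h1 (S.card - 1) S (by omega) v0 hv0 η]
  have hms : MeasurableSet {x : W d → Bool | ∀ v ∈ S, x v = η v} := by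
    have : {x : W d → Bool | ∀ v ∈ S, x v = η v} = ⋂ v ∈ S, {x | x v = η v} := by
      ext x; simp
    rw [this]
    exact Finset.measurableSet_biInter _ fun v _ =>
      measurableSet_eq_fun (measurable_pi_apply v) measurable_const
  have e1 : (fun x : W d → Bool => (if ∀ v ∈ S, x v = η v then (1 : ℝ) else 0)) =
      {x : W d → Bool | ∀ v ∈ S, x v = η v}.indicator (fun _ => 1) := by
    funext x
    simp only [Set.indicator_apply, Set.mem_ofPred_eq]
  rw [e1, integral_indicator_const _ hms]
  simp [Measure.real]

/-! ### messages as means on a branch -/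

open Classical in
/-- the field restricted to the branch of `w` -/
noncomputable def brF (y : W d → ℝ) (w : W d) (u : W d) : ℝ := if w.1 <:+ u.1 then y u else 0

lemma phi_zero' (θ : ℝ) : phi θ 0 = 0 := by simp [phi]

lemma msg_branch_out (θ : ℝ) (y : W d → ℝ) (w : W d) (n : ℕ) (v : W d) (hv : v ≠ W.root)
    (hs : ¬ (w.1 <:+ (W.tr w v).1)) : msg θ (brF y w ∘ W.tr w) n v = 0 := by
  induction n generalizing v with
  | zero => simp [msg, brF, hs]
  | succ n ih =>
    have e1 : msg θ (brF y w ∘ W.tr w) (n + 1) v = brF y w (W.tr w v) +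
      ∑ i : Fin d, if v.head? = some i then 0 else
        phi θ (msg θ (brF y w ∘ W.tr w) n (W.nb i v)) := rfl
    rw [e1]
    have e2 : brF y w (W.tr w v) = 0 := by simp [brF, hs]
    rw [e2, zero_add]
    refine Finset.sum_eq_zero fun i _ => ?_
    split_ifs with hi
    · rfl
    · rw [ih (W.nb i v) ?_ ?_, phi_zero']
      · intro h
        have := W.len_nb_of_ne hi
        rw [h, W.len_root] at this
        omega
      · intro h
        rw [W.tr_nb] at h
        by_cases hh : (W.tr w v).head? = some i
        · apply hs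
          refine h.trans ?_
          rw [W.nb_eq_par hh]
          exact List.tail_suffix _
        · rw [W.nb_of_ne hh, List.suffix_cons_iff] at h
          rcases h with h | h
          · -- then `w = nb i (tr w v)`
            have h3 : W.nb i (W.tr w v) = w := Subtype.ext (by rw [W.nb_of_ne hh, h])
            rw [← W.tr_nb] at h3
            have h4 : W.nb i v = W.root := (W.trE w).injective (by
              change W.tr w (W.nb i v) = W.tr w W.root
              rw [h3]; rfl)
            have := W.len_nb_of_ne hi
            rw [h4, W.len_root] at this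
            omega
          · exact hs h

lemma msg_branch_in (θ : ℝ) (y : W d → ℝ) (w : W d) (n : ℕ) (v : W d) (hv : v ≠ W.root)
    (hs : (W.tr w v).1 = v.1 ++ w.1) :
    msg θ (brF y w ∘ W.tr w) n v = msg θ y n (W.tr w v) := by
  have hsuf : w.1 <:+ (W.tr w v).1 := by rw [hs]; exact List.suffix_append _ _
  have hhead : (W.tr w v).head? = v.head? := by
    unfold W.head?
    rw [hs]
    obtain ⟨i, hi⟩ := W.exists_head hv
    unfold W.head? at hi
    rw [hi]
    obtain ⟨l, hl⟩ := v
    cases l with
    | nil => exact absurd rfl hv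
    | cons a t => simpa using hi
  induction n generalizing v with
  | zero => simp [msg, brF, hsuf]
  | succ n ih =>
    have e1 : msg θ (brF y w ∘ W.tr w) (n + 1) v = brF y w (W.tr w v) +
      ∑ i : Fin d, if v.head? = some i then 0 else
        phi θ (msg θ (brF y w ∘ W.tr w) n (W.nb i v)) := rfl
    have e2 : msg θ y (n + 1) (W.tr w v) = y (W.tr w v) +
      ∑ i : Fin d, if (W.tr w v).head? = some i then 0 else
        phi θ (msg θ y n (W.nb i (W.tr w v))) := rfl
    rw [e1, e2, hhead]
    congr 1
    · simp [brF, hsuf]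
    · refine Finset.sum_congr rfl fun i _ => ?_
      split_ifs with hi
      · rfl
      · have hne : W.nb i v ≠ W.root := by
          intro h
          have := W.len_nb_of_ne hi
          rw [h, W.len_root] at this
          omega
        have hs' : (W.tr w (W.nb i v)).1 = (W.nb i v).1 ++ w.1 := by
          rw [W.tr_nb, W.nb_of_ne (by rwa [hhead]), W.nb_of_ne hi, hs]
          rfl
        rw [ih (W.nb i v) hne hs' (by rw [hs']; exact List.suffix_append _ _) ?_, W.tr_nb]
        rw [W.tr_nb, W.head?_nb_of_ne (by rwa [hhead]), W.head?_nb_of_ne hi]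

/-- the message of `w` is the full field at `w` when only the branch of `w` carries fields -/
theorem msg_branch (θ : ℝ) (y : W d → ℝ) (w : W d) (n : ℕ) :
    msg θ (brF y w ∘ W.tr w) n W.root = msg θ y n w := by
  cases n with
  | zero => simp [msg, brF]
  | succ n =>
    have e1 : msg θ (brF y w ∘ W.tr w) (n + 1) W.root = brF y w (W.tr w W.root) +
      ∑ i : Fin d, if (W.root : W d).head? = some i then 0 else
        phi θ (msg θ (brF y w ∘ W.tr w) n (W.nb i W.root)) := rfl
    have e2 : msg θ y (n + 1) w = y w +
      ∑ i : Fin d, if w.head? = some i then 0 else phi θ (msg θ y n (W.nb i w)) := rfl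
    rw [e1, e2]
    congr 1
    · simp [brF]
    · refine Finset.sum_congr rfl fun i _ => ?_
      have hr : ¬ ((W.root : W d).head? = some i) := by simp [W.root, W.head?]
      rw [if_neg hr]
      have hne : W.nb i W.root ≠ W.root := by
        intro h
        have := W.len_nb_of_ne hr
        rw [h, W.len_root] at this
        omega
      split_ifs with hi
      · rw [msg_branch_out θ y w n _ hne ?_, phi_zero']
        rw [W.tr_nb, W.tr_root, W.nb_eq_par hi]
        exact not_suffix_par hi
      · rw [msg_branch_in θ y w n _ hne ?_, W.tr_nb, W.tr_root]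
        rw [W.tr_nb, W.tr_root, W.nb_of_ne hi, W.nb_of_ne hr]
        rfl

end Crest.Agent.TI
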