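import Crest.Agent.TIConc

/-!
Row 160 (S0241), piece TREE, part B: elementary facts on messages (T1, T2, T6, T7, C4, C5).
-/

set_option autoImplicit false
set_option linter.all false

namespace Crest.Agent.TI

/-- difference of the local fields and of the incoming messages at the root -/
noncomputable def Fd {d : ℕ} (θ : ℝ) (y y' : W d → ℝ) : ℝ :=
  |y W.root - y' W.root| + ∑ i : Fin d, |phi θ (msgI θ y (W.nb i W.root)) - phi θ (msgI θ y' (W.nb i W.root))|

/-- minus the logarithm of `phid / θ` -/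
noncomputable def GG (θ h : ℝ) : ℝ :=
  Real.log ((1 - θ ^ 2 * Real.tanh h ^ 2) / (1 - Real.tanh h ^ 2))

namespace TreeB

open Filter Topology

variable {d : ℕ} {θ : ℝ}

/-! ### Scalar facts -/

lemma artanh_theta_nonneg (h0 : 0 ≤ θ) : 0 ≤ Real.artanh θ := Real.artanh_nonneg h0

lemma phi_abs_le (h0 : 0 ≤ θ) (h1 : θ < 1) (h : ℝ) : |phi θ h| ≤ Real.artanh θ := by
  have hp : ∀ h : ℝ, phi θ h ≤ Real.artanh θ := by
    intro h
    unfold phi
    have hm := Scal.mul_tanh_mem h0 h1 h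
    apply Real.artanh_le_artanh hm.1 h1
    have := (Real.tanh_lt_one h).le
    calc θ * Real.tanh h ≤ θ * 1 := mul_le_mul_of_nonneg_left this h0
      _ = θ := mul_one _
  rw [abs_le]
  constructor
  · have := hp (-h)
    rw [Scal.phi_neg h0 h1] at this
    linarith
  · exact hp h

lemma one_sub_tanh_sq_pos (h : ℝ) : 0 < 1 - Real.tanh h ^ 2 := by
  linarith [Real.tanh_sq_lt_one h]

lemma GG_nonneg (h0 : 0 ≤ θ) (h1 : θ < 1) (h : ℝ) : 0 ≤ GG θ h := by
  unfold GG
  apply Real.log_nonneg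
  rw [one_le_div (one_sub_tanh_sq_pos h)]
  have : θ ^ 2 ≤ 1 := by nlinarith
  have h2 := sq_nonneg (Real.tanh h)
  nlinarith

lemma GG_neg (θ h : ℝ) : GG θ (-h) = GG θ h := by simp [GG, Real.tanh_neg]

lemma GG_zero (θ : ℝ) : GG θ 0 = 0 := by simp [GG]

lemma phid_eq (h0 : 0 ≤ θ) (h1 : θ < 1) (h : ℝ) : phid θ h = θ * Real.exp (- GG θ h) := by
  unfold GG phid
  rw [← Real.log_inv, Real.exp_log (inv_pos.2 (div_pos (Scal.den_pos h0 h1 h) (one_sub_tanh_sq_pos h))),
    inv_div, mul_div_assoc]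

lemma continuous_GG (h0 : 0 ≤ θ) (h1 : θ < 1) : Continuous (GG θ) := by
  unfold GG
  apply Continuous.log
  · apply Continuous.div
    · exact continuous_const.sub (continuous_const.mul (Scal.continuous_tanh.pow 2))
    · exact continuous_const.sub (Scal.continuous_tanh.pow 2)
    · intro x; exact (one_sub_tanh_sq_pos x).ne'
  · intro x; exact (div_pos (Scal.den_pos h0 h1 x) (one_sub_tanh_sq_pos x)).ne'

lemma log_lip {u v c : ℝ} (hc : 0 < c) (hu : c ≤ u) (hv : c ≤ v) : |Real.log u - Real.log v| ≤ |u - v| / c := by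
  have key : ∀ {u v : ℝ}, c ≤ u → c ≤ v → Real.log u - Real.log v ≤ |u - v| / c := by
    intro u v hu hv
    have hu0 : 0 < u := hc.trans_le hu
    have hv0 : 0 < v := hc.trans_le hv
    rw [← Real.log_div hu0.ne' hv0.ne']
    calc Real.log (u / v) ≤ u / v - 1 := Real.log_le_sub_one_of_pos (div_pos hu0 hv0)
      _ = (u - v) / v := by field_simp
      _ ≤ |u - v| / v := div_le_div_of_nonneg_right (le_abs_self _) hv0.le
      _ ≤ |u - v| / c := div_le_div_of_nonneg_left (abs_nonneg _) hc hv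
  rw [abs_le]
  constructor
  · have := key hv hu
    rw [abs_sub_comm] at this
    linarith
  · exact key hu hv

lemma GG_lip (h0 : 0 ≤ θ) (h1 : θ < 1) (B : ℝ) : ∃ C : ℝ, 0 < C ∧ ∀ h h' : ℝ, |h| ≤ B → |h'| ≤ B →
    |GG θ h - GG θ h'| ≤ C * |Real.tanh h ^ 2 - Real.tanh h' ^ 2| := by
  set c := 1 - Real.tanh B ^ 2 with hc
  have hc0 : 0 < c := one_sub_tanh_sq_pos B
  refine ⟨2 / c, by positivity, ?_⟩
  have hbd : ∀ h : ℝ, |h| ≤ B → c ≤ 1 - Real.tanh h ^ 2 := by
    intro h hh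
    have hB0 : 0 ≤ B := (abs_nonneg _).trans hh
    have h2 : |Real.tanh h| ≤ Real.tanh B := by
      have e : |Real.tanh h| = Real.tanh |h| := by
        rcases le_total 0 h with h3 | h3
        · rw [abs_of_nonneg h3, abs_of_nonneg (Scal.tanh_nonneg_iff.2 h3)]
        · rw [abs_of_nonpos h3, Real.tanh_neg, abs_of_nonpos]
          have := Scal.tanh_nonneg_iff.2 (show 0 ≤ -h by linarith)
          rw [Real.tanh_neg] at this
          linarith
      rw [e]
      exact Scal.tanh_strictMono.monotone hh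
    have h3 : Real.tanh h ^ 2 ≤ Real.tanh B ^ 2 := by
      rw [← sq_abs (Real.tanh h)]
      exact pow_le_pow_left₀ (abs_nonneg _) h2 2
    rw [hc]; linarith
  intro h h' hh hh'
  have e1 := hbd h hh
  have e2 := hbd h' hh'
  have hθ2 : θ ^ 2 ≤ 1 := by nlinarith
  have f1 : c ≤ 1 - θ ^ 2 * Real.tanh h ^ 2 := by nlinarith [sq_nonneg (Real.tanh h)]
  have f2 : c ≤ 1 - θ ^ 2 * Real.tanh h' ^ 2 := by nlinarith [sq_nonneg (Real.tanh h')]
  unfold GG
  rw [Real.log_div (Scal.den_pos h0 h1 h).ne' (one_sub_tanh_sq_pos h).ne',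
    Real.log_div (Scal.den_pos h0 h1 h').ne' (one_sub_tanh_sq_pos h').ne']
  have g1 := log_lip hc0 f1 f2
  have g2 := log_lip hc0 e1 e2
  have i1 : |(1 - θ ^ 2 * Real.tanh h ^ 2) - (1 - θ ^ 2 * Real.tanh h' ^ 2)| ≤
      |Real.tanh h ^ 2 - Real.tanh h' ^ 2| := by
    have : (1 - θ ^ 2 * Real.tanh h ^ 2) - (1 - θ ^ 2 * Real.tanh h' ^ 2) =
      -(θ ^ 2 * (Real.tanh h ^ 2 - Real.tanh h' ^ 2)) := by ring
    rw [this, abs_neg, abs_mul, abs_of_nonneg (sq_nonneg θ)]
    exact mul_le_of_le_one_left (abs_nonneg _) hθ2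
  have i2 : |(1 - Real.tanh h ^ 2) - (1 - Real.tanh h' ^ 2)| = |Real.tanh h ^ 2 - Real.tanh h' ^ 2| := by
    rw [show (1 - Real.tanh h ^ 2) - (1 - Real.tanh h' ^ 2) = -(Real.tanh h ^ 2 - Real.tanh h' ^ 2) by ring,
      abs_neg]
  rw [i2] at g2
  have g1' := g1.trans (div_le_div_of_nonneg_right i1 hc0.le)
  calc _ = |(Real.log (1 - θ ^ 2 * Real.tanh h ^ 2) - Real.log (1 - θ ^ 2 * Real.tanh h' ^ 2)) -
        (Real.log (1 - Real.tanh h ^ 2) - Real.log (1 - Real.tanh h' ^ 2))| := by congr 1; ring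
    _ ≤ |Real.log (1 - θ ^ 2 * Real.tanh h ^ 2) - Real.log (1 - θ ^ 2 * Real.tanh h' ^ 2)| +
        |Real.log (1 - Real.tanh h ^ 2) - Real.log (1 - Real.tanh h' ^ 2)| := abs_sub _ _
    _ ≤ |Real.tanh h ^ 2 - Real.tanh h' ^ 2| / c + |Real.tanh h ^ 2 - Real.tanh h' ^ 2| / c := add_le_add g1' g2
    _ = _ := by ring

lemma exp_neg_lip {a b : ℝ} (ha : 0 ≤ a) (hb : 0 ≤ b) : |Real.exp (-a) - Real.exp (-b)| ≤ |a - b| := by
  have key : ∀ {a b : ℝ}, 0 ≤ a → 0 ≤ b → Real.exp (-a) - Real.exp (-b) ≤ |a - b| := by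
    intro a b ha hb
    rcases le_total a b with h | h
    · have h2 : Real.exp (-b) ≥ Real.exp (-a) * (1 - (b - a)) := by
        have : Real.exp (-b) = Real.exp (-a) * Real.exp (-(b - a)) := by rw [← Real.exp_add]; congr 1; ring
        rw [this]
        apply mul_le_mul_of_nonneg_left _ (Real.exp_pos _).le
        have := Real.add_one_le_exp (-(b - a))
        linarith
      have h3 : Real.exp (-a) ≤ 1 := Real.exp_le_one_iff.2 (by linarith)
      rw [abs_sub_comm, abs_of_nonneg (by linarith)]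
      have : Real.exp (-a) * (b - a) ≤ 1 * (b - a) := mul_le_mul_of_nonneg_right h3 (by linarith)
      nlinarith
    · have : Real.exp (-a) ≤ Real.exp (-b) := Real.exp_le_exp.2 (by linarith)
      have := abs_nonneg (a - b)
      linarith
  rw [abs_le]
  constructor
  · have := key hb ha
    rw [abs_sub_comm] at this
    linarith
  · exact key ha hb

lemma prod_phid (h0 : 0 ≤ θ) (h1 : θ < 1) (k : ℕ) (h h' : ℕ → ℝ) :
    |∏ j ∈ Finset.range k, phid θ (h j) - ∏ j ∈ Finset.range k, phid θ (h' j)| ≤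
      θ ^ k * |∑ j ∈ Finset.range k, (GG θ (h j) - GG θ (h' j))| := by
  have e : ∀ h : ℕ → ℝ, ∏ j ∈ Finset.range k, phid θ (h j) =
      θ ^ k * Real.exp (-∑ j ∈ Finset.range k, GG θ (h j)) := by
    intro h
    simp only [phid_eq h0 h1]
    rw [Finset.prod_mul_distrib, Finset.prod_const, Finset.card_range, ← Real.exp_sum, Finset.sum_neg_distrib]
  rw [e, e, ← mul_sub, abs_mul, abs_of_nonneg (by positivity : (0 : ℝ) ≤ θ ^ k), Finset.sum_sub_distrib]
  exact mul_le_mul_of_nonneg_left (exp_neg_lip (Finset.sum_nonneg fun _ _ => GG_nonneg h0 h1 _)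
    (Finset.sum_nonneg fun _ _ => GG_nonneg h0 h1 _)) (by positivity)

/-- (C4) -/
lemma C4 (h0 : 0 ≤ θ) (h1 : θ < 1) {A A' B B' : ℝ} (hA : |A| ≤ 1) (hA' : |A'| ≤ 1) (hB : |B| ≤ 1)
    (hB' : |B'| ≤ 1) :
    |B - B'| ≤ 8 / (1 - θ ^ 2) ^ 2 * (|(A + θ * B) / (1 + θ * A * B) - (A' + θ * B') / (1 + θ * A' * B')| +
      |(B + θ * A) / (1 + θ * A * B) - (B' + θ * A') / (1 + θ * A' * B')|) := by
  have hθ2 : 0 < 1 - θ ^ 2 := by nlinarith
  have hθs : 0 ≤ θ ^ 2 := sq_nonneg θ
  have prod_le : ∀ {x y : ℝ}, |x| ≤ 1 → |y| ≤ 1 → |x * y| ≤ 1 := fun hx hy => by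
    rw [abs_mul]; exact mul_le_one₀ hx (abs_nonneg _) hy
  have hAB := abs_le.1 (prod_le hA hB)
  have hAB' := abs_le.1 (prod_le hA' hB')
  have hBB := abs_le.1 (prod_le hB hB')
  have hAABB := abs_le.1 (prod_le (prod_le hA hA') (prod_le hB hB'))
  have bnd : ∀ {x : ℝ}, -1 ≤ x ∧ x ≤ 1 → 0 < 1 + θ * x ∧ 1 + θ * x ≤ 2 := by
    intro x hx
    constructor
    · have : θ * (-1) ≤ θ * x := mul_le_mul_of_nonneg_left hx.1 h0
      linarith
    · have : θ * x ≤ θ * 1 := mul_le_mul_of_nonneg_left hx.2 h0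
      linarith
  have hD1 := bnd hAB
  have hD2 := bnd hAB'
  rw [← mul_assoc] at hD1 hD2
  set m := (A + θ * B) / (1 + θ * A * B) with hm
  set m' := (A' + θ * B') / (1 + θ * A' * B') with hm'
  set n := (B + θ * A) / (1 + θ * A * B) with hn
  set n' := (B' + θ * A') / (1 + θ * A' * B') with hn'
  have n1 : 1 + θ * A * B ≠ 0 := hD1.1.ne'
  have n2 : 1 + θ * A' * B' ≠ 0 := hD2.1.ne'
  set D := (1 + θ * A * B) * (1 + θ * A' * B') with hD
  have hDpos : 0 < D := mul_pos hD1.1 hD2.1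
  have hD4 : D ≤ 4 := by
    calc D ≤ 2 * 2 := mul_le_mul hD1.2 hD2.2 hD2.1.le (by norm_num)
      _ = 4 := by norm_num
  have em : D * (m - m') = (1 - θ ^ 2 * B * B') * (A - A') + θ * (1 - A * A') * (B - B') := by
    rw [hm, hm', hD]; field_simp; ring
  have en : D * (n - n') = θ * (1 - B * B') * (A - A') + (1 - θ ^ 2 * A * A') * (B - B') := by
    rw [hn, hn', hD]; field_simp; ring
  have hdet : (1 - θ ^ 2) * (1 - θ ^ 2 * (A * A' * (B * B'))) * (B - B') =
      (1 - θ ^ 2 * B * B') * (D * (n - n')) - θ * (1 - B * B') * (D * (m - m')) := by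
    rw [em, en]; ring
  have hdet2 : 1 - θ ^ 2 ≤ 1 - θ ^ 2 * (A * A' * (B * B')) := by
    have : θ ^ 2 * (A * A' * (B * B')) ≤ θ ^ 2 * 1 := mul_le_mul_of_nonneg_left hAABB.2 hθs
    linarith
  have u1 : |1 - θ ^ 2 * B * B'| ≤ 2 := by
    have e1 : θ ^ 2 * (B * B') ≤ θ ^ 2 * 1 := mul_le_mul_of_nonneg_left hBB.2 hθs
    have e2 : θ ^ 2 * (-1) ≤ θ ^ 2 * (B * B') := mul_le_mul_of_nonneg_left hBB.1 hθs
    have e3 : θ ^ 2 * B * B' = θ ^ 2 * (B * B') := by ring
    rw [abs_le, e3]; constructor <;> linarith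
  have u2 : |θ * (1 - B * B')| ≤ 2 := by
    rw [abs_mul, abs_of_nonneg h0]
    have : |1 - B * B'| ≤ 2 := by rw [abs_le]; constructor <;> linarith [hBB.1, hBB.2]
    calc θ * |1 - B * B'| ≤ 1 * 2 := mul_le_mul h1.le this (abs_nonneg _) (by norm_num)
      _ = 2 := by norm_num
  have dpos : 0 ≤ (1 - θ ^ 2) * (1 - θ ^ 2 * (A * A' * (B * B'))) :=
    mul_nonneg hθ2.le (hθ2.le.trans hdet2)
  have h3 : (1 - θ ^ 2) ^ 2 * |B - B'| ≤ 8 * (|m - m'| + |n - n'|) := by
    calc (1 - θ ^ 2) ^ 2 * |B - B'| ≤ ((1 - θ ^ 2) * (1 - θ ^ 2 * (A * A' * (B * B')))) * |B - B'| := by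
          apply mul_le_mul_of_nonneg_right _ (abs_nonneg _)
          rw [sq (1 - θ ^ 2)]
          exact mul_le_mul_of_nonneg_left hdet2 hθ2.le
      _ = |(1 - θ ^ 2) * (1 - θ ^ 2 * (A * A' * (B * B'))) * (B - B')| := by
          rw [abs_mul, abs_of_nonneg dpos]
      _ = |(1 - θ ^ 2 * B * B') * (D * (n - n')) - θ * (1 - B * B') * (D * (m - m'))| := by rw [hdet]
      _ ≤ |(1 - θ ^ 2 * B * B') * (D * (n - n'))| + |θ * (1 - B * B') * (D * (m - m'))| := abs_sub _ _
      _ ≤ 2 * (4 * |n - n'|) + 2 * (4 * |m - m'|) := by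
          apply add_le_add
          · rw [abs_mul, abs_mul, abs_of_pos hDpos]
            exact mul_le_mul u1 (mul_le_mul_of_nonneg_right hD4 (abs_nonneg _)) (by positivity) (by norm_num)
          · rw [abs_mul (θ * (1 - B * B')), abs_mul D, abs_of_pos hDpos]
            exact mul_le_mul u2 (mul_le_mul_of_nonneg_right hD4 (abs_nonneg _)) (by positivity) (by norm_num)
      _ = _ := by ring
  rw [div_mul_eq_mul_div, le_div_iff₀ (by positivity)]
  linarith

/-! ### Words -/

lemma len_nb_le (i : Fin d) (w : W d) : (W.nb i w).len ≤ w.len + 1 := by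
  by_cases h : w.head? = some i
  · have := W.len_nb_of_eq h; omega
  · rw [W.len_nb_of_ne h]

lemma len_tr_le (v w : W d) : (W.tr v w).len ≤ v.len + w.len := by
  obtain ⟨l, hl⟩ := w
  induction l with
  | nil => simp [W.tr, W.len]
  | cons j t ih =>
    have h1 := ih hl.tail
    have h2 : W.tr v ⟨j :: t, hl⟩ = W.nb j (W.tr v ⟨t, hl.tail⟩) := rfl
    rw [h2]
    refine (len_nb_le _ _).trans ?_
    simp only [W.len, List.length_cons] at h1 ⊢
    omega

lemma head_tr {v w : W d} (hw : w ≠ W.root) (h : (W.tr v w).len = v.len + w.len) :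
    (W.tr v w).head? = w.head? := by
  obtain ⟨i, hi⟩ := W.exists_head hw
  have hnb : W.nb i w.par = w := by rw [← W.nb_eq_par hi, W.nb_nb]
  have e1 : W.tr v w = W.nb i (W.tr v w.par) := by
    conv_lhs => rw [← hnb]
    rw [W.tr_nb]
  have h2 := len_tr_le v w.par
  have h3 := W.len_par hw
  have h4 : (W.tr v w.par).head? ≠ some i := by
    intro h5
    have h6 := W.len_nb_of_eq h5
    rw [← e1] at h6
    omega
  rw [e1, W.head?_nb_of_ne h4, hi]

lemma msg_tr (θ : ℝ) (y : W d → ℝ) (v : W d) (n : ℕ) : ∀ w : W d, w ≠ W.root →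
    (W.tr v w).len = v.len + w.len → msg θ (y ∘ W.tr v) n w = msg θ y n (W.tr v w) := by
  induction n with
  | zero => intro w _ _; rfl
  | succ n ih =>
    intro w hw h
    simp only [msg, Function.comp]
    congr 1
    apply Finset.sum_congr rfl
    intro i _
    rw [head_tr hw h]
    split_ifs with hi
    · rfl
    · have hne : W.nb i w ≠ W.root := by
        intro h2
        have h3 := W.len_nb_of_ne hi
        rw [h2, W.len_root] at h3
        omega
      have hi2 : (W.tr v w).head? ≠ some i := by rw [head_tr hw h]; exact hi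
      have h4 : (W.tr v (W.nb i w)).len = v.len + (W.nb i w).len := by
        rw [W.tr_nb, W.len_nb_of_ne hi2, W.len_nb_of_ne hi, h]; omega
      have := ih (W.nb i w) hne h4
      rw [W.tr_nb] at this
      change phi θ (msg θ (y ∘ W.tr v) n (W.nb i w)) = _
      rw [this]

/-- (T2) -/
lemma msgI_tr (θ : ℝ) (y : W d → ℝ) (v w : W d) (hw : w ≠ W.root)
    (h : (W.tr v w).len = v.len + w.len) : msgI θ (y ∘ W.tr v) w = msgI θ y (W.tr v w) := by
  unfold msgI
  congr 1
  funext n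
  exact msg_tr θ y v n w hw h

/-! ### Messages -/

lemma good_tr {y : W d → ℝ} (hy : Good θ y) (v : W d) : Good θ (y ∘ W.tr v) := by
  intro v' w
  have e : (y ∘ W.tr v) ∘ W.tr v' = y ∘ W.tr (W.tr v v') := by
    funext u
    simp only [Function.comp]
    rw [W.tr_tr]
  rw [e]
  exact hy _ _

lemma msg_neg (h0 : 0 ≤ θ) (h1 : θ < 1) (y : W d → ℝ) (n : ℕ) : ∀ w, msg θ (-y) n w = - msg θ y n w := by
  induction n with
  | zero => intro w; rfl
  | succ n ih =>
    intro w
    simp only [msg]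
    rw [neg_add, ← Finset.sum_neg_distrib]
    congr 1
    apply Finset.sum_congr rfl
    intro i _
    split_ifs
    · simp
    · rw [ih, Scal.phi_neg h0 h1]

lemma tendsto_msgI {y : W d → ℝ} (hy : Good θ y) (w : W d) :
    Tendsto (fun n => msg θ y n w) atTop (𝓝 (msgI θ y w)) := by
  obtain ⟨l, hl⟩ := hy W.root w
  have e : y ∘ W.tr W.root = y := by
    funext v
    simp
  rw [e] at hl
  have : msgI θ y w = l := hl.limsup_eq
  rw [this]
  exact hl

lemma msgI_neg (h0 : 0 ≤ θ) (h1 : θ < 1) {y : W d → ℝ} (hy : Good θ y) (w : W d) :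
    msgI θ (-y) w = - msgI θ y w := by
  have h2 : Tendsto (fun n => msg θ (-y) n w) atTop (𝓝 (- msgI θ y w)) := by
    simp only [msg_neg h0 h1]
    exact (tendsto_msgI hy w).neg
  exact h2.limsup_eq

lemma msg_abs_le (h0 : 0 ≤ θ) (h1 : θ < 1) (y : W d → ℝ) (n : ℕ) (w : W d) :
    |msg θ y n w| ≤ |y w| + d * Real.artanh θ := by
  cases n with
  | zero =>
    simp only [msg]
    have := artanh_theta_nonneg h0
    have : 0 ≤ (d : ℝ) * Real.artanh θ := by positivity
    linarith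
  | succ n =>
    simp only [msg]
    refine (abs_add_le _ _).trans ?_
    have h2 : |∑ i : Fin d, if w.head? = some i then 0 else phi θ (msg θ y n (W.nb i w))| ≤
        ∑ _i : Fin d, Real.artanh θ := by
      refine (Finset.abs_sum_le_sum_abs _ _).trans (Finset.sum_le_sum fun i _ => ?_)
      split_ifs
      · simpa using artanh_theta_nonneg h0
      · exact phi_abs_le h0 h1 _
    rw [Finset.sum_const, Finset.card_univ, Fintype.card_fin, nsmul_eq_mul] at h2
    linarith

lemma msgI_abs_le (h0 : 0 ≤ θ) (h1 : θ < 1) {y : W d → ℝ} (hy : Good θ y) {B : ℝ}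
    (hB : ∀ v, |y v| ≤ B) (w : W d) : |msgI θ y w| ≤ B + d * Real.artanh θ := by
  apply le_of_tendsto (tendsto_msgI hy w).abs
  filter_upwards with n
  have := msg_abs_le h0 h1 y n w
  have := hB w
  linarith

/-- (T1) -/
lemma msgI_eq (h0 : 0 ≤ θ) (h1 : θ < 1) {y : W d → ℝ} (hy : Good θ y) (w : W d) :
    msgI θ y w = y w + ∑ i : Fin d, if w.head? = some i then 0 else phi θ (msgI θ y (W.nb i w)) := by
  have h2 : Tendsto (fun n => msg θ y (n + 1) w) atTop
      (𝓝 (y w + ∑ i : Fin d, if w.head? = some i then 0 else phi θ (msgI θ y (W.nb i w)))) := by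
    simp only [msg]
    apply tendsto_const_nhds.add
    apply tendsto_finset_sum
    intro i _
    split_ifs
    · exact tendsto_const_nhds
    · exact ((Scal.continuous_phi h0 h1).tendsto _).comp (tendsto_msgI hy _)
  exact tendsto_nhds_unique ((tendsto_msgI hy w).comp (tendsto_add_atTop_nat 1)) h2

lemma nbr_ne (i : Fin d) : W.nb i (W.root : W d) ≠ W.root := by
  intro h
  have h3 := W.len_nb_of_ne (w := (W.root : W d)) (i := i) (by simp [W.head?, W.root])
  rw [h, W.len_root] at h3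
  omega

lemma len_nbr (i : Fin d) : (W.nb i (W.root : W d)).len = 1 := by
  rw [W.len_nb_of_ne (by simp [W.head?, W.root]), W.len_root]

lemma head_nbr (i : Fin d) : (W.nb i (W.root : W d)).head? = some i :=
  W.head?_nb_of_ne (by simp [W.head?, W.root])

lemma tr_nbr_self (i : Fin d) : W.tr (W.nb i (W.root : W d)) (W.nb i W.root) = W.root := by
  rw [W.tr_nb, W.tr_root, W.nb_nb]

/-- the two messages across the edge `{root, nb i root}` determine both magnetisations -/
lemma edge_decomp (h0 : 0 ≤ θ) (h1 : θ < 1) {y : W d → ℝ} (hy : Good θ y) (i : Fin d) :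
    msgI θ y W.root = msgI θ (y ∘ W.tr (W.nb i W.root)) (W.nb i W.root) +
        phi θ (msgI θ y (W.nb i W.root)) ∧
      msgI θ (y ∘ W.tr (W.nb i W.root)) W.root = msgI θ y (W.nb i W.root) +
        phi θ (msgI θ (y ∘ W.tr (W.nb i W.root)) (W.nb i W.root)) := by
  set v := W.nb i (W.root : W d) with hv
  have hvv : W.tr v v = W.root := tr_nbr_self i
  have hroot : (W.root : W d).head? = none := rfl
  have key : ∀ {y : W d → ℝ}, Good θ y → ∀ j, j ≠ i → 
      msgI θ (y ∘ W.tr v) (W.nb j W.root) = msgI θ y (W.nb j v) := by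
    intro y hy j hj
    have e : W.tr v (W.nb j W.root) = W.nb j v := by rw [W.tr_nb, W.tr_root]
    rw [msgI_tr θ y v (W.nb j W.root) (nbr_ne j), e]
    rw [e, W.len_nb_of_ne, len_nbr, len_nbr]
    rw [hv, head_nbr]
    intro h
    exact hj (Option.some.inj h).symm
  have hyy : (y ∘ W.tr v) ∘ W.tr v = y := by
    funext u
    simp only [Function.comp]
    rw [← W.tr_tr, hvv, W.root_tr]
  have hgy := good_tr hy v
  have sum_split : ∀ (f : Fin d → ℝ), ∑ j, f j = f i + ∑ j, if j = i then 0 else f j := by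
    intro f
    rw [← Finset.add_sum_erase Finset.univ f (Finset.mem_univ i)]
    congr 1
    rw [← Finset.add_sum_erase Finset.univ (fun j => if j = i then 0 else f j) (Finset.mem_univ i)]
    simp only [if_true, zero_add]
    apply Finset.sum_congr rfl
    intro j hj
    rw [if_neg (Finset.ne_of_mem_erase hj)]
  have hcond : ∀ j : Fin d, (v.head? = some j) ↔ j = i := by
    intro j
    rw [hv, head_nbr]
    constructor
    · intro h; exact (Option.some.inj h).symm
    · rintro rfl; rfl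
  constructor
  · rw [msgI_eq h0 h1 hy W.root, msgI_eq h0 h1 hgy v]
    simp only [hroot, reduceCtorEq, if_false, Function.comp, hvv]
    rw [sum_split (fun j => phi θ (msgI θ y (W.nb j W.root)))]
    have : ∑ j, (if j = i then (0 : ℝ) else phi θ (msgI θ y (W.nb j W.root))) =
        ∑ j, if v.head? = some j then 0 else phi θ (msgI θ (y ∘ W.tr v) (W.nb j v)) := by
      apply Finset.sum_congr rfl
      intro j _
      by_cases hj : j = i
      · rw [if_pos hj, if_pos ((hcond j).2 hj)]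
      · rw [if_neg hj, if_neg (fun h => hj ((hcond j).1 h))]
        have := key hgy j hj
        rw [hyy] at this
        rw [this]
    rw [this]
    change _ = y W.root + _ + _
    simp only [Function.comp_def]
    ring
  · rw [msgI_eq h0 h1 hgy W.root, msgI_eq h0 h1 hy v]
    simp only [hroot, reduceCtorEq, if_false]
    rw [sum_split (fun j => phi θ (msgI θ (y ∘ W.tr v) (W.nb j W.root)))]
    have : ∑ j, (if j = i then (0 : ℝ) else phi θ (msgI θ (y ∘ W.tr v) (W.nb j W.root))) =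
        ∑ j, if v.head? = some j then 0 else phi θ (msgI θ y (W.nb j v)) := by
      apply Finset.sum_congr rfl
      intro j _
      by_cases hj : j = i
      · rw [if_pos hj, if_pos ((hcond j).2 hj)]
      · rw [if_neg hj, if_neg (fun h => hj ((hcond j).1 h)), key hy j hj]
    rw [this]
    have e2 : (y ∘ W.tr v) W.root = y v := by simp
    rw [e2]
    ring

/-- (T6) -/
lemma T6 (h0 : 0 ≤ θ) (h1 : θ < 1) : ∃ C : ℝ, 0 < C ∧ ∀ y y' : W d → ℝ, Good θ y → Good θ y' →
    ∀ i, |Real.tanh (msgI θ y (W.nb i W.root)) - Real.tanh (msgI θ y' (W.nb i W.root))| ≤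
      C * (|mR θ y - mR θ y'| + |mR θ (y ∘ W.tr (W.nb i W.root)) - mR θ (y' ∘ W.tr (W.nb i W.root))|) := by
  have hθ2 : 0 < 1 - θ ^ 2 := by nlinarith
  refine ⟨8 / (1 - θ ^ 2) ^ 2, by positivity, ?_⟩
  intro y y' hy hy' i
  obtain ⟨e1, e2⟩ := edge_decomp h0 h1 hy i
  obtain ⟨e3, e4⟩ := edge_decomp h0 h1 hy' i
  set a := msgI θ (y ∘ W.tr (W.nb i W.root)) (W.nb i W.root)
  set b := msgI θ y (W.nb i W.root)
  set a' := msgI θ (y' ∘ W.tr (W.nb i W.root)) (W.nb i W.root)
  set b' := msgI θ y' (W.nb i W.root)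
  have h := C4 h0 h1 (Real.abs_tanh_lt_one a).le (Real.abs_tanh_lt_one a').le (Real.abs_tanh_lt_one b).le
    (Real.abs_tanh_lt_one b').le
  have f : ∀ a b : ℝ, Real.tanh (a + phi θ b) =
      (Real.tanh a + θ * Real.tanh b) / (1 + θ * Real.tanh a * Real.tanh b) := by
    intro a b
    rw [Scal.tanh_add, Scal.tanh_phi h0 h1]
    congr 1; ring
  have f2 : ∀ a b : ℝ, Real.tanh (b + phi θ a) =
      (Real.tanh b + θ * Real.tanh a) / (1 + θ * Real.tanh a * Real.tanh b) := by
    intro a b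
    rw [f]; congr 1; ring
  unfold mR
  rw [e1, e2, e3, e4, f, f, f2 a b, f2 a' b']
  exact h

/-- (T7) -/
lemma T7 (h0 : 0 ≤ θ) (h1 : θ < 1) (B : ℝ) : ∃ C : ℝ, 0 < C ∧ ∀ y y' : W d → ℝ, Good θ y → Good θ y' →
    (∀ v, |y v| ≤ B) → (∀ v, |y' v| ≤ B) →
    Fd θ y y' ≤ C * (|mR θ y - mR θ y'| +
      ∑ i, |Real.tanh (msgI θ y (W.nb i W.root)) - Real.tanh (msgI θ y' (W.nb i W.root))|) := by
  have hθ2 : 0 < 1 - θ ^ 2 := by nlinarith
  set B' := B + d * Real.artanh θ with hB'
  -- Lipschitz constants of artanh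
  have hlip : ∀ {r x x' : ℝ}, 0 ≤ r → r < 1 → |x| ≤ r → |x'| ≤ r →
      |Real.artanh x - Real.artanh x'| ≤ |x - x'| / (1 - r) := by
    intro r x x' hr0 hr1 hx hx'
    have hx1 := abs_le.1 hx
    have hx2 := abs_le.1 hx'
    rw [Real.artanh_eq_half_log ⟨by linarith, by linarith⟩, Real.artanh_eq_half_log ⟨by linarith, by linarith⟩,
      Real.log_div (by linarith) (by linarith), Real.log_div (by linarith) (by linarith)]
    have hc : 0 < 1 - r := by linarith
    have l1 := log_lip hc (show 1 - r ≤ 1 + x by linarith) (show 1 - r ≤ 1 + x' by linarith)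
    have l2 := log_lip hc (show 1 - r ≤ 1 - x by linarith) (show 1 - r ≤ 1 - x' by linarith)
    rw [show (1 + x) - (1 + x') = x - x' by ring] at l1
    rw [show (1 - x) - (1 - x') = -(x - x') by ring, abs_neg] at l2
    calc _ = |(1 / 2) * ((Real.log (1 + x) - Real.log (1 + x')) - (Real.log (1 - x) - Real.log (1 - x')))| := by
          congr 1; ring
      _ = (1 / 2) * |(Real.log (1 + x) - Real.log (1 + x')) - (Real.log (1 - x) - Real.log (1 - x'))| := by
          rw [abs_mul, abs_of_pos (by norm_num : (0 : ℝ) < 1 / 2)]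
      _ ≤ (1 / 2) * (|Real.log (1 + x) - Real.log (1 + x')| + |Real.log (1 - x) - Real.log (1 - x')|) :=
          mul_le_mul_of_nonneg_left (abs_sub _ _) (by norm_num)
      _ ≤ (1 / 2) * (|x - x'| / (1 - r) + |x - x'| / (1 - r)) := by
          apply mul_le_mul_of_nonneg_left (add_le_add l1 l2) (by norm_num)
      _ = _ := by ring
  by_cases hB0 : 0 ≤ B'
  swap
  · refine ⟨1, one_pos, ?_⟩
    intro y y' hy hy' hB hBy'
    exfalso
    have := msgI_abs_le h0 h1 hy hB W.root
    exact hB0 ((abs_nonneg _).trans this)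
  set r := Real.tanh B' with hr
  have hr0 : 0 ≤ r := Scal.tanh_nonneg_iff.2 hB0
  have hr1 : r < 1 := Real.tanh_lt_one _
  have hθ1 : 0 < 1 - θ := by linarith
  have hr1' : 0 < 1 - r := by linarith
  refine ⟨1 / (1 - r) + 2 / (1 - θ), by positivity, ?_⟩
  intro y y' hy hy' hB hBy'
  have habs : ∀ {h : ℝ}, |h| ≤ B' → |Real.tanh h| ≤ r := by
    intro h hh
    have e : |Real.tanh h| = Real.tanh |h| := by
      rcases le_total 0 h with h3 | h3
      · rw [abs_of_nonneg h3, abs_of_nonneg (Scal.tanh_nonneg_iff.2 h3)]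
      · rw [abs_of_nonpos h3, Real.tanh_neg, abs_of_nonpos]
        have := Scal.tanh_nonneg_iff.2 (show 0 ≤ -h by linarith)
        rw [Real.tanh_neg] at this
        linarith
    rw [e]
    exact Scal.tanh_strictMono.monotone hh
  -- phi differences
  have hphi : ∀ h h' : ℝ, |phi θ h - phi θ h'| ≤ |Real.tanh h - Real.tanh h'| / (1 - θ) := by
    intro h h'
    have a1 : |θ * Real.tanh h| ≤ θ := by
      rw [abs_mul, abs_of_nonneg h0]
      exact mul_le_of_le_one_right h0 (Real.abs_tanh_lt_one h).le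
    have a2 : |θ * Real.tanh h'| ≤ θ := by
      rw [abs_mul, abs_of_nonneg h0]
      exact mul_le_of_le_one_right h0 (Real.abs_tanh_lt_one h').le
    have := hlip h0 h1 a1 a2
    unfold phi
    refine this.trans ?_
    apply div_le_div_of_nonneg_right _ hθ1.le
    rw [← mul_sub, abs_mul, abs_of_nonneg h0]
    exact mul_le_of_le_one_left (abs_nonneg _) h1.le
  have hm : |msgI θ y W.root - msgI θ y' W.root| ≤ |mR θ y - mR θ y'| / (1 - r) := by
    have a1 := habs (msgI_abs_le h0 h1 hy hB W.root)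
    have a2 := habs (msgI_abs_le h0 h1 hy' hBy' W.root)
    have := hlip hr0 hr1 a1 a2
    rw [Real.artanh_tanh, Real.artanh_tanh] at this
    exact this
  set T := ∑ i : Fin d, |Real.tanh (msgI θ y (W.nb i W.root)) - Real.tanh (msgI θ y' (W.nb i W.root))| with hT
  have hS : ∑ i : Fin d, |phi θ (msgI θ y (W.nb i W.root)) - phi θ (msgI θ y' (W.nb i W.root))| ≤ T / (1 - θ) := by
    rw [hT, Finset.sum_div]
    exact Finset.sum_le_sum fun i _ => hphi _ _
  have hroot : (W.root : W d).head? = none := rfl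
  have e1 := msgI_eq h0 h1 hy W.root
  have e2 := msgI_eq h0 h1 hy' W.root
  simp only [hroot, reduceCtorEq, if_false] at e1 e2
  have hy0 : |y W.root - y' W.root| ≤ |msgI θ y W.root - msgI θ y' W.root| +
      ∑ i : Fin d, |phi θ (msgI θ y (W.nb i W.root)) - phi θ (msgI θ y' (W.nb i W.root))| := by
    have e3 : y W.root - y' W.root = (msgI θ y W.root - msgI θ y' W.root) -
        ∑ i : Fin d, (phi θ (msgI θ y (W.nb i W.root)) - phi θ (msgI θ y' (W.nb i W.root))) := by
      rw [Finset.sum_sub_distrib]; linarith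
    rw [e3]
    refine (abs_sub _ _).trans ?_
    gcongr
    exact Finset.abs_sum_le_sum_abs _ _
  unfold Fd
  have hm0 : 0 ≤ |mR θ y - mR θ y'| := abs_nonneg _
  have hT0 : 0 ≤ T := Finset.sum_nonneg fun _ _ => abs_nonneg _
  calc _ ≤ (|mR θ y - mR θ y'| / (1 - r) + T / (1 - θ)) + T / (1 - θ) := by linarith
    _ = 1 / (1 - r) * |mR θ y - mR θ y'| + 2 / (1 - θ) * T := by ring
    _ ≤ (1 / (1 - r) + 2 / (1 - θ)) * |mR θ y - mR θ y'| + (1 / (1 - r) + 2 / (1 - θ)) * T := by
        have p1 : 0 ≤ 2 / (1 - θ) := by positivity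
        have p2 : 0 ≤ 1 / (1 - r) := by positivity
        exact add_le_add (mul_le_mul_of_nonneg_right (by linarith) hm0)
          (mul_le_mul_of_nonneg_right (by linarith) hT0)
    _ = _ := by ring

end TreeB
end Crest.Agent.TI
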