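import Crest.Agent.TILawB
import Crest.Agent.TIGauge
import Crest.Agent.TITreeB
import Crest.Agent.TINuC
import Crest.Agent.FIIDLaw5

/-!
Row 160 (S0241).  P2: posterior means are magnetisations; almost all fields are good; the step and
independence statements for the Ising drift.
-/

set_option autoImplicit false

namespace Crest.Agent.TI.Law

open MeasureTheory unitInterval Set Filter Topology ProbabilityTheory Crest.Agent.TI
open scoped ENNReal

section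

variable {d : ℕ}

lemma fJ_branch (c : Cl (W d)) (J : Set (W d × ℕ)) (K : ℕ) (z : W d × ℕ → I) (v w : W d) :
    fJ c (J ∩ {a | w.1 <:+ (W.tr (W.inv v) a.1).1}) K z ∘ W.tr (W.tr v w) =
      brF (fJ c J K z ∘ W.tr v) w ∘ W.tr w := by
  classical
  funext u
  simp only [Function.comp_apply]
  have e1 : W.tr (W.inv v) (W.tr (W.tr v w) u) = W.tr w u := by
    rw [W.tr_tr, W.tr_inv_tr]
  have e2 : W.tr v (W.tr w u) = W.tr (W.tr v w) u := (W.tr_tr v w u).symm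
  unfold brF
  simp only [Function.comp_apply, e2]
  by_cases h : w.1 <:+ (W.tr w u).1
  · rw [if_pos h]
    unfold fJ
    refine Finset.sum_congr rfl fun j _ => ?_
    have : (W.tr (W.tr v w) u, j) ∈ J ∩ {a : W d × ℕ | w.1 <:+ (W.tr (W.inv v) a.1).1} ↔
        (W.tr (W.tr v w) u, j) ∈ J := by
      constructor
      · exact fun h => h.1
      · intro h'
        refine ⟨h', ?_⟩
        change w.1 <:+ (W.tr (W.inv v) (W.tr (W.tr v w) u)).1
        rw [e1]; exact h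
    simp only [this]
  · rw [if_neg h]
    unfold fJ
    refine Finset.sum_eq_zero fun j _ => ?_
    rw [if_neg]
    rintro ⟨_, h'⟩
    change w.1 <:+ (W.tr (W.inv v) (W.tr (W.tr v w) u)).1 at h'
    rw [e1] at h'
    exact h h'

/-- the tilted mean over translated balls is the hyperbolic tangent of the message -/
lemma tilt_ball {θ : ℝ} (h0 : 0 ≤ θ) (h1 : θ ≤ 1) (n : ℕ) (y : W d → ℝ) (v : W d) :
    tiltR (nu d θ) ((W.ball d n).image (W.tr v)) v y =
      Real.tanh (msg θ (y ∘ W.tr v) n W.root) := by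
  have := isProb_nu d h1
  unfold tiltR tnum
  rw [bp h0 h1 n y v]
  have h := (tden_pos (nu d θ) ((W.ball d n).image (W.tr v)) y).ne'
  unfold tden at h ⊢
  rw [mul_div_assoc, div_self h, mul_one]

lemma ball_mono {n m : ℕ} (h : n ≤ m) : W.ball d n ⊆ W.ball d m := by
  intro w hw
  rw [W.mem_ball] at hw ⊢
  omega

lemma exists_mem_ball (v u : W d) : ∃ n, u ∈ (W.ball d n).image (W.tr v) := by
  refine ⟨(W.tr (W.inv v) u).len, Finset.mem_image.2 ⟨W.tr (W.inv v) u, ?_, W.tr_tr_inv v u⟩⟩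
  rw [W.mem_ball]

lemma continuousAt_artanh {x : ℝ} (hx : x ∈ Ioo (-1 : ℝ) 1) : ContinuousAt Real.artanh x := by
  unfold Real.artanh
  have h1 : 0 < 1 + x := by linarith [hx.1]
  have h2 : 0 < 1 - x := by linarith [hx.2]
  have h3 : Real.sqrt ((1 + x) / (1 - x)) ≠ 0 := (Real.sqrt_pos.2 (div_pos h1 h2)).ne'
  refine ContinuousAt.log ?_ h3
  refine Real.continuous_sqrt.continuousAt.comp ?_
  exact ContinuousAt.div (by fun_prop) (by fun_prop) h2.ne'

lemma tanh_mono : Monotone Real.tanh := by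
  intro x y hxy
  rw [Real.tanh_eq_sinh_div_cosh, Real.tanh_eq_sinh_div_cosh,
    div_le_div_iff₀ (Real.cosh_pos x) (Real.cosh_pos y)]
  have h : 0 ≤ Real.sinh (y - x) := Real.sinh_nonneg_iff.2 (by linarith)
  rw [Real.sinh_sub] at h
  linarith

lemma tendsto_of_tanh {a : ℕ → ℝ} {M L : ℝ} (hM : ∀ n, |a n| ≤ M)
    (h : Tendsto (fun n => Real.tanh (a n)) atTop (𝓝 L)) :
    Tendsto a atTop (𝓝 (Real.artanh L)) := by
  have hmem : ∀ n, Real.tanh (a n) ∈ Icc (Real.tanh (-M)) (Real.tanh M) := fun n => by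
    have := abs_le.1 (hM n)
    exact ⟨tanh_mono this.1, tanh_mono this.2⟩
  have hL : L ∈ Icc (Real.tanh (-M)) (Real.tanh M) :=
    isClosed_Icc.mem_of_tendsto h (Eventually.of_forall hmem)
  have hL' : L ∈ Ioo (-1 : ℝ) 1 :=
    ⟨lt_of_lt_of_le (Real.neg_one_lt_tanh _) hL.1, lt_of_le_of_lt hL.2 (Real.tanh_lt_one _)⟩
  have := (continuousAt_artanh hL').tendsto.comp h
  simpa [Function.comp_def, Real.artanh_tanh] using this

/-- limit of the messages -/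
theorem tendsto_msg {θ : ℝ} (h0 : 0 ≤ θ) (h1 : θ < 1) (c : Cl (W d)) (J : Set (W d × ℕ)) (K : ℕ)
    (hJ : ∀ a ∈ J, a.2 < K) (v w : W d) :
    have := isProb_nu d h1.le
    ∀ᵐ p ∂(PPn (nu d θ)), Tendsto (fun n => msg θ (fJ c J K (Zc c p) ∘ W.tr v) n w) atTop
      (𝓝 (Real.artanh (((PPn (nu d θ))[fun p : Om (W d) => sg (p.1 (W.tr v w)) |
        sA c (J ∩ {a | w.1 <:+ (W.tr (W.inv v) a.1).1})]) p))) := by
  intro hP
  have h := tendsto_tilt (nu d θ) c (J ∩ {a | w.1 <:+ (W.tr (W.inv v) a.1).1}) K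
    (fun a ha => hJ a ha.1) (F := fun n => (W.ball d n).image (W.tr (W.tr v w)))
    (fun n m hnm => Finset.image_subset_image (ball_mono hnm))
    (fun a _ => exists_mem_ball _ _) (W.tr v w)
  filter_upwards [h] with p hp
  refine tendsto_of_tanh (M := |(fJ c J K (Zc c p) ∘ W.tr v) w| + d * Real.artanh θ)
    (fun n => TreeB.msg_abs_le h0 h1 _ n w) ?_
  have e : ∀ n, tiltR (nu d θ) ((W.ball d n).image (W.tr (W.tr v w))) (W.tr v w)
      (fJ c (J ∩ {a | w.1 <:+ (W.tr (W.inv v) a.1).1}) K (Zc c p)) =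
      Real.tanh (msg θ (fJ c J K (Zc c p) ∘ W.tr v) n w) := by
    intro n
    rw [tilt_ball h0 h1.le, fJ_branch, msg_branch]
  simpa only [e] using hp

/-- almost all fields are good -/
theorem good_ae {θ : ℝ} (h0 : 0 ≤ θ) (h1 : θ < 1) (c : Cl (W d)) (J : Set (W d × ℕ)) (K : ℕ)
    (hJ : ∀ a ∈ J, a.2 < K) :
    ∀ᵐ p ∂(PPn (nu d θ)), Good θ (fJ c J K (Zc c p)) := by
  unfold Good
  rw [ae_all_iff]; intro v
  rw [ae_all_iff]; intro w
  filter_upwards [tendsto_msg h0 h1 c J K hJ v w] with p hp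
  exact ⟨_, hp⟩

lemma bef_lt {c : Cl (W d)} {k : ℕ} {r : ℝ} {a : W d × ℕ} (h : Bef c k r a) : a.2 < k + 1 := by
  rcases h with h | ⟨h, _⟩ <;> omega

theorem good_ae_fieldAt {θ : ℝ} (h0 : 0 ≤ θ) (h1 : θ < 1) (c : Cl (W d)) (k : ℕ) (r : ℝ) :
    ∀ᵐ p ∂((nu d θ).prod (μI (W d × ℕ))), Good θ (fieldAt c (Zc c p) k r) := by
  have := good_ae h0 h1 c {a | Bef c k r a} (k + 1) (fun a ha => bef_lt ha)
  simpa only [fieldAt_eq_fJ, PPn] using this

/-- magnetisations are posterior means -/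
theorem mR_ae {θ : ℝ} (h0 : 0 ≤ θ) (h1 : θ < 1) (c : Cl (W d)) (J : Set (W d × ℕ)) (K : ℕ)
    (hJ : ∀ a ∈ J, a.2 < K) (v : W d) :
    have := isProb_nu d h1.le
    (fun p : Om (W d) => mR θ (fJ c J K (Zc c p) ∘ W.tr v)) =ᵐ[PPn (nu d θ)]
      (PPn (nu d θ))[fun p : Om (W d) => sg (p.1 v) | sA c J] := by
  intro hP
  have hset : J ∩ {a : W d × ℕ | W.root.1 <:+ (W.tr (W.inv v) a.1).1} = J := by
    ext a
    constructor
    · exact fun h => h.1
    · exact fun h => ⟨h, List.nil_suffix⟩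
  have h := tendsto_tilt (nu d θ) c J K hJ
    (F := fun n => (W.ball d n).image (W.tr v))
    (fun n m hnm => Finset.image_subset_image (ball_mono hnm))
    (fun a _ => exists_mem_ball _ _) v
  have h2 := tendsto_msg h0 h1 c J K hJ v W.root
  filter_upwards [h, h2] with p hp hp2
  rw [hset, W.tr_root] at hp2
  have e : ∀ n, tiltR (nu d θ) ((W.ball d n).image (W.tr v)) v (fJ c J K (Zc c p)) =
      Real.tanh (msg θ (fJ c J K (Zc c p) ∘ W.tr v) n W.root) := fun n => tilt_ball h0 h1.le n _ v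
  simp only [e] at hp
  have h3 : Tendsto (fun n => Real.tanh (msg θ (fJ c J K (Zc c p) ∘ W.tr v) n W.root)) atTop
      (𝓝 (Real.tanh (msgI θ (fJ c J K (Zc c p) ∘ W.tr v) W.root))) := by
    have e2 : msgI θ (fJ c J K (Zc c p) ∘ W.tr v) W.root = _ := hp2.limsup_eq
    rw [e2]
    exact (Scal.continuous_tanh.tendsto _).comp hp2
  exact tendsto_nhds_unique h3 hp

/-- integrated form, general set of observations -/
theorem mean_fJ {θ : ℝ} (h0 : 0 ≤ θ) (h1 : θ < 1) (c : Cl (W d)) (J : Set (W d × ℕ)) (K : ℕ)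
    (hJ : ∀ a ∈ J, a.2 < K) (v : W d) (f : Om (W d) → ℝ) (hf : Measurable[sA c J] f)
    (hC : ∃ C, ∀ p, |f p| ≤ C) :
    ∫ p, f p * sg (p.1 v) ∂(PPn (nu d θ)) =
      ∫ p, f p * mR θ (fJ c J K (Zc c p) ∘ W.tr v) ∂(PPn (nu d θ)) := by
  have hP := isProb_nu d h1.le
  obtain ⟨C, hC⟩ := hC
  exact integral_mul_sg (nu d θ) c J v _ (mR_ae h0 h1 c J K hJ v) f hf hC

/-- (MEAN) -/
theorem mean_yF {θ : ℝ} (h0 : 0 ≤ θ) (h1 : θ < 1) (c : Cl (W d)) (k : ℕ) (r : ℝ) (v : W d)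
    (f : Om (W d) → ℝ) (hf : Measurable[sA c {a | Bef c k r a}] f) (hC : ∃ C, ∀ p, |f p| ≤ C) :
    ∫ p, f p * sg (p.1 v) ∂(PPn (nu d θ)) =
      ∫ p, f p * mR θ (yF k r c p ∘ W.tr v) ∂(PPn (nu d θ)) := by
  have := mean_fJ h0 h1 c {a | Bef c k r a} (k + 1) (fun a ha => bef_lt ha) v f hf hC
  simpa only [← fieldAt_eq_fJ, yF] using this

/-! ### the Ising drift -/

lemma abs_mR_le (θ : ℝ) (y : W d → ℝ) : |mR θ y| ≤ 1 := by
  unfold mR
  rw [abs_le]
  exact ⟨(Real.neg_one_lt_tanh _).le, (Real.tanh_lt_one _).le⟩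

lemma measurable_mR_fJ (θ : ℝ) (c : Cl (W d)) {J J' : Set (W d × ℕ)} (hJ : J ⊆ J') (K : ℕ)
    (v : W d) :
    Measurable[sA c J'] (fun p : Om (W d) => mR θ (fJ c J K (Zc c p) ∘ W.tr v)) := by
  have h1 : Measurable (fun y : W d → ℝ => mR θ (y ∘ W.tr v)) :=
    (Pair.measurable_mR θ).comp (Pair.measurable_comp_tr v)
  exact h1.comp (measurable_fJ_sA c hJ K)

/-- the drift as a function of the configuration and noise -/
noncomputable def DD (θ : ℝ) (c : Cl (W d)) (b : W d × ℕ) (p : Om (W d)) : ℝ :=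
  drift θ c (Zc c p) b

lemma DD_eq (θ : ℝ) (c : Cl (W d)) (b : W d × ℕ) (p : Om (W d)) :
    DD θ c b p = mR θ (fJ c {a | Bef c b.2 (c b) a} (b.2 + 1) (Zc c p) ∘ W.tr b.1) := by
  unfold DD drift
  rw [fieldAt_eq_fJ]

lemma measurable_DD (θ : ℝ) (c : Cl (W d)) (b : W d × ℕ) :
    Measurable[sA c {a | Bef c b.2 (c b) a}] (DD θ c b) := by
  have h : DD θ c b = fun p =>
      mR θ (fJ c {a | Bef c b.2 (c b) a} (b.2 + 1) (Zc c p) ∘ W.tr b.1) := funext (DD_eq θ c b)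
  rw [h]
  exact measurable_mR_fJ θ c (J := {a | Bef c b.2 (c b) a}) subset_rfl (b.2 + 1) b.1

lemma abs_DD_le (θ : ℝ) (c : Cl (W d)) (b : W d × ℕ) (p : Om (W d)) : |DD θ c b p| ≤ 1 :=
  abs_mR_le _ _

lemma innov_eq_inn (θ : ℝ) (c : Cl (W d)) (p : Om (W d)) (b : W d × ℕ) :
    innov θ c p b = inn c (DD θ c) b p := rfl

/-- the drift is the posterior mean -/
theorem mean_DD {θ : ℝ} (h0 : 0 ≤ θ) (h1 : θ < 1) (c : Cl (W d)) (b : W d × ℕ)
    (f : Om (W d) → ℝ) (hf : Measurable[sA c {a | Bef c b.2 (c b) a}] f)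
    (hC : ∃ C, ∀ p, |f p| ≤ C) :
    ∫ p, f p * sg (p.1 b.1) ∂(PPn (nu d θ)) = ∫ p, f p * DD θ c b p ∂(PPn (nu d θ)) := by
  have := mean_fJ h0 h1 c {a | Bef c b.2 (c b) a} (b.2 + 1) (fun a ha => bef_lt ha) b.1 f hf hC
  simpa only [← DD_eq] using this

/-- (STEP) -/
theorem step_drift {θ : ℝ} (h0 : 0 ≤ θ) (h1 : θ < 1) (c : Cl (W d)) (b : W d × ℕ)
    (H : Om (W d) → ℝ) (hH : Measurable[sA c {a | Bef c b.2 (c b) a}] H)
    {CH : ℝ} (hCH : ∀ p, |H p| ≤ CH)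
    (j : ℝ → I → ℝ) (hj : Measurable (Function.uncurry j)) {Cj : ℝ} (hCj : ∀ x z, |j x z| ≤ Cj) :
    ∫ p, H p * j (drift θ c (Zc c p) b) (Zc c p b) ∂(PPn (nu d θ)) =
      ∫ p, H p * (∫ u : I, j (drift θ c (Zc c p) b) (QK (amp (c b) * drift θ c (Zc c p) b) u))
        ∂(PPn (nu d θ)) := by
  have hP := isProb_nu d h1.le
  exact step (nu d θ) c b (not_bef_self c b) (DD θ c b) (measurable_DD θ c b) (abs_DD_le θ c b)
    (fun f hf hC => mean_DD h0 h1 c b f hf hC) H hH hCH j hj hCj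

/-- (INDEP) -/
theorem innov_indep {θ : ℝ} (h0 : 0 ≤ θ) (h1 : θ < 1) (c : Cl (W d))
    (hinj : ∀ a b : W d × ℕ, a.2 = b.2 → c a = c b → a = b) (k : ℕ) (r : ℝ)
    (E : Set (Om (W d))) (hE : MeasurableSet[sA c {a | Bef c k r a}] E)
    (s : Finset (W d × ℕ)) (hs : ∀ b ∈ s, ¬ Bef c k r b) (t : W d × ℕ → Set I)
    (ht : ∀ b, MeasurableSet (t b)) :
    (PPn (nu d θ)) (E ∩ {p | ∀ b ∈ s, innov θ c p b ∈ t b}) =
      (PPn (nu d θ)) E * ∏ b ∈ s, volume (t b) := by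
  have hP := isProb_nu d h1.le
  exact inn_indep (nu d θ) c (DD θ c) (measurable_DD θ c) (fun b p => abs_DD_le θ c b p)
    (fun b f hf hC => mean_DD h0 h1 c b f hf hC) hinj k r E hE s hs t ht

/-- the innovations are iid uniform -/
theorem innov_law {θ : ℝ} (h0 : 0 ≤ θ) (h1 : θ < 1) (c : Cl (W d))
    (hinj : ∀ a b : W d × ℕ, a.2 = b.2 → c a = c b → a = b) :
    (PPn (nu d θ)).map (innov θ c) = μI (W d × ℕ) := by
  have hP := isProb_nu d h1.le
  exact inn_law (nu d θ) c (DD θ c) (measurable_DD θ c) (fun b p => abs_DD_le θ c b p)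
    (fun b f hf hC => mean_DD h0 h1 c b f hf hC) hinj

/-- the clocks are almost surely injective -/
theorem ae_inj_clock : ∀ᵐ c ∂(μI (W d × ℕ)), ∀ a b : W d × ℕ, a.2 = b.2 → c a = c b → a = b := by
  filter_upwards [FIID.ae_injective_label (W d × ℕ)] with c hc a b _ h
  exact hc a b h

end

end Crest.Agent.TI.Law
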