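import Crest.Agent.TIEnd
import Crest.Agent.TILawC
import Crest.Agent.TIFinalC

/-!
Row 160 (S0241), piece P7 for the Ising measure: if `RR` vanishes at the end of every round, the
configuration is a function of the clocks and the innovations.  Owner: helper8.
-/

set_option autoImplicit false

namespace Crest.Agent.TI.End

open MeasureTheory ProbabilityTheory unitInterval Set Filter Topology
open scoped ENNReal

variable {d : ℕ} {θ : ℝ}

theorem p2_hyp (h0 : 0 ≤ θ) (h1 : θ < 1) (v : W d) (k : ℕ) (c : Cl (W d)) :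
    ∃ m : MeasurableSpace (Om (W d)),
      m ≤ mOm d ∧
      (∀ j < k, Measurable[m] fun p => Zc c p (v, j)) ∧
      ((nu d θ).prod (μI (W d × ℕ)))[fun p => sg (p.1 v) | m] =ᵐ[(nu d θ).prod (μI (W d × ℕ))]
        fun p => mR θ (yF k (1 / 2) c p ∘ W.tr v) := by
  refine ⟨sA c {a | Bef c k (1 / 2) a}, sA_le c _, ?_, ?_⟩
  · intro j hj
    have hmem : (v, j) ∈ {a : W d × ℕ | Bef c k (1 / 2) a} := Or.inl hj
    have h2 := comap_measurable (m := MeasurableSpace.pi)
      (fun (p : Om (W d)) (j : {a : W d × ℕ | Bef c k (1 / 2) a}) => Zc c p j)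
    exact (measurable_pi_apply (⟨(v, j), hmem⟩ : {a : W d × ℕ | Bef c k (1 / 2) a})).comp h2
  · have h := Law.mR_ae h0 h1 c {a | Bef c k (1 / 2) a} (k + 1) (fun a ha => Law.bef_lt ha) v
    simp only [← fieldAt_eq_fJ] at h
    exact h.symm

/-- P7 for the Ising measure. -/
theorem p7 [IsFiniteMeasure (Pt (nu d θ))] (h0 : 0 ≤ θ) (h1 : θ < 1)
    (hpair : ∀ k r, PairLaw θ (muY k r) (rhoP θ (nu d θ) k r))
    (hR : ∀ k : ℕ, RR θ (rhoP θ (nu d θ) k (1 / 2)) = 0) :
    ∃ F : Cl (W d) × (W d × ℕ → I) → (W d → Bool), Measurable F ∧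
      ∀ᵐ q ∂(Pt (nu d θ)), F (WWm θ q) = q.2.1 := by
  have hpr := isProb_nu d h1.le
  refine main h0 h1 (nu d θ) (fun v k => Eventually.of_forall fun c => p2_hyp h0 h1 v k c)
    (fun k v => (hpair k (1 / 2)).transl v) fun k => ?_
  have hprob := (hpair k (1 / 2)).prob
  have hmR := measurable_mR (d := d) h0 h1
  have hm : Measurable fun q : (W d → ℝ) × (W d → ℝ) => (mR θ q.1 - mR θ q.2) ^ 2 :=
    ((hmR.comp measurable_fst).sub (hmR.comp measurable_snd)).pow_const 2
  have hi : Integrable (fun q : (W d → ℝ) × (W d → ℝ) => (mR θ q.1 - mR θ q.2) ^ 2)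
      (rhoP θ (nu d θ) k (1 / 2)) := by
    refine Integrable.of_bound hm.aestronglyMeasurable ((1 + 1) ^ 2)
      (Eventually.of_forall fun q => ?_)
    rw [Real.norm_eq_abs, abs_pow]
    exact pow_le_pow_left₀ (abs_nonneg _) ((abs_sub _ _).trans
      (add_le_add (abs_tanh_le _) (abs_tanh_le _))) 2
  rw [← ofReal_integral_eq_lintegral_ofReal hi (Eventually.of_forall fun q => sq_nonneg _)]
  have := hR k
  unfold RR at this
  rw [this, ENNReal.ofReal_zero]

end Crest.Agent.TI.End
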