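import Crest.Agent.TIKeyF

set_option autoImplicit false
set_option linter.all false

namespace Crest.Agent.TI
namespace Key
open Finset MeasureTheory KeyBase

variable {d : ℕ} {θ : ℝ} {μy : Measure ℝ} {ρ : Measure ((W d → ℝ) × (W d → ℝ))}

lemma summable_q {q : ℝ} (h0 : 0 < q) (h1 : q < 1) (K : ℕ) :
    Summable (fun k : ℕ => ((K : ℝ) + k + 1) ^ 2 * q ^ ((K + k) / 4)) := by
  have hbase : Summable (fun k : ℕ => ((k : ℝ) + 1) ^ 2 * q ^ (k / 4)) := by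
    set r := Real.sqrt (Real.sqrt q) with hr
    have hr0 : 0 < r := Real.sqrt_pos.2 (Real.sqrt_pos.2 h0)
    have hr4 : r ^ 4 = q := by
      have e1 : r ^ 2 = Real.sqrt q := Real.sq_sqrt (Real.sqrt_nonneg _)
      have e2 : (Real.sqrt q) ^ 2 = q := Real.sq_sqrt h0.le
      calc r ^ 4 = (r ^ 2) ^ 2 := by ring
        _ = q := by rw [e1, e2]
    have hr1 : r < 1 := by
      by_contra h
      have : 1 ≤ r ^ 4 := one_le_pow₀ (not_lt.1 h)
      rw [hr4] at this; linarith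
    have hle : ∀ k : ℕ, q ^ (k / 4) ≤ (r ^ 3)⁻¹ * r ^ k := by
      intro k
      rw [← hr4, ← pow_mul, ← div_eq_inv_mul, le_div_iff₀ (by positivity), ← pow_add]
      exact pow_le_pow_of_le_one hr0.le hr1.le (by omega)
    have hn : ‖r‖ < 1 := by rw [Real.norm_eq_abs, abs_of_pos hr0]; exact hr1
    have s2 := summable_pow_mul_geometric_of_norm_lt_one 2 hn
    have s1 := summable_pow_mul_geometric_of_norm_lt_one 1 hn
    have s0 := summable_geometric_of_norm_lt_one hn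
    have hs : Summable (fun k : ℕ => (r ^ 3)⁻¹ * ((k : ℝ) ^ 2 * r ^ k + 2 * ((k : ℝ) ^ 1 * r ^ k) + r ^ k)) :=
      ((s2.add (s1.mul_left 2)).add s0).mul_left _
    refine Summable.of_nonneg_of_le (fun k => by positivity) (fun k => ?_) hs
    calc ((k : ℝ) + 1) ^ 2 * q ^ (k / 4) ≤ ((k : ℝ) + 1) ^ 2 * ((r ^ 3)⁻¹ * r ^ k) :=
          mul_le_mul_of_nonneg_left (hle k) (sq_nonneg _)
      _ = _ := by ring
  have := (summable_nat_add_iff K).2 hbase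
  refine this.congr fun k => ?_
  rw [Nat.add_comm k K]
  push_cast
  ring

lemma summable_e (hd : 3 ≤ d) (K : ℕ) :
    Summable (fun k : ℕ => ((K : ℝ) + k + 1) ^ 2 * Real.exp (-(Real.sqrt ((d : ℝ) - 1)) ^ ((K + k) / 4))) := by
  have hd' : (3 : ℝ) ≤ d := by exact_mod_cast hd
  have hs1 : 1 < Real.sqrt ((d : ℝ) - 1) := by
    rw [Real.lt_sqrt (by norm_num)]; linarith
  set a := Real.sqrt ((d : ℝ) - 1) - 1 with ha
  have ha0 : 0 < a := by rw [ha]; linarith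
  have hq := summable_q (Real.exp_pos (-a)) (by rw [Real.exp_lt_one_iff]; linarith) K
  refine Summable.of_nonneg_of_le (fun k => by positivity) (fun k => ?_) hq
  apply mul_le_mul_of_nonneg_left _ (sq_nonneg _)
  rw [← Real.exp_nat_mul]
  apply Real.exp_le_exp.2
  have := one_add_mul_le_pow (show (-2 : ℝ) ≤ a by linarith) ((K + k) / 4)
  have e : 1 + a = Real.sqrt ((d : ℝ) - 1) := by rw [ha]; ring
  rw [e] at this
  linarith

lemma tsum_sphere (f : W d → ENNReal) : ∑' u, f u = ∑' k, ∑ u ∈ W.sphere d k, f u := by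
  rw [← (Equiv.sigmaFiberEquiv (W.len : W d → ℕ)).tsum_eq f, ENNReal.tsum_sigma']
  congr 1
  funext k
  have h : ∀ u : W d, u.len = k ↔ u ∈ W.sphere d k := fun u => W.mem_sphere.symm
  have e := (Equiv.subtypeEquivRight h).tsum_eq (fun u : {u // u ∈ W.sphere d k} => f u.1)
  rw [Finset.tsum_subtype (W.sphere d k) f] at e
  rw [← e]
  rfl

theorem key {d : ℕ} (hd : 3 ≤ d) {θ : ℝ} (h0 : 0 ≤ θ) (h1 : θ < 1) (hb : ((d : ℝ) - 1) * θ ^ 2 ≤ 1)
    (B : ℝ) : ∃ C : ℝ, 0 < C ∧ ∀ (μy : Measure ℝ) [IsProbabilityMeasure μy],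
      (∀ᵐ h ∂μy, |h| ≤ B) → ∀ ρ : Measure ((W d → ℝ) × (W d → ℝ)), PairLaw θ μy ρ →
      (∀ᵐ y ∂(fieldLaw d θ μy), Good θ y) → ∀ q0 : ℝ, 0 < q0 → q0 < 1 →
      (∀ n : ℕ, (fieldLaw d θ μy).real {y | 4 * q0 ^ (n / 2) < QQ θ y n} ≤
        Real.exp (-(Real.sqrt ((d : ℝ) - 1)) ^ (n / 2))) →
      ∀ (K : ℕ) (s : ℝ), 0 ≤ s → ∀ Ps : ℝ, 0 ≤ Ps →
      (∀ i : Fin d, (fieldLaw d θ μy).real {y | s < |Real.tanh (msgI θ y (W.nb i W.root))|} ≤ Ps) →
      ∑' u : W d, ∫⁻ q, ENNReal.ofReal ((covR θ q.1 u - covR θ q.2 u) ^ 2 +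
          covR θ q.2 u ^ 2 * (mR θ (q.1 ∘ W.tr u) - mR θ (q.2 ∘ W.tr u)) ^ 2) ∂ρ ≤
        ENNReal.ofReal (C * ((K + 1 + ∑' k : ℕ, ((K : ℝ) + k + 1) ^ 2 * q0 ^ ((K + k) / 4)) *
              (∫ q, (mR θ q.1 - mR θ q.2) ^ 2 ∂ρ) +
            ((K : ℝ) + 1) ^ 2 * min (∫ q, (mR θ q.1 - mR θ q.2) ^ 2 ∂ρ)
              (s ^ 2 * (∫ q, (mR θ q.1 - mR θ q.2) ^ 2 ∂ρ) + Ps) +
            ∑' k : ℕ, ((K : ℝ) + k + 1) ^ 2 * Real.exp (-(Real.sqrt ((d : ℝ) - 1)) ^ ((K + k) / 4)))) := by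
  classical
  obtain ⟨C6, hC6, h6⟩ := T6 (d := d) h0 h1
  obtain ⟨C7, hC7, h7⟩ := T7 (d := d) h0 h1 B
  obtain ⟨CG, hCG, hGG⟩ := GG_lip h0 h1 (B + d * Real.artanh θ)
  set A := ∑' l, gw d l with hA
  have hA0 : 0 ≤ A := tsum_nonneg fun l => gw_nonneg l
  set M := (2 * |B| + 2 * d * Real.artanh θ) ^ 2 with hM
  have hM0 : 0 ≤ M := sq_nonneg _
  set CF := C7 ^ 2 * (2 + 8 * d ^ 2 * C6 ^ 2) with hCF
  have hCF0 : 0 ≤ CF := by positivity
  set CΓ := CG ^ 2 * (16 * C6 ^ 2 + 2) with hCΓ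
  have hCΓ0 : 0 ≤ CΓ := by positivity
  set C := 18 + 32 * CF + 32 * ((d : ℝ) + 1) ^ 2 * A * CΓ + 8 + 16 * M with hC
  have hC0 : 0 < C := by positivity
  have hd' : (3 : ℝ) ≤ d := by exact_mod_cast hd
  refine ⟨C, hC0, ?_⟩
  intro μy _ hBy ρ hρ hG q0 hq0 hq1 htail K s hs Ps hPs0 hPs
  haveI := hρ.prob
  have hB : ∀ᵐ y ∂(fieldLaw d θ μy), ∀ v, |y v| ≤ B := field_bdd hBy
  have hRd : ∫ q, (mR θ q.1 - mR θ q.2) ^ 2 ∂ρ = RR θ ρ := rfl
  rw [hRd]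
  set R := RR θ ρ with hR
  have hR0 : 0 ≤ R := RR_nonneg
  have hΓ : ∀ i, ∫ q, dl θ CG (some i) q ^ 2 ∂ρ ≤ CΓ * min R (s ^ 2 * R + Ps) := fun i =>
    gamma_bound h0 h1 hρ hG hB hCG hGG hC6 h6 hs hPs0 hPs i
  set mn := min R (s ^ 2 * R + Ps) with hmn
  have hmn0 : 0 ≤ mn := le_min hR0 (by positivity)
  have hFd : ∫⁻ q, ENNReal.ofReal (Fd θ q.1 q.2 ^ 2) ∂ρ ≤ ENNReal.ofReal (CF * R) :=
    Fd_bound hρ hG hB hC6 hC7 h6 h7
  have hFM : ∀ᵐ q ∂ρ, Fd θ q.1 q.2 ^ 2 ≤ M := by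
    filter_upwards [ae_fst hρ hB, ae_snd hρ hB] with q a3 a4
    have hF0 : 0 ≤ Fd θ q.1 q.2 := by
      unfold Fd
      exact add_nonneg (abs_nonneg _) (Finset.sum_nonneg fun _ _ => abs_nonneg _)
    apply pow_le_pow_left₀ hF0
    unfold Fd
    have e1 : |q.1 W.root - q.2 W.root| ≤ 2 * |B| := by
      have := a3 W.root
      have := a4 W.root
      calc _ ≤ |q.1 W.root| + |q.2 W.root| := abs_sub _ _
        _ ≤ B + B := add_le_add (a3 _) (a4 _)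
        _ ≤ _ := by linarith [le_abs_self B]
    have e2 : ∑ i : Fin d, |phi θ (msgI θ q.1 (W.nb i W.root)) - phi θ (msgI θ q.2 (W.nb i W.root))| ≤
        ∑ _i : Fin d, 2 * Real.artanh θ := by
      apply Finset.sum_le_sum
      intro i _
      calc _ ≤ |phi θ (msgI θ q.1 (W.nb i W.root))| + |phi θ (msgI θ q.2 (W.nb i W.root))| := abs_sub _ _
        _ ≤ Real.artanh θ + Real.artanh θ := add_le_add (phi_abs_le h0 h1 _) (phi_abs_le h0 h1 _)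
        _ = _ := by ring
    rw [Finset.sum_const, Finset.card_univ, Fintype.card_fin, nsmul_eq_mul] at e2
    calc _ ≤ 2 * |B| + d * (2 * Real.artanh θ) := add_le_add e1 e2
      _ = _ := by ring
  -- measurability
  have mX : ∀ u : W d, Measurable (fun q : (W d → ℝ) × (W d → ℝ) =>
      ENNReal.ofReal ((covR θ q.1 u - covR θ q.2 u) ^ 2)) := fun u =>
    ((((meas_covR u).comp measurable_fst).sub ((meas_covR u).comp measurable_snd)).pow_const 2).ennreal_ofReal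
  have split : ∀ u : W d, ∫⁻ q, ENNReal.ofReal ((covR θ q.1 u - covR θ q.2 u) ^ 2 +
          covR θ q.2 u ^ 2 * (mR θ (q.1 ∘ W.tr u) - mR θ (q.2 ∘ W.tr u)) ^ 2) ∂ρ =
      ∫⁻ q, ENNReal.ofReal ((covR θ q.1 u - covR θ q.2 u) ^ 2) ∂ρ +
        ∫⁻ q, ENNReal.ofReal (covR θ q.2 u ^ 2 * (mR θ (q.1 ∘ W.tr u) - mR θ (q.2 ∘ W.tr u)) ^ 2) ∂ρ := by
    intro u
    rw [← lintegral_add_left (mX u)]
    apply lintegral_congr
    intro q
    rw [ENNReal.ofReal_add (sq_nonneg _) (by positivity)]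
  -- the two bounds for each sphere
  have hQ0 : ∀ k, ∫⁻ q, ENNReal.ofReal ((mR θ q.1 - mR θ q.2) ^ 2 * QQ θ q.2 k) ∂ρ ≤ ENNReal.ofReal (2 * R) := by
    intro k
    calc _ ≤ ∫⁻ q, ENNReal.ofReal 2 * ENNReal.ofReal ((mR θ q.1 - mR θ q.2) ^ 2) ∂ρ := by
          apply lintegral_mono
          intro q
          simp only
          rw [← ENNReal.ofReal_mul (by norm_num), mul_comm]
          apply ENNReal.ofReal_le_ofReal
          exact mul_le_mul_of_nonneg_right (QQ_le h0 h1 hd hb _ _) (sq_nonneg _)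
      _ = ENNReal.ofReal 2 * ∫⁻ q, ENNReal.ofReal ((mR θ q.1 - mR θ q.2) ^ 2) ∂ρ :=
          lintegral_const_mul _ Bm_dm.sq.1.ennreal_ofReal
      _ = _ := by rw [ofReal_RR hρ, ← ENNReal.ofReal_mul (by norm_num)]
  have hm4 : ∀ᵐ q ∂ρ, (mR θ q.1 - mR θ q.2) ^ 2 ≤ 4 := Filter.Eventually.of_forall fun q => by
    have a1 := mR_abs (θ := θ) q.1
    have a2 := mR_abs (θ := θ) q.2
    have a3 : |mR θ q.1 - mR θ q.2| ≤ 2 := (abs_sub _ _).trans (by linarith)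
    rw [← sq_abs]
    nlinarith [abs_nonneg (mR θ q.1 - mR θ q.2)]
  have hs1 : 1 ≤ Real.sqrt ((d : ℝ) - 1) := by
    rw [Real.one_le_sqrt]; linarith
  have near : ∀ k, ∑ u ∈ W.sphere d k, ∫⁻ q, ENNReal.ofReal ((covR θ q.1 u - covR θ q.2 u) ^ 2 +
          covR θ q.2 u ^ 2 * (mR θ (q.1 ∘ W.tr u) - mR θ (q.2 ∘ W.tr u)) ^ 2) ∂ρ ≤
      ENNReal.ofReal (18 * R + 32 * ((d : ℝ) + 1) ^ 2 * A * k * (CΓ * mn)) := by
    intro k
    simp only [split]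
    rw [Finset.sum_add_distrib]
    calc _ ≤ ENNReal.ofReal (16 * R + 32 * ((d : ℝ) + 1) ^ 2 * A * k * (CΓ * mn)) + ENNReal.ofReal (2 * R) :=
          add_le_add (near_k hd h0 h1 hb hρ hG hB hCG hGG hΓ k) ((bpart h0 h1 hρ hG k).trans (hQ0 k))
      _ = _ := by
          rw [← ENNReal.ofReal_add (by positivity) (by positivity)]
          congr 1; ring
  have far : ∀ k, ∑ u ∈ W.sphere d k, ∫⁻ q, ENNReal.ofReal ((covR θ q.1 u - covR θ q.2 u) ^ 2 +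
          covR θ q.2 u ^ 2 * (mR θ (q.1 ∘ W.tr u) - mR θ (q.2 ∘ W.tr u)) ^ 2) ∂ρ ≤
      ENNReal.ofReal ((4 + 32 * CF) * R * (((k : ℝ) + 1) ^ 2 * q0 ^ (k / 4)) +
        (8 + 16 * M) * (((k : ℝ) + 1) ^ 2 * Real.exp (-(Real.sqrt ((d : ℝ) - 1)) ^ (k / 4)))) := by
    intro k
    simp only [split]
    rw [Finset.sum_add_distrib]
    have f1 := far' h0 h1 hd hb hρ hG hq0 hq1 htail hM0 hFM k
    have f2 := (bpart h0 h1 hρ hG k).trans (tail h0 h1 hd hb measurable_snd hρ.snd hq0 k (htail k)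
        (F := fun q => (mR θ q.1 - mR θ q.2) ^ 2) Bm_dm.sq.1 (fun q => sq_nonneg _) (by norm_num) hm4)
    rw [ofReal_RR hρ] at f2
    have g1 : ENNReal.ofReal (32 * ((k : ℝ) + 1) ^ 2 * q0 ^ (k / 4)) * ∫⁻ q, ENNReal.ofReal (Fd θ q.1 q.2 ^ 2) ∂ρ ≤
        ENNReal.ofReal (32 * ((k : ℝ) + 1) ^ 2 * q0 ^ (k / 4) * (CF * R)) := by
      rw [ENNReal.ofReal_mul (p := 32 * ((k : ℝ) + 1) ^ 2 * q0 ^ (k / 4)) (by positivity)]
      gcongr
    have hk4 : k / 4 ≤ k / 2 := by omega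
    have q4 : q0 ^ (k / 2) ≤ q0 ^ (k / 4) := pow_le_pow_of_le_one hq0.le hq1.le hk4
    have e4 : Real.exp (-(Real.sqrt ((d : ℝ) - 1)) ^ (k / 2)) ≤ Real.exp (-(Real.sqrt ((d : ℝ) - 1)) ^ (k / 4)) := by
      apply Real.exp_le_exp.2
      have := pow_le_pow_right₀ hs1 hk4
      linarith
    have hk1 : (1 : ℝ) ≤ ((k : ℝ) + 1) ^ 2 := by
      have : (0 : ℝ) ≤ k := Nat.cast_nonneg _
      nlinarith
    have g2 : ENNReal.ofReal (4 * q0 ^ (k / 2)) * ENNReal.ofReal R +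
        ENNReal.ofReal (2 * 4 * Real.exp (-(Real.sqrt ((d : ℝ) - 1)) ^ (k / 2))) ≤
        ENNReal.ofReal (4 * R * (((k : ℝ) + 1) ^ 2 * q0 ^ (k / 4))) +
        ENNReal.ofReal (8 * (((k : ℝ) + 1) ^ 2 * Real.exp (-(Real.sqrt ((d : ℝ) - 1)) ^ (k / 4)))) := by
      rw [← ENNReal.ofReal_mul (by positivity)]
      apply add_le_add
      · apply ENNReal.ofReal_le_ofReal
        calc 4 * q0 ^ (k / 2) * R ≤ 4 * q0 ^ (k / 4) * R := by gcongr
          _ = 4 * R * (1 * q0 ^ (k / 4)) := by ring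
          _ ≤ _ := by gcongr
      · apply ENNReal.ofReal_le_ofReal
        calc 2 * 4 * Real.exp (-(Real.sqrt ((d : ℝ) - 1)) ^ (k / 2)) ≤
              2 * 4 * Real.exp (-(Real.sqrt ((d : ℝ) - 1)) ^ (k / 4)) := by gcongr
          _ = 8 * (1 * Real.exp (-(Real.sqrt ((d : ℝ) - 1)) ^ (k / 4))) := by ring
          _ ≤ _ := by gcongr
    refine (add_le_add (f1.trans (add_le_add g1 le_rfl)) (f2.trans g2)).trans ?_
    rw [← ENNReal.ofReal_add (by positivity) (by positivity), ← ENNReal.ofReal_add (by positivity) (by positivity),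
      ← ENNReal.ofReal_add (by positivity) (by positivity)]
    apply ENNReal.ofReal_le_ofReal
    apply le_of_eq
    ring
  rw [tsum_sphere]
  set a : ℕ → ENNReal := fun k => ∑ u ∈ W.sphere d k, ∫⁻ q, ENNReal.ofReal ((covR θ q.1 u - covR θ q.2 u) ^ 2 +
          covR θ q.2 u ^ 2 * (mR θ (q.1 ∘ W.tr u) - mR θ (q.2 ∘ W.tr u)) ^ 2) ∂ρ with ha
  have hsplit : ∑' k, a k = ∑ k ∈ Finset.range K, a k + ∑' k, a (k + K) :=
    (ENNReal.summable.sum_add_tsum_nat_add' (f := a) (k := K)).symm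
  rw [hsplit]
  set Sq := ∑' k : ℕ, ((K : ℝ) + k + 1) ^ 2 * q0 ^ ((K + k) / 4) with hSq
  set Se := ∑' k : ℕ, ((K : ℝ) + k + 1) ^ 2 * Real.exp (-(Real.sqrt ((d : ℝ) - 1)) ^ ((K + k) / 4)) with hSe
  have sq := summable_q hq0 hq1 K
  have se := summable_e hd K
  have hSq0 : 0 ≤ Sq := tsum_nonneg fun k => by positivity
  have hSe0 : 0 ≤ Se := tsum_nonneg fun k => by positivity
  have p1 : ∑ k ∈ Finset.range K, a k ≤
      ENNReal.ofReal (K * (18 * R) + 32 * ((d : ℝ) + 1) ^ 2 * A * ((K : ℝ) + 1) ^ 2 * (CΓ * mn)) := by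
    calc _ ≤ ∑ k ∈ Finset.range K, ENNReal.ofReal (18 * R + 32 * ((d : ℝ) + 1) ^ 2 * A * (K : ℝ) * (CΓ * mn)) := by
          apply Finset.sum_le_sum
          intro k hk
          refine (near k).trans (ENNReal.ofReal_le_ofReal ?_)
          have : (k : ℝ) ≤ K := by exact_mod_cast (Finset.mem_range.1 hk).le
          gcongr
      _ = ENNReal.ofReal (K * (18 * R + 32 * ((d : ℝ) + 1) ^ 2 * A * (K : ℝ) * (CΓ * mn))) := by
          rw [Finset.sum_const, Finset.card_range, nsmul_eq_mul, ENNReal.ofReal_mul (Nat.cast_nonneg _),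
            ENNReal.ofReal_natCast]
      _ ≤ _ := by
          apply ENNReal.ofReal_le_ofReal
          have hK0 : (0 : ℝ) ≤ K := Nat.cast_nonneg _
          have : (K : ℝ) * K ≤ ((K : ℝ) + 1) ^ 2 := by nlinarith
          calc _ = K * (18 * R) + 32 * ((d : ℝ) + 1) ^ 2 * A * ((K : ℝ) * K) * (CΓ * mn) := by ring
            _ ≤ _ := by gcongr
  have p2 : ∑' k, a (k + K) ≤ ENNReal.ofReal ((4 + 32 * CF) * R * Sq + (8 + 16 * M) * Se) := by
    have hsum : Summable (fun k : ℕ => (4 + 32 * CF) * R * (((K : ℝ) + k + 1) ^ 2 * q0 ^ ((K + k) / 4)) +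
        (8 + 16 * M) * (((K : ℝ) + k + 1) ^ 2 * Real.exp (-(Real.sqrt ((d : ℝ) - 1)) ^ ((K + k) / 4)))) :=
      (sq.mul_left _).add (se.mul_left _)
    have hval : ∑' k : ℕ, ((4 + 32 * CF) * R * (((K : ℝ) + k + 1) ^ 2 * q0 ^ ((K + k) / 4)) +
        (8 + 16 * M) * (((K : ℝ) + k + 1) ^ 2 * Real.exp (-(Real.sqrt ((d : ℝ) - 1)) ^ ((K + k) / 4)))) =
        (4 + 32 * CF) * R * Sq + (8 + 16 * M) * Se := by
      rw [(sq.mul_left _).tsum_add (se.mul_left _), tsum_mul_left, tsum_mul_left]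
    rw [← hval, ENNReal.ofReal_tsum_of_nonneg (fun k => by positivity) hsum]
    apply ENNReal.tsum_le_tsum
    intro k
    refine (far (k + K)).trans (le_of_eq ?_)
    rw [Nat.add_comm k K]
    push_cast
    rfl
  refine (add_le_add p1 p2).trans ?_
  rw [← ENNReal.ofReal_add (by positivity) (by positivity)]
  apply ENNReal.ofReal_le_ofReal
  -- final numeric inequality
  have hK0 : (0 : ℝ) ≤ K := Nat.cast_nonneg _
  have c1 : K * (18 * R) ≤ C * ((K + 1) * R) := by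
    have : 18 ≤ C := by
      rw [hC]
      have : 0 ≤ 32 * ((d : ℝ) + 1) ^ 2 * A * CΓ := by positivity
      linarith
    nlinarith [mul_nonneg hK0 hR0, mul_nonneg (sub_nonneg.2 this) (mul_nonneg hK0 hR0), mul_nonneg hC0.le hR0]
  have c2 : (4 + 32 * CF) * R * Sq ≤ C * (Sq * R) := by
    have : 4 + 32 * CF ≤ C := by
      rw [hC]
      have : 0 ≤ 32 * ((d : ℝ) + 1) ^ 2 * A * CΓ := by positivity
      linarith
    calc _ = (4 + 32 * CF) * (Sq * R) := by ring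
      _ ≤ _ := mul_le_mul_of_nonneg_right this (by positivity)
  have c3 : 32 * ((d : ℝ) + 1) ^ 2 * A * ((K : ℝ) + 1) ^ 2 * (CΓ * mn) ≤ C * (((K : ℝ) + 1) ^ 2 * mn) := by
    have : 32 * ((d : ℝ) + 1) ^ 2 * A * CΓ ≤ C := by
      rw [hC]; linarith
    calc _ = (32 * ((d : ℝ) + 1) ^ 2 * A * CΓ) * (((K : ℝ) + 1) ^ 2 * mn) := by ring
      _ ≤ _ := mul_le_mul_of_nonneg_right this (by positivity)
  have c4 : (8 + 16 * M) * Se ≤ C * Se := by
    have : 8 + 16 * M ≤ C := by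
      rw [hC]
      have : 0 ≤ 32 * ((d : ℝ) + 1) ^ 2 * A * CΓ := by positivity
      linarith
    exact mul_le_mul_of_nonneg_right this hSe0
  calc _ ≤ C * ((K + 1) * R) + C * (((K : ℝ) + 1) ^ 2 * mn) + (C * (Sq * R) + C * Se) := by linarith
    _ = _ := by ring

end Key
end Crest.Agent.TI
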