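import Crest.Agent.TIPairD
import Crest.Agent.TIEndF
import Crest.Agent.TIKey
import Crest.Agent.TIFinalC
import Crest.Agent.TIAssembly

/-!
Row 160 (S0241).  Final assembly.
-/

set_option autoImplicit false

namespace Crest.Agent.TI.Main

open MeasureTheory ProbabilityTheory unitInterval Set Filter Topology
open scoped ENNReal
open Crest.Agent.TI

universe u

variable {d : ℕ} {θ : ℝ}

theorem keyStmt (hd : 3 ≤ d) (h0 : 0 ≤ θ) (h1 : θ < 1) (hb : ((d : ℝ) - 1) * θ ^ 2 ≤ 1) :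
    KeyStmt d θ := Key.key hd h0 h1 hb

theorem good_field (h0 : 0 ≤ θ) (h1 : θ < 1) (k : ℕ) (r : ℝ) :
    ∀ᵐ y ∂(fieldLaw d θ (muY k r)), Good θ y := by
  rw [← Pair.law_yF h1.le k r]
  rw [ae_map_iff (Pair.measurable_yF k r).aemeasurable (Energy.measurableSet_good θ)]
  have hP := isProb_nu d h1.le
  unfold Pt
  have hm : MeasurableSet {q : Cl (W d) × Om (W d) | Good θ (yF k r q.1 q.2)} :=
    Pair.measurable_yF k r (Energy.measurableSet_good θ)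
  rw [Measure.ae_prod_iff_ae_ae hm]
  exact Eventually.of_forall fun c => Law.good_ae_fieldAt h0 h1 c k r

theorem pair_law (hd : 3 ≤ d) (h0 : 0 ≤ θ) (h1 : θ < 1) [IsFiniteMeasure (Pt (nu d θ))] (k : ℕ)
    (r : ℝ) : PairLaw θ (muY k r) (rhoP θ (nu d θ) k r) :=
  Pair.pairLaw hd h1.le k r fun c k r => Law.good_ae_fieldAt h0 h1 c k r

/-- at the end of a round nothing happens -/
lemma yF_step (k : ℕ) (c : Cl (W d)) (p : Om (W d)) : yF (k + 1) 0 c p = yF k (1 / 2) c p := by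
  funext v
  unfold yF fieldAt
  rw [Finset.sum_range_succ]
  have h1 : ¬ ((c (v, k + 1) : ℝ) < 0) := not_lt.2 (c (v, k + 1)).2.1
  rw [if_neg h1, add_zero]
  congr 1
  split_ifs with h
  · rfl
  · exact ell_of_half_le _ _ (not_lt.1 h)

theorem step_law [IsFiniteMeasure (Pt (nu d θ))] (k : ℕ) :
    rhoP θ (nu d θ) (k + 1) 0 = rhoP θ (nu d θ) k (1 / 2) := by
  unfold rhoP
  congr 1
  funext a
  rw [yF_step, yF_step]

/-- what remains to be delivered: monotonicity and evolution inequality -/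
structure Rem (d : ℕ) (θ : ℝ) [IsFiniteMeasure (Pt (nu d θ))] : Prop where
  mono : ∀ k, MonotoneOn (fun r => RR θ (rhoP θ (nu d θ) k r)) (Icc 0 (1 / 2))
  evol : ∃ K0 : ℝ, 0 ≤ K0 ∧ ∀ k, ∀ s t : ℝ, 0 ≤ s → s ≤ t → t ≤ 1 / 2 → (0 < s ∨ 1 ≤ k) →
    ENNReal.ofReal (RR θ (rhoP θ (nu d θ) k t)) ≤ ENNReal.ofReal (RR θ (rhoP θ (nu d θ) k s)) +
      ENNReal.ofReal K0 * ∫⁻ r in Ico s t, ENNReal.ofReal (r ^ 2) * SS θ (rhoP θ (nu d θ) k r)

/-- the magnetisations of the replicas agree at the end of every round -/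
theorem RR_end (hd : 3 ≤ d) (h0 : 0 ≤ θ) (h1 : θ < 1) (hb : ((d : ℝ) - 1) * θ ^ 2 ≤ 1)
    [IsFiniteMeasure (Pt (nu d θ))] (H : Rem d θ) (k : ℕ) :
    RR θ (rhoP θ (nu d θ) k (1 / 2)) = 0 := by
  refine RR_zero hd h0 h1 hb (keyStmt hd h0 h1 hb) (fun k r => rhoP θ (nu d θ) k r)
    ⟨good_field h0 h1, pair_law hd h0 h1, H.mono, fun k => ?_, H.evol⟩ k
  rw [step_law]

/-- the configuration is a function of clocks and innovations -/
theorem exists_F (hd : 3 ≤ d) (h0 : 0 ≤ θ) (h1 : θ < 1) (hb : ((d : ℝ) - 1) * θ ^ 2 ≤ 1)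
    [IsFiniteMeasure (Pt (nu d θ))] (H : Rem d θ) :
    ∃ F : Cl (W d) × (W d × ℕ → I) → (W d → Bool), Measurable F ∧
      ∀ᵐ q ∂(Pt (nu d θ)), F (WWm θ q) = q.2.1 :=
  End.p7 h0 h1 (pair_law hd h0 h1) (RR_end hd h0 h1 hb H)

/-- the main statement -/
theorem main (hd : 3 ≤ d) (hrem : ∀ θ : ℝ, 0 ≤ θ → θ < 1 → ((d : ℝ) - 1) * θ ^ 2 ≤ 1 →
      ∀ _ : IsFiniteMeasure (Pt (nu d θ)), Rem d θ)
    (β : ℝ) (hβ : 0 ≤ β)
    (hθ : Real.tanh β ≤ ((d : ℝ) - 1) ^ (-(1 / 2 : ℝ))) (V : Type u)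
    (G : SimpleGraph V) [G.LocallyFinite] (hT : G.IsTree) (hreg : G.IsRegularOfDegree d) :
    ∃ Φ : (V → unitInterval) → (V → Bool),
      Measurable Φ ∧
      (∀ (g : G ≃g G) (x : V → unitInterval), Φ (x ∘ ⇑g) = Φ x ∘ ⇑g) ∧
      ∀ (S : Finset V) (η : V → Bool), (G.induce (S : Set V)).Connected →
        (Crest.ProbabilityR.Labels.labelMeasure V).map Φ {τ | ∀ v ∈ S, τ v = η v} =
          ENNReal.ofReal (Crest.ProbabilityR.TreeIsing.isingWeight G (Real.tanh β) S η) := by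
  have h0 : 0 ≤ Real.tanh β := by
    rw [Real.tanh_eq_sinh_div_cosh]
    exact div_nonneg (Real.sinh_nonneg_iff.2 hβ) (Real.cosh_pos β).le
  have h1 : Real.tanh β < 1 := Real.tanh_lt_one β
  have hd' : (3 : ℝ) ≤ d := by exact_mod_cast hd
  have hb0 : (0 : ℝ) < (d : ℝ) - 1 := by linarith
  have hb : ((d : ℝ) - 1) * Real.tanh β ^ 2 ≤ 1 := by
    have h2 : Real.tanh β ^ 2 ≤ (((d : ℝ) - 1) ^ (-(1 / 2 : ℝ))) ^ 2 :=
      pow_le_pow_left₀ h0 hθ 2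
    have h3 : (((d : ℝ) - 1) ^ (-(1 / 2 : ℝ))) ^ 2 = ((d : ℝ) - 1)⁻¹ := by
      rw [← Real.rpow_natCast, ← Real.rpow_mul hb0.le]
      norm_num
      rw [Real.rpow_neg_one]
    rw [h3] at h2
    calc ((d : ℝ) - 1) * Real.tanh β ^ 2 ≤ ((d : ℝ) - 1) * ((d : ℝ) - 1)⁻¹ :=
          mul_le_mul_of_nonneg_left h2 hb0.le
      _ = 1 := mul_inv_cancel₀ hb0.ne'
  have hPnu := isProb_nu d h1.le
  have hP : IsProbabilityMeasure (Pt (nu d (Real.tanh β))) := Pair.isProb_Pt h1.le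
  exact assemble h0 h1.le (P3.law_nu h0 h1)
    (exists_F hd h0 h1 hb (hrem _ h0 h1 hb inferInstance)) V G hT hreg

end Crest.Agent.TI.Main
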