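import Crest.Agent.TIDefs

/-!
Row 160 (S0241).  Facts on the observation channel.
-/

set_option autoImplicit false

namespace Crest.Agent.TI

open MeasureTheory unitInterval Set Filter Topology

/-! ### clamp -/

lemma continuous_clamp : Continuous clamp := by unfold clamp; fun_prop

lemma clamp_mem (κ : ℝ) : clamp κ ∈ Icc (-(1 / 4 : ℝ)) (1 / 4) := by
  have := abs_le.1 (clamp_abs_le κ)
  exact ⟨by linarith, this.2⟩

lemma clamp_neg (κ : ℝ) : clamp (-κ) = - clamp κ := by
  unfold clamp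
  rcases le_total κ (-(1 / 4)) with h | h
  · have e1 : min κ (1 / 4) = κ := min_eq_left (by linarith)
    have e2 : max (-(1 / 4)) κ = -(1 / 4) := max_eq_left h
    have e3 : min (-κ) (1 / 4) = 1 / 4 := min_eq_right (by linarith)
    have e4 : max (-(1 / 4 : ℝ)) (1 / 4) = 1 / 4 := max_eq_right (by norm_num)
    rw [e1, e2, e3, e4]; ring
  · rcases le_total κ (1 / 4) with h' | h'
    · have e1 : min κ (1 / 4) = κ := min_eq_left h'
      have e2 : max (-(1 / 4)) κ = κ := max_eq_right h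
      have e3 : min (-κ) (1 / 4) = -κ := min_eq_left (by linarith)
      have e4 : max (-(1 / 4 : ℝ)) (-κ) = -κ := max_eq_right (by linarith)
      rw [e1, e2, e3, e4]
    · have e1 : min κ (1 / 4) = 1 / 4 := min_eq_right h'
      have e2 : max (-(1 / 4 : ℝ)) (1 / 4) = 1 / 4 := max_eq_right (by norm_num)
      have e3 : min (-κ) (1 / 4) = -κ := min_eq_left (by linarith)
      have e4 : max (-(1 / 4 : ℝ)) (-κ) = -(1 / 4) := max_eq_left (by linarith)
      rw [e1, e2, e3, e4]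

lemma clamp_zero : clamp 0 = 0 := clamp_of_abs_le (by norm_num)

lemma abs_clamp_sub_le (κ κ' : ℝ) : |clamp κ - clamp κ'| ≤ |κ - κ'| := by
  unfold clamp
  rw [max_comm, max_comm (-(1 / 4))]
  refine (abs_max_sub_max_le_abs _ _ _).trans ?_
  have := abs_min_sub_min_le_max κ (1 / 4) κ' (1 / 4)
  simpa using this

lemma clamp_clamp (κ : ℝ) : clamp (clamp κ) = clamp κ := clamp_of_abs_le (clamp_abs_le κ)

/-! ### real distribution and quantile functions -/

lemma hK_mem {κ z : ℝ} (hκ : κ ∈ Icc (-(1 / 4 : ℝ)) (1 / 4)) (hz : z ∈ Icc (0 : ℝ) 1) :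
    hK κ z ∈ Icc (0 : ℝ) 1 := by
  obtain ⟨h1, h2⟩ := hκ
  obtain ⟨hz0, hz1⟩ := hz
  have h3 : 0 ≤ z * (1 - z) := mul_nonneg hz0 (by linarith)
  unfold hK
  constructor
  · nlinarith
  · nlinarith

lemma disc_nonneg {κ u : ℝ} (hκ : κ ∈ Icc (-(1 / 4 : ℝ)) (1 / 4)) (hu : u ∈ Icc (0 : ℝ) 1) :
    (1 / 4 : ℝ) ≤ (1 + κ) ^ 2 - 4 * κ * u := by
  obtain ⟨h1, h2⟩ := hκ
  obtain ⟨hu0, hu1⟩ := hu
  rcases le_total 0 κ with h | h
  · nlinarith [mul_nonneg h (sub_nonneg.2 hu1), sq_nonneg (1 - κ)]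
  · nlinarith [mul_nonneg (neg_nonneg.2 h) hu0]

lemma hK_fK {κ u : ℝ} (hκ : κ ∈ Icc (-(1 / 4 : ℝ)) (1 / 4)) (hu : u ∈ Icc (0 : ℝ) 1) :
    hK κ (fK κ u) = u := by
  have hD := disc_nonneg hκ hu
  obtain ⟨h1, h2⟩ := hκ
  obtain ⟨hu0, hu1⟩ := hu
  unfold hK fK
  set s := Real.sqrt ((1 + κ) ^ 2 - 4 * κ * u) with hs
  have hs2 : s ^ 2 = (1 + κ) ^ 2 - 4 * κ * u := Real.sq_sqrt (by linarith)
  have hs0 : 0 ≤ s := Real.sqrt_nonneg _
  have hc : 0 < 1 + κ + s := by linarith
  field_simp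
  ring_nf
  ring_nf at hs2
  nlinarith [hs2]

lemma fK_hK {κ z : ℝ} (hκ : κ ∈ Icc (-(1 / 4 : ℝ)) (1 / 4)) (hz : z ∈ Icc (0 : ℝ) 1) :
    fK κ (hK κ z) = z := by
  obtain ⟨h1, h2⟩ := hκ
  obtain ⟨hz0, hz1⟩ := hz
  have e1 : (1 + κ) ^ 2 - 4 * κ * hK κ z = (1 + κ - 2 * κ * z) ^ 2 := by
    unfold hK; ring
  have h3 : 0 ≤ 1 + κ - 2 * κ * z := by nlinarith
  unfold fK
  rw [e1, Real.sqrt_sq h3]
  have h4 : 0 < 1 + κ + (1 + κ - 2 * κ * z) := by linarith
  rw [div_eq_iff h4.ne']
  unfold hK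
  ring

lemma hK_strictMono {κ : ℝ} (hκ : κ ∈ Icc (-(1 / 4 : ℝ)) (1 / 4)) {z z' : ℝ}
    (hz : z ∈ Icc (0 : ℝ) 1) (hz' : z' ∈ Icc (0 : ℝ) 1) (h : z < z') : hK κ z < hK κ z' := by
  obtain ⟨h1, h2⟩ := hκ
  obtain ⟨hz0, hz1⟩ := hz
  obtain ⟨hz0', hz1'⟩ := hz'
  have e : hK κ z' - hK κ z = (z' - z) * (1 + κ * (1 - z - z')) := by unfold hK; ring
  have h3 : 0 < 1 + κ * (1 - z - z') := by nlinarith
  have h4 := mul_pos (sub_pos.2 h) h3
  linarith

lemma fK_mem {κ u : ℝ} (hκ : κ ∈ Icc (-(1 / 4 : ℝ)) (1 / 4)) (hu : u ∈ Icc (0 : ℝ) 1) :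
    fK κ u ∈ Icc (0 : ℝ) 1 := by
  have hD := disc_nonneg hκ hu
  obtain ⟨h1, h2⟩ := hκ
  obtain ⟨hu0, hu1⟩ := hu
  unfold fK
  have hs1 : 2 * u - 1 - κ ≤ Real.sqrt ((1 + κ) ^ 2 - 4 * κ * u) := by
    apply Real.le_sqrt_of_sq_le
    nlinarith [mul_nonneg hu0 (sub_nonneg.2 hu1)]
  have hs0 := Real.sqrt_nonneg ((1 + κ) ^ 2 - 4 * κ * u)
  have hc : 0 < 1 + κ + Real.sqrt ((1 + κ) ^ 2 - 4 * κ * u) := by linarith
  constructor
  · positivity
  · rw [div_le_one hc]; linarith

/-! ### the maps `HK`, `QK` of the unit interval -/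

lemma coe_HK (κ : ℝ) (z : I) : (HK κ z : ℝ) = hK (clamp κ) z := by
  unfold HK; rw [Set.projIcc_of_mem _ (hK_mem (clamp_mem κ) z.2)]

lemma coe_QK (κ : ℝ) (u : I) : (QK κ u : ℝ) = fK (clamp κ) u := by
  unfold QK; rw [Set.projIcc_of_mem _ (fK_mem (clamp_mem κ) u.2)]

@[simp] lemma HK_QK (κ : ℝ) (u : I) : HK κ (QK κ u) = u := by
  apply Subtype.ext
  rw [coe_HK, coe_QK, hK_fK (clamp_mem κ) u.2]

@[simp] lemma QK_HK (κ : ℝ) (z : I) : QK κ (HK κ z) = z := by
  apply Subtype.ext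
  rw [coe_QK, coe_HK, fK_hK (clamp_mem κ) z.2]

lemma HK_clamp (κ : ℝ) (z : I) : HK (clamp κ) z = HK κ z := by unfold HK; rw [clamp_clamp]

lemma QK_clamp (κ : ℝ) (z : I) : QK (clamp κ) z = QK κ z := by unfold QK; rw [clamp_clamp]

lemma HK_zero (z : I) : HK 0 z = z := by
  apply Subtype.ext; rw [coe_HK, clamp_zero]; simp [hK]

lemma QK_zero (u : I) : QK 0 u = u := by
  have := QK_HK 0 u
  rwa [HK_zero] at this

lemma continuous_HK : Continuous (fun p : ℝ × I => HK p.1 p.2) := by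
  unfold HK
  refine continuous_projIcc.comp ?_
  unfold hK
  have := continuous_clamp
  fun_prop

lemma continuous_QK : Continuous (fun p : ℝ × I => QK p.1 p.2) := by
  have h0 : (fun p : ℝ × I => QK p.1 p.2) =
      fun p : ℝ × I => (⟨fK (clamp p.1) p.2, fK_mem (clamp_mem p.1) p.2.2⟩ : I) := by
    funext p; apply Subtype.ext; exact coe_QK _ _
  rw [h0]
  have hc := continuous_clamp
  refine Continuous.subtype_mk ?_ _
  unfold fK
  refine Continuous.div (by fun_prop) (by fun_prop) ?_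
  intro p
  have h1 := (clamp_mem p.1).1
  have h2 := Real.sqrt_nonneg ((1 + clamp p.1) ^ 2 - 4 * clamp p.1 * (p.2 : ℝ))
  have : 0 < 1 + clamp p.1 + Real.sqrt ((1 + clamp p.1) ^ 2 - 4 * clamp p.1 * (p.2 : ℝ)) := by
    linarith
  exact this.ne'

lemma measurable_HK' {α : Type*} [MeasurableSpace α] {f : α → ℝ} {g : α → I} (hf : Measurable f)
    (hg : Measurable g) : Measurable (fun a => HK (f a) (g a)) :=
  continuous_HK.measurable.comp (hf.prodMk hg)

lemma measurable_QK' {α : Type*} [MeasurableSpace α] {f : α → ℝ} {g : α → I} (hf : Measurable f)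
    (hg : Measurable g) : Measurable (fun a => QK (f a) (g a)) :=
  continuous_QK.measurable.comp (hf.prodMk hg)

lemma HK_strictMono (κ : ℝ) : StrictMono (HK κ) := by
  intro z z' h
  change (HK κ z : ℝ) < HK κ z'
  rw [coe_HK, coe_HK]
  exact hK_strictMono (clamp_mem κ) z.2 z'.2 h

lemma QK_le_iff (κ : ℝ) (u x : I) : QK κ u ≤ x ↔ u ≤ HK κ x := by
  rw [← (HK_strictMono κ).le_iff_le, HK_QK]

/-- the quantile function is Lipschitz in the parameter -/
lemma abs_QK_sub_le (κ κ' : ℝ) (u : I) :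
    |(QK κ u : ℝ) - QK κ' u| ≤ |clamp κ - clamp κ'| / 3 := by
  set z := QK κ u with hz
  set z' := QK κ' u with hz'
  have e1 : hK (clamp κ) z = u := by rw [hz, coe_QK]; exact hK_fK (clamp_mem κ) u.2
  have e2 : hK (clamp κ') z' = u := by rw [hz', coe_QK]; exact hK_fK (clamp_mem κ') u.2
  have e3 : ((z : ℝ) - z') * (1 + clamp κ * (1 - z - z')) =
      (clamp κ' - clamp κ) * (z' * (1 - z')) := by
    unfold hK at e1 e2
    linarith
  have hm := clamp_mem κ
  obtain ⟨hm0, hm1⟩ := hm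
  have hz0 : (0 : ℝ) ≤ z := z.2.1
  have hz1 : (z : ℝ) ≤ 1 := z.2.2
  have hz0' : (0 : ℝ) ≤ z' := z'.2.1
  have hz1' : (z' : ℝ) ≤ 1 := z'.2.2
  have h2 : (3 / 4 : ℝ) ≤ 1 + clamp κ * (1 - z - z') := by nlinarith
  have h3 : (z' : ℝ) * (1 - z') ≤ 1 / 4 := by nlinarith [sq_nonneg ((z' : ℝ) - 1 / 2)]
  have h3' : 0 ≤ (z' : ℝ) * (1 - z') := mul_nonneg hz0' (by linarith)
  have h4 : |(z : ℝ) - z'| * (1 + clamp κ * (1 - z - z')) =
      |clamp κ - clamp κ'| * (z' * (1 - z')) := by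
    rw [← abs_of_nonneg (by linarith : (0 : ℝ) ≤ 1 + clamp κ * (1 - z - z')), ← abs_mul, e3,
      abs_mul, abs_of_nonneg h3', abs_sub_comm]
  have h5 : |(z : ℝ) - z'| * (3 / 4) ≤ |(z : ℝ) - z'| * (1 + clamp κ * (1 - z - z')) :=
    mul_le_mul_of_nonneg_left h2 (abs_nonneg _)
  have h6 : |clamp κ - clamp κ'| * (z' * (1 - z')) ≤ |clamp κ - clamp κ'| * (1 / 4) :=
    mul_le_mul_of_nonneg_left h3 (abs_nonneg _)
  linarith

/-- symmetry of the channel -/
lemma HK_neg (κ : ℝ) (z : I) : HK (-κ) (σ z) = σ (HK κ z) := by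
  apply Subtype.ext
  rw [coe_HK, clamp_neg, coe_symm_eq, coe_symm_eq, coe_HK]
  unfold hK
  ring

lemma QK_neg (κ : ℝ) (u : I) : QK (-κ) (σ u) = σ (QK κ u) := by
  have h := HK_neg κ (QK κ u)
  rw [HK_QK] at h
  rw [← h, QK_HK]

/-! ### densities -/

lemma densK_pos (κ : ℝ) (z : I) : (3 / 4 : ℝ) ≤ densK κ z := by
  obtain ⟨h1, h2⟩ := clamp_mem κ
  have hz0 : (0 : ℝ) ≤ z := z.2.1
  have hz1 : (z : ℝ) ≤ 1 := z.2.2
  unfold densK
  nlinarith

lemma densK_nonneg (κ : ℝ) (z : I) : 0 ≤ densK κ z := by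
  have := densK_pos κ z; linarith

lemma densK_le (κ : ℝ) (z : I) : densK κ z ≤ 5 / 4 := by
  obtain ⟨h1, h2⟩ := clamp_mem κ
  have hz0 : (0 : ℝ) ≤ z := z.2.1
  have hz1 : (z : ℝ) ≤ 1 := z.2.2
  unfold densK
  nlinarith

lemma densK_zero (z : I) : densK 0 z = 1 := by simp [densK, clamp_zero]

lemma continuous_densK : Continuous (fun p : ℝ × I => densK p.1 p.2) := by
  unfold densK
  have := continuous_clamp
  fun_prop

lemma measurable_densK' {α : Type*} [MeasurableSpace α] {f : α → ℝ} {g : α → I} (hf : Measurable f)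
    (hg : Measurable g) : Measurable (fun a => densK (f a) (g a)) :=
  continuous_densK.measurable.comp (hf.prodMk hg)

lemma measurable_QK (κ : ℝ) : Measurable (QK κ) := measurable_QK' measurable_const measurable_id

lemma measurable_HK (κ : ℝ) : Measurable (HK κ) := measurable_HK' measurable_const measurable_id

lemma measurable_densK (κ : ℝ) : Measurable (densK κ) :=
  measurable_densK' measurable_const measurable_id

/-- The law of the quantile transform of a uniform label. -/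
theorem map_QK (κ : ℝ) :
    (volume : Measure I).map (QK κ) =
      (volume : Measure I).withDensity (fun z => ENNReal.ofReal (densK κ z)) := by
  have hQ : Measurable (QK κ) := measurable_QK κ
  have : IsProbabilityMeasure ((volume : Measure I).map (QK κ)) :=
    Measure.isProbabilityMeasure_map hQ.aemeasurable
  have : IsFiniteMeasure ((volume : Measure I).withDensity
      (fun z => ENNReal.ofReal (densK κ z))) := by
    refine isFiniteMeasure_withDensity ?_
    refine ne_of_lt ?_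
    calc ∫⁻ z : I, ENNReal.ofReal (densK κ z) ≤ ∫⁻ _ : I, ENNReal.ofReal (5 / 4) :=
          lintegral_mono fun z => ENNReal.ofReal_le_ofReal (densK_le κ z)
      _ < ⊤ := by simp
  refine Measure.ext_of_Iic _ _ fun x => ?_
  rw [Measure.map_apply hQ measurableSet_Iic, withDensity_apply _ measurableSet_Iic]
  have h1 : QK κ ⁻¹' Iic x = Iic (HK κ x) := by
    ext u; simp [QK_le_iff]
  rw [h1, unitInterval.volume_Iic]
  have h2 : ∫⁻ z in Iic x, ENNReal.ofReal (densK κ z) =
      ∫⁻ t in Icc (0 : ℝ) x, ENNReal.ofReal (1 + clamp κ * (1 - 2 * t)) := by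
    have e := measurePreserving_coe.setLIntegral_comp_emb measurableEmbedding_coe
      (fun t : ℝ => ENNReal.ofReal (1 + clamp κ * (1 - 2 * t))) (Iic x)
    rw [image_subtype_val_Icc_Iic] at e
    rw [Measure.restrict_restrict measurableSet_Icc] at e
    have h3 : Icc (0 : ℝ) x ∩ Icc 0 1 = Icc (0 : ℝ) x := by
      apply inter_eq_left.2
      exact Icc_subset_Icc le_rfl x.2.2
    rw [h3] at e
    rw [← e]
    rfl
  rw [h2, ← ofReal_integral_eq_lintegral_ofReal]
  · congr 1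
    rw [integral_Icc_eq_integral_Ioc, ← intervalIntegral.integral_of_le x.2.1]
    have hd : ∀ t ∈ uIcc (0 : ℝ) x,
        HasDerivAt (fun t => hK (clamp κ) t) (1 + clamp κ * (1 - 2 * t)) t := by
      intro t _
      have a1 : HasDerivAt (fun t : ℝ => t * (1 - t)) (1 * (1 - t) + t * (0 - 1)) t := by
        exact (hasDerivAt_id t).mul ((hasDerivAt_const t (1 : ℝ)).sub (hasDerivAt_id t))
      have a2 : HasDerivAt (fun t : ℝ => t + (clamp κ : ℝ) * (t * (1 - t)))
          (1 + (clamp κ : ℝ) * (1 * (1 - t) + t * (0 - 1))) t :=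
        (hasDerivAt_id t).add (a1.const_mul _)
      have e1 : (fun t : ℝ => hK (clamp κ) t) =
          fun t : ℝ => t + (clamp κ : ℝ) * (t * (1 - t)) := by
        funext t; unfold hK; ring
      rw [e1]
      convert a2 using 1
      ring
    rw [intervalIntegral.integral_eq_sub_of_hasDerivAt hd]
    · rw [coe_HK]; simp [hK]
    · apply Continuous.intervalIntegrable; fun_prop
  · exact (Continuous.integrableOn_Icc (by fun_prop))
  · refine (ae_restrict_iff' measurableSet_Icc).2 (Filter.Eventually.of_forall ?_)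
    intro t ht
    exact densK_nonneg κ ⟨t, ht.1, ht.2.trans x.2.2⟩

/-- change of variables for a single observation -/
theorem lintegral_QK (κ : ℝ) (g : I → ENNReal) (hg : Measurable g) :
    ∫⁻ u, g (QK κ u) = ∫⁻ z, g z * ENNReal.ofReal (densK κ z) := by
  rw [← lintegral_map hg (measurable_QK κ), map_QK,
    lintegral_withDensity_eq_lintegral_mul _ (measurable_densK κ).ennreal_ofReal hg]
  refine lintegral_congr fun z => ?_
  simp [mul_comm]

/-- change of variables for a single observation, Bochner form -/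
theorem integral_QK (κ : ℝ) (g : I → ℝ) (hg : Measurable g) :
    ∫ u, g (QK κ u) = ∫ z, densK κ z * g z := by
  rw [← integral_map (measurable_QK κ).aemeasurable hg.aestronglyMeasurable, map_QK,
    integral_withDensity_eq_integral_toReal_smul (measurable_densK κ).ennreal_ofReal
      (Eventually.of_forall fun _ => ENNReal.ofReal_lt_top)]
  refine integral_congr_ae (Eventually.of_forall fun z => ?_)
  simp only [smul_eq_mul]
  rw [ENNReal.toReal_ofReal (densK_nonneg κ z)]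

/-- uniformisation: if `z` has density `densK κ`, then `HK κ z` is uniform. -/
theorem lintegral_HK (κ : ℝ) (g : I → ENNReal) (hg : Measurable g) :
    ∫⁻ z, g (HK κ z) * ENNReal.ofReal (densK κ z) = ∫⁻ u, g u := by
  rw [← lintegral_QK κ (fun z => g (HK κ z)) (hg.comp (measurable_HK κ))]
  simp

/-- uniformisation, Bochner form -/
theorem integral_HK (κ : ℝ) (g : I → ℝ) (hg : Measurable g) :
    ∫ z, densK κ z * g (HK κ z) = ∫ u, g u := by
  rw [← integral_QK κ (fun z => g (HK κ z)) (hg.comp (measurable_HK κ))]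
  simp

/-! ### the log-likelihood -/

lemma sg_cases (s : Bool) : sg s = 1 ∨ sg s = -1 := by cases s <;> simp [sg]

lemma abs_sg' (s : Bool) : |sg s| = 1 := by cases s <;> simp [sg]

lemma abs_amp_mul_le (c : I) {s : ℝ} (hs : |s| ≤ 1) : |amp c * s| ≤ 1 / 4 := by
  rw [abs_mul, abs_of_nonneg (amp_nonneg c)]
  have h1 := amp_nonneg c
  have h2 := amp_le c
  nlinarith [abs_nonneg s]

lemma clamp_amp_mul (c : I) {s : ℝ} (hs : |s| ≤ 1) : clamp (amp c * s) = amp c * s :=
  clamp_of_abs_le (abs_amp_mul_le c hs)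

lemma abs_one_sub_two (z : I) : |(1 - 2 * (z : ℝ))| ≤ 1 := by
  have hz0 : (0 : ℝ) ≤ z := z.2.1
  have hz1 : (z : ℝ) ≤ 1 := z.2.2
  rw [abs_le]; constructor <;> linarith

lemma ell_arg_abs (c z : I) : |amp c * (1 - 2 * z)| ≤ 1 / 4 := abs_amp_mul_le c (abs_one_sub_two z)

lemma ell_arg_mem (c z : I) : amp c * (1 - 2 * z) ∈ Ioo (-1 : ℝ) 1 := by
  have := abs_le.1 (ell_arg_abs c z)
  constructor <;> linarith [this.1, this.2]

lemma exp_artanh_mul_sqrt {x : ℝ} (hx : x ∈ Ioo (-1 : ℝ) 1) :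
    Real.sqrt (1 - x ^ 2) * Real.exp (Real.artanh x) = 1 + x := by
  have h1 : 0 < 1 + x := by linarith [hx.1]
  have h2 : 0 < 1 - x := by linarith [hx.2]
  rw [Real.exp_artanh hx, ← Real.sqrt_mul (by nlinarith)]
  have : (1 - x ^ 2) * ((1 + x) / (1 - x)) = (1 + x) ^ 2 := by
    field_simp; ring
  rw [this, Real.sqrt_sq h1.le]

lemma artanh_neg' {x : ℝ} (hx : x ∈ Ioo (-1 : ℝ) 1) : Real.artanh (-x) = - Real.artanh x := by
  have h1 : -x ∈ Ioo (-1 : ℝ) 1 := ⟨by linarith [hx.2], by linarith [hx.1]⟩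
  rw [← Real.artanh_tanh (- Real.artanh x), Real.tanh_neg, Real.tanh_artanh hx]

/-- normalisation of the likelihood -/
noncomputable def kfac (c z : I) : ℝ := Real.sqrt (1 - (amp c * (1 - 2 * z)) ^ 2)

lemma kfac_pos (c z : I) : 0 < kfac c z := by
  unfold kfac
  apply Real.sqrt_pos.2
  have := abs_le.1 (ell_arg_abs c z)
  nlinarith [this.1, this.2]

/-- the density of an observation of a spin `s`, as an exponential -/
lemma densK_eq_exp (c z : I) (s : Bool) :
    densK (amp c * sg s) z = kfac c z * Real.exp (sg s * ell c z) := by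
  have hx := ell_arg_mem c z
  unfold kfac ell
  have h0 : densK (amp c * sg s) z = 1 + sg s * (amp c * (1 - 2 * z)) := by
    unfold densK
    rw [clamp_amp_mul c (abs_sg' s).le]; ring
  rw [h0]
  rcases sg_cases s with h | h
  · rw [h, one_mul, one_mul, exp_artanh_mul_sqrt hx]
  · rw [h]
    have h1 : -(amp c * (1 - 2 * (z : ℝ))) ∈ Ioo (-1 : ℝ) 1 :=
      ⟨by linarith [hx.2], by linarith [hx.1]⟩
    have := exp_artanh_mul_sqrt h1
    rw [neg_sq, artanh_neg' hx] at this
    rw [neg_one_mul, neg_one_mul, this]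

lemma ell_symm (c z : I) : ell c (σ z) = - ell c z := by
  unfold ell
  rw [coe_symm_eq, ← artanh_neg' (ell_arg_mem c z)]
  congr 1
  ring

lemma abs_ell_le (c z : I) : |ell c z| ≤ Real.artanh (1 / 4) := by
  have hx := ell_arg_mem c z
  have h1 := abs_le.1 (ell_arg_abs c z)
  unfold ell
  rw [abs_le]
  constructor
  · rw [← artanh_neg' (by constructor <;> norm_num)]
    exact Real.artanh_le_artanh (by norm_num) hx.2 h1.1
  · exact Real.artanh_le_artanh hx.1 (by norm_num) h1.2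

lemma ell_of_half_le (c z : I) (hc : (1 / 2 : ℝ) ≤ c) : ell c z = 0 := by
  unfold ell amp
  rw [if_neg (by linarith)]; simp

lemma measurable_amp : Measurable amp := by
  unfold amp
  refine Measurable.ite ?_ (by fun_prop) measurable_const
  exact measurableSet_lt (by fun_prop) measurable_const

lemma tanh_ell (c z : I) : Real.tanh (ell c z) = amp c * (1 - 2 * z) := by
  unfold ell
  exact Real.tanh_artanh (ell_arg_mem c z)

lemma measurable_artanh : Measurable Real.artanh := by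
  unfold Real.artanh
  fun_prop

lemma measurable_ell' {α : Type*} [MeasurableSpace α] {f g : α → I} (hf : Measurable f)
    (hg : Measurable g) : Measurable (fun a => ell (f a) (g a)) := by
  unfold ell
  refine measurable_artanh.comp ?_
  have := measurable_amp.comp hf
  refine this.mul ?_
  fun_prop

lemma measurable_kfac' {α : Type*} [MeasurableSpace α] {f g : α → I} (hf : Measurable f)
    (hg : Measurable g) : Measurable (fun a => kfac (f a) (g a)) := by
  unfold kfac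
  have h1 : Measurable fun a => amp (f a) := measurable_amp.comp hf
  fun_prop

end Crest.Agent.TI
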