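import Crest.Agent.TIGauge
import Crest.Agent.TIChannel

/-!
Row 160 (S0241).  The jumps and the martingale increments: definitions and measurability.
-/

set_option autoImplicit false

namespace Crest.Agent.TI.Energy

open MeasureTheory unitInterval Set Filter Topology

variable {d : ℕ}

/-- the jump -/
noncomputable def Jb (θ : ℝ) (c : Cl (W d)) (p : Om (W d)) (b : W d × ℕ) : ℝ :=
  amp (c b) * (1 - 2 * (Zc c p b : ℝ)) /
    (1 + amp (c b) * (1 - 2 * (Zc c p b : ℝ)) * drift θ c (Zc c p) b)

/-- the increment of the magnetisation at the root caused by the observation `(u, k)`, if it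
happens in `[s, t)` -/
noncomputable def xi (θ : ℝ) (k : ℕ) (s t : ℝ) (u : W d) (c : Cl (W d)) (p : Om (W d)) : ℝ :=
  if s ≤ (c (u, k) : ℝ) ∧ (c (u, k) : ℝ) < t then
    covR θ (yF k (c (u, k)) c p) u * Jb θ c p (u, k) else 0

lemma abs_one_sub (z : I) : |1 - 2 * (z : ℝ)| ≤ 1 := by
  rw [abs_le]; constructor <;> linarith [z.2.1, z.2.2]

lemma abs_amp_g_le (c z : I) : |amp c * (1 - 2 * (z : ℝ))| ≤ amp c := by
  rw [abs_mul, abs_of_nonneg (amp_nonneg c)]
  calc amp c * |1 - 2 * (z : ℝ)| ≤ amp c * 1 :=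
        mul_le_mul_of_nonneg_left (abs_one_sub z) (amp_nonneg c)
    _ = amp c := mul_one _

lemma abs_drift_le (θ : ℝ) (c : Cl (W d)) (z : W d × ℕ → I) (b : W d × ℕ) :
    |drift θ c z b| ≤ 1 := (Real.abs_tanh_lt_one _).le

lemma jump_den (θ : ℝ) (c : Cl (W d)) (p : Om (W d)) (b : W d × ℕ) :
    3 / 4 ≤ 1 + amp (c b) * (1 - 2 * (Zc c p b : ℝ)) * drift θ c (Zc c p) b := by
  have h1 : |amp (c b) * (1 - 2 * (Zc c p b : ℝ)) * drift θ c (Zc c p) b| ≤ 1 / 4 := by
    rw [abs_mul]
    calc _ ≤ (1 / 4 : ℝ) * 1 := mul_le_mul ((abs_amp_g_le _ _).trans (amp_le _))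
          (abs_drift_le _ _ _ _) (abs_nonneg _) (by norm_num)
      _ = 1 / 4 := by ring
  have := (abs_le.1 h1).1
  linarith

/-- the jump is at most `4/3` times the amplitude -/
lemma abs_Jb_le (θ : ℝ) (c : Cl (W d)) (p : Om (W d)) (b : W d × ℕ) :
    |Jb θ c p b| ≤ 4 / 3 * amp (c b) := by
  have h1 := jump_den θ c p b
  unfold Jb
  rw [abs_div, abs_of_pos (by linarith : 0 < 1 + amp (c b) * (1 - 2 * (Zc c p b : ℝ)) *
    drift θ c (Zc c p) b), div_le_iff₀ (by linarith)]
  have h2 := abs_amp_g_le (c b) (Zc c p b)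
  have h3 := amp_nonneg (c b)
  nlinarith

lemma abs_Jb_le_third (θ : ℝ) (c : Cl (W d)) (p : Om (W d)) (b : W d × ℕ) :
    |Jb θ c p b| ≤ 1 / 3 := by
  have := abs_Jb_le θ c p b
  have := amp_le (c b)
  linarith

lemma two_amp_le (c : I) : 2 * amp c ≤ c := by
  unfold amp
  split_ifs
  · linarith
  · simpa using c.2.1

lemma abs_Jb_le_clock (θ : ℝ) (c : Cl (W d)) (p : Om (W d)) (b : W d × ℕ) :
    |Jb θ c p b| ≤ c b := by
  have := abs_Jb_le θ c p b
  have := two_amp_le (c b)
  have := amp_nonneg (c b)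
  linarith

/-! ### measurability -/

lemma measurable_phid (θ : ℝ) : Measurable (phid θ) := by
  unfold phid
  have h := Pair.measurable_tanh
  exact ((measurable_const.sub (h.pow_const 2)).const_mul θ).div
    (measurable_const.sub ((h.pow_const 2).const_mul (θ ^ 2)))

lemma measurable_cpr (θ : ℝ) (u : W d) : Measurable (fun y : W d → ℝ => cpr θ y u) := by
  unfold cpr
  exact Finset.measurable_fun_prod _ fun j _ =>
    (measurable_phid θ).comp (Pair.measurable_msgI θ _)

lemma measurable_covR (θ : ℝ) (u : W d) : Measurable (fun y : W d → ℝ => covR θ y u) := by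
  unfold covR
  exact (measurable_const.sub ((Pair.measurable_mR θ).pow_const 2)).mul (measurable_cpr θ u)

/-- the field just before the observation `(u, k)` -/
lemma measurable_yFc (k : ℕ) (u : W d) :
    Measurable (fun q : Cl (W d) × Om (W d) => yF k (q.1 (u, k)) q.1 q.2) := by
  have h1 : Measurable (fun q : Cl (W d) × Om (W d) => ((q.1 (u, k) : I) : ℝ)) := by
    have h5 : Measurable (fun q : Cl (W d) × Om (W d) => q.1 (u, k)) :=
      (measurable_pi_apply (u, k)).comp measurable_fst
    exact measurable_subtype_coe.comp h5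
  exact Pair.meas_fieldAt k measurable_fst (Pair.meas_Zc measurable_fst measurable_snd) h1

lemma measurable_Jb (θ : ℝ) (b : W d × ℕ) :
    Measurable (fun q : Cl (W d) × Om (W d) => Jb θ q.1 q.2 b) := by
  unfold Jb
  have h1 : Measurable (fun q : Cl (W d) × Om (W d) => q.1 b) :=
    (measurable_pi_apply b).comp measurable_fst
  have h2 : Measurable (fun q : Cl (W d) × Om (W d) => (1 - 2 * (Zc q.1 q.2 b : ℝ))) :=
    measurable_const.sub ((measurable_subtype_coe.comp (Pair.measurable_Zc_at b)).const_mul 2)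
  have h3 : Measurable (fun q : Cl (W d) × Om (W d) => amp (q.1 b) * (1 - 2 * (Zc q.1 q.2 b : ℝ))) :=
    (Pair.measurable_amp.comp h1).mul h2
  have h4 := Pair.meas_drift θ b (measurable_fst (α := Cl (W d)) (β := Om (W d)))
    (Pair.meas_Zc measurable_fst measurable_snd)
  exact h3.div (measurable_const.add (h3.mul h4))

lemma measurable_xi (θ : ℝ) (k : ℕ) (s t : ℝ) (u : W d) :
    Measurable (fun q : Cl (W d) × Om (W d) => xi θ k s t u q.1 q.2) := by
  unfold xi
  have h1 : Measurable (fun q : Cl (W d) × Om (W d) => ((q.1 (u, k) : I) : ℝ)) := by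
    have h5 : Measurable (fun q : Cl (W d) × Om (W d) => q.1 (u, k)) :=
      (measurable_pi_apply (u, k)).comp measurable_fst
    exact measurable_subtype_coe.comp h5
  refine Measurable.ite ?_ ?_ measurable_const
  · exact (measurableSet_le measurable_const h1).inter (measurableSet_lt h1 measurable_const)
  · exact ((measurable_covR θ u).comp (measurable_yFc k u)).mul (measurable_Jb θ (u, k))

/-- the set of good fields is measurable -/
lemma measurableSet_good (θ : ℝ) : MeasurableSet {y : W d → ℝ | Good θ y} := by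
  have : {y : W d → ℝ | Good θ y} = ⋂ v : W d, ⋂ w : W d,
      {y | ∃ l, Tendsto (fun n => msg θ (y ∘ W.tr v) n w) atTop (𝓝 l)} := by
    ext y
    simp only [Good, Set.mem_iInter, Set.mem_ofPred_eq]
  rw [this]
  refine MeasurableSet.iInter fun v => MeasurableSet.iInter fun w => ?_
  exact measurableSet_exists_tendsto
    (f := fun n (y : W d → ℝ) => msg θ (y ∘ W.tr v) n w)
    (fun n => (Pair.measurable_msg θ n w).comp (Pair.measurable_comp_tr v))

end Crest.Agent.TI.Energy
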