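import Crest.Agent.TITree

/-!
Row 160 (S0241), piece KEY: adaptors for the deterministic tree facts.
-/

set_option autoImplicit false

namespace Crest.Agent.TI
open MeasureTheory

variable {d : ℕ}

namespace KeyBase

lemma measurable_tanh' : Measurable Real.tanh := Scal.continuous_tanh.measurable

lemma measurable_artanh : Measurable Real.artanh := by
  unfold Real.artanh
  exact Real.measurable_log.comp (Real.continuous_sqrt.measurable.comp
    ((measurable_const.add measurable_id).div (measurable_const.sub measurable_id)))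

lemma measurable_phi (θ : ℝ) : Measurable (phi θ) := by
  unfold phi
  exact measurable_artanh.comp (measurable_const.mul measurable_tanh')

lemma measurable_phid (θ : ℝ) : Measurable (phid θ) := by
  unfold phid
  exact (measurable_const.mul (measurable_const.sub (measurable_tanh'.pow_const 2))).div
    (measurable_const.sub (measurable_const.mul (measurable_tanh'.pow_const 2)))

lemma measurable_GG (θ : ℝ) : Measurable (GG θ) := by
  unfold GG
  exact Real.measurable_log.comp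
    ((measurable_const.sub (measurable_const.mul (measurable_tanh'.pow_const 2))).div
      (measurable_const.sub (measurable_tanh'.pow_const 2)))

lemma measurable_msg (θ : ℝ) (n : ℕ) (w : W d) : Measurable (fun y : W d → ℝ => msg θ y n w) := by
  induction n generalizing w with
  | zero => exact measurable_pi_apply w
  | succ n ih =>
    have e : (fun y : W d → ℝ => msg θ y (n + 1) w) = fun y => y w +
      ∑ i : Fin d, if w.head? = some i then 0 else phi θ (msg θ y n (W.nb i w)) := rfl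
    rw [e]
    apply Measurable.add (measurable_pi_apply w)
    apply Finset.measurable_sum
    intro i _
    split_ifs
    · exact measurable_const
    · exact (measurable_phi θ).comp (ih _)

lemma measurable_msgI (θ : ℝ) (w : W d) : Measurable (fun y : W d → ℝ => msgI θ y w) :=
  Measurable.limsup fun n => measurable_msg θ n w

lemma measurable_mR (θ : ℝ) : Measurable (fun y : W d → ℝ => mR θ y) :=
  measurable_tanh'.comp (measurable_msgI θ _)

lemma phid_nonneg {θ : ℝ} (h0 : 0 ≤ θ) (h1 : θ < 1) (h : ℝ) : 0 ≤ phid θ h := Scal.phid_nonneg h0 h1 h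
lemma phid_le {θ : ℝ} (h0 : 0 ≤ θ) (h1 : θ < 1) (h : ℝ) : phid θ h ≤ θ := Scal.phid_le h0 h1 h

lemma phi_abs_le {θ : ℝ} (h0 : 0 ≤ θ) (h1 : θ < 1) (h : ℝ) : |phi θ h| ≤ Real.artanh θ :=
  TreeB.phi_abs_le h0 h1 h

lemma msgI_neg {θ : ℝ} (h0 : 0 ≤ θ) (h1 : θ < 1) {y : W d → ℝ} (hy : Good θ y) (w : W d) :
    msgI θ (-y) w = - msgI θ y w := TreeB.msgI_neg h0 h1 hy w

lemma msgI_abs_le {θ : ℝ} (h0 : 0 ≤ θ) (h1 : θ < 1) {y : W d → ℝ} (hy : Good θ y) {B : ℝ}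
    (hB : ∀ v, |y v| ≤ B) (w : W d) : |msgI θ y w| ≤ B + d * Real.artanh θ :=
  TreeB.msgI_abs_le h0 h1 hy hB w

lemma msgI_tr (θ : ℝ) (y : W d → ℝ) (v w : W d) (hw : w ≠ W.root)
    (h : (W.tr v w).len = v.len + w.len) : msgI θ (y ∘ W.tr v) w = msgI θ y (W.tr v w) :=
  TreeB.msgI_tr θ y v w hw h

lemma covR_recenter {θ : ℝ} (h0 : 0 ≤ θ) (h1 : θ < 1) {y : W d → ℝ} (hy : Good θ y) (u : W d) :
    covR θ y u = covR θ (y ∘ W.tr u) (W.inv u) := TreeB.covR_recenter h0 h1 hy u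

lemma covR_hybrid {θ : ℝ} (h0 : 0 ≤ θ) (h1 : θ < 1) {y y' : W d → ℝ} (hy : Good θ y)
    (hy' : Good θ y') (u : W d) :
    |covR θ y u - covR θ y' u| ≤ ∑ j ∈ Finset.range (u.len + 1),
      2 * Fd θ (y ∘ W.tr (W.par^[j] u)) (y' ∘ W.tr (W.par^[j] u)) *
        cpr θ (y ∘ W.tr (W.par^[j] u)) (W.inv (W.par^[j] u)) *
        cpr θ (y' ∘ W.tr (W.par^[j] u)) (W.tr (W.inv (W.par^[j] u)) u) :=
  TreeB.covR_hybrid h0 h1 hy hy' u

lemma T6 {θ : ℝ} (h0 : 0 ≤ θ) (h1 : θ < 1) : ∃ C : ℝ, 0 < C ∧ ∀ y y' : W d → ℝ, Good θ y → Good θ y' →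
    ∀ i, |Real.tanh (msgI θ y (W.nb i W.root)) - Real.tanh (msgI θ y' (W.nb i W.root))| ≤
      C * (|mR θ y - mR θ y'| + |mR θ (y ∘ W.tr (W.nb i W.root)) - mR θ (y' ∘ W.tr (W.nb i W.root))|) :=
  TreeB.T6 h0 h1

lemma T7 {θ : ℝ} (h0 : 0 ≤ θ) (h1 : θ < 1) (B : ℝ) : ∃ C : ℝ, 0 < C ∧ ∀ y y' : W d → ℝ, Good θ y → Good θ y' →
    (∀ v, |y v| ≤ B) → (∀ v, |y' v| ≤ B) →
    Fd θ y y' ≤ C * (|mR θ y - mR θ y'| +
      ∑ i, |Real.tanh (msgI θ y (W.nb i W.root)) - Real.tanh (msgI θ y' (W.nb i W.root))|) :=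
  TreeB.T7 h0 h1 B

lemma GG_nonneg {θ : ℝ} (h0 : 0 ≤ θ) (h1 : θ < 1) (h : ℝ) : 0 ≤ GG θ h := TreeB.GG_nonneg h0 h1 h
lemma GG_neg (θ : ℝ) (h : ℝ) : GG θ (-h) = GG θ h := TreeB.GG_neg θ h

lemma GG_lip {θ : ℝ} (h0 : 0 ≤ θ) (h1 : θ < 1) (B : ℝ) : ∃ C : ℝ, 0 < C ∧ ∀ h h' : ℝ, |h| ≤ B → |h'| ≤ B →
    |GG θ h - GG θ h'| ≤ C * |Real.tanh h ^ 2 - Real.tanh h' ^ 2| := TreeB.GG_lip h0 h1 B

lemma prod_phid {θ : ℝ} (h0 : 0 ≤ θ) (h1 : θ < 1) (k : ℕ) (h h' : ℕ → ℝ) :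
    |∏ j ∈ Finset.range k, phid θ (h j) - ∏ j ∈ Finset.range k, phid θ (h' j)| ≤
      θ ^ k * |∑ j ∈ Finset.range k, (GG θ (h j) - GG θ (h' j))| := TreeB.prod_phid h0 h1 k h h'

end KeyBase
end Crest.Agent.TI
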