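import Crest.Agent.TIKeyA
import Crest.Agent.TIKeyBase

set_option autoImplicit false
set_option linter.all false

namespace Crest.Agent.TI
namespace Key
open Finset MeasureTheory KeyBase

variable {d : ℕ} {θ : ℝ} {μy : Measure ℝ} {ρ : Measure ((W d → ℝ) × (W d → ℝ))}

lemma ae_fst (hρ : PairLaw θ μy ρ) {p : (W d → ℝ) → Prop}
    (h : ∀ᵐ y ∂(fieldLaw d θ μy), p y) : ∀ᵐ q ∂ρ, p q.1 := by
  rw [← hρ.fst] at h
  exact ae_of_ae_map measurable_fst.aemeasurable h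

lemma ae_snd (hρ : PairLaw θ μy ρ) {p : (W d → ℝ) → Prop}
    (h : ∀ᵐ y ∂(fieldLaw d θ μy), p y) : ∀ᵐ q ∂ρ, p q.2 := by
  rw [← hρ.snd] at h
  exact ae_of_ae_map measurable_snd.aemeasurable h

lemma meas_tr (v : W d) : Measurable (fun y : W d → ℝ => y ∘ W.tr v) := by
  rw [measurable_pi_iff]
  intro w
  exact measurable_pi_apply _

lemma meas_trp (v : W d) : Measurable (fun q : (W d → ℝ) × (W d → ℝ) => (q.1 ∘ W.tr v, q.2 ∘ W.tr v)) :=
  ((meas_tr v).comp measurable_fst).prodMk ((meas_tr v).comp measurable_snd)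

lemma transl_l (hρ : PairLaw θ μy ρ) (v : W d) {F : (W d → ℝ) × (W d → ℝ) → ENNReal} (hF : Measurable F) :
    ∫⁻ q, F (q.1 ∘ W.tr v, q.2 ∘ W.tr v) ∂ρ = ∫⁻ q, F q ∂ρ := by
  conv_rhs => rw [← hρ.transl v]
  rw [lintegral_map hF (meas_trp v)]

lemma transl_i (hρ : PairLaw θ μy ρ) (v : W d) {F : (W d → ℝ) × (W d → ℝ) → ℝ} (hF : Measurable F) :
    ∫ q, F (q.1 ∘ W.tr v, q.2 ∘ W.tr v) ∂ρ = ∫ q, F q ∂ρ := by
  conv_rhs => rw [← hρ.transl v]
  rw [integral_map (meas_trp v).aemeasurable hF.aestronglyMeasurable]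

lemma ae_transl (hρ : PairLaw θ μy ρ) (v : W d) {p : (W d → ℝ) × (W d → ℝ) → Prop}
    (h : ∀ᵐ q ∂ρ, p q) : ∀ᵐ q ∂ρ, p (q.1 ∘ W.tr v, q.2 ∘ W.tr v) := by
  have h' := h
  rw [← hρ.transl v] at h'
  exact ae_of_ae_map (meas_trp v).aemeasurable h'

lemma field_bdd [IsProbabilityMeasure μy] {B : ℝ} (hB : ∀ᵐ h ∂μy, |h| ≤ B) :
    ∀ᵐ y ∂(fieldLaw d θ μy), ∀ v, |y v| ≤ B := by
  unfold fieldLaw
  have hmeas : Measurable (fun (q : (W d → Bool) × (W d → ℝ)) (v : W d) => sg (q.1 v) * q.2 v) := by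
    rw [measurable_pi_iff]
    intro v
    have h1 : Measurable (fun q : (W d → Bool) × (W d → ℝ) => sg (q.1 v)) :=
      (measurable_of_finite sg).comp ((measurable_pi_apply v).comp measurable_fst)
    exact h1.mul ((measurable_pi_apply v).comp measurable_snd)
  have hset : MeasurableSet {y : W d → ℝ | ∀ v, |y v| ≤ B} := by
    have : {y : W d → ℝ | ∀ v, |y v| ≤ B} = ⋂ v, {y : W d → ℝ | |y v| ≤ B} := by
      ext y; simp
    rw [this]
    exact MeasurableSet.iInter fun v => measurableSet_le (by fun_prop) measurable_const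
  rw [ae_map_iff hmeas.aemeasurable hset]
  have h1 : ∀ᵐ b ∂(Measure.infinitePi fun _ : W d => μy), ∀ v, |b v| ≤ B := by
    rw [ae_all_iff]
    intro v
    exact (measurePreserving_eval_infinitePi (fun _ : W d => μy) v).quasiMeasurePreserving.ae hB
  have h2 : ∀ᵐ q ∂((nu d θ).prod (Measure.infinitePi fun _ : W d => μy)), ∀ v, |q.2 v| ≤ B :=
    (Measure.quasiMeasurePreserving_snd (μ := nu d θ) (ν := Measure.infinitePi fun _ : W d => μy)).ae h1
  filter_upwards [h2] with q hq v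
  have : |sg (q.1 v)| = 1 := by unfold sg; split_ifs <;> simp
  rw [abs_mul, this, one_mul]
  exact hq v

section meas

lemma meas_cpr (u : W d) : Measurable (fun y : W d → ℝ => cpr θ y u) := by
  unfold cpr
  exact Finset.measurable_fun_prod _ fun j _ => (measurable_phid θ).comp (measurable_msgI θ _)

lemma meas_covR (u : W d) : Measurable (fun y : W d → ℝ => covR θ y u) := by
  unfold covR
  exact (measurable_const.sub ((measurable_mR θ).pow_const 2)).mul (meas_cpr u)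

lemma meas_QQ (n : ℕ) : Measurable (fun y : W d → ℝ => QQ θ y n) := by
  unfold QQ
  exact Finset.measurable_fun_sum _ fun j _ => (meas_cpr _).pow_const 2

lemma meas_Fd : Measurable (fun q : (W d → ℝ) × (W d → ℝ) => Fd θ q.1 q.2) := by
  unfold Fd
  have h1 : Measurable (fun q : (W d → ℝ) × (W d → ℝ) => |q.1 W.root - q.2 W.root|) := by fun_prop
  refine h1.add (Finset.measurable_fun_sum _ fun i _ => ?_)
  have h2 : ∀ w : W d, Measurable (fun y : W d → ℝ => phi θ (msgI θ y w)) := fun w =>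
    (measurable_phi θ).comp (measurable_msgI θ w)
  exact _root_.continuous_abs.measurable.comp (((h2 _).comp measurable_fst).sub ((h2 _).comp measurable_snd))

end meas

section bounds

variable (h0 : 0 ≤ θ) (h1 : θ < 1)
include h0 h1

lemma cpr_nonneg (y : W d → ℝ) (u : W d) : 0 ≤ cpr θ y u :=
  Finset.prod_nonneg fun _ _ => phid_nonneg h0 h1 _

lemma cpr_le (y : W d → ℝ) (u : W d) : cpr θ y u ≤ θ ^ u.len := by
  unfold cpr
  calc _ ≤ ∏ _j ∈ Finset.range u.len, θ :=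
        Finset.prod_le_prod (fun _ _ => phid_nonneg h0 h1 _) fun _ _ => phid_le h0 h1 _
    _ = θ ^ u.len := by simp

lemma QQ_nonneg (y : W d → ℝ) (n : ℕ) : 0 ≤ QQ θ y n := Finset.sum_nonneg fun _ _ => sq_nonneg _

lemma QQ_le (hd : 3 ≤ d) (hb : ((d : ℝ) - 1) * θ ^ 2 ≤ 1) (y : W d → ℝ) (n : ℕ) : QQ θ y n ≤ 2 := by
  have hd' : (3 : ℝ) ≤ d := by exact_mod_cast hd
  unfold QQ
  calc _ ≤ ∑ _u ∈ W.sphere d n, (θ ^ 2) ^ n := by
        apply Finset.sum_le_sum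
        intro u hu
        rw [W.mem_sphere] at hu
        have := cpr_le h0 h1 y u
        rw [hu] at this
        calc _ ≤ (θ ^ n) ^ 2 := pow_le_pow_left₀ (cpr_nonneg h0 h1 y u) this 2
          _ = _ := by rw [← pow_mul, ← pow_mul, mul_comm]
    _ = ((W.sphere d n).card : ℝ) * (θ ^ 2) ^ n := by simp
    _ ≤ (2 * ((d : ℝ) - 1) ^ n) * (θ ^ 2) ^ n :=
        mul_le_mul_of_nonneg_right (sphere_card_le' hd n) (by positivity)
    _ = 2 * (((d : ℝ) - 1) * θ ^ 2) ^ n := by rw [mul_pow]; ring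
    _ ≤ 2 * 1 := by
        have h2 : 0 ≤ ((d : ℝ) - 1) * θ ^ 2 := mul_nonneg (by linarith) (sq_nonneg _)
        exact mul_le_mul_of_nonneg_left (pow_le_one₀ h2 hb) (by norm_num)
    _ = 2 := by norm_num

omit h0 h1 in
lemma mR_abs (y : W d → ℝ) : |mR θ y| ≤ 1 := by
  unfold mR
  exact (Real.abs_tanh_lt_one _).le

omit h0 h1 in
lemma one_sub_mR_sq (y : W d → ℝ) : 0 ≤ 1 - mR θ y ^ 2 ∧ 1 - mR θ y ^ 2 ≤ 1 := by
  have := mR_abs (θ := θ) y
  have h2 := abs_le.1 this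
  constructor
  · nlinarith
  · nlinarith [sq_nonneg (mR θ y)]

lemma covR_nonneg (y : W d → ℝ) (u : W d) : 0 ≤ covR θ y u :=
  mul_nonneg (one_sub_mR_sq y).1 (cpr_nonneg h0 h1 y u)

lemma covR_le (y : W d → ℝ) (u : W d) : covR θ y u ≤ cpr θ y u := by
  unfold covR
  calc _ ≤ 1 * cpr θ y u := mul_le_mul_of_nonneg_right (one_sub_mR_sq y).2 (cpr_nonneg h0 h1 y u)
    _ = _ := one_mul _

/-- the tail bound -/
lemma tail (hd : 3 ≤ d) (hb : ((d : ℝ) - 1) * θ ^ 2 ≤ 1) [IsProbabilityMeasure ρ]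
    {π : (W d → ℝ) × (W d → ℝ) → (W d → ℝ)} (hπ : Measurable π) (hπm : ρ.map π = fieldLaw d θ μy)
    {q0 : ℝ} (hq0 : 0 < q0) (n : ℕ)
    (htail : (fieldLaw d θ μy).real {y | 4 * q0 ^ (n / 2) < QQ θ y n} ≤
      Real.exp (-(Real.sqrt ((d : ℝ) - 1)) ^ (n / 2)))
    {F : (W d → ℝ) × (W d → ℝ) → ℝ} (hF : Measurable F) (hF0 : ∀ q, 0 ≤ F q) {M : ℝ} (hM : 0 ≤ M)
    (hFM : ∀ᵐ q ∂ρ, F q ≤ M) :
    ∫⁻ q, ENNReal.ofReal (F q * QQ θ (π q) n) ∂ρ ≤
      ENNReal.ofReal (4 * q0 ^ (n / 2)) * ∫⁻ q, ENNReal.ofReal (F q) ∂ρ +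
        ENNReal.ofReal (2 * M * Real.exp (-(Real.sqrt ((d : ℝ) - 1)) ^ (n / 2))) := by
  set E : Set ((W d → ℝ) × (W d → ℝ)) := {q | 4 * q0 ^ (n / 2) < QQ θ (π q) n} with hE
  have mE0 : MeasurableSet {y : W d → ℝ | 4 * q0 ^ (n / 2) < QQ θ y n} :=
    measurableSet_lt measurable_const (meas_QQ n)
  have mE : MeasurableSet E := hπ mE0
  have hEp : ρ E ≤ ENNReal.ofReal (Real.exp (-(Real.sqrt ((d : ℝ) - 1)) ^ (n / 2))) := by
    have h2 : ρ E = (fieldLaw d θ μy) {y | 4 * q0 ^ (n / 2) < QQ θ y n} := by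
      rw [← hπm, Measure.map_apply hπ mE0]; rfl
    rw [h2]
    haveI : IsProbabilityMeasure (fieldLaw d θ μy) := by
      rw [← hπm]; exact Measure.isProbabilityMeasure_map hπ.aemeasurable
    rw [← ENNReal.ofReal_toReal (measure_ne_top (fieldLaw d θ μy) _)]
    exact ENNReal.ofReal_le_ofReal htail
  have hpt : ∀ᵐ q ∂ρ, ENNReal.ofReal (F q * QQ θ (π q) n) ≤
      ENNReal.ofReal (4 * q0 ^ (n / 2)) * ENNReal.ofReal (F q) +
        E.indicator (fun _ => ENNReal.ofReal (2 * M)) q := by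
    filter_upwards [hFM] with q hq
    by_cases hqE : q ∈ E
    · rw [Set.indicator_of_mem hqE]
      refine le_add_of_nonneg_of_le bot_le ?_
      apply ENNReal.ofReal_le_ofReal
      calc F q * QQ θ (π q) n ≤ M * 2 :=
            mul_le_mul hq (QQ_le h0 h1 hd hb _ _) (QQ_nonneg h0 h1 _ _) hM
        _ = 2 * M := by ring
    · rw [Set.indicator_of_notMem hqE, add_zero, ← ENNReal.ofReal_mul (by positivity)]
      apply ENNReal.ofReal_le_ofReal
      have h3 : QQ θ (π q) n ≤ 4 * q0 ^ (n / 2) := not_lt.1 hqE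
      rw [mul_comm]
      exact mul_le_mul_of_nonneg_right h3 (hF0 q)
  calc _ ≤ ∫⁻ q, (ENNReal.ofReal (4 * q0 ^ (n / 2)) * ENNReal.ofReal (F q) +
        E.indicator (fun _ => ENNReal.ofReal (2 * M)) q) ∂ρ := lintegral_mono_ae hpt
    _ = ENNReal.ofReal (4 * q0 ^ (n / 2)) * ∫⁻ q, ENNReal.ofReal (F q) ∂ρ +
        ENNReal.ofReal (2 * M) * ρ E := by
        rw [lintegral_add_right _ (measurable_const.indicator mE), lintegral_indicator_const mE,
          lintegral_const_mul _ hF.ennreal_ofReal]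
    _ ≤ _ := by
        gcongr
        rw [ENNReal.ofReal_mul (p := 2 * M) (by positivity)]
        gcongr

end bounds

end Key
end Crest.Agent.TI
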