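import Crest.Agent.TITreeB

/-!
Row 160 (S0241), piece TREE: recentering (T3), hybrid bound (T4), update (T5).
-/

set_option autoImplicit false
set_option linter.all false

namespace Crest.Agent.TI
namespace TreeB

open Filter Topology

variable {d : ℕ} {θ : ℝ}

/-! ### Scalar identities -/

lemma alg1 {A B θ D E : ℝ} (hD : D = 1 + θ * (A * B)) (hE : E = 1 - θ ^ 2 * B ^ 2) (hD0 : D ≠ 0)
    (hE0 : E ≠ 0) : (1 - ((A + θ * B) / D) ^ 2) * (θ * (1 - B ^ 2) / E) =
      θ * (1 - A ^ 2) * (1 - B ^ 2) / D ^ 2 := by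
  have h : D ^ 2 - (A + θ * B) ^ 2 = (1 - A ^ 2) * E := by rw [hD, hE]; ring
  rw [div_pow, one_sub_div (pow_ne_zero 2 hD0), h]
  field_simp

lemma alg2 {A B θ D E : ℝ} (hD : D = 1 + θ * (A * B)) (hE : E = 1 - θ ^ 2 * A ^ 2) (hD0 : D ≠ 0)
    (hE0 : E ≠ 0) : (A + θ * B) / D = A * (1 - θ ^ 2) / E + θ * (1 - A ^ 2) / E * ((B + θ * A) / D) := by
  have h : A * (1 - θ ^ 2) * D + θ * (1 - A ^ 2) * (B + θ * A) = (A + θ * B) * E := by rw [hD, hE]; ring
  rw [div_mul_div_comm, div_add_div _ _ hE0 (mul_ne_zero hE0 hD0), div_eq_div_iff hD0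
    (mul_ne_zero hE0 (mul_ne_zero hE0 hD0))]
  linear_combination (-(E * D)) * h

lemma D_pos (h0 : 0 ≤ θ) (h1 : θ < 1) (a b : ℝ) : 0 < 1 + θ * (Real.tanh a * Real.tanh b) := by
  have hAB : |Real.tanh a * Real.tanh b| ≤ 1 := by
    rw [abs_mul]; exact mul_le_one₀ (Real.abs_tanh_lt_one a).le (abs_nonneg _) (Real.abs_tanh_lt_one b).le
  have : θ * (-1) ≤ θ * (Real.tanh a * Real.tanh b) := mul_le_mul_of_nonneg_left (abs_le.1 hAB).1 h0
  linarith

lemma tanh_add_phi (h0 : 0 ≤ θ) (h1 : θ < 1) (a b : ℝ) : Real.tanh (a + phi θ b) =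
    (Real.tanh a + θ * Real.tanh b) / (1 + θ * (Real.tanh a * Real.tanh b)) := by
  rw [Scal.tanh_add, Scal.tanh_phi h0 h1]
  congr 1
  ring

lemma sym_id (h0 : 0 ≤ θ) (h1 : θ < 1) (a b : ℝ) :
    (1 - Real.tanh (a + phi θ b) ^ 2) * phid θ b = (1 - Real.tanh (b + phi θ a) ^ 2) * phid θ a := by
  have key : ∀ a b : ℝ, (1 - Real.tanh (a + phi θ b) ^ 2) * phid θ b =
      θ * (1 - Real.tanh a ^ 2) * (1 - Real.tanh b ^ 2) / (1 + θ * (Real.tanh a * Real.tanh b)) ^ 2 := by
    intro a b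
    rw [tanh_add_phi h0 h1]
    unfold phid
    exact alg1 rfl rfl (D_pos h0 h1 a b).ne' (Scal.den_pos h0 h1 b).ne'
  rw [key a b, key b a]
  rw [mul_comm (Real.tanh b) (Real.tanh a)]
  ring

/-- with the message `a` fixed, the magnetisation at the far end is affine -/
lemma affine_id (h0 : 0 ≤ θ) (h1 : θ < 1) (a b b' : ℝ) :
    Real.tanh (a + phi θ b') - Real.tanh (a + phi θ b) =
      phid θ a * (Real.tanh (b' + phi θ a) - Real.tanh (b + phi θ a)) := by
  have key : ∀ b : ℝ, Real.tanh (a + phi θ b) =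
      Real.tanh a * (1 - θ ^ 2) / (1 - θ ^ 2 * Real.tanh a ^ 2) + phid θ a * Real.tanh (b + phi θ a) := by
    intro b
    rw [tanh_add_phi h0 h1, tanh_add_phi h0 h1, mul_comm (Real.tanh b) (Real.tanh a)]
    unfold phid
    exact alg2 rfl rfl (D_pos h0 h1 a b).ne' (Scal.den_pos h0 h1 a).ne'
  rw [key b', key b]
  ring

/-! ### Path products under translation by a neighbour -/

lemma len_par_nc {v w : W d} (hw : w ≠ W.root) (h : (W.tr v w).len = v.len + w.len) :
    (W.tr v w.par).len = v.len + w.par.len := by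
  obtain ⟨i, hi⟩ := W.exists_head hw
  have hnb : W.nb i w.par = w := by rw [← W.nb_eq_par hi, W.nb_nb]
  have e1 : W.tr v w = W.nb i (W.tr v w.par) := by
    conv_lhs => rw [← hnb]
    rw [W.tr_nb]
  have h2 := len_tr_le v w.par
  have h3 := W.len_par hw
  have h4 := len_nb_le i (W.tr v w.par)
  rw [← e1] at h4
  omega

lemma par_tr {v w : W d} (hw : w ≠ W.root) (h : (W.tr v w).len = v.len + w.len) :
    (W.tr v w).par = W.tr v w.par := by
  obtain ⟨i, hi⟩ := W.exists_head hw
  have hnb : W.nb i w.par = w := by rw [← W.nb_eq_par hi, W.nb_nb]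
  have e1 : W.tr v w = W.nb i (W.tr v w.par) := by
    conv_lhs => rw [← hnb]
    rw [W.tr_nb]
  have h2 : (W.tr v w).head? = some i := by rw [head_tr hw h, hi]
  rw [← W.nb_eq_par h2, e1, W.nb_nb]

lemma ne_root_of_len {w : W d} (h : 0 < w.len) : w ≠ W.root := by
  rintro rfl
  rw [W.len_root] at h
  omega

lemma len_par_iter (j : ℕ) (u : W d) : (W.par^[j] u).len = u.len - j := by
  induction j with
  | zero => simp
  | succ j ih =>
    rw [Function.iterate_succ_apply']
    by_cases h : W.par^[j] u = W.root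
    · rw [h]
      rw [h, W.len_root] at ih
      have : (W.root : W d).par.len = 0 := rfl
      rw [this]; omega
    · have := W.len_par h
      omega

lemma par_iter_tr {v w : W d} (h : (W.tr v w).len = v.len + w.len) (a : ℕ) (ha : a ≤ w.len) :
    W.par^[a] (W.tr v w) = W.tr v (W.par^[a] w) ∧
      (W.tr v (W.par^[a] w)).len = v.len + (W.par^[a] w).len := by
  induction a with
  | zero => exact ⟨rfl, h⟩
  | succ a ih =>
    obtain ⟨i1, i2⟩ := ih (by omega)
    have hne : W.par^[a] w ≠ W.root := ne_root_of_len (by rw [len_par_iter]; omega)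
    rw [Function.iterate_succ_apply', Function.iterate_succ_apply', i1]
    exact ⟨par_tr hne i2, len_par_nc hne i2⟩

lemma cpr_tr (θ : ℝ) (y : W d → ℝ) (i : Fin d) {w : W d}
    (h : (W.tr (W.nb i W.root) w).len = 1 + w.len) :
    cpr θ y (W.tr (W.nb i W.root) w) =
      cpr θ (y ∘ W.tr (W.nb i W.root)) w * phid θ (msgI θ y (W.nb i W.root)) := by
  set v := W.nb i (W.root : W d) with hv
  have hvl : v.len = 1 := len_nbr i
  have h' : (W.tr v w).len = v.len + w.len := by rw [hvl]; exact h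
  unfold cpr
  rw [h, add_comm 1 w.len, Finset.prod_range_succ]
  congr 1
  · apply Finset.prod_congr rfl
    intro a ha
    rw [Finset.mem_range] at ha
    obtain ⟨i1, i2⟩ := par_iter_tr h' a ha.le
    have hne : W.par^[a] w ≠ W.root := ne_root_of_len (by rw [len_par_iter]; omega)
    rw [i1, msgI_tr θ y v _ hne i2]
  · obtain ⟨i1, i2⟩ := par_iter_tr h' w.len le_rfl
    have h0 : W.par^[w.len] w = W.root := by
      rw [← W.len_eq_zero, len_par_iter]; omega
    rw [i1, h0, W.tr_root]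

/-- covariance written at the root between the ends of the words `r` and `p` -/
noncomputable def FF (θ : ℝ) (y : W d → ℝ) (r p : W d) : ℝ :=
  (1 - mR θ y ^ 2) * cpr θ y r * cpr θ y p

lemma tr_tr_self (i : Fin d) (y : W d → ℝ) :
    (y ∘ W.tr (W.nb i W.root)) ∘ W.tr (W.nb i W.root) = y := by
  funext u
  simp only [Function.comp]
  rw [← W.tr_tr, tr_nbr_self, W.root_tr]

lemma FF_step (h0 : 0 ≤ θ) (h1 : θ < 1) {y : W d → ℝ} (hy : Good θ y) (i : Fin d) {r p : W d}
    (hr : (W.tr (W.nb i W.root) r).len = 1 + r.len) (hp : (W.tr (W.nb i W.root) p).len = 1 + p.len) :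
    FF θ y r (W.tr (W.nb i W.root) p) =
      FF θ (y ∘ W.tr (W.nb i W.root)) (W.tr (W.nb i W.root) r) p := by
  obtain ⟨e1, e2⟩ := edge_decomp h0 h1 hy i
  unfold FF
  rw [cpr_tr θ y i hp, cpr_tr θ (y ∘ W.tr (W.nb i W.root)) i hr, tr_tr_self]
  have e3 : mR θ y = Real.tanh (msgI θ (y ∘ W.tr (W.nb i W.root)) (W.nb i W.root) +
        phi θ (msgI θ y (W.nb i W.root))) := by unfold mR; rw [e1]
  have e4 : mR θ (y ∘ W.tr (W.nb i W.root)) = Real.tanh (msgI θ y (W.nb i W.root) +
        phi θ (msgI θ (y ∘ W.tr (W.nb i W.root)) (W.nb i W.root))) := by unfold mR; rw [e2]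
  rw [e3, e4]
  have := sym_id h0 h1 (msgI θ (y ∘ W.tr (W.nb i W.root)) (W.nb i W.root)) (msgI θ y (W.nb i W.root))
  linear_combination (cpr θ y r * cpr θ (y ∘ W.tr (W.nb i W.root)) p) * this

/-! ### The geometry of the path -/

lemma inv_nb {x : W d} {i : Fin d} (h : x.head? ≠ some i) :
    W.inv (W.nb i x) = W.tr (W.nb i W.root) (W.inv x) := by
  -- both are inverse to `nb i x`
  have h1 : W.tr (W.inv (W.nb i x)) (W.nb i x) = W.root := W.tr_inv' _
  have h2 : W.tr (W.tr (W.nb i W.root) (W.inv x)) (W.nb i x) = W.root := by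
    rw [W.tr_tr, W.tr_nb, W.tr_inv', tr_nbr_self]
  -- tr v w = root implies v = inv w
  have h3 : ∀ v w : W d, W.tr v w = W.root → v = W.inv w := by
    intro v w h
    have : W.tr (W.tr v w) (W.inv w) = W.inv w := by rw [h, W.root_tr]
    rw [W.tr_tr, W.tr_inv, W.tr_root] at this
    exact this
  rw [h3 _ _ h1, h3 _ _ h2]

/-- data of one step of the path from `z` (closer to the root) to `nb i z` (closer to `u`) -/
lemma path_step (u : W d) (j : ℕ) (hj : j < u.len) : ∃ i : Fin d,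
    (W.par^[j] u).head? = some i ∧ (W.par^[j + 1] u).head? ≠ some i ∧
    W.par^[j] u = W.nb i (W.par^[j + 1] u) ∧
    (∀ y : W d → ℝ, y ∘ W.tr (W.par^[j] u) = (y ∘ W.tr (W.par^[j + 1] u)) ∘ W.tr (W.nb i W.root)) ∧
    W.inv (W.par^[j] u) = W.tr (W.nb i W.root) (W.inv (W.par^[j + 1] u)) ∧
    W.tr (W.inv (W.par^[j + 1] u)) u = W.tr (W.nb i W.root) (W.tr (W.inv (W.par^[j] u)) u) ∧
    (W.tr (W.nb i W.root) (W.inv (W.par^[j + 1] u))).len = 1 + (W.inv (W.par^[j + 1] u)).len := by
  set z := W.par^[j + 1] u with hz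
  have hne : W.par^[j] u ≠ W.root := ne_root_of_len (by rw [len_par_iter]; omega)
  obtain ⟨i, hi⟩ := W.exists_head hne
  have hzp : z = (W.par^[j] u).par := by rw [hz, Function.iterate_succ_apply']
  have hnb : W.par^[j] u = W.nb i z := by
    rw [hzp, ← W.nb_eq_par hi, W.nb_nb]
  have hzi : z.head? ≠ some i := by
    intro h
    have a1 := W.len_nb_of_eq h
    have a2 := W.len_par hne
    rw [← hnb] at a1
    rw [← hzp] at a2
    omega
  have hinv := inv_nb hzi
  refine ⟨i, hi, hzi, hnb, ?_, ?_, ?_, ?_⟩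
  · intro y
    funext w
    simp only [Function.comp]
    rw [← W.tr_tr, W.tr_nb, W.tr_root, hnb]
  · rw [hnb, hinv]
  · rw [hnb, hinv, W.tr_tr, ← W.tr_tr (W.nb i W.root) (W.nb i W.root), tr_nbr_self, W.root_tr]
  · rw [← hinv, W.len_inv, W.len_inv, W.len_nb_of_ne hzi, add_comm]

lemma tr_nb_len_le (i : Fin d) (w : W d) : (W.tr (W.nb i W.root) w).len ≤ 1 + w.len := by
  have := len_tr_le (W.nb i (W.root : W d)) w
  rwa [len_nbr] at this

/-- the word from `par^[j] u` to `u` has length `j` -/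
lemma len_front (u : W d) (j : ℕ) (hj : j ≤ u.len) : (W.tr (W.inv (W.par^[j] u)) u).len = j := by
  -- upper bound by induction on j, lower bound by the triangle inequality
  have hup : ∀ j, j ≤ u.len → (W.tr (W.inv (W.par^[j] u)) u).len ≤ j := by
    intro j
    induction j with
    | zero =>
      intro _
      simp [W.len_root]
    | succ j ih =>
      intro hj
      obtain ⟨i, _, _, _, _, _, e, _⟩ := path_step u j (by omega)
      rw [e]
      have := tr_nb_len_le i (W.tr (W.inv (W.par^[j] u)) u)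
      have := ih (by omega)
      omega
  have hlow : u.len ≤ (W.par^[j] u).len + (W.tr (W.inv (W.par^[j] u)) u).len := by
    have := len_tr_le (W.par^[j] u) (W.tr (W.inv (W.par^[j] u)) u)
    rwa [W.tr_tr_inv] at this
  rw [len_par_iter] at hlow
  have := hup j hj
  omega

/-- (T3) -/
lemma covR_eq_FF (h0 : 0 ≤ θ) (h1 : θ < 1) {y : W d → ℝ} (hy : Good θ y) (u : W d) (j : ℕ)
    (hj : j ≤ u.len) : covR θ y u =
      FF θ (y ∘ W.tr (W.par^[j] u)) (W.inv (W.par^[j] u)) (W.tr (W.inv (W.par^[j] u)) u) := by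
  -- downward induction on j
  obtain ⟨m, hm⟩ : ∃ m, j + m = u.len := ⟨u.len - j, by omega⟩
  induction m generalizing j with
  | zero =>
    have hj' : j = u.len := by omega
    have h0' : W.par^[j] u = W.root := by rw [← W.len_eq_zero, len_par_iter]; omega
    rw [h0']
    have e1 : y ∘ W.tr W.root = y := by funext w; simp
    have e2 : W.inv (W.root : W d) = W.root := rfl
    rw [e1, e2, W.root_tr]
    unfold FF covR
    have : cpr θ y W.root = 1 := by simp [cpr, W.len_root]
    rw [this, mul_one]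
  | succ m ih =>
    rw [ih (j + 1) (by omega) (by omega)]
    obtain ⟨i, _, _, _, e1, e2, e3, e4⟩ := path_step u j (by omega)
    rw [e3, FF_step h0 h1 (good_tr hy _) i e4, ← e1, ← e2]
    rw [← e3, len_front u (j + 1) (by omega), len_front u j (by omega)]
    omega

lemma covR_recenter (h0 : 0 ≤ θ) (h1 : θ < 1) {y : W d → ℝ} (hy : Good θ y) (u : W d) :
    covR θ y u = covR θ (y ∘ W.tr u) (W.inv u) := by
  rw [covR_eq_FF h0 h1 hy u 0 (Nat.zero_le _)]
  simp only [Function.iterate_zero, id]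
  rw [W.tr_inv']
  unfold FF covR
  have : cpr θ (y ∘ W.tr u) W.root = 1 := by simp [cpr, W.len_root]
  rw [this, mul_one]

/-! ### (T5) -/

lemma suffix_nb {w : W d} {i : Fin d} (h : w.head? ≠ some i) : w.1 <:+ (W.nb i w).1 := by
  rw [W.nb_of_ne h]
  exact List.suffix_cons i w.1

lemma msg_congr (θ : ℝ) {y y' : W d → ℝ} (n : ℕ) : ∀ w : W d, (∀ w' : W d, w.1 <:+ w'.1 → y w' = y' w') →
    msg θ y n w = msg θ y' n w := by
  induction n with
  | zero => intro w h; exact h w (List.suffix_refl _)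
  | succ n ih =>
    intro w h
    simp only [msg]
    rw [h w (List.suffix_refl _)]
    congr 1
    apply Finset.sum_congr rfl
    intro i _
    split_ifs with hi
    · rfl
    · rw [ih (W.nb i w) fun w' hw' => h w' ((suffix_nb hi).trans hw')]

lemma msgI_congr (θ : ℝ) {y y' : W d → ℝ} (w : W d) (h : ∀ w' : W d, w.1 <:+ w'.1 → y w' = y' w') :
    msgI θ y w = msgI θ y' w := by
  unfold msgI
  congr 1
  funext n
  exact msg_congr θ n w h

lemma tanh_add_sub (H δ : ℝ) : Real.tanh (H + δ) - Real.tanh H =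
    (1 - Real.tanh H ^ 2) * Real.tanh δ / (1 + Real.tanh H * Real.tanh δ) := by
  have hA := Real.abs_tanh_lt_one H
  have hB := Real.abs_tanh_lt_one δ
  have hD : 0 < 1 + Real.tanh H * Real.tanh δ := by
    have : |Real.tanh H * Real.tanh δ| < 1 := by
      rw [abs_mul]
      calc |Real.tanh H| * |Real.tanh δ| ≤ |Real.tanh H| * 1 := mul_le_mul_of_nonneg_left hB.le (abs_nonneg _)
        _ < 1 := by rw [mul_one]; exact hA
    linarith [(abs_lt.1 this).1]
  rw [Scal.tanh_add]
  have := hD.ne'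
  field_simp
  ring

lemma tr_nbr_val (i : Fin d) : ∀ (q : List (Fin d)) (hq : q.IsChain (· ≠ ·)),
    (q ++ [i]).IsChain (· ≠ ·) → (W.tr (W.nb i (W.root : W d)) ⟨q, hq⟩).1 = q ++ [i] := by
  intro q
  induction q with
  | nil => intro _ _; rfl
  | cons a t ih =>
    intro hq hch
    have e : (W.tr (W.nb i (W.root : W d)) ⟨a :: t, hq⟩).1 =
      W.nbL a (W.tr (W.nb i (W.root : W d)) ⟨t, hq.tail⟩).1 := rfl
    rw [List.cons_append] at hch
    rw [e, ih hq.tail hch.tail]
    cases hta : t ++ [i] with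
    | nil => simp at hta
    | cons b s =>
      rw [hta] at hch
      have : a ≠ b := (List.isChain_cons_cons.1 hch).1
      simp [W.nbL, this, hta]

/-- the letter towards the root is not the first letter of the word from `par^[j] u` to `u` -/
lemma not_suffix_front (u : W d) (j : ℕ) (hj : j < u.len) (i : Fin d)
    (hi : (W.par^[j] u).head? = some i) :
    ¬ (W.nb i (W.root : W d)).1 <:+ (W.tr (W.inv (W.par^[j] u)) u).1 := by
  intro h
  obtain ⟨i', h1, _, _, _, _, e3, _⟩ := path_step u j hj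
  have hii : i' = i := by rw [hi] at h1; exact (Option.some.inj h1).symm
  subst hii
  have hl1 := len_front u j hj.le
  have hl2 := len_front u (j + 1) hj
  rw [e3] at hl2
  generalize W.tr (W.inv (W.par^[j] u)) u = p at h hl1 hl2
  obtain ⟨q, hq⟩ := h
  have hnbl : (W.nb i' (W.root : W d)).1 = [i'] := rfl
  rw [hnbl] at hq
  have hch : (q ++ [i']).IsChain (· ≠ ·) := by rw [hq]; exact p.2
  have hqc : q.IsChain (· ≠ ·) := hch.left_of_append
  have hp2 : p = W.tr (W.nb i' W.root) ⟨q, hqc⟩ := by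
    apply Subtype.ext
    rw [tr_nbr_val i' q hqc hch, hq]
  have h3 : W.tr (W.nb i' W.root) p = ⟨q, hqc⟩ := by
    rw [hp2, ← W.tr_tr, tr_nbr_self, W.root_tr]
  rw [h3] at hl2
  have h4 : p.len = q.length + 1 := by
    have : p.1.length = (q ++ [i']).length := by rw [hq]
    rw [List.length_append] at this
    simpa [W.len] using this
  have h5 : W.len (⟨q, hqc⟩ : W d) = q.length := rfl
  omega

lemma tr_par_ne {u : W d} {j : ℕ} {w : W d} (hw : w ≠ W.tr (W.inv (W.par^[j] u)) u) :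
    W.tr (W.par^[j] u) w ≠ u := by
  intro h
  apply hw
  have := congrArg (W.tr (W.inv (W.par^[j] u))) h
  rwa [W.tr_inv_tr] at this

/-- (T5) -/
lemma update (h0 : 0 ≤ θ) (h1 : θ < 1) {y y' : W d → ℝ} (hy : Good θ y) (hy' : Good θ y') (u : W d) (δ : ℝ)
    (hup : y' u = y u + δ) (hother : ∀ w, w ≠ u → y' w = y w) :
    mR θ y' - mR θ y = covR θ y u * Real.tanh δ / (1 + mR θ (y ∘ W.tr u) * Real.tanh δ) := by
  -- base of the induction: the magnetisation at `u`
  have hbase : mR θ (y' ∘ W.tr u) - mR θ (y ∘ W.tr u) =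
      (1 - mR θ (y ∘ W.tr u) ^ 2) * Real.tanh δ / (1 + mR θ (y ∘ W.tr u) * Real.tanh δ) := by
    have e : msgI θ (y' ∘ W.tr u) W.root = msgI θ (y ∘ W.tr u) W.root + δ := by
      rw [msgI_eq h0 h1 (good_tr hy' u) W.root, msgI_eq h0 h1 (good_tr hy u) W.root]
      have e1 : (y' ∘ W.tr u) W.root = (y ∘ W.tr u) W.root + δ := by simp [hup]
      rw [e1]
      have e2 : ∀ i : Fin d, msgI θ (y' ∘ W.tr u) (W.nb i W.root) = msgI θ (y ∘ W.tr u) (W.nb i W.root) := by
        intro i
        apply msgI_congr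
        intro w hw
        simp only [Function.comp]
        apply hother
        intro h
        have : w = W.root := by
          have := congrArg (W.tr (W.inv u)) h
          rwa [W.tr_inv_tr, W.tr_inv'] at this
        rw [this] at hw
        have := hw.length_le
        simp [W.nb, W.nbL, W.root] at this
      simp only [e2]
      ring
    unfold mR
    rw [e]
    exact tanh_add_sub _ _
  -- move along the path
  have step : ∀ j, j < u.len → ∀ i, (W.par^[j] u).head? = some i →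
      mR θ (y' ∘ W.tr (W.par^[j + 1] u)) - mR θ (y ∘ W.tr (W.par^[j + 1] u)) =
      phid θ (msgI θ (y ∘ W.tr (W.par^[j] u)) (W.nb i W.root)) *
        (mR θ (y' ∘ W.tr (W.par^[j] u)) - mR θ (y ∘ W.tr (W.par^[j] u))) := by
    intro j hj i hi
    obtain ⟨i', h1', _, hnb, e1, _, _, _⟩ := path_step u j hj
    have hii : i' = i := by rw [hi] at h1'; exact (Option.some.inj h1').symm
    subst hii
    obtain ⟨a1, a2⟩ := edge_decomp h0 h1 (good_tr hy (W.par^[j + 1] u)) i'
    obtain ⟨b1, b2⟩ := edge_decomp h0 h1 (good_tr hy' (W.par^[j + 1] u)) i'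
    rw [← e1] at a1 a2 b1 b2
    have hsame : msgI θ (y' ∘ W.tr (W.par^[j] u)) (W.nb i' W.root) =
        msgI θ (y ∘ W.tr (W.par^[j] u)) (W.nb i' W.root) := by
      apply msgI_congr
      intro w hw
      simp only [Function.comp]
      apply hother
      apply tr_par_ne
      rintro rfl
      exact not_suffix_front u j hj i' hi hw
    rw [hsame] at b1 b2
    unfold mR
    rw [a1, a2, b1, b2]
    exact affine_id h0 h1 _ _ _
  -- telescoping
  have tele : ∀ j, j ≤ u.len → (mR θ (y' ∘ W.tr (W.par^[j] u)) - mR θ (y ∘ W.tr (W.par^[j] u))) *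
      cpr θ (y ∘ W.tr (W.par^[j] u)) (W.inv (W.par^[j] u)) =
      (mR θ (y' ∘ W.tr u) - mR θ (y ∘ W.tr u)) * cpr θ (y ∘ W.tr u) (W.inv u) := by
    intro j
    induction j with
    | zero => intro _; rfl
    | succ j ih =>
      intro hj
      rw [← ih (by omega)]
      obtain ⟨i, hi, _, hnb, e1, e2, _, e4⟩ := path_step u j (by omega)
      rw [step j (by omega) i hi]
      have e5 : cpr θ (y ∘ W.tr (W.par^[j] u)) (W.inv (W.par^[j] u)) =
          cpr θ (y ∘ W.tr (W.par^[j + 1] u)) (W.inv (W.par^[j + 1] u)) *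
            phid θ (msgI θ (y ∘ W.tr (W.par^[j] u)) (W.nb i W.root)) := by
        conv_lhs => rw [e2]
        rw [cpr_tr θ _ i e4]
        congr 2
        rw [e1, tr_tr_self]
      rw [e5]
      ring
  have hk := tele u.len le_rfl
  have hroot : W.par^[u.len] u = W.root := by rw [← W.len_eq_zero, len_par_iter]; omega
  rw [hroot] at hk
  have e1 : ∀ y : W d → ℝ, y ∘ W.tr W.root = y := by intro y; funext w; simp
  have e2 : W.inv (W.root : W d) = W.root := rfl
  have e3 : cpr θ y W.root = 1 := by simp [cpr, W.len_root]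
  rw [e1, e1, e2, e3, mul_one] at hk
  rw [hk, hbase, covR_recenter h0 h1 hy u]
  unfold covR
  ring

/-! ### (T4) -/

/-- difference of the incoming messages in direction `o` -/
noncomputable def dph (θ : ℝ) (Y Y' : W d → ℝ) : Option (Fin d) → ℝ
  | none => 0
  | some i => phi θ (msgI θ Y (W.nb i W.root)) - phi θ (msgI θ Y' (W.nb i W.root))

lemma dph_eq (θ : ℝ) (Y Y' : W d → ℝ) (o : Option (Fin d)) : dph θ Y Y' o =
    ∑ i : Fin d, if o = some i then phi θ (msgI θ Y (W.nb i W.root)) - phi θ (msgI θ Y' (W.nb i W.root)) else 0 := by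
  cases o with
  | none => simp [dph]
  | some i =>
    simp only [dph, Option.some.injEq]
    rw [Finset.sum_ite_eq]
    simp

lemma center_diff (h0 : 0 ≤ θ) (h1 : θ < 1) {Y Y' : W d → ℝ} (hY : Good θ Y) (hY' : Good θ Y')
    (o ι : Option (Fin d)) (ho : ∀ i, o = some i → ι ≠ some i) :
    |(msgI θ Y W.root - dph θ Y Y' o) - (msgI θ Y' W.root + dph θ Y Y' ι)| ≤ Fd θ Y Y' := by
  have hroot : (W.root : W d).head? = none := rfl
  have e1 := msgI_eq h0 h1 hY W.root
  have e2 := msgI_eq h0 h1 hY' W.root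
  simp only [hroot, reduceCtorEq, if_false] at e1 e2
  have e3 : (msgI θ Y W.root - dph θ Y Y' o) - (msgI θ Y' W.root + dph θ Y Y' ι) =
      (Y W.root - Y' W.root) + ∑ i : Fin d, ((phi θ (msgI θ Y (W.nb i W.root)) - phi θ (msgI θ Y' (W.nb i W.root))) -
        (if o = some i then phi θ (msgI θ Y (W.nb i W.root)) - phi θ (msgI θ Y' (W.nb i W.root)) else 0) -
        (if ι = some i then phi θ (msgI θ Y (W.nb i W.root)) - phi θ (msgI θ Y' (W.nb i W.root)) else 0)) := by
    rw [Finset.sum_sub_distrib, Finset.sum_sub_distrib, ← dph_eq, ← dph_eq, Finset.sum_sub_distrib, e1, e2]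
    ring
  rw [e3]
  unfold Fd
  refine (abs_add_le _ _).trans ?_
  gcongr
  refine (Finset.abs_sum_le_sum_abs _ _).trans (Finset.sum_le_sum fun i _ => ?_)
  by_cases h1 : o = some i
  · have h2 := ho i h1
    rw [if_pos h1, if_neg h2]
    simp
  · by_cases h2 : ι = some i
    · rw [if_neg h1, if_pos h2]
      simp
    · rw [if_neg h1, if_neg h2]
      simp

lemma tanh_sq_lip (a b : ℝ) : |Real.tanh a ^ 2 - Real.tanh b ^ 2| ≤ 2 * |a - b| := by
  have h1 : |Real.tanh a - Real.tanh b| ≤ |a - b| := by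
    have := Convex.norm_image_sub_le_of_norm_hasDerivWithin_le (f := Real.tanh)
      (f' := fun h => 1 - Real.tanh h ^ 2) (s := Set.univ) (x := b) (y := a) (C := 1)
      (fun z _ => (Scal.hasDerivAt_tanh z).hasDerivWithinAt)
      (fun z _ => by
        rw [Real.norm_eq_abs, abs_of_pos (one_sub_tanh_sq_pos z)]
        linarith [sq_nonneg (Real.tanh z)]) convex_univ (Set.mem_univ _) (Set.mem_univ _)
    simpa [Real.norm_eq_abs] using this
  have h2 : |Real.tanh a + Real.tanh b| ≤ 2 := by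
    refine (abs_add_le _ _).trans ?_
    linarith [(Real.abs_tanh_lt_one a).le, (Real.abs_tanh_lt_one b).le]
  rw [sq_sub_sq, abs_mul]
  exact mul_le_mul h2 h1 (abs_nonneg _) (by norm_num)

lemma cpr_nonneg (h0 : 0 ≤ θ) (h1 : θ < 1) (y : W d → ℝ) (u : W d) : 0 ≤ cpr θ y u :=
  Finset.prod_nonneg fun _ _ => Scal.phid_nonneg h0 h1 _

/-- (T4) -/
lemma covR_hybrid (h0 : 0 ≤ θ) (h1 : θ < 1) {y y' : W d → ℝ} (hy : Good θ y)
    (hy' : Good θ y') (u : W d) :
    |covR θ y u - covR θ y' u| ≤ ∑ j ∈ Finset.range (u.len + 1),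
      2 * Fd θ (y ∘ W.tr (W.par^[j] u)) (y' ∘ W.tr (W.par^[j] u)) *
        cpr θ (y ∘ W.tr (W.par^[j] u)) (W.inv (W.par^[j] u)) *
        cpr θ (y' ∘ W.tr (W.par^[j] u)) (W.tr (W.inv (W.par^[j] u)) u) := by
  set k := u.len with hk
  set Y : ℕ → W d → ℝ := fun j => y ∘ W.tr (W.par^[j] u) with hY
  set Y' : ℕ → W d → ℝ := fun j => y' ∘ W.tr (W.par^[j] u) with hY'
  have gY : ∀ j, Good θ (Y j) := fun j => good_tr hy _
  have gY' : ∀ j, Good θ (Y' j) := fun j => good_tr hy' _
  set o : ℕ → Option (Fin d) := fun j => if j = 0 then none else (W.par^[j - 1] u).head? with ho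
  set ι : ℕ → Option (Fin d) := fun j => (W.par^[j] u).head? with hι
  set K : ℕ → ℝ := fun j => cpr θ (Y j) (W.inv (W.par^[j] u)) *
    cpr θ (Y' j) (W.tr (W.inv (W.par^[j] u)) u) with hK
  set P : ℕ → ℝ := fun j => (1 - Real.tanh (msgI θ (Y j) W.root - dph θ (Y j) (Y' j) (o j)) ^ 2) * K j with hP
  set Q : ℕ → ℝ := fun j => (1 - Real.tanh (msgI θ (Y' j) W.root + dph θ (Y j) (Y' j) (ι j)) ^ 2) * K j with hQ
  have K0 : ∀ j, 0 ≤ K j := fun j => mul_nonneg (cpr_nonneg h0 h1 _ _) (cpr_nonneg h0 h1 _ _)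
  have c1 : ∀ y : W d → ℝ, cpr θ y W.root = 1 := by intro y; simp [cpr, W.len_root]
  -- ends
  have hP0 : P 0 = covR θ y u := by
    rw [covR_recenter h0 h1 hy u]
    simp only [hP, hK, ho, if_true, dph, sub_zero, hY, hY', Function.iterate_zero, id, W.tr_inv']
    rw [c1, mul_one]
    rfl
  have hroot : W.par^[k] u = W.root := by rw [← W.len_eq_zero, len_par_iter]; omega
  have hQk : Q k = covR θ y' u := by
    have e1 : ∀ y : W d → ℝ, y ∘ W.tr W.root = y := by intro y; funext w; simp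
    have e2 : W.inv (W.root : W d) = W.root := rfl
    have e3 : (W.root : W d).head? = none := rfl
    simp only [hQ, hK, hι, hY, hY', hroot, e1, e2, e3, dph, add_zero, W.root_tr]
    rw [c1, one_mul]
    rfl
  -- matching
  have hmatch : ∀ j, j < k → P (j + 1) = Q j := by
    intro j hj
    obtain ⟨i, hi, _, hnb, e1, e2, e3, e4⟩ := path_step u j hj
    have hYs : Y j = Y (j + 1) ∘ W.tr (W.nb i W.root) := e1 y
    have hYs' : Y' j = Y' (j + 1) ∘ W.tr (W.nb i W.root) := e1 y'
    obtain ⟨a1, a2⟩ := edge_decomp h0 h1 (gY (j + 1)) i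
    obtain ⟨b1, b2⟩ := edge_decomp h0 h1 (gY' (j + 1)) i
    rw [← hYs] at a1 a2
    rw [← hYs'] at b1 b2
    have ho1 : o (j + 1) = some i := by simp [ho, hi]
    have hι1 : ι j = some i := hi
    have cP : msgI θ (Y (j + 1)) W.root - dph θ (Y (j + 1)) (Y' (j + 1)) (o (j + 1)) =
        msgI θ (Y j) (W.nb i W.root) + phi θ (msgI θ (Y' (j + 1)) (W.nb i W.root)) := by
      rw [ho1, a1]; simp only [dph]; ring
    have cQ : msgI θ (Y' j) W.root + dph θ (Y j) (Y' j) (ι j) =
        msgI θ (Y' (j + 1)) (W.nb i W.root) + phi θ (msgI θ (Y j) (W.nb i W.root)) := by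
      rw [hι1, b2]; simp only [dph]; ring
    have lf1 := len_front u (j + 1) (by omega)
    have lf0 := len_front u j (by omega)
    have hp : (W.tr (W.nb i W.root) (W.tr (W.inv (W.par^[j] u)) u)).len =
        1 + (W.tr (W.inv (W.par^[j] u)) u).len := by
      rw [← e3, lf1, lf0]; omega
    have kp : cpr θ (Y' (j + 1)) (W.tr (W.inv (W.par^[j + 1] u)) u) =
        cpr θ (Y' j) (W.tr (W.inv (W.par^[j] u)) u) * phid θ (msgI θ (Y' (j + 1)) (W.nb i W.root)) := by
      rw [e3, cpr_tr θ _ i hp, ← hYs']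
    have kr : cpr θ (Y j) (W.inv (W.par^[j] u)) = cpr θ (Y (j + 1)) (W.inv (W.par^[j + 1] u)) *
        phid θ (msgI θ (Y j) (W.nb i W.root)) := by
      rw [e2, cpr_tr θ _ i e4]
      congr 2
      rw [hYs, tr_tr_self]
    simp only [hP, hQ]
    rw [cP, cQ]
    simp only [hK]
    rw [kp, kr]
    have := sym_id h0 h1 (msgI θ (Y j) (W.nb i W.root)) (msgI θ (Y' (j + 1)) (W.nb i W.root))
    linear_combination (cpr θ (Y (j + 1)) (W.inv (W.par^[j + 1] u)) *
      cpr θ (Y' j) (W.tr (W.inv (W.par^[j] u)) u)) * this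
  -- telescoping
  have htel : covR θ y u - covR θ y' u = ∑ j ∈ Finset.range (k + 1), (P j - Q j) := by
    rw [Finset.sum_range_succ, ← hP0, ← hQk]
    have : ∑ j ∈ Finset.range k, (P j - Q j) = ∑ j ∈ Finset.range k, (P j - P (j + 1)) := by
      apply Finset.sum_congr rfl
      intro j hj
      rw [hmatch j (Finset.mem_range.1 hj)]
    rw [this, Finset.sum_range_sub']
    ring
  rw [htel]
  refine (Finset.abs_sum_le_sum_abs _ _).trans (Finset.sum_le_sum fun j hj => ?_)
  have hjk : j ≤ k := by rw [Finset.mem_range] at hj; omega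
  have hoι : ∀ i, o j = some i → ι j ≠ some i := by
    intro i hi
    rcases Nat.eq_zero_or_pos j with h | h
    · subst h
      simp [ho] at hi
    · obtain ⟨m, rfl⟩ : ∃ m, j = m + 1 := ⟨j - 1, by omega⟩
      simp only [ho, Nat.succ_ne_zero, if_false, Nat.add_sub_cancel] at hi
      obtain ⟨i', hi', hne, _⟩ := path_step u m (by omega)
      rw [hi] at hi'
      have : i = i' := Option.some.inj hi'
      subst this
      exact hne
  have hc := center_diff h0 h1 (gY j) (gY' j) (o j) (ι j) hoι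
  have e : P j - Q j = -((Real.tanh (msgI θ (Y j) W.root - dph θ (Y j) (Y' j) (o j)) ^ 2 -
      Real.tanh (msgI θ (Y' j) W.root + dph θ (Y j) (Y' j) (ι j)) ^ 2) * K j) := by
    simp only [hP, hQ]; ring
  rw [e, abs_neg, abs_mul, abs_of_nonneg (K0 j)]
  have ht := tanh_sq_lip (msgI θ (Y j) W.root - dph θ (Y j) (Y' j) (o j))
    (msgI θ (Y' j) W.root + dph θ (Y j) (Y' j) (ι j))
  calc _ ≤ (2 * Fd θ (Y j) (Y' j)) * K j := by
        apply mul_le_mul_of_nonneg_right _ (K0 j)
        exact ht.trans (mul_le_mul_of_nonneg_left hc (by norm_num))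
    _ = _ := by simp only [hK]; ring

end TreeB
end Crest.Agent.TI
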