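import Crest.Agent.TILawC
import Crest.Agent.TITree
import Crest.Agent.TIEnergyDefs
import Crest.Agent.TIKeyB
import Crest.Agent.TIFinalC

/-!
Row 160 (S0241).  Martingale relations for the magnetisation at the root and its increments (one
replica).
-/

set_option autoImplicit false

namespace Crest.Agent.TI.Mart

open MeasureTheory unitInterval Set Filter Topology ProbabilityTheory Crest.Agent.TI
open Crest.Agent.TI.Law Crest.Agent.TI.Energy
open scoped ENNReal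

section

variable {d : ℕ}

/-! ### the past -/

lemma past_mono {c : Cl (W d)} {k : ℕ} {s t : ℝ} (h : s ≤ t) :
    {a | Bef c k s a} ⊆ {a | Bef c k t a} := by
  rintro a (ha | ⟨ha, ha'⟩)
  · exact Or.inl ha
  · exact Or.inr ⟨ha, ha'.trans_le h⟩

lemma pastP_sub {c : Cl (W d)} {k : ℕ} {u : W d} {t : ℝ} (h : (c (u, k) : ℝ) < t) :
    insert (u, k) {a | Bef c k (c (u, k)) a} ⊆ {a | Bef c k t a} := by
  refine insert_subset (Or.inr ⟨rfl, h⟩) (past_mono h.le)

lemma notMem_past (c : Cl (W d)) (k : ℕ) (u : W d) : (u, k) ∉ {a | Bef c k (c (u, k)) a} := by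
  rintro (h | ⟨_, h⟩)
  · exact lt_irrefl _ h
  · exact lt_irrefl _ h

lemma past_lt {c : Cl (W d)} {k : ℕ} {r : ℝ} : ∀ a ∈ {a | Bef c k r a}, a.2 < k + 1 :=
  fun _ ha => bef_lt ha

lemma pastP_lt {c : Cl (W d)} {k : ℕ} {u : W d} :
    ∀ a ∈ insert (u, k) {a | Bef c k (c (u, k)) a}, a.2 < k + 1 := by
  rintro a (rfl | ha)
  · exact Nat.lt_succ_self k
  · exact bef_lt ha

lemma yF_eq_fJ (c : Cl (W d)) (k : ℕ) (r : ℝ) (p : Om (W d)) :
    yF k r c p = fJ c {a | Bef c k r a} (k + 1) (Zc c p) := by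
  unfold yF
  rw [fieldAt_eq_fJ]

lemma fJ_insert_self (c : Cl (W d)) {J : Set (W d × ℕ)} {u : W d} {k : ℕ} (h : (u, k) ∉ J)
    (z : W d × ℕ → I) :
    fJ c (insert (u, k) J) (k + 1) z u = fJ c J (k + 1) z u + ell (c (u, k)) (z (u, k)) := by
  classical
  unfold fJ
  rw [Finset.sum_range_succ, Finset.sum_range_succ, if_pos (mem_insert _ _), if_neg h, add_zero]
  congr 1
  refine Finset.sum_congr rfl fun j hj => ?_
  have hj' : j ≠ k := (Finset.mem_range.1 hj).ne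
  have : (u, j) ∈ insert (u, k) J ↔ (u, j) ∈ J := by
    rw [mem_insert_iff]
    constructor
    · rintro (h | h)
      · exact absurd (congrArg Prod.snd h) hj'
      · exact h
    · exact Or.inr
  simp only [this]

lemma fJ_insert_of_ne (c : Cl (W d)) {J : Set (W d × ℕ)} {u w : W d} {k : ℕ} (h : w ≠ u)
    (z : W d × ℕ → I) :
    fJ c (insert (u, k) J) (k + 1) z w = fJ c J (k + 1) z w := by
  classical
  unfold fJ
  refine Finset.sum_congr rfl fun j hj => ?_
  have : (w, j) ∈ insert (u, k) J ↔ (w, j) ∈ J := by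
    rw [mem_insert_iff]
    constructor
    · rintro (h' | h')
      · exact absurd (congrArg Prod.fst h') h
      · exact h'
    · exact Or.inr
  simp only [this]

/-! ### the increment without window -/

/-- the increment without window -/
noncomputable def xv (θ : ℝ) (k : ℕ) (u : W d) (c : Cl (W d)) (p : Om (W d)) : ℝ :=
  covR θ (yF k (c (u, k)) c p) u * Jb θ c p (u, k)

lemma xi_of {θ : ℝ} {k : ℕ} {s t : ℝ} {u : W d} {c : Cl (W d)}
    (h : s ≤ (c (u, k) : ℝ) ∧ (c (u, k) : ℝ) < t) (p : Om (W d)) :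
    xi θ k s t u c p = xv θ k u c p := if_pos h

lemma xi_of_not {θ : ℝ} {k : ℕ} {s t : ℝ} {u : W d} {c : Cl (W d)}
    (h : ¬ (s ≤ (c (u, k) : ℝ) ∧ (c (u, k) : ℝ) < t)) (p : Om (W d)) :
    xi θ k s t u c p = 0 := if_neg h

lemma abs_xv_le {θ : ℝ} (h0 : 0 ≤ θ) (h1 : θ < 1) (k : ℕ) (u : W d) (c : Cl (W d))
    (p : Om (W d)) : |xv θ k u c p| ≤ 1 := by
  unfold xv
  have a1 := Key.covR_nonneg h0 h1 (yF k (c (u, k)) c p) u
  have a2 := Key.covR_le h0 h1 (yF k (c (u, k)) c p) u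
  have a3 := Key.cpr_le h0 h1 (yF k (c (u, k)) c p) u
  have a4 : θ ^ u.len ≤ 1 := pow_le_one₀ h0 h1.le
  have a5 := abs_Jb_le_third θ c p (u, k)
  rw [abs_mul, abs_of_nonneg a1]
  have a6 := abs_nonneg (Jb θ c p (u, k))
  nlinarith

lemma abs_xi_le {θ : ℝ} (h0 : 0 ≤ θ) (h1 : θ < 1) (k : ℕ) (s t : ℝ) (u : W d) (c : Cl (W d))
    (p : Om (W d)) : |xi θ k s t u c p| ≤ 1 := by
  by_cases h : s ≤ (c (u, k) : ℝ) ∧ (c (u, k) : ℝ) < t
  · rw [xi_of h]; exact abs_xv_le h0 h1 k u c p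
  · rw [xi_of_not h]; simp

lemma xv_ae {θ : ℝ} (h0 : 0 ≤ θ) (h1 : θ < 1) (k : ℕ) (u : W d) (c : Cl (W d)) :
    ∀ᵐ p ∂(PPn (nu d θ)),
      mR θ (fJ c (insert (u, k) {a | Bef c k (c (u, k)) a}) (k + 1) (Zc c p)) =
        mR θ (fJ c {a | Bef c k (c (u, k)) a} (k + 1) (Zc c p)) + xv θ k u c p := by
  have g1 := good_ae h0 h1 c {a | Bef c k (c (u, k)) a} (k + 1) past_lt
  have g2 := good_ae h0 h1 c (insert (u, k) {a | Bef c k (c (u, k)) a}) (k + 1) pastP_lt
  filter_upwards [g1, g2] with p hp1 hp2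
  have h := TreeB.update h0 h1 hp1 hp2 u (ell (c (u, k)) (Zc c p (u, k)))
    (fJ_insert_self c (notMem_past c k u) _) (fun w hw => fJ_insert_of_ne c hw _)
  rw [tanh_ell] at h
  have e : xv θ k u c p = covR θ (fJ c {a | Bef c k (c (u, k)) a} (k + 1) (Zc c p)) u *
      (amp (c (u, k)) * (1 - 2 * (Zc c p (u, k) : ℝ))) /
      (1 + mR θ (fJ c {a | Bef c k (c (u, k)) a} (k + 1) (Zc c p) ∘ W.tr u) *
        (amp (c (u, k)) * (1 - 2 * (Zc c p (u, k) : ℝ)))) := by
    unfold xv Jb drift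
    rw [yF_eq_fJ, fieldAt_eq_fJ]
    have e0 : ∀ C A D : ℝ, C * (A / (1 + A * D)) = C * A / (1 + D * A) := fun C A D => by
      rw [mul_div_assoc, mul_comm D A]
    exact e0 _ _ _
  rw [e, ← h]
  ring

/-! ### measurability with respect to the past -/

lemma measurable_mR_sA (θ : ℝ) (c : Cl (W d)) {J J' : Set (W d × ℕ)} (hJ : J ⊆ J') (K : ℕ) :
    Measurable[sA c J'] (fun p : Om (W d) => mR θ (fJ c J K (Zc c p))) :=
  (Pair.measurable_mR θ).comp (measurable_fJ_sA c hJ K)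

lemma measurable_xv_sA (θ : ℝ) (k : ℕ) (u : W d) (c : Cl (W d)) {J' : Set (W d × ℕ)}
    (hJ : insert (u, k) {a | Bef c k (c (u, k)) a} ⊆ J') :
    Measurable[sA c J'] (fun p : Om (W d) => xv θ k u c p) := by
  have hJ1 : {a | Bef c k (c (u, k)) a} ⊆ J' := (subset_insert _ _).trans hJ
  have m1 : Measurable[sA c J'] (fun p : Om (W d) => covR θ (yF k (c (u, k)) c p) u) := by
    simp only [yF_eq_fJ]
    exact (measurable_covR θ u).comp (measurable_fJ_sA c hJ1 (k + 1))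
  have m2 : Measurable[sA c J'] (fun p : Om (W d) => Zc c p (u, k)) :=
    measurable_coord (hJ (mem_insert _ _))
  have m3 : Measurable[sA c J'] (fun p : Om (W d) => amp (c (u, k)) *
      (1 - 2 * (Zc c p (u, k) : ℝ))) :=
    ((measurable_subtype_coe.comp m2).const_mul 2).const_sub 1 |>.const_mul _
  have m4 : Measurable[sA c J'] (fun p : Om (W d) => drift θ c (Zc c p) (u, k)) :=
    (measurable_DD θ c (u, k)).mono (sA_mono c hJ1) le_rfl
  have m5 : Measurable[sA c J'] (fun p : Om (W d) => Jb θ c p (u, k)) := by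
    unfold Jb
    exact m3.div ((m3.mul m4).const_add 1)
  exact m1.mul m5

/-! ### relations for fixed clocks -/

variable {θ : ℝ} (h0 : 0 ≤ θ) (h1 : θ < 1)
include h0 h1

/-- martingale property -/
theorem mart (c : Cl (W d)) {J J' : Set (W d × ℕ)} (hJJ : J ⊆ J') {K K' : ℕ}
    (hJ : ∀ a ∈ J, a.2 < K) (hJ' : ∀ a ∈ J', a.2 < K') (f : Om (W d) → ℝ)
    (hf : Measurable[sA c J] f) (hC : ∃ C, ∀ p, |f p| ≤ C) :
    ∫ p, f p * mR θ (fJ c J' K' (Zc c p)) ∂(PPn (nu d θ)) =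
      ∫ p, f p * mR θ (fJ c J K (Zc c p)) ∂(PPn (nu d θ)) := by
  have e1 := mean_fJ h0 h1 c J K hJ W.root f hf hC
  have e2 := mean_fJ h0 h1 c J' K' hJ' W.root f (hf.mono (sA_mono c hJJ) le_rfl) hC
  have e3 : ∀ y : W d → ℝ, y ∘ W.tr W.root = y := fun y => by
    funext w; simp
  simp only [e3] at e1 e2
  rw [← e1, ← e2]

/-- the increment is orthogonal to the past -/
theorem xv_orth (k : ℕ) (u : W d) (c : Cl (W d)) (f : Om (W d) → ℝ)
    (hf : Measurable[sA c {a | Bef c k (c (u, k)) a}] f) (hC : ∃ C, ∀ p, |f p| ≤ C) :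
    ∫ p, f p * xv θ k u c p ∂(PPn (nu d θ)) = 0 := by
  have hP := isProb_nu d h1.le
  obtain ⟨C, hC'⟩ := hC
  have hle : ∀ J, sA c J ≤ (inferInstance : MeasurableSpace (Om (W d))) := sA_le c
  have hfm : Measurable f := hf.mono (hle _) le_rfl
  have e := mart h0 h1 c (subset_insert (u, k) {a | Bef c k (c (u, k)) a}) past_lt pastP_lt f hf
    ⟨C, hC'⟩
  have m1 : Measurable (fun p : Om (W d) =>
      mR θ (fJ c {a | Bef c k (c (u, k)) a} (k + 1) (Zc c p))) :=
    (measurable_mR_sA θ c subset_rfl (k + 1)).mono (hle _) le_rfl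
  have m2 : Measurable (fun p : Om (W d) => xv θ k u c p) :=
    (measurable_xv_sA θ k u c subset_rfl).mono (hle _) le_rfl
  have i1 : Integrable (fun p : Om (W d) => f p *
      mR θ (fJ c {a | Bef c k (c (u, k)) a} (k + 1) (Zc c p))) (PPn (nu d θ)) := by
    refine Integrable.of_bound (C := C) (hfm.mul m1).aestronglyMeasurable
      (Eventually.of_forall fun p => ?_)
    rw [Real.norm_eq_abs, abs_mul]
    have := hC' p
    have := abs_mR_le θ (fJ c {a | Bef c k (c (u, k)) a} (k + 1) (Zc c p))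
    nlinarith [abs_nonneg (f p), abs_nonneg (mR θ (fJ c {a | Bef c k (c (u, k)) a} (k + 1) (Zc c p)))]
  have i2 : Integrable (fun p : Om (W d) => f p * xv θ k u c p) (PPn (nu d θ)) := by
    refine Integrable.of_bound (C := C) (hfm.mul m2).aestronglyMeasurable
      (Eventually.of_forall fun p => ?_)
    rw [Real.norm_eq_abs, abs_mul]
    have := hC' p
    have := abs_xv_le h0 h1 k u c p
    nlinarith [abs_nonneg (f p), abs_nonneg (xv θ k u c p)]
  have e2 : ∫ p, f p * mR θ (fJ c (insert (u, k) {a | Bef c k (c (u, k)) a}) (k + 1) (Zc c p))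
      ∂(PPn (nu d θ)) =
      ∫ p, f p * mR θ (fJ c {a | Bef c k (c (u, k)) a} (k + 1) (Zc c p)) ∂(PPn (nu d θ)) +
        ∫ p, f p * xv θ k u c p ∂(PPn (nu d θ)) := by
    rw [← integral_add i1 i2]
    refine integral_congr_ae ?_
    filter_upwards [xv_ae h0 h1 k u c] with p hp
    rw [hp]; ring
  linarith

/-- `∫ m_s m_t = ∫ m_s²` for fixed clocks -/
theorem c_mm (k : ℕ) {s t : ℝ} (hst : s ≤ t) (c : Cl (W d)) :
    ∫ p, mR θ (yF k s c p) * mR θ (yF k t c p) ∂(PPn (nu d θ)) =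
      ∫ p, mR θ (yF k s c p) ^ 2 ∂(PPn (nu d θ)) := by
  simp only [yF_eq_fJ, pow_two]
  exact mart h0 h1 c (past_mono hst) past_lt past_lt _ (measurable_mR_sA θ c subset_rfl (k + 1))
    ⟨1, fun p => abs_mR_le θ _⟩

/-- `∫ m_s ξ_u = 0` for fixed clocks -/
theorem c_mxi (k : ℕ) (s t : ℝ) (u : W d) (c : Cl (W d)) :
    ∫ p, mR θ (yF k s c p) * xi θ k s t u c p ∂(PPn (nu d θ)) = 0 := by
  by_cases h : s ≤ (c (u, k) : ℝ) ∧ (c (u, k) : ℝ) < t
  · simp only [xi_of h, yF_eq_fJ]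
    exact xv_orth h0 h1 k u c _ (measurable_mR_sA θ c (past_mono h.1) (k + 1))
      ⟨1, fun p => abs_mR_le θ _⟩
  · simp only [xi_of_not h, mul_zero, integral_zero]

lemma c_xixi_aux (k : ℕ) {u v : W d} (c : Cl (W d)) (huv : (c (u, k) : ℝ) < c (v, k)) :
    ∫ p, xv θ k u c p * xv θ k v c p ∂(PPn (nu d θ)) = 0 :=
  xv_orth h0 h1 k v c _ (measurable_xv_sA θ k u c (pastP_sub huv))
    ⟨1, fun p => abs_xv_le h0 h1 k u c p⟩

/-- `∫ ξ_u ξ_v = 0` for fixed clocks -/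
theorem c_xixi (k : ℕ) (s t : ℝ) {u v : W d} (huv : u ≠ v) (c : Cl (W d))
    (hinj : ∀ a b : W d × ℕ, a.2 = b.2 → c a = c b → a = b) :
    ∫ p, xi θ k s t u c p * xi θ k s t v c p ∂(PPn (nu d θ)) = 0 := by
  by_cases hu : s ≤ (c (u, k) : ℝ) ∧ (c (u, k) : ℝ) < t
  · by_cases hv : s ≤ (c (v, k) : ℝ) ∧ (c (v, k) : ℝ) < t
    · simp only [xi_of hu, xi_of hv]
      have hne : (c (u, k) : ℝ) ≠ c (v, k) := by
        intro h
        exact huv (congrArg Prod.fst (hinj (u, k) (v, k) rfl (Subtype.ext h)))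
      rcases lt_or_gt_of_ne hne with h | h
      · exact c_xixi_aux h0 h1 k c h
      · simp only [mul_comm (xv θ k u c _)]
        exact c_xixi_aux h0 h1 k c h
    · simp only [xi_of_not hv, mul_zero, integral_zero]
  · simp only [xi_of_not hu, zero_mul, integral_zero]

/-- `∫ m_t ξ_u = ∫ ξ_u²` for fixed clocks -/
theorem c_mtxi (k : ℕ) (s t : ℝ) (u : W d) (c : Cl (W d)) :
    ∫ p, mR θ (yF k t c p) * xi θ k s t u c p ∂(PPn (nu d θ)) =
      ∫ p, xi θ k s t u c p ^ 2 ∂(PPn (nu d θ)) := by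
  have hP := isProb_nu d h1.le
  by_cases h : s ≤ (c (u, k) : ℝ) ∧ (c (u, k) : ℝ) < t
  · simp only [xi_of h, yF_eq_fJ]
    have hle : ∀ J, sA c J ≤ (inferInstance : MeasurableSpace (Om (W d))) := sA_le c
    have mx := measurable_xv_sA θ k u c (J' := insert (u, k) {a | Bef c k (c (u, k)) a}) subset_rfl
    have e1 := mart h0 h1 c (pastP_sub h.2) (K := k + 1) (K' := k + 1) pastP_lt past_lt _ mx
      ⟨1, fun p => abs_xv_le h0 h1 k u c p⟩
    have e2 : ∫ p, xv θ k u c p *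
        mR θ (fJ c (insert (u, k) {a | Bef c k (c (u, k)) a}) (k + 1) (Zc c p)) ∂(PPn (nu d θ)) =
        ∫ p, mR θ (fJ c {a | Bef c k (c (u, k)) a} (k + 1) (Zc c p)) * xv θ k u c p
          ∂(PPn (nu d θ)) + ∫ p, xv θ k u c p ^ 2 ∂(PPn (nu d θ)) := by
      have m1 : Measurable (fun p : Om (W d) =>
          mR θ (fJ c {a | Bef c k (c (u, k)) a} (k + 1) (Zc c p))) :=
        (measurable_mR_sA θ c subset_rfl (k + 1)).mono (hle _) le_rfl
      have m2 : Measurable (fun p : Om (W d) => xv θ k u c p) := mx.mono (hle _) le_rfl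
      rw [← integral_add]
      · refine integral_congr_ae ?_
        filter_upwards [xv_ae h0 h1 k u c] with p hp
        rw [hp]; ring
      · refine Integrable.of_bound (C := 1) (m1.mul m2).aestronglyMeasurable
          (Eventually.of_forall fun p => ?_)
        rw [Real.norm_eq_abs, abs_mul]
        exact mul_le_one₀ (abs_mR_le θ _) (abs_nonneg _) (abs_xv_le h0 h1 k u c p)
      · refine Integrable.of_bound (C := 1) (m2.pow_const 2).aestronglyMeasurable
          (Eventually.of_forall fun p => ?_)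
        rw [Real.norm_eq_abs, abs_pow]
        exact pow_le_one₀ (abs_nonneg _) (abs_xv_le h0 h1 k u c p)
    have e3 := xv_orth h0 h1 k u c _ (measurable_mR_sA θ c subset_rfl (k + 1))
      ⟨1, fun p => abs_mR_le θ _⟩
    simp only [mul_comm (mR θ (fJ c {a | Bef c k t a} (k + 1) (Zc c _)))]
    rw [e1, e2, e3, zero_add]
  · simp only [xi_of_not h, mul_zero, integral_zero]
    simp

end

section clocks

variable {d : ℕ}

/-! ### relations over clocks -/

lemma int_Pt {ν : Measure (W d → Bool)} [IsProbabilityMeasure ν] {f : Cl (W d) × Om (W d) → ℝ}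
    (hf : Measurable f) {C : ℝ} (hC : ∀ q, |f q| ≤ C) :
    ∫ q, f q ∂(Pt ν) = ∫ c, (∫ p, f (c, p) ∂(PPn ν)) ∂(μI (W d × ℕ)) := by
  unfold Pt PPn
  have hi : Integrable f ((μI (W d × ℕ)).prod (ν.prod (μI (W d × ℕ)))) :=
    Integrable.of_bound (C := C) hf.aestronglyMeasurable
      (Eventually.of_forall fun q => by rw [Real.norm_eq_abs]; exact hC q)
  rw [integral_prod _ hi]

lemma int_Pt_congr {ν : Measure (W d → Bool)} [IsProbabilityMeasure ν]
    {f g : Cl (W d) × Om (W d) → ℝ} (hf : Measurable f) (hg : Measurable g) {C C' : ℝ}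
    (hC : ∀ q, |f q| ≤ C) (hC' : ∀ q, |g q| ≤ C')
    (h : ∀ᵐ c ∂(μI (W d × ℕ)), ∫ p, f (c, p) ∂(PPn ν) = ∫ p, g (c, p) ∂(PPn ν)) :
    ∫ q, f q ∂(Pt ν) = ∫ q, g q ∂(Pt ν) := by
  rw [int_Pt hf hC, int_Pt hg hC']
  exact integral_congr_ae h

lemma comb3 {α : Type*} [MeasurableSpace α] {μ : Measure α} {a b e : α → ℝ} (ha : Integrable a μ)
    (hb : Integrable b μ) (he : Integrable e μ) :
    ∫ q, (a q - 2 * b q + e q) ∂μ = ∫ q, a q ∂μ - 2 * ∫ q, b q ∂μ + ∫ q, e q ∂μ := by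
  have e1 := integral_add (μ := μ) (f := fun q => a q - 2 * b q) (g := e)
    (ha.sub (hb.const_mul 2)) he
  have e2 := integral_sub (μ := μ) (f := a) (g := fun q => 2 * b q) ha (hb.const_mul 2)
  have e3 := integral_const_mul (μ := μ) 2 b
  rw [e1, e2, e3]

lemma comb5 {α : Type*} [MeasurableSpace α] {μ : Measure α} {a b e f g : α → ℝ}
    (ha : Integrable a μ) (hb : Integrable b μ) (he : Integrable e μ) (hf : Integrable f μ)
    (hg : Integrable g μ) :
    ∫ q, (a q - 2 * b q + 2 * e q + 2 * f q + g q) ∂μ =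
      ∫ q, a q ∂μ - 2 * ∫ q, b q ∂μ + 2 * ∫ q, e q ∂μ + 2 * ∫ q, f q ∂μ + ∫ q, g q ∂μ := by
  have e1 := integral_add (μ := μ) (f := fun q => a q - 2 * b q + 2 * e q + 2 * f q) (g := g)
    (((ha.sub (hb.const_mul 2)).add (he.const_mul 2)).add (hf.const_mul 2)) hg
  have e2 := integral_add (μ := μ) (f := fun q => a q - 2 * b q + 2 * e q) (g := fun q => 2 * f q)
    ((ha.sub (hb.const_mul 2)).add (he.const_mul 2)) (hf.const_mul 2)
  have e3 := comb3 ha hb (he.const_mul 2)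
  have e4 := integral_const_mul (μ := μ) 2 e
  have e5 := integral_const_mul (μ := μ) 2 f
  rw [e1, e2, e3, e4, e5]

/-- magnetisation at the root at time `(k, r)` -/
noncomputable def mm (θ : ℝ) (k : ℕ) (r : ℝ) (q : Cl (W d) × Om (W d)) : ℝ :=
  mR θ (yF k r q.1 q.2)

lemma measurable_mm (θ : ℝ) (k : ℕ) (r : ℝ) : Measurable (mm (d := d) θ k r) :=
  (Pair.measurable_mR θ).comp (Pair.measurable_yF k r)

lemma abs_mm_le (θ : ℝ) (k : ℕ) (r : ℝ) (q : Cl (W d) × Om (W d)) : |mm θ k r q| ≤ 1 :=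
  abs_mR_le θ _

variable {θ : ℝ} (h0 : 0 ≤ θ) (h1 : θ < 1)
include h0 h1

/-- (O1) -/
theorem mm_mm (k : ℕ) {s t : ℝ} (hst : s ≤ t) :
    ∫ q, mR θ (yF k t q.1 q.2) * mR θ (yF k s q.1 q.2) ∂(Pt (nu d θ)) =
      ∫ q, mR θ (yF k s q.1 q.2) ^ 2 ∂(Pt (nu d θ)) := by
  have hP := isProb_nu d h1.le
  refine int_Pt_congr (C := 1) (C' := 1) ((measurable_mm θ k t).mul (measurable_mm θ k s))
    ((measurable_mm θ k s).pow_const 2) (fun q => ?_) (fun q => ?_) (Eventually.of_forall fun c => ?_)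
  · rw [abs_mul]; exact mul_le_one₀ (abs_mR_le θ _) (abs_nonneg _) (abs_mR_le θ _)
  · rw [abs_pow]; exact pow_le_one₀ (abs_nonneg _) (abs_mR_le θ _)
  · have := c_mm h0 h1 k hst c
    simp only [mul_comm (mR θ (yF k t c _))]
    exact this

theorem mm_xi (k : ℕ) (s t : ℝ) (u : W d) :
    ∫ q, mR θ (yF k s q.1 q.2) * xi θ k s t u q.1 q.2 ∂(Pt (nu d θ)) = 0 := by
  have hP := isProb_nu d h1.le
  have e := int_Pt (ν := nu d θ)
    (f := fun q => mR θ (yF k s q.1 q.2) * xi θ k s t u q.1 q.2) (C := 1)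
    ((measurable_mm θ k s).mul (measurable_xi θ k s t u)) (fun q => by
    rw [abs_mul]; exact mul_le_one₀ (abs_mR_le θ _) (abs_nonneg _) (abs_xi_le h0 h1 k s t u _ _))
  rw [e]
  simp only [c_mxi h0 h1, integral_zero]

theorem xi_xi (k : ℕ) (s t : ℝ) {u v : W d} (huv : u ≠ v) :
    ∫ q, xi θ k s t u q.1 q.2 * xi θ k s t v q.1 q.2 ∂(Pt (nu d θ)) = 0 := by
  have hP := isProb_nu d h1.le
  have e := int_Pt (ν := nu d θ)
    (f := fun q => xi θ k s t u q.1 q.2 * xi θ k s t v q.1 q.2) (C := 1)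
    ((measurable_xi θ k s t u).mul (measurable_xi θ k s t v)) (fun q => by
    rw [abs_mul]; exact mul_le_one₀ (abs_xi_le h0 h1 k s t u _ _) (abs_nonneg _)
      (abs_xi_le h0 h1 k s t v _ _))
  rw [e]
  have : ∀ᵐ c : Cl (W d) ∂(μI (W d × ℕ)), ∫ p, xi θ k s t u c p *
      xi θ k s t v c p ∂(PPn (nu d θ)) = 0 := by
    filter_upwards [ae_inj_clock] with c hc
    exact c_xixi h0 h1 k s t huv c hc
  rw [integral_congr_ae this, integral_zero]

theorem mt_xi (k : ℕ) (s t : ℝ) (u : W d) :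
    ∫ q, mR θ (yF k t q.1 q.2) * xi θ k s t u q.1 q.2 ∂(Pt (nu d θ)) =
      ∫ q, xi θ k s t u q.1 q.2 ^ 2 ∂(Pt (nu d θ)) := by
  have hP := isProb_nu d h1.le
  refine int_Pt_congr (C := 1) (C' := 1) ((measurable_mm θ k t).mul (measurable_xi θ k s t u))
    ((measurable_xi θ k s t u).pow_const 2) (fun q => ?_) (fun q => ?_)
    (Eventually.of_forall fun c => c_mtxi h0 h1 k s t u c)
  · rw [abs_mul]; exact mul_le_one₀ (abs_mR_le θ _) (abs_nonneg _) (abs_xi_le h0 h1 k s t u _ _)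
  · rw [abs_pow]; exact pow_le_one₀ (abs_nonneg _) (abs_xi_le h0 h1 k s t u _ _)

/-- the residual after finitely many increments -/
theorem residual (k : ℕ) {s t : ℝ} (hst : s ≤ t) (F : Finset (W d)) :
    ∫ q, (mR θ (yF k t q.1 q.2) - mR θ (yF k s q.1 q.2) - ∑ u ∈ F, xi θ k s t u q.1 q.2) ^ 2
        ∂(Pt (nu d θ)) =
      ∫ q, mR θ (yF k t q.1 q.2) ^ 2 ∂(Pt (nu d θ)) - ∫ q, mR θ (yF k s q.1 q.2) ^ 2 ∂(Pt (nu d θ))
        - ∑ u ∈ F, ∫ q, xi θ k s t u q.1 q.2 ^ 2 ∂(Pt (nu d θ)) := by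
  classical
  have hP := isProb_nu d h1.le
  have hPt : IsProbabilityMeasure (Pt (nu d θ)) := by unfold Pt; infer_instance
  have bm : ∀ r q, |mm (d := d) θ k r q| ≤ 1 := fun r q => abs_mm_le θ k r q
  have bx : ∀ (u : W d) (q : Cl (W d) × Om (W d)), |xi θ k s t u q.1 q.2| ≤ 1 :=
    fun u q => abs_xi_le h0 h1 k s t u _ _
  have mmm := measurable_mm (d := d) θ k
  have mx := fun u : W d => measurable_xi θ k s t u
  have ii : ∀ {f g : Cl (W d) × Om (W d) → ℝ}, Measurable f → Measurable g → (∀ q, |f q| ≤ 1) →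
      (∀ q, |g q| ≤ 1) → Integrable (fun q => f q * g q) (Pt (nu d θ)) := by
    intro f g hf hg bf bg
    refine Integrable.of_bound (C := 1) (hf.mul hg).aestronglyMeasurable
      (Eventually.of_forall fun q => ?_)
    rw [Real.norm_eq_abs, abs_mul]
    exact mul_le_one₀ (bf q) (abs_nonneg _) (bg q)
  induction F using Finset.induction_on with
  | empty =>
    simp only [Finset.sum_empty, sub_zero]
    have e : ∀ q : Cl (W d) × Om (W d), (mR θ (yF k t q.1 q.2) - mR θ (yF k s q.1 q.2)) ^ 2 =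
        mm θ k t q * mm θ k t q - 2 * (mm θ k t q * mm θ k s q) + mm θ k s q * mm θ k s q :=
      fun q => by unfold mm; ring
    have e2 := mm_mm h0 h1 k hst (d := d)
    have i1 := ii (mmm t) (mmm t) (bm t) (bm t)
    have i2 := ii (mmm t) (mmm s) (bm t) (bm s)
    have i3 := ii (mmm s) (mmm s) (bm s) (bm s)
    rw [integral_congr_ae (Eventually.of_forall e), comb3 i1 i2 i3]
    have e3 : ∫ q, mm (d := d) θ k t q * mm θ k s q ∂(Pt (nu d θ)) =
      ∫ q, mR θ (yF k s q.1 q.2) ^ 2 ∂(Pt (nu d θ)) := e2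
    have e4 : ∀ r, ∫ q, mm (d := d) θ k r q * mm θ k r q ∂(Pt (nu d θ)) =
      ∫ q, mR θ (yF k r q.1 q.2) ^ 2 ∂(Pt (nu d θ)) := fun r => by
      refine integral_congr_ae (Eventually.of_forall fun q => ?_)
      simp only [mm]; ring
    rw [e3, e4, e4]; ring
  | insert v F hv ih =>
    have e : ∀ q : Cl (W d) × Om (W d), (mR θ (yF k t q.1 q.2) - mR θ (yF k s q.1 q.2) -
        ∑ u ∈ insert v F, xi θ k s t u q.1 q.2) ^ 2 =
        (mR θ (yF k t q.1 q.2) - mR θ (yF k s q.1 q.2) - ∑ u ∈ F, xi θ k s t u q.1 q.2) ^ 2 -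
        2 * (mm θ k t q * xi θ k s t v q.1 q.2) + 2 * (mm θ k s q * xi θ k s t v q.1 q.2) +
        2 * (∑ u ∈ F, xi θ k s t u q.1 q.2 * xi θ k s t v q.1 q.2) +
        xi θ k s t v q.1 q.2 * xi θ k s t v q.1 q.2 := by
      intro q
      rw [Finset.sum_insert hv, ← Finset.sum_mul]
      unfold mm; ring
    have i1 : Integrable (fun q : Cl (W d) × Om (W d) => (mR θ (yF k t q.1 q.2) -
        mR θ (yF k s q.1 q.2) - ∑ u ∈ F, xi θ k s t u q.1 q.2) ^ 2) (Pt (nu d θ)) := by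
      refine Integrable.of_bound (C := (2 + F.card) ^ 2)
        ((((mmm t).sub (mmm s)).sub (Finset.measurable_fun_sum _ fun u _ => mx u)).pow_const
          2).aestronglyMeasurable (Eventually.of_forall fun q => ?_)
      rw [Real.norm_eq_abs, abs_pow]
      refine pow_le_pow_left₀ (abs_nonneg _) ?_ 2
      have a1 := bm t q
      have a2 := bm s q
      have a3 : |∑ u ∈ F, xi θ k s t u q.1 q.2| ≤ F.card := by
        refine (Finset.abs_sum_le_sum_abs _ _).trans ?_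
        calc _ ≤ ∑ _u ∈ F, (1 : ℝ) := Finset.sum_le_sum fun u _ => bx u q
          _ = F.card := by simp
      unfold mm at a1 a2
      have a4 := abs_sub (mR θ (yF k t q.1 q.2)) (mR θ (yF k s q.1 q.2))
      have a5 := abs_sub (mR θ (yF k t q.1 q.2) - mR θ (yF k s q.1 q.2))
        (∑ u ∈ F, xi θ k s t u q.1 q.2)
      linarith
    have i2 := ii (mmm t) (mx v) (bm t) (bx v)
    have i3 := ii (mmm s) (mx v) (bm s) (bx v)
    have i4 : Integrable (fun q : Cl (W d) × Om (W d) =>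
        ∑ u ∈ F, xi θ k s t u q.1 q.2 * xi θ k s t v q.1 q.2) (Pt (nu d θ)) :=
      integrable_finsetSum _ fun u _ => ii (mx u) (mx v) (bx u) (bx v)
    have i5 := ii (mx v) (mx v) (bx v) (bx v)
    rw [integral_congr_ae (Eventually.of_forall e), comb5 i1 i2 i3 i4 i5,
      integral_finsetSum _ fun u _ => ii (mx u) (mx v) (bx u) (bx v), ih]
    have e1 : ∫ q, mm θ k t q * xi θ k s t v q.1 q.2 ∂(Pt (nu d θ)) = _ := mt_xi h0 h1 k s t v
    have e2 : ∫ q, mm θ k s q * xi θ k s t v q.1 q.2 ∂(Pt (nu d θ)) = _ := mm_xi h0 h1 k s t v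
    have e3 : ∑ u ∈ F, ∫ q, xi θ k s t u q.1 q.2 * xi θ k s t v q.1 q.2 ∂(Pt (nu d θ)) = 0 :=
      Finset.sum_eq_zero fun u hu => xi_xi h0 h1 k s t (fun h => hv (h ▸ hu))
    have e4 : ∫ q, xi θ k s t v q.1 q.2 * xi θ k s t v q.1 q.2 ∂(Pt (nu d θ)) =
        ∫ q, xi θ k s t v q.1 q.2 ^ 2 ∂(Pt (nu d θ)) :=
      integral_congr_ae (Eventually.of_forall fun q => by simp only; ring)
    rw [e1, e2, e3, e4, Finset.sum_insert hv]
    ring

end clocks

end Crest.Agent.TI.Mart
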