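import Crest.Agent.TIWords

/-!
Row 160 (S0241), piece (BSV).  Correlation decay for square integrable functions of iid labels on
the `d`-regular tree (vertices = reduced words): Efron-Stein decomposition on the infinite product
and the Haagerup type counting inequality on reduced words.
-/

set_option autoImplicit false
set_option linter.all false

namespace Crest.Agent.TI
namespace Bsv

section words
open Finset

variable {d : ℕ}

lemma nbL_cons (j : Fin d) (l : List (Fin d)) (h : (j :: l).IsChain (· ≠ ·)) :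
    W.nbL j l = j :: l := by
  cases l with
  | nil => rfl
  | cons k t =>
    have : j ≠ k := (List.isChain_cons_cons.1 h).1
    simp [W.nbL, this]

/-- cancellation structure of the product of words -/
lemma canc (w z : W d) : ∃ z' q w' : List (Fin d), z.1 = z' ++ q ∧ w.1 = q.reverse ++ w' ∧
    (W.tr w z).1 = z' ++ w' := by
  obtain ⟨l, hl⟩ := z
  induction l with
  | nil => exact ⟨[], [], w.1, by simp, by simp, by simp [W.tr]⟩
  | cons j t ih =>
    obtain ⟨z', q, w', h1, h2, h3⟩ := ih hl.tail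
    have e1 : (W.tr w ⟨j :: t, hl⟩).1 = W.nbL j (W.tr w ⟨t, hl.tail⟩).1 := rfl
    simp only at h1
    rw [e1, h3]
    cases z' with
    | nil =>
      simp only [List.nil_append] at h1 h3 ⊢
      cases w' with
      | nil =>
        refine ⟨[j], q, [], by simp [h1], by simp [h2], by simp [W.nbL]⟩
      | cons k w'' =>
        by_cases hjk : j = k
        · subst hjk
          refine ⟨[], j :: q, w'', by simp [h1], by simp [h2], by simp [W.nbL]⟩
        · refine ⟨[j], q, k :: w'', by simp [h1], by simp [h2], by simp [W.nbL, hjk]⟩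
    | cons k z'' =>
      have hjk : j ≠ k := by
        rw [h1] at hl
        exact (List.isChain_cons_cons.1 hl).1
      refine ⟨j :: k :: z'', q, w', by simp [h1], h2, by simp [W.nbL, hjk]⟩

lemma finite_sph (d m : ℕ) : {w : W d | w.len = m}.Finite := by
  have h := List.finite_length_eq (Fin d) m
  exact Set.Finite.preimage (f := fun w : W d => w.1) (Subtype.val_injective.injOn) h

/-- all words of length `m` -/
noncomputable def sph (d m : ℕ) : Finset (W d) := (finite_sph d m).toFinset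

lemma mem_sph {m : ℕ} {w : W d} : w ∈ sph d m ↔ w.len = m := by simp [sph]

/-- tail -/
def tl (w : W d) : W d := ⟨w.1.tail, w.2.tail⟩

lemma card_sph_zero : (sph d 0).card ≤ 1 := by
  rw [Finset.card_le_one]
  intro a ha b hb
  rw [mem_sph] at ha hb
  apply Subtype.ext
  have h1 : a.1 = [] := List.length_eq_zero_iff.1 ha
  have h2 : b.1 = [] := List.length_eq_zero_iff.1 hb
  rw [h1, h2]

lemma card_sph_succ_le (m : ℕ) : (sph d (m + 1)).card ≤ d * (sph d m).card := by
  classical
  apply Finset.card_le_mul_card_image_of_maps_to (f := tl)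
  · intro w hw
    rw [mem_sph] at hw ⊢
    simp [W.len, tl] at hw ⊢
    omega
  · intro w' _
    calc _ ≤ ((Finset.univ : Finset (Fin d)).image some).card := by
          apply Finset.card_le_card_of_injOn (fun w => w.1.head?)
          · intro w hw
            simp only [Finset.coe_filter, Set.mem_setOf_eq, mem_sph] at hw
            obtain ⟨⟨l, hl⟩, h1, h2⟩ : ∃ w0 : W d, w0.len = m + 1 ∧ w0 = w := ⟨w, hw.1, rfl⟩
            subst h2
            cases l with
            | nil => simp [W.len] at h1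
            | cons j t => simp
          · intro a ha b hb hab
            simp only [Finset.coe_filter, Set.mem_setOf_eq, mem_sph] at ha hb hab
            obtain ⟨la, hla⟩ := a
            obtain ⟨lb, hlb⟩ := b
            have h3 : tl (⟨la, hla⟩ : W d) = tl ⟨lb, hlb⟩ := ha.2.trans hb.2.symm
            have h4 := congrArg Subtype.val h3
            apply Subtype.ext
            cases la with
            | nil => simp [W.len] at ha
            | cons j t =>
              cases lb with
              | nil => simp [W.len] at hb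
              | cons j' t' =>
                simp [tl] at h4 hab
                simp [h4, hab]
    _ ≤ d := by
        refine Finset.card_image_le.trans ?_
        simp

lemma card_sph_succ_succ_le (m : ℕ) : (sph d (m + 2)).card ≤ (d - 1) * (sph d (m + 1)).card := by
  classical
  apply Finset.card_le_mul_card_image_of_maps_to (f := tl)
  · intro w hw
    rw [mem_sph] at hw ⊢
    simp [W.len, tl] at hw ⊢
    omega
  · intro w' hw'
    rw [mem_sph] at hw'
    obtain ⟨l', hl'⟩ := w'
    cases l' with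
    | nil => simp [W.len] at hw'
    | cons k t0 =>
      calc _ ≤ (((Finset.univ : Finset (Fin d)).erase k).image some).card := by
            apply Finset.card_le_card_of_injOn (fun w => w.1.head?)
            · intro w hw
              simp only [Finset.coe_filter, Set.mem_setOf_eq, mem_sph] at hw
              obtain ⟨l, hl⟩ := w
              cases l with
              | nil => simp [W.len] at hw
              | cons j t =>
                have h4 := congrArg Subtype.val hw.2
                simp [tl] at h4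
                subst h4
                have : j ≠ k := (List.isChain_cons_cons.1 hl).1
                simp [this]
            · intro a ha b hb hab
              simp only [Finset.coe_filter, Set.mem_setOf_eq, mem_sph] at ha hb hab
              obtain ⟨la, hla⟩ := a
              obtain ⟨lb, hlb⟩ := b
              have h3 : tl (⟨la, hla⟩ : W d) = tl ⟨lb, hlb⟩ := ha.2.trans hb.2.symm
              have h4 := congrArg Subtype.val h3
              apply Subtype.ext
              cases la with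
              | nil => simp [W.len] at ha
              | cons j t =>
                cases lb with
                | nil => simp [W.len] at hb
                | cons j' t' =>
                  simp [tl] at h4 hab
                  simp [h4, hab]
      _ ≤ d - 1 := by
          refine Finset.card_image_le.trans ?_
          rw [Finset.card_erase_of_mem (Finset.mem_univ _)]
          simp

lemma card_sph_le (hd : 3 ≤ d) (m : ℕ) : ((sph d m).card : ℝ) ≤ 2 * ((d : ℝ) - 1) ^ m := by
  have hd' : (3 : ℝ) ≤ d := by exact_mod_cast hd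
  cases m with
  | zero =>
    have := @card_sph_zero d
    have h1 : ((sph d 0).card : ℝ) ≤ 1 := by exact_mod_cast this
    simp; linarith
  | succ m =>
    induction m with
    | zero =>
      have h1 := @card_sph_succ_le d 0
      have h2 := @card_sph_zero d
      have h3 : (sph d 1).card ≤ d * 1 := h1.trans (Nat.mul_le_mul_left _ h2)
      have h4 : ((sph d 1).card : ℝ) ≤ d := by
        have : (sph d 1).card ≤ d := by simpa using h3
        exact_mod_cast this
      simp only [zero_add, pow_one]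
      linarith
    | succ m ih =>
      have h1 := @card_sph_succ_succ_le d m
      have h2 : ((sph d (m + 2)).card : ℝ) ≤ ((d : ℝ) - 1) * (sph d (m + 1)).card := by
        have : (((d - 1 : ℕ)) : ℝ) = (d : ℝ) - 1 := by
          rw [Nat.cast_sub (by omega)]; simp
        rw [← this]
        exact_mod_cast h1
      calc ((sph d (m + 2)).card : ℝ) ≤ ((d : ℝ) - 1) * (sph d (m + 1)).card := h2
        _ ≤ ((d : ℝ) - 1) * (2 * ((d : ℝ) - 1) ^ (m + 1)) :=
            mul_le_mul_of_nonneg_left ih (by linarith)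
        _ = 2 * ((d : ℝ) - 1) ^ (m + 2) := by ring

/-- the pair `(w, z)` has `i` cancellations -/
def R (i : ℕ) (w z : W d) : Prop :=
  ∃ z' q w' : List (Fin d), q.length = i ∧ z.1 = z' ++ q ∧ w.1 = q.reverse ++ w' ∧
    (W.tr w z).1 = z' ++ w'

lemma exists_R {l : ℕ} {w z : W d} (hw : w.len = l) : ∃ i ∈ Finset.range (l + 1), R i w z := by
  obtain ⟨z', q, w', h1, h2, h3⟩ := canc w z
  refine ⟨q.length, ?_, z', q, w', rfl, h1, h2, h3⟩
  rw [Finset.mem_range]
  have : w.len = q.length + w'.length := by simp [W.len, h2]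
  omega

/-- drop the first `i` letters -/
def drp (i : ℕ) (w : W d) : W d := ⟨w.1.drop i, w.2.drop i⟩
/-- keep the first `i` letters -/
def tke (i : ℕ) (w : W d) : W d := ⟨w.1.take i, w.2.take i⟩

lemma card_fst (hd : 3 ≤ d) (l i : ℕ) (hi : i ≤ l) (S : Finset (W d)) (hS : ∀ w ∈ S, w.len = l)
    (z : W d) [DecidablePred fun w => R i w z] :
    ((S.filter (fun w => R i w z)).card : ℝ) ≤ 2 * ((d : ℝ) - 1) ^ (l - i) := by
  refine le_trans ?_ (card_sph_le hd (l - i))
  norm_cast
  apply Finset.card_le_card_of_injOn (drp i)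
  · intro w hw
    simp only [Finset.coe_filter, Set.mem_setOf_eq] at hw
    rw [Finset.mem_coe, mem_sph]
    have := hS w hw.1
    simp [W.len, drp] at this ⊢
    omega
  · intro a ha b hb hab
    simp only [Finset.coe_filter, Set.mem_setOf_eq] at ha hb
    obtain ⟨_, z1, q1, w1, h1, h2, h3, h4⟩ := ha
    obtain ⟨_, z2, q2, w2, k1, k2, k3, k4⟩ := hb
    have e0 := congrArg Subtype.val hab
    simp only [drp] at e0
    have e1 : q1 = q2 := by
      have : z1 ++ q1 = z2 ++ q2 := by rw [← h2, ← k2]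
      exact (List.append_inj' this (by rw [h1, k1])).2
    subst e1
    have e2 : w1 = w2 := by
      rw [h3, k3] at e0
      have hl : q1.reverse.length = i := by simp [h1]
      rw [← hl, List.drop_left, List.drop_left] at e0
      exact e0
    apply Subtype.ext
    rw [h3, k3, e2]

lemma card_snd (hd : 3 ≤ d) (l i : ℕ) (hi : i ≤ l) (S F : Finset (W d))
    (hS : ∀ w ∈ S, w.len = l) (x : W d) [DecidablePred fun p : W d × W d => R i p.1 p.2 ∧ W.tr p.1 p.2 = x] :
    (((S ×ˢ F).filter (fun p => R i p.1 p.2 ∧ W.tr p.1 p.2 = x)).card : ℝ) ≤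
      2 * ((d : ℝ) - 1) ^ i := by
  refine le_trans ?_ (card_sph_le hd i)
  norm_cast
  apply Finset.card_le_card_of_injOn (fun p => tke i p.1)
  · rintro ⟨w, z⟩ hw
    simp only [Finset.coe_filter, Set.mem_setOf_eq, Finset.mem_product] at hw
    rw [Finset.mem_coe, mem_sph]
    have := hS w hw.1.1
    simp [W.len, tke] at this ⊢
    omega
  · rintro ⟨a, z⟩ ha ⟨b, z₂⟩ hb hab
    simp only [Finset.coe_filter, Set.mem_setOf_eq, Finset.mem_product] at ha hb
    obtain ⟨⟨ha1, _⟩, ⟨z1, q1, w1, h1, h2, h3, h4⟩, hax⟩ := ha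
    obtain ⟨⟨hb1, _⟩, ⟨z2, q2, w2, k1, k2, k3, k4⟩, hbx⟩ := hb
    have e0 := congrArg Subtype.val hab
    simp only [tke] at e0
    have e1 : q1 = q2 := by
      rw [h3, k3] at e0
      have hl : q1.reverse.length = i := by simp [h1]
      have hl2 : q2.reverse.length = i := by simp [k1]
      rw [List.take_append_of_le_length (by rw [hl]), List.take_append_of_le_length (by rw [hl2]),
        List.take_of_length_le (by rw [hl]), List.take_of_length_le (by rw [hl2])] at e0
      exact List.reverse_injective e0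
    subst e1
    have hlen1 : w1.length = l - i := by
      have := hS a ha1
      simp [W.len, h3, h1] at this
      omega
    have hlen2 : w2.length = l - i := by
      have := hS b hb1
      simp [W.len, k3, k1] at this
      omega
    have e2 : z1 ++ w1 = z2 ++ w2 := by rw [← h4, ← k4, hax, hbx]
    have e3 := List.append_inj' e2 (by rw [hlen1, hlen2])
    have ea : a = b := Subtype.ext (by rw [h3, k3, e3.2])
    have ez : z = z₂ := Subtype.ext (by rw [h2, k2, e3.1])
    rw [ea, ez]

theorem haagerup (hd : 3 ≤ d) (l : ℕ) (S F : Finset (W d)) (hS : ∀ w ∈ S, w.len = l)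
    (A B : W d → ℝ) (hA : ∀ x, 0 ≤ A x) (hB : ∀ x, 0 ≤ B x) (a b : ℝ)
    (hAa : ∀ G : Finset (W d), ∑ x ∈ G, A x ^ 2 ≤ a) (hBb : ∑ x ∈ F, B x ^ 2 ≤ b) :
    ∑ w ∈ S, ∑ z ∈ F, A (W.tr w z) * B z ≤
      2 * (l + 1) * (Real.sqrt ((d : ℝ) - 1)) ^ l * Real.sqrt a * Real.sqrt b := by
  classical
  have hd' : (3 : ℝ) ≤ d := by exact_mod_cast hd
  have ha0 : 0 ≤ a := by simpa using hAa ∅
  have hb0 : 0 ≤ b := (Finset.sum_nonneg fun x _ => sq_nonneg _).trans hBb
  -- split by number of cancellations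
  have h1 : ∑ w ∈ S, ∑ z ∈ F, A (W.tr w z) * B z ≤
      ∑ i ∈ Finset.range (l + 1), ∑ p ∈ (S ×ˢ F).filter (fun p => R i p.1 p.2),
        A (W.tr p.1 p.2) * B p.2 := by
    rw [← Finset.sum_product']
    have : ∀ p ∈ S ×ˢ F, A (W.tr p.1 p.2) * B p.2 ≤
        ∑ i ∈ Finset.range (l + 1), if R i p.1 p.2 then A (W.tr p.1 p.2) * B p.2 else 0 := by
      intro p hp
      obtain ⟨i, hi, hR⟩ := exists_R (z := p.2) (hS p.1 (Finset.mem_product.1 hp).1)
      refine le_trans (le_of_eq ?_) (Finset.single_le_sum (f := fun i => if R i p.1 p.2 then A (W.tr p.1 p.2) * B p.2 else 0) ?_ hi)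
      · simp [hR]
      · intro j _
        split_ifs
        · exact mul_nonneg (hA _) (hB _)
        · exact le_rfl
    refine (Finset.sum_le_sum this).trans ?_
    rw [Finset.sum_comm]
    apply Finset.sum_le_sum
    intro i _
    rw [Finset.sum_filter]
  refine h1.trans ?_
  -- each term
  have h2 : ∀ i ∈ Finset.range (l + 1), ∑ p ∈ (S ×ˢ F).filter (fun p => R i p.1 p.2),
        A (W.tr p.1 p.2) * B p.2 ≤ 2 * (Real.sqrt ((d : ℝ) - 1)) ^ l * Real.sqrt a * Real.sqrt b := by
    intro i hi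
    have hil : i ≤ l := by rw [Finset.mem_range] at hi; omega
    refine (Real.sum_mul_le_sqrt_mul_sqrt _ _ _).trans ?_
    have hAs : ∑ p ∈ (S ×ˢ F).filter (fun p => R i p.1 p.2), A (W.tr p.1 p.2) ^ 2 ≤
        2 * ((d : ℝ) - 1) ^ i * a := by
      have e1 : ∑ p ∈ (S ×ˢ F).filter (fun p => R i p.1 p.2), A (W.tr p.1 p.2) ^ 2 =
          ∑ x ∈ (S ×ˢ F).image (fun p => W.tr p.1 p.2),
            (((S ×ˢ F).filter (fun p => R i p.1 p.2 ∧ W.tr p.1 p.2 = x)).card : ℝ) * A x ^ 2 := by
        rw [← Finset.sum_fiberwise_of_maps_to (s := (S ×ˢ F).filter (fun p => R i p.1 p.2))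
          (t := (S ×ˢ F).image (fun p => W.tr p.1 p.2)) (g := fun p => W.tr p.1 p.2)
          (fun p hp => Finset.mem_image_of_mem _ (Finset.mem_filter.1 hp).1)]
        apply Finset.sum_congr rfl
        intro x _
        rw [Finset.filter_filter, ← nsmul_eq_mul, ← Finset.sum_const]
        apply Finset.sum_congr rfl
        intro p hp
        rw [Finset.mem_filter] at hp
        rw [hp.2.2]
      rw [e1]
      calc _ ≤ ∑ x ∈ (S ×ˢ F).image (fun p => W.tr p.1 p.2), (2 * ((d : ℝ) - 1) ^ i) * A x ^ 2 :=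
            Finset.sum_le_sum fun x _ =>
              mul_le_mul_of_nonneg_right (card_snd hd l i hil S F hS x) (sq_nonneg _)
        _ = (2 * ((d : ℝ) - 1) ^ i) * ∑ x ∈ (S ×ˢ F).image (fun p => W.tr p.1 p.2), A x ^ 2 := by
            rw [Finset.mul_sum]
        _ ≤ _ := mul_le_mul_of_nonneg_left (hAa _) (by
            have : (0 : ℝ) ≤ (d : ℝ) - 1 := by linarith
            positivity)
    have hBs : ∑ p ∈ (S ×ˢ F).filter (fun p => R i p.1 p.2), B p.2 ^ 2 ≤
        2 * ((d : ℝ) - 1) ^ (l - i) * b := by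
      rw [Finset.sum_filter, Finset.sum_product_right]
      calc _ = ∑ z ∈ F, ((S.filter (fun w => R i w z)).card : ℝ) * B z ^ 2 := by
            apply Finset.sum_congr rfl
            intro z _
            rw [← Finset.sum_filter]
            have : ∑ a ∈ S with R i (a, z).1 (a, z).2, B (a, z).2 ^ 2 = ∑ a ∈ S with R i a z, B z ^ 2 := rfl
            rw [this, Finset.sum_const, nsmul_eq_mul]
        _ ≤ ∑ z ∈ F, (2 * ((d : ℝ) - 1) ^ (l - i)) * B z ^ 2 :=
            Finset.sum_le_sum fun z _ =>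
              mul_le_mul_of_nonneg_right (card_fst hd l i hil S hS z) (sq_nonneg _)
        _ = (2 * ((d : ℝ) - 1) ^ (l - i)) * ∑ z ∈ F, B z ^ 2 := by rw [Finset.mul_sum]
        _ ≤ _ := mul_le_mul_of_nonneg_left hBb (by
            have : (0 : ℝ) ≤ (d : ℝ) - 1 := by linarith
            positivity)
    have hb1 : (0 : ℝ) ≤ (d : ℝ) - 1 := by linarith
    calc _ ≤ Real.sqrt (2 * ((d : ℝ) - 1) ^ i * a) * Real.sqrt (2 * ((d : ℝ) - 1) ^ (l - i) * b) :=
          mul_le_mul (Real.sqrt_le_sqrt hAs) (Real.sqrt_le_sqrt hBs) (Real.sqrt_nonneg _)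
            (Real.sqrt_nonneg _)
      _ = 2 * (Real.sqrt ((d : ℝ) - 1)) ^ l * Real.sqrt a * Real.sqrt b := by
          rw [← Real.sqrt_mul (by positivity)]
          have : 2 * ((d : ℝ) - 1) ^ i * a * (2 * ((d : ℝ) - 1) ^ (l - i) * b) =
              2 ^ 2 * (((d : ℝ) - 1) ^ l) * a * b := by
            have : ((d : ℝ) - 1) ^ l = ((d : ℝ) - 1) ^ i * ((d : ℝ) - 1) ^ (l - i) := by
              rw [← pow_add]; congr 1; omega
            rw [this]; ring
          rw [this, Real.sqrt_mul (by positivity), Real.sqrt_mul (by positivity),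
            Real.sqrt_mul (by positivity), Real.sqrt_sq (by norm_num)]
          congr 3
          rw [Real.sqrt_eq_iff_mul_self_eq (by positivity) (by positivity), ← mul_pow,
            Real.mul_self_sqrt hb1]
  calc _ ≤ ∑ i ∈ Finset.range (l + 1), 2 * (Real.sqrt ((d : ℝ) - 1)) ^ l * Real.sqrt a * Real.sqrt b :=
        Finset.sum_le_sum h2
    _ = _ := by
      rw [Finset.sum_const, Finset.card_range, nsmul_eq_mul]
      push_cast
      ring

end words

section efronstein

open MeasureTheory Finset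

variable {I Lab : Type*} [DecidableEq I] [MeasurableSpace Lab]

/-- the product measure -/
noncomputable abbrev PP (I : Type*) {Lab : Type*} [MeasurableSpace Lab] (lam : Measure Lab)
    [IsProbabilityMeasure lam] : Measure (I → Lab) := Measure.infinitePi fun _ : I => lam

lemma meas_pw (A : Finset I) :
    Measurable (fun p : (I → Lab) × (I → Lab) => A.piecewise p.1 p.2) := by
  rw [measurable_pi_iff]
  intro i
  by_cases hi : i ∈ A
  · simp only [Finset.piecewise, hi, if_true]
    fun_prop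
  · simp only [Finset.piecewise, hi, if_false]
    fun_prop

/-- exchange the coordinates outside `A` -/
def sw (A : Finset I) (p : (I → Lab) × (I → Lab)) : (I → Lab) × (I → Lab) :=
  (A.piecewise p.1 p.2, A.piecewise p.2 p.1)

lemma meas_sw (A : Finset I) : Measurable (sw (Lab := Lab) A) :=
  (meas_pw A).prodMk ((meas_pw A).comp measurable_swap)

variable (lam : Measure Lab) [IsProbabilityMeasure lam]

lemma pi_extend (F G : Finset I) (hFG : F ⊆ G) (s : I → Set Lab) :
    (F : Set I).pi s = (G : Set I).pi (fun i => if i ∈ F then s i else Set.univ) := by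
  ext x
  simp only [Set.mem_pi, Finset.mem_coe]
  constructor
  · intro h i hi
    by_cases hF : i ∈ F
    · simpa [hF] using h i hF
    · simp [hF]
  · intro h i hi
    have := h i (hFG hi)
    simpa [hi] using this

lemma mp_sw (A : Finset I) :
    MeasurePreserving (sw (Lab := Lab) A) ((PP I lam).prod (PP I lam)) ((PP I lam).prod (PP I lam)) := by
  refine ⟨meas_sw A, ?_⟩
  symm
  have hpi : IsPiSystem (squareCylinders (fun _ : I => {s : Set Lab | MeasurableSet s})) :=
    isPiSystem_squareCylinders (fun _ ↦ MeasurableSpace.isPiSystem_measurableSet) (by simp)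
  have huniv : (Set.univ : Set (I → Lab)) ∈ squareCylinders (fun _ : I => {s : Set Lab | MeasurableSet s}) := by
    refine ⟨∅, fun _ => Set.univ, by simp, by simp⟩
  have hfin : (PP I lam).FiniteSpanningSetsIn (squareCylinders (fun _ : I => {s : Set Lab | MeasurableSet s})) :=
    ⟨fun _ => Set.univ, fun _ => huniv, fun _ => measure_lt_top _ _, by rw [Set.iUnion_const]⟩
  refine Measure.prod_eq_generateFrom (generateFrom_squareCylinders (ι := I) (α := fun _ => Lab))
    (generateFrom_squareCylinders (ι := I) (α := fun _ => Lab)) hpi hpi hfin hfin ?_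
  rintro _ ⟨F₁, s, hs, rfl⟩ _ ⟨F₂, t, ht, rfl⟩
  have hs' : ∀ i, MeasurableSet (s i) := fun i => hs i (Set.mem_univ i)
  have ht' : ∀ i, MeasurableSet (t i) := fun i => ht i (Set.mem_univ i)
  rw [pi_extend F₁ (F₁ ∪ F₂) Finset.subset_union_left s,
    pi_extend F₂ (F₁ ∪ F₂) Finset.subset_union_right t]
  set G := F₁ ∪ F₂
  set s' : I → Set Lab := fun i => if i ∈ F₁ then s i else Set.univ with hs'def
  set t' : I → Set Lab := fun i => if i ∈ F₂ then t i else Set.univ with ht'def
  have ms : ∀ i, MeasurableSet (s' i) := by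
    intro i; simp only [hs'def]; split_ifs; exacts [hs' i, MeasurableSet.univ]
  have mt : ∀ i, MeasurableSet (t' i) := by
    intro i; simp only [ht'def]; split_ifs; exacts [ht' i, MeasurableSet.univ]
  have hpre : sw (Lab := Lab) A ⁻¹' (((G : Set I).pi s') ×ˢ ((G : Set I).pi t')) =
      ((G : Set I).pi (fun i => if i ∈ A then s' i else t' i)) ×ˢ
        ((G : Set I).pi (fun i => if i ∈ A then t' i else s' i)) := by
    ext ⟨x, y⟩
    simp only [sw, Set.mem_preimage, Set.mem_prod, Set.mem_pi, Finset.mem_coe, Finset.piecewise]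
    constructor
    · rintro ⟨h1, h2⟩
      constructor
      · intro i hi
        have a1 := h1 i hi
        have a2 := h2 i hi
        by_cases hA : i ∈ A <;> simp_all
      · intro i hi
        have a1 := h1 i hi
        have a2 := h2 i hi
        by_cases hA : i ∈ A <;> simp_all
    · rintro ⟨h1, h2⟩
      constructor
      · intro i hi
        have a1 := h1 i hi
        have a2 := h2 i hi
        by_cases hA : i ∈ A <;> simp_all
      · intro i hi
        have a1 := h1 i hi
        have a2 := h2 i hi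
        by_cases hA : i ∈ A <;> simp_all
  have m1 : ∀ i, MeasurableSet (if i ∈ A then s' i else t' i) := by
    intro i; split_ifs; exacts [ms i, mt i]
  have m2 : ∀ i, MeasurableSet (if i ∈ A then t' i else s' i) := by
    intro i; split_ifs; exacts [mt i, ms i]
  have M : ∀ u : I → Set Lab, (∀ i, MeasurableSet (u i)) → MeasurableSet ((G : Set I).pi u) :=
    fun u hu => MeasurableSet.pi (Finset.countable_toSet _) (fun i _ => hu i)
  rw [Measure.map_apply (meas_sw A) ((M _ ms).prod (M _ mt)), hpre, Measure.prod_prod,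
    Measure.infinitePi_pi _ (fun i _ => m1 i), Measure.infinitePi_pi _ (fun i _ => m2 i),
    Measure.infinitePi_pi _ (fun i _ => ms i), Measure.infinitePi_pi _ (fun i _ => mt i),
    ← Finset.prod_mul_distrib, ← Finset.prod_mul_distrib]
  apply Finset.prod_congr rfl
  intro i _
  split_ifs
  · rfl
  · rw [mul_comm]

lemma mp_pw (A : Finset I) :
    MeasurePreserving (fun p : (I → Lab) × (I → Lab) => A.piecewise p.1 p.2)
      ((PP I lam).prod (PP I lam)) (PP I lam) :=
  measurePreserving_fst.comp (mp_sw lam A)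

/-- bounded measurable -/
def BM (f : (I → Lab) → ℝ) : Prop := Measurable f ∧ ∃ C, ∀ ω, |f ω| ≤ C

variable {lam}

lemma BM.integrable {f : (I → Lab) → ℝ} (hf : BM f) : Integrable f (PP I lam) := by
  obtain ⟨h1, C, hC⟩ := hf
  exact Integrable.of_bound h1.aestronglyMeasurable C (Filter.Eventually.of_forall fun x => by
    rw [Real.norm_eq_abs]; exact hC x)

lemma BM.add {f g : (I → Lab) → ℝ} (hf : BM f) (hg : BM g) : BM (fun ω => f ω + g ω) := by
  obtain ⟨h1, C, hC⟩ := hf
  obtain ⟨h2, D, hD⟩ := hg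
  exact ⟨h1.add h2, C + D, fun ω => (abs_add_le _ _).trans (add_le_add (hC ω) (hD ω))⟩

lemma BM.sub {f g : (I → Lab) → ℝ} (hf : BM f) (hg : BM g) : BM (fun ω => f ω - g ω) := by
  obtain ⟨h1, C, hC⟩ := hf
  obtain ⟨h2, D, hD⟩ := hg
  exact ⟨h1.sub h2, C + D, fun ω => (abs_sub _ _).trans (add_le_add (hC ω) (hD ω))⟩

lemma BM.mul {f g : (I → Lab) → ℝ} (hf : BM f) (hg : BM g) : BM (fun ω => f ω * g ω) := by
  obtain ⟨h1, C, hC⟩ := hf
  obtain ⟨h2, D, hD⟩ := hg
  refine ⟨h1.mul h2, C * D, fun ω => ?_⟩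
  rw [abs_mul]
  exact mul_le_mul (hC ω) (hD ω) (abs_nonneg _) ((abs_nonneg _).trans (hC ω))

lemma BM.sum {ι : Type*} (s : Finset ι) {f : ι → (I → Lab) → ℝ} (hf : ∀ i ∈ s, BM (f i)) :
    BM (fun ω => ∑ i ∈ s, f i ω) := by
  classical
  induction s using Finset.induction_on with
  | empty => exact ⟨by simp, 0, by simp⟩
  | insert a s ha ih =>
    simp only [Finset.sum_insert ha]
    exact (hf a (Finset.mem_insert_self _ _)).add (ih fun i hi => hf i (Finset.mem_insert_of_mem hi))

lemma BM.const (c : ℝ) : BM (fun _ : I → Lab => c) := ⟨measurable_const, |c|, fun _ => le_rfl⟩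

variable (lam)

/-- average over the coordinates outside `A` -/
noncomputable def EA (A : Finset I) (f : (I → Lab) → ℝ) (ω : I → Lab) : ℝ :=
  ∫ ω', f (A.piecewise ω ω') ∂(PP I lam)

lemma BM.EA {f : (I → Lab) → ℝ} (hf : BM f) (A : Finset I) : BM (EA lam A f) := by
  obtain ⟨h1, C, hC⟩ := hf
  refine ⟨?_, C, fun ω => ?_⟩
  · have : StronglyMeasurable (fun p : (I → Lab) × (I → Lab) => f (A.piecewise p.1 p.2)) :=
      (h1.comp (meas_pw A)).stronglyMeasurable
    exact (this.integral_prod_right').measurable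
  · unfold Bsv.EA
    rw [← Real.norm_eq_abs]
    refine (norm_integral_le_of_norm_le_const (C := C) (Filter.Eventually.of_forall fun x => by
      rw [Real.norm_eq_abs]; exact hC _)).trans ?_
    simp

lemma meas_pw_right (A : Finset I) (ω : I → Lab) :
    Measurable (fun ω' : I → Lab => A.piecewise ω ω') :=
  (meas_pw A).comp (measurable_const.prodMk measurable_id)

lemma BM.pw {f : (I → Lab) → ℝ} (hf : BM f) (A : Finset I) (ω : I → Lab) :
    BM (fun ω' => f (A.piecewise ω ω')) := by
  obtain ⟨h1, C, hC⟩ := hf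
  exact ⟨h1.comp (meas_pw_right A ω), C, fun _ => hC _⟩

lemma EA_EA {f : (I → Lab) → ℝ} (hf : BM f) (A B : Finset I) :
    EA lam B (EA lam A f) = EA lam (A ∩ B) f := by
  funext ω
  unfold EA
  -- both equal the double integral
  have hint : Integrable (fun p : (I → Lab) × (I → Lab) =>
      f ((A ∩ B).piecewise ω (A.piecewise p.1 p.2))) ((PP I lam).prod (PP I lam)) := by
    obtain ⟨h1, C, hC⟩ := hf
    refine Integrable.of_bound ((h1.comp ((meas_pw_right (A ∩ B) ω).comp (meas_pw A))).aestronglyMeasurable) C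
      (Filter.Eventually.of_forall fun x => by rw [Real.norm_eq_abs]; exact hC _)
  have h1 : ∀ ω'' ω' : I → Lab, A.piecewise (B.piecewise ω ω'') ω' =
      (A ∩ B).piecewise ω (A.piecewise ω'' ω') := by
    intro ω'' ω'
    funext i
    simp only [Finset.piecewise, Finset.mem_inter]
    by_cases hA : i ∈ A <;> by_cases hB : i ∈ B <;> simp [hA, hB]
  calc ∫ ω'', ∫ ω', f (A.piecewise (B.piecewise ω ω'') ω') ∂(PP I lam) ∂(PP I lam)
      = ∫ p : (I → Lab) × (I → Lab), f ((A ∩ B).piecewise ω (A.piecewise p.1 p.2))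
          ∂((PP I lam).prod (PP I lam)) := by
        rw [integral_prod _ hint]
        simp only [h1]
    _ = ∫ ω', f ((A ∩ B).piecewise ω ω') ∂(PP I lam) := by
        have hm := (mp_pw lam A).map_eq
        conv_rhs => rw [← hm]
        rw [integral_map (meas_pw A).aemeasurable]
        exact ((hf.1.comp (meas_pw_right (A ∩ B) ω)).aestronglyMeasurable)

lemma EA_adj {f g : (I → Lab) → ℝ} (hf : BM f) (hg : BM g) (A : Finset I) :
    ∫ ω, EA lam A f ω * g ω ∂(PP I lam) = ∫ ω, f ω * EA lam A g ω ∂(PP I lam) := by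
  have key : ∀ {f g : (I → Lab) → ℝ}, BM f → BM g →
      ∫ ω, EA lam A f ω * g ω ∂(PP I lam) = ∫ p : (I → Lab) × (I → Lab),
        f (A.piecewise p.1 p.2) * g p.1 ∂((PP I lam).prod (PP I lam)) := by
    intro f g hf hg
    have hint : Integrable (fun p : (I → Lab) × (I → Lab) =>
        f (A.piecewise p.1 p.2) * g p.1) ((PP I lam).prod (PP I lam)) := by
      obtain ⟨h1, C, hC⟩ := hf
      obtain ⟨h2, D, hD⟩ := hg
      refine Integrable.of_bound (((h1.comp (meas_pw A)).mul (h2.comp measurable_fst)).aestronglyMeasurable) (C * D)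
        (Filter.Eventually.of_forall fun x => ?_)
      rw [Real.norm_eq_abs, abs_mul]
      exact mul_le_mul (hC _) (hD _) (abs_nonneg _) ((abs_nonneg _).trans (hC x.1))
    rw [integral_prod _ hint]
    unfold EA
    simp only [integral_mul_const]
  rw [key hf hg]
  have h2 : ∫ ω, f ω * EA lam A g ω ∂(PP I lam) = ∫ ω, EA lam A g ω * f ω ∂(PP I lam) := by
    simp only [mul_comm]
  rw [h2, key hg hf]
  have hm := (mp_sw lam A).map_eq
  conv_lhs => rw [← hm]
  rw [integral_map (meas_sw A).aemeasurable]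
  · congr 1
    funext p
    simp only [sw]
    rw [mul_comm]
    congr 2
    funext i
    simp only [Finset.piecewise]
    split_ifs <;> rfl
  · exact ((hf.1.comp (meas_pw A)).mul (hg.1.comp measurable_fst)).aestronglyMeasurable

/-- `f` depends only on the coordinates in `Λ` -/
def Loc (Λ : Finset I) (f : (I → Lab) → ℝ) : Prop :=
  ∀ ω ω' : I → Lab, (∀ i ∈ Λ, ω i = ω' i) → f ω = f ω'

lemma Loc.mono {Λ Λ' : Finset I} {f : (I → Lab) → ℝ} (h : Loc Λ f) (hΛ : Λ ⊆ Λ') : Loc Λ' f :=
  fun ω ω' h' => h ω ω' fun i hi => h' i (hΛ hi)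

lemma EA_loc {Λ : Finset I} {f : (I → Lab) → ℝ} (h : Loc Λ f) : EA lam Λ f = f := by
  funext ω
  unfold EA
  have : ∀ ω', f (Λ.piecewise ω ω') = f ω := fun ω' => h _ _ fun i hi => by simp [hi]
  simp only [this]
  simp

lemma EA_empty (f : (I → Lab) → ℝ) (ω : I → Lab) : EA lam ∅ f ω = ∫ ω', f ω' ∂(PP I lam) := by
  unfold EA
  simp

lemma EA_sub {f g : (I → Lab) → ℝ} (hf : BM f) (hg : BM g) (A : Finset I) (ω : I → Lab) :
    EA lam A (fun ω => f ω - g ω) ω = EA lam A f ω - EA lam A g ω := by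
  unfold EA
  rw [integral_sub (hf.pw A ω).integrable (hg.pw A ω).integrable]

lemma EA_sum {ι : Type*} (s : Finset ι) {f : ι → (I → Lab) → ℝ} (hf : ∀ i ∈ s, BM (f i)) (A : Finset I)
    (ω : I → Lab) : EA lam A (fun ω => ∑ i ∈ s, f i ω) ω = ∑ i ∈ s, EA lam A (f i) ω := by
  unfold EA
  rw [integral_finsetSum _ (fun i hi => ((hf i hi).pw A ω).integrable)]

/-- Efron-Stein component -/
noncomputable def comp (f : (I → Lab) → ℝ) : Finset I → ((I → Lab) → ℝ) :=
  Finset.strongInduction (fun T ih => fun ω => EA lam T f ω -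
    ∑ A ∈ T.ssubsets.attach, ih A.1 (Finset.mem_ssubsets.1 A.2) ω)

lemma comp_eq (f : (I → Lab) → ℝ) (T : Finset I) :
    comp lam f T = fun ω => EA lam T f ω - ∑ A ∈ T.ssubsets, comp lam f A ω := by
  unfold comp
  rw [Finset.strongInduction_eq]
  funext ω
  congr 1
  exact Finset.sum_attach T.ssubsets (fun A => (Finset.strongInduction (p := fun _ => (I → Lab) → ℝ)
    (fun T ih => fun ω => EA lam T f ω -
    ∑ A ∈ T.ssubsets.attach, ih A.1 (Finset.mem_ssubsets.1 A.2) ω) A) ω)

lemma sum_comp (f : (I → Lab) → ℝ) (T : Finset I) (ω : I → Lab) :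
    ∑ A ∈ T.powerset, comp lam f A ω = EA lam T f ω := by
  have h : T.powerset = insert T T.ssubsets := by
    ext A
    simp only [Finset.mem_powerset, Finset.mem_insert, Finset.mem_ssubsets]
    constructor
    · intro h
      rcases eq_or_ne A T with h' | h'
      · exact Or.inl h'
      · exact Or.inr (Finset.ssubset_iff_subset_ne.2 ⟨h, h'⟩)
    · rintro (h | h)
      · exact h.subset
      · exact h.subset
  rw [h, Finset.sum_insert (by simp), comp_eq]
  simp

lemma BM.comp {f : (I → Lab) → ℝ} (hf : BM f) (T : Finset I) : BM (comp lam f T) := by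
  induction T using Finset.strongInduction with
  | H T ih =>
    rw [comp_eq]
    exact (hf.EA lam T).sub (BM.sum _ fun A hA => ih A (Finset.mem_ssubsets.1 hA))

lemma EA_comp {f : (I → Lab) → ℝ} (hf : BM f) (T B : Finset I) :
    EA lam B (comp lam f T) = if T ⊆ B then comp lam f T else fun _ => 0 := by
  induction T using Finset.strongInduction with
  | H T ih =>
    have h1 : EA lam B (Bsv.comp lam f T) = fun ω => EA lam (T ∩ B) f ω -
        ∑ A ∈ T.ssubsets.filter (fun A => A ⊆ B), Bsv.comp lam f A ω := by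
      rw [comp_eq]
      funext ω
      rw [EA_sub lam (hf.EA lam T) (BM.sum _ fun A _ => hf.comp lam A), EA_EA lam hf,
        EA_sum lam _ (fun A _ => hf.comp lam A), Finset.sum_filter]
      congr 1
      apply Finset.sum_congr rfl
      intro A hA
      rw [ih A (Finset.mem_ssubsets.1 hA)]
      split_ifs <;> rfl
    rw [h1]
    split_ifs with hTB
    · rw [comp_eq]
      funext ω
      rw [Finset.inter_eq_left.2 hTB, Finset.filter_true_of_mem]
      intro A hA
      exact (Finset.mem_ssubsets.1 hA).subset.trans hTB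
    · funext ω
      rw [← sum_comp lam f (T ∩ B) ω, sub_eq_zero]
      apply Finset.sum_congr _ (fun _ _ => rfl)
      ext A
      simp only [Finset.mem_powerset, Finset.mem_filter, Finset.mem_ssubsets, Finset.subset_inter_iff]
      constructor
      · rintro ⟨a, b⟩
        refine ⟨Finset.ssubset_iff_subset_ne.2 ⟨a, ?_⟩, b⟩
        rintro rfl
        exact hTB b
      · rintro ⟨a, b⟩
        exact ⟨a.subset, b⟩

lemma comp_orth {f g : (I → Lab) → ℝ} (hf : BM f) (hg : BM g) {T T' : Finset I} (h : T ≠ T') :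
    ∫ ω, comp lam f T ω * comp lam g T' ω ∂(PP I lam) = 0 := by
  by_cases hT : T ⊆ T'
  · have hT' : ¬ T' ⊆ T := fun h' => h (Finset.Subset.antisymm hT h')
    have e1 := EA_comp lam hf T T
    rw [if_pos (Finset.Subset.refl _)] at e1
    have e2 := EA_comp lam hg T' T
    rw [if_neg hT'] at e2
    rw [← e1, EA_adj lam (hf.comp lam T) (hg.comp lam T'), e2]
    simp
  · have e1 := EA_comp lam hg T' T'
    rw [if_pos (Finset.Subset.refl _)] at e1
    have e2 := EA_comp lam hf T T'
    rw [if_neg hT] at e2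
    rw [← e1, ← EA_adj lam (hf.comp lam T) (hg.comp lam T'), e2]
    simp

/-- Parseval for local functions -/
lemma parseval {f g : (I → Lab) → ℝ} (hf : BM f) (hg : BM g) {Λ : Finset I} (hfΛ : Loc Λ f)
    (hgΛ : Loc Λ g) : ∫ ω, f ω * g ω ∂(PP I lam) =
      ∑ T ∈ Λ.powerset, ∫ ω, comp lam f T ω * comp lam g T ω ∂(PP I lam) := by
  have h1 : ∀ ω, f ω = ∑ T ∈ Λ.powerset, comp lam f T ω := fun ω => by
    rw [sum_comp, EA_loc lam hfΛ]
  have h2 : ∀ ω, g ω = ∑ T ∈ Λ.powerset, comp lam g T ω := fun ω => by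
    rw [sum_comp, EA_loc lam hgΛ]
  have h3 : ∀ ω, f ω * g ω = ∑ T ∈ Λ.powerset, ∑ T' ∈ Λ.powerset, comp lam f T ω * comp lam g T' ω := by
    intro ω
    rw [h1 ω, h2 ω, Finset.sum_mul_sum]
  simp only [h3]
  rw [integral_finsetSum _ fun T _ => (BM.sum _ fun T' _ => (hf.comp lam T).mul (hg.comp lam T')).integrable]
  apply Finset.sum_congr rfl
  intro T hT
  rw [integral_finsetSum _ fun T' _ => ((hf.comp lam T).mul (hg.comp lam T')).integrable]
  rw [Finset.sum_eq_single T]
  · intro T' _ hT'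
    exact comp_orth lam hf hg hT'.symm
  · intro h; exact absurd hT h

/-- squared norm of a component -/
noncomputable def nn (f : (I → Lab) → ℝ) (T : Finset I) : ℝ := ∫ ω, comp lam f T ω ^ 2 ∂(PP I lam)

lemma nn_nonneg (f : (I → Lab) → ℝ) (T : Finset I) : 0 ≤ nn lam f T :=
  integral_nonneg fun _ => sq_nonneg _

lemma bessel {f : (I → Lab) → ℝ} (hf : BM f) {Λ : Finset I} (hfΛ : Loc Λ f) (𝒢 : Finset (Finset I)) :
    ∑ T ∈ 𝒢, nn lam f T ≤ ∫ ω, f ω ^ 2 ∂(PP I lam) := by
  set Λ' := Λ ∪ 𝒢.sup id with hΛ'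
  have hsub : 𝒢 ⊆ Λ'.powerset := by
    intro T hT
    rw [Finset.mem_powerset]
    exact (Finset.le_sup (f := id) hT).trans Finset.subset_union_right
  have h1 := parseval lam hf hf (hfΛ.mono (Finset.subset_union_left (s₂ := 𝒢.sup id)))
    (hfΛ.mono (Finset.subset_union_left (s₂ := 𝒢.sup id)))
  have h2 : ∫ ω, f ω ^ 2 ∂(PP I lam) = ∑ T ∈ Λ'.powerset, nn lam f T := by
    simp only [sq, nn]
    exact h1
  rw [h2]
  exact Finset.sum_le_sum_of_subset_of_nonneg hsub fun T _ _ => nn_nonneg lam f T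

/-- Cauchy-Schwarz for bounded measurable functions -/
lemma cs {f g : (I → Lab) → ℝ} (hf : BM f) (hg : BM g) :
    |∫ ω, f ω * g ω ∂(PP I lam)| ≤ Real.sqrt (∫ ω, f ω ^ 2 ∂(PP I lam)) * Real.sqrt (∫ ω, g ω ^ 2 ∂(PP I lam)) := by
  have hf2 : 0 ≤ ∫ ω, f ω ^ 2 ∂(PP I lam) := integral_nonneg fun _ => sq_nonneg _
  have hg2 : 0 ≤ ∫ ω, g ω ^ 2 ∂(PP I lam) := integral_nonneg fun _ => sq_nonneg _
  rw [← Real.sqrt_mul hf2]
  apply Real.abs_le_sqrt
  -- discriminant
  have hquad : ∀ t : ℝ, 0 ≤ (∫ ω, f ω ^ 2 ∂(PP I lam)) * (t * t) + (2 * ∫ ω, f ω * g ω ∂(PP I lam)) * t +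
      ∫ ω, g ω ^ 2 ∂(PP I lam) := by
    intro t
    have : 0 ≤ ∫ ω, (t * f ω + g ω) ^ 2 ∂(PP I lam) := integral_nonneg fun _ => sq_nonneg _
    have e : ∫ ω, (t * f ω + g ω) ^ 2 ∂(PP I lam) = (∫ ω, f ω ^ 2 ∂(PP I lam)) * (t * t) +
        (2 * ∫ ω, f ω * g ω ∂(PP I lam)) * t + ∫ ω, g ω ^ 2 ∂(PP I lam) := by
      have h1 : ∀ ω, (t * f ω + g ω) ^ 2 = (t * t) * f ω ^ 2 + (2 * t) * (f ω * g ω) + g ω ^ 2 := by
        intro ω; ring
      simp only [h1]
      have i1 : Integrable (fun ω => f ω ^ 2) (PP I lam) := by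
        simpa only [sq] using (hf.mul hf).integrable
      have i2 : Integrable (fun ω => g ω ^ 2) (PP I lam) := by
        simpa only [sq] using (hg.mul hg).integrable
      have i3 : Integrable (fun ω => f ω * g ω) (PP I lam) := (hf.mul hg).integrable
      rw [integral_add (f := fun ω => (t * t) * f ω ^ 2 + (2 * t) * (f ω * g ω)) (g := fun ω => g ω ^ 2)
          ((i1.const_mul _).add (i3.const_mul _)) i2,
        integral_add (i1.const_mul _) (i3.const_mul _), integral_const_mul, integral_const_mul]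
      ring
    rw [← e]; exact this
  have := discrim_le_zero hquad
  unfold discrim at this
  nlinarith

lemma cs_comp {f g : (I → Lab) → ℝ} (hf : BM f) (hg : BM g) (T : Finset I) :
    |∫ ω, comp lam f T ω * comp lam g T ω ∂(PP I lam)| ≤
      Real.sqrt (nn lam f T) * Real.sqrt (nn lam g T) :=
  cs lam (hf.comp lam T) (hg.comp lam T)

/-! ### Equivariance -/

lemma mp_reindex (e : I ≃ I) :
    MeasurePreserving (fun ω : I → Lab => fun i => ω (e i)) (PP I lam) (PP I lam) := by
  refine ⟨by fun_prop, ?_⟩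
  have := Measure.infinitePi_map_piCongrLeft (X := fun _ : I => Lab) (fun _ : I => lam) e.symm
  have h2 : (MeasurableEquiv.piCongrLeft (fun _ : I => Lab) e.symm : (I → Lab) → (I → Lab)) =
      fun ω i => ω (e i) := by
    funext ω i
    simp [MeasurableEquiv.piCongrLeft, Equiv.piCongrLeft, Equiv.piCongrLeft']
  rw [h2] at this
  exact this

lemma BM.reindex {g : (I → Lab) → ℝ} (hg : BM g) (e : I ≃ I) : BM (fun ω => g (fun i => ω (e i))) := by
  obtain ⟨h1, C, hC⟩ := hg
  exact ⟨h1.comp (by fun_prop), C, fun _ => hC _⟩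

lemma integral_reindex {g : (I → Lab) → ℝ} (hg : Measurable g) (e : I ≃ I) :
    ∫ ω, g (fun i => ω (e i)) ∂(PP I lam) = ∫ ω, g ω ∂(PP I lam) := by
  have hm := (mp_reindex lam e).map_eq
  conv_rhs => rw [← hm]
  rw [integral_map (mp_reindex lam e).measurable.aemeasurable hg.aestronglyMeasurable]

lemma EA_reindex {g : (I → Lab) → ℝ} (hg : BM g) (e : I ≃ I) (T : Finset I) (ω : I → Lab) :
    EA lam (T.map e.toEmbedding) (fun ω => g (fun i => ω (e i))) ω = EA lam T g (fun i => ω (e i)) := by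
  unfold EA
  rw [← integral_reindex lam (hg.pw T (fun i => ω (e i))).1 e]
  congr 1
  funext ω'
  change g _ = g _
  congr 1
  funext i
  simp [Finset.piecewise]

lemma comp_reindex {g : (I → Lab) → ℝ} (hg : BM g) (e : I ≃ I) (T : Finset I) :
    comp lam (fun ω => g (fun i => ω (e i))) (T.map e.toEmbedding) =
      fun ω => comp lam g T (fun i => ω (e i)) := by
  induction T using Finset.strongInduction with
  | H T ih =>
    rw [comp_eq, comp_eq]
    funext ω
    rw [EA_reindex lam hg]
    congr 1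
    symm
    apply Finset.sum_bij (fun A _ => A.map e.toEmbedding)
    · intro A hA
      rw [Finset.mem_ssubsets] at hA ⊢
      exact Finset.map_ssubset_map.2 hA
    · intro A _ B _ h
      exact Finset.map_injective _ h
    · intro B hB
      rw [Finset.mem_ssubsets] at hB
      refine ⟨B.map e.symm.toEmbedding, ?_, ?_⟩
      · rw [Finset.mem_ssubsets]
        have h1 := (Finset.map_ssubset_map (f := e.symm.toEmbedding)).2 hB
        rwa [Finset.map_map, show e.toEmbedding.trans e.symm.toEmbedding = Function.Embedding.refl I by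
          ext x; simp, Finset.map_refl] at h1
      · rw [Finset.map_map, show e.symm.toEmbedding.trans e.toEmbedding = Function.Embedding.refl I by
          ext x; simp, Finset.map_refl]
    · intro A hA
      rw [ih A (Finset.mem_ssubsets.1 hA)]

lemma nn_reindex {g : (I → Lab) → ℝ} (hg : BM g) (e : I ≃ I) (T : Finset I) :
    nn lam (fun ω => g (fun i => ω (e i))) (T.map e.toEmbedding) = nn lam g T := by
  unfold nn
  rw [comp_reindex lam hg]
  exact integral_reindex lam (g := fun ω => comp lam g T ω ^ 2) ((hg.comp lam T).1.pow_const 2) e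

lemma Loc.reindex {g : (I → Lab) → ℝ} {Λ : Finset I} (hg : Loc Λ g) (e : I ≃ I) :
    Loc (Λ.map e.toEmbedding) (fun ω => g (fun i => ω (e i))) := by
  intro ω ω' h
  apply hg
  intro i hi
  exact h _ (Finset.mem_map_of_mem e.toEmbedding hi)

end efronstein

section main
open MeasureTheory Finset

lemma wsum_le {I : Type*} [DecidableEq I] (Q : Finset (Finset I)) (n : Finset I → ℝ)
    (hn : ∀ T, 0 ≤ n T) (G : Finset I) :
    ∑ x ∈ G, ∑ T ∈ Q.filter (fun T => x ∈ T), n T / (T.card : ℝ) ≤ ∑ T ∈ Q, n T := by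
  have h1 : ∑ x ∈ G, ∑ T ∈ Q.filter (fun T => x ∈ T), n T / (T.card : ℝ) =
      ∑ T ∈ Q, ∑ x ∈ G.filter (fun x => x ∈ T), n T / (T.card : ℝ) := by
    simp only [Finset.sum_filter]
    rw [Finset.sum_comm]
  rw [h1]
  apply Finset.sum_le_sum
  intro T _
  rw [Finset.sum_const, nsmul_eq_mul]
  have hc : (G.filter (fun x => x ∈ T)).card ≤ T.card := by
    apply Finset.card_le_card
    intro x hx
    exact (Finset.mem_filter.1 hx).2
  rcases Nat.eq_zero_or_pos T.card with h0 | h0
  · rw [h0] at hc ⊢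
    simp [hn T]
  · have hT : (0 : ℝ) < T.card := by exact_mod_cast h0
    rw [mul_div_assoc', div_le_iff₀ hT, mul_comm (n T)]
    exact mul_le_mul_of_nonneg_right (by exact_mod_cast hc) (hn T)

theorem bsv_loc {Lab : Type*} [MeasurableSpace Lab] (lam : Measure Lab) [IsProbabilityMeasure lam]
    {d : ℕ} (hd : 3 ≤ d) {f g : (W d → Lab) → ℝ} (hf : BM f) (hg : BM g) {Λf Λg : Finset (W d)}
    (hfΛ : Loc Λf f) (hgΛ : Loc Λg g) (hf0 : ∫ ω, f ω ∂(PP (W d) lam) = 0)
    (l : ℕ) (S : Finset (W d)) (hS : ∀ w ∈ S, w.len = l) :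
    ∑ w ∈ S, |∫ ω, f ω * g (fun u => ω (W.tr w u)) ∂(PP (W d) lam)| ≤
      2 * (l + 1) * (Real.sqrt ((d : ℝ) - 1)) ^ l * Real.sqrt (∫ ω, f ω ^ 2 ∂(PP (W d) lam)) *
        Real.sqrt (∫ ω, g ω ^ 2 ∂(PP (W d) lam)) := by
  classical
  set e : W d → (W d ≃ W d) := fun w => W.trE w with he
  set Λ : Finset (W d) := Λf ∪ S.biUnion (fun w => Λg.map (e w).toEmbedding) with hΛ
  set Pf : Finset (Finset (W d)) := Λ.powerset.erase ∅ with hPf
  set mb : W d → Finset (W d) → Finset (W d) := fun w T => T.map (e w).symm.toEmbedding with hmb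
  set Gf : Finset (Finset (W d)) := (S ×ˢ Pf).image (fun p => mb p.1 p.2) with hGf
  set A : W d → ℝ := fun x => Real.sqrt (∑ T ∈ Pf.filter (fun T => x ∈ T), nn lam f T / (T.card : ℝ)) with hA
  set B : W d → ℝ := fun x => Real.sqrt (∑ T ∈ Gf.filter (fun T => x ∈ T), nn lam g T / (T.card : ℝ)) with hB
  set F : Finset (W d) := S.biUnion (fun w => mb w Λ) with hF
  have hA2 : ∀ x, A x ^ 2 = ∑ T ∈ Pf.filter (fun T => x ∈ T), nn lam f T / (T.card : ℝ) := fun x =>
    Real.sq_sqrt (Finset.sum_nonneg fun T _ => div_nonneg (nn_nonneg lam f T) (Nat.cast_nonneg _))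
  have hB2 : ∀ x, B x ^ 2 = ∑ T ∈ Gf.filter (fun T => x ∈ T), nn lam g T / (T.card : ℝ) := fun x =>
    Real.sq_sqrt (Finset.sum_nonneg fun T _ => div_nonneg (nn_nonneg lam g T) (Nat.cast_nonneg _))
  have hmain := haagerup hd l S F hS A B (fun x => Real.sqrt_nonneg _) (fun x => Real.sqrt_nonneg _)
    (∫ ω, f ω ^ 2 ∂(PP (W d) lam)) (∫ ω, g ω ^ 2 ∂(PP (W d) lam))
    (fun G => by
      simp only [hA2]
      exact (wsum_le Pf _ (nn_nonneg lam f) G).trans (bessel lam hf hfΛ Pf))
    (by
      simp only [hB2]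
      exact (wsum_le Gf _ (nn_nonneg lam g) F).trans (bessel lam hg hgΛ Gf))
  refine le_trans ?_ hmain
  apply Finset.sum_le_sum
  intro w hw
  -- the translated function
  set gw : (W d → Lab) → ℝ := fun ω => g (fun i => ω (e w i)) with hgw
  have hgwBM : BM gw := hg.reindex (e w)
  have hfl : Loc Λ f := hfΛ.mono Finset.subset_union_left
  have hgl : Loc Λ gw := (hgΛ.reindex (e w)).mono (by
    refine Finset.Subset.trans ?_ Finset.subset_union_right
    exact Finset.subset_biUnion_of_mem (fun w => Λg.map (e w).toEmbedding) hw)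
  have h1 : ∫ ω, f ω * g (fun u => ω (W.tr w u)) ∂(PP (W d) lam) =
      ∑ T ∈ Λ.powerset, ∫ ω, comp lam f T ω * comp lam gw T ω ∂(PP (W d) lam) :=
    parseval lam hf hgwBM hfl hgl
  have hnn : ∀ T, nn lam gw T = nn lam g (mb w T) := by
    intro T
    have := nn_reindex lam hg (e w) (mb w T)
    rw [hmb] at this ⊢
    simp only [Finset.map_map] at this
    rw [show (e w).symm.toEmbedding.trans (e w).toEmbedding = Function.Embedding.refl (W d) by
          ext x; simp, Finset.map_refl] at this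
    exact this
  have h0 : comp lam f ∅ = fun _ => 0 := by
    rw [comp_eq]
    funext ω
    have hss : (∅ : Finset (W d)).ssubsets = ∅ := by
      ext A; simp [Finset.mem_ssubsets, Finset.not_ssubset_empty]
    rw [EA_empty, hf0, hss]
    simp
  have h2 : |∫ ω, f ω * g (fun u => ω (W.tr w u)) ∂(PP (W d) lam)| ≤
      ∑ T ∈ Pf, Real.sqrt (nn lam f T) * Real.sqrt (nn lam g (mb w T)) := by
    rw [h1]
    have : ∑ T ∈ Λ.powerset, ∫ ω, comp lam f T ω * comp lam gw T ω ∂(PP (W d) lam) =
        ∑ T ∈ Pf, ∫ ω, comp lam f T ω * comp lam gw T ω ∂(PP (W d) lam) := by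
      rw [hPf, Finset.sum_erase]
      rw [h0]; simp
    rw [this]
    refine (Finset.abs_sum_le_sum_abs _ _).trans (Finset.sum_le_sum fun T _ => ?_)
    rw [← hnn T]
    exact cs_comp lam hf hgwBM T
  refine h2.trans ?_
  -- distribute over the points of T
  have h3 : ∀ T ∈ Pf, Real.sqrt (nn lam f T) * Real.sqrt (nn lam g (mb w T)) =
      ∑ x ∈ Λ.filter (fun x => x ∈ T), Real.sqrt (nn lam f T / (T.card : ℝ)) *
        Real.sqrt (nn lam g (mb w T) / (T.card : ℝ)) := by
    intro T hT
    rw [hPf, Finset.mem_erase, Finset.mem_powerset] at hT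
    have hfil : Λ.filter (fun x => x ∈ T) = T := by
      ext x
      rw [Finset.mem_filter]
      exact ⟨fun h => h.2, fun h => ⟨hT.2 h, h⟩⟩
    rw [hfil, Finset.sum_const, nsmul_eq_mul, Real.sqrt_div (nn_nonneg _ _ _), Real.sqrt_div (nn_nonneg _ _ _)]
    have hc : (0 : ℝ) < T.card := by
      have := Finset.card_pos.2 (Finset.nonempty_iff_ne_empty.2 hT.1)
      exact_mod_cast this
    have hs : Real.sqrt (T.card : ℝ) * Real.sqrt (T.card : ℝ) = T.card := Real.mul_self_sqrt hc.le
    have hs0 : Real.sqrt (T.card : ℝ) ≠ 0 := (Real.sqrt_pos.2 hc).ne'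
    field_simp
    rw [sq, hs]
  rw [Finset.sum_congr rfl h3]
  have h4 : ∑ T ∈ Pf, ∑ x ∈ Λ.filter (fun x => x ∈ T), Real.sqrt (nn lam f T / (T.card : ℝ)) *
        Real.sqrt (nn lam g (mb w T) / (T.card : ℝ)) =
      ∑ x ∈ Λ, ∑ T ∈ Pf.filter (fun T => x ∈ T), Real.sqrt (nn lam f T / (T.card : ℝ)) *
        Real.sqrt (nn lam g (mb w T) / (T.card : ℝ)) := by
    simp only [Finset.sum_filter]
    rw [Finset.sum_comm]
  rw [h4]
  have h5 : ∀ x ∈ Λ, ∑ T ∈ Pf.filter (fun T => x ∈ T), Real.sqrt (nn lam f T / (T.card : ℝ)) *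
        Real.sqrt (nn lam g (mb w T) / (T.card : ℝ)) ≤ A x * B ((e w).symm x) := by
    intro x _
    refine (Real.sum_mul_le_sqrt_mul_sqrt _ _ _).trans ?_
    apply mul_le_mul _ _ (Real.sqrt_nonneg _) (Real.sqrt_nonneg _)
    · apply Real.sqrt_le_sqrt
      apply le_of_eq
      apply Finset.sum_congr rfl
      intro T _
      rw [Real.sq_sqrt (div_nonneg (nn_nonneg _ _ _) (Nat.cast_nonneg _))]
    · apply Real.sqrt_le_sqrt
      have e1 : ∑ T ∈ Pf.filter (fun T => x ∈ T), Real.sqrt (nn lam g (mb w T) / (T.card : ℝ)) ^ 2 =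
          ∑ T' ∈ (Pf.filter (fun T => x ∈ T)).image (mb w), nn lam g T' / (T'.card : ℝ) := by
        rw [Finset.sum_image]
        · apply Finset.sum_congr rfl
          intro T _
          rw [Real.sq_sqrt (div_nonneg (nn_nonneg _ _ _) (Nat.cast_nonneg _)), hmb]
          simp only [Finset.card_map]
        · intro T _ T' _ h
          exact Finset.map_injective _ h
      rw [e1]
      apply Finset.sum_le_sum_of_subset_of_nonneg
      · intro T' hT'
        rw [Finset.mem_image] at hT'
        obtain ⟨T, hT, rfl⟩ := hT'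
        rw [Finset.mem_filter] at hT
        rw [Finset.mem_filter, hGf, Finset.mem_image]
        exact ⟨⟨(w, T), Finset.mem_product.2 ⟨hw, hT.1⟩, rfl⟩, Finset.mem_map_of_mem (e w).symm.toEmbedding hT.2⟩
      · intro T' _ _
        exact div_nonneg (nn_nonneg _ _ _) (Nat.cast_nonneg _)
  refine (Finset.sum_le_sum h5).trans ?_
  -- substitution
  have h6 : ∑ x ∈ Λ, A x * B ((e w).symm x) = ∑ z ∈ mb w Λ, A (W.tr w z) * B z := by
    rw [hmb]
    simp only [Finset.sum_map]
    apply Finset.sum_congr rfl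
    intro x _
    have : W.tr w ((e w).symm x) = x := (e w).apply_symm_apply x
    simp [this]
  rw [h6]
  apply Finset.sum_le_sum_of_subset_of_nonneg
  · exact Finset.subset_biUnion_of_mem (fun w => mb w Λ) hw
  · intro z _ _
    exact mul_nonneg (Real.sqrt_nonneg _) (Real.sqrt_nonneg _)

/-- version without the mean zero assumption -/
theorem bsv_loc' {Lab : Type*} [MeasurableSpace Lab] (lam : Measure Lab) [IsProbabilityMeasure lam]
    {d : ℕ} (hd : 3 ≤ d) {f g : (W d → Lab) → ℝ} (hf : BM f) (hg : BM g) {Λf Λg : Finset (W d)}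
    (hfΛ : Loc Λf f) (hgΛ : Loc Λg g)
    (l : ℕ) (S : Finset (W d)) (hS : ∀ w ∈ S, w.len = l) :
    ∑ w ∈ S, |∫ ω, f ω * g (fun u => ω (W.tr w u)) ∂(PP (W d) lam) -
        (∫ ω, f ω * 1 ∂(PP (W d) lam)) * ∫ ω, g ω * 1 ∂(PP (W d) lam)| ≤
      2 * (l + 1) * (Real.sqrt ((d : ℝ) - 1)) ^ l * Real.sqrt (∫ ω, f ω * f ω ∂(PP (W d) lam)) *
        Real.sqrt (∫ ω, g ω * g ω ∂(PP (W d) lam)) := by
  classical
  set m := ∫ ω, f ω ∂(PP (W d) lam) with hm
  have hc : BM (fun _ : W d → Lab => m) := BM.const m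
  have h1 := bsv_loc lam hd (f := fun ω => f ω - m) (hf.sub hc) hg (Λf := Λf) (Λg := Λg)
    (fun ω ω' h => by change f ω - m = f ω' - m; rw [hfΛ ω ω' h]) hgΛ (by
      rw [integral_sub hf.integrable hc.integrable]; simp [hm]) l S hS
  have h2 : ∀ w, ∫ ω, (f ω - m) * g (fun u => ω (W.tr w u)) ∂(PP (W d) lam) =
      ∫ ω, f ω * g (fun u => ω (W.tr w u)) ∂(PP (W d) lam) -
        (∫ ω, f ω * 1 ∂(PP (W d) lam)) * ∫ ω, g ω * 1 ∂(PP (W d) lam) := by
    intro w
    have hgw : BM (fun ω => g (fun u => ω (W.tr w u))) := hg.reindex (W.trE w)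
    have e1 : ∫ ω, g (fun u => ω (W.tr w u)) ∂(PP (W d) lam) = ∫ ω, g ω ∂(PP (W d) lam) :=
      integral_reindex lam hg.1 (W.trE w)
    simp only [sub_mul, mul_one]
    rw [integral_sub (hf.mul hgw).integrable (hc.mul hgw).integrable, integral_const_mul, e1]
  have h3 : ∫ ω, (f ω - m) ^ 2 ∂(PP (W d) lam) ≤ ∫ ω, f ω * f ω ∂(PP (W d) lam) := by
    have e : ∀ ω, (f ω - m) ^ 2 = f ω * f ω - ((2 * m) * f ω - m ^ 2) := fun ω => by ring
    simp only [e]
    rw [integral_sub (g := fun ω => (2 * m) * f ω - m ^ 2) (hf.mul hf).integrable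
        ((hf.integrable.const_mul _).sub (integrable_const _)),
      integral_sub (hf.integrable.const_mul _) (integrable_const _), integral_const_mul]
    simp only [integral_const, probReal_univ, one_smul]
    rw [← hm]
    nlinarith [sq_nonneg m]
  have hd' : (3 : ℝ) ≤ d := by exact_mod_cast hd
  calc _ = ∑ w ∈ S, |∫ ω, (f ω - m) * g (fun u => ω (W.tr w u)) ∂(PP (W d) lam)| := by
        apply Finset.sum_congr rfl
        intro w _
        rw [h2 w]
    _ ≤ _ := h1
    _ ≤ _ := by
        have e2 : ∀ ω, g ω ^ 2 = g ω * g ω := fun ω => sq _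
        simp only [e2] at *
        gcongr

open scoped symmDiff

lemma dense_loc {I Lab : Type*} [DecidableEq I] [MeasurableSpace Lab] (lam : Measure Lab)
    [IsProbabilityMeasure lam] {f : (I → Lab) → ℝ} (hf : MemLp f 2 (PP I lam)) {ε : ENNReal}
    (hε : ε ≠ 0) :
    ∃ g : (I → Lab) → ℝ, eLpNorm (f - g) 2 (PP I lam) ≤ ε ∧ (BM g ∧ ∃ Λ, Loc Λ g) := by
  refine MemLp.induction_dense (p := 2) (by norm_num) (fun g => BM g ∧ ∃ Λ, Loc Λ g) ?_ ?_ ?_ hf hε
  · intro c s hs _ ε hε
    obtain ⟨η, hη, hη2⟩ := exists_eLpNorm_indicator_le (μ := PP I lam) (p := 2) (by norm_num) c hε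
    have hdense : (PP I lam).MeasureDense (measurableCylinders (fun _ : I => Lab)) :=
      Measure.MeasureDense.of_generateFrom_isSetAlgebra_finite _ isSetAlgebra_measurableCylinders
        generateFrom_measurableCylinders.symm
    obtain ⟨t, ht, hst⟩ := hdense.approx s hs (measure_ne_top _ _) η (by exact_mod_cast hη)
    have mt : MeasurableSet t := hdense.measurable t ht
    refine ⟨t.indicator fun _ => c, ?_, ⟨measurable_const.indicator mt, |c|, ?_⟩, ?_⟩
    · rw [eLpNorm_indicator_sub_indicator]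
      apply hη2
      rw [symmDiff_comm]
      refine hst.le.trans ?_
      rw [ENNReal.ofReal_coe_nnreal]
    · intro ω
      by_cases h : ω ∈ t
      · simp [h]
      · simp [h]
    · obtain ⟨F, T, _, rfl⟩ := (mem_measurableCylinders t).1 ht
      refine ⟨F, ?_⟩
      intro ω ω' h
      have : F.restrict ω = F.restrict ω' := by
        funext i
        exact h i.1 i.2
      by_cases hT : ω ∈ cylinder F T
      · have hT' : ω' ∈ cylinder F T := by
          rw [mem_cylinder] at hT ⊢
          rwa [← this]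
        rw [Set.indicator_of_mem hT, Set.indicator_of_mem hT']
      · have hT' : ω' ∉ cylinder F T := by
          rw [mem_cylinder] at hT ⊢
          rwa [← this]
        rw [Set.indicator_of_notMem hT, Set.indicator_of_notMem hT']
  · rintro f g ⟨hf, Λ, hΛ⟩ ⟨hg, Λ', hΛ'⟩
    refine ⟨hf.add hg, Λ ∪ Λ', ?_⟩
    intro ω ω' h
    simp only [Pi.add_apply]
    rw [hΛ ω ω' fun i hi => h i (Finset.mem_union_left _ hi),
      hΛ' ω ω' fun i hi => h i (Finset.mem_union_right _ hi)]
  · rintro f ⟨hf, _⟩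
    exact hf.1.aestronglyMeasurable

lemma tendsto_ip {Ω : Type*} [MeasurableSpace Ω] {μ : Measure Ω} {f g : Ω → ℝ} {fn gn : ℕ → Ω → ℝ}
    (hf : MemLp f 2 μ) (hg : MemLp g 2 μ) (hfn : ∀ n, MemLp (fn n) 2 μ) (hgn : ∀ n, MemLp (gn n) 2 μ)
    (h1 : Filter.Tendsto (fun n => eLpNorm (fn n - f) 2 μ) Filter.atTop (nhds 0))
    (h2 : Filter.Tendsto (fun n => eLpNorm (gn n - g) 2 μ) Filter.atTop (nhds 0)) :
    Filter.Tendsto (fun n => ∫ ω, fn n ω * gn n ω ∂μ) Filter.atTop (nhds (∫ ω, f ω * g ω ∂μ)) := by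
  have hF : Filter.Tendsto (fun n => (hfn n).toLp (fn n)) Filter.atTop (nhds (hf.toLp f)) := by
    rw [Lp.tendsto_Lp_iff_tendsto_eLpNorm'']
    exact h1
  have hG : Filter.Tendsto (fun n => (hgn n).toLp (gn n)) Filter.atTop (nhds (hg.toLp g)) := by
    rw [Lp.tendsto_Lp_iff_tendsto_eLpNorm'']
    exact h2
  have hin : ∀ {u v : Ω → ℝ} (hu : MemLp u 2 μ) (hv : MemLp v 2 μ),
      inner ℝ (hu.toLp u) (hv.toLp v) = ∫ ω, u ω * v ω ∂μ := by
    intro u v hu hv
    rw [L2.inner_def]
    apply integral_congr_ae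
    filter_upwards [hu.coeFn_toLp, hv.coeFn_toLp] with ω h1 h2
    rw [h1, h2]
    simp [mul_comm]
  have := Filter.Tendsto.inner (𝕜 := ℝ) hF hG
  simpa only [hin] using this

end main

end Bsv

open MeasureTheory Bsv in
/-- BSV correlation decay on the `d`-regular tree -/
theorem bsv {Lab : Type*} [MeasurableSpace Lab] (lam : Measure Lab) [IsProbabilityMeasure lam]
    {d : ℕ} (hd : 3 ≤ d) (f g : (W d → Lab) → ℝ)
    (hf : MemLp f 2 (Measure.infinitePi fun _ : W d => lam))
    (hg : MemLp g 2 (Measure.infinitePi fun _ : W d => lam))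
    (hf0 : ∫ ω, f ω ∂(Measure.infinitePi fun _ : W d => lam) = 0)
    (hg0 : ∫ ω, g ω ∂(Measure.infinitePi fun _ : W d => lam) = 0)
    (l : ℕ) (S : Finset (W d)) (hS : ∀ w ∈ S, w.len = l) :
    ∑ w ∈ S, |∫ ω, f ω * g (fun u => ω (W.tr w u)) ∂(Measure.infinitePi fun _ : W d => lam)| ≤
      2 * (l + 1) * (Real.sqrt (d - 1)) ^ l *
        Real.sqrt (∫ ω, f ω ^ 2 ∂(Measure.infinitePi fun _ : W d => lam)) *
        Real.sqrt (∫ ω, g ω ^ 2 ∂(Measure.infinitePi fun _ : W d => lam)) := by
  classical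
  have hεn : ∀ n : ℕ, ((n : ENNReal) + 1)⁻¹ ≠ 0 := fun n => by
    apply ENNReal.inv_ne_zero.2
    exact ENNReal.add_ne_top.2 ⟨ENNReal.natCast_ne_top n, ENNReal.one_ne_top⟩
  choose fn hfn1 hfn2 using fun n : ℕ => dense_loc lam hf (hεn n)
  choose gn hgn1 hgn2 using fun n : ℕ => dense_loc lam hg (hεn n)
  have hlim : Filter.Tendsto (fun n : ℕ => ((n : ENNReal) + 1)⁻¹) Filter.atTop (nhds 0) := by
    have h1 : Filter.Tendsto (fun n : ℕ => (((n + 1 : ℕ) : ENNReal))⁻¹) Filter.atTop (nhds 0) :=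
      (ENNReal.tendsto_inv_nat_nhds_zero).comp (Filter.tendsto_add_atTop_nat 1)
    simpa only [Nat.cast_add, Nat.cast_one] using h1
  have t1 : Filter.Tendsto (fun n => eLpNorm (fn n - f) 2 (PP (W d) lam)) Filter.atTop (nhds 0) :=
    tendsto_of_tendsto_of_tendsto_of_le_of_le tendsto_const_nhds hlim (fun _ => bot_le) (fun n => by
      rw [eLpNorm_sub_comm]; exact hfn1 n)
  have t2 : Filter.Tendsto (fun n => eLpNorm (gn n - g) 2 (PP (W d) lam)) Filter.atTop (nhds 0) :=
    tendsto_of_tendsto_of_tendsto_of_le_of_le tendsto_const_nhds hlim (fun _ => bot_le) (fun n => by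
      rw [eLpNorm_sub_comm]; exact hgn1 n)
  have mBM : ∀ {u : (W d → Lab) → ℝ}, BM u → MemLp u 2 (PP (W d) lam) := by
    rintro u ⟨h1, C, hC⟩
    exact MemLp.of_bound h1.aestronglyMeasurable C (Filter.Eventually.of_forall fun x => by
      rw [Real.norm_eq_abs]; exact hC x)
  have mf : ∀ n, MemLp (fn n) 2 (PP (W d) lam) := fun n => mBM (hfn2 n).1
  have mg : ∀ n, MemLp (gn n) 2 (PP (W d) lam) := fun n => mBM (hgn2 n).1
  have m1 : MemLp (fun _ : W d → Lab => (1 : ℝ)) 2 (PP (W d) lam) := memLp_const 1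
  have t0 : Filter.Tendsto (fun n : ℕ => eLpNorm ((fun _ : W d → Lab => (1 : ℝ)) - fun _ => 1) 2 (PP (W d) lam))
      Filter.atTop (nhds 0) := by simp
  have L1 := tendsto_ip hf m1 mf (fun _ => m1) t1 t0
  have L2 := tendsto_ip hg m1 mg (fun _ => m1) t2 t0
  have L3 := tendsto_ip hf hf mf mf t1 t1
  have L4 := tendsto_ip hg hg mg mg t2 t2
  have L5 : ∀ w, Filter.Tendsto (fun n => ∫ ω, fn n ω * gn n (fun u => ω (W.tr w u)) ∂(PP (W d) lam))
      Filter.atTop (nhds (∫ ω, f ω * g (fun u => ω (W.tr w u)) ∂(PP (W d) lam))) := by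
    intro w
    have mp := mp_reindex lam (W.trE w)
    refine tendsto_ip (gn := fun n ω => gn n (fun u => ω (W.tr w u))) hf (hg.comp_measurePreserving mp) mf
      (fun n => (mg n).comp_measurePreserving mp) t1 ?_
    refine t2.congr fun n => ?_
    have := eLpNorm_comp_measurePreserving (p := 2) (((mg n).sub hg).aestronglyMeasurable) mp
    rw [← this]
    rfl
  have key : ∀ n, _ := fun n => bsv_loc' lam hd (hfn2 n).1 (hgn2 n).1 (hfn2 n).2.choose_spec
    (hgn2 n).2.choose_spec l S hS
  have R : Filter.Tendsto (fun n => 2 * ((l : ℝ) + 1) * (Real.sqrt ((d : ℝ) - 1)) ^ l *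
      Real.sqrt (∫ ω, fn n ω * fn n ω ∂(PP (W d) lam)) * Real.sqrt (∫ ω, gn n ω * gn n ω ∂(PP (W d) lam)))
      Filter.atTop (nhds (2 * ((l : ℝ) + 1) * (Real.sqrt ((d : ℝ) - 1)) ^ l *
      Real.sqrt (∫ ω, f ω * f ω ∂(PP (W d) lam)) * Real.sqrt (∫ ω, g ω * g ω ∂(PP (W d) lam)))) :=
    (tendsto_const_nhds.mul ((Real.continuous_sqrt.tendsto _).comp L3)).mul
      ((Real.continuous_sqrt.tendsto _).comp L4)
  have Lf : Filter.Tendsto (fun n => ∑ w ∈ S, |∫ ω, fn n ω * gn n (fun u => ω (W.tr w u)) ∂(PP (W d) lam) -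
        (∫ ω, fn n ω * 1 ∂(PP (W d) lam)) * ∫ ω, gn n ω * 1 ∂(PP (W d) lam)|) Filter.atTop
      (nhds (∑ w ∈ S, |∫ ω, f ω * g (fun u => ω (W.tr w u)) ∂(PP (W d) lam) -
        (∫ ω, f ω * 1 ∂(PP (W d) lam)) * ∫ ω, g ω * 1 ∂(PP (W d) lam)|)) :=
    tendsto_finset_sum _ fun w _ => ((L5 w).sub (L1.mul L2)).abs
  have := le_of_tendsto_of_tendsto' Lf R key
  simp only [mul_one] at this
  rw [hf0, hg0] at this
  simp only [mul_zero, sub_zero] at this
  simpa only [sq] using this

end Crest.Agent.TI
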