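import Crest.Agent.TIGauge

/-!
Row 160 (S0241).  The global flip and the gauge coordinates for configurations, clocks and noise.
-/

set_option autoImplicit false

namespace Crest.Agent.TI.Pair

open MeasureTheory ProbabilityTheory unitInterval Set Filter Topology
open scoped ENNReal

/-! ### flip of configurations and noise -/

section flip

variable {V : Type*}

/-- flip of configuration and noise -/
def flO (p : Om V) : Om V := (fun v => !(p.1 v), fun b => σ (p.2 b))

/-- reflect a label according to a spin -/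
def tw (b : Bool) (t : I) : I := if b then t else σ t

lemma tw_not (b : Bool) (t : I) : tw (!b) t = σ (tw b t) := by
  cases b <;> simp [tw]

lemma ell_tw (b : Bool) (c z : I) : ell c (tw b z) = sg b * ell c z := by
  cases b
  · simp only [tw, sg, Bool.false_eq_true, if_false]
    rw [ell_flip]; ring
  · simp only [tw, sg, if_true]
    ring

lemma QK_tw (b : Bool) (κ : ℝ) (u : I) : QK (κ * sg b) (tw b u) = tw b (QK κ u) := by
  cases b
  · simp only [tw, sg, Bool.false_eq_true, if_false]
    rw [mul_neg_one, QK_flip]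
  · simp only [tw, sg, if_true, mul_one]

lemma Zc_flO (c : Cl V) (p : Om V) : Zc c (flO p) = fun b => σ (Zc c p b) := by
  funext b
  unfold Zc flO
  simp only
  rw [sg_not, mul_neg, QK_flip]

lemma fieldAt_symm (c : Cl V) (z : V × ℕ → I) (k : ℕ) (r : ℝ) :
    fieldAt c (fun b => σ (z b)) k r = - fieldAt c z k r := by
  funext v
  simp only [fieldAt, Pi.neg_apply]
  simp_rw [ell_flip]
  rw [Finset.sum_neg_distrib]
  split_ifs <;> ring

end flip

section words

variable {d : ℕ}

lemma msg_neg (θ : ℝ) (y : W d → ℝ) (n : ℕ) (w : W d) : msg θ (-y) n w = - msg θ y n w := by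
  induction n generalizing w with
  | zero => rfl
  | succ n ih =>
    have e1 : msg θ (-y) (n + 1) w = (-y) w + ∑ i : Fin d, if w.head? = some i then 0
      else phi θ (msg θ (-y) n (W.nb i w)) := rfl
    have e2 : msg θ y (n + 1) w = y w + ∑ i : Fin d, if w.head? = some i then 0
      else phi θ (msg θ y n (W.nb i w)) := rfl
    rw [e1, e2, neg_add, ← Finset.sum_neg_distrib, Pi.neg_apply]
    congr 1
    refine Finset.sum_congr rfl fun i _ => ?_
    split_ifs
    · simp
    · rw [ih, phi_odd]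

lemma mR_neg (θ : ℝ) (y : W d → ℝ) (h : ∃ l, Tendsto (fun n => msg θ y n W.root) atTop (𝓝 l)) :
    mR θ (-y) = - mR θ y := by
  obtain ⟨l, hl⟩ := h
  have h2 : Tendsto (fun n => msg θ (-y) n W.root) atTop (𝓝 (-l)) := by
    simp_rw [msg_neg]
    exact hl.neg
  unfold mR msgI
  rw [hl.limsup_eq, h2.limsup_eq, Real.tanh_neg]

lemma drift_symm (θ : ℝ) (c : Cl (W d)) (z : W d × ℕ → I) (b : W d × ℕ)
    (h : Good θ (fieldAt c z b.2 (c b))) :
    drift θ c (fun b => σ (z b)) b = - drift θ c z b := by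
  unfold drift
  rw [fieldAt_symm]
  have : (-(fieldAt c z b.2 (c b))) ∘ W.tr b.1 = - (fieldAt c z b.2 (c b) ∘ W.tr b.1) := rfl
  rw [this, mR_neg θ _ (h b.1 W.root)]

lemma innov_flO (θ : ℝ) (c : Cl (W d)) (p : Om (W d))
    (h : ∀ b : W d × ℕ, Good θ (fieldAt c (Zc c p) b.2 (c b))) :
    innov θ c (flO p) = fun b => σ (innov θ c p b) := by
  funext b
  unfold innov
  rw [Zc_flO]
  rw [drift_symm θ c _ b (h b), mul_neg, HK_flip]

lemma yF_flO (k : ℕ) (r : ℝ) (c : Cl (W d)) (p : Om (W d)) :
    yF k r c (flO p) = - yF k r c p := by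
  unfold yF
  rw [Zc_flO, fieldAt_symm]

lemma measurable_not : Measurable (fun x : W d → Bool => (fun v => !(x v) : W d → Bool)) := by
  rw [measurable_pi_iff]; intro w
  exact (measurable_of_countable (fun b : Bool => !b)).comp (measurable_pi_apply w)

lemma measurable_symmPi : Measurable (fun u : W d × ℕ → I => (fun b => σ (u b) : W d × ℕ → I)) := by
  rw [measurable_pi_iff]; intro w
  exact unitInterval.measurable_symm.comp (measurable_pi_apply w)

lemma measurable_flO : Measurable (flO (V := W d)) :=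
  (measurable_not.comp measurable_fst).prodMk (measurable_symmPi.comp measurable_snd)

lemma mp_μI_map (f : W d × ℕ → I → I) (hf : ∀ b, MeasurePreserving (f b) volume volume) :
    MeasurePreserving (fun u : W d × ℕ → I => (fun b => f b (u b) : W d × ℕ → I))
      (μI (W d × ℕ)) (μI (W d × ℕ)) := by
  refine ⟨?_, ?_⟩
  · rw [measurable_pi_iff]; intro w
    exact (hf w).measurable.comp (measurable_pi_apply w)
  · have h := Measure.infinitePi_map_pi (μ := fun _ : W d × ℕ => (volume : Measure I))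
      (f := f) (fun b => (hf b).measurable)
    simp only [(hf _).map_eq] at h
    exact h

lemma mp_flO {θ : ℝ} (h1 : θ ≤ 1) :
    MeasurePreserving (flO (V := W d)) ((nu d θ).prod (μI (W d × ℕ)))
      ((nu d θ).prod (μI (W d × ℕ))) := by
  have := isProb_nu d h1
  have e1 : MeasurePreserving (fun x : W d → Bool => (fun v => !(x v) : W d → Bool))
      (nu d θ) (nu d θ) := ⟨measurable_not, nu_flip θ h1⟩
  exact e1.prod (mp_μI_map (fun _ => σ) fun _ => unitInterval.measurePreserving_symm)

/-- flip -/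
def flA (q : Cl (W d) × Om (W d)) : Cl (W d) × Om (W d) := (q.1, flO q.2)

lemma mp_flA {θ : ℝ} (h1 : θ ≤ 1) :
    MeasurePreserving (flA (d := d)) (Pt (nu d θ)) (Pt (nu d θ)) := by
  have := isProb_nu d h1
  exact (MeasurePreserving.id (μI (W d × ℕ))).prod (mp_flO h1)

/-- flip of clocks and innovations -/
def flB : (Cl (W d) × (W d × ℕ → I)) ≃ᵐ (Cl (W d) × (W d × ℕ → I)) where
  toFun q := (q.1, fun b => σ (q.2 b))
  invFun q := (q.1, fun b => σ (q.2 b))
  left_inv q := by simp
  right_inv q := by simp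
  measurable_toFun := measurable_fst.prodMk (measurable_symmPi.comp measurable_snd)
  measurable_invFun := measurable_fst.prodMk (measurable_symmPi.comp measurable_snd)

lemma WWm_flA {θ : ℝ} (h1 : θ ≤ 1)
    (hGood : ∀ (c : Cl (W d)) (k : ℕ) (r : ℝ), ∀ᵐ p ∂((nu d θ).prod (μI (W d × ℕ))),
      Good θ (fieldAt c (Zc c p) k r)) :
    ∀ᵐ q ∂(Pt (nu d θ)), WWm θ (flA q) = flB (WWm θ q) := by
  have i1 := isProb_nu d h1
  have m1 : Measurable (fun q : Cl (W d) × Om (W d) => WWm θ (flA q)) :=
    (measurable_WWm θ).comp (mp_flA h1).measurable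
  have m2 : Measurable (fun q : Cl (W d) × Om (W d) => flB (WWm θ q)) :=
    flB.measurable.comp (measurable_WWm θ)
  have hms : MeasurableSet {q : Cl (W d) × Om (W d) | WWm θ (flA q) = flB (WWm θ q)} :=
    measurableSet_eq_fun m1 m2
  rw [ae_iff]
  unfold Pt
  have hms' : MeasurableSet {a : Cl (W d) × Om (W d) | ¬ WWm θ (flA a) = flB (WWm θ a)} := hms.compl
  rw [Measure.measure_prod_null hms']
  refine Filter.Eventually.of_forall fun c => ?_
  have h2 : ∀ᵐ p ∂((nu d θ).prod (μI (W d × ℕ))), ∀ b : W d × ℕ,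
      Good θ (fieldAt c (Zc c p) b.2 (c b)) := ae_all_iff.2 fun b => hGood c b.2 (c b)
  have h3 : ∀ᵐ p ∂((nu d θ).prod (μI (W d × ℕ))), WWm θ (flA (c, p)) = flB (WWm θ (c, p)) := by
    filter_upwards [h2] with p hp
    exact Prod.ext rfl (innov_flO θ c p hp)
  rw [ae_iff] at h3
  exact h3

/-! ### gauge coordinates -/

/-- labels at a site -/
abbrev Lab (d : ℕ) := (Fin d → Bool) × ((ℕ → I) × (ℕ → I))

/-- law of the labels at a site -/
noncomputable def labLaw (d : ℕ) (θ : ℝ) : Measure (Lab d) :=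
  (Measure.infinitePi fun _ : Fin d => signLaw (Real.sqrt θ)).prod ((μI ℕ).prod (μI ℕ))

lemma isProb_labLaw (d : ℕ) {θ : ℝ} (h1 : θ ≤ 1) : IsProbabilityMeasure (labLaw d θ) := by
  have := isProb_signSqrt h1
  unfold labLaw; infer_instance

/-- uncurry -/
def unc {X κ : Type*} (ω : W d → κ → X) (b : W d × κ) : X := ω b.1 b.2

lemma measurable_unc {X κ : Type*} [MeasurableSpace X] :
    Measurable (unc (d := d) (X := X) (κ := κ)) := by
  rw [measurable_pi_iff]; intro b
  exact (measurable_pi_apply b.2).comp (measurable_pi_apply b.1)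

lemma mp_unc {X κ : Type*} [MeasurableSpace X] (lam : Measure X) [IsProbabilityMeasure lam] :
    MeasurePreserving (unc (d := d) (X := X) (κ := κ))
      (Measure.infinitePi fun _ : W d => Measure.infinitePi fun _ : κ => lam)
      (Measure.infinitePi fun _ : W d × κ => lam) :=
  ⟨measurable_unc, Measure.infinitePi_map_curry_symm (ι := W d) (κ := κ) (fun _ _ => lam)⟩

/-- clocks and noise from pairs of sequences at the sites -/
def unz (ω : W d → (ℕ → I) × (ℕ → I)) : Cl (W d) × (W d × ℕ → I) :=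
  (unc (fun v => (ω v).1), unc (fun v => (ω v).2))

lemma mp_unz : MeasurePreserving (unz (d := d))
    (Measure.infinitePi fun _ : W d => (μI ℕ).prod (μI ℕ))
    ((μI (W d × ℕ)).prod (μI (W d × ℕ))) := by
  have h1 : MeasurePreserving (fun (ω : W d → (ℕ → I) × (ℕ → I)) =>
      ((fun i => (ω i).1 : W d → ℕ → I), (fun i => (ω i).2 : W d → ℕ → I)))
      (Measure.infinitePi fun _ : W d => (μI ℕ).prod (μI ℕ))
      ((Measure.infinitePi fun _ : W d => μI ℕ).prod (Measure.infinitePi fun _ : W d => μI ℕ)) :=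
    ⟨measurable_unzip, map_unzip (μI ℕ) (μI ℕ)⟩
  have h2 : MeasurePreserving (unc (d := d) (X := I) (κ := ℕ))
      (Measure.infinitePi fun _ : W d => μI ℕ) (μI (W d × ℕ)) := mp_unc volume
  exact (h2.prod h2).comp h1

/-- half edge signs, clocks and noise from the labels -/
def unl (ω : W d → Lab d) : (W d × Fin d → Bool) × (Cl (W d) × (W d × ℕ → I)) :=
  (unc (fun v => (ω v).1), unz (fun v => (ω v).2))

lemma mp_unl {θ : ℝ} (h1 : θ ≤ 1) : MeasurePreserving (unl (d := d))
    (Measure.infinitePi fun _ : W d => labLaw d θ)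
    ((epsLaw d θ).prod ((μI (W d × ℕ)).prod (μI (W d × ℕ)))) := by
  have i1 := isProb_signSqrt h1
  have i2 := isProb_epsLaw d h1
  have e1 : MeasurePreserving (fun (ω : W d → Lab d) =>
      ((fun i => (ω i).1 : W d → Fin d → Bool), (fun i => (ω i).2 : W d → (ℕ → I) × (ℕ → I))))
      (Measure.infinitePi fun _ : W d => labLaw d θ)
      ((Measure.infinitePi fun _ : W d => Measure.infinitePi fun _ : Fin d =>
        signLaw (Real.sqrt θ)).prod (Measure.infinitePi fun _ : W d => (μI ℕ).prod (μI ℕ))) :=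
    ⟨measurable_unzip, map_unzip _ _⟩
  have e2 : MeasurePreserving (unc (d := d) (X := Bool) (κ := Fin d))
      (Measure.infinitePi fun _ : W d => Measure.infinitePi fun _ : Fin d =>
        signLaw (Real.sqrt θ)) (epsLaw d θ) := mp_unc (signLaw (Real.sqrt θ))
  exact (e2.prod mp_unz).comp e1

/-- configuration, clocks and (twisted) noise -/
def tws (a : (W d → Bool) × (Cl (W d) × (W d × ℕ → I))) : Cl (W d) × Om (W d) :=
  (a.2.1, (a.1, fun b => tw (a.1 b.1) (a.2.2 b)))

lemma mp_tw (b : Bool) : MeasurePreserving (tw b) (volume : Measure I) volume := by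
  cases b
  · exact unitInterval.measurePreserving_symm
  · exact MeasurePreserving.id _

lemma measurable_tw {T : Type*} [MeasurableSpace T] {f : T → Bool} {g : T → I} (hf : Measurable f)
    (hg : Measurable g) : Measurable (fun t => tw (f t) (g t)) := by
  unfold tw
  exact Measurable.ite (hf (measurableSet_singleton true)) hg
    (unitInterval.measurable_symm.comp hg)

lemma mp_tws {θ : ℝ} (h1 : θ ≤ 1) : MeasurePreserving (tws (d := d))
    ((nu d θ).prod ((μI (W d × ℕ)).prod (μI (W d × ℕ)))) (Pt (nu d θ)) := by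
  have i1 := isProb_nu d h1
  -- swap to `(clock, (x, noise))`
  have a1 : MeasurePreserving (MeasurableEquiv.prodAssoc.symm :
      (W d → Bool) × (Cl (W d) × (W d × ℕ → I)) ≃ᵐ ((W d → Bool) × Cl (W d)) × (W d × ℕ → I))
      ((nu d θ).prod ((μI (W d × ℕ)).prod (μI (W d × ℕ))))
      (((nu d θ).prod (μI (W d × ℕ))).prod (μI (W d × ℕ))) :=
    (measurePreserving_prodAssoc _ _ _).symm
  have a2 : MeasurePreserving (Prod.map Prod.swap id :
      ((W d → Bool) × Cl (W d)) × (W d × ℕ → I) → (Cl (W d) × (W d → Bool)) × (W d × ℕ → I))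
      (((nu d θ).prod (μI (W d × ℕ))).prod (μI (W d × ℕ)))
      (((μI (W d × ℕ)).prod (nu d θ)).prod (μI (W d × ℕ))) :=
    Measure.measurePreserving_swap.prod (MeasurePreserving.id _)
  have a3 : MeasurePreserving (MeasurableEquiv.prodAssoc :
      (Cl (W d) × (W d → Bool)) × (W d × ℕ → I) ≃ᵐ Cl (W d) × ((W d → Bool) × (W d × ℕ → I)))
      (((μI (W d × ℕ)).prod (nu d θ)).prod (μI (W d × ℕ)))
      ((μI (W d × ℕ)).prod ((nu d θ).prod (μI (W d × ℕ)))) :=
    measurePreserving_prodAssoc _ _ _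
  have a4 : MeasurePreserving (fun p : (W d → Bool) × (W d × ℕ → I) =>
      (p.1, fun b => tw (p.1 b.1) (p.2 b)))
      ((nu d θ).prod (μI (W d × ℕ))) ((nu d θ).prod (μI (W d × ℕ))) := by
    refine (MeasurePreserving.id (nu d θ)).skew_product (μc := μI (W d × ℕ))
      (μd := μI (W d × ℕ))
      (g := fun (x : W d → Bool) (u : W d × ℕ → I) => fun b => tw (x b.1) (u b)) ?_ ?_
    · rw [measurable_pi_iff]; intro b
      exact measurable_tw ((measurable_pi_apply b.1).comp measurable_fst)
        ((measurable_pi_apply b).comp measurable_snd)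
    · exact Filter.Eventually.of_forall fun x => (mp_μI_map (fun b => tw (x b.1))
        fun b => mp_tw _).map_eq
  exact ((MeasurePreserving.id (μI (W d × ℕ))).prod a4).comp (a3.comp (a2.comp a1))

/-- the gauge map -/
def Psi (q : Bool × (W d → Lab d)) : Cl (W d) × Om (W d) :=
  tws (sp q.1 (unl q.2).1, (unl q.2).2)

lemma mp_Psi {θ : ℝ} (h1 : θ ≤ 1) : MeasurePreserving (Psi (d := d))
    ((signLaw 0).prod (Measure.infinitePi fun _ : W d => labLaw d θ)) (Pt (nu d θ)) := by
  have i0 := isProb_nu d h1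
  have i1 := isProb_epsLaw d h1
  have i2 := isProb_labLaw d h1
  have b1 : MeasurePreserving (Prod.map id (unl (d := d)))
      ((signLaw 0).prod (Measure.infinitePi fun _ : W d => labLaw d θ))
      ((signLaw 0).prod ((epsLaw d θ).prod ((μI (W d × ℕ)).prod (μI (W d × ℕ))))) :=
    (MeasurePreserving.id _).prod (mp_unl h1)
  have b2 : MeasurePreserving (MeasurableEquiv.prodAssoc.symm :
      Bool × ((W d × Fin d → Bool) × (Cl (W d) × (W d × ℕ → I))) ≃ᵐ
      (Bool × (W d × Fin d → Bool)) × (Cl (W d) × (W d × ℕ → I)))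
      ((signLaw 0).prod ((epsLaw d θ).prod ((μI (W d × ℕ)).prod (μI (W d × ℕ)))))
      (((signLaw 0).prod (epsLaw d θ)).prod ((μI (W d × ℕ)).prod (μI (W d × ℕ)))) :=
    (measurePreserving_prodAssoc _ _ _).symm
  have b3 : MeasurePreserving (Prod.map (fun q : Bool × (W d × Fin d → Bool) => sp q.1 q.2) id :
      (Bool × (W d × Fin d → Bool)) × (Cl (W d) × (W d × ℕ → I)) →
      (W d → Bool) × (Cl (W d) × (W d × ℕ → I)))
      (((signLaw 0).prod (epsLaw d θ)).prod ((μI (W d × ℕ)).prod (μI (W d × ℕ))))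
      ((nu d θ).prod ((μI (W d × ℕ)).prod (μI (W d × ℕ)))) :=
    MeasurePreserving.prod ⟨measurable_sp, nu_def d θ |>.symm⟩ (MeasurePreserving.id _)
  exact (mp_tws h1).comp (b3.comp (b2.comp b1))

lemma Psi_not (s : Bool) (ω : W d → Lab d) : Psi (!s, ω) = flA (Psi (s, ω)) := by
  unfold Psi tws flA flO
  refine Prod.ext rfl (Prod.ext ?_ ?_)
  · funext v
    exact sp_not s _ v
  · funext b
    simp only
    rw [sp_not, tw_not]

lemma Psi_tr (w : W d) (s : Bool) (ω : W d → Lab d) :
    trA w (Psi (s, ω)) = Psi (sp s (unl ω).1 w, fun v => ω (W.tr w v)) := by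
  have key : (sp s (unl ω).1) ∘ W.tr w =
      sp (sp s (unl ω).1 w) (unl (fun v => ω (W.tr w v))).1 := by
    funext w'
    exact sp_tr s (unl ω).1 w w'
  unfold Psi tws trA
  refine Prod.ext rfl (Prod.ext key ?_)
  funext b
  simp only [Function.comp_apply]
  rw [← key]
  rfl

/-! ### the law of the field -/

lemma yF_tws (k : ℕ) (r : ℝ) (x : W d → Bool) (ω : W d → (ℕ → I) × (ℕ → I)) (v : W d) :
    yF k r (tws (x, unz ω)).1 (tws (x, unz ω)).2 v = sg (x v) * locY k r (ω v) := by
  have hZ : ∀ j, Zc (tws (x, unz ω)).1 (tws (x, unz ω)).2 (v, j) =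
      tw (x v) (QK (amp ((ω v).1 j)) ((ω v).2 j)) := fun j => by
    unfold Zc
    exact QK_tw (x v) (amp ((ω v).1 j)) ((ω v).2 j)
  unfold yF fieldAt
  simp only [hZ]
  unfold locY
  simp only [ell_tw]
  have hc : ∀ j, (tws (x, unz ω)).1 (v, j) = (ω v).1 j := fun j => rfl
  simp only [hc]
  rw [mul_add, Finset.mul_sum]
  split_ifs
  · rfl
  · simp

theorem law_yF {θ : ℝ} (h1 : θ ≤ 1) (k : ℕ) (r : ℝ) :
    (Pt (nu d θ)).map (fun q => yF k r q.1 q.2) = fieldLaw d θ (muY k r) := by
  have i0 := isProb_nu d h1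
  have c1 : MeasurePreserving (Prod.map id (unz (d := d)) :
      (W d → Bool) × (W d → (ℕ → I) × (ℕ → I)) → (W d → Bool) × (Cl (W d) × (W d × ℕ → I)))
      ((nu d θ).prod (Measure.infinitePi fun _ : W d => (μI ℕ).prod (μI ℕ)))
      ((nu d θ).prod ((μI (W d × ℕ)).prod (μI (W d × ℕ)))) :=
    (MeasurePreserving.id _).prod mp_unz
  have c2 := (mp_tws h1).comp c1
  rw [← c2.map_eq, Measure.map_map (measurable_yF k r) c2.measurable]
  have hl : MeasurePreserving (fun (ω : W d → (ℕ → I) × (ℕ → I)) v => locY k r (ω v))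
      (Measure.infinitePi fun _ : W d => (μI ℕ).prod (μI ℕ))
      (Measure.infinitePi fun _ : W d => muY k r) := by
    refine ⟨?_, ?_⟩
    · rw [measurable_pi_iff]; intro v
      exact (measurable_locY k r).comp (measurable_pi_apply v)
    · exact Measure.infinitePi_map_pi (μ := fun _ : W d => (μI ℕ).prod (μI ℕ))
        (f := fun _ => locY k r) (fun _ => measurable_locY k r)
  have c3 : MeasurePreserving (Prod.map id (fun (ω : W d → (ℕ → I) × (ℕ → I)) v => locY k r (ω v)) :
      (W d → Bool) × (W d → (ℕ → I) × (ℕ → I)) → (W d → Bool) × (W d → ℝ))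
      ((nu d θ).prod (Measure.infinitePi fun _ : W d => (μI ℕ).prod (μI ℕ)))
      ((nu d θ).prod (Measure.infinitePi fun _ : W d => muY k r)) :=
    (MeasurePreserving.id _).prod hl
  unfold fieldLaw
  have hm : Measurable (fun (q : (W d → Bool) × (W d → ℝ)) (v : W d) => sg (q.1 v) * q.2 v) := by
    rw [measurable_pi_iff]; intro v
    exact (measurable_sg.comp ((measurable_pi_apply v).comp measurable_fst)).mul
      ((measurable_pi_apply v).comp measurable_snd)
  rw [← c3.map_eq, Measure.map_map hm c3.measurable]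
  congr 1
  funext q
  funext v
  exact yF_tws k r q.1 q.2 v

end words

end Crest.Agent.TI.Pair
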