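import Crest.Agent.TIPairG
import Crest.Agent.TIPairB
import Crest.Agent.TIBsv

/-!
Row 160 (S0241), piece (P6).  The two fields form a `PairLaw`.
-/

set_option autoImplicit false

namespace Crest.Agent.TI.Pair

open MeasureTheory ProbabilityTheory unitInterval Set Filter Topology
open scoped ENNReal

variable {d : ℕ}

/-- both fields -/
noncomputable def yy (k : ℕ) (r : ℝ)
    (a : (Cl (W d) × (W d × ℕ → I)) × (Om (W d) × Om (W d))) : (W d → ℝ) × (W d → ℝ) :=
  (yF k r a.1.1 a.2.1, yF k r a.1.1 a.2.2)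

lemma meas_yF {T : Type*} [MeasurableSpace T] {f : T → Cl (W d)} {g : T → Om (W d)} (k : ℕ) (r : ℝ)
    (hf : Measurable f) (hg : Measurable g) : Measurable (fun t => yF k r (f t) (g t)) := by
  have h := (measurable_yF (d := d) k r).comp (hf.prodMk hg)
  simp only [Function.comp_def] at h
  exact h

lemma measurable_yy (k : ℕ) (r : ℝ) : Measurable (yy (d := d) k r) := by
  have m0 : Measurable (fun a : (Cl (W d) × (W d × ℕ → I)) × (Om (W d) × Om (W d)) => a.1.1) :=
    measurable_fst.comp measurable_fst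
  have m1 : Measurable (fun a : (Cl (W d) × (W d × ℕ → I)) × (Om (W d) × Om (W d)) => a.2.1) :=
    measurable_fst.comp measurable_snd
  have m2 : Measurable (fun a : (Cl (W d) × (W d × ℕ → I)) × (Om (W d) × Om (W d)) => a.2.2) :=
    measurable_snd.comp measurable_snd
  exact (meas_yF k r m0 m1).prodMk (meas_yF k r m0 m2)

/-- functional of the field, as a function of clocks, innovations and configuration -/
noncomputable def FF (k : ℕ) (r : ℝ) (G : (W d → ℝ) → ℝ)
    (q : (Cl (W d) × (W d × ℕ → I)) × Om (W d)) : ℝ := G (yF k r q.1.1 q.2)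

lemma measurable_FF (k : ℕ) (r : ℝ) {G : (W d → ℝ) → ℝ} (hG : Measurable G) :
    Measurable (FF (d := d) k r G) := by
  have m0 : Measurable (fun a : (Cl (W d) × (W d × ℕ → I)) × Om (W d) => a.1.1) :=
    measurable_fst.comp measurable_fst
  have m1 : Measurable (fun a : (Cl (W d) × (W d × ℕ → I)) × Om (W d) => a.2) := measurable_snd
  exact hG.comp (meas_yF k r m0 m1)

section

variable {θ : ℝ} (h1 : θ ≤ 1)

lemma pairM_eq [IsFiniteMeasure (Pt (nu d θ))] :
    pairM θ (nu d θ) = prM (Pt (nu d θ)) Prod.snd (WWm θ) := rfl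

/-- functional minus conditional mean -/
noncomputable def DD (θ : ℝ) [IsFiniteMeasure (Pt (nu d θ))] (k : ℕ) (r : ℝ)
    (G : (W d → ℝ) → ℝ) (q : Cl (W d) × Om (W d)) : ℝ :=
  FF k r G (WWm θ q, q.2) - bar (Pt (nu d θ)) Prod.snd (WWm θ) (FF k r G) (WWm θ q)

include h1 in
lemma measurable_DD [IsFiniteMeasure (Pt (nu d θ))] (k : ℕ) (r : ℝ) {G : (W d → ℝ) → ℝ}
    (hG : Measurable G) : Measurable (DD θ k r G) := by
  have i1 := isProb_Pt (d := d) h1
  have m1 : Measurable (fun q : Cl (W d) × Om (W d) => (WWm θ q, q.2)) :=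
    (measurable_WWm θ).prodMk measurable_snd
  exact ((measurable_FF k r hG).comp m1).sub
    ((measurable_bar _ _ _ (measurable_FF k r hG)).comp (measurable_WWm θ))

include h1 in
lemma DD_bdd [IsFiniteMeasure (Pt (nu d θ))] (k : ℕ) (r : ℝ) {G : (W d → ℝ) → ℝ} {C : ℝ}
    (hG : ∀ y, |G y| ≤ C) (q : Cl (W d) × Om (W d)) : |DD θ k r G q| ≤ 2 * C := by
  have i1 := isProb_Pt (d := d) h1
  unfold DD
  refine (abs_sub _ _).trans ?_
  have e1 : |FF k r G (WWm θ q, q.2)| ≤ C := hG _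
  have e2 := bar_bdd (Pt (nu d θ)) Prod.snd (WWm θ) (F := FF k r G) (C := C) (fun _ => hG _)
    (WWm θ q)
  linarith

include h1 in
lemma integral_rhoP [IsFiniteMeasure (Pt (nu d θ))] (k : ℕ) (r : ℝ) {G₁ G₂ : (W d → ℝ) → ℝ}
    (hG₁ : Measurable G₁) (hG₂ : Measurable G₂)
    (hb₁ : ∃ C, ∀ y, |G₁ y| ≤ C) (hb₂ : ∃ C, ∀ y, |G₂ y| ≤ C) :
    ∫ q, (G₁ q.1 - G₁ q.2) * (G₂ q.1 - G₂ q.2) ∂(rhoP θ (nu d θ) k r) =
      2 * ∫ q, DD θ k r G₁ q * DD θ k r G₂ q ∂(Pt (nu d θ)) := by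
  have i1 := isProb_Pt (d := d) h1
  obtain ⟨C₁, hC₁⟩ := hb₁
  obtain ⟨C₂, hC₂⟩ := hb₂
  have hm : Measurable (fun q : (W d → ℝ) × (W d → ℝ) => (G₁ q.1 - G₁ q.2) * (G₂ q.1 - G₂ q.2)) :=
    ((hG₁.comp measurable_fst).sub (hG₁.comp measurable_snd)).mul
      ((hG₂.comp measurable_fst).sub (hG₂.comp measurable_snd))
  have h := integral_diff (Pt (nu d θ)) Prod.snd (WWm θ) measurable_snd (measurable_WWm θ)
    (measurable_FF k r hG₁) (measurable_FF k r hG₂) ⟨C₁, fun _ => hC₁ _⟩ ⟨C₂, fun _ => hC₂ _⟩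
  have h2 : rhoP θ (nu d θ) k r = (prM (Pt (nu d θ)) Prod.snd (WWm θ)).map (yy k r) := rfl
  rw [h2, integral_map (measurable_yy k r).aemeasurable hm.aestronglyMeasurable]
  exact h

include h1 in
lemma integral_DD [IsFiniteMeasure (Pt (nu d θ))] (k : ℕ) (r : ℝ) {G : (W d → ℝ) → ℝ}
    (hG : Measurable G) (hb : ∃ C, ∀ y, |G y| ≤ C) :
    ∫ q, DD θ k r G q ∂(Pt (nu d θ)) = 0 := by
  have i1 := isProb_Pt (d := d) h1
  obtain ⟨C, hC⟩ := hb
  have h := integral_bar (Pt (nu d θ)) Prod.snd (WWm θ) measurable_snd (measurable_WWm θ)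
    (H := fun _ => (1 : ℝ)) (F := FF k r G) measurable_const (measurable_FF k r hG)
    ⟨1, fun _ => by simp⟩ ⟨C, fun _ => hC _⟩
  simp only [one_mul] at h
  have m1 : Measurable (fun q : Cl (W d) × Om (W d) => (WWm θ q, q.2)) :=
    (measurable_WWm θ).prodMk measurable_snd
  have j1 : Integrable (fun q => FF k r G (WWm θ q, q.2)) (Pt (nu d θ)) :=
    Integrable.of_bound ((measurable_FF k r hG).comp m1).aestronglyMeasurable C
      (Filter.Eventually.of_forall fun q => hC _)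
  have j2 : Integrable (fun q => bar (Pt (nu d θ)) Prod.snd (WWm θ) (FF k r G) (WWm θ q))
      (Pt (nu d θ)) :=
    Integrable.of_bound ((measurable_bar _ _ _ (measurable_FF k r hG)).comp
      (measurable_WWm θ)).aestronglyMeasurable C
      (Filter.Eventually.of_forall fun q => bar_bdd _ _ _ (fun _ => hC _) _)
  unfold DD
  rw [integral_sub j1 j2, h, sub_self]

include h1 in
/-- translation of the centred functional -/
lemma DD_tr [IsFiniteMeasure (Pt (nu d θ))] (k : ℕ) (r : ℝ) {G : (W d → ℝ) → ℝ}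
    (hG : Measurable G) (w : W d) :
    ∀ᵐ q ∂(Pt (nu d θ)), DD θ k r (fun y => G (y ∘ W.tr w)) q = DD θ k r G (trA w q) := by
  have i1 := isProb_Pt (d := d) h1
  have h := bar_sym (Pt (nu d θ)) Prod.snd (WWm θ) (trA w) (trB w) (trO w) measurable_snd
    (measurable_WWm θ) (mp_trA h1 w) (measurable_trO w)
    (Filter.Eventually.of_forall fun q => WWm_trA θ w q)
    (Filter.Eventually.of_forall fun q => rfl) (measurable_FF k r hG)
  filter_upwards [h] with q hq
  unfold DD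
  rw [hq]
  rfl

include h1 in
/-- flip of the centred functional -/
lemma DD_fl [IsFiniteMeasure (Pt (nu d θ))] (k : ℕ) (r : ℝ)
    (hGood : ∀ (c : Cl (W d)) (k : ℕ) (r : ℝ), ∀ᵐ p ∂((nu d θ).prod (μI (W d × ℕ))),
      Good θ (fieldAt c (Zc c p) k r))
    {G : (W d → ℝ) → ℝ} (hG : Measurable G)
    (he : ∀ᵐ y ∂(fieldLaw d θ (muY k r)), G (-y) = G y) :
    ∀ᵐ q ∂(Pt (nu d θ)), DD θ k r G (flA q) = DD θ k r G q := by
  have i1 := isProb_Pt (d := d) h1
  have hfl := WWm_flA h1 hGood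
  have h := bar_sym (Pt (nu d θ)) Prod.snd (WWm θ) flA flB flO measurable_snd
    (measurable_WWm θ) (mp_flA h1) measurable_flO hfl
    (Filter.Eventually.of_forall fun q => rfl) (measurable_FF k r hG)
  rw [← law_yF h1 k r] at he
  have he' := ae_of_ae_map (measurable_yF k r).aemeasurable he
  have hGn : Measurable (fun y : W d → ℝ => G (-y)) := hG.comp measurable_neg
  have hFe : (fun q : (Cl (W d) × (W d × ℕ → I)) × Om (W d) => FF k r G (flB q.1, flO q.2)) =
      FF k r (fun y => G (-y)) := by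
    funext q
    unfold FF
    have : (flB q.1).1 = q.1.1 := rfl
    rw [this, yF_flO]
  have h3 : ∀ᵐ q ∂(Pt (nu d θ)), FF k r (fun y => G (-y)) (WWm θ q, q.2) =
      FF k r G (WWm θ q, q.2) := by
    filter_upwards [he'] with q hq
    exact hq
  have h2 := bar_congr (Pt (nu d θ)) Prod.snd (WWm θ) measurable_snd (measurable_WWm θ)
    h3 (measurable_FF k r hGn) (measurable_FF k r hG)
  filter_upwards [h, h2, h3, hfl] with q hq1 hq2 hq3 hq4
  unfold DD
  rw [hq1, hFe, hq2]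
  congr 1
  rw [← hq3]
  unfold FF
  have e1 : (WWm θ (flA q)).1 = q.1 := rfl
  have e2 : (WWm θ q).1 = q.1 := rfl
  have e3 : (flA q).2 = flO q.2 := rfl
  simp only [e1, e2, e3]
  rw [yF_flO]

/-- almost sure statements for the fair sign -/
lemma ae_signLaw {Q : Bool → Prop} (h : ∀ᵐ s ∂(signLaw 0), Q s) (s : Bool) : Q s := by
  rw [ae_iff] at h
  by_contra hs
  have h2 : signLaw 0 {s} = 0 :=
    measure_mono_null (Set.singleton_subset_iff.2 hs) h
  have h3 : signLaw 0 {s} ≠ 0 := by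
    unfold signLaw
    cases s <;> simp
  exact h3 h2

include h1 in
/-- the centred functional as a function of the labels only -/
lemma DD_Psi [IsFiniteMeasure (Pt (nu d θ))] (k : ℕ) (r : ℝ)
    (hGood : ∀ (c : Cl (W d)) (k : ℕ) (r : ℝ), ∀ᵐ p ∂((nu d θ).prod (μI (W d × ℕ))),
      Good θ (fieldAt c (Zc c p) k r))
    {G : (W d → ℝ) → ℝ} (hG : Measurable G)
    (he : ∀ᵐ y ∂(fieldLaw d θ (muY k r)), G (-y) = G y) :
    ∀ᵐ ω ∂(Measure.infinitePi fun _ : W d => labLaw d θ), ∀ s,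
      DD θ k r G (Psi (s, ω)) = DD θ k r G (Psi (true, ω)) := by
  have i2 := isProb_labLaw d h1
  have h := DD_fl h1 k r hGood hG he
  rw [← (mp_Psi h1).map_eq] at h
  have h2 := ae_of_ae_map (mp_Psi h1).measurable.aemeasurable h
  have h3 := Measure.ae_ae_of_ae_prod h2
  have h4 := ae_signLaw h3 true
  filter_upwards [h4] with ω hω s
  cases s
  · rw [← hω, ← Psi_not]
    rfl
  · rfl

end

/-- (P6): the pair of fields at a given time is a `PairLaw` -/
theorem pairLaw (hd : 3 ≤ d) {θ : ℝ} (h1 : θ ≤ 1) [IsFiniteMeasure (Pt (nu d θ))] (k : ℕ) (r : ℝ)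
    (hGood : ∀ (c : Cl (W d)) (k : ℕ) (r : ℝ), ∀ᵐ p ∂((nu d θ).prod (μI (W d × ℕ))),
      Good θ (fieldAt c (Zc c p) k r)) :
    PairLaw θ (muY k r) (rhoP θ (nu d θ) k r) := by
  have i1 := isProb_Pt (d := d) h1
  have i2 := isProb_prM (Pt (nu d θ)) Prod.snd (WWm θ) (measurable_WWm θ)
  have i3 := isProb_labLaw d h1
  have hρ : rhoP θ (nu d θ) k r = (prM (Pt (nu d θ)) Prod.snd (WWm θ)).map (yy k r) := rfl
  have hP : IsProbabilityMeasure (rhoP θ (nu d θ) k r) := by
    rw [hρ]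
    exact Measure.isProbabilityMeasure_map (measurable_yy k r).aemeasurable
  have mF : Measurable (fun q : (Cl (W d) × (W d × ℕ → I)) × Om (W d) => yF k r q.1.1 q.2) :=
    meas_yF k r (measurable_fst.comp measurable_fst) measurable_snd
  have mWX : Measurable (fun q : Cl (W d) × Om (W d) => (WWm θ q, q.2)) :=
    (measurable_WWm θ).prodMk measurable_snd
  have p1 : Measurable (fun a : (Cl (W d) × (W d × ℕ → I)) × (Om (W d) × Om (W d)) =>
      (a.1, a.2.1)) := measurable_fst.prodMk (measurable_fst.comp measurable_snd)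
  have p2 : Measurable (fun a : (Cl (W d) × (W d × ℕ → I)) × (Om (W d) × Om (W d)) =>
      (a.1, a.2.2)) := measurable_fst.prodMk (measurable_snd.comp measurable_snd)
  refine ⟨hP, ?_, ?_, ?_, ?_⟩
  · rw [hρ, Measure.map_map measurable_fst (measurable_yy k r)]
    have e := map_prM_fst (Pt (nu d θ)) Prod.snd (WWm θ) measurable_snd
    have e2 := congrArg (fun μ => μ.map (fun q : (Cl (W d) × (W d × ℕ → I)) × Om (W d) =>
      yF k r q.1.1 q.2)) e
    beta_reduce at e2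
    rw [Measure.map_map mF p1, Measure.map_map mF mWX] at e2
    rw [← law_yF h1 k r]
    exact e2
  · rw [hρ, Measure.map_map measurable_snd (measurable_yy k r)]
    have e := map_prM_snd (Pt (nu d θ)) Prod.snd (WWm θ) measurable_snd
    have e2 := congrArg (fun μ => μ.map (fun q : (Cl (W d) × (W d × ℕ → I)) × Om (W d) =>
      yF k r q.1.1 q.2)) e
    beta_reduce at e2
    rw [Measure.map_map mF p2, Measure.map_map mF mWX] at e2
    rw [← law_yF h1 k r]
    exact e2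
  · intro v
    have mt : Measurable (fun q : (W d → ℝ) × (W d → ℝ) => (q.1 ∘ W.tr v, q.2 ∘ W.tr v)) :=
      ((measurable_comp_tr v).comp measurable_fst).prodMk
        ((measurable_comp_tr v).comp measurable_snd)
    have m1 : Measurable (fun a : (Cl (W d) × (W d × ℕ → I)) × (Om (W d) × Om (W d)) =>
        (trB v a.1, (trO v a.2.1, trO v a.2.2))) :=
      ((trB v).measurable.comp measurable_fst).prodMk
        (((measurable_trO v).comp (measurable_fst.comp measurable_snd)).prodMk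
          ((measurable_trO v).comp (measurable_snd.comp measurable_snd)))
    have e := prM_sym (Pt (nu d θ)) Prod.snd (WWm θ) (trA v) (trB v) (trO v) measurable_snd
      (measurable_WWm θ) (mp_trA h1 v) (measurable_trO v)
      (Filter.Eventually.of_forall fun q => WWm_trA θ v q)
      (Filter.Eventually.of_forall fun q => rfl)
    rw [hρ, Measure.map_map mt (measurable_yy k r)]
    conv_rhs => rw [← e]
    rw [Measure.map_map (measurable_yy k r) m1]
    rfl
  · intro G₁ G₂ hG₁ hG₂ hb₁ hb₂ he₁ he₂ l S hS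
    set Λ := Measure.infinitePi fun _ : W d => labLaw d θ with hΛ
    set f₁ : (W d → Lab d) → ℝ := fun ω => DD θ k r G₁ (Psi (true, ω)) with hf₁
    set f₂ : (W d → Lab d) → ℝ := fun ω => DD θ k r G₂ (Psi (true, ω)) with hf₂
    have mPt : Measurable (fun ω : W d → Lab d => Psi (true, ω)) :=
      (mp_Psi h1).measurable.comp (measurable_const.prodMk measurable_id)
    have mf₁ : Measurable f₁ := (measurable_DD h1 k r hG₁).comp mPt
    have mf₂ : Measurable f₂ := (measurable_DD h1 k r hG₂).comp mPt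
    have hae₁ := DD_Psi h1 k r hGood hG₁ he₁
    have hae₂ := DD_Psi h1 k r hGood hG₂ he₂
    -- integrals under the gauge map
    have hint : ∀ D : Cl (W d) × Om (W d) → ℝ, Measurable D →
        ∫ q, D q ∂(Pt (nu d θ)) = ∫ z, D (Psi z) ∂((signLaw 0).prod Λ) := by
      intro D hD
      rw [← (mp_Psi h1).map_eq, integral_map (mp_Psi h1).measurable.aemeasurable
        hD.aestronglyMeasurable]
    have hred : ∀ (D : Cl (W d) × Om (W d) → ℝ), Measurable D → ∀ g : (W d → Lab d) → ℝ,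
        (∀ᵐ ω ∂Λ, ∀ s, D (Psi (s, ω)) = g ω) → ∫ q, D q ∂(Pt (nu d θ)) = ∫ ω, g ω ∂Λ := by
      intro D hD g hg
      rw [hint D hD]
      have e1 : ∫ z, D (Psi z) ∂((signLaw 0).prod Λ) = ∫ z, g z.2 ∂((signLaw 0).prod Λ) := by
        refine integral_congr_ae ?_
        have h5 : ∀ᵐ z ∂((signLaw 0).prod Λ), ∀ s, D (Psi (s, z.2)) = g z.2 := by
          have h6 : Measure.map Prod.snd ((signLaw 0).prod Λ) = Λ := by
            rw [Measure.map_snd_prod, measure_univ, one_smul]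
          rw [← h6] at hg
          exact ae_of_ae_map measurable_snd.aemeasurable hg
        filter_upwards [h5] with z hz
        exact hz z.1
      rw [e1, integral_fun_snd, probReal_univ, one_smul]
    have hmean₁ : ∫ ω, f₁ ω ∂Λ = 0 := by
      rw [← integral_DD h1 k r hG₁ hb₁]
      exact (hred _ (measurable_DD h1 k r hG₁) f₁ (hae₁.mono fun ω hω s => hω s)).symm
    have hmean₂ : ∫ ω, f₂ ω ∂Λ = 0 := by
      rw [← integral_DD h1 k r hG₂ hb₂]
      exact (hred _ (measurable_DD h1 k r hG₂) f₂ (hae₂.mono fun ω hω s => hω s)).symm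
    have hsq₁ : ∫ q, (G₁ q.1 - G₁ q.2) ^ 2 ∂(rhoP θ (nu d θ) k r) = 2 * ∫ ω, f₁ ω ^ 2 ∂Λ := by
      simp_rw [sq]
      rw [integral_rhoP h1 k r hG₁ hG₁ hb₁ hb₁]
      congr 1
      refine hred _ ((measurable_DD h1 k r hG₁).mul (measurable_DD h1 k r hG₁)) _ ?_
      filter_upwards [hae₁] with ω hω s
      simp only [Pi.mul_apply, hω s, hf₁]
    have hsq₂ : ∫ q, (G₂ q.1 - G₂ q.2) ^ 2 ∂(rhoP θ (nu d θ) k r) = 2 * ∫ ω, f₂ ω ^ 2 ∂Λ := by
      simp_rw [sq]
      rw [integral_rhoP h1 k r hG₂ hG₂ hb₂ hb₂]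
      congr 1
      refine hred _ ((measurable_DD h1 k r hG₂).mul (measurable_DD h1 k r hG₂)) _ ?_
      filter_upwards [hae₂] with ω hω s
      simp only [Pi.mul_apply, hω s, hf₂]
    have hcross : ∀ w : W d, ∫ q, (G₁ q.1 - G₁ q.2) * (G₂ (q.1 ∘ W.tr w) - G₂ (q.2 ∘ W.tr w))
        ∂(rhoP θ (nu d θ) k r) = 2 * ∫ ω, f₁ ω * f₂ (fun u => ω (W.tr w u)) ∂Λ := by
      intro w
      have hG₂w : Measurable (fun y : W d → ℝ => G₂ (y ∘ W.tr w)) := hG₂.comp (measurable_comp_tr w)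
      have hb₂w : ∃ C, ∀ y : W d → ℝ, |G₂ (y ∘ W.tr w)| ≤ C := by
        obtain ⟨C, hC⟩ := hb₂
        exact ⟨C, fun y => hC _⟩
      have e1 := integral_rhoP h1 k r hG₁ hG₂w hb₁ hb₂w
      rw [e1]
      congr 1
      have e2 : ∫ q, DD θ k r G₁ q * DD θ k r (fun y => G₂ (y ∘ W.tr w)) q ∂(Pt (nu d θ)) =
          ∫ q, DD θ k r G₁ q * DD θ k r G₂ (trA w q) ∂(Pt (nu d θ)) := by
        refine integral_congr_ae ?_
        filter_upwards [DD_tr h1 k r hG₂ w] with q hq
        rw [hq]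
      rw [e2]
      refine hred _ ((measurable_DD h1 k r hG₁).mul
        ((measurable_DD h1 k r hG₂).comp (measurable_trA w))) _ ?_
      have mre : MeasurePreserving (fun (ω : W d → Lab d) u => ω (W.tr w u)) Λ Λ := by
        refine ⟨?_, ?_⟩
        · rw [measurable_pi_iff]; intro u; exact measurable_pi_apply _
        · exact iid_map_inj (labLaw d θ) (W.tr w) (W.trE w).injective
      have hae₂' := mre.quasiMeasurePreserving.ae hae₂
      filter_upwards [hae₁, hae₂'] with ω hω hω' s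
      simp only [Pi.mul_apply, Function.comp_apply, Psi_tr, hω s, hω' (sp s (unl ω).1 w), hf₁, hf₂]
    have memf : ∀ {f : (W d → Lab d) → ℝ} {C : ℝ}, Measurable f → (∀ ω, |f ω| ≤ C) →
        MemLp f 2 Λ := fun hf hC =>
      MemLp.of_bound hf.aestronglyMeasurable _ (Filter.Eventually.of_forall fun ω => hC ω)
    obtain ⟨C₁, hC₁⟩ := hb₁
    obtain ⟨C₂, hC₂⟩ := hb₂
    have hbsv := bsv (labLaw d θ) hd f₁ f₂
      (memf mf₁ fun ω => DD_bdd h1 k r hC₁ _) (memf mf₂ fun ω => DD_bdd h1 k r hC₂ _)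
      hmean₁ hmean₂ l S hS
    simp_rw [hcross, hsq₁, hsq₂, abs_mul]
    rw [← Finset.mul_sum, abs_two, Real.sqrt_mul (by norm_num) (∫ ω, f₁ ω ^ 2 ∂Λ),
      Real.sqrt_mul (by norm_num) (∫ ω, f₂ ω ^ 2 ∂Λ)]
    have h22 : Real.sqrt 2 * Real.sqrt 2 = 2 := Real.mul_self_sqrt (by norm_num)
    calc 2 * ∑ w ∈ S, |∫ ω, f₁ ω * f₂ (fun u => ω (W.tr w u)) ∂Λ|
        ≤ 2 * (2 * (l + 1) * (Real.sqrt (d - 1)) ^ l * Real.sqrt (∫ ω, f₁ ω ^ 2 ∂Λ) *
          Real.sqrt (∫ ω, f₂ ω ^ 2 ∂Λ)) := by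
          exact mul_le_mul_of_nonneg_left hbsv (by norm_num)
      _ = (Real.sqrt 2 * Real.sqrt 2) * (2 * (l + 1) * (Real.sqrt (d - 1)) ^ l *
          Real.sqrt (∫ ω, f₁ ω ^ 2 ∂Λ) * Real.sqrt (∫ ω, f₂ ω ^ 2 ∂Λ)) := by rw [h22]
      _ = _ := by ring

end Crest.Agent.TI.Pair
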