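import Crest.Agent.TIPairC
import Crest.Agent.TIEnergyDefs
import Crest.Agent.TIKeyB

/-!
Row 160 (S0241).  Orthogonality of the increments for the two replicas.
-/

set_option autoImplicit false

namespace Crest.Agent.TI.P3

open MeasureTheory ProbabilityTheory unitInterval Set Filter Topology
open scoped ENNReal
open Crest.Agent.TI Crest.Agent.TI.Pair Crest.Agent.TI.Clock

variable {d : ℕ}

/-! ### the jump has mean zero -/

lemma integral_g : ∫ z : I, (1 - 2 * (z : ℝ)) = 0 := by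
  have h1 : ∫ z : I, (1 - 2 * (z : ℝ)) = ∫ z : I, (1 - 2 * ((σ z : I) : ℝ)) := by
    have := (unitInterval.measurePreserving_symm).integral_comp
      (unitInterval.symmHomeomorph.measurableEmbedding) (fun z : I => (1 - 2 * (z : ℝ)))
    exact this.symm
  have h2 : ∫ z : I, (1 - 2 * ((σ z : I) : ℝ)) = - ∫ z : I, (1 - 2 * (z : ℝ)) := by
    rw [← integral_neg]
    refine integral_congr_ae (Eventually.of_forall fun z => ?_)
    simp only [coe_symm_eq]
    ring
  linarith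

/-- the jump as a function of the drift and the observation -/
noncomputable def jf (A D : ℝ) (z : I) : ℝ :=
  A * (1 - 2 * (z : ℝ)) / (1 + A * (1 - 2 * (z : ℝ)) * max (-1) (min D 1))

lemma clip_abs (D : ℝ) : |max (-1) (min D 1)| ≤ 1 := by
  rw [abs_le]
  exact ⟨le_max_left _ _, max_le (by norm_num) (min_le_right _ _)⟩

lemma clip_of_abs {D : ℝ} (h : |D| ≤ 1) : max (-1) (min D 1) = D := by
  have := abs_le.1 h
  rw [min_eq_left this.2, max_eq_right this.1]

lemma jf_den {A : ℝ} (hA0 : 0 ≤ A) (hA : A ≤ 1 / 4) (D : ℝ) (z : I) :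
    3 / 4 ≤ 1 + A * (1 - 2 * (z : ℝ)) * max (-1) (min D 1) := by
  have h1 := abs_one_sub_two z
  have h2 := clip_abs D
  have h3 : |A * (1 - 2 * (z : ℝ)) * max (-1) (min D 1)| ≤ 1 / 4 := by
    rw [abs_mul, abs_mul, abs_of_nonneg hA0]
    calc A * |1 - 2 * (z : ℝ)| * |max (-1) (min D 1)| ≤ (1 / 4 * 1) * 1 :=
          mul_le_mul (mul_le_mul hA h1 (abs_nonneg _) (by norm_num)) h2 (abs_nonneg _) (by norm_num)
      _ = 1 / 4 := by norm_num
  have := (abs_le.1 h3).1
  linarith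

lemma jf_abs {A : ℝ} (hA0 : 0 ≤ A) (hA : A ≤ 1 / 4) (D : ℝ) (z : I) : |jf A D z| ≤ 1 := by
  have h1 := jf_den hA0 hA D z
  unfold jf
  rw [abs_div, abs_of_pos (by linarith : 0 < 1 + A * (1 - 2 * (z : ℝ)) * max (-1) (min D 1)),
    div_le_one (by linarith), abs_mul, abs_of_nonneg hA0]
  have h2 := abs_one_sub_two z
  nlinarith [abs_nonneg (1 - 2 * (z : ℝ))]

lemma measurable_jf (A : ℝ) : Measurable (Function.uncurry (jf A)) := by
  unfold jf Function.uncurry
  have h1 : Measurable (fun p : ℝ × I => A * (1 - 2 * (p.2 : ℝ))) := by fun_prop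
  have h2 : Measurable (fun p : ℝ × I => max (-1) (min p.1 1)) := by fun_prop
  exact h1.div (measurable_const.add (h1.mul h2))

lemma int_jf {A : ℝ} (hA0 : 0 ≤ A) (hA : A ≤ 1 / 4) {D : ℝ} (hD : |D| ≤ 1) :
    ∫ u : I, jf A D (QK (A * D) u) = 0 := by
  rw [integral_QK (A * D) (jf A D) (measurable_jf A).of_uncurry_left]
  have hAD : |A * D| ≤ 1 / 4 := by
    rw [abs_mul, abs_of_nonneg hA0]
    calc A * |D| ≤ 1 / 4 * 1 := mul_le_mul hA hD (abs_nonneg _) (by norm_num)
      _ = 1 / 4 := by norm_num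
  have e : ∀ z : I, densK (A * D) z * jf A D z = A * (1 - 2 * (z : ℝ)) := by
    intro z
    have h1 := jf_den hA0 hA D z
    unfold densK jf
    rw [clamp_of_abs_le hAD]
    rw [clip_of_abs hD] at h1 ⊢
    have h2 : 1 + A * (1 - 2 * (z : ℝ)) * D ≠ 0 := by linarith
    rw [← mul_div_assoc, div_eq_iff h2]
    ring
  rw [integral_congr_ae (Eventually.of_forall e), integral_const_mul, integral_g, mul_zero]

lemma Jb_eq_jf (θ : ℝ) (c : Cl (W d)) (p : Om (W d)) (b : W d × ℕ) :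
    Energy.Jb θ c p b = jf (amp (c b)) (drift θ c (Zc c p) b) (Zc c p b) := by
  unfold Energy.Jb jf
  rw [clip_of_abs (Energy.abs_drift_le θ c (Zc c p) b)]

lemma meas_Jb_sA (θ : ℝ) (c : Cl (W d)) (b : W d × ℕ) {J : Set (W d × ℕ)}
    (hJ : {a | Bef c b.2 (c b) a} ⊆ J) (hb : b ∈ J) :
    Measurable[sA c J] (fun p : Om (W d) => Energy.Jb θ c p b) := by
  have h1 := meas_drift_sA θ c b hJ
  have h2 : Measurable[sA c J] (fun p : Om (W d) => Zc c p b) := measurable_coord hb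
  have h3 := (measurable_jf (amp (c b))).comp (h1.prodMk h2)
  have e : (fun p : Om (W d) => Energy.Jb θ c p b) =
      fun p => Function.uncurry (jf (amp (c b))) (drift θ c (Zc c p) b, Zc c p b) := by
    funext p; exact Jb_eq_jf θ c p b
  rw [e]
  exact h3

/-- the jump has mean zero given the past -/
theorem integral_mul_Jb {θ : ℝ} {ν : Measure (W d → Bool)} (hS : StepStmt θ ν) (c : Cl (W d)) (b : W d × ℕ) (H : Om (W d) → ℝ)
    (hH : Measurable[sA c {a | Bef c b.2 (c b) a}] H) (hHb : ∃ C, ∀ p, |H p| ≤ C) :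
    ∫ p, H p * Energy.Jb θ c p b ∂(PPn ν) = 0 := by
  have hA0 := amp_nonneg (c b)
  have hA := amp_le (c b)
  have h := hS c b H hH hHb (jf (amp (c b))) (measurable_jf _) ⟨1, fun D z => jf_abs hA0 hA D z⟩
  simp only [← Jb_eq_jf] at h
  rw [h]
  have e : ∀ p : Om (W d), H p * (∫ u, jf (amp (c b)) (drift θ c (Zc c p) b)
      (QK (amp (c b) * drift θ c (Zc c p) b) u)) = 0 := by
    intro p
    rw [int_jf hA0 hA (Energy.abs_drift_le θ c (Zc c p) b), mul_zero]
  rw [integral_congr_ae (Eventually.of_forall e), integral_zero]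

section general

variable {θ : ℝ} {ν : Measure (W d → Bool)} [IsProbabilityMeasure ν]

omit [IsProbabilityMeasure ν] in
lemma sU_mono (θ : ℝ) (c : Cl (W d)) {A B : Set (W d × ℕ)} (h : A ⊆ B) : sU θ c A ≤ sU θ c B := by
  rw [sU, ← measurable_iff_comap_le, @measurable_pi_iff]
  intro a
  have h1 : Measurable[sU θ c B] (fun (p : Om (W d)) (a : B) => innov θ c p a) :=
    comap_measurable _
  exact (measurable_pi_apply (⟨a, h a.2⟩ : B)).comp h1

/-- orthogonality of a jump of one replica and the past of the other -/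
lemma orth_c {c : Cl (W d)} (hc : GoodC θ ν c) (hS : StepStmt θ ν) (b : W d × ℕ)
    (h g : Om (W d) → ℝ) (hh : Measurable[sA c {a | Bef c b.2 (c b) a}] h)
    (hhb : ∃ C, ∀ p, |h p| ≤ C) (hg : Measurable[sA c {a | Bef c b.2 (c b) a}] g)
    (hgb : ∃ C, ∀ p, |g p| ≤ C) :
    ∫ p, (∫ p', h p' * Energy.Jb θ c p' b ∂(kap θ ν (c, innov θ c p))) *
      (∫ p', g p' ∂(kap θ ν (c, innov θ c p))) ∂(PPn ν) = 0 := by
  obtain ⟨Ch, hCh⟩ := hhb
  obtain ⟨Cg, hCg⟩ := hgb
  have hsub : {a | Bef c b.2 (c b) a} ⊆ {a | Bef c (b.2 + 1) 0 a} := by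
    rintro a (ha | ⟨ha, _⟩)
    · exact Or.inl (by omega)
    · exact Or.inl (by omega)
  have hb : b ∈ {a | Bef c (b.2 + 1) 0 a} := Or.inl (Nat.lt_succ_self _)
  set f : Om (W d) → ℝ := fun p => h p * Energy.Jb θ c p b with hf
  have hfm : Measurable[sA c {a | Bef c (b.2 + 1) 0 a}] f :=
    (hh.mono (sA_mono c hsub) le_rfl).mul (meas_Jb_sA θ c b hsub hb)
  have hfb : ∀ p, |f p| ≤ Ch := by
    intro p
    rw [hf]
    simp only
    rw [abs_mul]
    have h1 := Energy.abs_Jb_le_third θ c p b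
    have h2 := hCh p
    nlinarith [abs_nonneg (h p), abs_nonneg (Energy.Jb θ c p b)]
  have hfi : Integrable f (PPn ν) :=
    Integrable.of_bound (C := Ch) (hfm.mono (sA_le c _) le_rfl).aestronglyMeasurable
      (Eventually.of_forall fun p => by rw [Real.norm_eq_abs]; exact hfb p)
  have hgi : Integrable g (PPn ν) :=
    Integrable.of_bound (C := Cg) (hg.mono (sA_le c _) le_rfl).aestronglyMeasurable
      (Eventually.of_forall fun p => by rw [Real.norm_eq_abs]; exact hCg p)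
  have e1 := hc.cond (b.2 + 1) 0 f hfm ⟨Ch, hfb⟩
  have e2 := hc.cond b.2 (c b) g hg ⟨Cg, hCg⟩
  set G2 := (PPn ν)[g | sU θ c {a | Bef c b.2 (c b) a}] with hG2
  have hG2m : StronglyMeasurable[sU θ c {a | Bef c b.2 (c b) a}] G2 := stronglyMeasurable_condExp
  have hG2i : Integrable G2 (PPn ν) := integrable_condExp
  -- clamp
  set G3 : Om (W d) → ℝ := fun p => max (-Cg) (min (G2 p) Cg) with hG3
  have hG3m : Measurable[sU θ c {a | Bef c b.2 (c b) a}] G3 :=
    (measurable_const.max (hG2m.measurable.min measurable_const))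
  have hCg0 : 0 ≤ Cg := (abs_nonneg _).trans (hCg ((fun _ => true), fun _ => 0))
  have hG3b : ∀ p, |G3 p| ≤ Cg := by
    intro p
    rw [abs_le]
    exact ⟨le_max_left _ _, max_le (by linarith) (min_le_right _ _)⟩
  have hG23 : G2 =ᵐ[PPn ν] G3 := by
    have hb2 : ∀ᵐ p ∂(PPn ν), |G2 p| ≤ Cg := by
      exact ae_bdd_abs_condExp_of_ae_bdd_abs (m := sU θ c {a | Bef c b.2 (c b) a}) (μ := PPn ν)
        (R := Cg) (f := g) (Eventually.of_forall fun p => hCg p)
    filter_upwards [hb2] with p hp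
    have := abs_le.1 hp
    rw [hG3]
    simp only
    rw [min_eq_left this.2, max_eq_right this.1]
  have hG3i : Integrable G3 (PPn ν) := hG2i.congr hG23
  have s1 : ∫ p, (∫ p', h p' * Energy.Jb θ c p' b ∂(kap θ ν (c, innov θ c p))) *
      (∫ p', g p' ∂(kap θ ν (c, innov θ c p))) ∂(PPn ν) =
      ∫ p, ((PPn ν)[f | sU θ c {a | Bef c (b.2 + 1) 0 a}] * G3) p ∂(PPn ν) := by
    refine integral_congr_ae ?_
    filter_upwards [e1, e2, hG23] with p h1 h2 h3
    rw [Pi.mul_apply, ← h1, ← h3, ← h2]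
  have hfG : Integrable (f * G3) (PPn ν) := by
    refine Integrable.of_bound (C := Ch * Cg)
      ((hfm.mono (sA_le c _) le_rfl).mul (hG3m.mono (sU_le θ c _) le_rfl)).aestronglyMeasurable
      (Eventually.of_forall fun p => ?_)
    rw [Real.norm_eq_abs, Pi.mul_apply, abs_mul]
    exact mul_le_mul (hfb p) (hG3b p) (abs_nonneg _) ((abs_nonneg _).trans (hfb p))
  have s2 := condExp_mul_of_stronglyMeasurable_right (m := sU θ c {a | Bef c (b.2 + 1) 0 a})
    (μ := PPn ν) (f := f) (g := G3)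
    (hG3m.mono (sU_mono θ c hsub) le_rfl).stronglyMeasurable hfG hfi
  rw [s1, ← integral_congr_ae s2, integral_condExp (sU_le θ c _)]
  have s3 : ∀ p, (f * G3) p = (h p * G3 p) * Energy.Jb θ c p b := by
    intro p
    rw [Pi.mul_apply, hf]
    ring
  rw [integral_congr_ae (Eventually.of_forall s3)]
  refine integral_mul_Jb hS c b _ (hh.mul (hG3m.mono (sU_le_sA θ c _ _) le_rfl))
    ⟨Ch * Cg, fun p => ?_⟩
  rw [abs_mul]
  exact mul_le_mul (hCh p) (hG3b p) (abs_nonneg _) ((abs_nonneg _).trans (hCh p))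

/-- the pair integral vanishes if it vanishes for almost every clock configuration -/
lemma pair_zero (f g : Cl (W d) × Om (W d) → ℝ) (hf : Measurable f) (hg : Measurable g)
    (hfb : ∃ C, ∀ q, |f q| ≤ C) (hgb : ∃ C, ∀ q, |g q| ≤ C)
    (h : ∀ᵐ c ∂(μI (W d × ℕ)), ∫ p, (∫ p', f (c, p') ∂(kap θ ν (c, innov θ c p))) *
      (∫ p', g (c, p') ∂(kap θ ν (c, innov θ c p))) ∂(PPn ν) = 0) :
    ∫ a, f (a.1.1, a.2.1) * g (a.1.1, a.2.2) ∂(pairM θ ν) = 0 := by
  have mF : Measurable (fun q : (Cl (W d) × (W d × ℕ → I)) × Om (W d) => f (q.1.1, q.2)) :=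
    hf.comp ((measurable_fst.comp measurable_fst).prodMk measurable_snd)
  have mG : Measurable (fun q : (Cl (W d) × (W d × ℕ → I)) × Om (W d) => g (q.1.1, q.2)) :=
    hg.comp ((measurable_fst.comp measurable_fst).prodMk measurable_snd)
  obtain ⟨C1, hC1⟩ := hfb
  obtain ⟨C2, hC2⟩ := hgb
  have h1 := integral_prM (P := Pt ν) (X := Prod.snd) (W := WWm θ) (measurable_WWm θ) mF mG
    ⟨C1, fun q => hC1 _⟩ ⟨C2, fun q => hC2 _⟩
  have e : pairM θ ν = prM (Pt ν) Prod.snd (WWm θ) := rfl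
  rw [e, h1]
  unfold Pt
  rw [integral_prod]
  · rw [integral_congr_ae (g := fun _ => (0 : ℝ)) (by filter_upwards [h] with c hc using hc),
      integral_zero]
  · have m1 := (measurable_bar (Pt ν) Prod.snd (WWm θ) mF).comp (measurable_WWm θ)
    have m2 := (measurable_bar (Pt ν) Prod.snd (WWm θ) mG).comp (measurable_WWm θ)
    refine Integrable.of_bound (C := C1 * C2) (m1.mul m2).aestronglyMeasurable
      (Eventually.of_forall fun q => ?_)
    rw [Real.norm_eq_abs, abs_mul]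
    refine mul_le_mul (bar_bdd _ _ _ (fun q => hC1 _) _) (bar_bdd _ _ _ (fun q => hC2 _) _)
      (abs_nonneg _) ?_
    exact (abs_nonneg _).trans (hC1 ((fun _ => 0), ((fun _ => true), fun _ => 0)))

end general

/-! ### the increments -/

section incr

variable {θ : ℝ}

lemma bef_sub {c : Cl (W d)} {k : ℕ} {r s : ℝ} (h : r ≤ s) :
    {a | Bef c k r a} ⊆ {a | Bef c k s a} := by
  rintro a (ha | ⟨ha1, ha2⟩)
  · exact Or.inl ha
  · exact Or.inr ⟨ha1, ha2.trans_le h⟩

/-- the coefficient of the jump -/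
noncomputable def hxi (θ : ℝ) (k : ℕ) (s t : ℝ) (u : W d) (c : Cl (W d)) (p : Om (W d)) : ℝ :=
  if s ≤ (c (u, k) : ℝ) ∧ (c (u, k) : ℝ) < t then covR θ (yF k (c (u, k)) c p) u else 0

lemma xi_eq (θ : ℝ) (k : ℕ) (s t : ℝ) (u : W d) (c : Cl (W d)) (p : Om (W d)) :
    Energy.xi θ k s t u c p = hxi θ k s t u c p * Energy.Jb θ c p (u, k) := by
  unfold Energy.xi hxi
  split_ifs
  · rfl
  · rw [zero_mul]

lemma meas_hxi_sA (θ : ℝ) (k : ℕ) (s t : ℝ) (u : W d) (c : Cl (W d)) {J : Set (W d × ℕ)}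
    (hJ : {a | Bef c k (c (u, k)) a} ⊆ J) :
    Measurable[sA c J] (fun p : Om (W d) => hxi θ k s t u c p) := by
  unfold hxi
  by_cases h : s ≤ (c (u, k) : ℝ) ∧ (c (u, k) : ℝ) < t
  · simp only [if_pos h]
    exact (Energy.measurable_covR θ u).comp (meas_field_sA c k (c (u, k)) hJ)
  · simp only [if_neg h]
    exact measurable_const

lemma meas_xi_sA (θ : ℝ) (k : ℕ) (s t : ℝ) (u : W d) (c : Cl (W d)) {J : Set (W d × ℕ)}
    (hJ : {a | Bef c k (c (u, k)) a} ⊆ J) (hu : (u, k) ∈ J) :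
    Measurable[sA c J] (fun p : Om (W d) => Energy.xi θ k s t u c p) := by
  have h1 := (meas_hxi_sA θ k s t u c hJ).mul (meas_Jb_sA θ c (u, k) hJ hu)
  have e : (fun p : Om (W d) => Energy.xi θ k s t u c p) =
      fun p => hxi θ k s t u c p * Energy.Jb θ c p (u, k) := by
    funext p; exact xi_eq θ k s t u c p
  rw [e]
  exact h1

variable (h0 : 0 ≤ θ) (h1 : θ < 1)
include h0 h1

lemma abs_covR_le (y : W d → ℝ) (u : W d) : |covR θ y u| ≤ 1 := by
  rw [abs_of_nonneg (Key.covR_nonneg h0 h1 y u)]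
  exact (Key.covR_le h0 h1 y u).trans ((Key.cpr_le h0 h1 y u).trans (pow_le_one₀ h0 h1.le))

lemma abs_hxi_le (k : ℕ) (s t : ℝ) (u : W d) (c : Cl (W d)) (p : Om (W d)) :
    |hxi θ k s t u c p| ≤ 1 := by
  unfold hxi
  split_ifs
  · exact abs_covR_le h0 h1 _ _
  · simp

lemma abs_xi_le (k : ℕ) (s t : ℝ) (u : W d) (c : Cl (W d)) (p : Om (W d)) :
    |Energy.xi θ k s t u c p| ≤ 1 := by
  rw [xi_eq, abs_mul]
  have h2 := abs_hxi_le h0 h1 k s t u c p
  have h3 := Energy.abs_Jb_le_third θ c p (u, k)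
  nlinarith [abs_nonneg (hxi θ k s t u c p), abs_nonneg (Energy.Jb θ c p (u, k))]

lemma step_nu : StepStmt θ (nu d θ) := by
  intro c b H hH hHb j hj hjb
  obtain ⟨CH, hCH⟩ := hHb
  obtain ⟨Cj, hCj⟩ := hjb
  exact Law.step_drift h0 h1 c b H hH hCH j hj hCj

/-- increments of different vertices are orthogonal, clock by clock -/
lemma orth_xi_xi_c {c : Cl (W d)} (hP : IsProbabilityMeasure (nu d θ))
    (hinj : ∀ a b : W d × ℕ, a.2 = b.2 → c a = c b → a = b)
    (hc : GoodC θ (nu d θ) c) (k : ℕ) (s t : ℝ) {u v : W d} (huv : u ≠ v) :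
    ∫ p, (∫ p', Energy.xi θ k s t u c p' ∂(kap θ (nu d θ) (c, innov θ c p))) *
      (∫ p', Energy.xi θ k s t v c p' ∂(kap θ (nu d θ) (c, innov θ c p))) ∂(PPn (nu d θ)) = 0 := by
  have hne : c (u, k) ≠ c (v, k) := by
    intro h
    exact huv (Prod.ext_iff.1 (hinj (u, k) (v, k) rfl h)).1
  rcases lt_or_gt_of_ne hne with hlt | hlt
  · have hsub : {a | Bef c k (c (u, k)) a} ⊆ {a | Bef c (v, k).2 (c (v, k)) a} :=
      bef_sub (c := c) (k := k) (Subtype.coe_le_coe.2 hlt.le)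
    have hmem : (u, k) ∈ {a | Bef c (v, k).2 (c (v, k)) a} := Or.inr ⟨rfl, hlt⟩
    have h := orth_c hc (step_nu h0 h1) (v, k) (hxi θ k s t v c) (Energy.xi θ k s t u c)
      (meas_hxi_sA θ k s t v c subset_rfl) ⟨1, abs_hxi_le h0 h1 k s t v c⟩
      (meas_xi_sA θ k s t u c hsub hmem) ⟨1, abs_xi_le h0 h1 k s t u c⟩
    simp only [← xi_eq] at h
    rw [← h]
    refine integral_congr_ae (Eventually.of_forall fun p => ?_)
    exact mul_comm _ _
  · have hsub : {a | Bef c k (c (v, k)) a} ⊆ {a | Bef c (u, k).2 (c (u, k)) a} :=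
      bef_sub (c := c) (k := k) (Subtype.coe_le_coe.2 hlt.le)
    have hmem : (v, k) ∈ {a | Bef c (u, k).2 (c (u, k)) a} := Or.inr ⟨rfl, hlt⟩
    have h := orth_c hc (step_nu h0 h1) (u, k) (hxi θ k s t u c) (Energy.xi θ k s t v c)
      (meas_hxi_sA θ k s t u c subset_rfl) ⟨1, abs_hxi_le h0 h1 k s t u c⟩
      (meas_xi_sA θ k s t v c hsub hmem) ⟨1, abs_xi_le h0 h1 k s t v c⟩
    simp only [← xi_eq] at h
    exact h

/-- increments are orthogonal to the magnetisation at the beginning, clock by clock -/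
lemma orth_xi_m_c {c : Cl (W d)} (hP : IsProbabilityMeasure (nu d θ))
    (hc : GoodC θ (nu d θ) c) (k : ℕ) (s t : ℝ) (u : W d) :
    ∫ p, (∫ p', Energy.xi θ k s t u c p' ∂(kap θ (nu d θ) (c, innov θ c p))) *
      (∫ p', mR θ (yF k s c p') ∂(kap θ (nu d θ) (c, innov θ c p))) ∂(PPn (nu d θ)) = 0 := by
  by_cases hs : s ≤ (c (u, k) : ℝ)
  · have hsub : {a | Bef c k s a} ⊆ {a | Bef c (u, k).2 (c (u, k)) a} :=
      bef_sub (c := c) (k := k) hs
    have hm : Measurable[sA c {a | Bef c (u, k).2 (c (u, k)) a}]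
        (fun p : Om (W d) => mR θ (yF k s c p)) :=
      (measurable_mR θ).comp (meas_field_sA c k s hsub)
    have h := orth_c hc (step_nu h0 h1) (u, k) (hxi θ k s t u c) (fun p => mR θ (yF k s c p))
      (meas_hxi_sA θ k s t u c subset_rfl) ⟨1, abs_hxi_le h0 h1 k s t u c⟩
      hm ⟨1, fun p => Key.mR_abs _⟩
    simp only [← xi_eq] at h
    exact h
  · have e : ∀ p, Energy.xi θ k s t u c p = 0 := by
      intro p
      unfold Energy.xi
      rw [if_neg]
      exact fun h => hs h.1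
    simp only [e, integral_zero, zero_mul]

/-- (O2), first part: increments of different vertices of the two replicas are orthogonal -/
theorem orth_xi_xi (k : ℕ) (s t : ℝ) {u v : W d} (huv : u ≠ v) :
    have := isProb_nu d h1.le
    ∫ a, Energy.xi θ k s t u a.1.1 a.2.1 * Energy.xi θ k s t v a.1.1 a.2.2
      ∂(pairM θ (nu d θ)) = 0 := by
  intro hP
  refine pair_zero (fun q => Energy.xi θ k s t u q.1 q.2) (fun q => Energy.xi θ k s t v q.1 q.2)
    (Energy.measurable_xi θ k s t u) (Energy.measurable_xi θ k s t v)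
    ⟨1, fun q => abs_xi_le h0 h1 k s t u q.1 q.2⟩ ⟨1, fun q => abs_xi_le h0 h1 k s t v q.1 q.2⟩ ?_
  filter_upwards [Law.ae_inj_clock, goodC_nu h0 h1] with c hinj hc
  exact orth_xi_xi_c h0 h1 hP hinj hc k s t huv

/-- (O2), second part -/
theorem orth_xi_m (k : ℕ) (s t : ℝ) (u : W d) :
    have := isProb_nu d h1.le
    ∫ a, Energy.xi θ k s t u a.1.1 a.2.1 * mR θ (yF k s a.1.1 a.2.2)
      ∂(pairM θ (nu d θ)) = 0 := by
  intro hP
  refine pair_zero (fun q => Energy.xi θ k s t u q.1 q.2) (fun q => mR θ (yF k s q.1 q.2))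
    (Energy.measurable_xi θ k s t u) ((measurable_mR θ).comp (measurable_yF k s))
    ⟨1, fun q => abs_xi_le h0 h1 k s t u q.1 q.2⟩ ⟨1, fun q => Key.mR_abs _⟩ ?_
  filter_upwards [goodC_nu h0 h1] with c hc
  exact orth_xi_m_c h0 h1 hP hc k s t u

/-- (O2), third part -/
theorem orth_m_xi (k : ℕ) (s t : ℝ) (u : W d) :
    have := isProb_nu d h1.le
    ∫ a, mR θ (yF k s a.1.1 a.2.1) * Energy.xi θ k s t u a.1.1 a.2.2
      ∂(pairM θ (nu d θ)) = 0 := by
  intro hP
  refine pair_zero (fun q => mR θ (yF k s q.1 q.2)) (fun q => Energy.xi θ k s t u q.1 q.2)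
    ((measurable_mR θ).comp (measurable_yF k s)) (Energy.measurable_xi θ k s t u)
    ⟨1, fun q => Key.mR_abs _⟩ ⟨1, fun q => abs_xi_le h0 h1 k s t u q.1 q.2⟩ ?_
  filter_upwards [goodC_nu h0 h1] with c hc
  have h := orth_xi_m_c h0 h1 hP hc k s t u
  rw [← h]
  refine integral_congr_ae (Eventually.of_forall fun p => ?_)
  exact mul_comm _ _

end incr

end Crest.Agent.TI.P3
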