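import Crest.Agent.TIMart
import Crest.Agent.TIPairD
import Crest.Agent.TIPair

/-!
Row 160 (S0241).  Monotonicity in time of the expected squared difference of the magnetisations of
the two replicas, and continuity between rounds.
-/

set_option autoImplicit false

namespace Crest.Agent.TI.Mono

open MeasureTheory ProbabilityTheory unitInterval Set Filter Topology
open scoped ENNReal
open Crest.Agent.TI Crest.Agent.TI.Pair Crest.Agent.TI.Clock Crest.Agent.TI.Law Crest.Agent.TI.Mart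

variable {d : ℕ}

/-! ### continuity between rounds -/

lemma yF_succ (k : ℕ) (c : Cl (W d)) (p : Om (W d)) : yF (k + 1) 0 c p = yF k (1 / 2) c p := by
  funext v
  unfold yF fieldAt
  rw [Finset.sum_range_succ, if_neg (not_lt.2 (c (v, k + 1)).2.1), add_zero]
  congr 1
  by_cases h : (c (v, k) : ℝ) < 1 / 2
  · rw [if_pos h]
  · rw [if_neg h, ell_of_half_le _ _ (not_lt.1 h)]

theorem rhoP_succ (θ : ℝ) (ν : Measure (W d → Bool)) [IsFiniteMeasure (Pt ν)] (k : ℕ) :
    rhoP θ ν (k + 1) 0 = rhoP θ ν k (1 / 2) := by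
  unfold rhoP
  congr 1
  funext a
  rw [yF_succ, yF_succ]

/-! ### orthogonality of the future of one replica and the past of the other -/

section

variable {θ : ℝ} {ν : Measure (W d → Bool)} [IsProbabilityMeasure ν]

lemma orth_gen {c : Cl (W d)} (hc : GoodC θ ν c) (k : ℕ) {s t : ℝ} (hst : s ≤ t)
    (f g : Om (W d) → ℝ) (hfm : Measurable[sA c {a | Bef c k t a}] f) {Cf : ℝ}
    (hfb : ∀ p, |f p| ≤ Cf) (hg : Measurable[sA c {a | Bef c k s a}] g) {Cg : ℝ}
    (hCg : ∀ p, |g p| ≤ Cg)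
    (hfo : ∀ H : Om (W d) → ℝ, Measurable[sA c {a | Bef c k s a}] H → (∃ C, ∀ p, |H p| ≤ C) →
      ∫ p, H p * f p ∂(PPn ν) = 0) :
    ∫ p, (∫ p', f p' ∂(kap θ ν (c, innov θ c p))) *
      (∫ p', g p' ∂(kap θ ν (c, innov θ c p))) ∂(PPn ν) = 0 := by
  have hsub : {a | Bef c k s a} ⊆ {a | Bef c k t a} := past_mono hst
  have hfi : Integrable f (PPn ν) :=
    Integrable.of_bound (C := Cf) (hfm.mono (sA_le c _) le_rfl).aestronglyMeasurable
      (Eventually.of_forall fun p => by rw [Real.norm_eq_abs]; exact hfb p)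
  have e1 := hc.cond k t f hfm ⟨Cf, hfb⟩
  have e2 := hc.cond k s g hg ⟨Cg, hCg⟩
  set G2 := (PPn ν)[g | sU θ c {a | Bef c k s a}] with hG2
  have hG2m : StronglyMeasurable[sU θ c {a | Bef c k s a}] G2 := stronglyMeasurable_condExp
  have hG2i : Integrable G2 (PPn ν) := integrable_condExp
  -- clamp
  set G3 : Om (W d) → ℝ := fun p => max (-Cg) (min (G2 p) Cg) with hG3
  have hG3m : Measurable[sU θ c {a | Bef c k s a}] G3 :=
    (measurable_const.max (hG2m.measurable.min measurable_const))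
  have hCg0 : 0 ≤ Cg := (abs_nonneg _).trans (hCg ((fun _ => true), fun _ => 0))
  have hG3b : ∀ p, |G3 p| ≤ Cg := by
    intro p
    rw [abs_le]
    exact ⟨le_max_left _ _, max_le (by linarith) (min_le_right _ _)⟩
  have hG23 : G2 =ᵐ[PPn ν] G3 := by
    have hb2 : ∀ᵐ p ∂(PPn ν), |G2 p| ≤ Cg := by
      exact ae_bdd_abs_condExp_of_ae_bdd_abs (m := sU θ c {a | Bef c k s a}) (μ := PPn ν)
        (R := Cg) (f := g) (Eventually.of_forall fun p => hCg p)
    filter_upwards [hb2] with p hp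
    have := abs_le.1 hp
    rw [hG3]
    simp only
    rw [min_eq_left this.2, max_eq_right this.1]
  have s1 : ∫ p, (∫ p', f p' ∂(kap θ ν (c, innov θ c p))) *
      (∫ p', g p' ∂(kap θ ν (c, innov θ c p))) ∂(PPn ν) =
      ∫ p, ((PPn ν)[f | sU θ c {a | Bef c k t a}] * G3) p ∂(PPn ν) := by
    refine integral_congr_ae ?_
    filter_upwards [e1, e2, hG23] with p h1 h2 h3
    rw [Pi.mul_apply, ← h1, ← h3, ← h2]
  have hfG : Integrable (f * G3) (PPn ν) := by
    refine Integrable.of_bound (C := Cf * Cg)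
      ((hfm.mono (sA_le c _) le_rfl).mul (hG3m.mono (P3.sU_le θ c _) le_rfl)).aestronglyMeasurable
      (Eventually.of_forall fun p => ?_)
    rw [Real.norm_eq_abs, Pi.mul_apply, abs_mul]
    exact mul_le_mul (hfb p) (hG3b p) (abs_nonneg _) ((abs_nonneg _).trans (hfb p))
  have s2 := condExp_mul_of_stronglyMeasurable_right (m := sU θ c {a | Bef c k t a})
    (μ := PPn ν) (f := f) (g := G3)
    (hG3m.mono (P3.sU_mono θ c hsub) le_rfl).stronglyMeasurable hfG hfi
  rw [s1, ← integral_congr_ae s2, integral_condExp (P3.sU_le θ c _)]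
  have s3 : ∀ p, (f * G3) p = G3 p * f p := by
    intro p
    rw [Pi.mul_apply, mul_comm]
  rw [integral_congr_ae (Eventually.of_forall s3)]
  exact hfo _ (hG3m.mono (P3.sU_le_sA θ c _ _) le_rfl) ⟨Cg, hG3b⟩

/-- integral of a function of the first replica -/
lemma pair_fst (F : Cl (W d) × Om (W d) → ℝ) (hF : Measurable F) :
    ∫ a, F (a.1.1, a.2.1) ∂(pairM θ ν) = ∫ q, F q ∂(Pt ν) := by
  have mF : Measurable (fun q : (Cl (W d) × (W d × ℕ → I)) × Om (W d) => F (q.1.1, q.2)) :=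
    hF.comp ((measurable_fst.comp measurable_fst).prodMk measurable_snd)
  have mWX : Measurable (fun q : Cl (W d) × Om (W d) => (WWm θ q, q.2)) :=
    (measurable_WWm θ).prodMk measurable_snd
  have p1 : Measurable (fun a : (Cl (W d) × (W d × ℕ → I)) × (Om (W d) × Om (W d)) =>
      (a.1, a.2.1)) := measurable_fst.prodMk (measurable_fst.comp measurable_snd)
  have e := map_prM_fst (Pt ν) Prod.snd (WWm θ) measurable_snd
  have e1 := integral_map (μ := prM (Pt ν) Prod.snd (WWm θ)) p1.aemeasurable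
    (f := fun q : (Cl (W d) × (W d × ℕ → I)) × Om (W d) => F (q.1.1, q.2)) mF.aestronglyMeasurable
  have e2 := integral_map (μ := Pt ν) mWX.aemeasurable
    (f := fun q : (Cl (W d) × (W d × ℕ → I)) × Om (W d) => F (q.1.1, q.2)) mF.aestronglyMeasurable
  rw [e] at e1
  have e3 := e1.symm.trans e2
  exact e3

lemma pair_snd (F : Cl (W d) × Om (W d) → ℝ) (hF : Measurable F) :
    ∫ a, F (a.1.1, a.2.2) ∂(pairM θ ν) = ∫ q, F q ∂(Pt ν) := by
  have mF : Measurable (fun q : (Cl (W d) × (W d × ℕ → I)) × Om (W d) => F (q.1.1, q.2)) :=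
    hF.comp ((measurable_fst.comp measurable_fst).prodMk measurable_snd)
  have mWX : Measurable (fun q : Cl (W d) × Om (W d) => (WWm θ q, q.2)) :=
    (measurable_WWm θ).prodMk measurable_snd
  have p1 : Measurable (fun a : (Cl (W d) × (W d × ℕ → I)) × (Om (W d) × Om (W d)) =>
      (a.1, a.2.2)) := measurable_fst.prodMk (measurable_snd.comp measurable_snd)
  have e := map_prM_snd (Pt ν) Prod.snd (WWm θ) measurable_snd
  have e1 := integral_map (μ := prM (Pt ν) Prod.snd (WWm θ)) p1.aemeasurable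
    (f := fun q : (Cl (W d) × (W d × ℕ → I)) × Om (W d) => F (q.1.1, q.2)) mF.aestronglyMeasurable
  have e2 := integral_map (μ := Pt ν) mWX.aemeasurable
    (f := fun q : (Cl (W d) × (W d × ℕ → I)) × Om (W d) => F (q.1.1, q.2)) mF.aestronglyMeasurable
  rw [e] at e1
  have e3 := e1.symm.trans e2
  exact e3

end

/-! ### monotonicity -/

section

variable {θ : ℝ} (h0 : 0 ≤ θ) (h1 : θ < 1)
include h0 h1

lemma orth_c (k : ℕ) {s t : ℝ} (hst : s ≤ t) {c : Cl (W d)} (hP : IsProbabilityMeasure (nu d θ))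
    (hc : GoodC θ (nu d θ) c) :
    ∫ p, (∫ p', (mR θ (yF k t c p') - mR θ (yF k s c p')) ∂(kap θ (nu d θ) (c, innov θ c p))) *
      (∫ p', mR θ (yF k s c p') ∂(kap θ (nu d θ) (c, innov θ c p))) ∂(PPn (nu d θ)) = 0 := by
  have mt : Measurable[sA c {a | Bef c k t a}] (fun p : Om (W d) => mR θ (yF k t c p)) := by
    simp only [yF_eq_fJ]; exact measurable_mR_sA θ c subset_rfl (k + 1)
  have ms' : Measurable[sA c {a | Bef c k t a}] (fun p : Om (W d) => mR θ (yF k s c p)) := by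
    simp only [yF_eq_fJ]; exact measurable_mR_sA θ c (past_mono hst) (k + 1)
  have ms : Measurable[sA c {a | Bef c k s a}] (fun p : Om (W d) => mR θ (yF k s c p)) := by
    simp only [yF_eq_fJ]; exact measurable_mR_sA θ c subset_rfl (k + 1)
  refine orth_gen hc k hst (fun p => mR θ (yF k t c p) - mR θ (yF k s c p))
    (fun p => mR θ (yF k s c p)) (mt.sub ms') (Cf := 2) (fun p => ?_) ms (Cg := 1)
    (fun p => abs_mR_le θ _) (fun H hH hC => ?_)
  · have a1 := abs_mR_le θ (yF k t c p)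
    have a2 := abs_mR_le θ (yF k s c p)
    have a3 := abs_sub (mR θ (yF k t c p)) (mR θ (yF k s c p))
    linarith
  · have e := mart h0 h1 c (past_mono (c := c) (k := k) hst) past_lt past_lt H hH hC
    obtain ⟨C, hC⟩ := hC
    simp only [← yF_eq_fJ] at e
    have hHm : Measurable H := hH.mono (sA_le c _) le_rfl
    have ii : ∀ r, Measurable (fun p : Om (W d) => mR θ (yF k r c p)) →
        Integrable (fun p : Om (W d) => H p * mR θ (yF k r c p)) (PPn (nu d θ)) := by
      intro r hr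
      refine Integrable.of_bound (C := C) (hHm.mul hr).aestronglyMeasurable
        (Eventually.of_forall fun p => ?_)
      rw [Real.norm_eq_abs, abs_mul]
      have := hC p
      have := abs_mR_le θ (yF k r c p)
      nlinarith [abs_nonneg (H p), abs_nonneg (mR θ (yF k r c p))]
    have e2 : ∀ p, H p * (mR θ (yF k t c p) - mR θ (yF k s c p)) =
        H p * mR θ (yF k t c p) - H p * mR θ (yF k s c p) := fun p => by ring
    rw [integral_congr_ae (Eventually.of_forall e2),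
      integral_sub (ii t (mt.mono (sA_le c _) le_rfl)) (ii s (ms.mono (sA_le c _) le_rfl)), e,
      sub_self]

theorem orth_inc (k : ℕ) {s t : ℝ} (hst : s ≤ t) :
    have := isProb_nu d h1.le
    ∫ a, (mm θ k t (a.1.1, a.2.1) - mm θ k s (a.1.1, a.2.1)) * mm θ k s (a.1.1, a.2.2)
      ∂(pairM θ (nu d θ)) = 0 := by
  intro hP
  refine P3.pair_zero (fun q => mm θ k t q - mm θ k s q) (fun q => mm θ k s q)
    ((measurable_mm θ k t).sub (measurable_mm θ k s)) (measurable_mm θ k s)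
    ⟨2, fun q => ?_⟩ ⟨1, fun q => abs_mm_le θ k s q⟩ ?_
  · have a1 := abs_mm_le θ k t q
    have a2 := abs_mm_le θ k s q
    have a3 := abs_sub (mm θ k t q) (mm θ k s q)
    linarith
  · filter_upwards [P3.goodC_nu h0 h1] with c hc
    exact orth_c h0 h1 k hst hP hc

theorem orth_inc' (k : ℕ) {s t : ℝ} (hst : s ≤ t) :
    have := isProb_nu d h1.le
    ∫ a, mm θ k s (a.1.1, a.2.1) * (mm θ k t (a.1.1, a.2.2) - mm θ k s (a.1.1, a.2.2))
      ∂(pairM θ (nu d θ)) = 0 := by
  intro hP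
  refine P3.pair_zero (fun q => mm θ k s q) (fun q => mm θ k t q - mm θ k s q)
    (measurable_mm θ k s) ((measurable_mm θ k t).sub (measurable_mm θ k s))
    ⟨1, fun q => abs_mm_le θ k s q⟩ ⟨2, fun q => ?_⟩ ?_
  · have a1 := abs_mm_le θ k t q
    have a2 := abs_mm_le θ k s q
    have a3 := abs_sub (mm θ k t q) (mm θ k s q)
    linarith
  · filter_upwards [P3.goodC_nu h0 h1] with c hc
    have := orth_c h0 h1 k hst hP hc
    rw [← this]
    refine integral_congr_ae (Eventually.of_forall fun p => ?_)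
    exact mul_comm _ _

lemma mm_inc (k : ℕ) {s t : ℝ} (hst : s ≤ t) :
    ∫ q, mm θ k s q * (mm θ k t q - mm θ k s q) ∂(Pt (nu d θ)) = 0 := by
  have hP := isProb_nu d h1.le
  have ii : ∀ r, Integrable (fun q : Cl (W d) × Om (W d) => mm θ k r q * mm θ k s q)
      (Pt (nu d θ)) := by
    intro r
    refine Integrable.of_bound (C := 1)
      ((measurable_mm θ k r).mul (measurable_mm θ k s)).aestronglyMeasurable
      (Eventually.of_forall fun q => ?_)
    rw [Real.norm_eq_abs, abs_mul]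
    exact mul_le_one₀ (abs_mm_le θ k r q) (abs_nonneg _) (abs_mm_le θ k s q)
  have e : ∀ q : Cl (W d) × Om (W d), mm θ k s q * (mm θ k t q - mm θ k s q) =
      mm θ k t q * mm θ k s q - mm θ k s q * mm θ k s q := fun q => by ring
  have e2 : ∫ q, mm θ k t q * mm θ k s q ∂(Pt (nu d θ)) =
      ∫ q, mm θ k s q * mm θ k s q ∂(Pt (nu d θ)) := by
    have := mm_mm h0 h1 k hst (d := d)
    simp only [pow_two] at this
    exact this
  rw [integral_congr_ae (Eventually.of_forall e), integral_sub (ii t) (ii s), e2, sub_self]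

theorem RR_mono (k : ℕ) {s t : ℝ} (hst : s ≤ t) :
    have := isProb_nu d h1.le
    RR θ (rhoP θ (nu d θ) k s) ≤ RR θ (rhoP θ (nu d θ) k t) := by
  intro hP
  have hPM : IsProbabilityMeasure (pairM θ (nu d θ)) := by
    exact isProb_prM (Pt (nu d θ)) Prod.snd (WWm θ) (measurable_WWm θ)
  have p1 : Measurable (fun a : (Cl (W d) × (W d × ℕ → I)) × (Om (W d) × Om (W d)) =>
      (a.1.1, a.2.1)) := (measurable_fst.comp measurable_fst).prodMk (measurable_fst.comp measurable_snd)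
  have p2 : Measurable (fun a : (Cl (W d) × (W d × ℕ → I)) × (Om (W d) × Om (W d)) =>
      (a.1.1, a.2.2)) := (measurable_fst.comp measurable_fst).prodMk (measurable_snd.comp measurable_snd)
  have hRR : ∀ r, RR θ (rhoP θ (nu d θ) k r) =
      ∫ a, (mm θ k r (a.1.1, a.2.1) - mm θ k r (a.1.1, a.2.2)) ^ 2 ∂(pairM θ (nu d θ)) := by
    intro r
    unfold RR rhoP
    rw [integral_map]
    · rfl
    · exact (((measurable_yF k r).comp p1).prodMk ((measurable_yF k r).comp p2)).aemeasurable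
    · exact ((((Pair.measurable_mR θ).comp measurable_fst).sub
        ((Pair.measurable_mR θ).comp measurable_snd)).pow_const 2).aestronglyMeasurable
  set M := pairM θ (nu d θ) with hM
  have m1 : ∀ r, Measurable (fun a : (Cl (W d) × (W d × ℕ → I)) × (Om (W d) × Om (W d)) =>
      mm θ k r (a.1.1, a.2.1)) := fun r => (measurable_mm θ k r).comp p1
  have m2 : ∀ r, Measurable (fun a : (Cl (W d) × (W d × ℕ → I)) × (Om (W d) × Om (W d)) =>
      mm θ k r (a.1.1, a.2.2)) := fun r => (measurable_mm θ k r).comp p2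
  have ib : ∀ {f : (Cl (W d) × (W d × ℕ → I)) × (Om (W d) × Om (W d)) → ℝ}, Measurable f →
      ∀ C : ℝ, (∀ a, |f a| ≤ C) → Integrable f M := fun hf C hC =>
    Integrable.of_bound (C := C) hf.aestronglyMeasurable
      (Eventually.of_forall fun q => by rw [Real.norm_eq_abs]; exact hC q)
  have bd : ∀ r q, |mm (d := d) θ k r q| ≤ 1 := abs_mm_le θ k
  have bs : ∀ {x y : ℝ}, |x| ≤ 1 → |y| ≤ 1 → |x - y| ≤ 2 := by
    intro x y hx hy
    have := abs_sub x y
    linarith
  have bp : ∀ {x y : ℝ} {C D : ℝ}, |x| ≤ C → |y| ≤ D → |x * y| ≤ C * D := by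
    intro x y C D hx hy
    rw [abs_mul]
    exact mul_le_mul hx hy (abs_nonneg _) ((abs_nonneg _).trans hx)
  -- the four cross terms
  have c1 : ∫ a, mm θ k s (a.1.1, a.2.1) * (mm θ k t (a.1.1, a.2.1) - mm θ k s (a.1.1, a.2.1)) ∂M
      = 0 := by
    rw [pair_fst (θ := θ) (fun q => mm θ k s q * (mm θ k t q - mm θ k s q))
      ((measurable_mm θ k s).mul ((measurable_mm θ k t).sub (measurable_mm θ k s)))]
    exact mm_inc h0 h1 k hst
  have c2 : ∫ a, mm θ k s (a.1.1, a.2.2) * (mm θ k t (a.1.1, a.2.2) - mm θ k s (a.1.1, a.2.2)) ∂M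
      = 0 := by
    rw [pair_snd (θ := θ) (fun q => mm θ k s q * (mm θ k t q - mm θ k s q))
      ((measurable_mm θ k s).mul ((measurable_mm θ k t).sub (measurable_mm θ k s)))]
    exact mm_inc h0 h1 k hst
  have c3 : ∫ a, (mm θ k t (a.1.1, a.2.1) - mm θ k s (a.1.1, a.2.1)) * mm θ k s (a.1.1, a.2.2) ∂M
      = 0 := orth_inc h0 h1 k hst
  have c4 : ∫ a, mm θ k s (a.1.1, a.2.1) * (mm θ k t (a.1.1, a.2.2) - mm θ k s (a.1.1, a.2.2)) ∂M
      = 0 := orth_inc' h0 h1 k hst
  have iA : Integrable (fun a : (Cl (W d) × (W d × ℕ → I)) × (Om (W d) × Om (W d)) =>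
      (mm θ k s (a.1.1, a.2.1) - mm θ k s (a.1.1, a.2.2)) ^ 2) M := by
    refine ib (((m1 s).sub (m2 s)).pow_const 2) (2 ^ 2) fun a => ?_
    rw [abs_pow]
    exact pow_le_pow_left₀ (abs_nonneg _) (bs (bd _ _) (bd _ _)) 2
  have iB : Integrable (fun a : (Cl (W d) × (W d × ℕ → I)) × (Om (W d) × Om (W d)) =>
      ((mm θ k t (a.1.1, a.2.1) - mm θ k s (a.1.1, a.2.1)) -
        (mm θ k t (a.1.1, a.2.2) - mm θ k s (a.1.1, a.2.2))) ^ 2) M := by
    refine ib ((((m1 t).sub (m1 s)).sub ((m2 t).sub (m2 s))).pow_const 2) (4 ^ 2) fun a => ?_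
    rw [abs_pow]
    refine pow_le_pow_left₀ (abs_nonneg _) ?_ 2
    have b1 := bs (bd t (a.1.1, a.2.1)) (bd s (a.1.1, a.2.1))
    have b2 := bs (bd t (a.1.1, a.2.2)) (bd s (a.1.1, a.2.2))
    have b3 := abs_sub (mm θ k t (a.1.1, a.2.1) - mm θ k s (a.1.1, a.2.1))
      (mm θ k t (a.1.1, a.2.2) - mm θ k s (a.1.1, a.2.2))
    linarith
  have i1 : Integrable (fun a : (Cl (W d) × (W d × ℕ → I)) × (Om (W d) × Om (W d)) =>
      mm θ k s (a.1.1, a.2.1) * (mm θ k t (a.1.1, a.2.1) - mm θ k s (a.1.1, a.2.1))) M :=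
    ib ((m1 s).mul ((m1 t).sub (m1 s))) (1 * 2) fun a => bp (bd _ _) (bs (bd _ _) (bd _ _))
  have i2 : Integrable (fun a : (Cl (W d) × (W d × ℕ → I)) × (Om (W d) × Om (W d)) =>
      mm θ k s (a.1.1, a.2.2) * (mm θ k t (a.1.1, a.2.2) - mm θ k s (a.1.1, a.2.2))) M :=
    ib ((m2 s).mul ((m2 t).sub (m2 s))) (1 * 2) fun a => bp (bd _ _) (bs (bd _ _) (bd _ _))
  have i3 : Integrable (fun a : (Cl (W d) × (W d × ℕ → I)) × (Om (W d) × Om (W d)) =>
      (mm θ k t (a.1.1, a.2.1) - mm θ k s (a.1.1, a.2.1)) * mm θ k s (a.1.1, a.2.2)) M :=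
    ib (((m1 t).sub (m1 s)).mul (m2 s)) (2 * 1) fun a => bp (bs (bd _ _) (bd _ _)) (bd _ _)
  have i4 : Integrable (fun a : (Cl (W d) × (W d × ℕ → I)) × (Om (W d) × Om (W d)) =>
      mm θ k s (a.1.1, a.2.1) * (mm θ k t (a.1.1, a.2.2) - mm θ k s (a.1.1, a.2.2))) M :=
    ib ((m1 s).mul ((m2 t).sub (m2 s))) (1 * 2) fun a => bp (bd _ _) (bs (bd _ _) (bd _ _))
  have hR : ∫ a, (mm θ k t (a.1.1, a.2.1) - mm θ k t (a.1.1, a.2.2)) ^ 2 ∂M =
      ∫ a, (mm θ k s (a.1.1, a.2.1) - mm θ k s (a.1.1, a.2.2)) ^ 2 ∂M +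
      ∫ a, ((mm θ k t (a.1.1, a.2.1) - mm θ k s (a.1.1, a.2.1)) -
        (mm θ k t (a.1.1, a.2.2) - mm θ k s (a.1.1, a.2.2))) ^ 2 ∂M := by
    have h3 := comb3 (iA.add iB) (i3.add i4) ((i1.add i2).const_mul 2)
    simp only [Pi.add_apply] at h3
    rw [integral_add iA iB, integral_add i3 i4, integral_const_mul, integral_add i1 i2, c1, c2, c3,
      c4] at h3
    rw [← sub_eq_zero] at h3
    have e : ∀ a : (Cl (W d) × (W d × ℕ → I)) × (Om (W d) × Om (W d)),
        (mm θ k t (a.1.1, a.2.1) - mm θ k t (a.1.1, a.2.2)) ^ 2 =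
        (mm θ k s (a.1.1, a.2.1) - mm θ k s (a.1.1, a.2.2)) ^ 2 +
        ((mm θ k t (a.1.1, a.2.1) - mm θ k s (a.1.1, a.2.1)) -
          (mm θ k t (a.1.1, a.2.2) - mm θ k s (a.1.1, a.2.2))) ^ 2 -
        2 * ((mm θ k t (a.1.1, a.2.1) - mm θ k s (a.1.1, a.2.1)) * mm θ k s (a.1.1, a.2.2) +
          mm θ k s (a.1.1, a.2.1) * (mm θ k t (a.1.1, a.2.2) - mm θ k s (a.1.1, a.2.2))) +
        2 * (mm θ k s (a.1.1, a.2.1) * (mm θ k t (a.1.1, a.2.1) - mm θ k s (a.1.1, a.2.1)) +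
          mm θ k s (a.1.1, a.2.2) * (mm θ k t (a.1.1, a.2.2) - mm θ k s (a.1.1, a.2.2))) := by
      intro a; ring
    rw [integral_congr_ae (Eventually.of_forall e)]
    linarith
  rw [hRR, hRR, hR]
  have : 0 ≤ ∫ a, ((mm θ k t (a.1.1, a.2.1) - mm θ k s (a.1.1, a.2.1)) -
        (mm θ k t (a.1.1, a.2.2) - mm θ k s (a.1.1, a.2.2))) ^ 2 ∂M :=
    integral_nonneg fun a => sq_nonneg _
  linarith

end

end Crest.Agent.TI.Mono
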