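import Crest.Agent.TIEvol
import Crest.Agent.TIMart
import Crest.Agent.TIPairD
import Crest.Agent.TIMono
import Crest.Agent.TIEnergy
import Crest.Agent.TIMain

/-!
Row 160 (S0241).  The evolution inequality for the Ising model; the remaining hypotheses of the
main theorem.
-/

set_option autoImplicit false

namespace Crest.Agent.TI.Evol

open MeasureTheory ProbabilityTheory unitInterval Set Filter Topology
open scoped ENNReal

variable {d : ℕ} {θ : ℝ}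

theorem evol_nu (hd : 2 ≤ d) (h0 : 0 ≤ θ) (h1 : θ < 1) (hb : ((d : ℝ) - 1) * θ ^ 2 ≤ 1)
    [IsProbabilityMeasure (nu d θ)] (k : ℕ) {s t : ℝ} (hs : 0 ≤ s) (hst : s ≤ t)
    (ht : t ≤ 1 / 2) (hsk : 0 < s ∨ 1 ≤ k) :
    ENNReal.ofReal (RR θ (rhoP θ (nu d θ) k t)) ≤ ENNReal.ofReal (RR θ (rhoP θ (nu d θ) k s)) +
      ENNReal.ofReal 4 * ∫⁻ r in Ico s t, ENNReal.ofReal (r ^ 2) * SS θ (rhoP θ (nu d θ) k r) := by
  refine evol h0 h1 (P3.law_nu h0 h1) (P3.goodC_nu h0 h1) hs hst ht ?_ ?_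
  · exact ⟨Mart.mm_mm h0 h1 k hst, fun u v huv => Mart.xi_xi h0 h1 k s t huv,
      fun u => Mart.mm_xi h0 h1 k s t u, fun u => Mart.mt_xi h0 h1 k s t u,
      Energy.energy hd h0 h1 hb k (hsk.imp id fun h => ⟨h, hs⟩) hst ht⟩
  · exact ⟨fun u v huv => P3.orth_xi_xi h0 h1 k s t huv, fun u => P3.orth_xi_m h0 h1 k s t u,
      fun u => P3.orth_m_xi h0 h1 k s t u⟩

theorem rem_nu (hd : 2 ≤ d) (h0 : 0 ≤ θ) (h1 : θ < 1) (hb : ((d : ℝ) - 1) * θ ^ 2 ≤ 1)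
    [IsFiniteMeasure (Pt (nu d θ))] : Main.Rem d θ := by
  have hP := isProb_nu d h1.le
  refine ⟨fun k => ?_, 4, by norm_num, fun k s t hs hst ht hsk => ?_⟩
  · intro s _ t _ hst
    exact Mono.RR_mono h0 h1 k hst
  · exact evol_nu hd h0 h1 hb k hs hst ht hsk

end Crest.Agent.TI.Evol
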