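import Crest.Agent.FIIDMain
import Crest.Prelude.Def_StronglyRayleigh
import Crest.Prelude.Def_Labels

set_option autoImplicit false

namespace Crest.Agent.SRFactor

open MeasureTheory unitInterval Set Filter Topology ProbabilityTheory
open scoped ENNReal
open Crest.Agent.FIID
open Crest.ProbabilityR.StronglyRayleigh

variable {Γ : Type*} [Group Γ]

open Classical in
/-- exhausting finite sets translated by `v` -/
noncomputable def Fn (base : ℕ → Finset Γ) (v : Γ) (n : ℕ) : Finset Γ :=
  (base n).image (fun g => v * g)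

lemma measurable_leftShift (g : Γ) : Measurable (leftShift (X := Bool) g) :=
  measurable_pi_iff.2 fun _ => measurable_pi_apply _

lemma map_leftShift {ν : Measure (Γ → Bool)} (hinv : IsShiftInvariant ν) (g : Γ) :
    ν.map (leftShift g) = ν := by
  ext A hA
  rw [Measure.map_apply (measurable_leftShift g) hA]
  exact hinv g A hA

lemma sum_shift (base : ℕ → Finset Γ) (g v : Γ) (n : ℕ) (y : Γ → ℝ) (x : Γ → Bool) :
    ∑ u ∈ Fn base v n, y (g⁻¹ * u) * b2r (leftShift g x u) =
      ∑ u ∈ Fn base (g⁻¹ * v) n, y u * b2r (x u) := by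
  classical
  unfold Fn
  rw [Finset.sum_image (fun a _ b _ h => mul_left_cancel h),
    Finset.sum_image (fun a _ b _ h => mul_left_cancel h)]
  refine Finset.sum_congr rfl fun u _ => ?_
  simp only [leftShift, mul_assoc]

lemma tiltI_shift {ν : Measure (Γ → Bool)} (hinv : IsShiftInvariant ν) (base : ℕ → Finset Γ)
    (g v : Γ) (n : ℕ) (y : Γ → ℝ) :
    tiltI ν (Fn base (g⁻¹ * v) n) (g⁻¹ * v) y =
      tiltI ν (Fn base v n) v (y ∘ (fun h => g⁻¹ * h)) := by
  have hmp : MeasurePreserving (leftShift (X := Bool) g) ν ν :=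
    ⟨measurable_leftShift g, map_leftShift hinv g⟩
  have hden : tden ν (Fn base v n) (y ∘ (fun h => g⁻¹ * h)) =
      tden ν (Fn base (g⁻¹ * v) n) y := by
    unfold tden
    have hm : Measurable (fun x : Γ → Bool =>
        Real.exp (∑ u ∈ Fn base v n, (y ∘ (fun h => g⁻¹ * h)) u * b2r (x u))) :=
      Measurable.of_uncurry_left (f := fun (y : Γ → ℝ) (x : Γ → Bool) =>
        Real.exp (∑ u ∈ Fn base v n, y u * b2r (x u))) (measurable_expo (Fn base v n))
    conv_lhs => rw [← map_leftShift hinv g]
    rw [integral_map hmp.measurable.aemeasurable hm.aestronglyMeasurable]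
    refine integral_congr_ae (Eventually.of_forall fun x => ?_)
    simp only [Function.comp_apply]
    rw [sum_shift]
  have hnum : tnum ν (Fn base v n) v (y ∘ (fun h => g⁻¹ * h)) =
      tnum ν (Fn base (g⁻¹ * v) n) (g⁻¹ * v) y := by
    unfold tnum
    have hm : Measurable (fun x : Γ → Bool => b2r (x v) *
        Real.exp (∑ u ∈ Fn base v n, (y ∘ (fun h => g⁻¹ * h)) u * b2r (x u))) :=
      (measurable_b2r.comp (measurable_pi_apply v)).mul
      (Measurable.of_uncurry_left (f := fun (y : Γ → ℝ) (x : Γ → Bool) =>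
        Real.exp (∑ u ∈ Fn base v n, y u * b2r (x u))) (measurable_expo (Fn base v n)))
    conv_lhs => rw [← map_leftShift hinv g]
    rw [integral_map hmp.measurable.aemeasurable hm.aestronglyMeasurable]
    refine integral_congr_ae (Eventually.of_forall fun x => ?_)
    simp only [Function.comp_apply]
    rw [sum_shift]
    rfl
  unfold tiltI
  rw [hden, hnum]

lemma drift_shift {ν : Measure (Γ → Bool)} (hinv : IsShiftInvariant ν) (base : ℕ → Finset Γ)
    (g v : Γ) (y : Γ → ℝ) :
    driftOf ν (Fn base) (g⁻¹ * v) y = driftOf ν (Fn base) v (y ∘ (fun h => g⁻¹ * h)) := by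
  unfold driftOf
  simp only [tiltI_shift hinv]

/-- S0255 from the Lipschitz property. -/
theorem main [Countable Γ] (ν : Measure (Γ → Bool)) [IsProbabilityMeasure ν]
    (hlip : ∀ (F : Finset Γ) (v : Γ), v ∈ F → ∀ (y y' : Γ → ℝ) (δ : ℝ), 0 ≤ δ →
      (∀ u, |y u - y' u| ≤ δ) → |(tiltI ν F v y : ℝ) - tiltI ν F v y'| ≤ 2 * δ)
    (hinv : IsShiftInvariant ν) :
    ∃ Φ : (Γ → unitInterval) → (Γ → Bool), Measurable Φ ∧
      (∀ (g : Γ) (u : Γ → unitInterval), Φ (leftShift g u) = leftShift g (Φ u)) ∧
      (Crest.ProbabilityR.Labels.labelMeasure Γ).map Φ = ν := by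
  classical
  obtain ⟨f, hf⟩ := exists_injective_nat Γ
  have hfin : ∀ n, {g : Γ | f g < n}.Finite := fun n =>
    Set.Finite.preimage hf.injOn (Set.finite_Iio n)
  set base : ℕ → Finset Γ := fun n => insert 1 (hfin n).toFinset with hbase
  have hbmono : Monotone base := by
    intro n n' hn
    refine Finset.insert_subset_insert _ ?_
    intro g hg
    simp only [Set.Finite.mem_toFinset, Set.mem_ofPred_eq] at hg ⊢
    exact hg.trans_le hn
  have hmono : ∀ v, Monotone (Fn base v) := fun v n n' hn => Finset.image_subset_image (hbmono hn)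
  have hex : ∀ v u, ∃ n, u ∈ Fn base v n := by
    intro v u
    refine ⟨f (v⁻¹ * u) + 1, ?_⟩
    unfold Fn
    rw [Finset.mem_image]
    refine ⟨v⁻¹ * u, ?_, by simp⟩
    simp only [hbase, Finset.mem_insert, Set.Finite.mem_toFinset, Set.mem_ofPred_eq]
    exact Or.inr (Nat.lt_succ_self _)
  have hv : ∀ v n, v ∈ Fn base v n := by
    intro v n
    unfold Fn
    rw [Finset.mem_image]
    exact ⟨1, by simp [hbase], by simp⟩
  have htl : TiltLip ν (Fn base) := fun v n y y' δ hδ hy => hlip _ v (hv v n) y y' δ hδ hy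
  obtain ⟨s, hs, hs2⟩ := exists_split (ℕ ⊕ ℕ)
  refine ⟨factor s (driftOf ν (Fn base)), measurable_factor (measurable_driftOf ν _) hs, ?_, ?_⟩
  · intro g u
    funext v
    exact factor_relab (fun h => g⁻¹ * h) (fun v y => drift_shift hinv base g v y) s u v
  · exact factor_law ν hmono hex htl hs hs2

end Crest.Agent.SRFactor
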