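import Crest.Agent.FIIDLaw
import Crest.Prelude.Def_StronglyRayleigh

set_option autoImplicit false

namespace Crest.Agent.SRLip

open MeasureTheory Complex Set Filter Topology

/-- the square root of a point of the slit plane has positive real part -/
lemma re_sqrt_pos {z : ℂ} (hz : z ∈ slitPlane) : 0 < (z ^ (1 / 2 : ℂ)).re := by
  have h0 : z ≠ 0 := slitPlane_ne_zero hz
  rw [Complex.cpow_def_of_ne_zero h0, Complex.exp_re]
  refine mul_pos (Real.exp_pos _) (Real.cos_pos_of_mem_Ioo ⟨?_, ?_⟩)
  · have := Complex.neg_pi_lt_arg z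
    have h1 : (Complex.log z * (1 / 2)).im = arg z / 2 := by
      rw [mul_comm]
      simp [Complex.log_im]
      ring
    rw [h1]
    linarith
  · have h2 : arg z < Real.pi :=
      lt_of_le_of_ne (Complex.arg_le_pi z) (Complex.mem_slitPlane_iff_arg.1 hz).1
    have h1 : (Complex.log z * (1 / 2)).im = arg z / 2 := by
      rw [mul_comm]
      simp [Complex.log_im]
      ring
    rw [h1]
    linarith

lemma sq_mem_slit {w : ℂ} (hw : 0 < w.re) : w ^ 2 ∈ slitPlane := by
  rw [mem_slitPlane_iff]
  by_cases h : w.im = 0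
  · left
    rw [pow_two, mul_re, h]
    nlinarith
  · right
    rw [pow_two, mul_im]
    have : w.re * w.im + w.im * w.re = 2 * (w.re * w.im) := by ring
    rw [this]
    exact mul_ne_zero two_ne_zero (mul_ne_zero hw.ne' h)

lemma moebius_re {ζ : ℂ} (h : ‖ζ‖ < 1) : 0 < ((1 + ζ) / (1 - ζ)).re := by
  have h1 : (1 - ζ) ≠ 0 := by
    intro h0
    have : ζ = 1 := by linear_combination -h0
    rw [this] at h
    simp at h
  have h2 : 0 < normSq (1 - ζ) := normSq_pos.2 h1
  have h3 : ζ.re ^ 2 + ζ.im ^ 2 < 1 := by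
    have := Complex.sq_norm ζ
    rw [normSq_apply] at this
    nlinarith [norm_nonneg ζ]
  rw [div_re]
  rw [← add_div]
  refine div_pos ?_ h2
  simp
  nlinarith

lemma norm_sub_lt_norm_add {K : ℂ} {a : ℝ} (hK : 0 < K.re) (ha : 0 < a) :
    ‖K - a‖ < ‖K + a‖ := by
  have h1 : ‖K - a‖ ^ 2 < ‖K + a‖ ^ 2 := by
    rw [Complex.sq_norm, Complex.sq_norm, normSq_apply, normSq_apply]
    simp
    nlinarith [mul_pos hK ha]
  exact lt_of_pow_lt_pow_left₀ 2 (norm_nonneg _) h1

/-- Schwarz-Pick on the slit plane -/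
theorem slit_schwarz (g : ℂ → ℂ) (hd : DifferentiableOn ℂ g slitPlane)
    (hm : MapsTo g slitPlane slitPlane) (hr : ∀ x : ℝ, 0 < x → (g x).im = 0)
    (c : ℝ) (hc : 1 ≤ c) : (g c).re ≤ c * (g 1).re := by
  -- values on the positive axis
  have hreal : ∀ x : ℝ, 0 < x → g x = ((g x).re : ℂ) ∧ 0 < (g x).re := by
    intro x hx
    have h1 : g x ∈ slitPlane := hm (by rw [ofReal_mem_slitPlane]; exact hx)
    have h2 := hr x hx
    refine ⟨Complex.ext (by simp) (by simpa using h2), ?_⟩
    rcases mem_slitPlane_iff.1 h1 with h | h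
    · exact h
    · exact absurd h2 h
  set K : ℂ → ℂ := fun w => (g (w ^ 2)) ^ (1 / 2 : ℂ) with hK
  have hKre : ∀ w : ℂ, 0 < w.re → 0 < (K w).re := fun w hw => re_sqrt_pos (hm (sq_mem_slit hw))
  have hKreal : ∀ x : ℝ, 0 < x → K x = (Real.sqrt (g ((x ^ 2 : ℝ) : ℂ)).re : ℂ) := by
    intro x hx
    have h1 := hreal (x ^ 2) (by positivity)
    simp only [hK]
    rw [← ofReal_pow]
    generalize g ((x ^ 2 : ℝ) : ℂ) = t at h1
    obtain ⟨h1, h2⟩ := h1
    rw [Real.sqrt_eq_rpow, Complex.ofReal_cpow h2.le, ← h1]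
    push_cast
    rfl
  set k1 : ℝ := Real.sqrt (g 1).re with hk1
  have hg1 := hreal 1 one_pos
  have hk1pos : 0 < k1 := Real.sqrt_pos.2 (by simpa using hg1.2)
  have hK1 : K 1 = k1 := by
    have := hKreal 1 one_pos
    simpa using this
  set ψ : ℂ → ℂ := fun ζ => (K ((1 + ζ) / (1 - ζ)) - k1) / (K ((1 + ζ) / (1 - ζ)) + k1) with hψ
  have hden : ∀ w : ℂ, 0 < w.re → K w + k1 ≠ 0 := by
    intro w hw h0
    have h1 := norm_sub_lt_norm_add (hKre w hw) hk1pos
    rw [h0] at h1
    simp at h1
    exact absurd h1 (not_lt.2 (norm_nonneg _))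
  have hKd : ∀ w : ℂ, 0 < w.re → DifferentiableAt ℂ K w := by
    intro w hw
    have h1 : DifferentiableAt ℂ g (w ^ 2) :=
      (hd (w ^ 2) (sq_mem_slit hw)).differentiableAt (isOpen_slitPlane.mem_nhds (sq_mem_slit hw))
    have h2 : DifferentiableAt ℂ (fun w : ℂ => g (w ^ 2)) w :=
      DifferentiableAt.comp (g := g) w h1 (by fun_prop)
    exact h2.cpow (differentiableAt_const _) (hm (sq_mem_slit hw))
  have hψd : DifferentiableOn ℂ ψ (Metric.ball 0 1) := by
    intro ζ hζ
    have hζ' : ‖ζ‖ < 1 := by simpa using hζ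
    have h1 : (1 - ζ) ≠ 0 := by
      intro h0
      have : ζ = 1 := by linear_combination -h0
      rw [this] at hζ'
      simp at hζ'
    have h2 : DifferentiableAt ℂ (fun ζ : ℂ => (1 + ζ) / (1 - ζ)) ζ :=
      DifferentiableAt.div (by fun_prop) (by fun_prop) h1
    have h3 : DifferentiableAt ℂ (fun ζ : ℂ => K ((1 + ζ) / (1 - ζ))) ζ :=
      DifferentiableAt.comp (g := K) ζ (hKd _ (moebius_re hζ')) h2
    exact (DifferentiableAt.div (h3.sub_const _) (h3.add_const _)
      (hden _ (moebius_re hζ'))).differentiableWithinAt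
  have hψm : MapsTo ψ (Metric.ball 0 1) (Metric.closedBall 0 1) := by
    intro ζ hζ
    have hζ' : ‖ζ‖ < 1 := by simpa using hζ
    have h1 := norm_sub_lt_norm_add (hKre _ (moebius_re hζ')) hk1pos
    rw [mem_closedBall_zero_iff]
    simp only [hψ]
    rw [norm_div]
    exact div_le_one_of_le₀ h1.le (norm_nonneg _)
  have hψ0 : ψ 0 = 0 := by
    simp only [hψ]
    simp [hK1]
  -- the point
  set s : ℝ := Real.sqrt c with hs
  have hs1 : 1 ≤ s := by rw [hs]; exact Real.one_le_sqrt.2 hc
  have hs2 : s ^ 2 = c := Real.sq_sqrt (by linarith)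
  set ζ : ℂ := (((s - 1) / (s + 1) : ℝ) : ℂ) with hζ
  have hnn : 0 ≤ (s - 1) / (s + 1) := div_nonneg (by linarith) (by linarith)
  have hζn : ‖ζ‖ = (s - 1) / (s + 1) := by
    rw [hζ, norm_real, Real.norm_eq_abs, abs_of_nonneg hnn]
  have hζ1 : ‖ζ‖ < 1 := by
    rw [hζn, div_lt_one (by linarith)]
    linarith
  have hw : (1 + ζ) / (1 - ζ) = (s : ℂ) := by
    rw [hζ]
    have : (1 + ((s - 1) / (s + 1) : ℝ)) / (1 - ((s - 1) / (s + 1) : ℝ)) = s := by
      have : s + 1 ≠ 0 := by linarith
      field_simp
      ring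
    exact_mod_cast congrArg (fun r : ℝ => (r : ℂ)) this
  have hS := Complex.norm_le_norm_of_mapsTo_ball hψd hψm hψ0 hζ1
  rw [hζn] at hS
  simp only [hψ] at hS
  rw [hw, hKreal s (by linarith), hs2] at hS
  set kc : ℝ := Real.sqrt (g (c : ℂ)).re with hkc
  have hgc := hreal c (by linarith)
  have hkcpos : 0 < kc := Real.sqrt_pos.2 hgc.2
  rw [← ofReal_sub, ← ofReal_add, ← ofReal_div, norm_real, Real.norm_eq_abs] at hS
  have h1 : (kc - k1) / (kc + k1) ≤ (s - 1) / (s + 1) := (le_abs_self _).trans hS
  rw [div_le_div_iff₀ (by linarith) (by linarith)] at h1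
  have h2 : kc ≤ s * k1 := by nlinarith
  have h3 : kc ^ 2 = (g (c : ℂ)).re := Real.sq_sqrt hgc.2.le
  have h4 : k1 ^ 2 = (g 1).re := Real.sq_sqrt (by simpa using hg1.2.le)
  rw [← h3, ← h4, ← hs2, ← mul_pow]
  exact pow_le_pow_left₀ hkcpos.le h2 2


open ComplexConjugate in
lemma div_im' (a b : ℂ) : (a / b).im = (a * conj b).im / normSq b := by
  rw [div_eq_mul_inv, inv_def, ← mul_assoc, im_mul_ofReal, div_eq_mul_inv]

open ComplexConjugate in
lemma nevan_of_stable {a b : ℂ} (h : ∀ w : ℂ, 0 < w.im → a + w * b ≠ 0) :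
    0 ≤ (a * conj b).im := by
  by_contra hlt
  rw [not_le] at hlt
  have hb : b ≠ 0 := by
    intro hb
    rw [hb] at hlt
    simp at hlt
  refine h (-a / b) ?_ ?_
  · rw [div_im']
    refine div_pos ?_ (normSq_pos.2 hb)
    rw [neg_mul, neg_im]
    linarith
  · rw [div_mul_cancel₀ _ hb]
    ring

open ComplexConjugate in
theorem scale_ineq (f0 f1 : ℂ → ℂ) (h0 : Differentiable ℂ f0) (h1 : Differentiable ℂ f1)
    (c0 : ∀ z, f0 (conj z) = conj (f0 z)) (c1 : ∀ z, f1 (conj z) = conj (f1 z))
    (p0 : ∀ x : ℝ, 0 < x → 0 ≤ (f0 x).re)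
    (hne : ∀ x : ℝ, 0 < x → 0 < (f0 x).re + x * (f1 x).re)
    (hst : ∀ z w : ℂ, 0 < z.im → 0 < w.im → f0 z + w * f1 z ≠ 0)
    (c : ℝ) (hc : 1 ≤ c) : (f0 c).re * (f1 1).re ≤ c * ((f0 1).re * (f1 c).re) := by
  set D : ℂ → ℂ := fun z => f0 z + z * f1 z with hD
  set g : ℂ → ℂ := fun z => z * f0 z / D z + z with hg
  have hreal0 : ∀ x : ℝ, f0 x = ((f0 x).re : ℂ) := by
    intro x
    have := c0 x
    rw [conj_ofReal] at this
    exact (conj_eq_iff_re.1 this.symm).symm
  have hreal1 : ∀ x : ℝ, f1 x = ((f1 x).re : ℂ) := by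
    intro x
    have := c1 x
    rw [conj_ofReal] at this
    exact (conj_eq_iff_re.1 this.symm).symm
  have hDreal : ∀ x : ℝ, D x = (((f0 x).re + x * (f1 x).re : ℝ) : ℂ) := by
    intro x
    simp only [hD]
    rw [hreal0, hreal1]
    push_cast
    simp
  have hgreal : ∀ x : ℝ, g x =
      ((x * (f0 x).re / ((f0 x).re + x * (f1 x).re) + x : ℝ) : ℂ) := by
    intro x
    simp only [hg]
    rw [hDreal, hreal0]
    push_cast
    simp
  have hDconj : ∀ z, D (conj z) = conj (D z) := by
    intro z
    simp only [hD, c0, c1, map_add, map_mul]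
  have hgconj : ∀ z, g (conj z) = conj (g z) := by
    intro z
    simp only [hg, c0, hDconj, map_add, map_mul, map_div₀]
  have hDup : ∀ z : ℂ, 0 < z.im → D z ≠ 0 := fun z hz => hst z z hz hz
  have hDne : ∀ z ∈ slitPlane, D z ≠ 0 := by
    intro z hz
    rcases lt_trichotomy z.im 0 with h | h | h
    · have h2 : 0 < (conj z).im := by rw [conj_im]; linarith
      have h3 := hDup _ h2
      rw [hDconj] at h3
      intro h4
      rw [h4, map_zero] at h3
      exact h3 rfl
    · have h2 : z = (z.re : ℂ) := Complex.ext (by simp) (by simpa using h)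
      have h3 : 0 < z.re := by
        rcases mem_slitPlane_iff.1 hz with h4 | h4
        · exact h4
        · exact absurd h h4
      rw [h2, hDreal]
      exact_mod_cast (hne _ h3).ne'
    · exact hDup z h
  have hgup : ∀ z : ℂ, 0 < z.im → 0 < (g z).im := by
    intro z hz
    simp only [hg]
    rw [add_im, div_im']
    refine add_pos_of_nonneg_of_pos (div_nonneg ?_ (normSq_nonneg _)) hz
    have h2 := nevan_of_stable (hst z · hz)
    have h3 : z * f0 z * conj (D z) = z * ((normSq (f0 z) : ℝ) : ℂ) +
        ((normSq z : ℝ) : ℂ) * (f0 z * conj (f1 z)) := by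
      simp only [hD, map_add, map_mul]
      rw [← mul_conj, ← mul_conj]
      ring
    rw [h3, add_im, im_mul_ofReal, im_ofReal_mul]
    exact add_nonneg (mul_nonneg hz.le (normSq_nonneg _)) (mul_nonneg (normSq_nonneg _) h2)
  have hmaps : MapsTo g slitPlane slitPlane := by
    intro z hz
    rw [mem_slitPlane_iff]
    rcases lt_trichotomy z.im 0 with h | h | h
    · right
      have h2 : 0 < (conj z).im := by rw [conj_im]; linarith
      have h3 := hgup _ h2
      rw [hgconj, conj_im] at h3
      linarith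
    · left
      have h2 : z = (z.re : ℂ) := Complex.ext (by simp) (by simpa using h)
      have h3 : 0 < z.re := by
        rcases mem_slitPlane_iff.1 hz with h4 | h4
        · exact h4
        · exact absurd h h4
      rw [h2, hgreal, ofReal_re]
      exact add_pos_of_nonneg_of_pos (div_nonneg (mul_nonneg h3.le (p0 _ h3)) (hne _ h3).le) h3
    · right
      exact (hgup z h).ne'
  have hdiff : DifferentiableOn ℂ g slitPlane := by
    intro z hz
    refine DifferentiableAt.differentiableWithinAt ?_
    have h2 : DifferentiableAt ℂ D z := (h0 z).add (differentiableAt_id.mul (h1 z))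
    exact ((differentiableAt_id.mul (h0 z)).div h2 (hDne z hz)).add differentiableAt_id
  have hr : ∀ x : ℝ, 0 < x → (g x).im = 0 := by
    intro x _
    rw [hgreal, ofReal_im]
  have key := slit_schwarz g hdiff hmaps hr c hc
  have e1 := hgreal 1
  rw [ofReal_one] at e1
  rw [hgreal c, e1, ofReal_re, ofReal_re] at key
  have hc0 : (0 : ℝ) < c := by linarith
  have n1 := hne c hc0
  have n2 := hne 1 one_pos
  rw [ofReal_one] at n2
  rw [mul_add, mul_one, add_le_add_iff_right, one_mul, ← mul_div_assoc,
    div_le_div_iff₀ n1 (by simpa using n2)] at key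
  have key2 : c * ((f0 c).re * ((f0 1).re + 1 * (f1 1).re)) ≤
      c * ((f0 1).re * ((f0 c).re + c * (f1 c).re)) := by linarith
  have key3 := le_of_mul_le_mul_left key2 hc0
  nlinarith


section poly

variable {V : Type*}

/-- a multiaffine polynomial -/
noncomputable def q (m : Finset V → ℝ) (G : Finset V) (z : V → ℂ) : ℂ :=
  ∑ S ∈ G.powerset, (m S : ℂ) * ∏ i ∈ S, z i

/-- its restriction to the reals -/
noncomputable def qr (m : Finset V → ℝ) (G : Finset V) (x : V → ℝ) : ℝ :=
  ∑ S ∈ G.powerset, m S * ∏ i ∈ S, x i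

lemma q_ofReal (m : Finset V → ℝ) (G : Finset V) (x : V → ℝ) :
    q m G (fun i => (x i : ℂ)) = (qr m G x : ℂ) := by
  unfold q qr
  push_cast
  rfl

lemma q_congr (m : Finset V → ℝ) (G : Finset V) {z z' : V → ℂ} (h : ∀ i ∈ G, z i = z' i) :
    q m G z = q m G z' := by
  unfold q
  refine Finset.sum_congr rfl fun S hS => ?_
  rw [Finset.prod_congr rfl fun i hi => h i (Finset.mem_powerset.1 hS hi)]

lemma qr_congr (m : Finset V → ℝ) (G : Finset V) {z z' : V → ℝ} (h : ∀ i ∈ G, z i = z' i) :
    qr m G z = qr m G z' := by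
  unfold qr
  refine Finset.sum_congr rfl fun S hS => ?_
  rw [Finset.prod_congr rfl fun i hi => h i (Finset.mem_powerset.1 hS hi)]

lemma q_split [DecidableEq V] (m : Finset V → ℝ) {G : Finset V} {j : V} (hj : j ∉ G)
    (z : V → ℂ) :
    q m (insert j G) z = q m G z + z j * q (fun S => m (insert j S)) G z := by
  unfold q
  rw [Finset.sum_powerset_insert hj, Finset.mul_sum]
  congr 1
  refine Finset.sum_congr rfl fun S hS => ?_
  rw [Finset.prod_insert fun h => hj (Finset.mem_powerset.1 hS h)]
  ring

lemma qr_split [DecidableEq V] (m : Finset V → ℝ) {G : Finset V} {j : V} (hj : j ∉ G)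
    (z : V → ℝ) :
    qr m (insert j G) z = qr m G z + z j * qr (fun S => m (insert j S)) G z := by
  unfold qr
  rw [Finset.sum_powerset_insert hj, Finset.mul_sum]
  congr 1
  refine Finset.sum_congr rfl fun S hS => ?_
  rw [Finset.prod_insert fun h => hj (Finset.mem_powerset.1 hS h)]
  ring

open ComplexConjugate in
lemma q_conj (m : Finset V → ℝ) (G : Finset V) (z : V → ℂ) :
    q m G (fun i => conj (z i)) = conj (q m G z) := by
  unfold q
  simp only [map_sum, map_mul, conj_ofReal, map_prod]

lemma q_differentiable (m : Finset V → ℝ) (G : Finset V) (x : V → ℂ) :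
    Differentiable ℂ (fun z : ℂ => q m G (fun i => x i * z)) := by
  unfold q
  refine Differentiable.fun_sum fun S _ => ?_
  refine Differentiable.const_mul ?_ _
  have h : (fun z : ℂ => ∏ i ∈ S, x i * z) = fun z : ℂ => (∏ i ∈ S, x i) * z ^ S.card := by
    funext z
    rw [Finset.prod_mul_distrib, Finset.prod_const]
  rw [h]
  fun_prop

lemma q_continuous (m : Finset V → ℝ) (G : Finset V) :
    Continuous (fun z : V → ℂ => q m G z) := by
  unfold q
  fun_prop

lemma qr_nonneg (m : Finset V → ℝ) (hm : ∀ S, 0 ≤ m S) (G : Finset V) (x : V → ℝ)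
    (hx : ∀ i, 0 < x i) : 0 ≤ qr m G x :=
  Finset.sum_nonneg fun S _ => mul_nonneg (hm S) (Finset.prod_nonneg fun i _ => (hx i).le)

lemma qr_pos_or_zero (m : Finset V → ℝ) (hm : ∀ S, 0 ≤ m S) (G : Finset V) :
    (∀ x : V → ℝ, (∀ i, 0 < x i) → 0 < qr m G x) ∨ (∀ x : V → ℝ, qr m G x = 0) := by
  by_cases h : ∀ S ∈ G.powerset, m S = 0
  · right
    intro x
    exact Finset.sum_eq_zero fun S hS => by rw [h S hS, zero_mul]
  · left
    push Not at h
    obtain ⟨S, hS, hmS⟩ := h
    intro x hx
    refine Finset.sum_pos' (fun T _ => mul_nonneg (hm T) (Finset.prod_nonneg fun i _ => (hx i).le))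
      ⟨S, hS, mul_pos (lt_of_le_of_ne (hm S) (Ne.symm hmS)) (Finset.prod_pos fun i _ => hx i)⟩

variable [DecidableEq V] (m : Finset V → ℝ) (hm : ∀ S, 0 ≤ m S) (G : Finset V) (v : V)
  (hv : v ∉ G)
  (hst : ∀ z : V → ℂ, (∀ i ∈ insert v G, 0 < (z i).im) → q m (insert v G) z ≠ 0)

include hv hst

omit hm in
lemma stable_pair (z : V → ℂ) (w : ℂ) (hz : ∀ i ∈ G, 0 < (z i).im) (hw : 0 < w.im) :
    q m G z + w * q (fun S => m (insert v S)) G z ≠ 0 := by
  have h1 := hst (Function.update z v w) ?_
  · rw [q_split m hv] at h1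
    have h2 : ∀ i ∈ G, Function.update z v w i = z i := fun i hi =>
      Function.update_of_ne (ne_of_mem_of_not_mem hi hv) _ _
    rw [q_congr m G h2, q_congr _ G h2, Function.update_self] at h1
    exact h1
  · intro i hi
    rcases Finset.mem_insert.1 hi with h | h
    · rw [h, Function.update_self]
      exact hw
    · rw [Function.update_of_ne (ne_of_mem_of_not_mem h hv)]
      exact hz i h

omit hm in
open ComplexConjugate in
lemma nevan_open (z : V → ℂ) (hz : ∀ i ∈ G, 0 < (z i).im) :
    0 ≤ (q m G z * conj (q (fun S => m (insert v S)) G z)).im :=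
  nevan_of_stable fun w hw => stable_pair m G v hv hst z w hz hw

omit hm in
open ComplexConjugate in
lemma nevan_closed (z : V → ℂ) (hz : ∀ i ∈ G, 0 ≤ (z i).im) :
    0 ≤ (q m G z * conj (q (fun S => m (insert v S)) G z)).im := by
  set Φ : (V → ℂ) → ℝ := fun z => (q m G z * conj (q (fun S => m (insert v S)) G z)).im with hΦ
  have hc : Continuous Φ := by
    refine Complex.continuous_im.comp ((q_continuous m G).mul ?_)
    exact continuous_conj.comp (q_continuous _ G)
  have hcε : Continuous (fun ε : ℝ => Φ (fun i => z i + ε * I)) := by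
    refine hc.comp (continuous_pi fun i => ?_)
    fun_prop
  have hlim : Tendsto (fun ε : ℝ => Φ (fun i => z i + ε * I)) (𝓝[>] 0) (𝓝 (Φ z)) := by
    have h1 := hcε.tendsto 0
    simp only [ofReal_zero, zero_mul, add_zero] at h1
    exact h1.mono_left nhdsWithin_le_nhds
  refine ge_of_tendsto hlim ?_
  filter_upwards [self_mem_nhdsWithin] with ε hε
  refine nevan_open m G v hv hst _ fun i hi => ?_
  have h1 := hz i hi
  have h2 : (0 : ℝ) < ε := hε
  simp
  linarith

omit hm in
open ComplexConjugate in
/-- monotone in one coordinate -/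
lemma mono_one (x : V → ℝ) (j : V) (t : ℝ) (hxt : x j ≤ t) :
    qr m G x * qr (fun S => m (insert v S)) G (Function.update x j t) ≤
      qr m G (Function.update x j t) * qr (fun S => m (insert v S)) G x := by
  by_cases hj : j ∈ G
  · obtain ⟨G', hjG', rfl⟩ : ∃ G', j ∉ G' ∧ G = insert j G' :=
      ⟨G.erase j, Finset.notMem_erase j G, (Finset.insert_erase hj).symm⟩
    have h1 := nevan_closed m (insert j G') v hv hst
      (Function.update (fun i => (x i : ℂ)) j I) ?_
    · have h2 : ∀ i ∈ G', Function.update (fun i => (x i : ℂ)) j I i = (x i : ℂ) := fun i hi =>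
        Function.update_of_ne (ne_of_mem_of_not_mem hi hjG') _ _
      rw [q_split m hjG', q_split _ hjG', q_congr m G' h2, q_congr _ G' h2, q_congr _ G' h2,
        q_congr _ G' h2, Function.update_self, q_ofReal, q_ofReal, q_ofReal, q_ofReal] at h1
      have h3 : ∀ i ∈ G', Function.update x j t i = x i := fun i hi =>
        Function.update_of_ne (ne_of_mem_of_not_mem hi hjG') _ _
      rw [qr_split m hjG', qr_split _ hjG', qr_split m hjG', qr_split _ hjG', qr_congr m G' h3,
        qr_congr _ G' h3, qr_congr _ G' h3, qr_congr _ G' h3, Function.update_self]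
      simp at h1
      nlinarith
    · intro i hi
      by_cases h : i = j
      · rw [h, Function.update_self]
        simp
      · rw [Function.update_of_ne h]
        simp
  · have h1 : ∀ i ∈ G, Function.update x j t i = x i := fun i hi =>
        Function.update_of_ne (ne_of_mem_of_not_mem hi hj) _ _
    rw [qr_congr m G h1, qr_congr _ G h1]

include hm in
/-- monotone in all coordinates -/
lemma mono_all (T : Finset V) : ∀ x x' : V → ℝ, (∀ i, 0 < x i) → (∀ i, x i ≤ x' i) →
    (∀ i ∉ T, x i = x' i) →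
    qr m G x * qr (fun S => m (insert v S)) G x' ≤
      qr m G x' * qr (fun S => m (insert v S)) G x := by
  induction T using Finset.induction_on with
  | empty =>
    intro x x' _ _ h
    have : x = x' := funext fun i => h i (Finset.notMem_empty i)
    rw [this]
  | insert j T hj ih =>
    intro x x' hx hxx' h
    rcases qr_pos_or_zero (fun S => m (insert v S)) (fun S => hm _) G with hp | hz
    · set x'' := Function.update x j (x' j) with hx''
      have hx''pos : ∀ i, 0 < x'' i := by
        intro i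
        by_cases hi : i = j
        · rw [hx'', hi, Function.update_self]
          exact (hx j).trans_le (hxx' j)
        · rw [hx'', Function.update_of_ne hi]
          exact hx i
      have hx'pos : ∀ i, 0 < x' i := fun i => (hx i).trans_le (hxx' i)
      have h1 := mono_one m G v hv hst x j (x' j) (hxx' j)
      have h2 := ih x'' x' hx''pos (fun i => ?_) (fun i hi => ?_)
      · rw [← hx''] at h1
        have p1 := hp x hx
        have p2 := hp x'' hx''pos
        have p3 := hp x' hx'pos
        rw [← div_le_div_iff₀ p1 p2] at h1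
        rw [← div_le_div_iff₀ p2 p3] at h2
        rw [← div_le_div_iff₀ p1 p3]
        exact h1.trans h2
      · by_cases hi : i = j
        · rw [hx'', hi, Function.update_self]
        · rw [hx'', Function.update_of_ne hi]
          exact hxx' i
      · by_cases hij : i = j
        · rw [hx'', hij, Function.update_self]
        · rw [hx'', Function.update_of_ne hij]
          exact h i (by simp [hij, hi])
    · simp [hz]

include hm in
/-- scaling -/
lemma scale_all (hpos : ∀ x : V → ℝ, (∀ i, 0 < x i) → 0 < qr m (insert v G) x)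
    (x : V → ℝ) (hx : ∀ i, 0 < x i) (c : ℝ) (hc : 1 ≤ c) :
    qr m G (fun i => x i * c) * qr (fun S => m (insert v S)) G x ≤
      c * (qr m G x * qr (fun S => m (insert v S)) G (fun i => x i * c)) := by
  have e : ∀ (m' : Finset V → ℝ) (t : ℝ), q m' G (fun i => (x i : ℂ) * (t : ℂ)) =
      (qr m' G (fun i => x i * t) : ℂ) := by
    intro m' t
    rw [← q_ofReal]
    push_cast
    rfl
  have h := scale_ineq (fun z => q m G (fun i => x i * z))
    (fun z => q (fun S => m (insert v S)) G (fun i => x i * z))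
    (q_differentiable _ _ _) (q_differentiable _ _ _)
    (fun z => ?_) (fun z => ?_) (fun t ht => ?_) (fun t ht => ?_) (fun z w hz hw => ?_) c hc
  · have e1 : ∀ (m' : Finset V → ℝ), q m' G (fun i => (x i : ℂ) * 1) = (qr m' G x : ℂ) := by
      intro m'
      rw [← q_ofReal]
      simp
    simp only [e, e1, ofReal_re] at h
    exact h
  · rw [← q_conj]
    simp
  · rw [← q_conj]
    simp
  · rw [e, ofReal_re]
    exact qr_nonneg m hm G _ fun i => mul_pos (hx i) ht
  · rw [e, e, ofReal_re, ofReal_re]
    have h1 := hpos (Function.update (fun i => x i * t) v t) (fun i => ?_)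
    · rw [qr_split m hv, Function.update_self] at h1
      have h3 : ∀ i ∈ G, Function.update (fun i => x i * t) v t i = x i * t := fun i hi =>
        Function.update_of_ne (ne_of_mem_of_not_mem hi hv) _ _
      rwa [qr_congr m G h3, qr_congr _ G h3] at h1
    · by_cases hi : i = v
      · rw [hi, Function.update_self]
        exact ht
      · rw [Function.update_of_ne hi]
        exact mul_pos (hx i) ht
  · refine stable_pair m G v hv hst _ w (fun i _ => ?_) hw
    rw [im_ofReal_mul]
    exact mul_pos (hx i) hz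

include hm in
lemma combo (hpos : ∀ x : V → ℝ, (∀ i, 0 < x i) → 0 < qr m (insert v G) x)
    (x x' : V → ℝ) (hx : ∀ i, 0 < x i) (hx' : ∀ i, 0 < x' i) (c : ℝ) (hc : 1 ≤ c)
    (hxx' : ∀ i, x' i ≤ x i * c) :
    qr m G x' * qr (fun S => m (insert v S)) G x ≤
      c * (qr m G x * qr (fun S => m (insert v S)) G x') := by
  rcases qr_pos_or_zero (fun S => m (insert v S)) (fun S => hm _) G with hp | hz
  · set x'' : V → ℝ := fun i => if i ∈ G then x i * c else x' i with hx''
    have hx''pos : ∀ i, 0 < x'' i := by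
      intro i
      simp only [hx'']
      split_ifs
      · exact mul_pos (hx i) (by linarith)
      · exact hx' i
    have h1 := mono_all m hm G v hv hst G x' x'' hx' (fun i => ?_) (fun i hi => ?_)
    · have h2 := scale_all m hm G v hv hst hpos x hx c hc
      have e1 : ∀ i ∈ G, x'' i = x i * c := fun i hi => by simp [hx'', hi]
      rw [qr_congr m G e1, qr_congr _ G e1] at h1
      have p1 := hp x' hx'
      have p2 := hp x hx
      have p3 := hp (fun i => x i * c) fun i => mul_pos (hx i) (by linarith)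
      set A := qr m G fun i => x i * c
      set B := qr (fun S => m (insert v S)) G fun i => x i * c
      set A1 := qr m G x
      set B1 := qr (fun S => m (insert v S)) G x
      set A2 := qr m G x'
      set B2 := qr (fun S => m (insert v S)) G x'
      have h3 : A2 * B1 * B ≤ c * (A1 * B2) * B := by
        calc A2 * B1 * B = (A2 * B) * B1 := by ring
          _ ≤ (A * B2) * B1 := mul_le_mul_of_nonneg_right h1 p2.le
          _ = (A * B1) * B2 := by ring
          _ ≤ (c * (A1 * B)) * B2 := mul_le_mul_of_nonneg_right h2 p1.le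
          _ = _ := by ring
      exact le_of_mul_le_mul_right h3 p3
    · simp only [hx'']
      split_ifs
      · exact hxx' i
      · exact le_refl _
    · simp [hx'', hi]
  · simp [hz]

end poly


section law

variable {V : Type*}

open FIID Crest.ProbabilityR.StronglyRayleigh

/-- the mass of a cylinder -/
noncomputable def cm (ν : Measure (V → Bool)) (F : Finset V) (S : Finset V) : ℝ :=
  (ν {ω | ∀ i ∈ F, (ω i = true ↔ i ∈ S)}).toReal

lemma measurableSet_cyl (F S : Finset V) :
    MeasurableSet {ω : V → Bool | ∀ i ∈ F, (ω i = true ↔ i ∈ S)} := by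
  have h : {ω : V → Bool | ∀ i ∈ F, (ω i = true ↔ i ∈ S)} =
      ⋂ i ∈ F, (fun ω : V → Bool => ω i) ⁻¹' {b | b = true ↔ i ∈ S} := by
    ext ω
    simp
  rw [h]
  exact Finset.measurableSet_biInter _ fun i _ => measurable_pi_apply i (MeasurableSet.of_discrete)

lemma integral_cyl (ν : Measure (V → Bool)) [IsProbabilityMeasure ν] (F : Finset V)
    (g : Finset V → ℝ) :
    ∫ x, g (F.filter fun i => x i = true) ∂ν = ∑ S ∈ F.powerset, cm ν F S * g S := by
  classical
  have h1 : ∀ x : V → Bool, g (F.filter fun i => x i = true) =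
      ∑ S ∈ F.powerset, ({ω : V → Bool | ∀ i ∈ F, (ω i = true ↔ i ∈ S)}).indicator
        (fun _ => g S) x := by
    intro x
    rw [Finset.sum_eq_single (F.filter fun i => x i = true)]
    · rw [Set.indicator_of_mem]
      rw [Set.mem_ofPred_eq]
      intro i hi
      simp [hi]
    · intro S hS hne
      rw [Set.indicator_of_notMem]
      intro h
      rw [Set.mem_ofPred_eq] at h
      refine hne ?_
      ext i
      rw [Finset.mem_filter]
      constructor
      · intro hi
        exact ⟨Finset.mem_powerset.1 hS hi, (h i (Finset.mem_powerset.1 hS hi)).2 hi⟩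
      · rintro ⟨h1, h2⟩
        exact (h i h1).1 h2
    · intro h
      exact absurd (Finset.mem_powerset.2 (Finset.filter_subset _ _)) h
  rw [integral_congr_ae (Eventually.of_forall h1), integral_finsetSum]
  · refine Finset.sum_congr rfl fun S _ => ?_
    rw [integral_indicator_const _ (measurableSet_cyl F S), smul_eq_mul]
    rfl
  · intro S _
    exact (integrable_const _).indicator (measurableSet_cyl F S)

lemma expo_eq (F : Finset V) (y : V → ℝ) (x : V → Bool) :
    Real.exp (∑ u ∈ F, y u * b2r (x u)) =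
      ∏ i ∈ F.filter (fun i => x i = true), Real.exp (y i) := by
  rw [← Real.exp_sum, Finset.sum_filter]
  congr 1
  refine Finset.sum_congr rfl fun i _ => ?_
  cases x i <;> simp [b2r]

lemma tden_eq (ν : Measure (V → Bool)) [IsProbabilityMeasure ν] (F : Finset V) (y : V → ℝ) :
    tden ν F y = qr (cm ν F) F (fun i => Real.exp (y i)) := by
  unfold tden qr
  simp_rw [expo_eq]
  exact integral_cyl ν F fun S => ∏ i ∈ S, Real.exp (y i)

lemma tnum_eq [DecidableEq V] (ν : Measure (V → Bool)) [IsProbabilityMeasure ν] (G : Finset V)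
    (v : V) (hv : v ∉ G) (y : V → ℝ) :
    tnum ν (insert v G) v y = Real.exp (y v) *
      qr (fun S => cm ν (insert v G) (insert v S)) G (fun i => Real.exp (y i)) := by
  unfold tnum
  have h1 : ∀ x : V → Bool, b2r (x v) * Real.exp (∑ u ∈ insert v G, y u * b2r (x u)) =
      (fun S : Finset V => (if v ∈ S then 1 else 0) * ∏ i ∈ S, Real.exp (y i))
        ((insert v G).filter (fun i => x i = true)) := by
    intro x
    rw [expo_eq]
    simp only
    congr 1
    simp [b2r]
  rw [integral_congr_ae (Eventually.of_forall h1),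
    integral_cyl ν (insert v G) (fun S : Finset V => (if v ∈ S then 1 else 0) *
      ∏ i ∈ S, Real.exp (y i)), Finset.sum_powerset_insert hv]
  unfold qr
  rw [Finset.mul_sum, Finset.sum_eq_zero, zero_add]
  · refine Finset.sum_congr rfl fun S hS => ?_
    have h2 : v ∉ S := fun h => hv (Finset.mem_powerset.1 hS h)
    rw [Finset.prod_insert h2, if_pos (Finset.mem_insert_self v S)]
    ring
  · intro S hS
    have h2 : v ∉ S := fun h => hv (Finset.mem_powerset.1 hS h)
    rw [if_neg h2]
    ring

lemma tilt_one_sided [DecidableEq V] (ν : Measure (V → Bool)) [IsProbabilityMeasure ν]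
    (hsr : IsStronglyRayleigh ν) (G : Finset V) (v : V) (hv : v ∉ G)
    (y y' : V → ℝ) (δ : ℝ) (hδ : 0 ≤ δ) (h : ∀ u, |y u - y' u| ≤ δ) :
    (tiltI ν (insert v G) v y : ℝ) - tiltI ν (insert v G) v y' ≤ 2 * δ := by
  rw [coe_tiltI, coe_tiltI]
  have hd := tden_pos ν (insert v G) y
  have hd' := tden_pos ν (insert v G) y'
  have hm : ∀ S, 0 ≤ cm ν (insert v G) S := fun S => ENNReal.toReal_nonneg
  have hst : ∀ z : V → ℂ, (∀ i ∈ insert v G, 0 < (z i).im) →
      q (cm ν (insert v G)) (insert v G) z ≠ 0 := fun z hz => hsr (insert v G) z hz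
  have hpos : ∀ x : V → ℝ, (∀ i, 0 < x i) → 0 < qr (cm ν (insert v G)) (insert v G) x := by
    intro x hx
    have h1 := tden_pos ν (insert v G) (fun i => Real.log (x i))
    rw [tden_eq] at h1
    simpa only [Real.exp_log (hx _)] using h1
  set x : V → ℝ := fun i => Real.exp (y i) with hx
  set x' : V → ℝ := fun i => Real.exp (y' i) with hx'
  have hc := combo (cm ν (insert v G)) hm G v hv hst hpos x x' (fun i => Real.exp_pos _)
    (fun i => Real.exp_pos _) (Real.exp δ) (Real.one_le_exp hδ) (fun i => ?_)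
  · have e1 := tnum_eq ν G v hv y
    have e2 := tnum_eq ν G v hv y'
    have e3 := tden_eq ν (insert v G) y
    have e4 := tden_eq ν (insert v G) y'
    rw [qr_split _ hv] at e3 e4
    rw [← hx] at e1 e3
    rw [← hx'] at e2 e4
    have hA : 0 ≤ qr (cm ν (insert v G)) G x :=
      qr_nonneg _ hm _ _ fun i => Real.exp_pos _
    have hB : 0 ≤ qr (fun S => cm ν (insert v G) (insert v S)) G x :=
      qr_nonneg _ (fun S => hm _) _ _ fun i => Real.exp_pos _
    have hA' : 0 ≤ qr (cm ν (insert v G)) G x' :=
      qr_nonneg _ hm _ _ fun i => Real.exp_pos _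
    have hB' : 0 ≤ qr (fun S => cm ν (insert v G) (insert v S)) G x' :=
      qr_nonneg _ (fun S => hm _) _ _ fun i => Real.exp_pos _
    set A := qr (cm ν (insert v G)) G x
    set B := qr (fun S => cm ν (insert v G) (insert v S)) G x
    set A' := qr (cm ν (insert v G)) G x'
    set B' := qr (fun S => cm ν (insert v G) (insert v S)) G x'
    have hl : Real.exp (y v) ≤ Real.exp δ * Real.exp (y' v) := by
      rw [← Real.exp_add]
      refine Real.exp_le_exp.2 ?_
      have := (abs_le.1 (h v)).2
      linarith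
    rw [e3] at hd
    rw [e4] at hd'
    rw [e1, e2, e3, e4]
    set p := Real.exp (y v)
    set p' := Real.exp (y' v)
    have hp : 0 < p := Real.exp_pos _
    have hp' : 0 < p' := Real.exp_pos _
    -- odds comparison
    have key : p * B * A' ≤ Real.exp (2 * δ) * (A * (p' * B')) := by
      have e : Real.exp (2 * δ) = Real.exp δ * Real.exp δ := by
        rw [← Real.exp_add]
        ring_nf
      calc p * B * A' = p * (A' * B) := by ring
        _ ≤ (Real.exp δ * p') * (Real.exp δ * (A * B')) :=
          mul_le_mul hl hc (mul_nonneg hA' hB) (by positivity)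
        _ = _ := by rw [e]; ring
    have key2 : Real.exp (-(2 * δ)) * (p * B * A') ≤ A * (p' * B') := by
      have h1 := mul_le_mul_of_nonneg_left key (Real.exp_pos (-(2 * δ))).le
      rw [← mul_assoc (Real.exp (-(2 * δ))) (Real.exp (2 * δ)), ← Real.exp_add] at h1
      simpa using h1
    have key3 : 1 - Real.exp (-(2 * δ)) ≤ 2 * δ := by
      have := Real.add_one_le_exp (-(2 * δ))
      linarith
    rw [div_sub_div _ _ hd.ne' hd'.ne', div_le_iff₀ (mul_pos hd hd')]
    have hpB : 0 ≤ p * B := mul_nonneg hp.le hB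
    have hpB' : 0 ≤ p' * B' := mul_nonneg hp'.le hB'
    calc p * B * (A' + p' * B') - (A + p * B) * (p' * B')
        = p * B * A' - A * (p' * B') := by ring
      _ ≤ p * B * A' - Real.exp (-(2 * δ)) * (p * B * A') := by linarith
      _ = (1 - Real.exp (-(2 * δ))) * (p * B * A') := by ring
      _ ≤ 2 * δ * (p * B * A') :=
          mul_le_mul_of_nonneg_right key3 (mul_nonneg hpB hA')
      _ ≤ 2 * δ * ((A + p * B) * (A' + p' * B')) := by
          refine mul_le_mul_of_nonneg_left ?_ (by positivity)
          nlinarith [mul_nonneg hA hA', mul_nonneg hA hpB', mul_nonneg hpB hpB']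
  · simp only [hx, hx']
    rw [← Real.exp_add]
    refine Real.exp_le_exp.2 ?_
    have := (abs_le.1 (h i)).1
    linarith

/-- tilted marginals of a strongly Rayleigh law are 2-Lipschitz in the tilt, for the sup norm -/
theorem tiltI_lip (ν : Measure (V → Bool)) [IsProbabilityMeasure ν]
    (hsr : Crest.ProbabilityR.StronglyRayleigh.IsStronglyRayleigh ν) (F : Finset V) (v : V)
    (hv : v ∈ F) (y y' : V → ℝ) (δ : ℝ) (hδ : 0 ≤ δ) (h : ∀ u, |y u - y' u| ≤ δ) :
    |(FIID.tiltI ν F v y : ℝ) - FIID.tiltI ν F v y'| ≤ 2 * δ := by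
  classical
  have hF : F = insert v (F.erase v) := (Finset.insert_erase hv).symm
  rw [hF, abs_sub_le_iff]
  refine ⟨tilt_one_sided ν hsr _ v (Finset.notMem_erase v F) y y' δ hδ h,
    tilt_one_sided ν hsr _ v (Finset.notMem_erase v F) y' y δ hδ fun u => ?_⟩
  rw [abs_sub_comm]
  exact h u

end law

end Crest.Agent.SRLip
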