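import Crest.Statements.S0316

set_option autoImplicit false
open Crest Crest.GeometryTopology

namespace Crest.Agent.S0316

open Crest.GeometryTopology.Quadric

noncomputable section

abbrev C5 := Fin 5 → ℂ

def X1 (z : C5) : C5 := ![-z 1, z 0, -z 3, z 2, 0]
def X2 (z : C5) : C5 := ![-z 2, z 3, z 0, -z 1, 0]
def Y1 (z : C5) : C5 := ![z 1, -z 0, -z 3, z 2, 0]
def Y2 (z : C5) : C5 := ![z 2, z 3, -z 0, -z 1, 0]

def RX1 (θ : ℝ) (z : C5) : C5 :=
  ![(Real.cos θ : ℂ) * z 0 - (Real.sin θ : ℂ) * z 1, (Real.cos θ : ℂ) * z 1 + (Real.sin θ : ℂ) * z 0,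
    (Real.cos θ : ℂ) * z 2 - (Real.sin θ : ℂ) * z 3, (Real.cos θ : ℂ) * z 3 + (Real.sin θ : ℂ) * z 2, z 4]
def RX2 (θ : ℝ) (z : C5) : C5 :=
  ![(Real.cos θ : ℂ) * z 0 - (Real.sin θ : ℂ) * z 2, (Real.cos θ : ℂ) * z 1 + (Real.sin θ : ℂ) * z 3,
    (Real.cos θ : ℂ) * z 2 + (Real.sin θ : ℂ) * z 0, (Real.cos θ : ℂ) * z 3 - (Real.sin θ : ℂ) * z 1, z 4]
def RY1 (θ : ℝ) (z : C5) : C5 :=
  ![(Real.cos θ : ℂ) * z 0 + (Real.sin θ : ℂ) * z 1, (Real.cos θ : ℂ) * z 1 - (Real.sin θ : ℂ) * z 0,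
    (Real.cos θ : ℂ) * z 2 - (Real.sin θ : ℂ) * z 3, (Real.cos θ : ℂ) * z 3 + (Real.sin θ : ℂ) * z 2, z 4]
def RY2 (θ : ℝ) (z : C5) : C5 :=
  ![(Real.cos θ : ℂ) * z 0 + (Real.sin θ : ℂ) * z 2, (Real.cos θ : ℂ) * z 1 + (Real.sin θ : ℂ) * z 3,
    (Real.cos θ : ℂ) * z 2 - (Real.sin θ : ℂ) * z 0, (Real.cos θ : ℂ) * z 3 - (Real.sin θ : ℂ) * z 1, z 4]

def mx1 (z : C5) : ℝ := 2 * ((z 0).re * (z 1).im - (z 0).im * (z 1).re) + 2 * ((z 2).re * (z 3).im - (z 2).im * (z 3).re)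
def mx2 (z : C5) : ℝ := 2 * ((z 0).re * (z 2).im - (z 0).im * (z 2).re) + 2 * ((z 3).re * (z 1).im - (z 3).im * (z 1).re)
def mx3 (z : C5) : ℝ := 2 * ((z 0).re * (z 3).im - (z 0).im * (z 3).re) + 2 * ((z 1).re * (z 2).im - (z 1).im * (z 2).re)
def my1 (z : C5) : ℝ := -2 * ((z 0).re * (z 1).im - (z 0).im * (z 1).re) + 2 * ((z 2).re * (z 3).im - (z 2).im * (z 3).re)
def my2 (z : C5) : ℝ := -2 * ((z 0).re * (z 2).im - (z 0).im * (z 2).re) + 2 * ((z 3).re * (z 1).im - (z 3).im * (z 1).re)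
def my3 (z : C5) : ℝ := -2 * ((z 0).re * (z 3).im - (z 0).im * (z 3).re) + 2 * ((z 1).re * (z 2).im - (z 1).im * (z 2).re)

def nrm (z : C5) : ℝ := (z 0).re ^ 2 + (z 0).im ^ 2 + ((z 1).re ^ 2 + (z 1).im ^ 2) + ((z 2).re ^ 2 + (z 2).im ^ 2)
  + ((z 3).re ^ 2 + (z 3).im ^ 2) + ((z 4).re ^ 2 + (z 4).im ^ 2)
def isoR (z : C5) : ℝ := (z 0).re ^ 2 - (z 0).im ^ 2 + ((z 1).re ^ 2 - (z 1).im ^ 2) + ((z 2).re ^ 2 - (z 2).im ^ 2)
  + ((z 3).re ^ 2 - (z 3).im ^ 2) + ((z 4).re ^ 2 - (z 4).im ^ 2)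
def isoI (z : C5) : ℝ := (z 0).re * (z 0).im + (z 1).re * (z 1).im + (z 2).re * (z 2).im
  + (z 3).re * (z 3).im + (z 4).re * (z 4).im

lemma mem_cone_iff (z : C5) : z ∈ unitCone ↔ nrm z = 1 ∧ isoR z = 0 ∧ isoI z = 0 := by
  simp only [unitCone, herm, Set.mem_ofPred_eq, Fin.sum_univ_five, Complex.ext_iff, nrm, isoR, isoI,
    Complex.add_re, Complex.add_im, Complex.mul_re, Complex.mul_im, Complex.conj_re, Complex.conj_im,
    Complex.one_re, Complex.one_im, Complex.zero_re, Complex.zero_im, pow_two]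
  constructor
  · rintro ⟨⟨h1, h2⟩, h3, h4⟩
    refine ⟨by linarith, by linarith, by linarith⟩
  · rintro ⟨h1, h2, h3⟩
    refine ⟨⟨by linarith, by ring⟩, by linarith, by linarith⟩

/-- rotation lemmas -/
lemma RX1_nrm (θ : ℝ) (z : C5) : nrm (RX1 θ z) = nrm z := by
  have h := Real.sin_sq_add_cos_sq θ
  simp [-Complex.ofReal_cos, -Complex.ofReal_sin, nrm, RX1]
  linear_combination ((z 0).re ^ 2 + (z 0).im ^ 2 + ((z 1).re ^ 2 + (z 1).im ^ 2) + ((z 2).re ^ 2 + (z 2).im ^ 2)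
  + ((z 3).re ^ 2 + (z 3).im ^ 2)) * h
lemma RX2_nrm (θ : ℝ) (z : C5) : nrm (RX2 θ z) = nrm z := by
  have h := Real.sin_sq_add_cos_sq θ
  simp [-Complex.ofReal_cos, -Complex.ofReal_sin, nrm, RX2]
  linear_combination ((z 0).re ^ 2 + (z 0).im ^ 2 + ((z 1).re ^ 2 + (z 1).im ^ 2) + ((z 2).re ^ 2 + (z 2).im ^ 2)
  + ((z 3).re ^ 2 + (z 3).im ^ 2)) * h
lemma RY1_nrm (θ : ℝ) (z : C5) : nrm (RY1 θ z) = nrm z := by
  have h := Real.sin_sq_add_cos_sq θ
  simp [-Complex.ofReal_cos, -Complex.ofReal_sin, nrm, RY1]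
  linear_combination ((z 0).re ^ 2 + (z 0).im ^ 2 + ((z 1).re ^ 2 + (z 1).im ^ 2) + ((z 2).re ^ 2 + (z 2).im ^ 2)
  + ((z 3).re ^ 2 + (z 3).im ^ 2)) * h
lemma RY2_nrm (θ : ℝ) (z : C5) : nrm (RY2 θ z) = nrm z := by
  have h := Real.sin_sq_add_cos_sq θ
  simp [-Complex.ofReal_cos, -Complex.ofReal_sin, nrm, RY2]
  linear_combination ((z 0).re ^ 2 + (z 0).im ^ 2 + ((z 1).re ^ 2 + (z 1).im ^ 2) + ((z 2).re ^ 2 + (z 2).im ^ 2)
  + ((z 3).re ^ 2 + (z 3).im ^ 2)) * h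

lemma RX1_isoR (θ : ℝ) (z : C5) : isoR (RX1 θ z) = isoR z := by
  have h := Real.sin_sq_add_cos_sq θ
  simp [-Complex.ofReal_cos, -Complex.ofReal_sin, isoR, RX1]
  linear_combination ((z 0).re ^ 2 - (z 0).im ^ 2 + ((z 1).re ^ 2 - (z 1).im ^ 2) + ((z 2).re ^ 2 - (z 2).im ^ 2)
  + ((z 3).re ^ 2 - (z 3).im ^ 2)) * h
lemma RX2_isoR (θ : ℝ) (z : C5) : isoR (RX2 θ z) = isoR z := by
  have h := Real.sin_sq_add_cos_sq θ
  simp [-Complex.ofReal_cos, -Complex.ofReal_sin, isoR, RX2]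
  linear_combination ((z 0).re ^ 2 - (z 0).im ^ 2 + ((z 1).re ^ 2 - (z 1).im ^ 2) + ((z 2).re ^ 2 - (z 2).im ^ 2)
  + ((z 3).re ^ 2 - (z 3).im ^ 2)) * h
lemma RY1_isoR (θ : ℝ) (z : C5) : isoR (RY1 θ z) = isoR z := by
  have h := Real.sin_sq_add_cos_sq θ
  simp [-Complex.ofReal_cos, -Complex.ofReal_sin, isoR, RY1]
  linear_combination ((z 0).re ^ 2 - (z 0).im ^ 2 + ((z 1).re ^ 2 - (z 1).im ^ 2) + ((z 2).re ^ 2 - (z 2).im ^ 2)
  + ((z 3).re ^ 2 - (z 3).im ^ 2)) * h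
lemma RY2_isoR (θ : ℝ) (z : C5) : isoR (RY2 θ z) = isoR z := by
  have h := Real.sin_sq_add_cos_sq θ
  simp [-Complex.ofReal_cos, -Complex.ofReal_sin, isoR, RY2]
  linear_combination ((z 0).re ^ 2 - (z 0).im ^ 2 + ((z 1).re ^ 2 - (z 1).im ^ 2) + ((z 2).re ^ 2 - (z 2).im ^ 2)
  + ((z 3).re ^ 2 - (z 3).im ^ 2)) * h

lemma RX1_isoI (θ : ℝ) (z : C5) : isoI (RX1 θ z) = isoI z := by
  have h := Real.sin_sq_add_cos_sq θ
  simp [-Complex.ofReal_cos, -Complex.ofReal_sin, isoI, RX1]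
  linear_combination ((z 0).re * (z 0).im + (z 1).re * (z 1).im + (z 2).re * (z 2).im
  + (z 3).re * (z 3).im) * h
lemma RX2_isoI (θ : ℝ) (z : C5) : isoI (RX2 θ z) = isoI z := by
  have h := Real.sin_sq_add_cos_sq θ
  simp [-Complex.ofReal_cos, -Complex.ofReal_sin, isoI, RX2]
  linear_combination ((z 0).re * (z 0).im + (z 1).re * (z 1).im + (z 2).re * (z 2).im
  + (z 3).re * (z 3).im) * h
lemma RY1_isoI (θ : ℝ) (z : C5) : isoI (RY1 θ z) = isoI z := by
  have h := Real.sin_sq_add_cos_sq θ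
  simp [-Complex.ofReal_cos, -Complex.ofReal_sin, isoI, RY1]
  linear_combination ((z 0).re * (z 0).im + (z 1).re * (z 1).im + (z 2).re * (z 2).im
  + (z 3).re * (z 3).im) * h
lemma RY2_isoI (θ : ℝ) (z : C5) : isoI (RY2 θ z) = isoI z := by
  have h := Real.sin_sq_add_cos_sq θ
  simp [-Complex.ofReal_cos, -Complex.ofReal_sin, isoI, RY2]
  linear_combination ((z 0).re * (z 0).im + (z 1).re * (z 1).im + (z 2).re * (z 2).im
  + (z 3).re * (z 3).im) * h

lemma RX1_cone (θ : ℝ) {z : C5} (hz : z ∈ unitCone) : RX1 θ z ∈ unitCone := by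
  rw [mem_cone_iff] at *; rw [RX1_nrm, RX1_isoR, RX1_isoI]; exact hz
lemma RX2_cone (θ : ℝ) {z : C5} (hz : z ∈ unitCone) : RX2 θ z ∈ unitCone := by
  rw [mem_cone_iff] at *; rw [RX2_nrm, RX2_isoR, RX2_isoI]; exact hz
lemma RY1_cone (θ : ℝ) {z : C5} (hz : z ∈ unitCone) : RY1 θ z ∈ unitCone := by
  rw [mem_cone_iff] at *; rw [RY1_nrm, RY1_isoR, RY1_isoI]; exact hz
lemma RY2_cone (θ : ℝ) {z : C5} (hz : z ∈ unitCone) : RY2 θ z ∈ unitCone := by
  rw [mem_cone_iff] at *; rw [RY2_nrm, RY2_isoR, RY2_isoI]; exact hz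

/- effect on moments -/
lemma mx1_RX1 (θ : ℝ) (z : C5) : mx1 (RX1 θ z) = mx1 z := by
  have h := Real.sin_sq_add_cos_sq θ
  simp [-Complex.ofReal_cos, -Complex.ofReal_sin, mx1, RX1]
  linear_combination (2 * ((z 0).re * (z 1).im - (z 0).im * (z 1).re) + 2 * ((z 2).re * (z 3).im - (z 2).im * (z 3).re)) * h
lemma mx2_RX1 (θ : ℝ) (z : C5) : mx2 (RX1 θ z) = mx2 z * Real.cos (2 * θ) - mx3 z * Real.sin (2 * θ) := by
  rw [Real.cos_two_mul', Real.sin_two_mul]
  simp [-Complex.ofReal_cos, -Complex.ofReal_sin, mx2, mx3, RX1]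
  ring
lemma mx3_RX1 (θ : ℝ) (z : C5) : mx3 (RX1 θ z) = mx2 z * Real.sin (2 * θ) + mx3 z * Real.cos (2 * θ) := by
  rw [Real.cos_two_mul', Real.sin_two_mul]
  simp [-Complex.ofReal_cos, -Complex.ofReal_sin, mx2, mx3, RX1]
  ring
lemma my1_RX1 (θ : ℝ) (z : C5) : my1 (RX1 θ z) = my1 z := by
  have h := Real.sin_sq_add_cos_sq θ
  simp [-Complex.ofReal_cos, -Complex.ofReal_sin, my1, RX1]
  linear_combination (-2 * ((z 0).re * (z 1).im - (z 0).im * (z 1).re) + 2 * ((z 2).re * (z 3).im - (z 2).im * (z 3).re)) * h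
lemma my2_RX1 (θ : ℝ) (z : C5) : my2 (RX1 θ z) = my2 z := by
  have h := Real.sin_sq_add_cos_sq θ
  simp [-Complex.ofReal_cos, -Complex.ofReal_sin, my2, RX1]
  linear_combination (-2 * ((z 0).re * (z 2).im - (z 0).im * (z 2).re) + 2 * ((z 3).re * (z 1).im - (z 3).im * (z 1).re)) * h
lemma my3_RX1 (θ : ℝ) (z : C5) : my3 (RX1 θ z) = my3 z := by
  have h := Real.sin_sq_add_cos_sq θ
  simp [-Complex.ofReal_cos, -Complex.ofReal_sin, my3, RX1]
  linear_combination (-2 * ((z 0).re * (z 3).im - (z 0).im * (z 3).re) + 2 * ((z 1).re * (z 2).im - (z 1).im * (z 2).re)) * h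

lemma mx2_RX2 (θ : ℝ) (z : C5) : mx2 (RX2 θ z) = mx2 z := by
  have h := Real.sin_sq_add_cos_sq θ
  simp [-Complex.ofReal_cos, -Complex.ofReal_sin, mx2, RX2]
  linear_combination (2 * ((z 0).re * (z 2).im - (z 0).im * (z 2).re) + 2 * ((z 3).re * (z 1).im - (z 3).im * (z 1).re)) * h
lemma mx1_RX2 (θ : ℝ) (z : C5) : mx1 (RX2 θ z) = mx1 z * Real.cos (2 * θ) + mx3 z * Real.sin (2 * θ) := by
  rw [Real.cos_two_mul', Real.sin_two_mul]
  simp [-Complex.ofReal_cos, -Complex.ofReal_sin, mx1, mx3, RX2]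
  ring
lemma mx3_RX2 (θ : ℝ) (z : C5) : mx3 (RX2 θ z) = -mx1 z * Real.sin (2 * θ) + mx3 z * Real.cos (2 * θ) := by
  rw [Real.cos_two_mul', Real.sin_two_mul]
  simp [-Complex.ofReal_cos, -Complex.ofReal_sin, mx1, mx3, RX2]
  ring
lemma my1_RX2 (θ : ℝ) (z : C5) : my1 (RX2 θ z) = my1 z := by
  have h := Real.sin_sq_add_cos_sq θ
  simp [-Complex.ofReal_cos, -Complex.ofReal_sin, my1, RX2]
  linear_combination (-2 * ((z 0).re * (z 1).im - (z 0).im * (z 1).re) + 2 * ((z 2).re * (z 3).im - (z 2).im * (z 3).re)) * h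
lemma my2_RX2 (θ : ℝ) (z : C5) : my2 (RX2 θ z) = my2 z := by
  have h := Real.sin_sq_add_cos_sq θ
  simp [-Complex.ofReal_cos, -Complex.ofReal_sin, my2, RX2]
  linear_combination (-2 * ((z 0).re * (z 2).im - (z 0).im * (z 2).re) + 2 * ((z 3).re * (z 1).im - (z 3).im * (z 1).re)) * h
lemma my3_RX2 (θ : ℝ) (z : C5) : my3 (RX2 θ z) = my3 z := by
  have h := Real.sin_sq_add_cos_sq θ
  simp [-Complex.ofReal_cos, -Complex.ofReal_sin, my3, RX2]
  linear_combination (-2 * ((z 0).re * (z 3).im - (z 0).im * (z 3).re) + 2 * ((z 1).re * (z 2).im - (z 1).im * (z 2).re)) * h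

lemma my1_RY1 (θ : ℝ) (z : C5) : my1 (RY1 θ z) = my1 z := by
  have h := Real.sin_sq_add_cos_sq θ
  simp [-Complex.ofReal_cos, -Complex.ofReal_sin, my1, RY1]
  linear_combination (-2 * ((z 0).re * (z 1).im - (z 0).im * (z 1).re) + 2 * ((z 2).re * (z 3).im - (z 2).im * (z 3).re)) * h
lemma my2_RY1 (θ : ℝ) (z : C5) : my2 (RY1 θ z) = my2 z * Real.cos (2 * θ) - my3 z * Real.sin (2 * θ) := by
  rw [Real.cos_two_mul', Real.sin_two_mul]
  simp [-Complex.ofReal_cos, -Complex.ofReal_sin, my2, my3, RY1]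
  ring
lemma my3_RY1 (θ : ℝ) (z : C5) : my3 (RY1 θ z) = my2 z * Real.sin (2 * θ) + my3 z * Real.cos (2 * θ) := by
  rw [Real.cos_two_mul', Real.sin_two_mul]
  simp [-Complex.ofReal_cos, -Complex.ofReal_sin, my2, my3, RY1]
  ring
lemma mx1_RY1 (θ : ℝ) (z : C5) : mx1 (RY1 θ z) = mx1 z := by
  have h := Real.sin_sq_add_cos_sq θ
  simp [-Complex.ofReal_cos, -Complex.ofReal_sin, mx1, RY1]
  linear_combination (2 * ((z 0).re * (z 1).im - (z 0).im * (z 1).re) + 2 * ((z 2).re * (z 3).im - (z 2).im * (z 3).re)) * h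
lemma mx2_RY1 (θ : ℝ) (z : C5) : mx2 (RY1 θ z) = mx2 z := by
  have h := Real.sin_sq_add_cos_sq θ
  simp [-Complex.ofReal_cos, -Complex.ofReal_sin, mx2, RY1]
  linear_combination (2 * ((z 0).re * (z 2).im - (z 0).im * (z 2).re) + 2 * ((z 3).re * (z 1).im - (z 3).im * (z 1).re)) * h
lemma mx3_RY1 (θ : ℝ) (z : C5) : mx3 (RY1 θ z) = mx3 z := by
  have h := Real.sin_sq_add_cos_sq θ
  simp [-Complex.ofReal_cos, -Complex.ofReal_sin, mx3, RY1]
  linear_combination (2 * ((z 0).re * (z 3).im - (z 0).im * (z 3).re) + 2 * ((z 1).re * (z 2).im - (z 1).im * (z 2).re)) * h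

lemma my2_RY2 (θ : ℝ) (z : C5) : my2 (RY2 θ z) = my2 z := by
  have h := Real.sin_sq_add_cos_sq θ
  simp [-Complex.ofReal_cos, -Complex.ofReal_sin, my2, RY2]
  linear_combination (-2 * ((z 0).re * (z 2).im - (z 0).im * (z 2).re) + 2 * ((z 3).re * (z 1).im - (z 3).im * (z 1).re)) * h
lemma my1_RY2 (θ : ℝ) (z : C5) : my1 (RY2 θ z) = my1 z * Real.cos (2 * θ) + my3 z * Real.sin (2 * θ) := by
  rw [Real.cos_two_mul', Real.sin_two_mul]
  simp [-Complex.ofReal_cos, -Complex.ofReal_sin, my1, my3, RY2]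
  ring
lemma my3_RY2 (θ : ℝ) (z : C5) : my3 (RY2 θ z) = -my1 z * Real.sin (2 * θ) + my3 z * Real.cos (2 * θ) := by
  rw [Real.cos_two_mul', Real.sin_two_mul]
  simp [-Complex.ofReal_cos, -Complex.ofReal_sin, my1, my3, RY2]
  ring
lemma mx1_RY2 (θ : ℝ) (z : C5) : mx1 (RY2 θ z) = mx1 z := by
  have h := Real.sin_sq_add_cos_sq θ
  simp [-Complex.ofReal_cos, -Complex.ofReal_sin, mx1, RY2]
  linear_combination (2 * ((z 0).re * (z 1).im - (z 0).im * (z 1).re) + 2 * ((z 2).re * (z 3).im - (z 2).im * (z 3).re)) * h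
lemma mx2_RY2 (θ : ℝ) (z : C5) : mx2 (RY2 θ z) = mx2 z := by
  have h := Real.sin_sq_add_cos_sq θ
  simp [-Complex.ofReal_cos, -Complex.ofReal_sin, mx2, RY2]
  linear_combination (2 * ((z 0).re * (z 2).im - (z 0).im * (z 2).re) + 2 * ((z 3).re * (z 1).im - (z 3).im * (z 1).re)) * h
lemma mx3_RY2 (θ : ℝ) (z : C5) : mx3 (RY2 θ z) = mx3 z := by
  have h := Real.sin_sq_add_cos_sq θ
  simp [-Complex.ofReal_cos, -Complex.ofReal_sin, mx3, RY2]
  linear_combination (2 * ((z 0).re * (z 3).im - (z 0).im * (z 3).re) + 2 * ((z 1).re * (z 2).im - (z 1).im * (z 2).re)) * h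


/- algebra of rotations -/
lemma RX1_smul (θ : ℝ) (c : ℂ) (z : C5) : RX1 θ (c • z) = c • RX1 θ z := by
  ext i; fin_cases i <;> simp [-Complex.ofReal_cos, -Complex.ofReal_sin, RX1] <;> ring
lemma RX2_smul (θ : ℝ) (c : ℂ) (z : C5) : RX2 θ (c • z) = c • RX2 θ z := by
  ext i; fin_cases i <;> simp [-Complex.ofReal_cos, -Complex.ofReal_sin, RX2] <;> ring
lemma RY1_smul (θ : ℝ) (c : ℂ) (z : C5) : RY1 θ (c • z) = c • RY1 θ z := by
  ext i; fin_cases i <;> simp [-Complex.ofReal_cos, -Complex.ofReal_sin, RY1] <;> ring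
lemma RY2_smul (θ : ℝ) (c : ℂ) (z : C5) : RY2 θ (c • z) = c • RY2 θ z := by
  ext i; fin_cases i <;> simp [-Complex.ofReal_cos, -Complex.ofReal_sin, RY2] <;> ring

lemma RX1_zero_right (θ : ℝ) : RX1 θ 0 = 0 := by
  ext i; fin_cases i <;> simp [RX1]
lemma RX2_zero_right (θ : ℝ) : RX2 θ 0 = 0 := by
  ext i; fin_cases i <;> simp [RX2]
lemma RY1_zero_right (θ : ℝ) : RY1 θ 0 = 0 := by
  ext i; fin_cases i <;> simp [RY1]
lemma RY2_zero_right (θ : ℝ) : RY2 θ 0 = 0 := by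
  ext i; fin_cases i <;> simp [RY2]

lemma RX1_zero (z : C5) : RX1 0 z = z := by
  ext i; fin_cases i <;> simp [RX1]
lemma RX2_zero (z : C5) : RX2 0 z = z := by
  ext i; fin_cases i <;> simp [RX2]
lemma RY1_zero (z : C5) : RY1 0 z = z := by
  ext i; fin_cases i <;> simp [RY1]
lemma RY2_zero (z : C5) : RY2 0 z = z := by
  ext i; fin_cases i <;> simp [RY2]

lemma cs (θ : ℝ) : ((Real.sin θ : ℝ) : ℂ) ^ 2 + ((Real.cos θ : ℝ) : ℂ) ^ 2 = 1 := by
  exact_mod_cast Real.sin_sq_add_cos_sq θ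

lemma RX1_neg (θ : ℝ) (z : C5) : RX1 θ (RX1 (-θ) z) = z := by
  have h := cs θ
  ext i; fin_cases i <;> simp [-Complex.ofReal_cos, -Complex.ofReal_sin, RX1] 
  · linear_combination (z 0) * h
  · linear_combination (z 1) * h
  · linear_combination (z 2) * h
  · linear_combination (z 3) * h
lemma RX2_neg (θ : ℝ) (z : C5) : RX2 θ (RX2 (-θ) z) = z := by
  have h := cs θ
  ext i; fin_cases i <;> simp [-Complex.ofReal_cos, -Complex.ofReal_sin, RX2] 
  · linear_combination (z 0) * h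
  · linear_combination (z 1) * h
  · linear_combination (z 2) * h
  · linear_combination (z 3) * h
lemma RY1_neg (θ : ℝ) (z : C5) : RY1 θ (RY1 (-θ) z) = z := by
  have h := cs θ
  ext i; fin_cases i <;> simp [-Complex.ofReal_cos, -Complex.ofReal_sin, RY1] 
  · linear_combination (z 0) * h
  · linear_combination (z 1) * h
  · linear_combination (z 2) * h
  · linear_combination (z 3) * h
lemma RY2_neg (θ : ℝ) (z : C5) : RY2 θ (RY2 (-θ) z) = z := by
  have h := cs θ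
  ext i; fin_cases i <;> simp [-Complex.ofReal_cos, -Complex.ofReal_sin, RY2] 
  · linear_combination (z 0) * h
  · linear_combination (z 1) * h
  · linear_combination (z 2) * h
  · linear_combination (z 3) * h

lemma RX1_Y2 (θ : ℝ) (z : C5) : RX1 θ (Y2 z) = Y2 (RX1 θ z) := by
  ext i; fin_cases i <;> simp [-Complex.ofReal_cos, -Complex.ofReal_sin, RX1, Y2] <;> ring
lemma RY1_X2 (θ : ℝ) (z : C5) : RY1 θ (X2 z) = X2 (RY1 θ z) := by
  ext i; fin_cases i <;> simp [-Complex.ofReal_cos, -Complex.ofReal_sin, RY1, X2] <;> ring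

/- unit scalars -/
lemma nsq {c : ℂ} (hc : ‖c‖ = 1) : c.re ^ 2 + c.im ^ 2 = 1 := by
  have := Complex.sq_norm c
  rw [hc, Complex.normSq_apply] at this
  nlinarith
lemma mx1_smul {c : ℂ} (hc : ‖c‖ = 1) (z : C5) : mx1 (c • z) = mx1 z := by
  have h := nsq hc
  simp [mx1]
  linear_combination (2 * ((z 0).re * (z 1).im - (z 0).im * (z 1).re) + 2 * ((z 2).re * (z 3).im - (z 2).im * (z 3).re)) * h
lemma mx2_smul {c : ℂ} (hc : ‖c‖ = 1) (z : C5) : mx2 (c • z) = mx2 z := by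
  have h := nsq hc
  simp [mx2]
  linear_combination (2 * ((z 0).re * (z 2).im - (z 0).im * (z 2).re) + 2 * ((z 3).re * (z 1).im - (z 3).im * (z 1).re)) * h
lemma mx3_smul {c : ℂ} (hc : ‖c‖ = 1) (z : C5) : mx3 (c • z) = mx3 z := by
  have h := nsq hc
  simp [mx3]
  linear_combination (2 * ((z 0).re * (z 3).im - (z 0).im * (z 3).re) + 2 * ((z 1).re * (z 2).im - (z 1).im * (z 2).re)) * h
lemma my1_smul {c : ℂ} (hc : ‖c‖ = 1) (z : C5) : my1 (c • z) = my1 z := by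
  have h := nsq hc
  simp [my1]
  linear_combination (-2 * ((z 0).re * (z 1).im - (z 0).im * (z 1).re) + 2 * ((z 2).re * (z 3).im - (z 2).im * (z 3).re)) * h
lemma my2_smul {c : ℂ} (hc : ‖c‖ = 1) (z : C5) : my2 (c • z) = my2 z := by
  have h := nsq hc
  simp [my2]
  linear_combination (-2 * ((z 0).re * (z 2).im - (z 0).im * (z 2).re) + 2 * ((z 3).re * (z 1).im - (z 3).im * (z 1).re)) * h
lemma my3_smul {c : ℂ} (hc : ‖c‖ = 1) (z : C5) : my3 (c • z) = my3 z := by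
  have h := nsq hc
  simp [my3]
  linear_combination (-2 * ((z 0).re * (z 3).im - (z 0).im * (z 3).re) + 2 * ((z 1).re * (z 2).im - (z 1).im * (z 2).re)) * h

/- the reflection G -/
def GG (z : C5) : C5 := ![-z 0, -z 1, -z 2, -z 3, z 4]
lemma RX1_pi (z : C5) : RX1 Real.pi z = GG z := by
  ext i; fin_cases i <;> simp [RX1, GG]
lemma mx1_GG (z : C5) : mx1 (GG z) = mx1 z := by simp [mx1, GG]
lemma mx2_GG (z : C5) : mx2 (GG z) = mx2 z := by simp [mx2, GG]
lemma mx3_GG (z : C5) : mx3 (GG z) = mx3 z := by simp [mx3, GG]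
lemma my1_GG (z : C5) : my1 (GG z) = my1 z := by simp [my1, GG]
lemma my2_GG (z : C5) : my2 (GG z) = my2 z := by simp [my2, GG]
lemma my3_GG (z : C5) : my3 (GG z) = my3 z := by simp [my3, GG]

/- derivatives of rotations along curves -/
lemma hasDerivAt_RX1 {θ : ℝ → ℝ} {v : ℝ → C5} {θ' : ℝ} {v' : C5} {t : ℝ}
    (hθ : HasDerivAt θ θ' t) (hv : HasDerivAt v v' t) :
    HasDerivAt (fun t => RX1 (θ t) (v t)) ((θ' : ℂ) • X1 (RX1 (θ t) (v t)) + RX1 (θ t) v') t := by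
  have hc : HasDerivAt (fun t => ((Real.cos (θ t) : ℝ) : ℂ)) ((-Real.sin (θ t) * θ' : ℝ) : ℂ) t :=
    (hθ.cos).ofReal_comp
  have hs : HasDerivAt (fun t => ((Real.sin (θ t) : ℝ) : ℂ)) ((Real.cos (θ t) * θ' : ℝ) : ℂ) t :=
    (hθ.sin).ofReal_comp
  have hv' := hasDerivAt_pi.1 hv
  rw [hasDerivAt_pi]
  intro i
  fin_cases i
  · refine HasDerivAt.congr_deriv ((hc.mul (hv' 0)).sub (hs.mul (hv' 1))) ?_
    simp [-Complex.ofReal_cos, -Complex.ofReal_sin, RX1, X1]; ring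
  · refine HasDerivAt.congr_deriv ((hc.mul (hv' 1)).add (hs.mul (hv' 0))) ?_
    simp [-Complex.ofReal_cos, -Complex.ofReal_sin, RX1, X1]; ring
  · refine HasDerivAt.congr_deriv ((hc.mul (hv' 2)).sub (hs.mul (hv' 3))) ?_
    simp [-Complex.ofReal_cos, -Complex.ofReal_sin, RX1, X1]; ring
  · refine HasDerivAt.congr_deriv ((hc.mul (hv' 3)).add (hs.mul (hv' 2))) ?_
    simp [-Complex.ofReal_cos, -Complex.ofReal_sin, RX1, X1]; ring
  · refine HasDerivAt.congr_deriv (hv' 4) ?_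
    simp [RX1, X1]
lemma hasDerivAt_RX2 {θ : ℝ → ℝ} {v : ℝ → C5} {θ' : ℝ} {v' : C5} {t : ℝ}
    (hθ : HasDerivAt θ θ' t) (hv : HasDerivAt v v' t) :
    HasDerivAt (fun t => RX2 (θ t) (v t)) ((θ' : ℂ) • X2 (RX2 (θ t) (v t)) + RX2 (θ t) v') t := by
  have hc : HasDerivAt (fun t => ((Real.cos (θ t) : ℝ) : ℂ)) ((-Real.sin (θ t) * θ' : ℝ) : ℂ) t :=
    (hθ.cos).ofReal_comp
  have hs : HasDerivAt (fun t => ((Real.sin (θ t) : ℝ) : ℂ)) ((Real.cos (θ t) * θ' : ℝ) : ℂ) t :=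
    (hθ.sin).ofReal_comp
  have hv' := hasDerivAt_pi.1 hv
  rw [hasDerivAt_pi]
  intro i
  fin_cases i
  · refine HasDerivAt.congr_deriv ((hc.mul (hv' 0)).sub (hs.mul (hv' 2))) ?_
    simp [-Complex.ofReal_cos, -Complex.ofReal_sin, RX2, X2]; ring
  · refine HasDerivAt.congr_deriv ((hc.mul (hv' 1)).add (hs.mul (hv' 3))) ?_
    simp [-Complex.ofReal_cos, -Complex.ofReal_sin, RX2, X2]; ring
  · refine HasDerivAt.congr_deriv ((hc.mul (hv' 2)).add (hs.mul (hv' 0))) ?_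
    simp [-Complex.ofReal_cos, -Complex.ofReal_sin, RX2, X2]; ring
  · refine HasDerivAt.congr_deriv ((hc.mul (hv' 3)).sub (hs.mul (hv' 1))) ?_
    simp [-Complex.ofReal_cos, -Complex.ofReal_sin, RX2, X2]; ring
  · refine HasDerivAt.congr_deriv (hv' 4) ?_
    simp [RX2, X2]
lemma hasDerivAt_RY1 {θ : ℝ → ℝ} {v : ℝ → C5} {θ' : ℝ} {v' : C5} {t : ℝ}
    (hθ : HasDerivAt θ θ' t) (hv : HasDerivAt v v' t) :
    HasDerivAt (fun t => RY1 (θ t) (v t)) ((θ' : ℂ) • Y1 (RY1 (θ t) (v t)) + RY1 (θ t) v') t := by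
  have hc : HasDerivAt (fun t => ((Real.cos (θ t) : ℝ) : ℂ)) ((-Real.sin (θ t) * θ' : ℝ) : ℂ) t :=
    (hθ.cos).ofReal_comp
  have hs : HasDerivAt (fun t => ((Real.sin (θ t) : ℝ) : ℂ)) ((Real.cos (θ t) * θ' : ℝ) : ℂ) t :=
    (hθ.sin).ofReal_comp
  have hv' := hasDerivAt_pi.1 hv
  rw [hasDerivAt_pi]
  intro i
  fin_cases i
  · refine HasDerivAt.congr_deriv ((hc.mul (hv' 0)).add (hs.mul (hv' 1))) ?_
    simp [-Complex.ofReal_cos, -Complex.ofReal_sin, RY1, Y1]; ring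
  · refine HasDerivAt.congr_deriv ((hc.mul (hv' 1)).sub (hs.mul (hv' 0))) ?_
    simp [-Complex.ofReal_cos, -Complex.ofReal_sin, RY1, Y1]; ring
  · refine HasDerivAt.congr_deriv ((hc.mul (hv' 2)).sub (hs.mul (hv' 3))) ?_
    simp [-Complex.ofReal_cos, -Complex.ofReal_sin, RY1, Y1]; ring
  · refine HasDerivAt.congr_deriv ((hc.mul (hv' 3)).add (hs.mul (hv' 2))) ?_
    simp [-Complex.ofReal_cos, -Complex.ofReal_sin, RY1, Y1]; ring
  · refine HasDerivAt.congr_deriv (hv' 4) ?_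
    simp [RY1, Y1]
lemma hasDerivAt_RY2 {θ : ℝ → ℝ} {v : ℝ → C5} {θ' : ℝ} {v' : C5} {t : ℝ}
    (hθ : HasDerivAt θ θ' t) (hv : HasDerivAt v v' t) :
    HasDerivAt (fun t => RY2 (θ t) (v t)) ((θ' : ℂ) • Y2 (RY2 (θ t) (v t)) + RY2 (θ t) v') t := by
  have hc : HasDerivAt (fun t => ((Real.cos (θ t) : ℝ) : ℂ)) ((-Real.sin (θ t) * θ' : ℝ) : ℂ) t :=
    (hθ.cos).ofReal_comp
  have hs : HasDerivAt (fun t => ((Real.sin (θ t) : ℝ) : ℂ)) ((Real.cos (θ t) * θ' : ℝ) : ℂ) t :=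
    (hθ.sin).ofReal_comp
  have hv' := hasDerivAt_pi.1 hv
  rw [hasDerivAt_pi]
  intro i
  fin_cases i
  · refine HasDerivAt.congr_deriv ((hc.mul (hv' 0)).add (hs.mul (hv' 2))) ?_
    simp [-Complex.ofReal_cos, -Complex.ofReal_sin, RY2, Y2]; ring
  · refine HasDerivAt.congr_deriv ((hc.mul (hv' 1)).add (hs.mul (hv' 3))) ?_
    simp [-Complex.ofReal_cos, -Complex.ofReal_sin, RY2, Y2]; ring
  · refine HasDerivAt.congr_deriv ((hc.mul (hv' 2)).sub (hs.mul (hv' 0))) ?_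
    simp [-Complex.ofReal_cos, -Complex.ofReal_sin, RY2, Y2]; ring
  · refine HasDerivAt.congr_deriv ((hc.mul (hv' 3)).sub (hs.mul (hv' 1))) ?_
    simp [-Complex.ofReal_cos, -Complex.ofReal_sin, RY2, Y2]; ring
  · refine HasDerivAt.congr_deriv (hv' 4) ?_
    simp [RY2, Y2]

/- derivatives of moments along lines -/
lemma hasDerivAt_mx1 (p w : C5) : HasDerivAt (fun e : ℝ => mx1 (p + e • w)) (2 * (herm (X1 p) w).im) 0 := by
  have h : (fun e : ℝ => mx1 (p + e • w)) = fun e : ℝ => mx1 p + e * (2 * (herm (X1 p) w).im) + e ^ 2 * mx1 w := by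
    funext e
    simp [mx1, herm, X1, Fin.sum_univ_five]
    ring
  rw [h]
  have h2 := (((hasDerivAt_id (0:ℝ)).mul_const (2 * (herm (X1 p) w).im)).const_add (mx1 p)).add (((hasDerivAt_id (0:ℝ)).pow 2).mul_const (mx1 w))
  refine HasDerivAt.congr_deriv h2 ?_
  simp
lemma hasDerivAt_mx2 (p w : C5) : HasDerivAt (fun e : ℝ => mx2 (p + e • w)) (2 * (herm (X2 p) w).im) 0 := by
  have h : (fun e : ℝ => mx2 (p + e • w)) = fun e : ℝ => mx2 p + e * (2 * (herm (X2 p) w).im) + e ^ 2 * mx2 w := by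
    funext e
    simp [mx2, herm, X2, Fin.sum_univ_five]
    ring
  rw [h]
  have h2 := (((hasDerivAt_id (0:ℝ)).mul_const (2 * (herm (X2 p) w).im)).const_add (mx2 p)).add (((hasDerivAt_id (0:ℝ)).pow 2).mul_const (mx2 w))
  refine HasDerivAt.congr_deriv h2 ?_
  simp
lemma hasDerivAt_my1 (p w : C5) : HasDerivAt (fun e : ℝ => my1 (p + e • w)) (2 * (herm (Y1 p) w).im) 0 := by
  have h : (fun e : ℝ => my1 (p + e • w)) = fun e : ℝ => my1 p + e * (2 * (herm (Y1 p) w).im) + e ^ 2 * my1 w := by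
    funext e
    simp [my1, herm, Y1, Fin.sum_univ_five]
    ring
  rw [h]
  have h2 := (((hasDerivAt_id (0:ℝ)).mul_const (2 * (herm (Y1 p) w).im)).const_add (my1 p)).add (((hasDerivAt_id (0:ℝ)).pow 2).mul_const (my1 w))
  refine HasDerivAt.congr_deriv h2 ?_
  simp
lemma hasDerivAt_my2 (p w : C5) : HasDerivAt (fun e : ℝ => my2 (p + e • w)) (2 * (herm (Y2 p) w).im) 0 := by
  have h : (fun e : ℝ => my2 (p + e • w)) = fun e : ℝ => my2 p + e * (2 * (herm (Y2 p) w).im) + e ^ 2 * my2 w := by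
    funext e
    simp [my2, herm, Y2, Fin.sum_univ_five]
    ring
  rw [h]
  have h2 := (((hasDerivAt_id (0:ℝ)).mul_const (2 * (herm (Y2 p) w).im)).const_add (my2 p)).add (((hasDerivAt_id (0:ℝ)).pow 2).mul_const (my2 w))
  refine HasDerivAt.congr_deriv h2 ?_
  simp

/- smoothness -/
lemma contDiff_RX1 {E : Type*} [NormedAddCommGroup E] [NormedSpace ℝ E] {θ : E → ℝ} {v : E → C5}
    (hθ : ContDiff ℝ (⊤ : ℕ∞) θ) (hv : ContDiff ℝ (⊤ : ℕ∞) v) :
    ContDiff ℝ (⊤ : ℕ∞) (fun e => RX1 (θ e) (v e)) := by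
  have hc : ContDiff ℝ (⊤ : ℕ∞) (fun e => ((Real.cos (θ e) : ℝ) : ℂ)) :=
    Complex.ofRealCLM.contDiff.comp (Real.contDiff_cos.comp hθ)
  have hs : ContDiff ℝ (⊤ : ℕ∞) (fun e => ((Real.sin (θ e) : ℝ) : ℂ)) :=
    Complex.ofRealCLM.contDiff.comp (Real.contDiff_sin.comp hθ)
  have hv' := contDiff_pi.1 hv
  rw [contDiff_pi]
  intro i
  fin_cases i
  · exact (hc.mul (hv' 0)).sub (hs.mul (hv' 1))
  · exact (hc.mul (hv' 1)).add (hs.mul (hv' 0))
  · exact (hc.mul (hv' 2)).sub (hs.mul (hv' 3))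
  · exact (hc.mul (hv' 3)).add (hs.mul (hv' 2))
  · exact hv' 4
lemma contDiff_RX2 {E : Type*} [NormedAddCommGroup E] [NormedSpace ℝ E] {θ : E → ℝ} {v : E → C5}
    (hθ : ContDiff ℝ (⊤ : ℕ∞) θ) (hv : ContDiff ℝ (⊤ : ℕ∞) v) :
    ContDiff ℝ (⊤ : ℕ∞) (fun e => RX2 (θ e) (v e)) := by
  have hc : ContDiff ℝ (⊤ : ℕ∞) (fun e => ((Real.cos (θ e) : ℝ) : ℂ)) :=
    Complex.ofRealCLM.contDiff.comp (Real.contDiff_cos.comp hθ)
  have hs : ContDiff ℝ (⊤ : ℕ∞) (fun e => ((Real.sin (θ e) : ℝ) : ℂ)) :=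
    Complex.ofRealCLM.contDiff.comp (Real.contDiff_sin.comp hθ)
  have hv' := contDiff_pi.1 hv
  rw [contDiff_pi]
  intro i
  fin_cases i
  · exact (hc.mul (hv' 0)).sub (hs.mul (hv' 2))
  · exact (hc.mul (hv' 1)).add (hs.mul (hv' 3))
  · exact (hc.mul (hv' 2)).add (hs.mul (hv' 0))
  · exact (hc.mul (hv' 3)).sub (hs.mul (hv' 1))
  · exact hv' 4
lemma contDiff_RY1 {E : Type*} [NormedAddCommGroup E] [NormedSpace ℝ E] {θ : E → ℝ} {v : E → C5}
    (hθ : ContDiff ℝ (⊤ : ℕ∞) θ) (hv : ContDiff ℝ (⊤ : ℕ∞) v) :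
    ContDiff ℝ (⊤ : ℕ∞) (fun e => RY1 (θ e) (v e)) := by
  have hc : ContDiff ℝ (⊤ : ℕ∞) (fun e => ((Real.cos (θ e) : ℝ) : ℂ)) :=
    Complex.ofRealCLM.contDiff.comp (Real.contDiff_cos.comp hθ)
  have hs : ContDiff ℝ (⊤ : ℕ∞) (fun e => ((Real.sin (θ e) : ℝ) : ℂ)) :=
    Complex.ofRealCLM.contDiff.comp (Real.contDiff_sin.comp hθ)
  have hv' := contDiff_pi.1 hv
  rw [contDiff_pi]
  intro i
  fin_cases i
  · exact (hc.mul (hv' 0)).add (hs.mul (hv' 1))
  · exact (hc.mul (hv' 1)).sub (hs.mul (hv' 0))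
  · exact (hc.mul (hv' 2)).sub (hs.mul (hv' 3))
  · exact (hc.mul (hv' 3)).add (hs.mul (hv' 2))
  · exact hv' 4
lemma contDiff_RY2 {E : Type*} [NormedAddCommGroup E] [NormedSpace ℝ E] {θ : E → ℝ} {v : E → C5}
    (hθ : ContDiff ℝ (⊤ : ℕ∞) θ) (hv : ContDiff ℝ (⊤ : ℕ∞) v) :
    ContDiff ℝ (⊤ : ℕ∞) (fun e => RY2 (θ e) (v e)) := by
  have hc : ContDiff ℝ (⊤ : ℕ∞) (fun e => ((Real.cos (θ e) : ℝ) : ℂ)) :=
    Complex.ofRealCLM.contDiff.comp (Real.contDiff_cos.comp hθ)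
  have hs : ContDiff ℝ (⊤ : ℕ∞) (fun e => ((Real.sin (θ e) : ℝ) : ℂ)) :=
    Complex.ofRealCLM.contDiff.comp (Real.contDiff_sin.comp hθ)
  have hv' := contDiff_pi.1 hv
  rw [contDiff_pi]
  intro i
  fin_cases i
  · exact (hc.mul (hv' 0)).add (hs.mul (hv' 2))
  · exact (hc.mul (hv' 1)).add (hs.mul (hv' 3))
  · exact (hc.mul (hv' 2)).sub (hs.mul (hv' 0))
  · exact (hc.mul (hv' 3)).sub (hs.mul (hv' 1))
  · exact hv' 4

lemma contDiff_re (i : Fin 5) : ContDiff ℝ (⊤ : ℕ∞) (fun z : C5 => (z i).re) :=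
  Complex.reCLM.contDiff.comp (contDiff_apply ℝ ℂ i)
lemma contDiff_im (i : Fin 5) : ContDiff ℝ (⊤ : ℕ∞) (fun z : C5 => (z i).im) :=
  Complex.imCLM.contDiff.comp (contDiff_apply ℝ ℂ i)
lemma contDiff_mx1 : ContDiff ℝ (⊤ : ℕ∞) mx1 := by
  unfold mx1
  exact (contDiff_const.mul (((contDiff_re 0).mul (contDiff_im 1)).sub ((contDiff_im 0).mul (contDiff_re 1)))).add
    (contDiff_const.mul (((contDiff_re 2).mul (contDiff_im 3)).sub ((contDiff_im 2).mul (contDiff_re 3))))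
lemma contDiff_my1 : ContDiff ℝ (⊤ : ℕ∞) my1 := by
  unfold my1
  exact (contDiff_const.mul (((contDiff_re 0).mul (contDiff_im 1)).sub ((contDiff_im 0).mul (contDiff_re 1)))).add
    (contDiff_const.mul (((contDiff_re 2).mul (contDiff_im 3)).sub ((contDiff_im 2).mul (contDiff_re 3))))
lemma contDiff_mx2 : ContDiff ℝ (⊤ : ℕ∞) mx2 := by
  unfold mx2
  exact (contDiff_const.mul (((contDiff_re 0).mul (contDiff_im 2)).sub ((contDiff_im 0).mul (contDiff_re 2)))).add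
    (contDiff_const.mul (((contDiff_re 3).mul (contDiff_im 1)).sub ((contDiff_im 3).mul (contDiff_re 1))))
lemma contDiff_my2 : ContDiff ℝ (⊤ : ℕ∞) my2 := by
  unfold my2
  exact (contDiff_const.mul (((contDiff_re 0).mul (contDiff_im 2)).sub ((contDiff_im 0).mul (contDiff_re 2)))).add
    (contDiff_const.mul (((contDiff_re 3).mul (contDiff_im 1)).sub ((contDiff_im 3).mul (contDiff_re 1))))

/- the Hamiltonian isotopy -/
def al (z : C5) : ℝ := (1 / 4) * (1 + my2 z) / (1 + (1 / 16) * mx1 z ^ 2)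
def be (z : C5) : ℝ := Real.arctan ((1 / 4) * mx1 z)
def ga (z : C5) : ℝ := (1 / 4) * (1 + mx2 z) / (1 + (1 / 16) * my1 z ^ 2)
def de (z : C5) : ℝ := Real.arctan ((1 / 4) * my1 z)

def FA (τ : ℝ) (z : C5) : C5 := RX1 (τ * al z) (RY2 (τ * be z) z)
def FB (τ : ℝ) (z : C5) : C5 := RY1 (-(τ * ga z)) (RX2 (-(τ * de z)) z)

def h1 (z : C5) : ℝ := be z * (1 + my2 z)
def h2 (z : C5) : ℝ := -(de z * (1 + mx2 z))

def ta (t : ℝ) : ℝ := Real.smoothTransition (4 * t)
def tb (t : ℝ) : ℝ := Real.smoothTransition (4 * t - 3 / 2)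
def tc (t : ℝ) : ℝ := Real.smoothTransition (4 * t - 3)

lemma contDiff_ta : ContDiff ℝ (⊤ : ℕ∞) ta :=
  Real.smoothTransition.contDiff.comp (contDiff_const.mul contDiff_id)
lemma contDiff_tb : ContDiff ℝ (⊤ : ℕ∞) tb :=
  Real.smoothTransition.contDiff.comp ((contDiff_const.mul contDiff_id).sub contDiff_const)
lemma contDiff_tc : ContDiff ℝ (⊤ : ℕ∞) tc :=
  Real.smoothTransition.contDiff.comp ((contDiff_const.mul contDiff_id).sub contDiff_const)

def Psi (q : ℝ × C5) : C5 := RX1 (Real.pi * tc q.1) (FB (tb q.1) (FA (ta q.1) q.2))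
def Ham (q : ℝ × C5) : ℝ :=
  deriv ta q.1 * h1 q.2 + deriv tb q.1 * h2 q.2 + deriv tc q.1 * (Real.pi * mx1 q.2)

lemma contDiff_al : ContDiff ℝ (⊤ : ℕ∞) al := by
  unfold al
  refine (contDiff_const.mul (contDiff_const.add contDiff_my2)).div
    (contDiff_const.add (contDiff_const.mul (contDiff_mx1.pow 2))) ?_
  intro x; positivity
lemma contDiff_ga : ContDiff ℝ (⊤ : ℕ∞) ga := by
  unfold ga
  refine (contDiff_const.mul (contDiff_const.add contDiff_mx2)).div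
    (contDiff_const.add (contDiff_const.mul (contDiff_my1.pow 2))) ?_
  intro x; positivity
lemma contDiff_be : ContDiff ℝ (⊤ : ℕ∞) be :=
  Real.contDiff_arctan.comp (contDiff_const.mul contDiff_mx1)
lemma contDiff_de : ContDiff ℝ (⊤ : ℕ∞) de :=
  Real.contDiff_arctan.comp (contDiff_const.mul contDiff_my1)
lemma contDiff_h1 : ContDiff ℝ (⊤ : ℕ∞) h1 :=
  contDiff_be.mul (contDiff_const.add contDiff_my2)
lemma contDiff_h2 : ContDiff ℝ (⊤ : ℕ∞) h2 :=
  (contDiff_de.mul (contDiff_const.add contDiff_mx2)).neg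

lemma contDiff_FA {E : Type*} [NormedAddCommGroup E] [NormedSpace ℝ E] {θ : E → ℝ} {v : E → C5}
    (hθ : ContDiff ℝ (⊤ : ℕ∞) θ) (hv : ContDiff ℝ (⊤ : ℕ∞) v) :
    ContDiff ℝ (⊤ : ℕ∞) (fun e => FA (θ e) (v e)) :=
  contDiff_RX1 (hθ.mul (contDiff_al.comp hv)) (contDiff_RY2 (hθ.mul (contDiff_be.comp hv)) hv)
lemma contDiff_FB {E : Type*} [NormedAddCommGroup E] [NormedSpace ℝ E] {θ : E → ℝ} {v : E → C5}
    (hθ : ContDiff ℝ (⊤ : ℕ∞) θ) (hv : ContDiff ℝ (⊤ : ℕ∞) v) :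
    ContDiff ℝ (⊤ : ℕ∞) (fun e => FB (θ e) (v e)) :=
  contDiff_RY1 (hθ.mul (contDiff_ga.comp hv)).neg (contDiff_RX2 (hθ.mul (contDiff_de.comp hv)).neg hv)

lemma contDiff_Psi : ContDiff ℝ (⊤ : ℕ∞) Psi := by
  refine contDiff_RX1 (contDiff_const.mul (contDiff_tc.comp contDiff_fst)) ?_
  refine contDiff_FB (contDiff_tb.comp contDiff_fst) ?_
  exact contDiff_FA (contDiff_ta.comp contDiff_fst) contDiff_snd

lemma contDiff_Ham : ContDiff ℝ (⊤ : ℕ∞) Ham := by
  have ha := (contDiff_infty_iff_deriv.1 contDiff_ta).2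
  have hb := (contDiff_infty_iff_deriv.1 contDiff_tb).2
  have hc := (contDiff_infty_iff_deriv.1 contDiff_tc).2
  exact (((ha.comp contDiff_fst).mul (contDiff_h1.comp contDiff_snd)).add
    ((hb.comp contDiff_fst).mul (contDiff_h2.comp contDiff_snd))).add
    ((hc.comp contDiff_fst).mul (contDiff_const.mul (contDiff_mx1.comp contDiff_snd)))

lemma FA_cone (τ : ℝ) {z : C5} (hz : z ∈ unitCone) : FA τ z ∈ unitCone :=
  RX1_cone _ (RY2_cone _ hz)
lemma FB_cone (τ : ℝ) {z : C5} (hz : z ∈ unitCone) : FB τ z ∈ unitCone :=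
  RY1_cone _ (RX2_cone _ hz)
lemma Psi_cone (t : ℝ) {z : C5} (hz : z ∈ unitCone) : Psi (t, z) ∈ unitCone :=
  RX1_cone _ (FB_cone _ (FA_cone _ hz))

lemma al_smul {c : ℂ} (hc : ‖c‖ = 1) (z : C5) : al (c • z) = al z := by
  unfold al; rw [my2_smul hc, mx1_smul hc]
lemma be_smul {c : ℂ} (hc : ‖c‖ = 1) (z : C5) : be (c • z) = be z := by
  unfold be; rw [mx1_smul hc]
lemma ga_smul {c : ℂ} (hc : ‖c‖ = 1) (z : C5) : ga (c • z) = ga z := by
  unfold ga; rw [mx2_smul hc, my1_smul hc]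
lemma de_smul {c : ℂ} (hc : ‖c‖ = 1) (z : C5) : de (c • z) = de z := by
  unfold de; rw [my1_smul hc]
lemma FA_smul {c : ℂ} (hc : ‖c‖ = 1) (τ : ℝ) (z : C5) : FA τ (c • z) = c • FA τ z := by
  unfold FA; rw [al_smul hc, be_smul hc, RY2_smul, RX1_smul]
lemma FB_smul {c : ℂ} (hc : ‖c‖ = 1) (τ : ℝ) (z : C5) : FB τ (c • z) = c • FB τ z := by
  unfold FB; rw [ga_smul hc, de_smul hc, RX2_smul, RY1_smul]
lemma Psi_smul {c : ℂ} (hc : ‖c‖ = 1) (t : ℝ) (z : C5) : Psi (t, c • z) = c • Psi (t, z) := by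
  unfold Psi; rw [FA_smul hc, FB_smul hc, RX1_smul]
lemma Ham_smul {c : ℂ} (hc : ‖c‖ = 1) (t : ℝ) (z : C5) : Ham (t, c • z) = Ham (t, z) := by
  simp only [Ham, h1, h2, be_smul hc, de_smul hc, my2_smul hc, mx2_smul hc, mx1_smul hc]

lemma FA_zero (z : C5) : FA 0 z = z := by simp [FA, RX1_zero, RY2_zero]
lemma FB_zero (z : C5) : FB 0 z = z := by simp [FB, RY1_zero, RX2_zero]

lemma ta_zero : ta 0 = 0 := by unfold ta; exact Real.smoothTransition.zero_of_nonpos (by norm_num)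
lemma tb_of_le {t : ℝ} (ht : t ≤ 3 / 8) : tb t = 0 := by
  unfold tb; exact Real.smoothTransition.zero_of_nonpos (by linarith)
lemma tc_of_le {t : ℝ} (ht : t ≤ 3 / 4) : tc t = 0 := by
  unfold tc; exact Real.smoothTransition.zero_of_nonpos (by linarith)
lemma ta_of_ge {t : ℝ} (ht : 1 / 4 ≤ t) : ta t = 1 := by
  unfold ta; exact Real.smoothTransition.one_of_one_le (by linarith)
lemma tb_of_ge {t : ℝ} (ht : 5 / 8 ≤ t) : tb t = 1 := by
  unfold tb; exact Real.smoothTransition.one_of_one_le (by linarith)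
lemma tc_of_ge {t : ℝ} (ht : 1 ≤ t) : tc t = 1 := by
  unfold tc; exact Real.smoothTransition.one_of_one_le (by linarith)

lemma Psi_start (z : C5) : Psi (0, z) = z := by
  unfold Psi
  rw [ta_zero, tb_of_le (by norm_num), tc_of_le (by norm_num), FA_zero, FB_zero, mul_zero, RX1_zero]

/- moments along flows -/
lemma mx1_FA (τ : ℝ) (z : C5) : mx1 (FA τ z) = mx1 z := by
  unfold FA; rw [mx1_RX1, mx1_RY2]
lemma my2_FA (τ : ℝ) (z : C5) : my2 (FA τ z) = my2 z := by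
  unfold FA; rw [my2_RX1, my2_RY2]
lemma my1_FB (τ : ℝ) (z : C5) : my1 (FB τ z) = my1 z := by
  unfold FB; rw [my1_RY1, my1_RX2]
lemma mx2_FB (τ : ℝ) (z : C5) : mx2 (FB τ z) = mx2 z := by
  unfold FB; rw [mx2_RY1, mx2_RX2]
lemma al_FA (τ : ℝ) (z : C5) : al (FA τ z) = al z := by unfold al; rw [mx1_FA, my2_FA]
lemma be_FA (τ : ℝ) (z : C5) : be (FA τ z) = be z := by unfold be; rw [mx1_FA]
lemma ga_FB (τ : ℝ) (z : C5) : ga (FB τ z) = ga z := by unfold ga; rw [my1_FB, mx2_FB]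
lemma de_FB (τ : ℝ) (z : C5) : de (FB τ z) = de z := by unfold de; rw [my1_FB]

lemma hasDerivAt_FA {τ : ℝ → ℝ} {τ' t : ℝ} (h : HasDerivAt τ τ' t) (z : C5) :
    HasDerivAt (fun t => FA (τ t) z)
      ((τ' : ℂ) • ((al (FA (τ t) z) : ℂ) • X1 (FA (τ t) z) + (be (FA (τ t) z) : ℂ) • Y2 (FA (τ t) z))) t := by
  have hY := hasDerivAt_RY2 (h.mul_const (be z)) (hasDerivAt_const t z)
  have hX := hasDerivAt_RX1 (h.mul_const (al z)) hY
  refine hX.congr_deriv ?_
  rw [RY2_zero_right, add_zero, RX1_smul, RX1_Y2, al_FA, be_FA]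
  change _ • X1 (FA (τ t) z) + _ • Y2 (FA (τ t) z) = _
  rw [smul_add, smul_smul, smul_smul]
  push_cast
  rfl

lemma hasDerivAt_FB {τ : ℝ → ℝ} {τ' t : ℝ} (h : HasDerivAt τ τ' t) (z : C5) :
    HasDerivAt (fun t => FB (τ t) z)
      (-((τ' : ℂ) • ((ga (FB (τ t) z) : ℂ) • Y1 (FB (τ t) z) + (de (FB (τ t) z) : ℂ) • X2 (FB (τ t) z)))) t := by
  have hY := hasDerivAt_RX2 (h.mul_const (de z)).neg (hasDerivAt_const t z)
  have hX := hasDerivAt_RY1 (h.mul_const (ga z)).neg hY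
  refine hX.congr_deriv ?_
  rw [RX2_zero_right, add_zero, RY1_smul, RY1_X2, ga_FB, de_FB]
  change _ • Y1 (FB (τ t) z) + _ • X2 (FB (τ t) z) = _
  rw [smul_add, smul_smul, smul_smul]
  push_cast
  module

/- derivative of the Hamiltonians along lines -/
lemma hasDerivAt_h1 (p w : C5) : HasDerivAt (fun e : ℝ => h1 (p + e • w))
    (al p * (2 * (herm (X1 p) w).im) + be p * (2 * (herm (Y2 p) w).im)) 0 := by
  have h := (((hasDerivAt_mx1 p w).const_mul (1 / 4 : ℝ)).arctan).mul ((hasDerivAt_my2 p w).const_add 1)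
  refine h.congr_deriv ?_
  simp only [al, be, zero_smul, add_zero]
  have : (1 + (1 / 16) * mx1 p ^ 2) ≠ 0 := by positivity
  have h2 : (1 + (1 / 4 * mx1 p) ^ 2) = (1 + (1 / 16) * mx1 p ^ 2) := by ring
  rw [h2]
  field_simp

lemma hasDerivAt_h2 (p w : C5) : HasDerivAt (fun e : ℝ => h2 (p + e • w))
    (-(ga p * (2 * (herm (Y1 p) w).im) + de p * (2 * (herm (X2 p) w).im))) 0 := by
  have h := ((((hasDerivAt_my1 p w).const_mul (1 / 4 : ℝ)).arctan).mul ((hasDerivAt_mx2 p w).const_add 1)).neg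
  refine h.congr_deriv ?_
  simp only [ga, de, zero_smul, add_zero]
  have : (1 + (1 / 16) * my1 p ^ 2) ≠ 0 := by positivity
  have h2 : (1 + (1 / 4 * my1 p) ^ 2) = (1 + (1 / 16) * my1 p ^ 2) := by ring
  rw [h2]
  field_simp

lemma fderiv_Ham (t : ℝ) (p w : C5) :
    fderiv ℝ (fun x : C5 => Ham (t, x)) p w =
      deriv ta t * (al p * (2 * (herm (X1 p) w).im) + be p * (2 * (herm (Y2 p) w).im))
      + deriv tb t * (-(ga p * (2 * (herm (Y1 p) w).im) + de p * (2 * (herm (X2 p) w).im)))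
      + deriv tc t * (Real.pi * (2 * (herm (X1 p) w).im)) := by
  have hd : DifferentiableAt ℝ (fun x : C5 => Ham (t, x)) p := by
    have : ContDiff ℝ (⊤ : ℕ∞) (fun x : C5 => Ham (t, x)) :=
      contDiff_Ham.comp (contDiff_const.prodMk contDiff_id)
    exact (this.differentiable (by simp)) p
  rw [← hd.lineDeriv_eq_fderiv]
  have h := (((hasDerivAt_h1 p w).const_mul (deriv ta t)).add ((hasDerivAt_h2 p w).const_mul (deriv tb t))).add
    (((hasDerivAt_mx1 p w).const_mul Real.pi).const_mul (deriv tc t))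
  exact h.deriv

lemma herm_smul_real (k : ℝ) (u w : C5) : (herm ((k : ℂ) • u) w).im = k * (herm u w).im := by
  simp [herm, Fin.sum_univ_five]
  ring
lemma herm_add (u v w : C5) : (herm (u + v) w).im = (herm u w).im + (herm v w).im := by
  simp [herm, Fin.sum_univ_five]
  ring
lemma herm_neg (u w : C5) : (herm (-u) w).im = -(herm u w).im := by
  simp [herm, Fin.sum_univ_five]
  try ring

lemma deriv_ta_eq {t : ℝ} (ht : 1 / 4 < t) : deriv ta t = 0 := by
  have : ta =ᶠ[nhds t] fun _ => 1 := by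
    filter_upwards [lt_mem_nhds ht] with s hs using ta_of_ge hs.le
  rw [this.deriv_eq]; simp
lemma deriv_tb_eq {t : ℝ} (ht : 5 / 8 < t) : deriv tb t = 0 := by
  have : tb =ᶠ[nhds t] fun _ => 1 := by
    filter_upwards [lt_mem_nhds ht] with s hs using tb_of_ge hs.le
  rw [this.deriv_eq]; simp
lemma deriv_tb_eq' {t : ℝ} (ht : t < 3 / 8) : deriv tb t = 0 := by
  have : tb =ᶠ[nhds t] fun _ => 0 := by
    filter_upwards [gt_mem_nhds ht] with s hs using tb_of_le hs.le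
  rw [this.deriv_eq]; simp
lemma deriv_tc_eq' {t : ℝ} (ht : t < 3 / 4) : deriv tc t = 0 := by
  have : tc =ᶠ[nhds t] fun _ => 0 := by
    filter_upwards [gt_mem_nhds ht] with s hs using tc_of_le hs.le
  rw [this.deriv_eq]; simp

lemma ta_hasDerivAt (t : ℝ) : HasDerivAt ta (deriv ta t) t :=
  ((contDiff_ta.differentiable (by simp)) t).hasDerivAt
lemma tb_hasDerivAt (t : ℝ) : HasDerivAt tb (deriv tb t) t :=
  ((contDiff_tb.differentiable (by simp)) t).hasDerivAt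
lemma tc_hasDerivAt (t : ℝ) : HasDerivAt tc (deriv tc t) t :=
  ((contDiff_tc.differentiable (by simp)) t).hasDerivAt

lemma Psi_hamilton (t : ℝ) (z w : C5) :
    2 * (herm (deriv (fun s : ℝ => Psi (s, z)) t) w).im =
      fderiv ℝ (fun x : C5 => Ham (t, x)) (Psi (t, z)) w := by
  rw [fderiv_Ham]
  rcases lt_or_ge t (3 / 8) with ht | ht
  · -- phase A
    have e : (fun s : ℝ => Psi (s, z)) =ᶠ[nhds t] fun s => FA (ta s) z := by
      filter_upwards [gt_mem_nhds ht] with s hs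
      have hs' : s < 3 / 8 := hs
      simp only [Psi]
      rw [tb_of_le hs'.le, tc_of_le (by linarith), FB_zero, mul_zero, RX1_zero]
    rw [e.deriv_eq, e.eq_of_nhds, (hasDerivAt_FA (ta_hasDerivAt t) z).deriv, deriv_tb_eq' ht,
      deriv_tc_eq' (by linarith), herm_smul_real, herm_add, herm_smul_real, herm_smul_real]
    ring
  · rcases lt_or_ge t (3 / 4) with ht2 | ht2
    · have e : (fun s : ℝ => Psi (s, z)) =ᶠ[nhds t] fun s => FB (tb s) (FA 1 z) := by
        filter_upwards [gt_mem_nhds ht2, lt_mem_nhds (show (1 / 4 : ℝ) < t by linarith)] with s hs hs2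
        have hs' : s < 3 / 4 := hs
        have hs2' : 1 / 4 < s := hs2
        simp only [Psi]
        rw [ta_of_ge hs2'.le, tc_of_le (by linarith), mul_zero, RX1_zero]
      rw [e.deriv_eq, e.eq_of_nhds, (hasDerivAt_FB (tb_hasDerivAt t) (FA 1 z)).deriv,
        deriv_ta_eq (by linarith), deriv_tc_eq' (by linarith), herm_neg, herm_smul_real, herm_add,
        herm_smul_real, herm_smul_real]
      ring
    · have e : (fun s : ℝ => Psi (s, z)) =ᶠ[nhds t] fun s => RX1 (Real.pi * tc s) (FB 1 (FA 1 z)) := by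
        filter_upwards [lt_mem_nhds (show (5 / 8 : ℝ) < t by linarith)] with s hs2
        have hs2' : 5 / 8 < s := hs2
        simp only [Psi]
        rw [ta_of_ge (by linarith), tb_of_ge hs2'.le]
      rw [e.deriv_eq, e.eq_of_nhds,
        (hasDerivAt_RX1 ((tc_hasDerivAt t).const_mul Real.pi) (hasDerivAt_const t (FB 1 (FA 1 z)))).deriv,
        deriv_ta_eq (by linarith), deriv_tb_eq (by linarith), herm_add, herm_smul_real, RX1_zero_right]
      have : (herm 0 w).im = 0 := by simp [herm]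
      rw [this]
      ring

def L : HamiltonianConeLift where
  Ψ := Psi
  H := Ham
  smooth_Ψ := contDiff_Psi
  smooth_H := contDiff_Ham
  mapsTo_cone := fun t z hz => Psi_cone t hz
  compatible := fun t z _ c hc => ⟨c, Psi_smul hc t z⟩
  start := fun z _ => ⟨1, by rw [Psi_start, one_smul]⟩
  invariant := fun t z _ c hc => Ham_smul hc t z
  hamilton := fun t _ z _ w _ => Psi_hamilton t z w

/-- cos lower bound -/
lemma cos_lb {α : ℝ} (h0 : -(1/2) ≤ α) (h1 : α ≤ 1 / 2) : 7 / 8 ≤ Real.cos α := by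
  have := Real.one_sub_sq_div_two_le_cos (x := α)
  nlinarith

lemma noPos {x1 x2 y1 y2 α : ℝ} (hP : 0 < x1 * y1)
    (hx : x1 ^ 2 + x2 ^ 2 + (x1 * y1) ^ 2 / 16 = 1) (hy : y1 ^ 2 + y2 ^ 2 + (x1 * y1) ^ 2 / 16 = 1)
    (hα : α * (1 + (1 / 16) * x1 ^ 2) = (1 / 4) * (1 + y2)) (hα0 : 0 < α) (hα1 : α ≤ 1 / 2)
    (h1 : (x1 * y1) / 4 * Real.cos α = -x2 * Real.sin α)
    (hx2 : x2 < 0) (hy2 : y2 < 0) (hle : -x2 ≤ -y2) : False := by
  have hc := cos_lb (by linarith) hα1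
  have hs : Real.sin α ≤ α := Real.sin_le hα0.le
  have hxy : y1 ^ 2 ≤ x1 ^ 2 := by nlinarith
  have hPy : y1 ^ 2 ≤ x1 * y1 := by
    have h2 : (y1 ^ 2) ^ 2 ≤ (x1 * y1) ^ 2 := by
      have : 0 ≤ y1 ^ 2 := sq_nonneg _
      nlinarith
    exact le_of_sq_le_sq h2 hP.le |> fun h => h
  have hy2' : -1 < y2 := by
    by_contra hcon
    push Not at hcon
    have : 0 < y1 ^ 2 := by
      have : y1 ≠ 0 := by rintro rfl; simp at hP
      positivity
    nlinarith [sq_nonneg (x1 * y1)]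
  -- y1^2 (1 + x1^2/16) = 1 - y2^2
  have e1 : y1 ^ 2 * (1 + (1 / 16) * x1 ^ 2) = (1 + y2) * (1 - y2) := by nlinarith
  have e2 : y1 ^ 2 = 4 * α * (1 - y2) := by
    have hpos : 0 < 1 + (1 / 16) * x1 ^ 2 := by positivity
    have : (y1 ^ 2) * (1 + (1 / 16) * x1 ^ 2) = (4 * α * (1 - y2)) * (1 + (1 / 16) * x1 ^ 2) := by
      rw [e1]; linear_combination (-4 * (1 - y2)) * hα
    exact mul_right_cancel₀ hpos.ne' this
  -- combine
  have e3 : (x1 * y1) / 4 * Real.cos α ≤ -x2 * α := by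
    rw [h1]; exact mul_le_mul_of_nonneg_left hs (by linarith)
  have e4 : α * (1 - y2) * Real.cos α ≤ -x2 * α := by
    have : α * (1 - y2) ≤ (x1 * y1) / 4 := by linarith
    calc α * (1 - y2) * Real.cos α ≤ (x1 * y1) / 4 * Real.cos α :=
          mul_le_mul_of_nonneg_right this (by linarith)
      _ ≤ _ := e3
  have e5 : (1 - y2) * Real.cos α ≤ -x2 := by
    by_contra hcon
    push Not at hcon
    nlinarith
  nlinarith

lemma noAsym {x1 x2 y1 y2 α γ : ℝ} (hx2 : 0 < x2) (hlt : x2 < y2) (hy2 : y2 ≤ 1)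
    (hxy : y1 ^ 2 ≤ x1 ^ 2)
    (hα : α * (1 + (1 / 16) * x1 ^ 2) = (1 / 4) * (1 + y2)) (hα0 : 0 < α) (hα1 : α ≤ 1 / 2)
    (hγ : γ * (1 + (1 / 16) * y1 ^ 2) = (1 / 4) * (1 + x2)) (hγ0 : 0 < γ) (hγ1 : γ ≤ 1 / 2)
    (h : x2 * (Real.sin α * Real.cos γ) = y2 * (Real.sin γ * Real.cos α)) : False := by
  have hcα := cos_lb (by linarith) hα1
  have hcγ := cos_lb (by linarith) hγ1
  have hsγ : 0 < Real.sin γ := Real.sin_pos_of_pos_of_lt_pi hγ0 (by linarith [Real.pi_gt_three])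
  have hsub := Real.sin_sub α γ
  have hkey : x2 * Real.sin (α - γ) = (y2 - x2) * (Real.sin γ * Real.cos α) := by
    rw [hsub]; linear_combination h
  have hpos : 0 < (y2 - x2) * (Real.sin γ * Real.cos α) := by
    apply mul_pos (by linarith); apply mul_pos hsγ; linarith
  have hαγ : 0 < α - γ := by
    by_contra hcon
    push Not at hcon
    have : Real.sin (α - γ) ≤ 0 := Real.sin_nonpos_of_nonpos_of_neg_pi_le hcon (by linarith [Real.pi_gt_three])
    nlinarith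
  have h1 : Real.sin (α - γ) ≤ α - γ := Real.sin_le hαγ.le
  have h2 : α * (1 + x2) ≤ γ * (1 + y2) := by
    have a1 : α * (1 + x2) = 4 * α * γ * (1 + (1 / 16) * y1 ^ 2) := by linear_combination (-4 * α) * hγ
    have a2 : γ * (1 + y2) = 4 * α * γ * (1 + (1 / 16) * x1 ^ 2) := by linear_combination (-4 * γ) * hα
    rw [a1, a2]
    apply mul_le_mul_of_nonneg_left _ (by positivity)
    linarith
  have h3 : (α - γ) * (1 + x2) ≤ (y2 - x2) * γ := by nlinarith
  have h4 : 15 / 16 * γ ≤ Real.sin γ := by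
    have := Real.sin_gt_sub_cube hγ0
    nlinarith [pow_pos hγ0 2, pow_pos hγ0 3]
  have h5 : (y2 - x2) * (Real.sin γ * Real.cos α) * (1 + x2) ≤ x2 * ((y2 - x2) * γ) := by
    calc (y2 - x2) * (Real.sin γ * Real.cos α) * (1 + x2) = x2 * Real.sin (α - γ) * (1 + x2) := by rw [hkey]
      _ ≤ x2 * (α - γ) * (1 + x2) := by
          apply mul_le_mul_of_nonneg_right _ (by linarith)
          exact mul_le_mul_of_nonneg_left h1 hx2.le
      _ = x2 * ((α - γ) * (1 + x2)) := by ring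
      _ ≤ x2 * ((y2 - x2) * γ) := mul_le_mul_of_nonneg_left h3 hx2.le
  have h6 : Real.sin γ * Real.cos α * (1 + x2) ≤ x2 * γ := by
    have hd : 0 < y2 - x2 := by linarith
    by_contra hcon
    push Not at hcon
    nlinarith
  have h7 : (15 / 16 * γ) * (7 / 8) ≤ Real.sin γ * Real.cos α := by
    apply mul_le_mul h4 hcα (by norm_num) hsγ.le
  nlinarith [mul_pos hγ0 hx2]

lemma uniq {m p m' p' : ℝ} (hm : 0 < m) (hp : 0 < p) (hm' : 0 < m') (hp' : 0 < p')
    (h1 : m * (1 + m / 16) + p ^ 2 = 1) (h1' : m' * (1 + m' / 16) + p' ^ 2 = 1)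
    (h2 : m / 4 * Real.cos ((1 / 4) * (1 + p) / (1 + m / 16)) = p * Real.sin ((1 / 4) * (1 + p) / (1 + m / 16)))
    (h2' : m' / 4 * Real.cos ((1 / 4) * (1 + p') / (1 + m' / 16)) = p' * Real.sin ((1 / 4) * (1 + p') / (1 + m' / 16))) :
    ¬ p < p' := by
  intro hlt
  have hpl : p ≤ 1 := by nlinarith
  have hpl' : p' ≤ 1 := by nlinarith
  have hmm : m' < m := by
    by_contra hcon
    push Not at hcon
    nlinarith
  have hα : (1 / 4) * (1 + p) / (1 + m / 16) < (1 / 4) * (1 + p') / (1 + m' / 16) := by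
    apply div_lt_div₀ (by linarith) (by linarith) (by positivity) (by positivity)
  set α := (1 / 4) * (1 + p) / (1 + m / 16) with hαd
  set α' := (1 / 4) * (1 + p') / (1 + m' / 16) with hαd'
  have hα0 : 0 < α := by positivity
  have hα1 : α' ≤ 1 / 2 := by
    rw [hαd', div_le_iff₀ (by positivity)]
    nlinarith
  have hpi := Real.pi_gt_three
  have hsub : 0 < Real.sin (α' - α) := Real.sin_pos_of_pos_of_lt_pi (by linarith) (by linarith)
  rw [Real.sin_sub] at hsub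
  have hc := cos_lb (α := α) (by linarith) (by linarith)
  have hc' := cos_lb (α := α') (by linarith) (by linarith)
  -- m/4 cos α = p sin α, m'/4 cos α' = p' sin α'
  -- sin α' cos α > cos α' sin α ; multiply by p p' :
  have e1 : p * p' * (Real.sin α' * Real.cos α - Real.cos α' * Real.sin α) =
      (p * m' - p' * m) / 4 * (Real.cos α * Real.cos α') := by
    linear_combination (p' * Real.cos α') * h2 - (p * Real.cos α) * h2'
  have e2 : p * m' - p' * m < 0 := by nlinarith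
  have e3 : 0 < Real.cos α * Real.cos α' := by apply mul_pos <;> linarith
  have e4 : 0 < p * p' * (Real.sin α' * Real.cos α - Real.cos α' * Real.sin α) := by
    apply mul_pos (mul_pos hp hp') hsub
  rw [e1] at e4
  nlinarith

lemma exist : ∃ m p : ℝ, 0 < m ∧ 0 < p ∧ m * (1 + m / 16) + p ^ 2 = 1 ∧
    m / 4 * Real.cos ((1 / 4) * (1 + p) / (1 + m / 16)) = p * Real.sin ((1 / 4) * (1 + p) / (1 + m / 16)) := by
  let P : ℝ → ℝ := fun m => Real.sqrt (1 - m - m ^ 2 / 16)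
  let Θ : ℝ → ℝ := fun m => (1 / 4) * (1 + P m) / (1 + max m 0 / 16)
  let g : ℝ → ℝ := fun m => m / 4 * Real.cos (Θ m) - P m * Real.sin (Θ m)
  have hP : Continuous P := by
    apply Real.continuous_sqrt.comp; fun_prop
  have hΘ : Continuous Θ := by
    apply Continuous.div
    · exact continuous_const.mul (continuous_const.add hP)
    · fun_prop
    · intro x
      have : 0 ≤ max x 0 := le_max_right _ _
      positivity
  have hg : Continuous g := by
    apply Continuous.sub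
    · exact (continuous_id.div_const 4).mul (Real.continuous_cos.comp hΘ)
    · exact hP.mul (Real.continuous_sin.comp hΘ)
  have hg0 : g 0 < 0 := by
    have hP0 : P 0 = 1 := by simp [P]
    have hΘ0 : Θ 0 = 1 / 2 := by simp only [Θ, hP0]; norm_num
    simp only [g, hP0, hΘ0]
    have : 0 < Real.sin (1 / 2) := Real.sin_pos_of_pos_of_lt_pi (by norm_num) (by linarith [Real.pi_gt_three])
    linarith
  have hg1 : 0 < g 1 := by
    have hP1 : P 1 = 0 := by
      simp only [P]; apply Real.sqrt_eq_zero_of_nonpos; norm_num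
    have hΘ1 : Θ 1 = 4 / 17 := by simp only [Θ, hP1]; norm_num
    simp only [g, hP1, hΘ1]
    have := cos_lb (α := 4 / 17) (by norm_num) (by norm_num)
    linarith
  obtain ⟨m, hm, hgm⟩ := intermediate_value_Icc (show (0:ℝ) ≤ 1 by norm_num) hg.continuousOn
    (show (0:ℝ) ∈ Set.Icc (g 0) (g 1) from ⟨hg0.le, hg1.le⟩)
  have hm0 : 0 < m := by
    rcases hm.1.lt_or_eq with h | h
    · exact h
    · exfalso; rw [← h] at hgm; linarith
  have hmax : max m 0 = m := max_eq_left hm0.le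
  have hPn : 0 ≤ P m := Real.sqrt_nonneg _
  have hP1 : P m ≤ 1 := by
    simp only [P]
    rw [Real.sqrt_le_iff]
    constructor
    · norm_num
    · nlinarith
  have hΘ0 : 0 < Θ m := by simp only [Θ]; positivity
  have hΘ1 : Θ m ≤ 1 / 2 := by
    simp only [Θ]
    rw [hmax, div_le_iff₀ (by positivity)]
    nlinarith
  have hcos := cos_lb (α := Θ m) (by linarith) hΘ1
  have hPpos : 0 < P m := by
    rcases hPn.lt_or_eq with h | h
    · exact h
    · exfalso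
      simp only [g] at hgm
      rw [← h] at hgm
      nlinarith
  have hin : 0 < 1 - m - m ^ 2 / 16 := Real.sqrt_pos.1 hPpos
  refine ⟨m, P m, hm0, hPpos, ?_, ?_⟩
  · have : P m ^ 2 = 1 - m - m ^ 2 / 16 := Real.sq_sqrt hin.le
    rw [this]; ring
  · have hΘe : Θ m = (1 / 4) * (1 + P m) / (1 + m / 16) := by simp only [Θ]; rw [hmax]
    rw [← hΘe]
    simp only [g] at hgm
    linarith

lemma real_core {x1 x2 x3 y1 y2 y3 α β γ δ : ℝ}
    (hx : x1 ^ 2 + x2 ^ 2 + x3 ^ 2 = 1) (hy : y1 ^ 2 + y2 ^ 2 + y3 ^ 2 = 1)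
    (hα : α * (1 + (1 / 16) * x1 ^ 2) = (1 / 4) * (1 + y2)) (hβ : Real.sin β = (1 / 4) * x1 * Real.cos β)
    (hβc : 0 < Real.cos β)
    (hγ : γ * (1 + (1 / 16) * y1 ^ 2) = (1 / 4) * (1 + x2)) (hδ : Real.sin δ = (1 / 4) * y1 * Real.cos δ)
    (hδc : 0 < Real.cos δ)
    (e1 : x1 = x1 * Real.cos (2 * δ) + x3 * Real.sin (2 * δ))
    (e2 : x2 * Real.cos (2 * α) - x3 * Real.sin (2 * α) = x2)
    (e3 : x2 * Real.sin (2 * α) + x3 * Real.cos (2 * α) = -x1 * Real.sin (2 * δ) + x3 * Real.cos (2 * δ))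
    (f1 : y1 * Real.cos (2 * β) + y3 * Real.sin (2 * β) = y1)
    (f2 : y2 = y2 * Real.cos (2 * γ) - y3 * Real.sin (2 * γ))
    (f3 : -y1 * Real.sin (2 * β) + y3 * Real.cos (2 * β) = y2 * Real.sin (2 * γ) + y3 * Real.cos (2 * γ)) :
    (x1 = 0 ∧ x2 = -1 ∧ x3 = 0 ∧ y1 = 0 ∧ y2 = -1 ∧ y3 = 0) ∨
    (x1 ≠ 0 ∧ 0 < x2 ∧ x3 = -(x1 ^ 2 / 4) ∧ y1 = -x1 ∧ y2 = x2 ∧ y3 = -(x1 ^ 2 / 4) ∧
      x1 ^ 2 * (1 + x1 ^ 2 / 16) + x2 ^ 2 = 1 ∧ x1 ^ 2 / 4 * Real.cos α = x2 * Real.sin α) := by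
  have hpi := Real.pi_gt_three
  have bx1 : x1 ^ 2 ≤ 1 := by linarith [sq_nonneg x2, sq_nonneg x3]
  have by1 : y1 ^ 2 ≤ 1 := by linarith [sq_nonneg y2, sq_nonneg y3]
  have bx2 : -1 ≤ x2 ∧ x2 ≤ 1 := abs_le_one_iff_mul_self_le_one.2 (by linarith [sq_nonneg x1, sq_nonneg x3]) |> abs_le.1
  have by2 : -1 ≤ y2 ∧ y2 ≤ 1 := abs_le_one_iff_mul_self_le_one.2 (by linarith [sq_nonneg y1, sq_nonneg y3]) |> abs_le.1
  have pX : 0 < 1 + (1 / 16) * x1 ^ 2 := by positivity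
  have pY : 0 < 1 + (1 / 16) * y1 ^ 2 := by positivity
  have hα0 : 0 ≤ α := by
    by_contra hcon; push Not at hcon
    have a1 := mul_neg_of_neg_of_pos hcon pX
    linarith
  have hγ0 : 0 ≤ γ := by
    by_contra hcon; push Not at hcon
    have a1 := mul_neg_of_neg_of_pos hcon pY
    linarith
  have hα1 : α ≤ 1 / 2 := by linarith [sq_nonneg x1, mul_nonneg hα0 (sq_nonneg x1)]
  have hγ1 : γ ≤ 1 / 2 := by linarith [sq_nonneg y1, mul_nonneg hγ0 (sq_nonneg y1)]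
  have hcα := cos_lb (α := α) (by linarith) hα1
  have hcγ := cos_lb (α := γ) (by linarith) hγ1
  -- half angle forms
  have sα := Real.sin_sq_add_cos_sq α
  have sβ := Real.sin_sq_add_cos_sq β
  have sγ := Real.sin_sq_add_cos_sq γ
  have sδ := Real.sin_sq_add_cos_sq δ
  rw [Real.cos_two_mul, Real.sin_two_mul] at e1 e2 f1 f2
  rw [Real.cos_two_mul α, Real.sin_two_mul α, Real.cos_two_mul δ, Real.sin_two_mul δ] at e3
  rw [Real.cos_two_mul β, Real.sin_two_mul β, Real.cos_two_mul γ, Real.sin_two_mul γ] at f3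
  have E1 : y1 * (x3 - x1 * y1 / 4) = 0 := by
    have h : Real.cos δ ^ 2 * (y1 * (x3 - x1 * y1 / 4)) = 0 := by
      have h1 : x1 * Real.sin δ ^ 2 = x3 * (Real.sin δ * Real.cos δ) := by
        linear_combination (1 / 2) * e1 + x1 * sδ
      rw [hδ] at h1
      linear_combination -4 * h1
    rcases mul_eq_zero.1 h with h | h
    · exact absurd h (by positivity)
    · exact h
  have F1 : x1 * (y3 - x1 * y1 / 4) = 0 := by
    have h : Real.cos β ^ 2 * (x1 * (y3 - x1 * y1 / 4)) = 0 := by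
      have h1 : y1 * Real.sin β ^ 2 = y3 * (Real.sin β * Real.cos β) := by
        linear_combination (-1 / 2) * f1 + y1 * sβ
      rw [hβ] at h1
      linear_combination -4 * h1
    rcases mul_eq_zero.1 h with h | h
    · exact absurd h (by positivity)
    · exact h
  have E2 : Real.sin α * (x2 * Real.sin α + x3 * Real.cos α) = 0 := by
    linear_combination (-1 / 2) * e2 + x2 * sα
  have F2 : Real.sin γ * (y2 * Real.sin γ + y3 * Real.cos γ) = 0 := by
    linear_combination (1 / 2) * f2 + y2 * sγ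
  have caseA : y2 = -1 → (x1 = 0 ∧ x2 = -1 ∧ x3 = 0 ∧ y1 = 0 ∧ y2 = -1 ∧ y3 = 0) := by
    intro h
    have hy1 : y1 = 0 := by
      have : y1 ^ 2 = 0 := by rw [h] at hy; linarith [sq_nonneg y1, sq_nonneg y3]
      exact pow_eq_zero_iff (two_ne_zero) |>.1 this
    have hy3 : y3 = 0 := by
      have : y3 ^ 2 = 0 := by rw [h] at hy; linarith [sq_nonneg y1, sq_nonneg y3]
      exact pow_eq_zero_iff (two_ne_zero) |>.1 this
    have hs : Real.sin γ = 0 := by
      rw [h, hy3] at F2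
      have : Real.sin γ * Real.sin γ = 0 := by linear_combination -F2
      exact mul_self_eq_zero.1 this
    have hγz : γ = 0 := by
      by_contra hne
      have : 0 < Real.sin γ := Real.sin_pos_of_pos_of_lt_pi (lt_of_le_of_ne hγ0 (Ne.symm hne)) (by linarith)
      linarith
    have hx2 : x2 = -1 := by rw [hγz] at hγ; linarith
    have hx1 : x1 = 0 := by
      have : x1 ^ 2 = 0 := by rw [hx2] at hx; linarith [sq_nonneg x1, sq_nonneg x3]
      exact pow_eq_zero_iff (two_ne_zero) |>.1 this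
    have hx3 : x3 = 0 := by
      have : x3 ^ 2 = 0 := by rw [hx2] at hx; linarith [sq_nonneg x1, sq_nonneg x3]
      exact pow_eq_zero_iff (two_ne_zero) |>.1 this
    exact ⟨hx1, hx2, hx3, hy1, h, hy3⟩
  have caseB : x2 = -1 → y2 = -1 := by
    intro h
    have hx1 : x1 = 0 := by
      have : x1 ^ 2 = 0 := by rw [h] at hx; linarith [sq_nonneg x1, sq_nonneg x3]
      exact pow_eq_zero_iff (two_ne_zero) |>.1 this
    have hx3 : x3 = 0 := by
      have : x3 ^ 2 = 0 := by rw [h] at hx; linarith [sq_nonneg x1, sq_nonneg x3]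
      exact pow_eq_zero_iff (two_ne_zero) |>.1 this
    have hs : Real.sin α = 0 := by
      rw [h, hx3] at E2
      have : Real.sin α * Real.sin α = 0 := by linear_combination -E2
      exact mul_self_eq_zero.1 this
    have hαz : α = 0 := by
      by_contra hne
      have : 0 < Real.sin α := Real.sin_pos_of_pos_of_lt_pi (lt_of_le_of_ne hα0 (Ne.symm hne)) (by linarith)
      linarith
    rw [hαz] at hα; linarith
  by_cases hA : y2 = -1
  · exact Or.inl (caseA hA)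
  by_cases hB : x2 = -1
  · exact absurd (caseB hB) hA
  right
  have hy2 : -1 < y2 := lt_of_le_of_ne by2.1 (Ne.symm hA)
  have hx2 : -1 < x2 := lt_of_le_of_ne bx2.1 (Ne.symm hB)
  have hα0' : 0 < α := by
    by_contra hcon; push Not at hcon
    have a1 := mul_nonpos_of_nonpos_of_nonneg hcon pX.le
    linarith
  have hγ0' : 0 < γ := by
    by_contra hcon; push Not at hcon
    have a1 := mul_nonpos_of_nonpos_of_nonneg hcon pY.le
    linarith
  have hsα : 0 < Real.sin α := Real.sin_pos_of_pos_of_lt_pi hα0' (by linarith)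
  have hsγ : 0 < Real.sin γ := Real.sin_pos_of_pos_of_lt_pi hγ0' (by linarith)
  have E2' : x2 * Real.sin α + x3 * Real.cos α = 0 := by
    rcases mul_eq_zero.1 E2 with h | h
    · exact absurd h hsα.ne'
    · exact h
  have F2' : y2 * Real.sin γ + y3 * Real.cos γ = 0 := by
    rcases mul_eq_zero.1 F2 with h | h
    · exact absurd h hsγ.ne'
    · exact h
  have hy1 : y1 ≠ 0 := by
    intro h
    have hs0 : Real.sin δ = 0 := by rw [hδ, h]; ring
    have hc1 : Real.cos δ ^ 2 = 1 := by rw [hs0] at sδ; linarith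
    have e3' : x2 * Real.cos α = x3 * Real.sin α := by
      have : Real.sin α * (x2 * Real.cos α - x3 * Real.sin α) = 0 := by
        rw [hs0, hc1] at e3
        linear_combination (1 / 2) * e3 - x3 * sα
      rcases mul_eq_zero.1 this with h | h
      · exact absurd h hsα.ne'
      · linarith
    have hx2z : x2 = 0 := by
      linear_combination (-x2) * sα + Real.cos α * e3' + Real.sin α * E2'
    have hx3z : x3 = 0 := by
      linear_combination (-x3) * sα + Real.cos α * E2' - Real.sin α * e3'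
    have hx1z : x1 ≠ 0 := by
      rintro rfl
      rw [hx2z, hx3z] at hx
      norm_num at hx
    have hy3z : y3 = 0 := by
      rcases mul_eq_zero.1 F1 with h' | h'
      · exact absurd h' hx1z
      · rw [h] at h'; linarith
    rw [hy3z] at F2'
    have : y2 = 0 := by
      rcases mul_eq_zero.1 (show y2 * Real.sin γ = 0 by linarith) with h' | h'
      · exact h'
      · exact absurd h' hsγ.ne'
    rw [this, h, hy3z] at hy
    norm_num at hy
  have hx1 : x1 ≠ 0 := by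
    intro h
    have hs0 : Real.sin β = 0 := by rw [hβ, h]; ring
    have hc1 : Real.cos β ^ 2 = 1 := by rw [hs0] at sβ; linarith
    have f3' : y2 * Real.cos γ = y3 * Real.sin γ := by
      have : Real.sin γ * (y2 * Real.cos γ - y3 * Real.sin γ) = 0 := by
        rw [hs0, hc1] at f3
        linear_combination (-1 / 2) * f3 - y3 * sγ
      rcases mul_eq_zero.1 this with h | h
      · exact absurd h hsγ.ne'
      · linarith
    have hy2z : y2 = 0 := by
      linear_combination (-y2) * sγ + Real.cos γ * f3' + Real.sin γ * F2'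
    have hy3z : y3 = 0 := by
      linear_combination (-y3) * sγ + Real.cos γ * F2' - Real.sin γ * f3'
    have hx3z : x3 = 0 := by
      rcases mul_eq_zero.1 E1 with h' | h'
      · exact absurd h' hy1
      · rw [h] at h'; linarith
    rw [hx3z] at E2'
    have : x2 = 0 := by
      rcases mul_eq_zero.1 (show x2 * Real.sin α = 0 by linarith) with h' | h'
      · exact h'
      · exact absurd h' hsα.ne'
    rw [this, h, hx3z] at hx
    norm_num at hx
  have hx3 : x3 = x1 * y1 / 4 := by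
    rcases mul_eq_zero.1 E1 with h' | h'
    · exact absurd h' hy1
    · linarith
  have hy3 : y3 = x1 * y1 / 4 := by
    rcases mul_eq_zero.1 F1 with h' | h'
    · exact absurd h' hx1
    · linarith
  have nx : x1 ^ 2 + x2 ^ 2 + (x1 * y1) ^ 2 / 16 = 1 := by rw [hx3] at hx; linear_combination hx
  have ny : y1 ^ 2 + y2 ^ 2 + (x1 * y1) ^ 2 / 16 = 1 := by rw [hy3] at hy; linear_combination hy
  rw [hx3] at E2'
  rw [hy3] at F2'
  have G1 : (x1 * y1) / 4 * Real.cos α = -x2 * Real.sin α := by linarith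
  have G2 : (x1 * y1) / 4 * Real.cos γ = -y2 * Real.sin γ := by linarith
  have hPne : x1 * y1 ≠ 0 := mul_ne_zero hx1 hy1
  rcases lt_or_gt_of_ne hPne with hP | hP
  · -- P < 0
    have hx2p : 0 < x2 := by
      by_contra hcon; push Not at hcon
      have a1 := mul_neg_of_neg_of_pos hP (show 0 < Real.cos α by linarith)
      have a2 := mul_nonneg (neg_nonneg.2 hcon) hsα.le
      linarith
    have hy2p : 0 < y2 := by
      by_contra hcon; push Not at hcon
      have a1 := mul_neg_of_neg_of_pos hP (show 0 < Real.cos γ by linarith)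
      have a2 := mul_nonneg (neg_nonneg.2 hcon) hsγ.le
      linarith
    have hK : x2 * (Real.sin α * Real.cos γ) = y2 * (Real.sin γ * Real.cos α) := by
      linear_combination Real.cos γ * G1 - Real.cos α * G2
    have hxy : x2 = y2 := by
      rcases lt_trichotomy x2 y2 with h | h | h
      · exfalso
        have a1 := mul_pos (sub_pos.2 h) (add_pos hx2p hy2p)
        have a2 : y1 ^ 2 ≤ x1 ^ 2 := by linarith
        exact noAsym hx2p h by2.2 a2 hα hα0' hα1 hγ hγ0' hγ1 hK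
      · exact h
      · exfalso
        have a1 := mul_pos (sub_pos.2 h) (add_pos hx2p hy2p)
        have a2 : x1 ^ 2 ≤ y1 ^ 2 := by linarith
        exact noAsym hy2p h bx2.2 a2 hγ hγ0' hγ1 hα hα0' hα1 hK.symm
    have hsq : y1 ^ 2 = x1 ^ 2 := by rw [← hxy] at ny; linarith
    have hy1e : y1 = -x1 := by
      rcases sq_eq_sq_iff_eq_or_eq_neg.1 hsq with h | h
      · exfalso; rw [h] at hP; linarith [mul_self_nonneg x1]
      · exact h
    refine ⟨hx1, hx2p, ?_, hy1e, hxy.symm, ?_, ?_, ?_⟩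
    · rw [hx3, hy1e]; ring
    · rw [hy3, hy1e]; ring
    · rw [hy1e] at nx; linear_combination nx
    · rw [hy1e] at G1; linear_combination -G1
  · -- P > 0
    exfalso
    have hx2p : x2 < 0 := by
      by_contra hcon; push Not at hcon
      have a1 := mul_pos hP (show 0 < Real.cos α by linarith)
      have a2 := mul_nonneg hcon hsα.le
      linarith
    have hy2p : y2 < 0 := by
      by_contra hcon; push Not at hcon
      have a1 := mul_pos hP (show 0 < Real.cos γ by linarith)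
      have a2 := mul_nonneg hcon hsγ.le
      linarith
    rcases le_total (-x2) (-y2) with h | h
    · exact noPos hP nx ny hα hα0' hα1 G1 hx2p hy2p h
    · exact noPos (x1 := y1) (x2 := y2) (y1 := x1) (y2 := x2) (α := γ) (by linarith [mul_comm x1 y1])
        (by rw [mul_comm y1 x1]; exact ny) (by rw [mul_comm y1 x1]; exact nx) hγ hγ0' hγ1
        (by rw [mul_comm y1 x1]; exact G2) hy2p hx2p h

/- ### fixed points -/

lemma GG_GG (z : C5) : GG (GG z) = z := by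
  ext i; fin_cases i <;> simp [GG]
lemma GG_smul (c : ℂ) (z : C5) : GG (c • z) = c • GG z := by
  ext i; fin_cases i <;> simp [GG]

lemma Psi_one (z : C5) : Psi (1, z) = GG (FB 1 (FA 1 z)) := by
  simp only [Psi]
  rw [ta_of_ge (by norm_num), tb_of_ge (by norm_num), tc_of_ge (by norm_num), mul_one, RX1_pi]

lemma norm_eq_one_of_nrm {c : ℂ} {z : C5} (h1 : nrm z = 1) (h2 : nrm (c • z) = 1) : ‖c‖ = 1 := by
  have h : nrm (c • z) = (c.re ^ 2 + c.im ^ 2) * nrm z := by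
    simp [nrm]; ring
  rw [h, h1, mul_one] at h2
  have h3 := Complex.sq_norm c
  rw [Complex.normSq_apply] at h3
  have h4 : ‖c‖ ^ 2 = 1 := by rw [h3]; linarith
  have h5 := norm_nonneg c
  nlinarith

/-- the fixed point equation -/
lemma fixed_eq {z : C5} (hz : z ∈ unitCone) {k : ℂ} (h : Psi (1, z) = k • z) :
    ‖k‖ = 1 ∧ RX1 (al z) (RY2 (be z) z) = k • RX2 (de z) (RY1 (ga z) (GG z)) := by
  have hk : ‖k‖ = 1 := by
    have h1 := ((mem_cone_iff _).1 hz).1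
    have h2 := ((mem_cone_iff _).1 (Psi_cone 1 hz)).1
    rw [h] at h2
    exact norm_eq_one_of_nrm h1 h2
  refine ⟨hk, ?_⟩
  rw [Psi_one] at h
  have h1 : FB 1 (FA 1 z) = k • GG z := by
    rw [← GG_GG (FB 1 (FA 1 z)), h, GG_smul]
  have hga : ga (FA 1 z) = ga z := by
    rw [← ga_FB 1 (FA 1 z), h1, ga_smul hk]
    unfold ga; rw [mx2_GG, my1_GG]
  have hde : de (FA 1 z) = de z := by
    rw [← de_FB 1 (FA 1 z), h1, de_smul hk]
    unfold de; rw [my1_GG]
  have h2 : FB 1 (FA 1 z) = RY1 (-(ga z)) (RX2 (-(de z)) (FA 1 z)) := by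
    unfold FB; rw [hga, hde, one_mul, one_mul]
  have h3 : RX2 (de z) (RY1 (ga z) (FB 1 (FA 1 z))) = FA 1 z := by
    rw [h2, RY1_neg, RX2_neg]
  rw [h1, RY1_smul, RX2_smul] at h3
  rw [h3]
  unfold FA
  rw [one_mul, one_mul]

def N4 (z : C5) : ℝ := (z 0).re ^ 2 + (z 0).im ^ 2 + ((z 1).re ^ 2 + (z 1).im ^ 2) + ((z 2).re ^ 2 + (z 2).im ^ 2)
  + ((z 3).re ^ 2 + (z 3).im ^ 2)
def ip4 (u v : C5) : ℝ := (u 0).re * (v 0).re + (u 0).im * (v 0).im + ((u 1).re * (v 1).re + (u 1).im * (v 1).im)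
  + ((u 2).re * (v 2).re + (u 2).im * (v 2).im) + ((u 3).re * (v 3).re + (u 3).im * (v 3).im)

lemma ip4_A (z : C5) (α β : ℝ) : ip4 z (RX1 α (RY2 β z)) = Real.cos α * Real.cos β * N4 z +
    Real.sin α * Real.sin β * (2 * ((z 1).re * (z 2).re + (z 1).im * (z 2).im)
      - 2 * ((z 0).re * (z 3).re + (z 0).im * (z 3).im)) := by
  simp [-Complex.ofReal_cos, -Complex.ofReal_sin, ip4, RX1, RY2, N4]
  ring
lemma ip4_B (z : C5) (γ δ : ℝ) : ip4 z (RX2 δ (RY1 γ (GG z))) = -(Real.cos γ * Real.cos δ * N4 z +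
    Real.sin γ * Real.sin δ * (2 * ((z 1).re * (z 2).re + (z 1).im * (z 2).im)
      + 2 * ((z 0).re * (z 3).re + (z 0).im * (z 3).im))) := by
  simp [-Complex.ofReal_cos, -Complex.ofReal_sin, ip4, RX2, RY1, N4, GG]
  ring

lemma my2_le (z : C5) (hz : z ∈ unitCone) : my2 z ≤ 1 ∧ -1 ≤ my2 z := by
  have h := ((mem_cone_iff _).1 hz).1
  unfold nrm at h; unfold my2
  constructor
  · nlinarith [sq_nonneg ((z 0).re + (z 2).im), sq_nonneg ((z 0).im - (z 2).re), sq_nonneg ((z 3).re - (z 1).im),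
      sq_nonneg ((z 3).im + (z 1).re), sq_nonneg (z 4).re, sq_nonneg (z 4).im]
  · nlinarith [sq_nonneg ((z 0).re - (z 2).im), sq_nonneg ((z 0).im + (z 2).re), sq_nonneg ((z 3).re + (z 1).im),
      sq_nonneg ((z 3).im - (z 1).re), sq_nonneg (z 4).re, sq_nonneg (z 4).im]
lemma mx2_le (z : C5) (hz : z ∈ unitCone) : mx2 z ≤ 1 ∧ -1 ≤ mx2 z := by
  have h := ((mem_cone_iff _).1 hz).1
  unfold nrm at h; unfold mx2
  constructor
  · nlinarith [sq_nonneg ((z 0).re - (z 2).im), sq_nonneg ((z 0).im + (z 2).re), sq_nonneg ((z 3).re - (z 1).im),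
      sq_nonneg ((z 3).im + (z 1).re), sq_nonneg (z 4).re, sq_nonneg (z 4).im]
  · nlinarith [sq_nonneg ((z 0).re + (z 2).im), sq_nonneg ((z 0).im - (z 2).re), sq_nonneg ((z 3).re + (z 1).im),
      sq_nonneg ((z 3).im - (z 1).re), sq_nonneg (z 4).re, sq_nonneg (z 4).im]
lemma mx1_le (z : C5) (hz : z ∈ unitCone) : mx1 z ≤ 1 ∧ -1 ≤ mx1 z := by
  have h := ((mem_cone_iff _).1 hz).1
  unfold nrm at h; unfold mx1
  constructor
  · nlinarith [sq_nonneg ((z 0).re - (z 1).im), sq_nonneg ((z 0).im + (z 1).re), sq_nonneg ((z 2).re - (z 3).im),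
      sq_nonneg ((z 2).im + (z 3).re), sq_nonneg (z 4).re, sq_nonneg (z 4).im]
  · nlinarith [sq_nonneg ((z 0).re + (z 1).im), sq_nonneg ((z 0).im - (z 1).re), sq_nonneg ((z 2).re + (z 3).im),
      sq_nonneg ((z 2).im - (z 3).re), sq_nonneg (z 4).re, sq_nonneg (z 4).im]
lemma my1_le (z : C5) (hz : z ∈ unitCone) : my1 z ≤ 1 ∧ -1 ≤ my1 z := by
  have h := ((mem_cone_iff _).1 hz).1
  unfold nrm at h; unfold my1
  constructor
  · nlinarith [sq_nonneg ((z 0).re + (z 1).im), sq_nonneg ((z 0).im - (z 1).re), sq_nonneg ((z 2).re - (z 3).im),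
      sq_nonneg ((z 2).im + (z 3).re), sq_nonneg (z 4).re, sq_nonneg (z 4).im]
  · nlinarith [sq_nonneg ((z 0).re - (z 1).im), sq_nonneg ((z 0).im + (z 1).re), sq_nonneg ((z 2).re + (z 3).im),
      sq_nonneg ((z 2).im - (z 3).re), sq_nonneg (z 4).re, sq_nonneg (z 4).im]

lemma ang_bd {x y : ℝ} (hx : x ≤ 1 ∧ -1 ≤ x) :
    0 ≤ (1 / 4) * (1 + x) / (1 + (1 / 16) * y ^ 2) ∧ (1 / 4) * (1 + x) / (1 + (1 / 16) * y ^ 2) ≤ 1 / 2 := by
  have hp : 0 < 1 + (1 / 16) * y ^ 2 := by positivity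
  constructor
  · apply div_nonneg _ hp.le; linarith [hx.2]
  · rw [div_le_iff₀ hp]; linarith [hx.1, sq_nonneg y]

lemma arctan_facts {x : ℝ} (hx : x ≤ 1 ∧ -1 ≤ x) :
    Real.sin (Real.arctan ((1 / 4) * x)) = (1 / 4) * x * Real.cos (Real.arctan ((1 / 4) * x)) ∧
    0 < Real.cos (Real.arctan ((1 / 4) * x)) ∧ |Real.sin (Real.arctan ((1 / 4) * x))| ≤ 1 / 4 ∧
    7 / 8 ≤ Real.cos (Real.arctan ((1 / 4) * x)) := by
  set θ := Real.arctan ((1 / 4) * x) with hθ
  have hc : 0 < Real.cos θ := Real.cos_arctan_pos _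
  have h1 : Real.sin θ = (1 / 4) * x * Real.cos θ := by
    have := Real.tan_arctan ((1 / 4) * x)
    rw [← hθ, Real.tan_eq_sin_div_cos, div_eq_iff hc.ne'] at this
    exact this
  have hc1 : Real.cos θ ≤ 1 := Real.cos_le_one _
  have hs := Real.sin_sq_add_cos_sq θ
  have hx2 : x ^ 2 ≤ 1 := by nlinarith [hx.1, hx.2]
  have hs2 : Real.sin θ ^ 2 ≤ 1 / 16 := by
    rw [h1]
    have : Real.cos θ ^ 2 ≤ 1 := by nlinarith
    nlinarith [sq_nonneg x, sq_nonneg (Real.cos θ), mul_nonneg (sq_nonneg x) (sq_nonneg (Real.cos θ))]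
  refine ⟨h1, hc, ?_, ?_⟩
  · apply abs_le_of_sq_le_sq' _ (by norm_num) |> abs_le.2
    nlinarith
  · nlinarith

/-- No fixed points off the quadric surface. -/
lemma z4_eq_zero {z : C5} (hz : z ∈ unitCone) {k : ℂ}
    (h : RX1 (al z) (RY2 (be z) z) = k • RX2 (de z) (RY1 (ga z) (GG z))) : z 4 = 0 := by
  by_contra hne
  have h4 := congrFun h 4
  have hk : k = 1 := by
    have h4' : z 4 = k * z 4 := h4
    have h5 : k * z 4 = 1 * z 4 := by rw [one_mul]; exact h4'.symm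
    exact mul_right_cancel₀ hne h5
  rw [hk, one_smul] at h
  have hip := congrArg (ip4 z) h
  rw [ip4_A, ip4_B] at hip
  obtain ⟨a0, a1⟩ := ang_bd (y := mx1 z) (my2_le z hz)
  obtain ⟨g0, g1⟩ := ang_bd (y := my1 z) (mx2_le z hz)
  change 0 ≤ al z at a0
  change al z ≤ 1 / 2 at a1
  change 0 ≤ ga z at g0
  change ga z ≤ 1 / 2 at g1
  obtain ⟨-, -, b1, b2⟩ := arctan_facts (mx1_le z hz)
  obtain ⟨-, -, d1, d2⟩ := arctan_facts (my1_le z hz)
  change |Real.sin (be z)| ≤ 1 / 4 at b1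
  change 7 / 8 ≤ Real.cos (be z) at b2
  change |Real.sin (de z)| ≤ 1 / 4 at d1
  change 7 / 8 ≤ Real.cos (de z) at d2
  have ca := cos_lb (α := al z) (by linarith) a1
  have cg := cos_lb (α := ga z) (by linarith) g1
  have sa : |Real.sin (al z)| ≤ 1 / 2 := by
    rw [abs_of_nonneg (Real.sin_nonneg_of_nonneg_of_le_pi a0 (by linarith [Real.pi_gt_three]))]
    exact (Real.sin_le a0).trans a1
  have sg : |Real.sin (ga z)| ≤ 1 / 2 := by
    rw [abs_of_nonneg (Real.sin_nonneg_of_nonneg_of_le_pi g0 (by linarith [Real.pi_gt_three]))]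
    exact (Real.sin_le g0).trans g1
  have hN : 0 ≤ N4 z := by unfold N4; positivity
  -- bounds on the two bilinear terms
  have M1 : |2 * ((z 1).re * (z 2).re + (z 1).im * (z 2).im)
      - 2 * ((z 0).re * (z 3).re + (z 0).im * (z 3).im)| ≤ N4 z := by
    rw [abs_le]; unfold N4
    constructor
    · nlinarith [sq_nonneg ((z 1).re + (z 2).re), sq_nonneg ((z 1).im + (z 2).im), sq_nonneg ((z 0).re - (z 3).re), sq_nonneg ((z 0).im - (z 3).im)]
    · nlinarith [sq_nonneg ((z 1).re - (z 2).re), sq_nonneg ((z 1).im - (z 2).im), sq_nonneg ((z 0).re + (z 3).re), sq_nonneg ((z 0).im + (z 3).im)]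
  have M2 : |2 * ((z 1).re * (z 2).re + (z 1).im * (z 2).im)
      + 2 * ((z 0).re * (z 3).re + (z 0).im * (z 3).im)| ≤ N4 z := by
    rw [abs_le]; unfold N4
    constructor
    · nlinarith [sq_nonneg ((z 1).re + (z 2).re), sq_nonneg ((z 1).im + (z 2).im), sq_nonneg ((z 0).re + (z 3).re), sq_nonneg ((z 0).im + (z 3).im)]
    · nlinarith [sq_nonneg ((z 1).re - (z 2).re), sq_nonneg ((z 1).im - (z 2).im), sq_nonneg ((z 0).re - (z 3).re), sq_nonneg ((z 0).im - (z 3).im)]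
  set W1 := 2 * ((z 1).re * (z 2).re + (z 1).im * (z 2).im) - 2 * ((z 0).re * (z 3).re + (z 0).im * (z 3).im)
  set W2 := 2 * ((z 1).re * (z 2).re + (z 1).im * (z 2).im) + 2 * ((z 0).re * (z 3).re + (z 0).im * (z 3).im)
  have K1 : |Real.sin (al z) * Real.sin (be z) * W1| ≤ 1 / 8 * N4 z := by
    rw [abs_mul, abs_mul]
    calc |Real.sin (al z)| * |Real.sin (be z)| * |W1| ≤ (1 / 2) * (1 / 4) * N4 z := by
          apply mul_le_mul _ M1 (abs_nonneg _) (by norm_num)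
          exact mul_le_mul sa b1 (abs_nonneg _) (by norm_num)
      _ = _ := by ring
  have K2 : |Real.sin (ga z) * Real.sin (de z) * W2| ≤ 1 / 8 * N4 z := by
    rw [abs_mul, abs_mul]
    calc |Real.sin (ga z)| * |Real.sin (de z)| * |W2| ≤ (1 / 2) * (1 / 4) * N4 z := by
          apply mul_le_mul _ M2 (abs_nonneg _) (by norm_num)
          exact mul_le_mul sg d1 (abs_nonneg _) (by norm_num)
      _ = _ := by ring
  have K3 : (7 / 8) * (7 / 8) * N4 z ≤ Real.cos (al z) * Real.cos (be z) * N4 z := by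
    apply mul_le_mul_of_nonneg_right _ hN
    exact mul_le_mul ca b2 (by norm_num) (by linarith)
  have K4 : (7 / 8) * (7 / 8) * N4 z ≤ Real.cos (ga z) * Real.cos (de z) * N4 z := by
    apply mul_le_mul_of_nonneg_right _ hN
    exact mul_le_mul cg d2 (by norm_num) (by linarith)
  have K1' := abs_le.1 K1
  have K2' := abs_le.1 K2
  have hN0 : N4 z = 0 := by
    have : N4 z ≤ 0 := by linarith [K1'.1, K2'.1]
    linarith
  obtain ⟨c1, c2, c3⟩ := (mem_cone_iff _).1 hz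
  unfold N4 at hN0
  unfold nrm at c1
  unfold isoR at c2
  unfold isoI at c3
  have z0r : (z 0).re = 0 := by
    have hh : (z 0).re ^ 2 = 0 := le_antisymm (by linarith [sq_nonneg (z 0).re, sq_nonneg (z 0).im, sq_nonneg (z 1).re, sq_nonneg (z 1).im, sq_nonneg (z 2).re, sq_nonneg (z 2).im, sq_nonneg (z 3).re, sq_nonneg (z 3).im]) (sq_nonneg _)
    exact (pow_eq_zero_iff two_ne_zero).1 hh
  have z0i : (z 0).im = 0 := by
    have hh : (z 0).im ^ 2 = 0 := le_antisymm (by linarith [sq_nonneg (z 0).re, sq_nonneg (z 0).im, sq_nonneg (z 1).re, sq_nonneg (z 1).im, sq_nonneg (z 2).re, sq_nonneg (z 2).im, sq_nonneg (z 3).re, sq_nonneg (z 3).im]) (sq_nonneg _)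
    exact (pow_eq_zero_iff two_ne_zero).1 hh
  have z1r : (z 1).re = 0 := by
    have hh : (z 1).re ^ 2 = 0 := le_antisymm (by linarith [sq_nonneg (z 0).re, sq_nonneg (z 0).im, sq_nonneg (z 1).re, sq_nonneg (z 1).im, sq_nonneg (z 2).re, sq_nonneg (z 2).im, sq_nonneg (z 3).re, sq_nonneg (z 3).im]) (sq_nonneg _)
    exact (pow_eq_zero_iff two_ne_zero).1 hh
  have z1i : (z 1).im = 0 := by
    have hh : (z 1).im ^ 2 = 0 := le_antisymm (by linarith [sq_nonneg (z 0).re, sq_nonneg (z 0).im, sq_nonneg (z 1).re, sq_nonneg (z 1).im, sq_nonneg (z 2).re, sq_nonneg (z 2).im, sq_nonneg (z 3).re, sq_nonneg (z 3).im]) (sq_nonneg _)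
    exact (pow_eq_zero_iff two_ne_zero).1 hh
  have z2r : (z 2).re = 0 := by
    have hh : (z 2).re ^ 2 = 0 := le_antisymm (by linarith [sq_nonneg (z 0).re, sq_nonneg (z 0).im, sq_nonneg (z 1).re, sq_nonneg (z 1).im, sq_nonneg (z 2).re, sq_nonneg (z 2).im, sq_nonneg (z 3).re, sq_nonneg (z 3).im]) (sq_nonneg _)
    exact (pow_eq_zero_iff two_ne_zero).1 hh
  have z2i : (z 2).im = 0 := by
    have hh : (z 2).im ^ 2 = 0 := le_antisymm (by linarith [sq_nonneg (z 0).re, sq_nonneg (z 0).im, sq_nonneg (z 1).re, sq_nonneg (z 1).im, sq_nonneg (z 2).re, sq_nonneg (z 2).im, sq_nonneg (z 3).re, sq_nonneg (z 3).im]) (sq_nonneg _)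
    exact (pow_eq_zero_iff two_ne_zero).1 hh
  have z3r : (z 3).re = 0 := by
    have hh : (z 3).re ^ 2 = 0 := le_antisymm (by linarith [sq_nonneg (z 0).re, sq_nonneg (z 0).im, sq_nonneg (z 1).re, sq_nonneg (z 1).im, sq_nonneg (z 2).re, sq_nonneg (z 2).im, sq_nonneg (z 3).re, sq_nonneg (z 3).im]) (sq_nonneg _)
    exact (pow_eq_zero_iff two_ne_zero).1 hh
  have z3i : (z 3).im = 0 := by
    have hh : (z 3).im ^ 2 = 0 := le_antisymm (by linarith [sq_nonneg (z 0).re, sq_nonneg (z 0).im, sq_nonneg (z 1).re, sq_nonneg (z 1).im, sq_nonneg (z 2).re, sq_nonneg (z 2).im, sq_nonneg (z 3).re, sq_nonneg (z 3).im]) (sq_nonneg _)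
    exact (pow_eq_zero_iff two_ne_zero).1 hh
  rw [z0r, z0i, z1r, z1i, z2r, z2i, z3r, z3i] at c1 c2 c3
  -- (z4)^2 = 0 but |z4|^2 = 1
  have q1 : (z 4).re ^ 2 = 1 / 2 := by linarith
  have q2 : (z 4).im ^ 2 = 1 / 2 := by linarith
  have q3 : (z 4).re * (z 4).im = 0 := by linarith
  have : ((z 4).re * (z 4).im) ^ 2 = 1 / 4 := by rw [mul_pow, q1, q2]; norm_num
  rw [q3] at this
  norm_num at this

/-- the standard representative vectors -/
def vec (a c p : ℝ) : C5 := ![(a : ℂ), Complex.I, (c : ℂ), (p : ℂ), 0]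

/-- Recover the line from the moments. -/
lemma line_eq {z : C5} (hz : z ∈ unitCone) (h4 : z 4 = 0) {a c p : ℝ} (hn : a ^ 2 + c ^ 2 + p ^ 2 = 1)
    (hx1 : mx1 z = a) (hx2 : mx2 z = p) (hx3 : mx3 z = -c) (hy1 : my1 z = -a) (hy2 : my2 z = p)
    (hy3 : my3 z = -c) : ∃ k : ℂ, k ≠ 0 ∧ z = k • vec a c p := by
  obtain ⟨c1, c2, c3⟩ := (mem_cone_iff _).1 hz
  unfold nrm at c1
  unfold isoR at c2
  unfold isoI at c3
  rw [h4] at c1 c2 c3
  simp only [Complex.zero_re, Complex.zero_im] at c1 c2 c3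
  have A := hx1
  have B := hx2
  have C := hx3
  have D := hy1
  have E := hy2
  have F := hy3
  unfold mx1 at A; unfold mx2 at B; unfold mx3 at C; unfold my1 at D; unfold my2 at E; unfold my3 at F
  generalize h0r : (z 0).re = r0 at *
  generalize h0i : (z 0).im = m0 at *
  generalize h1r : (z 1).re = r1 at *
  generalize h1i : (z 1).im = m1 at *
  generalize h2r : (z 2).re = r2 at *
  generalize h2i : (z 2).im = m2 at *
  generalize h3r : (z 3).re = r3 at *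
  generalize h3i : (z 3).im = m3 at *
  have Sr : r0 ^ 2 + r1 ^ 2 + r2 ^ 2 + r3 ^ 2 = 1 / 2 := by linarith
  have Sm : m0 ^ 2 + m1 ^ 2 + m2 ^ 2 + m3 ^ 2 = 1 / 2 := by linarith
  have I : r0 * m0 + r1 * m1 + r2 * m2 + r3 * m3 = 0 := by linarith
  -- A_i, B_i
  have A1 : r0 * m1 - m0 * r1 = a / 2 := by linarith
  have B1 : r2 * m3 - m2 * r3 = 0 := by linarith
  have A2 : r0 * m2 - m0 * r2 = 0 := by linarith
  have B2 : r3 * m1 - m3 * r1 = p / 2 := by linarith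
  have A3 : r0 * m3 - m0 * r3 = 0 := by linarith
  have B3 : r1 * m2 - m1 * r2 = -c / 2 := by linarith
  -- |z1|^2 = 1/2
  have P01 : r0 * r1 + m0 * m1 = 0 := by
    have : (r0 * m2 - m0 * r2) * (r1 * m2 - m1 * r2) - (r0 * m3 - m0 * r3) * (r3 * m1 - m3 * r1)
      = (1 / 2) * (r0 * r1 + m0 * m1) := by
      linear_combination (r0 * r1) * Sm + (m0 * m1) * Sr - (r0 * m1 + m0 * r1) * I
    rw [A2, A3] at this
    linarith
  have P12 : r1 * r2 + m1 * m2 = 0 := by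
    have : (r2 * m3 - m2 * r3) * (r3 * m1 - m3 * r1) - (r0 * m1 - m0 * r1) * (r0 * m2 - m0 * r2)
      = -(1 / 2) * (r1 * r2 + m1 * m2) := by
      linear_combination -(r1 * r2) * Sm - (m1 * m2) * Sr + (r2 * m1 + r1 * m2) * I
    rw [A2, B1] at this
    linarith
  have P13 : r1 * r3 + m1 * m3 = 0 := by
    have : (r2 * m3 - m2 * r3) * (r1 * m2 - m1 * r2) - (r0 * m1 - m0 * r1) * (r0 * m3 - m0 * r3)
      = -(1 / 2) * (r1 * r3 + m1 * m3) := by
      linear_combination -(r1 * r3) * Sm - (m1 * m3) * Sr + (r3 * m1 + r1 * m3) * I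
    rw [A3, B1] at this
    linarith
  have P11 : r1 ^ 2 + m1 ^ 2 = 1 / 2 := by
    have : (r0 * m1 - m0 * r1) ^ 2 + (r3 * m1 - m3 * r1) ^ 2 + (r1 * m2 - m1 * r2) ^ 2
      = (1 / 2) * (r1 ^ 2 + m1 ^ 2) := by
      linear_combination (m1 ^ 2) * Sr + (r1 ^ 2) * Sm - 2 * r1 * m1 * I
    rw [A1, B2, B3] at this
    linarith
  refine ⟨-(Complex.I) * z 1, ?_, ?_⟩
  · apply mul_ne_zero (neg_ne_zero.2 Complex.I_ne_zero)
    intro h
    rw [h] at h1r h1i
    simp at h1r h1i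
    rw [← h1r, ← h1i] at P11
    norm_num at P11
  · -- componentwise
    have key0 : r0 = a * m1 ∧ m0 = -a * r1 := by
      constructor
      · linear_combination (-2 * r0) * P11 + 2 * r1 * P01 + 2 * m1 * A1
      · linear_combination (-2 * m0) * P11 + 2 * m1 * P01 - 2 * r1 * A1
    have key2 : r2 = c * m1 ∧ m2 = -c * r1 := by
      constructor
      · linear_combination (-2 * r2) * P11 + 2 * r1 * P12 - 2 * m1 * B3
      · linear_combination (-2 * m2) * P11 + 2 * m1 * P12 + 2 * r1 * B3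
    have key3 : r3 = p * m1 ∧ m3 = -p * r1 := by
      constructor
      · linear_combination (-2 * r3) * P11 + 2 * r1 * P13 + 2 * m1 * B2
      · linear_combination (-2 * m3) * P11 + 2 * m1 * P13 - 2 * r1 * B2
    ext i
    fin_cases i
    · apply Complex.ext <;> simp [vec, h0r, h0i, h1r, h1i]
      · rw [key0.1]; ring
      · rw [key0.2]; ring
    · apply Complex.ext <;> simp [vec, h1r, h1i]
    · apply Complex.ext <;> simp [vec, h2r, h2i, h1r, h1i]
      · rw [key2.1]; ring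
      · rw [key2.2]; ring
    · apply Complex.ext <;> simp [vec, h3r, h3i, h1r, h1i]
      · rw [key3.1]; ring
      · rw [key3.2]; ring
    · simp [vec, h4]

/- moments of multiples of `vec` -/
lemma mx1_vec {k : ℂ} (hk : k.re ^ 2 + k.im ^ 2 = 1 / 2) (a c p : ℝ) : mx1 (k • vec a c p) = a := by
  simp [mx1, vec]; linear_combination (2 * a) * hk
lemma mx2_vec {k : ℂ} (hk : k.re ^ 2 + k.im ^ 2 = 1 / 2) (a c p : ℝ) : mx2 (k • vec a c p) = p := by
  simp [mx2, vec]; linear_combination (2 * p) * hk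
lemma my1_vec {k : ℂ} (hk : k.re ^ 2 + k.im ^ 2 = 1 / 2) (a c p : ℝ) : my1 (k • vec a c p) = -a := by
  simp [my1, vec]; linear_combination (-2 * a) * hk
lemma my2_vec {k : ℂ} (hk : k.re ^ 2 + k.im ^ 2 = 1 / 2) (a c p : ℝ) : my2 (k • vec a c p) = p := by
  simp [my2, vec]; linear_combination (2 * p) * hk

lemma nrm_vec (k : ℂ) (a c p : ℝ) : nrm (k • vec a c p) = (k.re ^ 2 + k.im ^ 2) * (a ^ 2 + c ^ 2 + p ^ 2 + 1) := by
  simp [nrm, vec]; ring

section forward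
variable {a c p t α β : ℝ} (hn : a ^ 2 + c ^ 2 + p ^ 2 = 1) (hc : c = a ^ 2 / 4)
  (hα : α = (1 / 4) * (1 + p) / (1 + (1 / 16) * a ^ 2)) (hβ : β = Real.arctan ((1 / 4) * a))
  (hcα : Real.cos α = p * t) (hsα : Real.sin α = c * t)
  (hsβ : Real.sin β = (1 / 4) * a * Real.cos β)
include hn hc hcα hsα hsβ

lemma rot_vecA : RX1 α (RY2 β (vec a c p)) =
    ((Real.cos β : ℂ) * t * (p - Complex.I * a / 4)) • vec a (-c) p := by
  have hn' : (a : ℂ) ^ 2 + (c : ℂ) ^ 2 + (p : ℂ) ^ 2 = 1 := by exact_mod_cast hn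
  have hc' : (c : ℂ) = (a : ℂ) ^ 2 / 4 := by rw [hc]; push_cast; ring
  have h1 : ((Real.cos α : ℝ) : ℂ) = p * t := by rw [hcα]; push_cast; ring
  have h2 : ((Real.sin α : ℝ) : ℂ) = c * t := by rw [hsα]; push_cast; ring
  have h3 : ((Real.sin β : ℝ) : ℂ) = (1 / 4) * a * (Real.cos β : ℝ) := by rw [hsβ]; push_cast; ring
  have hI := Complex.I_sq
  generalize hC : ((Real.cos β : ℝ) : ℂ) = C at *
  ext i
  fin_cases i <;> simp [-Complex.ofReal_cos, -Complex.ofReal_sin, RX1, RY2, vec] <;> (try rw [h1]) <;> (try rw [h2]) <;> (try rw [h3]) <;> (try rw [hC])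
  · linear_combination (-(C * t * Complex.I)) * hc'
  · linear_combination (C * t * (a / 4)) * hn' + (C * t * a) * hc' + (C * t * (a / 4)) * hI
  · linear_combination (p * t * C) * hc'
  · linear_combination (c * t * C) * hc'

lemma rot_vecB : RY1 (-α) (RX2 β (vec a (-c) p)) =
    ((Real.cos β : ℂ) * t * (p - Complex.I * a / 4)) • vec a c p := by
  have hn' : (a : ℂ) ^ 2 + (c : ℂ) ^ 2 + (p : ℂ) ^ 2 = 1 := by exact_mod_cast hn
  have hc' : (c : ℂ) = (a : ℂ) ^ 2 / 4 := by rw [hc]; push_cast; ring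
  have h1 : ((Real.cos (-α) : ℝ) : ℂ) = p * t := by rw [Real.cos_neg, hcα]; push_cast; ring
  have h2 : ((Real.sin (-α) : ℝ) : ℂ) = -(c * t) := by rw [Real.sin_neg, hsα]; push_cast; ring
  have h3 : ((Real.sin β : ℝ) : ℂ) = (1 / 4) * a * (Real.cos β : ℝ) := by rw [hsβ]; push_cast; ring
  have hI := Complex.I_sq
  generalize hC : ((Real.cos β : ℝ) : ℂ) = C at *
  generalize hA : ((Real.cos (-α) : ℝ) : ℂ) = A at *
  generalize hS : ((Real.sin (-α) : ℝ) : ℂ) = S at *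
  subst h1 h2
  ext i
  fin_cases i <;> simp only [RY1, RX2, vec, hC, hA, hS, h3] <;> simp
  · linear_combination (-(C * t * Complex.I)) * hc'
  · linear_combination (C * t * (a / 4)) * hn' + (C * t * a) * hc' + (C * t * (a / 4)) * hI
  · linear_combination (-(p * t * C)) * hc'
  · linear_combination (c * t * C) * hc'
end forward

/-- vectors in the family are fixed up to scalars. -/
lemma Psi_vec {a c p t : ℝ} (hn : a ^ 2 + c ^ 2 + p ^ 2 = 1) (hc : c = a ^ 2 / 4)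
    (hcα : Real.cos ((1 / 4) * (1 + p) / (1 + (1 / 16) * a ^ 2)) = p * t)
    (hsα : Real.sin ((1 / 4) * (1 + p) / (1 + (1 / 16) * a ^ 2)) = c * t)
    {k : ℂ} (hk : k.re ^ 2 + k.im ^ 2 = 1 / 2) (hz : k • vec a c p ∈ unitCone) :
    ∃ k' : ℂ, Psi (1, k • vec a c p) = k' • vec a c p := by
  have ha : a ≤ 1 ∧ -1 ≤ a := by
    constructor <;> nlinarith [sq_nonneg c, sq_nonneg p]
  obtain ⟨hsβ, -, -, -⟩ := arctan_facts ha
  have hA : FA 1 (k • vec a c p) = (k * ((Real.cos (Real.arctan ((1 / 4) * a)) : ℂ) * t * (p - Complex.I * a / 4))) • vec a (-c) p := by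
    unfold FA
    rw [RY2_smul, RX1_smul, one_mul, one_mul]
    have e1 : al (k • vec a c p) = (1 / 4) * (1 + p) / (1 + (1 / 16) * a ^ 2) := by
      unfold al; rw [my2_vec hk, mx1_vec hk]
    have e2 : be (k • vec a c p) = Real.arctan ((1 / 4) * a) := by
      unfold be; rw [mx1_vec hk]
    rw [e1, e2, rot_vecA hn hc hcα hsα hsβ, smul_smul]
  set k1 : ℂ := k * ((Real.cos (Real.arctan ((1 / 4) * a)) : ℂ) * t * (p - Complex.I * a / 4)) with hk1
  have hk1n : k1.re ^ 2 + k1.im ^ 2 = 1 / 2 := by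
    have h1 := ((mem_cone_iff _).1 (FA_cone 1 hz)).1
    rw [hA, nrm_vec] at h1
    have : a ^ 2 + (-c) ^ 2 + p ^ 2 + 1 = 2 := by linear_combination hn
    rw [this] at h1
    linarith
  have hB : FB 1 (k1 • vec a (-c) p) = (k1 * ((Real.cos (Real.arctan ((1 / 4) * a)) : ℂ) * t * (p - Complex.I * a / 4))) • vec a c p := by
    unfold FB
    rw [RX2_smul, RY1_smul, one_mul, one_mul]
    have e1 : ga (k1 • vec a (-c) p) = (1 / 4) * (1 + p) / (1 + (1 / 16) * a ^ 2) := by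
      unfold ga; rw [mx2_vec hk1n, my1_vec hk1n, neg_sq]
    have e2 : de (k1 • vec a (-c) p) = -Real.arctan ((1 / 4) * a) := by
      unfold de; rw [my1_vec hk1n, mul_neg, Real.arctan_neg]
    rw [e1, e2, neg_neg, rot_vecB hn hc hcα hsα hsβ, smul_smul]
  refine ⟨-(k1 * ((Real.cos (Real.arctan ((1 / 4) * a)) : ℂ) * t * (p - Complex.I * a / 4))), ?_⟩
  rw [Psi_one, hA, hB, GG_smul, neg_smul, ← smul_neg]
  congr 1
  ext i; fin_cases i <;> simp [GG, vec]

lemma s2 : (((Real.sqrt 2)⁻¹ : ℝ) : ℂ).re ^ 2 + (((Real.sqrt 2)⁻¹ : ℝ) : ℂ).im ^ 2 = 1 / 2 := by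
  rw [Complex.ofReal_re, Complex.ofReal_im, inv_pow, Real.sq_sqrt (by norm_num)]; norm_num

lemma s2_ne : (((Real.sqrt 2)⁻¹ : ℝ) : ℂ) ≠ 0 := by
  simp

lemma vec_cone {a c p : ℝ} (hn : a ^ 2 + c ^ 2 + p ^ 2 = 1) {k : ℂ} (hk : k.re ^ 2 + k.im ^ 2 = 1 / 2) :
    k • vec a c p ∈ unitCone := by
  rw [mem_cone_iff]
  refine ⟨?_, ?_, ?_⟩
  · rw [nrm_vec]
    linear_combination (k.re ^ 2 + k.im ^ 2) * hn + 2 * hk
  · simp [isoR, vec]
    linear_combination (k.re ^ 2 - k.im ^ 2) * hn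
  · simp [isoI, vec]
    linear_combination (k.re * k.im) * hn

lemma vec_mem_fixed {a c p t : ℝ} (hn : a ^ 2 + c ^ 2 + p ^ 2 = 1) (hc : c = a ^ 2 / 4)
    (hcα : Real.cos ((1 / 4) * (1 + p) / (1 + (1 / 16) * a ^ 2)) = p * t)
    (hsα : Real.sin ((1 / 4) * (1 + p) / (1 + (1 / 16) * a ^ 2)) = c * t) :
    Submodule.span ℂ {vec a c p} ∈ fixedLines L := by
  have hz := vec_cone hn s2
  obtain ⟨k', hk'⟩ := Psi_vec hn hc hcα hsα s2 hz
  have hspan : Submodule.span ℂ {vec a c p} = Submodule.span ℂ {(((Real.sqrt 2)⁻¹ : ℝ) : ℂ) • vec a c p} :=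
    (Submodule.span_singleton_smul_eq (IsUnit.mk0 _ s2_ne) _).symm
  refine ⟨_, hz, hspan, ?_⟩
  change Psi (1, _) ∈ _
  rw [hk']
  exact Submodule.smul_mem _ _ (Submodule.mem_span_singleton_self _)

lemma vec_span_inj {a c p a' c' p' : ℝ} (h : Submodule.span ℂ {vec a c p} = Submodule.span ℂ {vec a' c' p'}) :
    a = a' := by
  have h1 : vec a c p ∈ Submodule.span ℂ {vec a' c' p'} := h ▸ Submodule.mem_span_singleton_self _
  obtain ⟨k, hk⟩ := Submodule.mem_span_singleton.1 h1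
  have e1 := congrFun hk 1
  have e0 := congrFun hk 0
  simp [vec] at e1 e0
  have hk1 : k = 1 := by
    have : k * Complex.I = 1 * Complex.I := by rw [one_mul]; simpa using e1
    exact mul_right_cancel₀ Complex.I_ne_zero this
  rw [hk1, one_mul] at e0
  exact_mod_cast e0.symm

/-- The sphere identities. -/
lemma sphere_x {z : C5} (hz : z ∈ unitCone) (h4 : z 4 = 0) : mx1 z ^ 2 + mx2 z ^ 2 + mx3 z ^ 2 = 1 := by
  obtain ⟨c1, c2, c3⟩ := (mem_cone_iff _).1 hz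
  unfold nrm at c1
  unfold isoR at c2
  unfold isoI at c3
  rw [h4] at c1 c2 c3
  simp only [Complex.zero_re, Complex.zero_im] at c1 c2 c3
  unfold mx1 mx2 mx3
  generalize (z 0).re = r0 at *
  generalize (z 0).im = m0 at *
  generalize (z 1).re = r1 at *
  generalize (z 1).im = m1 at *
  generalize (z 2).re = r2 at *
  generalize (z 2).im = m2 at *
  generalize (z 3).re = r3 at *
  generalize (z 3).im = m3 at *
  have Sr : r0 ^ 2 + r1 ^ 2 + r2 ^ 2 + r3 ^ 2 = 1 / 2 := by linarith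
  have Sm : m0 ^ 2 + m1 ^ 2 + m2 ^ 2 + m3 ^ 2 = 1 / 2 := by linarith
  have I : r0 * m0 + r1 * m1 + r2 * m2 + r3 * m3 = 0 := by linarith
  linear_combination 4 * (m0 ^ 2 + m1 ^ 2 + m2 ^ 2 + m3 ^ 2) * Sr + 2 * Sm - 4 * (r0 * m0 + r1 * m1 + r2 * m2 + r3 * m3) * I

lemma sphere_y {z : C5} (hz : z ∈ unitCone) (h4 : z 4 = 0) : my1 z ^ 2 + my2 z ^ 2 + my3 z ^ 2 = 1 := by
  obtain ⟨c1, c2, c3⟩ := (mem_cone_iff _).1 hz
  unfold nrm at c1
  unfold isoR at c2
  unfold isoI at c3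
  rw [h4] at c1 c2 c3
  simp only [Complex.zero_re, Complex.zero_im] at c1 c2 c3
  unfold my1 my2 my3
  generalize (z 0).re = r0 at *
  generalize (z 0).im = m0 at *
  generalize (z 1).re = r1 at *
  generalize (z 1).im = m1 at *
  generalize (z 2).re = r2 at *
  generalize (z 2).im = m2 at *
  generalize (z 3).re = r3 at *
  generalize (z 3).im = m3 at *
  have Sr : r0 ^ 2 + r1 ^ 2 + r2 ^ 2 + r3 ^ 2 = 1 / 2 := by linarith
  have Sm : m0 ^ 2 + m1 ^ 2 + m2 ^ 2 + m3 ^ 2 = 1 / 2 := by linarith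
  have I : r0 * m0 + r1 * m1 + r2 * m2 + r3 * m3 = 0 := by linarith
  linear_combination 4 * (m0 ^ 2 + m1 ^ 2 + m2 ^ 2 + m3 ^ 2) * Sr + 2 * Sm - 4 * (r0 * m0 + r1 * m1 + r2 * m2 + r3 * m3) * I

/-- classification of the fixed lines -/
lemma fixed_class {z : C5} (hz : z ∈ unitCone) {k : ℂ} (h : Psi (1, z) = k • z) :
    (∃ q : ℂ, q ≠ 0 ∧ z = q • vec 0 0 (-1)) ∨
    ∃ a p : ℝ, a ≠ 0 ∧ 0 < p ∧ a ^ 2 * (1 + a ^ 2 / 16) + p ^ 2 = 1 ∧
      a ^ 2 / 4 * Real.cos ((1 / 4) * (1 + p) / (1 + a ^ 2 / 16)) = p * Real.sin ((1 / 4) * (1 + p) / (1 + a ^ 2 / 16)) ∧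
      ∃ q : ℂ, q ≠ 0 ∧ z = q • vec a (a ^ 2 / 4) p := by
  obtain ⟨hk, he⟩ := fixed_eq hz h
  have h4 := z4_eq_zero hz he
  have hx := sphere_x hz h4
  have hy := sphere_y hz h4
  obtain ⟨hβ, hβc, -, -⟩ := arctan_facts (mx1_le z hz)
  obtain ⟨hδ, hδc, -, -⟩ := arctan_facts (my1_le z hz)
  have pX : (1 + (1 / 16) * mx1 z ^ 2) ≠ 0 := by positivity
  have pY : (1 + (1 / 16) * my1 z ^ 2) ≠ 0 := by positivity
  have hα : al z * (1 + (1 / 16) * mx1 z ^ 2) = (1 / 4) * (1 + my2 z) := by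
    unfold al; field_simp
  have hγ : ga z * (1 + (1 / 16) * my1 z ^ 2) = (1 / 4) * (1 + mx2 z) := by
    unfold ga; field_simp
  have e1 := congrArg mx1 he
  rw [mx1_RX1, mx1_RY2, mx1_smul hk, mx1_RX2, mx1_RY1, mx3_RY1, mx1_GG, mx3_GG] at e1
  have e2 := congrArg mx2 he
  rw [mx2_RX1, mx2_RY2, mx3_RY2, mx2_smul hk, mx2_RX2, mx2_RY1, mx2_GG] at e2
  have e3 := congrArg mx3 he
  rw [mx3_RX1, mx2_RY2, mx3_RY2, mx3_smul hk, mx3_RX2, mx1_RY1, mx3_RY1, mx1_GG, mx3_GG] at e3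
  have f1 := congrArg my1 he
  rw [my1_RX1, my1_RY2, my1_smul hk, my1_RX2, my1_RY1, my1_GG] at f1
  have f2 := congrArg my2 he
  rw [my2_RX1, my2_RY2, my2_smul hk, my2_RX2, my2_RY1, my2_GG, my3_GG] at f2
  have f3 := congrArg my3 he
  rw [my3_RX1, my3_RY2, my3_smul hk, my3_RX2, my3_RY1, my2_GG, my3_GG] at f3
  rcases real_core hx hy hα hβ hβc hγ hδ hδc e1 e2 e3 f1 f2 f3 with
    ⟨g1, g2, g3, g4, g5, g6⟩ | ⟨g0, g2, g3, g4, g5, g6, g7, g8⟩
  · left
    exact line_eq hz h4 (a := 0) (c := 0) (p := -1) (by norm_num) g1 g2 (by rw [g3]; ring) (by rw [g4]; ring) g5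
      (by rw [g6]; ring)
  · right
    refine ⟨mx1 z, mx2 z, g0, g2, g7, ?_, ?_⟩
    · have : al z = (1 / 4) * (1 + mx2 z) / (1 + mx1 z ^ 2 / 16) := by
        unfold al; rw [g5]; congr 2; ring
      rw [← this]; exact g8
    · exact line_eq hz h4 (by linear_combination g7) rfl rfl g3 g4 g5 g6

lemma fixedLines_ncard : (fixedLines L).ncard = 3 := by
  obtain ⟨m, p, hm, hp, h1, h2⟩ := exist
  have hsq : Real.sqrt m ^ 2 = m := Real.sq_sqrt hm.le
  have hsm : 0 < Real.sqrt m := Real.sqrt_pos.2 hm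
  have e : (1 / 4) * (1 + p) / (1 + (1 / 16) * m) = (1 / 4) * (1 + p) / (1 + m / 16) := by
    congr 2; ring
  have hcos : Real.cos ((1 / 4) * (1 + p) / (1 + m / 16)) = p * (Real.cos ((1 / 4) * (1 + p) / (1 + m / 16)) / p) := by
    field_simp
  have hsin : Real.sin ((1 / 4) * (1 + p) / (1 + m / 16)) = (m / 4) * (Real.cos ((1 / 4) * (1 + p) / (1 + m / 16)) / p) := by
    field_simp
    field_simp at h2
    linarith
  have m1 : Submodule.span ℂ {vec (Real.sqrt m) (m / 4) p} ∈ fixedLines L := by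
    refine vec_mem_fixed (t := Real.cos ((1 / 4) * (1 + p) / (1 + m / 16)) / p) ?_ ?_ ?_ ?_
    · rw [hsq]; linear_combination h1
    · rw [hsq]
    · rw [hsq, e]; exact hcos
    · rw [hsq, e]; exact hsin
  have m2 : Submodule.span ℂ {vec (-Real.sqrt m) (m / 4) p} ∈ fixedLines L := by
    refine vec_mem_fixed (t := Real.cos ((1 / 4) * (1 + p) / (1 + m / 16)) / p) ?_ ?_ ?_ ?_
    · rw [neg_sq, hsq]; linear_combination h1
    · rw [neg_sq, hsq]
    · rw [neg_sq, hsq, e]; exact hcos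
    · rw [neg_sq, hsq, e]; exact hsin
  have m3 : Submodule.span ℂ {vec 0 0 (-1)} ∈ fixedLines L := by
    refine vec_mem_fixed (t := -1) ?_ ?_ ?_ ?_ <;> norm_num
  rw [Set.ncard_eq_three]
  refine ⟨_, _, _, ?_, ?_, ?_, (?_ : fixedLines L = {Submodule.span ℂ {vec (Real.sqrt m) (m / 4) p},
    Submodule.span ℂ {vec (-Real.sqrt m) (m / 4) p}, Submodule.span ℂ {vec 0 0 (-1)}})⟩
  · intro h; have := vec_span_inj h; linarith
  · intro h; have := vec_span_inj h; linarith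
  · intro h; have := vec_span_inj h; linarith
  · apply Set.eq_of_subset_of_subset
    · rintro ℓ ⟨z, hz, rfl, hmem⟩
      obtain ⟨k, hk⟩ := Submodule.mem_span_singleton.1 hmem
      rcases fixed_class hz hk.symm with ⟨q, hq, hzq⟩ | ⟨a, p', ha, hp', g1, g2, q, hq, hzq⟩
      · right; right
        rw [hzq]
        exact Submodule.span_singleton_smul_eq (IsUnit.mk0 _ hq) _
      · have ha2 : 0 < a ^ 2 := by positivity
        have n1 := uniq hm hp ha2 hp' h1 g1 h2 g2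
        have n2 := uniq ha2 hp' hm hp g1 h1 g2 h2
        have hpp : p' = p := le_antisymm (not_lt.1 n1) (not_lt.1 n2)
        have hmm : a ^ 2 = m := by
          rw [hpp] at g1
          have : (a ^ 2 - m) * (1 + (a ^ 2 + m) / 16) = 0 := by linear_combination g1 - h1
          rcases mul_eq_zero.1 this with h | h
          · linarith
          · exfalso
            have : 0 < 1 + (a ^ 2 + m) / 16 := by positivity
            linarith
        rw [hzq, hpp, hmm, Submodule.span_singleton_smul_eq (IsUnit.mk0 _ hq)]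
        have : a = Real.sqrt m ∨ a = -Real.sqrt m := by
          apply sq_eq_sq_iff_eq_or_eq_neg.1
          rw [hsq, hmm]
        rcases this with h | h
        · left; rw [h]
        · right; left; rw [h]
    · rintro ℓ (rfl | rfl | rfl)
      · exact m1
      · exact m2
      · exact m3

/-- degeneracy -/
lemma degenerate : HasDegenerateFixedPoint L := by
  have hz : (((Real.sqrt 2)⁻¹ : ℝ) : ℂ) • vec 0 0 (-1) ∈ unitCone := vec_cone (by norm_num) s2
  set z0 : C5 := (((Real.sqrt 2)⁻¹ : ℝ) : ℂ) • vec 0 0 (-1) with hz0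
  set w : C5 := ![Complex.I, 0, 0, 0, 0] with hw
  have hr : Real.sqrt 2 ^ 2 = 2 := Real.sq_sqrt (by norm_num)
  have key : ∀ e : ℝ, Psi (1, z0 + e • w) = -z0 - e • w := by
    intro e
    have hmx1 : mx1 (z0 + e • w) = 0 := by
      simp [mx1, hz0, hw, vec]
    have hmy1 : my1 (z0 + e • w) = 0 := by
      simp [my1, hz0, hw, vec]
    have hmx2 : mx2 (z0 + e • w) = -1 := by
      simp [mx2, hz0, hw, vec]
      linear_combination (1 / 2) * hr
    have hmy2 : my2 (z0 + e • w) = -1 := by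
      simp [my2, hz0, hw, vec]
      linear_combination (1 / 2) * hr
    have hal : al (z0 + e • w) = 0 := by unfold al; rw [hmy2]; simp
    have hbe : be (z0 + e • w) = 0 := by unfold be; rw [hmx1]; simp
    have hga : ga (z0 + e • w) = 0 := by unfold ga; rw [hmx2]; simp
    have hde : de (z0 + e • w) = 0 := by unfold de; rw [hmy1]; simp
    have hFA : FA 1 (z0 + e • w) = z0 + e • w := by
      unfold FA; rw [hal, hbe, mul_zero, RY2_zero, RX1_zero]
    have hFB : FB 1 (z0 + e • w) = z0 + e • w := by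
      unfold FB; rw [hga, hde, mul_zero, neg_zero, RX2_zero, RY1_zero]
    rw [Psi_one, hFA, hFB]
    ext i
    fin_cases i <;> simp [GG, hz0, hw, vec]
  refine ⟨z0, hz, -1, ?_, w, ?_, ?_, 0, ?_⟩
  · have := key 0
    simp only [zero_smul, add_zero, sub_zero] at this
    change Psi (1, z0) = _
    rw [this, neg_smul, one_smul]
  · constructor
    · simp [herm, Fin.sum_univ_five, hz0, hw, vec]
    · simp [Fin.sum_univ_five, hz0, hw, vec]
  · intro r h
    have := congrFun h 0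
    simp [hz0, hw, vec] at this
  · have hd : DifferentiableAt ℝ (fun x : C5 => Psi (1, x)) z0 := by
      have : ContDiff ℝ (⊤ : ℕ∞) (fun x : C5 => Psi (1, x)) :=
        contDiff_Psi.comp (contDiff_const.prodMk contDiff_id)
      exact (this.differentiable (by simp)) z0
    change fderiv ℝ (fun x : C5 => Psi (1, x)) z0 w = _
    rw [← hd.lineDeriv_eq_fderiv]
    unfold lineDeriv
    have hfun : (fun e : ℝ => Psi (1, z0 + e • w)) = fun e : ℝ => -z0 - e • w := funext key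
    rw [hfun]
    have hder : HasDerivAt (fun e : ℝ => -z0 - e • w) (-((1:ℝ) • w)) 0 :=
      ((hasDerivAt_id (0:ℝ)).smul_const w).const_sub (-z0)
    rw [hder.deriv]
    simp

end

/-- There is a Hamiltonian diffeomorphism of the complex quadric threefold (the zero set of z₀² + ⋯ + z₄² in complex projective 4-space, with the restricted Fubini–Study form) having exactly three fixed points, at least one of them degenerate. Hamiltonian isotopies are encoded by smooth lifts to the unit isotropic cone in ℂ⁵ obeying Hamilton's equation; points of the quadric are complex lines through cone points; degenerate means the differential of the time-one map fixes a nonzero tangent vector. -/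
theorem result :
    ∃ L : Crest.GeometryTopology.Quadric.HamiltonianConeLift,
      (Crest.GeometryTopology.Quadric.fixedLines L).ncard = 3 ∧
      Crest.GeometryTopology.Quadric.HasDegenerateFixedPoint L :=
  ⟨L, fixedLines_ncard, degenerate⟩

end Crest.Agent.S0316
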