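import Crest.Agent.TetLib

/-! An explicit cover of the regular tetrahedron by cylinders with triangular bases, of total base
area smaller than half of the minimal projection. -/

set_option autoImplicit false
open MeasureTheory Set

namespace Crest.Agent.TetCover
open Crest.Agent.TetLib

/-- The real-number core of the covering argument. -/
lemma core (c δ m m' P Q H H' h h' x y s t t' : ℝ) (hc0 : 0 < c) (hc : c ≤ 1 / 4) (hδ0 : 0 < δ)
    (hδ : δ ≤ 1 / 4) (hm : |m| ≤ 1) (hm' : |m'| ≤ 1)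
    (hP : P = c / 4 * (1 - δ ^ 2 + m ^ 2)) (hQ : Q = c / 4 * (1 - δ ^ 2 + m' ^ 2))
    (hh : h = c ^ 2 / 16 * (1 + c) * (m ^ 2 + m ^ 4) + c * δ / 2)
    (hh' : h' = c ^ 2 / 16 * (1 + c) * (m' ^ 2 + m' ^ 4) + c * δ / 2)
    (hH : H = 1 / 2 + h) (hH' : H' = 1 / 2 + h')
    (ht : t = s - x * (c / 2 * m)) (ht' : t' = 1 - s - y * (c / 2 * m'))
    (hα : |y - x * P - m * t| ≤ δ * t) (hβ : |-x - y * Q - m' * t'| ≤ δ * t')
    (hfail : H < t) (hfail' : H' < t') : False := by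
  have a0 : 0 ≤ m ^ 2 := sq_nonneg m
  have b0 : 0 ≤ m' ^ 2 := sq_nonneg m'
  have a1 : m ^ 2 ≤ 1 := by rw [← sq_abs]; exact pow_le_one₀ (abs_nonneg _) hm
  have b1 : m' ^ 2 ≤ 1 := by rw [← sq_abs]; exact pow_le_one₀ (abs_nonneg _) hm'
  have d2 : δ ^ 2 ≤ 1 := pow_le_one₀ hδ0.le (by linarith)
  have d0 : 0 ≤ δ ^ 2 := sq_nonneg δ
  have hmm' : |m * m'| ≤ 1 := by rw [abs_mul]; exact mul_le_one₀ hm (abs_nonneg _) hm'
  have hP0 : 0 ≤ P := by rw [hP]; exact mul_nonneg (by positivity) (by linarith)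
  have hQ0 : 0 ≤ Q := by rw [hQ]; exact mul_nonneg (by positivity) (by linarith)
  have hP1 : P ≤ c / 4 * (1 + m ^ 2) := by
    rw [hP]; exact mul_le_mul_of_nonneg_left (by linarith) (by positivity)
  have hQ1 : Q ≤ c / 4 * (1 + m' ^ 2) := by
    rw [hQ]; exact mul_le_mul_of_nonneg_left (by linarith) (by positivity)
  have hP2 : P ≤ 1 / 8 := by
    have : c / 4 * (1 + m ^ 2) ≤ (1 / 16) * 2 := mul_le_mul (by linarith) (by linarith) (by positivity) (by norm_num)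
    linarith
  have hQ2 : Q ≤ 1 / 8 := by
    have : c / 4 * (1 + m' ^ 2) ≤ (1 / 16) * 2 := mul_le_mul (by linarith) (by linarith) (by positivity) (by norm_num)
    linarith
  have hm4 : m ^ 4 = (m ^ 2) ^ 2 := by ring
  have hm4' : m' ^ 4 = (m' ^ 2) ^ 2 := by ring
  -- the exact identity
  set α := y - x * P - m * t with hα'
  set β := -x - y * Q - m' * t' with hβ'
  have hF : (1 + P * Q) * (t + t' - 1) + c / 2 * ((m * t + α) * (m' - m * Q) - (m' * t' + β) * (m + m' * P)) = 0 := by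
    have e1 : t + t' - 1 = -(c / 2) * (x * m + y * m') := by rw [ht, ht']; ring
    have e2 : (m * t + α) * (m' - m * Q) - (m' * t' + β) * (m + m' * P) = (1 + P * Q) * (x * m + y * m') := by
      rw [hα', hβ']; ring
    rw [e1, e2]; ring
  clear_value α β
  set a := m ^ 2 with ha
  set b := m' ^ 2 with hb
  set k := c ^ 2 / 16 * (1 + c) with hk
  have hk0 : 0 ≤ k := by rw [hk]; positivity
  set S := a + a ^ 2 + (b + b ^ 2) with hS
  have ha2 : a ^ 2 ≤ 1 := pow_le_one₀ a0 a1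
  have hb2 : b ^ 2 ≤ 1 := pow_le_one₀ b0 b1
  have ha20 : 0 ≤ a ^ 2 := sq_nonneg a
  have hb20 : 0 ≤ b ^ 2 := sq_nonneg b
  rw [hm4] at hh
  rw [hm4'] at hh'
  have hcδ : 0 < c * δ := by positivity
  have hh0 : 0 ≤ h := by rw [hh]; positivity
  have hh0' : 0 ≤ h' := by rw [hh']; positivity
  have hhk : h ≤ 2 * k + c * δ / 2 := by
    rw [hh]
    have : k * (a + a ^ 2) ≤ k * 2 := mul_le_mul_of_nonneg_left (by linarith) hk0
    linarith
  have hhk' : h' ≤ 2 * k + c * δ / 2 := by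
    rw [hh']
    have : k * (b + b ^ 2) ≤ k * 2 := mul_le_mul_of_nonneg_left (by linarith) hk0
    linarith
  have hhdiff : |h - h'| ≤ k * S := by
    have e : h - h' = k * (a + a ^ 2) - k * (b + b ^ 2) := by rw [hh, hh']; ring
    have e1 : 0 ≤ k * (a + a ^ 2) := by positivity
    have e2 : 0 ≤ k * (b + b ^ 2) := by positivity
    have e3 : k * S = k * (a + a ^ 2) + k * (b + b ^ 2) := by rw [hS]; ring
    rw [e, e3, abs_le]; constructor <;> linarith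
  have hsum : h + h' = k * S + c * δ := by rw [hh, hh', hS]; ring
  have ht0 : 0 < t := by linarith
  have ht0' : 0 < t' := by linarith
  have hkc : k ≤ c / 16 * (5 / 16) := by
    have e : k = c / 16 * (c * (1 + c)) := by rw [hk]; ring
    rw [e]
    apply mul_le_mul_of_nonneg_left _ (by positivity)
    calc c * (1 + c) ≤ (1 / 4) * (1 + 1 / 4) := mul_le_mul hc (by linarith) (by positivity) (by norm_num)
      _ = 5 / 16 := by norm_num
  have hcd4 : c * δ ≤ 1 / 16 := by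
    calc c * δ ≤ (1 / 4) * (1 / 4) := mul_le_mul hc hδ hδ0.le (by norm_num)
      _ = 1 / 16 := by norm_num
  have hH34 : H ≤ 3 / 4 := by linarith
  have hH34' : H' ≤ 3 / 4 := by linarith
  -- bounds of the error products
  have hx1 : |m' - m * Q| ≤ 1 + Q := by
    have h1 := abs_sub m' (m * Q)
    have h2 : |m * Q| ≤ Q := by
      rw [abs_mul, abs_of_nonneg hQ0]
      calc |m| * Q ≤ 1 * Q := mul_le_mul_of_nonneg_right hm hQ0
        _ = Q := one_mul _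
    linarith
  have hx2 : |m + m' * P| ≤ 1 + P := by
    have h1 := abs_add_le m (m' * P)
    have h2 : |m' * P| ≤ P := by
      rw [abs_mul, abs_of_nonneg hP0]
      calc |m'| * P ≤ 1 * P := mul_le_mul_of_nonneg_right hm' hP0
        _ = P := one_mul _
    linarith
  have hx3 : |α * (m' - m * Q)| ≤ δ * t * (1 + Q) := by
    rw [abs_mul]; exact mul_le_mul hα hx1 (abs_nonneg _) (by positivity)
  have hx4 : |β * (m + m' * P)| ≤ δ * t' * (1 + P) := by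
    rw [abs_mul]; exact mul_le_mul hβ hx2 (abs_nonneg _) (by positivity)
  have hx3' := (abs_le.mp hx3).1
  have hx4' := (abs_le.mp hx4).2
  have hmm1 := abs_le.mp hmm'
  -- G(t,t') ≤ 0
  have hG : t * (1 + P * Q + c / 2 * (m * m' - a * Q - δ * (1 + Q))) + t' * (1 + P * Q - c / 2 * (m * m' + b * P + δ * (1 + P))) - (1 + P * Q) ≤ 0 := by
    have e : t * (1 + P * Q + c / 2 * (m * m' - a * Q - δ * (1 + Q))) + t' * (1 + P * Q - c / 2 * (m * m' + b * P + δ * (1 + P))) - (1 + P * Q)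
      = ((1 + P * Q) * (t + t' - 1) + c / 2 * ((m * t + α) * (m' - m * Q) - (m' * t' + β) * (m + m' * P)))
        - c / 2 * (α * (m' - m * Q) + δ * t * (1 + Q)) + c / 2 * (β * (m + m' * P) - δ * t' * (1 + P)) := by
      rw [ha, hb]; ring
    rw [e, hF]
    have e1 : 0 ≤ c / 2 * (α * (m' - m * Q) + δ * t * (1 + Q)) := mul_nonneg (by positivity) (by linarith)
    have e2 : c / 2 * (β * (m + m' * P) - δ * t' * (1 + P)) ≤ 0 := mul_nonpos_of_nonneg_of_nonpos (by positivity) (by linarith)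
    linarith
  have hPQ0 : 0 ≤ P * Q := by positivity
  have haQ : a * Q ≤ 1 / 8 := by
    calc a * Q ≤ 1 * Q := mul_le_mul_of_nonneg_right a1 hQ0
      _ ≤ 1 / 8 := by linarith
  have hbP : b * P ≤ 1 / 8 := by
    calc b * P ≤ 1 * P := mul_le_mul_of_nonneg_right b1 hP0
      _ ≤ 1 / 8 := by linarith
  have haQ0 : 0 ≤ a * Q := by positivity
  have hbP0 : 0 ≤ b * P := by positivity
  have hdQ : δ * (1 + Q) ≤ 9 / 32 := by
    calc δ * (1 + Q) ≤ (1 / 4) * (9 / 8) := mul_le_mul hδ (by linarith) (by linarith) (by norm_num)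
      _ = 9 / 32 := by norm_num
  have hdP : δ * (1 + P) ≤ 9 / 32 := by
    calc δ * (1 + P) ≤ (1 / 4) * (9 / 8) := mul_le_mul hδ (by linarith) (by linarith) (by norm_num)
      _ = 9 / 32 := by norm_num
  have hC1 : 0 < 1 + P * Q + c / 2 * (m * m' - a * Q - δ * (1 + Q)) := by
    have e : -(1 / 8 * 2) ≤ c / 2 * (m * m' - a * Q - δ * (1 + Q)) := by
      have e1 : -2 ≤ m * m' - a * Q - δ * (1 + Q) := by linarith
      have e2 : c / 2 * (-2) ≤ c / 2 * (m * m' - a * Q - δ * (1 + Q)) := mul_le_mul_of_nonneg_left e1 (by positivity)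
      linarith
    linarith
  have hC2 : 0 < 1 + P * Q - c / 2 * (m * m' + b * P + δ * (1 + P)) := by
    have e : c / 2 * (m * m' + b * P + δ * (1 + P)) ≤ 1 / 8 * 2 := by
      have e1 : m * m' + b * P + δ * (1 + P) ≤ 2 := by linarith
      have e2 : c / 2 * (m * m' + b * P + δ * (1 + P)) ≤ c / 2 * 2 := mul_le_mul_of_nonneg_left e1 (by positivity)
      linarith
    linarith
  have hGt : H * (1 + P * Q + c / 2 * (m * m' - a * Q - δ * (1 + Q))) + H' * (1 + P * Q - c / 2 * (m * m' + b * P + δ * (1 + P))) - (1 + P * Q) < 0 := by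
    have e1 := mul_lt_mul_of_pos_right hfail hC1
    have e2 := mul_lt_mul_of_pos_right hfail' hC2
    linarith only [e1, e2, hG]
  -- G(H,H') ≥ 0
  have hGH : H * (1 + P * Q + c / 2 * (m * m' - a * Q - δ * (1 + Q))) + H' * (1 + P * Q - c / 2 * (m * m' + b * P + δ * (1 + P))) - (1 + P * Q)
      = (1 + P * Q) * (h + h') + c / 2 * ((m * m') * (h - h') - (a * Q * H + b * P * H') - (δ * (1 + Q) * H + δ * (1 + P) * H')) := by
    rw [hH, hH']; ring
  have g1 : -(k * S) ≤ (m * m') * (h - h') := by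
    have : |(m * m') * (h - h')| ≤ 1 * (k * S) := by
      rw [abs_mul]; exact mul_le_mul hmm' hhdiff (abs_nonneg _) (by norm_num)
    have := (abs_le.mp this).1
    linarith
  set Hm := 1 / 2 + (2 * k + c * δ / 2) with hHm
  have hHm0 : 0 ≤ Hm := by positivity
  have hHm1 : H ≤ Hm := by linarith
  have hHm2 : H' ≤ Hm := by linarith
  have g2 : a * Q * H + b * P * H' ≤ c / 4 * S * Hm := by
    have e1 : a * Q * H ≤ a * (c / 4 * (1 + b)) * Hm :=
      mul_le_mul (mul_le_mul_of_nonneg_left hQ1 a0) hHm1 (by linarith) (by positivity)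
    have e2 : b * P * H' ≤ b * (c / 4 * (1 + a)) * Hm :=
      mul_le_mul (mul_le_mul_of_nonneg_left hP1 b0) hHm2 (by linarith) (by positivity)
    have e3 : a * (1 + b) + b * (1 + a) ≤ S := by
      have h1 := sq_nonneg (a - b)
      have h2 : S - (a * (1 + b) + b * (1 + a)) = (a - b) ^ 2 := by rw [hS]; ring
      linarith only [h1, h2]
    have e4 : c / 4 * Hm * (a * (1 + b) + b * (1 + a)) ≤ c / 4 * Hm * S := mul_le_mul_of_nonneg_left e3 (by positivity)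
    have e5 : c / 4 * Hm * (a * (1 + b) + b * (1 + a)) = a * (c / 4 * (1 + b)) * Hm + b * (c / 4 * (1 + a)) * Hm := by ring
    have e6 : c / 4 * Hm * S = c / 4 * S * Hm := by ring
    linarith only [e1, e2, e4, e5, e6]
  have g3 : δ * (1 + Q) * H + δ * (1 + P) * H' ≤ 2 * δ := by
    have e1 : δ * (1 + Q) * H ≤ δ := by
      have h1 : (1 + Q) * H ≤ 9 / 8 * (3 / 4) := mul_le_mul (by linarith only [hQ2]) hH34 (by linarith only [hH, hh0]) (by norm_num)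
      calc δ * (1 + Q) * H = δ * ((1 + Q) * H) := by ring
        _ ≤ δ * 1 := mul_le_mul_of_nonneg_left (by linarith only [h1]) hδ0.le
        _ = δ := mul_one _
    have e2 : δ * (1 + P) * H' ≤ δ := by
      have h1 : (1 + P) * H' ≤ 9 / 8 * (3 / 4) := mul_le_mul (by linarith only [hP2]) hH34' (by linarith only [hH', hh0']) (by norm_num)
      calc δ * (1 + P) * H' = δ * ((1 + P) * H') := by ring
        _ ≤ δ * 1 := mul_le_mul_of_nonneg_left (by linarith only [h1]) hδ0.le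
        _ = δ := mul_one _
    linarith only [e1, e2]
  have g4 : h + h' ≤ (1 + P * Q) * (h + h') := by
    have h1 : 0 ≤ P * Q * (h + h') := by positivity
    linarith only [h1]
  have g5 : c / 2 * (-(k * S) - c / 4 * S * Hm - 2 * δ) ≤ c / 2 * ((m * m') * (h - h') - (a * Q * H + b * P * H') - (δ * (1 + Q) * H + δ * (1 + P) * H')) :=
    mul_le_mul_of_nonneg_left (by linarith only [g1, g2, g3]) (by positivity)
  have g6 : 0 ≤ k - c / 2 * k - c ^ 2 / 8 * Hm := by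
    have e : k - c / 2 * k - c ^ 2 / 8 * Hm = c ^ 3 / 16 * (1 / 2 - c / 2 - c * (1 + c) / 4 - δ) := by
      rw [hHm, hk]; ring
    rw [e]
    apply mul_nonneg (by positivity)
    have : c * (1 + c) ≤ 5 / 16 := by
      calc c * (1 + c) ≤ (1 / 4) * (1 + 1 / 4) := mul_le_mul hc (by linarith) (by positivity) (by norm_num)
        _ = 5 / 16 := by norm_num
    linarith
  have hS0 : 0 ≤ S := by rw [hS]; positivity
  have g7 : 0 ≤ S * (k - c / 2 * k - c ^ 2 / 8 * Hm) := mul_nonneg hS0 g6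
  have g8 : c / 2 * (-(k * S) - c / 4 * S * Hm - 2 * δ) + (k * S + c * δ) = S * (k - c / 2 * k - c ^ 2 / 8 * Hm) := by ring
  rw [hGH] at hGt
  linarith only [hGt, g4, g5, g7, g8, hsum]

lemma ivt_nat (f : ℕ → ℝ) (N : ℕ) (hN : 0 < N) (h0 : 0 ≤ f 0) (h1 : f N ≤ 0) :
    ∃ k < N, 0 ≤ f k ∧ f (k + 1) ≤ 0 := by
  classical
  have hex : ∃ k, f (k + 1) ≤ 0 := ⟨N - 1, by rwa [Nat.sub_add_cancel hN]⟩
  refine ⟨Nat.find hex, ?_, ?_, Nat.find_spec hex⟩
  · have : Nat.find hex ≤ N - 1 := Nat.find_min' hex (by rwa [Nat.sub_add_cancel hN])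
    omega
  · rcases Nat.eq_zero_or_pos (Nat.find hex) with h | h
    · rw [h]; exact h0
    · have := Nat.find_min hex (m := Nat.find hex - 1) (by omega)
      rw [Nat.sub_add_cancel h] at this
      exact (not_le.mp this).le

noncomputable def dl (N : ℕ) : ℝ := 1 / N
noncomputable def uu (N k : ℕ) : ℝ := -1 + 2 * k * dl N
noncomputable def mm (N k : ℕ) : ℝ := -1 + (2 * k + 1) * dl N
noncomputable def PP (c : ℝ) (N k : ℕ) : ℝ := c / 4 * (1 - dl N ^ 2 + mm N k ^ 2)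
noncomputable def hh (c : ℝ) (N k : ℕ) : ℝ :=
  c ^ 2 / 16 * (1 + c) * (mm N k ^ 2 + mm N k ^ 4) + c * dl N / 2
noncomputable def HH (c : ℝ) (N k : ℕ) : ℝ := 1 / 2 + hh c N k

lemma dl_pos (N : ℕ) (hN : 0 < N) : 0 < dl N := by rw [dl]; positivity

lemma abs_mm_le (N k : ℕ) (hk : k < N) : |mm N k| ≤ 1 := by
  have hN : (0:ℝ) < N := by exact_mod_cast (by omega : 0 < N)
  have h1 : (2 * (k:ℝ) + 1) ≤ 2 * N := by
    have : k + 1 ≤ N := hk
    have : (k:ℝ) + 1 ≤ N := by exact_mod_cast this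
    linarith
  have h2 : (2 * (k:ℝ) + 1) * dl N ≤ 2 := by
    rw [dl, mul_one_div, div_le_iff₀ hN]; exact h1
  have h3 : 0 ≤ (2 * (k:ℝ) + 1) * dl N := by rw [dl]; positivity
  rw [mm, abs_le]; constructor <;> linarith

/-- locating a point in a sector -/
lemma sector (c : ℝ) (N : ℕ) (hN : 0 < N) (x y s : ℝ) (hy : |y| ≤ s) :
    ∃ k < N, |y - x * PP c N k - mm N k * (s - x * (c / 2 * mm N k))| ≤ dl N * (s - x * (c / 2 * mm N k)) := by
  have hN' : (0:ℝ) < N := by exact_mod_cast hN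
  have hy' := abs_le.mp hy
  obtain ⟨k, hk, h1, h2⟩ := ivt_nat (fun k => y - uu N k * s - x * (c / 4) * (1 - uu N k ^ 2)) N hN
    (by simp only [uu]; norm_num; linarith [hy'.1])
    (by
      have : uu N N = 1 := by rw [uu, dl]; field_simp; ring
      simp only [this]; norm_num; linarith [hy'.2])
  refine ⟨k, hk, ?_⟩
  have e1 : uu N k = mm N k - dl N := by rw [uu, mm]; ring
  have e2 : uu N (k + 1) = mm N k + dl N := by rw [uu, mm]; push_cast; ring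
  simp only [e1] at h1
  simp only [e2] at h2
  set δ := dl N
  set m := mm N k
  have f1 : y - (m - δ) * s - x * (c / 4) * (1 - (m - δ) ^ 2) = y - x * PP c N k - m * (s - x * (c / 2 * m)) + δ * (s - x * (c / 2 * m)) := by
    rw [PP]; ring
  have f2 : y - (m + δ) * s - x * (c / 4) * (1 - (m + δ) ^ 2) = y - x * PP c N k - m * (s - x * (c / 2 * m)) - δ * (s - x * (c / 2 * m)) := by
    rw [PP]; ring
  rw [f1] at h1
  rw [f2] at h2
  rw [abs_le]; constructor <;> linarith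

lemma cover_real (c : ℝ) (N : ℕ) (hc0 : 0 < c) (hc : c ≤ 1 / 4) (hN : 4 ≤ N) (x y s : ℝ)
    (hx : |x| ≤ 1 - s) (hy : |y| ≤ s) :
    (∃ k < N, |y - x * PP c N k - mm N k * (s - x * (c / 2 * mm N k))| ≤ dl N * (s - x * (c / 2 * mm N k)) ∧
      s - x * (c / 2 * mm N k) ≤ HH c N k) ∨
    (∃ k < N, |-x - y * PP c N k - mm N k * (1 - s - y * (c / 2 * mm N k))| ≤ dl N * (1 - s - y * (c / 2 * mm N k)) ∧
      1 - s - y * (c / 2 * mm N k) ≤ HH c N k) := by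
  have hN0 : 0 < N := by omega
  obtain ⟨k, hk, h1⟩ := sector c N hN0 x y s hy
  obtain ⟨j, hj, h2⟩ := sector c N hN0 y (-x) (1 - s) (by rwa [abs_neg])
  by_cases c1 : s - x * (c / 2 * mm N k) ≤ HH c N k
  · exact Or.inl ⟨k, hk, h1, c1⟩
  by_cases c2 : 1 - s - y * (c / 2 * mm N j) ≤ HH c N j
  · exact Or.inr ⟨j, hj, h2, c2⟩
  exfalso
  have hδ : dl N ≤ 1 / 4 := by
    rw [dl]
    apply one_div_le_one_div_of_le (by norm_num)
    exact_mod_cast hN
  exact core c (dl N) (mm N k) (mm N j) (PP c N k) (PP c N j) (HH c N k) (HH c N j) (hh c N k) (hh c N j) x y s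
    (s - x * (c / 2 * mm N k)) (1 - s - y * (c / 2 * mm N j)) hc0 hc (dl_pos N hN0) hδ (abs_mm_le N k hk) (abs_mm_le N j hj)
    rfl rfl rfl rfl rfl rfl rfl rfl h1 h2 (not_le.mp c1) (not_le.mp c2)

lemma proj_hull (d A B C : E3) (z : ℝ × ℝ) (hz : z ∈ stdTri) :
    proj d (pmap A (B - A) (C - A) z) ∈ convexHull ℝ ({proj d A, proj d B, proj d C} : Set E3) := by
  rw [convexHull_triple]
  exact ⟨z, hz, by rw [proj_pmap, proj_sub, proj_sub]⟩

lemma mem_cyl (A B C D X : E3) (hD : D ≠ 0) (z : ℝ × ℝ) (hz : z ∈ stdTri) (τ : ℝ)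
    (hX : X = pmap A (B - A) (C - A) z + τ • D) :
    ∃ b ∈ convexHull ℝ ({proj (‖D‖⁻¹ • D) A, proj (‖D‖⁻¹ • D) B, proj (‖D‖⁻¹ • D) C} : Set E3),
      ∃ t : ℝ, X = b + t • (‖D‖⁻¹ • D) := by
  refine ⟨_, proj_hull (‖D‖⁻¹ • D) A B C z hz, inner ℝ (pmap A (B - A) (C - A) z) (‖D‖⁻¹ • D) + τ * ‖D‖, ?_⟩
  have hn : ‖D‖ ≠ 0 := by simpa using hD
  rw [hX, proj, add_smul, smul_smul (τ * ‖D‖), mul_assoc, mul_inv_cancel₀ hn, mul_one]
  abel

lemma norm_unit (D : E3) (hD : D ≠ 0) : ‖‖D‖⁻¹ • D‖ = 1 := by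
  have hn : ‖D‖ ≠ 0 := by simpa using hD
  rw [norm_smul, norm_inv, norm_norm, inv_mul_cancel₀ hn]

lemma inner_proj (d y : E3) (hd : ‖d‖ = 1) : inner ℝ (proj d y) d = 0 := by
  rw [proj, inner_sub_left, inner_smul_left, real_inner_self_eq_norm_sq, hd]; simp

lemma area_cyl (A B C D : E3) (hD : D ≠ 0) :
    (μHE[2] (convexHull ℝ ({proj (‖D‖⁻¹ • D) A, proj (‖D‖⁻¹ • D) B, proj (‖D‖⁻¹ • D) C} : Set E3))).toReal =
      |det3 (B - A) (C - A) D| / (2 * ‖D‖) := by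
  rw [area_triangle_toReal, ← proj_sub, ← proj_sub, gram_proj _ _ _ (norm_unit D hD)]
  have hn : 0 < ‖D‖ := norm_pos_iff.mpr hD
  have : det3 (B - A) (C - A) (‖D‖⁻¹ • D) = ‖D‖⁻¹ * det3 (B - A) (C - A) D := by
    simp only [det3, PiLp.smul_apply, smul_eq_mul]; ring
  rw [this, abs_mul, abs_of_pos (inv_pos.mpr hn)]
  field_simp

noncomputable def DL (c : ℝ) (N k : ℕ) : E3 := !₂[1, PP c N k, Real.sqrt 2 * (c / 2 * mm N k)]
noncomputable def BL (c : ℝ) (N k : ℕ) : E3 := !₂[0, HH c N k * uu N k, Real.sqrt 2 * HH c N k]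
noncomputable def CL (c : ℝ) (N k : ℕ) : E3 := !₂[0, HH c N k * uu N (k + 1), Real.sqrt 2 * HH c N k]
noncomputable def DU (c : ℝ) (N k : ℕ) : E3 := !₂[-PP c N k, 1, -(Real.sqrt 2 * (c / 2 * mm N k))]
noncomputable def AU : E3 := !₂[0, 0, Real.sqrt 2]
noncomputable def BU (c : ℝ) (N k : ℕ) : E3 := !₂[-(HH c N k * uu N k), 0, Real.sqrt 2 - Real.sqrt 2 * HH c N k]
noncomputable def CU (c : ℝ) (N k : ℕ) : E3 := !₂[-(HH c N k * uu N (k + 1)), 0, Real.sqrt 2 - Real.sqrt 2 * HH c N k]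

lemma mem_K (X : E3) (hX : X ∈ K) :
    |X 0| ≤ 1 - X 2 / Real.sqrt 2 ∧ |X 1| ≤ X 2 / Real.sqrt 2 := by
  have hs0 : 0 < Real.sqrt 2 := Real.sqrt_pos.mpr (by norm_num)
  have hsub : K ⊆ {X : E3 | |X 0| ≤ 1 - X 2 / Real.sqrt 2 ∧ |X 1| ≤ X 2 / Real.sqrt 2} := by
    apply convexHull_min
    · intro x hx
      simp only [Set.mem_insert_iff, Set.mem_singleton_iff] at hx
      rcases hx with rfl | rfl | rfl | rfl <;> simp [hs0.ne']
    · rintro x ⟨hx1, hx2⟩ y ⟨hy1, hy2⟩ a b ha hb hab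
      have e : ∀ i, (a • x + b • y) i = a * x i + b * y i := by intro i; simp
      constructor
      · simp only [e]
        calc |a * x 0 + b * y 0| ≤ |a * x 0| + |b * y 0| := abs_add_le _ _
          _ = a * |x 0| + b * |y 0| := by rw [abs_mul, abs_mul, abs_of_nonneg ha, abs_of_nonneg hb]
          _ ≤ a * (1 - x 2 / Real.sqrt 2) + b * (1 - y 2 / Real.sqrt 2) :=
            add_le_add (mul_le_mul_of_nonneg_left hx1 ha) (mul_le_mul_of_nonneg_left hy1 hb)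
          _ = 1 - (a * x 2 + b * y 2) / Real.sqrt 2 := by
            linear_combination hab
      · simp only [e]
        calc |a * x 1 + b * y 1| ≤ |a * x 1| + |b * y 1| := abs_add_le _ _
          _ = a * |x 1| + b * |y 1| := by rw [abs_mul, abs_mul, abs_of_nonneg ha, abs_of_nonneg hb]
          _ ≤ a * (x 2 / Real.sqrt 2) + b * (y 2 / Real.sqrt 2) :=
            add_le_add (mul_le_mul_of_nonneg_left hx2 ha) (mul_le_mul_of_nonneg_left hy2 hb)
          _ = (a * x 2 + b * y 2) / Real.sqrt 2 := by ring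
  exact hsub hX

lemma HH_pos (c : ℝ) (hc : 0 < c) (N k : ℕ) : 0 < HH c N k := by
  have : 0 ≤ dl N := by rw [dl]; positivity
  rw [HH, hh]; positivity

lemma DL_ne (c : ℝ) (N k : ℕ) : DL c N k ≠ 0 := by
  intro h
  have := congrArg (fun x : E3 => x 0) h
  simp [DL] at this

lemma DU_ne (c : ℝ) (N k : ℕ) : DU c N k ≠ 0 := by
  intro h
  have := congrArg (fun x : E3 => x 1) h
  simp [DU] at this

/-- barycentric coordinates of the point in the sector -/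
lemma sector_coords (δ m w t H : ℝ) (hδ : 0 < δ) (hH : 0 < H) (hw : |w - m * t| ≤ δ * t) (ht : t ≤ H) :
    (((m + δ) * t - w) / (2 * δ * H), (w - (m - δ) * t) / (2 * δ * H)) ∈ stdTri := by
  have hw' := abs_le.mp hw
  refine ⟨?_, ?_, ?_⟩
  · exact div_nonneg (by linarith) (by positivity)
  · exact div_nonneg (by linarith) (by positivity)
  · show ((m + δ) * t - w) / (2 * δ * H) + (w - (m - δ) * t) / (2 * δ * H) ≤ 1
    rw [← add_div, div_le_one (by positivity)]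
    have : δ * t ≤ δ * H := mul_le_mul_of_nonneg_left ht hδ.le
    linarith

lemma mem_lower (c : ℝ) (hc : 0 < c) (N k : ℕ) (hN : 0 < N) (X : E3)
    (h1 : |X 1 - X 0 * PP c N k - mm N k * (X 2 / Real.sqrt 2 - X 0 * (c / 2 * mm N k))| ≤ dl N * (X 2 / Real.sqrt 2 - X 0 * (c / 2 * mm N k)))
    (h2 : X 2 / Real.sqrt 2 - X 0 * (c / 2 * mm N k) ≤ HH c N k) :
    ∃ z ∈ stdTri, ∃ τ : ℝ, X = pmap 0 (BL c N k - 0) (CL c N k - 0) z + τ • DL c N k := by
  have hs0 : 0 < Real.sqrt 2 := Real.sqrt_pos.mpr (by norm_num)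
  have hδ := dl_pos N hN
  have hH := HH_pos c hc N k
  refine ⟨_, sector_coords _ _ _ _ _ hδ hH h1 h2, X 0, ?_⟩
  have e1 : uu N k = mm N k - dl N := by rw [uu, mm]; ring
  have e2 : uu N (k + 1) = mm N k + dl N := by rw [uu, mm]; push_cast; ring
  ext i
  fin_cases i
  · simp [pmap, BL, CL, DL]
  · simp [pmap, BL, CL, DL]
    rw [e1, e2]
    set δ := dl N
    set m := mm N k
    set H := HH c N k
    set P := PP c N k
    field_simp
    ring
  · simp [pmap, BL, CL, DL]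
    set δ := dl N
    set m := mm N k
    set H := HH c N k
    set P := PP c N k
    field_simp
    ring

lemma mem_upper (c : ℝ) (hc : 0 < c) (N k : ℕ) (hN : 0 < N) (X : E3)
    (h1 : |-X 0 - X 1 * PP c N k - mm N k * (1 - X 2 / Real.sqrt 2 - X 1 * (c / 2 * mm N k))| ≤ dl N * (1 - X 2 / Real.sqrt 2 - X 1 * (c / 2 * mm N k)))
    (h2 : 1 - X 2 / Real.sqrt 2 - X 1 * (c / 2 * mm N k) ≤ HH c N k) :
    ∃ z ∈ stdTri, ∃ τ : ℝ, X = pmap AU (BU c N k - AU) (CU c N k - AU) z + τ • DU c N k := by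
  have hs0 : 0 < Real.sqrt 2 := Real.sqrt_pos.mpr (by norm_num)
  have hδ := dl_pos N hN
  have hH := HH_pos c hc N k
  refine ⟨_, sector_coords _ _ _ _ _ hδ hH h1 h2, X 1, ?_⟩
  have e1 : uu N k = mm N k - dl N := by rw [uu, mm]; ring
  have e2 : uu N (k + 1) = mm N k + dl N := by rw [uu, mm]; push_cast; ring
  ext i
  fin_cases i
  · simp [pmap, AU, BU, CU, DU]
    rw [e1, e2]
    set δ := dl N
    set m := mm N k
    set H := HH c N k
    set P := PP c N k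
    field_simp
    ring
  · simp [pmap, AU, BU, CU, DU]
  · simp [pmap, AU, BU, CU, DU]
    set δ := dl N
    set m := mm N k
    set H := HH c N k
    set P := PP c N k
    field_simp
    ring

/-- the families, indexed by natural numbers -/
noncomputable def FD (c : ℝ) (N k : ℕ) : E3 := if k < N then DL c N k else DU c N (k - N)
noncomputable def FA (N k : ℕ) : E3 := if k < N then 0 else AU
noncomputable def FB (c : ℝ) (N k : ℕ) : E3 := if k < N then BL c N k else BU c N (k - N)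
noncomputable def FC (c : ℝ) (N k : ℕ) : E3 := if k < N then CL c N k else CU c N (k - N)

lemma FD_ne (c : ℝ) (N k : ℕ) : FD c N k ≠ 0 := by
  rw [FD]; split_ifs
  · exact DL_ne _ _ _
  · exact DU_ne _ _ _

noncomputable def unitv (D : E3) : E3 := ‖D‖⁻¹ • D

lemma cover_nat (c : ℝ) (N : ℕ) (hc0 : 0 < c) (hc : c ≤ 1 / 4) (hN : 4 ≤ N) (X : E3) (hX : X ∈ K) :
    ∃ k < N + N, ∃ b ∈ convexHull ℝ ({proj (unitv (FD c N k)) (FA N k), proj (unitv (FD c N k)) (FB c N k), proj (unitv (FD c N k)) (FC c N k)} : Set E3),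
      ∃ t : ℝ, X = b + t • unitv (FD c N k) := by
  obtain ⟨h1, h2⟩ := mem_K X hX
  rcases cover_real c N hc0 hc hN (X 0) (X 1) (X 2 / Real.sqrt 2) h1 h2 with ⟨k, hk, g1, g2⟩ | ⟨k, hk, g1, g2⟩
  · refine ⟨k, by omega, ?_⟩
    obtain ⟨z, hz, τ, e⟩ := mem_lower c hc0 N k (by omega) X g1 g2
    simp only [FD, FA, FB, FC, hk, if_true]
    exact mem_cyl 0 (BL c N k) (CL c N k) (DL c N k) X (DL_ne c N k) z hz τ e
  · refine ⟨N + k, by omega, ?_⟩
    obtain ⟨z, hz, τ, e⟩ := mem_upper c hc0 N k (by omega) X g1 g2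
    have hk' : ¬ (N + k < N) := by omega
    have hk2 : N + k - N = k := by omega
    simp only [FD, FA, FB, FC, hk', if_false, hk2]
    exact mem_cyl AU (BU c N k) (CU c N k) (DU c N k) X (DU_ne c N k) z hz τ e

lemma norm_DL (c : ℝ) (N k : ℕ) : ‖DL c N k‖ = Real.sqrt (1 + (PP c N k ^ 2 + c ^ 2 / 2 * mm N k ^ 2)) := by
  have hs2 : Real.sqrt 2 ^ 2 = 2 := Real.sq_sqrt (by norm_num)
  rw [← Real.sqrt_sq (norm_nonneg (DL c N k)), norm_sq_e3]
  congr 1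
  simp [DL]
  rw [mul_pow, hs2]; ring

lemma norm_DU (c : ℝ) (N k : ℕ) : ‖DU c N k‖ = Real.sqrt (1 + (PP c N k ^ 2 + c ^ 2 / 2 * mm N k ^ 2)) := by
  have hs2 : Real.sqrt 2 ^ 2 = 2 := Real.sq_sqrt (by norm_num)
  rw [← Real.sqrt_sq (norm_nonneg (DU c N k)), norm_sq_e3]
  congr 1
  simp [DU]
  rw [mul_pow, hs2]; ring

noncomputable def areaTerm (c : ℝ) (N k : ℕ) : ℝ :=
  Real.sqrt 2 * (dl N * (HH c N k ^ 2 / Real.sqrt (1 + (PP c N k ^ 2 + c ^ 2 / 2 * mm N k ^ 2))))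

lemma area_lower (c : ℝ) (N k : ℕ) (hN : 0 < N) :
    |det3 (BL c N k - 0) (CL c N k - 0) (DL c N k)| / (2 * ‖DL c N k‖) = areaTerm c N k := by
  have hs0 : 0 < Real.sqrt 2 := Real.sqrt_pos.mpr (by norm_num)
  have hδ := dl_pos N hN
  have e : det3 (BL c N k - 0) (CL c N k - 0) (DL c N k) = -(Real.sqrt 2 * HH c N k ^ 2 * (2 * dl N)) := by
    simp [det3, BL, CL, DL, uu]; ring
  rw [e, abs_neg, abs_of_nonneg (by positivity), norm_DL, areaTerm]
  have : 0 < Real.sqrt (1 + (PP c N k ^ 2 + c ^ 2 / 2 * mm N k ^ 2)) := Real.sqrt_pos.mpr (by positivity)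
  field_simp

lemma area_upper (c : ℝ) (N k : ℕ) (hN : 0 < N) :
    |det3 (BU c N k - AU) (CU c N k - AU) (DU c N k)| / (2 * ‖DU c N k‖) = areaTerm c N k := by
  have hs0 : 0 < Real.sqrt 2 := Real.sqrt_pos.mpr (by norm_num)
  have hδ := dl_pos N hN
  have e : |det3 (BU c N k - AU) (CU c N k - AU) (DU c N k)| = (Real.sqrt 2 * HH c N k ^ 2 * (2 * dl N)) := by
    have e1 : det3 (BU c N k - AU) (CU c N k - AU) (DU c N k) = (Real.sqrt 2 * HH c N k ^ 2 * (2 * dl N)) := by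
      simp [det3, AU, BU, CU, DU, uu]; ring
    rw [e1, abs_of_nonneg (by positivity)]
  rw [e, norm_DU, areaTerm]
  have : 0 < Real.sqrt (1 + (PP c N k ^ 2 + c ^ 2 / 2 * mm N k ^ 2)) := Real.sqrt_pos.mpr (by positivity)
  field_simp

lemma inv_sqrt_le (v : ℝ) (hv : 0 ≤ v) : 1 / Real.sqrt (1 + v) ≤ 1 - v / 2 + 3 * v ^ 2 / 8 := by
  have hw : 0 < 1 - v / 2 + 3 * v ^ 2 / 8 := by nlinarith [sq_nonneg (v - 2 / 3)]
  have hs : 0 < Real.sqrt (1 + v) := Real.sqrt_pos.mpr (by linarith)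
  rw [div_le_iff₀ hs]
  have h1 : 1 ≤ ((1 - v / 2 + 3 * v ^ 2 / 8) * Real.sqrt (1 + v)) ^ 2 := by
    rw [mul_pow, Real.sq_sqrt (by linarith)]
    have e : (1 - v / 2 + 3 * v ^ 2 / 8) ^ 2 * (1 + v) = 1 + v ^ 3 * (5 / 8 - 15 / 64 * v + 9 / 64 * v ^ 2) := by ring
    rw [e]
    have : 0 ≤ 5 / 8 - 15 / 64 * v + 9 / 64 * v ^ 2 := by nlinarith [sq_nonneg (v - 5 / 6)]
    have : 0 ≤ v ^ 3 * (5 / 8 - 15 / 64 * v + 9 / 64 * v ^ 2) := by positivity
    linarith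
  have h0 : 0 ≤ (1 - v / 2 + 3 * v ^ 2 / 8) * Real.sqrt (1 + v) := by positivity
  nlinarith

/-- bound of a single term for `c = 1/100`, `δ = 10⁻⁶` -/
lemma term_bound (m P h : ℝ) (hm : |m| ≤ 1) (hP : P = (1 / 100) / 4 * (1 - (1 / 10 ^ 6) ^ 2 + m ^ 2))
    (hh : h = (1 / 100) ^ 2 / 16 * (1 + 1 / 100) * (m ^ 2 + m ^ 4) + (1 / 100) * (1 / 10 ^ 6) / 2) :
    (1 / 2 + h) ^ 2 / Real.sqrt (1 + (P ^ 2 + (1 / 100) ^ 2 / 2 * m ^ 2)) ≤
      1 / 4 - (1 / 100) ^ 2 / 128 - (1 / 100) ^ 2 / 16 * (24 / 100) * m ^ 2 + (1 / 100) ^ 2 / 16 * (7 / 8 + 1 / 100) * m ^ 4 + 7 / 10 ^ 9 := by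
  have a0 : 0 ≤ m ^ 2 := sq_nonneg m
  have a1 : m ^ 2 ≤ 1 := by rw [← sq_abs]; exact pow_le_one₀ (abs_nonneg _) hm
  have hm4 : m ^ 4 = (m ^ 2) ^ 2 := by ring
  rw [hm4] at hh ⊢
  set a := m ^ 2 with ha
  have a2 : a ^ 2 ≤ 1 := pow_le_one₀ a0 a1
  have a20 : 0 ≤ a ^ 2 := sq_nonneg a
  set v := P ^ 2 + (1 / 100) ^ 2 / 2 * a with hv
  have hv0 : 0 ≤ v := by positivity
  have hh0 : 0 ≤ h := by rw [hh]; positivity
  have hh1 : h ≤ 13 / 10 ^ 6 := by rw [hh]; norm_num; linarith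
  have hP0 : 0 ≤ P := by rw [hP]; norm_num; linarith
  have hP1 : P ≤ 1 / 200 := by rw [hP]; norm_num; linarith
  have hv1 : v ≤ 76 / 10 ^ 6 := by
    have : P ^ 2 ≤ (1 / 200) ^ 2 := pow_le_pow_left₀ hP0 hP1 2
    rw [hv]; norm_num at this ⊢; linarith
  -- lower bound for P^2
  have hP2 : (1 / 400) ^ 2 * (1 + 2 * a + a ^ 2) - 1 / 10 ^ 15 ≤ P ^ 2 := by
    rw [hP]
    have : ((1 / 100) / 4 * (1 - (1 / 10 ^ 6) ^ 2 + a)) ^ 2 = (1 / 400) ^ 2 * (1 + 2 * a + a ^ 2) - (1 / 400) ^ 2 * (2 * (1 / 10 ^ 12) * (1 + a) - (1 / 10 ^ 12) ^ 2) := by ring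
    rw [this]; norm_num; linarith
  have h1 := inv_sqrt_le v hv0
  have h2 : (1 / 2 + h) ^ 2 / Real.sqrt (1 + v) ≤ (1 / 2 + h) ^ 2 * (1 - v / 2 + 3 * v ^ 2 / 8) := by
    rw [div_eq_mul_one_div]
    exact mul_le_mul_of_nonneg_left h1 (sq_nonneg _)
  refine le_trans h2 ?_
  have e : (1 / 2 + h) ^ 2 * (1 - v / 2 + 3 * v ^ 2 / 8) = 1 / 4 + h - v / 8 + h ^ 2 + 3 / 8 * (v ^ 2 * (1 / 2 + h) ^ 2) - v / 2 * (h + h ^ 2) := by ring
  rw [e]
  have e1 : h ^ 2 ≤ 2 / 10 ^ 10 := by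
    have := pow_le_pow_left₀ hh0 hh1 2
    norm_num at this ⊢; linarith
  have e2 : v ^ 2 ≤ 6 / 10 ^ 9 := by
    have := pow_le_pow_left₀ hv0 hv1 2
    norm_num at this ⊢; linarith
  have e3 : (1 / 2 + h) ^ 2 ≤ 26 / 100 := by
    have : (1 / 2 + h) ^ 2 = 1 / 4 + h + h ^ 2 := by ring
    rw [this]; norm_num at hh1 e1 ⊢; linarith
  have e4 : v ^ 2 * (1 / 2 + h) ^ 2 ≤ 6 / 10 ^ 9 * (26 / 100) := mul_le_mul e2 e3 (sq_nonneg _) (by norm_num)
  have e5 : 0 ≤ v / 2 * (h + h ^ 2) := by positivity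
  have e6 : v = P ^ 2 + (1 / 100) ^ 2 / 2 * a := hv
  rw [hh]
  rw [hh] at e1 e4 e5
  have e7 : -(v / 8) ≤ -(((1 / 400) ^ 2 * (1 + 2 * a + a ^ 2) - 1 / 10 ^ 15 + (1 / 100) ^ 2 / 2 * a) / 8) := by linarith
  norm_num at e1 e4 e7 ⊢
  linarith

lemma sum_areaTerm (N : ℕ) (hN : N = 10 ^ 6) :
    ∑ k ∈ Finset.range N, 2 * areaTerm (1 / 100) N k ≤ Real.sqrt 2 * (1 / 2 - 1 / 10 ^ 7) := by
  have hNr : (N : ℝ) = 10 ^ 6 := by rw [hN]; norm_num
  have hδ : dl N = 1 / 10 ^ 6 := by rw [dl, hNr]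
  set F : ℝ → ℝ := fun u => (1 / 4 - (1 / 100) ^ 2 / 128 + 7 / 10 ^ 9) * u - (1 / 100) ^ 2 / 16 * (24 / 100) * (u ^ 3 / 3) + (1 / 100) ^ 2 / 16 * (7 / 8 + 1 / 100) * (u ^ 5 / 5) with hF
  have hterm : ∀ k ∈ Finset.range N, 2 * areaTerm (1 / 100) N k ≤ Real.sqrt 2 * (F (uu N (k + 1)) - F (uu N k) + 1 / 10 ^ 18) := by
    intro k hk
    rw [Finset.mem_range] at hk
    have hm := abs_mm_le N k hk
    have h1 := term_bound (mm N k) (PP (1 / 100) N k) (hh (1 / 100) N k) hm (by rw [PP, hδ]) (by rw [hh, hδ])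
    have e1 : uu N k = mm N k - dl N := by rw [uu, mm]; ring
    have e2 : uu N (k + 1) = mm N k + dl N := by rw [uu, mm]; push_cast; ring
    rw [areaTerm, HH, e1, e2, hδ]
    set m := mm N k
    have hs0 : 0 ≤ Real.sqrt 2 := Real.sqrt_nonneg _
    have h2 : 2 * (1 / 10 ^ 6 * ((1 / 2 + hh (1 / 100) N k) ^ 2 / Real.sqrt (1 + (PP (1 / 100) N k ^ 2 + (1 / 100) ^ 2 / 2 * m ^ 2)))) ≤
        F (m + 1 / 10 ^ 6) - F (m - 1 / 10 ^ 6) + 1 / 10 ^ 18 := by
      have h3 := mul_le_mul_of_nonneg_left h1 (by norm_num : (0:ℝ) ≤ 2 * (1 / 10 ^ 6))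
      have a0 : 0 ≤ m ^ 2 := sq_nonneg m
      have e3 : F (m + 1 / 10 ^ 6) - F (m - 1 / 10 ^ 6) + 1 / 10 ^ 18 = 2 * (1 / 10 ^ 6) * (1 / 4 - (1 / 100) ^ 2 / 128 - (1 / 100) ^ 2 / 16 * (24 / 100) * m ^ 2 + (1 / 100) ^ 2 / 16 * (7 / 8 + 1 / 100) * m ^ 4 + 7 / 10 ^ 9)
        + (1 / 10 ^ 18 - (1 / 100) ^ 2 / 16 * (24 / 100) * ((2 / 3) * (1 / 10 ^ 6) ^ 3) + (1 / 100) ^ 2 / 16 * (7 / 8 + 1 / 100) * (4 * (1 / 10 ^ 6) ^ 3 * m ^ 2 + (2 / 5) * (1 / 10 ^ 6) ^ 5)) := by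
        rw [hF]; ring
      rw [e3]
      have h4 : 0 ≤ (1 / 10 ^ 18 - (1 / 100) ^ 2 / 16 * (24 / 100) * ((2 / 3) * (1 / 10 ^ 6) ^ 3) + (1 / 100) ^ 2 / 16 * (7 / 8 + 1 / 100) * (4 * (1 / 10 ^ 6) ^ 3 * m ^ 2 + (2 / 5) * (1 / 10 ^ 6) ^ 5) : ℝ) := by
        have : 0 ≤ (1 / 100) ^ 2 / 16 * (7 / 8 + 1 / 100) * (4 * (1 / 10 ^ 6) ^ 3 * m ^ 2 + (2 / 5) * (1 / 10 ^ 6) ^ 5 : ℝ) := by positivity
        norm_num at this ⊢
        linarith
      linarith
    calc 2 * (Real.sqrt 2 * (1 / 10 ^ 6 * ((1 / 2 + hh (1 / 100) N k) ^ 2 / Real.sqrt (1 + (PP (1 / 100) N k ^ 2 + (1 / 100) ^ 2 / 2 * m ^ 2)))))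
        = Real.sqrt 2 * (2 * (1 / 10 ^ 6 * ((1 / 2 + hh (1 / 100) N k) ^ 2 / Real.sqrt (1 + (PP (1 / 100) N k ^ 2 + (1 / 100) ^ 2 / 2 * m ^ 2))))) := by ring
      _ ≤ _ := mul_le_mul_of_nonneg_left h2 hs0
  refine le_trans (Finset.sum_le_sum hterm) ?_
  rw [← Finset.mul_sum, Finset.sum_add_distrib, Finset.sum_range_sub (fun k => F (uu N k)) N]
  have u0 : uu N 0 = -1 := by simp [uu]
  have uN : uu N N = 1 := by rw [uu, hδ, hNr]; norm_num
  rw [u0, uN]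
  apply mul_le_mul_of_nonneg_left _ (Real.sqrt_nonneg _)
  rw [Finset.sum_const, Finset.card_range, nsmul_eq_mul, hNr, hF]
  norm_num

noncomputable def cyArea (N k : ℕ) : ℝ :=
  (μHE[2] (convexHull ℝ ({proj (unitv (FD (1 / 100) N k)) (FA N k), proj (unitv (FD (1 / 100) N k)) (FB (1 / 100) N k), proj (unitv (FD (1 / 100) N k)) (FC (1 / 100) N k)} : Set E3))).toReal

lemma sum_area (N : ℕ) (hN : N = 10 ^ 6) :
    ∑ k ∈ Finset.range (N + N), cyArea N k ≤ Real.sqrt 2 * (1 / 2 - 1 / 10 ^ 7) := by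
  have hN0 : 0 < N := by omega
  rw [Finset.sum_range_add]
  have h1 : ∀ k ∈ Finset.range N, cyArea N k = areaTerm (1 / 100) N k := by
    intro k hk
    rw [Finset.mem_range] at hk
    rw [cyArea, unitv, area_cyl _ _ _ _ (FD_ne _ _ _)]
    simp only [FD, FA, FB, FC, hk, if_true]
    exact area_lower _ _ _ hN0
  have h2 : ∀ k ∈ Finset.range N, cyArea N (N + k) = areaTerm (1 / 100) N k := by
    intro k hk
    rw [cyArea, unitv, area_cyl _ _ _ _ (FD_ne _ _ _)]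
    have hk' : ¬ (N + k < N) := by omega
    have hk2 : N + k - N = k := by omega
    simp only [FD, FA, FB, FC, hk', if_false, hk2]
    exact area_upper _ _ _ hN0
  rw [Finset.sum_congr rfl h1, Finset.sum_congr rfl h2, ← two_mul, Finset.mul_sum]
  exact sum_areaTerm N hN

/-- Covers indexed by `ℕ`, with the first `2·10⁶` cylinders covering. -/
theorem exists_cover_nat : ∃ (u p q r : ℕ → E3),
    (∀ i, ‖u i‖ = 1) ∧
    (∀ i, inner ℝ (p i) (u i) = 0 ∧ inner ℝ (q i) (u i) = 0 ∧ inner ℝ (r i) (u i) = 0) ∧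
    (∀ X ∈ K, ∃ i < 2 * 10 ^ 6, ∃ b ∈ convexHull ℝ ({p i, q i, r i} : Set E3), ∃ t : ℝ, X = b + t • u i) ∧
    ∑ i ∈ Finset.range (2 * 10 ^ 6), (μHE[2] (convexHull ℝ ({p i, q i, r i} : Set E3))).toReal ≤
      Real.sqrt 2 * (1 / 2 - 1 / 10 ^ 7) := by
  obtain ⟨N, hN⟩ : ∃ N : ℕ, N = 10 ^ 6 := ⟨_, rfl⟩
  have h2N : 2 * 10 ^ 6 = N + N := by rw [hN]; norm_num
  refine ⟨fun i => unitv (FD (1 / 100) N i), fun i => proj (unitv (FD (1 / 100) N i)) (FA N i), fun i => proj (unitv (FD (1 / 100) N i)) (FB (1 / 100) N i),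
    fun i => proj (unitv (FD (1 / 100) N i)) (FC (1 / 100) N i), ?_, ?_, ?_, ?_⟩
  · intro i; exact norm_unit _ (FD_ne _ _ _)
  · intro i
    have h := norm_unit _ (FD_ne (1 / 100) N i)
    exact ⟨inner_proj _ _ h, inner_proj _ _ h, inner_proj _ _ h⟩
  · intro X hX
    rw [h2N]
    exact cover_nat (1 / 100) N (by norm_num) (by norm_num) (by omega) X hX
  · rw [h2N]
    exact sum_area N hN

end Crest.Agent.TetCover
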