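import Crest.Statements.S0324
import Crest.Agent.TetCover

set_option autoImplicit false
open MeasureTheory
open scoped ENNReal
open Crest Crest.GeometryTopology Crest.GeometryTopology.Convex

namespace Crest.Agent.S0324

/-- The regular tetrahedron `K` with vertices `(±1, 0, 0)`, `(0, ±1, √2)` is covered by finitely many cylinders `Bᵢ + ℝ uᵢ`, each with unit direction `uᵢ` and base `Bᵢ` a triangle (convex hull of three points) in the plane `uᵢ^⊥`, whose total base area `∑ᵢ area(Bᵢ)` is smaller, by a positive margin, than half the area of the orthogonal projection of `K` onto `v^⊥` for every unit vector `v`; areas are 2-dimensional Hausdorff measure. -/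
theorem result :
    ∃ (m : ℕ) (u p q r : Fin m → EuclideanSpace ℝ (Fin 3)),
      (∀ i, ‖u i‖ = 1) ∧
      (∀ i, inner ℝ (p i) (u i) = 0 ∧ inner ℝ (q i) (u i) = 0 ∧ inner ℝ (r i) (u i) = 0) ∧
      convexHull ℝ {!₂[1, 0, 0], !₂[-1, 0, 0], !₂[0, 1, Real.sqrt 2], !₂[0, -1, Real.sqrt 2]} ⊆
        ⋃ i, {x : EuclideanSpace ℝ (Fin 3) | ∃ b ∈ convexHull ℝ {p i, q i, r i}, ∃ t : ℝ, x = b + t • u i} ∧
      ∃ δ : ℝ, 0 < δ ∧ ∀ v : EuclideanSpace ℝ (Fin 3), ‖v‖ = 1 →
        ∑ i, (μH[(2 : ℝ)] (convexHull ℝ {p i, q i, r i})).toReal + δ ≤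
          (μH[(2 : ℝ)] ((fun y => y - inner ℝ y v • v) '' convexHull ℝ {!₂[1, 0, 0], !₂[-1, 0, 0], !₂[0, 1, Real.sqrt 2], !₂[0, -1, Real.sqrt 2]})).toReal / 2 := by
  obtain ⟨u, p, q, r, hu, ho, hcov, hA⟩ := TetCover.exists_cover_nat
  obtain ⟨n, hn⟩ : ∃ n : ℕ, n = 2 * 10 ^ 6 := ⟨_, rfl⟩
  rw [← hn] at hcov hA
  have hs0 : 0 < Real.sqrt 2 := Real.sqrt_pos.mpr (by norm_num)
  -- the scaling constant between the two measures
  set κ : NNReal := Measure.addHaarScalarFactor (volume : Measure (EuclideanSpace ℝ (Fin 2))) μH[(2 : ℕ)] with hκ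
  have hκ0 : κ ≠ 0 := Measure.addHaarScalarFactor_volume_hausdorffMeasure_ne_zero 2
  have hκpos : (0:ℝ) < κ := by
    rw [NNReal.coe_pos]; exact pos_iff_ne_zero.mpr hκ0
  have hscale : ∀ S : Set (EuclideanSpace ℝ (Fin 3)), (μHE[2] S).toReal = κ * (μH[(2 : ℝ)] S).toReal := by
    intro S
    rw [Measure.euclideanHausdorffMeasure_def, Measure.smul_apply, ENNReal.smul_def, smul_eq_mul, ENNReal.toReal_mul]
    norm_num
    left
    rfl
  have hscale' : ∀ S : Set (EuclideanSpace ℝ (Fin 3)), (μH[(2 : ℝ)] S).toReal = (κ:ℝ)⁻¹ * (μHE[2] S).toReal := by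
    intro S
    rw [hscale, ← mul_assoc, inv_mul_cancel₀ hκpos.ne', one_mul]
  refine ⟨n, fun i => u i, fun i => p i, fun i => q i, fun i => r i, fun i => hu i, fun i => ho i, ?_, (κ:ℝ)⁻¹ * (Real.sqrt 2 * (1 / 10 ^ 7)), by positivity, ?_⟩
  · intro X hX
    obtain ⟨i, hi, b, hb, t, e⟩ := hcov X hX
    rw [Set.mem_iUnion]
    exact ⟨⟨i, hi⟩, b, hb, t, e⟩
  · intro v hv
    simp_rw [hscale']
    rw [← Finset.mul_sum, Fin.sum_univ_eq_sum_range (fun i => (μHE[2] (convexHull ℝ ({p i, q i, r i} : Set (EuclideanSpace ℝ (Fin 3))))).toReal) n]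
    have hge := TetLib.proj_area_ge v hv
    have hfin : μHE[2] (TetLib.proj v '' TetLib.K) ≠ ⊤ :=
      (TetLib.proj_bounded_lt_top v hv _ TetLib.isBounded_K).ne
    have hge' : Real.sqrt 2 ≤ (μHE[2] ((fun y => y - inner ℝ y v • v) '' convexHull ℝ {!₂[1, 0, 0], !₂[-1, 0, 0], !₂[0, 1, Real.sqrt 2], !₂[0, -1, Real.sqrt 2]} : Set (EuclideanSpace ℝ (Fin 3)))).toReal := by
      have h1 := (ENNReal.ofReal_le_iff_le_toReal hfin).mp hge
      exact h1
    rw [mul_div_assoc, ← mul_add]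
    apply mul_le_mul_of_nonneg_left _ (by positivity)
    linarith

end Crest.Agent.S0324
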