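import Crest.Statements.S0325
import Crest.Agent.TetCover

set_option autoImplicit false
open MeasureTheory
open scoped ENNReal
open Crest Crest.GeometryTopology Crest.GeometryTopology.Convex

namespace Crest.Agent.S0325

open Crest.Agent.TetLib Crest.Agent.TetCover in
/-- padding a cover with one adjusting cylinder and degenerate ones -/
lemma padded (m : ℕ) (hm : 2 * 10 ^ 6 < m) (T : ℝ) (hT : Real.sqrt 2 * (1 / 2 - 1 / 10 ^ 7) ≤ T) :
    ∃ (u p q r : Fin m → EuclideanSpace ℝ (Fin 3)),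
        (∀ i, ‖u i‖ = 1) ∧
        (∀ i, inner ℝ (p i) (u i) = 0 ∧ inner ℝ (q i) (u i) = 0 ∧ inner ℝ (r i) (u i) = 0) ∧
        K ⊆ ⋃ i, {x : EuclideanSpace ℝ (Fin 3) | ∃ b ∈ convexHull ℝ {p i, q i, r i}, ∃ t : ℝ, x = b + t • u i} ∧
        ∑ i, (μHE[2] (convexHull ℝ ({p i, q i, r i} : Set (EuclideanSpace ℝ (Fin 3))))).toReal = T := by
  obtain ⟨u, p, q, r, hu, ho, hcov, hA⟩ := exists_cover_nat
  obtain ⟨n, hn⟩ : ∃ n : ℕ, n = 2 * 10 ^ 6 := ⟨_, rfl⟩
  rw [← hn] at hcov hA hm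
  set A := ∑ i ∈ Finset.range n, (μHE[2] (convexHull ℝ ({p i, q i, r i} : Set E3))).toReal with hAdef
  set lam : ℝ := 2 * (T - A) with hlam
  have hlam0 : 0 ≤ lam := by linarith
  set u' : ℕ → E3 := fun i => if i < n then u i else !₂[0, 0, 1] with hu'
  set p' : ℕ → E3 := fun i => if i < n then p i else 0 with hp'
  set q' : ℕ → E3 := fun i => if i < n then q i else (if i = n then !₂[lam, 0, 0] else 0) with hq'
  set r' : ℕ → E3 := fun i => if i < n then r i else (if i = n then !₂[0, 1, 0] else 0) with hr'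
  refine ⟨fun i => u' i, fun i => p' i, fun i => q' i, fun i => r' i, ?_, ?_, ?_, ?_⟩
  · intro i
    simp only [hu']
    split_ifs
    · exact hu _
    · rw [EuclideanSpace.norm_eq]; simp [Fin.sum_univ_three]
  · intro i
    simp only [hu', hp', hq', hr']
    split_ifs
    · exact ho _
    · simp [inner_e3]
    · simp
  · intro X hX
    obtain ⟨i, hi, b, hb, t, e⟩ := hcov X hX
    rw [Set.mem_iUnion]
    refine ⟨⟨i, by omega⟩, b, ?_, t, ?_⟩
    · simp only [hp', hq', hr', hi, if_true]; exact hb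
    · simp only [hu', hi, if_true]; exact e
  · rw [Fin.sum_univ_eq_sum_range (fun i => (μHE[2] (convexHull ℝ ({p' i, q' i, r' i} : Set E3))).toReal) m]
    have hsub : Finset.range (n + 1) ⊆ Finset.range m := by
      intro x hx; rw [Finset.mem_range] at hx ⊢; omega
    rw [← Finset.sum_subset hsub]
    · rw [Finset.sum_range_succ]
      have e1 : ∑ i ∈ Finset.range n, (μHE[2] (convexHull ℝ ({p' i, q' i, r' i} : Set E3))).toReal = A := by
        rw [hAdef]
        apply Finset.sum_congr rfl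
        intro i hi
        rw [Finset.mem_range] at hi
        simp only [hp', hq', hr', hi, if_true]
      rw [e1]
      have e2 : (μHE[2] (convexHull ℝ ({p' n, q' n, r' n} : Set E3))).toReal = lam / 2 := by
        simp only [hp', hq', hr', lt_irrefl, if_false, if_true]
        rw [area_triangle_toReal, gram, norm_sq_e3, norm_sq_e3, inner_e3]
        congr 1
        simp
        exact Real.sqrt_sq hlam0
      rw [e2, hlam]; ring
    · intro i _ hi
      rw [Finset.mem_range, not_lt] at hi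
      have h1 : ¬ (i < n) := by omega
      have h2 : ¬ (i = n) := by omega
      simp only [hp', hq', hr', h1, h2, if_false]
      rw [area_triangle_toReal, gram]
      simp

/-- Let K be the regular tetrahedron with vertices (±1, 0, 0), (0, ±1, √2); areas are Lebesgue-normalised 2-dimensional Hausdorff measure. (1) The least area of an orthogonal projection of K onto a plane is √2: each map y ↦ y − ⟪y, v⟫ v with ‖v‖ = 1 sends K to a set of area ≥ √2, equal for some v. (2) For every 0 < ε ≤ 5·10⁻⁴, K is covered by 2⌈2/ε²⌉ cylinders Bᵢ + ℝ uᵢ, uᵢ a unit vector, Bᵢ a triangle (convex hull of three points) in uᵢ^⊥, of total area A with ‖A/√2 − 1/2 + 13 ε²/6000‖ ≤ 2 ε⁴. -/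
theorem result :
    ((∀ v : EuclideanSpace ℝ (Fin 3), ‖v‖ = 1 →
        ENNReal.ofReal (Real.sqrt 2) ≤ μHE[2] ((fun y => y - inner ℝ y v • v) '' convexHull ℝ {!₂[1, 0, 0], !₂[-1, 0, 0], !₂[0, 1, Real.sqrt 2], !₂[0, -1, Real.sqrt 2]})) ∧
      ∃ v : EuclideanSpace ℝ (Fin 3), ‖v‖ = 1 ∧
        μHE[2] ((fun y => y - inner ℝ y v • v) '' convexHull ℝ {!₂[1, 0, 0], !₂[-1, 0, 0], !₂[0, 1, Real.sqrt 2], !₂[0, -1, Real.sqrt 2]}) = ENNReal.ofReal (Real.sqrt 2)) ∧
    ∀ ε : ℝ, 0 < ε → ε ≤ 1 / 2000 →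
      ∃ (u p q r : Fin (2 * ⌈2 / ε ^ 2⌉₊) → EuclideanSpace ℝ (Fin 3)),
        (∀ i, ‖u i‖ = 1) ∧
        (∀ i, inner ℝ (p i) (u i) = 0 ∧ inner ℝ (q i) (u i) = 0 ∧ inner ℝ (r i) (u i) = 0) ∧
        convexHull ℝ {!₂[1, 0, 0], !₂[-1, 0, 0], !₂[0, 1, Real.sqrt 2], !₂[0, -1, Real.sqrt 2]} ⊆
          ⋃ i, {x : EuclideanSpace ℝ (Fin 3) | ∃ b ∈ convexHull ℝ {p i, q i, r i}, ∃ t : ℝ, x = b + t • u i} ∧
        abs ((∑ i, (μHE[2] (convexHull ℝ ({p i, q i, r i} : Set (EuclideanSpace ℝ (Fin 3))))).toReal) / Real.sqrt 2 -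
            (1 / 2 - 13 / 6000 * ε ^ 2)) ≤ 2 * ε ^ 4 := by
  refine ⟨⟨fun v hv => TetLib.proj_area_ge v hv, !₂[1, 0, 0], ?_, TetLib.proj_area_eq⟩, ?_⟩
  · rw [EuclideanSpace.norm_eq]; simp [Fin.sum_univ_three]
  · intro ε hε hε1
    have hs0 : 0 < Real.sqrt 2 := Real.sqrt_pos.mpr (by norm_num)
    have hε2 : ε ^ 2 ≤ (1 / 2000) ^ 2 := pow_le_pow_left₀ hε.le hε1 2
    have hm : 2 * 10 ^ 6 < 2 * ⌈2 / ε ^ 2⌉₊ := by
      have h1 : (10 ^ 6 : ℝ) < 2 / ε ^ 2 := by
        rw [lt_div_iff₀ (by positivity)]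
        norm_num at hε2 ⊢
        linarith
      have h2 : (10 ^ 6 : ℝ) < (⌈2 / ε ^ 2⌉₊ : ℝ) := lt_of_lt_of_le h1 (Nat.le_ceil _)
      have h3 : 10 ^ 6 < ⌈2 / ε ^ 2⌉₊ := by exact_mod_cast h2
      omega
    obtain ⟨u, p, q, r, hu, ho, hcov, hA⟩ := padded (2 * ⌈2 / ε ^ 2⌉₊) hm
      (Real.sqrt 2 * (1 / 2 - 13 / 6000 * ε ^ 2)) (by
        apply mul_le_mul_of_nonneg_left _ hs0.le
        norm_num at hε2 ⊢
        linarith)
    refine ⟨u, p, q, r, hu, ho, hcov, ?_⟩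
    rw [hA, mul_div_cancel_left₀ _ hs0.ne', sub_self, abs_zero]
    positivity

end Crest.Agent.S0325
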