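import Crest.Statements.S0326
import Crest.Agent.RuledCover

set_option autoImplicit false
open MeasureTheory
open scoped ENNReal
open Crest Crest.GeometryTopology Crest.GeometryTopology.Convex

namespace Crest.Agent.S0326

/-- Let D ⊂ ℝ² be compact, V : ℝ² → ℝ² be C¹ on an open set containing D, and L, h > 0, with tr DV(p) = 0 and −1/L² < det DV(p) ≤ 0 for p ∈ D. Let E ⊂ ℝ × ℝ² be the ruled set of points (s, p + s V(p)), p ∈ D, −L ≤ s ≤ L. For every ε > 0, finitely many squares Tᵢ = cᵢ + [0,1]aᵢ + [0,1]bᵢ (aᵢ ⊥ bᵢ of equal nonzero length) and velocities gᵢ ∈ ℝ² exist whose sheared cylinders {(s, ξ) : ξ ∈ Tᵢ + s gᵢ} cover E, with ∑ᵢ area(Tᵢ) J(gᵢ) ≤ ∫_D J(V(p)) dp + ε, where J(g) = (1 + g₁² + h² g₂²)^(−1/2). -/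
theorem result
    (D : Set (EuclideanSpace ℝ (Fin 2))) (hD : IsCompact D)
    (V : EuclideanSpace ℝ (Fin 2) → EuclideanSpace ℝ (Fin 2)) (U : Set (EuclideanSpace ℝ (Fin 2)))
    (hU : IsOpen U) (hDU : D ⊆ U) (hV : ContDiffOn ℝ 1 V U) (L h : ℝ) (hL : 0 < L) (hh : 0 < h)
    (htr : ∀ p ∈ D, LinearMap.trace ℝ _ (fderiv ℝ V p).toLinearMap = 0)
    (hdet : ∀ p ∈ D, -(L ^ 2)⁻¹ < LinearMap.det (fderiv ℝ V p).toLinearMap ∧
      LinearMap.det (fderiv ℝ V p).toLinearMap ≤ 0)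
    (ε : ℝ) (hε : 0 < ε) :
    ∃ (k : ℕ) (c a b g : Fin k → EuclideanSpace ℝ (Fin 2)),
      (∀ i, a i ≠ 0 ∧ ‖b i‖ = ‖a i‖ ∧ inner ℝ (a i) (b i) = 0) ∧
      {z : ℝ × EuclideanSpace ℝ (Fin 2) | ∃ p ∈ D, abs z.1 ≤ L ∧ z.2 = p + z.1 • V p} ⊆
        ⋃ i, {z : ℝ × EuclideanSpace ℝ (Fin 2) | ∃ x ∈ Set.Icc (0 : ℝ) 1, ∃ y ∈ Set.Icc (0 : ℝ) 1,
          z.2 = c i + x • a i + y • b i + z.1 • g i} ∧
      ∑ i, ‖a i‖ ^ 2 / Real.sqrt (1 + (g i 0) ^ 2 + h ^ 2 * (g i 1) ^ 2) ≤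
        (∫ p in D, 1 / Real.sqrt (1 + (V p 0) ^ 2 + h ^ 2 * (V p 1) ^ 2)) + ε := by
  obtain ⟨l, h1, h2, h3⟩ := (Crest.Agent.RuledCover.global_cover h L hL D hD V U hU hDU hV htr hdet (ε / 2) (by positivity)).toSq
    (ε / 2) (by positivity)
  refine ⟨l.length, fun i => (l.get i).1, fun i => WithLp.toLp 2 ![(l.get i).2.1, 0],
    fun i => WithLp.toLp 2 ![0, (l.get i).2.1], fun i => (l.get i).2.2, ?_, ?_, ?_⟩
  · intro i
    have hs := h1 (l.get i) (List.get_mem l i)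
    refine ⟨?_, ?_, ?_⟩
    · intro h0
      have := congrArg (fun v : EuclideanSpace ℝ (Fin 2) => v 0) h0
      simp at this
      simp at hs
      linarith
    · simp [EuclideanSpace.norm_eq, Fin.sum_univ_two]
    · simp [PiLp.inner_apply, Fin.sum_univ_two]
  · intro z hz
    obtain ⟨x, hx, hxz⟩ := h2 z hz
    obtain ⟨i, rfl⟩ := List.get_of_mem hx
    have hs := h1 _ hx
    rw [Set.mem_iUnion]
    refine ⟨i, ?_⟩
    obtain ⟨⟨a0, a1⟩, ⟨b0, b1⟩⟩ := hxz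
    refine ⟨((z.2 - z.1 • (l.get i).2.2) 0 - (l.get i).1 0) / (l.get i).2.1, ⟨div_nonneg a0 hs.le, ?_⟩,
      ((z.2 - z.1 • (l.get i).2.2) 1 - (l.get i).1 1) / (l.get i).2.1, ⟨div_nonneg b0 hs.le, ?_⟩, ?_⟩
    · rwa [div_le_one hs]
    · rwa [div_le_one hs]
    · ext k
      fin_cases k
      · simp
        have := hs.ne'
        simp at this
        field_simp
        ring
      · simp
        have := hs.ne'
        simp at this
        field_simp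
        ring
  · have e1 : ∑ i : Fin l.length, ‖(WithLp.toLp 2 ![(l.get i).2.1, 0] : EuclideanSpace ℝ (Fin 2))‖ ^ 2 /
        Real.sqrt (1 + ((l.get i).2.2 0) ^ 2 + h ^ 2 * ((l.get i).2.2 1) ^ 2) =
        (l.map (fun x => x.2.1 ^ 2 * Crest.Agent.RuledCover.J h x.2.2)).sum := by
      rw [← Fin.sum_univ_fun_getElem]
      apply Finset.sum_congr rfl
      intro i _
      simp only [List.get_eq_getElem, Crest.Agent.RuledCover.J]
      rw [EuclideanSpace.norm_eq, Real.sq_sqrt (by positivity)]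
      simp [Fin.sum_univ_two]
      rw [div_eq_mul_inv]
    rw [e1]
    refine h3.trans ?_
    have : (∫ p in D, Crest.Agent.RuledCover.J h (V p)) = ∫ p in D, 1 / Real.sqrt (1 + (V p 0) ^ 2 + h ^ 2 * (V p 1) ^ 2) := rfl
    rw [this]
    linarith

end Crest.Agent.S0326
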