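import Crest.Statements.S0327
import Crest.Agent.RuledCover
import Crest.Agent.TetCover

set_option autoImplicit false
open MeasureTheory
open scoped ENNReal
open Crest Crest.GeometryTopology Crest.GeometryTopology.Convex

namespace Crest.Agent.S0327

open Crest.Agent.RuledCover Crest.Agent.TetLib Crest.Agent.TetCover
open scoped Pointwise

/-- cylinder with square base -/
structure Cyl where
  u : E3
  e : E3
  f : E3
  c : E3
  s : ℝ

def Cyl.ok (x : Cyl) : Prop := ‖x.u‖ = 1 ∧ ‖x.e‖ = 1 ∧ ‖x.f‖ = 1 ∧ inner ℝ x.e x.f = 0 ∧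
  inner ℝ x.e x.u = 0 ∧ inner ℝ x.f x.u = 0 ∧ inner ℝ x.c x.u = 0 ∧ 0 < x.s

def Cyl.mem (x : Cyl) (X : E3) : Prop :=
  ∃ a ∈ Set.Icc 0 x.s, ∃ b ∈ Set.Icc 0 x.s, ∃ τ : ℝ, X = x.c + a • x.e + b • x.f + τ • x.u

lemma single (u p q r : E3) (hu : ‖u‖ = 1) (hp : inner ℝ p u = 0) (hq : inner ℝ q u = 0) (hr : inner ℝ r u = 0)
    (ε : ℝ) (hε : 0 < ε) :
    ∃ l : List Cyl, (∀ x ∈ l, x.ok) ∧ (∀ b ∈ convexHull ℝ ({p, q, r} : Set E3), ∀ t : ℝ, ∃ x ∈ l, x.mem (b + t • u)) ∧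
      (l.map (fun x => x.s ^ 2)).sum ≤ (μHE[2] (convexHull ℝ ({p, q, r} : Set E3))).toReal + ε := by
  obtain ⟨e, f, he, hf, hef, heu, hfu, hspan⟩ := exists_onb u hu
  set T : Set E3 := convexHull ℝ ({p, q, r} : Set E3) with hT
  have hiso := iota_isometry 0 e f he hf hef
  have hTc : IsCompact T := (Set.toFinite _).isCompact_convexHull ℝ
  have hTu : ∀ x ∈ T, inner ℝ x u = 0 := by
    have hconv : Convex ℝ {x : E3 | inner ℝ x u = 0} := by
      intro x hx y hy a b ha hb hab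
      simp only [Set.mem_ofPred_eq] at hx hy ⊢
      rw [inner_add_left, inner_smul_left, inner_smul_left, hx, hy]; simp
    have hsub : T ⊆ {x : E3 | inner ℝ x u = 0} := by
      apply convexHull_min _ hconv
      intro x hx
      simp only [Set.mem_insert_iff, Set.mem_singleton_iff] at hx
      rcases hx with rfl | rfl | rfl
      · exact hp
      · exact hq
      · exact hr
    exact hsub
  set T' : Set E2 := iota 0 e f ⁻¹' T with hT'
  have hT'c : IsCompact T' := hiso.isClosedEmbedding.isCompact_preimage hTc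
  have himg : iota 0 e f '' T' = T := by
    rw [hT', Set.image_preimage_eq_iff]
    intro x hx
    refine ⟨!₂[inner ℝ x e, inner ℝ x f], ?_⟩
    have := hspan x
    rw [hTu x hx, zero_smul, zero_add] at this
    conv_rhs => rw [this]
    simp [iota]
  have hvol : (volume T').toReal = (μHE[2] T).toReal := by
    rw [← himg, hiso.euclideanHausdorffMeasure_image, EuclideanSpace.euclideanHausdorffMeasure_eq_volume]
  obtain ⟨s, l, hs, hcov, hlen⟩ := square_cover T' hT'c ε hε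
  refine ⟨l.map (fun c => ⟨u, e, f, c 0 • e + c 1 • f, s⟩), ?_, ?_, ?_⟩
  · intro x hx
    obtain ⟨c, -, rfl⟩ := List.mem_map.mp hx
    refine ⟨hu, he, hf, hef, heu, hfu, ?_, hs⟩
    simp [inner_add_left, inner_smul_left, heu, hfu]
  · intro b hb t
    rw [← himg] at hb
    obtain ⟨z, hz, rfl⟩ := hb
    obtain ⟨c, hc, hzc⟩ := hcov z hz
    refine ⟨_, List.mem_map.mpr ⟨c, hc, rfl⟩, z 0 - c 0, hzc.1, z 1 - c 1, hzc.2, t, ?_⟩
    simp only [iota]
    module
  · rw [List.map_map]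
    have : ((fun x : Cyl => x.s ^ 2) ∘ fun c : E2 => (⟨u, e, f, c 0 • e + c 1 • f, s⟩ : Cyl)) = fun _ => s ^ 2 := by
      funext c; rfl
    rw [this, List.map_const', List.sum_replicate, nsmul_eq_mul, ← hvol]
    exact hlen

lemma many (u p q r : ℕ → E3) (hu : ∀ i, ‖u i‖ = 1)
    (ho : ∀ i, inner ℝ (p i) (u i) = 0 ∧ inner ℝ (q i) (u i) = 0 ∧ inner ℝ (r i) (u i) = 0)
    (ε : ℝ) (hε : 0 < ε) : ∀ n : ℕ,
    ∃ l : List Cyl, (∀ x ∈ l, x.ok) ∧
      (∀ i < n, ∀ b ∈ convexHull ℝ ({p i, q i, r i} : Set E3), ∀ t : ℝ, ∃ x ∈ l, x.mem (b + t • u i)) ∧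
      (l.map (fun x => x.s ^ 2)).sum ≤
        ∑ i ∈ Finset.range n, (μHE[2] (convexHull ℝ ({p i, q i, r i} : Set E3))).toReal + n * ε := by
  intro n
  induction n with
  | zero => exact ⟨[], by simp, by simp, by simp⟩
  | succ n ih =>
    obtain ⟨l, h1, h2, h3⟩ := ih
    obtain ⟨l', h1', h2', h3'⟩ := single (u n) (p n) (q n) (r n) (hu n) (ho n).1 (ho n).2.1 (ho n).2.2 ε hε
    refine ⟨l ++ l', ?_, ?_, ?_⟩
    · intro x hx
      rcases List.mem_append.mp hx with hx | hx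
      · exact h1 x hx
      · exact h1' x hx
    · intro i hi b hb t
      rcases Nat.lt_succ_iff_lt_or_eq.mp hi with hi | rfl
      · obtain ⟨x, hx, hm⟩ := h2 i hi b hb t
        exact ⟨x, List.mem_append_left _ hx, hm⟩
      · obtain ⟨x, hx, hm⟩ := h2' b hb t
        exact ⟨x, List.mem_append_right _ hx, hm⟩
    · rw [List.map_append, List.sum_append, Finset.sum_range_succ]
      push_cast
      linarith

theorem std_cover : ∃ l : List Cyl, (∀ x ∈ l, x.ok) ∧ (∀ X ∈ K, ∃ x ∈ l, x.mem X) ∧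
    (l.map (fun x => x.s ^ 2)).sum < Real.sqrt 2 / 2 := by
  obtain ⟨u, p, q, r, hu, ho, hcov, hA⟩ := exists_cover_nat
  have hs0 : 0 < Real.sqrt 2 := Real.sqrt_pos.mpr (by norm_num)
  obtain ⟨n, hn⟩ : ∃ n : ℕ, n = 2 * 10 ^ 6 := ⟨_, rfl⟩
  rw [← hn] at hcov hA
  have hn0 : (0 : ℝ) < n := by rw [hn]; norm_num
  obtain ⟨l, h1, h2, h3⟩ := many u p q r hu ho (Real.sqrt 2 * (1 / 10 ^ 8) / n) (by positivity) n
  refine ⟨l, h1, ?_, ?_⟩
  · intro X hX
    obtain ⟨i, hi, b, hb, t, rfl⟩ := hcov X hX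
    exact h2 i hi b hb t
  · refine lt_of_le_of_lt h3 ?_
    rw [mul_div_cancel₀ _ hn0.ne']
    refine lt_of_le_of_lt (add_le_add_left hA _) ?_
    nlinarith


/-- transport of a cylinder by the similarity `X ↦ lam • R X + t` -/
noncomputable def Cyl.map (R : E3 ≃ₗᵢ[ℝ] E3) (lam : ℝ) (t : E3) (x : Cyl) : Cyl :=
  ⟨R x.u, R x.e, R x.f, lam • R x.c + proj (R x.u) t, lam * x.s⟩

lemma Cyl.map_ok (R : E3 ≃ₗᵢ[ℝ] E3) (lam : ℝ) (hlam : 0 < lam) (t : E3) (x : Cyl) (hx : x.ok) : (x.map R lam t).ok := by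
  obtain ⟨h1, h2, h3, h4, h5, h6, h7, h8⟩ := hx
  refine ⟨?_, ?_, ?_, ?_, ?_, ?_, ?_, ?_⟩
  · simp [Cyl.map, h1]
  · simp [Cyl.map, h2]
  · simp [Cyl.map, h3]
  · simp [Cyl.map, h4]
  · simp [Cyl.map, h5]
  · simp [Cyl.map, h6]
  · have hu : ‖R x.u‖ = 1 := by rw [R.norm_map, h1]
    simp only [Cyl.map, inner_add_left, inner_smul_left, R.inner_map_map, h7, inner_proj _ _ hu]
    simp
  · simp only [Cyl.map]; positivity

lemma Cyl.map_mem (R : E3 ≃ₗᵢ[ℝ] E3) (lam : ℝ) (hlam : 0 < lam) (t : E3) (x : Cyl) (X : E3) (hx : x.mem X) :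
    (x.map R lam t).mem (lam • R X + t) := by
  obtain ⟨a, ha, b, hb, τ, rfl⟩ := hx
  refine ⟨lam * a, ⟨by have := ha.1; positivity, mul_le_mul_of_nonneg_left ha.2 hlam.le⟩,
    lam * b, ⟨by have := hb.1; positivity, mul_le_mul_of_nonneg_left hb.2 hlam.le⟩, lam * τ + inner ℝ t (R x.u), ?_⟩
  simp only [Cyl.map, proj, map_add, map_smul]
  module

/-- the orthonormal frame of a regular tetrahedron -/
lemma exists_similarity (w : Fin 4 → E3) (ℓ : ℝ) (hℓ : 0 < ℓ) (hw : ∀ i j, i ≠ j → dist (w i) (w j) = ℓ) :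
    ∃ (R : E3 ≃ₗᵢ[ℝ] E3) (t : E3), (fun X => (ℓ / 2) • R X + t) '' K = convexHull ℝ (Set.range w) := by
  have hs2 : Real.sqrt 2 ^ 2 = 2 := Real.sq_sqrt (by norm_num)
  have hs0 : 0 < Real.sqrt 2 := Real.sqrt_pos.mpr (by norm_num)
  -- Gram matrix
  have hn : ∀ i j, i ≠ j → ‖w i - w j‖ ^ 2 = ℓ ^ 2 := by
    intro i j hij
    rw [← dist_eq_norm, hw i j hij]
  have hin : ∀ i j k, i ≠ j → i ≠ k → j ≠ k → inner ℝ (w i - w k) (w j - w k) = ℓ ^ 2 / 2 := by
    intro i j k hij hik hjk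
    have h1 := hn i j hij
    have h2 : w i - w j = (w i - w k) - (w j - w k) := by abel
    rw [h2, norm_sub_sq_real, hn i k hik, hn j k hjk] at h1
    linarith
  set a : E3 := w 0 - w 3 with ha
  set b : E3 := w 1 - w 3 with hb
  set c : E3 := w 2 - w 3 with hc
  have haa : inner ℝ a a = ℓ ^ 2 := by rw [real_inner_self_eq_norm_sq]; exact hn 0 3 (by decide)
  have hbb : inner ℝ b b = ℓ ^ 2 := by rw [real_inner_self_eq_norm_sq]; exact hn 1 3 (by decide)
  have hcc : inner ℝ c c = ℓ ^ 2 := by rw [real_inner_self_eq_norm_sq]; exact hn 2 3 (by decide)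
  have hab : inner ℝ a b = ℓ ^ 2 / 2 := hin 0 1 3 (by decide) (by decide) (by decide)
  have hac : inner ℝ a c = ℓ ^ 2 / 2 := hin 0 2 3 (by decide) (by decide) (by decide)
  have hbc : inner ℝ b c = ℓ ^ 2 / 2 := hin 1 2 3 (by decide) (by decide) (by decide)
  have hba : inner ℝ b a = ℓ ^ 2 / 2 := by rw [real_inner_comm]; exact hab
  have hca : inner ℝ c a = ℓ ^ 2 / 2 := by rw [real_inner_comm]; exact hac
  have hcb : inner ℝ c b = ℓ ^ 2 / 2 := by rw [real_inner_comm]; exact hbc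
  set e1 : E3 := (1 / ℓ) • (a - b) with he1
  set e2 : E3 := (1 / ℓ) • c with he2
  set e3 : E3 := (Real.sqrt 2 / (2 * ℓ)) • (c - a - b) with he3
  have g11 : inner ℝ e1 e1 = 1 := by
    rw [he1]
    simp only [inner_smul_left, inner_smul_right, inner_sub_left, inner_sub_right, haa, hbb, hab, hba, conj_trivial]
    field_simp; ring
  have g12 : inner ℝ e1 e2 = 0 := by
    rw [he1, he2]
    simp only [inner_smul_left, inner_smul_right, inner_sub_left, hac, hbc, conj_trivial]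
    ring
  have g13 : inner ℝ e1 e3 = 0 := by
    rw [he1, he3]
    simp only [inner_smul_left, inner_smul_right, inner_sub_left, inner_sub_right, haa, hbb, hab, hba, hac, hbc, conj_trivial]
    ring
  have g22 : inner ℝ e2 e2 = 1 := by
    rw [he2]
    simp only [inner_smul_left, inner_smul_right, hcc, conj_trivial]
    field_simp
  have g23 : inner ℝ e2 e3 = 0 := by
    rw [he2, he3]
    simp only [inner_smul_left, inner_smul_right, inner_sub_right, hcc, hca, hcb, conj_trivial]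
    ring
  have g33 : inner ℝ e3 e3 = 1 := by
    rw [he3]
    simp only [inner_smul_left, inner_smul_right, inner_sub_left, inner_sub_right, haa, hbb, hcc, hab, hba, hac, hca, hbc, hcb, conj_trivial]
    field_simp
    nlinarith
  have g21 : inner ℝ e2 e1 = 0 := by rw [real_inner_comm]; exact g12
  have g31 : inner ℝ e3 e1 = 0 := by rw [real_inner_comm]; exact g13
  have g32 : inner ℝ e3 e2 = 0 := by rw [real_inner_comm]; exact g23
  let f : E3 →ₗ[ℝ] E3 :=
    { toFun := fun x => x 0 • e1 + x 1 • e2 + x 2 • e3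
      map_add' := by intro x y; simp only [PiLp.add_apply]; module
      map_smul' := by intro r x; simp only [PiLp.smul_apply, smul_eq_mul, RingHom.id_apply]; module }
  have hf : ∀ x, f x = x 0 • e1 + x 1 • e2 + x 2 • e3 := fun x => rfl
  have hfi : ∀ x y, inner ℝ (f x) (f y) = inner ℝ x y := by
    intro x y
    rw [hf, hf, inner_e3 x y]
    simp only [inner_add_left, inner_add_right, inner_smul_left, inner_smul_right, g11, g12, g13, g21, g22, g23, g31, g32, g33, conj_trivial]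
    ring
  let R : E3 ≃ₗᵢ[ℝ] E3 := (f.isometryOfInner hfi).toLinearIsometryEquiv rfl
  have hR : ∀ x, R x = x 0 • e1 + x 1 • e2 + x 2 • e3 := fun x => rfl
  set t : E3 := (1 / 2 : ℝ) • (w 0 + w 1) with ht
  refine ⟨R, t, ?_⟩
  let Φ : E3 →ᵃ[ℝ] E3 := ((ℓ / 2) • (R.toLinearEquiv : E3 →ₗ[ℝ] E3)).toAffineMap + AffineMap.const ℝ E3 t
  have hΦ : ∀ X, Φ X = (ℓ / 2) • R X + t := by
    intro X
    simp [Φ]
  have hfun : (fun X => (ℓ / 2) • R X + t) = Φ := by
    funext X; exact (hΦ X).symm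
  have p0 : (ℓ / 2) • R !₂[1, 0, 0] + t = w 0 := by
    rw [hR, he1, ht, ha, hb]
    simp only [smul_add, smul_smul]
    simp
    have h1 : ℓ / 2 * ℓ⁻¹ = 1 / 2 := by field_simp
    rw [h1]
    module
  have p1 : (ℓ / 2) • R !₂[-1, 0, 0] + t = w 1 := by
    rw [hR, he1, ht, ha, hb]
    simp only [smul_add, smul_smul]
    simp
    have h1 : ℓ / 2 * ℓ⁻¹ = 1 / 2 := by field_simp
    rw [h1]
    module
  have p2 : (ℓ / 2) • R !₂[0, 1, Real.sqrt 2] + t = w 2 := by
    rw [hR, he2, he3, ht, ha, hb, hc]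
    simp only [smul_add, smul_smul]
    simp
    have h1 : ℓ / 2 * ℓ⁻¹ = 1 / 2 := by field_simp
    have h2 : ℓ / 2 * (Real.sqrt 2 * (Real.sqrt 2 / (2 * ℓ))) = 1 / 2 := by
      field_simp
      nlinarith
    rw [h1, h2]
    module
  have p3 : (ℓ / 2) • R !₂[0, -1, Real.sqrt 2] + t = w 3 := by
    rw [hR, he2, he3, ht, ha, hb, hc]
    simp only [smul_add, smul_smul]
    simp
    have h1 : ℓ / 2 * ℓ⁻¹ = 1 / 2 := by field_simp
    have h2 : ℓ / 2 * (Real.sqrt 2 * (Real.sqrt 2 / (2 * ℓ))) = 1 / 2 := by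
      field_simp
      nlinarith
    rw [h1, h2]
    module
  rw [hfun, K, AffineMap.image_convexHull]
  congr 1
  rw [Set.image_insert_eq, Set.image_insert_eq, Set.image_insert_eq, Set.image_singleton, hΦ, hΦ, hΦ, hΦ, p0, p1, p2, p3]
  ext x
  simp only [Set.mem_insert_iff, Set.mem_singleton_iff, Set.mem_range]
  constructor
  · rintro (rfl | rfl | rfl | rfl)
    · exact ⟨0, rfl⟩
    · exact ⟨1, rfl⟩
    · exact ⟨2, rfl⟩
    · exact ⟨3, rfl⟩
  · rintro ⟨i, rfl⟩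
    fin_cases i <;> simp

/-- the projection areas of the image -/
lemma proj_area_image (R : E3 ≃ₗᵢ[ℝ] E3) (lam : ℝ) (hlam : 0 < lam) (t v : E3) (hv : ‖v‖ = 1) :
    lam ^ 2 * Real.sqrt 2 ≤ (μHE[2] ((fun y => y - inner ℝ y v • v) '' ((fun X => lam • R X + t) '' K))).toReal := by
  set v' : E3 := R.symm v with hv'
  have hvn : ‖v'‖ = 1 := by rw [hv', R.symm.norm_map, hv]
  have hRv : R v' = v := R.apply_symm_apply v
  have himg : (fun y => y - inner ℝ y v • v) '' ((fun X => lam • R X + t) '' K) =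
      (fun y => proj v t + y) '' (lam • (R '' (proj v' '' K))) := by
    rw [← Set.image_smul, Set.image_image, Set.image_image, Set.image_image, Set.image_image]
    apply Set.image_congr
    intro X _
    simp only [proj, map_sub, map_smul, hRv]
    rw [inner_add_left, inner_smul_left, conj_trivial]
    have : inner ℝ (R X) v = inner ℝ X v' := by
      rw [← hRv, R.inner_map_map]
    rw [this]
    module
  have hiso1 : Isometry (fun y : E3 => proj v t + y) := isometry_add_left _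
  rw [himg, hiso1.euclideanHausdorffMeasure_image, Measure.euclideanHausdorffMeasure_smul₀ 2 hlam.ne',
    R.isometry.euclideanHausdorffMeasure_image]
  have hge := proj_area_ge v' hvn
  have hfin : μHE[2] (proj v' '' K) ≠ ⊤ := (proj_bounded_lt_top v' hvn _ isBounded_K).ne
  have h1 : Real.sqrt 2 ≤ (μHE[2] (proj v' '' K)).toReal := (ENNReal.ofReal_le_iff_le_toReal hfin).mp hge
  rw [ENNReal.smul_def, smul_eq_mul, ENNReal.toReal_mul]
  simp only [ENNReal.coe_toReal, NNReal.coe_pow, coe_nnnorm, Real.norm_eq_abs, abs_of_pos hlam]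
  exact mul_le_mul_of_nonneg_left h1 (by positivity)


lemma final_ineq {k : ℕ} (area : Fin k → ℝ) (u : Fin k → E3) (P : E3 → ℝ) (m T : ℝ) (h0 : ∀ i, 0 ≤ area i)
    (hu : ∀ i, ‖u i‖ = 1) (hm : 0 < m) (hT : ∑ i, area i = T) (hTm : T < m / 2) (hP : ∀ v, ‖v‖ = 1 → m ≤ P v) :
    (∃ δ : ℝ, 0 < δ ∧ ∀ v : E3, ‖v‖ = 1 → (∑ i, area i) + δ ≤ P v / 2) ∧ ∑ i, area i / P (u i) < 1 / 2 := by
  constructor
  · refine ⟨m / 2 - T, by linarith, fun v hv => ?_⟩
    have := hP v hv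
    rw [hT]; linarith
  · calc ∑ i, area i / P (u i) ≤ ∑ i, area i / m := by
          apply Finset.sum_le_sum
          intro i _
          exact div_le_div_of_nonneg_left (h0 i) hm (hP _ (hu i))
      _ = T / m := by rw [← Finset.sum_div, hT]
      _ < 1 / 2 := by rw [div_lt_iff₀ hm]; linarith

/-- closed base -/
lemma closed_area (x : Cyl) (hx : x.ok) :
    (μHE[2] {X : E3 | ∃ s ∈ Set.Icc (0 : ℝ) 1, ∃ t ∈ Set.Icc (0 : ℝ) 1, X = x.c + s • (x.s • x.e) + t • (x.s • x.f)}).toReal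
      = x.s ^ 2 := by
  obtain ⟨h1, h2, h3, h4, h5, h6, h7, h8⟩ := hx
  have : {X : E3 | ∃ s ∈ Set.Icc (0 : ℝ) 1, ∃ t ∈ Set.Icc (0 : ℝ) 1, X = x.c + s • (x.s • x.e) + t • (x.s • x.f)} =
      pmap x.c (x.s • x.e) (x.s • x.f) '' (Set.Icc 0 1 ×ˢ Set.Icc 0 1) := by
    ext X
    constructor
    · rintro ⟨s, hs, t, ht, rfl⟩
      exact ⟨(s, t), ⟨hs, ht⟩, rfl⟩
    · rintro ⟨⟨s, t⟩, ⟨hs, ht⟩, rfl⟩
      exact ⟨s, hs, t, ht, rfl⟩
  rw [this, area_pmap, Measure.volume_eq_prod, Measure.prod_prod, Real.volume_Icc]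
  have hg : gram (x.s • x.e) (x.s • x.f) = x.s ^ 2 := by
    rw [gram, norm_smul, norm_smul, inner_smul_left, inner_smul_right, h2, h3, h4]
    simp only [mul_one, mul_zero, Real.norm_eq_abs, sq_abs]
    rw [show (x.s ^ 2 * x.s ^ 2 - 0 ^ 2 : ℝ) = (x.s ^ 2) ^ 2 by ring, Real.sqrt_sq (by positivity)]
  rw [hg]
  simp
  positivity

/-- open base -/
def Cyl.O (x : Cyl) (θ : ℝ) : Set E3 :=
  {X | (-(θ * x.s) < inner ℝ (X - x.c) x.e ∧ inner ℝ (X - x.c) x.e < x.s + θ * x.s) ∧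
    (-(θ * x.s) < inner ℝ (X - x.c) x.f ∧ inner ℝ (X - x.c) x.f < x.s + θ * x.s)}

lemma Cyl.isOpen_O (x : Cyl) (θ : ℝ) : IsOpen (x.O θ) := by
  have h1 : Continuous fun X : E3 => inner ℝ (X - x.c) x.e := by fun_prop
  have h2 : Continuous fun X : E3 => inner ℝ (X - x.c) x.f := by fun_prop
  exact ((isOpen_lt continuous_const h1).inter (isOpen_lt h1 continuous_const)).inter
    ((isOpen_lt continuous_const h2).inter (isOpen_lt h2 continuous_const))

lemma frame_span {u e f : E3} (hu : ‖u‖ = 1) (he : ‖e‖ = 1) (hf : ‖f‖ = 1) (hef : inner ℝ e f = 0)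
    (heu : inner ℝ e u = 0) (hfu : inner ℝ f u = 0) (X : E3) (hX : inner ℝ X u = 0) :
    X = inner ℝ X e • e + inner ℝ X f • f := by
  have hon : Orthonormal ℝ ![u, e, f] := by
    have hue : inner ℝ u e = 0 := by rw [real_inner_comm]; exact heu
    have huf : inner ℝ u f = 0 := by rw [real_inner_comm]; exact hfu
    have hfe : inner ℝ f e = 0 := by rw [real_inner_comm]; exact hef
    have huu : inner ℝ u u = 1 := by rw [real_inner_self_eq_norm_sq, hu]; norm_num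
    have hee : inner ℝ e e = 1 := by rw [real_inner_self_eq_norm_sq, he]; norm_num
    have hff : inner ℝ f f = 1 := by rw [real_inner_self_eq_norm_sq, hf]; norm_num
    rw [orthonormal_iff_ite]
    intro i j
    fin_cases i <;> fin_cases j
    · exact huu
    · exact hue
    · exact huf
    · exact heu
    · exact hee
    · exact hef
    · exact hfu
    · exact hfe
    · exact hff
  have hcard : Fintype.card (Fin 3) = Module.finrank ℝ E3 := by simp
  let b := (basisOfOrthonormalOfCardEqFinrank hon hcard).toOrthonormalBasis (by simpa using hon)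
  have hb : ∀ i, b i = ![u, e, f] i := by intro i; simp [b]
  have h := b.sum_repr' X
  rw [Fin.sum_univ_three, hb, hb, hb] at h
  simp only [Matrix.cons_val_zero, Matrix.cons_val_one, Matrix.cons_val] at h
  rw [real_inner_comm, hX, zero_smul, zero_add] at h
  rw [real_inner_comm e X, real_inner_comm f X]
  exact h.symm

lemma Cyl.base_eq (x : Cyl) (hx : x.ok) (θ : ℝ) :
    x.O θ ∩ {X | inner ℝ X x.u = 0} =
      pmap (x.c - (θ * x.s) • x.e - (θ * x.s) • x.f) x.e x.f ''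
        (Set.Ioo 0 (x.s * (1 + 2 * θ)) ×ˢ Set.Ioo 0 (x.s * (1 + 2 * θ))) := by
  obtain ⟨h1, h2, h3, h4, h5, h6, h7, h8⟩ := hx
  have h4' : inner ℝ x.f x.e = 0 := by rw [real_inner_comm]; exact h4
  have hee : inner ℝ x.e x.e = 1 := by rw [real_inner_self_eq_norm_sq, h2]; norm_num
  have hff : inner ℝ x.f x.f = 1 := by rw [real_inner_self_eq_norm_sq, h3]; norm_num
  ext X
  constructor
  · rintro ⟨⟨⟨a1, a2⟩, b1, b2⟩, hX⟩
    refine ⟨(inner ℝ (X - x.c) x.e + θ * x.s, inner ℝ (X - x.c) x.f + θ * x.s), ⟨⟨?_, ?_⟩, ⟨?_, ?_⟩⟩, ?_⟩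
    · simp only; linarith
    · simp only; linarith
    · simp only; linarith
    · simp only; linarith
    · have hX' : inner ℝ (X - x.c) x.u = 0 := by
        rw [inner_sub_left, h7, sub_zero]; exact hX
      have := frame_span h1 h2 h3 h4 h5 h6 (X - x.c) hX'
      simp only [pmap]
      have e1 : X = x.c + (inner ℝ (X - x.c) x.e • x.e + inner ℝ (X - x.c) x.f • x.f) := by
        rw [← this]; abel
      conv_rhs => rw [e1]
      module
  · rintro ⟨z, ⟨⟨a1, a2⟩, b1, b2⟩, rfl⟩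
    have e1 : pmap (x.c - (θ * x.s) • x.e - (θ * x.s) • x.f) x.e x.f z - x.c =
        (z.1 - θ * x.s) • x.e + (z.2 - θ * x.s) • x.f := by
      simp only [pmap]; module
    have e2 : inner ℝ (pmap (x.c - (θ * x.s) • x.e - (θ * x.s) • x.f) x.e x.f z - x.c) x.e = z.1 - θ * x.s := by
      rw [e1, inner_add_left, inner_smul_left, inner_smul_left, hee, h4']; simp
    have e3 : inner ℝ (pmap (x.c - (θ * x.s) • x.e - (θ * x.s) • x.f) x.e x.f z - x.c) x.f = z.2 - θ * x.s := by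
      rw [e1, inner_add_left, inner_smul_left, inner_smul_left, hff, h4]; simp
    refine ⟨⟨⟨?_, ?_⟩, ?_, ?_⟩, ?_⟩
    · rw [e2]; linarith
    · rw [e2]; linarith
    · rw [e3]; linarith
    · rw [e3]; linarith
    · simp only [Set.mem_ofPred_eq]
      have : pmap (x.c - (θ * x.s) • x.e - (θ * x.s) • x.f) x.e x.f z =
          x.c + ((z.1 - θ * x.s) • x.e + (z.2 - θ * x.s) • x.f) := by rw [← e1]; abel
      rw [this, inner_add_left, inner_add_left, inner_smul_left, inner_smul_left, h5, h6, h7]; simp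

lemma open_area (x : Cyl) (hx : x.ok) (θ : ℝ) (hθ : 0 < θ) :
    (μHE[2] (x.O θ ∩ {X | inner ℝ X x.u = 0})).toReal = (x.s * (1 + 2 * θ)) ^ 2 := by
  rw [x.base_eq hx θ, area_pmap, Measure.volume_eq_prod, Measure.prod_prod, Real.volume_Ioo]
  obtain ⟨h1, h2, h3, h4, h5, h6, h7, h8⟩ := hx
  rw [gram_orthonormal h2 h3 h4, sub_zero, ENNReal.ofReal_one, one_mul, ENNReal.toReal_mul,
    ENNReal.toReal_ofReal (by positivity)]
  ring

lemma open_bounded (x : Cyl) (hx : x.ok) (θ : ℝ) :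
    Bornology.IsBounded (x.O θ ∩ {X | inner ℝ X x.u = 0}) := by
  rw [x.base_eq hx θ]
  have hc : IsCompact (Set.Icc 0 (x.s * (1 + 2 * θ)) ×ˢ Set.Icc 0 (x.s * (1 + 2 * θ)) : Set (ℝ × ℝ)) :=
    isCompact_Icc.prod isCompact_Icc
  refine (hc.image (f := pmap _ _ _) ?_).isBounded.subset (Set.image_mono ?_)
  · unfold pmap; fun_prop
  · exact Set.prod_mono Set.Ioo_subset_Icc_self Set.Ioo_subset_Icc_self

lemma open_mem (x : Cyl) (hx : x.ok) (θ : ℝ) (hθ : 0 < θ) (X : E3) (h : x.mem X) :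
    ∃ y ∈ x.O θ ∩ {X | inner ℝ X x.u = 0}, ∃ τ : ℝ, X = y + τ • x.u := by
  obtain ⟨a, ha, b, hb, τ, rfl⟩ := h
  obtain ⟨h1, h2, h3, h4, h5, h6, h7, h8⟩ := hx
  have h4' : inner ℝ x.f x.e = 0 := by rw [real_inner_comm]; exact h4
  have hee : inner ℝ x.e x.e = 1 := by rw [real_inner_self_eq_norm_sq, h2]; norm_num
  have hff : inner ℝ x.f x.f = 1 := by rw [real_inner_self_eq_norm_sq, h3]; norm_num
  have e1 : x.c + a • x.e + b • x.f - x.c = a • x.e + b • x.f := by abel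
  have e2 : inner ℝ (x.c + a • x.e + b • x.f - x.c) x.e = a := by
    rw [e1, inner_add_left, inner_smul_left, inner_smul_left, hee, h4']; simp
  have e3 : inner ℝ (x.c + a • x.e + b • x.f - x.c) x.f = b := by
    rw [e1, inner_add_left, inner_smul_left, inner_smul_left, hff, h4]; simp
  have hpos : 0 < θ * x.s := by positivity
  refine ⟨x.c + a • x.e + b • x.f, ⟨⟨⟨?_, ?_⟩, ?_, ?_⟩, ?_⟩, τ, rfl⟩
  · rw [e2]; linarith [ha.1]
  · rw [e2]; linarith [ha.2]
  · rw [e3]; linarith [hb.1]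
  · rw [e3]; linarith [hb.2]
  · simp only [Set.mem_ofPred_eq]
    rw [inner_add_left, inner_add_left, inner_smul_left, inner_smul_left, h5, h6, h7]; simp

/-- Let K ⊂ ℝ³ be a regular tetrahedron (convex hull of four points with equal pairwise distances ℓ > 0); areas are Lebesgue-normalised 2-dimensional Hausdorff measure, π_v y = y − ⟪y, v⟫ v. (1) Finitely many cylinders Bᵢ + ℝ uᵢ, ‖uᵢ‖ = 1, with parallelogram bases Bᵢ = cᵢ + [0,1]aᵢ + [0,1]bᵢ in uᵢ^⊥ cover K, ∑ᵢ area(Bᵢ) being below half of area(π_v K) by a positive margin for all unit v, and ∑ᵢ area(Bᵢ)/area(π_{uᵢ} K) < 1/2. (2) The same with bounded relatively open subsets of the uᵢ^⊥ as bases. -/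
theorem result
    (w : Fin 4 → EuclideanSpace ℝ (Fin 3)) (ℓ : ℝ) (hℓ : 0 < ℓ)
    (hw : ∀ i j, i ≠ j → dist (w i) (w j) = ℓ) :
    (∃ (k : ℕ) (u c a b : Fin k → EuclideanSpace ℝ (Fin 3)),
      (∀ i, ‖u i‖ = 1) ∧
      (∀ i, inner ℝ (c i) (u i) = 0 ∧ inner ℝ (a i) (u i) = 0 ∧ inner ℝ (b i) (u i) = 0) ∧
      convexHull ℝ (Set.range w) ⊆ ⋃ i, {x : EuclideanSpace ℝ (Fin 3) |
        ∃ s ∈ Set.Icc (0 : ℝ) 1, ∃ t ∈ Set.Icc (0 : ℝ) 1, ∃ τ : ℝ, x = c i + s • a i + t • b i + τ • u i} ∧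
      (∃ δ : ℝ, 0 < δ ∧ ∀ v : EuclideanSpace ℝ (Fin 3), ‖v‖ = 1 →
        (∑ i, (μHE[2] {x : EuclideanSpace ℝ (Fin 3) |
            ∃ s ∈ Set.Icc (0 : ℝ) 1, ∃ t ∈ Set.Icc (0 : ℝ) 1, x = c i + s • a i + t • b i}).toReal) + δ ≤
          (μHE[2] ((fun y => y - inner ℝ y v • v) '' convexHull ℝ (Set.range w))).toReal / 2) ∧
      ∑ i, (μHE[2] {x : EuclideanSpace ℝ (Fin 3) |
            ∃ s ∈ Set.Icc (0 : ℝ) 1, ∃ t ∈ Set.Icc (0 : ℝ) 1, x = c i + s • a i + t • b i}).toReal /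
          (μHE[2] ((fun y => y - inner ℝ y (u i) • u i) '' convexHull ℝ (Set.range w))).toReal < 1 / 2) ∧
    (∃ (k : ℕ) (u : Fin k → EuclideanSpace ℝ (Fin 3)) (B : Fin k → Set (EuclideanSpace ℝ (Fin 3))),
      (∀ i, ‖u i‖ = 1) ∧
      (∀ i, Bornology.IsBounded (B i) ∧ ∃ O : Set (EuclideanSpace ℝ (Fin 3)), IsOpen O ∧
        B i = O ∩ {x | inner ℝ x (u i) = 0}) ∧
      convexHull ℝ (Set.range w) ⊆
        ⋃ i, {x : EuclideanSpace ℝ (Fin 3) | ∃ y ∈ B i, ∃ τ : ℝ, x = y + τ • u i} ∧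
      (∃ δ : ℝ, 0 < δ ∧ ∀ v : EuclideanSpace ℝ (Fin 3), ‖v‖ = 1 →
        (∑ i, (μHE[2] (B i)).toReal) + δ ≤
          (μHE[2] ((fun y => y - inner ℝ y v • v) '' convexHull ℝ (Set.range w))).toReal / 2) ∧
      ∑ i, (μHE[2] (B i)).toReal /
          (μHE[2] ((fun y => y - inner ℝ y (u i) • u i) '' convexHull ℝ (Set.range w))).toReal < 1 / 2) := by
  obtain ⟨R, t, himg⟩ := exists_similarity w ℓ hℓ hw
  obtain ⟨l, hok, hcov, hsum⟩ := std_cover
  set lam : ℝ := ℓ / 2 with hlam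
  have hlam0 : 0 < lam := by positivity
  have hs0 : 0 < Real.sqrt 2 := Real.sqrt_pos.mpr (by norm_num)
  set A : ℝ := (l.map (fun x => x.s ^ 2)).sum with hA
  have hA0 : 0 ≤ A := by
    rw [hA]
    apply List.sum_nonneg
    intro a ha
    obtain ⟨x, -, rfl⟩ := List.mem_map.mp ha
    positivity
  set m : ℝ := lam ^ 2 * Real.sqrt 2 with hm
  have hm0 : 0 < m := by positivity
  have hP : ∀ v : EuclideanSpace ℝ (Fin 3), ‖v‖ = 1 →
      m ≤ (μHE[2] ((fun y => y - inner ℝ y v • v) '' convexHull ℝ (Set.range w))).toReal := by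
    intro v hv
    rw [← himg]
    exact proj_area_image R lam hlam0 t v hv
  set l' : List Cyl := l.map (Cyl.map R lam t) with hl'
  have hok' : ∀ x ∈ l', x.ok := by
    intro x hx
    obtain ⟨y, hy, rfl⟩ := List.mem_map.mp hx
    exact y.map_ok R lam hlam0 t (hok y hy)
  have hcov' : ∀ X ∈ convexHull ℝ (Set.range w), ∃ x ∈ l', x.mem X := by
    intro X hX
    rw [← himg] at hX
    obtain ⟨Y, hY, rfl⟩ := hX
    obtain ⟨x, hx, hxm⟩ := hcov Y hY
    exact ⟨_, List.mem_map.mpr ⟨x, hx, rfl⟩, x.map_mem R lam hlam0 t Y hxm⟩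
  have hsum' : (l'.map (fun x => x.s ^ 2)).sum = lam ^ 2 * A := by
    rw [hl', List.map_map, hA, ← List.sum_map_mul_left]
    congr 1
    apply List.map_congr_left
    intro x _
    simp only [Function.comp, Cyl.map]
    ring
  refine ⟨⟨l'.length, fun i => (l'.get i).u, fun i => (l'.get i).c, fun i => (l'.get i).s • (l'.get i).e,
    fun i => (l'.get i).s • (l'.get i).f, ?_, ?_, ?_, ?_⟩, ?_⟩
  · intro i; exact (hok' _ (List.get_mem l' i)).1
  · intro i
    obtain ⟨h1, h2, h3, h4, h5, h6, h7, h8⟩ := hok' _ (List.get_mem l' i)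
    refine ⟨h7, ?_, ?_⟩
    · rw [inner_smul_left, h5]; simp
    · rw [inner_smul_left, h6]; simp
  · intro X hX
    obtain ⟨x, hx, a, ha, b, hb, τ, hXe⟩ := hcov' X hX
    obtain ⟨i, rfl⟩ := List.get_of_mem hx
    obtain ⟨h1, h2, h3, h4, h5, h6, h7, h8⟩ := hok' _ (List.get_mem l' i)
    rw [Set.mem_iUnion]
    refine ⟨i, a / (l'.get i).s, ⟨div_nonneg ha.1 h8.le, (div_le_one h8).mpr ha.2⟩,
      b / (l'.get i).s, ⟨div_nonneg hb.1 h8.le, (div_le_one h8).mpr hb.2⟩, τ, ?_⟩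
    rw [smul_smul, smul_smul, div_mul_cancel₀ _ h8.ne', div_mul_cancel₀ _ h8.ne']
    exact hXe
  · apply final_ineq _ _ (fun v => (μHE[2] ((fun y => y - inner ℝ y v • v) '' convexHull ℝ (Set.range w))).toReal) m (lam ^ 2 * A)
      (fun i => ENNReal.toReal_nonneg) (fun i => (hok' _ (List.get_mem l' i)).1) hm0 ?_ ?_ hP
    · rw [← hsum', ← Fin.sum_univ_fun_getElem]
      apply Finset.sum_congr rfl
      intro i _
      exact closed_area _ (hok' _ (List.get_mem l' i))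
    · rw [hm]
      have : lam ^ 2 * A < lam ^ 2 * (Real.sqrt 2 / 2) := mul_lt_mul_of_pos_left hsum (by positivity)
      linarith
  · set θ : ℝ := min 1 ((Real.sqrt 2 / 2 - A) / (16 * (A + 1))) with hθ
    have hgap : 0 < Real.sqrt 2 / 2 - A := by linarith
    have hθ0 : 0 < θ := lt_min one_pos (by positivity)
    have hθ1 : θ ≤ 1 := min_le_left _ _
    have hθ2 : θ * (16 * (A + 1)) ≤ Real.sqrt 2 / 2 - A := by
      have := min_le_right 1 ((Real.sqrt 2 / 2 - A) / (16 * (A + 1)))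
      rw [← hθ, le_div_iff₀ (by positivity)] at this
      exact this
    refine ⟨l'.length, fun i => (l'.get i).u, fun i => (l'.get i).O θ ∩ {X | inner ℝ X (l'.get i).u = 0}, ?_, ?_, ?_, ?_⟩
    · intro i; exact (hok' _ (List.get_mem l' i)).1
    · intro i
      exact ⟨open_bounded _ (hok' _ (List.get_mem l' i)) θ, _, Cyl.isOpen_O _ θ, rfl⟩
    · intro X hX
      obtain ⟨x, hx, hm⟩ := hcov' X hX
      obtain ⟨i, rfl⟩ := List.get_of_mem hx
      rw [Set.mem_iUnion]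
      exact ⟨i, open_mem _ (hok' _ hx) θ hθ0 X hm⟩
    · apply final_ineq _ _ (fun v => (μHE[2] ((fun y => y - inner ℝ y v • v) '' convexHull ℝ (Set.range w))).toReal) m
        ((1 + 2 * θ) ^ 2 * (lam ^ 2 * A))
        (fun i => ENNReal.toReal_nonneg) (fun i => (hok' _ (List.get_mem l' i)).1) hm0 ?_ ?_ hP
      · rw [← hsum', ← Fin.sum_univ_fun_getElem, Finset.mul_sum]
        apply Finset.sum_congr rfl
        intro i _
        rw [open_area _ (hok' _ (List.get_mem l' i)) θ hθ0]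
        simp only [List.get_eq_getElem]
        ring
      · have h1 : (1 + 2 * θ) ^ 2 ≤ 1 + 8 * θ := by nlinarith
        have h2 : (1 + 2 * θ) ^ 2 * A < Real.sqrt 2 / 2 := by
          have h3 : (1 + 2 * θ) ^ 2 * A ≤ (1 + 8 * θ) * A := mul_le_mul_of_nonneg_right h1 hA0
          nlinarith [mul_nonneg hθ0.le hA0]
        calc (1 + 2 * θ) ^ 2 * (lam ^ 2 * A) = lam ^ 2 * ((1 + 2 * θ) ^ 2 * A) := by ring
          _ < lam ^ 2 * (Real.sqrt 2 / 2) := mul_lt_mul_of_pos_left h2 (by positivity)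
          _ = m / 2 := by rw [hm]; ring

end Crest.Agent.S0327
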