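import Crest.Statements.S0328
import Crest.Agent.TetCover

set_option autoImplicit false
open MeasureTheory
open scoped ENNReal
open Crest Crest.GeometryTopology Crest.GeometryTopology.Convex

namespace Crest.Agent.S0328

open Crest.Agent.TetLib Crest.Agent.TetCover

lemma det3_add (a b c d : E3) : det3 a b (c + d) = det3 a b c + det3 a b d := by
  simp only [det3, PiLp.add_apply]; ring

lemma det3_planar (e a b w : E3) (he : ‖e‖ = 1) (ha : inner ℝ a e = 0) (hb : inner ℝ b e = 0)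
    (hw : inner ℝ w e = 0) : det3 a b w = 0 := by
  have h := det3_cramer a b w e
  have h2 := congrArg (fun x => inner ℝ x e) h
  simp only [inner_add_left, inner_smul_left, ha, hb, hw, real_inner_self_eq_norm_sq, he] at h2
  simp at h2
  exact h2.symm

lemma abs_det3_D (e a b w : E3) (he : ‖e‖ = 1) (ha : inner ℝ a e = 0) (hb : inner ℝ b e = 0)
    (hw : inner ℝ w e = 0) : |det3 a b (e + w)| = gram a b := by
  rw [det3_add, det3_planar e a b w he ha hb hw, add_zero, ← gram_proj e a b he]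
  simp only [proj, ha, hb, zero_smul, sub_zero]

lemma norm_D_sq (e w : E3) (he : ‖e‖ = 1) (hw : inner ℝ w e = 0) : ‖e + w‖ = Real.sqrt (1 + ‖w‖ ^ 2) := by
  rw [← Real.sqrt_sq (norm_nonneg (e + w))]
  congr 1
  rw [norm_add_sq_real, he, real_inner_comm, hw]; ring

lemma D_ne (e w : E3) (he : ‖e‖ = 1) (hw : inner ℝ w e = 0) : e + w ≠ 0 := by
  have h := norm_D_sq e w he hw
  intro h0
  rw [h0, norm_zero] at h
  have : 0 < Real.sqrt (1 + ‖w‖ ^ 2) := Real.sqrt_pos.mpr (by positivity)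
  linarith

lemma proj_unitv (D y : E3) (hD : D ≠ 0) : y - (inner ℝ y D / ‖D‖ ^ 2) • D = proj (unitv D) y := by
  have hn : ‖D‖ ≠ 0 := by simpa using hD
  rw [proj, unitv, inner_smul_right, smul_smul]
  congr 2
  field_simp

lemma unitv_norm (D : E3) (hD : D ≠ 0) : ‖unitv D‖ = 1 := norm_unit D hD

lemma proj_unitv_D (D : E3) (hD : D ≠ 0) : proj (unitv D) D = 0 := by
  have hn : ‖D‖ ≠ 0 := by simpa using hD
  have : D = ‖D‖ • unitv D := by rw [unitv, smul_smul, mul_inv_cancel₀ hn, one_smul]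
  nth_rewrite 2 [this]
  rw [proj_smul, proj_self _ (unitv_norm D hD), smul_zero]

/-- area of the projected triangle with vertices `P, P+h(a+t b), P+h(a+t' b)` -/
lemma area_tri (e a b w P : E3) (he : ‖e‖ = 1) (ha : inner ℝ a e = 0) (hb : inner ℝ b e = 0)
    (hw : inner ℝ w e = 0) (h t t' : ℝ) (htt : t ≤ t') :
    μHE[2] (convexHull ℝ ({proj (unitv (e + w)) P, proj (unitv (e + w)) (P + h • (a + t • b)),
      proj (unitv (e + w)) (P + h • (a + t' • b))} : Set E3)) =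
      ENNReal.ofReal (gram a b * (t' - t) * (h ^ 2 / (2 * Real.sqrt (1 + ‖w‖ ^ 2)))) := by
  have hD := D_ne e w he hw
  have hne : μHE[2] (convexHull ℝ ({proj (unitv (e + w)) P, proj (unitv (e + w)) (P + h • (a + t • b)),
      proj (unitv (e + w)) (P + h • (a + t' • b))} : Set E3)) ≠ ⊤ := by
    rw [area_triangle]; exact ENNReal.ofReal_ne_top
  rw [← ENNReal.ofReal_toReal hne]
  congr 1
  have h1 : (μHE[2] (convexHull ℝ ({proj (unitv (e + w)) P, proj (unitv (e + w)) (P + h • (a + t • b)),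
      proj (unitv (e + w)) (P + h • (a + t' • b))} : Set E3))).toReal =
      |det3 (P + h • (a + t • b) - P) (P + h • (a + t' • b) - P) (e + w)| / (2 * ‖e + w‖) :=
    area_cyl P (P + h • (a + t • b)) (P + h • (a + t' • b)) (e + w) hD
  have h2 : det3 (P + h • (a + t • b) - P) (P + h • (a + t' • b) - P) (e + w) = h ^ 2 * (t' - t) * det3 a b (e + w) := by
    simp only [det3, PiLp.add_apply, PiLp.sub_apply, PiLp.smul_apply, smul_eq_mul]; ring
  rw [h2, abs_mul, abs_of_nonneg (mul_nonneg (sq_nonneg h) (by linarith : 0 ≤ t' - t)), abs_det3_D e a b w he ha hb hw,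
    norm_D_sq e w he hw] at h1
  rw [h1]; ring

/-- increments of `w` -/
lemma w_increment (a b : E3) (α β : ℝ) (w : ℝ → E3) (lam : ℝ → ℝ)
    (hlam : ContinuousOn lam (Set.Icc α β))
    (hw' : ∀ t ∈ Set.Icc α β, HasDerivWithinAt w (lam t • (a + t • b)) (Set.Icc α β) t)
    (M : ℝ) (hM : ∀ t ∈ Set.Icc α β, |lam t| ≤ M) (c τ : ℝ) (hc : c ∈ Set.Icc α β) (hτ : τ ∈ Set.Icc α β) :
    ∃ Λ E : ℝ, |Λ| ≤ M * |τ - c| ∧ |E| ≤ M * |τ - c| * |τ - c| ∧ w τ - w c = Λ • (a + τ • b) + E • b := by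
  have hsub : Set.uIcc c τ ⊆ Set.Icc α β := by
    intro x hx
    rw [Set.mem_uIcc] at hx
    rcases hx with hx | hx
    · exact ⟨hc.1.trans hx.1, hx.2.trans hτ.2⟩
    · exact ⟨hτ.1.trans hx.1, hx.2.trans hc.2⟩
  have hcl : ContinuousOn lam (Set.uIcc c τ) := hlam.mono hsub
  have hi0 : IntervalIntegrable lam volume c τ := hcl.intervalIntegrable
  have hi1 : IntervalIntegrable (fun u => (u - τ) * lam u) volume c τ :=
    ((continuousOn_id.sub continuousOn_const).mul hcl).intervalIntegrable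
  have hFTC : ∫ u in c..τ, lam u • (a + u • b) = w τ - w c := by
    apply intervalIntegral.integral_eq_sub_of_hasDeriv_right
    · exact fun x hx => (hw' x (hsub hx)).continuousWithinAt.mono hsub
    · intro x hx
      have hxI : x ∈ Set.uIcc c τ := Set.Ioo_subset_Icc_self hx
      have hx2 : x ∈ Set.Icc α β := hsub hxI
      have hmax : max c τ ≤ β := max_le hc.2 hτ.2
      have hlt : x < β := lt_of_lt_of_le hx.2 hmax
      have h1 := hw' x hx2
      have h2 : HasDerivWithinAt w (lam x • (a + x • b)) (Set.Icc x β) x :=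
        h1.mono (Set.Icc_subset_Icc_left hx2.1)
      exact (h2.mono_of_mem_nhdsWithin (Icc_mem_nhdsGE hlt)).mono Set.Ioi_subset_Ici_self
    · apply ContinuousOn.intervalIntegrable
      exact hcl.smul (continuousOn_const.add (continuousOn_id.smul continuousOn_const))
  refine ⟨∫ u in c..τ, lam u, ∫ u in c..τ, (u - τ) * lam u, ?_, ?_, ?_⟩
  · have := intervalIntegral.norm_integral_le_of_norm_le_const (a := c) (b := τ) (f := lam) (C := M) (by
      intro x hx
      exact hM x (hsub (Set.uIoc_subset_uIcc hx)))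
    simpa using this
  · have := intervalIntegral.norm_integral_le_of_norm_le_const (a := c) (b := τ) (f := fun u => (u - τ) * lam u) (C := |τ - c| * M) (by
      intro x hx
      have hx' := Set.uIoc_subset_uIcc hx
      rw [Real.norm_eq_abs, abs_mul]
      apply mul_le_mul _ (hM x (hsub hx')) (abs_nonneg _) (abs_nonneg _)
      rw [Set.mem_uIcc] at hx'
      rcases hx' with h | h
      · rw [abs_of_nonpos (by linarith), abs_of_nonneg (by linarith)]; linarith
      · rw [abs_of_nonneg (by linarith), abs_of_nonpos (by linarith)]; linarith)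
    rw [Real.norm_eq_abs] at this
    calc _ ≤ _ := this
      _ = _ := by ring
  · rw [← hFTC]
    have e1 : ∀ u : ℝ, lam u • (a + u • b) = lam u • (a + τ • b) + ((u - τ) * lam u) • b := by
      intro u; module
    simp_rw [e1]
    rw [intervalIntegral.integral_add, intervalIntegral.integral_smul_const, intervalIntegral.integral_smul_const]
    · exact (hcl.smul continuousOn_const).intervalIntegrable
    · exact (((continuousOn_id.sub continuousOn_const).mul hcl).smul continuousOn_const).intervalIntegrable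

/-- base point of the covering triangle -/
noncomputable def baseP (p₀ a b : E3) (ω t t' : ℝ) : E3 := p₀ + (-4 * ω) • a + (-4 * ω * t - 2 * ω * (t' - t)) • b

lemma piece_cover (e a b p₀ : E3) (α β L M : ℝ) (hL : 0 < L) (hM0 : 0 < M) (w : ℝ → E3) (lam : ℝ → ℝ)
    (hlam : ContinuousOn lam (Set.Icc α β))
    (hw' : ∀ t ∈ Set.Icc α β, HasDerivWithinAt w (lam t • (a + t • b)) (Set.Icc α β) t)
    (hM : ∀ t ∈ Set.Icc α β, |lam t| ≤ M) (t t' c τ ρ s h : ℝ) (htt : t < t')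
    (hα : α ≤ t) (hβ : t' ≤ β) (hc : t ≤ c ∧ c ≤ t') (hτ : t ≤ τ ∧ τ ≤ t') (hρ : 0 ≤ ρ)
    (hs : |s| ≤ L) (hh : ρ + 5 * (L * M * (t' - t)) ≤ h) :
    ∃ z ∈ stdTri, ∃ σ : ℝ, p₀ + ρ • (a + τ • b) + s • (e + w τ) =
      pmap (baseP p₀ a b (L * M * (t' - t)) t t') (h • (a + t • b)) (h • (a + t' • b)) z + σ • (e + w c) := by
  obtain ⟨Λ, E, hΛ, hE, hwc⟩ := w_increment a b α β w lam hlam hw' M hM c τ
    ⟨by linarith [hc.1], by linarith [hc.2]⟩ ⟨by linarith [hτ.1], by linarith [hτ.2]⟩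
  set d := t' - t with hd
  have hd0 : 0 < d := by linarith
  have hτc : |τ - c| ≤ d := by rw [abs_le]; constructor <;> linarith [hc.1, hc.2, hτ.1, hτ.2]
  have hω0 : 0 < L * M * d := by positivity
  set ω := L * M * d with hω
  have hsΛ : |s * Λ| ≤ ω := by
    rw [abs_mul, hω, mul_assoc]
    exact mul_le_mul hs (hΛ.trans (mul_le_mul_of_nonneg_left hτc hM0.le)) (abs_nonneg _) hL.le
  have hsE : |s * E| ≤ ω * d := by
    rw [abs_mul, hω]
    calc |s| * |E| ≤ L * (M * d * d) := by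
          apply mul_le_mul hs _ (abs_nonneg _) hL.le
          refine hE.trans ?_
          apply mul_le_mul (mul_le_mul_of_nonneg_left hτc hM0.le) hτc (abs_nonneg _) (by positivity)
      _ = L * M * d * d := by ring
  have hsΛ' := abs_le.mp hsΛ
  have hsE' := abs_le.mp hsE
  set X := ρ + s * Λ with hX
  have hX1 : -ω ≤ X := by linarith
  have hX2 : X + 4 * ω ≤ h := by linarith
  have hh0 : 0 < h := by linarith
  -- the coordinates
  set Y := X * τ + s * E with hY
  have hlo : 0 ≤ Y + 2 * ω * d - t * X := by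
    have : Y + 2 * ω * d - t * X = X * (τ - t) + s * E + 2 * ω * d := by rw [hY]; ring
    rw [this]
    have h1 : -(ω * d) ≤ X * (τ - t) := by
      have h2 : -ω * (τ - t) ≤ X * (τ - t) := mul_le_mul_of_nonneg_right hX1 (by linarith [hτ.1])
      have h3 : ω * (τ - t) ≤ ω * d := mul_le_mul_of_nonneg_left (by linarith [hτ.2]) hω0.le
      linarith
    linarith
  have hhi : 0 ≤ t' * X - Y + 2 * ω * d := by
    have : t' * X - Y + 2 * ω * d = X * (t' - τ) - s * E + 2 * ω * d := by rw [hY]; ring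
    rw [this]
    have h1 : -(ω * d) ≤ X * (t' - τ) := by
      have h2 : -ω * (t' - τ) ≤ X * (t' - τ) := mul_le_mul_of_nonneg_right hX1 (by linarith [hτ.2])
      have h3 : ω * (t' - τ) ≤ ω * d := mul_le_mul_of_nonneg_left (by linarith [hτ.1]) hω0.le
      linarith
    linarith
  refine ⟨((t' * X - Y + 2 * ω * d) / (h * d), (Y + 2 * ω * d - t * X) / (h * d)), ⟨?_, ?_, ?_⟩, s, ?_⟩
  · exact div_nonneg hhi (by positivity)
  · exact div_nonneg hlo (by positivity)
  · show (t' * X - Y + 2 * ω * d) / (h * d) + (Y + 2 * ω * d - t * X) / (h * d) ≤ 1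
    rw [← add_div, div_le_one (by positivity)]
    have : (t' * X - Y + 2 * ω * d) + (Y + 2 * ω * d - t * X) = (X + 4 * ω) * d := by rw [hd]; ring
    rw [this]
    exact mul_le_mul_of_nonneg_right hX2 hd0.le
  · have hwτ : w τ = w c + Λ • (a + τ • b) + E • b := by rw [add_assoc, ← hwc]; abel
    rw [hwτ]
    have e1 : p₀ + ρ • (a + τ • b) + s • (e + (w c + Λ • (a + τ • b) + E • b)) = p₀ + X • a + Y • b + s • (e + w c) := by
      rw [hY, hX]; module
    rw [e1]
    congr 1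
    simp only [pmap, baseP]
    have e2 : ∀ z1 z2 : ℝ, (z1 + z2) * h = X + 4 * ω → z1 * h * t + z2 * h * t' = Y + 4 * ω * t + 2 * ω * d →
        p₀ + X • a + Y • b = p₀ + (-4 * ω) • a + (-4 * ω * t - 2 * ω * (t' - t)) • b + z1 • h • (a + t • b) + z2 • h • (a + t' • b) := by
      intro z1 z2 h1 h2
      have f1 : p₀ + (-4 * ω) • a + (-4 * ω * t - 2 * ω * (t' - t)) • b + z1 • h • (a + t • b) + z2 • h • (a + t' • b)
        = p₀ + ((z1 + z2) * h - 4 * ω) • a + (z1 * h * t + z2 * h * t' - 4 * ω * t - 2 * ω * d) • b := by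
        rw [hd]; module
      rw [f1, h1, h2]
      congr 2
      · congr 1; ring
      · congr 1; ring
    apply e2
    · field_simp
      rw [hd]; ring
    · field_simp
      rw [hd]; ring

/-- Riemann sums -/
lemma riemann (f : ℝ → ℝ) (α β : ℝ) (hf : ContinuousOn f (Set.Icc α β)) (θ δ : ℝ)
    (hosc : ∀ x ∈ Set.Icc α β, ∀ y ∈ Set.Icc α β, |x - y| ≤ δ → |f x - f y| ≤ θ)
    (N : ℕ) (t : Fin (N + 1) → ℝ) (c : Fin N → ℝ) (ht : StrictMono t) (h0 : t 0 = α) (hN : t (Fin.last N) = β)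
    (hmesh : ∀ i : Fin N, t i.succ - t i.castSucc ≤ δ)
    (hc : ∀ i : Fin N, t i.castSucc ≤ c i ∧ c i ≤ t i.succ) :
    |∑ i, (t i.succ - t i.castSucc) * f (c i) - ∫ τ in α..β, f τ| ≤ (β - α) * θ := by
  have hmem : ∀ i : Fin (N + 1), t i ∈ Set.Icc α β := fun i =>
    ⟨by rw [← h0]; exact ht.monotone (Fin.zero_le i), by rw [← hN]; exact ht.monotone (Fin.le_last i)⟩
  have hsub : ∀ i : Fin N, Set.uIcc (t i.castSucc) (t i.succ) ⊆ Set.Icc α β := by
    intro i
    rw [Set.uIcc_of_le (ht.monotone (Fin.castSucc_lt_succ).le)]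
    exact Set.Icc_subset_Icc (hmem _).1 (hmem _).2
  -- split the integral
  set tt : ℕ → ℝ := fun k => if h : k < N + 1 then t ⟨k, h⟩ else β with htt
  have htt1 : ∀ i : Fin N, tt i = t i.castSucc := by
    intro i
    simp only [htt]
    rw [dif_pos (by omega)]
    rfl
  have htt2 : ∀ i : Fin N, tt (i + 1) = t i.succ := by
    intro i
    simp only [htt]
    rw [dif_pos (by omega)]
    rfl
  have hsplit : ∫ τ in α..β, f τ = ∑ i : Fin N, ∫ τ in (t i.castSucc)..(t i.succ), f τ := by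
    have h1 := intervalIntegral.sum_integral_adjacent_intervals (μ := volume) (f := f) (a := tt) (n := N) (by
      intro k hk
      have e1 := htt1 ⟨k, hk⟩
      have e2 := htt2 ⟨k, hk⟩
      simp only at e1 e2
      rw [e1, e2]
      exact (hf.mono (hsub ⟨k, hk⟩)).intervalIntegrable)
    have e0 : tt 0 = α := by simp only [htt]; rw [dif_pos (by omega), ← h0]; rfl
    have eN : tt N = β := by simp only [htt]; rw [dif_pos (by omega), ← hN]; rfl
    rw [e0, eN, Finset.sum_range] at h1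
    rw [← h1]
    apply Finset.sum_congr rfl
    intro i _
    rw [htt1, htt2]
  have hsumd : ∑ i : Fin N, (t i.succ - t i.castSucc) = β - α := by
    have h1 := Finset.sum_range_sub tt N
    have e0 : tt 0 = α := by simp only [htt]; rw [dif_pos (by omega), ← h0]; rfl
    have eN : tt N = β := by simp only [htt]; rw [dif_pos (by omega), ← hN]; rfl
    rw [e0, eN, Finset.sum_range] at h1
    rw [← h1]
    apply Finset.sum_congr rfl
    intro i _
    rw [htt1, htt2]
  rw [hsplit, ← Finset.sum_sub_distrib, ← hsumd, Finset.sum_mul]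
  refine le_trans (Finset.abs_sum_le_sum_abs _ _) (Finset.sum_le_sum ?_)
  intro i _
  have hle : t i.castSucc ≤ t i.succ := ht.monotone (Fin.castSucc_lt_succ).le
  have h1 : (t i.succ - t i.castSucc) * f (c i) = ∫ τ in (t i.castSucc)..(t i.succ), f (c i) := by
    rw [intervalIntegral.integral_const, smul_eq_mul]
  rw [h1, ← intervalIntegral.integral_sub (by simp) (hf.mono (hsub i)).intervalIntegrable]
  have h2 := intervalIntegral.norm_integral_le_of_norm_le_const (a := t i.castSucc) (b := t i.succ) (f := fun x => f (c i) - f x) (C := θ) (by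
    intro x hx
    rw [Set.uIoc_of_le hle] at hx
    rw [Real.norm_eq_abs]
    apply hosc
    · exact ⟨(hmem _).1.trans (hc i).1, (hc i).2.trans (hmem _).2⟩
    · exact ⟨(hmem _).1.trans hx.1.le, hx.2.trans (hmem _).2⟩
    · have := hmesh i
      rw [abs_le]; constructor <;> linarith [hx.1, hx.2, (hc i).1, (hc i).2])
  rw [Real.norm_eq_abs, abs_of_nonneg (by linarith : 0 ≤ t i.succ - t i.castSucc)] at h2
  linarith

/-- combining local estimates -/
lemma combine (κ : ℝ) (hκ : 0 ≤ κ) (f : ℝ → ℝ) (α β : ℝ) (hf : ContinuousOn f (Set.Icc α β)) (θ θ' δ : ℝ)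
    (hosc : ∀ x ∈ Set.Icc α β, ∀ y ∈ Set.Icc α β, |x - y| ≤ δ → |f x - f y| ≤ θ)
    (N : ℕ) (t : Fin (N + 1) → ℝ) (c : Fin N → ℝ) (ht : StrictMono t) (h0 : t 0 = α) (hN : t (Fin.last N) = β)
    (hmesh : ∀ i : Fin N, t i.succ - t i.castSucc ≤ δ)
    (hc : ∀ i : Fin N, t i.castSucc ≤ c i ∧ c i ≤ t i.succ) (A : Fin N → ℝ)
    (hA : ∀ i, |A i - κ * ((t i.succ - t i.castSucc) * f (c i))| ≤ κ * ((t i.succ - t i.castSucc) * θ')) :
    |∑ i, A i - κ * ∫ τ in α..β, f τ| ≤ κ * ((β - α) * (θ' + θ)) := by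
  have h1 := riemann f α β hf θ δ hosc N t c ht h0 hN hmesh hc
  have hsumd : ∑ i : Fin N, (t i.succ - t i.castSucc) = β - α := by
    set tt : ℕ → ℝ := fun k => if h : k < N + 1 then t ⟨k, h⟩ else β with htt
    have h1 := Finset.sum_range_sub tt N
    have e0 : tt 0 = α := by simp only [htt]; rw [dif_pos (by omega), ← h0]; rfl
    have eN : tt N = β := by simp only [htt]; rw [dif_pos (by omega), ← hN]; rfl
    rw [e0, eN, Finset.sum_range] at h1
    rw [← h1]
    apply Finset.sum_congr rfl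
    intro i _
    simp only [htt]
    rw [dif_pos (by omega), dif_pos (by omega)]
    rfl
  have h2 : |∑ i, A i - κ * ∑ i, (t i.succ - t i.castSucc) * f (c i)| ≤ κ * ((β - α) * θ') := by
    rw [Finset.mul_sum, ← Finset.sum_sub_distrib, ← hsumd, Finset.sum_mul, Finset.mul_sum]
    exact le_trans (Finset.abs_sum_le_sum_abs _ _) (Finset.sum_le_sum fun i _ => hA i)
  have h3 : |κ * ∑ i, (t i.succ - t i.castSucc) * f (c i) - κ * ∫ τ in α..β, f τ| ≤ κ * ((β - α) * θ) := by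
    rw [← mul_sub, abs_mul, abs_of_nonneg hκ]
    exact mul_le_mul_of_nonneg_left h1 hκ
  calc |∑ i, A i - κ * ∫ τ in α..β, f τ|
      = |(∑ i, A i - κ * ∑ i, (t i.succ - t i.castSucc) * f (c i)) + (κ * ∑ i, (t i.succ - t i.castSucc) * f (c i) - κ * ∫ τ in α..β, f τ)| := by
        congr 1; ring
    _ ≤ _ := abs_add_le _ _
    _ ≤ κ * ((β - α) * θ') + κ * ((β - α) * θ) := add_le_add h2 h3
    _ = κ * ((β - α) * (θ' + θ)) := by ring

lemma gram_pos_of_li (a b : E3) (hab : LinearIndependent ℝ ![a, b]) : 0 < gram a b := by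
  rw [gram]
  apply Real.sqrt_pos.mpr
  by_contra hcon
  push Not at hcon
  have ha : a ≠ 0 := by
    have := hab.ne_zero 0
    simpa using this
  have hna : 0 < ‖a‖ ^ 2 := by
    have := norm_pos_iff.mpr ha
    positivity
  have h1 : ‖(‖a‖ ^ 2) • b - inner ℝ a b • a‖ ^ 2 = ‖a‖ ^ 2 * (‖a‖ ^ 2 * ‖b‖ ^ 2 - inner ℝ a b ^ 2) := by
    rw [norm_sub_sq_real, norm_smul, norm_smul, inner_smul_left, inner_smul_right, real_inner_comm a b]
    simp only [conj_trivial, Real.norm_eq_abs]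
    have e1 : |‖a‖ ^ 2| = ‖a‖ ^ 2 := abs_of_nonneg (by positivity)
    rw [e1]
    have e2 : (|inner ℝ a b| * ‖a‖) ^ 2 = inner ℝ a b ^ 2 * ‖a‖ ^ 2 := by rw [mul_pow, sq_abs]
    rw [e2]; ring
  have h2 : ‖(‖a‖ ^ 2) • b - inner ℝ a b • a‖ ^ 2 ≤ 0 := by
    rw [h1]; exact mul_nonpos_of_nonneg_of_nonpos hna.le hcon
  have h3 : (‖a‖ ^ 2) • b - inner ℝ a b • a = 0 := by
    have : ‖(‖a‖ ^ 2) • b - inner ℝ a b • a‖ = 0 := by
      have := le_antisymm h2 (sq_nonneg _)
      exact pow_eq_zero_iff (two_ne_zero) |>.mp this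
    exact norm_eq_zero.mp this
  rw [LinearIndependent.pair_iff] at hab
  have h4 := hab (-inner ℝ a b) (‖a‖ ^ 2) (by rw [neg_smul, neg_add_eq_sub]; exact h3)
  exact hna.ne' h4.2

lemma gram_collinear (p q r : E3) (h : Collinear ℝ ({p, q, r} : Set E3)) : gram (q - p) (r - p) = 0 := by
  rw [collinear_iff_of_mem (p₀ := p) (by simp)] at h
  obtain ⟨v, hv⟩ := h
  obtain ⟨x, hx⟩ := hv q (by simp)
  obtain ⟨y, hy⟩ := hv r (by simp)
  have e1 : q - p = x • v := by rw [hx, vadd_eq_add]; abel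
  have e2 : r - p = y • v := by rw [hy, vadd_eq_add]; abel
  rw [gram, e1, e2, norm_smul, norm_smul, inner_smul_left, inner_smul_right, real_inner_self_eq_norm_sq]
  simp only [conj_trivial, Real.norm_eq_abs]
  rw [mul_pow, mul_pow, sq_abs, sq_abs]
  have : x ^ 2 * ‖v‖ ^ 2 * (y ^ 2 * ‖v‖ ^ 2) - (x * (y * ‖v‖ ^ 2)) ^ 2 = 0 := by ring
  rw [this, Real.sqrt_zero]

lemma inner_proj_D (D y : E3) (hD : D ≠ 0) : inner ℝ (proj (unitv D) y) D = 0 := by
  have hn : ‖D‖ ≠ 0 := by simpa using hD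
  have h1 : D = ‖D‖ • unitv D := by rw [unitv, smul_smul, mul_inv_cancel₀ hn, one_smul]
  have h2 := inner_proj (unitv D) y (unitv_norm D hD)
  nth_rewrite 2 [h1]
  rw [inner_smul_right, h2, mul_zero]

lemma decomp_D (D y : E3) (hD : D ≠ 0) : ∃ σ : ℝ, y = proj (unitv D) y + σ • D := by
  refine ⟨inner ℝ y (unitv D) * ‖D‖⁻¹, ?_⟩
  rw [mul_smul]
  have : ‖D‖⁻¹ • D = unitv D := rfl
  rw [this, proj]; abel

lemma num_up (R h B ε q : ℝ) (hR : 0 ≤ R) (hRB : R ≤ B) (hε : 0 < ε) (hε1 : ε ≤ 1) (hh : h = R + ε) (hq : 1 ≤ q) :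
    h ^ 2 / (2 * q) ≤ R ^ 2 / (2 * q) + (2 * B + 1) * ε := by
  have h1 : h ^ 2 / (2 * q) = R ^ 2 / (2 * q) + (2 * R * ε + ε ^ 2) / (2 * q) := by rw [hh]; ring
  rw [h1]
  have h2 : (2 * R * ε + ε ^ 2) / (2 * q) ≤ (2 * R * ε + ε ^ 2) := by
    apply div_le_self (by positivity); linarith
  have h3 : R * ε ≤ B * ε := mul_le_mul_of_nonneg_right hRB hε.le
  have h4 : ε ^ 2 ≤ ε := by
    calc ε ^ 2 = ε * ε := sq ε
      _ ≤ 1 * ε := mul_le_mul_of_nonneg_right hε1 hε.le
      _ = ε := one_mul _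
  linarith

lemma num_lo (R h B ε q : ℝ) (hR : 0 ≤ R) (hRB : R ≤ B) (hε : 0 < ε) (hε1 : ε ≤ 1) (hh : h = max (R - ε) 0) (hq : 1 ≤ q) :
    R ^ 2 / (2 * q) - (2 * B + 1) * ε ≤ h ^ 2 / (2 * q) := by
  have h3 : R * ε ≤ B * ε := mul_le_mul_of_nonneg_right hRB hε.le
  have key : R ^ 2 - h ^ 2 ≤ 2 * B * ε := by
    rcases le_total R ε with hc | hc
    · rw [hh, max_eq_right (by linarith)]
      have : R ^ 2 ≤ R * ε := by rw [sq]; exact mul_le_mul_of_nonneg_left hc hR
      have h5 : 0 ≤ B * ε := by apply mul_nonneg (hR.trans hRB) hε.le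
      norm_num; linarith
    · rw [hh, max_eq_left (by linarith)]
      nlinarith [sq_nonneg ε]
  have h1 : R ^ 2 / (2 * q) - h ^ 2 / (2 * q) = (R ^ 2 - h ^ 2) / (2 * q) := by ring
  have h2 : (R ^ 2 - h ^ 2) / (2 * q) ≤ (2 * B + 1) * ε := by
    rw [div_le_iff₀ (by linarith)]
    have h5 : 0 ≤ B * ε := by apply mul_nonneg (hR.trans hRB) hε.le
    have h6 : (2 * B + 1) * ε * 2 ≤ (2 * B + 1) * ε * (2 * q) := by
      apply mul_le_mul_of_nonneg_left (by linarith)
      linarith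
    linarith
  linarith

lemma locate (α β : ℝ) (hαβ : α < β) (N : ℕ) (t : Fin (N + 1) → ℝ) (h0 : t 0 = α) (hN : t (Fin.last N) = β)
    (τ : ℝ) (hτ : τ ∈ Set.Icc α β) : ∃ i : Fin N, t i.castSucc ≤ τ ∧ τ ≤ t i.succ := by
  have hN0 : 0 < N := by
    rcases Nat.eq_zero_or_pos N with h | h
    · subst h
      have : (0 : Fin 1) = Fin.last 0 := rfl
      rw [← this, h0] at hN
      exact absurd hN hαβ.ne
    · exact h
  set tt : ℕ → ℝ := fun k => if h : k < N + 1 then t ⟨k, h⟩ else β with htt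
  have e0 : tt 0 = α := by simp only [htt]; rw [dif_pos (by omega), ← h0]; rfl
  have eN : tt N = β := by simp only [htt]; rw [dif_pos (by omega), ← hN]; rfl
  obtain ⟨k, hk, h1, h2⟩ := ivt_nat (fun k => τ - tt k) N hN0 (by simp only [e0]; linarith [hτ.1]) (by simp only [eN]; linarith [hτ.2])
  refine ⟨⟨k, hk⟩, ?_, ?_⟩
  · have : tt k = t (Fin.castSucc ⟨k, hk⟩) := by
      simp only [htt]; rw [dif_pos (by omega)]; rfl
    rw [← this]; simpa using h1
  · have : tt (k + 1) = t (Fin.succ ⟨k, hk⟩) := by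
      simp only [htt]; rw [dif_pos (by omega)]; rfl
    rw [← this]; simpa using h2

lemma tri_lower (e a b p₀ w : E3) (d : E3) (R : ℝ → ℝ) (W : ℝ → E3) (t t' h L : ℝ) (hL : 0 < L) (htt : t < t')
    (hh0 : 0 ≤ h) (hRh : ∀ τ, t ≤ τ → τ ≤ t' → h ≤ R τ) :
    convexHull ℝ ({proj d p₀, proj d (p₀ + h • (a + t • b)), proj d (p₀ + h • (a + t' • b))} : Set E3) ⊆
      proj d '' {x : E3 | ∃ τ ∈ Set.Icc t t', ∃ ρ ∈ Set.Icc 0 (R τ), ∃ s : ℝ, abs s ≤ L ∧ x = p₀ + ρ • (a + τ • b) + s • (e + W τ)} := by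
  rw [convexHull_triple]
  rintro _ ⟨z, ⟨h1, h2, h3⟩, rfl⟩
  by_cases hz : z.1 + z.2 = 0
  · have hz1 : z.1 = 0 := by linarith
    have hz2 : z.2 = 0 := by linarith
    refine ⟨p₀, ⟨t, ⟨le_rfl, htt.le⟩, 0, ⟨le_rfl, hh0.trans (hRh t le_rfl htt.le)⟩, 0, by rw [abs_zero]; exact hL.le, by simp⟩, ?_⟩
    simp [pmap, hz1, hz2]
  · have hzp : 0 < z.1 + z.2 := lt_of_le_of_ne (by linarith) (Ne.symm hz)
    have hτ1 : t ≤ (z.1 * t + z.2 * t') / (z.1 + z.2) := by
      rw [le_div_iff₀ hzp]; nlinarith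
    have hτ2 : (z.1 * t + z.2 * t') / (z.1 + z.2) ≤ t' := by
      rw [div_le_iff₀ hzp]; nlinarith
    refine ⟨p₀ + ((z.1 + z.2) * h) • (a + ((z.1 * t + z.2 * t') / (z.1 + z.2)) • b), ⟨(z.1 * t + z.2 * t') / (z.1 + z.2), ⟨hτ1, hτ2⟩,
      (z.1 + z.2) * h, ⟨by positivity, ?_⟩, 0, by rw [abs_zero]; exact hL.le, by simp⟩, ?_⟩
    · calc (z.1 + z.2) * h ≤ 1 * h := mul_le_mul_of_nonneg_right h3 hh0
        _ = h := one_mul _
        _ ≤ _ := hRh _ hτ1 hτ2
    · rw [← proj_sub, ← proj_sub, ← proj_pmap]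
      congr 1
      simp only [pmap]
      have e1 : ((z.1 + z.2) * h) • (a + ((z.1 * t + z.2 * t') / (z.1 + z.2)) • b) = ((z.1 + z.2) * h) • a + (h * (z.1 * t + z.2 * t')) • b := by
        rw [smul_add, smul_smul]
        congr 2
        field_simp
      rw [e1]
      module

/-- Unit e; a, b, p₀ ∈ e^⊥, a, b independent; α < β; L > 0; R ≥ 0, λ both continuous on [α, β]; w(t) ∈ e^⊥, w′ = λ(t)(a + tb). S = {p₀ + ρ(a + t b) + s(e + w t) : α ≤ t ≤ β, 0 ≤ ρ ≤ R t, ‖s‖ ≤ L}; A = κ ∫_α^β R²/(2√(1 + ‖w‖²)), κ = area spanned by a, b. For η > 0 a δ > 0 makes each partition t₀ < … < t_N of [α, β] of mesh ≤ δ, tags cᵢ, admit N cylinders (axes e + w(cᵢ), nondegenerate triangle bases) covering S, total area within η of A; same for S's pieces tᵢ ≤ t ≤ tᵢ₊₁ projected along these axes. -/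
theorem result
    (e a b p₀ : EuclideanSpace ℝ (Fin 3)) (he : ‖e‖ = 1)
    (ha : inner ℝ a e = 0) (hb : inner ℝ b e = 0) (hp₀ : inner ℝ p₀ e = 0)
    (hab : LinearIndependent ℝ ![a, b]) (L : ℝ) (hL : 0 < L) (α β : ℝ) (hαβ : α < β)
    (R : ℝ → ℝ) (hR : ContinuousOn R (Set.Icc α β)) (hR0 : ∀ t ∈ Set.Icc α β, 0 ≤ R t)
    (w : ℝ → EuclideanSpace ℝ (Fin 3)) (hw : ∀ t ∈ Set.Icc α β, inner ℝ (w t) e = 0)
    (lam : ℝ → ℝ) (hlam : ContinuousOn lam (Set.Icc α β))
    (hw' : ∀ t ∈ Set.Icc α β, HasDerivWithinAt w (lam t • (a + t • b)) (Set.Icc α β) t)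
    (η : ℝ) (hη : 0 < η) :
    ∃ δ : ℝ, 0 < δ ∧ ∀ (N : ℕ) (t : Fin (N + 1) → ℝ) (c : Fin N → ℝ),
      StrictMono t → t 0 = α → t (Fin.last N) = β →
      (∀ i : Fin N, t i.succ - t i.castSucc ≤ δ) →
      (∀ i : Fin N, t i.castSucc ≤ c i ∧ c i ≤ t i.succ) →
      (∃ (p q r : Fin N → EuclideanSpace ℝ (Fin 3)),
        (∀ i, inner ℝ (p i) (e + w (c i)) = 0 ∧ inner ℝ (q i) (e + w (c i)) = 0 ∧
          inner ℝ (r i) (e + w (c i)) = 0) ∧
        (∀ i, AffineIndependent ℝ ![p i, q i, r i]) ∧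
        {x : EuclideanSpace ℝ (Fin 3) | ∃ τ ∈ Set.Icc α β, ∃ ρ ∈ Set.Icc 0 (R τ), ∃ s : ℝ, abs s ≤ L ∧
            x = p₀ + ρ • (a + τ • b) + s • (e + w τ)} ⊆
          ⋃ i, {x : EuclideanSpace ℝ (Fin 3) | ∃ y ∈ convexHull ℝ {p i, q i, r i}, ∃ σ : ℝ,
            x = y + σ • (e + w (c i))} ∧
        abs ((∑ i, (μHE[2] (convexHull ℝ ({p i, q i, r i} : Set (EuclideanSpace ℝ (Fin 3))))).toReal) -
            Real.sqrt (‖a‖ ^ 2 * ‖b‖ ^ 2 - inner ℝ a b ^ 2) *
              ∫ τ in α..β, R τ ^ 2 / (2 * Real.sqrt (1 + ‖w τ‖ ^ 2))) ≤ η) ∧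
      abs ((∑ i : Fin N, (μHE[2] ((fun y => y - (inner ℝ y (e + w (c i)) / ‖e + w (c i)‖ ^ 2) • (e + w (c i))) ''
            {x : EuclideanSpace ℝ (Fin 3) | ∃ τ ∈ Set.Icc (t i.castSucc) (t i.succ), ∃ ρ ∈ Set.Icc 0 (R τ),
              ∃ s : ℝ, abs s ≤ L ∧ x = p₀ + ρ • (a + τ • b) + s • (e + w τ)})).toReal) -
          Real.sqrt (‖a‖ ^ 2 * ‖b‖ ^ 2 - inner ℝ a b ^ 2) *
            ∫ τ in α..β, R τ ^ 2 / (2 * Real.sqrt (1 + ‖w τ‖ ^ 2))) ≤ η := by
  set κ : ℝ := gram a b with hκdef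
  have hκ : 0 < κ := gram_pos_of_li a b hab
  set f : ℝ → ℝ := fun τ => R τ ^ 2 / (2 * Real.sqrt (1 + ‖w τ‖ ^ 2)) with hf
  have hwc : ContinuousOn w (Set.Icc α β) := fun x hx => (hw' x hx).continuousWithinAt
  have hfc : ContinuousOn f (Set.Icc α β) := by
    apply ContinuousOn.div (hR.pow 2)
    · exact continuousOn_const.mul ((continuousOn_const.add (hwc.norm.pow 2)).sqrt)
    · intro x _
      have : 0 < Real.sqrt (1 + ‖w x‖ ^ 2) := Real.sqrt_pos.mpr (by positivity)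
      positivity
  obtain ⟨M0, hM0⟩ := isCompact_Icc.exists_bound_of_continuousOn hlam
  obtain ⟨B0, hB0⟩ := isCompact_Icc.exists_bound_of_continuousOn hR
  set M : ℝ := max M0 1 with hMdef
  have hMpos : 0 < M := lt_of_lt_of_le one_pos (le_max_right _ _)
  have hM : ∀ t ∈ Set.Icc α β, |lam t| ≤ M := fun t ht => (hM0 t ht).trans (le_max_left _ _)
  set B : ℝ := max B0 0 with hBdef
  have hB00 : 0 ≤ B := le_max_right _ _
  have hB : ∀ t ∈ Set.Icc α β, R t ≤ B := fun t ht => (le_abs_self _).trans ((hB0 t ht).trans (le_max_left _ _))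
  have hba : 0 < β - α := by linarith
  set C0 : ℝ := κ * (β - α) * (2 * B + 1) with hC0
  have hC0pos : 0 < C0 := by positivity
  set ε : ℝ := min 1 (η / (2 * C0)) with hε
  have hεpos : 0 < ε := lt_min one_pos (by positivity)
  have hε1 : ε ≤ 1 := min_le_left _ _
  have hεC : C0 * ε ≤ η / 2 := by
    calc C0 * ε ≤ C0 * (η / (2 * C0)) := mul_le_mul_of_nonneg_left (min_le_right _ _) hC0pos.le
      _ = η / 2 := by field_simp
  set θ : ℝ := η / (2 * (κ * (β - α))) with hθ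
  have hθpos : 0 < θ := by positivity
  obtain ⟨δ1, hδ1, hunif1⟩ := Metric.uniformContinuousOn_iff.mp (isCompact_Icc.uniformContinuousOn_of_continuous hfc) θ hθpos
  obtain ⟨δ2, hδ2, hunif2⟩ := Metric.uniformContinuousOn_iff.mp (isCompact_Icc.uniformContinuousOn_of_continuous hR) (ε / 2) (by positivity)
  set δ : ℝ := min (min (δ1 / 2) (δ2 / 2)) (ε / (10 * (L * M))) with hδ
  have hδpos : 0 < δ := lt_min (lt_min (by positivity) (by positivity)) (by positivity)
  have hosc : ∀ x ∈ Set.Icc α β, ∀ y ∈ Set.Icc α β, |x - y| ≤ δ → |f x - f y| ≤ θ := by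
    intro x hx y hy hxy
    have h1 : dist x y < δ1 := by
      rw [Real.dist_eq]
      have : δ ≤ δ1 / 2 := (min_le_left _ _).trans (min_le_left _ _)
      linarith
    have h2 := hunif1 x hx y hy h1
    rw [Real.dist_eq] at h2
    exact h2.le
  have hoscR : ∀ x ∈ Set.Icc α β, ∀ y ∈ Set.Icc α β, |x - y| ≤ δ → |R x - R y| ≤ ε / 2 := by
    intro x hx y hy hxy
    have h1 : dist x y < δ2 := by
      rw [Real.dist_eq]
      have : δ ≤ δ2 / 2 := (min_le_left _ _).trans (min_le_right _ _)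
      linarith
    have h2 := hunif2 x hx y hy h1
    rw [Real.dist_eq] at h2
    exact h2.le
  have hδ3 : 5 * (L * M * δ) ≤ ε / 2 := by
    have : δ ≤ ε / (10 * (L * M)) := min_le_right _ _
    have h2 : L * M * δ ≤ L * M * (ε / (10 * (L * M))) := mul_le_mul_of_nonneg_left this (by positivity)
    have h3 : L * M * (ε / (10 * (L * M))) = ε / 10 := by field_simp
    linarith
  have htotal : κ * ((β - α) * ((2 * B + 1) * ε + θ)) ≤ η := by
    have e1 : κ * ((β - α) * ((2 * B + 1) * ε + θ)) = C0 * ε + κ * (β - α) * θ := by rw [hC0]; ring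
    have e2 : κ * (β - α) * θ = η / 2 := by rw [hθ]; field_simp
    rw [e1, e2]; linarith
  refine ⟨δ, hδpos, ?_⟩
  intro N t c ht h0 hN hmesh hc
  have hmem : ∀ i : Fin (N + 1), t i ∈ Set.Icc α β := fun i =>
    ⟨by rw [← h0]; exact ht.monotone (Fin.zero_le i), by rw [← hN]; exact ht.monotone (Fin.le_last i)⟩
  have hcm : ∀ i, c i ∈ Set.Icc α β := fun i => ⟨(hmem _).1.trans (hc i).1, (hc i).2.trans (hmem _).2⟩
  have htlt : ∀ i : Fin N, t i.castSucc < t i.succ := fun i => ht (Fin.castSucc_lt_succ)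
  -- data
  set D : Fin N → E3 := fun i => e + w (c i) with hDdef
  have hD : ∀ i, D i ≠ 0 := fun i => D_ne e (w (c i)) he (hw _ (hcm i))
  set h : Fin N → ℝ := fun i => R (c i) + ε with hhdef
  set P : Fin N → E3 := fun i => baseP p₀ a b (L * M * (t i.succ - t i.castSucc)) (t i.castSucc) (t i.succ) with hPdef
  set p : Fin N → E3 := fun i => proj (unitv (D i)) (P i) with hpdef
  set q : Fin N → E3 := fun i => proj (unitv (D i)) (P i + h i • (a + t i.castSucc • b)) with hqdef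
  set r : Fin N → E3 := fun i => proj (unitv (D i)) (P i + h i • (a + t i.succ • b)) with hrdef
  have hqge : ∀ i : Fin N, 1 ≤ Real.sqrt (1 + ‖w (c i)‖ ^ 2) := by
    intro i
    rw [show (1:ℝ) = Real.sqrt 1 by simp]
    apply Real.sqrt_le_sqrt
    have := sq_nonneg ‖w (c i)‖
    simp
  have harea : ∀ i, μHE[2] (convexHull ℝ ({p i, q i, r i} : Set E3)) =
      ENNReal.ofReal (κ * (t i.succ - t i.castSucc) * (h i ^ 2 / (2 * Real.sqrt (1 + ‖w (c i)‖ ^ 2)))) :=
    fun i => area_tri e a b (w (c i)) (P i) he ha hb (hw _ (hcm i)) (h i) _ _ (htlt i).le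
  have harea' : ∀ i, (μHE[2] (convexHull ℝ ({p i, q i, r i} : Set E3))).toReal =
      κ * (t i.succ - t i.castSucc) * (h i ^ 2 / (2 * Real.sqrt (1 + ‖w (c i)‖ ^ 2))) := by
    intro i
    rw [harea i, ENNReal.toReal_ofReal]
    have := htlt i
    have h2 : 0 ≤ t i.succ - t i.castSucc := by linarith
    have h3 := hqge i
    positivity
  have hhpos : ∀ i, 0 < h i := fun i => by
    have := hR0 _ (hcm i)
    simp only [hhdef]; linarith
  -- the covering of the pieces
  have hpiece : ∀ (i : Fin N) (τ ρ s : ℝ), τ ∈ Set.Icc (t i.castSucc) (t i.succ) → ρ ∈ Set.Icc 0 (R τ) → |s| ≤ L →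
      proj (unitv (D i)) (p₀ + ρ • (a + τ • b) + s • (e + w τ)) ∈ convexHull ℝ ({p i, q i, r i} : Set E3) := by
    intro i τ ρ s hτ hρ hs
    have hτI : τ ∈ Set.Icc α β := ⟨(hmem _).1.trans hτ.1, hτ.2.trans (hmem _).2⟩
    have hτc : |τ - c i| ≤ δ := by
      have := hmesh i
      rw [abs_le]; constructor <;> linarith [hτ.1, hτ.2, (hc i).1, (hc i).2]
    have hRR := abs_le.mp (hoscR τ hτI (c i) (hcm i) hτc)
    obtain ⟨z, hz, σ, hx⟩ := piece_cover e a b p₀ α β L M hL hMpos w lam hlam hw' hM (t i.castSucc) (t i.succ) (c i) τ ρ s (h i)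
      (htlt i) (hmem _).1 (hmem _).2 (hc i) hτ hρ.1 hs (by
        have h1 : L * M * (t i.succ - t i.castSucc) ≤ L * M * δ := mul_le_mul_of_nonneg_left (hmesh i) (by positivity)
        have h2 := hρ.2
        simp only [hhdef]
        linarith [hRR.2])
    rw [hx, proj_add, proj_smul]
    have : proj (unitv (D i)) (e + w (c i)) = 0 := proj_unitv_D (D i) (hD i)
    rw [this, smul_zero, add_zero]
    have h2 := proj_hull (unitv (D i)) (P i) (P i + h i • (a + t i.castSucc • b)) (P i + h i • (a + t i.succ • b)) z hz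
    rw [add_sub_cancel_left, add_sub_cancel_left] at h2
    exact h2
  constructor
  · refine ⟨p, q, r, ?_, ?_, ?_, ?_⟩
    · intro i
      exact ⟨inner_proj_D (D i) _ (hD i), inner_proj_D (D i) _ (hD i), inner_proj_D (D i) _ (hD i)⟩
    · intro i
      rw [affineIndependent_iff_not_collinear_set]
      intro hcol
      have h1 := gram_collinear _ _ _ hcol
      have h2 := harea' i
      rw [area_triangle_toReal, h1] at h2
      have h3 := hqge i
      have h4 : 0 < t i.succ - t i.castSucc := by linarith [htlt i]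
      have h5 := hhpos i
      have h6 : 0 < κ * (t i.succ - t i.castSucc) * (h i ^ 2 / (2 * Real.sqrt (1 + ‖w (c i)‖ ^ 2))) := by positivity
      rw [← h2] at h6
      norm_num at h6
    · rintro x ⟨τ, hτ, ρ, hρ, s, hs, rfl⟩
      obtain ⟨i, hi⟩ := locate α β hαβ N t h0 hN τ hτ
      rw [Set.mem_iUnion]
      obtain ⟨σ, hσ⟩ := decomp_D (D i) (p₀ + ρ • (a + τ • b) + s • (e + w τ)) (hD i)
      exact ⟨i, _, hpiece i τ ρ s hi hρ hs, σ, hσ⟩
    · refine le_trans (combine κ hκ.le f α β hfc θ ((2 * B + 1) * ε) δ hosc N t c ht h0 hN hmesh hc _ ?_) htotal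
      intro i
      have h4 : 0 < t i.succ - t i.castSucc := by linarith [htlt i]
      rw [harea' i]
      have e1 : κ * (t i.succ - t i.castSucc) * (h i ^ 2 / (2 * Real.sqrt (1 + ‖w (c i)‖ ^ 2))) - κ * ((t i.succ - t i.castSucc) * f (c i))
        = κ * (t i.succ - t i.castSucc) * (h i ^ 2 / (2 * Real.sqrt (1 + ‖w (c i)‖ ^ 2)) - f (c i)) := by ring
      rw [e1, abs_mul, abs_of_pos (by positivity : 0 < κ * (t i.succ - t i.castSucc)), ← mul_assoc]
      apply mul_le_mul_of_nonneg_left _ (by positivity)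
      have u1 := num_up (R (c i)) (h i) B ε _ (hR0 _ (hcm i)) (hB _ (hcm i)) hεpos hε1 rfl (hqge i)
      have u2 : R (c i) ^ 2 / (2 * Real.sqrt (1 + ‖w (c i)‖ ^ 2)) ≤ h i ^ 2 / (2 * Real.sqrt (1 + ‖w (c i)‖ ^ 2)) := by
        have h3 := hqge i
        apply div_le_div_of_nonneg_right _ (by positivity)
        apply pow_le_pow_left₀ (hR0 _ (hcm i))
        simp only [hhdef]; linarith
      have u3 : 0 ≤ (2 * B + 1) * ε := by positivity
      rw [abs_le]; constructor <;> simp only [hf] <;> linarith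
  · refine le_trans (combine κ hκ.le f α β hfc θ ((2 * B + 1) * ε) δ hosc N t c ht h0 hN hmesh hc _ ?_) htotal
    intro i
    have h4 : 0 < t i.succ - t i.castSucc := by linarith [htlt i]
    have hfun : (fun y : E3 => y - (inner ℝ y (e + w (c i)) / ‖e + w (c i)‖ ^ 2) • (e + w (c i))) = proj (unitv (D i)) := by
      funext y; exact proj_unitv (D i) y (hD i)
    rw [hfun]
    set S := {x : EuclideanSpace ℝ (Fin 3) | ∃ τ ∈ Set.Icc (t i.castSucc) (t i.succ), ∃ ρ ∈ Set.Icc 0 (R τ),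
              ∃ s : ℝ, abs s ≤ L ∧ x = p₀ + ρ • (a + τ • b) + s • (e + w τ)} with hS
    have hup : proj (unitv (D i)) '' S ⊆ convexHull ℝ ({p i, q i, r i} : Set E3) := by
      rintro _ ⟨x, ⟨τ, hτ, ρ, hρ, s, hs, rfl⟩, rfl⟩
      exact hpiece i τ ρ s hτ hρ hs
    set h' := max (R (c i) - ε) 0 with hh'
    have hlo := tri_lower e a b p₀ 0 (unitv (D i)) R w (t i.castSucc) (t i.succ) h' L hL (htlt i) (le_max_right _ _) (by
      intro τ hτ1 hτ2
      have hτI : τ ∈ Set.Icc α β := ⟨(hmem _).1.trans hτ1, hτ2.trans (hmem _).2⟩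
      have hτc : |τ - c i| ≤ δ := by
        have := hmesh i
        rw [abs_le]; constructor <;> linarith [(hc i).1, (hc i).2]
      have hRR := abs_le.mp (hoscR τ hτI (c i) (hcm i) hτc)
      apply max_le
      · linarith [hRR.1]
      · exact hR0 τ hτI)
    have m1 := measure_mono (μ := μHE[2]) hup
    have m2 := measure_mono (μ := μHE[2]) hlo
    rw [harea i] at m1
    have ha2 := area_tri e a b (w (c i)) p₀ he ha hb (hw _ (hcm i)) h' (t i.castSucc) (t i.succ) (htlt i).le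
    have m2' : ENNReal.ofReal (κ * (t i.succ - t i.castSucc) * (h' ^ 2 / (2 * Real.sqrt (1 + ‖w (c i)‖ ^ 2)))) ≤ μHE[2] (proj (unitv (D i)) '' S) := by
      rw [← ha2]; exact m2
    have hfin : μHE[2] (proj (unitv (D i)) '' S) ≠ ⊤ := (lt_of_le_of_lt m1 ENNReal.ofReal_lt_top).ne
    have h3 := hqge i
    have n1 : (μHE[2] (proj (unitv (D i)) '' S)).toReal ≤ κ * (t i.succ - t i.castSucc) * (h i ^ 2 / (2 * Real.sqrt (1 + ‖w (c i)‖ ^ 2))) :=
      ENNReal.toReal_le_of_le_ofReal (by positivity) m1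
    have n2 : κ * (t i.succ - t i.castSucc) * (h' ^ 2 / (2 * Real.sqrt (1 + ‖w (c i)‖ ^ 2))) ≤ (μHE[2] (proj (unitv (D i)) '' S)).toReal :=
      (ENNReal.ofReal_le_iff_le_toReal hfin).mp m2'
    have u1 := num_up (R (c i)) (h i) B ε _ (hR0 _ (hcm i)) (hB _ (hcm i)) hεpos hε1 rfl (hqge i)
    have u2 := num_lo (R (c i)) h' B ε _ (hR0 _ (hcm i)) (hB _ (hcm i)) hεpos hε1 rfl (hqge i)
    have hpos : 0 < κ * (t i.succ - t i.castSucc) := by positivity
    have v1 := mul_le_mul_of_nonneg_left u1 hpos.le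
    have v2 := mul_le_mul_of_nonneg_left u2 hpos.le
    rw [abs_le]
    simp only [hf]
    constructor <;> nlinarith

end Crest.Agent.S0328
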