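import Mathlib

/-! Areas (Lebesgue-normalised 2-dimensional Hausdorff measure) of parallelograms and triangles in 3-space,
and the minimal projection of the regular tetrahedron. -/

set_option autoImplicit false
open MeasureTheory Set

namespace Crest.Agent.TetLib

abbrev E3 := EuclideanSpace ℝ (Fin 3)

/-- Gram area of two vectors. -/
noncomputable def gram (a b : E3) : ℝ := Real.sqrt (‖a‖ ^ 2 * ‖b‖ ^ 2 - inner ℝ a b ^ 2)

/-- affine parametrisation -/
noncomputable def pmap (p a b : E3) (z : ℝ × ℝ) : E3 := p + z.1 • a + z.2 • b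

lemma exists_unit_orth (u : E3) : ∃ e : E3, ‖e‖ = 1 ∧ inner ℝ u e = 0 := by
  have h1 : 0 < Module.finrank ℝ (ℝ ∙ u)ᗮ := by
    have h2 := Submodule.finrank_add_finrank_orthogonal (ℝ ∙ u)
    have h3 : Module.finrank ℝ E3 = 3 := by simp
    have h4 : Module.finrank ℝ (ℝ ∙ u) ≤ 1 := by
      have := finrank_span_le_card (R := ℝ) ({u} : Set E3)
      simpa using this
    omega
  obtain ⟨x, hx⟩ := Module.finrank_pos_iff_exists_ne_zero.mp h1
  have hx' : (x : E3) ≠ 0 := by simpa using hx
  have hn : ‖(x : E3)‖ ≠ 0 := by simpa using hx'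
  refine ⟨‖(x : E3)‖⁻¹ • (x : E3), ?_, ?_⟩
  · rw [norm_smul, norm_inv, norm_norm, inv_mul_cancel₀ hn]
  · rw [inner_smul_right]
    have := Submodule.mem_orthogonal_singleton_iff_inner_right.mp x.2
    rw [this, mul_zero]

lemma exists_frame (a b : E3) : ∃ (e f : E3) (α β γ : ℝ), ‖e‖ = 1 ∧ ‖f‖ = 1 ∧ inner ℝ e f = 0 ∧
    a = α • e ∧ b = β • e + γ • f := by
  obtain ⟨e, α, he, hae⟩ : ∃ (e : E3) (α : ℝ), ‖e‖ = 1 ∧ a = α • e := by
    by_cases ha : a = 0
    · obtain ⟨e, he, -⟩ := exists_unit_orth 0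
      exact ⟨e, 0, he, by simp [ha]⟩
    · have hn : ‖a‖ ≠ 0 := by simpa using ha
      refine ⟨‖a‖⁻¹ • a, ‖a‖, ?_, ?_⟩
      · rw [norm_smul, norm_inv, norm_norm, inv_mul_cancel₀ hn]
      · rw [smul_smul, mul_inv_cancel₀ hn, one_smul]
  set b' : E3 := b - inner ℝ e b • e with hb'
  have hort : inner ℝ e b' = 0 := by
    rw [hb', inner_sub_right, inner_smul_right, real_inner_self_eq_norm_sq, he]; ring
  obtain ⟨f, γ, hf, hef, hbf⟩ : ∃ (f : E3) (γ : ℝ), ‖f‖ = 1 ∧ inner ℝ e f = 0 ∧ b' = γ • f := by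
    by_cases hb0 : b' = 0
    · obtain ⟨f, hf, hef⟩ := exists_unit_orth e
      exact ⟨f, 0, hf, hef, by simp [hb0]⟩
    · have hn : ‖b'‖ ≠ 0 := by simpa using hb0
      refine ⟨‖b'‖⁻¹ • b', ‖b'‖, ?_, ?_, ?_⟩
      · rw [norm_smul, norm_inv, norm_norm, inv_mul_cancel₀ hn]
      · rw [inner_smul_right, hort, mul_zero]
      · rw [smul_smul, mul_inv_cancel₀ hn, one_smul]
  exact ⟨e, f, α, inner ℝ e b, γ, he, hf, hef, hae, by rw [← hbf, hb']; abel⟩

/-- The isometric embedding of the plane -/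
noncomputable def iota (p e f : E3) (z : EuclideanSpace ℝ (Fin 2)) : E3 := p + z 0 • e + z 1 • f

lemma iota_isometry (p e f : E3) (he : ‖e‖ = 1) (hf : ‖f‖ = 1) (hef : inner ℝ e f = 0) :
    Isometry (iota p e f) := by
  apply Isometry.of_dist_eq
  intro x y
  rw [dist_eq_norm, dist_eq_norm, EuclideanSpace.norm_eq (x - y)]
  have : iota p e f x - iota p e f y = (x 0 - y 0) • e + (x 1 - y 1) • f := by
    simp only [iota, sub_smul]; abel
  rw [this]
  rw [← Real.sqrt_sq (norm_nonneg ((x 0 - y 0) • e + (x 1 - y 1) • f))]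
  congr 1
  rw [norm_add_sq_real, norm_smul, norm_smul, he, hf, inner_smul_left, inner_smul_right, hef]
  simp [Fin.sum_univ_two]

lemma volume_euclid2 (S : Set (ℝ × ℝ)) :
    (volume : Measure (EuclideanSpace ℝ (Fin 2))) ((fun z : ℝ × ℝ => (WithLp.toLp 2 ![z.1, z.2] : EuclideanSpace ℝ (Fin 2))) '' S) = volume S := by
  have h1 : MeasurePreserving (fun z : ℝ × ℝ => (WithLp.toLp 2 ![z.1, z.2] : EuclideanSpace ℝ (Fin 2))) volume volume := by
    exact (PiLp.volume_preserving_toLp (Fin 2)).comp (volume_preserving_finTwoArrow ℝ).symm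
  let e : ℝ × ℝ ≃ᵐ EuclideanSpace ℝ (Fin 2) :=
    (MeasurableEquiv.finTwoArrow (α := ℝ)).symm.trans (MeasurableEquiv.toLp 2 (Fin 2 → ℝ))
  have he : (e : ℝ × ℝ → EuclideanSpace ℝ (Fin 2)) = (fun z : ℝ × ℝ => (WithLp.toLp 2 ![z.1, z.2] : EuclideanSpace ℝ (Fin 2))) := by
    rfl
  rw [← he] at h1 ⊢
  have h2 := h1.measure_preimage_equiv (e '' S)
  rw [← h2, Set.preimage_image_eq _ e.injective]

theorem area_pmap (p a b : E3) (S : Set (ℝ × ℝ)) :
    μHE[2] (pmap p a b '' S) = ENNReal.ofReal (gram a b) * volume S := by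
  obtain ⟨e, f, α, β, γ, he, hf, hef, ha, hb⟩ := exists_frame a b
  have hiso := iota_isometry p e f he hf hef
  set A : ℝ × ℝ →ₗ[ℝ] ℝ × ℝ := Matrix.toLin (Module.Basis.finTwoProd ℝ) (Module.Basis.finTwoProd ℝ) !![α, β; 0, γ] with hA
  have hAap : ∀ z : ℝ × ℝ, A z = (α * z.1 + β * z.2, γ * z.2) := by
    intro z
    rw [hA, Matrix.toLin_finTwoProd_apply]; simp
  have hdet : LinearMap.det A = α * γ := by
    rw [hA, LinearMap.det_toLin, Matrix.det_fin_two_of]; ring
  have himg : pmap p a b '' S = iota p e f '' ((fun z : ℝ × ℝ => (WithLp.toLp 2 ![z.1, z.2] : EuclideanSpace ℝ (Fin 2))) '' (A '' S)) := by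
    rw [← Set.image_comp, ← Set.image_comp]
    apply Set.image_congr
    intro z _
    simp only [Function.comp, hAap, iota, pmap, ha, hb]
    simp only [Matrix.cons_val_zero, Matrix.cons_val_one]
    module
  have hgram : gram a b = |α * γ| := by
    rw [gram, ha, hb, norm_smul, he, norm_add_sq_real, norm_smul, norm_smul, he, hf, inner_smul_left, inner_smul_right, hef,
      inner_smul_left, inner_add_right, inner_smul_right, inner_smul_right, hef, real_inner_self_eq_norm_sq, he]
    rw [← Real.sqrt_sq_eq_abs]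
    congr 1
    simp
    ring
  rw [himg, hiso.euclideanHausdorffMeasure_image, EuclideanSpace.euclideanHausdorffMeasure_eq_volume, volume_euclid2,
    Measure.addHaar_image_linearMap, hdet, hgram]

/-- the standard triangle in the plane -/
def stdTri : Set (ℝ × ℝ) := {z | 0 ≤ z.1 ∧ 0 ≤ z.2 ∧ z.1 + z.2 ≤ 1}

lemma measurableSet_stdTri : MeasurableSet stdTri := by
  apply IsClosed.measurableSet
  apply IsClosed.inter (isClosed_le continuous_const continuous_fst)
  apply IsClosed.inter (isClosed_le continuous_const continuous_snd)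
  exact isClosed_le (continuous_fst.add continuous_snd) continuous_const

lemma volume_stdTri : volume stdTri = ENNReal.ofReal (1 / 2) := by
  rw [Measure.volume_eq_prod, Measure.prod_apply measurableSet_stdTri]
  have h1 : ∀ x : ℝ, volume (Prod.mk x ⁻¹' stdTri) = (Set.Icc (0:ℝ) 1).indicator (fun x => ENNReal.ofReal (1 - x)) x := by
    intro x
    by_cases hx : x ∈ Set.Icc (0:ℝ) 1
    · rw [Set.indicator_of_mem hx]
      have : Prod.mk x ⁻¹' stdTri = Set.Icc 0 (1 - x) := by
        ext y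
        simp only [stdTri, Set.mem_preimage, Set.mem_ofPred_eq, Set.mem_Icc]
        constructor
        · rintro ⟨_, h2, h3⟩; exact ⟨h2, by linarith⟩
        · rintro ⟨h2, h3⟩; exact ⟨hx.1, h2, by linarith⟩
      rw [this, Real.volume_Icc, sub_zero]
    · rw [Set.indicator_of_notMem hx]
      have : Prod.mk x ⁻¹' stdTri = ∅ := by
        ext y
        simp only [stdTri, Set.mem_preimage, Set.mem_ofPred_eq, Set.mem_empty_iff_false, iff_false]
        rintro ⟨h1, h2, h3⟩
        exact hx ⟨h1, by linarith⟩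
      rw [this, measure_empty]
  simp_rw [h1]
  rw [lintegral_indicator measurableSet_Icc]
  rw [← ofReal_integral_eq_lintegral_ofReal]
  · congr 1
    rw [MeasureTheory.integral_Icc_eq_integral_Ioc, ← intervalIntegral.integral_of_le zero_le_one]
    rw [intervalIntegral.integral_sub (by simp) (by simp)]
    simp
    norm_num
  · apply Continuous.integrableOn_Icc
    fun_prop
  · rw [Filter.EventuallyLE, ae_restrict_iff' measurableSet_Icc]
    filter_upwards with x hx
    simp only [Pi.zero_apply]; linarith [hx.2]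

lemma convexHull_triple (p q r : E3) :
    convexHull ℝ ({p, q, r} : Set E3) = pmap p (q - p) (r - p) '' stdTri := by
  apply Set.Subset.antisymm
  · apply convexHull_min
    · intro x hx
      simp only [Set.mem_insert_iff, Set.mem_singleton_iff] at hx
      rcases hx with rfl | rfl | rfl
      · exact ⟨(0, 0), ⟨le_rfl, le_rfl, by norm_num⟩, by simp [pmap]⟩
      · exact ⟨(1, 0), ⟨zero_le_one, le_rfl, by norm_num⟩, by simp [pmap]⟩
      · exact ⟨(0, 1), ⟨le_rfl, zero_le_one, by norm_num⟩, by simp [pmap]⟩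
    · rintro _ ⟨z, hz, rfl⟩ _ ⟨w, hw, rfl⟩ a b ha hb hab
      refine ⟨(a * z.1 + b * w.1, a * z.2 + b * w.2), ⟨?_, ?_, ?_⟩, ?_⟩
      · have := hz.1; have := hw.1; positivity
      · have := hz.2.1; have := hw.2.1; positivity
      · have h1 := mul_le_mul_of_nonneg_left hz.2.2 ha
        have h2 := mul_le_mul_of_nonneg_left hw.2.2 hb
        simp only; linarith
      · simp only [pmap]
        have : p = a • p + b • p := by rw [← add_smul, hab, one_smul]
        nth_rewrite 1 [this]
        module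
  · rintro _ ⟨z, ⟨h1, h2, h3⟩, rfl⟩
    have hp : p ∈ convexHull ℝ ({p, q, r} : Set E3) := subset_convexHull _ _ (by simp)
    have hq : q ∈ convexHull ℝ ({p, q, r} : Set E3) := subset_convexHull _ _ (by simp)
    have hr : r ∈ convexHull ℝ ({p, q, r} : Set E3) := subset_convexHull _ _ (by simp)
    have := (convex_convexHull ℝ ({p, q, r} : Set E3)).sum_mem (t := Finset.univ) (w := ![1 - z.1 - z.2, z.1, z.2]) (z := ![p, q, r]) ?_ ?_ ?_
    · simp only [Fin.sum_univ_three, Matrix.cons_val_zero, Matrix.cons_val_one, Matrix.cons_val_two, Matrix.tail_cons, Matrix.head_cons] at this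
      convert this using 1
      simp only [pmap]
      module
    · intro i _; fin_cases i
      · simp; linarith
      · simpa using h1
      · simpa using h2
    · simp [Fin.sum_univ_three]; ring
    · intro i _; fin_cases i
      · simpa using hp
      · simpa using hq
      · simpa using hr

lemma gram_nonneg (a b : E3) : 0 ≤ gram a b := Real.sqrt_nonneg _

lemma area_triangle (p q r : E3) :
    μHE[2] (convexHull ℝ ({p, q, r} : Set E3)) = ENNReal.ofReal (gram (q - p) (r - p) / 2) := by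
  rw [convexHull_triple, area_pmap, volume_stdTri, ← ENNReal.ofReal_mul (gram_nonneg _ _)]
  congr 1; ring

lemma area_triangle_toReal (p q r : E3) :
    (μHE[2] (convexHull ℝ ({p, q, r} : Set E3))).toReal = gram (q - p) (r - p) / 2 := by
  rw [area_triangle, ENNReal.toReal_ofReal (div_nonneg (gram_nonneg _ _) (by norm_num))]


/-- scalar triple product -/
def det3 (a b c : E3) : ℝ :=
  a 0 * (b 1 * c 2 - b 2 * c 1) - a 1 * (b 0 * c 2 - b 2 * c 0) + a 2 * (b 0 * c 1 - b 1 * c 0)

/-- orthogonal projection along `v` -/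
noncomputable def proj (v y : E3) : E3 := y - inner ℝ y v • v

lemma inner_e3 (a b : E3) : inner ℝ a b = a 0 * b 0 + a 1 * b 1 + a 2 * b 2 := by
  simp [PiLp.inner_apply, Fin.sum_univ_three]; ring

lemma norm_sq_e3 (a : E3) : ‖a‖ ^ 2 = a 0 ^ 2 + a 1 ^ 2 + a 2 ^ 2 := by
  rw [← real_inner_self_eq_norm_sq, inner_e3]; ring

lemma gram_proj (v a b : E3) (hv : ‖v‖ = 1) : gram (proj v a) (proj v b) = |det3 a b v| := by
  have h1 : v 0 ^ 2 + v 1 ^ 2 + v 2 ^ 2 = 1 := by rw [← norm_sq_e3, hv]; norm_num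
  rw [gram, ← Real.sqrt_sq_eq_abs]
  congr 1
  rw [norm_sq_e3, norm_sq_e3, inner_e3]
  simp only [proj, inner_e3, PiLp.sub_apply, PiLp.smul_apply, smul_eq_mul, det3]
  set x := v 0
  set y := v 1
  set z := v 2
  have hz : z ^ 2 = 1 - x ^ 2 - y ^ 2 := by linarith
  set a0 := a 0
  set a1 := a 1
  set a2 := a 2
  set b0 := b 0
  set b1 := b 1
  set b2 := b 2
  set p := a0 * x + a1 * y + a2 * z with hp
  set q := b0 * x + b1 * y + b2 * z with hq
  have e1 : (a0 - p * x) ^ 2 + (a1 - p * y) ^ 2 + (a2 - p * z) ^ 2 = a0 ^ 2 + a1 ^ 2 + a2 ^ 2 - p ^ 2 := by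
    have : (a0 - p * x) ^ 2 + (a1 - p * y) ^ 2 + (a2 - p * z) ^ 2 = a0 ^ 2 + a1 ^ 2 + a2 ^ 2 - 2 * p * (a0 * x + a1 * y + a2 * z) + p ^ 2 * (x ^ 2 + y ^ 2 + z ^ 2) := by ring
    rw [this, h1, ← hp]; ring
  have e2 : (b0 - q * x) ^ 2 + (b1 - q * y) ^ 2 + (b2 - q * z) ^ 2 = b0 ^ 2 + b1 ^ 2 + b2 ^ 2 - q ^ 2 := by
    have : (b0 - q * x) ^ 2 + (b1 - q * y) ^ 2 + (b2 - q * z) ^ 2 = b0 ^ 2 + b1 ^ 2 + b2 ^ 2 - 2 * q * (b0 * x + b1 * y + b2 * z) + q ^ 2 * (x ^ 2 + y ^ 2 + z ^ 2) := by ring
    rw [this, h1, ← hq]; ring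
  have e3 : (a0 - p * x) * (b0 - q * x) + (a1 - p * y) * (b1 - q * y) + (a2 - p * z) * (b2 - q * z) = a0 * b0 + a1 * b1 + a2 * b2 - p * q := by
    have : (a0 - p * x) * (b0 - q * x) + (a1 - p * y) * (b1 - q * y) + (a2 - p * z) * (b2 - q * z)
      = a0 * b0 + a1 * b1 + a2 * b2 - q * (a0 * x + a1 * y + a2 * z) - p * (b0 * x + b1 * y + b2 * z) + p * q * (x ^ 2 + y ^ 2 + z ^ 2) := by ring
    rw [this, h1, ← hp, ← hq]; ring
  rw [e1, e2, e3]
  -- Cauchy-Binet
  have key : (a0 * (b1 * z - b2 * y) - a1 * (b0 * z - b2 * x) + a2 * (b0 * y - b1 * x)) ^ 2 =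
      (a0 ^ 2 + a1 ^ 2 + a2 ^ 2) * (b0 ^ 2 + b1 ^ 2 + b2 ^ 2) * (x ^ 2 + y ^ 2 + z ^ 2)
      + 2 * (a0 * b0 + a1 * b1 + a2 * b2) * (a0 * x + a1 * y + a2 * z) * (b0 * x + b1 * y + b2 * z)
      - (a0 ^ 2 + a1 ^ 2 + a2 ^ 2) * (b0 * x + b1 * y + b2 * z) ^ 2
      - (b0 ^ 2 + b1 ^ 2 + b2 ^ 2) * (a0 * x + a1 * y + a2 * z) ^ 2
      - (x ^ 2 + y ^ 2 + z ^ 2) * (a0 * b0 + a1 * b1 + a2 * b2) ^ 2 := by ring
  rw [key, h1, ← hp, ← hq]
  ring

lemma proj_add (v a b : E3) : proj v (a + b) = proj v a + proj v b := by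
  simp only [proj, inner_add_left]; module

lemma proj_smul (v a : E3) (t : ℝ) : proj v (t • a) = t • proj v a := by
  simp only [proj, inner_smul_left, conj_trivial]; module

lemma proj_sub (v a b : E3) : proj v (a - b) = proj v a - proj v b := by
  simp only [proj, inner_sub_left]; module

lemma proj_self (v : E3) (hv : ‖v‖ = 1) : proj v v = 0 := by
  simp only [proj, real_inner_self_eq_norm_sq, hv]; simp

lemma det3_cramer (x y w v : E3) :
    det3 x y v • w = det3 w y v • x + det3 x w v • y + det3 x y w • v := by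
  ext i
  simp only [PiLp.add_apply, PiLp.smul_apply, smul_eq_mul, det3]
  fin_cases i <;> simp <;> ring

lemma proj_pmap (v p a b : E3) (z : ℝ × ℝ) : proj v (pmap p a b z) = pmap (proj v p) (proj v a) (proj v b) z := by
  simp only [pmap, proj_add, proj_smul]

lemma pmap_mem {K : Set E3} (hK : Convex ℝ K) {A B C : E3} (hA : A ∈ K) (hB : B ∈ K) (hC : C ∈ K)
    {z : ℝ × ℝ} (hz : z ∈ stdTri) : pmap A (B - A) (C - A) z ∈ K := by
  have h : pmap A (B - A) (C - A) z ∈ convexHull ℝ ({A, B, C} : Set E3) := by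
    rw [convexHull_triple]; exact ⟨z, hz, rfl⟩
  refine convexHull_min ?_ hK h
  intro x hx
  simp only [Set.mem_insert_iff, Set.mem_singleton_iff] at hx
  rcases hx with rfl | rfl | rfl <;> assumption

/-- a triangle in `K` gives a lower bound for the area of the projection -/
lemma proj_area_ge_tri {K : Set E3} (hK : Convex ℝ K) {A B C v : E3} (hv : ‖v‖ = 1)
    (hA : A ∈ K) (hB : B ∈ K) (hC : C ∈ K) :
    ENNReal.ofReal (|det3 (B - A) (C - A) v| / 2) ≤ μHE[2] (proj v '' K) := by
  have h1 : pmap (proj v A) (proj v (B - A)) (proj v (C - A)) '' stdTri ⊆ proj v '' K := by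
    rintro _ ⟨z, hz, rfl⟩
    exact ⟨_, pmap_mem hK hA hB hC hz, proj_pmap _ _ _ _ _⟩
  refine le_trans (le_of_eq ?_) (measure_mono h1)
  rw [area_pmap, volume_stdTri, ← ENNReal.ofReal_mul (gram_nonneg _ _), gram_proj _ _ _ hv]
  congr 1; ring

lemma volume_axis : volume {z : ℝ × ℝ | z.2 = 0} = 0 := by
  have : {z : ℝ × ℝ | z.2 = 0} = Set.univ ×ˢ {(0:ℝ)} := by
    ext z; simp
  rw [this, Measure.volume_eq_prod, Measure.prod_prod]; simp

/-- two opposite edges give a lower bound for the area of the projection -/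
lemma proj_area_ge_quad {K : Set E3} (hK : Convex ℝ K) {A B C D v : E3} (hv : ‖v‖ = 1)
    (hA : A ∈ K) (hB : B ∈ K) (hC : C ∈ K) (hD : D ∈ K) :
    ENNReal.ofReal (|det3 (B - A) (D - C) v| / 2) ≤ μHE[2] (proj v '' K) := by
  have hdiff : det3 (B - A) (D - C) v = det3 (B - A) (D - A) v - det3 (B - A) (C - A) v := by
    simp only [det3, PiLp.sub_apply]; ring
  set dC := det3 (B - A) (C - A) v with hdC
  set dD := det3 (B - A) (D - A) v with hdD
  by_cases hs : 0 ≤ dC * dD
  · -- same side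
    have hm : |dD - dC| ≤ max |dD| |dC| := by
      rcases le_total 0 dC with hc | hc <;> rcases le_total 0 dD with hd | hd
      · rw [abs_of_nonneg hc, abs_of_nonneg hd, abs_le]
        constructor
        · have := le_max_right dD dC; linarith
        · have := le_max_left dD dC; linarith
      · have h0 : dC * dD = 0 := le_antisymm (mul_nonpos_of_nonneg_of_nonpos hc hd) hs
        rcases mul_eq_zero.mp h0 with h | h <;> simp [h]
      · have h0 : dC * dD = 0 := le_antisymm (mul_nonpos_of_nonpos_of_nonneg hc hd) hs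
        rcases mul_eq_zero.mp h0 with h | h <;> simp [h]
      · rw [abs_of_nonpos hc, abs_of_nonpos hd, abs_le]
        constructor
        · have := le_max_left (-dD) (-dC); linarith
        · have := le_max_right (-dD) (-dC); linarith
    rw [hdiff]
    rcases le_max_iff.mp hm with h | h
    · exact le_trans (ENNReal.ofReal_le_ofReal (by linarith)) (proj_area_ge_tri hK hv hA hB hD)
    · exact le_trans (ENNReal.ofReal_le_ofReal (by linarith)) (proj_area_ge_tri hK hv hA hB hC)
  · push Not at hs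
    have hC0 : dC ≠ 0 := by rintro h; rw [h, zero_mul] at hs; exact lt_irrefl _ hs
    -- coordinates of D in the frame (B-A, C-A)
    set α := det3 (D - A) (C - A) v / dC with hα
    set β := dD / dC with hβ
    have hβneg : β < 0 := by
      rw [hβ]
      have : dD / dC = dC * dD / dC ^ 2 := by field_simp
      rw [this]
      exact div_neg_of_neg_of_pos hs (by positivity)
    have hcr : proj v (D - A) = α • proj v (B - A) + β • proj v (C - A) := by
      have h := det3_cramer (B - A) (C - A) (D - A) v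
      have h2 := congrArg (proj v) h
      rw [proj_add, proj_add, proj_smul, proj_smul, proj_smul, proj_smul, proj_self v hv, smul_zero, add_zero] at h2
      rw [← hdC, ← hdD] at h2
      have h3 := congrArg (fun u => dC⁻¹ • u) h2
      simp only [smul_smul, smul_add] at h3
      rw [inv_mul_cancel₀ hC0, one_smul] at h3
      rw [h3, hα, hβ]
      congr 2 <;> ring
    set T2 : Set (ℝ × ℝ) := (fun z : ℝ × ℝ => (z.1 + α * z.2, β * z.2)) '' stdTri with hT2
    have hsub : pmap (proj v A) (proj v (B - A)) (proj v (C - A)) '' (stdTri ∪ T2) ⊆ proj v '' K := by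
      rw [Set.image_union]
      apply Set.union_subset
      · rintro _ ⟨z, hz, rfl⟩
        exact ⟨_, pmap_mem hK hA hB hC hz, proj_pmap _ _ _ _ _⟩
      · rintro _ ⟨_, ⟨z, hz, rfl⟩, rfl⟩
        refine ⟨_, pmap_mem hK hA hB hD hz, ?_⟩
        rw [proj_pmap, hcr]
        simp only [pmap]
        module
    refine le_trans (le_of_eq ?_) (measure_mono hsub)
    rw [area_pmap, gram_proj _ _ _ hv, ← hdC]
    have hvT2 : volume T2 = ENNReal.ofReal (-β / 2) := by
      set L : ℝ × ℝ →ₗ[ℝ] ℝ × ℝ := Matrix.toLin (Module.Basis.finTwoProd ℝ) (Module.Basis.finTwoProd ℝ) !![1, α; 0, β] with hL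
      have hLap : ∀ z : ℝ × ℝ, L z = (z.1 + α * z.2, β * z.2) := by
        intro z
        rw [hL, Matrix.toLin_finTwoProd_apply]; simp
      have hdet : LinearMap.det L = β := by
        rw [hL, LinearMap.det_toLin, Matrix.det_fin_two_of]; ring
      have : T2 = L '' stdTri := by
        rw [hT2]; apply Set.image_congr; intro z _; rw [hLap]
      rw [this, Measure.addHaar_image_linearMap, hdet, volume_stdTri, ← ENNReal.ofReal_mul (abs_nonneg _), abs_of_neg hβneg]
      congr 1; ring
    have hinter : volume (stdTri ∩ T2) = 0 := by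
      apply measure_mono_null _ volume_axis
      rintro z ⟨hz, ⟨w, hw, rfl⟩⟩
      have h1 : 0 ≤ β * w.2 := hz.2.1
      have h2 : 0 ≤ w.2 := hw.2.1
      have h3 : β * w.2 ≤ 0 := mul_nonpos_of_nonpos_of_nonneg hβneg.le h2
      exact le_antisymm h3 h1
    have hT2m : MeasurableSet T2 := by
      have hc : IsCompact stdTri := by
        have : stdTri ⊆ Set.Icc (0:ℝ) 1 ×ˢ Set.Icc (0:ℝ) 1 := by
          rintro z ⟨h1, h2, h3⟩
          exact ⟨⟨h1, by linarith⟩, ⟨h2, by linarith⟩⟩
        have hcl : IsClosed stdTri := by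
          apply IsClosed.inter (isClosed_le continuous_const continuous_fst)
          apply IsClosed.inter (isClosed_le continuous_const continuous_snd)
          exact isClosed_le (continuous_fst.add continuous_snd) continuous_const
        exact (isCompact_Icc.prod isCompact_Icc).of_isClosed_subset hcl this
      exact (hc.image (by fun_prop)).measurableSet
    have hun : volume (stdTri ∪ T2) = ENNReal.ofReal (1 / 2 - β / 2) := by
      have := measure_union_add_inter (μ := (volume : Measure (ℝ × ℝ))) stdTri hT2m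
      rw [hinter, add_zero, volume_stdTri, hvT2, ← ENNReal.ofReal_add (by norm_num) (by linarith)] at this
      rw [this]; congr 1; ring
    rw [hun, ← ENNReal.ofReal_mul (abs_nonneg _), hdiff]
    congr 1
    have hab : |dD - dC| = |dC| - |dC| * β := by
      have h1 : dD = β * dC := by rw [hβ]; field_simp
      have h2 : dD - dC = dC * (β - 1) := by rw [h1]; ring
      rw [h2, abs_mul, abs_of_neg (by linarith : β - 1 < 0)]; ring
    rw [hab]; ring

/-- the tetrahedron -/
noncomputable def K : Set E3 :=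
  convexHull ℝ {!₂[1, 0, 0], !₂[-1, 0, 0], !₂[0, 1, Real.sqrt 2], !₂[0, -1, Real.sqrt 2]}

lemma proj_area_ge (v : E3) (hv : ‖v‖ = 1) :
    ENNReal.ofReal (Real.sqrt 2) ≤ μHE[2] (proj v '' K) := by
  have hK : Convex ℝ K := convex_convexHull _ _
  have m1 : (!₂[1, 0, 0] : E3) ∈ K := subset_convexHull _ _ (by simp)
  have m2 : (!₂[-1, 0, 0] : E3) ∈ K := subset_convexHull _ _ (by simp)
  have m3 : (!₂[0, 1, Real.sqrt 2] : E3) ∈ K := subset_convexHull _ _ (by simp)
  have m4 : (!₂[0, -1, Real.sqrt 2] : E3) ∈ K := subset_convexHull _ _ (by simp)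
  have h1 : v 0 ^ 2 + v 1 ^ 2 + v 2 ^ 2 = 1 := by rw [← norm_sq_e3, hv]; norm_num
  by_contra hcon
  push Not at hcon
  have hlt : ∀ t : ℝ, ENNReal.ofReal (|t| / 2) ≤ μHE[2] (proj v '' K) → |t| < 2 * Real.sqrt 2 := by
    intro t ht
    by_contra h
    push Not at h
    have := lt_of_le_of_lt ht hcon
    rw [ENNReal.ofReal_lt_ofReal_iff (by positivity)] at this
    linarith
  have q1 := hlt _ (proj_area_ge_quad hK hv m1 m2 m3 m4)
  have q2 := hlt _ (proj_area_ge_quad hK hv m1 m3 m2 m4)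
  have q3 := hlt _ (proj_area_ge_quad hK hv m1 m4 m2 m3)
  have t1 := hlt _ (proj_area_ge_tri hK hv m1 m2 m3)
  have t2 := hlt _ (proj_area_ge_tri hK hv m1 m2 m4)
  have t3 := hlt _ (proj_area_ge_tri hK hv m3 m4 m1)
  have t4 := hlt _ (proj_area_ge_tri hK hv m3 m4 m2)
  simp only [det3, PiLp.sub_apply] at q1 q2 q3 t1 t2 t3 t4
  simp at q1 q2 q3 t1 t2 t3 t4
  set x := v 0
  set y := v 1
  set z := v 2
  set s := Real.sqrt 2 with hs
  have hs2 : s ^ 2 = 2 := Real.sq_sqrt (by norm_num)
  have hs0 : 0 < s := Real.sqrt_pos.mpr (by norm_num)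
  have hm2 : |(-1:ℝ) - 1| = 2 := by norm_num
  rw [hm2] at q1 t1 t2 t3 t4
  have e2 : s * y + z - (z - s * x) + s * (y + x) = (2 * s) * (x + y) := by ring
  have e3 : s * y - s * x + s * (y - x) = (2 * s) * (y - x) := by ring
  rw [e2, abs_mul, abs_of_pos (by positivity : 0 < 2 * s)] at q2
  rw [e3, abs_mul, abs_of_pos (by positivity : 0 < 2 * s)] at q3
  have q2' : |x + y| < 1 := by
    by_contra h
    push Not at h
    have := mul_le_mul_of_nonneg_left h (by positivity : 0 ≤ 2 * s)
    linarith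
  have q3' : |y - x| < 1 := by
    by_contra h
    push Not at h
    have := mul_le_mul_of_nonneg_left h (by positivity : 0 ≤ 2 * s)
    linarith
  have k1 : (x + y) ^ 2 ≤ |x + y| := by
    have h1 := abs_nonneg (x + y)
    have h2 := sq_abs (x + y)
    nlinarith
  have k2 : (y - x) ^ 2 ≤ |y - x| := by
    have h1 := abs_nonneg (y - x)
    have h2 := sq_abs (y - x)
    nlinarith
  have k3 : z ^ 2 ≤ |z| * (s / 2) := by
    have h1 := abs_nonneg z
    have h2 := sq_abs z
    nlinarith
  have k4 : 1 ≤ (|x + y| + |y - x|) / 2 + |z| * (s / 2) := by nlinarith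
  have k5 : s ≤ s * ((|x + y| + |y - x|) / 2) + |z| := by
    have := mul_le_mul_of_nonneg_left k4 hs0.le
    have h2 : s * (|z| * (s / 2)) = |z| := by
      have : s * (|z| * (s / 2)) = |z| * (s ^ 2 / 2) := by ring
      rw [this, hs2]; ring
    linarith
  have k6 : s * ((|x + y| + |y - x|) / 2) + |z| < s := by
    have t1' := abs_lt.mp (show |z - s * y| < s by linarith)
    have t2' := abs_lt.mp (show |-z - s * y| < s by linarith)
    have t3' := abs_lt.mp (show |z + s * x| < s by linarith)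
    have t4' := abs_lt.mp (show |-z + s * x| < s by linarith)
    rcases abs_cases (x + y) with ⟨h1, -⟩ | ⟨h1, -⟩ <;> rcases abs_cases (y - x) with ⟨h2, -⟩ | ⟨h2, -⟩ <;>
      rcases abs_cases z with ⟨h3, -⟩ | ⟨h3, -⟩ <;> rw [h1, h2, h3] <;> linarith [t1'.1, t1'.2, t2'.1, t2'.2, t3'.1, t3'.2, t4'.1, t4'.2]
  linarith

lemma proj_area_eq : μHE[2] (proj !₂[1, 0, 0] '' K) = ENNReal.ofReal (Real.sqrt 2) := by
  have hs2 : Real.sqrt 2 ^ 2 = 2 := Real.sq_sqrt (by norm_num)
  have hs0 : 0 < Real.sqrt 2 := Real.sqrt_pos.mpr (by norm_num)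
  apply le_antisymm
  · have hsub : proj !₂[1, 0, 0] '' K ⊆ convexHull ℝ ({!₂[0, 0, 0], !₂[0, 1, Real.sqrt 2], !₂[0, -1, Real.sqrt 2]} : Set E3) := by
      rw [Set.image_subset_iff]
      apply convexHull_min
      · intro x hx
        simp only [Set.mem_insert_iff, Set.mem_singleton_iff] at hx
        have hmem : proj !₂[1, 0, 0] x ∈ ({!₂[0, 0, 0], !₂[0, 1, Real.sqrt 2], !₂[0, -1, Real.sqrt 2]} : Set E3) := by
          rcases hx with rfl | rfl | rfl | rfl
          · left; ext i; fin_cases i <;> simp [proj, norm_sq_e3]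
          · left; ext i; fin_cases i <;> simp [proj, inner_e3]
          · right; left; ext i; fin_cases i <;> simp [proj, inner_e3]
          · right; right; rw [Set.mem_singleton_iff]; ext i; fin_cases i <;> simp [proj, inner_e3]
        exact subset_convexHull _ _ hmem
      · intro x hx y hy a b ha hb hab
        rw [Set.mem_preimage, proj_add, proj_smul, proj_smul]
        exact convex_convexHull ℝ _ hx hy ha hb hab
    refine le_trans (measure_mono hsub) ?_
    rw [area_triangle]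
    apply ENNReal.ofReal_le_ofReal
    have : gram (!₂[0, 1, Real.sqrt 2] - !₂[0, 0, 0] : E3) (!₂[0, -1, Real.sqrt 2] - !₂[0, 0, 0]) = 2 * Real.sqrt 2 := by
      rw [gram, norm_sq_e3, norm_sq_e3, inner_e3]
      rw [show (2 * Real.sqrt 2) = Real.sqrt ((2 * Real.sqrt 2) ^ 2) from (Real.sqrt_sq (by positivity)).symm]
      congr 1
      simp
      nlinarith
    rw [this]; linarith
  · apply proj_area_ge
    rw [EuclideanSpace.norm_eq]; simp [Fin.sum_univ_three]

/-- an orthonormal frame starting with a given unit vector -/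
lemma exists_onb (v : E3) (hv : ‖v‖ = 1) : ∃ e f : E3, ‖e‖ = 1 ∧ ‖f‖ = 1 ∧ inner ℝ e f = 0 ∧
    inner ℝ e v = 0 ∧ inner ℝ f v = 0 ∧ ∀ y : E3, y = inner ℝ y v • v + inner ℝ y e • e + inner ℝ y f • f := by
  have horth : Orthonormal ℝ (({0} : Set (Fin 3)).domRestrict (fun _ : Fin 3 => v)) := by
    constructor
    · intro i; exact hv
    · rintro ⟨i, hi⟩ ⟨j, hj⟩ hij
      exfalso
      simp only [Set.mem_singleton_iff] at hi hj
      subst hi; subst hj
      exact hij rfl
  obtain ⟨b, hb⟩ := horth.exists_orthonormalBasis_extension_of_card_eq (by simp)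
  have hb0 : b 0 = v := hb 0 (by simp)
  refine ⟨b 1, b 2, b.norm_eq_one 1, b.norm_eq_one 2, b.inner_eq_zero (by decide), ?_, ?_, ?_⟩
  · rw [← hb0]; exact b.inner_eq_zero (by decide)
  · rw [← hb0]; exact b.inner_eq_zero (by decide)
  · intro y
    have h := b.sum_repr' y
    rw [Fin.sum_univ_three] at h
    nth_rewrite 1 [← h]
    rw [hb0, real_inner_comm y v, real_inner_comm y (b 1), real_inner_comm y (b 2)]

lemma proj_eq_frame {v e f : E3} (h : ∀ y : E3, y = inner ℝ y v • v + inner ℝ y e • e + inner ℝ y f • f) (y : E3) :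
    proj v y = inner ℝ y e • e + inner ℝ y f • f := by
  rw [proj]; nth_rewrite 1 [h y]; abel

lemma gram_orthonormal {e f : E3} (he : ‖e‖ = 1) (hf : ‖f‖ = 1) (hef : inner ℝ e f = 0) : gram e f = 1 := by
  rw [gram, he, hf, hef]; simp

/-- projections of bounded sets have finite area -/
lemma proj_bounded_lt_top (v : E3) (hv : ‖v‖ = 1) (S : Set E3) (hS : Bornology.IsBounded S) :
    μHE[2] (proj v '' S) < ⊤ := by
  obtain ⟨e, f, he, hf, hef, -, -, hy⟩ := exists_onb v hv
  obtain ⟨R, hR⟩ := hS.exists_norm_le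
  have hsub : proj v '' S ⊆ pmap 0 e f '' (Set.Icc (-R) R ×ˢ Set.Icc (-R) R) := by
    rintro _ ⟨y, hyS, rfl⟩
    refine ⟨(inner ℝ y e, inner ℝ y f), ⟨?_, ?_⟩, ?_⟩
    · have := abs_real_inner_le_norm y e
      rw [he, mul_one] at this
      exact abs_le.mp (this.trans (hR y hyS))
    · have := abs_real_inner_le_norm y f
      rw [hf, mul_one] at this
      exact abs_le.mp (this.trans (hR y hyS))
    · rw [proj_eq_frame hy]; simp [pmap]
  refine lt_of_le_of_lt (measure_mono hsub) ?_
  rw [area_pmap]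
  apply ENNReal.mul_lt_top ENNReal.ofReal_lt_top
  rw [Measure.volume_eq_prod, Measure.prod_prod]
  exact ENNReal.mul_lt_top (by simp) (by simp)

lemma isBounded_K : Bornology.IsBounded K := by
  rw [K, isBounded_convexHull]
  exact (Set.toFinite _).isBounded


end Crest.Agent.TetLib
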