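import Crest.Statements.S0329
import Crest.Agent.RuledCover
import Crest.Agent.TetLib

set_option autoImplicit false
open MeasureTheory
open scoped ENNReal
open Crest Crest.GeometryTopology Crest.GeometryTopology.Convex

namespace Crest.Agent.S0329

open Crest.Agent.RuledCover Crest.Agent.TetLib

/-- (x, ξ) ↦ (x, ξ₁, h ξ₂) -/
noncomputable def emb (h : ℝ) (x : ℝ) (ξ : E2) : E3 := !₂[x, ξ 0, h * ξ 1]

/-- direction -/
noncomputable def dir (h : ℝ) (g : E2) : E3 := J h g • emb h 1 g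

lemma J_sq (h : ℝ) (g : E2) : J h g ^ 2 * (1 + (g 0) ^ 2 + h ^ 2 * (g 1) ^ 2) = 1 := by
  unfold J
  rw [div_pow, Real.sq_sqrt (J_arg_pos h g).le, one_pow, one_div, inv_mul_cancel₀ (J_arg_pos h g).ne']

lemma dir_coords (h : ℝ) (g : E2) : dir h g 0 = J h g ∧ dir h g 1 = J h g * g 0 ∧ dir h g 2 = J h g * (h * g 1) := by
  refine ⟨?_, ?_, ?_⟩ <;> simp [dir, emb]

lemma norm_dir (h : ℝ) (g : E2) : ‖dir h g‖ = 1 := by
  have h1 : ‖dir h g‖ ^ 2 = 1 := by
    obtain ⟨d0, d1, d2⟩ := dir_coords h g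
    rw [norm_sq_e3, d0, d1, d2]
    have := J_sq h g
    linear_combination this
  nlinarith [norm_nonneg (dir h g)]

/-- oblique coordinates -/
noncomputable def X (g : E2) (z : E3) : ℝ := z 1 - z 0 * g 0
noncomputable def Y (h : ℝ) (g : E2) (z : E3) : ℝ := z 2 / h - z 0 * g 1

lemma continuous_X (g : E2) : Continuous (X g) := by unfold X; fun_prop
lemma continuous_Y (h : ℝ) (g : E2) : Continuous (Y h g) := by unfold Y; fun_prop

lemma X_add_dir (h : ℝ) (g : E2) (z : E3) (t : ℝ) : X g (z + t • dir h g) = X g z := by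
  obtain ⟨d0, d1, d2⟩ := dir_coords h g
  simp only [X, PiLp.add_apply, PiLp.smul_apply, smul_eq_mul, d0, d1]; ring

lemma Y_add_dir (h : ℝ) (hh : 0 < h) (g : E2) (z : E3) (t : ℝ) : Y h g (z + t • dir h g) = Y h g z := by
  obtain ⟨d0, d1, d2⟩ := dir_coords h g
  simp only [Y, PiLp.add_apply, PiLp.smul_apply, smul_eq_mul, d0, d2]
  field_simp
  ring

/-- the open base -/
noncomputable def Obase (h : ℝ) (g c : E2) (s θ : ℝ) : Set E3 :=
  {z | (-(θ * s) < X g z - c 0 ∧ X g z - c 0 < s + θ * s) ∧ (-(θ * s) < Y h g z - c 1 ∧ Y h g z - c 1 < s + θ * s)}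

lemma isOpen_Obase (h : ℝ) (g c : E2) (s θ : ℝ) : IsOpen (Obase h g c s θ) := by
  have hX := (continuous_X g).sub (continuous_const (y := c 0))
  have hY := (continuous_Y h g).sub (continuous_const (y := c 1))
  exact ((isOpen_lt continuous_const hX).inter (isOpen_lt hX continuous_const)).inter
    ((isOpen_lt continuous_const hY).inter (isOpen_lt hY continuous_const))

lemma emb_XY (h : ℝ) (hh : 0 < h) (g : E2) (z : E3) :
    z = emb h 0 !₂[X g z, Y h g z] + (z 0 / J h g) • dir h g := by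
  obtain ⟨d0, d1, d2⟩ := dir_coords h g
  have hJ := (J_pos h g).ne'
  ext i
  fin_cases i
  · simp only [PiLp.add_apply, PiLp.smul_apply, smul_eq_mul]
    show z 0 = emb h 0 !₂[X g z, Y h g z] 0 + (z 0 / J h g) * dir h g 0
    rw [d0]; simp [emb]; field_simp
  · show z 1 = emb h 0 !₂[X g z, Y h g z] 1 + (z 0 / J h g) * dir h g 1
    rw [d1]; simp [emb, X]; field_simp; ring
  · show z 2 = emb h 0 !₂[X g z, Y h g z] 2 + (z 0 / J h g) * dir h g 2
    rw [d2]; simp [emb, Y]; field_simp; ring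

lemma base_eq (h : ℝ) (hh : 0 < h) (g c : E2) (s θ : ℝ) :
    Obase h g c s θ ∩ {x | inner ℝ x (dir h g) = 0} =
      pmap (proj (dir h g) (emb h 0 !₂[c 0 - θ * s, c 1 - θ * s])) (proj (dir h g) (emb h 0 !₂[1, 0]))
        (proj (dir h g) (emb h 0 !₂[0, 1])) '' (Set.Ioo 0 (s * (1 + 2 * θ)) ×ˢ Set.Ioo 0 (s * (1 + 2 * θ))) := by
  have hlin : ∀ z : ℝ × ℝ, pmap (proj (dir h g) (emb h 0 !₂[c 0 - θ * s, c 1 - θ * s])) (proj (dir h g) (emb h 0 !₂[1, 0]))
        (proj (dir h g) (emb h 0 !₂[0, 1])) z = proj (dir h g) (emb h 0 !₂[c 0 - θ * s + z.1, c 1 - θ * s + z.2]) := by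
    intro z
    rw [← proj_pmap]
    congr 1
    ext i
    fin_cases i <;> simp [pmap, emb]
    ring
  ext w
  constructor
  · rintro ⟨⟨⟨h1, h2⟩, h3, h4⟩, hw⟩
    refine ⟨(X g w - c 0 + θ * s, Y h g w - c 1 + θ * s), ⟨⟨?_, ?_⟩, ⟨?_, ?_⟩⟩, ?_⟩
    · simp only; linarith
    · simp only; linarith
    · simp only; linarith
    · simp only; linarith
    · rw [hlin]
      have e1 : c 0 - θ * s + (X g w - c 0 + θ * s) = X g w := by ring
      have e2 : c 1 - θ * s + (Y h g w - c 1 + θ * s) = Y h g w := by ring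
      simp only [e1, e2]
      have h5 := emb_XY h hh g w
      have h6 := congrArg (proj (dir h g)) h5
      rw [proj_add, proj_smul, proj_self _ (norm_dir h g), smul_zero, add_zero] at h6
      rw [← h6]
      simp only [Set.mem_ofPred_eq] at hw
      simp [proj, hw]
  · rintro ⟨z, ⟨⟨h1, h2⟩, h3, h4⟩, rfl⟩
    rw [hlin]
    have hXY : X g (proj (dir h g) (emb h 0 !₂[c 0 - θ * s + z.1, c 1 - θ * s + z.2])) = c 0 - θ * s + z.1 ∧
        Y h g (proj (dir h g) (emb h 0 !₂[c 0 - θ * s + z.1, c 1 - θ * s + z.2])) = c 1 - θ * s + z.2 := by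
      rw [proj, sub_eq_add_neg, ← neg_smul, X_add_dir, Y_add_dir h hh]
      constructor
      · simp [X, emb]
      · simp [Y, emb]
        field_simp
    refine ⟨⟨⟨?_, ?_⟩, ?_, ?_⟩, ?_⟩
    · rw [hXY.1]; linarith
    · rw [hXY.1]; linarith
    · rw [hXY.2]; linarith
    · rw [hXY.2]; linarith
    · simp only [Set.mem_ofPred_eq, proj, inner_sub_left, inner_smul_left, real_inner_self_eq_norm_sq, norm_dir]
      simp

lemma area_base (h : ℝ) (hh : 0 < h) (g c : E2) (s θ : ℝ) (hs : 0 < s) (hθ : 0 < θ) :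
    (μHE[2] (Obase h g c s θ ∩ {x | inner ℝ x (dir h g) = 0})).toReal = (s * (1 + 2 * θ)) ^ 2 * (h * J h g) := by
  rw [base_eq h hh, area_pmap, gram_proj _ _ _ (norm_dir h g), ENNReal.toReal_mul,
    ENNReal.toReal_ofReal (abs_nonneg _)]
  have h1 : volume (Set.Ioo 0 (s * (1 + 2 * θ)) ×ˢ Set.Ioo 0 (s * (1 + 2 * θ)) : Set (ℝ × ℝ)) =
      ENNReal.ofReal ((s * (1 + 2 * θ)) ^ 2) := by
    rw [Measure.volume_eq_prod, Measure.prod_prod, Real.volume_Ioo, sub_zero, ← ENNReal.ofReal_mul (by positivity)]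
    congr 1; ring
  rw [h1, ENNReal.toReal_ofReal (by positivity)]
  have h2 : det3 (emb h 0 !₂[1, 0]) (emb h 0 !₂[0, 1]) (dir h g) = h * J h g := by
    obtain ⟨d0, d1, d2⟩ := dir_coords h g
    simp only [det3, d0, d1, d2]
    simp [emb]
  rw [h2, abs_of_pos (mul_pos hh (J_pos h g))]
  ring

lemma bounded_base (h : ℝ) (hh : 0 < h) (g c : E2) (s θ : ℝ) :
    Bornology.IsBounded (Obase h g c s θ ∩ {x | inner ℝ x (dir h g) = 0}) := by
  rw [base_eq h hh]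
  have hc : IsCompact (Set.Icc 0 (s * (1 + 2 * θ)) ×ˢ Set.Icc 0 (s * (1 + 2 * θ)) : Set (ℝ × ℝ)) :=
    isCompact_Icc.prod isCompact_Icc
  refine (hc.image (f := pmap _ _ _) ?_).isBounded.subset (Set.image_mono ?_)
  · unfold pmap; fun_prop
  · exact Set.prod_mono Set.Ioo_subset_Icc_self Set.Ioo_subset_Icc_self

lemma cyl_cover (h : ℝ) (hh : 0 < h) (g c : E2) (s θ : ℝ) (hs : 0 < s) (hθ : 0 < θ) (x : ℝ) (ξ : E2)
    (hξ : ξ - x • g ∈ sq c s) :
    ∃ y ∈ Obase h g c s θ ∩ {x | inner ℝ x (dir h g) = 0}, ∃ τ : ℝ, emb h x ξ = y + τ • dir h g := by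
  refine ⟨proj (dir h g) (emb h x ξ), ⟨?_, ?_⟩, inner ℝ (emb h x ξ) (dir h g), ?_⟩
  · obtain ⟨⟨a0, a1⟩, b0, b1⟩ := hξ
    have hXY : X g (proj (dir h g) (emb h x ξ)) = (ξ - x • g) 0 ∧ Y h g (proj (dir h g) (emb h x ξ)) = (ξ - x • g) 1 := by
      rw [proj, sub_eq_add_neg, ← neg_smul, X_add_dir, Y_add_dir h hh]
      constructor
      · simp [X, emb]
      · simp [Y, emb]
        field_simp
    have : 0 < θ * s := by positivity
    refine ⟨⟨?_, ?_⟩, ?_, ?_⟩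
    · rw [hXY.1]; linarith
    · rw [hXY.1]; linarith
    · rw [hXY.2]; linarith
    · rw [hXY.2]; linarith
  · simp only [Set.mem_ofPred_eq, proj, inner_sub_left, inner_smul_left, real_inner_self_eq_norm_sq, norm_dir]
    simp
  · simp [proj]

/-- Let h, M > 0, D ⊂ ℝ² be compact with Lebesgue-null boundary, and V : ℝ² → ℝ² be C¹ on an open set containing D with tr DV(p) = 0 and −1/M² < det DV(p) < 0 for p ∈ D. For every ε > 0 the set of points (x, p₁ + x V₁(p), h (p₂ + x V₂(p))) ∈ ℝ³ with p ∈ D, −M ≤ x ≤ M is covered by finitely many cylinders Bᵢ + ℝ uᵢ, ‖uᵢ‖ = 1, with bases Bᵢ bounded relatively open subsets of the planes uᵢ^⊥ and ∑ᵢ area(Bᵢ) ≤ h ∫_D (1 + V₁² + h² V₂²)^(−1/2) + ε (areas: normalised 2-dimensional Hausdorff measure). -/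
theorem result
    (h M : ℝ) (hh : 0 < h) (hM : 0 < M) (D : Set (EuclideanSpace ℝ (Fin 2))) (hD : IsCompact D)
    (hbd : volume (frontier D) = 0)
    (V : EuclideanSpace ℝ (Fin 2) → EuclideanSpace ℝ (Fin 2)) (U : Set (EuclideanSpace ℝ (Fin 2)))
    (hU : IsOpen U) (hDU : D ⊆ U) (hV : ContDiffOn ℝ 1 V U)
    (htr : ∀ p ∈ D, LinearMap.trace ℝ _ (fderiv ℝ V p).toLinearMap = 0)
    (hdet : ∀ p ∈ D, -(M ^ 2)⁻¹ < LinearMap.det (fderiv ℝ V p).toLinearMap ∧
      LinearMap.det (fderiv ℝ V p).toLinearMap < 0)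
    (ε : ℝ) (hε : 0 < ε) :
    ∃ (k : ℕ) (u : Fin k → EuclideanSpace ℝ (Fin 3)) (B : Fin k → Set (EuclideanSpace ℝ (Fin 3))),
      (∀ i, ‖u i‖ = 1) ∧
      (∀ i, Bornology.IsBounded (B i) ∧ ∃ O : Set (EuclideanSpace ℝ (Fin 3)), IsOpen O ∧
        B i = O ∩ {x | inner ℝ x (u i) = 0}) ∧
      {z : EuclideanSpace ℝ (Fin 3) | ∃ p ∈ D, ∃ x : ℝ, abs x ≤ M ∧
          z = !₂[x, p 0 + x * V p 0, h * (p 1 + x * V p 1)]} ⊆
        ⋃ i, {z : EuclideanSpace ℝ (Fin 3) | ∃ y ∈ B i, ∃ τ : ℝ, z = y + τ • u i} ∧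
      ∑ i, (μHE[2] (B i)).toReal ≤
        h * (∫ p in D, 1 / Real.sqrt (1 + (V p 0) ^ 2 + h ^ 2 * (V p 1) ^ 2)) + ε := by
  set I : ℝ := ∫ p in D, J h (V p) with hI
  have hIeq : (∫ p in D, 1 / Real.sqrt (1 + (V p 0) ^ 2 + h ^ 2 * (V p 1) ^ 2)) = I := rfl
  have hI0 : 0 ≤ I := by
    rw [hI]
    apply integral_nonneg
    intro p
    exact (J_pos h _).le
  set ε₁ : ℝ := ε / (4 * h) with hε₁
  have hε₁0 : 0 < ε₁ := by positivity
  obtain ⟨l, h1, h2, h3⟩ := (global_cover h M hM D hD V U hU hDU hV htr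
    (fun p hp => ⟨(hdet p hp).1, (hdet p hp).2.le⟩) ε₁ hε₁0).toSq ε₁ hε₁0
  -- choice of the margin
  set I' : ℝ := I + 2 * ε₁ with hI'
  have hI'0 : 0 < I' := by positivity
  set θ : ℝ := min 1 (ε / (16 * (h * I'))) with hθ
  have hθ0 : 0 < θ := lt_min one_pos (by positivity)
  have hθ1 : θ ≤ 1 := min_le_left _ _
  have hθ2 : 16 * θ * (h * I') ≤ ε := by
    have := min_le_right 1 (ε / (16 * (h * I')))
    rw [← hθ, le_div_iff₀ (by positivity)] at this
    linarith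
  refine ⟨l.length, fun i => dir h (l.get i).2.2,
    fun i => Obase h (l.get i).2.2 (l.get i).1 (l.get i).2.1 θ ∩ {x | inner ℝ x (dir h (l.get i).2.2) = 0}, ?_, ?_, ?_, ?_⟩
  · intro i; exact norm_dir _ _
  · intro i
    exact ⟨bounded_base h hh _ _ _ _, _, isOpen_Obase _ _ _ _ _, rfl⟩
  · rintro z ⟨p, hp, x, hx, rfl⟩
    obtain ⟨w, hw, hwz⟩ := h2 (x, p + x • V p) ⟨p, hp, hx, rfl⟩
    obtain ⟨i, rfl⟩ := List.get_of_mem hw
    rw [Set.mem_iUnion]
    refine ⟨i, ?_⟩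
    have := cyl_cover h hh _ _ _ θ (h1 _ hw) hθ0 x (p + x • V p) hwz
    obtain ⟨y, hy, τ, hτ⟩ := this
    refine ⟨y, hy, τ, ?_⟩
    rw [← hτ]
    simp [emb]
  · have e1 : ∑ i : Fin l.length, (μHE[2] (Obase h (l.get i).2.2 (l.get i).1 (l.get i).2.1 θ ∩
        {x | inner ℝ x (dir h (l.get i).2.2) = 0})).toReal =
        (1 + 2 * θ) ^ 2 * h * (l.map (fun x => x.2.1 ^ 2 * J h x.2.2)).sum := by
      rw [← Fin.sum_univ_fun_getElem, Finset.mul_sum]
      apply Finset.sum_congr rfl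
      intro i _
      rw [area_base h hh _ _ _ _ (h1 _ (List.get_mem l i)) hθ0]
      simp only [List.get_eq_getElem]
      ring
    rw [e1, hIeq]
    have h4 : (l.map (fun x => x.2.1 ^ 2 * J h x.2.2)).sum ≤ I' := by
      refine h3.trans ?_
      rw [hI']; linarith
    have h5 : (1 + 2 * θ) ^ 2 ≤ 1 + 8 * θ := by nlinarith
    calc (1 + 2 * θ) ^ 2 * h * (l.map (fun x => x.2.1 ^ 2 * J h x.2.2)).sum ≤ (1 + 2 * θ) ^ 2 * h * I' := by
          apply mul_le_mul_of_nonneg_left h4 (by positivity)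
      _ ≤ (1 + 8 * θ) * (h * I') := by
          rw [mul_assoc]
          exact mul_le_mul_of_nonneg_right h5 (by positivity)
      _ = h * I' + 8 * θ * (h * I') := by ring
      _ ≤ h * I' + ε / 2 := by linarith
      _ = h * I + ε := by
          rw [hI', hε₁]; field_simp; ring

end Crest.Agent.S0329
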