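import Crest.Statements.S0423

set_option autoImplicit false
open Crest Crest.AlgGeometry

namespace Crest.Agent.S0423
open MeasureTheory Set

/-- the standard exponential law -/
noncomputable def nu : Measure ℝ :=
  (volume.restrict (Ioi (0:ℝ))).withDensity (fun x => ENNReal.ofReal (Real.exp (-x)))

lemma integrableOn_exp_neg : IntegrableOn (fun x : ℝ => Real.exp (-x)) (Ioi 0) := by
  simpa using integrableOn_exp_neg_Ioi 0 

instance : IsProbabilityMeasure nu := by
  constructor
  rw [nu, withDensity_apply _ MeasurableSet.univ, Measure.restrict_univ,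
    ← ofReal_integral_eq_lintegral_ofReal integrableOn_exp_neg (ae_of_all _ fun x => (Real.exp_pos _).le),
    integral_exp_neg_Ioi_zero]
  simp

lemma nu_apply {s : Set ℝ} (hs : MeasurableSet s) :
    nu s = ENNReal.ofReal (∫ x in s, Real.exp (-x) ∂(volume.restrict (Ioi (0:ℝ)))) := by
  rw [nu, withDensity_apply _ hs, ofReal_integral_eq_lintegral_ofReal]
  · exact Integrable.restrict (f := fun x : ℝ => Real.exp (-x)) integrableOn_exp_neg
  · exact ae_of_all _ fun x => (Real.exp_pos _).le

lemma integral_nu (f : ℝ → ℝ) : ∫ x, f x ∂nu = ∫ x in Ioi 0, Real.exp (-x) * f x := by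
  rw [nu, integral_withDensity_eq_integral_toReal_smul (by fun_prop) (by simp)]
  simp [ENNReal.toReal_ofReal (Real.exp_pos _).le]

lemma integrable_nu {f : ℝ → ℝ} : Integrable f nu ↔ IntegrableOn (fun x => Real.exp (-x) * f x) (Ioi 0) := by
  rw [nu, integrable_withDensity_iff_integrable_smul' (by fun_prop) (by simp)]
  simp [ENNReal.toReal_ofReal (Real.exp_pos _).le, IntegrableOn]

/-- product law -/
noncomputable abbrev muN (N : ℕ) : Measure (Fin N → ℝ) := Measure.pi fun _ => nu

lemma muN_eq (N : ℕ) : muN N =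
    (volume.restrict (Set.pi univ (fun _ : Fin N => Ioi (0:ℝ)))).withDensity
      (fun x => ENNReal.ofReal (Real.exp (-∑ i, x i))) := by
  symm
  rw [muN]
  refine (Measure.pi_eq fun s hs => ?_).symm
  rw [withDensity_apply _ (MeasurableSet.univ_pi hs)]
  have hint : Integrable (fun x : Fin N → ℝ => Real.exp (-∑ i, x i))
      ((volume.restrict (Set.pi univ (fun _ : Fin N => Ioi (0:ℝ)))).restrict (Set.pi univ s)) := by
    rw [volume_pi, Measure.restrict_pi_pi, Measure.restrict_pi_pi]
    simp only [← Finset.sum_neg_distrib, Real.exp_sum]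
    exact Integrable.fintype_prod (f := fun (_ : Fin N) (x : ℝ) => Real.exp (-x)) (fun i => Integrable.restrict integrableOn_exp_neg)
  rw [← ofReal_integral_eq_lintegral_ofReal hint (ae_of_all _ fun x => (Real.exp_pos _).le)]
  simp only [nu_apply (hs _)]
  rw [← ENNReal.ofReal_prod_of_nonneg (fun i _ => integral_nonneg fun x => (Real.exp_pos _).le)]
  congr 1
  rw [volume_pi, Measure.restrict_pi_pi, Measure.restrict_pi_pi]
  simp only [← Finset.sum_neg_distrib, Real.exp_sum]
  exact integral_fintype_prod_eq_prod (fun _ x => Real.exp (-x))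

lemma integral_muN (N : ℕ) (f : (Fin N → ℝ) → ℝ) :
    ∫ x in Set.pi univ (fun _ : Fin N => Ioi (0:ℝ)), f x * Real.exp (-∑ i, x i) = ∫ x, f x ∂(muN N) := by
  rw [muN_eq, integral_withDensity_eq_integral_toReal_smul (by fun_prop) (by simp)]
  simp [ENNReal.toReal_ofReal (Real.exp_pos _).le, mul_comm]



/-- log-concavity in four point form -/
def LC (f : ℝ → ℝ) : Prop :=
  ∀ p q q' r : ℝ, p ≤ q → p ≤ q' → p + r = q + q' → f p * f r ≤ f q * f q'

structure Good (f : ℝ → ℝ) : Prop where
  nonneg : ∀ x, 0 ≤ f x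
  lip : ∀ x y, |f x - f y| ≤ |x - y|
  lc : LC f

noncomputable def T (b : ℝ) (f : ℝ → ℝ) (x : ℝ) : ℝ := ∫ u, f (x + b * u) ∂nu

lemma integrable_id_nu : Integrable (fun u : ℝ => u) nu := by
  rw [integrable_nu]
  have := Real.GammaIntegral_convergent (s := 2) (by norm_num)
  refine this.congr_fun (fun x hx => ?_) measurableSet_Ioi
  norm_num

lemma integrable_abs_nu : Integrable (fun u : ℝ => |u|) nu := integrable_id_nu.abs

lemma lip_cont {f : ℝ → ℝ} (h : ∀ x y, |f x - f y| ≤ |x - y|) : Continuous f := by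
  have : LipschitzWith 1 f := by
    refine LipschitzWith.of_dist_le_mul fun x y => ?_
    simpa [Real.dist_eq] using h x y
  exact this.continuous

lemma lip_bound {f : ℝ → ℝ} (h : ∀ x y, |f x - f y| ≤ |x - y|) (x y : ℝ) :
    |f (x + y)| ≤ |f x| + |y| := by
  have := h (x+y) x
  have h2 := abs_add_le (f (x+y) - f x) (f x)
  simp only [sub_add_cancel, add_sub_cancel_left] at h2 this
  linarith

lemma integrable_T {f : ℝ → ℝ} (h : ∀ x y, |f x - f y| ≤ |x - y|) (b x : ℝ) :
    Integrable (fun u => f (x + b * u)) nu := by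
  refine Integrable.mono' (g := fun u => |f x| + |b| * |u|) ((integrable_const _).add (integrable_abs_nu.const_mul _)) ?_ ?_
  · exact ((lip_cont h).comp (by fun_prop)).aestronglyMeasurable
  · refine ae_of_all _ fun u => ?_
    have := lip_bound h x (b * u)
    rw [Real.norm_eq_abs]
    rwa [abs_mul] at this

lemma T_lip {f : ℝ → ℝ} (h : ∀ x y, |f x - f y| ≤ |x - y|) (b : ℝ) :
    ∀ x y, |T b f x - T b f y| ≤ |x - y| := by
  intro x y
  unfold T
  rw [← integral_sub (integrable_T h b x) (integrable_T h b y)]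
  calc |∫ u, (f (x + b * u) - f (y + b * u)) ∂nu| ≤ ∫ u, |f (x + b * u) - f (y + b * u)| ∂nu :=
        abs_integral_le_integral_abs
    _ ≤ ∫ _u, |x - y| ∂nu := by
        refine integral_mono_of_nonneg (ae_of_all _ fun _ => abs_nonneg _) (integrable_const _) (ae_of_all _ fun u => ?_)
        have := h (x + b * u) (y + b * u)
        simpa using this
    _ = |x - y| := by simp

lemma preimage_Ioi (x : ℝ) : (fun w => x + w) ⁻¹' (Ioi x) = Ioi 0 := by
  ext w; simp

lemma shift_Ioi (k : ℝ → ℝ) (x : ℝ) : ∫ w in Ioi 0, k (x + w) = ∫ v in Ioi x, k v := by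
  rw [← (measurePreserving_add_left volume x).setIntegral_preimage_emb (measurableEmbedding_addLeft x) k (Ioi x),
    preimage_Ioi]

lemma shift_Ioi_int (k : ℝ → ℝ) (x : ℝ) : IntegrableOn (fun w => k (x + w)) (Ioi 0) ↔ IntegrableOn k (Ioi x) := by
  rw [← (measurePreserving_add_left volume x).integrableOn_comp_preimage (measurableEmbedding_addLeft x)
    (f := k), preimage_Ioi]
  rfl

lemma LC_tail {k : ℝ → ℝ} (hk0 : ∀ x, 0 ≤ k x) (hkc : Continuous k) (hk : LC k)
    (hint : ∀ x, IntegrableOn k (Ioi x)) : LC (fun x => ∫ v in Ioi x, k v) := by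
  have key : ∀ p q q' r : ℝ, p ≤ q → q ≤ q' → p + r = q + q' →
      (∫ v in Ioi p, k v) * (∫ v in Ioi r, k v) ≤ (∫ v in Ioi q, k v) * (∫ v in Ioi q', k v) := by
    intro p q q' r hpq hqq' hsum
    have hG0 : ∀ x, 0 ≤ ∫ v in Ioi x, k v := fun x => integral_nonneg fun v => hk0 v
    have hshift : ∀ x, ∫ v in Ioi x, k v = ∫ w in Ioi 0, k (x + w) := by
      intro x
      exact (shift_Ioi k x).symm
    have hintS : ∀ x, IntegrableOn (fun w => k (x + w)) (Ioi 0) := by
      intro x
      exact (shift_Ioi_int k x).2 (hint x)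
    -- inner inequality
    have inner : ∀ v, 0 ≤ v → v ≤ q - p →
        k (p + v) * (∫ w in Ioi r, k w) ≤ (∫ w in Ioi q, k w) * k (q' + v) := by
      intro v hv0 hv
      rw [hshift r, hshift q, ← integral_const_mul, ← integral_mul_const]
      refine setIntegral_mono_on ((hintS r).const_mul _) ((hintS q).mul_const _) measurableSet_Ioi ?_
      intro w hw
      have hw' : 0 < w := hw
      have := hk (p + v) (q + w) (q' + v) (r + w) (by linarith) (by linarith) (by linarith)
      linarith
    have e1 : ∫ v in Ioi p, k v = (∫ v in Ioi q, k v) + ∫ v in p..q, k v := by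
      have := intervalIntegral.integral_Ioi_sub_Ioi (hint p) hpq 
      linarith
    have e2 : ∫ v in Ioi q', k v = (∫ v in Ioi r, k v) + ∫ v in q'..r, k v := by
      have := intervalIntegral.integral_Ioi_sub_Ioi (hint q') (show q' ≤ r by linarith)
      linarith
    have i1 : ∫ v in p..q, k v = ∫ v in (0:ℝ)..(q-p), k (p + v) := by
      rw [intervalIntegral.integral_comp_add_left (fun v => k v) p]; simp
    have i2 : ∫ v in q'..r, k v = ∫ v in (0:ℝ)..(q-p), k (q' + v) := by
      rw [intervalIntegral.integral_comp_add_left (fun v => k v) q']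
      congr 1 <;> linarith
    have main : (∫ v in p..q, k v) * (∫ v in Ioi r, k v) ≤ (∫ v in Ioi q, k v) * ∫ v in q'..r, k v := by
      rw [i1, i2, ← intervalIntegral.integral_mul_const, ← intervalIntegral.integral_const_mul]
      refine intervalIntegral.integral_mono_on (by linarith) ?_ ?_ ?_
      · exact Continuous.intervalIntegrable (by fun_prop) _ _
      · exact Continuous.intervalIntegrable (by fun_prop) _ _
      · intro v hv
        exact inner v hv.1 hv.2
    rw [e1, e2]
    nlinarith [hG0 q, hG0 r]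
  intro p q q' r h1 h2 h3
  rcases le_total q q' with h | h
  · exact key p q q' r h1 h h3
  · have := key p q' q r h2 h (by linarith)
    simp only at this ⊢
    linarith

lemma LC.mul {f g : ℝ → ℝ} (hf : LC f) (hg : LC g) (hf0 : ∀ x, 0 ≤ f x) (hg0 : ∀ x, 0 ≤ g x) :
    LC (fun x => f x * g x) := by
  intro p q q' r h1 h2 h3
  have a := hf p q q' r h1 h2 h3
  have b := hg p q q' r h1 h2 h3
  calc f p * g p * (f r * g r) = (f p * f r) * (g p * g r) := by ring
    _ ≤ (f q * f q') * (g q * g q') := by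
        apply mul_le_mul a b (mul_nonneg (hg0 _) (hg0 _)) (mul_nonneg (hf0 _) (hf0 _))
    _ = _ := by ring

lemma LC_exp (b : ℝ) : LC (fun x => Real.exp (b * x)) := by
  intro p q q' r h1 h2 h3
  simp only
  rw [← Real.exp_add, ← Real.exp_add, ← mul_add, ← mul_add, h3]

lemma LC_const (c : ℝ) : LC (fun _ => c) := by
  intro p q q' r h1 h2 h3
  simp

lemma LC.reflect {f : ℝ → ℝ} (hf : LC f) : LC (fun x => f (-x)) := by
  intro p q q' r h1 h2 h3
  have := hf (-r) (-q) (-q') (-p) (by linarith) (by linarith) (by linarith)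
  simp only
  linarith

lemma T_pos_eq {f : ℝ → ℝ} {b : ℝ} (hb : 0 < b) (x : ℝ) :
    T b f x = (b⁻¹ * Real.exp (b⁻¹ * x)) * ∫ v in Ioi x, Real.exp (-(b⁻¹) * v) * f v := by
  unfold T
  rw [integral_nu]
  have h1 : ∫ u in Ioi (0:ℝ), Real.exp (-u) * f (x + b * u) =
      ∫ u in Ioi (0:ℝ), (fun w => Real.exp (-(b⁻¹ * w)) * f (x + w)) (b * u) := by
    refine setIntegral_congr_fun measurableSet_Ioi fun u _ => ?_
    simp only
    rw [← mul_assoc, inv_mul_cancel₀ hb.ne', one_mul]
  rw [h1, integral_comp_mul_left_Ioi (fun w => Real.exp (-(b⁻¹ * w)) * f (x + w)) 0 hb, mul_zero, smul_eq_mul, mul_assoc]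
  rw [← shift_Ioi (fun v => Real.exp (-(b⁻¹) * v) * f v), ← integral_const_mul (Real.exp (b⁻¹ * x))]
  congr 1
  refine setIntegral_congr_fun measurableSet_Ioi fun u _ => ?_
  rw [← mul_assoc, ← Real.exp_add]
  congr 2
  ring

lemma T_LC_pos {f : ℝ → ℝ} (hf : Good f) {b : ℝ} (hb : 0 < b) : LC (T b f) := by
  have : T b f = fun x => ((fun _ => b⁻¹) x * Real.exp (b⁻¹ * x)) * ∫ v in Ioi x, Real.exp (-(b⁻¹) * v) * f v := by
    funext x; exact T_pos_eq hb x
  rw [this]
  have hb' : 0 < b⁻¹ := by positivity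
  refine LC.mul (LC.mul (LC_const _) (LC_exp _) (fun _ => hb'.le) (fun _ => (Real.exp_pos _).le))
    (LC_tail ?_ ?_ ?_ ?_) (fun x => by positivity) ?_
  · intro x; exact mul_nonneg (Real.exp_pos _).le (hf.nonneg x)
  · have := lip_cont hf.lip
    fun_prop
  · exact LC.mul (LC_exp _) hf.lc (fun _ => (Real.exp_pos _).le) hf.nonneg
  · intro x
    have h := integrable_T hf.lip b x
    rw [integrable_nu] at h
    have h1 : (fun u => Real.exp (-u) * f (x + b * u)) =
      (fun u => (fun w => Real.exp (-(b⁻¹ * w)) * f (x + w)) (b * u)) := by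
      funext u
      simp only
      rw [← mul_assoc, inv_mul_cancel₀ hb.ne', one_mul]
    rw [h1, integrableOn_Ioi_comp_mul_left_iff (fun w => Real.exp (-(b⁻¹ * w)) * f (x + w)) _ hb, mul_zero] at h
    rw [← shift_Ioi_int]
    refine IntegrableOn.congr_fun (h.const_mul (Real.exp (-(b⁻¹ * x)))) (fun u _ => ?_) measurableSet_Ioi
    rw [← mul_assoc, ← Real.exp_add]
    congr 2
    ring
  · intro x
    exact integral_nonneg fun v => mul_nonneg (Real.exp_pos _).le (hf.nonneg v)

lemma T_good {f : ℝ → ℝ} (hf : Good f) (b : ℝ) : Good (T b f) := by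
  refine ⟨fun x => integral_nonneg fun u => hf.nonneg _, T_lip hf.lip b, ?_⟩
  rcases lt_trichotomy b 0 with hb | hb | hb
  · have hr : Good (fun x => f (-x)) := ⟨fun x => hf.nonneg _, fun x y => by
      have := hf.lip (-x) (-y)
      rw [show -x - -y = -(x - y) by ring, abs_neg] at this
      exact this, hf.lc.reflect⟩
    have h1 := (T_LC_pos hr (b := -b) (by linarith)).reflect
    have : (fun x => T (-b) (fun x => f (-x)) (-x)) = T b f := by
      funext x
      unfold T
      simp only
      refine integral_congr_ae (ae_of_all _ fun u => ?_)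
      simp only
      congr 1; ring
    rwa [this] at h1
  · subst hb
    have : T 0 f = f := by
      funext x; simp [T]
    rw [this]; exact hf.lc
  · exact T_LC_pos hf hb

noncomputable def S (N : ℕ) (a : Fin N → ℝ) (f : ℝ → ℝ) (y : ℝ) : ℝ :=
  ∫ x, f (y + ∑ i, a i * x i) ∂(muN N)



lemma integrable_coord {N : ℕ} (i : Fin N) : Integrable (fun x : Fin N → ℝ => x i) (muN N) :=
  integrable_comp_eval (μ := fun _ : Fin N => nu) (f := fun u : ℝ => u) integrable_id_nu

lemma integrable_lin {N : ℕ} (a : Fin N → ℝ) : Integrable (fun x : Fin N → ℝ => ∑ i, a i * x i) (muN N) :=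
  integrable_finsetSum _ fun i _ => (integrable_coord i).const_mul _

lemma integrable_S {N : ℕ} (a : Fin N → ℝ) {f : ℝ → ℝ} (h : ∀ x y, |f x - f y| ≤ |x - y|) (y : ℝ) :
    Integrable (fun x : Fin N → ℝ => f (y + ∑ i, a i * x i)) (muN N) := by
  refine Integrable.mono' (g := fun x => |f y| + |∑ i, a i * x i|)
    ((integrable_const _).add (integrable_lin a).abs) ?_ ?_
  · exact ((lip_cont h).comp (by fun_prop)).aestronglyMeasurable
  · refine ae_of_all _ fun u => ?_
    have := lip_bound h y (∑ i, a i * u i)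
    rwa [Real.norm_eq_abs]

lemma S_succ {N : ℕ} (a : Fin (N+1) → ℝ) {f : ℝ → ℝ} (h : ∀ x y, |f x - f y| ≤ |x - y|) (y : ℝ) :
    S (N+1) a f y = T (a 0) (S N (fun i => a i.succ) f) y := by
  unfold S T
  have mp := (measurePreserving_piFinSuccAbove (fun _ : Fin (N+1) => nu) 0).symm
  have hi := integrable_S a h y
  rw [← mp.integral_comp']
  rw [← mp.integrable_comp_emb (MeasurableEquiv.measurableEmbedding _)] at hi
  have hrw : ∀ z : ℝ × (Fin N → ℝ), (∑ i, a i * ((MeasurableEquiv.piFinSuccAbove (fun _ : Fin (N+1) => ℝ) 0).symm z) i)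
      = a 0 * z.1 + ∑ i : Fin N, a i.succ * z.2 i := by
    intro z
    simp [Fin.sum_univ_succ, MeasurableEquiv.piFinSuccAbove_symm_apply, Fin.insertNthEquiv]
  simp only [hrw, Function.comp_def] at hi ⊢
  rw [integral_prod _ hi]
  refine integral_congr_ae (ae_of_all _ fun u => ?_)
  refine integral_congr_ae (ae_of_all _ fun x => ?_)
  simp only [add_assoc]

lemma S_zero (a : Fin 0 → ℝ) (f : ℝ → ℝ) (y : ℝ) : S 0 a f y = f y := by
  simp [S]

lemma S_good {f : ℝ → ℝ} (hf : Good f) : ∀ (N : ℕ) (a : Fin N → ℝ), Good (S N a f) := by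
  intro N
  induction N with
  | zero => intro a; have : S 0 a f = f := by funext y; exact S_zero a f y
            rwa [this]
  | succ N ih =>
    intro a
    have : S (N+1) a f = T (a 0) (S N (fun i => a i.succ) f) := by
      funext y; exact S_succ a hf.lip y
    rw [this]
    exact T_good (ih _) _

def hinge (y : ℝ) : ℝ := max y 0

lemma hinge_lip : ∀ x y, |hinge x - hinge y| ≤ |x - y| := fun _ _ => abs_max_sub_max_le_abs _ _ _

lemma hinge_good : Good hinge := by
  refine ⟨fun x => le_max_right _ _, hinge_lip, ?_⟩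
  intro p q q' r h1 h2 h3
  unfold hinge
  rcases le_or_gt p 0 with hp | hp
  · rw [max_eq_right hp, zero_mul]
    exact mul_nonneg (le_max_right _ _) (le_max_right _ _)
  · rw [max_eq_left hp.le, max_eq_left (by linarith : (0:ℝ) ≤ q), max_eq_left (by linarith : (0:ℝ) ≤ q'),
      max_eq_left (by linarith : (0:ℝ) ≤ r)]
    have : r = q + q' - p := by linarith
    subst this
    nlinarith [mul_nonneg (sub_nonneg.2 h1) (sub_nonneg.2 h2)]

lemma integral_id_nu : ∫ u, u ∂nu = 1 := by
  rw [integral_nu]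
  have := Real.Gamma_eq_integral (s := 2) (by norm_num)
  rw [Real.Gamma_two] at this
  rw [this]
  refine setIntegral_congr_fun measurableSet_Ioi fun u _ => ?_
  norm_num

lemma integral_coord {N : ℕ} (i : Fin N) : ∫ x : Fin N → ℝ, x i ∂(muN N) = 1 := by
  have := (measurePreserving_eval (fun _ : Fin N => nu) i)
  have h2 := integral_map (μ := muN N) (φ := fun x => x i) (f := fun u : ℝ => u)
    (measurable_pi_apply i).aemeasurable (by fun_prop)
  rw [← h2, this.map_eq, integral_id_nu]

lemma integral_lin {N : ℕ} (a : Fin N → ℝ) : ∫ x : Fin N → ℝ, ∑ i, a i * x i ∂(muN N) = ∑ i, a i := by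
  rw [integral_finsetSum _ fun i _ => (integrable_coord i).const_mul _]
  simp [integral_const_mul, integral_coord]

lemma K_ge {N : ℕ} (a : Fin N → ℝ) (ha : ∑ i, a i = 0) (y : ℝ) : y ≤ S N a hinge y := by
  have h1 : ∫ x : Fin N → ℝ, (y + ∑ i, a i * x i) ∂(muN N) = y := by
    rw [integral_add (integrable_const _) (integrable_lin a), integral_lin, ha]; simp
  calc y = ∫ x : Fin N → ℝ, (y + ∑ i, a i * x i) ∂(muN N) := h1.symm
    _ ≤ S N a hinge y := by
      refine integral_mono ((integrable_const _).add (integrable_lin a)) (integrable_S a hinge_lip y) fun x => ?_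
      exact le_max_left _ _



lemma LC.pos_between {f : ℝ → ℝ} (hf : LC f) (h0 : ∀ x, 0 ≤ f x) {x z w : ℝ} (hx : 0 < f x) (hz : 0 < f z)
    (h1 : x ≤ w) (h2 : w ≤ z) : 0 < f w := by
  have := hf x w (x + z - w) z h1 (by linarith) (by ring)
  by_contra hcon
  have hw : f w = 0 := le_antisymm (not_lt.1 hcon) (h0 w)
  rw [hw, zero_mul] at this
  have := mul_pos hx hz
  linarith

lemma LC.log_concave {f : ℝ → ℝ} (hf : LC f) (h0 : ∀ x, 0 ≤ f x) (hc : Continuous f) {x y z : ℝ}
    (hxy : x < y) (hyz : y < z) (hx : 0 < f x) (hz : 0 < f z) :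
    (z - y) * Real.log (f x) + (y - x) * Real.log (f z) ≤ (z - x) * Real.log (f y) := by
  by_contra hcon
  push Not at hcon
  set φ : ℝ → ℝ := fun w => (z - x) * Real.log (f w) - ((z - w) * Real.log (f x) + (w - x) * Real.log (f z)) with hφ
  have hpos : ∀ w ∈ Icc x z, 0 < f w := fun w hw => hf.pos_between h0 hx hz hw.1 hw.2
  have hcont : ContinuousOn φ (Icc x z) := by
    have : ContinuousOn (fun w => Real.log (f w)) (Icc x z) :=
      hc.continuousOn.log fun w hw => (hpos w hw).ne'
    fun_prop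
  have hne : (Icc x z).Nonempty := ⟨x, by constructor <;> linarith⟩
  obtain ⟨m, hm, hmin⟩ := isCompact_Icc.exists_isMinOn hne hcont
  have hM : IsCompact {w ∈ Icc x z | φ w = φ m} := by
    have : IsClosed {w ∈ Icc x z | φ w = φ m} := by
      have := hcont.preimage_isClosed_of_isClosed isClosed_Icc (isClosed_singleton (x := φ m))
      convert this using 1
      ext w; simp
    exact isCompact_Icc.of_isClosed_subset this (fun w hw => hw.1)
  obtain ⟨m0, hm0, hleast⟩ := hM.exists_isLeast ⟨m, hm, rfl⟩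
  have hφy : φ y < 0 := by simp only [hφ]; linarith
  have hφx : φ x = 0 := by simp only [hφ]; ring
  have hφz : φ z = 0 := by simp only [hφ]; ring
  have hmy : φ m ≤ φ y := hmin ⟨hxy.le, hyz.le⟩
  have hm0x : x < m0 := by
    rcases eq_or_lt_of_le hm0.1.1 with h | h
    · exfalso; have := hm0.2; rw [← h, hφx] at this; linarith
    · exact h
  have hm0z : m0 < z := by
    rcases eq_or_lt_of_le hm0.1.2 with h | h
    · exfalso; have := hm0.2; rw [h, hφz] at this; linarith
    · exact h
  set h := min (m0 - x) (z - m0) with hh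
  have hhpos : 0 < h := lt_min (by linarith) (by linarith)
  have ha : m0 - h ∈ Icc x z := ⟨by have := min_le_left (m0 - x) (z - m0); linarith, by linarith⟩
  have hb : m0 + h ∈ Icc x z := ⟨by linarith, by have := min_le_right (m0 - x) (z - m0); linarith⟩
  have h4 := hf (m0 - h) m0 m0 (m0 + h) (by linarith) (by linarith) (by ring)
  have hl : Real.log (f (m0 - h)) + Real.log (f (m0 + h)) ≤ Real.log (f m0) + Real.log (f m0) := by
    rw [← Real.log_mul (hpos _ ha).ne' (hpos _ hb).ne', ← Real.log_mul (hpos _ hm0.1).ne' (hpos _ hm0.1).ne']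
    exact Real.log_le_log (mul_pos (hpos _ ha) (hpos _ hb)) h4
  have hsum : φ (m0 - h) + φ (m0 + h) ≤ 2 * φ m0 := by
    simp only [hφ]
    nlinarith [mul_le_mul_of_nonneg_left hl (by linarith : (0:ℝ) ≤ z - x)]
  have h5 : φ m ≤ φ (m0 + h) := hmin hb
  have h6 : φ m ≤ φ (m0 - h) := hmin ha
  have h7 : φ (m0 - h) ≠ φ m := by
    intro h8
    have := hleast ⟨ha, h8⟩
    linarith
  have h8 : φ m < φ (m0 - h) := lt_of_le_of_ne h6 (Ne.symm h7)
  rw [hm0.2] at hsum
  linarith

noncomputable def B (c y : ℝ) : ℝ := if y ≤ c then c * Real.exp (y / c - 1) else y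

lemma comparison {K : ℝ → ℝ} (hK : Good K) (hKge : ∀ y, y ≤ K y) {c : ℝ} (hc : 1 / 3 ≤ c)
    (hcK : K (1/3) = c * Real.exp (1 / 3 / c - 1)) :
    (∀ y, 1 / 3 ≤ y → B c y ≤ K y) ∧ (∀ y, y ≤ 1 / 3 → K y ≤ B c y) := by
  have hc0 : 0 < c := by linarith
  have hKpos : 0 < K (1/3) := by rw [hcK]; positivity
  have hKc : 0 < K c := lt_of_lt_of_le hc0 (hKge c)
  have hcont := lip_cont hK.lip
  have hlogK : Real.log (K (1/3)) = Real.log c + (1 / 3 / c - 1) := by
    rw [hcK, Real.log_mul hc0.ne' (Real.exp_pos _).ne', Real.log_exp]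
  constructor
  · intro y hy
    unfold B
    split_ifs with hyc
    · rcases eq_or_lt_of_le hy with h | h
      · rw [← h, hcK]
      rcases eq_or_lt_of_le hyc with h' | h'
      · rw [h', div_self hc0.ne', sub_self, Real.exp_zero, mul_one]; exact hKge c
      have h3 := hK.lc.log_concave hK.nonneg hcont h h' hKpos hKc
      have hKy : 0 < K y := lt_of_lt_of_le (by linarith) (hKge y)
      rw [← Real.log_le_log_iff (by positivity) hKy, Real.log_mul hc0.ne' (Real.exp_pos _).ne', Real.log_exp]
      have h4 : Real.log c ≤ Real.log (K c) := Real.log_le_log hc0 (hKge c)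
      rw [hlogK] at h3
      have h5 : (c - 1/3) * (Real.log c + (y / c - 1)) ≤ (c - 1/3) * Real.log (K y) := by
        refine le_trans ?_ h3
        have e1 : (c - 1/3) * (y / c - 1) = (c - y) * (1 / 3 / c - 1) := by field_simp; ring
        nlinarith [mul_le_mul_of_nonneg_left h4 (by linarith : (0:ℝ) ≤ y - 1/3)]
      have : 0 < c - 1/3 := by linarith
      exact le_of_mul_le_mul_left h5 this
    · exact hKge y
  · intro y hy
    have hyc : y ≤ c := le_trans hy hc
    unfold B
    rw [if_pos hyc]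
    rcases eq_or_lt_of_le hy with h | h
    · rw [h, hcK]
    rcases eq_or_lt_of_le (hK.nonneg y) with h0 | h0
    · rw [← h0]; positivity
    rw [← Real.log_le_log_iff h0 (by positivity), Real.log_mul hc0.ne' (Real.exp_pos _).ne', Real.log_exp]
    rcases eq_or_lt_of_le hc with h' | h'
    · -- c = 1/3
      have hK13 : Real.log (K (1/3)) = Real.log c := by rw [hlogK, ← h']; norm_num
      have key : ∀ w, c < w → Real.log (K y) ≤ Real.log c - (c - y) / w := by
        intro w hw
        have hw0 : 0 < w := by linarith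
        have hKw : w ≤ K w := hKge w
        have h3 := hK.lc.log_concave hK.nonneg hcont h (h' ▸ hw) h0 (lt_of_lt_of_le hw0 hKw)
        rw [hK13] at h3
        have h4 : Real.log w ≤ Real.log (K w) := Real.log_le_log hw0 hKw
        have h5 : 1 - (w / c)⁻¹ ≤ Real.log (w / c) := Real.one_sub_inv_le_log_of_pos (by positivity)
        rw [Real.log_div hw0.ne' hc0.ne', inv_div] at h5
        rw [h'] at h3
        have h6 : (w - c) * Real.log (K y) ≤ (w - c) * (Real.log c - (c - y) / w) := by
          have e1 : (w - c) * ((c - y) / w) = (c - y) * (1 - c / w) := by field_simp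
          nlinarith [mul_le_mul_of_nonneg_left h4 (by linarith : (0:ℝ) ≤ c - y),
            mul_le_mul_of_nonneg_left h5 (by linarith : (0:ℝ) ≤ c - y)]
        exact le_of_mul_le_mul_left h6 (by linarith)
      have hlim : Filter.Tendsto (fun w => Real.log c - (c - y) / w) (nhdsWithin c (Ioi c)) (nhds (Real.log c - (c - y) / c)) := by
        apply Filter.Tendsto.mono_left _ nhdsWithin_le_nhds
        exact Filter.Tendsto.sub tendsto_const_nhds (Filter.Tendsto.div tendsto_const_nhds Filter.tendsto_id hc0.ne')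
      have := ge_of_tendsto hlim (Filter.eventually_of_mem self_mem_nhdsWithin fun w hw => key w hw)
      refine this.trans (le_of_eq ?_)
      field_simp; ring
    · have h3 := hK.lc.log_concave hK.nonneg hcont h h' h0 hKc
      rw [hlogK] at h3
      have h4 : Real.log c ≤ Real.log (K c) := Real.log_le_log hc0 (hKge c)
      have h5 : (c - 1/3) * Real.log (K y) ≤ (c - 1/3) * (Real.log c + (y / c - 1)) := by
        have e1 : (c - 1/3) * (y / c - 1) = (c - y) * (1 / 3 / c - 1) := by field_simp; ring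
        nlinarith [mul_le_mul_of_nonneg_left h4 (by linarith : (0:ℝ) ≤ 1/3 - y)]
      exact le_of_mul_le_mul_left h5 (by linarith)

lemma exists_c {k : ℝ} (hk : 1 / 3 ≤ k) : ∃ c : ℝ, 1 / 3 ≤ c ∧ k = c * Real.exp (1 / 3 / c - 1) := by
  have hcont : ContinuousOn (fun c : ℝ => c * Real.exp (1 / 3 / c - 1)) (Icc (1/3) (3 * k)) := by
    apply ContinuousOn.mul continuousOn_id
    apply Real.continuous_exp.comp_continuousOn
    apply ContinuousOn.sub _ continuousOn_const
    apply ContinuousOn.div continuousOn_const continuousOn_id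
    intro x hx
    have := hx.1
    simp only [id]; linarith
  have := intermediate_value_Icc (by linarith : (1/3 : ℝ) ≤ 3 * k) hcont
  have hk2 : k ∈ Icc ((1/3 : ℝ) * Real.exp (1 / 3 / (1/3) - 1)) (3 * k * Real.exp (1 / 3 / (3 * k) - 1)) := by
    constructor
    · norm_num; linarith
    · have h1 : Real.exp (-1) ≤ Real.exp (1 / 3 / (3 * k) - 1) := by
        apply Real.exp_le_exp.2
        have : 0 ≤ 1 / 3 / (3 * k) := by positivity
        linarith
      have h2 : 1 / 3 ≤ Real.exp (-1) := by
        rw [Real.exp_neg, ← one_div]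
        apply one_div_le_one_div_of_le (Real.exp_pos _)
        have := Real.exp_one_lt_d9
        linarith
      nlinarith
  obtain ⟨c, hc, hck⟩ := this hk2
  exact ⟨c, hc.1, hck.symm⟩



open Crest.AlgGeometry in
lemma hasDerivAt_anti1 (y z : ℝ) :
    HasDerivAt (fun z : ℝ => (z ^ 2 - (y - 1) * z + 1) * Real.exp (-z)) ((z - 1) * (y - z) * Real.exp (-z)) z := by
  have h1 : HasDerivAt (fun z : ℝ => z ^ 2 - (y - 1) * z + 1) (2 * z - (y - 1)) z := by
    have := ((hasDerivAt_pow 2 z).sub ((hasDerivAt_id z).const_mul (y-1))).add_const 1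
    have e : ((2:ℕ):ℝ) * z ^ (2 - 1) - (y - 1) * 1 = 2 * z - (y - 1) := by norm_num
    rw [e] at this
    exact this
  have h2 : HasDerivAt (fun z : ℝ => Real.exp (-z)) (-Real.exp (-z)) z := by
    simpa using (hasDerivAt_neg z).exp
  have h3 := h1.mul h2
  have e : (2 * z - (y - 1)) * Real.exp (-z) + (z ^ 2 - (y - 1) * z + 1) * -Real.exp (-z) = (z - 1) * (y - z) * Real.exp (-z) := by ring
  rw [e] at h3
  exact h3

lemma integral_poly (y d : ℝ) : ∫ z in (0:ℝ)..d, (z - 1) * (y - z) * Real.exp (-z) =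
    (d ^ 2 - (y - 1) * d + 1) * Real.exp (-d) - 1 := by
  rw [intervalIntegral.integral_eq_sub_of_hasDerivAt (fun z _ => hasDerivAt_anti1 y z)
    (Continuous.intervalIntegrable (by fun_prop) _ _)]
  simp

lemma integrable_sq_nu : Integrable (fun u : ℝ => u ^ 2) nu := by
  rw [integrable_nu]
  have := Real.GammaIntegral_convergent (s := 3) (by norm_num)
  refine this.congr_fun (fun x hx => ?_) measurableSet_Ioi
  norm_num

/-- representation of the weight by hinges -/
lemma g_repr (y : ℝ) : Crest.AlgGeometry.truncExpWeight y = 1 + ∫ z, (z - 1) * hinge (y - z) ∂nu := by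
  rw [integral_nu]
  unfold Crest.AlgGeometry.truncExpWeight
  split_ifs with hy
  · have : ∫ x in Ioi (0:ℝ), Real.exp (-x) * ((x - 1) * hinge (y - x)) = ∫ x in Ioi (0:ℝ), 0 := by
      refine setIntegral_congr_fun measurableSet_Ioi fun x hx => ?_
      have hx' : (0:ℝ) < x := hx
      rw [hinge, max_eq_right (by linarith)]
      ring
    rw [this]; simp
  · push Not at hy
    have h1 : ∫ x in Ioi (0:ℝ), Real.exp (-x) * ((x - 1) * hinge (y - x)) =
        ∫ x in (0:ℝ)..y, (x - 1) * (y - x) * Real.exp (-x) := by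
      rw [intervalIntegral.integral_of_le hy.le]
      symm
      rw [← Ioc_union_Ioi_eq_Ioi hy.le, setIntegral_union]
      · have : ∫ x in Ioi y, Real.exp (-x) * ((x - 1) * hinge (y - x)) = ∫ x in Ioi y, 0 := by
          refine setIntegral_congr_fun measurableSet_Ioi fun x hx => ?_
          have hx' : y < x := hx
          rw [hinge, max_eq_right (by linarith)]
          ring
        rw [this]
        simp only [integral_zero, add_zero]
        refine setIntegral_congr_fun measurableSet_Ioc fun x hx => ?_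
        rw [hinge, max_eq_left (by linarith [hx.2])]
        ring
      · exact Ioc_disjoint_Ioi le_rfl
      · exact measurableSet_Ioi
      · apply Continuous.integrableOn_Ioc
        unfold hinge; fun_prop
      · have : IntegrableOn (fun _ : ℝ => (0:ℝ)) (Ioi y) := integrableOn_zero
        refine this.congr_fun (fun x hx => ?_) measurableSet_Ioi
        have hx' : y < x := hx
        rw [hinge, max_eq_right (by linarith)]
        ring
    rw [h1, integral_poly]
    ring

lemma integrable_weight {f : ℝ → ℝ} (h : ∀ x y, |f x - f y| ≤ |x - y|) (t : ℝ) :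
    Integrable (fun z => (z - 1) * f (t - z)) nu := by
  have hg : Integrable (fun z : ℝ => (|z| + 1) * (|f t| + |z|)) nu := by
    have e : (fun z : ℝ => (|z| + 1) * (|f t| + |z|)) = fun z => z ^ 2 + (|f t| + 1) * |z| + |f t| := by
      funext z
      rw [← sq_abs z]; ring
    rw [e]
    exact (integrable_sq_nu.add (integrable_abs_nu.const_mul _)).add (integrable_const _)
  refine hg.mono' ?_ ?_
  · have := lip_cont h
    exact Continuous.aestronglyMeasurable (by fun_prop)
  · refine ae_of_all _ fun z => ?_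
    rw [Real.norm_eq_abs, abs_mul]
    have h1 := lip_bound h t (-z)
    rw [abs_neg] at h1
    have h2 : |z - 1| ≤ |z| + 1 := by
      have := abs_sub z 1
      simpa using this
    exact mul_le_mul h2 h1 (abs_nonneg _) (by positivity)

lemma E_g {N : ℕ} (a : Fin N → ℝ) (t : ℝ) :
    ∫ x, Crest.AlgGeometry.truncExpWeight (t + ∑ i, a i * x i) ∂(muN N) =
      1 + ∫ z, (z - 1) * S N a hinge (t - z) ∂nu := by
  have hint : Integrable (Function.uncurry fun (x : Fin N → ℝ) (z : ℝ) => (z - 1) * hinge (t + ∑ i, a i * x i - z))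
      ((muN N).prod nu) := by
    have hg : Integrable (fun p : (Fin N → ℝ) × ℝ => (|t| + |∑ i, a i * p.1 i|) * (|p.2| + 1) + 1 * ((|p.2| + 1) * |p.2|))
        ((muN N).prod nu) := by
      refine Integrable.add ?_ ?_
      · exact ((integrable_const _).add (integrable_lin a).abs).mul_prod (integrable_abs_nu.add (integrable_const _))
      · refine (integrable_const (1:ℝ)).mul_prod (f := fun _ : Fin N → ℝ => (1:ℝ)) (g := fun z : ℝ => (|z| + 1) * |z|) ?_
        have e : (fun z : ℝ => (|z| + 1) * |z|) = fun z => z ^ 2 + |z| := by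
          funext z
          rw [← sq_abs z]; ring
        rw [e]
        exact integrable_sq_nu.add integrable_abs_nu
    refine hg.mono' ?_ ?_
    · refine Continuous.aestronglyMeasurable ?_
      unfold Function.uncurry hinge
      fun_prop
    · refine ae_of_all _ fun p => ?_
      simp only [Function.uncurry]
      rw [Real.norm_eq_abs, abs_mul]
      have h2 : |p.2 - 1| ≤ |p.2| + 1 := by
        have := abs_sub p.2 1
        simpa using this
      have h1 : |hinge (t + ∑ i, a i * p.1 i - p.2)| ≤ |t| + |∑ i, a i * p.1 i| + |p.2| := by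
        have h3 := hinge_lip (t + ∑ i, a i * p.1 i - p.2) 0
        have h4 : hinge 0 = 0 := by simp [hinge]
        rw [h4, sub_zero, sub_zero] at h3
        refine h3.trans ?_
        have h5 := abs_sub (t + ∑ i, a i * p.1 i) p.2
        have h6 := abs_add_le t (∑ i, a i * p.1 i)
        linarith
      calc |p.2 - 1| * |hinge (t + ∑ i, a i * p.1 i - p.2)| ≤ (|p.2| + 1) * (|t| + |∑ i, a i * p.1 i| + |p.2|) :=
            mul_le_mul h2 h1 (abs_nonneg _) (by positivity)
        _ = _ := by ring
  simp only [g_repr]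
  have hi2 : Integrable (fun x : Fin N → ℝ => ∫ (z : ℝ), (z - 1) * hinge (t + ∑ i, a i * x i - z) ∂nu) (muN N) :=
    hint.integral_prod_left
  rw [integral_add (integrable_const _) hi2, integral_integral_swap hint]
  simp only [integral_const, probReal_univ, smul_eq_mul, mul_one]
  congr 1
  refine integral_congr_ae (ae_of_all _ fun z => ?_)
  simp only [integral_const_mul]
  congr 1
  unfold S
  refine integral_congr_ae (ae_of_all _ fun x => ?_)
  simp only
  congr 1
  ring

lemma integrableOn_tail (α d : ℝ) (hα : 0 < α) :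
    IntegrableOn (fun z => (z - 1) * Real.exp (-(α * z))) (Ioi d) := by
  apply integrable_of_isBigO_exp_neg (b := α / 2) (by positivity)
  · exact Continuous.continuousOn (by fun_prop)
  · apply Asymptotics.IsBigO.of_bound (2 / α)
    filter_upwards [Filter.eventually_ge_atTop (1:ℝ)] with z hz
    rw [Real.norm_eq_abs, Real.norm_eq_abs, abs_mul, abs_of_pos (Real.exp_pos _), abs_of_pos (Real.exp_pos _),
      abs_of_nonneg (by linarith)]
    have h1 : α / 2 * z ≤ Real.exp (α / 2 * z) := by
      have := Real.add_one_le_exp (α / 2 * z); linarith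
    have h2 : z ≤ 2 / α * Real.exp (α / 2 * z) := by
      calc z = 2 / α * (α / 2 * z) := by field_simp
        _ ≤ _ := by gcongr
    have e : Real.exp (-(α * z)) = Real.exp (-(α / 2 * z)) * Real.exp (-(α / 2) * z) := by
      rw [← Real.exp_add]; congr 1; ring
    rw [e, ← mul_assoc]
    apply mul_le_mul_of_nonneg_right _ (Real.exp_pos _).le
    calc (z - 1) * Real.exp (-(α / 2 * z)) ≤ (2 / α * Real.exp (α / 2 * z)) * Real.exp (-(α / 2 * z)) := by
          apply mul_le_mul_of_nonneg_right _ (Real.exp_pos _).le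
          linarith
      _ = 2 / α := by rw [mul_assoc, ← Real.exp_add]; simp

lemma integral_tail (α d : ℝ) (hα : 0 < α) :
    ∫ z in Ioi d, (z - 1) * Real.exp (-(α * z)) = ((d - 1) / α + 1 / α ^ 2) * Real.exp (-(α * d)) := by
  have hd : ∀ z ∈ Ici d, HasDerivAt (fun z => -((z - 1) / α + 1 / α ^ 2) * Real.exp (-(α * z)))
      ((z - 1) * Real.exp (-(α * z))) z := by
    intro z _
    have h1 : HasDerivAt (fun z : ℝ => -((z - 1) / α + 1 / α ^ 2)) (-(1 / α)) z := by
      have := ((((hasDerivAt_id z).sub_const 1).div_const α).add_const (1 / α ^ 2)).neg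
      exact this
    have h2 : HasDerivAt (fun z : ℝ => Real.exp (-(α * z))) (Real.exp (-(α * z)) * (-(α * 1))) z := by
      exact (((hasDerivAt_id z).const_mul α).neg).exp
    have h3 := h1.mul h2
    have e : -(1 / α) * Real.exp (-(α * z)) + -((z - 1) / α + 1 / α ^ 2) * (Real.exp (-(α * z)) * (-(α * 1))) =
      (z - 1) * Real.exp (-(α * z)) := by field_simp; ring
    rw [e] at h3
    exact h3
  have hlim : Filter.Tendsto (fun z => -((z - 1) / α + 1 / α ^ 2) * Real.exp (-(α * z))) Filter.atTop (nhds 0) := by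
    have h1 : Filter.Tendsto (fun z : ℝ => α * z) Filter.atTop Filter.atTop :=
      Filter.tendsto_id.const_mul_atTop hα
    have h2 := (Real.tendsto_pow_mul_exp_neg_atTop_nhds_zero 1).comp h1
    have h3 := (Real.tendsto_pow_mul_exp_neg_atTop_nhds_zero 0).comp h1
    have h4 := (h2.const_mul (-(1 / α ^ 2))).add (h3.const_mul (1 / α - 1 / α ^ 2))
    simp only [mul_zero, add_zero] at h4
    refine h4.congr fun z => ?_
    simp only [Function.comp, pow_one, pow_zero]
    field_simp
    ring
  rw [integral_Ioi_of_hasDerivAt_of_tendsto' hd (integrableOn_tail α d hα) hlim]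
  ring

/-- the comparison value -/
lemma B_value_large {c : ℝ} (hc : 4 / 3 ≤ c) :
    ∫ z, (z - 1) * B c (4 / 3 - z) ∂nu = - ((c / (1 + c)) ^ 2 * Real.exp (4 / 3 / c - 1)) := by
  have hc0 : 0 < c := by linarith
  rw [integral_nu]
  have h1 : ∫ z in Ioi (0:ℝ), Real.exp (-z) * ((z - 1) * B c (4 / 3 - z)) =
      ∫ z in Ioi (0:ℝ), (c * Real.exp (4 / 3 / c - 1)) * ((z - 1) * Real.exp (-((1 + 1 / c) * z))) := by
    refine setIntegral_congr_fun measurableSet_Ioi fun z hz => ?_
    have hz' : (0:ℝ) < z := hz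
    unfold B
    rw [if_pos (by linarith)]
    have e : Real.exp ((4 / 3 - z) / c - 1) = Real.exp (4 / 3 / c - 1) * Real.exp (-(z / c)) := by
      rw [← Real.exp_add]; congr 1; ring
    have e2 : Real.exp (-((1 + 1 / c) * z)) = Real.exp (-z) * Real.exp (-(z / c)) := by
      rw [← Real.exp_add]; congr 1; ring
    rw [e, e2]; ring
  rw [h1, integral_const_mul, integral_tail _ _ (by positivity)]
  simp only [mul_zero, neg_zero, Real.exp_zero, mul_one]
  field_simp
  ring

lemma B_value_small {c : ℝ} (hc0 : 0 < c) (hc : c ≤ 4 / 3) :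
    ∫ z, (z - 1) * B c (4 / 3 - z) ∂nu =
      Real.exp (c - 4 / 3) * ((7 / 3 + 7 / 3 * c - c ^ 2) / (1 + c) ^ 2) - 1 := by
  rw [integral_nu]
  set d := 4 / 3 - c with hd
  have hd0 : 0 ≤ d := by linarith
  have i1 : IntegrableOn (fun z => (c * Real.exp (4 / 3 / c - 1)) * ((z - 1) * Real.exp (-((1 + 1 / c) * z)))) (Ioi d) :=
    (integrableOn_tail _ d (by positivity)).const_mul _
  have f1 : ∀ z ∈ Ioi d, (c * Real.exp (4 / 3 / c - 1)) * ((z - 1) * Real.exp (-((1 + 1 / c) * z))) =
      Real.exp (-z) * ((z - 1) * B c (4 / 3 - z)) := by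
    intro z hz
    have hz' : d < z := hz
    unfold B
    rw [if_pos (by linarith)]
    have e : Real.exp ((4 / 3 - z) / c - 1) = Real.exp (4 / 3 / c - 1) * Real.exp (-(z / c)) := by
      rw [← Real.exp_add]; congr 1; ring
    have e2 : Real.exp (-((1 + 1 / c) * z)) = Real.exp (-z) * Real.exp (-(z / c)) := by
      rw [← Real.exp_add]; congr 1; ring
    rw [e, e2]; ring
  have f2 : ∀ z ∈ Ioc 0 d, (z - 1) * (4 / 3 - z) * Real.exp (-z) = Real.exp (-z) * ((z - 1) * B c (4 / 3 - z)) := by
    intro z hz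
    unfold B
    split_ifs with h
    · have : z = d := le_antisymm hz.2 (by linarith)
      rw [this]
      have e : (4 / 3 - d) / c - 1 = 0 := by
        have : 4 / 3 - d = c := by rw [hd]; ring
        rw [this]; field_simp; ring
      rw [e, Real.exp_zero, mul_one]
      have : 4 / 3 - d = c := by rw [hd]; ring
      rw [this]; ring
    · ring
  rw [← Ioc_union_Ioi_eq_Ioi hd0, setIntegral_union (Ioc_disjoint_Ioi le_rfl) measurableSet_Ioi]
  · rw [← setIntegral_congr_fun measurableSet_Ioi f1, ← setIntegral_congr_fun measurableSet_Ioc f2,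
      ← intervalIntegral.integral_of_le hd0, integral_poly, integral_const_mul, integral_tail _ _ (by positivity)]
    have e : Real.exp (4 / 3 / c - 1) * Real.exp (-((1 + 1 / c) * d)) = Real.exp (c - 4 / 3) := by
      rw [← Real.exp_add]; congr 1
      rw [hd]; field_simp; ring
    have e2 : Real.exp (-d) = Real.exp (c - 4 / 3) := by congr 1; rw [hd]; ring
    have e3 : c * Real.exp (4 / 3 / c - 1) * (((d - 1) / (1 + 1 / c) + 1 / (1 + 1 / c) ^ 2) * Real.exp (-((1 + 1 / c) * d)))
      = Real.exp (c - 4 / 3) * (c * ((d - 1) / (1 + 1 / c) + 1 / (1 + 1 / c) ^ 2)) := by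
      rw [← e]; ring
    rw [e3, e2, hd]
    field_simp
    ring
  · refine IntegrableOn.congr_fun ?_ f2 measurableSet_Ioc
    exact Continuous.integrableOn_Ioc (by fun_prop)
  · exact i1.congr_fun f1 measurableSet_Ioi

lemma exp_third : Real.exp (-(1/3)) ≤ 18 / 25 := by
  have h := Real.quadratic_le_exp_of_nonneg (show (0:ℝ) ≤ 1/3 by norm_num)
  rw [Real.exp_neg, inv_le_comm₀ (Real.exp_pos _) (by norm_num)]
  norm_num at h ⊢
  linarith

lemma bound_large {c : ℝ} (hc : 4 / 3 ≤ c) :
    4 / 9 * Real.exp (-(1/3)) ≤ (c / (1 + c)) ^ 2 * Real.exp (4 / 3 / c - 1) := by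
  have hc0 : 0 < c := by linarith
  have h1 : (1 + 1 / c) / (3 / 2) ≤ Real.exp (2 / 3 * (1 / c - 1 / 2)) := by
    have := Real.add_one_le_exp (2 / 3 * (1 / c - 1 / 2))
    refine le_trans (le_of_eq ?_) this
    ring
  have h2 : ((1 + 1 / c) / (3 / 2)) ^ 2 ≤ Real.exp (4 / 3 / c - 2 / 3) := by
    calc ((1 + 1 / c) / (3 / 2)) ^ 2 ≤ (Real.exp (2 / 3 * (1 / c - 1 / 2))) ^ 2 := by
          apply pow_le_pow_left₀ (by positivity) h1
      _ = _ := by rw [← Real.exp_nat_mul]; congr 1; push_cast; ring
  have e : Real.exp (4 / 3 / c - 1) = Real.exp (4 / 3 / c - 2 / 3) * Real.exp (-(1/3)) := by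
    rw [← Real.exp_add]; congr 1; ring
  rw [e, ← mul_assoc]
  apply mul_le_mul_of_nonneg_right _ (Real.exp_pos _).le
  have e2 : (4 / 9 : ℝ) = (c / (1 + c)) ^ 2 * ((1 + 1 / c) / (3 / 2)) ^ 2 := by
    field_simp; ring
  rw [e2]
  gcongr

lemma bound_small {c : ℝ} (hc0 : 1 / 3 ≤ c) (hc : c ≤ 4 / 3) :
    Real.exp (c - 4 / 3) * ((7 / 3 + 7 / 3 * c - c ^ 2) / (1 + c) ^ 2) ≤ 17 / 25 := by
  set v := 4 / 3 - c with hv
  have hv0 : 0 ≤ v := by linarith
  have hv1 : v ≤ 1 := by linarith
  have hcv : c = 4 / 3 - v := by linarith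
  have h := Real.quadratic_le_exp_of_nonneg hv0
  have hR : 7 / 3 + 7 / 3 * c - c ^ 2 ≤ 17 / 25 * (1 + v + v ^ 2 / 2) * (1 + c) ^ 2 := by
    rw [hcv]
    nlinarith [mul_nonneg hv0 (sub_nonneg.2 hv1), mul_nonneg hv0 hv0, mul_nonneg (mul_nonneg hv0 hv0) (sub_nonneg.2 hv1),
      mul_nonneg (mul_nonneg (mul_nonneg hv0 hv0) hv0) (sub_nonneg.2 hv1)]
  have e : Real.exp (c - 4 / 3) = (Real.exp v)⁻¹ := by
    rw [← Real.exp_neg]; congr 1; rw [hv]; ring
  rw [e, inv_mul_le_iff₀ (Real.exp_pos _), div_le_iff₀ (by positivity)]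
  refine hR.trans ?_
  have : 0 ≤ (1 + c) ^ 2 := by positivity
  nlinarith [mul_le_mul_of_nonneg_right h this]

lemma integrable_B {c : ℝ} (hc : 0 < c) (t : ℝ) : Integrable (fun z => (z - 1) * B c (t - z)) nu := by
  have hg : Integrable (fun z : ℝ => (|z| + 1) * (c + |t| + |z|)) nu := by
    have e : (fun z : ℝ => (|z| + 1) * (c + |t| + |z|)) = fun z => z ^ 2 + (c + |t| + 1) * |z| + (c + |t|) := by
      funext z
      rw [← sq_abs z]; ring
    rw [e]
    exact (integrable_sq_nu.add (integrable_abs_nu.const_mul _)).add (integrable_const _)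
  have hm : Measurable (B c) := by
    unfold B
    exact Measurable.ite measurableSet_Iic (by fun_prop) measurable_id
  refine hg.mono' ?_ ?_
  · exact Measurable.aestronglyMeasurable (by fun_prop)
  · refine ae_of_all _ fun z => ?_
    rw [Real.norm_eq_abs, abs_mul]
    have h1 : |B c (t - z)| ≤ c + |t| + |z| := by
      have h3 := abs_sub t z
      unfold B
      split_ifs with h
      · rw [abs_mul, abs_of_pos hc, abs_of_pos (Real.exp_pos _)]
        have : Real.exp ((t - z) / c - 1) ≤ 1 := by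
          rw [Real.exp_le_one_iff]
          have : (t - z) / c ≤ 1 := by rw [div_le_one hc]; exact h
          linarith
        have h5 := abs_nonneg t
        have h6 := abs_nonneg z
        nlinarith
      · linarith
    have h2 : |z - 1| ≤ |z| + 1 := by
      have := abs_sub z 1
      simpa using this
    exact mul_le_mul h2 h1 (abs_nonneg _) (by positivity)

lemma upper {N : ℕ} (a : Fin N → ℝ) (ha : ∑ i, a i = 0) :
    ∫ x, Crest.AlgGeometry.truncExpWeight (4 / 3 + ∑ i, a i * x i) ∂(muN N) ≤ 1 - 4 / 9 * Real.exp (-(1/3)) := by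
  rw [E_g]
  set K := S N a hinge with hK
  have hgood : Good K := S_good hinge_good N a
  have hge : ∀ y, y ≤ K y := K_ge a ha
  obtain ⟨c, hc, hck⟩ := exists_c (hge (1/3))
  obtain ⟨hcmp1, hcmp2⟩ := comparison hgood hge hc hck
  have hc0 : 0 < c := by linarith
  have hle : ∫ z, (z - 1) * K (4 / 3 - z) ∂nu ≤ ∫ z, (z - 1) * B c (4 / 3 - z) ∂nu := by
    refine integral_mono (integrable_weight hgood.lip _) ?_ fun z => ?_
    · exact integrable_B hc0 _
    · simp only
      rcases le_total z 1 with hz | hz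
      · have := hcmp1 (4 / 3 - z) (by linarith)
        nlinarith
      · have := hcmp2 (4 / 3 - z) (by linarith)
        nlinarith
  rcases le_total c (4/3) with h | h
  · rw [B_value_small hc0 h] at hle
    have h1 := bound_small hc h
    have h2 := exp_third
    linarith
  · rw [B_value_large h] at hle
    have h1 := bound_large h
    linarith


open Crest.AlgGeometry

lemma integral_abs_nu_le : ∫ z, (|z - 1|) ∂nu ≤ 2 := by
  have h1 : ∫ z, (|z - 1|) ∂nu ≤ ∫ z, (z + 1) ∂nu := by
    refine integral_mono_ae ((integrable_id_nu.sub (integrable_const _)).abs) (integrable_id_nu.add (integrable_const _)) ?_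
    have : ∀ᵐ z ∂nu, 0 < z := by
      rw [nu, ae_withDensity_iff (by fun_prop)]
      filter_upwards [ae_restrict_mem measurableSet_Ioi] with z hz _
      exact hz
    filter_upwards [this] with z hz
    rw [abs_le]; constructor <;> linarith
  refine h1.trans ?_
  rw [integral_add integrable_id_nu (integrable_const _), integral_id_nu]
  simp; norm_num

lemma g_lip (x y : ℝ) : |truncExpWeight x - truncExpWeight y| ≤ 2 * |x - y| := by
  rw [g_repr, g_repr]
  have e : 1 + ∫ z, (z - 1) * hinge (x - z) ∂nu - (1 + ∫ z, (z - 1) * hinge (y - z) ∂nu) =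
      ∫ z, (z - 1) * (hinge (x - z) - hinge (y - z)) ∂nu := by
    rw [add_sub_add_left_eq_sub, ← integral_sub (integrable_weight hinge_lip x) (integrable_weight hinge_lip y)]
    congr 1; funext z; ring
  rw [e]
  calc |∫ z, (z - 1) * (hinge (x - z) - hinge (y - z)) ∂nu| ≤ ∫ z, |(z - 1) * (hinge (x - z) - hinge (y - z))| ∂nu :=
        abs_integral_le_integral_abs
    _ ≤ ∫ z, |z - 1| * |x - y| ∂nu := by
        refine integral_mono_of_nonneg (ae_of_all _ fun _ => abs_nonneg _)
          (((integrable_id_nu.sub (integrable_const _)).abs).mul_const _) (ae_of_all _ fun z => ?_)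
        simp only [abs_mul]
        apply mul_le_mul_of_nonneg_left _ (abs_nonneg _)
        have := hinge_lip (x - z) (y - z)
        simpa using this
    _ = (∫ z, |z - 1| ∂nu) * |x - y| := by rw [integral_mul_const]
    _ ≤ 2 * |x - y| := mul_le_mul_of_nonneg_right integral_abs_nu_le (abs_nonneg _)

lemma continuous_g : Continuous truncExpWeight := by
  have : LipschitzWith 2 truncExpWeight := by
    refine LipschitzWith.of_dist_le_mul fun x y => ?_
    simpa [Real.dist_eq] using g_lip x y
  exact this.continuous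

lemma g_bound (x : ℝ) : |truncExpWeight x| ≤ 1 := by
  unfold truncExpWeight
  split_ifs with h
  · simp
  · push Not at h
    rw [abs_of_nonneg (by positivity), Real.exp_neg, ← div_eq_mul_inv, div_le_one (Real.exp_pos _)]
    have := Real.add_one_le_exp x
    linarith

lemma base_value : ∫ u, truncExpWeight (-(2/3) + 2 * u) ∂nu = 1 - 4 / 9 * Real.exp (-(1/3)) := by
  rw [integral_nu]
  have f1 : ∀ z ∈ Ioc (0:ℝ) (1/3), Real.exp (-z) = Real.exp (-z) * truncExpWeight (-(2/3) + 2 * z) := by
    intro z hz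
    unfold truncExpWeight
    rw [if_pos (by linarith [hz.2]), mul_one]
  have f2 : ∀ z ∈ Ioi (1/3:ℝ), Real.exp (2/3) * (2 * ((z - 1) * Real.exp (-(3 * z))) + 7 / 3 * Real.exp (-(3 * z))) =
      Real.exp (-z) * truncExpWeight (-(2/3) + 2 * z) := by
    intro z hz
    have hz' : (1/3:ℝ) < z := hz
    unfold truncExpWeight
    rw [if_neg (by push Not; linarith)]
    have e : Real.exp (-(3 * z)) = Real.exp (-(2/3)) * Real.exp (-z) * Real.exp (-(-(2/3) + 2 * z)) := by
      rw [← Real.exp_add, ← Real.exp_add]; congr 1; ring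
    rw [e]
    have e2 : Real.exp (2/3) * Real.exp (-(2/3)) = 1 := by rw [← Real.exp_add]; simp
    linear_combination (Real.exp (-z) * Real.exp (-(-(2/3) + 2 * z)) * (2 * (z-1) + 7/3)) * e2
  have i2 : IntegrableOn (fun z : ℝ => Real.exp (-(3 * z))) (Ioi (1/3)) := by
    have := integrableOn_exp_mul_Ioi (a := -3) (by norm_num) (1/3)
    refine this.congr_fun (fun z _ => ?_) measurableSet_Ioi
    simp only; congr 1; ring
  have v2 : ∫ z in Ioi (1/3:ℝ), Real.exp (-(3 * z)) = Real.exp (-1) / 3 := by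
    have := integral_exp_mul_Ioi (a := -3) (by norm_num) (1/3)
    simp only [neg_mul] at this
    rw [this]
    norm_num
  rw [← Ioc_union_Ioi_eq_Ioi (show (0:ℝ) ≤ 1/3 by norm_num), setIntegral_union (Ioc_disjoint_Ioi le_rfl) measurableSet_Ioi]
  · rw [← setIntegral_congr_fun measurableSet_Ioi f2, ← setIntegral_congr_fun measurableSet_Ioc f1,
      integral_const_mul, integral_add ((integrableOn_tail 3 _ (by norm_num)).const_mul _) (i2.const_mul _),
      integral_const_mul, integral_const_mul, integral_tail _ _ (by norm_num), v2,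
      ← intervalIntegral.integral_of_le (by norm_num)]
    have e1 : ∫ z in (0:ℝ)..(1/3), Real.exp (-z) = 1 - Real.exp (-(1/3)) := by
      rw [intervalIntegral.integral_comp_neg (fun z => Real.exp z), integral_exp]; simp
    have e2 : Real.exp (-(3 * (1/3))) = Real.exp (-1) := by congr 1; norm_num
    have e3 : Real.exp (-(1/3)) = Real.exp (2/3) * Real.exp (-1) := by
      rw [← Real.exp_add]; congr 1; norm_num
    rw [e1, e2, e3]
    ring
  · refine IntegrableOn.congr_fun ?_ f1 measurableSet_Ioc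
    exact Continuous.integrableOn_Ioc (by fun_prop)
  · refine IntegrableOn.congr_fun ?_ f2 measurableSet_Ioi
    exact ((((integrableOn_tail 3 _ (by norm_num)).const_mul _)).add (i2.const_mul _)).const_mul _

open ProbabilityTheory

lemma memLp_nu (b : ℝ) : MemLp (fun u => b * u) 2 nu := by
  rw [memLp_two_iff_integrable_sq (by fun_prop)]
  simp only [mul_pow]
  exact integrable_sq_nu.const_mul _

lemma integral_sq_nu : ∫ u, u ^ 2 ∂nu = 2 := by
  rw [integral_nu]
  have := Real.Gamma_eq_integral (s := 3) (by norm_num)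
  have h2 : Real.Gamma 3 = 2 := by
    have h := Real.Gamma_nat_eq_factorial 2
    have e : ((2:ℕ):ℝ) + 1 = 3 := by norm_num
    rw [e] at h
    rw [h]; norm_num [Nat.factorial]
  rw [← h2, this]
  refine setIntegral_congr_fun measurableSet_Ioi fun u _ => ?_
  norm_num

lemma var_nu (b : ℝ) : variance (fun u => b * u) nu = b ^ 2 := by
  rw [variance_eq_sub (memLp_nu b)]
  have e1 : ∫ u, ((fun u => b * u) ^ 2) u ∂nu = b ^ 2 * 2 := by
    rw [← integral_sq_nu, ← integral_const_mul]
    congr 1; funext u; simp [mul_pow]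
  have e2 : ∫ u, b * u ∂nu = b := by rw [integral_const_mul, integral_id_nu, mul_one]
  rw [e1, e2]; ring

lemma lower (ε : ℝ) (hε : 0 < ε) : ∃ (N : ℕ) (a : Fin N → ℝ), 1 ≤ N ∧ ∑ i, a i = 0 ∧
    1 - 4 / 9 * Real.exp (-(1/3)) - ε < ∫ x, truncExpWeight (4 / 3 + ∑ i, a i * x i) ∂(muN N) := by
  obtain ⟨n, hn⟩ := exists_nat_gt (16 / ε ^ 2)
  have hn0 : (0:ℝ) < n := lt_of_le_of_lt (by positivity) hn
  have hnn : n ≠ 0 := by rintro rfl; simp at hn0
  set b : Fin (n+1) → ℝ := Fin.cons 0 (fun _ => -(2/n)) with hb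
  set e0 : Fin (n+1) → ℝ := Fin.cons 2 (fun _ => 0) with he0
  refine ⟨n + 1, fun i => e0 i + b i, by omega, ?_, ?_⟩
  · simp [Fin.sum_univ_succ, hb, he0]; field_simp; ring
  have hbsum : ∑ i, b i = -2 := by
    simp [Fin.sum_univ_succ, hb]; field_simp
  have hbsq : ∑ i, b i ^ 2 = 4 / n := by
    simp [Fin.sum_univ_succ, hb]; field_simp; ring
  set W : (Fin (n+1) → ℝ) → ℝ := fun x => ∑ i, b i * x i with hW
  have hvar : ∫ x, (W x - (-2)) ^ 2 ∂(muN (n+1)) = (4:ℝ) / n := by
    have h1 := variance_sum_pi (μ := fun _ : Fin (n+1) => nu) (X := fun i u => b i * u) (fun i => memLp_nu (b i))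
    have h2 : (∑ i, fun ω : Fin (n+1) → ℝ => b i * ω i) = W := by
      funext ω; simp [hW]
    rw [h2] at h1
    simp only [var_nu, hbsq] at h1
    rw [variance_eq_integral] at h1
    · have h3 : ∫ x, W x ∂(muN (n+1)) = -2 := by rw [hW, integral_lin, hbsum]
      rw [← h1, h3]
    · exact (integrable_lin b).aemeasurable
  have hWi : Integrable (fun x => (W x - (-2)) ^ 2) (muN (n+1)) := by
    by_contra hcon
    rw [integral_undef hcon] at hvar
    have : (0:ℝ) < 4 / n := by positivity
    linarith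
  have hWi1 : Integrable (fun x => |W x - (-2)|) (muN (n+1)) := ((integrable_lin b).sub (integrable_const _)).abs
  -- E|Y| bound
  have hδ : ∫ x, |W x - (-2)| ∂(muN (n+1)) < ε / 2 := by
    have h1 : ∫ x, |W x - (-2)| ∂(muN (n+1)) ≤ ∫ x, ((W x - (-2)) ^ 2 * (1 / ε) + ε / 4) ∂(muN (n+1)) := by
      refine integral_mono hWi1 ((hWi.mul_const _).add (integrable_const _)) fun x => ?_
      simp only
      set y := |W x - (-2)| with hy
      have : (W x - (-2)) ^ 2 = y ^ 2 := by rw [hy, sq_abs]
      rw [this]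
      have h3 : 0 ≤ (y - ε / 2) ^ 2 := sq_nonneg _
      have h4 : y ^ 2 * (1 / ε) + ε / 4 - y = (y - ε / 2) ^ 2 / ε := by field_simp; ring
      have h5 : 0 ≤ (y - ε / 2) ^ 2 / ε := by positivity
      linarith
    have h2 : ∫ x, ((W x - (-2)) ^ 2 * (1 / ε) + ε / 4) ∂(muN (n+1)) = 4 / n * (1 / ε) + ε / 4 := by
      rw [integral_add (hWi.mul_const _) (integrable_const _), integral_mul_const, hvar]
      simp
    have h3 : 4 / n * (1 / ε) < ε / 4 := by
      rw [div_lt_iff₀ (by positivity)] at hn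
      rw [div_mul_div_comm, div_lt_div_iff₀ (by positivity) (by norm_num)]
      nlinarith
    linarith
  have hbase : ∫ x : Fin (n+1) → ℝ, truncExpWeight (-(2/3) + 2 * x 0) ∂(muN (n+1)) = 1 - 4 / 9 * Real.exp (-(1/3)) := by
    rw [← base_value]
    have := (measurePreserving_eval (fun _ : Fin (n+1) => nu) 0)
    have hc := continuous_g
    have h2 := integral_map (μ := muN (n+1)) (φ := fun x => x 0) (f := fun u : ℝ => truncExpWeight (-(2/3) + 2 * u))
      (measurable_pi_apply 0).aemeasurable (Continuous.aestronglyMeasurable (by fun_prop))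
    rw [← h2, this.map_eq]
  have hint : ∀ f : (Fin (n+1) → ℝ) → ℝ, Continuous f → Integrable (fun x => truncExpWeight (f x)) (muN (n+1)) := by
    intro f hf
    refine (integrable_const (1:ℝ)).mono' ?_ (ae_of_all _ fun x => by rw [Real.norm_eq_abs]; exact g_bound _)
    exact (continuous_g.comp hf).aestronglyMeasurable
  have hsplit : ∀ x : Fin (n+1) → ℝ, 4 / 3 + ∑ i, (e0 i + b i) * x i = (-(2/3) + 2 * x 0) + (W x - (-2)) := by
    intro x
    have h1 : ∑ i, e0 i * x i = 2 * x 0 := by simp [Fin.sum_univ_succ, he0]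
    simp only [add_mul, Finset.sum_add_distrib, h1, hW]
    ring
  have hdiff : |∫ x, (truncExpWeight (4 / 3 + ∑ i, (e0 i + b i) * x i) - truncExpWeight (-(2/3) + 2 * x 0)) ∂(muN (n+1))|
      < ε := by
    calc _ ≤ ∫ x, |truncExpWeight (4 / 3 + ∑ i, (e0 i + b i) * x i) - truncExpWeight (-(2/3) + 2 * x 0)| ∂(muN (n+1)) :=
          abs_integral_le_integral_abs
      _ ≤ ∫ x, 2 * |W x - (-2)| ∂(muN (n+1)) := by
          refine integral_mono_of_nonneg (ae_of_all _ fun _ => abs_nonneg _) (hWi1.const_mul _) (ae_of_all _ fun x => ?_)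
          simp only
          have := g_lip (4 / 3 + ∑ i, (e0 i + b i) * x i) (-(2/3) + 2 * x 0)
          rw [hsplit x] at this ⊢
          simpa using this
      _ = 2 * ∫ x, |W x - (-2)| ∂(muN (n+1)) := by rw [integral_const_mul]
      _ < ε := by linarith
  rw [integral_sub (hint _ (by fun_prop)) (hint _ (by fun_prop)), hbase] at hdiff
  have := (abs_lt.1 hdiff).1
  beta_reduce
  linarith

theorem result :
    (∀ (N : ℕ) (a : Fin N → ℝ), 1 ≤ N → ∑ i, a i = 0 →
      Real.exp (4 / 3) / (4 / 3) *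
          ∫ x in Set.pi Set.univ (fun _ : Fin N => Set.Ioi (0 : ℝ)),
            Crest.AlgGeometry.truncExpWeight (4 / 3 + ∑ i, a i * x i) * Real.exp (-∑ i, x i)
        ≤ 3 / 4 * Real.exp (4 / 3) - Real.exp 1 / 3) ∧
    (∀ ε : ℝ, 0 < ε → ∃ (N : ℕ) (a : Fin N → ℝ), 1 ≤ N ∧ ∑ i, a i = 0 ∧
      3 / 4 * Real.exp (4 / 3) - Real.exp 1 / 3 - ε <
        Real.exp (4 / 3) / (4 / 3) *
          ∫ x in Set.pi Set.univ (fun _ : Fin N => Set.Ioi (0 : ℝ)),
            Crest.AlgGeometry.truncExpWeight (4 / 3 + ∑ i, a i * x i) * Real.exp (-∑ i, x i)) := by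
  have hE : 0 < Real.exp (4/3) := Real.exp_pos _
  have hval : Real.exp (4 / 3) / (4 / 3) * (1 - 4 / 9 * Real.exp (-(1/3))) = 3 / 4 * Real.exp (4 / 3) - Real.exp 1 / 3 := by
    have e : Real.exp 1 = Real.exp (4/3) * Real.exp (-(1/3)) := by rw [← Real.exp_add]; congr 1; norm_num
    rw [e]; ring
  constructor
  · intro N a _ ha
    rw [integral_muN N (fun x => truncExpWeight (4 / 3 + ∑ i, a i * x i)), ← hval]
    exact mul_le_mul_of_nonneg_left (upper a ha) (by positivity)
  · intro ε hε
    obtain ⟨N, a, h1, h2, h3⟩ := lower (ε / Real.exp (4/3)) (by positivity)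
    refine ⟨N, a, h1, h2, ?_⟩
    rw [integral_muN N (fun x => truncExpWeight (4 / 3 + ∑ i, a i * x i)), ← hval]
    have h4 : Real.exp (4 / 3) / (4 / 3) * (1 - 4 / 9 * Real.exp (-(1/3)) - ε / Real.exp (4/3)) <
      Real.exp (4 / 3) / (4 / 3) * ∫ x, truncExpWeight (4 / 3 + ∑ i, a i * x i) ∂(muN N) :=
      mul_lt_mul_of_pos_left h3 (by positivity)
    refine lt_of_le_of_lt ?_ h4
    rw [mul_sub (Real.exp (4 / 3) / (4 / 3)) _ (ε / Real.exp (4/3))]
    have : Real.exp (4 / 3) / (4 / 3) * (ε / Real.exp (4/3)) = 3 / 4 * ε := by field_simp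
    rw [this]
    linarith

end Crest.Agent.S0423
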