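import Crest.Agent.SWDefs

/-! Module CONN of row 299 (S0453): a function constant on all classes is constant. -/

set_option autoImplicit false

namespace Crest.Agent.SW.Conn

open Finset Crest.Agent.SW

variable {V : Type*} [Fintype V] [DecidableEq V]

lemma fl_comm {a b p q : V} {x : St V} (hx : IsG x) (u v : V) :
    fl a b p q x u v = fl a b p q x v u := by
  unfold fl
  rw [hx.1 u v]
  by_cases h1 : ((u = a ∨ u = b) ∧ (v = p ∨ v = q)) ∨ ((u = p ∨ u = q) ∧ (v = a ∨ v = b))
  · have h2 : ((v = a ∨ v = b) ∧ (u = p ∨ u = q)) ∨ ((v = p ∨ v = q) ∧ (u = a ∨ u = b)) := by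
      tauto
    rw [if_pos h1, if_pos h2]
  · have h2 : ¬ (((v = a ∨ v = b) ∧ (u = p ∨ u = q)) ∨ ((v = p ∨ v = q) ∧ (u = a ∨ u = b))) := by
      tauto
    rw [if_neg h1, if_neg h2]

/-- the data of a switch -/
structure Sw (a b v c : V) (x : St V) : Prop where
  ab : a ≠ b
  av : a ≠ v
  ac : a ≠ c
  bv : b ≠ v
  bc : b ≠ c
  vc : v ≠ c
  xav : x a v = false
  xac : x a c = true
  xbv : x b v = true
  xbc : x b c = false

lemma fl_isG {a b v c : V} {x : St V} (h : Sw a b v c x) (hx : IsG x) :
    IsG (fl a b v c x) := by
  refine ⟨fun u w => fl_comm hx u w, fun u => ?_⟩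
  unfold fl
  rw [if_neg, hx.2]
  rintro (⟨h1, h2⟩ | ⟨h1, h2⟩)
  · rcases h1 with rfl | rfl <;> rcases h2 with h2 | h2
    · exact h.av h2
    · exact h.ac h2
    · exact h.bv h2
    · exact h.bc h2
  · rcases h1 with rfl | rfl <;> rcases h2 with h2 | h2
    · exact h.av h2.symm
    · exact h.bv h2.symm
    · exact h.ac h2.symm
    · exact h.bc h2.symm

lemma fl_other {a b v c : V} {x : St V} {u : V} (ha : u ≠ a) (hb : u ≠ b) (hv : u ≠ v)
    (hc : u ≠ c) (w : V) : fl a b v c x u w = x u w := by
  unfold fl
  rw [if_neg]
  rintro (⟨h1, _⟩ | ⟨h1, _⟩) <;> rcases h1 with h1 | h1 <;> contradiction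

lemma fl_row_ab {a b v c : V} {x : St V} (h : Sw a b v c x) {u : V} (hu : u = a ∨ u = b) (w : V) :
    fl a b v c x u w = x u (Equiv.swap v c w) := by
  unfold fl
  by_cases h1 : w = v
  · subst h1
    rw [Equiv.swap_apply_left, if_pos (Or.inl ⟨hu, Or.inl rfl⟩)]
    rcases hu with rfl | rfl
    · rw [h.xav, h.xac]; rfl
    · rw [h.xbv, h.xbc]; rfl
  · by_cases h2 : w = c
    · subst h2
      rw [Equiv.swap_apply_right, if_pos (Or.inl ⟨hu, Or.inr rfl⟩)]
      rcases hu with rfl | rfl
      · rw [h.xav, h.xac]; rfl
      · rw [h.xbv, h.xbc]; rfl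
    · rw [Equiv.swap_apply_of_ne_of_ne h1 h2, if_neg]
      rintro (⟨_, h3⟩ | ⟨h3, _⟩)
      · rcases h3 with h3 | h3
        · exact h1 h3
        · exact h2 h3
      · rcases hu with rfl | rfl <;> rcases h3 with h3 | h3
        · exact h.av h3
        · exact h.ac h3
        · exact h.bv h3
        · exact h.bc h3

lemma fl_row_vc {a b v c : V} {x : St V} (h : Sw a b v c x) (hx : IsG x) {u : V}
    (hu : u = v ∨ u = c) (w : V) :
    fl a b v c x u w = x u (Equiv.swap a b w) := by
  unfold fl
  by_cases h1 : w = a
  · subst h1
    rw [Equiv.swap_apply_left, if_pos (Or.inr ⟨hu, Or.inl rfl⟩)]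
    rcases hu with rfl | rfl
    · rw [hx.1 u w, hx.1 u b, h.xav, h.xbv]; rfl
    · rw [hx.1 u w, hx.1 u b, h.xac, h.xbc]; rfl
  · by_cases h2 : w = b
    · subst h2
      rw [Equiv.swap_apply_right, if_pos (Or.inr ⟨hu, Or.inr rfl⟩)]
      rcases hu with rfl | rfl
      · rw [hx.1 u w, hx.1 u a, h.xav, h.xbv]; rfl
      · rw [hx.1 u w, hx.1 u a, h.xac, h.xbc]; rfl
    · rw [Equiv.swap_apply_of_ne_of_ne h1 h2, if_neg]
      rintro (⟨h3, _⟩ | ⟨_, h3⟩)
      · rcases hu with rfl | rfl <;> rcases h3 with h3 | h3
        · exact h.av h3.symm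
        · exact h.bv h3.symm
        · exact h.ac h3.symm
        · exact h.bc h3.symm
      · rcases h3 with h3 | h3
        · exact h1 h3
        · exact h2 h3

lemma card_swap (r : V → Bool) (e : V ≃ V) :
    (univ.filter fun w => r (e w) = true).card = (univ.filter fun w => r w = true).card := by
  refine Finset.card_equiv e fun w => ?_
  simp

lemma fl_dg {a b v c : V} {x : St V} (h : Sw a b v c x) (hx : IsG x) (u : V) :
    dg (fl a b v c x) u = dg x u := by
  unfold dg
  by_cases h1 : u = a ∨ u = b
  · rw [← card_swap (x u) (Equiv.swap v c)]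
    simp only [fl_row_ab h h1]
  · by_cases h2 : u = v ∨ u = c
    · rw [← card_swap (x u) (Equiv.swap a b)]
      simp only [fl_row_vc h hx h2]
    · push Not at h1 h2
      simp only [fl_other h1.1 h1.2 h2.1 h2.2]

lemma mem_Om {d : V → ℕ} {x : St V} : x ∈ Om d ↔ IsG x ∧ ∀ u, dg x u = d u := by
  unfold Om
  rw [Finset.mem_filter]
  simp

lemma fl_mem {d : V → ℕ} {a b v c : V} {x : St V} (h : Sw a b v c x) (hx : x ∈ Om d) :
    fl a b v c x ∈ Om d := by
  rw [mem_Om] at hx ⊢
  exact ⟨fl_isG h hx.1, fun u => by rw [fl_dg h hx.1, hx.2]⟩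

lemma fl_lab {a b v c : V} {x : St V} (h : Sw a b v c x) :
    lab a b (fl a b v c x) = lab a b x := by
  funext u w
  unfold lab
  split_ifs with h1
  · unfold fl
    rw [if_neg]
    rintro (⟨h2, h3⟩ | ⟨h2, h3⟩)
    · have h4 := h1.1 h2
      rcases h3 with rfl | rfl <;> rcases h4 with h4 | h4
      · exact h.av h4.symm
      · exact h.bv h4.symm
      · exact h.ac h4.symm
      · exact h.bc h4.symm
    · have h4 := h1.2 h3
      rcases h2 with rfl | rfl <;> rcases h4 with h4 | h4
      · exact h.av h4.symm
      · exact h.bv h4.symm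
      · exact h.ac h4.symm
      · exact h.bc h4.symm
  · rfl

/-- degree outside `F` -/
def dF (F : Finset V) (x : St V) (u : V) : ℕ := (univ.filter fun w => w ∉ F ∧ x u w = true).card

lemma exists_c {x : St V} (hx : IsG x) {F : Finset V} {a b v : V} (hab : a ≠ b) (hav : a ≠ v)
    (haF : a ∉ F) (hvF : v ∉ F) (h1 : x a v = false) (h2 : x b v = true)
    (hD : dF F x b ≤ dF F x a) : ∃ c, c ∉ F ∧ Sw a b v c x := by
  by_contra hcon
  push Not at hcon
  have key : ∀ c, c ∉ F → x a c = true → c = b ∨ x b c = true := by
    intro c hc hac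
    by_contra h3
    push Not at h3
    obtain ⟨h4, h5⟩ := h3
    refine hcon c hc ⟨hab, hav, ?_, ?_, fun h => h4 h.symm, ?_, h1, hac, h2, by simpa using h5⟩
    · rintro rfl
      rw [hx.2] at hac
      exact Bool.false_ne_true hac
    · rintro rfl
      rw [hx.2] at h2
      exact Bool.false_ne_true h2
    · rintro rfl
      rw [h1] at hac
      exact Bool.false_ne_true hac
  have hlt : dF F x a < dF F x b := by
    have hvB : v ∈ univ.filter (fun w => w ∉ F ∧ x b w = true) := by
      simp [hvF, h2]
    have hle : dF F x a ≤ ((univ.filter (fun w => w ∉ F ∧ x b w = true)).erase v).card := by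
      unfold dF
      refine Finset.card_le_card_of_injOn (fun w => if w = b then a else w) ?_ ?_
      · intro w hw
        simp only [coe_filter, mem_univ, true_and, Set.mem_ofPred_eq] at hw
        obtain ⟨hwF, hw⟩ := hw
        simp only [coe_erase, coe_filter, mem_univ, true_and, Set.mem_sdiff, Set.mem_ofPred_eq,
          Set.mem_singleton_iff]
        split_ifs with hwb
        · subst hwb
          exact ⟨⟨haF, by rw [hx.1]; exact hw⟩, hav⟩
        · refine ⟨⟨hwF, ?_⟩, ?_⟩
          · rcases key w hwF hw with h3 | h3
            · exact absurd h3 hwb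
            · exact h3
          · rintro rfl
            rw [h1] at hw
            exact Bool.false_ne_true hw
      · intro w hw w' hw' hww
        simp only [coe_filter, mem_univ, true_and, Set.mem_ofPred_eq] at hw hw'
        simp only at hww
        have hwa : w ≠ a := by
          rintro rfl
          rw [hx.2] at hw
          exact Bool.false_ne_true hw.2
        have hwa' : w' ≠ a := by
          rintro rfl
          rw [hx.2] at hw'
          exact Bool.false_ne_true hw'.2
        split_ifs at hww with h3 h4 h4
        · rw [h3, h4]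
        · exact absurd hww.symm hwa'
        · exact absurd hww hwa
        · exact hww
    rw [Finset.card_erase_of_mem hvB] at hle
    have hpos : 0 < (univ.filter (fun w => w ∉ F ∧ x b w = true)).card :=
      Finset.card_pos.2 ⟨v, hvB⟩
    unfold dF at hle ⊢
    omega
  omega

lemma dF_eq {d : V → ℕ} {x y : St V} (hx : x ∈ Om d) (hy : y ∈ Om d) {F : Finset V}
    (hF : ∀ u ∈ F, ∀ w, x u w = y u w) (u : V) : dF F x u = dF F y u := by
  rw [mem_Om] at hx hy
  have e : ∀ z : St V, dg z u = (univ.filter fun w => w ∈ F ∧ z u w = true).card + dF F z u := by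
    intro z
    unfold dg dF
    rw [← Finset.card_filter_add_card_filter_not (s := univ.filter fun w => z u w = true)
      (fun w => w ∈ F), Finset.filter_filter, Finset.filter_filter]
    congr 2
    · ext w; simp [and_comm]
    · ext w; simp [and_comm]
  have e1 := e x
  have e2 := e y
  rw [hx.2] at e1
  rw [hy.2] at e2
  have e3 : (univ.filter fun w => w ∈ F ∧ x u w = true) =
      univ.filter fun w => w ∈ F ∧ y u w = true := by
    ext w
    simp only [mem_filter, mem_univ, true_and]
    constructor
    · rintro ⟨hw, h⟩
      exact ⟨hw, by rw [hy.1.1, ← hF w hw, ← hx.1.1]; exact h⟩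
    · rintro ⟨hw, h⟩
      exact ⟨hw, by rw [hx.1.1, hF w hw, ← hy.1.1]; exact h⟩
  rw [e3] at e1
  omega

/-- one row can be made equal -/
lemma row_step {d : V → ℕ} {g : St V → ℝ}
    (hg : ∀ a b : V, a ≠ b → ∀ x ∈ Om d, ∀ y ∈ Om d, lab a b x = lab a b y → g x = g y)
    {F : Finset V} {v : V} (hv : v ∉ F)
    (hP : ∀ x ∈ Om d, ∀ y ∈ Om d, (∀ u ∈ insert v F, ∀ w, x u w = y u w) → g x = g y)
    (m : ℕ) : ∀ x ∈ Om d, ∀ y ∈ Om d, (∀ u ∈ F, ∀ w, x u w = y u w) →
      (univ.filter fun w => x v w ≠ y v w).card = m → g x = g y := by
  induction m using Nat.strong_induction_on with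
  | _ m ih =>
    intro x hx y hy hF hm
    have hx' := mem_Om.1 hx
    have hy' := mem_Om.1 hy
    by_cases h0 : ∀ w, x v w = y v w
    · refine hP x hx y hy fun u hu w => ?_
      rcases Finset.mem_insert.1 hu with rfl | hu
      · exact h0 w
      · exact hF u hu w
    · push Not at h0
      obtain ⟨w0, hw0⟩ := h0
      have hcard : (univ.filter fun w => x v w = true).card =
          (univ.filter fun w => y v w = true).card := by
        have h1 := hx'.2 v
        have h2 := hy'.2 v
        unfold dg at h1 h2
        rw [h1, h2]
      -- existence of a and b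
      have ha : ∃ a, x v a = false ∧ y v a = true := by
        by_contra hcon
        push Not at hcon
        have hsub : (univ.filter fun w => y v w = true) ⊆ univ.filter fun w => x v w = true := by
          intro w hw
          simp only [mem_filter, mem_univ, true_and] at hw ⊢
          by_contra h3
          exact hcon w (by simpa using h3) hw
        have heq := Finset.eq_of_subset_of_card_le hsub hcard.le
        apply hw0
        have h4 : w0 ∈ (univ.filter fun w => y v w = true) ↔
          w0 ∈ univ.filter fun w => x v w = true := by rw [heq]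
        simp only [mem_filter, mem_univ, true_and] at h4
        cases hxw : x v w0 <;> cases hyw : y v w0 <;> simp_all
      have hb : ∃ b, x v b = true ∧ y v b = false := by
        by_contra hcon
        push Not at hcon
        have hsub : (univ.filter fun w => x v w = true) ⊆ univ.filter fun w => y v w = true := by
          intro w hw
          simp only [mem_filter, mem_univ, true_and] at hw ⊢
          have := hcon w hw
          simpa using this
        have heq := Finset.eq_of_subset_of_card_le hsub hcard.ge
        apply hw0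
        have h4 : w0 ∈ (univ.filter fun w => x v w = true) ↔
          w0 ∈ univ.filter fun w => y v w = true := by rw [heq]
        simp only [mem_filter, mem_univ, true_and] at h4
        cases hxw : x v w0 <;> cases hyw : y v w0 <;> simp_all
      obtain ⟨a, hxa, hya⟩ := ha
      obtain ⟨b, hxb, hyb⟩ := hb
      have hab : a ≠ b := by
        rintro rfl
        rw [hxa] at hxb
        exact Bool.false_ne_true hxb
      have hav : a ≠ v := by
        rintro rfl
        rw [hy'.1.2] at hya
        exact Bool.false_ne_true hya
      have hbv : b ≠ v := by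
        rintro rfl
        rw [hx'.1.2] at hxb
        exact Bool.false_ne_true hxb
      have haF : a ∉ F := by
        intro h
        have := hF a h v
        rw [hx'.1.1, hy'.1.1, hxa, hya] at this
        exact Bool.false_ne_true this
      have hbF : b ∉ F := by
        intro h
        have := hF b h v
        rw [hx'.1.1, hy'.1.1, hxb, hyb] at this
        exact Bool.false_ne_true this.symm
      rcases le_total (dF F x b) (dF F x a) with hD | hD
      · -- modify x
        obtain ⟨c, hcF, hsw⟩ := exists_c hx'.1 hab hav haF hv (by rw [hx'.1.1]; exact hxa)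
          (by rw [hx'.1.1]; exact hxb) hD
        set x' := fl a b v c x with hx'd
        have hx'm : x' ∈ Om d := fl_mem hsw hx
        have e1 : g x = g x' := hg a b hab x hx x' hx'm (fl_lab hsw).symm
        rw [e1]
        have hrow : ∀ w, x' v w = x v (Equiv.swap a b w) :=
          fun w => fl_row_vc hsw hx'.1 (Or.inl rfl) w
        refine ih _ ?_ x' hx'm y hy ?_ rfl
        · rw [← hm]
          refine Finset.card_lt_card ?_
          rw [Finset.ssubset_iff_of_subset]
          · refine ⟨a, ?_, ?_⟩
            · simp [hxa, hya]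
            · simp [hrow, Equiv.swap_apply_left, hxb, hya]
          · intro w hw
            simp only [mem_filter, mem_univ, true_and] at hw ⊢
            rw [hrow] at hw
            by_cases h1 : w = a
            · subst h1
              rw [Equiv.swap_apply_left, hxb, hya] at hw
              exact absurd rfl hw
            · by_cases h2 : w = b
              · subst h2
                rw [Equiv.swap_apply_right, hxa, hyb] at hw
                exact absurd rfl hw
              · rwa [Equiv.swap_apply_of_ne_of_ne h1 h2] at hw
        · intro u hu w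
          rw [hx'd, fl_other _ _ _ _ w]
          · exact hF u hu w
          · rintro rfl; exact haF hu
          · rintro rfl; exact hbF hu
          · rintro rfl; exact hv hu
          · rintro rfl; exact hcF hu
      · -- modify y
        have hD' : dF F y a ≤ dF F y b := by
          rw [← dF_eq hx hy hF a, ← dF_eq hx hy hF b]
          exact hD
        obtain ⟨c, hcF, hsw⟩ := exists_c hy'.1 hab.symm hbv hbF hv (by rw [hy'.1.1]; exact hyb)
          (by rw [hy'.1.1]; exact hya) hD'
        set y' := fl b a v c y with hy'd
        have hy'm : y' ∈ Om d := fl_mem hsw hy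
        have e1 : g y = g y' := hg b a hab.symm y hy y' hy'm (fl_lab hsw).symm
        rw [e1]
        have hrow : ∀ w, y' v w = y v (Equiv.swap b a w) :=
          fun w => fl_row_vc hsw hy'.1 (Or.inl rfl) w
        refine ih _ ?_ x hx y' hy'm ?_ rfl
        · rw [← hm]
          refine Finset.card_lt_card ?_
          rw [Finset.ssubset_iff_of_subset]
          · refine ⟨a, ?_, ?_⟩
            · simp [hxa, hya]
            · simp [hrow, Equiv.swap_apply_right, hyb, hxa]
          · intro w hw
            simp only [mem_filter, mem_univ, true_and] at hw ⊢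
            rw [hrow] at hw
            by_cases h1 : w = a
            · subst h1
              rw [Equiv.swap_apply_right, hxa, hyb] at hw
              exact absurd rfl hw
            · by_cases h2 : w = b
              · subst h2
                rw [Equiv.swap_apply_left, hxb, hya] at hw
                exact absurd rfl hw
              · rwa [Equiv.swap_apply_of_ne_of_ne h2 h1] at hw
        · intro u hu w
          rw [hy'd, fl_other _ _ _ _ w]
          · exact hF u hu w
          · rintro rfl; exact hbF hu
          · rintro rfl; exact haF hu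
          · rintro rfl; exact hv hu
          · rintro rfl; exact hcF hu

theorem conn {d : V → ℕ} {g : St V → ℝ}
    (hg : ∀ a b : V, a ≠ b → ∀ x ∈ Om d, ∀ y ∈ Om d, lab a b x = lab a b y → g x = g y)
    (k : ℕ) : ∀ F : Finset V, (Fᶜ).card = k → ∀ x ∈ Om d, ∀ y ∈ Om d,
      (∀ u ∈ F, ∀ w, x u w = y u w) → g x = g y := by
  induction k with
  | zero =>
    intro F hF x _ y _ h
    have hF' : F = univ := by
      rw [Finset.card_eq_zero, Finset.compl_eq_empty_iff] at hF
      exact hF
    subst hF'
    congr 1
    funext u w
    exact h u (mem_univ u) w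
  | succ k ih =>
    intro F hF x hx y hy h
    obtain ⟨v, hv⟩ : (Fᶜ).Nonempty := by
      rw [← Finset.card_pos]; omega
    rw [Finset.mem_compl] at hv
    refine row_step hg hv (fun x hx y hy h => ih (insert v F) ?_ x hx y hy h) _ x hx y hy h rfl
    rw [Finset.compl_insert, Finset.card_erase_of_mem (Finset.mem_compl.2 hv)]
    omega

end Crest.Agent.SW.Conn

namespace Crest.Agent.SW

/-- module CONN -/
theorem connStmt : ConnStmt := by
  intro n d g hg x hx y hy
  exact Conn.conn hg _ ∅ rfl x hx y hy (by simp)

end Crest.Agent.SW
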