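import Crest.Agent.SWAv

/-! Module DISJ (row 299): the cross term of two disjoint diagonals. -/

namespace Crest.Agent.SW

open Finset

section
variable {V : Type*} [Fintype V] [DecidableEq V] {d : V → ℕ} {x y z : St V} {a b p q : V}

/-- integer entry -/
def EE (x : St V) (u v : V) : ℤ := if x u v = true then 1 else 0

omit [DecidableEq V] in
lemma dg_eq (x : St V) (u : V) : (dg x u : ℤ) = ∑ v, EE x u v := by
  simp [dg, EE, Finset.sum_boole]

lemma mem_Om : x ∈ Om d ↔ IsG x ∧ ∀ u, dg x u = d u := by simp [Om]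

lemma Om_symm (hx : x ∈ Om d) (u v : V) : x u v = x v u := (mem_Om.1 hx).1.1 u v

lemma pair_sum (hx : x ∈ Om d) (hy : y ∈ Om d) (u : V) (hpq : p ≠ q)
    (h : ∀ v, v ≠ p → v ≠ q → x u v = y u v) :
    (x u p).toNat + (x u q).toNat = (y u p).toNat + (y u q).toNat := by
  have h1 : (∑ v, EE x u v) = ∑ v, EE y u v := by
    rw [← dg_eq, ← dg_eq, (mem_Om.1 hx).2, (mem_Om.1 hy).2]
  have h2 : ∑ v, (EE x u v - EE y u v) = 0 := by rw [sum_sub_distrib, h1, sub_self]
  have h3 : ∑ v, (EE x u v - EE y u v) = ∑ v ∈ ({p, q} : Finset V), (EE x u v - EE y u v) := by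
    symm
    apply sum_subset (subset_univ _)
    intro v _ hv
    simp only [mem_insert, mem_singleton, not_or] at hv
    simp [EE, h v hv.1 hv.2]
  rw [h3, sum_pair hpq] at h2
  unfold EE at h2
  revert h2
  generalize x u p = x1
  generalize x u q = x2
  generalize y u p = y1
  generalize y u q = y2
  revert x1 x2 y1 y2
  decide

/-- erase the entries in `A` -/
def er (A : V → V → Bool) (x : St V) : St V := fun u v => if A u v = true then false else x u v

omit [Fintype V] [DecidableEq V] in
lemma er_eq_iff {A : V → V → Bool} : er A x = er A y ↔ ∀ u v, A u v = false → x u v = y u v := by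
  constructor
  · intro h u v hA
    have := congrFun (congrFun h u) v
    simpa [er, hA] using this
  · intro h
    funext u v
    unfold er
    cases hA : A u v
    · simp [h u v hA]
    · simp

/-- pairs with exactly one endpoint in `{a,b}` -/
def AA (a b : V) (u v : V) : Bool := decide (¬ ((u = a ∨ u = b) ↔ (v = a ∨ v = b)))

/-- pairs with one endpoint in `{a,b}` and the other outside `{a,b,p,q}` -/
def AB (a b p q : V) (u v : V) : Bool :=
  decide (((u = a ∨ u = b) ∧ (v ≠ a ∧ v ≠ b ∧ v ≠ p ∧ v ≠ q)) ∨ ((v = a ∨ v = b) ∧ (u ≠ a ∧ u ≠ b ∧ u ≠ p ∧ u ≠ q)))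

omit [Fintype V] in
lemma lab_eq (a b : V) (x : St V) : lab a b x = er (AA a b) x := by
  funext u v
  unfold lab er AA
  by_cases h : ((u = a ∨ u = b) ↔ (v = a ∨ v = b)) <;> simp [h]

omit [Fintype V] in
lemma lab_eq' (a b : V) : (lab a b : St V → St V) = er (AA a b) := funext fun x => lab_eq a b x

omit [Fintype V] in
lemma lab_eq_iff : lab a b x = lab a b y ↔
    ∀ u v, ((u = a ∨ u = b) ↔ (v = a ∨ v = b)) → x u v = y u v := by
  rw [lab_eq, lab_eq, er_eq_iff]
  simp only [AA, decide_eq_false_iff_not, not_not]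

omit [Fintype V] in
lemma AA_symm (a b u v : V) : AA a b u v = AA a b v u := by
  unfold AA
  congr 1
  apply propext
  tauto

omit [Fintype V] in
lemma AB_symm (a b p q u v : V) : AB a b p q u v = AB a b p q v u := by
  unfold AB
  congr 1
  apply propext
  tauto

lemma comm_er (S : Finset (St V)) (hS : S ⊆ Om d) (A B : V → V → Bool)
    (hBs : ∀ u v, B u v = B v u)
    (hAB : ∀ u v, A u v = true → B u v = false)
    (hcl : ∀ x ∈ S, ∀ y ∈ Om d, er B x = er B y → y ∈ S) (f : St V → ℝ) (x : St V) (hx : x ∈ S) :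
    Av S (er A) (Av S (er B) f) x = Av S (er B) (Av S (er A) f) x := by
  refine Av_comm ?_ ?_ f hx
  · intro x hx y hy z hz hxy hyz
    rw [er_eq_iff] at hxy hyz
    let w : St V := fun u v => if B u v = true then z u v else x u v
    have hxw : er B x = er B w := by
      rw [er_eq_iff]
      intro u v h
      simp [w, h]
    have hw : w ∈ Om d := by
      rw [mem_Om]
      have hX := mem_Om.1 (hS hx)
      have hY := mem_Om.1 (hS hy)
      have hZ := mem_Om.1 (hS hz)
      refine ⟨⟨?_, ?_⟩, ?_⟩
      · intro u v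
        simp only [w]
        rw [hBs u v, hX.1.1 u v, hZ.1.1 u v]
      · intro u
        simp only [w]
        rw [hX.1.2, hZ.1.2]; simp
      · intro u
        have key : ∀ v, EE w u v + EE y u v = EE x u v + EE z u v := by
          intro v
          cases hB : B u v
          · have e1 : w u v = x u v := by simp [w, hB]
            have e2 : y u v = z u v := hyz u v hB
            simp [EE, e1, e2]
          · have e1 : w u v = z u v := by simp [w, hB]
            have hA : A u v = false := by
              cases h : A u v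
              · rfl
              · rw [hAB u v h] at hB; exact absurd hB (by simp)
            have e2 : x u v = y u v := hxy u v hA
            simp [EE, e1, e2, add_comm]
        have : (dg w u : ℤ) + dg y u = dg x u + dg z u := by
          rw [dg_eq, dg_eq, dg_eq, dg_eq, ← sum_add_distrib, ← sum_add_distrib]
          exact sum_congr rfl fun v _ => key v
        have h1 := hX.2 u
        have h2 := hY.2 u
        have h3 := hZ.2 u
        omega
    refine ⟨w, hcl x hx w hw hxw, hxw, ?_⟩
    rw [er_eq_iff]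
    intro u v hA
    cases hB : B u v
    · simp only [w, hB]
      simp only [Bool.false_eq_true, if_false]
      rw [hxy u v hA, hyz u v hB]
    · simp [w, hB]
  · intro x hx y hy h1 h2
    rw [er_eq_iff] at h1 h2
    funext u v
    cases hA : A u v
    · exact h1 u v hA
    · exact h2 u v (hAB u v hA)

/-- number of ones in the block -/
def tt (a b p q : V) (x : St V) : ℕ :=
  (x a p).toNat + (x a q).toNat + (x b p).toNat + (x b q).toNat

/-- column sum preserved by the `{a,b}`-classes -/
lemma col_sum (hx : x ∈ Om d) (hy : y ∈ Om d) (hab : a ≠ b) (h : lab a b x = lab a b y)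
    (p : V) (hpa : a ≠ p) (hpb : b ≠ p) :
    (x a p).toNat + (x b p).toNat = (y a p).toNat + (y b p).toNat := by
  rw [Om_symm hx a p, Om_symm hx b p, Om_symm hy a p, Om_symm hy b p]
  refine pair_sum hx hy p hab fun v hva hvb => ?_
  refine lab_eq_iff.1 h p v ?_
  constructor
  · rintro (h | h)
    · exact absurd h.symm hpa
    · exact absurd h.symm hpb
  · rintro (h | h)
    · exact absurd h hva
    · exact absurd h hvb

lemma row_sum (hx : x ∈ Om d) (hy : y ∈ Om d) (hpq : p ≠ q) (h : lab p q x = lab p q y)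
    (a : V) (hap : a ≠ p) (haq : a ≠ q) :
    (x a p).toNat + (x a q).toNat = (y a p).toNat + (y a q).toNat := by
  refine pair_sum hx hy a hpq fun v hva hvb => ?_
  refine lab_eq_iff.1 h a v ?_
  constructor
  · rintro (h | h)
    · exact absurd h hap
    · exact absurd h haq
  · rintro (h | h)
    · exact absurd h hva
    · exact absurd h hvb

lemma tt_lab (h4 : Dist4 a b p q) (hx : x ∈ Om d) (hy : y ∈ Om d) (h : lab a b x = lab a b y) :
    tt a b p q x = tt a b p q y := by
  obtain ⟨hab, hpq, hap, haq, hbp, hbq⟩ := h4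
  have h1 := col_sum hx hy hab h p hap hbp
  have h2 := col_sum hx hy hab h q haq hbq
  unfold tt
  omega

lemma tt_lab' (h4 : Dist4 a b p q) (hx : x ∈ Om d) (hy : y ∈ Om d) (h : lab p q x = lab p q y) :
    tt a b p q x = tt a b p q y := by
  obtain ⟨hab, hpq, hap, haq, hbp, hbq⟩ := h4
  have h1 := row_sum hx hy hpq h a hap haq
  have h2 := row_sum hx hy hpq h b hbp hbq
  unfold tt
  omega

lemma blk_ex : ∀ x1 x2 x3 x4 z1 z2 z3 z4 : Bool,
    x1.toNat + x2.toNat + x3.toNat + x4.toNat = z1.toNat + z2.toNat + z3.toNat + z4.toNat →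
    x1.toNat + x2.toNat + x3.toNat + x4.toNat ≠ 2 →
    ∃ w1 w2 w3 w4 : Bool, w1.toNat + w2.toNat = x1.toNat + x2.toNat ∧
      w3.toNat + w4.toNat = x3.toNat + x4.toNat ∧ w1.toNat + w3.toNat = z1.toNat + z3.toNat ∧
      w2.toNat + w4.toNat = z2.toNat + z4.toNat := by
  decide

lemma blk_un : ∀ x1 x2 x3 x4 y1 y2 y3 y4 : Bool,
    x1.toNat + x2.toNat + x3.toNat + x4.toNat ≠ 2 →
    x1.toNat + x2.toNat = y1.toNat + y2.toNat → x3.toNat + x4.toNat = y3.toNat + y4.toNat →
    x1.toNat + x3.toNat = y1.toNat + y3.toNat → x2.toNat + x4.toNat = y2.toNat + y4.toNat →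
    x1 = y1 ∧ x2 = y2 ∧ x3 = y3 ∧ x4 = y4 := by
  decide

/-- sector `t ≠ 2`: the two averagings commute -/
lemma comm_ne (h4 : Dist4 a b p q) (f : St V → ℝ) (x : St V)
    (hx : x ∈ (Om d).filter fun x => tt a b p q x ≠ 2) :
    Av ((Om d).filter fun x => tt a b p q x ≠ 2) (lab a b)
        (Av ((Om d).filter fun x => tt a b p q x ≠ 2) (lab p q) f) x
      = Av ((Om d).filter fun x => tt a b p q x ≠ 2) (lab p q)
        (Av ((Om d).filter fun x => tt a b p q x ≠ 2) (lab a b) f) x := by
  refine Av_comm ?_ ?_ f hx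
  · clear hx x
    intro x hx y hy z hz hxy hyz
    simp only [mem_filter] at hx hy hz
    obtain ⟨hx, hx2⟩ := hx
    obtain ⟨hy, hy2⟩ := hy
    obtain ⟨hz, hz2⟩ := hz
    have t1 := tt_lab h4 hx hy hxy
    have t2 := tt_lab' h4 hy hz hyz
    obtain ⟨hab, hpq, hap, haq, hbp, hbq⟩ := id h4
    obtain ⟨w1, w2, w3, w4, e1, e2, e3, e4⟩ := blk_ex (x a p) (x a q) (x b p) (x b q)
      (z a p) (z a q) (z b p) (z b q) (t1.trans t2) hx2
    have c1 := col_sum hx hy hab hxy p hap hbp
    have c2 := col_sum hx hy hab hxy q haq hbq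
    have r1 := row_sum hy hz hpq hyz a hap haq
    have r2 := row_sum hy hz hpq hyz b hbp hbq
    have hX := mem_Om.1 hx
    have hY := mem_Om.1 hy
    have hZ := mem_Om.1 hz
    rw [lab_eq_iff] at hxy hyz
    let Bl : V → V → Bool := fun u v => if u = a then (if v = p then w1 else w2) else
      (if v = p then w3 else w4)
    let w : St V := fun u v =>
      if (u = a ∨ u = b) ∧ (v = p ∨ v = q) then Bl u v else
      if (v = a ∨ v = b) ∧ (u = p ∨ u = q) then Bl v u else
      if ((u = p ∨ u = q) ↔ (v = p ∨ v = q)) then x u v else z u v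
    have wap : w a p = w1 := by simp [w, Bl]
    have waq : w a q = w2 := by simp [w, Bl, hpq.symm]
    have wbp : w b p = w3 := by simp [w, Bl, hab.symm]
    have wbq : w b q = w4 := by simp [w, Bl, hab.symm, hpq.symm]
    have wpa : w p a = w1 := by simp [w, Bl, hap.symm, hbp.symm]
    have wqa : w q a = w2 := by simp [w, Bl, hpq.symm, haq.symm, hbq.symm, hap, haq]
    have wpb : w p b = w3 := by simp [w, Bl, hap.symm, hbp.symm, hab.symm, hbp, hbq]
    have wqb : w q b = w4 := by simp [w, Bl, hpq.symm, haq.symm, hbq.symm, hab.symm, hbp, hbq]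
    -- off-block entries
    have woff : ∀ u v, ¬ ((u = a ∨ u = b) ∧ (v = p ∨ v = q)) → ¬ ((v = a ∨ v = b) ∧ (u = p ∨ u = q)) →
        w u v = if ((u = p ∨ u = q) ↔ (v = p ∨ v = q)) then x u v else z u v := by
      intro u v h1 h2
      simp only [w]
      rw [if_neg h1, if_neg h2]
    have hG : IsG w := by
      refine ⟨?_, ?_⟩
      · intro u v
        by_cases h1 : (u = a ∨ u = b) ∧ (v = p ∨ v = q)
        · have h2 : ¬ ((v = a ∨ v = b) ∧ (u = p ∨ u = q)) := by
            rintro ⟨h3, -⟩
            rcases h1.2 with rfl | rfl <;> rcases h3 with h3 | h3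
            · exact hap h3.symm
            · exact hbp h3.symm
            · exact haq h3.symm
            · exact hbq h3.symm
          simp only [w]
          rw [if_pos h1, if_neg h2, if_pos h1]
        · by_cases h2 : (v = a ∨ v = b) ∧ (u = p ∨ u = q)
          · simp only [w]
            rw [if_neg h1, if_pos h2, if_pos h2]
          · rw [woff u v h1 h2, woff v u h2 h1]
            rw [hX.1.1 u v, hZ.1.1 u v]
            by_cases h3 : ((u = p ∨ u = q) ↔ (v = p ∨ v = q))
            · rw [if_pos h3, if_pos h3.symm]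
            · rw [if_neg h3, if_neg (fun h => h3 h.symm)]
      · intro u
        rw [woff u u]
        · rw [hX.1.2, hZ.1.2]; simp
        · rintro ⟨h1, h2⟩
          rcases h1 with rfl | rfl <;> rcases h2 with h2 | h2 <;> contradiction
        · rintro ⟨h1, h2⟩
          rcases h1 with rfl | rfl <;> rcases h2 with h2 | h2 <;> contradiction
    -- pointwise identity off the block
    have hoff : ∀ u v, ¬ ((u = a ∨ u = b) ∧ (v = p ∨ v = q)) → ¬ ((v = a ∨ v = b) ∧ (u = p ∨ u = q)) →
        EE w u v + EE y u v - EE x u v - EE z u v = 0 := by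
      intro u v h1 h2
      have := woff u v h1 h2
      by_cases h3 : ((u = p ∨ u = q) ↔ (v = p ∨ v = q))
      · rw [if_pos h3] at this
        have := hyz u v h3
        simp [EE, *]
      · rw [if_neg h3] at this
        have : x u v = y u v := by
          apply hxy u v
          have k1 : ∀ u, (u = p ∨ u = q) → ¬ (u = a ∨ u = b) := by
            rintro u (rfl | rfl) (h | h)
            · exact hap h.symm
            · exact hbp h.symm
            · exact haq h.symm
            · exact hbq h.symm
          have := k1 u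
          have := k1 v
          by_cases hu : (u = p ∨ u = q)
          · have hv : ¬ (v = a ∨ v = b) := fun h => h2 ⟨h, hu⟩
            exact ⟨fun h => absurd h (k1 u hu), fun h => absurd h hv⟩
          · have hv' : (v = p ∨ v = q) := by
              by_contra h; exact h3 ⟨fun h' => absurd h' hu, fun h' => absurd h' h⟩
            have hu' : ¬ (u = a ∨ u = b) := fun h => h1 ⟨h, hv'⟩
            exact ⟨fun h => absurd h hu', fun h => absurd h (k1 v hv')⟩
        simp [EE, *]
    have hdg : ∀ u, dg w u = d u := by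
      intro u
      have hsum : ∀ s t : V, s ≠ t → (∀ v, v ≠ s → v ≠ t → EE w u v + EE y u v - EE x u v - EE z u v = 0) →
          (EE w u s + EE y u s - EE x u s - EE z u s) + (EE w u t + EE y u t - EE x u t - EE z u t) = 0 →
          dg w u = d u := by
        intro s t hst h1 h2
        have h3 : ∑ v, (EE w u v + EE y u v - EE x u v - EE z u v) = 0 := by
          rw [← h2, ← sum_pair (f := fun v => EE w u v + EE y u v - EE x u v - EE z u v) hst]
          symm
          apply sum_subset (subset_univ _)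
          intro v _ hv
          simp only [mem_insert, mem_singleton, not_or] at hv
          exact h1 v hv.1 hv.2
        simp only [sum_sub_distrib, sum_add_distrib, ← dg_eq] at h3
        have g1 := hX.2 u
        have g2 := hY.2 u
        have g3 := hZ.2 u
        omega
      have tn : ∀ b1 b2 b3 b4 c1 c2 c3 c4 : Bool,
          b1.toNat + c1.toNat = b3.toNat + c3.toNat → b2.toNat + c2.toNat = b4.toNat + c4.toNat →
          ((if b1 = true then (1:ℤ) else 0) + (if b2 = true then (1:ℤ) else 0) - (if b3 = true then (1:ℤ) else 0)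
            - (if b4 = true then (1:ℤ) else 0)) +
          ((if c1 = true then (1:ℤ) else 0) + (if c2 = true then (1:ℤ) else 0) - (if c3 = true then (1:ℤ) else 0)
            - (if c4 = true then (1:ℤ) else 0)) = 0 := by
        intro b1 b2 b3 b4 c1 c2 c3 c4 h1 h2
        have hh : ∀ b : Bool, (if b = true then (1:ℤ) else 0) = (b.toNat : ℤ) := by decide
        simp only [hh]
        omega
      by_cases hua : u = a
      · subst hua
        refine hsum p q hpq ?_ ?_
        · intro v hvp hvq
          refine hoff u v ?_ ?_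
          · rintro ⟨_, h⟩; rcases h with h | h <;> contradiction
          · rintro ⟨_, h⟩; rcases h with h | h <;> contradiction
        · unfold EE
          rw [wap, waq]
          exact tn _ _ _ _ _ _ _ _ e1 r1
      by_cases hub : u = b
      · subst hub
        refine hsum p q hpq ?_ ?_
        · intro v hvp hvq
          refine hoff u v ?_ ?_
          · rintro ⟨_, h⟩; rcases h with h | h <;> contradiction
          · rintro ⟨_, h⟩; rcases h with h | h <;> contradiction
        · unfold EE
          rw [wbp, wbq]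
          exact tn _ _ _ _ _ _ _ _ e2 r2
      by_cases hup : u = p
      · subst hup
        refine hsum a b hab ?_ ?_
        · intro v hvp hvq
          refine hoff u v ?_ ?_
          · rintro ⟨h, _⟩; rcases h with h | h <;> contradiction
          · rintro ⟨h, _⟩; rcases h with h | h <;> contradiction
        · unfold EE
          rw [wpa, wpb, hX.1.1 u a, hX.1.1 u b, hY.1.1 u a, hY.1.1 u b, hZ.1.1 u a, hZ.1.1 u b]
          have := tn w1 (y a u) (z a u) (x a u) w3 (y b u) (z b u) (x b u) e3 c1.symm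
          linarith
      by_cases huq : u = q
      · subst huq
        refine hsum a b hab ?_ ?_
        · intro v hvp hvq
          refine hoff u v ?_ ?_
          · rintro ⟨h, _⟩; rcases h with h | h <;> contradiction
          · rintro ⟨h, _⟩; rcases h with h | h <;> contradiction
        · unfold EE
          rw [wqa, wqb, hX.1.1 u a, hX.1.1 u b, hY.1.1 u a, hY.1.1 u b, hZ.1.1 u a, hZ.1.1 u b]
          have := tn w2 (y a u) (z a u) (x a u) w4 (y b u) (z b u) (x b u) e4 c2.symm
          linarith
      refine hsum a b hab ?_ ?_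
      · intro v _ _
        refine hoff u v ?_ ?_
        · rintro ⟨h, _⟩; rcases h with h | h <;> contradiction
        · rintro ⟨_, h⟩; rcases h with h | h <;> contradiction
      · rw [hoff u a, hoff u b]
        · simp
        all_goals first
          | (rintro ⟨h, _⟩; rcases h with h | h <;> contradiction)
          | (rintro ⟨_, h⟩; rcases h with h | h <;> contradiction)
    have hw : w ∈ Om d := mem_Om.2 ⟨hG, hdg⟩
    have hxw : lab p q x = lab p q w := by
      rw [lab_eq_iff]
      intro u v h3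
      rw [woff u v, if_pos h3]
      · rintro ⟨h1, h2⟩
        rcases h3.2 h2 with rfl | rfl <;> rcases h1 with h1 | h1
        · exact hap h1.symm
        · exact hbp h1.symm
        · exact haq h1.symm
        · exact hbq h1.symm
      · rintro ⟨h1, h2⟩
        rcases h3.1 h2 with rfl | rfl <;> rcases h1 with h1 | h1
        · exact hap h1.symm
        · exact hbp h1.symm
        · exact haq h1.symm
        · exact hbq h1.symm
    have hwz : lab a b w = lab a b z := by
      rw [lab_eq_iff]
      intro u v h3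
      rw [woff u v]
      · by_cases h5 : ((u = p ∨ u = q) ↔ (v = p ∨ v = q))
        · rw [if_pos h5, hxy u v h3, hyz u v h5]
        · rw [if_neg h5]
      · rintro ⟨h1, h2⟩
        rcases h3.1 h1 with rfl | rfl <;> rcases h2 with h2 | h2 <;> contradiction
      · rintro ⟨h1, h2⟩
        rcases h3.2 h1 with rfl | rfl <;> rcases h2 with h2 | h2 <;> contradiction
    refine ⟨w, ?_, hxw, hwz⟩
    simp only [mem_filter]
    exact ⟨hw, by rw [← tt_lab' h4 hx hw hxw]; exact hx2⟩
  · clear hx x
    intro x hx y hy hxy hxy'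
    simp only [mem_filter] at hx hy
    obtain ⟨hx, hx2⟩ := hx
    obtain ⟨hy, hy2⟩ := hy
    obtain ⟨hab, hpq, hap, haq, hbp, hbq⟩ := id h4
    have c1 := col_sum hx hy hab hxy p hap hbp
    have c2 := col_sum hx hy hab hxy q haq hbq
    have r1 := row_sum hx hy hpq hxy' a hap haq
    have r2 := row_sum hx hy hpq hxy' b hbp hbq
    obtain ⟨g1, g2, g3, g4⟩ := blk_un (x a p) (x a q) (x b p) (x b q) (y a p) (y a q) (y b p) (y b q)
      hx2 r1 r2 c1 c2
    rw [lab_eq_iff] at hxy hxy'
    funext u v
    by_cases h1 : ((u = a ∨ u = b) ↔ (v = a ∨ v = b))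
    · exact hxy u v h1
    by_cases h2 : ((u = p ∨ u = q) ↔ (v = p ∨ v = q))
    · exact hxy' u v h2
    have hblk : ((u = a ∨ u = b) ∧ (v = p ∨ v = q)) ∨ ((v = a ∨ v = b) ∧ (u = p ∨ u = q)) := by
      by_cases hu : (u = a ∨ u = b)
      · left
        refine ⟨hu, ?_⟩
        by_contra hv
        apply h2
        constructor
        · intro h
          exfalso
          rcases hu with rfl | rfl <;> rcases h with h | h <;> contradiction
        · intro h; exact absurd h hv
      · right
        have hv : (v = a ∨ v = b) := by tauto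
        refine ⟨hv, ?_⟩
        by_contra hu'
        apply h2
        constructor
        · intro h; exact absurd h hu'
        · intro h
          exfalso
          rcases hv with rfl | rfl <;> rcases h with h | h <;> contradiction
    rcases hblk with ⟨hu | hu, hv | hv⟩ | ⟨hv | hv, hu | hu⟩ <;> rw [hu, hv]
    · exact g1
    · exact g2
    · exact g3
    · exact g4
    · rw [Om_symm hx, Om_symm hy]; exact g1
    · rw [Om_symm hx, Om_symm hy]; exact g2
    · rw [Om_symm hx, Om_symm hy]; exact g3
    · rw [Om_symm hx, Om_symm hy]; exact g4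

/-! ### The involution -/

omit [Fintype V] in
lemma ctr_gam (h4 : Dist4 a b p q) : ctr a b p q (gam a b p q x) ↔ ctr a b p q x := by
  obtain ⟨hab, hpq, hap, haq, hbp, hbq⟩ := h4
  unfold gam
  by_cases h : ctr a b p q x
  · rw [if_pos h]
    simp only [h, iff_true]
    unfold ctr at h ⊢
    simp only [fl, true_or, or_true, and_self, if_true]
    simp [h.1, h.2.1, h.2.2]
  · rw [if_neg h]

omit [Fintype V] in
lemma fl_fl : fl a b p q (fl a b p q x) = x := by
  funext u v
  unfold fl
  split_ifs with h <;> simp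

omit [Fintype V] in
lemma gam_gam (h4 : Dist4 a b p q) : gam a b p q (gam a b p q x) = x := by
  by_cases h : ctr a b p q x
  · have h2 : ctr a b p q (gam a b p q x) := (ctr_gam h4).2 h
    have h1 : gam a b p q x = fl a b p q x := by unfold gam; rw [if_pos h]
    rw [h1] at h2 ⊢
    unfold gam
    rw [if_pos h2, fl_fl]
  · have h1 : gam a b p q x = x := by unfold gam; rw [if_neg h]
    rw [h1, h1]

omit [Fintype V] in
lemma gam_of_not (h : ¬ ctr a b p q x) : gam a b p q x = x := by unfold gam; rw [if_neg h]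

omit [Fintype V] in
lemma fl_off {u v : V} (h : ¬ (((u = a ∨ u = b) ∧ (v = p ∨ v = q)) ∨ ((u = p ∨ u = q) ∧ (v = a ∨ v = b)))) :
    fl a b p q x u v = x u v := by
  unfold fl; rw [if_neg h]

omit [Fintype V] in
lemma lab_gam (h4 : Dist4 a b p q) : lab a b (gam a b p q x) = lab a b x := by
  by_cases h : ctr a b p q x
  · unfold gam; rw [if_pos h, lab_eq_iff]
    intro u v huv
    obtain ⟨hab, hpq, hap, haq, hbp, hbq⟩ := h4
    apply fl_off
    rintro (⟨h1, h2⟩ | ⟨h1, h2⟩)
    · rcases h2 with rfl | rfl <;> rcases huv.1 h1 with h3 | h3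
      · exact hap h3.symm
      · exact hbp h3.symm
      · exact haq h3.symm
      · exact hbq h3.symm
    · rcases h1 with rfl | rfl <;> rcases huv.2 h2 with h3 | h3
      · exact hap h3.symm
      · exact hbp h3.symm
      · exact haq h3.symm
      · exact hbq h3.symm
  · rw [gam_of_not h]

omit [Fintype V] in
lemma lab_gam' (h4 : Dist4 a b p q) : lab p q (gam a b p q x) = lab p q x := by
  by_cases h : ctr a b p q x
  · unfold gam; rw [if_pos h, lab_eq_iff]
    intro u v huv
    obtain ⟨hab, hpq, hap, haq, hbp, hbq⟩ := h4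
    apply fl_off
    rintro (⟨h1, h2⟩ | ⟨h1, h2⟩)
    · rcases h1 with rfl | rfl <;> rcases huv.2 h2 with h3 | h3 <;> contradiction
    · rcases h2 with rfl | rfl <;> rcases huv.1 h1 with h3 | h3 <;> contradiction
  · rw [gam_of_not h]

lemma gam_mem (h4 : Dist4 a b p q) (hx : x ∈ Om d) : gam a b p q x ∈ Om d := by
  by_cases h : ctr a b p q x
  swap
  · rw [gam_of_not h]; exact hx
  have hX := mem_Om.1 hx
  obtain ⟨hab, hpq, hap, haq, hbp, hbq⟩ := id h4
  have e : gam a b p q x = fl a b p q x := by unfold gam; rw [if_pos h]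
  rw [e, mem_Om]
  refine ⟨⟨?_, ?_⟩, ?_⟩
  · intro u v
    unfold fl
    rw [hX.1.1 u v]
    by_cases h1 : ((u = a ∨ u = b) ∧ (v = p ∨ v = q)) ∨ ((u = p ∨ u = q) ∧ (v = a ∨ v = b))
    · rw [if_pos h1, if_pos (by tauto)]
    · rw [if_neg h1, if_neg (by tauto)]
  · intro u
    rw [fl_off, hX.1.2]
    rintro (⟨h1, h2⟩ | ⟨h1, h2⟩)
    · rcases h1 with rfl | rfl <;> rcases h2 with h2 | h2 <;> contradiction
    · rcases h2 with rfl | rfl <;> rcases h1 with h2 | h2 <;> contradiction
  · intro u
    have hsum : ∀ s t : V, s ≠ t → (∀ v, v ≠ s → v ≠ t → EE (fl a b p q x) u v - EE x u v = 0) →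
        (EE (fl a b p q x) u s - EE x u s) + (EE (fl a b p q x) u t - EE x u t) = 0 →
        dg (fl a b p q x) u = d u := by
      intro s t hst h1 h2
      have h3 : ∑ v, (EE (fl a b p q x) u v - EE x u v) = 0 := by
        rw [← h2, ← sum_pair (f := fun v => EE (fl a b p q x) u v - EE x u v) hst]
        symm
        apply sum_subset (subset_univ _)
        intro v _ hv
        simp only [mem_insert, mem_singleton, not_or] at hv
        exact h1 v hv.1 hv.2
      simp only [sum_sub_distrib, ← dg_eq] at h3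
      have g1 := hX.2 u
      omega
    have hoff : ∀ v, ¬ (((u = a ∨ u = b) ∧ (v = p ∨ v = q)) ∨ ((u = p ∨ u = q) ∧ (v = a ∨ v = b))) →
        EE (fl a b p q x) u v - EE x u v = 0 := by
      intro v hv
      unfold EE
      rw [fl_off hv, sub_self]
    obtain ⟨k1, k2, k3⟩ := h
    have tn : ∀ b1 b2 : Bool, b1 ≠ b2 →
        ((if (!b1) = true then (1:ℤ) else 0) - (if b1 = true then (1:ℤ) else 0)) +
        ((if (!b2) = true then (1:ℤ) else 0) - (if b2 = true then (1:ℤ) else 0)) = 0 := by
      decide
    by_cases hua : u = a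
    · subst hua
      refine hsum p q hpq (fun v h1 h2 => hoff v ?_) ?_
      · rintro (⟨g1, g2⟩ | ⟨g1, g2⟩)
        · rcases g2 with g2 | g2 <;> contradiction
        · rcases g1 with g2 | g2 <;> contradiction
      · unfold EE
        rw [show fl u b p q x u p = !(x u p) by simp [fl], show fl u b p q x u q = !(x u q) by simp [fl]]
        exact tn _ _ k1
    by_cases hub : u = b
    · subst hub
      refine hsum p q hpq (fun v h1 h2 => hoff v ?_) ?_
      · rintro (⟨g1, g2⟩ | ⟨g1, g2⟩)
        · rcases g2 with g2 | g2 <;> contradiction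
        · rcases g1 with g2 | g2 <;> contradiction
      · unfold EE
        rw [show fl a u p q x u p = !(x u p) by simp [fl], show fl a u p q x u q = !(x u q) by simp [fl]]
        exact tn _ _ k2
    by_cases hup : u = p
    · subst hup
      refine hsum a b hab (fun v h1 h2 => hoff v ?_) ?_
      · rintro (⟨g1, g2⟩ | ⟨g1, g2⟩)
        · rcases g1 with g2 | g2 <;> contradiction
        · rcases g2 with g2 | g2 <;> contradiction
      · unfold EE
        rw [show fl a b u q x u a = !(x u a) by simp [fl], show fl a b u q x u b = !(x u b) by simp [fl]]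
        apply tn
        rw [hX.1.1 u a, hX.1.1 u b]; exact k3
    by_cases huq : u = q
    · subst huq
      refine hsum a b hab (fun v h1 h2 => hoff v ?_) ?_
      · rintro (⟨g1, g2⟩ | ⟨g1, g2⟩)
        · rcases g1 with g2 | g2 <;> contradiction
        · rcases g2 with g2 | g2 <;> contradiction
      · unfold EE
        rw [show fl a b p u x u a = !(x u a) by simp [fl], show fl a b p u x u b = !(x u b) by simp [fl]]
        apply tn
        rw [hX.1.1 u a, hX.1.1 u b]
        revert k1 k2 k3
        generalize x a p = x1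
        generalize x a u = x2
        generalize x b p = x3
        generalize x b u = x4
        revert x1 x2 x3 x4
        decide
    refine hsum a b hab (fun v h1 h2 => hoff v ?_) ?_
    · rintro (⟨g1, g2⟩ | ⟨g1, g2⟩) <;> rcases g1 with g2 | g2 <;> contradiction
    · rw [hoff a, hoff b]
      · simp
      all_goals rintro (⟨g1, g2⟩ | ⟨g1, g2⟩) <;> rcases g1 with g2 | g2 <;> contradiction

omit [Fintype V] [DecidableEq V] in
lemma ctr_tt (h : ctr a b p q x) : tt a b p q x = 2 := by
  obtain ⟨k1, k2, k3⟩ := h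
  unfold tt
  revert k1 k2 k3
  generalize x a p = x1
  generalize x a q = x2
  generalize x b p = x3
  generalize x b q = x4
  revert x1 x2 x3 x4
  decide

end

/-! ### Abstract involution lemmas -/

section
variable {α β γ : Type*} [DecidableEq β] [DecidableEq γ] {S Ω : Finset α} {l : α → β} {m : α → γ}
  {f : α → ℝ} {x : α} {g : α → α}

lemma Av_sub_set (hS : S ⊆ Ω) (hcl : ∀ x ∈ S, ∀ y ∈ Ω, l y = l x → y ∈ S) (f : α → ℝ) (hx : x ∈ S) :
    Av S l f x = Av Ω l f x := by
  have : cls S l x = cls Ω l x := by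
    ext y; rw [mem_cls, mem_cls]
    exact ⟨fun h => ⟨hS h.1, h.2⟩, fun h => ⟨hcl x hx y h.1 h.2, h.2⟩⟩
  rw [Av_eq, Av_eq, this]

lemma sum_comp_inv (hg : ∀ x ∈ S, g x ∈ S) (hgg : ∀ x ∈ S, g (g x) = x) (f : α → ℝ) :
    ∑ x ∈ S, f (g x) = ∑ x ∈ S, f x :=
  sum_nbij' g g hg hg hgg hgg (fun _ _ => rfl)

lemma Av_comp_inv (hg : ∀ x ∈ S, g x ∈ S) (hgg : ∀ x ∈ S, g (g x) = x) (hl : ∀ x ∈ S, l (g x) = l x)
    (f : α → ℝ) (x : α) : Av S l (fun y => f (g y)) x = Av S l f x := by
  rw [Av_eq, Av_eq]
  congr 1
  refine sum_comp_inv (g := g) ?_ ?_ f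
  · intro y hy
    rw [mem_cls] at hy ⊢
    exact ⟨hg y hy.1, (hl y hy.1).trans hy.2⟩
  · intro y hy
    exact hgg y (mem_cls.1 hy).1

lemma Av_even (hg : ∀ x ∈ S, g x ∈ S) (hgg : ∀ x ∈ S, g (g x) = x) (hl : ∀ x ∈ S, l (g x) = l x)
    (f : α → ℝ) (x : α) : Av S l (fun y => (f y + f (g y)) / 2) x = Av S l f x := by
  have : Av S l (fun y => (f y + f (g y)) / 2) x = Av S l (fun y => (1/2 : ℝ) * (f y + f (g y))) x := by
    congr 1; funext y; ring
  rw [this, Av_smul, Av_add, Av_comp_inv hg hgg hl]; ring

/-- decomposition into even and odd parts -/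
lemma even_odd (hg : ∀ x ∈ S, g x ∈ S) (hgg : ∀ x ∈ S, g (g x) = x) (hl : ∀ x ∈ S, l (g x) = l x)
    (hm : ∀ x ∈ S, m (g x) = m x) (f : α → ℝ) :
    ∑ x ∈ S, (f x - Av S l f x) * (f x - Av S m f x) =
      ∑ x ∈ S, ((f x - f (g x)) / 2) ^ 2 +
      ∑ x ∈ S, ((f x + f (g x)) / 2 - Av S l (fun y => (f y + f (g y)) / 2) x) *
        ((f x + f (g x)) / 2 - Av S m (fun y => (f y + f (g y)) / 2) x) := by
  have P1 := Av_even hg hgg hl f
  have Q1 := Av_even hg hgg hm f
  have cross : ∑ x ∈ S, ((f x - f (g x)) / 2) * ((f x + f (g x)) - Av S l f x - Av S m f x) = 0 := by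
    have h := sum_comp_inv hg hgg (fun x => ((f x - f (g x)) / 2) * ((f x + f (g x)) - Av S l f x - Av S m f x))
    have h2 : ∑ x ∈ S, ((f (g x) - f (g (g x))) / 2) * ((f (g x) + f (g (g x))) - Av S l f (g x) - Av S m f (g x))
        = - ∑ x ∈ S, ((f x - f (g x)) / 2) * ((f x + f (g x)) - Av S l f x - Av S m f x) := by
      rw [← sum_neg_distrib]
      refine sum_congr rfl fun x hx => ?_
      rw [hgg x hx, Av_label (hl x hx), Av_label (hm x hx)]; ring
    rw [h2] at h
    linarith
  have : ∑ x ∈ S, (f x - Av S l f x) * (f x - Av S m f x) =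
      ∑ x ∈ S, ((f x - f (g x)) / 2) ^ 2 +
      ∑ x ∈ S, ((f x + f (g x)) / 2 - Av S l f x) * ((f x + f (g x)) / 2 - Av S m f x) +
      ∑ x ∈ S, ((f x - f (g x)) / 2) * ((f x + f (g x)) - Av S l f x - Av S m f x) := by
    rw [← sum_add_distrib, ← sum_add_distrib]
    exact sum_congr rfl fun x _ => by ring
  rw [this, cross, add_zero]
  simp only [P1, Q1]

end

section
variable {V : Type*} [Fintype V] [DecidableEq V] {d : V → ℕ} {x y z : St V} {a b p q : V}

/-- the sector `t = 2` -/
def O2 (d : V → ℕ) (a b p q : V) : Finset (St V) := (Om d).filter fun x => tt a b p q x = 2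

lemma mem_O2 : x ∈ O2 d a b p q ↔ x ∈ Om d ∧ tt a b p q x = 2 := by simp [O2]

omit [Fintype V] [DecidableEq V] in
lemma Dist4.swap (h : Dist4 a b p q) : Dist4 p q a b := by
  obtain ⟨hab, hpq, hap, haq, hbp, hbq⟩ := h
  exact ⟨hpq, hab, hap.symm, hbp.symm, haq.symm, hbq.symm⟩

lemma tt_swap (hx : x ∈ Om d) : tt p q a b x = tt a b p q x := by
  unfold tt
  rw [Om_symm hx p a, Om_symm hx p b, Om_symm hx q a, Om_symm hx q b]
  omega

lemma O2_swap : O2 d p q a b = O2 d a b p q := by
  ext x
  rw [mem_O2, mem_O2]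
  exact and_congr_right fun h => by rw [tt_swap h]

lemma ctr_swap (hx : x ∈ Om d) : ctr p q a b x ↔ ctr a b p q x := by
  unfold ctr
  rw [Om_symm hx p a, Om_symm hx p b, Om_symm hx q a, Om_symm hx q b]
  generalize x a p = x1
  generalize x a q = x2
  generalize x b p = x3
  generalize x b q = x4
  revert x1 x2 x3 x4
  decide

omit [Fintype V] in
lemma fl_swap : fl p q a b x = fl a b p q x := by
  funext u v
  unfold fl
  by_cases h1 : ((u = a ∨ u = b) ∧ (v = p ∨ v = q)) ∨ ((u = p ∨ u = q) ∧ (v = a ∨ v = b))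
  · rw [if_pos h1, if_pos (Or.comm.1 h1)]
  · rw [if_neg h1, if_neg (fun h => h1 (Or.comm.1 h))]

lemma gam_swap (hx : x ∈ Om d) : gam p q a b x = gam a b p q x := by
  unfold gam
  by_cases h : ctr a b p q x
  · rw [if_pos h, if_pos ((ctr_swap hx).2 h), fl_swap]
  · rw [if_neg h, if_neg (fun h' => h ((ctr_swap hx).1 h'))]

lemma gam_O2 (h4 : Dist4 a b p q) (hx : x ∈ O2 d a b p q) : gam a b p q x ∈ O2 d a b p q := by
  rw [mem_O2] at hx ⊢
  have := gam_mem h4 hx.1
  exact ⟨this, by rw [tt_lab h4 this hx.1 (lab_gam h4)]; exact hx.2⟩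

omit [Fintype V] in
/-- the `AB`-label is finer than the `AA`-label -/
lemma AB_fine (h : er (AB a b p q) x = er (AB a b p q) y) : lab a b x = lab a b y := by
  rw [er_eq_iff] at h
  rw [lab_eq_iff]
  intro u v huv
  apply h
  unfold AB
  simp only [decide_eq_false_iff_not]
  rintro (⟨h1, h2⟩ | ⟨h1, h2⟩)
  · rcases huv.1 h1 with h3 | h3
    · exact h2.1 h3
    · exact h2.2.1 h3
  · rcases huv.2 h1 with h3 | h3
    · exact h2.1 h3
    · exact h2.2.1 h3

omit [Fintype V] in
/-- `AB`-equality from `AA`-equality plus block equality -/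
lemma AB_of (hx : IsG x) (hy : IsG y) (h : lab a b x = lab a b y)
    (h1 : x a p = y a p) (h2 : x a q = y a q) (h3 : x b p = y b p) (h4 : x b q = y b q) :
    er (AB a b p q) x = er (AB a b p q) y := by
  rw [er_eq_iff]
  rw [lab_eq_iff] at h
  intro u v huv
  unfold AB at huv
  simp only [decide_eq_false_iff_not, not_or, not_and_or, not_not] at huv
  by_cases hl : ((u = a ∨ u = b) ↔ (v = a ∨ v = b))
  · exact h u v hl
  · have key : ∀ u v, (u = a ∨ u = b) → (v = p ∨ v = q) → x u v = y u v := by
      rintro u v (rfl | rfl) (rfl | rfl)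
      · exact h1
      · exact h2
      · exact h3
      · exact h4
    by_cases hu : (u = a ∨ u = b)
    · have hv : ¬ (v = a ∨ v = b) := fun hv => hl ⟨fun _ => hv, fun _ => hu⟩
      rw [not_or] at hv
      rcases huv.1 with h5 | h5 | h5 | h5 | h5
      · exact absurd hu (by rw [not_or]; exact h5)
      · exact absurd h5 hv.1
      · exact absurd h5 hv.2
      · exact key u v hu (Or.inl h5)
      · exact key u v hu (Or.inr h5)
    · have hv : (v = a ∨ v = b) := by
        by_contra hv; exact hl ⟨fun h => absurd h hu, fun h => absurd h hv⟩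
      rw [not_or] at hu
      rw [hx.1 u v, hy.1 u v]
      rcases huv.2 with h5 | h5 | h5 | h5 | h5
      · exact absurd hv (by rw [not_or]; exact h5)
      · exact absurd h5 hu.1
      · exact absurd h5 hu.2
      · exact key v u hv (Or.inl h5)
      · exact key v u hv (Or.inr h5)

omit [Fintype V] in
lemma AB_blk (h4 : Dist4 a b p q) (h : er (AB a b p q) x = er (AB a b p q) y) :
    x a p = y a p ∧ x a q = y a q ∧ x b p = y b p ∧ x b q = y b q := by
  obtain ⟨hab, hpq, hap, haq, hbp, hbq⟩ := h4
  rw [er_eq_iff] at h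
  refine ⟨h a p ?_, h a q ?_, h b p ?_, h b q ?_⟩ <;> simp [AB, hap, haq, hbp, hbq, hap.symm, haq.symm, hbp.symm, hbq.symm]

/-- at a center state the `AB`-average of the even part is `FF` -/
lemma FF_eq (h4 : Dist4 a b p q) (f : St V → ℝ) (hx : x ∈ Om d) (hc : ctr a b p q x) :
    Av (O2 d a b p q) (er (AB a b p q)) (fun y => (f y + f (gam a b p q y)) / 2) x = FF d a b p q f x := by
  set C := cls (O2 d a b p q) (er (AB a b p q)) x with hC
  have memC : ∀ y, y ∈ C ↔ y ∈ Om d ∧ lab a b y = lab a b x ∧ ctr a b p q y ∧ y a p = x a p := by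
    intro y
    rw [hC, mem_cls, mem_O2]
    constructor
    · rintro ⟨⟨h1, h2⟩, h3⟩
      obtain ⟨g1, g2, g3, g4⟩ := AB_blk h4 h3
      refine ⟨h1, AB_fine h3, ?_, g1⟩
      unfold ctr
      rw [g1, g2, g3, g4]
      exact hc
    · rintro ⟨h1, h2, h3, h5⟩
      refine ⟨⟨h1, ctr_tt h3⟩, ?_⟩
      have : y a q = x a q ∧ y b p = x b p ∧ y b q = x b q := by
        obtain ⟨k1, k2, k3⟩ := hc
        obtain ⟨m1, m2, m3⟩ := h3
        revert k1 k2 k3 m1 m2 m3 h5
        generalize x a p = x1
        generalize x a q = x2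
        generalize x b p = x3
        generalize x b q = x4
        generalize y a p = y1
        generalize y a q = y2
        generalize y b p = y3
        generalize y b q = y4
        revert x1 x2 x3 x4 y1 y2 y3 y4
        decide
      exact AB_of (mem_Om.1 h1).1 (mem_Om.1 hx).1 h2 h5 this.1 this.2.1 this.2.2
  set F := (Om d).filter (fun y => lab a b y = lab a b x ∧ ctr a b p q y) with hF
  have memF : ∀ y, y ∈ F ↔ y ∈ Om d ∧ lab a b y = lab a b x ∧ ctr a b p q y := by
    intro y; rw [hF, mem_filter]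
  have hgap : ∀ y, ctr a b p q y → gam a b p q y a p = !(y a p) := by
    intro y hy
    unfold gam; rw [if_pos hy]; simp [fl]
  have hsum : ∀ g : St V → ℝ, ∑ y ∈ F, g y = ∑ y ∈ C, (g y + g (gam a b p q y)) := by
    intro g
    rw [← sum_filter_add_sum_filter_not F (fun y => y a p = x a p), sum_add_distrib]
    congr 1
    · apply sum_congr _ (fun _ _ => rfl)
      ext y
      rw [mem_filter, memF, memC]
      tauto
    · refine sum_nbij' (gam a b p q) (gam a b p q) ?_ ?_ ?_ ?_ ?_
      · intro y hy
        rw [mem_filter, memF] at hy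
        obtain ⟨⟨k1, k2, k3⟩, k4⟩ := hy
        rw [memC]
        refine ⟨gam_mem h4 k1, (lab_gam h4).trans k2, (ctr_gam h4).2 k3, ?_⟩
        rw [hgap y k3]
        revert k4
        generalize y a p = y1
        generalize x a p = x1
        revert x1 y1
        decide
      · intro y hy
        rw [memC] at hy
        obtain ⟨k1, k2, k3, k4⟩ := hy
        rw [mem_filter, memF]
        refine ⟨⟨gam_mem h4 k1, (lab_gam h4).trans k2, (ctr_gam h4).2 k3⟩, ?_⟩
        rw [hgap y k3, k4]
        generalize x a p = x1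
        revert x1
        decide
      · intro y _; exact gam_gam h4
      · intro y _; exact gam_gam h4
      · intro y _; rw [gam_gam h4]
  have hcard : (F.card : ℝ) = 2 * C.card := by
    have := hsum (fun _ => 1)
    simp only [sum_const, nsmul_eq_mul, mul_one] at this
    rw [this]; ring
  have hxC : x ∈ C := (memC x).2 ⟨hx, rfl, hc, rfl⟩
  have hCne : (C.card : ℝ) ≠ 0 := by exact_mod_cast (card_pos.2 ⟨x, hxC⟩).ne'
  unfold FF
  rw [← hF, hsum f, hcard, Av_eq, ← hC, ← sum_div]
  field_simp

/-- column configuration: both averages agree -/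
lemma nc_eq (h4 : Dist4 a b p q) (f : St V → ℝ) (hx : x ∈ O2 d a b p q)
    (h1 : x a p = x b p) (h2 : x a q = x b q) :
    Av (O2 d a b p q) (er (AB a b p q)) f x = Av (O2 d a b p q) (lab a b) f x := by
  have : cls (O2 d a b p q) (er (AB a b p q)) x = cls (O2 d a b p q) (lab a b) x := by
    ext y
    rw [mem_cls, mem_cls]
    constructor
    · rintro ⟨h3, h5⟩
      exact ⟨h3, AB_fine h5⟩
    · rintro ⟨h3, h5⟩
      refine ⟨h3, ?_⟩
      rw [mem_O2] at hx h3
      obtain ⟨hab, hpq, hap, haq, hbp, hbq⟩ := id h4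
      have c1 := col_sum h3.1 hx.1 hab h5 p hap hbp
      have c2 := col_sum h3.1 hx.1 hab h5 q haq hbq
      have : y a p = x a p ∧ y a q = x a q ∧ y b p = x b p ∧ y b q = x b q := by
        revert c1 c2 h1 h2
        generalize x a p = x1
        generalize x a q = x2
        generalize x b p = x3
        generalize x b q = x4
        generalize y a p = y1
        generalize y a q = y2
        generalize y b p = y3
        generalize y b q = y4
        revert x1 x2 x3 x4 y1 y2 y3 y4
        decide
      exact AB_of (mem_Om.1 h3.1).1 (mem_Om.1 hx.1).1 h5 this.1 this.2.1 this.2.2.1 this.2.2.2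
  rw [Av_eq, Av_eq, this]

end

theorem disj : DisjStmt := by
  intro n d f a b p q h4
  obtain ⟨hab, hpq, hap, haq, hbp, hbq⟩ := id h4
  set S2 := O2 d a b p q with hS2
  set S1 := (Om d).filter fun x => tt a b p q x ≠ 2 with hS1
  have hsplit : ∀ F : St (Fin n) → ℝ, ∑ x ∈ Om d, F x = ∑ x ∈ S2, F x + ∑ x ∈ S1, F x := by
    intro F; rw [hS2, O2, hS1, sum_filter_add_sum_filter_not]
  have s2 : S2 ⊆ Om d := filter_subset _ _
  have s1 : S1 ⊆ Om d := filter_subset _ _
  have cl2ab : ∀ x ∈ S2, ∀ y ∈ Om d, lab a b y = lab a b x → y ∈ S2 := by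
    intro x hx y hy h
    rw [hS2, mem_O2] at hx ⊢
    exact ⟨hy, by rw [tt_lab h4 hy hx.1 h]; exact hx.2⟩
  have cl2pq : ∀ x ∈ S2, ∀ y ∈ Om d, lab p q y = lab p q x → y ∈ S2 := by
    intro x hx y hy h
    rw [hS2, mem_O2] at hx ⊢
    exact ⟨hy, by rw [tt_lab' h4 hy hx.1 h]; exact hx.2⟩
  have cl1ab : ∀ x ∈ S1, ∀ y ∈ Om d, lab a b y = lab a b x → y ∈ S1 := by
    intro x hx y hy h
    rw [hS1, mem_filter] at hx ⊢
    exact ⟨hy, by rw [tt_lab h4 hy hx.1 h]; exact hx.2⟩
  have cl1pq : ∀ x ∈ S1, ∀ y ∈ Om d, lab p q y = lab p q x → y ∈ S1 := by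
    intro x hx y hy h
    rw [hS1, mem_filter] at hx ⊢
    exact ⟨hy, by rw [tt_lab' h4 hy hx.1 h]; exact hx.2⟩
  have e1 : ∑ x ∈ Om d, RR d a b f x * RR d p q f x
      = ∑ x ∈ S2, (f x - Av S2 (lab a b) f x) * (f x - Av S2 (lab p q) f x)
        + ∑ x ∈ S1, (f x - Av S1 (lab a b) f x) * (f x - Av S1 (lab p q) f x) := by
    rw [hsplit]
    congr 1
    · refine sum_congr rfl fun x hx => ?_
      rw [Av_sub_set s2 cl2ab f hx, Av_sub_set s2 cl2pq f hx]; rfl
    · refine sum_congr rfl fun x hx => ?_
      rw [Av_sub_set s1 cl1ab f hx, Av_sub_set s1 cl1pq f hx]; rfl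
  have n1 : 0 ≤ ∑ x ∈ S1, (f x - Av S1 (lab a b) f x) * (f x - Av S1 (lab p q) f x) :=
    comm_nonneg (fun f x hx => comm_ne h4 f x hx) f
  have hg : ∀ x ∈ S2, gam a b p q x ∈ S2 := fun x hx => gam_O2 h4 hx
  have hgg : ∀ x ∈ S2, gam a b p q (gam a b p q x) = x := fun x _ => gam_gam h4
  have hgl : ∀ x ∈ S2, lab a b (gam a b p q x) = lab a b x := fun x _ => lab_gam h4
  have hgm : ∀ x ∈ S2, lab p q (gam a b p q x) = lab p q x := fun x _ => lab_gam' h4
  have e2 := even_odd (S := S2) (l := lab a b) (m := lab p q) (g := gam a b p q) hg hgg hgl hgm f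
  set fe : St (Fin n) → ℝ := fun y => (f y + f (gam a b p q y)) / 2 with hfe
  -- commutations
  have fineP : ∀ x ∈ S2, ∀ y ∈ S2, er (AB a b p q) x = er (AB a b p q) y → lab a b x = lab a b y :=
    fun x _ y _ h => AB_fine h
  have fineQ : ∀ x ∈ S2, ∀ y ∈ S2, er (AB p q a b) x = er (AB p q a b) y → lab p q x = lab p q y :=
    fun x _ y _ h => AB_fine h
  have dj1 : ∀ u v, AB a b p q u v = true → AA p q u v = false := by
    intro u v h
    simp only [AB, decide_eq_true_eq] at h
    simp only [AA, decide_eq_false_iff_not, not_not]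
    rcases h with ⟨h1, h2⟩ | ⟨h1, h2⟩
    · constructor
      · rintro (rfl | rfl) <;> rcases h1 with h1 | h1
        · exact absurd h1.symm hap
        · exact absurd h1.symm hbp
        · exact absurd h1.symm haq
        · exact absurd h1.symm hbq
      · rintro (h3 | h3)
        · exact absurd h3 h2.2.2.1
        · exact absurd h3 h2.2.2.2
    · constructor
      · rintro (h3 | h3)
        · exact absurd h3 h2.2.2.1
        · exact absurd h3 h2.2.2.2
      · rintro (rfl | rfl) <;> rcases h1 with h1 | h1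
        · exact absurd h1.symm hap
        · exact absurd h1.symm hbp
        · exact absurd h1.symm haq
        · exact absurd h1.symm hbq
  have dj2 : ∀ u v, AB a b p q u v = true → AB p q a b u v = false := by
    intro u v h
    have := dj1 u v h
    simp only [AA, decide_eq_false_iff_not, not_not] at this
    simp only [AB, decide_eq_false_iff_not]
    rintro (⟨h1, h2⟩ | ⟨h1, h2⟩)
    · rcases this.1 h1 with h3 | h3
      · exact h2.1 h3
      · exact h2.2.1 h3
    · rcases this.2 h1 with h3 | h3
      · exact h2.1 h3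
      · exact h2.2.1 h3
  have dj3 : ∀ u v, AA a b u v = true → AB p q a b u v = false := by
    intro u v h
    simp only [AA, decide_eq_true_eq] at h
    simp only [AB, decide_eq_false_iff_not]
    rintro (⟨h1, h2⟩ | ⟨h1, h2⟩)
    · apply h
      constructor
      · rintro (rfl | rfl) <;> rcases h1 with h1 | h1 <;> contradiction
      · rintro (h3 | h3)
        · exact absurd h3 h2.2.2.1
        · exact absurd h3 h2.2.2.2
    · apply h
      constructor
      · rintro (h3 | h3)
        · exact absurd h3 h2.2.2.1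
        · exact absurd h3 h2.2.2.2
      · rintro (rfl | rfl) <;> rcases h1 with h1 | h1 <;> contradiction
  have c1 : ∀ f : St (Fin n) → ℝ, ∀ x ∈ S2, Av S2 (er (AB a b p q)) (Av S2 (lab p q) f) x
      = Av S2 (lab p q) (Av S2 (er (AB a b p q)) f) x := by
    rw [lab_eq' p q]
    refine comm_er S2 s2 _ _ (AA_symm p q) dj1 ?_
    intro x hx y hy h
    exact cl2pq x hx y hy (by rw [lab_eq, lab_eq]; exact h.symm)
  have c2 : ∀ f : St (Fin n) → ℝ, ∀ x ∈ S2, Av S2 (er (AB a b p q)) (Av S2 (er (AB p q a b)) f) x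
      = Av S2 (er (AB p q a b)) (Av S2 (er (AB a b p q)) f) x := by
    refine comm_er S2 s2 _ _ (AB_symm p q a b) dj2 ?_
    intro x hx y hy h
    exact cl2pq x hx y hy (AB_fine h.symm)
  have c3 : ∀ f : St (Fin n) → ℝ, ∀ x ∈ S2, Av S2 (lab a b) (Av S2 (er (AB p q a b)) f) x
      = Av S2 (er (AB p q a b)) (Av S2 (lab a b) f) x := by
    rw [lab_eq' a b]
    refine comm_er S2 s2 _ _ (AB_symm p q a b) dj3 ?_
    intro x hx y hy h
    exact cl2pq x hx y hy (AB_fine h.symm)
  have e3 := AL (Ω := S2) (l := lab a b) (m := lab p q) (l1 := er (AB a b p q)) (m1 := er (AB p q a b))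
    fineP fineQ c1 c2 c3 fe
  -- pointwise lower bound
  have hP : ∀ x ∈ S2, Av S2 (lab a b) fe x = PP d a b f x := by
    intro x hx
    rw [hfe, Av_even hg hgg hgl f x, Av_sub_set s2 cl2ab f hx]; rfl
  have hQ : ∀ x ∈ S2, Av S2 (lab p q) fe x = PP d p q f x := by
    intro x hx
    rw [hfe, Av_even hg hgg hgm f x, Av_sub_set s2 cl2pq f hx]; rfl
  have hsw : S2 = O2 d p q a b := by rw [hS2, O2_swap]
  have pw : ∀ x ∈ S2, (if ctr a b p q x then
        -(((FF d a b p q f x - PP d a b f x) ^ 2 + (FF d p q a b f x - PP d p q f x) ^ 2) / 2) else 0) ≤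
      (Av S2 (er (AB a b p q)) fe x - Av S2 (lab a b) fe x) *
        (Av S2 (er (AB p q a b)) fe x - Av S2 (lab p q) fe x) := by
    intro x hx
    have hxO : x ∈ Om d := s2 hx
    by_cases hc : ctr a b p q x
    · rw [if_pos hc, hP x hx, hQ x hx, hS2, FF_eq h4 f hxO hc]
      have : Av (O2 d a b p q) (er (AB p q a b)) fe x = FF d p q a b f x := by
        rw [← hS2, hsw, ← FF_eq h4.swap f hxO ((ctr_swap hxO).2 hc)]
        refine Av_congr (fun y hy => ?_) x
        have hyO : y ∈ Om d := (mem_O2.1 hy).1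
        rw [hfe]
        simp only
        rw [gam_swap hyO]
      rw [this]
      nlinarith [sq_nonneg ((FF d a b p q f x - PP d a b f x) + (FF d p q a b f x - PP d p q f x))]
    · rw [if_neg hc]
      apply le_of_eq
      symm
      have h2 := (mem_O2.1 hx).2
      have hor : (x a p = x b p ∧ x a q = x b q) ∨ (x p a = x q a ∧ x p b = x q b) := by
        rw [Om_symm hxO p a, Om_symm hxO p b, Om_symm hxO q a, Om_symm hxO q b]
        unfold ctr at hc
        unfold tt at h2
        revert hc h2
        generalize x a p = x1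
        generalize x a q = x2
        generalize x b p = x3
        generalize x b q = x4
        revert x1 x2 x3 x4
        decide
      rcases hor with ⟨g1, g2⟩ | ⟨g1, g2⟩
      · rw [hS2, nc_eq h4 fe hx g1 g2, sub_self, zero_mul]
      · have hx' : x ∈ O2 d p q a b := hsw ▸ hx
        rw [hsw, nc_eq h4.swap fe hx' g1 g2, sub_self, mul_zero]
  have e4 := sum_le_sum pw
  have e5 : ∑ x ∈ S2, (if ctr a b p q x then
        -(((FF d a b p q f x - PP d a b f x) ^ 2 + (FF d p q a b f x - PP d p q f x) ^ 2) / 2) else 0)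
      = - ((∑ x ∈ (Om d).filter (ctr a b p q),
        ((FF d a b p q f x - PP d a b f x) ^ 2 + (FF d p q a b f x - PP d p q f x) ^ 2)) / 2) := by
    rw [← sum_filter, sum_neg_distrib, sum_div]
    congr 1
    apply sum_congr _ (fun _ _ => rfl)
    ext x
    rw [mem_filter, mem_filter, hS2, mem_O2]
    exact ⟨fun h => ⟨h.1.1, h.2⟩, fun h => ⟨⟨h.1, ctr_tt h.2⟩, h.2⟩⟩
  have e6 : ∑ x ∈ Om d, hh a b p q f x ^ 2 = ∑ x ∈ S2, ((f x - f (gam a b p q x)) / 2) ^ 2 := by
    rw [hsplit]
    have : ∑ x ∈ S1, hh a b p q f x ^ 2 = 0 := by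
      refine sum_eq_zero fun x hx => ?_
      have hc : ¬ ctr a b p q x := fun h => (mem_filter.1 hx).2 (ctr_tt h)
      unfold hh
      rw [gam_of_not hc]; simp
    rw [this, add_zero]
    rfl
  rw [e1, e6]
  rw [e2]
  linarith

end Crest.Agent.SW
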