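import Crest.Prelude.Def_SwitchChain

/-!
Row 299 (S0453), module KERNEL, part 1: total variation bound for a lazy symmetric chain from a
Poincaré inequality.  Owner: helper8.
-/

set_option autoImplicit false

namespace Crest.Agent.SW.TV

open Finset

variable {α : Type*} [Fintype α] [DecidableEq α]

/-- Jensen for a sub-probability vector. -/
lemma jensen_sq (Ω : Finset α) (w v : α → ℝ) (hw : ∀ y ∈ Ω, 0 ≤ w y) (h1 : ∑ y ∈ Ω, w y = 1) :
    (∑ y ∈ Ω, w y * v y) ^ 2 ≤ ∑ y ∈ Ω, w y * v y ^ 2 := by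
  set m := ∑ y ∈ Ω, w y * v y with hm
  have h : 0 ≤ ∑ y ∈ Ω, w y * (v y - m) ^ 2 :=
    sum_nonneg fun y hy => mul_nonneg (hw y hy) (sq_nonneg _)
  have e : ∑ y ∈ Ω, w y * (v y - m) ^ 2 = ∑ y ∈ Ω, w y * v y ^ 2 - m ^ 2 := by
    have e1 : ∀ y, w y * (v y - m) ^ 2 = w y * v y ^ 2 - 2 * m * (w y * v y) + m ^ 2 * w y :=
      fun y => by ring
    simp only [e1]
    rw [sum_add_distrib, sum_sub_distrib, ← mul_sum, ← mul_sum, h1, ← hm]
    ring
  linarith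

/-- laziness: `‖P v‖² ≤ ⟨v, P v⟩`. -/
lemma sq_le_inner (P : Matrix α α ℝ) (Ω : Finset α)
    (hnn : ∀ x y, 0 ≤ P x y) (hsym : ∀ x y, P x y = P y x)
    (hrow : ∀ x ∈ Ω, ∑ y ∈ Ω, P x y = 1) (hlazy : ∀ x ∈ Ω, 1 / 2 ≤ P x x) (v : α → ℝ) :
    ∑ x ∈ Ω, (∑ y ∈ Ω, P x y * v y) ^ 2 ≤ ∑ x ∈ Ω, v x * ∑ y ∈ Ω, P x y * v y := by
  -- `Q = 2 P - 1`
  set Q : α → α → ℝ := fun x y => 2 * P x y - if x = y then 1 else 0 with hQ
  have hQnn : ∀ x ∈ Ω, ∀ y ∈ Ω, 0 ≤ Q x y := by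
    intro x hx y _
    simp only [hQ]
    split_ifs with h
    · subst h; linarith [hlazy x hx]
    · linarith [hnn x y]
  have hQrow : ∀ x ∈ Ω, ∑ y ∈ Ω, Q x y = 1 := by
    intro x hx
    simp only [hQ]
    rw [sum_sub_distrib, ← mul_sum, hrow x hx, sum_ite_eq, if_pos hx]
    norm_num
  have hQsym : ∀ x y, Q x y = Q y x := by
    intro x y
    simp only [hQ, hsym x y, eq_comm]
  have hQv : ∀ x ∈ Ω, ∑ y ∈ Ω, Q x y * v y = 2 * (∑ y ∈ Ω, P x y * v y) - v x := by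
    intro x hx
    have : ∀ y, Q x y * v y = 2 * (P x y * v y) - (if x = y then v y else 0) := by
      intro y
      simp only [hQ]
      split_ifs <;> ring
    simp only [this]
    rw [sum_sub_distrib, ← mul_sum, sum_ite_eq, if_pos hx]
  have h1 : ∑ x ∈ Ω, (∑ y ∈ Ω, Q x y * v y) ^ 2 ≤ ∑ x ∈ Ω, v x ^ 2 := by
    calc ∑ x ∈ Ω, (∑ y ∈ Ω, Q x y * v y) ^ 2 ≤ ∑ x ∈ Ω, ∑ y ∈ Ω, Q x y * v y ^ 2 :=
          sum_le_sum fun x hx => jensen_sq Ω (Q x) v (hQnn x hx) (hQrow x hx)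
      _ = ∑ y ∈ Ω, ∑ x ∈ Ω, Q x y * v y ^ 2 := sum_comm
      _ = ∑ y ∈ Ω, v y ^ 2 := by
          refine sum_congr rfl fun y hy => ?_
          rw [← sum_mul]
          have : ∑ x ∈ Ω, Q x y = 1 := by
            rw [← hQrow y hy]
            exact sum_congr rfl fun x _ => hQsym x y
          rw [this, one_mul]
  have h2 : ∑ x ∈ Ω, (∑ y ∈ Ω, Q x y * v y) ^ 2 =
      4 * ∑ x ∈ Ω, (∑ y ∈ Ω, P x y * v y) ^ 2 - 4 * ∑ x ∈ Ω, v x * ∑ y ∈ Ω, P x y * v y +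
        ∑ x ∈ Ω, v x ^ 2 := by
    rw [mul_sum, mul_sum, ← sum_sub_distrib, ← sum_add_distrib]
    refine sum_congr rfl fun x hx => ?_
    rw [hQv x hx]
    ring
  linarith

open Crest.SwitchChain in
/-- convergence to the uniform distribution from a Poincaré inequality. -/
theorem tv_sq_bound (P : Matrix α α ℝ) (Ω : Finset α) (hΩ : Ω.Nonempty)
    (hnn : ∀ x y, 0 ≤ P x y) (hsym : ∀ x y, P x y = P y x)
    (hcl : ∀ x ∈ Ω, ∀ y, y ∉ Ω → P x y = 0)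
    (hrow : ∀ x ∈ Ω, ∑ y ∈ Ω, P x y = 1) (hlazy : ∀ x ∈ Ω, 1 / 2 ≤ P x x)
    (L : ℝ) (hL : 1 ≤ L)
    (hP : ∀ f : α → ℝ, ∑ x ∈ Ω, f x = 0 →
      ∑ x ∈ Ω, f x ^ 2 ≤ L * ∑ x ∈ Ω, f x * (f x - ∑ y ∈ Ω, P x y * f y))
    (x : α) (hx : x ∈ Ω) (t : ℕ) :
    (∑ y, |(P ^ t) x y - unifOn Ω y|) ^ 2 ≤ (Ω.card : ℝ) * (1 - 1 / L) ^ t := by
  have hN : 0 < (Ω.card : ℝ) := by exact_mod_cast hΩ.card_pos
  have hL0 : 0 < L := by linarith
  have h1L : 0 ≤ 1 - 1 / L := by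
    rw [sub_nonneg, div_le_one hL0]; exact hL
  have hout : ∀ t : ℕ, ∀ y, y ∉ Ω → (P ^ t) x y = 0 := by
    intro t
    induction t with
    | zero =>
      intro y hy
      rw [pow_zero, Matrix.one_apply_ne]
      rintro rfl; exact hy hx
    | succ t ih =>
      intro y hy
      rw [pow_succ, Matrix.mul_apply]
      refine sum_eq_zero fun z _ => ?_
      by_cases hz : z ∈ Ω
      · rw [hcl z hz y hy, mul_zero]
      · rw [ih z hz, zero_mul]
  have hstep : ∀ t : ℕ, ∀ y, (P ^ (t + 1)) x y = ∑ z ∈ Ω, P y z * (P ^ t) x z := by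
    intro t y
    rw [pow_succ, Matrix.mul_apply, ← sum_subset (subset_univ Ω)]
    · exact sum_congr rfl fun z _ => by rw [hsym z y, mul_comm]
    · intro z _ hz
      rw [hout t z hz, zero_mul]
  have hcol : ∀ z ∈ Ω, ∑ y ∈ Ω, P y z = 1 := by
    intro z hz
    rw [← hrow z hz]
    exact sum_congr rfl fun y _ => hsym y z
  have hsum : ∀ t : ℕ, ∑ y ∈ Ω, (P ^ t) x y = 1 := by
    intro t
    induction t with
    | zero =>
      simp only [pow_zero, Matrix.one_apply]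
      rw [sum_ite_eq, if_pos hx]
    | succ t ih =>
      simp only [hstep]
      rw [sum_comm, ← ih]
      refine sum_congr rfl fun z hz => ?_
      rw [← sum_mul, hcol z hz, one_mul]
  set v : ℕ → α → ℝ := fun t y => (P ^ t) x y - 1 / (Ω.card : ℝ) with hv
  have hv0 : ∀ t, ∑ y ∈ Ω, v t y = 0 := by
    intro t
    simp only [hv]
    rw [sum_sub_distrib, hsum, sum_const, nsmul_eq_mul, mul_one_div_cancel hN.ne', sub_self]
  have hvs : ∀ t, ∀ y ∈ Ω, v (t + 1) y = ∑ z ∈ Ω, P y z * v t z := by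
    intro t y hy
    simp only [hv, hstep, mul_sub]
    rw [sum_sub_distrib, ← sum_mul, hrow y hy, one_mul]
  have hdec : ∀ t, ∑ y ∈ Ω, v t y ^ 2 ≤ (1 - 1 / L) ^ t := by
    intro t
    induction t with
    | zero =>
      have e1 : ∀ y ∈ Ω, v 0 y ^ 2 = (if x = y then 1 - 2 / (Ω.card : ℝ) else 0) +
          1 / (Ω.card : ℝ) ^ 2 := by
        intro y _
        simp only [hv, pow_zero, Matrix.one_apply]
        split_ifs <;> ring
      rw [sum_congr rfl e1, sum_add_distrib, sum_ite_eq, if_pos hx, sum_const, nsmul_eq_mul,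
        pow_zero]
      have : (Ω.card : ℝ) * (1 / (Ω.card : ℝ) ^ 2) = 1 / Ω.card := by field_simp
      rw [this]
      have h3 : 0 ≤ 1 / (Ω.card : ℝ) := by positivity
      have h4 : 2 / (Ω.card : ℝ) = 2 * (1 / Ω.card) := by ring
      rw [h4]
      linarith
    | succ t ih =>
      have h1 : ∑ y ∈ Ω, v (t + 1) y ^ 2 = ∑ y ∈ Ω, (∑ z ∈ Ω, P y z * v t z) ^ 2 :=
        sum_congr rfl fun y hy => by rw [hvs t y hy]
      have h2 := sq_le_inner P Ω hnn hsym hrow hlazy (v t)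
      have h3 := hP (v t) (hv0 t)
      have h4 : ∑ y ∈ Ω, v t y * (v t y - ∑ z ∈ Ω, P y z * v t z) =
          ∑ y ∈ Ω, v t y ^ 2 - ∑ y ∈ Ω, v t y * ∑ z ∈ Ω, P y z * v t z := by
        rw [← sum_sub_distrib]
        exact sum_congr rfl fun y _ => by ring
      rw [h4] at h3
      set A := ∑ y ∈ Ω, v t y ^ 2 with hA
      set B := ∑ y ∈ Ω, v t y * ∑ z ∈ Ω, P y z * v t z with hB
      have h5 : B ≤ (1 - 1 / L) * A := by
        have : A / L ≤ A - B := by rw [div_le_iff₀ hL0]; linarith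
        have e : (1 - 1 / L) * A = A - A / L := by ring
        rw [e]; linarith
      calc ∑ y ∈ Ω, v (t + 1) y ^ 2 ≤ B := by rw [h1]; exact h2
        _ ≤ (1 - 1 / L) * A := h5
        _ ≤ (1 - 1 / L) * (1 - 1 / L) ^ t := mul_le_mul_of_nonneg_left ih h1L
        _ = (1 - 1 / L) ^ (t + 1) := by rw [pow_succ, mul_comm]
  have hTV : ∑ y, |(P ^ t) x y - unifOn Ω y| = ∑ y ∈ Ω, |v t y| := by
    rw [← sum_subset (subset_univ Ω)]
    · refine sum_congr rfl fun y hy => ?_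
      simp only [hv, unifOn, if_pos hy]
    · intro y _ hy
      rw [hout t y hy, unifOn, if_neg hy, sub_self, abs_zero]
  rw [hTV]
  have hCS : (∑ y ∈ Ω, |v t y|) ^ 2 ≤ (Ω.card : ℝ) * ∑ y ∈ Ω, |v t y| ^ 2 :=
    sq_sum_le_card_mul_sum_sq
  refine hCS.trans (mul_le_mul_of_nonneg_left ?_ hN.le)
  simpa only [sq_abs] using hdec t

end Crest.Agent.SW.TV
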