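import Crest.Agent.SWProp
import Crest.Agent.SWTV

/-!
Row 299 (S0453), module KERNEL, part 3: transfer between edge sets and 0/1 matrices; the statement
from the Poincaré inequality `MainStmt`.  Owner: helper8.
-/

set_option autoImplicit false

namespace Crest.Agent.SW.Kern

open Finset Crest.SwitchChain

lemma mem_Om' {V : Type*} [Fintype V] [DecidableEq V] {d : V → ℕ} {x : St V} :
    x ∈ Om d ↔ IsG x ∧ ∀ u, dg x u = d u := by
  unfold Om; rw [mem_filter]; simp

variable {n : ℕ}

/-- the adjacency matrix -/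
def toSt (E : Finset (Edge n)) : St (Fin n) := fun u v =>
  if h : u ≠ v then decide (mk u v h ∈ E) else false

lemma toSt_apply {E : Finset (Edge n)} {u v : Fin n} (h : u ≠ v) :
    toSt E u v = decide (mk u v h ∈ E) := by
  unfold toSt; rw [dif_pos h]

lemma toSt_true {E : Finset (Edge n)} {u v : Fin n} (h : u ≠ v) :
    toSt E u v = true ↔ mk u v h ∈ E := by
  rw [toSt_apply h]; simp

lemma toSt_false {E : Finset (Edge n)} {u v : Fin n} (h : u ≠ v) :
    toSt E u v = false ↔ mk u v h ∉ E := by
  rw [toSt_apply h]; simp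

lemma toSt_diag (E : Finset (Edge n)) (u : Fin n) : toSt E u u = false := by
  unfold toSt; simp

lemma toSt_symm (E : Finset (Edge n)) (u v : Fin n) : toSt E u v = toSt E v u := by
  by_cases h : u ≠ v
  · rw [toSt_apply h, toSt_apply h.symm, mk_comm h]
  · rw [not_not] at h; rw [h]

lemma toSt_injective : Function.Injective (toSt (n := n)) := by
  intro E E' h
  ext e
  obtain ⟨u, v, huv, rfl⟩ := exists_mk e
  rw [← toSt_true huv, ← toSt_true huv, h]

lemma isG_toSt (E : Finset (Edge n)) : IsG (toSt E) := ⟨toSt_symm E, toSt_diag E⟩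

lemma ne_of_toSt {E : Finset (Edge n)} {u v : Fin n} (h : toSt E u v = true) : u ≠ v := by
  rintro rfl
  rw [toSt_diag] at h
  exact Bool.false_ne_true h

lemma dg_toSt (E : Finset (Edge n)) (u : Fin n) : dg (toSt E) u = deg E u := by
  unfold dg deg
  refine card_bij (fun v hv => mk u v (ne_of_toSt (mem_filter.1 hv).2)) ?_ ?_ ?_
  · intro v hv
    have h := (mem_filter.1 hv).2
    rw [mem_filter]
    refine ⟨(toSt_true (ne_of_toSt h)).1 h, by simp⟩
  · intro v hv v' hv' h
    rw [mk_eq_mk] at h
    rcases h with ⟨_, h⟩ | ⟨h1, h2⟩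
    · exact h
    · exact absurd h1 (ne_of_toSt (mem_filter.1 hv').2)
  · intro e he
    rw [mem_filter] at he
    obtain ⟨v, huv, rfl⟩ := exists_mk_of_mem he.2
    exact ⟨v, mem_filter.2 ⟨mem_univ _, (toSt_true huv).2 he.1⟩, rfl⟩

lemma toSt_mem_Om (d : Fin n → ℕ) (E : Finset (Edge n)) : toSt E ∈ Om d ↔ E ∈ realizations d := by
  unfold realizations
  rw [mem_Om', mem_filter]
  simp only [mem_univ, true_and, dg_toSt, isG_toSt]

lemma exists_toSt {x : St (Fin n)} (hx : IsG x) : ∃ E : Finset (Edge n), toSt E = x := by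
  classical
  refine ⟨univ.filter (fun e : Edge n => ∃ u v, ∃ h : u ≠ v, e = mk u v h ∧ x u v = true), ?_⟩
  funext u v
  by_cases huv : u ≠ v
  · rw [Bool.eq_iff_iff, toSt_true huv, mem_filter]
    constructor
    · rintro ⟨_, u', v', h', he, h1⟩
      rw [mk_eq_mk] at he
      rcases he with ⟨rfl, rfl⟩ | ⟨rfl, rfl⟩
      · exact h1
      · rw [hx.1]; exact h1
    · intro hx'
      exact ⟨mem_univ _, u, v, huv, rfl, hx'⟩
  · rw [not_not] at huv
    subst huv
    rw [toSt_diag, hx.2]

/-- sums over the states -/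
lemma sum_Om (d : Fin n → ℕ) (g : St (Fin n) → ℝ) :
    ∑ x ∈ Om d, g x = ∑ E ∈ realizations d, g (toSt E) := by
  symm
  refine sum_bij (fun E _ => toSt E) ?_ ?_ ?_ ?_
  · intro E hE
    exact (toSt_mem_Om d E).2 hE
  · intro E _ E' _ h
    exact toSt_injective h
  · intro x hx
    have hG : IsG x := (mem_Om'.1 hx).1
    obtain ⟨E, rfl⟩ := exists_toSt hG
    exact ⟨E, (toSt_mem_Om d E).1 hx, rfl⟩
  · intro E _
    rfl

lemma card_Om (d : Fin n → ℕ) : ((Om d).card : ℝ) = ((realizations d).card : ℝ) := by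
  have := sum_Om d (fun _ => 1)
  simpa using this

/-! ### switches -/

lemma fl_toSt {a b p q : Fin n} (E : Finset (Edge n)) (hab : a ≠ b) (hpq : p ≠ q) (hap : a ≠ p)
    (haq : a ≠ q) (hbp : b ≠ p) (hbq : b ≠ q) (h1 : mk a p hap ∈ E) (h2 : mk b q hbq ∈ E)
    (h3 : mk a q haq ∉ E) (h4 : mk b p hbp ∉ E) :
    fl a b p q (toSt E) =
      toSt (E \ {mk a p hap, mk b q hbq} ∪ {mk a q haq, mk b p hbp}) := by
  funext u v
  by_cases huv : u ≠ v
  swap
  · rw [not_not] at huv
    subst huv
    rw [toSt_diag]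
    unfold fl
    rw [if_neg]
    · exact toSt_diag E u
    · rintro (⟨h5 | h5, h6 | h6⟩ | ⟨h5 | h5, h6 | h6⟩)
      · exact hap (h5.symm.trans h6)
      · exact haq (h5.symm.trans h6)
      · exact hbp (h5.symm.trans h6)
      · exact hbq (h5.symm.trans h6)
      · exact hap (h6.symm.trans h5)
      · exact hbp (h6.symm.trans h5)
      · exact haq (h6.symm.trans h5)
      · exact hbq (h6.symm.trans h5)
  · have m1 : mk a q haq ≠ mk a p hap := by
      rw [Ne, mk_eq_mk]; rintro (⟨_, h⟩ | ⟨h, _⟩)
      · exact hpq h.symm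
      · exact hap h
    have m2 : mk b p hbp ≠ mk b q hbq := by
      rw [Ne, mk_eq_mk]; rintro (⟨_, h⟩ | ⟨h, _⟩)
      · exact hpq h
      · exact hbq h
    have v1 : toSt (E \ {mk a p hap, mk b q hbq} ∪ {mk a q haq, mk b p hbp}) a p = false := by
      rw [toSt_false hap]
      simp only [mem_union, mem_sdiff, mem_insert, mem_singleton, true_or, not_true_eq_false,
        and_false, false_or, not_or]
      refine ⟨m1.symm, ?_⟩
      rw [mk_eq_mk]; rintro (⟨h, _⟩ | ⟨h, _⟩)
      · exact hab h
      · exact hap h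
    have v2 : toSt (E \ {mk a p hap, mk b q hbq} ∪ {mk a q haq, mk b p hbp}) b q = false := by
      rw [toSt_false hbq]
      simp only [mem_union, mem_sdiff, mem_insert, mem_singleton, or_true, not_true_eq_false,
        and_false, false_or, not_or]
      refine ⟨?_, m2.symm⟩
      rw [mk_eq_mk]; rintro (⟨h, _⟩ | ⟨h, _⟩)
      · exact hab h.symm
      · exact hbq h
    have v3 : toSt (E \ {mk a p hap, mk b q hbq} ∪ {mk a q haq, mk b p hbp}) a q = true := by
      rw [toSt_true haq]
      simp
    have v4 : toSt (E \ {mk a p hap, mk b q hbq} ∪ {mk a q haq, mk b p hbp}) b p = true := by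
      rw [toSt_true hbp]
      simp
    have w1 : toSt E a p = true := (toSt_true hap).2 h1
    have w2 : toSt E b q = true := (toSt_true hbq).2 h2
    have w3 : toSt E a q = false := (toSt_false haq).2 h3
    have w4 : toSt E b p = false := (toSt_false hbp).2 h4
    unfold fl
    by_cases hc : ((u = a ∨ u = b) ∧ (v = p ∨ v = q)) ∨ ((u = p ∨ u = q) ∧ (v = a ∨ v = b))
    · rw [if_pos hc]
      rcases hc with ⟨rfl | rfl, rfl | rfl⟩ | ⟨rfl | rfl, rfl | rfl⟩
      · rw [v1, w1]; rfl
      · rw [v3, w3]; rfl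
      · rw [v4, w4]; rfl
      · rw [v2, w2]; rfl
      · rw [toSt_symm E u v, toSt_symm _ u v, v1, w1]; rfl
      · rw [toSt_symm E u v, toSt_symm _ u v, v4, w4]; rfl
      · rw [toSt_symm E u v, toSt_symm _ u v, v3, w3]; rfl
      · rw [toSt_symm E u v, toSt_symm _ u v, v2, w2]; rfl
    · rw [if_neg hc, toSt_apply huv, toSt_apply huv]
      congr 1
      apply propext
      have n1 : mk u v huv ≠ mk a p hap := by
        intro h; rw [mk_eq_mk] at h; apply hc; tauto
      have n2 : mk u v huv ≠ mk b q hbq := by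
        intro h; rw [mk_eq_mk] at h; apply hc; tauto
      have n3 : mk u v huv ≠ mk a q haq := by
        intro h; rw [mk_eq_mk] at h; apply hc; tauto
      have n4 : mk u v huv ≠ mk b p hbp := by
        intro h; rw [mk_eq_mk] at h; apply hc; tauto
      simp only [mem_union, mem_sdiff, mem_insert, mem_singleton, n1, n2, n3, n4, or_self,
        not_false_eq_true, and_true, or_false]

lemma fl_swap (a b p q : Fin n) (x : St (Fin n)) : fl a b p q x = fl a b q p x := by
  funext u v
  unfold fl
  congr 1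
  apply propext
  tauto

/-- a switch as a proposal -/
lemma gam_bound {f : Finset (Edge n) → ℝ} {f' : St (Fin n) → ℝ} (hf : ∀ E, f' (toSt E) = f E)
    (E : Finset (Edge n)) (a b p q : Fin n) (h : Dist4 a b p q) :
    (f' (toSt E) - f' (gam a b p q (toSt E))) ^ 2 ≤
      pS ({a, b, p, q} : Finset (Fin n)) (fun F F' => (f E - f (switchResult E F F')) ^ 2) := by
  obtain ⟨hab, hpq, hap, haq, hbp, hbq⟩ := h
  set φ : Finset (Edge n) → Finset (Edge n) → ℝ :=
    fun F F' => (f E - f (switchResult E F F')) ^ 2 with hφ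
  have hφ0 : ∀ F F', 0 ≤ φ F F' := fun F F' => sq_nonneg _
  have hsingle : ∀ F ∈ pmSet ({a, b, p, q} : Finset (Fin n)),
      ∀ F' ∈ (pmSet ({a, b, p, q} : Finset (Fin n))).erase F,
      φ F F' ≤ pS ({a, b, p, q} : Finset (Fin n)) φ := by
    intro F hF F' hF'
    unfold pS
    refine le_trans ?_ (single_le_sum (f := fun F => ∑ F' ∈ (pmSet ({a, b, p, q} :
      Finset (Fin n))).erase F, φ F F') (fun G _ => sum_nonneg fun G' _ => hφ0 G G') hF)
    exact single_le_sum (f := fun F' => φ F F') (fun G' _ => hφ0 F G') hF'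
  -- the two matchings
  have hM1 : ({mk a p hap, mk b q hbq} : Finset (Edge n)) ∈
      pmSet ({a, b, p, q} : Finset (Fin n)) := by
    have := mem_pmSet hap hab haq hbp.symm hpq hbq
    convert this using 2
    ext v; simp only [mem_insert, mem_singleton]; tauto
  have hM2 : ({mk a q haq, mk b p hbp} : Finset (Edge n)) ∈
      pmSet ({a, b, p, q} : Finset (Fin n)) := by
    have := mem_pmSet haq hab hap hbq.symm hpq.symm hbp
    convert this using 2
    ext v; simp only [mem_insert, mem_singleton]; tauto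
  have hne : ({mk a p hap, mk b q hbq} : Finset (Edge n)) ≠ {mk a q haq, mk b p hbp} := by
    intro h
    have h1 : mk a p hap ∈ ({mk a q haq, mk b p hbp} : Finset (Edge n)) := by
      rw [← h]; simp
    simp only [mem_insert, mem_singleton, mk_eq_mk] at h1
    rcases h1 with (⟨_, h1⟩ | ⟨h1, _⟩) | (⟨h1, _⟩ | ⟨h1, _⟩)
    · exact hpq h1
    · exact haq h1
    · exact hab h1
    · exact hap h1
  by_cases hc : ctr a b p q (toSt E)
  · obtain ⟨c1, c2, c3⟩ := id hc
    unfold gam
    rw [if_pos hc]
    by_cases hx : toSt E a p = true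
    · have x1 : toSt E a q = false := by
        cases h : toSt E a q
        · rfl
        · rw [hx, h] at c1; exact absurd rfl c1
      have x2 : toSt E b p = false := by
        cases h : toSt E b p
        · rfl
        · rw [hx, h] at c3; exact absurd rfl c3
      have x3 : toSt E b q = true := by
        cases h : toSt E b q
        · rw [x2, h] at c2; exact absurd rfl c2
        · rfl
      have y1 := (toSt_true hap).1 hx
      have y2 := (toSt_true hbq).1 x3
      have y3 := (toSt_false haq).1 x1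
      have y4 := (toSt_false hbp).1 x2
      rw [fl_toSt E hab hpq hap haq hbp hbq y1 y2 y3 y4, hf, hf]
      have hres : switchResult E {mk a p hap, mk b q hbq} {mk a q haq, mk b p hbp} =
          E \ {mk a p hap, mk b q hbq} ∪ {mk a q haq, mk b p hbp} := by
        unfold switchResult
        rw [if_pos]
        constructor
        · intro e he
          simp only [mem_insert, mem_singleton] at he
          rcases he with rfl | rfl
          · exact y1
          · exact y2
        · rw [disjoint_left]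
          intro e he
          simp only [mem_insert, mem_singleton] at he
          rcases he with rfl | rfl
          · exact y3
          · exact y4
      rw [← hres]
      exact hsingle _ hM1 _ (mem_erase.2 ⟨hne.symm, hM2⟩)
    · have hx' : toSt E a p = false := by simpa using hx
      have x1 : toSt E a q = true := by
        cases h : toSt E a q
        · rw [hx', h] at c1; exact absurd rfl c1
        · rfl
      have x2 : toSt E b p = true := by
        cases h : toSt E b p
        · rw [hx', h] at c3; exact absurd rfl c3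
        · rfl
      have x3 : toSt E b q = false := by
        cases h : toSt E b q
        · rfl
        · rw [x2, h] at c2; exact absurd rfl c2
      have y1 := (toSt_false hap).1 hx'
      have y2 := (toSt_false hbq).1 x3
      have y3 := (toSt_true haq).1 x1
      have y4 := (toSt_true hbp).1 x2
      rw [fl_swap, fl_toSt E hab hpq.symm haq hap hbq hbp y3 y4 y1 y2, hf, hf]
      have hres : switchResult E {mk a q haq, mk b p hbp} {mk a p hap, mk b q hbq} =
          E \ {mk a q haq, mk b p hbp} ∪ {mk a p hap, mk b q hbq} := by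
        unfold switchResult
        rw [if_pos]
        constructor
        · intro e he
          simp only [mem_insert, mem_singleton] at he
          rcases he with rfl | rfl
          · exact y3
          · exact y4
        · rw [disjoint_left]
          intro e he
          simp only [mem_insert, mem_singleton] at he
          rcases he with rfl | rfl
          · exact y1
          · exact y2
      rw [← hres]
      exact hsingle _ hM2 _ (mem_erase.2 ⟨hne, hM1⟩)
  · unfold gam
    rw [if_neg hc, sub_self]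
    norm_num
    exact pS_nonneg hφ0

/-- crude counting of tuples -/
lemma sum_tuples (Ψ : Finset (Fin n) → ℝ) (hΨ : ∀ S, 0 ≤ Ψ S) :
    ∑ a : Fin n, ∑ b : Fin n, ∑ pq ∈ Pq a b, Ψ {a, b, pq.1, pq.2} ≤
      256 * ∑ S ∈ (univ : Finset (Fin n)).powersetCard 4, Ψ S := by
  set T : Finset (Fin n × Fin n × (Fin n × Fin n)) :=
    univ.filter fun t => Dist4 t.1 t.2.1 t.2.2.1 t.2.2.2 with hT
  have e1 : ∑ a : Fin n, ∑ b : Fin n, ∑ pq ∈ Pq a b, Ψ {a, b, pq.1, pq.2} =
      ∑ t ∈ T, Ψ {t.1, t.2.1, t.2.2.1, t.2.2.2} := by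
    rw [hT, sum_filter, Fintype.sum_prod_type]
    refine sum_congr rfl fun a _ => ?_
    rw [Fintype.sum_prod_type]
    refine sum_congr rfl fun b _ => ?_
    unfold Pq
    rw [sum_filter]
  have hmaps : ∀ t ∈ T, ({t.1, t.2.1, t.2.2.1, t.2.2.2} : Finset (Fin n)) ∈
      (univ : Finset (Fin n)).powersetCard 4 := by
    intro t ht
    obtain ⟨hab, hpq, hap, haq, hbp, hbq⟩ := (mem_filter.1 ht).2
    rw [mem_powersetCard]
    refine ⟨subset_univ _, ?_⟩
    rw [card_insert_of_notMem, card_insert_of_notMem, card_pair hpq]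
    · simp only [mem_insert, mem_singleton, not_or]
      exact ⟨hbp, hbq⟩
    · simp only [mem_insert, mem_singleton, not_or]
      exact ⟨hab, hap, haq⟩
  rw [e1, ← sum_fiberwise_of_maps_to hmaps, mul_sum]
  refine sum_le_sum fun S hS => ?_
  have e2 : ∑ t ∈ T.filter (fun t => ({t.1, t.2.1, t.2.2.1, t.2.2.2} : Finset (Fin n)) = S),
      Ψ {t.1, t.2.1, t.2.2.1, t.2.2.2} =
      ∑ t ∈ T.filter (fun t => ({t.1, t.2.1, t.2.2.1, t.2.2.2} : Finset (Fin n)) = S), Ψ S := by
    refine sum_congr rfl fun t ht => ?_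
    rw [(mem_filter.1 ht).2]
  rw [e2, sum_const, nsmul_eq_mul]
  refine mul_le_mul_of_nonneg_right ?_ (hΨ S)
  have hsub : T.filter (fun t => ({t.1, t.2.1, t.2.2.1, t.2.2.2} : Finset (Fin n)) = S) ⊆
      S ×ˢ S ×ˢ (S ×ˢ S) := by
    intro t ht
    have h1 := (mem_filter.1 ht).2
    simp only [mem_product]
    rw [← h1]
    simp
  have hc := card_le_card hsub
  rw [card_product, card_product, card_product, (mem_powersetCard.1 hS).2] at hc
  have : ((T.filter (fun t => ({t.1, t.2.1, t.2.2.1, t.2.2.2} : Finset (Fin n)) = S)).card : ℝ) ≤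
      ((4 * (4 * (4 * 4)) : ℕ) : ℝ) := by exact_mod_cast hc
  norm_num at this
  exact_mod_cast this

/-- Poincaré inequality in terms of the Dirichlet form. -/
theorem poincare (hM : MainStmt) (hn : 4 ≤ n) (d : Fin n → ℕ) (f : Finset (Edge n) → ℝ) :
    ∑ E ∈ realizations d, (f E - (∑ E' ∈ realizations d, f E') / ((realizations d).card : ℝ)) ^ 2 ≤
      384 * (n.choose 4 : ℝ) * ∑ E ∈ realizations d,
        f E * (f E - ∑ E' ∈ realizations d, kernel n E E' * f E') := by
  have hc : (0 : ℝ) < (n.choose 4 : ℝ) := by exact_mod_cast Nat.choose_pos hn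
  set f' : St (Fin n) → ℝ := Function.extend toSt f 0 with hf'
  have hf : ∀ E, f' (toSt E) = f E := fun E => toSt_injective.extend_apply f 0 E
  have h := hM n d f'
  rw [sum_Om, sum_Om, card_Om, sum_Om] at h
  simp only [hf] at h
  rw [dirichlet hn f]
  have h2 : ∑ E ∈ realizations d, ∑ a : Fin n, ∑ b : Fin n, ∑ pq ∈ Pq a b,
      (f E - f' (gam a b pq.1 pq.2 (toSt E))) ^ 2 ≤
      256 * ∑ E ∈ realizations d, pT (fun F F' => (f E - f (switchResult E F F')) ^ 2) := by
    rw [mul_sum]
    refine sum_le_sum fun E _ => ?_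
    have h3 : ∑ a : Fin n, ∑ b : Fin n, ∑ pq ∈ Pq a b,
        (f E - f' (gam a b pq.1 pq.2 (toSt E))) ^ 2 ≤
        ∑ a : Fin n, ∑ b : Fin n, ∑ pq ∈ Pq a b,
          pS ({a, b, pq.1, pq.2} : Finset (Fin n))
            (fun F F' => (f E - f (switchResult E F F')) ^ 2) := by
      refine sum_le_sum fun a _ => sum_le_sum fun b _ => sum_le_sum fun pq hpq => ?_
      have := gam_bound hf E a b pq.1 pq.2 (mem_filter.1 hpq).2
      rwa [hf] at this
    refine h3.trans ?_
    exact sum_tuples (fun S => pS S (fun F F' => (f E - f (switchResult E F F')) ^ 2))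
      (fun S => pS_nonneg fun _ _ => sq_nonneg _)
  set X := ∑ E ∈ realizations d, pT (fun F F' => (f E - f (switchResult E F F')) ^ 2) with hX
  have e : 384 * (n.choose 4 : ℝ) * (X / (24 * (n.choose 4 : ℝ))) = 16 * X := by
    field_simp
    ring
  rw [e]
  linarith

lemma card_realizations_le (d : Fin n → ℕ) : ((realizations d).card : ℝ) ≤ 2 ^ (n ^ 2) := by
  have h1 : (realizations d).card ≤ 2 ^ (Fintype.card (Edge n)) := by
    calc (realizations d).card ≤ Fintype.card (Finset (Edge n)) := card_le_univ _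
      _ = 2 ^ (Fintype.card (Edge n)) := Fintype.card_finset
  have h2 : Fintype.card (Edge n) ≤ n ^ 2 := by
    have h3 : Fintype.card (Edge n) = n.choose 2 := by
      have := Sym2.card_subtype_not_diag (α := Fin n)
      rw [Fintype.card_fin] at this
      convert this
    rw [h3]
    exact Nat.choose_le_pow n 2
  have h4 : (realizations d).card ≤ 2 ^ (n ^ 2) :=
    h1.trans (Nat.pow_le_pow_right (by norm_num) h2)
  exact_mod_cast h4

/-- the statement S0453 from the Poincaré inequality. -/
theorem final (hM : MainStmt) (n : ℕ) (hn : 4 ≤ n)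
    (d : Fin n → ℕ) (hd : (Crest.SwitchChain.realizations d).Nonempty) :
    (∃ t : ℕ, t ≤ 2 * n ^ 8 ∧ ∀ G ∈ Crest.SwitchChain.realizations d,
        Crest.SwitchChain.tvDist (fun G' => (Crest.SwitchChain.kernel n ^ t) G G')
          (Crest.SwitchChain.unifOn (Crest.SwitchChain.realizations d)) ≤ 1 / 4) ∧
      ∀ f : Finset (Crest.SwitchChain.Edge n) → ℝ,
        ((Crest.SwitchChain.realizations d).card : ℝ) *
              (∑ G ∈ Crest.SwitchChain.realizations d, f G ^ 2) -
            (∑ G ∈ Crest.SwitchChain.realizations d, f G) ^ 2 ≤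
          24 * (n : ℝ) ^ 2 * (n.choose 4 : ℝ) * (Crest.SwitchChain.realizations d).card *
            ∑ G ∈ Crest.SwitchChain.realizations d,
              f G * (f G - ∑ G' ∈ Crest.SwitchChain.realizations d,
                Crest.SwitchChain.kernel n G G' * f G') := by
  have hc1 : 1 ≤ n.choose 4 := Nat.choose_pos hn
  have hc : (1 : ℝ) ≤ (n.choose 4 : ℝ) := by exact_mod_cast hc1
  have hn4 : (4 : ℝ) ≤ n := by exact_mod_cast hn
  have hN : 0 < ((realizations d).card : ℝ) := by exact_mod_cast hd.card_pos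
  refine ⟨⟨2 * n ^ 8, le_rfl, fun G hG => ?_⟩, fun f => ?_⟩
  · set L : ℝ := 384 * (n.choose 4 : ℝ) with hL
    have hL1 : 1 ≤ L := by rw [hL]; linarith
    have hL0 : 0 < L := by linarith
    have htv := TV.tv_sq_bound (kernel n) (realizations d) hd kernel_nonneg kernel_symm
      (fun x hx y hy => kernel_closed hx y hy) (fun x hx => kernel_row hn hx)
      (fun x _ => kernel_lazy x) L hL1 (by
        intro f hf
        have h := poincare hM hn d f
        rw [hf] at h
        simpa using h) G hG (2 * n ^ 8)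
    have hLn : L ≤ 16 * (n : ℝ) ^ 4 := by
      have h1 := Nat.choose_le_pow_div (α := ℝ) 4 n
      have h2 : ((4 : ℕ).factorial : ℝ) = 24 := by norm_num [Nat.factorial]
      rw [h2] at h1
      rw [hL]
      linarith
    have hpow : (1 - 1 / L) ^ (2 * n ^ 8) ≤ Real.exp (-(2 * (n : ℝ) ^ 2)) := by
      have h0 : 0 ≤ 1 - 1 / L := by
        rw [sub_nonneg, div_le_one hL0]; exact hL1
      have h1 : 1 - 1 / L ≤ Real.exp (-(1 / L)) := Real.one_sub_le_exp_neg _
      calc (1 - 1 / L) ^ (2 * n ^ 8) ≤ (Real.exp (-(1 / L))) ^ (2 * n ^ 8) :=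
            pow_le_pow_left₀ h0 h1 _
        _ = Real.exp (-((2 * (n : ℝ) ^ 8) / L)) := by
            rw [← Real.exp_nat_mul]
            congr 1
            push_cast
            ring
        _ ≤ Real.exp (-(2 * (n : ℝ) ^ 2)) := by
            apply Real.exp_le_exp.2
            apply neg_le_neg
            rw [le_div_iff₀ hL0]
            have h16 : 16 ≤ (n : ℝ) ^ 2 := by nlinarith
            calc 2 * (n : ℝ) ^ 2 * L ≤ 2 * (n : ℝ) ^ 2 * (16 * (n : ℝ) ^ 4) :=
                  mul_le_mul_of_nonneg_left hLn (by positivity)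
              _ = 2 * (n : ℝ) ^ 6 * 16 := by ring
              _ ≤ 2 * (n : ℝ) ^ 6 * (n : ℝ) ^ 2 := mul_le_mul_of_nonneg_left h16 (by positivity)
              _ = 2 * (n : ℝ) ^ 8 := by ring
    have hfin : ((realizations d).card : ℝ) * (1 - 1 / L) ^ (2 * n ^ 8) ≤ (1 / 2) ^ 2 := by
      have he : Real.exp (-(2 * (n : ℝ) ^ 2)) = (Real.exp (-2)) ^ (n ^ 2) := by
        rw [← Real.exp_nat_mul]
        congr 1
        push_cast
        ring
      have he2 : 2 * Real.exp (-2) ≤ 1 / 2 := by
        have h1 : (2 : ℝ) ≤ Real.exp 1 := by linarith [Real.add_one_le_exp (1 : ℝ)]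
        have h2 : (4 : ℝ) ≤ Real.exp 2 := by
          have : Real.exp 2 = Real.exp 1 * Real.exp 1 := by rw [← Real.exp_add]; norm_num
          rw [this]; nlinarith
        rw [Real.exp_neg]
        have h3 : (Real.exp 2)⁻¹ ≤ 4⁻¹ := inv_anti₀ (by norm_num) h2
        linarith
      calc ((realizations d).card : ℝ) * (1 - 1 / L) ^ (2 * n ^ 8)
          ≤ 2 ^ (n ^ 2) * (Real.exp (-2)) ^ (n ^ 2) := by
            rw [← he]
            exact mul_le_mul (card_realizations_le d) hpow
              (pow_nonneg (by rw [sub_nonneg, div_le_one hL0]; exact hL1) _) (by positivity)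
        _ = (2 * Real.exp (-2)) ^ (n ^ 2) := by rw [mul_pow]
        _ ≤ (1 / 2) ^ (n ^ 2) := pow_le_pow_left₀ (by positivity) he2 _
        _ ≤ (1 / 2) ^ 2 := by
            apply pow_le_pow_of_le_one (by norm_num) (by norm_num)
            nlinarith
    have habs : ∑ y, |(kernel n ^ (2 * n ^ 8)) G y - unifOn (realizations d) y| ≤ 1 / 2 :=
      (abs_le_of_sq_le_sq' (htv.trans hfin) (by norm_num)).2
    unfold tvDist
    linarith
  · have h := poincare hM hn d f
    set S1 := ∑ E ∈ realizations d, f E with hS1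
    set S2 := ∑ E ∈ realizations d, f E ^ 2 with hS2
    set N : ℝ := ((realizations d).card : ℝ) with hNdef
    set D := ∑ E ∈ realizations d,
        f E * (f E - ∑ E' ∈ realizations d, kernel n E E' * f E') with hD
    have e1 : ∑ E ∈ realizations d, (f E - S1 / N) ^ 2 = S2 - S1 ^ 2 / N := by
      have e2 : ∀ E, (f E - S1 / N) ^ 2 = f E ^ 2 - 2 * (S1 / N) * f E + (S1 / N) ^ 2 :=
        fun E => by ring
      simp only [e2]
      rw [sum_add_distrib, sum_sub_distrib, ← mul_sum, sum_const, nsmul_eq_mul, ← hS1, ← hS2]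
      field_simp
      ring
    rw [e1] at h
    have hD0 : 0 ≤ D := by
      rw [hD, dirichlet hn f]
      exact div_nonneg (sum_nonneg fun E _ => pT_nonneg fun _ _ => sq_nonneg _) (by positivity)
    have h2 : N * S2 - S1 ^ 2 = N * (S2 - S1 ^ 2 / N) := by field_simp
    rw [h2]
    calc N * (S2 - S1 ^ 2 / N) ≤ N * (384 * (n.choose 4 : ℝ) * D) :=
          mul_le_mul_of_nonneg_left h hN.le
      _ = 384 * ((n.choose 4 : ℝ) * N * D) := by ring
      _ ≤ (24 * (n : ℝ) ^ 2) * ((n.choose 4 : ℝ) * N * D) := by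
          apply mul_le_mul_of_nonneg_right _ (by positivity)
          nlinarith
      _ = 24 * (n : ℝ) ^ 2 * (n.choose 4 : ℝ) * N * D := by ring

end Crest.Agent.SW.Kern
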