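import Crest.Agent.SWLin
import Crest.Agent.SWDisj

/-! Module MAIN (row 299): assembly of the Poincare inequality. -/

namespace Crest.Agent.SW

open Finset

section
variable {n : ℕ}

lemma lab_comm {V : Type*} [DecidableEq V] (a b : V) : (lab a b : St V → St V) = lab b a := by
  funext x u v
  unfold lab
  by_cases h : ((u = a ∨ u = b) ↔ (v = a ∨ v = b))
  · rw [if_pos h, if_pos (by tauto)]
  · rw [if_neg h, if_neg (by tauto)]

lemma RR_comm (d : Fin n → ℕ) (a b : Fin n) (f : St (Fin n) → ℝ) (x : St (Fin n)) :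
    RR d a b f x = RR d b a f x := by
  unfold RR PP; rw [lab_comm]

/-- Gram matrix -/
noncomputable def GG (d : Fin n → ℕ) (f : St (Fin n) → ℝ) (a b c e : Fin n) : ℝ :=
  ∑ x ∈ Om d, RR d a b f x * RR d c e f x

lemma GG_1 (d : Fin n → ℕ) (f : St (Fin n) → ℝ) (a b c e : Fin n) : GG d f a b c e = GG d f b a c e := by
  unfold GG; exact sum_congr rfl fun x _ => by rw [RR_comm d a b]

lemma GG_2 (d : Fin n → ℕ) (f : St (Fin n) → ℝ) (a b c e : Fin n) : GG d f a b c e = GG d f a b e c := by
  unfold GG; exact sum_congr rfl fun x _ => by rw [RR_comm d c e]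

lemma GG_3 (d : Fin n → ℕ) (f : St (Fin n) → ℝ) (a b c e : Fin n) : GG d f a b c e = GG d f c e a b := by
  unfold GG; exact sum_congr rfl fun x _ => by ring

/-- three distinct -/
def D3 (a b c : Fin n) : Prop := a ≠ b ∧ a ≠ c ∧ b ≠ c

instance (a b c : Fin n) : Decidable (D3 a b c) := by unfold D3; infer_instance

lemma split_sum (a b : Fin n) (hab : a ≠ b) (g : Fin n → Fin n → ℝ) (hg : ∀ c e, g c e = g e c) :
    ∑ c, ∑ e, (if c ≠ e then g c e else 0) =
      2 * g a b + 2 * ∑ e, (if D3 a b e then g a e + g b e else 0)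
        + ∑ c, ∑ e, (if Dist4 a b c e then g c e else 0) := by
  have pw : ∀ c e, (if c ≠ e then g c e else 0) =
      (if c = a then (if e = b then g a b else 0) else 0) +
      (if c = b then (if e = a then g a b else 0) else 0) +
      (if c = a then (if D3 a b e then g a e else 0) else 0) +
      (if c = b then (if D3 a b e then g b e else 0) else 0) +
      (if e = a then (if D3 a b c then g a c else 0) else 0) +
      (if e = b then (if D3 a b c then g b c else 0) else 0) +
      (if Dist4 a b c e then g c e else 0) := by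
    intro c e
    unfold D3 Dist4
    by_cases h1 : c = a
    · subst h1
      by_cases h2 : e = c
      · subst h2; simp [hab]
      · by_cases h3 : e = b
        · subst h3; simp [hab, Ne.symm hab]
        · simp [hab, h2, h3, Ne.symm h2, Ne.symm h3]
    · by_cases h2 : c = b
      · subst h2
        by_cases h3 : e = a
        · subst h3; simp [hab, Ne.symm hab, hg c e]
        · by_cases h4 : e = c
          · subst h4; simp [hab, h1]
          · simp [hab, Ne.symm hab, h3, h4, Ne.symm h3, Ne.symm h4]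
      · by_cases h3 : e = a
        · subst h3; simp [hab, h1, h2, Ne.symm h1, Ne.symm h2, hg c e]
        · by_cases h4 : e = b
          · subst h4; simp [hab, h1, h2, h3, Ne.symm h1, Ne.symm h2, Ne.symm h3, hg c e]
          · simp [hab, h1, h2, h3, h4, Ne.symm h1, Ne.symm h2, Ne.symm h3, Ne.symm h4]
  simp only [pw, sum_add_distrib]
  have s1 : ∑ c, ∑ e, (if c = a then (if e = b then g a b else 0) else 0) = g a b := by
    rw [sum_eq_single a, sum_eq_single b] <;> simp +contextual
  have s2 : ∑ c, ∑ e, (if c = b then (if e = a then g a b else 0) else 0) = g a b := by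
    rw [sum_eq_single b, sum_eq_single a] <;> simp +contextual
  have s3 : ∑ c, ∑ e, (if c = a then (if D3 a b e then g a e else 0) else 0) = ∑ e, (if D3 a b e then g a e else 0) := by
    rw [sum_eq_single a] <;> simp +contextual
  have s4 : ∑ c, ∑ e, (if c = b then (if D3 a b e then g b e else 0) else 0) = ∑ e, (if D3 a b e then g b e else 0) := by
    rw [sum_eq_single b] <;> simp +contextual
  have s5 : ∑ c, ∑ e, (if e = a then (if D3 a b c then g a c else 0) else 0) = ∑ e, (if D3 a b e then g a e else 0) := by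
    refine sum_congr rfl fun c _ => ?_
    simp
  have s6 : ∑ c, ∑ e, (if e = b then (if D3 a b c then g b c else 0) else 0) = ∑ e, (if D3 a b e then g b e else 0) := by
    refine sum_congr rfl fun c _ => ?_
    simp
  have s7 : ∑ e, (if D3 a b e then g a e + g b e else 0) =
      ∑ e, (if D3 a b e then g a e else 0) + ∑ e, (if D3 a b e then g b e else 0) := by
    rw [← sum_add_distrib]
    exact sum_congr rfl fun e _ => by split_ifs <;> simp
  rw [s1, s2, s3, s4, s5, s6, s7]
  ring

end

theorem main_of (hD : DisjStmt) (hR : RowStmt) (hS : ShareStmt) (hC : ConnStmt) : MainStmt := by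
  intro n d f0
  -- index set
  let I : Finset (Fin n × Fin n) := univ.filter fun ab => ab.1 ≠ ab.2
  let l : Fin n × Fin n → St (Fin n) → St (Fin n) := fun ab => lab ab.1 ab.2
  have sumI : ∀ F : Fin n → Fin n → ℝ, ∑ i ∈ I, F i.1 i.2 = ∑ a, ∑ b, (if a ≠ b then F a b else 0) := by
    intro F
    simp only [I]
    rw [sum_filter, Fintype.sum_prod_type]
  have H : ∀ f : St (Fin n) → ℝ, 2 * ∑ i ∈ I, ∑ x ∈ Om d, (f x - Av (Om d) (l i) f x) ^ 2
      ≤ ∑ x ∈ Om d, (∑ i ∈ I, (f x - Av (Om d) (l i) f x)) ^ 2 := by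
    intro f
    have e1 : ∑ x ∈ Om d, (∑ i ∈ I, (f x - Av (Om d) (l i) f x)) ^ 2
        = ∑ a, ∑ b, (if a ≠ b then (∑ c, ∑ e, (if c ≠ e then GG d f a b c e else 0)) else 0) := by
      rw [← sumI (fun a b => ∑ c, ∑ e, (if c ≠ e then GG d f a b c e else 0))]
      have : ∀ i ∈ I, (∑ c, ∑ e, (if c ≠ e then GG d f i.1 i.2 c e else 0))
          = ∑ j ∈ I, GG d f i.1 i.2 j.1 j.2 := fun i _ => (sumI (fun c e => GG d f i.1 i.2 c e)).symm
      rw [sum_congr rfl this]
      unfold GG
      simp only [sq, sum_mul_sum]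
      rw [sum_comm]
      refine sum_congr rfl fun i _ => ?_
      rw [sum_comm]
      rfl
    have e2 : ∀ a b : Fin n, (if a ≠ b then (∑ c, ∑ e, (if c ≠ e then GG d f a b c e else 0)) else 0)
        = (if a ≠ b then 2 * GG d f a b a b else 0)
          + 2 * ∑ e, (if D3 a b e then GG d f a b a e + GG d f a b b e else 0)
          + ∑ c, ∑ e, (if Dist4 a b c e then GG d f a b c e else 0) := by
      intro a b
      by_cases hab : a = b
      · subst hab; simp [D3, Dist4]
      · rw [if_pos hab, if_pos hab, split_sum a b hab (GG d f a b) (GG_2 d f a b)]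
    -- share part
    set S1 : ℝ := ∑ a, ∑ b, ∑ c, (if D3 a b c then GG d f a b a c else 0) with hS1
    have s2 : ∑ a, ∑ b, ∑ c, (if D3 a b c then GG d f a b b c else 0) = S1 := by
      rw [sum_comm, hS1]
      refine sum_congr rfl fun a _ => sum_congr rfl fun b _ => sum_congr rfl fun c _ => ?_
      rw [GG_1 d f b a a c]
      by_cases h : D3 a b c
      · rw [if_pos h, if_pos ⟨h.1.symm, h.2.2, h.2.1⟩]
      · rw [if_neg h, if_neg (fun h' => h ⟨h'.1.symm, h'.2.2, h'.2.1⟩)]
    have s3 : ∑ a, ∑ b, ∑ c, (if D3 a b c then GG d f a c b c else 0) = S1 := by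
      have : ∑ a : Fin n, ∑ b : Fin n, ∑ c : Fin n, (if D3 a b c then GG d f a c b c else 0)
          = ∑ c : Fin n, ∑ b : Fin n, ∑ a : Fin n, (if D3 a b c then GG d f a c b c else 0) := by
        calc _ = ∑ a : Fin n, ∑ c : Fin n, ∑ b : Fin n, (if D3 a b c then GG d f a c b c else 0) :=
              sum_congr rfl fun a _ => sum_comm
          _ = ∑ c : Fin n, ∑ a : Fin n, ∑ b : Fin n, (if D3 a b c then GG d f a c b c else 0) := sum_comm
          _ = _ := sum_congr rfl fun c _ => sum_comm
      rw [this, hS1]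
      refine sum_congr rfl fun a _ => sum_congr rfl fun b _ => sum_congr rfl fun c _ => ?_
      rw [show GG d f c a b a = GG d f a b a c by
        rw [GG_1 d f c a b a, GG_2 d f a c b a, GG_3 d f a c a b]]
      by_cases h : D3 a b c
      · rw [if_pos h, if_pos ⟨h.2.2.symm, h.2.1.symm, h.1.symm⟩]
      · rw [if_neg h, if_neg (fun h' => h ⟨h'.2.2.symm, h'.2.1.symm, h'.1.symm⟩)]
    have s4 : 0 ≤ S1 := by
      have : 0 ≤ ∑ a, ∑ b, ∑ c, ((if D3 a b c then GG d f a b a c else 0)
          + (if D3 a b c then GG d f a b b c else 0) + (if D3 a b c then GG d f a c b c else 0)) := by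
        refine sum_nonneg fun a _ => sum_nonneg fun b _ => sum_nonneg fun c _ => ?_
        by_cases h : D3 a b c
        · rw [if_pos h, if_pos h, if_pos h]
          have := hS n d f a b c h.1 h.2.1 h.2.2
          simp only [sum_add_distrib] at this
          exact this
        · rw [if_neg h, if_neg h, if_neg h]; simp
      simp only [sum_add_distrib] at this
      rw [s2, s3, ← hS1] at this
      linarith
    -- disjoint part
    have s5 : 0 ≤ ∑ a, ∑ b, ∑ c, ∑ e, (if Dist4 a b c e then GG d f a b c e else 0) := by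
      set A : Fin n → Fin n → Fin n → Fin n → ℝ := fun a b c e => ∑ x ∈ Om d, hh a b c e f x ^ 2 with hA
      set B : Fin n → Fin n → Fin n → Fin n → ℝ := fun a b c e =>
        ∑ x ∈ (Om d).filter (ctr a b c e), (FF d a b c e f x - PP d a b f x) ^ 2 with hB
      have ctrsw : ∀ a b c e : Fin n, (Om d).filter (ctr a b c e) = (Om d).filter (ctr c e a b) := by
        intro a b c e
        ext x
        rw [mem_filter, mem_filter]
        exact and_congr_right fun h => (ctr_swap h).symm
      have p1 : ∀ a b c e, (if Dist4 a b c e then (A a b c e - B a b c e / 2 - B c e a b / 2) else 0)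
          ≤ (if Dist4 a b c e then GG d f a b c e else 0) := by
        intro a b c e
        by_cases h : Dist4 a b c e
        · rw [if_pos h, if_pos h]
          have := hD n d f a b c e h
          refine le_trans (le_of_eq ?_) this
          simp only [hA, hB]
          rw [ctrsw c e a b, sum_add_distrib]
          ring
        · rw [if_neg h, if_neg h]
      have p2 : ∑ a, ∑ b, ∑ c, ∑ e, (if Dist4 a b c e then B c e a b else 0)
          = ∑ a, ∑ b, ∑ c, ∑ e, (if Dist4 a b c e then B a b c e else 0) := by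
        have sw : ∀ F : Fin n → Fin n → Fin n → Fin n → ℝ,
            ∑ a, ∑ b, ∑ c, ∑ e, F a b c e = ∑ a, ∑ b, ∑ c, ∑ e, F c e a b := by
          intro F
          have h1 := Fintype.sum_prod_type (f := fun ab : Fin n × Fin n => ∑ ce : Fin n × Fin n, F ab.1 ab.2 ce.1 ce.2)
          have h2 := Fintype.sum_prod_type (f := fun ab : Fin n × Fin n => ∑ ce : Fin n × Fin n, F ce.1 ce.2 ab.1 ab.2)
          simp only [Fintype.sum_prod_type] at h1 h2
          have h3 : ∑ ab : Fin n × Fin n, ∑ ce : Fin n × Fin n, F ab.1 ab.2 ce.1 ce.2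
            = ∑ ab : Fin n × Fin n, ∑ ce : Fin n × Fin n, F ce.1 ce.2 ab.1 ab.2 := sum_comm
          simp only [Fintype.sum_prod_type] at h3
          exact h3
        rw [sw]
        refine sum_congr rfl fun a _ => sum_congr rfl fun b _ => sum_congr rfl fun c _ => sum_congr rfl fun e _ => ?_
        by_cases h : Dist4 a b c e
        · rw [if_pos h, if_pos h.swap]
        · rw [if_neg h, if_neg (fun h' => h (Dist4.swap h'))]
      have p3 : ∑ a, ∑ b, ∑ c, ∑ e, (if Dist4 a b c e then B a b c e else 0)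
          ≤ ∑ a, ∑ b, ∑ c, ∑ e, (if Dist4 a b c e then A a b c e else 0) := by
        refine sum_le_sum fun a _ => sum_le_sum fun b _ => ?_
        by_cases hab : a = b
        · subst hab; simp [Dist4]
        · have := (hR n d f a b hab).1
          rw [Pq, sum_filter, sum_filter, Fintype.sum_prod_type, Fintype.sum_prod_type] at this
          exact this
      have p4 : ∑ a, ∑ b, ∑ c, ∑ e, (if Dist4 a b c e then (A a b c e - B a b c e / 2 - B c e a b / 2) else 0)
          = ∑ a, ∑ b, ∑ c, ∑ e, (if Dist4 a b c e then A a b c e else 0)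
            - (∑ a, ∑ b, ∑ c, ∑ e, (if Dist4 a b c e then B a b c e else 0)) / 2
            - (∑ a, ∑ b, ∑ c, ∑ e, (if Dist4 a b c e then B c e a b else 0)) / 2 := by
        simp only [sum_div, ← sum_sub_distrib]
        refine sum_congr rfl fun a _ => sum_congr rfl fun b _ => sum_congr rfl fun c _ => sum_congr rfl fun e _ => ?_
        split_ifs <;> ring
      have p5 : ∑ a, ∑ b, ∑ c, ∑ e, (if Dist4 a b c e then (A a b c e - B a b c e / 2 - B c e a b / 2) else 0)
          ≤ ∑ a, ∑ b, ∑ c, ∑ e, (if Dist4 a b c e then GG d f a b c e else 0) :=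
        sum_le_sum fun a _ => sum_le_sum fun b _ => sum_le_sum fun c _ => sum_le_sum fun e _ => p1 a b c e
      rw [p4, p2] at p5
      linarith
    rw [e1]
    simp only [e2, sum_add_distrib]
    have e3 : ∑ a, ∑ b, 2 * ∑ e, (if D3 a b e then GG d f a b a e + GG d f a b b e else 0) = 4 * S1 := by
      have : ∀ a b : Fin n, 2 * ∑ e, (if D3 a b e then GG d f a b a e + GG d f a b b e else 0)
          = 2 * ∑ e, (if D3 a b e then GG d f a b a e else 0) + 2 * ∑ e, (if D3 a b e then GG d f a b b e else 0) := by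
        intro a b
        rw [← mul_add, ← sum_add_distrib]
        congr 1
        exact sum_congr rfl fun e _ => by split_ifs <;> simp
      simp only [this, sum_add_distrib, ← mul_sum]
      rw [s2, ← hS1]
      ring
    rw [e3]
    have e4 : ∑ a, ∑ b, (if a ≠ b then 2 * GG d f a b a b else 0)
        = 2 * ∑ i ∈ I, ∑ x ∈ Om d, (f x - Av (Om d) (l i) f x) ^ 2 := by
      rw [← sumI (fun a b => 2 * GG d f a b a b), ← mul_sum]
      congr 1
      refine sum_congr rfl fun i _ => ?_
      unfold GG
      exact sum_congr rfl fun x _ => by rw [sq]; rfl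
    rw [e4]
    linarith
  have K : ∀ g : St (Fin n) → ℝ, (∀ i ∈ I, ∀ x ∈ Om d, ∀ y ∈ Om d, l i x = l i y → g x = g y) →
      ∀ x ∈ Om d, ∀ y ∈ Om d, g x = g y := by
    intro g hg
    refine hC n d g fun a b hab x hx y hy h => ?_
    exact hg (a, b) (by simp [I, hab]) x hx y hy h
  have main := lin (Om d) I l 2 (by norm_num) H K f0
  -- upper bound
  have u1 : ∑ i ∈ I, ∑ x ∈ Om d, (f0 x - Av (Om d) (l i) f0 x) ^ 2
      ≤ (1 / 8) * ∑ x ∈ Om d, ∑ a : Fin n, ∑ b : Fin n, ∑ pq ∈ Pq a b, (f0 x - f0 (gam a b pq.1 pq.2 x)) ^ 2 := by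
    have u2 : ∑ x ∈ Om d, ∑ a : Fin n, ∑ b : Fin n, ∑ pq ∈ Pq a b, (f0 x - f0 (gam a b pq.1 pq.2 x)) ^ 2
        = ∑ a : Fin n, ∑ b : Fin n, ∑ pq ∈ Pq a b, ∑ x ∈ Om d, (f0 x - f0 (gam a b pq.1 pq.2 x)) ^ 2 := by
      rw [sum_comm]
      refine sum_congr rfl fun a _ => ?_
      rw [sum_comm]
      refine sum_congr rfl fun b _ => ?_
      rw [sum_comm]
    rw [u2, sumI (fun a b => ∑ x ∈ Om d, (f0 x - Av (Om d) (lab a b) f0 x) ^ 2), mul_sum]
    refine sum_le_sum fun a _ => ?_
    rw [mul_sum]
    refine sum_le_sum fun b _ => ?_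
    by_cases hab : a = b
    · subst hab
      simp only [ne_eq, not_true_eq_false, if_false]
      have : ∀ pq ∈ Pq a a, 0 ≤ ∑ x ∈ Om d, (f0 x - f0 (gam a a pq.1 pq.2 x)) ^ 2 :=
        fun _ _ => sum_nonneg fun x _ => sq_nonneg _
      have := sum_nonneg this
      positivity
    · rw [if_pos hab]
      have := (hR n d f0 a b hab).2
      have e : ∑ pq ∈ Pq a b, ∑ x ∈ Om d, hh a b pq.1 pq.2 f0 x ^ 2
          = (1 / 4) * ∑ pq ∈ Pq a b, ∑ x ∈ Om d, (f0 x - f0 (gam a b pq.1 pq.2 x)) ^ 2 := by
        rw [mul_sum]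
        refine sum_congr rfl fun pq _ => ?_
        rw [mul_sum]
        refine sum_congr rfl fun x _ => ?_
        unfold hh; ring
      rw [e] at this
      have e' : ∑ x ∈ Om d, RR d a b f0 x ^ 2 = ∑ x ∈ Om d, (f0 x - Av (Om d) (lab a b) f0 x) ^ 2 := rfl
      rw [e'] at this
      linarith
  linarith

end Crest.Agent.SW
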