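import Crest.Agent.SWShare

/-! Module ROW (row 299): `SliceStmt → RowStmt`. -/

set_option autoImplicit false

namespace Crest.Agent.SW

open Finset

namespace Row

open Share (bi dg_cast isG_of_Om)

section main

variable {V : Type} [Fintype V] [DecidableEq V] (a b : V)

/-- the other points -/
def O2 : Finset V := univ.filter fun w => w ≠ a ∧ w ≠ b

/-- exclusive neighbours -/
def Cx (x0 : St V) : Finset V := (O2 a b).filter fun w => x0 a w ≠ x0 b w

variable {a b}

lemma mem_O2 {w : V} : w ∈ O2 a b ↔ w ≠ a ∧ w ≠ b := by simp [O2]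
lemma mem_Cx {x0 : St V} {w : V} : w ∈ Cx a b x0 ↔ w ∈ O2 a b ∧ x0 a w ≠ x0 b w := by simp [Cx]

variable (hab : a ≠ b)

include hab in
lemma sum_split2 (F : V → ℤ) : ∑ w, F w = F a + F b + ∑ w ∈ O2 a b, F w := by
  have h : (univ : Finset V) = insert a (insert b (O2 a b)) := by
    ext w
    simp only [mem_univ, mem_insert, mem_O2, true_iff]
    tauto
  rw [h, sum_insert, sum_insert]
  · ring
  · rw [mem_O2]; simp
  · simp only [mem_insert, mem_O2]; tauto

lemma lab_out {x y : St V} (h : lab a b x = lab a b y) {u v : V} (hu : u ∈ O2 a b)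
    (hv : v ∈ O2 a b) : x u v = y u v := by
  have h2 := congrFun (congrFun h u) v
  have hu' := mem_O2.1 hu
  have hv' := mem_O2.1 hv
  simpa [lab, hu', hv'] using h2

omit [Fintype V] in
lemma lab_in {x y : St V} (h : lab a b x = lab a b y) : x a b = y a b := by
  have h2 := congrFun (congrFun h a) b
  simpa [lab] using h2

include hab in
lemma mem_Om_iff2 {d : V → ℕ} {y x0 : St V} (hy : IsG y) (h0 : x0 ∈ Om d)
    (hl : lab a b y = lab a b x0) :
    y ∈ Om d ↔ (∀ w ∈ O2 a b, bi (y a w) + bi (y b w) = bi (x0 a w) + bi (x0 b w)) ∧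
      ∑ w ∈ O2 a b, bi (y a w) = ∑ w ∈ O2 a b, bi (x0 a w) := by
  have h0' := (mem_filter.1 h0).2
  have hG0 := h0'.1
  have hdo : ∀ (z : St V), IsG z → ∀ w, (dg z w : ℤ) = bi (z a w) + bi (z b w) +
      ∑ v ∈ O2 a b, bi (z w v) := by
    intro z hz w
    rw [dg_cast, sum_split2 hab, hz.1 w a, hz.1 w b]
  have hout : ∀ w ∈ O2 a b, ∑ v ∈ O2 a b, bi (y w v) = ∑ v ∈ O2 a b, bi (x0 w v) :=
    fun w hw => sum_congr rfl fun v hv => by rw [lab_out hl hw hv]
  have hin := lab_in hl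
  have hin2 : y b a = x0 b a := by rw [hy.1, hG0.1]; exact hin
  constructor
  · intro hyd
    have hyd' := (mem_filter.1 hyd).2
    have hd : ∀ u, dg y u = dg x0 u := fun u => by rw [hyd'.2, h0'.2]
    refine ⟨fun w hw => ?_, ?_⟩
    · have h1 := hdo y hy w
      have h2 := hdo x0 hG0 w
      rw [hout w hw] at h1
      rw [hd w] at h1
      linarith
    · have h1 := hdo y hy a
      have h2 := hdo x0 hG0 a
      rw [hd a, hy.2 a, hin2] at h1
      rw [hG0.2 a] at h2
      linarith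
  · rintro ⟨h1, h2⟩
    refine mem_filter.2 ⟨mem_univ _, hy, fun u => ?_⟩
    rw [← h0'.2 u]
    have key : (dg y u : ℤ) = dg x0 u := by
      rw [hdo y hy u, hdo x0 hG0 u]
      by_cases hua : u = a
      · subst hua
        rw [hy.2, hG0.2, hin2, h2]
      by_cases hub : u = b
      · subst hub
        rw [hy.2, hG0.2, hin]
        have h3 : ∑ w ∈ O2 a u, (bi (y a w) + bi (y u w)) = ∑ w ∈ O2 a u, (bi (x0 a w) + bi (x0 u w)) :=
          sum_congr rfl h1
        rw [sum_add_distrib, sum_add_distrib] at h3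
        linarith
      have hu : u ∈ O2 a b := mem_O2.2 ⟨hua, hub⟩
      rw [hout u hu, h1 u hu]
    exact_mod_cast key

lemma bi_ne {p q r s : Bool} (hrs : r ≠ s) : bi p + bi q = bi r + bi s ↔ q = !p := by
  revert p q r s; decide

lemma bi_eq {p q r s : Bool} (hrs : r = s) : bi p + bi q = bi r + bi s ↔ (p = r ∧ q = s) := by
  revert p q r s; decide

variable (a b) in
/-- the encoding -/
def ee (x0 y : St V) : Finset V := (Cx a b x0).filter fun w => y a w = true

lemma mem_ee {x0 y : St V} {w : V} : w ∈ ee a b x0 y ↔ w ∈ Cx a b x0 ∧ y a w = true := by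
  simp [ee]

lemma sum_ee {x0 y : St V} (h : ∀ w ∈ O2 a b, w ∉ Cx a b x0 → y a w = x0 a w) :
    ∑ w ∈ O2 a b, bi (y a w) = (ee a b x0 y).card +
      ∑ w ∈ (O2 a b).filter (fun w => w ∉ Cx a b x0), bi (x0 a w) := by
  have hC : (O2 a b).filter (fun w => w ∈ Cx a b x0) = Cx a b x0 := by
    ext w
    rw [mem_filter]
    exact ⟨fun h => h.2, fun h => ⟨(mem_Cx.1 h).1, h⟩⟩
  rw [← sum_filter_add_sum_filter_not (O2 a b) (fun w => w ∈ Cx a b x0) (fun w => bi (y a w)), hC]
  congr 1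
  · unfold ee
    rw [card_filter]
    push_cast
    rfl
  · refine sum_congr rfl fun w hw => ?_
    rw [mem_filter] at hw
    rw [h w hw.1 hw.2]

include hab in
/-- description of the class of `x0` -/
lemma mem_cls_iff {d : V → ℕ} {y x0 : St V} (h0 : x0 ∈ Om d) :
    y ∈ cls (Om d) (lab a b) x0 ↔ IsG y ∧ lab a b y = lab a b x0 ∧
      (∀ w ∈ Cx a b x0, y b w = !(y a w)) ∧
      (∀ w ∈ O2 a b, w ∉ Cx a b x0 → y a w = x0 a w ∧ y b w = x0 b w) ∧
      (ee a b x0 y).card = (ee a b x0 x0).card := by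
  have key : IsG y → lab a b y = lab a b x0 →
      ((∀ w ∈ O2 a b, bi (y a w) + bi (y b w) = bi (x0 a w) + bi (x0 b w)) ↔
      ((∀ w ∈ Cx a b x0, y b w = !(y a w)) ∧
      (∀ w ∈ O2 a b, w ∉ Cx a b x0 → y a w = x0 a w ∧ y b w = x0 b w))) := by
    intro _ _
    constructor
    · intro h
      refine ⟨fun w hw => ?_, fun w hw hwC => ?_⟩
      · have hw' := mem_Cx.1 hw
        exact (bi_ne hw'.2).1 (h w hw'.1)
      · have : x0 a w = x0 b w := by
          by_contra h3
          exact hwC (mem_Cx.2 ⟨hw, h3⟩)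
        exact (bi_eq this).1 (h w hw)
    · rintro ⟨h1, h2⟩ w hw
      by_cases hwC : w ∈ Cx a b x0
      · exact (bi_ne (mem_Cx.1 hwC).2).2 (h1 w hwC)
      · have := h2 w hw hwC
        rw [this.1, this.2]
  constructor
  · intro hy
    obtain ⟨hy1, hy2⟩ := mem_cls.1 hy
    have hG := isG_of_Om hy1
    obtain ⟨h1, h2⟩ := (mem_Om_iff2 hab hG h0 hy2).1 hy1
    obtain ⟨h3, h4⟩ := (key hG hy2).1 h1
    refine ⟨hG, hy2, h3, h4, ?_⟩
    rw [sum_ee (fun w hw hwC => (h4 w hw hwC).1), sum_ee (x0 := x0) (y := x0) (fun _ _ _ => rfl)] at h2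
    have : ((ee a b x0 y).card : ℤ) = (ee a b x0 x0).card := by linarith
    exact_mod_cast this
  · rintro ⟨hG, hl, h3, h4, h5⟩
    refine mem_cls.2 ⟨(mem_Om_iff2 hab hG h0 hl).2 ⟨(key hG hl).2 ⟨h3, h4⟩, ?_⟩, hl⟩
    rw [sum_ee (fun w hw hwC => (h4 w hw hwC).1), sum_ee (x0 := x0) (y := x0) (fun _ _ _ => rfl), h5]

include hab in
lemma ee_inj {d : V → ℕ} {x0 : St V} (h0 : x0 ∈ Om d) :
    Set.InjOn (ee a b x0) (cls (Om d) (lab a b) x0 : Set (St V)) := by
  intro y hy z hz hyz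
  rw [mem_coe] at hy hz
  obtain ⟨gy, ly, ny, oy, _⟩ := (mem_cls_iff hab h0).1 hy
  obtain ⟨gz, lz, nz, oz, _⟩ := (mem_cls_iff hab h0).1 hz
  have hC : ∀ w ∈ Cx a b x0, y a w = z a w := by
    intro w hw
    have h1 := Finset.ext_iff.1 hyz w
    rw [mem_ee, mem_ee] at h1
    have h2 : y a w = true ↔ z a w = true := by
      constructor
      · intro h; exact (h1.1 ⟨hw, h⟩).2
      · intro h; exact (h1.2 ⟨hw, h⟩).2
    cases hya : y a w <;> cases hza : z a w <;> simp_all
  have hA : ∀ w ∈ O2 a b, y a w = z a w := by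
    intro w hw
    by_cases hwC : w ∈ Cx a b x0
    · exact hC w hwC
    · rw [(oy w hw hwC).1, (oz w hw hwC).1]
  have hB : ∀ w ∈ O2 a b, y b w = z b w := by
    intro w hw
    by_cases hwC : w ∈ Cx a b x0
    · rw [ny w hwC, nz w hwC, hC w hwC]
    · rw [(oy w hw hwC).2, (oz w hw hwC).2]
  have hl : lab a b y = lab a b z := ly.trans lz.symm
  have hin := lab_in hl
  have key : ∀ u v, (u = a ∨ u = b) → y u v = z u v := by
    intro u v hu
    by_cases hv : v ∈ O2 a b
    · rcases hu with rfl | rfl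
      · exact hA v hv
      · exact hB v hv
    · rw [mem_O2] at hv
      have hv2 : v = a ∨ v = b := by tauto
      rcases hu with rfl | rfl <;> rcases hv2 with rfl | rfl
      · rw [gy.2, gz.2]
      · exact hin
      · rw [gy.1, gz.1]; exact hin
      · rw [gy.2, gz.2]
  funext u v
  by_cases hu : u = a ∨ u = b
  · exact key u v hu
  · by_cases hv : v = a ∨ v = b
    · rw [gy.1, gz.1]; exact key v u hv
    · rw [not_or] at hu hv
      exact lab_out hl (mem_O2.2 hu) (mem_O2.2 hv)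

variable (a b) in
/-- the state with prescribed exclusive neighbours of `a` -/
def bd (x0 : St V) (S : Finset V) : St V := fun u v =>
  if u = a ∧ v ∈ Cx a b x0 then decide (v ∈ S)
  else if u = b ∧ v ∈ Cx a b x0 then !decide (v ∈ S)
  else if v = a ∧ u ∈ Cx a b x0 then decide (u ∈ S)
  else if v = b ∧ u ∈ Cx a b x0 then !decide (u ∈ S)
  else x0 u v

lemma a_notMem (x0 : St V) : a ∉ Cx a b x0 := by simp [mem_Cx, mem_O2]
lemma b_notMem (x0 : St V) : b ∉ Cx a b x0 := by simp [mem_Cx, mem_O2]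

lemma bd_a {x0 : St V} {S : Finset V} {w : V} (hw : w ∈ Cx a b x0) :
    bd a b x0 S a w = decide (w ∈ S) := by simp [bd, hw]

include hab in
lemma bd_b {x0 : St V} {S : Finset V} {w : V} (hw : w ∈ Cx a b x0) :
    bd a b x0 S b w = !decide (w ∈ S) := by simp [bd, hw, hab.symm]

lemma bd_out {x0 : St V} {S : Finset V} {u v : V} (hu : u ∉ Cx a b x0) (hv : v ∉ Cx a b x0) :
    bd a b x0 S u v = x0 u v := by simp [bd, hu, hv]

lemma bd_isG {x0 : St V} (h0 : IsG x0) (S : Finset V) : IsG (bd a b x0 S) := by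
  have ha := a_notMem (a := a) (b := b) x0
  have hb := b_notMem (a := a) (b := b) x0
  constructor
  · intro u v
    unfold bd
    by_cases h1 : u = a ∧ v ∈ Cx a b x0
    · have h2 : ¬ (v = a ∧ u ∈ Cx a b x0) := fun h => ha (h.1 ▸ h1.2)
      have h3 : ¬ (v = b ∧ u ∈ Cx a b x0) := fun h => hb (h.1 ▸ h1.2)
      rw [if_pos h1, if_neg h2, if_neg h3, if_pos h1]
    · by_cases h2 : u = b ∧ v ∈ Cx a b x0
      · have h3 : ¬ (v = a ∧ u ∈ Cx a b x0) := fun h => ha (h.1 ▸ h2.2)
        have h4 : ¬ (v = b ∧ u ∈ Cx a b x0) := fun h => hb (h.1 ▸ h2.2)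
        rw [if_neg h1, if_pos h2, if_neg h3, if_neg h4, if_neg h1, if_pos h2]
      · rw [if_neg h1, if_neg h2]
        by_cases h3 : v = a ∧ u ∈ Cx a b x0
        · rw [if_pos h3, if_pos h3]
        · by_cases h4 : v = b ∧ u ∈ Cx a b x0
          · rw [if_neg h3, if_pos h4, if_neg h3, if_pos h4]
          · rw [if_neg h3, if_neg h4, if_neg h3, if_neg h4, if_neg h1, if_neg h2]
            exact h0.1 u v
  · intro u
    by_cases hu : u ∈ Cx a b x0
    · have h1 : u ≠ a := fun h => ha (h ▸ hu)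
      have h2 : u ≠ b := fun h => hb (h ▸ hu)
      simp [bd, h1, h2, h0.2]
    · rw [bd_out hu hu, h0.2]

lemma bd_lab {x0 : St V} (S : Finset V) : lab a b (bd a b x0 S) = lab a b x0 := by
  funext u v
  unfold lab
  split_ifs with h
  · unfold bd
    have hC : ∀ w ∈ Cx a b x0, w ≠ a ∧ w ≠ b := fun w hw => mem_O2.1 (mem_Cx.1 hw).1
    have h1 : ¬ (u = a ∧ v ∈ Cx a b x0) := by
      rintro ⟨h1, h2⟩
      have := hC v h2
      have := h.1 (Or.inl h1)
      tauto
    have h2 : ¬ (u = b ∧ v ∈ Cx a b x0) := by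
      rintro ⟨h1, h2⟩
      have := hC v h2
      have := h.1 (Or.inr h1)
      tauto
    have h3 : ¬ (v = a ∧ u ∈ Cx a b x0) := by
      rintro ⟨h1, h2⟩
      have := hC u h2
      have := h.2 (Or.inl h1)
      tauto
    have h4 : ¬ (v = b ∧ u ∈ Cx a b x0) := by
      rintro ⟨h1, h2⟩
      have := hC u h2
      have := h.2 (Or.inr h1)
      tauto
    rw [if_neg h1, if_neg h2, if_neg h3, if_neg h4]
  · rfl

lemma ee_bd {x0 : St V} {S : Finset V} (hS : S ⊆ Cx a b x0) : ee a b x0 (bd a b x0 S) = S := by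
  ext w
  rw [mem_ee]
  constructor
  · rintro ⟨h1, h2⟩
    rw [bd_a h1] at h2
    simpa using h2
  · intro h
    refine ⟨hS h, ?_⟩
    rw [bd_a (hS h)]
    simpa using h

include hab in
lemma ee_image {d : V → ℕ} {x0 : St V} (h0 : x0 ∈ Om d) :
    (cls (Om d) (lab a b) x0).image (ee a b x0) =
      (Cx a b x0).powersetCard (ee a b x0 x0).card := by
  ext S
  rw [mem_image, mem_powersetCard]
  constructor
  · rintro ⟨y, hy, rfl⟩
    exact ⟨filter_subset _ _, ((mem_cls_iff hab h0).1 hy).2.2.2.2⟩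
  · rintro ⟨h1, h2⟩
    refine ⟨bd a b x0 S, (mem_cls_iff hab h0).2 ⟨bd_isG (isG_of_Om h0) S, bd_lab S, ?_, ?_, ?_⟩,
      ee_bd h1⟩
    · intro w hw
      rw [bd_a hw, bd_b hab hw]
    · intro w _ hw
      exact ⟨bd_out (a_notMem x0) hw, bd_out (b_notMem x0) hw⟩
    · rw [ee_bd h1, h2]


/-! ### switches -/

omit [Fintype V] in
lemma fl_isG {y : St V} (hy : IsG y) {p q : V} (hD : Dist4 a b p q) : IsG (fl a b p q y) := by
  obtain ⟨h1, h2, h3, h4, h5, h6⟩ := hD
  constructor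
  · intro u v
    unfold fl
    rw [hy.1 u v]
    congr 1
    apply propext
    constructor
    · rintro (⟨h, h'⟩ | ⟨h, h'⟩)
      · exact Or.inr ⟨h', h⟩
      · exact Or.inl ⟨h', h⟩
    · rintro (⟨h, h'⟩ | ⟨h, h'⟩)
      · exact Or.inr ⟨h', h⟩
      · exact Or.inl ⟨h', h⟩
  · intro u
    unfold fl
    rw [if_neg, hy.2]
    rintro (⟨h | h, h' | h'⟩ | ⟨h | h, h' | h'⟩) <;> subst h <;>
      first
        | contradiction
        | exact absurd h'.symm (by assumption)

omit [Fintype V] in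
lemma fl_lab {y : St V} {p q : V} (hD : Dist4 a b p q) :
    lab a b (fl a b p q y) = lab a b y := by
  obtain ⟨h1, h2, h3, h4, h5, h6⟩ := hD
  funext u v
  unfold lab
  split_ifs with h
  · unfold fl
    rw [if_neg]
    rintro (⟨hu, hv⟩ | ⟨hu, hv⟩)
    · have := h.1 hu
      rcases this with rfl | rfl <;> rcases hv with hv | hv <;> contradiction
    · have := h.2 hv
      rcases this with rfl | rfl <;> rcases hu with hu | hu <;> contradiction
  · rfl

omit [Fintype V] in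
lemma fl_a {y : St V} {p q : V} (hD : Dist4 a b p q) (w : V) :
    fl a b p q y a w = if w = p ∨ w = q then !(y a w) else y a w := by
  obtain ⟨h1, h2, h3, h4, h5, h6⟩ := hD
  simp [fl, h3, h4]

omit [Fintype V] in
lemma fl_b {y : St V} {p q : V} (hD : Dist4 a b p q) (w : V) :
    fl a b p q y b w = if w = p ∨ w = q then !(y b w) else y b w := by
  obtain ⟨h1, h2, h3, h4, h5, h6⟩ := hD
  simp [fl, h5, h6]

include hab in
lemma ctr_iff {d : V → ℕ} {y x0 : St V} (h0 : x0 ∈ Om d) (hy : y ∈ cls (Om d) (lab a b) x0)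
    {p q : V} (hD : Dist4 a b p q) :
    ctr a b p q y ↔ (p, q) ∈ (Cx a b x0).offDiag ∧ sep p q (ee a b x0 y) := by
  obtain ⟨gy, ly, ny, oy, _⟩ := (mem_cls_iff hab h0).1 hy
  obtain ⟨h1, h2, h3, h4, h5, h6⟩ := hD
  have hp2 : p ∈ O2 a b := mem_O2.2 ⟨h3.symm, h5.symm⟩
  have hq2 : q ∈ O2 a b := mem_O2.2 ⟨h4.symm, h6.symm⟩
  have hno : ∀ w ∈ O2 a b, w ∉ Cx a b x0 → y a w = y b w := by
    intro w hw hwC
    have h7 := oy w hw hwC
    rw [h7.1, h7.2]
    by_contra h8
    exact hwC (mem_Cx.2 ⟨hw, h8⟩)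
  rw [mem_offDiag]
  unfold ctr sep
  simp only [mem_ee]
  constructor
  · rintro ⟨c1, c2, c3⟩
    have hpC : p ∈ Cx a b x0 := by
      by_contra h7
      exact c3 (hno p hp2 h7)
    have hqC : q ∈ Cx a b x0 := by
      by_contra h7
      have h8 := hno q hq2 h7
      rw [h8] at c1
      revert c1 c2 c3
      cases y a p <;> cases y b p <;> cases y b q <;> simp
    refine ⟨⟨hpC, hqC, h2⟩, fun h7 => c1 ?_⟩
    have h8 : y a p = true ↔ y a q = true := by
      constructor
      · intro h; exact (h7.1 ⟨hpC, h⟩).2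
      · intro h; exact (h7.2 ⟨hqC, h⟩).2
    cases hyp : y a p <;> cases hyq : y a q <;> simp_all
  · rintro ⟨⟨hpC, hqC, _⟩, h7⟩
    have h8 : y a p ≠ y a q := by
      intro h9
      apply h7
      constructor
      · rintro ⟨_, h⟩; exact ⟨hqC, h9 ▸ h⟩
      · rintro ⟨_, h⟩; exact ⟨hpC, h9 ▸ h⟩
    rw [ny p hpC, ny q hqC]
    refine ⟨h8, fun h => h8 (Bool.not_inj h), ?_⟩
    cases y a p <;> simp

omit [Fintype V] in
lemma card_symmDiff_pair {S : Finset V} {p q : V} (h : sep p q S) :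
    (symmDiff S {p, q}).card = S.card := by
  have key : ∀ p q : V, p ∈ S → q ∉ S → (symmDiff S {p, q}).card = S.card := by
    intro p q hp hq
    have hpq : p ≠ q := fun h => hq (h ▸ hp)
    have e : symmDiff S {p, q} = insert q (S.erase p) := by
      ext w
      simp only [mem_symmDiff, mem_insert, mem_singleton, mem_erase]
      by_cases h1 : w = p
      · subst h1; simp [hp, hpq]
      · by_cases h2 : w = q
        · subst h2; simp [hq]
        · simp [h1, h2]
    rw [e, card_insert_of_notMem (by simp [hq]), card_erase_of_mem hp]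
    have : 0 < S.card := card_pos.2 ⟨p, hp⟩
    omega
  unfold sep at h
  by_cases hp : p ∈ S
  · have hq : q ∉ S := fun hq => h ⟨fun _ => hq, fun _ => hp⟩
    exact key p q hp hq
  · have hq : q ∈ S := by
      by_contra hq
      exact h ⟨fun h' => absurd h' hp, fun h' => absurd h' hq⟩
    rw [pair_comm]
    exact key q p hq hp

include hab in
lemma ee_fl {d : V → ℕ} {y x0 : St V} (h0 : x0 ∈ Om d) (hy : y ∈ cls (Om d) (lab a b) x0)
    {p q : V} (hD : Dist4 a b p q) (hc : ctr a b p q y) :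
    fl a b p q y ∈ cls (Om d) (lab a b) x0 ∧
      ee a b x0 (fl a b p q y) = symmDiff (ee a b x0 y) {p, q} := by
  obtain ⟨gy, ly, ny, oy, cy⟩ := (mem_cls_iff hab h0).1 hy
  have hc' := (ctr_iff hab h0 hy hD).1 hc
  have hC := mem_offDiag.1 hc'.1
  have he : ee a b x0 (fl a b p q y) = symmDiff (ee a b x0 y) {p, q} := by
    ext w
    rw [mem_ee, fl_a hD, mem_symmDiff, mem_ee]
    simp only [mem_insert, mem_singleton]
    by_cases hw : w = p ∨ w = q
    · have hwC : w ∈ Cx a b x0 := by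
        rcases hw with rfl | rfl
        · exact hC.1
        · exact hC.2.1
      rw [if_pos hw]
      simp only [hwC, hw, true_and, not_true, and_false, false_or]
      cases y a w <;> simp
    · rw [if_neg hw]
      simp only [hw, not_false_iff, and_true, false_and, or_false]
  refine ⟨(mem_cls_iff hab h0).2 ⟨fl_isG gy hD, (fl_lab hD).trans ly, ?_, ?_, ?_⟩, he⟩
  · intro w hw
    rw [fl_a hD, fl_b hD, ny w hw]
    split_ifs <;> rfl
  · intro w hw hwC
    have hwpq : ¬ (w = p ∨ w = q) := by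
      rintro (rfl | rfl)
      · exact hwC hC.1
      · exact hwC hC.2.1
    rw [fl_a hD, fl_b hD, if_neg hwpq, if_neg hwpq]
    exact oy w hw hwC
  · rw [he, card_symmDiff_pair hc'.2, cy]

/-! ### one class -/

variable (a b) in
/-- the function transported to subsets -/
noncomputable def tr (d : V → ℕ) (x0 : St V) (f : St V → ℝ) (S : Finset V) : ℝ :=
  open Classical in
  if h : ∃ y ∈ cls (Om d) (lab a b) x0, ee a b x0 y = S then f h.choose else 0

include hab in
lemma tr_ee {d : V → ℕ} {x0 : St V} (h0 : x0 ∈ Om d) (f : St V → ℝ) {y : St V}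
    (hy : y ∈ cls (Om d) (lab a b) x0) : tr a b d x0 f (ee a b x0 y) = f y := by
  have h : ∃ z ∈ cls (Om d) (lab a b) x0, ee a b x0 z = ee a b x0 y := ⟨y, hy, rfl⟩
  unfold tr
  rw [dif_pos h]
  have h2 := h.choose_spec
  rw [ee_inj hab h0 (mem_coe.2 h2.1) (mem_coe.2 hy) h2.2]

include hab in
lemma sum_cls {d : V → ℕ} {x0 : St V} (h0 : x0 ∈ Om d) (H : Finset V → ℝ) :
    ∑ y ∈ cls (Om d) (lab a b) x0, H (ee a b x0 y) =
      ∑ S ∈ (Cx a b x0).powersetCard (ee a b x0 x0).card, H S := by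
  rw [← ee_image hab h0, sum_image (ee_inj hab h0)]

variable (a b) in
/-- the mean over the class -/
noncomputable def mean (d : V → ℕ) (x0 : St V) (f : St V → ℝ) : ℝ :=
  (∑ S ∈ (Cx a b x0).powersetCard (ee a b x0 x0).card, tr a b d x0 f S) /
    (((Cx a b x0).powersetCard (ee a b x0 x0).card).card : ℝ)

include hab in
lemma PP_eq {d : V → ℕ} {x0 : St V} (h0 : x0 ∈ Om d) (f : St V → ℝ) {y : St V}
    (hy : y ∈ cls (Om d) (lab a b) x0) : PP d a b f y = mean a b d x0 f := by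
  unfold PP mean
  rw [Av_eq, cls_congr (mem_cls.1 hy).2, ← sum_cls hab h0]
  congr 1
  · exact sum_congr rfl fun z hz => (tr_ee hab h0 f hz).symm
  · rw [← ee_image hab h0, card_image_of_injOn (ee_inj hab h0)]

include hab in
lemma FF_eq {d : V → ℕ} {x0 : St V} (h0 : x0 ∈ Om d) (f : St V → ℝ) {y : St V}
    (hy : y ∈ cls (Om d) (lab a b) x0) {p q : V} (hD : Dist4 a b p q)
    (hpq : (p, q) ∈ (Cx a b x0).offDiag) : FF d a b p q f y =
    (∑ S ∈ ((Cx a b x0).powersetCard (ee a b x0 x0).card).filter (sep p q), tr a b d x0 f S) /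
      ((((Cx a b x0).powersetCard (ee a b x0 x0).card).filter (sep p q)).card : ℝ) := by
  have h1 : (Om d).filter (fun z => lab a b z = lab a b y ∧ ctr a b p q z) =
      (cls (Om d) (lab a b) x0).filter (fun z => sep p q (ee a b x0 z)) := by
    ext z
    rw [mem_filter, mem_filter, mem_cls, (mem_cls.1 hy).2]
    constructor
    · rintro ⟨h2, h3, h4⟩
      exact ⟨⟨h2, h3⟩, ((ctr_iff hab h0 (mem_cls.2 ⟨h2, h3⟩) hD).1 h4).2⟩
    · rintro ⟨⟨h2, h3⟩, h4⟩
      exact ⟨h2, h3, (ctr_iff hab h0 (mem_cls.2 ⟨h2, h3⟩) hD).2 ⟨hpq, h4⟩⟩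
  have h2 : ((Cx a b x0).powersetCard (ee a b x0 x0).card).filter (sep p q) =
      ((cls (Om d) (lab a b) x0).filter (fun z => sep p q (ee a b x0 z))).image (ee a b x0) := by
    rw [← ee_image hab h0, filter_image]
  have h3 : Set.InjOn (ee a b x0)
      ((cls (Om d) (lab a b) x0).filter (fun z => sep p q (ee a b x0 z)) : Set (St V)) :=
    (ee_inj hab h0).mono fun z hz => by
      have := (mem_filter.1 (mem_coe.1 hz)).1
      exact mem_coe.2 this
  unfold FF
  rw [h1, h2, sum_image h3, card_image_of_injOn h3]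
  congr 1
  exact sum_congr rfl fun z hz => (tr_ee hab h0 f (mem_filter.1 hz).1).symm

lemma offDiag_sub (x0 : St V) : (Cx a b x0).offDiag ⊆ (Pq a b : Finset (V × V)) ∨ a = b := by
  by_cases hab : a = b
  · exact Or.inr hab
  · left
    intro pq h
    rw [mem_offDiag] at h
    have h1 := mem_O2.1 (mem_Cx.1 h.1).1
    have h2 := mem_O2.1 (mem_Cx.1 h.2.1).1
    exact mem_filter.2 ⟨mem_univ _, hab, h.2.2, h1.1.symm, h2.1.symm, h1.2.symm, h2.2.symm⟩

include hab in
lemma E1 {d : V → ℕ} {x0 : St V} (h0 : x0 ∈ Om d) (f : St V → ℝ) :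
    ∑ pq ∈ Pq a b, ∑ y ∈ cls (Om d) (lab a b) x0, hh a b pq.1 pq.2 f y ^ 2 =
      ∑ ce ∈ (Cx a b x0).offDiag,
        ∑ S ∈ ((Cx a b x0).powersetCard (ee a b x0 x0).card).filter (sep ce.1 ce.2),
          (tr a b d x0 f S - tr a b d x0 f (symmDiff S {ce.1, ce.2})) ^ 2 / 4 := by
  have hsub := (offDiag_sub (a := a) (b := b) x0).resolve_right hab
  rw [← sum_subset hsub]
  · refine sum_congr rfl fun pq hpq => ?_
    have hD : Dist4 a b pq.1 pq.2 := (mem_filter.1 (hsub hpq)).2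
    rw [sum_filter, ← sum_cls hab h0]
    refine sum_congr rfl fun y hy => ?_
    have hci := ctr_iff hab h0 hy hD
    unfold hh gam
    split_ifs with h1 h2 h2
    · have h3 := ee_fl hab h0 hy hD h1
      rw [← h3.2, tr_ee hab h0 f hy, tr_ee hab h0 f h3.1]
      ring
    · exact absurd (hci.1 h1).2 h2
    · exact absurd (hci.2 ⟨hpq, h2⟩) h1
    · simp
  · intro pq hpq hno
    refine sum_eq_zero fun y hy => ?_
    have hD : Dist4 a b pq.1 pq.2 := (mem_filter.1 hpq).2
    have hci := ctr_iff hab h0 hy hD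
    unfold hh gam
    rw [if_neg (fun h => hno (hci.1 h).1)]
    simp

include hab in
lemma E2 {d : V → ℕ} {x0 : St V} (h0 : x0 ∈ Om d) (f : St V → ℝ) :
    ∑ pq ∈ Pq a b, ∑ y ∈ cls (Om d) (lab a b) x0,
      (if ctr a b pq.1 pq.2 y then (FF d a b pq.1 pq.2 f y - PP d a b f y) ^ 2 else 0) =
      ∑ ce ∈ (Cx a b x0).offDiag,
        ∑ _S ∈ ((Cx a b x0).powersetCard (ee a b x0 x0).card).filter (sep ce.1 ce.2),
          ((∑ S ∈ ((Cx a b x0).powersetCard (ee a b x0 x0).card).filter (sep ce.1 ce.2),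
            tr a b d x0 f S) /
          ((((Cx a b x0).powersetCard (ee a b x0 x0).card).filter (sep ce.1 ce.2)).card : ℝ) -
            mean a b d x0 f) ^ 2 := by
  have hsub := (offDiag_sub (a := a) (b := b) x0).resolve_right hab
  rw [← sum_subset hsub]
  · refine sum_congr rfl fun pq hpq => ?_
    have hD : Dist4 a b pq.1 pq.2 := (mem_filter.1 (hsub hpq)).2
    rw [sum_filter, ← sum_cls hab h0]
    refine sum_congr rfl fun y hy => ?_
    have hci := ctr_iff hab h0 hy hD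
    split_ifs with h1 h2 h2
    · rw [FF_eq hab h0 f hy hD hpq, PP_eq hab h0 f hy]
    · exact absurd (hci.1 h1).2 h2
    · exact absurd (hci.2 ⟨hpq, h2⟩) h1
    · rfl
  · intro pq hpq hno
    refine sum_eq_zero fun y hy => ?_
    have hD : Dist4 a b pq.1 pq.2 := (mem_filter.1 hpq).2
    have hci := ctr_iff hab h0 hy hD
    rw [if_neg (fun h => hno (hci.1 h).1)]

include hab in
lemma E3 {d : V → ℕ} {x0 : St V} (h0 : x0 ∈ Om d) (f : St V → ℝ) :
    ∑ y ∈ cls (Om d) (lab a b) x0, RR d a b f y ^ 2 =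
      ∑ S ∈ (Cx a b x0).powersetCard (ee a b x0 x0).card,
        (tr a b d x0 f S - mean a b d x0 f) ^ 2 := by
  rw [← sum_cls hab h0]
  refine sum_congr rfl fun y hy => ?_
  unfold RR
  rw [PP_eq hab h0 f hy, tr_ee hab h0 f hy]

include hab in
lemma classA (hS : SliceStmt) {d : V → ℕ} {x0 : St V} (h0 : x0 ∈ Om d) (f : St V → ℝ) :
    ∑ pq ∈ Pq a b, ∑ y ∈ cls (Om d) (lab a b) x0,
      (if ctr a b pq.1 pq.2 y then (FF d a b pq.1 pq.2 f y - PP d a b f y) ^ 2 else 0) ≤
    ∑ pq ∈ Pq a b, ∑ y ∈ cls (Om d) (lab a b) x0, hh a b pq.1 pq.2 f y ^ 2 := by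
  rw [E1 hab h0 f, E2 hab h0 f]
  obtain ⟨h1, h2⟩ := hS V (Cx a b x0) (ee a b x0 x0).card (tr a b d x0 f)
  exact h2.trans h1

include hab in
lemma classB (hS : SliceStmt) {d : V → ℕ} {x0 : St V} (h0 : x0 ∈ Om d) (f : St V → ℝ) :
    2 * ∑ y ∈ cls (Om d) (lab a b) x0, RR d a b f y ^ 2 ≤
    ∑ pq ∈ Pq a b, ∑ y ∈ cls (Om d) (lab a b) x0, hh a b pq.1 pq.2 f y ^ 2 := by
  rw [E1 hab h0 f, E3 hab h0 f]
  obtain ⟨h1, _⟩ := hS V (Cx a b x0) (ee a b x0 x0).card (tr a b d x0 f)
  refine le_trans ?_ h1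
  have hnn : 0 ≤ ∑ S ∈ (Cx a b x0).powersetCard (ee a b x0 x0).card,
      (tr a b d x0 f S - mean a b d x0 f) ^ 2 := sum_nonneg fun _ _ => sq_nonneg _
  by_cases hc : 2 ≤ (Cx a b x0).card
  · have : (2 : ℝ) ≤ ((Cx a b x0).card : ℝ) := by exact_mod_cast hc
    exact mul_le_mul_of_nonneg_right this hnn
  · -- the class has one element
    have hsub : ee a b x0 x0 ⊆ Cx a b x0 := filter_subset _ _
    have hle := card_le_card hsub
    have hone : ((Cx a b x0).powersetCard (ee a b x0 x0).card).card = 1 := by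
      rw [card_powersetCard]
      have h3 : (Cx a b x0).card = 0 ∨ (Cx a b x0).card = 1 := by omega
      rcases h3 with h3 | h3
      · have h4 : (ee a b x0 x0).card = 0 := by omega
        rw [h3, h4]; rfl
      · have h4 : (ee a b x0 x0).card = 0 ∨ (ee a b x0 x0).card = 1 := by omega
        rcases h4 with h4 | h4 <;> rw [h3, h4] <;> rfl
    obtain ⟨S0, hS0⟩ := card_eq_one.1 hone
    have hz : ∑ S ∈ (Cx a b x0).powersetCard (ee a b x0 x0).card,
        (tr a b d x0 f S - mean a b d x0 f) ^ 2 = 0 := by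
      unfold mean
      rw [hS0]
      simp
    unfold mean at hz ⊢
    rw [hz]
    simp

end main

end Row

/-- module ROW -/
theorem row (hS : SliceStmt) : RowStmt := by
  intro n d f a b hab
  have hfib : ∀ G : St (Fin n) → ℝ, ∑ x ∈ Om d, G x =
      ∑ z ∈ (Om d).image (lab a b), ∑ x ∈ (Om d).filter (fun y => lab a b y = z), G x := fun G =>
    (sum_fiberwise_of_maps_to (fun x hx => mem_image_of_mem _ hx) _).symm
  constructor
  · have e1 : ∑ pq ∈ Pq a b, ∑ x ∈ (Om d).filter (ctr a b pq.1 pq.2),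
        (FF d a b pq.1 pq.2 f x - PP d a b f x) ^ 2 =
        ∑ z ∈ (Om d).image (lab a b), ∑ pq ∈ Pq a b,
          ∑ x ∈ (Om d).filter (fun y => lab a b y = z),
          (if ctr a b pq.1 pq.2 x then (FF d a b pq.1 pq.2 f x - PP d a b f x) ^ 2 else 0) := by
      refine Eq.trans ?_ sum_comm
      refine sum_congr rfl fun pq _ => ?_
      rw [sum_filter, hfib]
    have e2 : ∑ pq ∈ Pq a b, ∑ x ∈ Om d, hh a b pq.1 pq.2 f x ^ 2 =
        ∑ z ∈ (Om d).image (lab a b), ∑ pq ∈ Pq a b,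
          ∑ x ∈ (Om d).filter (fun y => lab a b y = z), hh a b pq.1 pq.2 f x ^ 2 := by
      refine Eq.trans ?_ sum_comm
      exact sum_congr rfl fun pq _ => hfib _
    rw [e1, e2]
    refine sum_le_sum fun z hz => ?_
    obtain ⟨x0, h0, rfl⟩ := mem_image.1 hz
    exact Row.classA hab hS h0 f
  · have e2 : ∑ pq ∈ Pq a b, ∑ x ∈ Om d, hh a b pq.1 pq.2 f x ^ 2 =
        ∑ z ∈ (Om d).image (lab a b), ∑ pq ∈ Pq a b,
          ∑ x ∈ (Om d).filter (fun y => lab a b y = z), hh a b pq.1 pq.2 f x ^ 2 := by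
      refine Eq.trans ?_ sum_comm
      exact sum_congr rfl fun pq _ => hfib _
    rw [e2, hfib, mul_sum]
    refine sum_le_sum fun z hz => ?_
    obtain ⟨x0, h0, rfl⟩ := mem_image.1 hz
    exact Row.classB hab hS h0 f

end Crest.Agent.SW
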