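import Crest.Agent.SWAv

/-! Module SHARE (row 299): `ThreeStmt → ShareStmt`. -/

set_option autoImplicit false

namespace Crest.Agent.SW

open Finset

namespace Share

/-! ### transfer of averages -/

lemma Av_transfer {α β γ γ' : Type*} [DecidableEq β] [DecidableEq γ] [DecidableEq γ']
    {Φ : Finset α} {X : Finset β} {e : α → β} (he : Set.InjOn e (Φ : Set α)) (hX : Φ.image e = X)
    {l : α → γ} {l' : β → γ'} (hl : ∀ x ∈ Φ, ∀ y ∈ Φ, l x = l y ↔ l' (e x) = l' (e y))
    (g : β → ℝ) {x : α} (hx : x ∈ Φ) : Av X l' g (e x) = Av Φ l (fun y => g (e y)) x := by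
  have hc : cls X l' (e x) = (cls Φ l x).image e := by
    ext s
    simp only [mem_cls, mem_image]
    rw [← hX]
    constructor
    · rintro ⟨hs, h2⟩
      obtain ⟨y, hy, rfl⟩ := mem_image.1 hs
      exact ⟨y, ⟨hy, (hl y hy x hx).2 h2⟩, rfl⟩
    · rintro ⟨y, ⟨hy, h2⟩, rfl⟩
      exact ⟨mem_image_of_mem e hy, (hl y hy x hx).1 h2⟩
  have hinj : Set.InjOn e (cls Φ l x : Set α) := he.mono fun y hy => by
    have := mem_cls.1 (mem_coe.1 hy)
    exact mem_coe.2 this.1
  rw [Av_eq, Av_eq, hc, sum_image hinj, card_image_of_injOn hinj]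

/-! ### 3-vectors -/

/-- number of true entries -/
def cnt (v : Fin 3 → Bool) : ℕ := (univ.filter fun r => v r = true).card

/-- first index with value `s` -/
def enc1 (v : Fin 3 → Bool) (s : Bool) : Fin 3 := if v 0 = s then 0 else if v 1 = s then 1 else 2

/-- integer value of a boolean -/
def bi (b : Bool) : ℤ := if b then 1 else 0

lemma cnt_le : ∀ v : Fin 3 → Bool, cnt v ≤ 3 := by decide

lemma enc_true : ∀ v : Fin 3 → Bool, cnt v = 1 → ∀ r, (v r = true ↔ enc1 v true = r) := by decide

lemma enc_false : ∀ v : Fin 3 → Bool, cnt v = 2 → ∀ r, (v r = false ↔ enc1 v false = r) := by decide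

lemma cnt_zero : ∀ v : Fin 3 → Bool, cnt v = 0 → ∀ r, v r = false := by decide

lemma cnt_three : ∀ v : Fin 3 → Bool, cnt v = 3 → ∀ r, v r = true := by decide

lemma cnt_eq_col : ∀ i : Fin 3, cnt (fun r => decide (i = r)) = 1 := by decide

lemma cnt_ne_col : ∀ i : Fin 3, cnt (fun r => !decide (i = r)) = 2 := by decide

lemma cnt_cast (v : Fin 3 → Bool) : (cnt v : ℤ) = bi (v 0) + bi (v 1) + bi (v 2) := by
  unfold cnt bi
  rw [card_filter, Fin.sum_univ_three]
  push_cast
  rfl

section main

variable {V : Type} [Fintype V] [DecidableEq V] (a b c : V)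

def row : Fin 3 → V := ![a, b, c]
def op1 : Fin 3 → V := ![b, a, a]
def op2 : Fin 3 → V := ![c, c, b]
def idx (u : V) : Fin 3 := if u = a then 0 else if u = b then 1 else 2

/-- everything touching `{a,b,c}` erased -/
def labT (x : St V) : St V := fun u v =>
  if (u = a ∨ u = b ∨ u = c) ∨ (v = a ∨ v = b ∨ v = c) then false else x u v

/-- the three entries at the point `w`; `w = a` stands for the three internal pairs -/
def vec (x : St V) (w : V) (r : Fin 3) : Bool :=
  if w = a then x (op1 a b r) (op2 b c r) else x (row a b c r) w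

def PT : Finset V := univ.filter fun w => w ≠ b ∧ w ≠ c
def OT : Finset V := univ.filter fun w => w ≠ a ∧ w ≠ b ∧ w ≠ c

def sgn (w : V) : ℤ := if w = a then -1 else 1

def SS (x : St V) (r : Fin 3) : ℤ := ∑ w ∈ PT b c, sgn a w * bi (vec a b c x w r)

variable {a b c}

lemma mem_PT {w : V} : w ∈ PT b c ↔ w ≠ b ∧ w ≠ c := by simp [PT]
lemma mem_OT {w : V} : w ∈ OT a b c ↔ w ≠ a ∧ w ≠ b ∧ w ≠ c := by simp [OT]

variable (hab : a ≠ b) (hac : a ≠ c) (hbc : b ≠ c)

include hab hac in
lemma sum_PT (F : V → ℤ) : ∑ w ∈ PT b c, F w = F a + ∑ w ∈ OT a b c, F w := by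
  have h : PT b c = insert a (OT a b c) := by
    ext w
    rw [mem_PT, mem_insert, mem_OT]
    constructor
    · intro h
      by_cases hw : w = a
      · exact Or.inl hw
      · exact Or.inr ⟨hw, h⟩
    · rintro (rfl | h)
      · exact ⟨hab, hac⟩
      · exact h.2
  rw [h, sum_insert (by rw [mem_OT]; simp)]

include hab hac hbc in
lemma sum_split (F : V → ℤ) : ∑ w, F w = F a + F b + F c + ∑ w ∈ OT a b c, F w := by
  have h : (univ : Finset V) = insert a (insert b (insert c (OT a b c))) := by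
    ext w
    simp only [mem_univ, mem_insert, mem_OT, true_iff]
    tauto
  rw [h, sum_insert, sum_insert, sum_insert]
  · ring
  · rw [mem_OT]; simp
  · simp only [mem_insert, mem_OT]; tauto
  · simp only [mem_insert, mem_OT]; tauto

omit [DecidableEq V] in
lemma dg_cast (x : St V) (u : V) : (dg x u : ℤ) = ∑ v, bi (x u v) := by
  unfold dg bi
  rw [card_filter]
  push_cast
  rfl

include hab hac hbc in
lemma dg_out {x : St V} (hx : IsG x) {u : V} (hu : u ∈ OT a b c) :
    (dg x u : ℤ) = ∑ v ∈ OT a b c, bi (x u v) + cnt (vec a b c x u) := by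
  rw [dg_cast, sum_split hab hac hbc, cnt_cast]
  have h := mem_OT.1 hu
  have h0 : vec a b c x u 0 = x a u := by simp [vec, h.1, row]
  have h1 : vec a b c x u 1 = x b u := by simp [vec, h.1, row]
  have h2 : vec a b c x u 2 = x c u := by simp [vec, h.1, row]
  rw [h0, h1, h2, hx.1 u a, hx.1 u b, hx.1 u c]
  ring

include hab hac hbc in
lemma dg_row {x : St V} (hx : IsG x) (r : Fin 3) :
    (dg x (row a b c r) : ℤ) = SS a b c x r + cnt (vec a b c x a) := by
  rw [dg_cast, sum_split hab hac hbc, cnt_cast]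
  unfold SS
  rw [sum_PT hab hac]
  have h3 : ∑ w ∈ OT a b c, sgn a w * bi (vec a b c x w r) =
      ∑ w ∈ OT a b c, bi (x (row a b c r) w) := by
    refine sum_congr rfl fun w hw => ?_
    have h := mem_OT.1 hw
    simp [vec, sgn, h.1]
  rw [h3]
  have g0 : vec a b c x a 0 = x b c := by simp [vec, op1, op2]
  have g1 : vec a b c x a 1 = x a c := by simp [vec, op1, op2]
  have g2 : vec a b c x a 2 = x a b := by simp [vec, op1, op2]
  have hs : sgn a a = -1 := by simp [sgn]
  have d0 : ∀ u, bi (x u u) = 0 := fun u => by rw [hx.2 u]; rfl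
  rw [g0, g1, g2, hs]
  obtain rfl | rfl | rfl : r = 0 ∨ r = 1 ∨ r = 2 := by fin_cases r <;> simp
  · rw [show row a b c 0 = a from rfl, g0, d0]; ring
  · rw [show row a b c 1 = b from rfl, g1, d0, hx.1 b a]; ring
  · rw [show row a b c 2 = c from rfl, g2, d0, hx.1 c a, hx.1 c b]; ring

/-- sum of `SS` over the rows -/
lemma sum_SS (x : St V) : ∑ r, SS a b c x r = ∑ w ∈ PT b c, sgn a w * cnt (vec a b c x w) := by
  unfold SS
  rw [sum_comm]
  refine sum_congr rfl fun w _ => ?_
  rw [← mul_sum, cnt_cast, Fin.sum_univ_three]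


/-! ### characterisation of the fibre -/

lemma labT_row {x y : St V} (h : labT a b c x = labT a b c y) {u v : V} (hu : u ∈ OT a b c)
    (hv : v ∈ OT a b c) : x u v = y u v := by
  have h2 := congrFun (congrFun h u) v
  have hu' := mem_OT.1 hu
  have hv' := mem_OT.1 hv
  simpa [labT, hu', hv'] using h2

include hab hac hbc in
lemma mem_Om_iff {d : V → ℕ} {x x0 : St V} (hx : IsG x) (h0 : x0 ∈ Om d)
    (hl : labT a b c x = labT a b c x0) :
    x ∈ Om d ↔ (∀ w ∈ PT b c, cnt (vec a b c x w) = cnt (vec a b c x0 w)) ∧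
      ∀ r, SS a b c x r = SS a b c x0 r := by
  have h0' := (mem_filter.1 h0).2
  have hout : ∀ w ∈ OT a b c, (dg x w : ℤ) - cnt (vec a b c x w) =
      dg x0 w - cnt (vec a b c x0 w) := by
    intro w hw
    rw [dg_out hab hac hbc hx hw, dg_out hab hac hbc h0'.1 hw]
    have : ∑ v ∈ OT a b c, bi (x w v) = ∑ v ∈ OT a b c, bi (x0 w v) :=
      sum_congr rfl fun v hv => by rw [labT_row hl hw hv]
    rw [this]; ring
  have hOP : ∀ w ∈ OT a b c, w ∈ PT b c := fun w hw => mem_PT.2 (mem_OT.1 hw).2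
  have haP : a ∈ PT b c := mem_PT.2 ⟨hab, hac⟩
  constructor
  · intro hxd
    have hxd' := (mem_filter.1 hxd).2
    have hd : ∀ u, dg x u = dg x0 u := fun u => by rw [hxd'.2, h0'.2]
    have h1 : ∀ w ∈ OT a b c, cnt (vec a b c x w) = cnt (vec a b c x0 w) := by
      intro w hw
      have := hout w hw
      rw [hd w] at this
      omega
    have hrow : ∀ r, SS a b c x r + cnt (vec a b c x a) = SS a b c x0 r + cnt (vec a b c x0 a) := by
      intro r
      rw [← dg_row hab hac hbc hx r, ← dg_row hab hac hbc h0'.1 r, hd]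
    have hsum : ∑ r, SS a b c x r + 3 * (cnt (vec a b c x a) : ℤ) =
        ∑ r, SS a b c x0 r + 3 * (cnt (vec a b c x0 a) : ℤ) := by
      rw [Fin.sum_univ_three, Fin.sum_univ_three]
      have g0 := hrow 0
      have g1 := hrow 1
      have g2 := hrow 2
      linarith
    rw [sum_SS, sum_SS, sum_PT hab hac, sum_PT hab hac] at hsum
    have h2 : ∑ w ∈ OT a b c, sgn a w * (cnt (vec a b c x w) : ℤ) =
        ∑ w ∈ OT a b c, sgn a w * (cnt (vec a b c x0 w) : ℤ) :=
      sum_congr rfl fun w hw => by rw [h1 w hw]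
    have hs : sgn a a = -1 := by simp [sgn]
    rw [h2, hs] at hsum
    have h3 : cnt (vec a b c x a) = cnt (vec a b c x0 a) := by
      have : (cnt (vec a b c x a) : ℤ) = cnt (vec a b c x0 a) := by linarith
      exact_mod_cast this
    refine ⟨fun w hw => ?_, fun r => ?_⟩
    · by_cases hwa : w = a
      · rw [hwa]; exact h3
      · exact h1 w (mem_OT.2 ⟨hwa, mem_PT.1 hw⟩)
    · have := hrow r
      rw [h3] at this
      linarith
  · rintro ⟨h1, h2⟩
    refine mem_filter.2 ⟨mem_univ _, hx, fun u => ?_⟩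
    rw [← h0'.2 u]
    have hrow : ∀ r, dg x (row a b c r) = dg x0 (row a b c r) := by
      intro r
      have : (dg x (row a b c r) : ℤ) = dg x0 (row a b c r) := by
        rw [dg_row hab hac hbc hx r, dg_row hab hac hbc h0'.1 r, h2 r, h1 a haP]
      exact_mod_cast this
    by_cases hua : u = a
    · rw [hua]; exact hrow 0
    by_cases hub : u = b
    · rw [hub]; exact hrow 1
    by_cases huc : u = c
    · rw [huc]; exact hrow 2
    have hu : u ∈ OT a b c := mem_OT.2 ⟨hua, hub, huc⟩
    have h3 := hout u hu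
    rw [h1 u (hOP u hu)] at h3
    omega

include hab hac hbc in
/-- equality of states in the fibre -/
lemma st_ext {x y : St V} (hx : IsG x) (hy : IsG y) (hl : labT a b c x = labT a b c y)
    (hv : ∀ w ∈ PT b c, ∀ r, vec a b c x w r = vec a b c y w r) : x = y := by
  have haP : a ∈ PT b c := mem_PT.2 ⟨hab, hac⟩
  have hrow : ∀ r w, w ∈ OT a b c → x (row a b c r) w = y (row a b c r) w := by
    intro r w hw
    have h := hv w (mem_PT.2 (mem_OT.1 hw).2) r
    simpa [vec, (mem_OT.1 hw).1] using h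
  have hin : ∀ r, x (op1 a b r) (op2 b c r) = y (op1 a b r) (op2 b c r) := by
    intro r
    have h := hv a haP r
    simpa [vec] using h
  have i0 : x b c = y b c := hin 0
  have i1 : x a c = y a c := hin 1
  have i2 : x a b = y a b := hin 2
  have r0 : ∀ w ∈ OT a b c, x a w = y a w := hrow 0
  have r1 : ∀ w ∈ OT a b c, x b w = y b w := hrow 1
  have r2 : ∀ w ∈ OT a b c, x c w = y c w := hrow 2
  have key : ∀ u v, (u = a ∨ u = b ∨ u = c) → x u v = y u v := by
    intro u v hu
    by_cases hv' : v ∈ OT a b c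
    · rcases hu with rfl | rfl | rfl
      · exact r0 v hv'
      · exact r1 v hv'
      · exact r2 v hv'
    · rw [mem_OT] at hv'
      have hv2 : v = a ∨ v = b ∨ v = c := by tauto
      rcases hu with rfl | rfl | rfl <;> rcases hv2 with rfl | rfl | rfl <;>
        first
          | (rw [hx.2, hy.2])
          | assumption
          | (rw [hx.1, hy.1]; assumption)
  funext u v
  by_cases hu : u = a ∨ u = b ∨ u = c
  · exact key u v hu
  · by_cases hv' : v = a ∨ v = b ∨ v = c
    · rw [hx.1, hy.1]; exact key v u hv'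
    · have h2 := congrFun (congrFun hl u) v
      simpa [labT, hu, hv'] using h2


/-! ### building states -/

variable (a b c) in
/-- the state with prescribed entries -/
def stt (x0 : St V) (v : V → Fin 3 → Bool) : St V := fun u w =>
  if u = a ∨ u = b ∨ u = c then
    (if w = a ∨ w = b ∨ w = c then (if u = w then false else v a (-(idx a b u + idx a b w)))
      else v w (idx a b u))
  else (if w = a ∨ w = b ∨ w = c then v u (idx a b w) else x0 u w)

omit [Fintype V] in
lemma stt_isG {x0 : St V} (h0 : IsG x0) (v : V → Fin 3 → Bool) : IsG (stt a b c x0 v) := by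
  constructor
  · intro u w
    unfold stt
    by_cases hu : u = a ∨ u = b ∨ u = c
    · by_cases hw : w = a ∨ w = b ∨ w = c
      · simp only [hu, hw, if_true]
        by_cases huw : u = w
        · simp [huw]
        · rw [if_neg huw, if_neg (Ne.symm huw), add_comm]
      · simp only [hu, hw, if_true, if_false]
    · by_cases hw : w = a ∨ w = b ∨ w = c
      · simp only [hu, hw, if_true, if_false]
      · simp only [hu, hw, if_false]
        exact h0.1 u w
  · intro u
    unfold stt
    by_cases hu : u = a ∨ u = b ∨ u = c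
    · simp [hu]
    · simp only [hu, if_false]
      exact h0.2 u

omit [Fintype V] in
lemma stt_labT {x0 : St V} (v : V → Fin 3 → Bool) :
    labT a b c (stt a b c x0 v) = labT a b c x0 := by
  funext u w
  unfold labT
  by_cases h : (u = a ∨ u = b ∨ u = c) ∨ (w = a ∨ w = b ∨ w = c)
  · rw [if_pos h, if_pos h]
  · rw [if_neg h, if_neg h]
    rw [not_or] at h
    unfold stt
    rw [if_neg h.1, if_neg h.2]

include hab hac hbc in
lemma stt_vec {x0 : St V} (v : V → Fin 3 → Bool) {w : V} (hw : w ∈ PT b c) (r : Fin 3) :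
    vec a b c (stt a b c x0 v) w r = v w r := by
  have hw' := mem_PT.1 hw
  obtain rfl | rfl | rfl : r = 0 ∨ r = 1 ∨ r = 2 := by fin_cases r <;> simp
  all_goals
    by_cases hwa : w = a
    · subst hwa
      simp [vec, stt, op1, op2, idx, hab, hac, hbc, hab.symm, hac.symm, hbc.symm]
      try rfl
    · simp [vec, stt, row, idx, hwa, hw'.1, hw'.2, hab, hac, hbc, hab.symm, hac.symm, hbc.symm]


/-! ### colourings -/

variable (a b c) in
/-- the point `w` carries a free colour -/
def isQ (x0 : St V) (w : V) : Prop :=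
  (w ≠ b ∧ w ≠ c) ∧ (cnt (vec a b c x0 w) = 1 ∨ cnt (vec a b c x0 w) = 2)

instance (x0 : St V) : DecidablePred (isQ a b c x0) := fun w => by unfold isQ; infer_instance

variable (a b c) in
/-- the set of coloured points -/
abbrev QT (x0 : St V) : Type := {w : V // isQ a b c x0 w}

variable (a b c) in
def colV (x0 x : St V) (w : V) : Fin 3 :=
  enc1 (vec a b c x w) (decide (cnt (vec a b c x0 w) = 1))

variable (a b c) in
def enc (x0 x : St V) (q : QT a b c x0) : Fin 3 := colV a b c x0 x q

variable (a b c) in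
def epsV (x0 : St V) (w : V) : Bool :=
  if w = a then decide (cnt (vec a b c x0 w) = 2) else decide (cnt (vec a b c x0 w) = 1)

variable (a b c) in
def eps (x0 : St V) (q : QT a b c x0) : Bool := epsV a b c x0 q

variable (a b c) in
/-- signed count of colour `r` -/
def CC (x0 : St V) (σ : QT a b c x0 → Fin 3) (r : Fin 3) : ℤ :=
  ∑ q ∈ univ.filter (fun q => σ q = r), (if eps a b c x0 q then (1 : ℤ) else -1)

variable (a b c) in
def KK (x0 : St V) : ℤ := ∑ w ∈ PT b c, sgn a w *
  (if cnt (vec a b c x0 w) = 2 ∨ cnt (vec a b c x0 w) = 3 then 1 else 0)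

lemma cnt_cases (v : Fin 3 → Bool) : cnt v = 0 ∨ cnt v = 1 ∨ cnt v = 2 ∨ cnt v = 3 := by
  have := cnt_le v
  omega

lemma CC_enc (x0 x : St V) (r : Fin 3) : CC a b c x0 (enc a b c x0 x) r =
    ∑ w ∈ PT b c, if isQ a b c x0 w then
      (if colV a b c x0 x w = r then (if epsV a b c x0 w then (1 : ℤ) else -1) else 0) else 0 := by
  unfold CC
  rw [sum_filter]
  have h1 : ∑ q : QT a b c x0, (if enc a b c x0 x q = r then
      (if eps a b c x0 q then (1 : ℤ) else -1) else 0) =
      ∑ w ∈ univ.filter (isQ a b c x0),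
        (if colV a b c x0 x w = r then (if epsV a b c x0 w then (1 : ℤ) else -1) else 0) := by
    symm
    exact sum_subtype _ (fun w => by simp) _
  have h2 : univ.filter (isQ a b c x0) = (PT b c).filter (isQ a b c x0) := by
    ext w
    simp only [mem_filter, mem_univ, true_and, mem_PT]
    constructor
    · intro h
      exact ⟨h.1, h⟩
    · rintro ⟨_, h⟩
      exact h
  rw [h1, h2, sum_filter]

lemma SS_eq {x0 x : St V} (hc : ∀ w ∈ PT b c, cnt (vec a b c x w) = cnt (vec a b c x0 w))
    (r : Fin 3) : SS a b c x r = CC a b c x0 (enc a b c x0 x) r + KK a b c x0 := by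
  rw [CC_enc]
  unfold SS KK
  rw [← sum_add_distrib]
  refine sum_congr rfl fun w hw => ?_
  have hw' := mem_PT.1 hw
  have hcw := hc w hw
  have hsg : sgn a w = if w = a then -1 else 1 := rfl
  rcases cnt_cases (vec a b c x0 w) with h | h | h | h
  · have h1 := cnt_zero _ (hcw.trans h) r
    simp [isQ, h, h1, bi]
  · have h1 := enc_true _ (hcw.trans h) r
    have hq : isQ a b c x0 w := ⟨hw', Or.inl h⟩
    have hcol : colV a b c x0 x w = enc1 (vec a b c x w) true := by simp [colV, h]
    have heps : epsV a b c x0 w = if w = a then false else true := by simp [epsV, h]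
    rw [if_pos hq, hcol, heps, hsg, h]
    by_cases h2 : enc1 (vec a b c x w) true = r
    · rw [if_pos h2, h1.2 h2]
      by_cases hwa : w = a <;> simp [hwa, bi]
    · rw [if_neg h2]
      have h3 : vec a b c x w r = false := by
        rw [← Bool.not_eq_true]; exact fun h4 => h2 (h1.1 h4)
      rw [h3]
      simp [bi]
  · have h1 := enc_false _ (hcw.trans h) r
    have hq : isQ a b c x0 w := ⟨hw', Or.inr h⟩
    have hcol : colV a b c x0 x w = enc1 (vec a b c x w) false := by simp [colV, h]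
    have heps : epsV a b c x0 w = if w = a then true else false := by simp [epsV, h]
    rw [if_pos hq, hcol, heps, hsg, h]
    by_cases h2 : enc1 (vec a b c x w) false = r
    · rw [if_pos h2, h1.2 h2]
      by_cases hwa : w = a <;> simp [hwa, bi]
    · rw [if_neg h2]
      have h3 : vec a b c x w r = true := by
        rw [← Bool.not_eq_false]; exact fun h4 => h2 (h1.1 h4)
      rw [h3]
      by_cases hwa : w = a <;> simp [hwa, bi]
  · have h1 := cnt_three _ (hcw.trans h) r
    simp [isQ, h, h1, bi]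

variable (a b c) in
/-- vectors from a colouring -/
def vcol (x0 : St V) (σ : QT a b c x0 → Fin 3) (w : V) (r : Fin 3) : Bool :=
  if h : isQ a b c x0 w then
    (if cnt (vec a b c x0 w) = 1 then decide (σ ⟨w, h⟩ = r) else !decide (σ ⟨w, h⟩ = r))
  else decide (cnt (vec a b c x0 w) = 3)

lemma cnt_const_true : cnt (fun _ => true) = 3 := by decide
lemma cnt_const_false : cnt (fun _ => false) = 0 := by decide

lemma vcol_cnt (x0 : St V) (σ : QT a b c x0 → Fin 3) {w : V} (hw : w ∈ PT b c) :
    cnt (vcol a b c x0 σ w) = cnt (vec a b c x0 w) := by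
  have hw' := mem_PT.1 hw
  rcases cnt_cases (vec a b c x0 w) with h | h | h | h
  · have hq : ¬ isQ a b c x0 w := by
      rintro ⟨_, h2⟩; omega
    have : vcol a b c x0 σ w = fun _ => false := by
      funext r
      unfold vcol
      rw [dif_neg hq, h]
      rfl
    rw [this, h, cnt_const_false]
  · have hq : isQ a b c x0 w := ⟨hw', Or.inl h⟩
    have : vcol a b c x0 σ w = fun r => decide (σ ⟨w, hq⟩ = r) := by
      funext r
      unfold vcol
      rw [dif_pos hq, if_pos h]
    rw [this, h, cnt_eq_col]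
  · have hq : isQ a b c x0 w := ⟨hw', Or.inr h⟩
    have : vcol a b c x0 σ w = fun r => !decide (σ ⟨w, hq⟩ = r) := by
      funext r
      unfold vcol
      rw [dif_pos hq, if_neg (by omega)]
    rw [this, h, cnt_ne_col]
  · have hq : ¬ isQ a b c x0 w := by
      rintro ⟨_, h2⟩; omega
    have : vcol a b c x0 σ w = fun _ => true := by
      funext r
      unfold vcol
      rw [dif_neg hq, h]
      rfl
    rw [this, h, cnt_const_true]

include hab hac hbc in
lemma enc_stt (x0 : St V) (σ : QT a b c x0 → Fin 3) :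
    enc a b c x0 (stt a b c x0 (vcol a b c x0 σ)) = σ := by
  funext q
  obtain ⟨w, hq⟩ := q
  have hw : w ∈ PT b c := mem_PT.2 hq.1
  have hv : vec a b c (stt a b c x0 (vcol a b c x0 σ)) w = vcol a b c x0 σ w := by
    funext r
    exact stt_vec hab hac hbc _ hw r
  change enc1 (vec a b c (stt a b c x0 (vcol a b c x0 σ)) w)
    (decide (cnt (vec a b c x0 w) = 1)) = σ ⟨w, hq⟩
  rw [hv]
  have hc := vcol_cnt x0 σ hw
  rcases hq.2 with h | h
  · rw [h] at hc
    have h1 := (enc_true _ hc (σ ⟨w, hq⟩)).1 (by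
      unfold vcol
      rw [dif_pos hq, if_pos h]
      simp)
    simpa [h] using h1
  · rw [h] at hc
    have h1 := (enc_false _ hc (σ ⟨w, hq⟩)).1 (by
      unfold vcol
      rw [dif_pos hq, if_neg (by omega)]
      simp)
    simpa [h] using h1

/-- colour classes determine the entries of the row -/
lemma col_iff {x0 x y : St V} (hx : ∀ w ∈ PT b c, cnt (vec a b c x w) = cnt (vec a b c x0 w))
    (hy : ∀ w ∈ PT b c, cnt (vec a b c y w) = cnt (vec a b c x0 w)) (k : Fin 3) :
    (∀ w ∈ PT b c, vec a b c x w k = vec a b c y w k) ↔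
      lab3 k (enc a b c x0 x) = lab3 k (enc a b c x0 y) := by
  have hpt : ∀ w, isQ a b c x0 w → ((vec a b c x w k = vec a b c y w k) ↔
      (colV a b c x0 x w = k ↔ colV a b c x0 y w = k)) := by
    intro w hq
    have hw : w ∈ PT b c := mem_PT.2 hq.1
    rcases hq.2 with h | h
    · have h1 := enc_true _ ((hx w hw).trans h) k
      have h2 := enc_true _ ((hy w hw).trans h) k
      have c1 : colV a b c x0 x w = enc1 (vec a b c x w) true := by simp [colV, h]
      have c2 : colV a b c x0 y w = enc1 (vec a b c y w) true := by simp [colV, h]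
      rw [c1, c2, ← h1, ← h2]
      cases vec a b c x w k <;> cases vec a b c y w k <;> simp
    · have h1 := enc_false _ ((hx w hw).trans h) k
      have h2 := enc_false _ ((hy w hw).trans h) k
      have c1 : colV a b c x0 x w = enc1 (vec a b c x w) false := by simp [colV, h]
      have c2 : colV a b c x0 y w = enc1 (vec a b c y w) false := by simp [colV, h]
      rw [c1, c2, ← h1, ← h2]
      cases vec a b c x w k <;> cases vec a b c y w k <;> simp
  constructor
  · intro h
    ext q
    simp only [lab3, mem_filter, mem_univ, true_and]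
    exact (hpt q q.2).1 (h q (mem_PT.2 q.2.1))
  · intro h w hw
    by_cases hq : isQ a b c x0 w
    · refine (hpt w hq).2 ?_
      have h2 := Finset.ext_iff.1 h ⟨w, hq⟩
      simp only [lab3, mem_filter, mem_univ, true_and] at h2
      exact h2
    · rcases cnt_cases (vec a b c x0 w) with h1 | h1 | h1 | h1
      · rw [cnt_zero _ ((hx w hw).trans h1), cnt_zero _ ((hy w hw).trans h1)]
      · exact absurd ⟨mem_PT.1 hw, Or.inl h1⟩ hq
      · exact absurd ⟨mem_PT.1 hw, Or.inr h1⟩ hq
      · rw [cnt_three _ ((hx w hw).trans h1), cnt_three _ ((hy w hw).trans h1)]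

omit [Fintype V] in
/-- labels, generic -/
lemma lab_iff {x y : St V} (hx : IsG x) (hy : IsG y) {p q r : V} (hpq : p ≠ q) (hpr : p ≠ r)
    (hqr : q ≠ r) (hout : ∀ u v, u ≠ p → u ≠ q → u ≠ r → v ≠ p → v ≠ q → v ≠ r → x u v = y u v) :
    lab p q x = lab p q y ↔ (x p q = y p q ∧ ∀ w, w ≠ p → w ≠ q → w ≠ r → x r w = y r w) := by
  constructor
  · intro h
    refine ⟨?_, fun w h1 h2 h3 => ?_⟩
    · have := congrFun (congrFun h p) q
      simpa [lab] using this
    · have := congrFun (congrFun h r) w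
      simpa [lab, hpr.symm, hqr.symm, h1, h2] using this
  · rintro ⟨h1, h2⟩
    funext u v
    unfold lab
    split_ifs with h
    · by_cases hu : u = p ∨ u = q
      · have hv := h.1 hu
        rcases hu with rfl | rfl <;> rcases hv with rfl | rfl
        · rw [hx.2, hy.2]
        · exact h1
        · rw [hx.1, hy.1]; exact h1
        · rw [hx.2, hy.2]
      · have hv : ¬ (v = p ∨ v = q) := fun hv => hu (h.2 hv)
        rw [not_or] at hu hv
        by_cases hur : u = r
        · subst hur
          by_cases hvr : v = u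
          · subst hvr; rw [hx.2, hy.2]
          · exact h2 v hv.1 hv.2 hvr
        · by_cases hvr : v = r
          · subst hvr
            rw [hx.1, hy.1]
            exact h2 u hu.1 hu.2 hur
          · exact hout u v hu.1 hu.2 hur hv.1 hv.2 hvr
    · rfl


include hab hac hbc in
lemma lab_vec {x y : St V} (hx : IsG x) (hy : IsG y) (hl : labT a b c x = labT a b c y)
    (k : Fin 3) : lab (op1 a b k) (op2 b c k) x = lab (op1 a b k) (op2 b c k) y ↔
      ∀ w ∈ PT b c, vec a b c x w k = vec a b c y w k := by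
  have hin : (∀ w ∈ PT b c, vec a b c x w k = vec a b c y w k) ↔
      (x (op1 a b k) (op2 b c k) = y (op1 a b k) (op2 b c k) ∧
        ∀ w ∈ OT a b c, x (row a b c k) w = y (row a b c k) w) := by
    constructor
    · intro h
      refine ⟨?_, fun w hw => ?_⟩
      · have := h a (mem_PT.2 ⟨hab, hac⟩)
        simpa [vec] using this
      · have := h w (mem_PT.2 (mem_OT.1 hw).2)
        simpa [vec, (mem_OT.1 hw).1] using this
    · rintro ⟨h1, h2⟩ w hw
      by_cases hwa : w = a
      · subst hwa; simpa [vec] using h1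
      · have := h2 w (mem_OT.2 ⟨hwa, mem_PT.1 hw⟩)
        simpa [vec, hwa] using this
  rw [hin]
  obtain rfl | rfl | rfl : k = 0 ∨ k = 1 ∨ k = 2 := by fin_cases k <;> simp
  · have h := lab_iff hx hy (p := b) (q := c) (r := a) hbc hab.symm hac.symm
      (fun u v h1 h2 h3 h4 h5 h6 => labT_row hl (mem_OT.2 ⟨h3, h1, h2⟩) (mem_OT.2 ⟨h6, h4, h5⟩))
    change lab b c x = lab b c y ↔ (x b c = y b c ∧ ∀ w ∈ OT a b c, x a w = y a w)
    rw [h]
    refine and_congr Iff.rfl ?_
    simp only [mem_OT]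
    exact ⟨fun h w hw => h w hw.2.1 hw.2.2 hw.1, fun h w h1 h2 h3 => h w ⟨h3, h1, h2⟩⟩
  · have h := lab_iff hx hy (p := a) (q := c) (r := b) hac hab hbc.symm
      (fun u v h1 h2 h3 h4 h5 h6 => labT_row hl (mem_OT.2 ⟨h1, h3, h2⟩) (mem_OT.2 ⟨h4, h6, h5⟩))
    change lab a c x = lab a c y ↔ (x a c = y a c ∧ ∀ w ∈ OT a b c, x b w = y b w)
    rw [h]
    refine and_congr Iff.rfl ?_
    simp only [mem_OT]
    exact ⟨fun h w hw => h w hw.1 hw.2.2 hw.2.1, fun h w h1 h2 h3 => h w ⟨h1, h3, h2⟩⟩
  · have h := lab_iff hx hy (p := a) (q := b) (r := c) hab hac hbc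
      (fun u v h1 h2 h3 h4 h5 h6 => labT_row hl (mem_OT.2 ⟨h1, h2, h3⟩) (mem_OT.2 ⟨h4, h5, h6⟩))
    change lab a b x = lab a b y ↔ (x a b = y a b ∧ ∀ w ∈ OT a b c, x c w = y c w)
    rw [h]
    refine and_congr Iff.rfl ?_
    simp only [mem_OT]
    exact ⟨fun h w hw => h w hw.1 hw.2.1 hw.2.2, fun h w h1 h2 h3 => h w ⟨h1, h2, h3⟩⟩

/-! ### the fibre -/

variable (a b c) in
/-- the fibre of `x0` -/
def Fib (d : V → ℕ) (x0 : St V) : Finset (St V) :=
  (Om d).filter fun x => labT a b c x = labT a b c x0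

lemma mem_Fib {d : V → ℕ} {x0 x : St V} : x ∈ Fib a b c d x0 ↔
    x ∈ Om d ∧ labT a b c x = labT a b c x0 := by simp [Fib]

lemma isG_of_Om {d : V → ℕ} {x : St V} (h : x ∈ Om d) : IsG x := (mem_filter.1 h).2.1

include hab hac hbc in
lemma Fib_cnt {d : V → ℕ} {x0 x : St V} (h0 : x0 ∈ Om d) (hx : x ∈ Fib a b c d x0) :
    ∀ w ∈ PT b c, cnt (vec a b c x w) = cnt (vec a b c x0 w) :=
  ((mem_Om_iff hab hac hbc (isG_of_Om (mem_Fib.1 hx).1) h0 (mem_Fib.1 hx).2).1 (mem_Fib.1 hx).1).1

include hab hac hbc in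
lemma enc_inj {d : V → ℕ} {x0 : St V} (h0 : x0 ∈ Om d) :
    Set.InjOn (enc a b c x0) (Fib a b c d x0 : Set (St V)) := by
  intro x hx y hy hxy
  rw [mem_coe] at hx hy
  have hx' := mem_Fib.1 hx
  have hy' := mem_Fib.1 hy
  refine st_ext hab hac hbc (isG_of_Om hx'.1) (isG_of_Om hy'.1) (hx'.2.trans hy'.2.symm) ?_
  intro w hw k
  exact (col_iff (Fib_cnt hab hac hbc h0 hx) (Fib_cnt hab hac hbc h0 hy) k).2 (by rw [hxy]) w hw

include hab hac hbc in
lemma enc_image {d : V → ℕ} {x0 : St V} (h0 : x0 ∈ Om d) :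
    (Fib a b c d x0).image (enc a b c x0) =
      X3 (eps a b c x0) (CC a b c x0 (enc a b c x0 x0)) := by
  ext σ
  rw [mem_image]
  unfold X3
  simp only [mem_filter, mem_univ, true_and]
  constructor
  · rintro ⟨x, hx, rfl⟩ r
    have hx' := mem_Fib.1 hx
    have h1 := (mem_Om_iff hab hac hbc (isG_of_Om hx'.1) h0 hx'.2).1 hx'.1
    have h2 := SS_eq h1.1 r
    have h3 := SS_eq (a := a) (b := b) (c := c) (x0 := x0) (x := x0) (fun _ _ => rfl) r
    have h4 := h1.2 r
    have h5 : CC a b c x0 (enc a b c x0 x) r = CC a b c x0 (enc a b c x0 x0) r := by linarith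
    exact h5
  · intro hσ
    refine ⟨stt a b c x0 (vcol a b c x0 σ), ?_, enc_stt hab hac hbc x0 σ⟩
    have hG : IsG (stt a b c x0 (vcol a b c x0 σ)) := stt_isG (isG_of_Om h0) _
    have hc : ∀ w ∈ PT b c, cnt (vec a b c (stt a b c x0 (vcol a b c x0 σ)) w) =
        cnt (vec a b c x0 w) := by
      intro w hw
      have hv : vec a b c (stt a b c x0 (vcol a b c x0 σ)) w = vcol a b c x0 σ w := by
        funext r
        exact stt_vec hab hac hbc _ hw r
      rw [hv, vcol_cnt x0 σ hw]
    refine mem_Fib.2 ⟨(mem_Om_iff hab hac hbc hG h0 (stt_labT _)).2 ⟨hc, fun r => ?_⟩, stt_labT _⟩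
    rw [SS_eq hc r, SS_eq (a := a) (b := b) (c := c) (x0 := x0) (x := x0) (fun _ _ => rfl) r, enc_stt hab hac hbc x0 σ]
    have := hσ r
    have h6 : CC a b c x0 σ r = CC a b c x0 (enc a b c x0 x0) r := this
    rw [h6]

include hab hac hbc in
lemma enc_lab {d : V → ℕ} {x0 : St V} (h0 : x0 ∈ Om d) (k : Fin 3) :
    ∀ x ∈ Fib a b c d x0, ∀ y ∈ Fib a b c d x0,
      lab (op1 a b k) (op2 b c k) x = lab (op1 a b k) (op2 b c k) y ↔
        lab3 k (enc a b c x0 x) = lab3 k (enc a b c x0 y) := by
  intro x hx y hy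
  have hx' := mem_Fib.1 hx
  have hy' := mem_Fib.1 hy
  rw [lab_vec hab hac hbc (isG_of_Om hx'.1) (isG_of_Om hy'.1) (hx'.2.trans hy'.2.symm) k,
    col_iff (Fib_cnt hab hac hbc h0 hx) (Fib_cnt hab hac hbc h0 hy) k]

omit [Fintype V] in
/-- a label class lies in a fibre -/
lemma labT_of_lab {x y : St V} (k : Fin 3)
    (h : lab (op1 a b k) (op2 b c k) y = lab (op1 a b k) (op2 b c k) x) :
    labT a b c y = labT a b c x := by
  funext u v
  unfold labT
  split_ifs with h1
  · rfl
  · rw [not_or] at h1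
    obtain ⟨⟨u1, u2, u3⟩, ⟨v1, v2, v3⟩⟩ : (u ≠ a ∧ u ≠ b ∧ u ≠ c) ∧ (v ≠ a ∧ v ≠ b ∧ v ≠ c) := by
      tauto
    have h2 := congrFun (congrFun h u) v
    obtain rfl | rfl | rfl : k = 0 ∨ k = 1 ∨ k = 2 := by fin_cases k <;> simp
    all_goals
      simp [lab, op1, op2, u1, u2, u3, v1, v2, v3] at h2
      exact h2

include hab hac hbc in
lemma Av_Fib {d : V → ℕ} {x0 x : St V} (hx : x ∈ Fib a b c d x0) (k : Fin 3) (f : St V → ℝ) :
    Av (Om d) (lab (op1 a b k) (op2 b c k)) f x =
      Av (Fib a b c d x0) (lab (op1 a b k) (op2 b c k)) f x := by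
  have hx' := mem_Fib.1 hx
  have : cls (Om d) (lab (op1 a b k) (op2 b c k)) x =
      cls (Fib a b c d x0) (lab (op1 a b k) (op2 b c k)) x := by
    ext y
    rw [mem_cls, mem_cls, mem_Fib]
    constructor
    · rintro ⟨h1, h2⟩
      exact ⟨⟨h1, (labT_of_lab k h2).trans hx'.2⟩, h2⟩
    · rintro ⟨⟨h1, _⟩, h2⟩
      exact ⟨h1, h2⟩
  rw [Av_eq, Av_eq, this]

include hab hac hbc in
lemma fibre_nonneg (hT : ThreeStmt) {d : V → ℕ} {x0 : St V} (h0 : x0 ∈ Om d) (f : St V → ℝ) :
    0 ≤ ∑ x ∈ Fib a b c d x0, (RR d a b f x * RR d a c f x + RR d a b f x * RR d b c f x +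
      RR d a c f x * RR d b c f x) := by
  classical
  set e := enc a b c x0 with he
  set Φ := Fib a b c d x0 with hΦ
  have hinj := enc_inj hab hac hbc h0
  have him := enc_image hab hac hbc h0
  set X := X3 (eps a b c x0) (CC a b c x0 (enc a b c x0 x0)) with hX
  -- the transported function
  set g : (QT a b c x0 → Fin 3) → ℝ := fun σ =>
    if h : ∃ x ∈ Φ, e x = σ then f h.choose else 0 with hg
  have hge : ∀ x ∈ Φ, g (e x) = f x := by
    intro x hx
    have h : ∃ x' ∈ Φ, e x' = e x := ⟨x, hx, rfl⟩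
    rw [hg]
    simp only
    rw [dif_pos h]
    have h2 := h.choose_spec
    rw [hinj (mem_coe.2 h2.1) (mem_coe.2 hx) h2.2]
  have hAv : ∀ k : Fin 3, ∀ x ∈ Φ, Av X (lab3 k) g (e x) =
      Av (Om d) (lab (op1 a b k) (op2 b c k)) f x := by
    intro k x hx
    rw [Av_transfer hinj him (enc_lab hab hac hbc h0 k) g hx, Av_Fib hab hac hbc hx k]
    exact Av_congr (fun y hy => hge y hy) x
  have h3 := hT (QT a b c x0) (eps a b c x0) (CC a b c x0 (enc a b c x0 x0)) g
  rw [← hX, ← him, sum_image hinj] at h3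
  refine h3.trans (le_of_eq (sum_congr rfl fun x hx => ?_))
  rw [him, hAv 0 x hx, hAv 1 x hx, hAv 2 x hx, hge x hx]
  change (f x - Av (Om d) (lab b c) f x) * (f x - Av (Om d) (lab a c) f x) +
    (f x - Av (Om d) (lab b c) f x) * (f x - Av (Om d) (lab a b) f x) +
    (f x - Av (Om d) (lab a c) f x) * (f x - Av (Om d) (lab a b) f x) = _
  unfold RR PP
  ring

end main

end Share

/-- module SHARE -/
theorem share (hT : ThreeStmt) : ShareStmt := by
  intro n d f a b c hab hac hbc
  rw [← sum_fiberwise_of_maps_to (g := Share.labT a b c) (t := (Om d).image (Share.labT a b c))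
    (fun x hx => mem_image_of_mem _ hx)]
  refine sum_nonneg fun z hz => ?_
  obtain ⟨x0, h0, rfl⟩ := mem_image.1 hz
  exact Share.fibre_nonneg hab hac hbc hT h0 f

end Crest.Agent.SW
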