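import Crest.Agent.SWDefs

/-! Module SLICE of row 299 (S0453): Poincare inequality of the Johnson graph and a Gram bound. -/

set_option autoImplicit false

namespace Crest.Agent.SW.Slice

open Finset Crest.Agent.SW

section

variable {γ : Type*} [DecidableEq γ]

/-! ### indicators and counts -/

noncomputable def X (c : γ) (y : Finset γ) : ℝ := if c ∈ y then 1 else 0

lemma X_sq (c : γ) (y : Finset γ) : X c y * X c y = X c y := by
  unfold X; split_ifs <;> simp

noncomputable def sp (c e : γ) (y : Finset γ) : ℝ := if sep c e y then 1 else 0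

lemma sp_eq (c e : γ) (y : Finset γ) : sp c e y = X c y + X e y - 2 * (X c y * X e y) := by
  unfold sp sep X
  by_cases h1 : c ∈ y
  · by_cases h2 : e ∈ y
    · simp [h1, h2]; norm_num
    · simp [h1, h2]
  · by_cases h2 : e ∈ y
    · simp [h1, h2]
    · simp [h1, h2]

lemma sp_comm (c e : γ) (y : Finset γ) : sp c e y = sp e c y := by
  rw [sp_eq, sp_eq]; ring

/-- number of `k`-sets containing a given `j`-set -/
def Nn (m k j : ℕ) : ℕ := if j ≤ k then (m - j).choose (k - j) else 0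

lemma card_contains (M : Finset γ) (k : ℕ) (T : Finset γ) (hT : T ⊆ M) :
    ((M.powersetCard k).filter (fun y => T ⊆ y)).card = Nn M.card k T.card := by
  unfold Nn
  split_ifs with h
  · rw [← Finset.card_sdiff_of_subset hT, ← Finset.card_powersetCard]
    refine Finset.card_nbij' (fun y => y \ T) (fun y => y ∪ T) ?_ ?_ ?_ ?_
    · intro y hy
      simp only [coe_filter, mem_powersetCard, Set.mem_ofPred_eq] at hy
      simp only [mem_coe, mem_powersetCard]
      refine ⟨Finset.sdiff_subset_sdiff hy.1.1 subset_rfl, ?_⟩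
      rw [Finset.card_sdiff_of_subset hy.2, hy.1.2]
    · intro y hy
      simp only [mem_coe, mem_powersetCard] at hy
      simp only [coe_filter, mem_powersetCard, Set.mem_ofPred_eq]
      have hd : Disjoint y T := by
        rw [Finset.disjoint_left]
        intro a ha
        exact (Finset.mem_sdiff.1 (hy.1 ha)).2
      refine ⟨⟨Finset.union_subset (hy.1.trans Finset.sdiff_subset) hT, ?_⟩,
        Finset.subset_union_right⟩
      rw [Finset.card_union_of_disjoint hd, hy.2]
      omega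
    · intro y hy
      simp only [coe_filter, mem_powersetCard, Set.mem_ofPred_eq] at hy
      exact Finset.sdiff_union_of_subset hy.2
    · intro y hy
      simp only [mem_coe, mem_powersetCard] at hy
      have hd : Disjoint y T := by
        rw [Finset.disjoint_left]
        intro a ha
        exact (Finset.mem_sdiff.1 (hy.1 ha)).2
      simp only
      rw [Finset.union_sdiff_right, Finset.sdiff_eq_self_of_disjoint hd]
  · rw [Finset.card_eq_zero, Finset.filter_eq_empty_iff]
    intro y hy hTy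
    have h1 := Finset.card_le_card hTy
    have h2 := (Finset.mem_powersetCard.1 hy).2
    omega

lemma sum_prod_X (M : Finset γ) (k : ℕ) (T : Finset γ) (hT : T ⊆ M) :
    ∑ y ∈ M.powersetCard k, ∏ c ∈ T, X c y = (Nn M.card k T.card : ℝ) := by
  have h : ∀ y : Finset γ, ∏ c ∈ T, X c y = if T ⊆ y then (1 : ℝ) else 0 := by
    intro y
    unfold X
    split_ifs with h
    · exact Finset.prod_eq_one fun c hc => if_pos (h hc)
    · rw [Finset.not_subset] at h
      obtain ⟨c, hc, hcy⟩ := h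
      exact Finset.prod_eq_zero hc (if_neg hcy)
  simp only [h]
  rw [← Finset.sum_filter, Finset.sum_const, card_contains M k T hT]
  simp

lemma sum_X1 {M : Finset γ} (k : ℕ) {c : γ} (hc : c ∈ M) :
    ∑ y ∈ M.powersetCard k, X c y = (Nn M.card k 1 : ℝ) := by
  have := sum_prod_X M k {c} (by simpa using hc)
  simpa using this

lemma sum_X2 {M : Finset γ} (k : ℕ) {c e : γ} (hc : c ∈ M) (he : e ∈ M) (h : c ≠ e) :
    ∑ y ∈ M.powersetCard k, X c y * X e y = (Nn M.card k 2 : ℝ) := by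
  have := sum_prod_X M k {c, e} (by
    intro a ha; simp only [mem_insert, mem_singleton] at ha; rcases ha with rfl | rfl <;> assumption)
  rw [Finset.card_pair h] at this
  rw [← this]
  refine Finset.sum_congr rfl fun y _ => ?_
  rw [Finset.prod_pair h]

lemma sum_X3 {M : Finset γ} (k : ℕ) {c e f : γ} (hc : c ∈ M) (he : e ∈ M) (hf : f ∈ M)
    (h1 : c ≠ e) (h2 : c ≠ f) (h3 : e ≠ f) :
    ∑ y ∈ M.powersetCard k, X c y * (X e y * X f y) = (Nn M.card k 3 : ℝ) := by
  have hce : c ∉ ({e, f} : Finset γ) := by simp [h1, h2]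
  have := sum_prod_X M k {c, e, f} (by
    intro a ha; simp only [mem_insert, mem_singleton] at ha
    rcases ha with rfl | rfl | rfl <;> assumption)
  rw [Finset.card_insert_of_notMem hce, Finset.card_pair h3] at this
  rw [← this]
  refine Finset.sum_congr rfl fun y _ => ?_
  rw [Finset.prod_insert hce, Finset.prod_pair h3]

lemma sum_X4 {M : Finset γ} (k : ℕ) {c e f g : γ} (hc : c ∈ M) (he : e ∈ M) (hf : f ∈ M)
    (hg : g ∈ M) (h1 : c ≠ e) (h2 : c ≠ f) (h3 : c ≠ g) (h4 : e ≠ f) (h5 : e ≠ g) (h6 : f ≠ g) :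
    ∑ y ∈ M.powersetCard k, X c y * (X e y * (X f y * X g y)) = (Nn M.card k 4 : ℝ) := by
  have he' : e ∉ ({f, g} : Finset γ) := by simp [h4, h5]
  have hc' : c ∉ ({e, f, g} : Finset γ) := by simp [h1, h2, h3]
  have := sum_prod_X M k {c, e, f, g} (by
    intro a ha; simp only [mem_insert, mem_singleton] at ha
    rcases ha with rfl | rfl | rfl | rfl <;> assumption)
  rw [Finset.card_insert_of_notMem hc', Finset.card_insert_of_notMem he', Finset.card_pair h6] at this
  rw [← this]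
  refine Finset.sum_congr rfl fun y _ => ?_
  rw [Finset.prod_insert hc', Finset.prod_insert he', Finset.prod_pair h6]

/-! ### the Gram lemma -/

lemma gram {ι κ : Type*} (s : Finset ι) (P : Finset κ) (φ : κ → ℝ) (χ : ι → κ → ℝ) (Λ : ℝ)
    (hΛ : 0 ≤ Λ)
    (h : ∑ y ∈ P, (∑ i ∈ s, (∑ z ∈ P, φ z * χ i z) * χ i y) ^ 2 ≤
      Λ * ∑ i ∈ s, (∑ z ∈ P, φ z * χ i z) ^ 2) :
    ∑ i ∈ s, (∑ z ∈ P, φ z * χ i z) ^ 2 ≤ Λ * ∑ y ∈ P, φ y ^ 2 := by
  set b : ι → ℝ := fun i => ∑ z ∈ P, φ z * χ i z with hb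
  set B := ∑ i ∈ s, b i ^ 2 with hB
  have hB0 : 0 ≤ B := Finset.sum_nonneg fun i _ => sq_nonneg _
  have e1 : ∑ y ∈ P, φ y * ∑ i ∈ s, b i * χ i y = B := by
    simp only [Finset.mul_sum]
    rw [Finset.sum_comm]
    refine Finset.sum_congr rfl fun i _ => ?_
    have : ∀ y, φ y * (b i * χ i y) = b i * (φ y * χ i y) := fun y => by ring
    simp only [this]
    rw [← Finset.mul_sum, sq]
  have e2 := Finset.sum_mul_sq_le_sq_mul_sq P φ (fun y => ∑ i ∈ s, b i * χ i y)
  rw [e1] at e2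
  have hφ0 : 0 ≤ ∑ y ∈ P, φ y ^ 2 := Finset.sum_nonneg fun i _ => sq_nonneg _
  have e3 : B ^ 2 ≤ (∑ y ∈ P, φ y ^ 2) * (Λ * B) :=
    e2.trans (mul_le_mul_of_nonneg_left h hφ0)
  rcases hB0.eq_or_lt with h0 | h0
  · change B ≤ _
    rw [← h0]; positivity
  · have e4 : B * B ≤ (Λ * ∑ y ∈ P, φ y ^ 2) * B := by nlinarith
    exact le_of_mul_le_mul_right e4 h0

/-! ### variance and energy -/

lemma var_eq {κ : Type*} (P : Finset κ) (φ : κ → ℝ) :
    ∑ y ∈ P, (φ y - (∑ z ∈ P, φ z) / (P.card : ℝ)) ^ 2 =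
      ∑ y ∈ P, φ y ^ 2 - (∑ z ∈ P, φ z) ^ 2 / (P.card : ℝ) := by
  set T := ∑ z ∈ P, φ z with hT
  have h : ∀ y, (φ y - T / (P.card : ℝ)) ^ 2 =
      φ y ^ 2 - (2 * (T / (P.card : ℝ))) * φ y + (T / (P.card : ℝ)) ^ 2 := fun y => by ring
  simp only [h]
  rw [Finset.sum_add_distrib, Finset.sum_sub_distrib, ← Finset.mul_sum, ← hT, Finset.sum_const,
    nsmul_eq_mul]
  rcases P.eq_empty_or_nonempty with h0 | h0
  · subst h0
    simp at hT
    simp [hT]
  · have h1 : (P.card : ℝ) ≠ 0 := by exact_mod_cast (Finset.card_pos.2 h0).ne'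
    field_simp
    ring

noncomputable def tm (φ : Finset γ → ℝ) (c e : γ) (y : Finset γ) : ℝ :=
  (φ y - φ (symmDiff y {c, e})) ^ 2 / 4

noncomputable def En (M : Finset γ) (k : ℕ) (φ : Finset γ → ℝ) : ℝ :=
  ∑ ce ∈ M.offDiag, ∑ y ∈ (M.powersetCard k).filter (sep ce.1 ce.2), tm φ ce.1 ce.2 y

lemma En_nonneg (M : Finset γ) (k : ℕ) (φ : Finset γ → ℝ) : 0 ≤ En M k φ :=
  Finset.sum_nonneg fun _ _ => Finset.sum_nonneg fun _ _ => by unfold tm; positivity

lemma En_sub (M : Finset γ) (k : ℕ) (φ : Finset γ → ℝ) (a : ℝ) :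
    En M k (fun y => φ y - a) = En M k φ := by
  unfold En tm
  refine Finset.sum_congr rfl fun ce _ => Finset.sum_congr rfl fun y _ => ?_
  ring

lemma sum_split {M : Finset γ} {w : γ} (hw : w ∈ M) (k : ℕ) (F : Finset γ → ℝ) :
    ∑ y ∈ M.powersetCard (k + 1), F y =
      ∑ y ∈ (M.erase w).powersetCard (k + 1), F y + ∑ y ∈ (M.erase w).powersetCard k, F (insert w y) := by
  have hw' : w ∉ M.erase w := Finset.notMem_erase w M
  conv_lhs => rw [← Finset.insert_erase hw, Finset.powersetCard_succ_insert hw']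
  rw [Finset.sum_union, Finset.sum_image]
  · intro y hy z hz hyz
    have hy' : w ∉ y := fun h => hw' ((Finset.mem_powersetCard.1 hy).1 h)
    have hz' : w ∉ z := fun h => hw' ((Finset.mem_powersetCard.1 hz).1 h)
    rw [← Finset.erase_insert hy', ← Finset.erase_insert hz', hyz]
  · rw [Finset.disjoint_left]
    intro y hy hy2
    obtain ⟨z, _, rfl⟩ := Finset.mem_image.1 hy2
    exact hw' ((Finset.mem_powersetCard.1 hy).1 (Finset.mem_insert_self w z))

lemma sep_insert {w c e : γ} (hc : c ≠ w) (he : e ≠ w) (y : Finset γ) :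
    sep c e (insert w y) ↔ sep c e y := by
  unfold sep
  simp [Finset.mem_insert, hc, he]

lemma symmDiff_insert {w c e : γ} (hc : c ≠ w) (he : e ≠ w) (y : Finset γ) :
    symmDiff (insert w y) {c, e} = insert w (symmDiff y {c, e}) := by
  ext a
  simp only [Finset.mem_symmDiff, Finset.mem_insert, Finset.mem_singleton]
  by_cases h : a = w
  · subst h
    simp [hc.symm, he.symm]
  · simp [h]

lemma En_split {M : Finset γ} {w : γ} (hw : w ∈ M) (k : ℕ) (φ : Finset γ → ℝ) :
    ∑ ce ∈ (M.erase w).offDiag, ∑ y ∈ (M.powersetCard (k + 1)).filter (sep ce.1 ce.2),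
      tm φ ce.1 ce.2 y =
    En (M.erase w) (k + 1) φ + En (M.erase w) k (fun y => φ (insert w y)) := by
  unfold En
  rw [← Finset.sum_add_distrib]
  refine Finset.sum_congr rfl fun ce hce => ?_
  rw [Finset.mem_offDiag] at hce
  have hc : ce.1 ≠ w := (Finset.mem_erase.1 hce.1).1
  have he : ce.2 ≠ w := (Finset.mem_erase.1 hce.2.1).1
  rw [Finset.sum_filter, Finset.sum_filter, Finset.sum_filter, sum_split hw k]
  congr 1
  refine Finset.sum_congr rfl fun y _ => ?_
  simp only [sep_insert hc he]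
  unfold tm
  rw [symmDiff_insert hc he]

lemma sum_erase_offDiag (M : Finset γ) (T : γ × γ → ℝ) :
    ∑ w ∈ M, ∑ ce ∈ (M.erase w).offDiag, T ce = ((M.card : ℝ) - 2) * ∑ ce ∈ M.offDiag, T ce := by
  have h1 : ∀ w ∈ M, ∑ ce ∈ (M.erase w).offDiag, T ce =
      ∑ ce ∈ M.offDiag, if ce.1 ≠ w ∧ ce.2 ≠ w then T ce else 0 := by
    intro w _
    rw [← Finset.sum_filter]
    refine Finset.sum_congr ?_ fun _ _ => rfl
    ext ce
    simp only [Finset.mem_offDiag, Finset.mem_erase, Finset.mem_filter]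
    tauto
  rw [Finset.sum_congr rfl h1, Finset.sum_comm, Finset.mul_sum]
  refine Finset.sum_congr rfl fun ce hce => ?_
  rw [Finset.mem_offDiag] at hce
  rw [← Finset.sum_filter, Finset.sum_const, nsmul_eq_mul]
  congr 1
  have h2 : M.filter (fun w => ce.1 ≠ w ∧ ce.2 ≠ w) = (M.erase ce.1).erase ce.2 := by
    ext w
    simp only [Finset.mem_filter, Finset.mem_erase]
    tauto
  rw [h2, Finset.card_erase_of_mem (Finset.mem_erase.2 ⟨hce.2.2.symm, hce.2.1⟩),
    Finset.card_erase_of_mem hce.1]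
  have h3 : 2 ≤ M.card := by
    have := Finset.card_le_card (s := {ce.1, ce.2}) (t := M) (by
      intro a ha
      simp only [mem_insert, mem_singleton] at ha
      rcases ha with rfl | rfl
      · exact hce.1
      · exact hce.2.1)
    rwa [Finset.card_pair hce.2.2] at this
  rw [Nat.sub_sub, Nat.cast_sub h3]
  norm_num

/-- Gram bound of level one -/
lemma level_one {M : Finset γ} {q k : ℕ} (hM : M.card = q + 2) (φ : Finset γ → ℝ)
    (hφ : ∑ y ∈ M.powersetCard (k + 1), φ y = 0) :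
    ∑ w ∈ M, (∑ y ∈ M.powersetCard (k + 1), φ y * X w y) ^ 2 ≤
      (q.choose k : ℝ) * ∑ y ∈ M.powersetCard (k + 1), φ y ^ 2 := by
  refine gram M (M.powersetCard (k + 1)) φ X _ (by positivity) (le_of_eq ?_)
  set b : γ → ℝ := fun w => ∑ z ∈ M.powersetCard (k + 1), φ z * X w z with hb
  have hb0 : ∑ w ∈ M, b w = 0 := by
    rw [hb, Finset.sum_comm]
    have : ∀ z ∈ M.powersetCard (k + 1), ∑ w ∈ M, φ z * X w z = (k + 1 : ℝ) * φ z := by
      intro z hz
      rw [← Finset.mul_sum, mul_comm]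
      congr 1
      unfold X
      rw [Finset.sum_ite_mem, Finset.inter_eq_right.2 (Finset.mem_powersetCard.1 hz).1,
        Finset.sum_const, (Finset.mem_powersetCard.1 hz).2]
      simp
    rw [Finset.sum_congr rfl this, ← Finset.mul_sum, hφ, mul_zero]
  have hN : (Nn (q + 2) (k + 1) 1 : ℝ) - (Nn (q + 2) (k + 1) 2 : ℝ) = (q.choose k : ℝ) := by
    unfold Nn
    rw [if_pos (by omega)]
    rcases k with _ | k
    · simp
    · rw [if_pos (by omega)]
      have : (q + 2 - 1).choose (k + 1 + 1 - 1) = q.choose k + q.choose (k + 1) := by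
        rw [show q + 2 - 1 = q + 1 by omega, show k + 1 + 1 - 1 = k + 1 by omega,
          Nat.choose_succ_succ]
      rw [this, show q + 2 - 2 = q by omega, show k + 1 + 1 - 2 = k by omega]
      push_cast
      ring
  have e1 : ∑ y ∈ M.powersetCard (k + 1), (∑ i ∈ M, b i * X i y) ^ 2 =
      ∑ i ∈ M, ∑ j ∈ M, b i * b j * ∑ y ∈ M.powersetCard (k + 1), X i y * X j y := by
    have e0 : ∀ y, (∑ i ∈ M, b i * X i y) ^ 2 =
        ∑ i ∈ M, ∑ j ∈ M, b i * b j * (X i y * X j y) := by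
      intro y
      rw [sq, Finset.sum_mul_sum]
      refine Finset.sum_congr rfl fun i _ => Finset.sum_congr rfl fun j _ => ?_
      ring
    simp only [e0]
    rw [Finset.sum_comm]
    refine Finset.sum_congr rfl fun i _ => ?_
    rw [Finset.sum_comm]
    refine Finset.sum_congr rfl fun j _ => ?_
    exact (Finset.mul_sum _ _ _).symm
  have e2 : ∀ i ∈ M, ∑ j ∈ M, b i * b j * ∑ y ∈ M.powersetCard (k + 1), X i y * X j y =
      (Nn (q + 2) (k + 1) 2 : ℝ) * (b i * ∑ j ∈ M, b j) + (q.choose k : ℝ) * b i ^ 2 := by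
    intro i hi
    rw [← Finset.add_sum_erase M _ hi, ← Finset.add_sum_erase M b hi]
    have e3 : ∑ y ∈ M.powersetCard (k + 1), X i y * X i y = (Nn (q + 2) (k + 1) 1 : ℝ) := by
      simp only [X_sq]
      rw [sum_X1 (k + 1) hi, hM]
    have e4 : ∀ j ∈ M.erase i, b i * b j * ∑ y ∈ M.powersetCard (k + 1), X i y * X j y =
        (Nn (q + 2) (k + 1) 2 : ℝ) * b i * b j := by
      intro j hj
      rw [Finset.mem_erase] at hj
      rw [sum_X2 (k + 1) hi hj.2 hj.1.symm, hM]
      ring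
    rw [e3, Finset.sum_congr rfl e4, ← Finset.mul_sum]
    have : (Nn (q + 2) (k + 1) 1 : ℝ) = (Nn (q + 2) (k + 1) 2 : ℝ) + (q.choose k : ℝ) := by linarith
    rw [this]
    ring
  have e5 : ∑ y ∈ M.powersetCard (k + 1), (∑ i ∈ M, b i * X i y) ^ 2 =
      (q.choose k : ℝ) * ∑ i ∈ M, b i ^ 2 := by
    rw [e1, Finset.sum_congr rfl e2, hb0]
    simp only [mul_zero, zero_add]
    rw [← Finset.mul_sum]
  exact e5

/-- the variance vanishes on at most one point -/
lemma var_triv {κ : Type*} (P : Finset κ) (φ : κ → ℝ) (hP : P.card ≤ 1) :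
    ∑ y ∈ P, φ y ^ 2 - (∑ z ∈ P, φ z) ^ 2 / (P.card : ℝ) = 0 := by
  rcases P.eq_empty_or_nonempty with h0 | h0
  · subst h0; simp
  · have h1 : P.card = 1 := le_antisymm hP (Finset.card_pos.2 h0)
    obtain ⟨a, rfl⟩ := Finset.card_eq_one.1 h1
    simp

theorem pj (m : ℕ) : ∀ (M : Finset γ), M.card = m → ∀ (k : ℕ) (φ : Finset γ → ℝ),
    (m : ℝ) * (∑ y ∈ M.powersetCard k, φ y ^ 2 -
      (∑ z ∈ M.powersetCard k, φ z) ^ 2 / ((M.powersetCard k).card : ℝ)) ≤ En M k φ := by
  induction m with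
  | zero =>
    intro M _ k φ
    rw [Nat.cast_zero, zero_mul]
    exact En_nonneg _ _ _
  | succ m ih =>
    intro M hM k φ
    -- trivial cases
    by_cases hk : k = 0 ∨ M.card ≤ k
    · have : (M.powersetCard k).card ≤ 1 := by
        rw [Finset.card_powersetCard]
        rcases hk with rfl | hk
        · simp
        · rcases hk.eq_or_lt with h | h
          · rw [← h, Nat.choose_self]
          · rw [Nat.choose_eq_zero_of_lt h]; omega
      rw [var_triv _ _ this, mul_zero]
      exact En_nonneg _ _ _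
    push Not at hk
    obtain ⟨hk0, hkM⟩ := hk
    obtain ⟨k, rfl⟩ : ∃ j, k = j + 1 := ⟨k - 1, by omega⟩
    obtain ⟨q, rfl⟩ : ∃ q, m = q + 1 := ⟨m - 1, by omega⟩
    rcases Nat.eq_zero_or_pos q with rfl | hq
    · -- two points
      have hk' : k = 0 := by omega
      subst hk'
      obtain ⟨a, b, hab, rfl⟩ := Finset.card_eq_two.1 hM
      have hS : ({a, b} : Finset γ).powersetCard (0 + 1) = {{a}, {b}} := by
        rw [zero_add, Finset.powersetCard_one]
        ext y
        simp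
      have hne : ({a} : Finset γ) ≠ {b} := fun h => hab (Finset.singleton_injective h)
      have hO : ({a, b} : Finset γ).offDiag = {(a, b), (b, a)} := by
        ext ⟨x, y⟩
        simp only [Finset.mem_offDiag, Finset.mem_insert, Finset.mem_singleton, Prod.mk.injEq]
        constructor
        · rintro ⟨rfl | rfl, rfl | rfl, h⟩
          · exact absurd rfl h
          · exact Or.inl ⟨rfl, rfl⟩
          · exact Or.inr ⟨rfl, rfl⟩
          · exact absurd rfl h
        · rintro (⟨rfl, rfl⟩ | ⟨rfl, rfl⟩)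
          · exact ⟨Or.inl rfl, Or.inr rfl, hab⟩
          · exact ⟨Or.inr rfl, Or.inl rfl, hab.symm⟩
      have hne2 : ((a, b) : γ × γ) ≠ (b, a) := fun h => hab (Prod.ext_iff.1 h).1
      have s1 : sep a b {a} := by simp [sep, hab.symm]
      have s2 : sep a b {b} := by simp [sep, hab]
      have s3 : sep b a {a} := by simp [sep, hab.symm]
      have s4 : sep b a {b} := by simp [sep, hab]
      have d1 : symmDiff ({a} : Finset γ) {a, b} = {b} := by
        ext x; simp only [Finset.mem_symmDiff, Finset.mem_insert, Finset.mem_singleton]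
        constructor
        · rintro (⟨h1, h2⟩ | ⟨h1, h2⟩)
          · exact absurd (Or.inl h1) h2
          · rcases h1 with h1 | h1
            · exact absurd h1 h2
            · exact h1
        · rintro rfl
          exact Or.inr ⟨Or.inr rfl, fun h => hab h.symm⟩
      have d2 : symmDiff ({b} : Finset γ) {a, b} = {a} := by
        ext x; simp only [Finset.mem_symmDiff, Finset.mem_insert, Finset.mem_singleton]
        constructor
        · rintro (⟨h1, h2⟩ | ⟨h1, h2⟩)
          · exact absurd (Or.inr h1) h2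
          · rcases h1 with h1 | h1
            · exact h1
            · exact absurd h1 h2
        · rintro rfl
          exact Or.inr ⟨Or.inl rfl, fun h => hab h⟩
      unfold En tm
      rw [hS, hO, Finset.sum_pair hne2, Finset.sum_pair hne, Finset.sum_pair hne,
        Finset.card_pair hne, Finset.sum_filter, Finset.sum_filter, Finset.sum_pair hne,
        Finset.sum_pair hne]
      simp only [s1, s2, s3, s4, if_true]
      rw [Finset.pair_comm b a, d1, d2]
      push_cast
      ring_nf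
      exact le_rfl
    · -- main step
      set N := ((M.powersetCard (k + 1)).card : ℝ) with hN
      have hNpos : 0 < N := by
        rw [hN, Finset.card_powersetCard]
        exact_mod_cast Nat.choose_pos (by omega)
      set μ := (∑ z ∈ M.powersetCard (k + 1), φ z) / N with hμ
      set ψ : Finset γ → ℝ := fun y => φ y - μ with hψ
      have hψ0 : ∑ y ∈ M.powersetCard (k + 1), ψ y = 0 := by
        rw [hψ, Finset.sum_sub_distrib, Finset.sum_const, nsmul_eq_mul, hμ, ← hN]
        field_simp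
        ring
      have hvar : ∑ y ∈ M.powersetCard (k + 1), φ y ^ 2 -
          (∑ z ∈ M.powersetCard (k + 1), φ z) ^ 2 / N = ∑ y ∈ M.powersetCard (k + 1), ψ y ^ 2 :=
        (var_eq _ φ).symm
      rw [hvar, ← En_sub M (k + 1) φ μ]
      change _ ≤ En M (k + 1) ψ
      clear_value ψ
      set b : γ → ℝ := fun w => ∑ y ∈ M.powersetCard (k + 1), ψ y * X w y with hb
      have hbw : ∀ w ∈ M, b w = ∑ y ∈ (M.erase w).powersetCard k, ψ (insert w y) := by
        intro w hw
        rw [hb]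
        simp only
        rw [sum_split hw k]
        have z1 : ∀ y ∈ (M.erase w).powersetCard (k + 1), ψ y * X w y = 0 := by
          intro y hy
          have : w ∉ y := fun h => Finset.notMem_erase w M ((Finset.mem_powersetCard.1 hy).1 h)
          unfold X
          rw [if_neg this, mul_zero]
        have z2 : ∀ y ∈ (M.erase w).powersetCard k, ψ (insert w y) * X w (insert w y) =
            ψ (insert w y) := by
          intro y _
          unfold X
          rw [if_pos (Finset.mem_insert_self w y), mul_one]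
        rw [Finset.sum_congr rfl z1, Finset.sum_congr rfl z2, Finset.sum_const_zero, zero_add]
      set na := ((q + 1).choose (k + 1) : ℝ) with hna
      set nb := ((q + 1).choose k : ℝ) with hnb
      have hna0 : 0 < na := by
        rw [hna]; exact_mod_cast Nat.choose_pos (by omega)
      have hnb0 : 0 < nb := by
        rw [hnb]; exact_mod_cast Nat.choose_pos (by omega)
      have hstep : ∀ w ∈ M, ((q : ℝ) + 1) * (∑ y ∈ M.powersetCard (k + 1), ψ y ^ 2 -
          (1 / na + 1 / nb) * b w ^ 2) ≤ ∑ ce ∈ (M.erase w).offDiag,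
            ∑ y ∈ (M.powersetCard (k + 1)).filter (sep ce.1 ce.2), tm ψ ce.1 ce.2 y := by
        intro w hw
        have hcard : (M.erase w).card = q + 1 := by
          rw [Finset.card_erase_of_mem hw, hM]; rfl
        have i1 := ih (M.erase w) hcard (k + 1) ψ
        have i2 := ih (M.erase w) hcard k (fun y => ψ (insert w y))
        rw [En_split hw k ψ, sum_split hw k]
        have hs := sum_split hw k ψ
        rw [hψ0, ← hbw w hw] at hs
        have hs' : ∑ y ∈ (M.erase w).powersetCard (k + 1), ψ y = - b w := by linarith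
        rw [hs', Finset.card_powersetCard, hcard] at i1
        rw [← hbw w hw, Finset.card_powersetCard, hcard] at i2
        rw [← hna] at i1
        rw [← hnb] at i2
        push_cast at i1 i2
        have e1 : (1 / na + 1 / nb) * b w ^ 2 = (- b w) ^ 2 / na + b w ^ 2 / nb := by ring
        rw [e1]
        nlinarith
      have hsum := Finset.sum_le_sum hstep
      rw [sum_erase_offDiag M (fun ce => ∑ y ∈ (M.powersetCard (k + 1)).filter (sep ce.1 ce.2),
        tm ψ ce.1 ce.2 y), hM, ← Finset.mul_sum, Finset.sum_sub_distrib, Finset.sum_const, hM,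
        nsmul_eq_mul, ← Finset.mul_sum] at hsum
      have hl := level_one hM ψ hψ0
      set Q := ∑ y ∈ M.powersetCard (k + 1), ψ y ^ 2 with hQ
      set L := (q.choose k : ℝ) with hL
      have r1 : ((k : ℝ) + 1) * na = ((q : ℝ) + 1) * L := by
        have := Nat.add_one_mul_choose_eq q k
        rw [hna, hL]
        have h2 : ((q : ℝ) + 1) * (q.choose k : ℝ) = ((q + 1).choose (k + 1) : ℝ) * ((k : ℝ) + 1) := by
          exact_mod_cast this
        linarith
      have r2 : ((k : ℝ) + 1) * (na + nb) = ((q : ℝ) + 2) * nb := by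
        have := Nat.add_one_mul_choose_eq (q + 1) k
        have h3 : (q + 1 + 1).choose (k + 1) = (q + 1).choose k + (q + 1).choose (k + 1) :=
          Nat.choose_succ_succ _ _
        rw [h3] at this
        rw [hna, hnb]
        have h2 : ((q : ℝ) + 1 + 1) * ((q + 1).choose k : ℝ) =
            (((q + 1).choose k : ℝ) + ((q + 1).choose (k + 1) : ℝ)) * ((k : ℝ) + 1) := by
          exact_mod_cast this
        linarith
      have r3 : (1 / na + 1 / nb) * L = ((q : ℝ) + 2) / ((q : ℝ) + 1) := by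
        have hk1 : (k : ℝ) + 1 ≠ 0 := by positivity
        have hq1 : (q : ℝ) + 1 ≠ 0 := by positivity
        have hL' : L = ((k : ℝ) + 1) * na / ((q : ℝ) + 1) := by
          rw [eq_div_iff hq1]; linarith
        rw [hL']
        have : (1 / na + 1 / nb) * (((k : ℝ) + 1) * na / ((q : ℝ) + 1)) =
            (((k : ℝ) + 1) * (na + nb)) / (nb * ((q : ℝ) + 1)) := by
          field_simp
          ring
        rw [this, r2]
        field_simp
      have r4 : (1 / na + 1 / nb) * ∑ w ∈ M, b w ^ 2 ≤ ((q : ℝ) + 2) / ((q : ℝ) + 1) * Q := by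
        have h5 : 0 ≤ 1 / na + 1 / nb := by positivity
        calc (1 / na + 1 / nb) * ∑ w ∈ M, b w ^ 2 ≤ (1 / na + 1 / nb) * (L * Q) :=
              mul_le_mul_of_nonneg_left hl h5
          _ = ((1 / na + 1 / nb) * L) * Q := by ring
          _ = _ := by rw [r3]
      have hq' : (0 : ℝ) < q := by exact_mod_cast hq
      have r5 : ((q : ℝ) + 1) * ((((q : ℝ) + 2) / ((q : ℝ) + 1)) * Q) = ((q : ℝ) + 2) * Q := by
        field_simp
      have r6 : (((q : ℝ) + 1) + 1 - 2) * En M (k + 1) ψ ≥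
          ((q : ℝ) + 1) * (((q : ℝ) + 2) * Q) - ((q : ℝ) + 2) * Q := by
        have h7 := mul_le_mul_of_nonneg_left r4 (by positivity : (0 : ℝ) ≤ (q : ℝ) + 1)
        rw [r5] at h7
        push_cast at hsum
        unfold En
        nlinarith
      have r7 : (q : ℝ) * (((q : ℝ) + 2) * Q) ≤ (q : ℝ) * En M (k + 1) ψ := by nlinarith
      have r8 := le_of_mul_le_mul_left r7 hq'
      push_cast
      linarith

/-! ### pairs -/

lemma sp_sq (c e : γ) (y : Finset γ) : sp c e y * sp c e y = sp c e y := by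
  unfold sp; split_ifs <;> simp

lemma sp_self (c : γ) (y : Finset γ) : sp c c y = 0 := by
  rw [sp_eq, X_sq]; ring

/-- half the number of sets separating two points -/
noncomputable def n1 (M : Finset γ) (k : ℕ) : ℝ := (Nn M.card k 1 : ℝ) - (Nn M.card k 2 : ℝ)

lemma sum_sp {M : Finset γ} (k : ℕ) {c e : γ} (hc : c ∈ M) (he : e ∈ M) (h : c ≠ e) :
    ∑ y ∈ M.powersetCard k, sp c e y = 2 * n1 M k := by
  have e1 : ∀ y, sp c e y = X c y + X e y - 2 * (X c y * X e y) := sp_eq c e
  simp only [e1]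
  rw [Finset.sum_sub_distrib, Finset.sum_add_distrib, ← Finset.mul_sum, sum_X1 k hc, sum_X1 k he,
    sum_X2 k hc he h]
  unfold n1
  ring

lemma sum_sp_one {M : Finset γ} (k : ℕ) {c e f : γ} (hc : c ∈ M) (he : e ∈ M) (hf : f ∈ M)
    (h1 : c ≠ e) (h2 : c ≠ f) (h3 : e ≠ f) :
    ∑ y ∈ M.powersetCard k, sp c e y * sp c f y = n1 M k := by
  have e1 : ∀ y, sp c e y * sp c f y = X c y - X c y * X f y - X c y * X e y + X e y * X f y := by
    intro y
    rw [sp_eq, sp_eq]
    linear_combination (1 - 2 * X e y) * (1 - 2 * X f y) * X_sq c y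
  simp only [e1]
  rw [Finset.sum_add_distrib, Finset.sum_sub_distrib, Finset.sum_sub_distrib, sum_X1 k hc,
    sum_X2 k hc he h1, sum_X2 k hc hf h2, sum_X2 k he hf h3]
  unfold n1
  ring

lemma sum_sp_two {M : Finset γ} (k : ℕ) {c e f g : γ} (hc : c ∈ M) (he : e ∈ M) (hf : f ∈ M)
    (hg : g ∈ M) (h1 : c ≠ e) (h2 : c ≠ f) (h3 : c ≠ g) (h4 : e ≠ f) (h5 : e ≠ g) (h6 : f ≠ g) :
    ∑ y ∈ M.powersetCard k, sp c e y * sp f g y =
      4 * (Nn M.card k 2 : ℝ) - 8 * (Nn M.card k 3 : ℝ) + 4 * (Nn M.card k 4 : ℝ) := by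
  have e1 : ∀ y, sp c e y * sp f g y =
      X c y * X f y + X c y * X g y + X e y * X f y + X e y * X g y -
      2 * (X c y * (X f y * X g y)) - 2 * (X e y * (X f y * X g y)) -
      2 * (X c y * (X e y * X f y)) - 2 * (X c y * (X e y * X g y)) +
      4 * (X c y * (X e y * (X f y * X g y))) := by
    intro y
    rw [sp_eq, sp_eq]
    ring
  simp only [e1]
  rw [Finset.sum_add_distrib, Finset.sum_sub_distrib, Finset.sum_sub_distrib,
    Finset.sum_sub_distrib, Finset.sum_sub_distrib, Finset.sum_add_distrib, Finset.sum_add_distrib,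
    Finset.sum_add_distrib, ← Finset.mul_sum, ← Finset.mul_sum, ← Finset.mul_sum,
    ← Finset.mul_sum, ← Finset.mul_sum, sum_X2 k hc hf h2, sum_X2 k hc hg h3, sum_X2 k he hf h4,
    sum_X2 k he hg h5, sum_X3 k hc hf hg h2 h3 h6, sum_X3 k he hf hg h4 h5 h6,
    sum_X3 k hc he hf h1 h2 h4, sum_X3 k hc he hg h1 h3 h5, sum_X4 k hc he hf hg h1 h2 h3 h4 h5 h6]
  ring

lemma exists_n2 (M : Finset γ) (k : ℕ) (h0 : 0 ≤ n1 M k) : ∃ n2 : ℝ, 0 ≤ n2 ∧ n2 ≤ 2 * n1 M k ∧
    ∀ c e f g : γ, c ∈ M → e ∈ M → f ∈ M → g ∈ M → c ≠ e → c ≠ f → c ≠ g → e ≠ f → e ≠ g → f ≠ g →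
      ∑ y ∈ M.powersetCard k, sp c e y * sp f g y = n2 := by
  by_cases h : ∃ c e f g : γ, c ∈ M ∧ e ∈ M ∧ f ∈ M ∧ g ∈ M ∧ c ≠ e ∧ c ≠ f ∧ c ≠ g ∧ e ≠ f ∧
      e ≠ g ∧ f ≠ g
  · obtain ⟨c, e, f, g, hc, he, hf, hg, h1, h2, h3, h4, h5, h6⟩ := h
    have hs := sum_sp_two k hc he hf hg h1 h2 h3 h4 h5 h6
    refine ⟨_, ?_, ?_, fun c e f g hc he hf hg h1 h2 h3 h4 h5 h6 =>
      sum_sp_two k hc he hf hg h1 h2 h3 h4 h5 h6⟩
    · rw [← hs]
      refine Finset.sum_nonneg fun y _ => ?_
      unfold sp; split_ifs <;> simp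
    · rw [← hs, ← sum_sp k hc he h1]
      refine Finset.sum_le_sum fun y _ => ?_
      unfold sp; split_ifs <;> simp
  · refine ⟨0, le_rfl, by linarith, fun c e f g hc he hf hg h1 h2 h3 h4 h5 h6 => ?_⟩
    exact absurd ⟨c, e, f, g, hc, he, hf, hg, h1, h2, h3, h4, h5, h6⟩ h

noncomputable def dl (a b : γ) : ℝ := if a = b then 1 else 0

lemma dl_self (a : γ) : dl a a = 1 := if_pos rfl

lemma dl_ne {a b : γ} (h : a ≠ b) : dl a b = 0 := if_neg h

lemma K_eq {M : Finset γ} {k : ℕ} {n2 : ℝ} (h2 : ∀ c e f g : γ, c ∈ M → e ∈ M → f ∈ M → g ∈ M →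
      c ≠ e → c ≠ f → c ≠ g → e ≠ f → e ≠ g → f ≠ g →
      ∑ y ∈ M.powersetCard k, sp c e y * sp f g y = n2) {c e c' e' : γ} (hc : c ∈ M) (he : e ∈ M)
    (hc' : c' ∈ M) (he' : e' ∈ M) (h : c ≠ e) (h' : c' ≠ e') :
    ∑ y ∈ M.powersetCard k, sp c e y * sp c' e' y =
      n2 + (n1 M k - n2) * (dl c c' + dl c e' + dl e c' + dl e e') +
        n2 * (dl c c' * dl e e' + dl c e' * dl e c') := by
  by_cases a1 : c = c'
  · subst a1
    by_cases a2 : e = e'
    · subst a2
      simp only [sp_sq]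
      rw [sum_sp k hc he h, dl_self, dl_self, dl_ne h, dl_ne h.symm]
      ring
    · rw [sum_sp_one k hc he he' h h' a2, dl_self, dl_ne h', dl_ne h.symm, dl_ne a2]
      ring
  · by_cases a3 : c = e'
    · subst a3
      by_cases a4 : e = c'
      · subst a4
        simp only [sp_comm e c, sp_sq]
        rw [sum_sp k hc he h, dl_self, dl_self, dl_ne h, dl_ne h.symm]
        ring
      · simp only [sp_comm c' c]
        rw [sum_sp_one k hc he hc' h a1 a4, dl_self, dl_ne a1, dl_ne a4, dl_ne h.symm]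
        ring
    · by_cases a5 : e = c'
      · subst a5
        simp only [sp_comm c e]
        rw [sum_sp_one k he hc he' h.symm h' a3, dl_self, dl_ne h, dl_ne a3, dl_ne h']
        ring
      · by_cases a6 : e = e'
        · subst a6
          simp only [sp_comm c e, sp_comm c' e]
          rw [sum_sp_one k he hc hc' h.symm h'.symm a1, dl_self, dl_ne a1, dl_ne h, dl_ne a5]
          ring
        · rw [h2 c e c' e' hc he hc' he' h a1 a3 a5 a6 h', dl_ne a1, dl_ne a3, dl_ne a5, dl_ne a6]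
          ring

omit [DecidableEq γ] in
/-- symmetric arrays with zero diagonal and zero total sum -/
lemma Q_le {M : Finset γ} {β : γ → γ → ℝ} (hsym : ∀ c e, β c e = β e c) (hd : ∀ c, β c c = 0)
    (h0 : ∑ c ∈ M, ∑ e ∈ M, β c e = 0) (hm : 3 ≤ M.card) :
    2 * ∑ c ∈ M, (∑ e ∈ M, β c e) ^ 2 ≤
      ((M.card : ℝ) - 2) * ∑ c ∈ M, ∑ e ∈ M, β c e ^ 2 := by
  set E : γ → ℝ := fun c => ∑ e ∈ M, β c e with hE
  set Q := ∑ c ∈ M, E c ^ 2 with hQ
  set B := ∑ c ∈ M, ∑ e ∈ M, β c e ^ 2 with hB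
  set t : ℝ := (M.card : ℝ) - 2 with ht
  have hm' : (3 : ℝ) ≤ M.card := by exact_mod_cast hm
  have ht0 : 0 < t := by rw [ht]; linarith
  have hE0 : ∑ c ∈ M, E c = 0 := h0
  have e1 : ∑ c ∈ M, ∑ e ∈ M, (t * β c e - (E c + E e)) ^ 2 =
      t ^ 2 * B - 4 * t * Q + 2 * (t + 2) * Q := by
    have h1 : ∀ c ∈ M, ∑ e ∈ M, (t * β c e - (E c + E e)) ^ 2 =
        t ^ 2 * (∑ e ∈ M, β c e ^ 2) - 2 * t * (E c ^ 2) - 2 * t * (∑ e ∈ M, β c e * E e) +
          (t + 2) * E c ^ 2 + 2 * E c * (∑ e ∈ M, E e) + Q := by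
      intro c _
      have h2 : ∀ e, (t * β c e - (E c + E e)) ^ 2 =
          t ^ 2 * β c e ^ 2 - (2 * t * E c) * β c e - (2 * t) * (β c e * E e) + E c ^ 2 +
            (2 * E c) * E e + E e ^ 2 := fun e => by ring
      simp only [h2]
      rw [Finset.sum_add_distrib, Finset.sum_add_distrib, Finset.sum_add_distrib,
        Finset.sum_sub_distrib, Finset.sum_sub_distrib, ← Finset.mul_sum, ← Finset.mul_sum,
        ← Finset.mul_sum, ← Finset.mul_sum, Finset.sum_const, nsmul_eq_mul]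
      have h3 : ∑ e ∈ M, β c e = E c := rfl
      rw [h3]
      have h4 : (M.card : ℝ) = t + 2 := by rw [ht]; ring
      rw [h4, ← hQ]
      ring
    rw [Finset.sum_congr rfl h1, hE0]
    simp only [mul_zero, add_zero]
    rw [Finset.sum_add_distrib, Finset.sum_add_distrib, Finset.sum_sub_distrib,
      Finset.sum_sub_distrib, ← Finset.mul_sum, ← Finset.mul_sum, ← Finset.mul_sum,
      ← Finset.mul_sum, Finset.sum_const, nsmul_eq_mul]
    have h5 : ∑ c ∈ M, ∑ e ∈ M, β c e * E e = Q := by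
      rw [Finset.sum_comm]
      refine Finset.sum_congr rfl fun e _ => ?_
      rw [← Finset.sum_mul]
      have : ∑ c ∈ M, β c e = E e := Finset.sum_congr rfl fun c _ => hsym c e
      rw [this, sq]
    have h4 : (M.card : ℝ) = t + 2 := by rw [ht]; ring
    rw [h5, h4, ← hB, ← hQ]
    ring
  have e2 : ∑ c ∈ M, (4 * E c ^ 2) ≤ ∑ c ∈ M, ∑ e ∈ M, (t * β c e - (E c + E e)) ^ 2 := by
    refine Finset.sum_le_sum fun c hc => ?_
    have h1 := Finset.single_le_sum (f := fun e => (t * β c e - (E c + E e)) ^ 2)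
      (fun e _ => sq_nonneg _) hc
    refine le_trans (le_of_eq ?_) h1
    simp only [hd]
    ring
  rw [← Finset.mul_sum, ← hQ, e1] at e2
  have e3 : t * (2 * Q) ≤ t * (t * B) := by nlinarith
  exact le_of_mul_le_mul_left e3 ht0

lemma n1_nonneg {M : Finset γ} (k : ℕ) {c e : γ} (hc : c ∈ M) (he : e ∈ M) (h : c ≠ e) :
    0 ≤ n1 M k := by
  have h1 := sum_sp k hc he h
  have h2 : 0 ≤ ∑ y ∈ M.powersetCard k, sp c e y := Finset.sum_nonneg fun y _ => by
    unfold sp; split_ifs <;> simp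
  linarith

lemma beta_sum (M : Finset γ) (k : ℕ) (φ : Finset γ → ℝ)
    (hφ : ∑ y ∈ M.powersetCard k, φ y = 0) :
    ∑ c ∈ M, ∑ e ∈ M, ∑ z ∈ M.powersetCard k, φ z * sp c e z = 0 := by
  have h1 : ∀ z ∈ M.powersetCard k, ∑ c ∈ M, ∑ e ∈ M, φ z * sp c e z =
      (2 * (M.card : ℝ) * k - 2 * k ^ 2) * φ z := by
    intro z hz
    have hX : ∑ c ∈ M, X c z = (k : ℝ) := by
      unfold X
      rw [Finset.sum_ite_mem, Finset.inter_eq_right.2 (Finset.mem_powersetCard.1 hz).1,
        Finset.sum_const, (Finset.mem_powersetCard.1 hz).2]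
      simp
    have h2 : ∀ c e, φ z * sp c e z = φ z * X c z + φ z * X e z - 2 * φ z * X c z * X e z := by
      intro c e
      rw [sp_eq]; ring
    simp only [h2, Finset.sum_sub_distrib, Finset.sum_add_distrib, ← Finset.mul_sum,
      Finset.sum_const, nsmul_eq_mul, hX, ← Finset.sum_mul]
    ring
  have h3 : ∑ c ∈ M, ∑ e ∈ M, ∑ z ∈ M.powersetCard k, φ z * sp c e z =
      ∑ z ∈ M.powersetCard k, ∑ c ∈ M, ∑ e ∈ M, φ z * sp c e z := by
    rw [Finset.sum_comm]
    have : ∀ c ∈ M, ∑ e ∈ M, ∑ z ∈ M.powersetCard k, φ z * sp c e z = ∑ z ∈ M.powersetCard k, ∑ e ∈ M, φ z * sp c e z :=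
      fun c _ => Finset.sum_comm
    rw [Finset.sum_comm, Finset.sum_congr rfl this, Finset.sum_comm]
  rw [h3, Finset.sum_congr rfl h1, ← Finset.mul_sum, hφ, mul_zero]

/-- Gram bound for pairs -/
lemma level_two (M : Finset γ) (k : ℕ) (φ : Finset γ → ℝ)
    (hφ : ∑ y ∈ M.powersetCard k, φ y = 0) (hm : 3 ≤ M.card) (hn : 0 ≤ n1 M k) :
    ∑ i ∈ M ×ˢ M, (∑ z ∈ M.powersetCard k, φ z * sp i.1 i.2 z) ^ 2 ≤
      (2 * M.card * n1 M k) * ∑ y ∈ M.powersetCard k, φ y ^ 2 := by
  refine gram (M ×ˢ M) (M.powersetCard k) φ (fun i => sp i.1 i.2) _ (by positivity) ?_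
  set β : γ → γ → ℝ := fun c e => ∑ z ∈ M.powersetCard k, φ z * sp c e z with hβ
  have hsym : ∀ c e, β c e = β e c := fun c e => by
    rw [hβ]; simp only [sp_comm c e]
  have hd : ∀ c, β c c = 0 := fun c => by
    rw [hβ]; simp only [sp_self, mul_zero, Finset.sum_const_zero]
  have h0 : ∑ c ∈ M, ∑ e ∈ M, β c e = 0 := beta_sum M k φ hφ
  obtain ⟨n2, hn0, hn2, hK⟩ := exists_n2 M k hn
  set E : γ → ℝ := fun c => ∑ e ∈ M, β c e with hE
  set Q := ∑ c ∈ M, E c ^ 2 with hQ
  set B := ∑ c ∈ M, ∑ e ∈ M, β c e ^ 2 with hB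
  -- the Gram matrix
  have g1 : ∑ y ∈ M.powersetCard k, (∑ i ∈ M ×ˢ M, β i.1 i.2 * sp i.1 i.2 y) ^ 2 =
      ∑ c ∈ M, ∑ e ∈ M, ∑ c' ∈ M, ∑ e' ∈ M, β c e * β c' e' *
        ∑ y ∈ M.powersetCard k, sp c e y * sp c' e' y := by
    have e0 : ∀ y, (∑ i ∈ M ×ˢ M, β i.1 i.2 * sp i.1 i.2 y) ^ 2 =
        ∑ c ∈ M, ∑ e ∈ M, ∑ c' ∈ M, ∑ e' ∈ M, β c e * β c' e' * (sp c e y * sp c' e' y) := by
      intro y
      rw [Finset.sum_product, sq, Finset.sum_mul]
      refine Finset.sum_congr rfl fun c _ => ?_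
      rw [Finset.sum_mul]
      refine Finset.sum_congr rfl fun e _ => ?_
      rw [Finset.mul_sum]
      refine Finset.sum_congr rfl fun c' _ => ?_
      rw [Finset.mul_sum]
      refine Finset.sum_congr rfl fun e' _ => ?_
      ring
    simp only [e0]
    rw [Finset.sum_comm]
    refine Finset.sum_congr rfl fun c _ => ?_
    rw [Finset.sum_comm]
    refine Finset.sum_congr rfl fun e _ => ?_
    rw [Finset.sum_comm]
    refine Finset.sum_congr rfl fun c' _ => ?_
    rw [Finset.sum_comm]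
    refine Finset.sum_congr rfl fun e' _ => ?_
    exact (Finset.mul_sum _ _ _).symm
  have g2 : ∀ c ∈ M, ∀ e ∈ M, ∑ c' ∈ M, ∑ e' ∈ M, β c e * β c' e' *
        ∑ y ∈ M.powersetCard k, sp c e y * sp c' e' y =
      β c e * ((n1 M k - n2) * (2 * (E c + E e)) + 2 * n2 * β c e) := by
    intro c hc e he
    by_cases hce : c = e
    · subst hce
      simp only [hd, zero_mul, Finset.sum_const_zero]
    have t0 : ∀ c' ∈ M, ∀ e' ∈ M, β c e * β c' e' *
        ∑ y ∈ M.powersetCard k, sp c e y * sp c' e' y =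
        β c e * (n2 * β c' e' + (n1 M k - n2) * (β c' e' * dl c c' + β c' e' * dl c e' +
          β c' e' * dl e c' + β c' e' * dl e e') + n2 * (β c' e' * (dl c c' * dl e e') +
            β c' e' * (dl c e' * dl e c'))) := by
      intro c' hc' e' he'
      by_cases hce' : c' = e'
      · subst hce'
        rw [hd]; ring
      · rw [K_eq hK hc he hc' he' hce hce']
        ring
    rw [Finset.sum_congr rfl fun c' hc' => Finset.sum_congr rfl fun e' he' => t0 c' hc' e' he']
    simp only [← Finset.mul_sum, Finset.sum_add_distrib]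
    have u1 : ∀ a ∈ M, ∑ c' ∈ M, ∑ e' ∈ M, β c' e' * dl a c' = E a := by
      intro a ha
      have : ∀ c' ∈ M, ∑ e' ∈ M, β c' e' * dl a c' = E c' * dl a c' := fun c' _ => by
        rw [← Finset.sum_mul]
      rw [Finset.sum_congr rfl this]
      unfold dl
      simp [ha]
    have u2 : ∀ a ∈ M, ∑ c' ∈ M, ∑ e' ∈ M, β c' e' * dl a e' = E a := by
      intro a ha
      rw [Finset.sum_comm, ← u1 a ha]
      refine Finset.sum_congr rfl fun c' _ => Finset.sum_congr rfl fun e' _ => ?_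
      rw [hsym]
    have u3 : ∀ a ∈ M, ∀ b ∈ M, ∑ c' ∈ M, ∑ e' ∈ M, β c' e' * (dl a c' * dl b e') = β a b := by
      intro a ha b hb
      unfold dl
      simp [ha, hb]
    have u4 : ∑ c' ∈ M, ∑ e' ∈ M, β c' e' * (dl c e' * dl e c') = β c e := by
      rw [hsym c e, ← u3 e he c hc]
      refine Finset.sum_congr rfl fun c' _ => Finset.sum_congr rfl fun e' _ => ?_
      ring
    rw [u1 c hc, u1 e he, u2 c hc, u2 e he, u3 c hc e he, u4, h0]
    ring
  have g3 : ∑ y ∈ M.powersetCard k, (∑ i ∈ M ×ˢ M, β i.1 i.2 * sp i.1 i.2 y) ^ 2 =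
      4 * (n1 M k - n2) * Q + 2 * n2 * B := by
    rw [g1, Finset.sum_congr rfl fun c hc => Finset.sum_congr rfl fun e he => g2 c hc e he]
    have e1 : ∀ c e, β c e * ((n1 M k - n2) * (2 * (E c + E e)) + 2 * n2 * β c e) =
        (2 * (n1 M k - n2)) * (β c e * E c) + (2 * (n1 M k - n2)) * (β c e * E e) +
          (2 * n2) * β c e ^ 2 := fun c e => by ring
    simp only [e1, Finset.sum_add_distrib, ← Finset.mul_sum]
    have h5 : ∑ c ∈ M, ∑ e ∈ M, β c e * E e = Q := by
      rw [Finset.sum_comm]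
      refine Finset.sum_congr rfl fun e _ => ?_
      rw [← Finset.sum_mul]
      have : ∑ c ∈ M, β c e = E e := Finset.sum_congr rfl fun c _ => hsym c e
      rw [this, sq]
    have h6 : ∑ c ∈ M, ∑ e ∈ M, β c e * E c = Q := by
      refine Finset.sum_congr rfl fun c _ => ?_
      rw [← Finset.sum_mul, sq]
    rw [h5, h6]
    ring
  have hBB : ∑ i ∈ M ×ˢ M, β i.1 i.2 ^ 2 = B := by rw [Finset.sum_product]
  change ∑ y ∈ M.powersetCard k, (∑ i ∈ M ×ˢ M, β i.1 i.2 * sp i.1 i.2 y) ^ 2 ≤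
    (2 * M.card * n1 M k) * ∑ i ∈ M ×ˢ M, β i.1 i.2 ^ 2
  rw [g3, hBB]
  have hQB := Q_le hsym hd h0 hm
  have hB0 : 0 ≤ B := Finset.sum_nonneg fun _ _ => Finset.sum_nonneg fun _ _ => sq_nonneg _
  have hQ0 : 0 ≤ Q := Finset.sum_nonneg fun _ _ => sq_nonneg _
  have hm' : (3 : ℝ) ≤ M.card := by exact_mod_cast hm
  change 2 * Q ≤ ((M.card : ℝ) - 2) * B at hQB
  rcases le_total n2 (n1 M k) with h | h
  · have h1 : 4 * (n1 M k - n2) * Q ≤ 2 * (n1 M k - n2) * (((M.card : ℝ) - 2) * B) := by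
      nlinarith [mul_le_mul_of_nonneg_left hQB (by linarith : 0 ≤ 2 * (n1 M k - n2))]
    have h2 : 0 ≤ n2 * ((M.card : ℝ) - 3) * B := by
      have : (0 : ℝ) ≤ (M.card : ℝ) - 3 := by linarith
      positivity
    have h3 : 0 ≤ n1 M k * B := mul_nonneg hn hB0
    nlinarith
  · have h1 : 4 * (n1 M k - n2) * Q ≤ 0 := by
      have : 0 ≤ (n2 - n1 M k) * Q := mul_nonneg (by linarith) hQ0
      nlinarith
    have h2 : n2 * B ≤ 2 * n1 M k * B := mul_le_mul_of_nonneg_right hn2 hB0
    have h3 : 0 ≤ n1 M k * B := mul_nonneg hn hB0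
    have h4 : 3 * (n1 M k * B) ≤ (M.card : ℝ) * (n1 M k * B) :=
      mul_le_mul_of_nonneg_right hm' h3
    nlinarith

lemma card_sep (M : Finset γ) (k : ℕ) {c e : γ} (hc : c ∈ M) (he : e ∈ M) (h : c ≠ e) :
    (((M.powersetCard k).filter (sep c e)).card : ℝ) = 2 * n1 M k := by
  rw [← sum_sp k hc he h]
  unfold sp
  rw [← Finset.sum_filter, Finset.sum_const]
  simp

lemma wi_zero (M : Finset γ) (k : ℕ) (φ : Finset γ → ℝ)
    (hφ : ∑ y ∈ M.powersetCard k, φ y = 0) :
    ∑ ce ∈ M.offDiag, (∑ z ∈ M.powersetCard k, φ z * sp ce.1 ce.2 z) ^ 2 / (2 * n1 M k) ≤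
      (M.card : ℝ) * ∑ y ∈ M.powersetCard k, φ y ^ 2 := by
  have hR : 0 ≤ (M.card : ℝ) * ∑ y ∈ M.powersetCard k, φ y ^ 2 := by positivity
  by_cases hm : 3 ≤ M.card
  · obtain ⟨c, hc, e, he, hce⟩ : ∃ c ∈ M, ∃ e ∈ M, c ≠ e :=
      Finset.one_lt_card.1 (by omega)
    have hn := n1_nonneg k hc he hce
    rcases hn.eq_or_lt with h0 | h0
    · rw [← h0]
      simpa using hR
    · have h1 := level_two M k φ hφ hm hn
      rw [← Finset.sum_div, div_le_iff₀ (by linarith)]
      have h2 : ∑ ce ∈ M.offDiag, (∑ z ∈ M.powersetCard k, φ z * sp ce.1 ce.2 z) ^ 2 ≤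
          ∑ i ∈ M ×ˢ M, (∑ z ∈ M.powersetCard k, φ z * sp i.1 i.2 z) ^ 2 := by
        refine Finset.sum_le_sum_of_subset_of_nonneg ?_ fun _ _ _ => sq_nonneg _
        intro ce hce
        rw [Finset.mem_offDiag] at hce
        exact Finset.mem_product.2 ⟨hce.1, hce.2.1⟩
      refine h2.trans (h1.trans (le_of_eq ?_))
      ring
  · refine le_trans (le_of_eq ?_) hR
    refine Finset.sum_eq_zero fun ce hce => ?_
    rw [Finset.mem_offDiag] at hce
    obtain ⟨hc, he, hne⟩ := hce
    have hM : M = {ce.1, ce.2} := by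
      symm
      refine Finset.eq_of_subset_of_card_le ?_ ?_
      · intro a ha
        simp only [mem_insert, mem_singleton] at ha
        rcases ha with rfl | rfl <;> assumption
      · rw [Finset.card_pair hne]; omega
    have h0 := beta_sum M k φ hφ
    have hz : ∑ z ∈ M.powersetCard k, φ z * sp ce.1 ce.2 z = 0 := by
      have h3 : ∀ F : γ → ℝ, ∑ c ∈ M, F c = F ce.1 + F ce.2 := by
        intro F
        conv_lhs => rw [hM]
        rw [Finset.sum_pair hne]
      rw [h3, h3, h3] at h0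
      simp only [sp_self, mul_zero, Finset.sum_const_zero, sp_comm ce.2 ce.1] at h0
      linarith
    rw [hz]; simp

end

end Crest.Agent.SW.Slice

namespace Crest.Agent.SW

open Finset Slice

/-- module SLICE -/
theorem sliceStmt : SliceStmt := by
  intro γ _ M k φ
  constructor
  · have h := pj M.card M rfl k φ
    rw [var_eq]
    exact h
  · set S := M.powersetCard k with hS
    set μ := (∑ z ∈ S, φ z) / (S.card : ℝ) with hμ
    set ψ : Finset γ → ℝ := fun y => φ y - μ with hψ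
    rcases S.eq_empty_or_nonempty with hE | hE
    · rw [hE]
      simp
    have hNpos : (0 : ℝ) < S.card := by exact_mod_cast Finset.card_pos.2 hE
    have hψ0 : ∑ y ∈ S, ψ y = 0 := by
      rw [hψ, Finset.sum_sub_distrib, Finset.sum_const, nsmul_eq_mul, hμ]
      field_simp
      ring
    refine le_trans (le_of_eq ?_) (wi_zero M k ψ hψ0)
    refine Finset.sum_congr rfl fun ce hce => ?_
    rw [Finset.mem_offDiag] at hce
    obtain ⟨hc, he, hne⟩ := hce
    rw [Finset.sum_const, nsmul_eq_mul, ← card_sep M k hc he hne]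
    set P := S.filter (sep ce.1 ce.2) with hP
    have h1 : ∑ z ∈ S, ψ z * sp ce.1 ce.2 z = ∑ z ∈ P, φ z - (P.card : ℝ) * μ := by
      unfold sp
      simp only [mul_ite, mul_one, mul_zero]
      rw [← Finset.sum_filter, ← hP, hψ, Finset.sum_sub_distrib, Finset.sum_const, nsmul_eq_mul]
    rw [h1]
    rcases P.eq_empty_or_nonempty with h0 | h0
    · rw [h0]; simp
    · have h2 : (P.card : ℝ) ≠ 0 := by exact_mod_cast (Finset.card_pos.2 h0).ne'
      field_simp

end Crest.Agent.SW
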