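import Crest.Agent.SWAv

/-! Module THREE (row 299, S0453): the three-row system has no eigenvalue in `(2,3)`. -/

set_option linter.unusedSectionVars false

namespace Crest.Agent.SW.Three
open Finset

theorem spec {E : Type*} [NormedAddCommGroup E] [InnerProductSpace ℝ E] [FiniteDimensional ℝ E]
    (T : E →ₗ[ℝ] E) (hT : T.IsSymmetric)
    (h : ∀ μ : ℝ, 0 < μ → μ < 1 → ∀ v : E, T v = μ • v → v = 0) (f : E) :
    inner ℝ (T f) f ≤ inner ℝ (T f) (T f) := by
  classical
  let b := hT.eigenvectorBasis (n := Module.finrank ℝ E) rfl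
  have hb : ∀ v i, b.repr (T v) i = hT.eigenvalues rfl i * b.repr v i := by
    intro v i
    have := hT.eigenvectorBasis_apply_self_apply rfl v i
    simpa using this
  have hin : ∀ u v : E, inner ℝ u v = ∑ i, b.repr v i * b.repr u i := by
    intro u v
    rw [← b.repr.inner_map_map u v, PiLp.inner_apply]
    rfl
  rw [hin, hin]
  apply Finset.sum_le_sum
  intro i _
  rw [hb]
  have hTb : T (b i) = (hT.eigenvalues rfl i) • (b i) := by
    have := hT.apply_eigenvectorBasis (n := Module.finrank ℝ E) rfl i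
    exact this
  have hμ : hT.eigenvalues (n := Module.finrank ℝ E) rfl i ≤ (hT.eigenvalues rfl i) ^ 2 := by
    by_contra hcon
    have hcon := not_le.1 hcon
    have h0 : 0 < hT.eigenvalues (n := Module.finrank ℝ E) rfl i := by
      nlinarith [sq_nonneg (hT.eigenvalues (n := Module.finrank ℝ E) rfl i)]
    have h1 : hT.eigenvalues (n := Module.finrank ℝ E) rfl i < 1 := by
      nlinarith [sq_nonneg (hT.eigenvalues (n := Module.finrank ℝ E) rfl i)]
    have := h _ h0 h1 (b i) hTb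
    have hn := b.orthonormal.ne_zero i
    exact hn this
  nlinarith [mul_nonneg (sub_nonneg.mpr hμ) (sq_nonneg (b.repr f i))]

lemma spec_ambient {α : Type*} (Ω : Finset α) (L : (α → ℝ) → α → ℝ)
    (hadd : ∀ f g x, L (fun y => f y + g y) x = L f x + L g x)
    (hsmul : ∀ (c : ℝ) f x, L (fun y => c * f y) x = c * L f x)
    (hloc : ∀ f g, (∀ y ∈ Ω, f y = g y) → ∀ x ∈ Ω, L f x = L g x)
    (hsym : ∀ f g, ∑ x ∈ Ω, L f x * g x = ∑ x ∈ Ω, f x * L g x)
    (h : ∀ μ : ℝ, 0 < μ → μ < 1 → ∀ f, (∀ x ∈ Ω, L f x = μ * f x) → ∀ x ∈ Ω, f x = 0)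
    (f : α → ℝ) : ∑ x ∈ Ω, L f x * f x ≤ ∑ x ∈ Ω, L f x * L f x := by
  classical
  let ext : EuclideanSpace ℝ Ω → α → ℝ := fun v x => if hx : x ∈ Ω then v ⟨x, hx⟩ else 0
  have ext_in : ∀ v (x : Ω), ext v x = v x := by
    intro v x
    simp [ext]
  have ext_add : ∀ v w : EuclideanSpace ℝ Ω, ext (v + w) = fun y => ext v y + ext w y := by
    intro v w
    funext y
    simp only [ext]
    split_ifs <;> simp
  have ext_smul : ∀ (c : ℝ) (v : EuclideanSpace ℝ Ω), ext (c • v) = fun y => c * ext v y := by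
    intro c v
    funext y
    simp only [ext]
    split_ifs <;> simp
  let T : EuclideanSpace ℝ Ω →ₗ[ℝ] EuclideanSpace ℝ Ω :=
    { toFun := fun v => WithLp.toLp 2 (fun x : Ω => L (ext v) x)
      map_add' := by
        intro v w
        ext x
        simp only [ext_add, hadd, PiLp.add_apply]
      map_smul' := by
        intro c v
        ext x
        simp only [ext_smul, hsmul, PiLp.smul_apply, RingHom.id_apply, smul_eq_mul] }
  have hTapp : ∀ v (x : Ω), (T v) x = L (ext v) x := fun v x => rfl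
  have hin : ∀ u v : EuclideanSpace ℝ Ω, inner ℝ u v = ∑ x : Ω, u x * v x := by
    intro u v
    simp [PiLp.inner_apply, mul_comm]
  have hin2 : ∀ u v : EuclideanSpace ℝ Ω, inner ℝ u v = ∑ x ∈ Ω, ext u x * ext v x := by
    intro u v
    rw [hin, ← Finset.sum_coe_sort Ω]
    exact Finset.sum_congr rfl fun x _ => by rw [ext_in, ext_in]
  have hext : ∀ v, ∀ x ∈ Ω, ext (T v) x = L (ext v) x := by
    intro v x hx
    have := ext_in (T v) ⟨x, hx⟩
    rw [this, hTapp]
  have hTsym : T.IsSymmetric := by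
    intro u v
    rw [hin2, hin2]
    have e1 : ∑ x ∈ Ω, ext (T u) x * ext v x = ∑ x ∈ Ω, L (ext u) x * ext v x :=
      Finset.sum_congr rfl fun x hx => by rw [hext u x hx]
    have e2 : ∑ x ∈ Ω, ext u x * ext (T v) x = ∑ x ∈ Ω, ext u x * L (ext v) x :=
      Finset.sum_congr rfl fun x hx => by rw [hext v x hx]
    rw [e1, e2, hsym]
  have key := spec T hTsym (by
    intro μ h0 h1 v hv
    have h2 : ∀ x ∈ Ω, L (ext v) x = μ * ext v x := by
      intro x hx
      rw [← hext v x hx, hv, ext_smul]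
    have h3 := h μ h0 h1 (ext v) h2
    ext x
    have := h3 x x.2
    rw [ext_in] at this
    simpa using this) (WithLp.toLp 2 (fun x : Ω => f x))
  rw [hin2, hin2] at key
  have hf : ∀ x ∈ Ω, ext (WithLp.toLp 2 (fun x : Ω => f x)) x = f x := by
    intro x hx
    exact ext_in _ ⟨x, hx⟩
  have e1 : ∀ x ∈ Ω, ext (T (WithLp.toLp 2 (fun x : Ω => f x))) x = L f x := by
    intro x hx
    rw [hext _ x hx]
    exact hloc _ _ hf x hx
  have k1 : ∑ x ∈ Ω, ext (T (WithLp.toLp 2 (fun x : Ω => f x))) x * ext (WithLp.toLp 2 (fun x : Ω => f x)) x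
      = ∑ x ∈ Ω, L f x * f x :=
    Finset.sum_congr rfl fun x hx => by rw [e1 x hx, hf x hx]
  have k2 : ∑ x ∈ Ω, ext (T (WithLp.toLp 2 (fun x : Ω => f x))) x * ext (T (WithLp.toLp 2 (fun x : Ω => f x))) x
      = ∑ x ∈ Ω, L f x * L f x :=
    Finset.sum_congr rfl fun x hx => by rw [e1 x hx]
  rw [k1, k2] at key
  exact key


/-- double counting: pairs (y, z ∈ y) with |y| = a+1 vs pairs (y', z ∉ y') with |y'| = a -/
lemma dc {γ : Type*} [DecidableEq γ] (N : Finset γ) (a : ℕ) (G : Finset γ → γ → ℝ) :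
    ∑ y ∈ N.powersetCard (a + 1), ∑ z ∈ y, G y z =
      ∑ y ∈ N.powersetCard a, ∑ z ∈ N \ y, G (insert z y) z := by
  rw [Finset.sum_sigma', Finset.sum_sigma']
  refine Finset.sum_bij' (fun p _ => ⟨p.1.erase p.2, p.2⟩) (fun p _ => ⟨insert p.2 p.1, p.2⟩) ?_ ?_ ?_ ?_ ?_
  · rintro ⟨y, z⟩ h
    simp only [mem_sigma, mem_powersetCard] at h ⊢
    refine ⟨⟨(erase_subset _ _).trans h.1.1, ?_⟩, ?_⟩
    · rw [card_erase_of_mem h.2, h.1.2]; rfl
    · simp [h.1.1 h.2]
  · rintro ⟨y, z⟩ h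
    simp only [mem_sigma, mem_powersetCard, mem_sdiff] at h ⊢
    refine ⟨⟨insert_subset h.2.1 h.1.1, ?_⟩, mem_insert_self _ _⟩
    rw [card_insert_of_notMem h.2.2, h.1.2]
  · rintro ⟨y, z⟩ h
    simp only [mem_sigma, mem_powersetCard] at h
    simp [insert_erase h.2]
  · rintro ⟨y, z⟩ h
    simp only [mem_sigma, mem_powersetCard, mem_sdiff] at h
    simp [erase_insert h.2.2]
  · rintro ⟨y, z⟩ h
    simp only [mem_sigma, mem_powersetCard] at h
    simp [insert_erase h.2]

/-- a function on `a+1`-subsets as a double sum over `a`-subsets -/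
lemma dc1 {γ : Type*} [DecidableEq γ] (N : Finset γ) (a : ℕ) (U : Finset γ → ℝ) :
    ∑ y ∈ N.powersetCard (a + 1), U y =
      ∑ y ∈ N.powersetCard a, ∑ z ∈ N \ y, U (insert z y) / (a + 1) := by
  rw [← dc N a (fun y z => U y / (a + 1))]
  refine sum_congr rfl fun y hy => ?_
  rw [mem_powersetCard] at hy
  rw [sum_const, hy.2, nsmul_eq_mul]
  push_cast
  field_simp

lemma dc2 {γ : Type*} [DecidableEq γ] (N : Finset γ) (a : ℕ) (ha : a + 1 ≤ N.card) (V : Finset γ → ℝ) :
    ∑ y ∈ N.powersetCard a, V y =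
      ∑ y ∈ N.powersetCard (a + 1), ∑ z ∈ y, V (y.erase z) / (N.card - a : ℝ) := by
  have := dc N a (fun y z => V (y.erase z) / (N.card - a : ℝ))
  rw [this]
  refine sum_congr rfl fun y hy => ?_
  rw [mem_powersetCard] at hy
  have hc : (N \ y).card = N.card - a := by rw [card_sdiff_of_subset hy.1, hy.2]
  have h1 : ∀ z ∈ N \ y, V ((insert z y).erase z) / (N.card - a : ℝ) = V y / (N.card - a : ℝ) := by
    intro z hz
    rw [erase_insert (mem_sdiff.1 hz).2]
  rw [sum_congr rfl h1, sum_const, hc, nsmul_eq_mul, Nat.cast_sub (by omega)]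
  have : (0 : ℝ) < N.card - a := by
    have : ((a + 1 : ℕ) : ℝ) ≤ (N.card : ℝ) := by exact_mod_cast ha
    push_cast at this
    linarith
  field_simp

/-- decomposition of the sum over `a+1` subsets of `N ∪ {p,n}` -/
lemma split {γ : Type*} [DecidableEq γ] (N : Finset γ) (p n : γ) (hp : p ∉ N) (hn : n ∉ N) (hpn : p ≠ n)
    (a : ℕ) (ha : a ≤ N.card) (U : Finset γ → ℝ) :
    ∑ y ∈ (insert p (insert n N)).powersetCard (a + 1), U y =
      ∑ y ∈ N.powersetCard a, (∑ z ∈ N \ y, U (insert z y) / (a + 1) + U (insert p y) + U (insert n y)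
        + ∑ z ∈ y, U (insert p (insert n (y.erase z))) / (N.card - a + 1 : ℝ)) := by
  have hp' : p ∉ insert n N := by simp [hp, hpn]
  have split1 : ∀ (x : γ) (M : Finset γ) (hx : x ∉ M) (b : ℕ) (W : Finset γ → ℝ),
      ∑ y ∈ (insert x M).powersetCard (b + 1), W y =
        ∑ y ∈ M.powersetCard (b + 1), W y + ∑ y ∈ M.powersetCard b, W (insert x y) := by
    intro x M hx b W
    rw [powersetCard_succ_insert hx, sum_union, sum_image]
    · intro y hy y' hy' he
      have h1 := (mem_powersetCard.1 hy).1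
      have h2 := (mem_powersetCard.1 hy').1
      have e1 : y = (insert x y).erase x := (erase_insert fun h => hx (h1 h)).symm
      have e2 : y' = (insert x y').erase x := (erase_insert fun h => hx (h2 h)).symm
      rw [e1, e2, he]
    · rw [disjoint_left]
      intro y hy hy'
      rw [mem_image] at hy'
      obtain ⟨w, _, rfl⟩ := hy'
      exact hx ((mem_powersetCard.1 hy).1 (mem_insert_self _ _))
  rw [split1 p _ hp', split1 n _ hn, dc1]
  rcases Nat.eq_zero_or_pos a with rfl | hpos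
  · simp only [sum_add_distrib, powersetCard_zero, sum_singleton, sum_empty, insert_empty_eq]
    ring
  · obtain ⟨b, rfl⟩ : ∃ b, a = b + 1 := ⟨a - 1, by omega⟩
    rw [split1 n _ hn, dc2 N b ha (fun y => U (insert p (insert n y)))]
    simp only [sum_add_distrib]
    have : (N.card - ((b + 1 : ℕ) : ℝ) + 1 : ℝ) = N.card - b := by push_cast; ring
    rw [this]
    ring

lemma coupling {γ : Type*} [DecidableEq γ] (N : Finset γ) (p n : γ) (hp : p ∉ N) (hn : n ∉ N) (hpn : p ≠ n)
    (a : ℕ) (ha : a ≤ N.card) (U U' : Finset γ → ℝ) (B : ℝ)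
    (h1 : ∀ y ∈ N.powersetCard a, |U (insert p y) - U' y| ≤ B)
    (h2 : ∀ y ∈ N.powersetCard a, |U (insert n y) - U' y| ≤ B)
    (h3 : ∀ y ∈ N.powersetCard a, ∀ z ∈ y, |U (insert p (insert n (y.erase z))) - U' y| ≤ B)
    (h4 : ∀ y ∈ N.powersetCard a, ∀ z ∈ N \ y, |U (insert z y) - U' y| ≤ B) :
    |(∑ y ∈ (insert p (insert n N)).powersetCard (a + 1), U y) /
        (((insert p (insert n N)).powersetCard (a + 1)).card : ℝ)
      - (∑ y ∈ N.powersetCard a, U' y) / ((N.powersetCard a).card : ℝ)| ≤ B := by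
  have haR : (a : ℝ) ≤ N.card := by exact_mod_cast ha
  have hpos1 : (0 : ℝ) < a + 1 := by positivity
  have hpos2 : (0 : ℝ) < N.card - a + 1 := by linarith
  set R : ℝ := (N.card - a) / (a + 1) + 1 + 1 + a / (N.card - a + 1) with hR
  have hRpos : 0 < R := by
    have : 0 ≤ (N.card - a : ℝ) / (a + 1) := div_nonneg (by linarith) hpos1.le
    have : 0 ≤ (a : ℝ) / (N.card - a + 1) := div_nonneg (by positivity) hpos2.le
    rw [hR]; linarith
  have hD : 0 < (N.powersetCard a).card := by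
    rw [card_powersetCard]; exact Nat.choose_pos ha
  have hDR : (0 : ℝ) < ((N.powersetCard a).card : ℝ) := by exact_mod_cast hD
  have hcardsd : ∀ y ∈ N.powersetCard a, ((N \ y).card : ℝ) = N.card - a := by
    intro y hy
    rw [mem_powersetCard] at hy
    rw [card_sdiff_of_subset hy.1, hy.2, Nat.cast_sub ha]
  have hcard : ((((insert p (insert n N)).powersetCard (a + 1)).card : ℕ) : ℝ)
      = R * ((N.powersetCard a).card : ℝ) := by
    have := split N p n hp hn hpn a ha (fun _ => 1)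
    simp only [sum_const, nsmul_eq_mul, mul_one] at this
    rw [this]
    rw [sum_congr rfl (g := fun _ => R)]
    · rw [sum_const, nsmul_eq_mul, mul_comm]
    · intro y hy
      rw [hcardsd y hy, (mem_powersetCard.1 hy).2, hR]
      ring
  have hsum : |∑ y ∈ (insert p (insert n N)).powersetCard (a + 1), U y - R * ∑ y ∈ N.powersetCard a, U' y|
      ≤ R * ((N.powersetCard a).card : ℝ) * B := by
    rw [split N p n hp hn hpn a ha U, mul_sum, ← sum_sub_distrib]
    refine (abs_sum_le_sum_abs _ _).trans ?_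
    have : ∀ y ∈ N.powersetCard a, |∑ z ∈ N \ y, U (insert z y) / (a + 1) + U (insert p y) + U (insert n y)
        + ∑ z ∈ y, U (insert p (insert n (y.erase z))) / (N.card - a + 1 : ℝ) - R * U' y| ≤ R * B := by
      intro y hy
      have e1 : ∑ z ∈ N \ y, U (insert z y) / (a + 1) + U (insert p y) + U (insert n y)
        + ∑ z ∈ y, U (insert p (insert n (y.erase z))) / (N.card - a + 1 : ℝ) - R * U' y
        = ∑ z ∈ N \ y, (U (insert z y) - U' y) / (a + 1) + (U (insert p y) - U' y) + (U (insert n y) - U' y)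
          + ∑ z ∈ y, (U (insert p (insert n (y.erase z))) - U' y) / (N.card - a + 1 : ℝ) := by
        simp only [sub_div, sum_sub_distrib, sum_const, nsmul_eq_mul]
        rw [hcardsd y hy, (mem_powersetCard.1 hy).2, hR]
        ring
      rw [e1]
      have b1 : |∑ z ∈ N \ y, (U (insert z y) - U' y) / ((a : ℝ) + 1)| ≤ (N.card - a) / (a + 1) * B := by
        refine (abs_sum_le_sum_abs _ _).trans ?_
        refine (sum_le_sum (g := fun _ => B / ((a : ℝ) + 1)) ?_).trans ?_
        · intro z hz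
          rw [abs_div, abs_of_pos hpos1]
          exact div_le_div_of_nonneg_right (h4 y hy z hz) hpos1.le
        · rw [sum_const, nsmul_eq_mul, hcardsd y hy]
          apply le_of_eq; ring
      have b2 : |∑ z ∈ y, (U (insert p (insert n (y.erase z))) - U' y) / (N.card - a + 1 : ℝ)|
          ≤ a / (N.card - a + 1) * B := by
        refine (abs_sum_le_sum_abs _ _).trans ?_
        refine (sum_le_sum (g := fun _ => B / (N.card - a + 1 : ℝ)) ?_).trans ?_
        · intro z hz
          rw [abs_div, abs_of_pos hpos2]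
          exact div_le_div_of_nonneg_right (h3 y hy z hz) hpos2.le
        · rw [sum_const, nsmul_eq_mul, (mem_powersetCard.1 hy).2]
          apply le_of_eq; ring
      have b3 := h1 y hy
      have b4 := h2 y hy
      refine (abs_add_le _ _).trans ?_
      refine (add_le_add (abs_add_le _ _) le_rfl).trans ?_
      refine (add_le_add (add_le_add (abs_add_le _ _) le_rfl) le_rfl).trans ?_
      have : R * B = (N.card - a) / (a + 1) * B + B + B + a / (N.card - a + 1) * B := by rw [hR]; ring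
      rw [this]
      linarith
    refine (sum_le_sum this).trans ?_
    rw [sum_const, nsmul_eq_mul]
    apply le_of_eq; ring
  rw [hcard]
  have e2 : (∑ y ∈ (insert p (insert n N)).powersetCard (a + 1), U y) / (R * ((N.powersetCard a).card : ℝ))
      - (∑ y ∈ N.powersetCard a, U' y) / ((N.powersetCard a).card : ℝ)
      = (∑ y ∈ (insert p (insert n N)).powersetCard (a + 1), U y - R * ∑ y ∈ N.powersetCard a, U' y)
        / (R * ((N.powersetCard a).card : ℝ)) := by
    field_simp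
  rw [e2, abs_div, abs_of_pos (by positivity : 0 < R * ((N.powersetCard a).card : ℝ)), div_le_iff₀ (by positivity)]
  linarith


lemma Av_equivar {α β : Type*} [DecidableEq β] {Ω : Finset α} {l : α → β} {f : α → ℝ} (φ : α → α)
    (hinv : ∀ x, φ (φ x) = x) (hΩ : ∀ x ∈ Ω, φ x ∈ Ω)
    (hl : ∀ x y, l x = l y → l (φ x) = l (φ y)) (x : α) :
    Av Ω l (fun y => f (φ y)) x = Av Ω l f (φ x) := by
  have hl' : ∀ x y, l (φ x) = l (φ y) → l x = l y := by
    intro x y h
    have := hl _ _ h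
    rwa [hinv, hinv] at this
  have hmem : ∀ y ∈ cls Ω l x, φ y ∈ cls Ω l (φ x) := by
    intro y hy
    rw [mem_cls] at hy ⊢
    exact ⟨hΩ _ hy.1, hl _ _ hy.2⟩
  have hmem' : ∀ y ∈ cls Ω l (φ x), φ y ∈ cls Ω l x := by
    intro y hy
    rw [mem_cls] at hy ⊢
    refine ⟨hΩ _ hy.1, ?_⟩
    have := hl _ _ hy.2
    rwa [hinv] at this
  have e1 : ∑ y ∈ cls Ω l x, f (φ y) = ∑ y ∈ cls Ω l (φ x), f y :=
    sum_nbij' φ φ hmem hmem' (fun y _ => hinv y) (fun y _ => hinv y) (fun y _ => rfl)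
  have e2 : (cls Ω l x).card = (cls Ω l (φ x)).card :=
    card_nbij' φ φ hmem hmem' (fun y _ => hinv y) (fun y _ => hinv y)
  rw [Av_eq, Av_eq, e1, e2]

variable {Q : Type} [Fintype Q] [DecidableEq Q] {ε : Q → Bool} {δ : Fin 3 → ℤ}

/-- number of points of colour `k` and sign `e` -/
def nn (ε : Q → Bool) (e : Bool) (k : Fin 3) (σ : Q → Fin 3) : ℕ := ((lab3 k σ).filter fun q => ε q = e).card

lemma mem_lab3 {k : Fin 3} {σ : Q → Fin 3} {q : Q} : q ∈ lab3 k σ ↔ σ q = k := by simp [lab3]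

lemma mem_X3 {σ : Q → Fin 3} : σ ∈ X3 ε δ ↔ ∀ i, (nn ε true i σ : ℤ) - nn ε false i σ = δ i := by
  unfold X3
  rw [mem_filter]
  simp only [mem_univ, true_and]
  refine forall_congr' fun i => ?_
  have : (∑ q ∈ univ.filter (fun q => σ q = i), (if ε q then (1 : ℤ) else -1))
      = (nn ε true i σ : ℤ) - nn ε false i σ := by
    rw [sum_ite, sum_const, sum_const]
    have e1 : nn ε true i σ = (filter (fun x => ε x = true) (filter (fun q => σ q = i) univ)).card := rfl
    have e2 : nn ε false i σ = (filter (fun x => ¬ ε x = true) (filter (fun q => σ q = i) univ)).card := by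
      unfold nn lab3
      congr 1
      ext q
      simp
    rw [e1, e2]
    simp
    ring
  rw [this]

/-- swap of the colours of two points -/
def sw (q q' : Q) (σ : Q → Fin 3) : Q → Fin 3 := fun x => σ (Equiv.swap q q' x)

lemma sw_sw (q q' : Q) (σ : Q → Fin 3) : sw q q' (sw q q' σ) = σ := by
  funext x; simp [sw]

lemma eps_swap {q q' : Q} (h : ε q = ε q') (x : Q) : ε (Equiv.swap q q' x) = ε x := by
  rcases eq_or_ne x q with rfl | h1
  · rw [Equiv.swap_apply_left, h]
  · rcases eq_or_ne x q' with rfl | h2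
    · rw [Equiv.swap_apply_right, h]
    · rw [Equiv.swap_apply_of_ne_of_ne h1 h2]

lemma nn_sw {q q' : Q} (h : ε q = ε q') (e : Bool) (k : Fin 3) (σ : Q → Fin 3) :
    nn ε e k (sw q q' σ) = nn ε e k σ := by
  unfold nn
  refine card_nbij' (Equiv.swap q q') (Equiv.swap q q') ?_ ?_ ?_ ?_
  · intro x hx
    simp only [coe_filter, Set.mem_ofPred_eq, mem_lab3, sw, eps_swap h] at hx ⊢
    exact hx
  · intro x hx
    simp only [coe_filter, Set.mem_ofPred_eq, mem_lab3, sw, eps_swap h, Equiv.swap_apply_self] at hx ⊢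
    exact hx
  · intro x _; simp
  · intro x _; simp

lemma sw_mem {q q' : Q} (h : ε q = ε q') {σ : Q → Fin 3} (hσ : σ ∈ X3 ε δ) : sw q q' σ ∈ X3 ε δ := by
  rw [mem_X3] at hσ ⊢
  intro i
  rw [nn_sw h, nn_sw h, hσ i]

lemma lab3_sw_congr (q q' : Q) (k : Fin 3) (σ τ : Q → Fin 3) (h : lab3 k σ = lab3 k τ) :
    lab3 k (sw q q' σ) = lab3 k (sw q q' τ) := by
  ext x
  have := congrArg (fun s => Equiv.swap q q' x ∈ s) h
  simp only [mem_lab3, eq_iff_iff] at this ⊢
  exact this

lemma Av_sw {q q' : Q} (h : ε q = ε q') (k : Fin 3) (f : (Q → Fin 3) → ℝ) (σ : Q → Fin 3) :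
    Av (X3 ε δ) (lab3 k) (fun τ => f (sw q q' τ)) σ = Av (X3 ε δ) (lab3 k) f (sw q q' σ) :=
  Av_equivar (sw q q') (sw_sw q q') (fun _ hx => sw_mem h hx) (lab3_sw_congr q q' k) σ

lemma lab3_sw_eq {q q' : Q} {k : Fin 3} {σ : Q → Fin 3} (h1 : σ q ≠ k) (h2 : σ q' ≠ k) :
    lab3 k (sw q q' σ) = lab3 k σ := by
  ext x
  rw [mem_lab3, mem_lab3]
  rcases eq_or_ne x q with rfl | h3
  · simp [sw, h1, h2]
  · rcases eq_or_ne x q' with rfl | h4
    · simp [sw, h1, h2]
    · simp [sw, Equiv.swap_apply_of_ne_of_ne h3 h4]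

lemma exists_third (i j : Fin 3) : ∃ k, i ≠ k ∧ j ≠ k := by
  revert i j; decide

lemma step1 {κ : ℝ} (h2 : 2 < κ) (f : (Q → Fin 3) → ℝ)
    (hf : ∀ σ ∈ X3 ε δ, ∑ k, Av (X3 ε δ) (lab3 k) f σ = κ * f σ)
    (q q' : Q) (hq : ε q = ε q') : ∀ σ ∈ X3 ε δ, f (sw q q' σ) = f σ := by
  set h : (Q → Fin 3) → ℝ := fun σ => f σ - f (sw q q' σ) with hh
  have hP : ∀ k σ, Av (X3 ε δ) (lab3 k) h σ =
      Av (X3 ε δ) (lab3 k) f σ - Av (X3 ε δ) (lab3 k) f (sw q q' σ) := by
    intro k σ
    rw [hh, Av_sub, Av_sw hq]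
  have hK : ∀ σ ∈ X3 ε δ, ∑ k, Av (X3 ε δ) (lab3 k) h σ = κ * h σ := by
    intro σ hσ
    simp only [hP, sum_sub_distrib]
    rw [hf σ hσ, hf _ (sw_mem hq hσ), hh]
    ring
  have hpt : ∀ σ ∈ X3 ε δ, (κ * h σ) ^ 2 ≤ 2 * ∑ k, (Av (X3 ε δ) (lab3 k) h σ) ^ 2 := by
    intro σ hσ
    obtain ⟨k, hk1, hk2⟩ := exists_third (σ q) (σ q')
    have hz : Av (X3 ε δ) (lab3 k) h σ = 0 := by
      rw [hP, Av_label (lab3_sw_eq hk1 hk2), sub_self]
    rw [← hK σ hσ]
    simp only [Fin.sum_univ_three]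
    fin_cases k
    · have : Av (X3 ε δ) (lab3 0) h σ = 0 := hz
      rw [this]
      nlinarith [sq_nonneg (Av (X3 ε δ) (lab3 1) h σ - Av (X3 ε δ) (lab3 2) h σ)]
    · have : Av (X3 ε δ) (lab3 1) h σ = 0 := hz
      rw [this]
      nlinarith [sq_nonneg (Av (X3 ε δ) (lab3 0) h σ - Av (X3 ε δ) (lab3 2) h σ)]
    · have : Av (X3 ε δ) (lab3 2) h σ = 0 := hz
      rw [this]
      nlinarith [sq_nonneg (Av (X3 ε δ) (lab3 0) h σ - Av (X3 ε δ) (lab3 1) h σ)]
  have hsum := sum_le_sum hpt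
  have e1 : ∑ σ ∈ X3 ε δ, (κ * h σ) ^ 2 = κ ^ 2 * ∑ σ ∈ X3 ε δ, h σ ^ 2 := by
    rw [mul_sum]; exact sum_congr rfl fun _ _ => by ring
  have e2 : ∑ σ ∈ X3 ε δ, 2 * ∑ k, (Av (X3 ε δ) (lab3 k) h σ) ^ 2
      = 2 * κ * ∑ σ ∈ X3 ε δ, h σ ^ 2 := by
    rw [← mul_sum, sum_comm]
    have : ∀ k : Fin 3, ∑ σ ∈ X3 ε δ, (Av (X3 ε δ) (lab3 k) h σ) ^ 2
        = ∑ σ ∈ X3 ε δ, h σ * Av (X3 ε δ) (lab3 k) h σ := by
      intro k
      rw [← sum_Av_mul_Av]
      exact sum_congr rfl fun _ _ => by ring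
    rw [sum_congr rfl fun k _ => this k, sum_comm, mul_assoc, mul_sum (a := κ)]
    congr 1
    refine sum_congr rfl fun σ hσ => ?_
    rw [← mul_sum, hK σ hσ]; ring
  rw [e1, e2] at hsum
  have hS : 0 ≤ ∑ σ ∈ X3 ε δ, h σ ^ 2 := sum_nonneg fun _ _ => sq_nonneg _
  have hS0 : ∑ σ ∈ X3 ε δ, h σ ^ 2 = 0 := by
    by_contra hne
    have hpos : 0 < ∑ σ ∈ X3 ε δ, h σ ^ 2 := lt_of_le_of_ne hS (Ne.symm hne)
    nlinarith [mul_pos (mul_pos (by linarith : 0 < κ) (by linarith : 0 < κ - 2)) hpos]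
  intro σ hσ
  have := (sum_eq_zero_iff_of_nonneg (fun _ _ => sq_nonneg _)).1 hS0 σ hσ
  have h0 : h σ = 0 := by simpa using this
  rw [hh] at h0
  simp only at h0
  linarith


lemma align (k : Fin 3) (g : (Q → Fin 3) → ℝ)
    (hg : ∀ q q', ε q = ε q' → ∀ σ ∈ X3 ε δ, g (sw q q' σ) = g σ) (S : Finset Q) :
    ∀ (m : ℕ) (σ : Q → Fin 3), σ ∈ X3 ε δ → (S \ lab3 k σ).card = m →
      (∀ e, (S.filter fun q => ε q = e).card ≤ nn ε e k σ) →
      ∃ τ ∈ X3 ε δ, S ⊆ lab3 k τ ∧ g τ = g σ ∧ ∀ e, nn ε e k τ = nn ε e k σ := by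
  intro m
  induction m with
  | zero =>
    intro σ hσ h0 _
    refine ⟨σ, hσ, ?_, rfl, fun _ => rfl⟩
    rwa [card_eq_zero, sdiff_eq_empty_iff_subset] at h0
  | succ m ih =>
    intro σ hσ hm hcard
    obtain ⟨q, hq⟩ : (S \ lab3 k σ).Nonempty := by
      rw [← card_pos]; omega
    rw [mem_sdiff, mem_lab3] at hq
    obtain ⟨q', hq'1, hq'2⟩ : ∃ q' ∈ (lab3 k σ).filter (fun x => ε x = ε q), q' ∉ S.filter (fun x => ε x = ε q) := by
      by_contra hcon
      push Not at hcon
      have hss : (lab3 k σ).filter (fun x => ε x = ε q) ⊂ S.filter (fun x => ε x = ε q) := by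
        refine ⟨hcon, fun h => ?_⟩
        have := h (mem_filter.2 ⟨hq.1, rfl⟩)
        rw [mem_filter, mem_lab3] at this
        exact hq.2 this.1
      have h1 := card_lt_card hss
      have h2 := hcard (ε q)
      unfold nn at h2
      omega
    rw [mem_filter, mem_lab3] at hq'1
    have hq'S : q' ∉ S := fun h => hq'2 (mem_filter.2 ⟨h, hq'1.2⟩)
    have he : ε q = ε q' := hq'1.2.symm
    have hne : q ≠ q' := fun h => hq'S (h ▸ hq.1)
    have hsd : S \ lab3 k (sw q q' σ) = (S \ lab3 k σ).erase q := by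
      ext x
      rw [mem_erase, mem_sdiff, mem_sdiff, mem_lab3, mem_lab3]
      unfold sw
      rcases eq_or_ne x q with rfl | h1
      · simp [hq'1.1]
      · rcases eq_or_ne x q' with rfl | h2
        · simp [hq'S]
        · simp [Equiv.swap_apply_of_ne_of_ne h1 h2, h1]
    obtain ⟨τ, hτ, h1, h2, h3⟩ := ih (sw q q' σ) (sw_mem he hσ) (by
      rw [hsd, card_erase_of_mem (by rw [mem_sdiff, mem_lab3]; exact hq), hm]; rfl) (by
      intro e; rw [nn_sw he]; exact hcard e)
    exact ⟨τ, hτ, h1, by rw [h2, hg q q' he σ hσ], fun e => by rw [h3, nn_sw he]⟩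

lemma nn_true_of_false {k : Fin 3} {σ τ : Q → Fin 3} (hσ : σ ∈ X3 ε δ) (hτ : τ ∈ X3 ε δ) :
    (nn ε true k τ : ℤ) - nn ε true k σ = (nn ε false k τ : ℤ) - nn ε false k σ := by
  rw [mem_X3] at hσ hτ
  have h1 := hσ k
  have h2 := hτ k
  omega

lemma card_filter_split (S : Finset Q) (ε : Q → Bool) :
    (S.filter fun q => ε q = true).card + (S.filter fun q => ε q = false).card = S.card := by
  have := card_filter_add_card_filter_not (s := S) (fun q => ε q = true)
  rw [← this]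
  congr 2
  ext q
  simp

/-- `g_k` depends only on the number of false points of colour `k` -/
lemma dep (k : Fin 3) (g : (Q → Fin 3) → ℝ)
    (hg : ∀ q q', ε q = ε q' → ∀ σ ∈ X3 ε δ, g (sw q q' σ) = g σ)
    (hl : ∀ σ τ, lab3 k σ = lab3 k τ → g σ = g τ) (σ τ : Q → Fin 3) (hσ : σ ∈ X3 ε δ) (hτ : τ ∈ X3 ε δ)
    (h : nn ε false k σ = nn ε false k τ) : g σ = g τ := by
  have h' := nn_true_of_false (k := k) hσ hτ
  obtain ⟨ρ, hρ, h1, h2, h3⟩ := align k g hg (lab3 k σ) _ τ hτ rfl (by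
    intro e
    change nn ε e k σ ≤ _
    cases e <;> omega)
  rw [← h2]
  apply hl
  apply eq_of_subset_of_card_le h1
  rw [← card_filter_split (lab3 k ρ) ε, ← card_filter_split (lab3 k σ) ε]
  change nn ε true k ρ + nn ε false k ρ ≤ nn ε true k σ + nn ε false k σ
  rw [h3, h3]
  omega

/-- colouring with `k`-part `S` and coded by the set `y` outside `S` -/
def col (ε : Q → Bool) (k i j : Fin 3) (S y : Finset Q) : Q → Fin 3 := fun q =>
  if q ∈ S then k else if (q ∈ y ↔ ε q = true) then i else j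

/-- the code of a colouring -/
def yy (ε : Q → Bool) (i : Fin 3) (S : Finset Q) (τ : Q → Fin 3) : Finset Q :=
  Sᶜ.filter fun q => (τ q = i ↔ ε q = true)

section
variable {k i j : Fin 3}

lemma lab3_col (hik : i ≠ k) (hjk : j ≠ k) (S y : Finset Q) : lab3 k (col ε k i j S y) = S := by
  ext q
  rw [mem_lab3]
  unfold col
  split_ifs with h1 h2
  · simp [h1]
  · simp [h1, hik]
  · simp [h1, hjk]

lemma nn_false_j (hij : i ≠ j) (hjk : j ≠ k) (S y : Finset Q) (hy : y ⊆ Sᶜ) :
    nn ε false j (col ε k i j S y) = (y.filter fun q => ε q = false).card := by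
  unfold nn
  congr 1
  ext q
  rw [mem_filter, mem_filter, mem_lab3]
  unfold col
  split_ifs with h1 h2
  · have : q ∉ y := fun h => by have := hy h; rw [mem_compl] at this; exact this h1
    simp [this, hjk.symm]
  · simp only [hij, false_and, false_iff, not_and, Bool.not_eq_false]
    exact h2.1
  · simp only [true_and]
    constructor
    · intro h
      refine ⟨?_, h⟩
      by_contra h3
      exact h2 ⟨fun h' => absurd h' h3, fun h' => by rw [h] at h'; exact absurd h' (by simp)⟩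
    · exact fun h => h.2

lemma nn_false_i (hij : i ≠ j) (hik : i ≠ k) (hjk : j ≠ k) (S y : Finset Q) (hy : y ⊆ Sᶜ) :
    nn ε false i (col ε k i j S y) + nn ε false j (col ε k i j S y) = (Sᶜ.filter fun q => ε q = false).card := by
  unfold nn
  rw [← card_union_of_disjoint]
  · congr 1
    ext q
    rw [mem_union, mem_filter, mem_filter, mem_filter, mem_lab3, mem_lab3, mem_compl]
    unfold col
    split_ifs with h1 h2
    · simp [h1, hik.symm, hjk.symm]
    · simp [h1, hij]
    · simp [h1, hij.symm]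
  · rw [disjoint_left]
    intro q hq hq'
    rw [mem_filter, mem_lab3] at hq hq'
    exact hij (hq.1.symm.trans hq'.1)

lemma nn_true_i (hij : i ≠ j) (hik : i ≠ k) (S y : Finset Q) (hy : y ⊆ Sᶜ) :
    nn ε true i (col ε k i j S y) = (y.filter fun q => ε q = true).card := by
  unfold nn
  congr 1
  ext q
  rw [mem_filter, mem_filter, mem_lab3]
  unfold col
  split_ifs with h1 h2
  · have : q ∉ y := fun h => by have := hy h; rw [mem_compl] at this; exact this h1
    simp [this, hik.symm]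
  · simp only [true_and]
    exact ⟨fun h => ⟨h2.2 h, h⟩, fun h => h.2⟩
  · simp only [hij.symm, false_and, false_iff, not_and]
    intro h3 h4
    exact h2 ⟨fun _ => h4, fun _ => h3⟩

lemma nn_true_j (hij : i ≠ j) (hik : i ≠ k) (hjk : j ≠ k) (S y : Finset Q) (hy : y ⊆ Sᶜ) :
    nn ε true i (col ε k i j S y) + nn ε true j (col ε k i j S y) = (Sᶜ.filter fun q => ε q = true).card := by
  unfold nn
  rw [← card_union_of_disjoint]
  · congr 1
    ext q
    rw [mem_union, mem_filter, mem_filter, mem_filter, mem_lab3, mem_lab3, mem_compl]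
    unfold col
    split_ifs with h1 h2
    · simp [h1, hik.symm, hjk.symm]
    · simp [h1, hij]
    · simp [h1, hij.symm]
  · rw [disjoint_left]
    intro q hq hq'
    rw [mem_filter, mem_lab3] at hq hq'
    exact hij (hq.1.symm.trans hq'.1)

lemma col_yy (htot : ∀ c : Fin 3, c = k ∨ c = i ∨ c = j) (hij : i ≠ j) (S : Finset Q) (τ : Q → Fin 3)
    (hτ : lab3 k τ = S) : col ε k i j S (yy ε i S τ) = τ := by
  funext q
  unfold col yy
  rw [← hτ]
  simp only [mem_lab3, mem_filter, mem_compl]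
  split_ifs with h1 h2
  · exact h1.symm
  · by_contra h3
    have : ¬ (τ q = i) := fun h => h3 h.symm
    tauto
  · rcases htot (τ q) with h | h | h
    · exact absurd h h1
    · exfalso
      tauto
    · exact h.symm

lemma yy_col (hij : i ≠ j) (S y : Finset Q) (hy : y ⊆ Sᶜ) : yy ε i S (col ε k i j S y) = y := by
  ext q
  unfold yy col
  simp only [mem_filter, mem_compl]
  by_cases h1 : q ∈ S
  · have : q ∉ y := fun h => by have := hy h; rw [mem_compl] at this; exact this h1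
    simp [h1, this]
  · simp only [h1, not_false_eq_true, true_and, if_false]
    by_cases h2 : (q ∈ y ↔ ε q = true)
    · simp only [h2, if_true, true_iff]
    · rw [if_neg h2]
      simp only [hij.symm, false_iff]
      tauto

lemma card_yy (htot : ∀ c : Fin 3, c = k ∨ c = i ∨ c = j) (hij : i ≠ j) (hik : i ≠ k) (hjk : j ≠ k)
    (S : Finset Q) (τ : Q → Fin 3) (hτX : τ ∈ X3 ε δ) (hτ : lab3 k τ = S) :
    ((yy ε i S τ).card : ℤ) = δ i + (Sᶜ.filter fun q => ε q = false).card := by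
  have hsub : yy ε i S τ ⊆ Sᶜ := filter_subset _ _
  have h1 := nn_false_j (ε := ε) hij hjk S _ hsub
  have h2 := nn_false_i (ε := ε) hij hik hjk S _ hsub
  have h3 := nn_true_i (ε := ε) (k := k) hij hik S _ hsub
  rw [col_yy htot hij S τ hτ] at h1 h2 h3
  have h4 := card_filter_split (yy ε i S τ) ε
  have h5 := mem_X3.1 hτX i
  omega

lemma col_mem (htot : ∀ c : Fin 3, c = k ∨ c = i ∨ c = j) (hij : i ≠ j) (hik : i ≠ k) (hjk : j ≠ k)
    (S : Finset Q) (τ : Q → Fin 3) (hτX : τ ∈ X3 ε δ) (hτ : lab3 k τ = S) (y : Finset Q) (hy : y ⊆ Sᶜ)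
    (hc : y.card = (yy ε i S τ).card) : col ε k i j S y ∈ X3 ε δ := by
  have hcard := card_yy htot hij hik hjk S τ hτX hτ
  rw [mem_X3]
  have hsub : yy ε i S τ ⊆ Sᶜ := filter_subset _ _
  have a1 := nn_false_j (ε := ε) hij hjk S _ hsub
  have a2 := nn_false_i (ε := ε) hij hik hjk S _ hsub
  have a3 := nn_true_i (ε := ε) (k := k) hij hik S _ hsub
  have a4 := nn_true_j (ε := ε) hij hik hjk S _ hsub
  rw [col_yy htot hij S τ hτ] at a1 a2 a3 a4
  have b1 := nn_false_j (ε := ε) hij hjk S _ hy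
  have b2 := nn_false_i (ε := ε) hij hik hjk S _ hy
  have b3 := nn_true_i (ε := ε) (k := k) hij hik S _ hy
  have b4 := nn_true_j (ε := ε) hij hik hjk S _ hy
  have c1 := card_filter_split (yy ε i S τ) ε
  have c2 := card_filter_split y ε
  have d1 := mem_X3.1 hτX
  have di := d1 i
  have dj := d1 j
  intro c
  rcases htot c with rfl | rfl | rfl
  · have e : ∀ e, nn ε e c (col ε c i j S y) = nn ε e c τ := by
      intro e
      unfold nn
      rw [lab3_col hik hjk, hτ]
    rw [e, e]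
    exact d1 c
  · omega
  · omega

/-- class average as a `powersetCard` average -/
lemma Av_class (htot : ∀ c : Fin 3, c = k ∨ c = i ∨ c = j) (hij : i ≠ j) (hik : i ≠ k) (hjk : j ≠ k)
    (S : Finset Q) (τ : Q → Fin 3) (hτX : τ ∈ X3 ε δ) (hτ : lab3 k τ = S) (F : (Q → Fin 3) → ℝ) :
    Av (X3 ε δ) (lab3 k) F τ =
      (∑ y ∈ Sᶜ.powersetCard (yy ε i S τ).card, F (col ε k i j S y)) /
        ((Sᶜ.powersetCard (yy ε i S τ).card).card : ℝ) := by
  have hmap : ∀ ρ ∈ cls (X3 ε δ) (lab3 k) τ, yy ε i S ρ ∈ Sᶜ.powersetCard (yy ε i S τ).card := by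
    intro ρ hρ
    rw [mem_cls] at hρ
    rw [mem_powersetCard]
    refine ⟨filter_subset _ _, ?_⟩
    have h1 := card_yy htot hij hik hjk S τ hτX hτ
    have h2 := card_yy htot hij hik hjk S ρ hρ.1 (hρ.2.trans hτ)
    omega
  have hmap' : ∀ y ∈ Sᶜ.powersetCard (yy ε i S τ).card, col ε k i j S y ∈ cls (X3 ε δ) (lab3 k) τ := by
    intro y hy
    rw [mem_powersetCard] at hy
    rw [mem_cls]
    exact ⟨col_mem htot hij hik hjk S τ hτX hτ y hy.1 hy.2, by rw [lab3_col hik hjk, hτ]⟩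
  have hl : ∀ ρ ∈ cls (X3 ε δ) (lab3 k) τ, col ε k i j S (yy ε i S ρ) = ρ := by
    intro ρ hρ
    rw [mem_cls] at hρ
    exact col_yy htot hij S ρ (hρ.2.trans hτ)
  have hr : ∀ y ∈ Sᶜ.powersetCard (yy ε i S τ).card, yy ε i S (col ε k i j S y) = y := by
    intro y hy
    rw [mem_powersetCard] at hy
    exact yy_col hij S y hy.1
  rw [Av_eq]
  congr 1
  · exact sum_nbij' (yy ε i S) (col ε k i j S) hmap hmap' hl hr fun ρ hρ => by rw [hl ρ hρ]
  · congr 1
    exact card_nbij' (yy ε i S) (col ε k i j S) hmap hmap' hl hr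

end

lemma exists_two (k : Fin 3) : ∃ i j : Fin 3, i ≠ j ∧ i ≠ k ∧ j ≠ k ∧ (∀ c : Fin 3, c = k ∨ c = i ∨ c = j) ∧
    ∀ F : Fin 3 → ℝ, ∑ c, F c = F k + (F i + F j) := by
  fin_cases k
  · exact ⟨1, 2, by decide, by decide, by decide, by decide, fun F => by simp [Fin.sum_univ_three]; ring⟩
  · exact ⟨0, 2, by decide, by decide, by decide, by decide, fun F => by simp [Fin.sum_univ_three]; ring⟩
  · exact ⟨0, 1, by decide, by decide, by decide, by decide, fun F => by simp [Fin.sum_univ_three]; ring⟩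

/-- key contraction step -/
lemma lip {κ : ℝ} (f : (Q → Fin 3) → ℝ)
    (hf : ∀ σ ∈ X3 ε δ, ∑ k, Av (X3 ε δ) (lab3 k) f σ = κ * f σ)
    (hinv : ∀ q q', ε q = ε q' → ∀ σ ∈ X3 ε δ, f (sw q q' σ) = f σ) (B : ℝ)
    (hB : ∀ k : Fin 3, ∀ σ ∈ X3 ε δ, ∀ τ ∈ X3 ε δ, nn ε false k τ = nn ε false k σ + 1 →
      |Av (X3 ε δ) (lab3 k) f τ - Av (X3 ε δ) (lab3 k) f σ| ≤ B)
    (k : Fin 3) (σ : Q → Fin 3) (hσ : σ ∈ X3 ε δ) (τ : Q → Fin 3) (hτ : τ ∈ X3 ε δ)
    (hστ : nn ε false k τ = nn ε false k σ + 1) :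
    |(κ - 1) * Av (X3 ε δ) (lab3 k) f τ - (κ - 1) * Av (X3 ε δ) (lab3 k) f σ| ≤ B := by
  have hginv : ∀ k : Fin 3, ∀ q q', ε q = ε q' → ∀ σ ∈ X3 ε δ,
      Av (X3 ε δ) (lab3 k) f (sw q q' σ) = Av (X3 ε δ) (lab3 k) f σ := by
    intro k q q' hq σ hσ
    rw [← Av_sw hq]
    exact Av_congr (fun y hy => hinv q q' hq y hy) σ
  have hdep : ∀ k : Fin 3, ∀ σ ∈ X3 ε δ, ∀ τ ∈ X3 ε δ, nn ε false k σ = nn ε false k τ →
      Av (X3 ε δ) (lab3 k) f σ = Av (X3 ε δ) (lab3 k) f τ := by
    intro k σ hσ τ hτ h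
    exact dep k _ (hginv k) (fun _ _ h => Av_label h) σ τ hσ hτ h
  obtain ⟨i, j, hij, hik, hjk, htot, hsum⟩ := exists_two k
  -- align
  obtain ⟨τ', hτ', hS, hgτ, hnn⟩ := align k _ (hginv k) (lab3 k σ) _ τ hτ rfl (by
    intro e
    change nn ε e k σ ≤ _
    have h' := nn_true_of_false (k := k) hσ hτ
    cases e <;> omega)
  rw [← hgτ]
  have hστ' : nn ε false k τ' = nn ε false k σ + 1 := by rw [hnn, hστ]
  have hστt : nn ε true k τ' = nn ε true k σ + 1 := by
    have := nn_true_of_false (k := k) hσ hτ'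
    omega
  -- the two extra points
  have hex : ∀ e : Bool, nn ε e k τ' = nn ε e k σ + 1 →
      ∃ x, (lab3 k τ' \ lab3 k σ).filter (fun q => ε q = e) = {x} := by
    intro e he
    rw [← card_eq_one]
    have h1 : (lab3 k τ' \ lab3 k σ).filter (fun q => ε q = e)
        = (lab3 k τ').filter (fun q => ε q = e) \ (lab3 k σ).filter (fun q => ε q = e) := by
      ext x
      simp only [mem_filter, mem_sdiff]
      tauto
    rw [h1, card_sdiff_of_subset (filter_subset_filter _ hS)]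
    unfold nn at he
    omega
  obtain ⟨p, hp⟩ := hex true hστt
  obtain ⟨n, hn⟩ := hex false hστ'
  have hpmem : p ∈ (lab3 k τ' \ lab3 k σ).filter (fun q => ε q = true) := by rw [hp]; exact mem_singleton_self _
  have hnmem : n ∈ (lab3 k τ' \ lab3 k σ).filter (fun q => ε q = false) := by rw [hn]; exact mem_singleton_self _
  rw [mem_filter, mem_sdiff] at hpmem hnmem
  have hpn : p ≠ n := by
    intro h
    have h1 := hpmem.2
    have h2 := hnmem.2
    rw [h, h2] at h1
    exact absurd h1 (by simp)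
  set S := lab3 k σ with hSdef
  set S' := lab3 k τ' with hS'def
  have hcompl : Sᶜ = insert p (insert n S'ᶜ) := by
    ext x
    simp only [mem_compl, mem_insert]
    constructor
    · intro hx
      by_cases hx' : x ∈ S'
      · cases he : ε x
        · right; left
          have : x ∈ (S' \ S).filter (fun q => ε q = false) := by
            rw [mem_filter, mem_sdiff]; exact ⟨⟨hx', hx⟩, he⟩
          rw [hn] at this
          exact mem_singleton.1 this
        · left
          have : x ∈ (S' \ S).filter (fun q => ε q = true) := by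
            rw [mem_filter, mem_sdiff]; exact ⟨⟨hx', hx⟩, he⟩
          rw [hp] at this
          exact mem_singleton.1 this
      · right; right; exact hx'
    · rintro (rfl | rfl | h)
      · exact hpmem.1.2
      · exact hnmem.1.2
      · exact fun h' => h (hS h')
  have hpN : p ∉ S'ᶜ := by rw [mem_compl, not_not]; exact hpmem.1.1
  have hnN : n ∉ S'ᶜ := by rw [mem_compl, not_not]; exact hnmem.1.1
  -- eigen-equation
  have heig : ∀ ρ ∈ X3 ε δ, (κ - 1) * Av (X3 ε δ) (lab3 k) f ρ =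
      Av (X3 ε δ) (lab3 k) (fun ρ => Av (X3 ε δ) (lab3 i) f ρ + Av (X3 ε δ) (lab3 j) f ρ) ρ := by
    intro ρ hρ
    have h1 : Av (X3 ε δ) (lab3 k) (fun ρ => κ * f ρ) ρ =
        Av (X3 ε δ) (lab3 k) (fun ρ => Av (X3 ε δ) (lab3 k) f ρ +
          (Av (X3 ε δ) (lab3 i) f ρ + Av (X3 ε δ) (lab3 j) f ρ)) ρ := by
      apply Av_congr
      intro y hy
      rw [← hf y hy, hsum]
    rw [Av_smul, Av_add, Av_Av hρ] at h1
    linarith
  rw [heig τ' hτ', heig σ hσ, Av_class htot hij hik hjk S' τ' hτ' rfl, Av_class htot hij hik hjk S σ hσ rfl]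
  -- cardinalities
  have hc1 := card_yy htot hij hik hjk S σ hσ rfl
  have hc2 := card_yy htot hij hik hjk S' τ' hτ' rfl
  have hSF : (Sᶜ.filter fun q => ε q = false).card = (S'ᶜ.filter fun q => ε q = false).card + 1 := by
    rw [hcompl, filter_insert, if_neg (by rw [hpmem.2]; simp), filter_insert, if_pos hnmem.2,
      card_insert_of_notMem]
    intro h
    exact hnN (mem_filter.1 h).1
  set a := (yy ε i S' τ').card with ha
  have ha1 : (yy ε i S σ).card = a + 1 := by omega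
  have haN : a ≤ (S'ᶜ).card := card_le_card (filter_subset _ _)
  -- the difference bound
  have hdiff : ∀ y ∈ Sᶜ.powersetCard (a + 1), ∀ y' ∈ S'ᶜ.powersetCard a,
      ((y.filter fun q => ε q = false).card = (y'.filter fun q => ε q = false).card ∨
        (y.filter fun q => ε q = false).card = (y'.filter fun q => ε q = false).card + 1) →
      |(Av (X3 ε δ) (lab3 i) f (col ε k i j S y) + Av (X3 ε δ) (lab3 j) f (col ε k i j S y))
        - (Av (X3 ε δ) (lab3 i) f (col ε k i j S' y') + Av (X3 ε δ) (lab3 j) f (col ε k i j S' y'))| ≤ B := by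
    intro y hy y' hy' hφ
    rw [mem_powersetCard] at hy hy'
    have m1 : col ε k i j S y ∈ X3 ε δ := col_mem htot hij hik hjk S σ hσ rfl y hy.1 (by rw [hy.2, ha1])
    have m2 : col ε k i j S' y' ∈ X3 ε δ := col_mem htot hij hik hjk S' τ' hτ' rfl y' hy'.1 hy'.2
    have b1 := nn_false_j (ε := ε) hij hjk S _ hy.1
    have b2 := nn_false_i (ε := ε) hij hik hjk S _ hy.1
    have b3 := nn_false_j (ε := ε) hij hjk S' _ hy'.1
    have b4 := nn_false_i (ε := ε) hij hik hjk S' _ hy'.1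
    rcases hφ with hφ | hφ
    · have e1 := hdep j _ m1 _ m2 (by omega)
      have e2 := hB i _ m2 _ m1 (by omega)
      rw [e1]
      rw [add_sub_add_right_eq_sub]
      exact e2
    · have e1 := hdep i _ m1 _ m2 (by omega)
      have e2 := hB j _ m2 _ m1 (by omega)
      rw [e1]
      rw [add_sub_add_left_eq_sub]
      exact e2
  rw [ha1, abs_sub_comm, hcompl]
  have hpt := hpmem.2
  have hnf := hnmem.2
  have hsub1 : ∀ y ∈ S'ᶜ.powersetCard a, insert p y ∈ Sᶜ.powersetCard (a + 1) := by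
    intro y hy
    rw [mem_powersetCard] at hy ⊢
    refine ⟨?_, ?_⟩
    · rw [hcompl]
      exact insert_subset_insert _ (hy.1.trans (subset_insert _ _))
    · rw [card_insert_of_notMem (fun h => hpN (hy.1 h)), hy.2]
  have hsub2 : ∀ y ∈ S'ᶜ.powersetCard a, insert n y ∈ Sᶜ.powersetCard (a + 1) := by
    intro y hy
    rw [mem_powersetCard] at hy ⊢
    refine ⟨?_, ?_⟩
    · rw [hcompl]
      exact (insert_subset_insert _ hy.1).trans (subset_insert _ _)
    · rw [card_insert_of_notMem (fun h => hnN (hy.1 h)), hy.2]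
  have hsub3 : ∀ y ∈ S'ᶜ.powersetCard a, ∀ z ∈ y, insert p (insert n (y.erase z)) ∈ Sᶜ.powersetCard (a + 1) := by
    intro y hy z hz
    rw [mem_powersetCard] at hy ⊢
    have hsub : y.erase z ⊆ S'ᶜ := (erase_subset _ _).trans hy.1
    refine ⟨?_, ?_⟩
    · rw [hcompl]
      exact insert_subset_insert _ (insert_subset_insert _ hsub)
    · rw [card_insert_of_notMem, card_insert_of_notMem (fun h => hnN (hsub h)), card_erase_of_mem hz, hy.2]
      · have : 0 < y.card := card_pos.2 ⟨z, hz⟩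
        omega
      · rw [mem_insert, not_or]
        exact ⟨hpn, fun h => hpN (hsub h)⟩
  have hsub4 : ∀ y ∈ S'ᶜ.powersetCard a, ∀ z ∈ S'ᶜ \ y, insert z y ∈ Sᶜ.powersetCard (a + 1) := by
    intro y hy z hz
    rw [mem_powersetCard] at hy ⊢
    rw [mem_sdiff] at hz
    refine ⟨?_, ?_⟩
    · rw [hcompl]
      exact (insert_subset hz.1 hy.1).trans ((subset_insert _ _).trans (subset_insert _ _))
    · rw [card_insert_of_notMem hz.2, hy.2]
  refine coupling S'ᶜ p n hpN hnN hpn a haN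
    (fun y => Av (X3 ε δ) (lab3 i) f (col ε k i j S y) + Av (X3 ε δ) (lab3 j) f (col ε k i j S y))
    (fun y' => Av (X3 ε δ) (lab3 i) f (col ε k i j S' y') + Av (X3 ε δ) (lab3 j) f (col ε k i j S' y')) B
    ?_ ?_ ?_ ?_
  · intro y hy
    refine hdiff _ (hsub1 y hy) y hy (Or.inl ?_)
    rw [filter_insert, if_neg (by rw [hpt]; simp)]
  · intro y hy
    refine hdiff _ (hsub2 y hy) y hy (Or.inr ?_)
    rw [filter_insert, if_pos hnf, card_insert_of_notMem]
    intro h
    exact hnN ((mem_powersetCard.1 hy).1 (mem_filter.1 h).1)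
  · intro y hy z hz
    refine hdiff _ (hsub3 y hy z hz) y hy ?_
    have hsub : y.erase z ⊆ S'ᶜ := (erase_subset _ _).trans (mem_powersetCard.1 hy).1
    rw [filter_insert, if_neg (by rw [hpt]; simp), filter_insert, if_pos hnf, card_insert_of_notMem
      (fun h => hnN (hsub (mem_filter.1 h).1))]
    have e1 : (y.erase z).filter (fun q => ε q = false) = (y.filter (fun q => ε q = false)).erase z := by
      rw [filter_erase]
    rw [e1]
    by_cases hz' : z ∈ y.filter (fun q => ε q = false)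
    · rw [card_erase_of_mem hz']
      have : 0 < (y.filter (fun q => ε q = false)).card := card_pos.2 ⟨z, hz'⟩
      omega
    · rw [erase_eq_of_notMem hz']
      omega
  · intro y hy z hz
    refine hdiff _ (hsub4 y hy z hz) y hy ?_
    rw [filter_insert]
    split_ifs
    · rw [card_insert_of_notMem (fun h => (mem_sdiff.1 hz).2 (mem_filter.1 h).1)]
      omega
    · omega

/-- one step up in the number of points of colour `k` -/
lemma step_up (k : Fin 3) (σ τ : Q → Fin 3) (hσ : σ ∈ X3 ε δ) (hτ : τ ∈ X3 ε δ)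
    (h : nn ε false k σ < nn ε false k τ) : ∃ ρ ∈ X3 ε δ, nn ε false k ρ = nn ε false k σ + 1 := by
  obtain ⟨i, j, hij, hik, hjk, htot, hsum⟩ := exists_two k
  -- total number of false points
  have htotal : ∀ ρ : Q → Fin 3, nn ε false k ρ + nn ε false i ρ + nn ε false j ρ
      = (univ.filter fun q => ε q = false).card := by
    intro ρ
    unfold nn
    rw [← card_union_of_disjoint, ← card_union_of_disjoint]
    · congr 1
      ext q
      simp only [mem_union, mem_filter, mem_lab3, mem_univ, true_and]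
      rcases htot (ρ q) with h | h | h <;> simp [h, hij, hik, hjk, hij.symm, hik.symm, hjk.symm]
    · rw [disjoint_left]
      intro q hq hq'
      rw [mem_union, mem_filter, mem_filter, mem_lab3, mem_lab3] at hq
      rw [mem_filter, mem_lab3] at hq'
      rcases hq with hq | hq
      · exact hjk (hq'.1.symm.trans hq.1)
      · exact hij (hq.1.symm.trans hq'.1)
    · rw [disjoint_left]
      intro q hq hq'
      rw [mem_filter, mem_lab3] at hq hq'
      exact hik (hq'.1.symm.trans hq.1)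
  have h1 := htotal σ
  have h2 := htotal τ
  obtain ⟨c, hck, hc⟩ : ∃ c, c ≠ k ∧ nn ε false c τ < nn ε false c σ := by
    by_contra hcon
    push Not at hcon
    have := hcon i hik
    have := hcon j hjk
    omega
  have hct : 0 < nn ε true c σ := by
    have := nn_true_of_false (k := c) hσ hτ
    omega
  have hcf : 0 < nn ε false c σ := by omega
  obtain ⟨p, hp⟩ := card_pos.1 hct
  obtain ⟨n, hn⟩ := card_pos.1 hcf
  rw [mem_filter, mem_lab3] at hp hn
  have hpn : p ≠ n := by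
    intro h
    have h1 := hp.2
    rw [h, hn.2] at h1
    exact absurd h1 (by simp)
  let ρ : Q → Fin 3 := fun q => if q = p ∨ q = n then k else σ q
  have hk : ∀ e, nn ε e k ρ = nn ε e k σ + 1 := by
    intro e
    unfold nn
    have : ∃ x, σ x ≠ k ∧ (lab3 k ρ).filter (fun q => ε q = e) = insert x ((lab3 k σ).filter fun q => ε q = e) := by
      cases e
      · refine ⟨n, by rw [hn.1]; exact hck, ?_⟩
        ext x
        simp only [mem_filter, mem_lab3, mem_insert, ρ]
        split_ifs with hx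
        · rcases hx with rfl | rfl
          · simp [hp.2, hpn]
          · simp [hn.2]
        · rw [not_or] at hx
          simp [hx.2]
      · refine ⟨p, by rw [hp.1]; exact hck, ?_⟩
        ext x
        simp only [mem_filter, mem_lab3, mem_insert, ρ]
        split_ifs with hx
        · rcases hx with rfl | rfl
          · simp [hp.2]
          · simp [hn.2, hpn.symm]
        · rw [not_or] at hx
          simp [hx.1]
    obtain ⟨x, hx1, hx2⟩ := this
    rw [hx2, card_insert_of_notMem]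
    rw [mem_filter, mem_lab3]
    exact fun h => hx1 h.1
  have hcc : ∀ e, nn ε e c ρ + 1 = nn ε e c σ := by
    intro e
    unfold nn
    have : ∃ x ∈ (lab3 c σ).filter (fun q => ε q = e),
        (lab3 c ρ).filter (fun q => ε q = e) = ((lab3 c σ).filter fun q => ε q = e).erase x := by
      cases e
      · refine ⟨n, by rw [mem_filter, mem_lab3]; exact hn, ?_⟩
        ext x
        simp only [mem_filter, mem_lab3, mem_erase, ρ]
        split_ifs with hx
        · rcases hx with rfl | rfl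
          · simp [hp.2, hpn, hck.symm]
          · simp [hn.2, hck.symm]
        · rw [not_or] at hx
          simp [hx.2]
      · refine ⟨p, by rw [mem_filter, mem_lab3]; exact hp, ?_⟩
        ext x
        simp only [mem_filter, mem_lab3, mem_erase, ρ]
        split_ifs with hx
        · rcases hx with rfl | rfl
          · simp [hp.2, hck.symm]
          · simp [hn.2, hpn.symm, hck.symm]
        · rw [not_or] at hx
          simp [hx.1]
    obtain ⟨x, hx1, hx2⟩ := this
    rw [hx2, card_erase_of_mem hx1]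
    have : 0 < ((lab3 c σ).filter (fun q => ε q = e)).card := card_pos.2 ⟨x, hx1⟩
    omega
  have hoth : ∀ c', c' ≠ k → c' ≠ c → ∀ e, nn ε e c' ρ = nn ε e c' σ := by
    intro c' h1 h2 e
    unfold nn
    congr 1
    ext x
    simp only [mem_filter, mem_lab3, ρ]
    split_ifs with hx
    · rcases hx with rfl | rfl
      · simp [hp.1, h1.symm, h2.symm]
      · simp [hn.1, h1.symm, h2.symm]
    · rfl
  refine ⟨ρ, ?_, hk false⟩
  rw [mem_X3] at hσ ⊢
  intro c'
  have := hσ c'
  by_cases h3 : c' = k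
  · rw [h3] at this ⊢
    have a1 := hk true
    have a2 := hk false
    omega
  · by_cases h4 : c' = c
    · rw [h4] at this ⊢
      have a1 := hcc true
      have a2 := hcc false
      omega
    · rw [hoth c' h3 h4, hoth c' h3 h4]
      exact this

/-- no eigenvalue in `(2,3)` -/
lemma eigen {κ : ℝ} (h2 : 2 < κ) (h3 : κ < 3) (f : (Q → Fin 3) → ℝ)
    (hf : ∀ σ ∈ X3 ε δ, ∑ k, Av (X3 ε δ) (lab3 k) f σ = κ * f σ) : ∀ σ ∈ X3 ε δ, f σ = 0 := by
  have hinv : ∀ q q', ε q = ε q' → ∀ σ ∈ X3 ε δ, f (sw q q' σ) = f σ :=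
    fun q q' hq => step1 h2 f hf q q' hq
  have hginv : ∀ k : Fin 3, ∀ q q', ε q = ε q' → ∀ σ ∈ X3 ε δ,
      Av (X3 ε δ) (lab3 k) f (sw q q' σ) = Av (X3 ε δ) (lab3 k) f σ := by
    intro k q q' hq σ hσ
    rw [← Av_sw hq]
    exact Av_congr (fun y hy => hinv q q' hq y hy) σ
  have hdep : ∀ k : Fin 3, ∀ σ ∈ X3 ε δ, ∀ τ ∈ X3 ε δ, nn ε false k σ = nn ε false k τ →
      Av (X3 ε δ) (lab3 k) f σ = Av (X3 ε δ) (lab3 k) f τ := by
    intro k σ hσ τ hτ h
    exact dep k _ (hginv k) (fun _ _ h => Av_label h) σ τ hσ hτ h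
  -- all steps vanish
  have hstep : ∀ k : Fin 3, ∀ σ ∈ X3 ε δ, ∀ τ ∈ X3 ε δ, nn ε false k τ = nn ε false k σ + 1 →
      Av (X3 ε δ) (lab3 k) f τ = Av (X3 ε δ) (lab3 k) f σ := by
    set P : Finset (Fin 3 × (Q → Fin 3) × (Q → Fin 3)) :=
      univ.filter fun t => t.2.1 ∈ X3 ε δ ∧ t.2.2 ∈ X3 ε δ ∧ nn ε false t.1 t.2.2 = nn ε false t.1 t.2.1 + 1
      with hP
    rcases P.eq_empty_or_nonempty with h0 | hne
    · intro k σ hσ τ hτ h
      exfalso
      have : (k, σ, τ) ∈ P := by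
        rw [hP, mem_filter]
        exact ⟨mem_univ _, hσ, hτ, h⟩
      rw [h0] at this
      exact absurd this (notMem_empty _)
    · obtain ⟨t, ht, hmax⟩ := exists_max_image P
        (fun t => |Av (X3 ε δ) (lab3 t.1) f t.2.2 - Av (X3 ε δ) (lab3 t.1) f t.2.1|) hne
      rw [hP, mem_filter] at ht
      have hB := lip f hf hinv (|Av (X3 ε δ) (lab3 t.1) f t.2.2 - Av (X3 ε δ) (lab3 t.1) f t.2.1|) (by
        intro k σ hσ τ hτ h
        exact hmax (k, σ, τ) (by rw [hP, mem_filter]; exact ⟨mem_univ _, hσ, hτ, h⟩))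
        t.1 t.2.1 ht.2.1 t.2.2 ht.2.2.1 ht.2.2.2
      rw [← mul_sub, abs_mul, abs_of_pos (by linarith : 0 < κ - 1)] at hB
      have hz : |Av (X3 ε δ) (lab3 t.1) f t.2.2 - Av (X3 ε δ) (lab3 t.1) f t.2.1| = 0 := by
        by_contra hne
        have hpos := lt_of_le_of_ne (abs_nonneg (Av (X3 ε δ) (lab3 t.1) f t.2.2 - Av (X3 ε δ) (lab3 t.1) f t.2.1))
          (Ne.symm hne)
        nlinarith [mul_pos (by linarith : 0 < κ - 2) hpos]
      intro k σ hσ τ hτ h
      have h1 := hmax (k, σ, τ) (by rw [hP, mem_filter]; exact ⟨mem_univ _, hσ, hτ, h⟩)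
      rw [hz] at h1
      have h2 := abs_nonpos_iff.1 h1
      simp only at h2
      linarith
  -- hence everything is constant
  have hup : ∀ (k : Fin 3) (m : ℕ) (σ : Q → Fin 3), σ ∈ X3 ε δ → ∀ τ ∈ X3 ε δ,
      nn ε false k τ = nn ε false k σ + m → Av (X3 ε δ) (lab3 k) f τ = Av (X3 ε δ) (lab3 k) f σ := by
    intro k m
    induction m with
    | zero =>
      intro σ hσ τ hτ h
      exact hdep k τ hτ σ hσ (by omega)
    | succ m ih =>
      intro σ hσ τ hτ h
      obtain ⟨ρ, hρ, hρ1⟩ := step_up k σ τ hσ hτ (by omega)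
      rw [← hstep k σ hσ ρ hρ hρ1]
      exact ih ρ hρ τ hτ (by omega)
  have hconst : ∀ (k : Fin 3), ∀ σ ∈ X3 ε δ, ∀ τ ∈ X3 ε δ,
      Av (X3 ε δ) (lab3 k) f τ = Av (X3 ε δ) (lab3 k) f σ := by
    intro k σ hσ τ hτ
    rcases le_total (nn ε false k σ) (nn ε false k τ) with h | h
    · exact hup k _ σ hσ τ hτ (by omega : nn ε false k τ = nn ε false k σ + (nn ε false k τ - nn ε false k σ))
    · exact (hup k _ τ hτ σ hσ (by omega : nn ε false k σ = nn ε false k τ + (nn ε false k σ - nn ε false k τ))).symm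
  have hfc : ∀ σ ∈ X3 ε δ, ∀ τ ∈ X3 ε δ, f τ = f σ := by
    intro σ hσ τ hτ
    have h1 := hf σ hσ
    have h2 := hf τ hτ
    have h4 : ∑ k, Av (X3 ε δ) (lab3 k) f τ = ∑ k, Av (X3 ε δ) (lab3 k) f σ :=
      sum_congr rfl fun k _ => hconst k σ hσ τ hτ
    rw [h1, h2] at h4
    exact mul_left_cancel₀ (by linarith : κ ≠ 0) h4
  intro σ hσ
  have h1 := hf σ hσ
  have h5 : ∀ k : Fin 3, Av (X3 ε δ) (lab3 k) f σ = f σ := fun k =>
    Av_of_const hσ fun y hy _ => hfc σ hσ y hy
  simp only [h5, sum_const, card_univ, Fintype.card_fin, nsmul_eq_mul] at h1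
  have : (κ - 3) * f σ = 0 := by push_cast at h1; linarith
  rcases mul_eq_zero.1 this with h | h
  · linarith
  · exact h

theorem three : ThreeStmt := by
  intro Q _ _ ε δ f
  set L : ((Q → Fin 3) → ℝ) → (Q → Fin 3) → ℝ := fun f σ => ∑ k, (f σ - Av (X3 ε δ) (lab3 k) f σ) with hL
  have hkey : ∑ σ ∈ X3 ε δ, L f σ * f σ ≤ ∑ σ ∈ X3 ε δ, L f σ * L f σ := by
    refine spec_ambient (X3 ε δ) L ?_ ?_ ?_ ?_ ?_ f
    · intro f g x
      simp only [hL]
      rw [← sum_add_distrib]
      exact sum_congr rfl fun k _ => by rw [Av_add]; ring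
    · intro c f x
      simp only [hL]
      rw [mul_sum]
      exact sum_congr rfl fun k _ => by rw [Av_smul]; ring
    · intro f g hfg x hx
      simp only [hL]
      exact sum_congr rfl fun k _ => by rw [hfg x hx, Av_congr hfg]
    · intro f g
      simp only [hL, sum_mul, mul_sum]
      rw [sum_comm]
      conv_rhs => rw [sum_comm]
      refine sum_congr rfl fun k _ => ?_
      have := sum_Av_mul (Ω := X3 ε δ) (l := lab3 k) (f := f) (g := g)
      simp only [sub_mul, mul_sub, sum_sub_distrib]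
      rw [this]
    · intro μ h0 h1 f hf
      refine eigen (κ := 3 - μ) (by linarith) (by linarith) f ?_
      intro σ hσ
      have := hf σ hσ
      simp only [hL, sum_sub_distrib, sum_const, card_univ, Fintype.card_fin, nsmul_eq_mul] at this
      push_cast at this
      linarith
  have hself : ∀ k : Fin 3, ∑ σ ∈ X3 ε δ, (f σ - Av (X3 ε δ) (lab3 k) f σ) ^ 2
      = ∑ σ ∈ X3 ε δ, f σ * (f σ - Av (X3 ε δ) (lab3 k) f σ) := fun k => sum_sub_Av_sq
  have e1 : ∑ σ ∈ X3 ε δ, L f σ * f σ = ∑ σ ∈ X3 ε δ, ∑ k, (f σ - Av (X3 ε δ) (lab3 k) f σ) ^ 2 := by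
    rw [sum_comm, sum_congr rfl fun k _ => hself k, sum_comm]
    refine sum_congr rfl fun σ _ => ?_
    simp only [hL]
    rw [sum_mul]
    exact sum_congr rfl fun k _ => by ring
  have e2 : ∑ σ ∈ X3 ε δ, L f σ * L f σ = ∑ σ ∈ X3 ε δ, ∑ k, (f σ - Av (X3 ε δ) (lab3 k) f σ) ^ 2
      + 2 * ∑ σ ∈ X3 ε δ,
    ((f σ - Av (X3 ε δ) (lab3 0) f σ) * (f σ - Av (X3 ε δ) (lab3 1) f σ)
     + (f σ - Av (X3 ε δ) (lab3 0) f σ) * (f σ - Av (X3 ε δ) (lab3 2) f σ)
     + (f σ - Av (X3 ε δ) (lab3 1) f σ) * (f σ - Av (X3 ε δ) (lab3 2) f σ)) := by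
    rw [mul_sum, ← sum_add_distrib]
    refine sum_congr rfl fun σ _ => ?_
    simp only [hL, Fin.sum_univ_three]
    ring
  rw [e1, e2] at hkey
  linarith

end Crest.Agent.SW.Three

namespace Crest.Agent.SW

theorem three : ThreeStmt := Three.three

end Crest.Agent.SW
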