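import Crest.Agent.SWDefs

/-! Averaging operators: library (row 299). -/

namespace Crest.Agent.SW

open Finset

variable {α β γ : Type*} [DecidableEq β] [DecidableEq γ] {Ω : Finset α} {l : α → β} {m : α → γ}
  {f g : α → ℝ} {x y : α}

/-- class of `x` -/
def cls (Ω : Finset α) (l : α → β) (x : α) : Finset α := Ω.filter fun y => l y = l x

lemma mem_cls : y ∈ cls Ω l x ↔ y ∈ Ω ∧ l y = l x := by simp [cls]

lemma self_mem_cls (hx : x ∈ Ω) : x ∈ cls Ω l x := by simp [cls, hx]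

lemma cls_congr (h : l x = l y) : cls Ω l x = cls Ω l y := by simp [cls, h]

lemma card_cls_pos (hx : x ∈ Ω) : 0 < (cls Ω l x).card := card_pos.2 ⟨x, self_mem_cls hx⟩

lemma card_cls_ne (hx : x ∈ Ω) : ((cls Ω l x).card : ℝ) ≠ 0 := by
  exact_mod_cast (card_cls_pos hx).ne'

lemma Av_eq : Av Ω l f x = (∑ y ∈ cls Ω l x, f y) / ((cls Ω l x).card : ℝ) := rfl

lemma Av_label (h : l x = l y) : Av Ω l f x = Av Ω l f y := by
  rw [Av_eq, Av_eq, cls_congr h]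

lemma Av_congr (h : ∀ y ∈ Ω, f y = g y) (x : α) : Av Ω l f x = Av Ω l g x := by
  rw [Av_eq, Av_eq]
  congr 1
  exact sum_congr rfl fun y hy => h y (mem_cls.1 hy).1

lemma Av_add (x : α) : Av Ω l (fun y => f y + g y) x = Av Ω l f x + Av Ω l g x := by
  simp only [Av_eq, sum_add_distrib, add_div]

lemma Av_sub (x : α) : Av Ω l (fun y => f y - g y) x = Av Ω l f x - Av Ω l g x := by
  simp only [Av_eq, sum_sub_distrib, sub_div]

lemma Av_smul (c : ℝ) (x : α) : Av Ω l (fun y => c * f y) x = c * Av Ω l f x := by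
  simp only [Av_eq, ← mul_sum, mul_div_assoc]

lemma Av_sum {ι : Type*} (s : Finset ι) (F : ι → α → ℝ) (x : α) :
    Av Ω l (fun y => ∑ i ∈ s, F i y) x = ∑ i ∈ s, Av Ω l (F i) x := by
  simp only [Av_eq]
  rw [sum_comm, sum_div]

/-- averaging a function constant on the class of `x` -/
lemma Av_of_const (hx : x ∈ Ω) (h : ∀ y ∈ Ω, l y = l x → f y = f x) : Av Ω l f x = f x := by
  rw [Av_eq, sum_congr rfl (g := fun _ => f x), sum_const, nsmul_eq_mul]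
  · field_simp [card_cls_ne (l := l) hx]
  · intro y hy
    exact h y (mem_cls.1 hy).1 (mem_cls.1 hy).2

lemma Av_const (hx : x ∈ Ω) (c : ℝ) : Av Ω l (fun _ => c) x = c :=
  Av_of_const hx fun _ _ _ => rfl

lemma Av_Av (hx : x ∈ Ω) : Av Ω l (Av Ω l f) x = Av Ω l f x :=
  Av_of_const hx fun _ _ h => Av_label h

/-- multiplying by a class function -/
lemma Av_mul_of_const {h : α → ℝ} (hh : ∀ y ∈ Ω, l y = l x → h y = h x) :
    Av Ω l (fun y => h y * f y) x = h x * Av Ω l f x := by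
  rw [Av_eq, Av_eq, ← mul_div_assoc, mul_sum]
  congr 1
  refine sum_congr rfl fun y hy => ?_
  rw [hh y (mem_cls.1 hy).1 (mem_cls.1 hy).2]

lemma sum_Av_mul : ∑ x ∈ Ω, Av Ω l f x * g x = ∑ x ∈ Ω, f x * Av Ω l g x := by
  have h1 : ∀ x ∈ Ω, Av Ω l f x * g x =
      ∑ y ∈ Ω, if l y = l x then f y * g x / ((cls Ω l x).card : ℝ) else 0 := by
    intro x hx
    rw [Av_eq, ← sum_filter, sum_div, sum_mul]
    exact sum_congr rfl fun y _ => by ring
  have h2 : ∀ x ∈ Ω, f x * Av Ω l g x =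
      ∑ y ∈ Ω, if l y = l x then f x * g y / ((cls Ω l x).card : ℝ) else 0 := by
    intro x hx
    rw [Av_eq, ← sum_filter, sum_div, mul_sum]
    exact sum_congr rfl fun y _ => by ring
  rw [sum_congr rfl h1, sum_congr rfl h2, sum_comm]
  refine sum_congr rfl fun x hx => sum_congr rfl fun y hy => ?_
  by_cases h : l x = l y
  · rw [if_pos h, if_pos h.symm, cls_congr h]
  · rw [if_neg h, if_neg (fun h' => h h'.symm)]

lemma sum_Av : ∑ x ∈ Ω, Av Ω l f x = ∑ x ∈ Ω, f x := by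
  have := sum_Av_mul (Ω := Ω) (l := l) (f := f) (g := fun _ => 1)
  simp only [mul_one] at this
  rw [this]
  exact sum_congr rfl fun x hx => by rw [Av_const hx]; ring

lemma sum_Av_mul_Av : ∑ x ∈ Ω, Av Ω l f x * Av Ω l g x = ∑ x ∈ Ω, f x * Av Ω l g x := by
  rw [sum_Av_mul]
  exact sum_congr rfl fun x hx => by rw [Av_Av hx]

/-- `⟨f - P f, P g⟩ = 0` -/
lemma sum_sub_Av_mul_Av : ∑ x ∈ Ω, (f x - Av Ω l f x) * Av Ω l g x = 0 := by
  simp only [sub_mul, sum_sub_distrib]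
  rw [sum_Av_mul_Av, sub_self]

lemma sum_sub_Av_sq : ∑ x ∈ Ω, (f x - Av Ω l f x) ^ 2 = ∑ x ∈ Ω, f x * (f x - Av Ω l f x) := by
  have := sum_sub_Av_mul_Av (Ω := Ω) (l := l) (f := f) (g := f)
  have h : ∑ x ∈ Ω, (f x - Av Ω l f x) ^ 2 =
      ∑ x ∈ Ω, f x * (f x - Av Ω l f x) - ∑ x ∈ Ω, (f x - Av Ω l f x) * Av Ω l f x := by
    rw [← sum_sub_distrib]
    exact sum_congr rfl fun x _ => by ring
  rw [h, this, sub_zero]

/-- tower property: `m` coarser than `l` on `Ω` -/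
lemma Av_tower (h : ∀ x ∈ Ω, ∀ y ∈ Ω, l x = l y → m x = m y) (hx : x ∈ Ω) :
    Av Ω l (Av Ω m f) x = Av Ω m f x :=
  Av_of_const hx fun y hy hxy => Av_label (h y hy x hx hxy)

lemma Av_tower' (h : ∀ x ∈ Ω, ∀ y ∈ Ω, l x = l y → m x = m y) (hx : x ∈ Ω) :
    Av Ω m (Av Ω l f) x = Av Ω m f x := by
  -- test against indicator functions through self-adjointness
  classical
  let g : α → ℝ := fun y => if m y = m x then 1 else 0
  have key : ∑ y ∈ Ω, Av Ω l f y * g y = ∑ y ∈ Ω, f y * g y := by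
    rw [sum_Av_mul]
    refine sum_congr rfl fun y hy => ?_
    congr 1
    refine Av_of_const hy fun z hz hzy => ?_
    have := h z hz y hy hzy
    simp only [g, this]
  rw [Av_eq, Av_eq]
  congr 1
  have e1 : ∀ F : α → ℝ, ∑ y ∈ cls Ω m x, F y = ∑ y ∈ Ω, F y * g y := by
    intro F
    rw [cls, sum_filter]
    exact sum_congr rfl fun y _ => by simp only [g]; split_ifs <;> ring
  rw [e1, e1, key]

/-- square completion implies commutation -/
lemma Av_comm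
    (hsq : ∀ x ∈ Ω, ∀ y ∈ Ω, ∀ z ∈ Ω, l x = l y → m y = m z → ∃ w ∈ Ω, m x = m w ∧ l w = l z)
    (hun : ∀ x ∈ Ω, ∀ y ∈ Ω, l x = l y → m x = m y → x = y) (f : α → ℝ) (hx : x ∈ Ω) :
    Av Ω l (Av Ω m f) x = Av Ω m (Av Ω l f) x := by
  classical
  -- class sizes
  have hsize : ∀ x ∈ Ω, ∀ y ∈ Ω, l x = l y → (cls Ω m x).card ≤ (cls Ω m y).card := by
    intro x hx y hy hxy
    have hch : ∀ z ∈ cls Ω m x, ∃ w ∈ Ω, m y = m w ∧ l w = l z := fun z hz =>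
      hsq y hy x hx z (mem_cls.1 hz).1 hxy.symm (mem_cls.1 hz).2.symm
    choose! φ h1 h2 h3 using hch
    refine card_le_card_of_injOn φ (fun z hz => mem_cls.2 ⟨h1 z hz, (h2 z hz).symm⟩) ?_
    intro z hz z' hz' he
    have hz1 := mem_cls.1 hz
    have hz2 := mem_cls.1 hz'
    refine hun z hz1.1 z' hz2.1 ?_ (hz1.2.trans hz2.2.symm)
    rw [← h3 z hz, ← h3 z' hz', he]
  have hsize' : ∀ x ∈ Ω, ∀ y ∈ Ω, l x = l y → (cls Ω m x).card = (cls Ω m y).card :=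
    fun x hx y hy h => le_antisymm (hsize x hx y hy h) (hsize y hy x hx h.symm)
  have hsq2 : ∀ x ∈ Ω, ∀ y ∈ Ω, ∀ z ∈ Ω, m x = m y → l y = l z → ∃ w ∈ Ω, l x = l w ∧ m w = m z := by
    intro x hx y hy z hz h1 h2
    obtain ⟨w, hw, hw1, hw2⟩ := hsq z hz y hy x hx h2.symm h1.symm
    exact ⟨w, hw, hw2.symm, hw1.symm⟩
  have hsizel : ∀ x ∈ Ω, ∀ y ∈ Ω, m x = m y → (cls Ω l x).card ≤ (cls Ω l y).card := by
    intro x hx y hy hxy
    have hch : ∀ z ∈ cls Ω l x, ∃ w ∈ Ω, l y = l w ∧ m w = m z := fun z hz =>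
      hsq2 y hy x hx z (mem_cls.1 hz).1 hxy.symm (mem_cls.1 hz).2.symm
    choose! φ h1 h2 h3 using hch
    refine card_le_card_of_injOn φ (fun z hz => mem_cls.2 ⟨h1 z hz, (h2 z hz).symm⟩) ?_
    intro z hz z' hz' he
    have hz1 := mem_cls.1 hz
    have hz2 := mem_cls.1 hz'
    refine hun z hz1.1 z' hz2.1 (hz1.2.trans hz2.2.symm) ?_
    rw [← h3 z hz, ← h3 z' hz', he]
  have hsizel' : ∀ x ∈ Ω, ∀ y ∈ Ω, m x = m y → (cls Ω l x).card = (cls Ω l y).card :=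
    fun x hx y hy h => le_antisymm (hsizel x hx y hy h) (hsizel y hy x hx h.symm)
  -- both sides as a sum over z
  have e1 : Av Ω l (Av Ω m f) x =
      (∑ z ∈ Ω, ((Ω.filter fun y => l y = l x ∧ m y = m z).card : ℝ) * f z)
        / (((cls Ω l x).card : ℝ) * ((cls Ω m x).card : ℝ)) := by
    rw [Av_eq, ← div_div, div_right_comm]
    congr 1
    have : ∀ y ∈ cls Ω l x, Av Ω m f y = (∑ z ∈ Ω, if m y = m z then f z else 0) / ((cls Ω m x).card : ℝ) := by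
      intro y hy
      have hy' := mem_cls.1 hy
      rw [Av_eq, hsize' y hy'.1 x hx hy'.2, cls, sum_filter]
      congr 1
      exact sum_congr rfl fun z _ => by simp only [eq_comm]
    rw [sum_congr rfl this, ← sum_div, sum_comm]
    congr 1
    refine sum_congr rfl fun z _ => ?_
    rw [← sum_filter, sum_const, nsmul_eq_mul, cls, filter_filter]
  have e2 : Av Ω m (Av Ω l f) x =
      (∑ z ∈ Ω, ((Ω.filter fun y => m y = m x ∧ l y = l z).card : ℝ) * f z)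
        / (((cls Ω l x).card : ℝ) * ((cls Ω m x).card : ℝ)) := by
    rw [Av_eq, ← div_div]
    congr 1
    have : ∀ y ∈ cls Ω m x, Av Ω l f y = (∑ z ∈ Ω, if l y = l z then f z else 0) / ((cls Ω l x).card : ℝ) := by
      intro y hy
      have hy' := mem_cls.1 hy
      rw [Av_eq, hsizel' y hy'.1 x hx hy'.2, cls, sum_filter]
      congr 1
      exact sum_congr rfl fun z _ => by simp only [eq_comm]
    rw [sum_congr rfl this, ← sum_div, sum_comm]
    congr 1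
    refine sum_congr rfl fun z _ => ?_
    rw [← sum_filter, sum_const, nsmul_eq_mul, cls, filter_filter]
  rw [e1, e2]
  congr 1
  refine sum_congr rfl fun z hz => ?_
  congr 2
  -- both counts are 0 or 1 simultaneously
  have c1 : (Ω.filter fun y => l y = l x ∧ m y = m z).card ≤ 1 := by
    rw [card_le_one]
    intro a ha b hb
    simp only [mem_filter] at ha hb
    exact hun a ha.1 b hb.1 (ha.2.1.trans hb.2.1.symm) (ha.2.2.trans hb.2.2.symm)
  have c2 : (Ω.filter fun y => m y = m x ∧ l y = l z).card ≤ 1 := by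
    rw [card_le_one]
    intro a ha b hb
    simp only [mem_filter] at ha hb
    exact hun a ha.1 b hb.1 (ha.2.2.trans hb.2.2.symm) (ha.2.1.trans hb.2.1.symm)
  have c3 : 0 < (Ω.filter fun y => l y = l x ∧ m y = m z).card ↔
      0 < (Ω.filter fun y => m y = m x ∧ l y = l z).card := by
    rw [card_pos, card_pos]
    constructor
    · rintro ⟨y, hy⟩
      simp only [mem_filter] at hy
      obtain ⟨w, hw, hw1, hw2⟩ := hsq x hx y hy.1 z hz hy.2.1.symm hy.2.2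
      exact ⟨w, by simp only [mem_filter]; exact ⟨hw, hw1.symm, hw2⟩⟩
    · rintro ⟨y, hy⟩
      simp only [mem_filter] at hy
      obtain ⟨w, hw, hw1, hw2⟩ := hsq2 x hx y hy.1 z hz hy.2.1.symm hy.2.2
      exact ⟨w, by simp only [mem_filter]; exact ⟨hw, hw1.symm, hw2⟩⟩
  omega

/-- commuting averagings: `⟨f - P f, f - Q f⟩ ≥ 0` -/
lemma comm_nonneg (hc : ∀ f : α → ℝ, ∀ x ∈ Ω, Av Ω l (Av Ω m f) x = Av Ω m (Av Ω l f) x) (f : α → ℝ) :
    0 ≤ ∑ x ∈ Ω, (f x - Av Ω l f x) * (f x - Av Ω m f x) := by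
  set u : α → ℝ := fun x => f x - Av Ω m f x with hu
  have key : ∑ x ∈ Ω, (f x - Av Ω l f x) * (f x - Av Ω m f x) = ∑ x ∈ Ω, (u x - Av Ω l u x) ^ 2 := by
    rw [sum_sub_Av_sq]
    have h1 : ∀ x ∈ Ω, Av Ω l u x = Av Ω l f x - Av Ω m (Av Ω l f) x := by
      intro x hx
      rw [hu, Av_sub, hc f x hx]
    have h2 : ∑ x ∈ Ω, u x * (Av Ω m f x - Av Ω m (Av Ω l f) x) = 0 := by
      have := sum_sub_Av_mul_Av (Ω := Ω) (l := m) (f := f) (g := fun x => f x - Av Ω l f x)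
      rw [← this]
      refine sum_congr rfl fun x hx => ?_
      rw [Av_sub]
    have h3 : ∑ x ∈ Ω, (f x - Av Ω l f x) * (f x - Av Ω m f x)
        = ∑ x ∈ Ω, u x * (u x - Av Ω l u x) + ∑ x ∈ Ω, u x * (Av Ω m f x - Av Ω m (Av Ω l f) x) := by
      rw [← sum_add_distrib]
      refine sum_congr rfl fun x hx => ?_
      rw [h1 x hx, hu]; ring
    rw [h3, h2, add_zero]
  rw [key]
  exact sum_nonneg fun x _ => sq_nonneg _

/-- intermediate projections. `l1` finer than `l`, `m1` finer than `m`. -/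
lemma AL {β₁ γ₁ : Type*} [DecidableEq β₁] [DecidableEq γ₁] {l1 : α → β₁} {m1 : α → γ₁}
    (hl : ∀ x ∈ Ω, ∀ y ∈ Ω, l1 x = l1 y → l x = l y)
    (hm : ∀ x ∈ Ω, ∀ y ∈ Ω, m1 x = m1 y → m x = m y)
    (h1 : ∀ f : α → ℝ, ∀ x ∈ Ω, Av Ω l1 (Av Ω m f) x = Av Ω m (Av Ω l1 f) x)
    (h2 : ∀ f : α → ℝ, ∀ x ∈ Ω, Av Ω l1 (Av Ω m1 f) x = Av Ω m1 (Av Ω l1 f) x)
    (h3 : ∀ f : α → ℝ, ∀ x ∈ Ω, Av Ω l (Av Ω m1 f) x = Av Ω m1 (Av Ω l f) x) (f : α → ℝ) :
    ∑ x ∈ Ω, (Av Ω l1 f x - Av Ω l f x) * (Av Ω m1 f x - Av Ω m f x)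
      ≤ ∑ x ∈ Ω, (f x - Av Ω l f x) * (f x - Av Ω m f x) := by
  have hA : 0 ≤ ∑ x ∈ Ω, (f x - Av Ω l1 f x) * (f x - Av Ω m f x) := comm_nonneg h1 f
  have hB : 0 ≤ ∑ x ∈ Ω, (Av Ω l1 f x - Av Ω l f x) * (f x - Av Ω m1 f x) := by
    set u : α → ℝ := fun x => f x - Av Ω m1 f x with hu
    have key : ∑ x ∈ Ω, (Av Ω l1 f x - Av Ω l f x) * (f x - Av Ω m1 f x)
        = ∑ x ∈ Ω, (Av Ω l1 u x - Av Ω l u x) ^ 2 := by
      -- ⟨(P1-P)u,(P1-P)u⟩ = ⟨u,(P1-P)u⟩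
      have e1 : ∑ x ∈ Ω, (Av Ω l1 u x - Av Ω l u x) ^ 2 = ∑ x ∈ Ω, u x * (Av Ω l1 u x - Av Ω l u x) := by
        have a1 : ∑ x ∈ Ω, Av Ω l1 u x * Av Ω l1 u x = ∑ x ∈ Ω, u x * Av Ω l1 u x := sum_Av_mul_Av
        have a2 : ∑ x ∈ Ω, Av Ω l u x * Av Ω l u x = ∑ x ∈ Ω, u x * Av Ω l u x := sum_Av_mul_Av
        have a3 : ∑ x ∈ Ω, Av Ω l1 u x * Av Ω l u x = ∑ x ∈ Ω, u x * Av Ω l u x := by
          rw [sum_Av_mul]
          exact sum_congr rfl fun x hx => by rw [Av_tower hl hx]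
        have : ∑ x ∈ Ω, (Av Ω l1 u x - Av Ω l u x) ^ 2 = ∑ x ∈ Ω, Av Ω l1 u x * Av Ω l1 u x
            - 2 * ∑ x ∈ Ω, Av Ω l1 u x * Av Ω l u x + ∑ x ∈ Ω, Av Ω l u x * Av Ω l u x := by
          rw [mul_sum, ← sum_sub_distrib, ← sum_add_distrib]
          exact sum_congr rfl fun x _ => by ring
        rw [this, a1, a2, a3]
        simp only [mul_sub, sum_sub_distrib]
        ring
      -- (P1-P)u = (P1-P)f - Q1 (P1-P) f
      have e2 : ∀ x ∈ Ω, Av Ω l1 u x - Av Ω l u x =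
          (Av Ω l1 f x - Av Ω l f x) - Av Ω m1 (fun y => Av Ω l1 f y - Av Ω l f y) x := by
        intro x hx
        rw [hu, Av_sub, Av_sub, Av_sub, h2 f x hx, h3 f x hx]; ring
      have e3 : ∑ x ∈ Ω, u x * Av Ω m1 (fun y => Av Ω l1 f y - Av Ω l f y) x = 0 := sum_sub_Av_mul_Av
      have e4 : ∑ x ∈ Ω, u x * (Av Ω l1 u x - Av Ω l u x) =
          ∑ x ∈ Ω, u x * (Av Ω l1 f x - Av Ω l f x) -
            ∑ x ∈ Ω, u x * Av Ω m1 (fun y => Av Ω l1 f y - Av Ω l f y) x := by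
        rw [← sum_sub_distrib]
        refine sum_congr rfl fun x hx => ?_
        rw [e2 x hx]; ring
      rw [e1, e4, e3, sub_zero]
      exact sum_congr rfl fun x _ => by simp only [hu]; ring
    rw [key]
    exact sum_nonneg fun x _ => sq_nonneg _
  have : ∑ x ∈ Ω, (f x - Av Ω l f x) * (f x - Av Ω m f x)
      = ∑ x ∈ Ω, (f x - Av Ω l1 f x) * (f x - Av Ω m f x)
        + ∑ x ∈ Ω, (Av Ω l1 f x - Av Ω l f x) * (f x - Av Ω m1 f x)
        + ∑ x ∈ Ω, (Av Ω l1 f x - Av Ω l f x) * (Av Ω m1 f x - Av Ω m f x) := by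
    rw [← sum_add_distrib, ← sum_add_distrib]
    exact sum_congr rfl fun x _ => by ring
  rw [this]
  linarith

end Crest.Agent.SW
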