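import Mathlib

/-! Shared definitions for S0453 (switch chain, row 299). -/

namespace Crest.Agent.SW

open Finset

/-- averaging operator: average of `f` over the class of `x` in `Ω` for the label `l`. -/
noncomputable def Av {α β : Type*} [DecidableEq β] (Ω : Finset α) (l : α → β) (f : α → ℝ) (x : α) : ℝ :=
  (∑ y ∈ Ω.filter (fun y => l y = l x), f y) / ((Ω.filter (fun y => l y = l x)).card : ℝ)

/-- states: 0/1 matrices -/
abbrev St (V : Type*) := V → V → Bool

section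
variable {V : Type*} [Fintype V] [DecidableEq V]

/-- symmetric, zero diagonal -/
def IsG (x : St V) : Prop := (∀ u v, x u v = x v u) ∧ ∀ u, x u u = false

instance : DecidablePred (IsG (V := V)) := fun x => by unfold IsG; infer_instance

def dg (x : St V) (u : V) : ℕ := (univ.filter fun v => x u v = true).card

/-- realizations of the degree vector `d` -/
def Om (d : V → ℕ) : Finset (St V) := univ.filter fun x => IsG x ∧ ∀ u, dg x u = d u

/-- `x` with all pairs having exactly one endpoint in `{a,b}` erased -/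
def lab (a b : V) (x : St V) : St V := fun u v =>
  if ((u = a ∨ u = b) ↔ (v = a ∨ v = b)) then x u v else false

/-- resample the exclusive neighbours of `a` and `b` -/
noncomputable def PP (d : V → ℕ) (a b : V) (f : St V → ℝ) : St V → ℝ := Av (Om d) (lab a b) f

noncomputable def RR (d : V → ℕ) (a b : V) (f : St V → ℝ) (x : St V) : ℝ := f x - PP d a b f x

/-- all four distinct -/
def Dist4 (a b p q : V) : Prop := a ≠ b ∧ p ≠ q ∧ a ≠ p ∧ a ≠ q ∧ b ≠ p ∧ b ≠ q

instance (a b p q : V) : Decidable (Dist4 a b p q) := by unfold Dist4; infer_instance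

/-- the 2x2 block `{a,b} x {p,q}` of `x` is a permutation matrix -/
def ctr (a b p q : V) (x : St V) : Prop := x a p ≠ x a q ∧ x b p ≠ x b q ∧ x a p ≠ x b p

instance (a b p q : V) : DecidablePred (ctr a b p q) := fun x => by unfold ctr; infer_instance

/-- flip the four pairs of `{a,b} x {p,q}` -/
def fl (a b p q : V) (x : St V) : St V := fun u v =>
  if ((u = a ∨ u = b) ∧ (v = p ∨ v = q)) ∨ ((u = p ∨ u = q) ∧ (v = a ∨ v = b)) then !(x u v) else x u v

/-- the switch on the 4-cycle with diagonals `{a,b}`, `{p,q}` -/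
def gam (a b p q : V) (x : St V) : St V := if ctr a b p q x then fl a b p q x else x

noncomputable def hh (a b p q : V) (f : St V → ℝ) (x : St V) : ℝ := (f x - f (gam a b p q x)) / 2

/-- average of `f` over the states in the `{a,b}`-class of `x` whose block `{a,b} x {p,q}` is a permutation matrix -/
noncomputable def FF (d : V → ℕ) (a b p q : V) (f : St V → ℝ) (x : St V) : ℝ :=
  (∑ y ∈ (Om d).filter (fun y => lab a b y = lab a b x ∧ ctr a b p q y), f y) /
    (((Om d).filter (fun y => lab a b y = lab a b x ∧ ctr a b p q y)).card : ℝ)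

/-- pairs `(p,q)` distinct and outside `{a,b}` -/
def Pq (a b : V) : Finset (V × V) := univ.filter fun pq => Dist4 a b pq.1 pq.2

end

/-! ### Statements of the modules -/

/-- module DISJ -/
def DisjStmt : Prop := ∀ (n : ℕ) (d : Fin n → ℕ) (f : St (Fin n) → ℝ) (a b p q : Fin n), Dist4 a b p q →
  (∑ x ∈ Om d, hh a b p q f x ^ 2)
    - (∑ x ∈ (Om d).filter (ctr a b p q),
        ((FF d a b p q f x - PP d a b f x) ^ 2 + (FF d p q a b f x - PP d p q f x) ^ 2)) / 2
    ≤ ∑ x ∈ Om d, RR d a b f x * RR d p q f x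

/-- module ROW (uses SLICE) -/
def RowStmt : Prop := ∀ (n : ℕ) (d : Fin n → ℕ) (f : St (Fin n) → ℝ) (a b : Fin n), a ≠ b →
  (∑ pq ∈ Pq a b, ∑ x ∈ (Om d).filter (ctr a b pq.1 pq.2), (FF d a b pq.1 pq.2 f x - PP d a b f x) ^ 2
      ≤ ∑ pq ∈ Pq a b, ∑ x ∈ Om d, hh a b pq.1 pq.2 f x ^ 2)
  ∧ 2 * ∑ x ∈ Om d, RR d a b f x ^ 2 ≤ ∑ pq ∈ Pq a b, ∑ x ∈ Om d, hh a b pq.1 pq.2 f x ^ 2

/-- module SHARE (uses THREE) -/
def ShareStmt : Prop := ∀ (n : ℕ) (d : Fin n → ℕ) (f : St (Fin n) → ℝ) (a b c : Fin n), a ≠ b → a ≠ c → b ≠ c →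
  0 ≤ ∑ x ∈ Om d, (RR d a b f x * RR d a c f x + RR d a b f x * RR d b c f x + RR d a c f x * RR d b c f x)

/-- module CONN -/
def ConnStmt : Prop := ∀ (n : ℕ) (d : Fin n → ℕ) (g : St (Fin n) → ℝ),
  (∀ a b : Fin n, a ≠ b → ∀ x ∈ Om d, ∀ y ∈ Om d, lab a b x = lab a b y → g x = g y) →
  ∀ x ∈ Om d, ∀ y ∈ Om d, g x = g y

/-- `y` separates `c` and `e` -/
def sep {γ : Type*} [DecidableEq γ] (c e : γ) (y : Finset γ) : Prop := ¬ (c ∈ y ↔ e ∈ y)

instance {γ : Type*} [DecidableEq γ] (c e : γ) : DecidablePred (sep c e) := fun y => by unfold sep; infer_instance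

/-- module SLICE: `S = M.powersetCard k`, uniform average `m = mean of φ`.
 (PJ) Poincare inequality of the Johnson graph; (WI) Gram bound. Sums over ordered pairs. -/
def SliceStmt : Prop := ∀ (γ : Type) [DecidableEq γ] (M : Finset γ) (k : ℕ) (φ : Finset γ → ℝ),
  ((M.card : ℝ) * ∑ y ∈ M.powersetCard k, (φ y - (∑ z ∈ M.powersetCard k, φ z) / ((M.powersetCard k).card : ℝ)) ^ 2
    ≤ ∑ ce ∈ M.offDiag, ∑ y ∈ (M.powersetCard k).filter (sep ce.1 ce.2),
        (φ y - φ (symmDiff y {ce.1, ce.2})) ^ 2 / 4)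
  ∧ (∑ ce ∈ M.offDiag, ∑ _y ∈ (M.powersetCard k).filter (sep ce.1 ce.2),
        ((∑ z ∈ (M.powersetCard k).filter (sep ce.1 ce.2), φ z) /
            (((M.powersetCard k).filter (sep ce.1 ce.2)).card : ℝ)
          - (∑ z ∈ M.powersetCard k, φ z) / ((M.powersetCard k).card : ℝ)) ^ 2
    ≤ (M.card : ℝ) * ∑ y ∈ M.powersetCard k, (φ y - (∑ z ∈ M.powersetCard k, φ z) / ((M.powersetCard k).card : ℝ)) ^ 2)

/-- the three-row system: colourings of `Q` by three colours with prescribed signed counts -/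
def X3 {Q : Type} [Fintype Q] [DecidableEq Q] (ε : Q → Bool) (δ : Fin 3 → ℤ) : Finset (Q → Fin 3) :=
  univ.filter fun σ => ∀ i, (∑ q ∈ univ.filter (fun q => σ q = i), (if ε q then (1 : ℤ) else -1)) = δ i

/-- label: the set of points of colour `k` -/
def lab3 {Q : Type} [Fintype Q] [DecidableEq Q] (k : Fin 3) (σ : Q → Fin 3) : Finset Q := univ.filter fun q => σ q = k

/-- module THREE -/
def ThreeStmt : Prop := ∀ (Q : Type) [Fintype Q] [DecidableEq Q] (ε : Q → Bool) (δ : Fin 3 → ℤ) (f : (Q → Fin 3) → ℝ),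
  0 ≤ ∑ σ ∈ X3 ε δ,
    ((f σ - Av (X3 ε δ) (lab3 0) f σ) * (f σ - Av (X3 ε δ) (lab3 1) f σ)
     + (f σ - Av (X3 ε δ) (lab3 0) f σ) * (f σ - Av (X3 ε δ) (lab3 2) f σ)
     + (f σ - Av (X3 ε δ) (lab3 1) f σ) * (f σ - Av (X3 ε δ) (lab3 2) f σ))

/-- module MAIN (assembly): Poincare inequality with constant 1 -/
def MainStmt : Prop := ∀ (n : ℕ) (d : Fin n → ℕ) (f : St (Fin n) → ℝ),
  ∑ x ∈ Om d, (f x - (∑ y ∈ Om d, f y) / ((Om d).card : ℝ)) ^ 2
    ≤ (1 / 16) * ∑ x ∈ Om d, ∑ a : Fin n, ∑ b : Fin n, ∑ pq ∈ Pq a b, (f x - f (gam a b pq.1 pq.2 x)) ^ 2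

end Crest.Agent.SW
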