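import Crest.Agent.SWAv

/-! Linear algebra lemma (row 299): `T² ≥ cT` and `ker T = constants` give a Poincare inequality. -/

namespace Crest.Agent.SW

open Finset

variable {α β ι : Type*} [DecidableEq β]

section
variable (Ω : Finset α)

/-- extension by zero -/
noncomputable def ext0 (u : Ω → ℝ) (x : α) : ℝ := by
  classical exact if h : x ∈ Ω then u ⟨x, h⟩ else 0

lemma ext0_mem (u : Ω → ℝ) (x : Ω) : ext0 Ω u x = u x := by
  simp [ext0]

lemma ext0_add (u v : Ω → ℝ) : ext0 Ω (u + v) = fun x => ext0 Ω u x + ext0 Ω v x := by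
  funext x; unfold ext0; split_ifs <;> simp

lemma ext0_smul (c : ℝ) (u : Ω → ℝ) : ext0 Ω (c • u) = fun x => c * ext0 Ω u x := by
  funext x; unfold ext0; split_ifs <;> simp

/-- the operator `∑ (I - P_i)` on functions on `Ω` -/
noncomputable def TT (I : Finset ι) (l : ι → α → β) : EuclideanSpace ℝ Ω →ₗ[ℝ] EuclideanSpace ℝ Ω where
  toFun u := WithLp.toLp 2 fun x : Ω => ∑ i ∈ I, (ext0 Ω u.ofLp x - Av Ω (l i) (ext0 Ω u.ofLp) x)
  map_add' u v := by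
    ext x
    simp only [WithLp.ofLp_add, ext0_add, Av_add, PiLp.add_apply]
    rw [← sum_add_distrib]
    exact sum_congr rfl fun i _ => by ring
  map_smul' c u := by
    ext x
    simp only [WithLp.ofLp_smul, ext0_smul, Av_smul, PiLp.smul_apply, RingHom.id_apply, smul_eq_mul]
    rw [mul_sum]
    exact sum_congr rfl fun i _ => by ring

lemma TT_apply (I : Finset ι) (l : ι → α → β) (u : EuclideanSpace ℝ Ω) (x : Ω) :
    (TT Ω I l u).ofLp x = ∑ i ∈ I, (ext0 Ω u.ofLp x - Av Ω (l i) (ext0 Ω u.ofLp) x) := rfl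

lemma inner_eq (u v : EuclideanSpace ℝ Ω) :
    inner ℝ u v = ∑ x ∈ Ω, ext0 Ω u.ofLp x * ext0 Ω v.ofLp x := by
  rw [PiLp.inner_apply, ← sum_coe_sort Ω]
  refine sum_congr rfl fun x _ => ?_
  rw [ext0_mem, ext0_mem]
  simp [mul_comm]

lemma ext0_TT (I : Finset ι) (l : ι → α → β) (u : EuclideanSpace ℝ Ω) {x : α} (hx : x ∈ Ω) :
    ext0 Ω (TT Ω I l u).ofLp x = ∑ i ∈ I, (ext0 Ω u.ofLp x - Av Ω (l i) (ext0 Ω u.ofLp) x) := by
  have := ext0_mem Ω (TT Ω I l u).ofLp ⟨x, hx⟩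
  rw [this, TT_apply]

lemma TT_inner (I : Finset ι) (l : ι → α → β) (u v : EuclideanSpace ℝ Ω) :
    inner ℝ (TT Ω I l u) v =
      ∑ i ∈ I, ∑ x ∈ Ω, (ext0 Ω u.ofLp x - Av Ω (l i) (ext0 Ω u.ofLp) x) * ext0 Ω v.ofLp x := by
  rw [inner_eq, sum_comm]
  refine sum_congr rfl fun x hx => ?_
  rw [ext0_TT Ω I l u hx, sum_mul]

lemma TT_symm (I : Finset ι) (l : ι → α → β) : (TT Ω I l).IsSymmetric := by
  intro u v
  rw [TT_inner, real_inner_comm, TT_inner]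
  refine sum_congr rfl fun i _ => ?_
  simp only [sub_mul, sum_sub_distrib]
  congr 1
  · exact sum_congr rfl fun x _ => by ring
  · rw [sum_Av_mul]
    exact sum_congr rfl fun x _ => by ring

lemma TT_inner_self (I : Finset ι) (l : ι → α → β) (u : EuclideanSpace ℝ Ω) :
    inner ℝ (TT Ω I l u) u =
      ∑ i ∈ I, ∑ x ∈ Ω, (ext0 Ω u.ofLp x - Av Ω (l i) (ext0 Ω u.ofLp) x) ^ 2 := by
  rw [TT_inner]
  refine sum_congr rfl fun i _ => ?_
  rw [sum_sub_Av_sq]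
  exact sum_congr rfl fun x _ => by ring

end

theorem lin (Ω : Finset α) (I : Finset ι) (l : ι → α → β) (c : ℝ) (hc : 0 < c)
    (H : ∀ f : α → ℝ, c * ∑ i ∈ I, ∑ x ∈ Ω, (f x - Av Ω (l i) f x) ^ 2
      ≤ ∑ x ∈ Ω, (∑ i ∈ I, (f x - Av Ω (l i) f x)) ^ 2)
    (K : ∀ g : α → ℝ, (∀ i ∈ I, ∀ x ∈ Ω, ∀ y ∈ Ω, l i x = l i y → g x = g y) →
      ∀ x ∈ Ω, ∀ y ∈ Ω, g x = g y) (f : α → ℝ) :
    c * ∑ x ∈ Ω, (f x - (∑ y ∈ Ω, f y) / (Ω.card : ℝ)) ^ 2
      ≤ ∑ i ∈ I, ∑ x ∈ Ω, (f x - Av Ω (l i) f x) ^ 2 := by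
  classical
  set μ : ℝ := (∑ y ∈ Ω, f y) / (Ω.card : ℝ) with hμ
  let T := TT Ω I l
  let g : EuclideanSpace ℝ Ω := WithLp.toLp 2 fun x : Ω => f x - μ
  have hg : ∀ x ∈ Ω, ext0 Ω g.ofLp x = f x - μ := fun x hx => ext0_mem Ω g.ofLp ⟨x, hx⟩
  -- g is orthogonal to the kernel
  have hker : g ∈ T.kerᗮ := by
    rw [Submodule.mem_orthogonal]
    intro h hh
    have h0 : T h = 0 := hh
    have h1 : ∑ i ∈ I, ∑ x ∈ Ω, (ext0 Ω h.ofLp x - Av Ω (l i) (ext0 Ω h.ofLp) x) ^ 2 = 0 := by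
      rw [← TT_inner_self, show TT Ω I l h = 0 from h0, inner_zero_left]
    have h2 : ∀ i ∈ I, ∀ x ∈ Ω, ext0 Ω h.ofLp x = Av Ω (l i) (ext0 Ω h.ofLp) x := by
      intro i hi x hx
      have a := (sum_eq_zero_iff_of_nonneg (fun i _ => sum_nonneg fun x _ => sq_nonneg _)).1 h1 i hi
      have b := (sum_eq_zero_iff_of_nonneg (fun x _ => sq_nonneg _)).1 a x hx
      have := pow_eq_zero_iff (n := 2) (by norm_num) |>.1 b
      linarith
    have h3 := K (ext0 Ω h.ofLp) (fun i hi x hx y hy hxy => by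
      rw [h2 i hi x hx, h2 i hi y hy, Av_label hxy])
    rw [inner_eq]
    rcases Ω.eq_empty_or_nonempty with he | ⟨x0, hx0⟩
    · simp [he]
    · rw [sum_congr rfl (g := fun x => ext0 Ω h.ofLp x0 * (f x - μ)) (fun x hx => by
        rw [h3 x hx x0 hx0, hg x hx]), ← mul_sum, sum_sub_distrib, sum_const, nsmul_eq_mul, hμ]
      have hne : (Ω.card : ℝ) ≠ 0 := by exact_mod_cast (card_pos.2 ⟨x0, hx0⟩).ne'
      field_simp
      ring
  have hrange : g ∈ T.range := by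
    have h1 : T.rangeᗮ = T.ker := (TT_symm Ω I l).orthogonal_range
    rw [← h1, Submodule.orthogonal_orthogonal] at hker
    exact hker
  obtain ⟨h, hh⟩ := hrange
  -- Cauchy-Schwarz for the form ⟨·, T ·⟩
  have e1 : ‖g‖ ^ 2 = ∑ x ∈ Ω, (f x - μ) ^ 2 := by
    rw [← real_inner_self_eq_norm_sq, inner_eq]
    exact sum_congr rfl fun x hx => by rw [hg x hx]; ring
  have e2 : inner ℝ (T g) g = ∑ i ∈ I, ∑ x ∈ Ω, (f x - Av Ω (l i) f x) ^ 2 := by
    rw [TT_inner_self]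
    refine sum_congr rfl fun i _ => sum_congr rfl fun x hx => ?_
    rw [hg x hx, Av_congr (g := fun y => f y - μ) hg x, Av_sub, Av_const hx]
    ring
  have e3 : c * inner ℝ (T h) h ≤ ‖g‖ ^ 2 := by
    have := H (ext0 Ω h.ofLp)
    rw [← TT_inner_self] at this
    refine this.trans (le_of_eq ?_)
    rw [← hh, ← real_inner_self_eq_norm_sq, inner_eq]
    refine sum_congr rfl fun x hx => ?_
    rw [ext0_TT Ω I l h hx, sq]
  have psd : ∀ u : EuclideanSpace ℝ Ω, 0 ≤ inner ℝ (T u) u := fun u => by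
    rw [TT_inner_self]
    exact sum_nonneg fun i _ => sum_nonneg fun x _ => sq_nonneg _
  have e4 : inner ℝ (T h) h = inner ℝ g h := by rw [hh]
  have e5 : inner ℝ (T g) h = ‖g‖ ^ 2 := by
    rw [TT_symm Ω I l g h, show TT Ω I l h = g from hh, real_inner_self_eq_norm_sq]
  -- ‖g‖⁴ ≤ ⟨Tg,g⟩⟨Th,h⟩ from positivity of quadratic form at g - t h
  rcases eq_or_ne (‖g‖ ^ 2) 0 with hz | hnz
  · rw [← e1, hz, ← e2]; simpa using psd g
  have hgpos : 0 < ‖g‖ ^ 2 := lt_of_le_of_ne (sq_nonneg _) (Ne.symm hnz)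
  -- use t = c
  have q := psd (g - c • h)
  have e6 : inner ℝ (T (g - c • h)) (g - c • h)
      = inner ℝ (T g) g - 2 * c * ‖g‖ ^ 2 + c ^ 2 * inner ℝ (T h) h := by
    have a1 : inner ℝ (T h) g = ‖g‖ ^ 2 := by
      rw [show T h = g from hh, real_inner_self_eq_norm_sq]
    simp only [map_sub, map_smul, inner_sub_left, inner_sub_right, inner_smul_left, inner_smul_right,
      RCLike.conj_to_real, a1, e5]
    ring
  rw [e6] at q
  rw [← e1, ← e2]
  have e7 : c ^ 2 * inner ℝ (T h) h ≤ c * ‖g‖ ^ 2 := by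
    have := mul_le_mul_of_nonneg_left e3 hc.le
    calc c ^ 2 * inner ℝ (T h) h = c * (c * inner ℝ (T h) h) := by ring
      _ ≤ _ := this
  linarith

end Crest.Agent.SW
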