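import Crest.Prelude.Def_SwitchChain
import Crest.Agent.SWDefs

/-!
Row 299 (S0453), module KERNEL, part 2: matchings, proposals and the kernel.  Owner: helper8.
-/

set_option autoImplicit false

namespace Crest.Agent.SW.Kern

open Finset Crest.SwitchChain

variable {n : ℕ}

/-- the edge between `u` and `v` -/
def mk (u v : Fin n) (h : u ≠ v) : Edge n := ⟨s(u, v), by simpa using h⟩

@[simp] lemma mem_mk {u v : Fin n} {h : u ≠ v} (w : Fin n) : w ∈ (mk u v h).1 ↔ w = u ∨ w = v := by
  simp [mk]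

lemma mk_eq_mk {u v u' v' : Fin n} {h : u ≠ v} {h' : u' ≠ v'} :
    mk u v h = mk u' v' h' ↔ (u = u' ∧ v = v') ∨ (u = v' ∧ v = u') := by
  simp [mk, Subtype.ext_iff]

lemma mk_comm {u v : Fin n} (h : u ≠ v) : mk u v h = mk v u h.symm := by
  rw [mk_eq_mk]; right; exact ⟨rfl, rfl⟩

lemma exists_mk (e : Edge n) : ∃ u v, ∃ h : u ≠ v, e = mk u v h := by
  obtain ⟨e, he⟩ := e
  induction e using Sym2.ind with
  | _ u v => exact ⟨u, v, by simpa using he, rfl⟩

lemma exists_mk_of_mem {e : Edge n} {u : Fin n} (hu : u ∈ e.1) : ∃ v, ∃ h : u ≠ v, e = mk u v h := by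
  obtain ⟨x, y, h, rfl⟩ := exists_mk e
  rw [mem_mk] at hu
  rcases hu with rfl | rfl
  · exact ⟨y, h, rfl⟩
  · exact ⟨x, h.symm, mk_comm h⟩

/-- the pair of edges `ab`, `cd` is a perfect matching on `{a,b,c,d}`. -/
lemma mem_pmSet {a b c d : Fin n} (hab : a ≠ b) (hac : a ≠ c) (had : a ≠ d) (hbc : b ≠ c)
    (hbd : b ≠ d) (hcd : c ≠ d) :
    ({mk a b hab, mk c d hcd} : Finset (Edge n)) ∈ pmSet ({a, b, c, d} : Finset (Fin n)) := by
  have hne : mk a b hab ≠ mk c d hcd := by
    rw [Ne, mk_eq_mk]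
    rintro (⟨h1, _⟩ | ⟨h1, _⟩)
    · exact hac h1
    · exact had h1
  unfold pmSet
  rw [mem_filter, mem_powersetCard]
  refine ⟨⟨subset_univ _, card_pair hne⟩, ?_, ?_⟩
  · intro e he v hv
    simp only [mem_insert, mem_singleton] at he
    rcases he with rfl | rfl
    · rw [mem_mk] at hv
      simp only [mem_insert, mem_singleton]
      tauto
    · rw [mem_mk] at hv
      simp only [mem_insert, mem_singleton]
      tauto
  · intro v hv
    simp only [mem_insert, mem_singleton] at hv
    rw [filter_insert, filter_singleton]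
    simp only [mem_mk]
    rcases hv with rfl | rfl | rfl | rfl
    · simp [hac, had]
    · simp [hbc, hbd]
    · simp [hac.symm, hbc.symm]
    · simp [had.symm, hbd.symm]

/-- in a perfect matching every vertex lies on one edge. -/
lemma pm_unique {S : Finset (Fin n)} {F : Finset (Edge n)} (hF : F ∈ pmSet S) {v : Fin n}
    (hv : v ∈ S) {e e' : Edge n} (he : e ∈ F) (he' : e' ∈ F) (h : v ∈ e.1) (h' : v ∈ e'.1) :
    e = e' := by
  unfold pmSet at hF
  rw [mem_filter] at hF
  have h1 := hF.2.2 v hv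
  have h2 := card_le_one.1 h1.le
  exact h2 e (mem_filter.2 ⟨he, h⟩) e' (mem_filter.2 ⟨he', h'⟩)

lemma pm_exists {S : Finset (Fin n)} {F : Finset (Edge n)} (hF : F ∈ pmSet S) {v : Fin n}
    (hv : v ∈ S) : ∃ e ∈ F, v ∈ e.1 := by
  unfold pmSet at hF
  rw [mem_filter] at hF
  have h1 := hF.2.2 v hv
  obtain ⟨e, he⟩ := card_pos.1 (by rw [h1]; exact Nat.one_pos)
  exact ⟨e, (mem_filter.1 he).1, (mem_filter.1 he).2⟩

lemma pm_mem {S : Finset (Fin n)} {F : Finset (Edge n)} (hF : F ∈ pmSet S) {e : Edge n}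
    (he : e ∈ F) {v : Fin n} (h : v ∈ e.1) : v ∈ S := by
  unfold pmSet at hF
  rw [mem_filter] at hF
  exact hF.2.1 e he v h

lemma pm_card {S : Finset (Fin n)} {F : Finset (Edge n)} (hF : F ∈ pmSet S) : F.card = 2 := by
  unfold pmSet at hF
  rw [mem_filter, mem_powersetCard] at hF
  exact hF.1.2

/-- classification of the perfect matchings on four points: the partner of `a` determines it. -/
lemma pm_of_edge {S : Finset (Fin n)} {F : Finset (Edge n)} (hF : F ∈ pmSet S)
    {a x y z : Fin n} (hax : a ≠ x) (hyz : y ≠ z) (hS : S = {a, x, y, z})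
    (hay : a ≠ y) (haz : a ≠ z) (hxy : x ≠ y) (hxz : x ≠ z)
    (he : mk a x hax ∈ F) : F = {mk a x hax, mk y z hyz} := by
  have hyS : y ∈ S := by rw [hS]; simp
  have haS : a ∈ S := by rw [hS]; simp
  have hxS : x ∈ S := by rw [hS]; simp
  obtain ⟨e', he', hy⟩ := pm_exists hF hyS
  obtain ⟨w, hyw, rfl⟩ := exists_mk_of_mem hy
  have hwS : w ∈ S := pm_mem hF he' (by simp)
  rw [hS] at hwS
  simp only [mem_insert, mem_singleton] at hwS
  have hwz : w = z := by
    rcases hwS with h | h | h | h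
    · exfalso
      have := pm_unique hF haS he he' (by simp) (by simp [h])
      rw [mk_eq_mk] at this
      rcases this with ⟨h1, _⟩ | ⟨_, h1⟩
      · exact hay h1
      · exact hxy h1
    · exfalso
      have := pm_unique hF hxS he he' (by simp) (by simp [h])
      rw [mk_eq_mk] at this
      rcases this with ⟨h1, _⟩ | ⟨_, h1⟩
      · exact hay h1
      · exact hxy h1
    · exact absurd h.symm hyw
    · exact h
  subst hwz
  have hne : mk a x hax ≠ mk y w hyw := by
    rw [Ne, mk_eq_mk]
    rintro (⟨h1, _⟩ | ⟨h1, _⟩)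
    · exact hay h1
    · exact haz h1
  symm
  apply eq_of_subset_of_card_le
  · intro e h
    simp only [mem_insert, mem_singleton] at h
    rcases h with rfl | rfl
    · exact he
    · exact he'
  · rw [pm_card hF, card_pair hne]

lemma pmSet_eq {a b c d : Fin n} (hab : a ≠ b) (hac : a ≠ c) (had : a ≠ d) (hbc : b ≠ c)
    (hbd : b ≠ d) (hcd : c ≠ d) :
    pmSet ({a, b, c, d} : Finset (Fin n)) =
      {{mk a b hab, mk c d hcd}, {mk a c hac, mk b d hbd}, {mk a d had, mk b c hbc}} := by
  ext F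
  constructor
  · intro hF
    obtain ⟨e, he, ha⟩ := pm_exists hF (v := a) (by simp)
    obtain ⟨x, hax, rfl⟩ := exists_mk_of_mem ha
    have hx : x ∈ ({a, b, c, d} : Finset (Fin n)) := pm_mem hF he (by simp)
    simp only [mem_insert, mem_singleton] at hx ⊢
    rcases hx with rfl | rfl | rfl | rfl
    · exact absurd rfl hax
    · left; exact pm_of_edge hF hax hcd rfl hac had hbc hbd he
    · right; left
      refine pm_of_edge hF hax hbd ?_ hab had hbc.symm hcd he
      ext v; simp only [mem_insert, mem_singleton]; tauto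
    · right; right
      refine pm_of_edge hF hax hbc ?_ hab hac hbd.symm hcd.symm he
      ext v; simp only [mem_insert, mem_singleton]; tauto
  · intro hF
    simp only [mem_insert, mem_singleton] at hF
    rcases hF with rfl | rfl | rfl
    · exact mem_pmSet hab hac had hbc hbd hcd
    · have := mem_pmSet hac hab had hbc.symm hcd hbd
      convert this using 2
      ext v; simp only [mem_insert, mem_singleton]; tauto
    · have := mem_pmSet had hab hac hbd.symm hcd.symm hbc
      convert this using 2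
      ext v; simp only [mem_insert, mem_singleton]; tauto

lemma exists_four {S : Finset (Fin n)} (hS : S.card = 4) : ∃ a b c d : Fin n,
    a ≠ b ∧ a ≠ c ∧ a ≠ d ∧ b ≠ c ∧ b ≠ d ∧ c ≠ d ∧ S = {a, b, c, d} := by
  obtain ⟨a, S', ha, rfl, h3⟩ := card_eq_succ.1 hS
  obtain ⟨b, c, d, hbc, hbd, hcd, rfl⟩ := card_eq_three.1 h3
  simp only [mem_insert, mem_singleton, not_or] at ha
  exact ⟨a, b, c, d, ha.1, ha.2.1, ha.2.2, hbc, hbd, hcd, rfl⟩

lemma card_pmSet {S : Finset (Fin n)} (hS : S.card = 4) : (pmSet S).card = 3 := by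
  obtain ⟨a, b, c, d, hab, hac, had, hbc, hbd, hcd, rfl⟩ := exists_four hS
  rw [pmSet_eq hab hac had hbc hbd hcd, card_eq_three]
  have h1 : ∀ {F G : Finset (Edge n)} {e : Edge n}, e ∈ F → e ∉ G → F ≠ G := by
    intro F G e h1 h2 h3; exact h2 (h3 ▸ h1)
  refine ⟨_, _, _, ?_, ?_, ?_, rfl⟩
  · refine h1 (e := mk a b hab) (by simp) ?_
    simp only [mem_insert, mem_singleton, mk_eq_mk, not_or, not_and]
    refine ⟨⟨fun _ => hbc, fun h => absurd h hac⟩, ⟨fun h => absurd h hab, fun h => absurd h had⟩⟩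
  · refine h1 (e := mk a b hab) (by simp) ?_
    simp only [mem_insert, mem_singleton, mk_eq_mk, not_or, not_and]
    refine ⟨⟨fun _ => hbd, fun h => absurd h had⟩, ⟨fun h => absurd h hab, fun h => absurd h hac⟩⟩
  · refine h1 (e := mk a c hac) (by simp) ?_
    simp only [mem_insert, mem_singleton, mk_eq_mk, not_or, not_and]
    refine ⟨⟨fun _ => hcd, fun h => absurd h had⟩, ⟨fun h => absurd h hab, fun h => absurd h hac⟩⟩

/-! ### sums over proposals -/

/-- sum over the ordered pairs of distinct matchings on `S` -/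
def pS (S : Finset (Fin n)) (φ : Finset (Edge n) → Finset (Edge n) → ℝ) : ℝ :=
  ∑ F ∈ pmSet S, ∑ F' ∈ (pmSet S).erase F, φ F F'

/-- sum over all proposals -/
def pT (φ : Finset (Edge n) → Finset (Edge n) → ℝ) : ℝ :=
  ∑ S ∈ (univ : Finset (Fin n)).powersetCard 4, pS S φ

lemma pT_add (φ ψ : Finset (Edge n) → Finset (Edge n) → ℝ) :
    pT (fun F F' => φ F F' + ψ F F') = pT φ + pT ψ := by
  unfold pT pS
  simp only [sum_add_distrib]

lemma pT_mul (c : ℝ) (φ : Finset (Edge n) → Finset (Edge n) → ℝ) :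
    pT (fun F F' => c * φ F F') = c * pT φ := by
  unfold pT pS
  simp only [mul_sum]

lemma pS_nonneg {S : Finset (Fin n)} {φ : Finset (Edge n) → Finset (Edge n) → ℝ}
    (h : ∀ F F', 0 ≤ φ F F') : 0 ≤ pS S φ :=
  sum_nonneg fun _ _ => sum_nonneg fun _ _ => h _ _

lemma pT_nonneg {φ : Finset (Edge n) → Finset (Edge n) → ℝ}
    (h : ∀ F F', 0 ≤ φ F F') : 0 ≤ pT φ :=
  sum_nonneg fun _ _ => pS_nonneg h

lemma pT_one : pT (n := n) (fun _ _ => 1) = 6 * (n.choose 4 : ℝ) := by
  unfold pT
  have h : ∀ S ∈ (univ : Finset (Fin n)).powersetCard 4, pS S (fun _ _ => (1 : ℝ)) = 6 := by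
    intro S hS
    rw [mem_powersetCard] at hS
    unfold pS
    have h1 : ∀ F ∈ pmSet S, ∑ _F' ∈ (pmSet S).erase F, (1 : ℝ) = 2 := by
      intro F hF
      rw [sum_const, card_erase_of_mem hF, card_pmSet hS.2]
      norm_num
    rw [sum_congr rfl h1, sum_const, card_pmSet hS.2]
    norm_num
  rw [sum_congr rfl h, sum_const, card_powersetCard, card_univ, Fintype.card_fin]
  simp [mul_comm]

/-- the number of proposals as a sum -/
lemma proposalCount_cast (E E' : Finset (Edge n)) :
    (proposalCount E E' : ℝ) = pT (fun F F' => if switchResult E F F' = E' then 1 else 0) := by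
  unfold proposalCount pT pS
  push_cast
  rfl

/-- sums over targets -/
lemma sum_proposalCount (Ω : Finset (Finset (Edge n))) (E : Finset (Edge n))
    (g : Finset (Edge n) → ℝ)
    (hΩ : ∀ S : Finset (Fin n), S.card = 4 → ∀ F ∈ pmSet S, ∀ F' ∈ (pmSet S).erase F,
      switchResult E F F' ∈ Ω) :
    ∑ E' ∈ Ω, (proposalCount E E' : ℝ) * g E' = pT (fun F F' => g (switchResult E F F')) := by
  simp only [proposalCount_cast]
  unfold pT pS
  simp only [sum_mul]
  rw [sum_comm]
  refine sum_congr rfl fun S hS => ?_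
  rw [sum_comm]
  refine sum_congr rfl fun F hF => ?_
  rw [sum_comm]
  refine sum_congr rfl fun F' hF' => ?_
  have hmem := hΩ S (mem_powersetCard.1 hS).2 F hF F' hF'
  simp only [ite_mul, one_mul, zero_mul]
  rw [sum_ite_eq, if_pos hmem]

/-! ### reversibility, closure -/

lemma switchResult_ne {E F F' : Finset (Edge n)} (h : switchResult E F F' ≠ E) :
    F ⊆ E ∧ Disjoint F' E ∧ switchResult E F F' = E \ F ∪ F' := by
  unfold switchResult at h ⊢
  by_cases hc : F ⊆ E ∧ Disjoint F' E
  · rw [if_pos hc]; exact ⟨hc.1, hc.2, rfl⟩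
  · rw [if_neg hc] at h; exact absurd rfl h

lemma switchResult_symm {E E' F F' : Finset (Edge n)} (hne : E ≠ E')
    (h : switchResult E F F' = E') : switchResult E' F' F = E := by
  have h1 : switchResult E F F' ≠ E := by rw [h]; exact hne.symm
  obtain ⟨hF, hF', h2⟩ := switchResult_ne h1
  rw [h] at h2
  subst h2
  unfold switchResult
  rw [disjoint_left] at hF'
  have c1 : F' ⊆ E \ F ∪ F' := subset_union_right
  have c2 : Disjoint F (E \ F ∪ F') := by
    rw [disjoint_left]
    intro e he h3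
    rw [mem_union, mem_sdiff] at h3
    rcases h3 with h3 | h3
    · exact h3.2 he
    · exact hF' h3 (hF he)
  rw [if_pos ⟨c1, c2⟩]
  ext e
  simp only [mem_union, mem_sdiff]
  constructor
  · rintro (⟨⟨h3, _⟩ | h3, h4⟩ | h3)
    · exact h3
    · exact absurd h3 h4
    · exact hF h3
  · intro h3
    by_cases h4 : e ∈ F
    · right; exact h4
    · left; exact ⟨Or.inl ⟨h3, h4⟩, fun h5 => hF' h5 h3⟩

lemma proposalCount_symm (E E' : Finset (Edge n)) : proposalCount E E' = proposalCount E' E := by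
  by_cases hne : E = E'
  · rw [hne]
  unfold proposalCount
  refine sum_congr rfl fun S _ => ?_
  have e1 : ∀ (A B : Finset (Edge n)), ∑ F ∈ pmSet S, ∑ F' ∈ (pmSet S).erase F,
      (if switchResult A F F' = B then 1 else 0) = ∑ F ∈ pmSet S, ∑ F' ∈ pmSet S,
      (if F' ≠ F ∧ switchResult A F F' = B then 1 else 0) := by
    intro A B
    refine sum_congr rfl fun F _ => ?_
    rw [← filter_ne', sum_filter]
    refine sum_congr rfl fun F' _ => ?_
    by_cases h : F' = F
    · simp [h]
    · simp [h]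
  rw [e1, e1, sum_comm]
  refine sum_congr rfl fun F _ => sum_congr rfl fun F' _ => ?_
  congr 1
  apply propext
  constructor
  · rintro ⟨h1, h2⟩
    exact ⟨h1.symm, switchResult_symm hne h2⟩
  · rintro ⟨h1, h2⟩
    exact ⟨h1.symm, switchResult_symm (fun h => hne h.symm) h2⟩

lemma kernel_symm (E E' : Finset (Edge n)) : kernel n E E' = kernel n E' E := by
  unfold kernel
  rw [proposalCount_symm E E']
  congr 1
  simp only [eq_comm]

lemma deg_switch {S : Finset (Fin n)} {F F' E : Finset (Edge n)} (hF : F ∈ pmSet S)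
    (hF' : F' ∈ pmSet S) (v : Fin n) : deg (switchResult E F F') v = deg E v := by
  by_cases hres : switchResult E F F' = E
  · rw [hres]
  obtain ⟨hsub, hdis, h2⟩ := switchResult_ne hres
  rw [h2]
  have hcard : (F.filter fun e => v ∈ e.1).card = (F'.filter fun e => v ∈ e.1).card := by
    by_cases hv : v ∈ S
    · unfold pmSet at hF hF'
      rw [mem_filter] at hF hF'
      rw [hF.2.2 v hv, hF'.2.2 v hv]
    · have h0 : ∀ G : Finset (Edge n), G ∈ pmSet S → (G.filter fun e => v ∈ e.1).card = 0 := by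
        intro G hG
        rw [card_eq_zero, filter_eq_empty_iff]
        intro e he hve
        exact hv (pm_mem hG he hve)
      rw [h0 F hF, h0 F' hF']
  have d1 : Disjoint ((E \ F).filter fun e => v ∈ e.1) (F'.filter fun e => v ∈ e.1) := by
    refine disjoint_filter_filter ?_
    rw [disjoint_left] at hdis ⊢
    intro e he h3
    exact hdis h3 (mem_sdiff.1 he).1
  have d2 : Disjoint ((E \ F).filter fun e => v ∈ e.1) (F.filter fun e => v ∈ e.1) :=
    disjoint_filter_filter sdiff_disjoint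
  unfold deg
  rw [filter_union, card_union_of_disjoint d1, ← hcard, ← card_union_of_disjoint d2,
    ← filter_union, sdiff_union_of_subset hsub]

lemma switch_mem {d : Fin n → ℕ} {E : Finset (Edge n)} (hE : E ∈ realizations d)
    {S : Finset (Fin n)} {F F' : Finset (Edge n)} (hF : F ∈ pmSet S)
    (hF' : F' ∈ pmSet S) : switchResult E F F' ∈ realizations d := by
  unfold realizations at hE ⊢
  rw [mem_filter] at hE ⊢
  refine ⟨mem_univ _, fun v => ?_⟩
  rw [deg_switch hF hF' v]
  exact hE.2 v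

lemma kernel_nonneg (E E' : Finset (Edge n)) : 0 ≤ kernel n E E' := by
  unfold kernel
  have : (0 : ℝ) ≤ (proposalCount E E' : ℝ) / (12 * (n.choose 4 : ℝ)) := by positivity
  split_ifs
  · linarith
  · linarith

lemma kernel_lazy (E : Finset (Edge n)) : 1 / 2 ≤ kernel n E E := by
  unfold kernel
  have : (0 : ℝ) ≤ (proposalCount E E : ℝ) / (12 * (n.choose 4 : ℝ)) := by positivity
  rw [if_pos rfl]
  linarith

/-- the kernel as an operator on functions -/
lemma kernel_sum {d : Fin n → ℕ} {E : Finset (Edge n)} (hE : E ∈ realizations d)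
    (g : Finset (Edge n) → ℝ) :
    ∑ E' ∈ realizations d, kernel n E E' * g E' =
      g E / 2 + pT (fun F F' => g (switchResult E F F')) / (12 * (n.choose 4 : ℝ)) := by
  unfold kernel
  simp only [add_mul]
  rw [sum_add_distrib]
  congr 1
  · simp only [ite_mul, zero_mul]
    rw [sum_ite_eq, if_pos hE]
    ring
  · rw [← sum_proposalCount (realizations d) E g, sum_div]
    · exact sum_congr rfl fun E' _ => by ring
    · intro S _ F hF F' hF'
      exact switch_mem hE hF (mem_of_mem_erase hF')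

lemma kernel_row {d : Fin n → ℕ} (hn : 4 ≤ n) {E : Finset (Edge n)} (hE : E ∈ realizations d) :
    ∑ E' ∈ realizations d, kernel n E E' = 1 := by
  have h := kernel_sum hE (fun _ => 1)
  simp only [mul_one] at h
  rw [h, pT_one]
  have hc : (0 : ℝ) < (n.choose 4 : ℝ) := by exact_mod_cast Nat.choose_pos hn
  field_simp
  norm_num

lemma kernel_closed {d : Fin n → ℕ} {E : Finset (Edge n)} (hE : E ∈ realizations d)
    (E' : Finset (Edge n)) (hE' : E' ∉ realizations d) : kernel n E E' = 0 := by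
  have hne : E ≠ E' := by rintro rfl; exact hE' hE
  have h0 : proposalCount E E' = 0 := by
    unfold proposalCount
    refine sum_eq_zero fun S _ => sum_eq_zero fun F hF => sum_eq_zero fun F' hF' => ?_
    rw [if_neg]
    rintro rfl
    exact hE' (switch_mem hE hF (mem_of_mem_erase hF'))
  unfold kernel
  rw [if_neg hne, h0]
  simp

/-- the Dirichlet form. -/
theorem dirichlet {d : Fin n → ℕ} (hn : 4 ≤ n) (f : Finset (Edge n) → ℝ) :
    ∑ E ∈ realizations d, f E * (f E - ∑ E' ∈ realizations d, kernel n E E' * f E') =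
      (∑ E ∈ realizations d, pT (fun F F' => (f E - f (switchResult E F F')) ^ 2)) /
        (24 * (n.choose 4 : ℝ)) := by
  have hc : (0 : ℝ) < (n.choose 4 : ℝ) := by exact_mod_cast Nat.choose_pos hn
  set R := realizations d with hR
  -- symmetrised form
  have h1 : ∀ E ∈ R, ∑ E' ∈ R, kernel n E E' * (f E - f E') ^ 2 =
      pT (fun F F' => (f E - f (switchResult E F F')) ^ 2) / (12 * (n.choose 4 : ℝ)) := by
    intro E hE
    have := kernel_sum (d := d) (E := E) hE (fun E' => (f E - f E') ^ 2)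
    simp only [sub_self] at this
    rw [hR, this]
    norm_num
  have h2 : ∑ E ∈ R, ∑ E' ∈ R, kernel n E E' * (f E - f E') ^ 2 =
      2 * ∑ E ∈ R, f E * (f E - ∑ E' ∈ R, kernel n E E' * f E') := by
    have e1 : ∀ E E', kernel n E E' * (f E - f E') ^ 2 =
        kernel n E E' * f E ^ 2 + kernel n E E' * f E' ^ 2 -
          2 * (f E * (kernel n E E' * f E')) := fun E E' => by ring
    simp only [e1, sum_sub_distrib, sum_add_distrib]
    have e2 : ∑ E ∈ R, ∑ E' ∈ R, kernel n E E' * f E ^ 2 = ∑ E ∈ R, f E ^ 2 := by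
      refine sum_congr rfl fun E hE => ?_
      rw [← sum_mul, kernel_row hn hE, one_mul]
    have e3 : ∑ E ∈ R, ∑ E' ∈ R, kernel n E E' * f E' ^ 2 = ∑ E ∈ R, f E ^ 2 := by
      rw [sum_comm]
      refine sum_congr rfl fun E hE => ?_
      rw [← sum_mul]
      have : ∑ E' ∈ R, kernel n E' E = 1 := by
        rw [← kernel_row hn hE]
        exact sum_congr rfl fun E' _ => kernel_symm _ _
      rw [this, one_mul]
    have e4 : ∑ E ∈ R, ∑ E' ∈ R, 2 * (f E * (kernel n E E' * f E')) =
        2 * ∑ E ∈ R, f E * ∑ E' ∈ R, kernel n E E' * f E' := by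
      rw [mul_sum]
      refine sum_congr rfl fun E _ => ?_
      rw [mul_sum, mul_sum]
    have e5 : ∑ E ∈ R, f E * (f E - ∑ E' ∈ R, kernel n E E' * f E') =
        ∑ E ∈ R, f E ^ 2 - ∑ E ∈ R, f E * ∑ E' ∈ R, kernel n E E' * f E' := by
      rw [← sum_sub_distrib]
      exact sum_congr rfl fun E _ => by ring
    rw [e2, e3, e4, e5]
    ring
  rw [sum_congr rfl h1, ← sum_div] at h2
  rw [eq_div_iff (by positivity)]
  rw [div_eq_iff (by positivity)] at h2
  rw [h2]
  ring

end Crest.Agent.SW.Kern
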