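import Mathlib
import Crest.Prelude.Def_PolyominoGame

/-!
Carrier calculus for the Maker-Breaker game "Snaky" and its bitmask certificate checker.
-/

set_option autoImplicit false

namespace Crest.Agent.Snaky

open Crest.CombinatoricsR.PolyominoGame

abbrev Cell := ℤ × ℤ

/-- Maker (to move) owns `M`, Breaker owns `B`; Maker can own a copy after at most `n` more claims. -/
def Wins : ℕ → Set Cell → Set Cell → Prop
  | 0, M, _ => ContainsCopy M
  | n + 1, M, B => ContainsCopy M ∨
      ∃ m, m ∉ M ∧ m ∉ B ∧ ∀ b, b ∉ M → b ≠ m → b ∉ B → Wins n (insert m M) (insert b B)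

lemma ContainsCopy.mono' {X Y : Set Cell} (h : X ⊆ Y) (hX : ContainsCopy X) : ContainsCopy Y := by
  obtain ⟨t, e1, e2, h1, h2, h3⟩ := hX
  refine ⟨t, e1, e2, h1, h2, ?_⟩
  rcases h3 with h3 | h3
  · exact Or.inl fun p hp => h (h3 p hp)
  · exact Or.inr fun p hp => h (h3 p hp)

lemma Wins.of_copy {n : ℕ} {M B : Set Cell} (h : ContainsCopy M) : Wins n M B := by
  cases n with
  | zero => exact h
  | succ n => exact Or.inl h

lemma Wins.succ {n : ℕ} {M B : Set Cell} (h : Wins n M B) : Wins (n + 1) M B := by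
  induction n generalizing M B with
  | zero => exact Or.inl h
  | succ n ih =>
    rcases h with h | ⟨m, h1, h2, h3⟩
    · exact Or.inl h
    · exact Or.inr ⟨m, h1, h2, fun b hb hb1 hb2 => ih (h3 b hb hb1 hb2)⟩

lemma Wins.mono_n {n n' : ℕ} {M B : Set Cell} (hn : n ≤ n') (h : Wins n M B) : Wins n' M B := by
  induction hn with
  | refl => exact h
  | step _ ih => exact ih.succ

/-- Maker, to move with stones `M`, wins within `n` claims using only the cells of the carrier `C`. -/
def CW (n : ℕ) (M C : Set Cell) : Prop :=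
  (∀ p, p ∈ C → p ∉ M) ∧ ∀ B : Set Cell, (∀ p, p ∈ C → p ∉ B) → Wins n M B

lemma CW.mono_n {n n' : ℕ} {M C : Set Cell} (hn : n ≤ n') (h : CW n M C) : CW n' M C :=
  ⟨h.1, fun B hB => (h.2 B hB).mono_n hn⟩

lemma CW.imm {n : ℕ} {M : Set Cell} {x : Cell} (hx : x ∉ M) (h : ContainsCopy (insert x M)) :
    CW (n + 1) M {x} := by
  refine ⟨fun p hp => by rw [Set.mem_singleton_iff] at hp; rwa [hp], fun B hB => Or.inr ⟨x, hx, hB x rfl, ?_⟩⟩
  intro b _ _ _
  exact Wins.of_copy h

/-- the basic step: a family of carriers for `insert m M` without common cell. -/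
lemma CW.step {n : ℕ} {M C : Set Cell} {m : Cell} (F : Set (Set Cell))
    (hF : ∀ K ∈ F, CW n (insert m M) K) (hI : ∀ b, ∃ K ∈ F, b ∉ K)
    (hm : m ∉ M) (hmC : m ∈ C) (hU : ∀ K ∈ F, K ⊆ C) (hCM : ∀ p, p ∈ C → p ∉ M) :
    CW (n + 1) M C := by
  refine ⟨hCM, fun B hB => Or.inr ⟨m, hm, hB m hmC, ?_⟩⟩
  intro b hbM hbm hbB
  obtain ⟨K, hK, hbK⟩ := hI b
  refine (hF K hK).2 _ ?_
  intro p hp
  rw [Set.mem_insert_iff]
  rintro (h | h)
  · exact hbK (h ▸ hp)
  · exact hB p (hU K hK hp) h

/-! ### Symmetries -/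

lemma containsCopy_reflect {X : Set Cell} (h : ContainsCopy X) :
    ContainsCopy {p : Cell | (-p.1, p.2) ∈ X} := by
  obtain ⟨t, e1, e2, h1, h2, h3⟩ := h
  rcases h3 with h3 | h3
  · refine ⟨(-t.1, t.2), -e1, e2, ?_, h2, Or.inl ?_⟩
    · rcases h1 with h1 | h1 <;> simp [h1]
    · intro p hp
      have := h3 p hp
      simp only [Set.mem_ofPred_eq]
      convert this using 2
      ring
  · refine ⟨(-t.1, t.2), -e1, e2, ?_, h2, Or.inr ?_⟩
    · rcases h1 with h1 | h1 <;> simp [h1]
    · intro p hp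
      have := h3 p hp
      simp only [Set.mem_ofPred_eq]
      convert this using 2
      ring

lemma containsCopy_swap {X : Set Cell} (h : ContainsCopy X) :
    ContainsCopy {p : Cell | (p.2, p.1) ∈ X} := by
  obtain ⟨t, e1, e2, h1, h2, h3⟩ := h
  rcases h3 with h3 | h3
  · exact ⟨(t.2, t.1), e2, e1, h2, h1, Or.inr fun p hp => h3 p hp⟩
  · exact ⟨(t.2, t.1), e2, e1, h2, h1, Or.inl fun p hp => h3 p hp⟩

lemma Wins.map (g : Cell → Cell) (hg : ∀ p, g (g p) = p)
    (hc : ∀ X : Set Cell, ContainsCopy X → ContainsCopy {p | g p ∈ X})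
    {n : ℕ} {M B : Set Cell} (h : Wins n M B) : Wins n {p | g p ∈ M} {p | g p ∈ B} := by
  induction n generalizing M B with
  | zero => exact hc M h
  | succ n ih =>
    rcases h with h | ⟨m, h1, h2, h3⟩
    · exact Or.inl (hc M h)
    · refine Or.inr ⟨g m, ?_, ?_, ?_⟩
      · simpa [hg] using h1
      · simpa [hg] using h2
      · intro b hb hbm hbB
        have hb1 : g b ≠ m := fun he => hbm (by rw [← he, hg])
        have key := ih (h3 (g b) hb hb1 hbB)
        have e1 : {p | g p ∈ insert m M} = insert (g m) {p | g p ∈ M} := by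
          ext p
          simp only [Set.mem_ofPred_eq, Set.mem_insert_iff]
          constructor
          · rintro (h | h)
            · left; rw [← h, hg]
            · right; exact h
          · rintro (h | h)
            · left; rw [h, hg]
            · right; exact h
        have e2 : {p | g p ∈ insert (g b) B} = insert b {p | g p ∈ B} := by
          ext p
          simp only [Set.mem_ofPred_eq, Set.mem_insert_iff]
          constructor
          · rintro (h | h)
            · left; rw [← hg p, h, hg]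
            · right; exact h
          · rintro (h | h)
            · left; rw [h]
            · right; exact h
        rw [e1, e2] at key
        exact key

lemma CW.map (g : Cell → Cell) (hg : ∀ p, g (g p) = p)
    (hc : ∀ X : Set Cell, ContainsCopy X → ContainsCopy {p | g p ∈ X})
    {n : ℕ} {M C : Set Cell} (h : CW n M C) : CW n {p | g p ∈ M} {p | g p ∈ C} := by
  refine ⟨fun p hp => h.1 (g p) hp, fun B hB => ?_⟩
  have := (h.2 {p | g p ∈ B} ?_).map g hg hc
  · simpa [hg] using this
  · intro p hp hpB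
    exact hB (g p) (by simpa [hg] using hp) hpB

lemma CW.reflect {n : ℕ} {M C : Set Cell} (h : CW n M C) :
    CW n {p | (-p.1, p.2) ∈ M} {p | (-p.1, p.2) ∈ C} :=
  h.map (fun p => (-p.1, p.2)) (fun p => by simp) (fun _ hX => containsCopy_reflect hX)

lemma CW.swap {n : ℕ} {M C : Set Cell} (h : CW n M C) :
    CW n {p | (p.2, p.1) ∈ M} {p | (p.2, p.1) ∈ C} :=
  h.map (fun p => (p.2, p.1)) (fun p => by simp) (fun _ hX => containsCopy_swap hX)

/-! ### From `Wins` to a policy -/

lemma exists_fresh (M B : Finset Cell) : ∃ m : Cell, m ∉ M ∧ m ∉ B := by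
  obtain ⟨m, hm⟩ := Infinite.exists_notMem_finset (M ∪ B)
  exact ⟨m, fun h => hm (Finset.mem_union_left _ h), fun h => hm (Finset.mem_union_right _ h)⟩

lemma Wins.exists_move {n : ℕ} {M B : Finset Cell} (h : Wins (n + 1) (M : Set Cell) (B : Set Cell)) :
    ∃ m, m ∉ M ∧ m ∉ B ∧ ∀ b, b ∉ M → b ≠ m → b ∉ B →
      Wins n ((insert m M : Finset Cell) : Set Cell) ((insert b B : Finset Cell) : Set Cell) := by
  rcases h with h | ⟨m, h1, h2, h3⟩
  · obtain ⟨m, hm1, hm2⟩ := exists_fresh M B
    refine ⟨m, hm1, hm2, fun b _ _ _ => Wins.of_copy (ContainsCopy.mono' ?_ h)⟩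
    rw [Finset.coe_insert]
    exact Set.subset_insert _ _
  · refine ⟨m, by simpa using h1, by simpa using h2, ?_⟩
    intro b hb1 hb2 hb3
    rw [Finset.coe_insert, Finset.coe_insert]
    exact h3 b (by simpa using hb1) hb2 (by simpa using hb3)

open Classical in
/-- Maker's move. -/
noncomputable def mv (n : ℕ) (M B : Finset Cell) : Cell :=
  if h : ∃ m, m ∉ M ∧ m ∉ B ∧ ∀ b, b ∉ M → b ≠ m → b ∉ B →
      Wins (n - 1) ((insert m M : Finset Cell) : Set Cell) ((insert b B : Finset Cell) : Set Cell)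
  then h.choose else (0, 0)

lemma mv_spec (n : ℕ) (M B : Finset Cell) (h : ∃ m, m ∉ M ∧ m ∉ B ∧ ∀ b, b ∉ M → b ≠ m → b ∉ B →
      Wins (n - 1) ((insert m M : Finset Cell) : Set Cell) ((insert b B : Finset Cell) : Set Cell)) :
    mv n M B ∉ M ∧ mv n M B ∉ B ∧ ∀ b, b ∉ M → b ≠ mv n M B → b ∉ B →
      Wins (n - 1) ((insert (mv n M B) M : Finset Cell) : Set Cell)
        ((insert b B : Finset Cell) : Set Cell) := by
  unfold mv
  rw [dif_pos h]
  exact h.choose_spec

/-- state: claims left, Maker's cells, Breaker's cells. -/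
noncomputable def stp (s : ℕ × Finset Cell × Finset Cell) (b : Cell) : ℕ × Finset Cell × Finset Cell :=
  (s.1 - 1, insert (mv s.1 s.2.1 s.2.2) s.2.1, insert b s.2.2)

noncomputable def stt (l : List Cell) : ℕ × Finset Cell × Finset Cell := l.foldl stp (21, ∅, ∅)

noncomputable def pol (l : List Cell) : Cell := mv (stt l).1 (stt l).2.1 (stt l).2.2

lemma stt_succ (b : ℕ → Cell) (k : ℕ) :
    stt ((List.range (k + 1)).map b) = stp (stt ((List.range k).map b)) (b k) := by
  unfold stt
  rw [List.range_succ, List.map_append, List.foldl_append]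
  rfl

theorem main_of_wins (h0 : Wins 21 (∅ : Set Cell) (∅ : Set Cell)) :
    ∃ σ : List (ℤ × ℤ) → ℤ × ℤ, ∀ b : ℕ → ℤ × ℤ,
      (∀ k : ℕ, k < 20 →
        (∀ j : ℕ, j ≤ k → b k ≠ makerClaim σ b j) ∧
        (∀ j : ℕ, j < k → b k ≠ b j)) →
      (∀ k : ℕ, k ≤ 20 →
        (∀ j : ℕ, j < k → makerClaim σ b k ≠ makerClaim σ b j) ∧
        (∀ j : ℕ, j < k → makerClaim σ b k ≠ b j)) ∧
      ContainsCopy {c | ∃ j : ℕ, j ≤ 20 ∧ c = makerClaim σ b j} := by
  refine ⟨pol, fun b hb => ?_⟩
  set S : ℕ → ℕ × Finset Cell × Finset Cell := fun k => stt ((List.range k).map b) with hS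
  have hcl : ∀ k, makerClaim pol b k = mv (S k).1 (S k).2.1 (S k).2.2 := fun k => rfl
  have hSs : ∀ k, S (k + 1) = stp (S k) (b k) := fun k => stt_succ b k
  have hS1 : ∀ k, (S k).1 = 21 - k := by
    intro k
    induction k with
    | zero => rfl
    | succ k ih =>
      rw [hSs]
      change (S k).1 - 1 = _
      rw [ih]; omega
  have hSM : ∀ k p, p ∈ (S k).2.1 ↔ ∃ j, j < k ∧ p = makerClaim pol b j := by
    intro k
    induction k with
    | zero => intro p; simp [hS, stt]
    | succ k ih =>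
      intro p
      rw [hSs]
      change p ∈ insert (mv (S k).1 (S k).2.1 (S k).2.2) (S k).2.1 ↔ _
      rw [Finset.mem_insert, ih, ← hcl]
      constructor
      · rintro (h | ⟨j, hj, h⟩)
        · exact ⟨k, Nat.lt_succ_self k, h⟩
        · exact ⟨j, Nat.lt_succ_of_lt hj, h⟩
      · rintro ⟨j, hj, h⟩
        rcases Nat.lt_succ_iff_lt_or_eq.1 hj with hj | hj
        · exact Or.inr ⟨j, hj, h⟩
        · exact Or.inl (hj ▸ h)
  have hSB : ∀ k p, p ∈ (S k).2.2 ↔ ∃ j, j < k ∧ p = b j := by
    intro k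
    induction k with
    | zero => intro p; simp [hS, stt]
    | succ k ih =>
      intro p
      rw [hSs]
      change p ∈ insert (b k) (S k).2.2 ↔ _
      rw [Finset.mem_insert, ih]
      constructor
      · rintro (h | ⟨j, hj, h⟩)
        · exact ⟨k, Nat.lt_succ_self k, h⟩
        · exact ⟨j, Nat.lt_succ_of_lt hj, h⟩
      · rintro ⟨j, hj, h⟩
        rcases Nat.lt_succ_iff_lt_or_eq.1 hj with hj | hj
        · exact Or.inr ⟨j, hj, h⟩
        · exact Or.inl (hj ▸ h)
  have hmv : ∀ k, k ≤ 20 → Wins (21 - k) ((S k).2.1 : Set Cell) ((S k).2.2 : Set Cell) →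
      makerClaim pol b k ∉ (S k).2.1 ∧ makerClaim pol b k ∉ (S k).2.2 ∧
      ∀ c, c ∉ (S k).2.1 → c ≠ makerClaim pol b k → c ∉ (S k).2.2 →
        Wins (20 - k) ((insert (makerClaim pol b k) (S k).2.1 : Finset Cell) : Set Cell)
          ((insert c (S k).2.2 : Finset Cell) : Set Cell) := by
    intro k hk hw
    have e : 21 - k = (20 - k) + 1 := by omega
    rw [e] at hw
    have hex := hw.exists_move
    have e2 : (S k).1 - 1 = 20 - k := by rw [hS1]; omega
    rw [hcl]
    rw [← e2] at hex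
    have hsp := mv_spec _ _ _ hex
    rw [e2] at hsp
    exact hsp
  have hW : ∀ k, k ≤ 20 → Wins (21 - k) ((S k).2.1 : Set Cell) ((S k).2.2 : Set Cell) := by
    intro k
    induction k with
    | zero =>
      intro _
      have : S 0 = (21, ∅, ∅) := rfl
      rw [this]
      simpa using h0
    | succ k ih =>
      intro hk
      have hw := ih (by omega)
      obtain ⟨_, _, h3⟩ := hmv k (by omega) hw
      have hb' := hb k (by omega)
      have := h3 (b k) ?_ ?_ ?_
      · rw [hSs]
        have e : 21 - (k + 1) = 20 - k := by omega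
        rw [e]
        exact this
      · intro hm
        obtain ⟨j, hj, h⟩ := (hSM k _).1 hm
        exact hb'.1 j hj.le h
      · exact hb'.1 k le_rfl
      · intro hm
        obtain ⟨j, hj, h⟩ := (hSB k _).1 hm
        exact hb'.2 j hj h
  refine ⟨fun k hk => ?_, ?_⟩
  · obtain ⟨h1, h2, _⟩ := hmv k hk (hW k hk)
    constructor
    · intro j hj he
      exact h1 ((hSM k _).2 ⟨j, hj, he⟩)
    · intro j hj he
      exact h2 ((hSB k _).2 ⟨j, hj, he⟩)
  · obtain ⟨h1, h2, h3⟩ := hmv 20 le_rfl (hW 20 le_rfl)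
    obtain ⟨c, hc⟩ := exists_fresh (insert (makerClaim pol b 20) (S 20).2.1) (S 20).2.2
    have := h3 c (fun h => hc.1 (Finset.mem_insert_of_mem h))
      (fun h => hc.1 (by rw [h]; exact Finset.mem_insert_self _ _)) hc.2
    have h4 : ContainsCopy ((insert (makerClaim pol b 20) (S 20).2.1 : Finset Cell) : Set Cell) := this
    refine ContainsCopy.mono' ?_ h4
    intro p hp
    rw [Finset.mem_coe, Finset.mem_insert] at hp
    rcases hp with hp | hp
    · exact ⟨20, le_rfl, hp⟩
    · obtain ⟨j, hj, h⟩ := (hSM 20 p).1 hp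
      exact ⟨j, hj.le, h⟩

end Crest.Agent.Snaky
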