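import Mathlib
import Crest.Agent.SnakyBase

/-!
Bitmask certificates for the carrier calculus of `SnakyBase`.
Cell `(x, y)` has index `24 * (y + 9) + (x + 9)`.
-/

set_option autoImplicit false

namespace Crest.Agent.Snaky

open Crest.CombinatoricsR.PolyominoGame

/-- decoding of a cell index. -/
def dec (i : ℕ) : Cell := (((i % 24 : ℕ) : ℤ) - 9, ((i / 24 : ℕ) : ℤ) - 9)

lemma dec_inj {i j : ℕ} (h : dec i = dec j) : i = j := by
  unfold dec at h
  rw [Prod.mk.injEq] at h
  obtain ⟨h1, h2⟩ := h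
  omega

def cells (M : ℕ) : Set Cell := {p | ∃ i, M.testBit i = true ∧ p = dec i}

lemma dec_mem_cells {M i : ℕ} : dec i ∈ cells M ↔ M.testBit i = true := by
  constructor
  · rintro ⟨j, hj, h⟩
    rw [dec_inj h]; exact hj
  · intro h
    exact ⟨i, h, rfl⟩

def bit1 (i : ℕ) : ℕ := Nat.shiftLeft 1 i

lemma bit1_testBit (i j : ℕ) : (bit1 i).testBit j = decide (i = j) := by
  unfold bit1
  have : Nat.shiftLeft 1 i = 2 ^ i := by
    change 1 <<< i = 2 ^ i
    rw [Nat.shiftLeft_eq, one_mul]
  rw [this, Nat.testBit_two_pow]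

lemma cells_bit1 (i : ℕ) : cells (bit1 i) = {dec i} := by
  ext p
  constructor
  · rintro ⟨j, hj, rfl⟩
    rw [bit1_testBit] at hj
    have : i = j := by simpa using hj
    rw [this]; rfl
  · intro h
    rw [Set.mem_singleton_iff] at h
    exact ⟨i, by rw [bit1_testBit]; simp, h⟩

lemma cells_lor (A B : ℕ) : cells (Nat.lor A B) = cells A ∪ cells B := by
  change cells (A ||| B) = _
  ext p
  constructor
  · rintro ⟨j, hj, rfl⟩
    rw [Nat.testBit_lor, Bool.or_eq_true] at hj
    rcases hj with hj | hj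
    · exact Or.inl ⟨j, hj, rfl⟩
    · exact Or.inr ⟨j, hj, rfl⟩
  · rintro (⟨j, hj, rfl⟩ | ⟨j, hj, rfl⟩)
    · exact ⟨j, by rw [Nat.testBit_lor, hj, Bool.true_or], rfl⟩
    · exact ⟨j, by rw [Nat.testBit_lor, hj, Bool.or_true], rfl⟩

lemma mem_cells_land {A B : ℕ} {p : Cell} (h1 : p ∈ cells A) (h2 : p ∈ cells B) :
    p ∈ cells (Nat.land A B) := by
  change p ∈ cells (A &&& B)
  obtain ⟨i, hi, rfl⟩ := h1
  rw [dec_mem_cells] at h2 ⊢
  rw [Nat.testBit_land, hi, h2, Bool.and_self]

lemma cells_ins (M i : ℕ) : cells (Nat.lor M (bit1 i)) = insert (dec i) (cells M) := by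
  rw [cells_lor, cells_bit1, Set.union_comm]; rfl

/-- the eight placements of Snaky with minimal corner at index `0`. -/
def sh : ℕ → ℕ
  | 0 => 402653199
  | 1 => 251658264
  | 2 => 50331678
  | 3 => 503316483
  | 4 => 158456339195628405271017029633
  | 5 => 79228167236631101938216206338
  | 6 => 79228176681364349152466567170
  | _ => 158456334473262203876382081025

/-- `M` contains the placement of shape `k` with minimal corner `t`. -/
def okc (M k t : ℕ) : Bool :=
  Nat.ble (Nat.mod t 24) 19 && Nat.beq (Nat.land (Nat.shiftLeft (sh k) t) M) (Nat.shiftLeft (sh k) t)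

lemma okc_bits {M k t o : ℕ} (h : okc M k t = true) (ho : (sh k).testBit o = true) :
    M.testBit (t + o) = true := by
  unfold okc at h
  rw [Bool.and_eq_true] at h
  have h2 : (sh k <<< t) &&& M = sh k <<< t := Nat.eq_of_beq_eq_true h.2
  have h3 : (sh k <<< t).testBit (t + o) = true := by
    rw [Nat.testBit_shiftLeft]
    simp [ho]
  rw [← h2, Nat.testBit_land, Bool.and_eq_true] at h3
  exact h3.2

lemma okc_mod {M k t : ℕ} (h : okc M k t = true) : t % 24 ≤ 19 := by
  unfold okc at h
  rw [Bool.and_eq_true] at h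
  exact Nat.le_of_ble_eq_true h.1

lemma okc_copy0 {M t : ℕ} (h : okc M 0 t = true) : ContainsCopy (cells M) := by
  have hm := okc_mod h
  refine ⟨(((t % 24 : ℕ) : ℤ) - 9 + 0, ((t / 24 : ℕ) : ℤ) - 9 + 0), 1, 1, by norm_num, by norm_num,
    Or.inl ?_⟩
  intro p hp
  simp only [snaky, Finset.mem_insert, Finset.mem_singleton] at hp
  rcases hp with rfl | rfl | rfl | rfl | rfl | rfl
  · refine ⟨t + 0, okc_bits h (by decide), ?_⟩
    unfold dec
    rw [Prod.mk.injEq]
    constructor <;> simp only <;> omega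
  · refine ⟨t + 1, okc_bits h (by decide), ?_⟩
    unfold dec
    rw [Prod.mk.injEq]
    constructor <;> simp only <;> omega
  · refine ⟨t + 2, okc_bits h (by decide), ?_⟩
    unfold dec
    rw [Prod.mk.injEq]
    constructor <;> simp only <;> omega
  · refine ⟨t + 3, okc_bits h (by decide), ?_⟩
    unfold dec
    rw [Prod.mk.injEq]
    constructor <;> simp only <;> omega
  · refine ⟨t + 27, okc_bits h (by decide), ?_⟩
    unfold dec
    rw [Prod.mk.injEq]
    constructor <;> simp only <;> omega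
  · refine ⟨t + 28, okc_bits h (by decide), ?_⟩
    unfold dec
    rw [Prod.mk.injEq]
    constructor <;> simp only <;> omega

lemma okc_copy1 {M t : ℕ} (h : okc M 1 t = true) : ContainsCopy (cells M) := by
  have hm := okc_mod h
  refine ⟨(((t % 24 : ℕ) : ℤ) - 9 + 0, ((t / 24 : ℕ) : ℤ) - 9 + 1), 1, -1, by norm_num, by norm_num,
    Or.inl ?_⟩
  intro p hp
  simp only [snaky, Finset.mem_insert, Finset.mem_singleton] at hp
  rcases hp with rfl | rfl | rfl | rfl | rfl | rfl
  · refine ⟨t + 24, okc_bits h (by decide), ?_⟩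
    unfold dec
    rw [Prod.mk.injEq]
    constructor <;> simp only <;> omega
  · refine ⟨t + 25, okc_bits h (by decide), ?_⟩
    unfold dec
    rw [Prod.mk.injEq]
    constructor <;> simp only <;> omega
  · refine ⟨t + 26, okc_bits h (by decide), ?_⟩
    unfold dec
    rw [Prod.mk.injEq]
    constructor <;> simp only <;> omega
  · refine ⟨t + 27, okc_bits h (by decide), ?_⟩
    unfold dec
    rw [Prod.mk.injEq]
    constructor <;> simp only <;> omega
  · refine ⟨t + 3, okc_bits h (by decide), ?_⟩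
    unfold dec
    rw [Prod.mk.injEq]
    constructor <;> simp only <;> omega
  · refine ⟨t + 4, okc_bits h (by decide), ?_⟩
    unfold dec
    rw [Prod.mk.injEq]
    constructor <;> simp only <;> omega

lemma okc_copy2 {M t : ℕ} (h : okc M 2 t = true) : ContainsCopy (cells M) := by
  have hm := okc_mod h
  refine ⟨(((t % 24 : ℕ) : ℤ) - 9 + 4, ((t / 24 : ℕ) : ℤ) - 9 + 0), -1, 1, by norm_num, by norm_num,
    Or.inl ?_⟩
  intro p hp
  simp only [snaky, Finset.mem_insert, Finset.mem_singleton] at hp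
  rcases hp with rfl | rfl | rfl | rfl | rfl | rfl
  · refine ⟨t + 4, okc_bits h (by decide), ?_⟩
    unfold dec
    rw [Prod.mk.injEq]
    constructor <;> simp only <;> omega
  · refine ⟨t + 3, okc_bits h (by decide), ?_⟩
    unfold dec
    rw [Prod.mk.injEq]
    constructor <;> simp only <;> omega
  · refine ⟨t + 2, okc_bits h (by decide), ?_⟩
    unfold dec
    rw [Prod.mk.injEq]
    constructor <;> simp only <;> omega
  · refine ⟨t + 1, okc_bits h (by decide), ?_⟩
    unfold dec
    rw [Prod.mk.injEq]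
    constructor <;> simp only <;> omega
  · refine ⟨t + 25, okc_bits h (by decide), ?_⟩
    unfold dec
    rw [Prod.mk.injEq]
    constructor <;> simp only <;> omega
  · refine ⟨t + 24, okc_bits h (by decide), ?_⟩
    unfold dec
    rw [Prod.mk.injEq]
    constructor <;> simp only <;> omega

lemma okc_copy3 {M t : ℕ} (h : okc M 3 t = true) : ContainsCopy (cells M) := by
  have hm := okc_mod h
  refine ⟨(((t % 24 : ℕ) : ℤ) - 9 + 4, ((t / 24 : ℕ) : ℤ) - 9 + 1), -1, -1, by norm_num, by norm_num,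
    Or.inl ?_⟩
  intro p hp
  simp only [snaky, Finset.mem_insert, Finset.mem_singleton] at hp
  rcases hp with rfl | rfl | rfl | rfl | rfl | rfl
  · refine ⟨t + 28, okc_bits h (by decide), ?_⟩
    unfold dec
    rw [Prod.mk.injEq]
    constructor <;> simp only <;> omega
  · refine ⟨t + 27, okc_bits h (by decide), ?_⟩
    unfold dec
    rw [Prod.mk.injEq]
    constructor <;> simp only <;> omega
  · refine ⟨t + 26, okc_bits h (by decide), ?_⟩
    unfold dec
    rw [Prod.mk.injEq]
    constructor <;> simp only <;> omega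
  · refine ⟨t + 25, okc_bits h (by decide), ?_⟩
    unfold dec
    rw [Prod.mk.injEq]
    constructor <;> simp only <;> omega
  · refine ⟨t + 1, okc_bits h (by decide), ?_⟩
    unfold dec
    rw [Prod.mk.injEq]
    constructor <;> simp only <;> omega
  · refine ⟨t + 0, okc_bits h (by decide), ?_⟩
    unfold dec
    rw [Prod.mk.injEq]
    constructor <;> simp only <;> omega

lemma okc_copy4 {M t : ℕ} (h : okc M 4 t = true) : ContainsCopy (cells M) := by
  have hm := okc_mod h
  refine ⟨(((t % 24 : ℕ) : ℤ) - 9 + 0, ((t / 24 : ℕ) : ℤ) - 9 + 0), 1, 1, by norm_num, by norm_num,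
    Or.inr ?_⟩
  intro p hp
  simp only [snaky, Finset.mem_insert, Finset.mem_singleton] at hp
  rcases hp with rfl | rfl | rfl | rfl | rfl | rfl
  · refine ⟨t + 0, okc_bits h (by decide), ?_⟩
    unfold dec
    rw [Prod.mk.injEq]
    constructor <;> simp only <;> omega
  · refine ⟨t + 24, okc_bits h (by decide), ?_⟩
    unfold dec
    rw [Prod.mk.injEq]
    constructor <;> simp only <;> omega
  · refine ⟨t + 48, okc_bits h (by decide), ?_⟩
    unfold dec
    rw [Prod.mk.injEq]
    constructor <;> simp only <;> omega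
  · refine ⟨t + 72, okc_bits h (by decide), ?_⟩
    unfold dec
    rw [Prod.mk.injEq]
    constructor <;> simp only <;> omega
  · refine ⟨t + 73, okc_bits h (by decide), ?_⟩
    unfold dec
    rw [Prod.mk.injEq]
    constructor <;> simp only <;> omega
  · refine ⟨t + 97, okc_bits h (by decide), ?_⟩
    unfold dec
    rw [Prod.mk.injEq]
    constructor <;> simp only <;> omega

lemma okc_copy5 {M t : ℕ} (h : okc M 5 t = true) : ContainsCopy (cells M) := by
  have hm := okc_mod h
  refine ⟨(((t % 24 : ℕ) : ℤ) - 9 + 0, ((t / 24 : ℕ) : ℤ) - 9 + 4), 1, -1, by norm_num, by norm_num,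
    Or.inr ?_⟩
  intro p hp
  simp only [snaky, Finset.mem_insert, Finset.mem_singleton] at hp
  rcases hp with rfl | rfl | rfl | rfl | rfl | rfl
  · refine ⟨t + 96, okc_bits h (by decide), ?_⟩
    unfold dec
    rw [Prod.mk.injEq]
    constructor <;> simp only <;> omega
  · refine ⟨t + 72, okc_bits h (by decide), ?_⟩
    unfold dec
    rw [Prod.mk.injEq]
    constructor <;> simp only <;> omega
  · refine ⟨t + 48, okc_bits h (by decide), ?_⟩
    unfold dec
    rw [Prod.mk.injEq]
    constructor <;> simp only <;> omega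
  · refine ⟨t + 24, okc_bits h (by decide), ?_⟩
    unfold dec
    rw [Prod.mk.injEq]
    constructor <;> simp only <;> omega
  · refine ⟨t + 25, okc_bits h (by decide), ?_⟩
    unfold dec
    rw [Prod.mk.injEq]
    constructor <;> simp only <;> omega
  · refine ⟨t + 1, okc_bits h (by decide), ?_⟩
    unfold dec
    rw [Prod.mk.injEq]
    constructor <;> simp only <;> omega

lemma okc_copy6 {M t : ℕ} (h : okc M 6 t = true) : ContainsCopy (cells M) := by
  have hm := okc_mod h
  refine ⟨(((t % 24 : ℕ) : ℤ) - 9 + 1, ((t / 24 : ℕ) : ℤ) - 9 + 0), -1, 1, by norm_num, by norm_num,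
    Or.inr ?_⟩
  intro p hp
  simp only [snaky, Finset.mem_insert, Finset.mem_singleton] at hp
  rcases hp with rfl | rfl | rfl | rfl | rfl | rfl
  · refine ⟨t + 1, okc_bits h (by decide), ?_⟩
    unfold dec
    rw [Prod.mk.injEq]
    constructor <;> simp only <;> omega
  · refine ⟨t + 25, okc_bits h (by decide), ?_⟩
    unfold dec
    rw [Prod.mk.injEq]
    constructor <;> simp only <;> omega
  · refine ⟨t + 49, okc_bits h (by decide), ?_⟩
    unfold dec
    rw [Prod.mk.injEq]
    constructor <;> simp only <;> omega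
  · refine ⟨t + 73, okc_bits h (by decide), ?_⟩
    unfold dec
    rw [Prod.mk.injEq]
    constructor <;> simp only <;> omega
  · refine ⟨t + 72, okc_bits h (by decide), ?_⟩
    unfold dec
    rw [Prod.mk.injEq]
    constructor <;> simp only <;> omega
  · refine ⟨t + 96, okc_bits h (by decide), ?_⟩
    unfold dec
    rw [Prod.mk.injEq]
    constructor <;> simp only <;> omega

lemma okc_copy7 {M t : ℕ} (h : okc M 7 t = true) : ContainsCopy (cells M) := by
  have hm := okc_mod h
  refine ⟨(((t % 24 : ℕ) : ℤ) - 9 + 1, ((t / 24 : ℕ) : ℤ) - 9 + 4), -1, -1, by norm_num, by norm_num,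
    Or.inr ?_⟩
  intro p hp
  simp only [snaky, Finset.mem_insert, Finset.mem_singleton] at hp
  rcases hp with rfl | rfl | rfl | rfl | rfl | rfl
  · refine ⟨t + 97, okc_bits h (by decide), ?_⟩
    unfold dec
    rw [Prod.mk.injEq]
    constructor <;> simp only <;> omega
  · refine ⟨t + 73, okc_bits h (by decide), ?_⟩
    unfold dec
    rw [Prod.mk.injEq]
    constructor <;> simp only <;> omega
  · refine ⟨t + 49, okc_bits h (by decide), ?_⟩
    unfold dec
    rw [Prod.mk.injEq]
    constructor <;> simp only <;> omega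
  · refine ⟨t + 25, okc_bits h (by decide), ?_⟩
    unfold dec
    rw [Prod.mk.injEq]
    constructor <;> simp only <;> omega
  · refine ⟨t + 24, okc_bits h (by decide), ?_⟩
    unfold dec
    rw [Prod.mk.injEq]
    constructor <;> simp only <;> omega
  · refine ⟨t + 0, okc_bits h (by decide), ?_⟩
    unfold dec
    rw [Prod.mk.injEq]
    constructor <;> simp only <;> omega

lemma okc_copy {M k t : ℕ} (h : okc M k t = true) : ContainsCopy (cells M) := by
  rcases k with _ | _ | _ | _ | _ | _ | _ | k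
  · exact okc_copy0 h
  · exact okc_copy1 h
  · exact okc_copy2 h
  · exact okc_copy3 h
  · exact okc_copy4 h
  · exact okc_copy5 h
  · exact okc_copy6 h
  · exact okc_copy7 (by exact h)

/-- hint `h = 8 * t + k`. -/
def okh (M h : ℕ) : Bool := okc M (Nat.mod h 8) (Nat.div h 8)

lemma okh_copy {M h : ℕ} (hh : okh M h = true) : ContainsCopy (cells M) := okc_copy hh

def tb (M i : ℕ) : Bool := Nat.beq (Nat.land 1 (Nat.shiftRight M i)) 1

lemma tb_eq (M i : ℕ) : tb M i = M.testBit i := by
  unfold tb Nat.testBit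
  change Nat.beq (1 &&& (M >>> i)) 1 = (1 &&& (M >>> i) != 0)
  have h : 1 &&& (M >>> i) < 2 := by
    have := @Nat.and_le_left 1 (M >>> i)
    omega
  generalize 1 &&& (M >>> i) = z at h
  interval_cases z <;> rfl

/-- forcing sequences. -/
inductive V : Type
  | imm (x h : ℕ) : V
  | dbl (m y1 h1 y2 h2 : ℕ) : V
  | stp (m y h : ℕ) (r : V) : V

def V.car : V → ℕ
  | .imm x _ => bit1 x
  | .dbl m y1 _ y2 _ => Nat.lor (Nat.lor (bit1 m) (bit1 y1)) (bit1 y2)
  | .stp m y _ r => Nat.lor (Nat.lor r.car (bit1 y)) (bit1 m)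

def V.len : V → ℕ
  | .imm _ _ => 1
  | .dbl _ _ _ _ _ => 2
  | .stp _ _ _ r => Nat.succ r.len

def V.chk : V → ℕ → Bool
  | .imm x h, M => !tb M x && okh (Nat.lor M (bit1 x)) h
  | .dbl m y1 h1 y2 h2, M =>
      !tb M m && (!tb (Nat.lor M (bit1 m)) y1 && (!tb (Nat.lor M (bit1 m)) y2 && (!Nat.beq y1 y2 &&
        (okh (Nat.lor (Nat.lor M (bit1 m)) (bit1 y1)) h1 &&
          okh (Nat.lor (Nat.lor M (bit1 m)) (bit1 y2)) h2))))
  | .stp m y h r, M =>
      !tb M m && (!tb (Nat.lor M (bit1 m)) y && (okh (Nat.lor (Nat.lor M (bit1 m)) (bit1 y)) h &&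
        (!tb r.car y && r.chk (Nat.lor M (bit1 m)))))

def NW (n M C : ℕ) : Prop := CW n (cells M) (cells C)

def NWs (n M I U : ℕ) : Prop := ∃ F : Set (Set Cell), (∀ K ∈ F, CW n (cells M) K) ∧
  (∀ b, (∀ K ∈ F, b ∈ K) → b ∈ cells I) ∧ (∀ K ∈ F, K ⊆ cells U) ∧ (∀ p, p ∈ cells U → p ∉ cells M)

theorem NWs.one {n M C : ℕ} (h : NW n M C) : NWs n M C C :=
  ⟨{cells C}, fun K hK => by rw [Set.mem_singleton_iff] at hK; rw [hK]; exact h,
    fun b hb => hb _ rfl, fun K hK => by rw [Set.mem_singleton_iff] at hK; rw [hK], h.1⟩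

theorem NWs.cons {n M C I U : ℕ} (h : NW n M C) (t : NWs n M I U) :
    NWs n M (Nat.land C I) (Nat.lor C U) := by
  obtain ⟨F, h1, h2, h3, h4⟩ := t
  refine ⟨insert (cells C) F, ?_, ?_, ?_, ?_⟩
  · intro K hK
    rcases hK with hK | hK
    · rw [hK]; exact h
    · exact h1 K hK
  · intro b hb
    exact mem_cells_land (hb _ (Or.inl rfl)) (h2 b fun K hK => hb K (Or.inr hK))
  · intro K hK
    rw [cells_lor]
    rcases hK with hK | hK
    · rw [hK]; exact Set.subset_union_left
    · exact (h3 K hK).trans Set.subset_union_right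
  · intro p hp
    rw [cells_lor] at hp
    rcases hp with hp | hp
    · exact h.1 p hp
    · exact h4 p hp

lemma cells_zero : cells 0 = ∅ := by
  ext p
  simp [cells]

theorem NWs.close {n M m I U : ℕ} (h : NWs n (Nat.lor M (bit1 m)) I U) (hm : tb M m = false)
    (hI : I = 0) : NW (n + 1) M (Nat.lor U (bit1 m)) := by
  obtain ⟨F, h1, h2, h3, h4⟩ := h
  subst hI
  rw [tb_eq] at hm
  have hmM : dec m ∉ cells M := by rw [dec_mem_cells, hm]; simp
  refine CW.step (m := dec m) F ?_ ?_ hmM ?_ ?_ ?_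
  · intro K hK
    rw [← cells_ins]; exact h1 K hK
  · intro b
    by_contra hcon
    push Not at hcon
    have := h2 b hcon
    rw [cells_zero] at this
    exact this
  · rw [cells_ins]; exact Set.mem_insert _ _
  · intro K hK
    rw [cells_ins]
    exact (h3 K hK).trans (Set.subset_insert _ _)
  · intro p hp
    rw [cells_ins] at hp
    rcases hp with hp | hp
    · rw [hp]; exact hmM
    · intro hpM
      exact h4 p hp (by rw [cells_ins]; exact Set.mem_insert_of_mem _ hpM)

theorem NW.mono {n n' M C : ℕ} (hn : n ≤ n') (h : NW n M C) : NW n' M C := CW.mono_n hn h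

theorem NW.imm {n M x h : ℕ} (h1 : tb M x = false) (h2 : okh (Nat.lor M (bit1 x)) h = true) :
    NW (n + 1) M (bit1 x) := by
  unfold NW
  rw [cells_bit1]
  rw [tb_eq] at h1
  refine CW.imm (by rw [dec_mem_cells, h1]; simp) ?_
  rw [← cells_ins]
  exact okh_copy h2

lemma bit1_land {i j : ℕ} (h : i ≠ j) : Nat.land (bit1 i) (bit1 j) = 0 := by
  change bit1 i &&& bit1 j = 0
  apply Nat.eq_of_testBit_eq
  intro k
  rw [Nat.testBit_land, bit1_testBit, bit1_testBit, Nat.zero_testBit]
  by_cases hk : i = k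
  · subst hk
    simp [Ne.symm h]
  · simp [hk]

lemma land_bit1 {A j : ℕ} (h : tb A j = false) : Nat.land A (bit1 j) = 0 := by
  rw [tb_eq] at h
  change A &&& bit1 j = 0
  apply Nat.eq_of_testBit_eq
  intro k
  rw [Nat.testBit_land, bit1_testBit, Nat.zero_testBit]
  by_cases hk : j = k
  · subst hk
    simp [h]
  · simp [hk]

lemma Nat.lor_assoc'' (a b c : ℕ) : Nat.lor (Nat.lor a b) c = Nat.lor a (Nat.lor b c) := by
  change (a ||| b) ||| c = a ||| (b ||| c)
  exact Nat.lor_assoc a b c

lemma Nat.lor_comm'' (a b : ℕ) : Nat.lor a b = Nat.lor b a := by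
  change a ||| b = b ||| a
  exact Nat.lor_comm a b

theorem V.sound (v : V) : ∀ (M : ℕ), v.chk M = true → NW v.len M v.car := by
  induction v with
  | imm x h =>
    intro M hc
    simp only [V.chk, Bool.and_eq_true, Bool.not_eq_true'] at hc
    exact NW.imm (n := 0) hc.1 hc.2
  | dbl m y1 h1 y2 h2 =>
    intro M hc
    simp only [V.chk, Bool.and_eq_true, Bool.not_eq_true'] at hc
    obtain ⟨c1, c2, c3, c4, c5, c6⟩ := hc
    have i1 : NW 1 (Nat.lor M (bit1 m)) (bit1 y1) := NW.imm (n := 0) c2 c5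
    have i2 : NW 1 (Nat.lor M (bit1 m)) (bit1 y2) := NW.imm (n := 0) c3 c6
    have hne : y1 ≠ y2 := fun he => by rw [he] at c4; simp at c4
    have := NWs.close (NWs.cons i1 (NWs.one i2)) c1 (bit1_land hne)
    have e : V.car (V.dbl m y1 h1 y2 h2) = Nat.lor (Nat.lor (bit1 y1) (bit1 y2)) (bit1 m) := by
      change Nat.lor (Nat.lor (bit1 m) (bit1 y1)) (bit1 y2) = _
      rw [Nat.lor_assoc'', Nat.lor_comm'' (bit1 m)]
    rw [e]
    exact this
  | stp m y h r ih =>
    intro M hc
    simp only [V.chk, Bool.and_eq_true, Bool.not_eq_true'] at hc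
    obtain ⟨c1, c2, c3, c4, c5⟩ := hc
    have hlen : 1 ≤ r.len := by cases r <;> simp [V.len]
    have i1 : NW r.len (Nat.lor M (bit1 m)) (bit1 y) :=
      NW.mono hlen (NW.imm (n := 0) c2 c3)
    have i2 := ih _ c5
    exact NWs.close (NWs.cons i2 (NWs.one i1)) c1 (land_bit1 c4)

/-- leaf rule -/
theorem NW.v {n M : ℕ} (v : V) (h : (v.chk M && Nat.ble v.len n) = true) : NW n M v.car := by
  rw [Bool.and_eq_true] at h
  exact NW.mono (Nat.le_of_ble_eq_true h.2) (v.sound M h.1)

def stepChk (M M' m I U C : ℕ) : Bool :=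
  Nat.beq M' (Nat.lor M (bit1 m)) && (!tb M m && (Nat.beq I 0 && Nat.beq C (Nat.lor U (bit1 m))))

/-- inner rule -/
theorem NW.q {n M C I U : ℕ} (M' m : ℕ) (h : NWs n M' I U) (hc : stepChk M M' m I U C = true) :
    NW (n + 1) M C := by
  simp only [stepChk, Bool.and_eq_true, Bool.not_eq_true'] at hc
  obtain ⟨c1, c2, c3, c4⟩ := hc
  rw [Nat.eq_of_beq_eq_true c1] at h
  rw [Nat.eq_of_beq_eq_true c4]
  exact NWs.close h c2 (Nat.eq_of_beq_eq_true c3)

end Crest.Agent.Snaky
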