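import Crest.Agent.TINuC
import Crest.Agent.TIPairDefs

/-!
Row 160 (S0241).  Automorphisms of the word graph.
-/

set_option autoImplicit false

namespace Crest.Agent.TI

open MeasureTheory unitInterval Set Filter Topology
open scoped ENNReal

universe u v

variable {d : ℕ}

/-! ### automorphisms fixing the root -/

lemma adj_cases {a b : W d} (h : (wordGraph d).Adj a b) :
    (a ≠ W.root ∧ b = a.par) ∨ (b ≠ W.root ∧ a = b.par) := by
  obtain ⟨i, rfl⟩ := h
  by_cases hi : a.head? = some i
  · left
    refine ⟨?_, W.nb_eq_par hi⟩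
    rintro rfl
    simp [W.root, W.head?] at hi
  · right
    refine ⟨?_, (W.par_nb hi).symm⟩
    intro h2
    have := W.len_nb_of_ne hi
    rw [h2, W.len_root] at this
    omega

/-- automorphisms fixing the root preserve the length and the parent -/
lemma aut_par (h : wordGraph d ≃g wordGraph d) (hr : h W.root = W.root) (n : ℕ) :
    ∀ w : W d, w.len = n → (h w).len = n ∧ (w ≠ W.root → (h w).par = h w.par) := by
  induction n with
  | zero =>
    intro w hw
    have hw0 := W.len_eq_zero.1 hw
    subst hw0
    rw [hr]
    exact ⟨W.len_root, fun h => absurd rfl h⟩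
  | succ n ih =>
    intro w hw
    have hne : w ≠ W.root := by rintro rfl; simp [W.len_root] at hw
    have hlp : w.par.len = n := by have := W.len_par hne; omega
    obtain ⟨ih1, ih2⟩ := ih w.par hlp
    have hadj : (wordGraph d).Adj (h w) (h w.par) := h.map_adj_iff.2 (adj_par hne)
    rcases adj_cases hadj with ⟨h1, h2⟩ | ⟨h1, h2⟩
    · have h3 := W.len_par h1
      rw [← h2, ih1] at h3
      exact ⟨h3.symm, fun _ => h2.symm⟩
    · -- impossible
      exfalso
      have h3 := W.len_par h1
      rw [← h2, ih1] at h3
      have hpne : w.par ≠ W.root := by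
        intro h4
        rw [h4, W.len_root] at hlp
        omega
      have h5 := ih2 hpne
      rw [← h2] at h5
      have h6 : w = w.par.par := h.injective h5
      have h7 := W.len_par hpne
      rw [← h6] at h7
      omega

/-- the children of a vertex -/
def ch (w : W d) : Finset (W d) :=
  ((Finset.univ : Finset (Fin d)).filter (fun i => w.head? ≠ some i)).image (fun i => W.nb i w)

lemma mem_ch {w v : W d} : v ∈ ch w ↔ v ≠ W.root ∧ v.par = w := by
  simp only [ch, Finset.mem_image, Finset.mem_filter, Finset.mem_univ, true_and]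
  constructor
  · rintro ⟨i, hi, rfl⟩
    refine ⟨?_, W.par_nb hi⟩
    intro h2
    have := W.len_nb_of_ne hi
    rw [h2, W.len_root] at this
    omega
  · rintro ⟨h1, h2⟩
    obtain ⟨i, hi⟩ := W.exists_head h1
    refine ⟨i, ?_, ?_⟩
    · intro h3
      have h4 : W.nb i w = w.par := W.nb_eq_par h3
      rw [← h2] at h3 h4
      have h5 := nb_par hi
      rw [h5] at h4
      have h6 : v.par ≠ W.root := by
        intro h7; rw [h7] at h3; simp [W.root, W.head?] at h3
      have h7 := W.len_par h6
      have h8 := W.len_par h1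
      rw [← h4] at h7
      omega
    · rw [← h2]; exact nb_par hi

lemma nb_inj_dir {w : W d} {i j : Fin d} (hi : w.head? ≠ some i) (hj : w.head? ≠ some j)
    (h : W.nb i w = W.nb j w) : i = j := by
  have e1 := W.head?_nb_of_ne hi
  have e2 := W.head?_nb_of_ne hj
  rw [h, e2] at e1
  simpa using e1.symm

lemma sum_ch {M : Type*} [AddCommMonoid M] (w : W d) (f : W d → M) :
    ∑ v ∈ ch w, f v = ∑ i : Fin d, if w.head? = some i then 0 else f (W.nb i w) := by
  unfold ch
  rw [Finset.sum_image]
  · rw [Finset.sum_filter]
    refine Finset.sum_congr rfl fun i _ => ?_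
    simp only [ne_eq, ite_not]
  · intro i hi j hj h
    simp only [Finset.coe_filter, Finset.mem_univ, true_and, Set.mem_ofPred_eq] at hi hj
    exact nb_inj_dir hi hj h

lemma ch_aut (h : wordGraph d ≃g wordGraph d) (hr : h W.root = W.root) (w : W d) :
    ch (h w) = (ch w).map h.toEquiv.toEmbedding := by
  ext v
  simp only [Finset.mem_map, mem_ch]
  constructor
  · rintro ⟨h1, h2⟩
    have hr' : h.symm W.root = W.root := by
      have := h.symm_apply_apply W.root
      rwa [hr] at this
    have h3 : h.symm v ≠ W.root := by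
      intro h4
      apply h1
      have := congrArg h h4
      rw [hr] at this
      rw [← this]
      exact (h.apply_symm_apply v).symm
    refine ⟨h.symm v, ⟨h3, ?_⟩, h.apply_symm_apply v⟩
    have h5 := (aut_par h hr _ (h.symm v) rfl).2 h3
    rw [h.apply_symm_apply, h2] at h5
    exact (h.injective h5).symm
  · rintro ⟨x, ⟨h1, h2⟩, rfl⟩
    have h5 := (aut_par h hr _ x rfl).2 h1
    refine ⟨?_, ?_⟩
    · intro h6
      apply h1
      apply h.injective
      rw [hr]; exact h6
    · change (h x).par = h w
      rw [h5, h2]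

theorem msg_aut (h : wordGraph d ≃g wordGraph d) (hr : h W.root = W.root) (θ : ℝ) (y : W d → ℝ)
    (n : ℕ) (w : W d) : msg θ (y ∘ h) n w = msg θ y n (h w) := by
  induction n generalizing w with
  | zero => rfl
  | succ n ih =>
    have e1 : msg θ (y ∘ h) (n + 1) w = y (h w) +
      ∑ i : Fin d, if w.head? = some i then 0 else phi θ (msg θ (y ∘ h) n (W.nb i w)) := rfl
    have e2 : msg θ y (n + 1) (h w) = y (h w) +
      ∑ i : Fin d, if (h w).head? = some i then 0 else phi θ (msg θ y n (W.nb i (h w))) := rfl
    rw [e1, e2, ← sum_ch w (fun v => phi θ (msg θ (y ∘ h) n v)),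
      ← sum_ch (h w) (fun v => phi θ (msg θ y n v)), ch_aut h hr, Finset.sum_map]
    congr 1
    refine Finset.sum_congr rfl fun v _ => ?_
    rw [ih]
    rfl

theorem mR_aut (h : wordGraph d ≃g wordGraph d) (hr : h W.root = W.root) (θ : ℝ) (y : W d → ℝ) :
    mR θ (y ∘ h) = mR θ y := by
  unfold mR msgI
  simp_rw [msg_aut h hr θ y]
  rw [hr]

/-- translations as graph automorphisms -/
def trG (v : W d) : wordGraph d ≃g wordGraph d where
  toEquiv := W.trE v
  map_rel_iff' := by
    intro a b
    constructor
    · rintro ⟨i, hi⟩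
      refine ⟨i, (W.trE v).injective ?_⟩
      change W.tr v b = W.tr v (W.nb i a)
      rw [W.tr_nb]; exact hi
    · rintro ⟨i, rfl⟩
      exact ⟨i, W.tr_nb v a i⟩

lemma trG_apply (v w : W d) : trG v w = W.tr v w := rfl

/-- the magnetisation seen from a vertex is equivariant -/
theorem mR_equivariant (g : wordGraph d ≃g wordGraph d) (θ : ℝ) (y : W d → ℝ) (v : W d) :
    mR θ ((y ∘ g) ∘ W.tr v) = mR θ (y ∘ W.tr (g v)) := by
  set h : wordGraph d ≃g wordGraph d := ((trG v).trans g).trans (trG (g v)).symm with hh
  have hr : h W.root = W.root := by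
    apply (trG (g v)).injective
    change (trG (g v)) ((trG (g v)).symm (g ((trG v) W.root))) = _
    rw [(trG (g v)).apply_symm_apply, trG_apply, trG_apply, W.tr_root, W.tr_root]
  have e : (y ∘ g) ∘ W.tr v = (y ∘ W.tr (g v)) ∘ h := by
    funext w
    change y (g (W.tr v w)) = y (W.tr (g v) (h w))
    congr 1
    change _ = (trG (g v)) ((trG (g v)).symm (g ((trG v) w)))
    rw [(trG (g v)).apply_symm_apply]
    rfl
  rw [e, mR_aut h hr]

/-! ### equivariance of the innovations -/

/-- action on labels -/
def actB (g : W d → W d) (b : W d × ℕ) : W d × ℕ := (g b.1, b.2)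

theorem innov_equivariant (g : wordGraph d ≃g wordGraph d) (θ : ℝ) (c : Cl (W d)) (p : Om (W d)) :
    innov θ (c ∘ actB g) (p.1 ∘ g, p.2 ∘ actB g) = innov θ c p ∘ actB g := by
  funext b
  have hZ : Zc (c ∘ actB g) (p.1 ∘ g, p.2 ∘ actB g) = Zc c p ∘ actB g := by
    funext a; rfl
  unfold innov
  rw [hZ]
  simp only [Function.comp_apply]
  congr 2
  unfold drift
  have hf : fieldAt (c ∘ actB g) (Zc c p ∘ actB g) b.2 ((c ∘ actB g) b) =
      fieldAt c (Zc c p) b.2 (c (actB g b)) ∘ g := by
    funext v; rfl
  rw [hf, mR_equivariant]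
  rfl

/-! ### invariance of the weight -/

open Crest.ProbabilityR.TreeIsing

theorem weight_iso {V : Type u} {V' : Type v} (G : SimpleGraph V) (G' : SimpleGraph V')
    (e : G ≃g G') (θ : ℝ) (S : Finset V) (η : V' → Bool) :
    isingWeight G θ S (η ∘ e) = isingWeight G' θ (S.map e.toEquiv.toEmbedding) η := by
  classical
  unfold isingWeight
  congr 1
  rw [Finset.sym2_map]
  have key : ∀ (i1 : DecidablePred (· ∈ G'.edgeSet)) (i2 : DecidablePred (· ∈ G.edgeSet)),
      (Finset.filter (· ∈ G'.edgeSet) (Finset.map e.toEquiv.toEmbedding.sym2Map S.sym2)) =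
      (Finset.filter (· ∈ G.edgeSet) S.sym2).map e.toEquiv.toEmbedding.sym2Map := by
    intro i1 i2
    ext x
    simp only [Finset.mem_filter, Finset.mem_map]
    constructor
    · rintro ⟨⟨y, hy, rfl⟩, hx⟩
      refine ⟨y, ⟨hy, ?_⟩, rfl⟩
      induction y using Sym2.ind with
      | _ a b => exact e.map_adj_iff.1 hx
    · rintro ⟨y, ⟨hy, hx⟩, rfl⟩
      refine ⟨⟨y, hy, rfl⟩, ?_⟩
      induction y using Sym2.ind with
      | _ a b => exact e.map_adj_iff.2 hx
  rw [key, Finset.prod_map]
  refine Finset.prod_congr rfl fun x _ => ?_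
  induction x using Sym2.ind with
  | _ a b => rfl

/-! ### invariance of the Ising measure -/

lemma connected_image {V : Type u} {V' : Type v} (G : SimpleGraph V) (G' : SimpleGraph V')
    (e : G ≃g G') (S : Finset V) (hS : (G.induce (S : Set V)).Connected) :
    (G'.induce ((S.map e.toEquiv.toEmbedding : Finset V') : Set V')).Connected := by
  have h1 : ((S.map e.toEquiv.toEmbedding : Finset V') : Set V') = e '' (S : Set V) := by
    ext x; simp
  rw [h1]
  exact (SimpleGraph.Iso.connected_iff (e.induce (Set.InjOn.bijOn_image e.injective.injOn))).1 hS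

lemma ball_connected (n : ℕ) : ((wordGraph d).induce (W.ball d n : Set (W d))).Connected := by
  rw [SimpleGraph.connected_iff_exists_forall_reachable]
  have hroot : (W.root : W d) ∈ (W.ball d n : Set (W d)) := by
    rw [Finset.mem_coe, W.mem_ball]; simp [W.len_root]
  refine ⟨⟨W.root, hroot⟩, ?_⟩
  have key : ∀ m : ℕ, ∀ w : W d, (hw : w ∈ (W.ball d n : Set (W d))) → w.len = m →
      ((wordGraph d).induce (W.ball d n : Set (W d))).Reachable ⟨W.root, hroot⟩ ⟨w, hw⟩ := by
    intro m
    induction m with
    | zero =>
      intro w hw hl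
      have := W.len_eq_zero.1 hl
      subst this
      exact SimpleGraph.Reachable.refl _
    | succ m ih =>
      intro w hw hl
      have hne : w ≠ W.root := by rintro rfl; simp [W.len_root] at hl
      have hp : w.par ∈ (W.ball d n : Set (W d)) := by
        rw [Finset.mem_coe, W.mem_ball] at hw ⊢
        have := W.len_par hne
        omega
      have h1 := ih w.par hp (by have := W.len_par hne; omega)
      refine h1.trans (SimpleGraph.Adj.reachable ?_)
      exact (adj_par hne).symm
  intro w
  exact key _ w.1 w.2 rfl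

/-- probability measures on configurations are determined by the patterns on balls -/
theorem ext_of_balls (μ ν : Measure (W d → Bool)) [IsProbabilityMeasure μ] [IsProbabilityMeasure ν]
    (h : ∀ (n : ℕ) (η : W d → Bool), μ {x | ∀ v ∈ W.ball d n, x v = η v} =
      ν {x | ∀ v ∈ W.ball d n, x v = η v}) : μ = ν := by
  classical
  -- marginals on balls
  have hball : ∀ n, μ.map (W.ball d n).restrict = ν.map (W.ball d n).restrict := by
    intro n
    refine Measure.ext_of_singleton fun f => ?_
    have hm : Measurable ((W.ball d n).restrict : (W d → Bool) → _) := Finset.measurable_restrict _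
    rw [Measure.map_apply hm (measurableSet_singleton _),
      Measure.map_apply hm (measurableSet_singleton _)]
    have e : ((W.ball d n).restrict : (W d → Bool) → (W.ball d n → Bool)) ⁻¹' {f} =
        {x : W d → Bool | ∀ v ∈ W.ball d n,
        x v = (fun v => if hv : v ∈ W.ball d n then f ⟨v, hv⟩ else true) v} := by
      ext x
      simp only [Set.mem_preimage, Set.mem_singleton_iff, Set.mem_ofPred_eq]
      constructor
      · rintro rfl v hv
        simp [hv]
      · intro h2
        funext v
        have := h2 v.1 v.2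
        simp only [v.2, dif_pos] at this
        exact this
    rw [e]
    exact h n _
  refine IsProjectiveLimit.unique (P := fun J : Finset (W d) => ν.map J.restrict) ?_
    (fun J => rfl)
  intro J
  -- J is contained in a ball
  obtain ⟨n, hn⟩ : ∃ n, J ⊆ W.ball d n := by
    refine ⟨J.sup W.len, fun v hv => ?_⟩
    rw [W.mem_ball]
    exact Finset.le_sup hv
  have e : (J.restrict : (W d → Bool) → _) =
      (Finset.restrict₂ hn) ∘ (W.ball d n).restrict := rfl
  have hm1 : Measurable ((W.ball d n).restrict : (W d → Bool) → _) := Finset.measurable_restrict _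
  have hm2 : Measurable (Finset.restrict₂ (π := fun _ : W d => Bool) hn) :=
    Finset.measurable_restrict₂ _
  change μ.map J.restrict = ν.map J.restrict
  rw [e, ← Measure.map_map hm2 hm1, ← Measure.map_map hm2 hm1, hball]

theorem nu_aut {θ : ℝ} (h0 : 0 ≤ θ) (h1 : θ ≤ 1) (g : wordGraph d ≃g wordGraph d) :
    (nu d θ).map (fun x => x ∘ g) = nu d θ := by
  have i1 := isProb_nu d h1
  have hc : Measurable (fun x : W d → Bool => x ∘ g) := by
    rw [measurable_pi_iff]; intro w; exact measurable_pi_apply _
  have i2 := Measure.isProbabilityMeasure_map (μ := nu d θ) hc.aemeasurable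
  refine ext_of_balls _ _ fun n η => ?_
  have hms : MeasurableSet {x : W d → Bool | ∀ v ∈ W.ball d n, x v = η v} := by
    have : {x : W d → Bool | ∀ v ∈ W.ball d n, x v = η v} =
        ⋂ v ∈ W.ball d n, {x | x v = η v} := by ext x; simp
    rw [this]
    exact Finset.measurableSet_biInter _ fun v _ =>
      measurableSet_eq_fun (measurable_pi_apply v) measurable_const
  rw [Measure.map_apply hc hms]
  have e : (fun x : W d → Bool => x ∘ g) ⁻¹' {x | ∀ v ∈ W.ball d n, x v = η v} =
      {x | ∀ v ∈ (W.ball d n).map g.toEquiv.toEmbedding, x v = (η ∘ g.symm) v} := by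
    ext x
    simp only [Set.mem_preimage, Set.mem_ofPred_eq, Finset.mem_map, Function.comp_apply,
      forall_exists_index, and_imp]
    constructor
    · rintro h2 v a ha rfl
      rw [show g.symm (g.toEquiv.toEmbedding a) = a from g.symm_apply_apply a]
      exact h2 a ha
    · intro h2 v hv
      have := h2 (g v) v hv rfl
      rwa [show g.symm (g v) = v from g.symm_apply_apply v] at this
  rw [e, nu_connected h0 h1 _ _ (connected_image _ _ g _ (ball_connected n)),
    nu_connected h0 h1 _ _ (ball_connected n), ← weight_iso _ _ g]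
  congr 2
  funext v
  simp only [Function.comp_apply]
  rw [show g.symm (g v) = v from g.symm_apply_apply v]

end Crest.Agent.TI
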