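import Crest.Agent.TIChannel

/-!
Row 160 (S0241).  Observations: likelihoods, Bayes formula, posterior means as limits of tilted
means (general index set).
-/

set_option autoImplicit false

namespace Crest.Agent.TI

open MeasureTheory unitInterval Set Filter Topology ProbabilityTheory
open scoped ENNReal

section

variable {V : Type*}

/-! ### the measure and the observations -/

/-- law of the configuration and the noise -/
noncomputable def PPn (ν : Measure (V → Bool)) : Measure (Om V) := ν.prod (μI (V × ℕ))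

instance (ν : Measure (V → Bool)) [IsProbabilityMeasure ν] : IsProbabilityMeasure (PPn ν) := by
  unfold PPn; infer_instance

lemma measurable_sgA : Measurable sg := measurable_of_countable _

lemma measurable_Zcx (c : Cl V) (x : V → Bool) :
    Measurable (fun w : V × ℕ → I => Zc c ((x, w) : Om V)) := by
  rw [measurable_pi_iff]
  intro b
  have h : Measurable (fun w : V × ℕ → I => QK (amp (c b) * sg (x b.1)) (w b)) :=
    (measurable_QK _).comp (measurable_pi_apply b)
  exact h

lemma measurable_Zc1 (c : Cl V) : Measurable (fun p : Om V => Zc c p) := by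
  rw [measurable_pi_iff]
  intro b
  unfold Zc
  refine measurable_QK' (Measurable.const_mul ?_ _) ((measurable_pi_apply b).comp measurable_snd)
  exact measurable_sgA.comp ((measurable_pi_apply b.1).comp measurable_fst)

open Classical in
/-- partial observations -/
noncomputable def Zp (c : Cl V) (J : Finset (V × ℕ)) (x : V → Bool) (w : V × ℕ → I)
    (b : V × ℕ) : I :=
  if b ∈ J then QK (amp (c b) * sg (x b.1)) (w b) else w b

lemma measurable_Zp (c : Cl V) (J : Finset (V × ℕ)) (x : V → Bool) : Measurable (Zp c J x) := by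
  rw [measurable_pi_iff]
  intro b
  unfold Zp
  split_ifs with h
  · exact (measurable_QK _).comp (measurable_pi_apply b)
  · exact measurable_pi_apply b

/-- likelihood -/
noncomputable def LJ (c : Cl V) (J : Finset (V × ℕ)) (x : V → Bool) (w : V × ℕ → I) : ℝ :=
  ∏ j ∈ J, densK (amp (c j) * sg (x j.1)) (w j)

lemma LJ_nonneg (c : Cl V) (J : Finset (V × ℕ)) (x : V → Bool) (w : V × ℕ → I) :
    0 ≤ LJ c J x w := Finset.prod_nonneg fun _ _ => densK_nonneg _ _

lemma LJ_le (c : Cl V) (J : Finset (V × ℕ)) (x : V → Bool) (w : V × ℕ → I) :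
    LJ c J x w ≤ (5 / 4) ^ J.card := by
  unfold LJ
  refine (Finset.prod_le_prod (fun _ _ => densK_nonneg _ _) fun _ _ => densK_le _ _).trans ?_
  rw [Finset.prod_const]

lemma measurable_LJ (c : Cl V) (J : Finset (V × ℕ)) :
    Measurable (Function.uncurry (LJ c J)) := by
  unfold LJ
  refine Finset.measurable_fun_prod _ fun j _ => ?_
  refine measurable_densK' (Measurable.const_mul ?_ _) ((measurable_pi_apply j).comp measurable_snd)
  exact measurable_sgA.comp ((measurable_pi_apply j.1).comp measurable_fst)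

lemma measurable_LJ_right (c : Cl V) (J : Finset (V × ℕ)) (x : V → Bool) :
    Measurable (fun w => LJ c J x w) := (measurable_LJ c J).of_uncurry_left

lemma measurable_LJ_left (c : Cl V) (J : Finset (V × ℕ)) (w : V × ℕ → I) :
    Measurable (fun x => LJ c J x w) := (measurable_LJ c J).of_uncurry_right

open Classical in
theorem lintegral_Zp (c : Cl V) (J : Finset (V × ℕ)) (x : V → Bool) (g : (V × ℕ → I) → ℝ≥0∞)
    (hg : Measurable g) :
    ∫⁻ w, g (Zp c J x w) ∂(μI (V × ℕ)) =
      ∫⁻ w, g w * ENNReal.ofReal (LJ c J x w) ∂(μI (V × ℕ)) := by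
  induction J using Finset.induction_on generalizing g with
  | empty =>
    have h0 : ∀ w : V × ℕ → I, Zp c ∅ x w = w := fun w => by funext b; simp [Zp]
    simp [h0, LJ]
  | insert j J hj ih =>
    have h1 : ∀ (w : V × ℕ → I) (u : I), Zp c (insert j J) x (Function.update w j u) =
        Function.update (Zp c J x w) j (QK (amp (c j) * sg (x j.1)) u) := by
      intro w u
      funext b
      by_cases hb : b = j
      · subst hb
        simp [Zp]
      · simp [Zp, Finset.mem_insert, hb]
    have h2 : ∀ (w : V × ℕ → I) (u : I), Zp c J x (Function.update w j u) =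
        Function.update (Zp c J x w) j u := by
      intro w u
      funext b
      by_cases hb : b = j
      · subst hb
        simp [Zp, hj]
      · simp [Zp, Function.update_of_ne hb]
    have h0 := FIID.lintegral_resample (fun w => g (Zp c (insert j J) x w))
      (hg.comp (measurable_Zp c _ x)) j
    rw [h0]
    have h3 : ∀ w : V × ℕ → I,
        ∫⁻ u : I, g (Zp c (insert j J) x (Function.update w j u)) =
        ∫⁻ u : I, (fun z => g z * ENNReal.ofReal (densK (amp (c j) * sg (x j.1)) (z j)))
          (Zp c J x (Function.update w j u)) := by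
      intro w
      have hm : Measurable fun u : I => g (Function.update (Zp c J x w) j u) := by
        exact hg.comp (measurable_update _)
      have := lintegral_QK (amp (c j) * sg (x j.1))
        (fun u => g (Function.update (Zp c J x w) j u)) hm
      simp only [h1, h2, Function.update_self]
      rw [this]
    rw [lintegral_congr h3]
    have hm2 : Measurable (fun z : V × ℕ → I =>
        g z * ENNReal.ofReal (densK (amp (c j) * sg (x j.1)) (z j))) :=
      hg.mul ((measurable_densK _).comp (measurable_pi_apply j)).ennreal_ofReal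
    have h4 := FIID.lintegral_resample _ (hm2.comp (measurable_Zp c J x)) j
    simp only [Function.comp_apply] at h4
    change _ = _ at h4
    have h4' : ∫⁻ w, (∫⁻ u : I, (fun z => g z *
        ENNReal.ofReal (densK (amp (c j) * sg (x j.1)) (z j)))
          (Zp c J x (Function.update w j u))) ∂(FIID.μI (V × ℕ)) =
        ∫⁻ w, (fun z => g z * ENNReal.ofReal (densK (amp (c j) * sg (x j.1)) (z j)))
          (Zp c J x w) ∂(FIID.μI (V × ℕ)) := h4.symm
    rw [h4']
    have h5 := ih (fun z => g z * ENNReal.ofReal (densK (amp (c j) * sg (x j.1)) (z j))) hm2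
    rw [h5]
    refine lintegral_congr fun w => ?_
    unfold LJ
    rw [Finset.prod_insert hj, mul_assoc, ENNReal.ofReal_mul (densK_nonneg _ _)]

/-- law of the partial observations -/
theorem map_Zp (c : Cl V) (J : Finset (V × ℕ)) (x : V → Bool) :
    (μI (V × ℕ)).map (Zp c J x) =
      (μI (V × ℕ)).withDensity (fun w => ENNReal.ofReal (LJ c J x w)) := by
  refine Measure.ext fun s hs => ?_
  rw [← lintegral_indicator_one hs, lintegral_map (measurable_one.indicator hs)
    (measurable_Zp c J x), lintegral_Zp c J x _ (measurable_one.indicator hs),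
    withDensity_apply _ hs, ← lintegral_indicator hs]
  refine lintegral_congr fun w => ?_
  by_cases h : w ∈ s <;> simp [h]

theorem integral_Zp (c : Cl V) (J : Finset (V × ℕ)) (x : V → Bool) (g : (V × ℕ → I) → ℝ)
    (hg : Measurable g) :
    ∫ w, g (Zp c J x w) ∂(μI (V × ℕ)) = ∫ w, g w * LJ c J x w ∂(μI (V × ℕ)) := by
  rw [← integral_map (measurable_Zp c J x).aemeasurable hg.aestronglyMeasurable, map_Zp,
    integral_withDensity_eq_integral_toReal_smul (measurable_LJ_right c J x).ennreal_ofReal
      (Eventually.of_forall fun _ => ENNReal.ofReal_lt_top)]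
  refine integral_congr_ae (Eventually.of_forall fun w => ?_)
  simp only [smul_eq_mul]
  rw [ENNReal.toReal_ofReal (LJ_nonneg _ _ _ _), mul_comm]

/-! ### fields -/

open Classical in
/-- field of the observations in `J` (with round number `< K`) -/
noncomputable def fJ (c : Cl V) (J : Set (V × ℕ)) (K : ℕ) (z : V × ℕ → I) (u : V) : ℝ :=
  ∑ j ∈ Finset.range K, if (u, j) ∈ J then ell (c (u, j)) (z (u, j)) else 0

lemma fieldAt_eq_fJ (c : Cl V) (z : V × ℕ → I) (k : ℕ) (r : ℝ) :
    fieldAt c z k r = fJ c {a | Bef c k r a} (k + 1) z := by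
  classical
  funext u
  unfold fieldAt fJ
  rw [Finset.sum_range_succ]
  congr 1
  · refine Finset.sum_congr rfl fun j hj => ?_
    rw [if_pos]
    exact Or.inl (Finset.mem_range.1 hj)
  · have : (u, k) ∈ {a | Bef c k r a} ↔ (c (u, k) : ℝ) < r := by
      simp [Bef]
    simp only [this]

open Classical in
/-- observations in `J` of sites in `F` -/
noncomputable def Jfin (J : Set (V × ℕ)) (K : ℕ) (F : Finset V) : Finset (V × ℕ) :=
  (F ×ˢ Finset.range K).filter (fun a => a ∈ J)

lemma mem_Jfin {J : Set (V × ℕ)} {K : ℕ} {F : Finset V} {a : V × ℕ} :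
    a ∈ Jfin J K F ↔ (a.1 ∈ F ∧ a.2 < K) ∧ a ∈ J := by
  classical
  unfold Jfin
  simp only [Finset.mem_filter, Finset.mem_product, Finset.mem_range]

/-- normalisation factor -/
noncomputable def KJ (c : Cl V) (J : Finset (V × ℕ)) (w : V × ℕ → I) : ℝ :=
  ∏ j ∈ J, kfac (c j) (w j)

lemma KJ_pos (c : Cl V) (J : Finset (V × ℕ)) (w : V × ℕ → I) : 0 < KJ c J w :=
  Finset.prod_pos fun _ _ => kfac_pos _ _

lemma LJ_eq (c : Cl V) (J : Set (V × ℕ)) (K : ℕ) (F : Finset V) (x : V → Bool)
    (w : V × ℕ → I) :
    LJ c (Jfin J K F) x w = KJ c (Jfin J K F) w *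
      Real.exp (∑ u ∈ F, fJ c J K w u * sg (x u)) := by
  classical
  unfold LJ KJ
  simp only [densK_eq_exp]
  rw [Finset.prod_mul_distrib, ← Real.exp_sum]
  congr 2
  unfold Jfin fJ
  rw [Finset.sum_filter, Finset.sum_product]
  refine Finset.sum_congr rfl fun u _ => ?_
  rw [Finset.sum_mul]
  refine Finset.sum_congr rfl fun j _ => ?_
  split_ifs
  · ring
  · simp

lemma fJ_congr (c : Cl V) (J : Set (V × ℕ)) (K : ℕ) (F : Finset V) {z z' : V × ℕ → I}
    (h : ∀ j ∈ Jfin J K F, z j = z' j) {u : V} (hu : u ∈ F) : fJ c J K z u = fJ c J K z' u := by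
  classical
  unfold fJ
  refine Finset.sum_congr rfl fun j hj => ?_
  split_ifs with hp
  · rw [h (u, j) (mem_Jfin.2 ⟨⟨hu, Finset.mem_range.1 hj⟩, hp⟩)]
  · rfl

lemma measurable_fJ (c : Cl V) (J : Set (V × ℕ)) (K : ℕ) :
    Measurable (fun z : V × ℕ → I => fJ c J K z) := by
  classical
  rw [measurable_pi_iff]
  intro u
  unfold fJ
  refine Finset.measurable_sum _ fun j _ => ?_
  split_ifs
  · exact measurable_ell' measurable_const (measurable_pi_apply _)
  · exact measurable_const

/-! ### tilted means -/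

/-- unnormalised tilted mean -/
noncomputable def tnum (ν : Measure (V → Bool)) (F : Finset V) (v : V) (y : V → ℝ) : ℝ :=
  ∫ x, sg (x v) * Real.exp (∑ u ∈ F, y u * sg (x u)) ∂ν

/-- normalisation -/
noncomputable def tden (ν : Measure (V → Bool)) (F : Finset V) (y : V → ℝ) : ℝ :=
  ∫ x, Real.exp (∑ u ∈ F, y u * sg (x u)) ∂ν

/-- tilted mean -/
noncomputable def tiltR (ν : Measure (V → Bool)) (F : Finset V) (v : V) (y : V → ℝ) : ℝ :=
  tnum ν F v y / tden ν F y

lemma measurable_expo (F : Finset V) :
    Measurable (fun p : (V → ℝ) × (V → Bool) => Real.exp (∑ u ∈ F, p.1 u * sg (p.2 u))) := by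
  refine Real.measurable_exp.comp (Finset.measurable_sum _ fun u _ => ?_)
  refine Measurable.mul ?_ ?_
  · exact (measurable_pi_apply u).comp measurable_fst
  · exact measurable_sgA.comp ((measurable_pi_apply u).comp measurable_snd)

lemma expo_le (F : Finset V) (y : V → ℝ) (x : V → Bool) :
    Real.exp (∑ u ∈ F, y u * sg (x u)) ≤ Real.exp (∑ u ∈ F, |y u|) := by
  refine Real.exp_le_exp.2 (Finset.sum_le_sum fun u _ => ?_)
  refine (le_abs_self _).trans ?_
  rw [abs_mul, abs_sg', mul_one]

lemma le_expo (F : Finset V) (y : V → ℝ) (x : V → Bool) :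
    Real.exp (-∑ u ∈ F, |y u|) ≤ Real.exp (∑ u ∈ F, y u * sg (x u)) := by
  refine Real.exp_le_exp.2 ?_
  rw [← Finset.sum_neg_distrib]
  refine Finset.sum_le_sum fun u _ => ?_
  refine le_trans ?_ (neg_abs_le _)
  rw [abs_mul, abs_sg', mul_one]

variable (ν : Measure (V → Bool)) [IsProbabilityMeasure ν]

lemma integrable_expo (F : Finset V) (y : V → ℝ) :
    Integrable (fun x => Real.exp (∑ u ∈ F, y u * sg (x u))) ν := by
  refine Integrable.of_bound (C := Real.exp (∑ u ∈ F, |y u|)) ?_ ?_
  · exact ((measurable_expo F).comp (measurable_const.prodMk measurable_id)).aestronglyMeasurable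
  · refine Eventually.of_forall fun x => ?_
    rw [Real.norm_eq_abs, abs_of_pos (Real.exp_pos _)]
    exact expo_le F y x

lemma integrable_numer (F : Finset V) (v : V) (y : V → ℝ) :
    Integrable (fun x => sg (x v) * Real.exp (∑ u ∈ F, y u * sg (x u))) ν := by
  refine Integrable.of_bound (C := Real.exp (∑ u ∈ F, |y u|)) ?_ ?_
  · refine Measurable.aestronglyMeasurable (Measurable.mul ?_ ?_)
    · exact measurable_sgA.comp (measurable_pi_apply v)
    · exact ((measurable_expo F).comp (measurable_const.prodMk measurable_id))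
  · refine Eventually.of_forall fun x => ?_
    rw [Real.norm_eq_abs, abs_mul, abs_sg', one_mul, abs_of_pos (Real.exp_pos _)]
    exact expo_le F y x

lemma tden_pos (F : Finset V) (y : V → ℝ) : 0 < tden ν F y := by
  unfold tden
  have h : Real.exp (-∑ u ∈ F, |y u|) ≤ ∫ x, Real.exp (∑ u ∈ F, y u * sg (x u)) ∂ν := by
    calc Real.exp (-∑ u ∈ F, |y u|) = ∫ _, Real.exp (-∑ u ∈ F, |y u|) ∂ν := by simp
      _ ≤ _ := integral_mono (integrable_const _) (integrable_expo ν F y) (le_expo F y)
  exact (Real.exp_pos _).trans_le h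

omit [IsProbabilityMeasure ν] in
lemma abs_tnum_le (F : Finset V) (v : V) (y : V → ℝ) : |tnum ν F v y| ≤ tden ν F y := by
  unfold tnum tden
  refine (abs_integral_le_integral_abs).trans (le_of_eq ?_)
  refine integral_congr_ae (Eventually.of_forall fun x => ?_)
  simp only
  rw [abs_mul, abs_sg', one_mul, abs_of_pos (Real.exp_pos _)]

lemma abs_tiltR_le (F : Finset V) (v : V) (y : V → ℝ) : |tiltR ν F v y| ≤ 1 := by
  unfold tiltR
  rw [abs_div, abs_of_pos (tden_pos ν F y), div_le_one (tden_pos ν F y)]
  exact abs_tnum_le ν F v y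

omit [IsProbabilityMeasure ν] in
lemma tiltR_congr (F : Finset V) (v : V) {y y' : V → ℝ} (h : ∀ u ∈ F, y u = y' u) :
    tiltR ν F v y = tiltR ν F v y' := by
  have h1 : ∀ x : V → Bool, ∑ u ∈ F, y u * sg (x u) = ∑ u ∈ F, y' u * sg (x u) := fun x =>
    Finset.sum_congr rfl fun u hu => by rw [h u hu]
  unfold tiltR tnum tden
  simp only [h1]

lemma measurable_tnum (F : Finset V) (v : V) : Measurable (fun y => tnum ν F v y) := by
  unfold tnum
  have : StronglyMeasurable (fun p : (V → ℝ) × (V → Bool) =>
      sg (p.2 v) * Real.exp (∑ u ∈ F, p.1 u * sg (p.2 u))) := by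
    refine Measurable.stronglyMeasurable (Measurable.mul ?_ (measurable_expo F))
    exact measurable_sgA.comp ((measurable_pi_apply v).comp measurable_snd)
  exact (this.integral_prod_right (ν := ν)).measurable

lemma measurable_tden (F : Finset V) : Measurable (fun y => tden ν F y) := by
  unfold tden
  exact ((measurable_expo F).stronglyMeasurable.integral_prod_right (ν := ν)).measurable

lemma measurable_tiltR (F : Finset V) (v : V) : Measurable (tiltR ν F v) := by
  unfold tiltR
  exact (measurable_tnum ν F v).div (measurable_tden ν F)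

/-! ### Bayes formula -/

/-- integration of a function of finitely many observations and of the configuration -/
theorem integral_mix (c : Cl V) (J : Finset (V × ℕ))
    (f : (V → Bool) → ℝ) (hf : Measurable f) {Cf : ℝ} (hCf : ∀ x, |f x| ≤ Cf)
    (h : (V × ℕ → I) → ℝ) (hh : Measurable h) {Ch : ℝ} (hCh : ∀ x, |h x| ≤ Ch)
    (hdep : ∀ z z' : V × ℕ → I, (∀ j ∈ J, z j = z' j) → h z = h z') :
    ∫ p, f p.1 * h (Zc c p) ∂(PPn ν) =
      ∫ w, h w * (∫ x, f x * LJ c J x w ∂ν) ∂(μI (V × ℕ)) := by
  have hC0 : 0 ≤ Ch := (abs_nonneg _).trans (hCh (fun _ => 0))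
  have hCf0 : 0 ≤ Cf := (abs_nonneg _).trans (hCf (fun _ => true))
  have hm1 : Measurable (fun p : Om V => f p.1 * h (Zc c p)) :=
    (hf.comp measurable_fst).mul (hh.comp (measurable_Zc1 c))
  have hi1 : Integrable (fun p : Om V => f p.1 * h (Zc c p)) (ν.prod (μI (V × ℕ))) := by
    refine Integrable.of_bound (C := Cf * Ch) hm1.aestronglyMeasurable
      (Eventually.of_forall fun p => ?_)
    rw [Real.norm_eq_abs, abs_mul]
    exact mul_le_mul (hCf _) (hCh _) (abs_nonneg _) hCf0
  unfold PPn
  rw [integral_prod _ hi1]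
  have h1 : ∀ x : V → Bool, ∫ w, f x * h (Zc c (x, w)) ∂(μI (V × ℕ)) =
      ∫ w, h w * (f x * LJ c J x w) ∂(μI (V × ℕ)) := by
    intro x
    have e1 : ∀ w, h (Zc c (x, w)) = h (Zp c J x w) := by
      intro w
      refine hdep _ _ fun j hj => ?_
      simp [Zc, Zp, hj]
    simp only [e1]
    rw [integral_const_mul, integral_Zp c J x h hh, ← integral_const_mul]
    refine integral_congr_ae (Eventually.of_forall fun w => ?_)
    simp only
    ring
  rw [integral_congr_ae (Eventually.of_forall h1)]
  have hm2 : Measurable (fun p : (V → Bool) × (V × ℕ → I) => h p.2 * (f p.1 * LJ c J p.1 p.2)) :=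
    (hh.comp measurable_snd).mul ((hf.comp measurable_fst).mul (measurable_LJ c J))
  have hi2 : Integrable (fun p : (V → Bool) × (V × ℕ → I) => h p.2 * (f p.1 * LJ c J p.1 p.2))
      (ν.prod (μI (V × ℕ))) := by
    refine Integrable.of_bound (C := Ch * (Cf * (5 / 4) ^ J.card)) hm2.aestronglyMeasurable
      (Eventually.of_forall fun p => ?_)
    rw [Real.norm_eq_abs, abs_mul, abs_mul, abs_of_nonneg (LJ_nonneg _ _ _ _)]
    exact mul_le_mul (hCh _) (mul_le_mul (hCf _) (LJ_le _ _ _ _) (LJ_nonneg _ _ _ _) hCf0)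
      (mul_nonneg (abs_nonneg _) (LJ_nonneg _ _ _ _)) hC0
  rw [integral_integral_swap (f := fun x w => h w * (f x * LJ c J x w)) hi2]
  refine integral_congr_ae (Eventually.of_forall fun w => ?_)
  simp only
  rw [integral_const_mul]

/-- Bayes formula for finitely many observations. -/
theorem bayes (c : Cl V) (J : Set (V × ℕ)) (K : ℕ) (F : Finset V) (v : V)
    (g : (V × ℕ → I) → ℝ) (hg : Measurable g) {Cg : ℝ} (hCg : ∀ x, |g x| ≤ Cg)
    (hdep : ∀ z z' : V × ℕ → I, (∀ j ∈ Jfin J K F, z j = z' j) → g z = g z') :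
    ∫ p, sg (p.1 v) * g (Zc c p) ∂(PPn ν) =
      ∫ p, tiltR ν F v (fJ c J K (Zc c p)) * g (Zc c p) ∂(PPn ν) := by
  have hX : Measurable (fun x : V → Bool => sg (x v)) := measurable_sgA.comp (measurable_pi_apply v)
  have hL := integral_mix ν c (Jfin J K F) (fun x : V → Bool => sg (x v)) hX
    (Cf := 1) (fun x => (abs_sg' _).le) g hg hCg hdep
  have htilt : Measurable (fun z : V × ℕ → I => tiltR ν F v (fJ c J K z)) :=
    (measurable_tiltR ν F v).comp (measurable_fJ c J K)
  have hdep' : ∀ z z' : V × ℕ → I, (∀ j ∈ Jfin J K F, z j = z' j) →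
      tiltR ν F v (fJ c J K z) * g z = tiltR ν F v (fJ c J K z') * g z' := by
    intro z z' hzz
    rw [hdep z z' hzz, tiltR_congr ν F v (fun u hu => fJ_congr c J K F hzz hu)]
  have hR := integral_mix ν c (Jfin J K F) (fun _ => 1) measurable_const (Cf := 1)
    (fun x => by simp) (fun z => tiltR ν F v (fJ c J K z) * g z) (htilt.mul hg) (Ch := 1 * Cg)
    (fun z => by
      rw [abs_mul]
      exact mul_le_mul (abs_tiltR_le ν F v _) (hCg _) (abs_nonneg _) zero_le_one) hdep'
  simp only [one_mul] at hR
  rw [hL, hR]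
  refine integral_congr_ae (Eventually.of_forall fun w => ?_)
  simp only
  have e1 : ∫ x, sg (x v) * LJ c (Jfin J K F) x w ∂ν =
      KJ c (Jfin J K F) w * tnum ν F v (fJ c J K w) := by
    unfold tnum
    rw [← integral_const_mul]
    refine integral_congr_ae (Eventually.of_forall fun x => ?_)
    simp only [LJ_eq]
    ring
  have e2 : ∫ x, LJ c (Jfin J K F) x w ∂ν = KJ c (Jfin J K F) w * tden ν F (fJ c J K w) := by
    unfold tden
    rw [← integral_const_mul]
    refine integral_congr_ae (Eventually.of_forall fun x => ?_)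
    simp only [LJ_eq]
  rw [e1, e2]
  unfold tiltR
  have := (tden_pos ν F (fJ c J K w)).ne'
  field_simp

/-! ### sigma-algebras of observations -/

/-- sigma-algebra generated by the observations in `J` -/
@[instance_reducible] noncomputable def sA (c : Cl V) (J : Set (V × ℕ)) : MeasurableSpace (Om V) :=
  MeasurableSpace.comap (fun (p : Om V) (j : J) => Zc c p j) MeasurableSpace.pi

lemma sA_le (c : Cl V) (J : Set (V × ℕ)) : sA c J ≤ (inferInstance : MeasurableSpace (Om V)) := by
  rw [sA, ← measurable_iff_comap_le]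
  rw [measurable_pi_iff]
  intro j
  exact (measurable_pi_apply (j : V × ℕ)).comp (measurable_Zc1 c)

lemma measurable_coord {c : Cl V} {J : Set (V × ℕ)} {j : V × ℕ} (hj : j ∈ J) :
    Measurable[sA c J] (fun p : Om V => Zc c p j) := by
  have h1 : Measurable[sA c J] (fun (p : Om V) (j : J) => Zc c p j) := comap_measurable _
  exact (measurable_pi_apply (⟨j, hj⟩ : J)).comp h1

lemma sA_mono (c : Cl V) {J J' : Set (V × ℕ)} (h : J ⊆ J') : sA c J ≤ sA c J' := by
  rw [sA, ← measurable_iff_comap_le]
  rw [@measurable_pi_iff]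
  intro j
  exact measurable_coord (h j.2)

lemma measurable_fJ_sA (c : Cl V) {J J' : Set (V × ℕ)} (hJ : J ⊆ J') (K : ℕ) :
    Measurable[sA c J'] (fun p : Om V => fJ c J K (Zc c p)) := by
  classical
  rw [@measurable_pi_iff]
  intro u
  unfold fJ
  refine Finset.measurable_sum _ fun j _ => ?_
  by_cases hp : (u, j) ∈ J
  · simp only [hp, if_true]
    exact (measurable_ell' measurable_const measurable_id).comp (measurable_coord (hJ hp))
  · simp only [hp, if_false]
    exact measurable_const

lemma condExp_fin (c : Cl V) (J : Set (V × ℕ)) (K : ℕ) (F : Finset V) (v : V) :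
    (fun p : Om V => tiltR ν F v (fJ c J K (Zc c p))) =ᵐ[PPn ν]
      (PPn ν)[fun p : Om V => sg (p.1 v) | sA c (Jfin J K F : Set (V × ℕ))] := by
  have hXm : Measurable (fun p : Om V => sg (p.1 v)) :=
    measurable_sgA.comp ((measurable_pi_apply v).comp measurable_fst)
  have hTm : Measurable (fun p : Om V => tiltR ν F v (fJ c J K (Zc c p))) :=
    (measurable_tiltR ν _ _).comp ((measurable_fJ c J K).comp (measurable_Zc1 c))
  have hXi : Integrable (fun p : Om V => sg (p.1 v)) (PPn ν) := by
    refine Integrable.of_bound (C := 1) hXm.aestronglyMeasurable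
      (Eventually.of_forall fun p => ?_)
    rw [Real.norm_eq_abs, abs_sg']
  have hTi : Integrable (fun p : Om V => tiltR ν F v (fJ c J K (Zc c p))) (PPn ν) := by
    refine Integrable.of_bound (C := 1) hTm.aestronglyMeasurable
      (Eventually.of_forall fun p => ?_)
    rw [Real.norm_eq_abs]
    exact abs_tiltR_le ν F v _
  refine ae_eq_condExp_of_forall_setIntegral_eq (sA_le c _) hXi
    (fun s _ _ => hTi.integrableOn) ?_ ?_
  · intro s hs _
    obtain ⟨A, hA, rfl⟩ := hs
    set g : (V × ℕ → I) → ℝ := fun z =>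
      A.indicator 1 (fun j : ((Jfin J K F : Set (V × ℕ)) : Set (V × ℕ)) => z j) with hgdef
    have hres : Measurable (fun (z : V × ℕ → I)
        (j : ((Jfin J K F : Set (V × ℕ)) : Set (V × ℕ))) => z j) :=
      measurable_pi_iff.2 fun j => measurable_pi_apply _
    have hg : Measurable g := (measurable_one.indicator hA).comp hres
    have hCg : ∀ z, |g z| ≤ 1 := by
      intro z
      rw [hgdef]
      simp only
      by_cases h : (fun j : ((Jfin J K F : Set (V × ℕ)) : Set (V × ℕ)) => z j) ∈ A
      · rw [indicator_of_mem h]; simp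
      · rw [indicator_of_notMem h]; simp
    have hdep : ∀ z z' : V × ℕ → I, (∀ j ∈ Jfin J K F, z j = z' j) → g z = g z' := by
      intro z z' h
      rw [hgdef]
      simp only
      congr 1
      funext j
      exact h j (Finset.mem_coe.1 j.2)
    have key := bayes ν c J K F v g hg hCg hdep
    have hs' : MeasurableSet ((fun (p : Om V)
        (j : ((Jfin J K F : Set (V × ℕ)) : Set (V × ℕ))) => Zc c p j) ⁻¹' A) :=
      (hres.comp (measurable_Zc1 c)) hA
    have conv : ∀ f : Om V → ℝ,
        ∫ p in ((fun (p : Om V)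
          (j : ((Jfin J K F : Set (V × ℕ)) : Set (V × ℕ))) => Zc c p j) ⁻¹' A), f p ∂(PPn ν) =
        ∫ p, f p * g (Zc c p) ∂(PPn ν) := by
      intro f
      rw [← integral_indicator hs']
      refine integral_congr_ae (Eventually.of_forall fun p => ?_)
      simp only
      by_cases hp : (fun j : ((Jfin J K F : Set (V × ℕ)) : Set (V × ℕ)) => Zc c p j) ∈ A
      · rw [indicator_of_mem (by exact hp)]
        have h1 : g (Zc c p) = 1 := by
          rw [hgdef]; exact indicator_of_mem hp _
        rw [h1, mul_one]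
      · rw [indicator_of_notMem (by exact hp)]
        have h1 : g (Zc c p) = 0 := by
          rw [hgdef]; exact indicator_of_notMem hp _
        rw [h1, mul_zero]
    rw [conv, conv, key]
  · suffices hmeas : Measurable[sA c (Jfin J K F : Set (V × ℕ))]
        (fun p : Om V => tiltR ν F v (fJ c J K (Zc c p))) from
      hmeas.stronglyMeasurable.aestronglyMeasurable
    have h1 : ∀ p : Om V, tiltR ν F v (fJ c J K (Zc c p)) =
        tiltR ν F v (fJ c (Jfin J K F : Set (V × ℕ)) K (Zc c p)) := by
      intro p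
      refine tiltR_congr ν _ _ fun u hu => ?_
      classical
      unfold fJ
      refine Finset.sum_congr rfl fun j hj => ?_
      have : (u, j) ∈ (Jfin J K F : Set (V × ℕ)) ↔ (u, j) ∈ J := by
        rw [Finset.mem_coe, mem_Jfin]
        exact ⟨fun h => h.2, fun h => ⟨⟨hu, Finset.mem_range.1 hj⟩, h⟩⟩
      simp only [this]
    simp only [h1]
    exact (measurable_tiltR ν _ _).comp (measurable_fJ_sA c subset_rfl K)

/-- posterior means are almost sure limits of tilted means -/
theorem tendsto_tilt (c : Cl V) (J : Set (V × ℕ)) (K : ℕ) (hJ : ∀ a ∈ J, a.2 < K)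
    {F : ℕ → Finset V} (hmono : Monotone F) (hex : ∀ a ∈ J, ∃ n, a.1 ∈ F n) (v : V) :
    ∀ᵐ p ∂(PPn ν), Tendsto (fun n => tiltR ν (F n) v (fJ c J K (Zc c p))) atTop
      (𝓝 (((PPn ν)[fun p : Om V => sg (p.1 v) | sA c J]) p)) := by
  set ℱ : Filtration ℕ (inferInstance : MeasurableSpace (Om V)) :=
    { seq := fun n => sA c (Jfin J K (F n) : Set (V × ℕ))
      mono' := by
        intro n n' h
        refine sA_mono c ?_
        intro a ha
        have := mem_Jfin.1 (Finset.mem_coe.1 ha)
        exact Finset.mem_coe.2 (mem_Jfin.2 ⟨⟨hmono h this.1.1, this.1.2⟩, this.2⟩)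
      le' := fun n => sA_le c _ } with hℱ
  have hsup : (⨆ n, ℱ n) = sA c J := by
    apply le_antisymm
    · refine iSup_le fun n => sA_mono c ?_
      intro a ha
      exact (mem_Jfin.1 (Finset.mem_coe.1 ha)).2
    · rw [sA, ← measurable_iff_comap_le]
      rw [@measurable_pi_iff]
      intro j
      obtain ⟨n, hn⟩ := hex j.1 j.2
      have h1 : Measurable[ℱ n] (fun p : Om V => Zc c p j) :=
        measurable_coord (Finset.mem_coe.2 (mem_Jfin.2 ⟨⟨hn, hJ _ j.2⟩, j.2⟩))
      exact h1.mono (le_iSup (fun n => ℱ n) n) le_rfl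
  have h1 := tendsto_ae_condExp (μ := PPn ν) (ℱ := ℱ) (fun p : Om V => sg (p.1 v))
  rw [hsup] at h1
  have h2 : ∀ᵐ p ∂(PPn ν), ∀ n, tiltR ν (F n) v (fJ c J K (Zc c p)) =
      ((PPn ν)[fun p : Om V => sg (p.1 v) | ℱ n]) p :=
    ae_all_iff.2 fun n => condExp_fin ν c J K (F n) v
  filter_upwards [h1, h2] with p hp1 hp2
  simpa only [hp2] using hp1

/-- integrated form of the conditional mean -/
theorem integral_mul_sg (c : Cl V) (J : Set (V × ℕ)) (v : V)
    (M : Om V → ℝ) (hM : M =ᵐ[PPn ν] (PPn ν)[fun p : Om V => sg (p.1 v) | sA c J])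
    (f : Om V → ℝ) (hf : Measurable[sA c J] f) {C : ℝ} (hC : ∀ p, |f p| ≤ C) :
    ∫ p, f p * sg (p.1 v) ∂(PPn ν) = ∫ p, f p * M p ∂(PPn ν) := by
  have hle : sA c J ≤ (inferInstance : MeasurableSpace (Om V)) := sA_le c J
  have hfm0 : Measurable f := hf.mono hle le_rfl
  have hXm : Measurable (fun p : Om V => sg (p.1 v)) :=
    measurable_sgA.comp ((measurable_pi_apply v).comp measurable_fst)
  have hXi : Integrable (fun p : Om V => sg (p.1 v)) (PPn ν) := by
    refine Integrable.of_bound (C := 1) hXm.aestronglyMeasurable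
      (Eventually.of_forall fun p => ?_)
    rw [Real.norm_eq_abs, abs_sg']
  have hfXi : Integrable (f * fun p : Om V => sg (p.1 v)) (PPn ν) := by
    refine Integrable.of_bound (C := C) (hfm0.mul hXm).aestronglyMeasurable
      (Eventually.of_forall fun p => ?_)
    rw [Pi.mul_apply, norm_mul, Real.norm_eq_abs, Real.norm_eq_abs, abs_sg', mul_one]
    exact hC p
  have e1 : ∫ p, f p * sg (p.1 v) ∂(PPn ν) =
      ∫ p, ((PPn ν)[f * fun p : Om V => sg (p.1 v) | sA c J]) p ∂(PPn ν) := by
    rw [integral_condExp hle]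
    rfl
  have e2 := condExp_mul_of_stronglyMeasurable_left (μ := PPn ν)
    (m := sA c J) hf.stronglyMeasurable hfXi hXi
  rw [e1]
  refine integral_congr_ae ?_
  filter_upwards [e2, hM] with p hp2 hp3
  rw [hp2, hp3]
  rfl

end

end Crest.Agent.TI
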