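import Crest.Agent.TIPair
import Crest.Agent.TILawA

/-!
Row 160 (S0241), piece (P5b).  The clock decoupling inequality.
-/

set_option autoImplicit false

namespace Crest.Agent.TI.Clock

open MeasureTheory ProbabilityTheory unitInterval Set Filter Topology
open Crest.Agent.TI.Pair
open scoped ENNReal

/-! ### resampling a clock -/

section abstract

variable {κ : Type*} [DecidableEq κ]

lemma lintegral_I (h : ℝ → ℝ≥0∞) (hh : Measurable h) {s t : ℝ} (hs : 0 ≤ s) (ht : t ≤ 1) :
    ∫⁻ x : I, (if s ≤ (x : ℝ) ∧ (x : ℝ) < t then h x else 0) = ∫⁻ r in Ico s t, h r := by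
  have hm : Measurable (fun r : ℝ => if s ≤ r ∧ r < t then h r else 0) := by
    refine Measurable.ite ?_ hh measurable_const
    exact (measurableSet_le measurable_const measurable_id).inter
      (measurableSet_lt measurable_id measurable_const)
  rw [unitInterval.measurePreserving_coe.lintegral_comp hm]
  have e1 : (fun r : ℝ => if s ≤ r ∧ r < t then h r else 0) = (Ico s t).indicator h := by
    funext r
    by_cases hr : r ∈ Ico s t
    · rw [indicator_of_mem hr, if_pos (Set.mem_Ico.1 hr)]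
    · rw [indicator_of_notMem hr, if_neg (fun h' => hr (Set.mem_Ico.2 h'))]
  rw [e1, lintegral_indicator measurableSet_Ico, Measure.restrict_restrict measurableSet_Ico]
  congr 2
  refine inter_eq_left.2 fun r hr => ⟨hs.trans hr.1, hr.2.le.trans ht⟩

/-- comparing a clock with a resampled late clock -/
theorem decouple (b : κ) (Λ : (κ → I) → ℝ → ℝ≥0∞)
    (hΛ : Measurable (fun q : (κ → I) × ℝ => Λ q.1 q.2)) (g : ℝ → ℝ≥0∞) (hg : Measurable g)
    {s t : ℝ} (hs : 0 ≤ s) (ht : t ≤ 1 / 2) (𝒢 : Set (κ → I)) (h𝒢 : ∀ᵐ c ∂(μI κ), c ∈ 𝒢)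
    (H : ∀ c ∈ 𝒢, ∀ r' : I, (1 / 2 : ℝ) ≤ r' → (c b : ℝ) < 1 / 2 → Function.update c b r' ∈ 𝒢 →
      Λ c (c b) = Λ (Function.update c b r') (c b)) :
    ∫⁻ c, (if s ≤ (c b : ℝ) ∧ (c b : ℝ) < t then g (c b) * Λ c (c b) else 0) ∂(μI κ) ≤
      2 * ∫⁻ r in Ico s t, g r * ∫⁻ c, Λ c r ∂(μI κ) := by
  have hup : MeasurePreserving (fun p : (κ → I) × I => Function.update p.1 b p.2)
      ((μI κ).prod volume) (μI κ) :=
    ⟨measurable_updateG b, iid_map_update (fun _ => (volume : Measure I)) b⟩
  have hmc : Measurable (fun c : κ → I => (c b : ℝ)) :=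
    measurable_subtype_coe.comp (measurable_pi_apply b)
  have hΛc : Measurable (fun c : κ → I => Λ c (c b)) := by
    have := hΛ.comp (measurable_id.prodMk hmc)
    simp only [Function.comp_def] at this
    exact this
  have hset : MeasurableSet {c : κ → I | s ≤ (c b : ℝ) ∧ (c b : ℝ) < t} :=
    (measurableSet_le measurable_const hmc).inter (measurableSet_lt hmc measurable_const)
  have hf : Measurable (fun c : κ → I =>
      if s ≤ (c b : ℝ) ∧ (c b : ℝ) < t then g (c b) * Λ c (c b) else 0) :=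
    Measurable.ite hset ((hg.comp hmc).mul hΛc) measurable_const
  have hgood : ∀ᵐ c ∂(μI κ), ∀ᵐ r : I, Function.update c b r ∈ 𝒢 :=
    Measure.ae_ae_of_ae_prod (hup.quasiMeasurePreserving.ae h𝒢)
  -- pointwise bound
  have key : ∀ c : κ → I, (∀ᵐ r : I, Function.update c b r ∈ 𝒢) →
      ∫⁻ r : I, (if s ≤ ((Function.update c b r) b : ℝ) ∧ ((Function.update c b r) b : ℝ) < t then
        g ((Function.update c b r) b) * Λ (Function.update c b r) ((Function.update c b r) b)
        else 0) ≤
      ∫⁻ r : I, (if s ≤ (r : ℝ) ∧ (r : ℝ) < t then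
        g r * (2 * ∫⁻ r' : I, Λ (Function.update c b r') r) else 0) := by
    intro c hc
    refine lintegral_mono_ae ?_
    filter_upwards [hc] with r hr
    simp only [Function.update_self]
    split_ifs with h1
    · refine mul_le_mul_right ?_ _
      have hr2 : (r : ℝ) < 1 / 2 := lt_of_lt_of_le h1.2 ht
      have h2 : ∀ᵐ r' : I, (if (1 / 2 : ℝ) ≤ (r' : ℝ) then Λ (Function.update c b r) r else 0) ≤
          Λ (Function.update c b r') r := by
        filter_upwards [hc] with r' hr'
        split_ifs with h3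
        · have := H _ hr r' h3 (by rw [Function.update_self]; exact hr2)
            (by rw [Function.update_idem]; exact hr')
          rw [Function.update_self, Function.update_idem] at this
          rw [this]
        · exact zero_le
      have h4 : ∫⁻ r' : I, (if (1 / 2 : ℝ) ≤ (r' : ℝ) then Λ (Function.update c b r) r else 0) =
          Λ (Function.update c b r) r * ENNReal.ofReal (1 / 2) := by
        have e1 : (fun r' : I => if (1 / 2 : ℝ) ≤ (r' : ℝ) then Λ (Function.update c b r) r else 0)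
            = (Ici (⟨1 / 2, by norm_num, by norm_num⟩ : I)).indicator
              (fun _ => Λ (Function.update c b r) r) := by
          funext r'
          by_cases hr' : (1 / 2 : ℝ) ≤ (r' : ℝ)
          · rw [if_pos hr', indicator_of_mem (by exact hr')]
          · rw [if_neg hr', indicator_of_notMem (by exact hr')]
        rw [e1, lintegral_indicator measurableSet_Ici, setLIntegral_const,
          unitInterval.volume_Ici]
        norm_num
      have h5 : Λ (Function.update c b r) r * ENNReal.ofReal (1 / 2) ≤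
          ∫⁻ r' : I, Λ (Function.update c b r') r := by
        rw [← h4]; exact lintegral_mono_ae h2
      calc Λ (Function.update c b r) r
          = 2 * (Λ (Function.update c b r) r * ENNReal.ofReal (1 / 2)) := by
            rw [mul_comm (Λ _ _), ← mul_assoc]
            have : (2 : ℝ≥0∞) * ENNReal.ofReal (1 / 2) = 1 := by
              rw [show (2 : ℝ≥0∞) = ENNReal.ofReal 2 by norm_num, ← ENNReal.ofReal_mul (by norm_num)]
              norm_num
            rw [this, one_mul]
        _ ≤ _ := mul_le_mul_right h5 _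
    · exact le_rfl
  have hup2 := iid_lintegral_update (fun _ => (volume : Measure I)) b _ hf
  refine le_trans (le_of_eq hup2) ?_
  refine (lintegral_mono_ae (hgood.mono fun c hc => key c hc)).trans (le_of_eq ?_)
  -- Tonelli
  have hM : Measurable (fun q : ((κ → I) × ℝ) × I => Λ (Function.update q.1.1 b q.2) q.1.2) := by
    have h1 : Measurable (fun q : ((κ → I) × ℝ) × I => (Function.update q.1.1 b q.2, q.1.2)) :=
      ((measurable_updateG b).comp ((measurable_fst.comp measurable_fst).prodMk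
        measurable_snd)).prodMk (measurable_snd.comp measurable_fst)
    have := hΛ.comp h1
    simp only [Function.comp_def] at this
    exact this
  have hM2 : Measurable (fun q : (κ → I) × ℝ => ∫⁻ r' : I, Λ (Function.update q.1 b r') q.2) :=
    hM.lintegral_prod_right'
  have hM3 : Measurable (fun q : (κ → I) × I => if s ≤ (q.2 : ℝ) ∧ (q.2 : ℝ) < t then
        g q.2 * (2 * ∫⁻ r' : I, Λ (Function.update q.1 b r') q.2) else 0) := by
    have m2 : Measurable (fun q : (κ → I) × I => ((q.2 : I) : ℝ)) :=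
      measurable_subtype_coe.comp measurable_snd
    refine Measurable.ite ?_ ?_ measurable_const
    · exact (measurableSet_le measurable_const m2).inter (measurableSet_lt m2 measurable_const)
    · have m3 := hM2.comp (measurable_fst.prodMk m2)
      simp only [Function.comp_def] at m3
      exact (hg.comp m2).mul (m3.const_mul 2)
  have hswap := lintegral_lintegral_swap (μ := μI κ) (ν := (volume : Measure I))
    (f := fun (c : κ → I) (r : I) => if s ≤ (r : ℝ) ∧ (r : ℝ) < t then
        g r * (2 * ∫⁻ r' : I, Λ (Function.update c b r') r) else 0) hM3.aemeasurable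
  have hmeasL : Measurable (fun r : ℝ => ∫⁻ c, Λ c r ∂(μI κ)) := by
    have h1 : Measurable (fun q : ℝ × (κ → I) => Λ q.2 q.1) := by
      have := hΛ.comp (measurable_snd.prodMk measurable_fst)
      simp only [Function.comp_def] at this
      exact this
    exact h1.lintegral_prod_right'
  refine hswap.trans ?_
  have h6 : ∀ r : I, ∫⁻ c, (if s ≤ (r : ℝ) ∧ (r : ℝ) < t then
        g r * (2 * ∫⁻ r' : I, Λ (Function.update c b r') r) else 0) ∂(μI κ) =
      if s ≤ (r : ℝ) ∧ (r : ℝ) < t then 2 * (g r * ∫⁻ c, Λ c r ∂(μI κ)) else 0 := by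
    intro r
    split_ifs with h1
    · have m4 : Measurable (fun c : κ → I => ∫⁻ r' : I, Λ (Function.update c b r') (r : ℝ)) := by
        have := hM2.comp ((measurable_id (α := κ → I)).prodMk (measurable_const (a := (r : ℝ))))
        simp only [Function.comp_def] at this
        exact this
      have m5 : Measurable (fun c : κ → I => Λ c (r : ℝ)) := by
        have := hΛ.comp ((measurable_id (α := κ → I)).prodMk (measurable_const (a := (r : ℝ))))
        simp only [Function.comp_def] at this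
        exact this
      rw [lintegral_const_mul _ (m4.const_mul 2), lintegral_const_mul _ m4]
      have h7 := iid_lintegral_update (fun _ : κ => (volume : Measure I)) b
        (fun c : κ → I => Λ c (r : ℝ)) m5
      have h8 : ∫⁻ c, Λ c (r : ℝ) ∂(μI κ) =
          ∫⁻ c, (∫⁻ r' : I, Λ (Function.update c b r') (r : ℝ)) ∂(μI κ) := h7
      rw [h8]
      ring
    · simp
  rw [lintegral_congr h6]
  have h10 : Measurable (fun r : ℝ => g r * ∫⁻ c, Λ c r ∂(μI κ)) := hg.mul hmeasL
  have h9 : Measurable (fun r : ℝ => 2 * (g r * ∫⁻ c, Λ c r ∂(μI κ))) := h10.const_mul 2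
  rw [lintegral_I _ h9 hs (by linarith), lintegral_const_mul _ h10]

end abstract

/-! ### dependence on the clocks -/

section words

variable {d : ℕ}

/-- the two clocks agree before time `(k, r)` -/
def Agree (c c' : Cl (W d)) (k : ℕ) (r : ℝ) : Prop :=
  (∀ a, Bef c k r a ↔ Bef c' k r a) ∧ ∀ a, Bef c k r a → c a = c' a

lemma yF_congr {c c' : Cl (W d)} {k : ℕ} {r : ℝ} (h : Agree c c' k r) (p : Om (W d)) :
    yF k r c p = yF k r c' p := by
  obtain ⟨h1, h2⟩ := h
  have hB : ∀ v : W d, ((c (v, k) : ℝ) < r) ↔ ((c' (v, k) : ℝ) < r) := by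
    intro v
    have := h1 (v, k)
    simpa [Bef] using this
  have hZ : ∀ a, Bef c k r a → Zc c p a = Zc c' p a := by
    intro a ha
    unfold Zc
    rw [h2 a ha]
  funext v
  unfold yF fieldAt
  have e1 : ∀ j ∈ Finset.range k, ell (c (v, j)) (Zc c p (v, j)) =
      ell (c' (v, j)) (Zc c' p (v, j)) := by
    intro j hj
    have hb : Bef c k r (v, j) := Or.inl (Finset.mem_range.1 hj)
    rw [hZ _ hb, h2 _ hb]
  rw [Finset.sum_congr rfl e1]
  congr 1
  by_cases hv : (c (v, k) : ℝ) < r
  · have hb : Bef c k r (v, k) := Or.inr ⟨rfl, hv⟩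
    rw [if_pos hv, if_pos ((hB v).1 hv), hZ _ hb, h2 _ hb]
  · rw [if_neg hv, if_neg (fun h => hv ((hB v).2 h))]

lemma bef_mono {c : Cl (W d)} {k : ℕ} {r : ℝ} {a a' : W d × ℕ} (ha : Bef c k r a)
    (ha' : Bef c a.2 (c a) a') : Bef c k r a' := by
  rcases ha with ha | ⟨ha, har⟩ <;> rcases ha' with ha' | ⟨ha', har'⟩
  · exact Or.inl (ha'.trans ha)
  · exact Or.inl (ha' ▸ ha)
  · exact Or.inl (ha ▸ ha')
  · exact Or.inr ⟨ha'.trans ha, har'.trans har⟩

lemma Agree.before {c c' : Cl (W d)} {k : ℕ} {r : ℝ} (h : Agree c c' k r) {a : W d × ℕ}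
    (ha : Bef c k r a) : Agree c c' a.2 (c a) := by
  obtain ⟨h1, h2⟩ := h
  have hca : c a = c' a := h2 a ha
  constructor
  · intro a'
    constructor
    · intro h3
      have h4 := bef_mono ha h3
      rcases h3 with h3 | ⟨h3, h5⟩
      · exact Or.inl h3
      · exact Or.inr ⟨h3, by rw [← h2 a' h4]; exact h5⟩
    · intro h3
      have ha' : Bef c' k r a := (h1 a).1 ha
      rw [hca] at h3
      have h4 := (h1 a').2 (bef_mono ha' h3)
      rcases h3 with h3 | ⟨h3, h5⟩
      · exact Or.inl h3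
      · exact Or.inr ⟨h3, by rw [h2 a' h4, hca]; exact h5⟩
  · intro a' h3
    exact h2 a' (bef_mono ha h3)

lemma innov_congr (θ : ℝ) {c c' : Cl (W d)} {k : ℕ} {r : ℝ} (h : Agree c c' k r) {a : W d × ℕ}
    (ha : Bef c k r a) (p : Om (W d)) : innov θ c p a = innov θ c' p a := by
  have hca : c a = c' a := h.2 a ha
  have hy : fieldAt c (Zc c p) a.2 (c a) = fieldAt c' (Zc c' p) a.2 (c' a) := by
    have := yF_congr (h.before ha) p
    unfold yF at this
    rw [this, hca]
  unfold innov drift
  rw [hy]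
  unfold Zc
  rw [hca]

lemma agree_update {c : Cl (W d)} {u : W d} {k : ℕ} {r' : I}
    (hr' : (1 / 2 : ℝ) ≤ r') (hc : (c (u, k) : ℝ) < 1 / 2) :
    Agree c (Function.update c (u, k) r') k (c (u, k)) := by
  have h1 : ∀ a, a ≠ (u, k) → Function.update c (u, k) r' a = c a := fun a ha =>
    Function.update_of_ne ha _ _
  have h2 : ¬ Bef c k (c (u, k)) (u, k) := by
    rintro (h | ⟨_, h⟩)
    · exact lt_irrefl _ h
    · exact lt_irrefl _ h
  have h3 : ¬ Bef (Function.update c (u, k) r') k (c (u, k)) (u, k) := by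
    rintro (h | ⟨_, h⟩)
    · exact lt_irrefl _ h
    · rw [Function.update_self] at h
      linarith
  constructor
  · intro a
    by_cases ha : a = (u, k)
    · subst ha; exact ⟨fun h => absurd h h2, fun h => absurd h h3⟩
    · unfold Bef; rw [h1 a ha]
  · intro a hb
    rw [h1 a (fun ha => h2 (ha ▸ hb))]

/-- the σ-algebra of the innovations indexed by `A` -/
@[instance_reducible] noncomputable def sU (θ : ℝ) (c : Cl (W d)) (A : Set (W d × ℕ)) : MeasurableSpace (Om (W d)) :=
  MeasurableSpace.comap (fun p (a : A) => innov θ c p a) MeasurableSpace.pi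

lemma sU_congr (θ : ℝ) {c c' : Cl (W d)} {k : ℕ} {r : ℝ} (h : Agree c c' k r) :
    sU θ c {a | Bef c k r a} = sU θ c' {a | Bef c' k r a} := by
  have hset : {a | Bef c k r a} = {a | Bef c' k r a} := by
    ext a
    simp only [Set.mem_ofPred_eq]
    exact h.1 a
  have h2 : ∀ (A : Set (W d × ℕ)), (∀ a ∈ A, Bef c k r a) → sU θ c A = sU θ c' A := by
    intro A hA
    unfold sU
    congr 1
    funext p a
    exact innov_congr θ h (hA a a.2) p
  rw [h2 {a | Bef c k r a} (fun a ha => by simpa only [Set.mem_ofPred_eq] using ha), hset]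

/-! ### the pair given the clocks -/

section pairs

variable (θ : ℝ) (ν : Measure (W d → Bool)) [IsProbabilityMeasure ν]

instance isProb_Pt' : IsProbabilityMeasure (Pt ν) := by unfold Pt; infer_instance

/-- the conditional law given clocks and innovations is a Markov kernel -/
instance markov_kap : IsMarkovKernel (kap θ ν) := by unfold kap; infer_instance

/-- law of the two replicas given the clocks -/
noncomputable def rhoC (c : Cl (W d)) : Measure (Om (W d) × Om (W d)) :=
  (μI (W d × ℕ)).bind (fun w => (kap θ ν ×ₖ kap θ ν) (c, w))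

/-- the clock is good: innovations are iid uniform and conditional means given the innovations
only depend on the past -/
structure GoodC (c : Cl (W d)) : Prop where
  law : (PPn ν).map (innov θ c) = μI (W d × ℕ)
  cond : ∀ (k : ℕ) (r : ℝ) (G : Om (W d) → ℝ), Measurable[sA c {a | Bef c k r a}] G →
    (∃ C, ∀ p, |G p| ≤ C) →
    (fun p => ∫ p', G p' ∂(kap θ ν (c, innov θ c p))) =ᵐ[PPn ν]
      (PPn ν)[G | sU θ c {a | Bef c k r a}]

variable {θ ν}

lemma measurable_slice {f : Cl (W d) × (W d × ℕ → I) → ℝ≥0∞} (hf : Measurable f) (c : Cl (W d)) :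
    Measurable (fun w => f (c, w)) := hf.comp measurable_prodMk_left

lemma measurable_innov_c (θ : ℝ) (c : Cl (W d)) : Measurable (innov θ c) := by
  have h := (measurable_innov (d := d) θ).comp (measurable_prodMk_left (x := c))
  simp only [Function.comp_def] at h
  exact h

lemma meas_kk : Measurable (fun q : Cl (W d) × (W d × ℕ → I) => (kap θ ν ×ₖ kap θ ν) q) :=
  (kap θ ν ×ₖ kap θ ν).measurable

lemma meas_kk_c (c : Cl (W d)) :
    Measurable (fun w : W d × ℕ → I => (kap θ ν ×ₖ kap θ ν) (c, w)) :=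
  meas_kk.comp measurable_prodMk_left

lemma lintegral_rhoC (c : Cl (W d)) {f : Om (W d) × Om (W d) → ℝ≥0∞} (hf : Measurable f) :
    ∫⁻ pp, f pp ∂(rhoC θ ν c) =
      ∫⁻ w, (∫⁻ pp, f pp ∂((kap θ ν ×ₖ kap θ ν) (c, w))) ∂(μI (W d × ℕ)) := by
  unfold rhoC
  rw [Measure.lintegral_bind (meas_kk_c c).aemeasurable hf.aemeasurable]

instance isProb_rhoC (c : Cl (W d)) : IsProbabilityMeasure (rhoC θ ν c) := by
  constructor
  have h := lintegral_rhoC (θ := θ) (ν := ν) c (f := fun _ => 1) measurable_const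
  simpa using h

/-- the pair measure disintegrated over the clocks -/
lemma lintegral_pairM (hlaw : (Pt ν).map (WWm θ) = (μI (W d × ℕ)).prod (μI (W d × ℕ)))
    {f : (Cl (W d) × (W d × ℕ → I)) × (Om (W d) × Om (W d)) → ℝ≥0∞} (hf : Measurable f)
    (hdep : ∀ c w w' pp, f ((c, w), pp) = f ((c, w'), pp)) (w0 : W d × ℕ → I) :
    ∫⁻ a, f a ∂(pairM θ ν) = ∫⁻ c, (∫⁻ pp, f ((c, w0), pp) ∂(rhoC θ ν c)) ∂(μI (W d × ℕ)) := by
  unfold pairM
  rw [hlaw, Measure.lintegral_compProd hf, lintegral_prod _ (hf.lintegral_kernel_prod_right'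
    (κ := kap θ ν ×ₖ kap θ ν)).aemeasurable]
  refine lintegral_congr fun c => ?_
  rw [lintegral_rhoC c (f := fun pp => f ((c, w0), pp)) (hf.comp measurable_prodMk_left)]
  refine lintegral_congr fun w => ?_
  refine lintegral_congr fun pp => ?_
  exact hdep c w w0 pp

/-- rectangles under the pair given the clocks -/
lemma rhoC_rect {c : Cl (W d)} (hc : GoodC θ ν c) (k : ℕ) (r : ℝ) {A₁ A₂ : Set (Om (W d))}
    (h1 : MeasurableSet[sA c {a | Bef c k r a}] A₁) (h2 : MeasurableSet[sA c {a | Bef c k r a}] A₂)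
    (h1' : MeasurableSet A₁) (h2' : MeasurableSet A₂) :
    rhoC θ ν c (A₁ ×ˢ A₂) = ∫⁻ p, ENNReal.ofReal
      ((PPn ν)[A₁.indicator (fun _ => (1 : ℝ)) | sU θ c {a | Bef c k r a}] p *
       (PPn ν)[A₂.indicator (fun _ => (1 : ℝ)) | sU θ c {a | Bef c k r a}] p)
      ∂(PPn ν) := by
  have m1 : Measurable (fun w : W d × ℕ → I => kap θ ν (c, w) A₁ * kap θ ν (c, w) A₂) :=
    ((Kernel.measurable_coe (kap θ ν) h1').comp measurable_prodMk_left).mul
      ((Kernel.measurable_coe (kap θ ν) h2').comp measurable_prodMk_left)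
  have e1 : rhoC θ ν c (A₁ ×ˢ A₂) =
      ∫⁻ w, kap θ ν (c, w) A₁ * kap θ ν (c, w) A₂ ∂(μI (W d × ℕ)) := by
    unfold rhoC
    rw [Measure.bind_apply (h1'.prod h2') (meas_kk_c c).aemeasurable]
    refine lintegral_congr fun w => ?_
    rw [Kernel.prod_apply, Measure.prod_prod]
  have e2 : ∫⁻ w, kap θ ν (c, w) A₁ * kap θ ν (c, w) A₂ ∂(μI (W d × ℕ)) =
      ∫⁻ p, kap θ ν (c, innov θ c p) A₁ * kap θ ν (c, innov θ c p) A₂
        ∂(PPn ν) := by
    conv_lhs => rw [← hc.law]
    rw [lintegral_map m1 (measurable_innov_c θ c)]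
  rw [e1, e2]
  have g1 := hc.cond k r (A₁.indicator (fun _ => (1 : ℝ))) (measurable_const.indicator h1)
    ⟨1, fun p => by by_cases hp : p ∈ A₁ <;> simp [hp]⟩
  have g2 := hc.cond k r (A₂.indicator (fun _ => (1 : ℝ))) (measurable_const.indicator h2)
    ⟨1, fun p => by by_cases hp : p ∈ A₂ <;> simp [hp]⟩
  refine lintegral_congr_ae ?_
  filter_upwards [g1, g2] with p hp1 hp2
  rw [← hp1, ← hp2, integral_indicator_const _ h1', integral_indicator_const _ h2']
  simp only [smul_eq_mul, mul_one]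
  rw [ENNReal.ofReal_mul measureReal_nonneg, ofReal_measureReal, ofReal_measureReal]

lemma measurable_yF_c (k : ℕ) (r : ℝ) (c : Cl (W d)) :
    Measurable (yF k r c) := by
  have h := (measurable_yF (d := d) k r).comp (measurable_prodMk_left (x := c))
  simp only [Function.comp_def] at h
  exact h

lemma measurable_yF_sA (k : ℕ) (r : ℝ) (c : Cl (W d)) :
    Measurable[sA c {a | Bef c k r a}] (yF k r c) := by
  have hZ : ∀ a, Bef c k r a → Measurable[sA c {a | Bef c k r a}] (fun p => Zc c p a) := by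
    intro a ha
    have h1 : Measurable[sA c {a | Bef c k r a}]
        (fun p (a : ({a | Bef c k r a} : Set (W d × ℕ))) => Zc c p a) := comap_measurable _
    exact (measurable_pi_apply (⟨a, by simpa using ha⟩ : ({a | Bef c k r a} : Set (W d × ℕ)))).comp h1
  refine @measurable_pi_lambda _ _ _ (sA c {a | Bef c k r a}) _ _ fun v => ?_
  have hell : ∀ a, Bef c k r a →
      Measurable[sA c {a | Bef c k r a}] (fun p => ell (c a) (Zc c p a)) := fun a ha =>
    @meas_ell _ (sA c {a | Bef c k r a}) _ _ measurable_const (hZ a ha)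
  have h2 : Measurable[sA c {a | Bef c k r a}] (fun p => ∑ j ∈ Finset.range k,
      ell (c (v, j)) (Zc c p (v, j))) :=
    Finset.measurable_fun_sum _ fun j hj => hell (v, j) (Or.inl (Finset.mem_range.1 hj))
  have h3 : Measurable[sA c {a | Bef c k r a}] (fun p => if (c (v, k) : ℝ) < r then
      ell (c (v, k)) (Zc c p (v, k)) else 0) := by
    by_cases hv : (c (v, k) : ℝ) < r
    · simp only [if_pos hv]
      exact hell (v, k) (Or.inr ⟨rfl, hv⟩)
    · simp only [if_neg hv]
      exact measurable_const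
  exact h2.add h3

/-- the law of the two fields at `(k, r)` only depends on the clocks before `(k, r)` -/
theorem rhoC_congr {c c' : Cl (W d)} (hc : GoodC θ ν c) (hc' : GoodC θ ν c') {k : ℕ} {r : ℝ}
    (h : Agree c c' k r) :
    (rhoC θ ν c).map (fun pp => (yF k r c pp.1, yF k r c pp.2)) =
      (rhoC θ ν c').map (fun pp => (yF k r c' pp.1, yF k r c' pp.2)) := by
  have hy : yF k r c = yF k r c' := funext fun p => yF_congr h p
  have my := measurable_yF_c (d := d) k r
  have mm : ∀ c : Cl (W d), Measurable (fun pp : Om (W d) × Om (W d) =>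
      (yF k r c pp.1, yF k r c pp.2)) := fun c =>
    ((my c).comp measurable_fst).prodMk ((my c).comp measurable_snd)
  have i1 : IsProbabilityMeasure ((rhoC θ ν c).map (fun pp => (yF k r c pp.1, yF k r c pp.2))) :=
    Measure.isProbabilityMeasure_map (mm c).aemeasurable
  refine Measure.ext_prod fun {s t} hs ht => ?_
  rw [Measure.map_apply (mm c) (hs.prod ht), Measure.map_apply (mm c') (hs.prod ht)]
  have e1 : ∀ c : Cl (W d), (fun pp : Om (W d) × Om (W d) => (yF k r c pp.1, yF k r c pp.2)) ⁻¹'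
      (s ×ˢ t) = (yF k r c ⁻¹' s) ×ˢ (yF k r c ⁻¹' t) := fun c => rfl
  rw [e1, e1, rhoC_rect hc k r (measurable_yF_sA k r c hs) (measurable_yF_sA k r c ht)
    (my c hs) (my c ht), rhoC_rect hc' k r (measurable_yF_sA k r c' hs)
    (measurable_yF_sA k r c' ht) (my c' hs) (my c' ht), ← sU_congr θ h, hy]

/-- (P5b): the clock decoupling inequality -/
theorem clock_ineq (hlaw : (Pt ν).map (WWm θ) = (μI (W d × ℕ)).prod (μI (W d × ℕ)))
    (hgood : ∀ᵐ c ∂(μI (W d × ℕ)), GoodC θ ν c) (u : W d) (k : ℕ) {s t : ℝ} (hs : 0 ≤ s)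
    (ht : t ≤ 1 / 2) (g : ℝ → ℝ≥0∞) (hg : Measurable g)
    (Φ : (W d → ℝ) × (W d → ℝ) → ℝ≥0∞) (hΦ : Measurable Φ) :
    ∫⁻ a, (if s ≤ (a.1.1 (u, k) : ℝ) ∧ (a.1.1 (u, k) : ℝ) < t then
        g (a.1.1 (u, k)) * Φ (yF k (a.1.1 (u, k)) a.1.1 a.2.1, yF k (a.1.1 (u, k)) a.1.1 a.2.2)
        else 0) ∂(pairM θ ν) ≤
      2 * ∫⁻ r in Ico s t, g r * ∫⁻ q, Φ q ∂(rhoP θ ν k r) := by
  classical
  -- joint measurability of the field
  have myr : Measurable (fun q : (Cl (W d) × Om (W d)) × ℝ => yF k q.2 q.1.1 q.1.2) :=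
    meas_fieldAt k (measurable_fst.comp measurable_fst)
      (meas_Zc (measurable_fst.comp measurable_fst) (measurable_snd.comp measurable_fst))
      measurable_snd
  have myr' : ∀ {T : Type _} [MeasurableSpace T] {f : T → Cl (W d)} {p : T → Om (W d)} {r : T → ℝ},
      Measurable f → Measurable p → Measurable r → Measurable (fun t => yF k (r t) (f t) (p t)) := by
    intro T _ f p r hf hp hr
    exact meas_fieldAt k hf (meas_Zc hf hp) hr
  set Λ : Cl (W d) → ℝ → ℝ≥0∞ := fun c r => ∫⁻ pp, Φ (yF k r c pp.1, yF k r c pp.2) ∂(rhoC θ ν c)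
    with hΛdef
  have mΦ : ∀ c r, Measurable (fun pp : Om (W d) × Om (W d) =>
      Φ (yF k r c pp.1, yF k r c pp.2)) := fun c r => by
    have := hΦ.comp (((measurable_yF_c k r c).comp measurable_fst).prodMk
      ((measurable_yF_c k r c).comp measurable_snd))
    simp only [Function.comp_def] at this
    exact this
  have hΛ : Measurable (fun q : Cl (W d) × ℝ => Λ q.1 q.2) := by
    simp only [hΛdef]
    simp_rw [fun (c : Cl (W d)) (r : ℝ) => lintegral_rhoC (θ := θ) (ν := ν) c (mΦ c r)]
    -- kernel on `(clock, time), innovations`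
    set K : Kernel ((Cl (W d) × ℝ) × (W d × ℕ → I)) (Om (W d) × Om (W d)) :=
      (kap θ ν ×ₖ kap θ ν).comap (fun q => (q.1.1, q.2))
        ((measurable_fst.comp measurable_fst).prodMk measurable_snd) with hK
    have h1 : Measurable (fun q : ((Cl (W d) × ℝ) × (W d × ℕ → I)) × (Om (W d) × Om (W d)) =>
        Φ (yF k q.1.1.2 q.1.1.1 q.2.1, yF k q.1.1.2 q.1.1.1 q.2.2)) := by
      have a1 : Measurable (fun q : ((Cl (W d) × ℝ) × (W d × ℕ → I)) × (Om (W d) × Om (W d)) =>
        q.1.1.2) := measurable_snd.comp (measurable_fst.comp measurable_fst)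
      have a2 : Measurable (fun q : ((Cl (W d) × ℝ) × (W d × ℕ → I)) × (Om (W d) × Om (W d)) =>
        q.1.1.1) := measurable_fst.comp (measurable_fst.comp measurable_fst)
      have a3 : Measurable (fun q : ((Cl (W d) × ℝ) × (W d × ℕ → I)) × (Om (W d) × Om (W d)) =>
        q.2.1) := measurable_fst.comp measurable_snd
      have a4 : Measurable (fun q : ((Cl (W d) × ℝ) × (W d × ℕ → I)) × (Om (W d) × Om (W d)) =>
        q.2.2) := measurable_snd.comp measurable_snd
      have := hΦ.comp ((myr' a2 a3 a1).prodMk (myr' a2 a4 a1))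
      simp only [Function.comp_def] at this
      exact this
    have h2 := h1.lintegral_kernel_prod_right' (κ := K)
    exact h2.lintegral_prod_right'
  have e0 : ∀ r, ∫⁻ q, Φ q ∂(rhoP θ ν k r) = ∫⁻ c, Λ c r ∂(μI (W d × ℕ)) := by
    intro r
    have m1 : Measurable (fun a : (Cl (W d) × (W d × ℕ → I)) × (Om (W d) × Om (W d)) =>
        Φ (yF k r a.1.1 a.2.1, yF k r a.1.1 a.2.2)) := by
      have := hΦ.comp (measurable_yy (d := d) k r)
      simp only [Function.comp_def] at this
      exact this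
    have e1 : ∫⁻ q, Φ q ∂(rhoP θ ν k r) =
        ∫⁻ a, Φ (yF k r a.1.1 a.2.1, yF k r a.1.1 a.2.2) ∂(pairM θ ν) := by
      unfold rhoP
      exact lintegral_map hΦ (measurable_yy (d := d) k r)
    rw [e1, lintegral_pairM hlaw m1 (fun _ _ _ _ => rfl) (fun _ => 0)]
  simp_rw [e0]
  have m2 : Measurable (fun a : (Cl (W d) × (W d × ℕ → I)) × (Om (W d) × Om (W d)) =>
      if s ≤ (a.1.1 (u, k) : ℝ) ∧ (a.1.1 (u, k) : ℝ) < t then
        g (a.1.1 (u, k)) * Φ (yF k (a.1.1 (u, k)) a.1.1 a.2.1, yF k (a.1.1 (u, k)) a.1.1 a.2.2)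
        else 0) := by
    have a1 : Measurable (fun a : (Cl (W d) × (W d × ℕ → I)) × (Om (W d) × Om (W d)) =>
        a.1.1) := measurable_fst.comp measurable_fst
    have a2 : Measurable (fun a : (Cl (W d) × (W d × ℕ → I)) × (Om (W d) × Om (W d)) =>
        (a.1.1 (u, k) : ℝ)) := measurable_subtype_coe.comp ((measurable_pi_apply _).comp a1)
    have a3 : Measurable (fun a : (Cl (W d) × (W d × ℕ → I)) × (Om (W d) × Om (W d)) =>
        a.2.1) := measurable_fst.comp measurable_snd
    have a4 : Measurable (fun a : (Cl (W d) × (W d × ℕ → I)) × (Om (W d) × Om (W d)) =>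
        a.2.2) := measurable_snd.comp measurable_snd
    have a5 := hΦ.comp ((myr' a1 a3 a2).prodMk (myr' a1 a4 a2))
    simp only [Function.comp_def] at a5
    exact Measurable.ite ((measurableSet_le measurable_const a2).inter
      (measurableSet_lt a2 measurable_const)) ((hg.comp a2).mul a5) measurable_const
  rw [lintegral_pairM hlaw m2 (fun _ _ _ _ => rfl) (fun _ => 0)]
  have e2 : ∀ c : Cl (W d), ∫⁻ pp, (if s ≤ (c (u, k) : ℝ) ∧ (c (u, k) : ℝ) < t then
        g (c (u, k)) * Φ (yF k (c (u, k)) c pp.1, yF k (c (u, k)) c pp.2) else 0) ∂(rhoC θ ν c) =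
      if s ≤ (c (u, k) : ℝ) ∧ (c (u, k) : ℝ) < t then g (c (u, k)) * Λ c (c (u, k)) else 0 := by
    intro c
    split_ifs with h
    · rw [lintegral_const_mul _ (mΦ c _)]
    · simp
  simp only [e2]
  refine decouple (u, k) Λ hΛ g hg hs ht {c | GoodC θ ν c} (by simpa using hgood) ?_
  intro c hc r' hr' hcb hcu
  simp only [Set.mem_ofPred_eq] at hc hcu
  have hA := agree_update (c := c) (u := u) (k := k) (r' := r') hr' hcb
  have h1 := rhoC_congr hc hcu hA
  have h2 := congrArg (fun μ => ∫⁻ q, Φ q ∂μ) h1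
  have mm : ∀ c : Cl (W d), ∀ r, Measurable (fun pp : Om (W d) × Om (W d) =>
      (yF k r c pp.1, yF k r c pp.2)) := fun c r =>
    ((measurable_yF_c k r c).comp measurable_fst).prodMk
      ((measurable_yF_c k r c).comp measurable_snd)
  beta_reduce at h2
  rw [lintegral_map hΦ (mm _ _), lintegral_map hΦ (mm _ _)] at h2
  exact h2

end pairs

end words

end Crest.Agent.TI.Clock
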