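import Crest.Agent.TISphere
import Crest.Agent.TIIid

/-!
Row 160 (S0241).  The free Ising measure on words: symmetries, Markov property, belief
propagation.
-/

set_option autoImplicit false

namespace Crest.Agent.TI

open MeasureTheory unitInterval Set Filter Topology
open scoped ENNReal

section basic

variable {d : ℕ}

lemma sg_sq (b : Bool) : sg b * sg b = 1 := by cases b <;> norm_num [sg]
lemma abs_sg (b : Bool) : |sg b| = 1 := by cases b <;> norm_num [sg]
lemma sg_not (b : Bool) : sg (!b) = - sg b := by cases b <;> norm_num [sg]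
lemma sg_beq (a b : Bool) : sg (a == b) = sg a * sg b := by
  cases a <;> cases b <;> norm_num [sg]
lemma measurable_sg : Measurable sg := measurable_of_countable _

/-! ### the coding -/

lemma nb_cons {w : W d} {i : Fin d} (h : w.head? ≠ some i) (hc : (i :: w.1).IsChain (· ≠ ·)) :
    W.nb i w = ⟨i :: w.1, hc⟩ := Subtype.ext (W.nb_of_ne h)

lemma sp_root (s : Bool) (ε : W d × Fin d → Bool) : sp s ε W.root = s := rfl

lemma sp_nb_of_ne (s : Bool) (ε : W d × Fin d → Bool) {w : W d} {i : Fin d}
    (h : w.head? ≠ some i) :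
    sp s ε (W.nb i w) = (sp s ε w == (ε (w, i) == ε (W.nb i w, i))) := by
  have hc : (i :: w.1).IsChain (· ≠ ·) := by
    have := (W.nb i w).2
    rwa [W.nb_of_ne h] at this
  rw [nb_cons h hc]
  rfl

lemma bool_aux (a b c : Bool) (h : a = (b == c)) : b = (a == c) := by
  subst h; cases b <;> cases c <;> rfl

lemma sp_nb (s : Bool) (ε : W d × Fin d → Bool) (w : W d) (i : Fin d) :
    sp s ε (W.nb i w) = (sp s ε w == (ε (w, i) == ε (W.nb i w, i))) := by
  by_cases h : w.head? = some i
  · have h1 : (W.nb i w).head? ≠ some i := by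
      intro h2
      have h3 := W.len_nb_of_eq h2
      rw [W.nb_nb] at h3
      have h4 := W.len_nb_of_eq h
      omega
    have h5 := sp_nb_of_ne s ε h1
    rw [W.nb_nb] at h5
    have h6 : (ε (W.nb i w, i) == ε (w, i)) = (ε (w, i) == ε (W.nb i w, i)) := by
      cases ε (W.nb i w, i) <;> cases ε (w, i) <;> rfl
    rw [h6] at h5
    exact bool_aux _ _ _ h5
  · exact sp_nb_of_ne s ε h

lemma sp_tr (s : Bool) (ε : W d × Fin d → Bool) (v w : W d) :
    sp s ε (W.tr v w) = sp (sp s ε v) (fun q => ε (W.tr v q.1, q.2)) w := by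
  induction w using W.nb_induction with
  | h0 => rfl
  | hs w i ih => rw [W.tr_nb, sp_nb, sp_nb, ih, W.tr_nb]

lemma sp_not (s : Bool) (ε : W d × Fin d → Bool) (w : W d) :
    sp (!s) ε w = !(sp s ε w) := by
  induction w using W.nb_induction with
  | h0 => rfl
  | hs w i ih =>
    rw [sp_nb, sp_nb, ih]
    cases sp s ε w <;> cases (ε (w, i) == ε (W.nb i w, i)) <;> rfl

lemma sp_eq (s : Bool) (ε : W d × Fin d → Bool) (w : W d) :
    sp s ε w = (s == sp true ε w) := by
  cases s
  · rw [show (false : Bool) = !true from rfl, sp_not]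
    cases sp true ε w <;> rfl
  · cases sp true ε w <;> rfl

lemma measurable_beq {α : Type*} [MeasurableSpace α] {f g : α → Bool} (hf : Measurable f)
    (hg : Measurable g) : Measurable (fun a => f a == g a) :=
  (measurable_of_countable (fun q : Bool × Bool => q.1 == q.2)).comp (hf.prodMk hg)

lemma measurable_sp_at (w : W d) :
    Measurable (fun q : Bool × (W d × Fin d → Bool) => sp q.1 q.2 w) := by
  induction w using W.nb_induction with
  | h0 => exact measurable_fst
  | hs w i ih =>
    simp_rw [sp_nb]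
    exact measurable_beq ih (measurable_beq ((measurable_pi_apply _).comp measurable_snd)
      ((measurable_pi_apply _).comp measurable_snd))

lemma measurable_sp : Measurable (fun q : Bool × (W d × Fin d → Bool) => sp q.1 q.2) :=
  measurable_pi_iff.2 fun w => measurable_sp_at w

/-! ### sign laws -/

lemma isProb_signLaw {a : ℝ} (h0 : -1 ≤ a) (h1 : a ≤ 1) : IsProbabilityMeasure (signLaw a) := by
  constructor
  unfold signLaw
  simp only [Measure.coe_add, Measure.coe_smul, Pi.add_apply, Pi.smul_apply, measure_univ,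
    smul_eq_mul, mul_one]
  rw [← ENNReal.ofReal_add (by linarith) (by linarith)]
  rw [show (1 + a) / 2 + (1 - a) / 2 = 1 by ring, ENNReal.ofReal_one]

lemma integral_signLaw {a : ℝ} (h0 : -1 ≤ a) (h1 : a ≤ 1) (f : Bool → ℝ) :
    ∫ b, f b ∂(signLaw a) = (1 + a) / 2 * f true + (1 - a) / 2 * f false := by
  unfold signLaw
  have hi : ∀ (b : Bool) (r : ℝ), Integrable f (ENNReal.ofReal r • Measure.dirac b) := fun b r =>
    (integrable_dirac (by simp)).smul_measure ENNReal.ofReal_ne_top
  rw [integral_add_measure (hi _ _) (hi _ _), integral_smul_measure, integral_smul_measure,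
    integral_dirac, integral_dirac, ENNReal.toReal_ofReal (by linarith),
    ENNReal.toReal_ofReal (by linarith)]
  simp

lemma lintegral_signLaw (a : ℝ) (f : Bool → ℝ≥0∞) :
    ∫⁻ b, f b ∂(signLaw a) =
      ENNReal.ofReal ((1 + a) / 2) * f true + ENNReal.ofReal ((1 - a) / 2) * f false := by
  unfold signLaw
  rw [lintegral_add_measure, lintegral_smul_measure, lintegral_smul_measure,
    lintegral_dirac, lintegral_dirac]
  simp

/-- iid half edge signs -/
noncomputable def epsLaw (d : ℕ) (θ : ℝ) : Measure (W d × Fin d → Bool) :=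
  Measure.infinitePi fun _ : W d × Fin d => signLaw (Real.sqrt θ)

lemma nu_def (d : ℕ) (θ : ℝ) :
    nu d θ = ((signLaw 0).prod (epsLaw d θ)).map (fun q => sp q.1 q.2) := rfl

instance : IsProbabilityMeasure (signLaw 0) := isProb_signLaw (by norm_num) (by norm_num)

lemma isProb_signSqrt {θ : ℝ} (h1 : θ ≤ 1) : IsProbabilityMeasure (signLaw (Real.sqrt θ)) :=
  isProb_signLaw (by linarith [Real.sqrt_nonneg θ]) (by
    rw [show (1 : ℝ) = Real.sqrt 1 by simp]; exact Real.sqrt_le_sqrt h1)

lemma isProb_epsLaw (d : ℕ) {θ : ℝ} (h1 : θ ≤ 1) : IsProbabilityMeasure (epsLaw d θ) := by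
  have := isProb_signSqrt h1
  unfold epsLaw; infer_instance

lemma isProb_nu (d : ℕ) {θ : ℝ} (h1 : θ ≤ 1) : IsProbabilityMeasure (nu d θ) := by
  have := isProb_epsLaw d h1
  rw [nu_def]
  exact Measure.isProbabilityMeasure_map measurable_sp.aemeasurable

lemma lintegral_root {P : Measure (W d × Fin d → Bool)} [SFinite P]
    (F : Bool × (W d × Fin d → Bool) → ℝ≥0∞) (hF : Measurable F) :
    ∫⁻ q, F q ∂((signLaw 0).prod P) =
      ∫⁻ ε, (ENNReal.ofReal (1 / 2) * (F (true, ε) + F (false, ε))) ∂P := by
  rw [lintegral_prod_symm _ hF.aemeasurable]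
  refine lintegral_congr fun ε => ?_
  rw [lintegral_signLaw]
  rw [mul_add]
  norm_num

/-- re-rooting: the spin at `v` and the half edge signs are again independent -/
theorem map_reroot (θ : ℝ) (h1 : θ ≤ 1) (v : W d) :
    ((signLaw 0).prod (epsLaw d θ)).map
      (fun q => (sp q.1 q.2 v, fun r : W d × Fin d => q.2 (W.tr v r.1, r.2))) =
      (signLaw 0).prod (epsLaw d θ) := by
  have := isProb_signSqrt h1
  have := isProb_epsLaw d h1
  have hm2 : Measurable (fun (ε : W d × Fin d → Bool) (r : W d × Fin d) =>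
      ε (W.tr v r.1, r.2)) := by fun_prop
  have hm : Measurable (fun q : Bool × (W d × Fin d → Bool) =>
      (sp q.1 q.2 v, fun r : W d × Fin d => q.2 (W.tr v r.1, r.2))) :=
    (measurable_sp_at v).prodMk (hm2.comp measurable_snd)
  refine Measure.ext_of_lintegral _ fun F hF => ?_
  rw [lintegral_map hF hm, lintegral_root (fun q : Bool × (W d × Fin d → Bool) =>
    F (sp q.1 q.2 v, fun r : W d × Fin d => q.2 (W.tr v r.1, r.2))) (hF.comp hm),
    lintegral_root _ hF]
  have hsh : (epsLaw d θ).map (fun (ε : W d × Fin d → Bool) (r : W d × Fin d) =>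
      ε (W.tr v r.1, r.2)) = epsLaw d θ := by
    unfold epsLaw
    exact iid_map_inj (signLaw (Real.sqrt θ)) (fun r : W d × Fin d => (W.tr v r.1, r.2))
      (fun a b hab => by
        have h := Prod.mk.inj hab
        exact Prod.ext ((W.trE v).injective h.1) h.2)
  conv_rhs => rw [← hsh]
  rw [lintegral_map (by fun_prop) hm2]
  refine lintegral_congr fun ε => ?_
  congr 1
  change F (sp true ε v, _) + F (sp false ε v, _) = _
  rw [sp_eq false ε v]
  cases sp true ε v
  · change F (false, _) + F (true, _) = _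
    rw [add_comm]
  · rfl

/-- translation invariance -/
theorem nu_tr (θ : ℝ) (h1 : θ ≤ 1) (v : W d) :
    (nu d θ).map (fun x => x ∘ W.tr v) = nu d θ := by
  have hm2 : Measurable (fun (ε : W d × Fin d → Bool) (r : W d × Fin d) =>
      ε (W.tr v r.1, r.2)) := by fun_prop
  have hm : Measurable (fun q : Bool × (W d × Fin d → Bool) =>
      (sp q.1 q.2 v, fun r : W d × Fin d => q.2 (W.tr v r.1, r.2))) :=
    (measurable_sp_at v).prodMk (hm2.comp measurable_snd)
  have hc : Measurable (fun x : W d → Bool => x ∘ W.tr v) := by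
    rw [measurable_pi_iff]; intro w; exact measurable_pi_apply _
  rw [nu_def, Measure.map_map hc measurable_sp]
  conv_rhs => rw [← map_reroot θ h1 v]
  rw [Measure.map_map measurable_sp hm]
  congr 1
  funext q
  funext w
  exact sp_tr q.1 q.2 v w

/-- flip invariance -/
theorem nu_flip (θ : ℝ) (h1 : θ ≤ 1) :
    (nu d θ).map (fun x v => !(x v)) = nu d θ := by
  have := isProb_epsLaw d h1
  have hc : Measurable (fun (x : W d → Bool) (v : W d) => !(x v)) := by
    rw [measurable_pi_iff]; intro w
    exact (measurable_of_countable (fun b : Bool => !b)).comp (measurable_pi_apply w)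
  rw [nu_def, Measure.map_map hc measurable_sp]
  refine Measure.ext_of_lintegral _ fun F hF => ?_
  rw [lintegral_map hF (hc.comp measurable_sp), lintegral_map hF measurable_sp]
  simp only [Function.comp_apply]
  rw [lintegral_root (fun q : Bool × (W d × Fin d → Bool) =>
      F (fun v => !(sp q.1 q.2 v))) (hF.comp (hc.comp measurable_sp)),
    lintegral_root (fun q : Bool × (W d × Fin d → Bool) =>
      F (sp q.1 q.2)) (hF.comp measurable_sp)]
  refine lintegral_congr fun ε => ?_
  have h2 : ∀ s : Bool, (fun v => !(sp s ε v)) = sp (!s) ε := by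
    intro s; funext w
    exact (sp_not s ε w).symm
  simp only [h2]
  rw [add_comm]
  rfl


lemma nu_integral (θ : ℝ) (F : (W d → Bool) → ℝ) (hF : Measurable F) :
    ∫ x, F x ∂(nu d θ) = ∫ q, F (sp q.1 q.2) ∂((signLaw 0).prod (epsLaw d θ)) := by
  rw [nu_def, integral_map measurable_sp.aemeasurable hF.aestronglyMeasurable]

/-! ### Markov property -/

/-- the half edges above `u` only influence descendants of `u` -/
lemma spL_update (s : Bool) (ε : W d × Fin d → Bool) {u : W d} {i : Fin d} (hu : u.head? = some i)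
    (c : Bool) (a : W d × Fin d) (ha : a = (u, i) ∨ a = (u.par, i))
    (l : List (Fin d)) (hl : l.IsChain (· ≠ ·)) (hul : ¬ (u.1 <:+ l)) :
    spL s (Function.update ε a c) l hl = spL s ε l hl := by
  induction l with
  | nil => rfl
  | cons j t ih =>
    have h1 : ¬ (u.1 <:+ t) := fun h => hul (h.trans (List.suffix_cons j t))
    have h2 : u.1 ≠ j :: t := fun h => hul (h ▸ List.suffix_rfl)
    obtain ⟨lu, hlu⟩ := u
    cases lu with
    | nil => simp [W.head?] at hu
    | cons i' t0 =>
      have hi : i' = i := by simpa [W.head?] using hu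
      subst hi
      have e1 : ((⟨t, hl.tail⟩, j) : W d × Fin d) ≠ a := by
        rcases ha with rfl | rfl
        · intro h
          have h3 := congrArg (fun q : W d × Fin d => q.1.1) h
          apply h1
          simp only at h3
          rw [h3]
        · intro h
          have h3 := congrArg (fun q : W d × Fin d => q.1.1) h
          have h4 := congrArg (fun q : W d × Fin d => q.2) h
          simp only [W.par, List.tail_cons] at h3 h4
          exact h2 (by rw [h3, h4])
      have e2 : ((⟨j :: t, hl⟩, j) : W d × Fin d) ≠ a := by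
        rcases ha with rfl | rfl
        · intro h
          have h3 := congrArg (fun q : W d × Fin d => q.1.1) h
          exact h2 h3.symm
        · intro h
          have h3 := congrArg (fun q : W d × Fin d => q.1.1) h
          have h4 := congrArg (fun q : W d × Fin d => q.2) h
          simp only [W.par, List.tail_cons] at h3 h4
          subst h4
          rw [← h3] at hlu
          have := (List.isChain_cons_cons.1 hlu).1
          exact this rfl
      change (spL s (Function.update ε a c) t hl.tail == (Function.update ε a c (⟨t, hl.tail⟩, j) ==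
        Function.update ε a c (⟨j :: t, hl⟩, j))) = _
      rw [ih hl.tail h1, Function.update_of_ne e1, Function.update_of_ne e2]
      rfl

lemma sp_update (s : Bool) (ε : W d × Fin d → Bool) {u : W d} {i : Fin d} (hu : u.head? = some i)
    (c : Bool) (a : W d × Fin d) (ha : a = (u, i) ∨ a = (u.par, i)) (w : W d)
    (hul : ¬ (u.1 <:+ w.1)) :
    sp s (Function.update ε a c) w = sp s ε w := spL_update s ε hu c a ha w.1 w.2 hul

lemma nb_par {u : W d} {i : Fin d} (hu : u.head? = some i) : W.nb i u.par = u := by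
  rw [← W.nb_eq_par hu, W.nb_nb]

lemma not_suffix_par {u : W d} {i : Fin d} (hu : u.head? = some i) : ¬ (u.1 <:+ u.par.1) := by
  intro h
  have h1 := h.length_le
  have h2 : u ≠ W.root := by rintro rfl; simp [W.head?, W.root] at hu
  have h3 := W.len_par h2
  unfold W.len at h3
  omega

/-- the Markov property at a vertex `u`: the spin at `u` given everything that is not below `u` -/
theorem markov {θ : ℝ} (h0 : 0 ≤ θ) (h1 : θ ≤ 1) {u : W d} {i : Fin d} (hu : u.head? = some i)
    (F : (W d → Bool) → ℝ) (hF : Measurable F) (hFb : ∃ C, ∀ x, |F x| ≤ C)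
    (hdep : ∀ x x' : W d → Bool, (∀ w : W d, ¬ (u.1 <:+ w.1) → x w = x' w) → F x = F x')
    (g : Bool → ℝ) :
    ∫ x, F x * g (x u) ∂(nu d θ) =
      ∫ x, F x * ((1 + θ) / 2 * g (x u.par) + (1 - θ) / 2 * g (!(x u.par))) ∂(nu d θ) := by
  have i1 := isProb_signSqrt h1
  have i2 := isProb_epsLaw d h1
  have hgm : Measurable g := measurable_of_countable _
  obtain ⟨C, hC⟩ := hFb
  have hgb : ∀ b, |g b| ≤ |g true| + |g false| := by
    intro b; cases b
    · linarith [abs_nonneg (g true)]
    · linarith [abs_nonneg (g false)]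
  have hC0 : 0 ≤ C := (abs_nonneg _).trans (hC (fun _ => true))
  have hm1 : Measurable (fun x : W d → Bool => F x * g (x u)) :=
    hF.mul (hgm.comp (measurable_pi_apply u))
  have hg2 : Measurable (fun b : Bool => (1 + θ) / 2 * g b + (1 - θ) / 2 * g (!b)) :=
    measurable_of_countable _
  have hm2 : Measurable (fun x : W d → Bool =>
      F x * ((1 + θ) / 2 * g (x u.par) + (1 - θ) / 2 * g (!(x u.par)))) :=
    hF.mul (hg2.comp (measurable_pi_apply u.par))
  rw [nu_integral θ _ hm1, nu_integral θ _ hm2]
  have hb1 : ∀ x : W d → Bool, |F x * g (x u)| ≤ C * (|g true| + |g false|) := fun x => by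
    rw [abs_mul]; exact mul_le_mul (hC x) (hgb _) (abs_nonneg _) hC0
  have hb2 : ∀ x : W d → Bool,
      |F x * ((1 + θ) / 2 * g (x u.par) + (1 - θ) / 2 * g (!(x u.par)))| ≤
        C * (|g true| + |g false|) := fun x => by
    rw [abs_mul]
    refine mul_le_mul (hC x) ?_ (abs_nonneg _) hC0
    have e1 := hgb (x u.par)
    have e2 := hgb (!(x u.par))
    calc |(1 + θ) / 2 * g (x u.par) + (1 - θ) / 2 * g (!(x u.par))|
        ≤ |(1 + θ) / 2 * g (x u.par)| + |(1 - θ) / 2 * g (!(x u.par))| := abs_add_le _ _
      _ = (1 + θ) / 2 * |g (x u.par)| + (1 - θ) / 2 * |g (!(x u.par))| := by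
          rw [abs_mul, abs_mul, abs_of_nonneg (by linarith : 0 ≤ (1 + θ) / 2),
            abs_of_nonneg (by linarith : 0 ≤ (1 - θ) / 2)]
      _ ≤ (1 + θ) / 2 * (|g true| + |g false|) + (1 - θ) / 2 * (|g true| + |g false|) := by
          have : 0 ≤ (1 + θ) / 2 := by linarith
          have : 0 ≤ (1 - θ) / 2 := by linarith
          gcongr
      _ = _ := by ring
  have hint : ∀ (H : (W d → Bool) → ℝ), Measurable H → (∀ x, |H x| ≤ C * (|g true| + |g false|)) →
      Integrable (fun q : Bool × (W d × Fin d → Bool) => H (sp q.1 q.2))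
        ((signLaw 0).prod (epsLaw d θ)) := fun H hH hb =>
    Integrable.of_bound (hH.comp measurable_sp).aestronglyMeasurable _
      (Filter.Eventually.of_forall fun q => hb _)
  rw [integral_prod _ (hint _ hm1 hb1), integral_prod _ (hint _ hm2 hb2)]
  refine integral_congr_ae (Filter.Eventually.of_forall fun s => ?_)
  simp only
  have hms : Measurable (fun ε : W d × Fin d → Bool => sp s ε) :=
    measurable_sp.comp (measurable_const.prodMk measurable_id)
  have hint' : ∀ (H : (W d × Fin d → Bool) → ℝ), Measurable H →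
      (∀ x, |H x| ≤ C * (|g true| + |g false|)) → Integrable H (epsLaw d θ) := fun H hH hb =>
    Integrable.of_bound hH.aestronglyMeasurable _ (Filter.Eventually.of_forall fun q => hb _)
  have hspu : ∀ ε : W d × Fin d → Bool,
      sp s ε u = (sp s ε u.par == (ε (u.par, i) == ε (u, i))) := by
    intro ε
    have := sp_nb s ε u.par i
    rwa [nb_par hu] at this
  have hs1 : -1 ≤ Real.sqrt θ := by linarith [Real.sqrt_nonneg θ]
  have hs2 : Real.sqrt θ ≤ 1 := by
    rw [show (1 : ℝ) = Real.sqrt 1 by simp]; exact Real.sqrt_le_sqrt h1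
  have hsq : Real.sqrt θ * Real.sqrt θ = θ := Real.mul_self_sqrt h0
  have hFup : ∀ (ε : W d × Fin d → Bool) (c : Bool) (a : W d × Fin d),
      (a = (u, i) ∨ a = (u.par, i)) → F (sp s (Function.update ε a c)) = F (sp s ε) :=
    fun ε c a ha => hdep _ _ fun w hw => sp_update s ε hu c a ha w hw
  have hne : ((u.par, i) : W d × Fin d) ≠ (u, i) := by
    intro h
    have h3 := congrArg (fun q : W d × Fin d => q.1) h
    simp only at h3
    exact not_suffix_par hu (by rw [h3])
  -- first resampling
  have st1 : ∫ ε, F (sp s ε) * g (sp s ε u) ∂(epsLaw d θ) =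
      ∫ ε, F (sp s ε) * ((1 + Real.sqrt θ) / 2 * g (sp s ε u.par == ε (u.par, i)) +
        (1 - Real.sqrt θ) / 2 * g (sp s ε u.par == !(ε (u.par, i)))) ∂(epsLaw d θ) := by
    have h5 := iid_integral_update (fun _ : W d × Fin d => signLaw (Real.sqrt θ)) (u, i)
      (fun ε => F (sp s ε) * g (sp s ε u))
      (hint' _ (hm1.comp hms) (fun ε => hb1 _))
    unfold epsLaw
    rw [h5]
    refine integral_congr_ae (Filter.Eventually.of_forall fun ε => ?_)
    simp only
    rw [integral_signLaw hs1 hs2]
    rw [hFup ε true _ (Or.inl rfl), hFup ε false _ (Or.inl rfl), hspu, hspu,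
      sp_update s ε hu true _ (Or.inl rfl) _ (not_suffix_par hu),
      sp_update s ε hu false _ (Or.inl rfl) _ (not_suffix_par hu),
      Function.update_of_ne hne, Function.update_of_ne hne, Function.update_self,
      Function.update_self]
    simp only [beq_true, beq_false]
    ring
  have hm3 : Measurable (fun ε : W d × Fin d → Bool =>
      F (sp s ε) * ((1 + Real.sqrt θ) / 2 * g (sp s ε u.par == ε (u.par, i)) +
        (1 - Real.sqrt θ) / 2 * g (sp s ε u.par == !(ε (u.par, i))))) := by
    have e1 : Measurable (fun ε : W d × Fin d → Bool => sp s ε u.par) :=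
      (measurable_pi_apply _).comp hms
    have e2 : Measurable (fun ε : W d × Fin d → Bool => ε (u.par, i)) := measurable_pi_apply _
    have e3 : Measurable (fun ε : W d × Fin d → Bool => !(ε (u.par, i))) :=
      (measurable_of_countable (fun b : Bool => !b)).comp e2
    exact (hF.comp hms).mul (((hgm.comp (measurable_beq e1 e2)).const_mul _).add
      ((hgm.comp (measurable_beq e1 e3)).const_mul _))
  have hb3 : ∀ ε : W d × Fin d → Bool,
      |F (sp s ε) * ((1 + Real.sqrt θ) / 2 * g (sp s ε u.par == ε (u.par, i)) +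
        (1 - Real.sqrt θ) / 2 * g (sp s ε u.par == !(ε (u.par, i))))| ≤
        C * (|g true| + |g false|) := fun ε => by
    rw [abs_mul]
    refine mul_le_mul (hC _) ?_ (abs_nonneg _) hC0
    have e1 := hgb (sp s ε u.par == ε (u.par, i))
    have e2 := hgb (sp s ε u.par == !(ε (u.par, i)))
    have p1 : 0 ≤ (1 + Real.sqrt θ) / 2 := by linarith
    have p2 : 0 ≤ (1 - Real.sqrt θ) / 2 := by linarith
    calc _ ≤ |(1 + Real.sqrt θ) / 2 * g (sp s ε u.par == ε (u.par, i))| +
          |(1 - Real.sqrt θ) / 2 * g (sp s ε u.par == !(ε (u.par, i)))| := abs_add_le _ _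
      _ = (1 + Real.sqrt θ) / 2 * |g (sp s ε u.par == ε (u.par, i))| +
          (1 - Real.sqrt θ) / 2 * |g (sp s ε u.par == !(ε (u.par, i)))| := by
          rw [abs_mul, abs_mul, abs_of_nonneg p1, abs_of_nonneg p2]
      _ ≤ (1 + Real.sqrt θ) / 2 * (|g true| + |g false|) +
          (1 - Real.sqrt θ) / 2 * (|g true| + |g false|) := by gcongr
      _ = _ := by ring
  have st2 : ∫ ε, F (sp s ε) * ((1 + Real.sqrt θ) / 2 * g (sp s ε u.par == ε (u.par, i)) +
        (1 - Real.sqrt θ) / 2 * g (sp s ε u.par == !(ε (u.par, i)))) ∂(epsLaw d θ) =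
      ∫ ε, F (sp s ε) * ((1 + θ) / 2 * g (sp s ε u.par) +
        (1 - θ) / 2 * g (!(sp s ε u.par))) ∂(epsLaw d θ) := by
    have h5 := iid_integral_update (fun _ : W d × Fin d => signLaw (Real.sqrt θ)) (u.par, i)
      _ (hint' _ hm3 hb3)
    unfold epsLaw
    rw [h5]
    refine integral_congr_ae (Filter.Eventually.of_forall fun ε => ?_)
    simp only
    rw [integral_signLaw hs1 hs2]
    rw [hFup ε true _ (Or.inr rfl), hFup ε false _ (Or.inr rfl),
      sp_update s ε hu true _ (Or.inr rfl) _ (not_suffix_par hu),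
      sp_update s ε hu false _ (Or.inr rfl) _ (not_suffix_par hu),
      Function.update_self, Function.update_self]
    simp only [Bool.not_true, Bool.not_false, beq_true, beq_false]
    linear_combination (F (sp s ε) * (g (sp s ε u.par) - g (!(sp s ε u.par))) / 2) * hsq
  rw [st1, st2]

/-! ### peeling a sphere -/

/-- transition operator of one edge -/
noncomputable def Mg (θ : ℝ) (g : Bool → ℝ) (b : Bool) : ℝ :=
  (1 + θ) / 2 * g b + (1 - θ) / 2 * g (!b)

lemma suffix_eq_of_len {u w : W d} (h : u.1 <:+ w.1) (hl : w.len ≤ u.len) : u = w := by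
  apply Subtype.ext
  exact h.eq_of_length_le hl

theorem peel_set {θ : ℝ} (h0 : 0 ≤ θ) (h1 : θ ≤ 1) (n : ℕ) (g : W d → Bool → ℝ)
    (T : Finset (W d)) (hT : ∀ u ∈ T, u.len = n + 1)
    (F : (W d → Bool) → ℝ) (hF : Measurable F) (hFb : ∃ C, ∀ x, |F x| ≤ C)
    (hdep : ∀ x x' : W d → Bool, (∀ w : W d, w.len ≤ n → x w = x' w) → F x = F x') :
    ∫ x, F x * ∏ u ∈ T, g u (x u) ∂(nu d θ) =
      ∫ x, F x * ∏ u ∈ T, Mg θ (g u) (x u.par) ∂(nu d θ) := by
  induction T using Finset.induction_on generalizing F with
  | empty => simp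
  | insert u T huT ih =>
    have hlu : u.len = n + 1 := hT u (Finset.mem_insert_self _ _)
    have hne : u ≠ W.root := by rintro rfl; simp [W.len_root] at hlu
    obtain ⟨i, hi⟩ := W.exists_head hne
    have hlp : u.par.len = n := by have := W.len_par hne; omega
    have hgm : ∀ w, Measurable (g w) := fun w => measurable_of_countable _
    have hMm : Measurable (Mg θ (g u)) := measurable_of_countable _
    have hbd : ∀ h : Bool → ℝ, ∀ b, |h b| ≤ |h true| + |h false| := by
      intro h b; cases b
      · linarith [abs_nonneg (h true)]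
      · linarith [abs_nonneg (h false)]
    have hT' : ∀ w ∈ T, w.len = n + 1 := fun w hw => hT w (Finset.mem_insert_of_mem hw)
    obtain ⟨C, hC⟩ := hFb
    have hC0 : 0 ≤ C := (abs_nonneg _).trans (hC (fun _ => true))
    have e1 : ∀ x : W d → Bool, F x * ∏ w ∈ insert u T, g w (x w) =
        (F x * ∏ w ∈ T, g w (x w)) * g u (x u) := fun x => by
      rw [Finset.prod_insert huT]; ring
    simp_rw [e1]
    have hm1 : Measurable (fun x : W d → Bool => F x * ∏ w ∈ T, g w (x w)) :=
      hF.mul (Finset.measurable_fun_prod _ fun w _ => (hgm w).comp (measurable_pi_apply w))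
    rw [markov h0 h1 hi _ hm1 ?_ ?_ (g u)]
    · have e2 : ∀ x : W d → Bool, (F x * ∏ w ∈ T, g w (x w)) *
          ((1 + θ) / 2 * g u (x u.par) + (1 - θ) / 2 * g u (!(x u.par))) =
          (F x * Mg θ (g u) (x u.par)) * ∏ w ∈ T, g w (x w) := fun x => by
        unfold Mg; ring
      simp_rw [e2]
      rw [ih hT' (fun x => F x * Mg θ (g u) (x u.par))
        (hF.mul (hMm.comp (measurable_pi_apply _))) ?_ ?_]
      · refine integral_congr_ae (Filter.Eventually.of_forall fun x => ?_)
        simp only
        rw [Finset.prod_insert huT]; ring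
      · refine ⟨C * (|Mg θ (g u) true| + |Mg θ (g u) false|), fun x => ?_⟩
        rw [abs_mul]
        exact mul_le_mul (hC x) (hbd _ _) (abs_nonneg _) hC0
      · intro x x' hx
        rw [hdep x x' hx, hx u.par hlp.le]
    · refine ⟨C * ∏ w ∈ T, (|g w true| + |g w false|), fun x => ?_⟩
      rw [abs_mul, Finset.abs_prod]
      refine mul_le_mul (hC x) (Finset.prod_le_prod (fun _ _ => abs_nonneg _) fun w _ => hbd _ _)
        (Finset.prod_nonneg fun _ _ => abs_nonneg _) hC0
    · intro x x' hx
      have h2 : ∀ w : W d, w.len ≤ n → x w = x' w := by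
        intro w hw
        refine hx w fun h3 => ?_
        have := suffix_eq_of_len h3 (by omega)
        subst this
        omega
      rw [hdep x x' h2]
      congr 1
      refine Finset.prod_congr rfl fun w hw => ?_
      rw [hx w fun h3 => ?_]
      have := suffix_eq_of_len h3 (by rw [hT' w hw, hlu])
      subst this
      exact huT hw

/-! ### belief propagation -/

lemma tanh_lt_one' (x : ℝ) : |Real.tanh x| < 1 := Real.abs_tanh_lt_one x

lemma tanh_phi {θ : ℝ} (h0 : 0 ≤ θ) (h1 : θ ≤ 1) (h : ℝ) :
    Real.tanh (phi θ h) = θ * Real.tanh h := by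
  unfold phi
  refine Real.tanh_artanh ?_
  have h2 : |θ * Real.tanh h| < 1 := by
    rw [abs_mul, abs_of_nonneg h0]
    have := tanh_lt_one' h
    nlinarith [abs_nonneg (Real.tanh h)]
  exact abs_lt.1 h2

/-- normalisation in belief propagation -/
noncomputable def Cc (θ h : ℝ) : ℝ := Real.cosh h / Real.cosh (phi θ h)

lemma Cc_pos (θ h : ℝ) : 0 < Cc θ h := div_pos (Real.cosh_pos _) (Real.cosh_pos _)

lemma exp_sg (h : ℝ) (b : Bool) :
    Real.exp (h * sg b) = Real.cosh h * (1 + Real.tanh h * sg b) := by
  rw [Real.tanh_eq_sinh_div_cosh]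
  have hc := (Real.cosh_pos h).ne'
  cases b
  · simp only [sg, Bool.false_eq_true, if_false]
    rw [mul_neg_one, ← Real.cosh_sub_sinh]
    field_simp
    ring
  · simp only [sg, if_true]
    rw [mul_one, ← Real.cosh_add_sinh]
    field_simp

lemma Mg_exp {θ : ℝ} (h0 : 0 ≤ θ) (h1 : θ ≤ 1) (h : ℝ) (b : Bool) :
    Mg θ (fun b => Real.exp (h * sg b)) b = Cc θ h * Real.exp (phi θ h * sg b) := by
  unfold Mg Cc
  simp only
  rw [exp_sg, exp_sg, exp_sg, tanh_phi h0 h1, sg_not]
  have hc := (Real.cosh_pos (phi θ h)).ne'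
  field_simp
  ring

/-- sums over a sphere -/
lemma sum_sphere_succ {M : Type*} [AddCommMonoid M] (n : ℕ) (f : W d → M) :
    ∑ u ∈ W.sphere d (n + 1), f u =
      ∑ v ∈ W.sphere d n, ∑ i : Fin d, if v.head? = some i then 0 else f (W.nb i v) := by
  rw [show W.sphere d (n + 1) = ((W.sphere d n ×ˢ (Finset.univ : Finset (Fin d))).filter
      (fun q => q.1.head? ≠ some q.2)).image (fun q => W.nb q.2 q.1) from rfl]
  rw [Finset.sum_image]
  · rw [Finset.sum_filter, Finset.sum_product]
    refine Finset.sum_congr rfl fun v _ => Finset.sum_congr rfl fun i _ => ?_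
    simp only [ne_eq, ite_not]
  · intro q hq q' hq' h
    simp only [Finset.coe_filter, Finset.mem_product, Finset.mem_univ, and_true,
      Set.mem_ofPred_eq] at hq hq'
    have e1 := W.head?_nb_of_ne hq.2
    have e2 := W.head?_nb_of_ne hq'.2
    simp only at h
    rw [h, e2] at e1
    have e3 : q'.2 = q.2 := by simpa using e1
    have e4 : q.1 = q'.1 := by
      have := congrArg (W.nb q.2) h
      rw [W.nb_nb, ← e3, W.nb_nb] at this
      exact this
    exact Prod.ext e4 e3.symm

lemma sum_ball_succ {M : Type*} [AddCommMonoid M] (n : ℕ) (f : W d → M) :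
    ∑ u ∈ W.ball d (n + 1), f u = ∑ u ∈ W.ball d n, f u + ∑ u ∈ W.sphere d (n + 1), f u := by
  have h : W.ball d (n + 1) = W.ball d n ∪ W.sphere d (n + 1) := by
    ext w
    simp only [Finset.mem_union, W.mem_ball, W.mem_sphere]
    omega
  rw [h, Finset.sum_union]
  rw [Finset.disjoint_left]
  intro w hw hw'
  rw [W.mem_ball] at hw
  rw [W.mem_sphere] at hw'
  omega

/-- fold the messages of the children into the sphere of radius `n` -/
noncomputable def foldF (θ : ℝ) (y : W d → ℝ) (n : ℕ) (v : W d) : ℝ :=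
  y v + if v.len = n then ∑ i : Fin d, (if v.head? = some i then 0 else phi θ (y (W.nb i v)))
    else 0

lemma msg_foldF (θ : ℝ) (y : W d → ℝ) (m : ℕ) (w : W d) (n : ℕ) (h : w.len + m = n) :
    msg θ (foldF θ y n) m w = msg θ y (m + 1) w := by
  induction m generalizing w with
  | zero =>
    have : w.len = n := by omega
    simp only [msg, foldF, this, if_true]
  | succ m ih =>
    have h2 : w.len ≠ n := by omega
    have e1 : msg θ (foldF θ y n) (m + 1) w = foldF θ y n w +
      ∑ i : Fin d, if w.head? = some i then 0 else phi θ (msg θ (foldF θ y n) m (W.nb i w)) := rfl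
    have e2 : msg θ y (m + 1 + 1) w = y w +
      ∑ i : Fin d, if w.head? = some i then 0 else phi θ (msg θ y (m + 1) (W.nb i w)) := rfl
    rw [e1, e2]
    congr 1
    · simp [foldF, h2]
    · refine Finset.sum_congr rfl fun i _ => ?_
      split_ifs with hi
      · rfl
      · rw [ih]
        rw [W.len_nb_of_ne hi]; omega

lemma bp_step {θ : ℝ} (h0 : 0 ≤ θ) (h1 : θ ≤ 1) (n : ℕ) (y : W d → ℝ) (f : Bool → ℝ) :
    ∫ x, f (x W.root) * Real.exp (∑ u ∈ W.ball d (n + 1), y u * sg (x u)) ∂(nu d θ) =
      (∏ u ∈ W.sphere d (n + 1), Cc θ (y u)) *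
      ∫ x, f (x W.root) * Real.exp (∑ u ∈ W.ball d n, foldF θ y n u * sg (x u)) ∂(nu d θ) := by
  have e1 : ∀ x : W d → Bool,
      f (x W.root) * Real.exp (∑ u ∈ W.ball d (n + 1), y u * sg (x u)) =
      (f (x W.root) * Real.exp (∑ u ∈ W.ball d n, y u * sg (x u))) *
        ∏ u ∈ W.sphere d (n + 1), (fun b => Real.exp (y u * sg b)) (x u) := fun x => by
    rw [sum_ball_succ, Real.exp_add, Real.exp_sum (W.sphere d (n + 1))]
    ring
  simp_rw [e1]
  have hfm : Measurable f := measurable_of_countable _
  have hbd : ∀ b, |f b| ≤ |f true| + |f false| := by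
    intro b; cases b
    · linarith [abs_nonneg (f true)]
    · linarith [abs_nonneg (f false)]
  have hsm : ∀ w : W d, Measurable (fun x : W d → Bool => sg (x w)) := fun w =>
    measurable_sg.comp (measurable_pi_apply w)
  rw [peel_set h0 h1 n (fun u b => Real.exp (y u * sg b)) (W.sphere d (n + 1))
    (fun u hu => W.mem_sphere.1 hu)
    (fun x => f (x W.root) * Real.exp (∑ u ∈ W.ball d n, y u * sg (x u)))]
  · rw [← integral_const_mul]
    refine integral_congr_ae (Filter.Eventually.of_forall fun x => ?_)
    simp only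
    have e2 : ∏ u ∈ W.sphere d (n + 1), Mg θ (fun b => Real.exp (y u * sg b)) (x u.par) =
        (∏ u ∈ W.sphere d (n + 1), Cc θ (y u)) *
          Real.exp (∑ u ∈ W.sphere d (n + 1), phi θ (y u) * sg (x u.par)) := by
      rw [Real.exp_sum, ← Finset.prod_mul_distrib]
      exact Finset.prod_congr rfl fun u _ => Mg_exp h0 h1 _ _
    have e3 : ∑ u ∈ W.sphere d (n + 1), phi θ (y u) * sg (x u.par) =
        ∑ v ∈ W.sphere d n, (∑ i : Fin d, (if v.head? = some i then 0 else
          phi θ (y (W.nb i v)))) * sg (x v) := by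
      rw [sum_sphere_succ]
      refine Finset.sum_congr rfl fun v _ => ?_
      rw [Finset.sum_mul]
      refine Finset.sum_congr rfl fun i _ => ?_
      split_ifs with hi
      · simp
      · rw [W.par_nb hi]
    have e4 : ∑ u ∈ W.ball d n, foldF θ y n u * sg (x u) =
        ∑ u ∈ W.ball d n, y u * sg (x u) + ∑ v ∈ W.sphere d n, (∑ i : Fin d,
          (if v.head? = some i then 0 else phi θ (y (W.nb i v)))) * sg (x v) := by
      have e5 : W.sphere d n = (W.ball d n).filter (fun v => v.len = n) := by
        ext v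
        simp only [Finset.mem_filter, W.mem_ball, W.mem_sphere]
        omega
      rw [e5, Finset.sum_filter, ← Finset.sum_add_distrib]
      refine Finset.sum_congr rfl fun v _ => ?_
      unfold foldF
      split_ifs with hv
      · ring
      · ring
    rw [e2, e3, e4, Real.exp_add]
    ring
  · exact (hfm.comp (measurable_pi_apply _)).mul (Real.measurable_exp.comp
      (Finset.measurable_fun_sum _ fun u _ => (hsm u).const_mul _))
  · refine ⟨(|f true| + |f false|) * Real.exp (∑ u ∈ W.ball d n, |y u|), fun x => ?_⟩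
    rw [abs_mul, Real.abs_exp]
    refine mul_le_mul (hbd _) (Real.exp_le_exp.2 (Finset.sum_le_sum fun u _ => ?_))
      (Real.exp_pos _).le (by positivity)
    calc y u * sg (x u) ≤ |y u * sg (x u)| := le_abs_self _
      _ = |y u| := by rw [abs_mul, abs_sg, mul_one]
  · intro x x' hx
    rw [hx W.root (by simp [W.len_root])]
    congr 2
    exact Finset.sum_congr rfl fun u hu => by rw [hx u (W.mem_ball.1 hu)]

/-- belief propagation at the root -/
theorem bp_root {θ : ℝ} (h0 : 0 ≤ θ) (h1 : θ ≤ 1) (n : ℕ) (y : W d → ℝ) :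
    ∫ x, sg (x W.root) * Real.exp (∑ u ∈ W.ball d n, y u * sg (x u)) ∂(nu d θ) =
      Real.tanh (msg θ y n W.root) *
        ∫ x, Real.exp (∑ u ∈ W.ball d n, y u * sg (x u)) ∂(nu d θ) := by
  have key : ∫ x, sg (x W.root) * Real.exp (∑ u ∈ W.ball d n, y u * sg (x u)) ∂(nu d θ) =
      Real.tanh (msg θ y n W.root) *
        ∫ x, (fun _ : Bool => (1 : ℝ)) (x W.root) *
          Real.exp (∑ u ∈ W.ball d n, y u * sg (x u)) ∂(nu d θ) := by
    induction n generalizing y with
    | zero =>
      have i2 := isProb_epsLaw d h1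
      have hb : W.ball d 0 = {W.root} := by
        ext w; rw [W.mem_ball]; simp [W.len_eq_zero]
      simp only [hb, Finset.sum_singleton, msg, one_mul]
      have hm : Measurable (fun x : W d → Bool => sg (x W.root)) :=
        measurable_sg.comp (measurable_pi_apply _)
      have hm2 : Measurable (fun x : W d → Bool => Real.exp (y W.root * sg (x W.root))) :=
        Real.measurable_exp.comp (hm.const_mul _)
      have hm3 : Measurable (fun x : W d → Bool =>
          sg (x W.root) * Real.exp (y W.root * sg (x W.root))) := hm.mul hm2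
      rw [nu_integral θ _ hm3, nu_integral θ _ hm2]
      simp only [sp_root]
      have hI : ∀ F : Bool → ℝ, ∫ q : Bool × (W d × Fin d → Bool), F q.1
          ∂((signLaw 0).prod (epsLaw d θ)) = (F true + F false) / 2 := by
        intro F
        have hFm : Measurable F := measurable_of_countable _
        rw [← integral_map (f := F) measurable_fst.aemeasurable hFm.aestronglyMeasurable]
        rw [← Measure.fst, Measure.fst_prod, integral_signLaw (by norm_num) (by norm_num)]
        ring
      rw [hI (fun b => sg b * Real.exp (y W.root * sg b)),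
        hI (fun b => Real.exp (y W.root * sg b))]
      simp only [exp_sg]
      simp only [sg, if_true, Bool.false_eq_true, if_false]
      ring
    | succ n ih =>
      rw [bp_step h0 h1 n y sg, bp_step h0 h1 n y (fun _ => 1), ih (foldF θ y n),
        msg_foldF θ y n W.root n (by simp [W.len_root])]
      ring
  simpa using key

/-- belief propagation at any vertex -/
theorem bp {θ : ℝ} (h0 : 0 ≤ θ) (h1 : θ ≤ 1) (n : ℕ) (y : W d → ℝ) (v : W d) :
    ∫ x, sg (x v) * Real.exp (∑ u ∈ (W.ball d n).image (W.tr v), y u * sg (x u)) ∂(nu d θ) =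
      Real.tanh (msg θ (y ∘ W.tr v) n W.root) *
        ∫ x, Real.exp (∑ u ∈ (W.ball d n).image (W.tr v), y u * sg (x u)) ∂(nu d θ) := by
  have hc : Measurable (fun x : W d → Bool => x ∘ W.tr v) := by
    rw [measurable_pi_iff]; intro w; exact measurable_pi_apply _
  have hsm : ∀ w : W d, Measurable (fun x : W d → Bool => sg (x w)) := fun w =>
    measurable_sg.comp (measurable_pi_apply w)
  have hexp : Measurable (fun x : W d → Bool =>
      Real.exp (∑ u ∈ W.ball d n, (y ∘ W.tr v) u * sg (x u))) :=
    Real.measurable_exp.comp (Finset.measurable_fun_sum _ fun u _ => (hsm u).const_mul _)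
  have hs : ∀ x : W d → Bool, ∑ u ∈ (W.ball d n).image (W.tr v), y u * sg (x u) =
      ∑ u ∈ W.ball d n, (y ∘ W.tr v) u * sg ((x ∘ W.tr v) u) := fun x => by
    rw [Finset.sum_image]
    · rfl
    · intro a _ b _ hab
      exact (W.trE v).injective hab
  have h2 := bp_root h0 h1 n (y ∘ W.tr v)
  rw [← nu_tr θ h1 v] at h2
  have hm3 : Measurable (fun x : W d → Bool => sg (x W.root) *
      Real.exp (∑ u ∈ W.ball d n, (y ∘ W.tr v) u * sg (x u))) := (hsm _).mul hexp
  rw [integral_map hc.aemeasurable hm3.aestronglyMeasurable,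
    integral_map hc.aemeasurable hexp.aestronglyMeasurable] at h2
  simp_rw [hs]
  exact h2

end basic

end Crest.Agent.TI
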