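import Crest.Agent.TIDefs

set_option autoImplicit false

namespace Crest.Agent.TI

namespace W

variable {d : ℕ}

lemma len_root : len (root : W d) = 0 := rfl

lemma len_eq_zero {w : W d} : len w = 0 ↔ w = root := by
  constructor
  · intro h
    apply Subtype.ext
    exact List.length_eq_zero_iff.1 h
  · rintro rfl; rfl

/-- adding a letter -/
lemma nb_of_ne {w : W d} {i : Fin d} (h : w.head? ≠ some i) :
    (nb i w).1 = i :: w.1 := by
  obtain ⟨l, hl⟩ := w
  cases l with
  | nil => rfl
  | cons j t =>
    have : i ≠ j := by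
      rintro rfl
      exact h rfl
    simp [nb, nbL, this]

lemma nb_of_eq {w : W d} {i : Fin d} (h : w.head? = some i) :
    (nb i w).1 = w.1.tail := by
  obtain ⟨l, hl⟩ := w
  cases l with
  | nil => simp [head?] at h
  | cons j t =>
    have : i = j := by
      simp [head?] at h
      exact h.symm
    simp [nb, nbL, this]

lemma len_nb_of_ne {w : W d} {i : Fin d} (h : w.head? ≠ some i) : len (nb i w) = len w + 1 := by
  unfold len; rw [nb_of_ne h]; rfl

lemma len_nb_of_eq {w : W d} {i : Fin d} (h : w.head? = some i) : len (nb i w) + 1 = len w := by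
  unfold len; rw [nb_of_eq h]
  obtain ⟨l, hl⟩ := w
  cases l with
  | nil => simp [head?] at h
  | cons j t => simp

lemma head?_nb_of_ne {w : W d} {i : Fin d} (h : w.head? ≠ some i) :
    (nb i w).head? = some i := by
  unfold head?; rw [nb_of_ne h]; rfl

lemma nb_eq_par {w : W d} {i : Fin d} (h : w.head? = some i) : nb i w = w.par := by
  apply Subtype.ext
  rw [nb_of_eq h]
  rfl

lemma par_nb {w : W d} {i : Fin d} (h : w.head? ≠ some i) : (nb i w).par = w := by
  apply Subtype.ext
  change (nb i w).1.tail = w.1
  rw [nb_of_ne h]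
  rfl

lemma len_par {w : W d} (h : w ≠ root) : len w.par + 1 = len w := by
  obtain ⟨l, hl⟩ := w
  cases l with
  | nil => exact absurd rfl h
  | cons j t => simp [len, par]

lemma exists_head {w : W d} (h : w ≠ root) : ∃ i, w.head? = some i := by
  obtain ⟨l, hl⟩ := w
  cases l with
  | nil => exact absurd rfl h
  | cons j t => exact ⟨j, rfl⟩

/-- sphere of radius `n` around the root -/
def sphere (d : ℕ) : ℕ → Finset (W d)
  | 0 => {root}
  | n + 1 => ((sphere d n ×ˢ (Finset.univ : Finset (Fin d))).filter
      (fun q => q.1.head? ≠ some q.2)).image (fun q => nb q.2 q.1)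

lemma mem_sphere {n : ℕ} {w : W d} : w ∈ sphere d n ↔ w.len = n := by
  induction n generalizing w with
  | zero => simp [sphere, len_eq_zero]
  | succ n ih =>
    simp only [sphere, Finset.mem_image, Finset.mem_filter, Finset.mem_product, Finset.mem_univ,
      and_true, Prod.exists]
    constructor
    · rintro ⟨v, i, ⟨hv, hi⟩, rfl⟩
      rw [len_nb_of_ne hi, ih.1 hv]
    · intro h
      have hne : w ≠ root := by rintro rfl; simp [len_root] at h
      obtain ⟨i, hi⟩ := exists_head hne
      refine ⟨nb i w, i, ⟨ih.2 ?_, ?_⟩, nb_nb i w⟩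
      · have := len_nb_of_eq hi; omega
      · intro h2
        have h3 := len_nb_of_eq h2
        rw [nb_nb] at h3
        have h4 := len_nb_of_eq hi
        omega

/-- ball of radius `n` around the root -/
def ball (d : ℕ) (n : ℕ) : Finset (W d) := (Finset.range (n + 1)).biUnion (sphere d)

lemma mem_ball {n : ℕ} {w : W d} : w ∈ ball d n ↔ w.len ≤ n := by
  simp only [ball, Finset.mem_biUnion, Finset.mem_range, mem_sphere]
  constructor
  · rintro ⟨m, hm, rfl⟩; omega
  · intro h; exact ⟨w.len, by omega, rfl⟩

lemma card_sphere_succ (n : ℕ) : (sphere d (n + 1)).card ≤ d * (d - 1) ^ n := by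
  induction n with
  | zero =>
    have h : (sphere d (0 + 1)).card ≤ (({root} : Finset (W d)) ×ˢ (Finset.univ : Finset (Fin d))).card :=
      (Finset.card_image_le).trans (Finset.card_filter_le _ _)
    simpa using h
  | succ n ih =>
    have h1 : (sphere d (n + 1 + 1)).card ≤ ((sphere d (n + 1) ×ˢ (Finset.univ : Finset (Fin d))).filter
      (fun q => q.1.head? ≠ some q.2)).card := Finset.card_image_le
    have h2 : ((sphere d (n + 1) ×ˢ (Finset.univ : Finset (Fin d))).filter
      (fun q => q.1.head? ≠ some q.2)).card = ∑ w ∈ sphere d (n + 1),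
        ((Finset.univ : Finset (Fin d)).filter (fun i => w.head? ≠ some i)).card := by
      rw [Finset.card_filter, Finset.sum_product]
      refine Finset.sum_congr rfl fun w _ => ?_
      rw [Finset.card_filter]
    have h3 : ∀ w ∈ sphere d (n + 1),
        ((Finset.univ : Finset (Fin d)).filter (fun i => w.head? ≠ some i)).card ≤ d - 1 := by
      intro w hw
      have hne : w ≠ root := by
        rintro rfl
        have := mem_sphere.1 hw
        simp [len_root] at this
      obtain ⟨i, hi⟩ := exists_head hne
      have h4 : (Finset.univ : Finset (Fin d)).filter (fun i => w.head? ≠ some i) ⊆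
          Finset.univ.erase i := by
        intro j hj
        simp only [Finset.mem_filter, Finset.mem_univ, true_and] at hj
        refine Finset.mem_erase.2 ⟨?_, Finset.mem_univ _⟩
        rintro rfl
        exact hj hi
      calc _ ≤ (Finset.univ.erase i).card := Finset.card_le_card h4
        _ = d - 1 := by simp
    calc (sphere d (n + 1 + 1)).card ≤ _ := h1
      _ = _ := h2
      _ ≤ ∑ _w ∈ sphere d (n + 1), (d - 1) := Finset.sum_le_sum h3
      _ = (sphere d (n + 1)).card * (d - 1) := by simp
      _ ≤ d * (d - 1) ^ n * (d - 1) := Nat.mul_le_mul_right _ ih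
      _ = _ := by rw [pow_succ, mul_assoc]

lemma card_sphere_le (hd : 2 ≤ d) (n : ℕ) : ((sphere d n).card : ℝ) ≤ 2 * ((d : ℝ) - 1) ^ n := by
  have hd' : (2 : ℝ) ≤ d := by exact_mod_cast hd
  cases n with
  | zero => simp [sphere]
  | succ n =>
    have h := card_sphere_succ (d := d) n
    have h2 : ((sphere d (n + 1)).card : ℝ) ≤ d * ((d : ℝ) - 1) ^ n := by
      have : (((d * (d - 1) ^ n : ℕ)) : ℝ) = d * ((d : ℝ) - 1) ^ n := by
        push_cast [Nat.cast_sub (by omega : 1 ≤ d)]; ring
      rw [← this]
      exact_mod_cast h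
    refine h2.trans ?_
    rw [pow_succ]
    have : (0 : ℝ) ≤ ((d : ℝ) - 1) ^ n := by
      apply pow_nonneg; linarith
    nlinarith

end W

/-- sum of squares of path products over a sphere -/
noncomputable def QQ {d : ℕ} (θ : ℝ) (y : W d → ℝ) (n : ℕ) : ℝ :=
  ∑ u ∈ W.sphere d n, cpr θ y u ^ 2

end Crest.Agent.TI
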