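import Mathlib
import Crest.Agent.TIBlock
import Crest.Agent.TINu
import Crest.Agent.TISphere
import Crest.Agent.TIScalar

/-!
Row 160 (S0241), piece CONC, part A: gauge coordinates with one sign per edge, locality of the
messages, laws of the messages.  Owner: helper8.
-/

set_option autoImplicit false

namespace Crest.Agent.TI.Conc

open MeasureTheory Set Filter Topology ProbabilityTheory
open scoped ENNReal
open Crest.Agent.TI Crest.Agent.TI.Scal

section dep

variable {ι κ X : Type*} [MeasurableSpace X]

theorem exists_factor [Nonempty X] {Y : Type*} [MeasurableSpace Y] {f : (ι → X) → Y} {s : Set ι}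
    (hf : Measurable f) (h : DependsOn f s) :
    ∃ g : (s → X) → Y, Measurable g ∧ f = fun ω => g (fun i : s => ω i) := by
  classical
  refine ⟨fun z => f (fun i => if h : i ∈ s then z ⟨i, h⟩ else Classical.arbitrary X), ?_, ?_⟩
  · apply hf.comp
    rw [measurable_pi_iff]
    intro i
    by_cases hi : i ∈ s
    · simp only [hi, dif_pos]
      exact measurable_pi_apply _
    · simp only [hi, dif_neg, not_false_eq_true]
      exact measurable_const
  · ext ω
    apply h
    intro i hi
    simp only [hi, dif_pos]

theorem iIndepFun_of_dependsOn (lam : Measure X) [IsProbabilityMeasure lam] (B : κ → Set ι)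
    (hB : Pairwise (Function.onFun Disjoint B)) {Y : κ → Type*} [∀ k, MeasurableSpace (Y k)]
    (f : (k : κ) → (ι → X) → Y k) (hf : ∀ k, Measurable (f k))
    (hd : ∀ k, DependsOn (f k) (B k)) :
    iIndepFun f (Measure.infinitePi fun _ : ι => lam) := by
  have hX : Nonempty X := nonempty_of_isProbabilityMeasure lam
  choose g hg hfg using fun k => exists_factor (hf k) (hd k)
  have := iIndepFun_blocks lam B hB g hg
  have e : f = fun (k : κ) (ω : ι → X) => g k (fun i : B k => ω i) := by
    funext k
    exact hfg k
  rw [e]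
  exact this

theorem indepFun_of_dependsOn (lam : Measure X) [IsProbabilityMeasure lam] {A B : Set ι}
    (hAB : Disjoint A B) {Y Z : Type*} [MeasurableSpace Y] [MeasurableSpace Z]
    {f : (ι → X) → Y} (hf : Measurable f) {g : (ι → X) → Z} (hg : Measurable g)
    (hfA : DependsOn f A) (hgB : DependsOn g B) :
    IndepFun f g (Measure.infinitePi fun _ : ι => lam) := by
  have hX : Nonempty X := nonempty_of_isProbabilityMeasure lam
  obtain ⟨f', hf', ef⟩ := exists_factor hf hfA
  obtain ⟨g', hg', eg⟩ := exists_factor hg hgB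
  rw [ef, eg]
  exact indepFun_blocks lam A B hAB f' hf' g' hg'

end dep

section gauge

variable {d : ℕ}

/-- field from the root spin, edge signs and gauge fixed fields -/
def xL (s : Bool) (e : W d → Bool) : (l : List (Fin d)) → l.IsChain (· ≠ ·) → Bool
  | [], _ => s
  | j :: t, h => xL s e t h.tail == e ⟨j :: t, h⟩

def xE (s : Bool) (e : W d → Bool) (w : W d) : Bool := xL s e w.1 w.2

lemma xE_root (s : Bool) (e : W d → Bool) : xE s e W.root = s := rfl

lemma xE_nb (s : Bool) (e : W d → Bool) {w : W d} {i : Fin d} (h : w.head? ≠ some i) :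
    xE s e (W.nb i w) = (xE s e w == e (W.nb i w)) := by
  have hc : (i :: w.1).IsChain (· ≠ ·) := by
    have := (W.nb i w).2
    rwa [W.nb_of_ne h] at this
  rw [nb_cons h hc]
  rfl

/-- induction along children -/
lemma child_induction {P : W d → Prop} (h0 : P W.root)
    (hs : ∀ w i, w.head? ≠ some i → P w → P (W.nb i w)) (w : W d) : P w := by
  obtain ⟨l, hl⟩ := w
  induction l with
  | nil => exact h0
  | cons j t ih =>
    have hne : W.head? (⟨t, hl.tail⟩ : W d) ≠ some j := by
      cases t with
      | nil => simp [W.head?]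
      | cons k t' =>
        have : j ≠ k := (List.isChain_cons_cons.1 hl).1
        simp only [W.head?, List.head?_cons, ne_eq, Option.some.injEq]
        exact fun h => this h.symm
    have h1 := hs ⟨t, hl.tail⟩ j hne (ih hl.tail)
    rwa [nb_cons hne hl] at h1

/-- the single edge sign from the two half edge signs -/
def eE (ε : W d × Fin d → Bool) (u : W d) : Bool :=
  match u.head? with
  | none => true
  | some i => (ε (u.par, i) == ε (u, i))

lemma eE_nb (ε : W d × Fin d → Bool) {w : W d} {i : Fin d} (h : w.head? ≠ some i) :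
    eE ε (W.nb i w) = (ε (w, i) == ε (W.nb i w, i)) := by
  unfold eE
  rw [W.head?_nb_of_ne h]
  simp only
  rw [W.par_nb h]

lemma sp_eq_xE (s : Bool) (ε : W d × Fin d → Bool) (w : W d) : sp s ε w = xE s (eE ε) w := by
  induction w using child_induction with
  | h0 => rfl
  | hs w i h ih => rw [sp_nb_of_ne s ε h, xE_nb s _ h, eE_nb ε h, ih]

/-- `xE` only uses the signs at non-root vertices -/
lemma xE_congr (s : Bool) {e e' : W d → Bool} (h : ∀ u, u ≠ W.root → e u = e' u) (w : W d) :
    xE s e w = xE s e' w := by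
  induction w using child_induction with
  | h0 => rfl
  | hs w i hi ih =>
    rw [xE_nb s _ hi, xE_nb s _ hi, ih, h]
    intro h2
    have := W.len_nb_of_ne hi
    rw [h2, W.len_root] at this
    omega

abbrev NR (d : ℕ) : Type := {u : W d // u ≠ W.root}

/-- extension from non-root vertices -/
def extNR (e : NR d → Bool) (u : W d) : Bool := if h : u = W.root then true else e ⟨u, h⟩

lemma measurable_extNR : Measurable (extNR (d := d)) := by
  rw [measurable_pi_iff]
  intro u
  unfold extNR
  by_cases h : u = W.root
  · simp only [h, dif_pos]; exact measurable_const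
  · simp only [h, dif_neg, not_false_eq_true]
    exact measurable_pi_apply _

/-- product of two independent signs of mean `√θ` -/
lemma map_beq_signLaw {θ : ℝ} (h0 : 0 ≤ θ) (h1 : θ ≤ 1) :
    ((signLaw (Real.sqrt θ)).prod (signLaw (Real.sqrt θ))).map (fun p => p.1 == p.2) =
      signLaw θ := by
  have hp := isProb_signSqrt h1
  have hs0 := Real.sqrt_nonneg θ
  have hs1 : Real.sqrt θ ≤ 1 := Real.sqrt_le_one.2 h1
  have hs2 : Real.sqrt θ * Real.sqrt θ = θ := Real.mul_self_sqrt h0
  ext s hs
  have hm : Measurable (fun p : Bool × Bool => p.1 == p.2) := measurable_of_countable _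
  rw [← lintegral_indicator_one hs, ← lintegral_indicator_one hs, lintegral_map
    (measurable_one.indicator hs) hm, lintegral_prod _ (by fun_prop), lintegral_signLaw,
    lintegral_signLaw, lintegral_signLaw, lintegral_signLaw]
  set f : Bool → ℝ≥0∞ := s.indicator 1 with hf
  simp only [beq_self_eq_true]
  have e1 : (true == false) = false := rfl
  have e2 : (false == true) = false := rfl
  rw [e1, e2]
  set a := Real.sqrt θ
  have k1 : ENNReal.ofReal ((1 + θ) / 2) = ENNReal.ofReal ((1 + a) / 2) * ENNReal.ofReal ((1 + a) / 2)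
      + ENNReal.ofReal ((1 - a) / 2) * ENNReal.ofReal ((1 - a) / 2) := by
    rw [← ENNReal.ofReal_mul (by linarith), ← ENNReal.ofReal_mul (by linarith),
      ← ENNReal.ofReal_add (by nlinarith) (by nlinarith)]
    congr 1
    nlinarith
  have k2 : ENNReal.ofReal ((1 - θ) / 2) = ENNReal.ofReal ((1 + a) / 2) * ENNReal.ofReal ((1 - a) / 2)
      + ENNReal.ofReal ((1 - a) / 2) * ENNReal.ofReal ((1 + a) / 2) := by
    rw [← ENNReal.ofReal_mul (by linarith), ← ENNReal.ofReal_mul (by linarith),
      ← ENNReal.ofReal_add (by nlinarith) (by nlinarith)]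
    congr 1
    nlinarith
  rw [k1, k2]
  ring

/-- the edge signs are iid -/
theorem map_eE {θ : ℝ} (h0 : 0 ≤ θ) (h1 : θ ≤ 1) :
    (epsLaw d θ).map (fun ε (u : NR d) => eE ε u) = Measure.infinitePi fun _ : NR d => signLaw θ := by
  have hp := isProb_signSqrt h1
  have hq := isProb_epsLaw d h1
  -- blocks
  have hhead : ∀ u : NR d, ∃ i, (u : W d).head? = some i := fun u => W.exists_head u.2
  choose hd hhd using hhead
  set B : NR d → Set (W d × Fin d) := fun u => {((u : W d).par, hd u), ((u : W d), hd u)} with hB
  have heE : ∀ (ε : W d × Fin d → Bool) (u : NR d),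
      eE ε u = (ε ((u : W d).par, hd u) == ε ((u : W d), hd u)) := by
    intro ε u
    unfold eE
    rw [hhd u]
  have hpar : ∀ u : NR d, (u : W d).par.head? ≠ some (hd u) := by
    intro u h
    have e1 := W.len_nb_of_eq h
    rw [nb_par (hhd u)] at e1
    have e2 := W.len_par u.2
    omega
  have hdisj : Pairwise (Function.onFun Disjoint B) := by
    intro u v huv
    rw [Function.onFun, Set.disjoint_left]
    rintro ⟨x, j⟩ hx hy
    simp only [hB, mem_insert_iff, mem_singleton_iff, Prod.mk.injEq] at hx hy
    apply huv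
    rcases hx with ⟨rfl, rfl⟩ | ⟨rfl, rfl⟩
    · rcases hy with ⟨h2, h3⟩ | ⟨h2, h3⟩
      · apply Subtype.ext
        rw [← nb_par (hhd u), ← nb_par (hhd v), h2, h3]
      · exfalso
        apply hpar u
        rw [h2, hhd v, h3]
    · rcases hy with ⟨h2, h3⟩ | ⟨h2, h3⟩
      · exfalso
        apply hpar v
        rw [← h2, hhd u, h3]
      · exact Subtype.ext h2
  have hm : ∀ u : NR d, Measurable (fun ε : W d × Fin d → Bool => eE ε u) := by
    intro u
    simp_rw [heE]
    exact measurable_beq (measurable_pi_apply _) (measurable_pi_apply _)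
  have hind := iIndepFun_of_dependsOn (signLaw (Real.sqrt θ)) B hdisj
    (Y := fun _ => Bool) (fun u ε => eE ε u) hm (by
      intro u ε ε' h
      simp only [heE]
      rw [h _ (by simp [hB]), h _ (by simp [hB])])
  have h2 := hind.map_fun_eq_infinitePi_map hm
  have e3 : epsLaw d θ = Measure.infinitePi fun _ : W d × Fin d => signLaw (Real.sqrt θ) := rfl
  rw [e3, h2]
  congr 1
  funext u
  have hne : ((u : W d).par, hd u) ≠ ((u : W d), hd u) := by
    intro h
    have h' : (u : W d).par = u := (Prod.mk.inj h).1
    have e2 := W.len_par u.2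
    rw [h'] at e2
    omega
  have h3 := Measure.infinitePi_map_eval_prod (P := fun _ : W d × Fin d => signLaw (Real.sqrt θ)) hne
  rw [← map_beq_signLaw h0 h1, ← h3, Measure.map_map (measurable_of_countable _) (by fun_prop)]
  congr 1
  funext ε
  exact heE ε u

lemma measurable_xE_at (w : W d) :
    Measurable (fun q : Bool × (W d → Bool) => xE q.1 q.2 w) := by
  induction w using child_induction with
  | h0 => exact measurable_fst
  | hs w i hi ih =>
    simp_rw [fun (q : Bool × (W d → Bool)) => xE_nb q.1 q.2 hi]
    exact measurable_beq ih ((measurable_pi_apply _).comp measurable_snd)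

/-- law of a site label: edge sign to the parent and gauge fixed field -/
noncomputable def lamE (θ : ℝ) (μy : Measure ℝ) : Measure (Bool × ℝ) := (signLaw θ).prod μy

/-- law of the site labels -/
noncomputable def Lam (d : ℕ) (θ : ℝ) (μy : Measure ℝ) : Measure (W d → Bool × ℝ) :=
  Measure.infinitePi fun _ : W d => lamE θ μy

theorem isProb_lamE {θ : ℝ} (h0 : 0 ≤ θ) (h1 : θ ≤ 1) (μy : Measure ℝ) [IsProbabilityMeasure μy] :
    IsProbabilityMeasure (lamE θ μy) := by
  have : IsProbabilityMeasure (signLaw θ) := isProb_signLaw (by linarith) h1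
  unfold lamE
  infer_instance

theorem isProb_Lam {θ : ℝ} (h0 : 0 ≤ θ) (h1 : θ ≤ 1) (μy : Measure ℝ) [IsProbabilityMeasure μy] :
    IsProbabilityMeasure (Lam d θ μy) := by
  have := isProb_lamE h0 h1 μy
  unfold Lam
  infer_instance

/-- the field as a function of the root spin and the site labels -/
def fld (q : Bool × (W d → Bool × ℝ)) (v : W d) : ℝ :=
  sg (xE q.1 (fun u => (q.2 u).1) v) * (q.2 v).2

lemma measurable_fld : Measurable (fld (d := d)) := by
  rw [measurable_pi_iff]
  intro v
  unfold fld
  have h1 : Measurable (fun q : Bool × (W d → Bool × ℝ) => xE q.1 (fun u => (q.2 u).1) v) :=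
    (measurable_xE_at v).comp (measurable_fst.prodMk (by fun_prop))
  exact (measurable_sg.comp h1).mul (by fun_prop)

theorem fieldLaw_eq {θ : ℝ} (h0 : 0 ≤ θ) (h1 : θ ≤ 1) (μy : Measure ℝ) [IsProbabilityMeasure μy] :
    fieldLaw d θ μy = ((signLaw 0).prod (Lam d θ μy)).map fld := by
  have hp := isProb_signSqrt h1
  have hq := isProb_epsLaw d h1
  have hs : IsProbabilityMeasure (signLaw θ) := isProb_signLaw (by linarith) h1
  have hl := isProb_Lam (d := d) h0 h1 μy
  set ρ : Measure (W d → ℝ) := Measure.infinitePi fun _ : W d => μy with hρ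
  set N : Measure (NR d → Bool) := Measure.infinitePi fun _ : NR d => signLaw θ with hN
  set F : Bool × ((NR d → Bool) × (W d → ℝ)) → (W d → ℝ) :=
    fun q v => sg (xE q.1 (extNR q.2.1) v) * q.2.2 v with hF
  have hFm : Measurable F := by
    rw [measurable_pi_iff]
    intro v
    have h2 : Measurable (fun q : Bool × ((NR d → Bool) × (W d → ℝ)) =>
        xE q.1 (extNR q.2.1) v) :=
      (measurable_xE_at v).comp (measurable_fst.prodMk (measurable_extNR.comp (by fun_prop)))
    exact (measurable_sg.comp h2).mul (by fun_prop)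
  have hext : ∀ (e : W d → Bool) (u : W d), u ≠ W.root →
      extNR (fun u : NR d => e u) u = e u := by
    intro e u hu
    simp [extNR, hu]
  -- left side
  have L1 : fieldLaw d θ μy = ((signLaw 0).prod (N.prod ρ)).map F := by
    have e1 : N = (epsLaw d θ).map (fun ε (u : NR d) => eE ε u) := (map_eE h0 h1).symm
    have heEm : Measurable (fun (ε : W d × Fin d → Bool) (u : NR d) => eE ε u) := by
      rw [measurable_pi_iff]
      intro u
      obtain ⟨i, hi⟩ := W.exists_head u.2
      have : (fun ε : W d × Fin d → Bool => eE ε u) =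
          fun ε => (ε ((u : W d).par, i) == ε ((u : W d), i)) := by
        funext ε
        unfold eE
        rw [hi]
      rw [this]
      exact measurable_beq (measurable_pi_apply _) (measurable_pi_apply _)
    have e2 : N.prod ρ = ((epsLaw d θ).prod ρ).map
        (Prod.map (fun ε (u : NR d) => eE ε u) id) := by
      rw [← Measure.map_prod_map _ _ heEm measurable_id, ← e1, Measure.map_id]
    have e3 : (signLaw 0).prod (N.prod ρ) = ((signLaw 0).prod ((epsLaw d θ).prod ρ)).map
        (Prod.map id (Prod.map (fun ε (u : NR d) => eE ε u) id)) := by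
      rw [← Measure.map_prod_map _ _ measurable_id (heEm.prodMap measurable_id), ← e2,
        Measure.map_id]
    have e4 : (signLaw 0).prod ((epsLaw d θ).prod ρ) =
        (((signLaw 0).prod (epsLaw d θ)).prod ρ).map MeasurableEquiv.prodAssoc :=
      (measurePreserving_prodAssoc _ _ _).map_eq.symm
    have e5 : (nu d θ).prod ρ = (((signLaw 0).prod (epsLaw d θ)).prod ρ).map
        (Prod.map (fun q => sp q.1 q.2) id) := by
      rw [← Measure.map_prod_map _ _ measurable_sp measurable_id, Measure.map_id, nu_def]
    have hM : Measurable (Prod.map id (Prod.map (fun ε (u : NR d) => eE ε u) id) :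
        Bool × ((W d × Fin d → Bool) × (W d → ℝ)) → Bool × ((NR d → Bool) × (W d → ℝ))) :=
      measurable_id.prodMap (heEm.prodMap measurable_id)
    have hA : Measurable (MeasurableEquiv.prodAssoc :
        (Bool × (W d × Fin d → Bool)) × (W d → ℝ) ≃ᵐ _) := MeasurableEquiv.prodAssoc.measurable
    rw [fieldLaw, e5, e3, e4, Measure.map_map hM hA,
      Measure.map_map hFm (hM.comp hA), Measure.map_map]
    · congr 1
      funext q v
      simp only [Function.comp_apply, Prod.map, id, hF, MeasurableEquiv.prodAssoc,
        MeasurableEquiv.coe_mk, Equiv.prodAssoc_apply]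
      rw [sp_eq_xE]
      congr 2
      apply xE_congr
      intro u hu
      exact (hext (eE q.1.2) u hu).symm
    · rw [measurable_pi_iff]
      intro v
      exact (measurable_sg.comp (by fun_prop)).mul (by fun_prop)
    · exact measurable_sp.prodMap measurable_id
  have L2 : ((signLaw 0).prod (Lam d θ μy)).map fld = ((signLaw 0).prod (N.prod ρ)).map F := by
    have e1 : (Lam d θ μy).map (fun ω => ((fun i => (ω i).1 : W d → Bool),
        (fun i => (ω i).2 : W d → ℝ))) =
        (Measure.infinitePi fun _ : W d => signLaw θ).prod ρ := map_unzip _ _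
    have e2 : N = (Measure.infinitePi fun _ : W d => signLaw θ).map
        (fun (e : W d → Bool) (u : NR d) => e u) :=
      (iid_map_inj (signLaw θ) (fun u : NR d => (u : W d)) Subtype.val_injective).symm
    have hr : Measurable (fun (e : W d → Bool) (u : NR d) => e u) := by fun_prop
    have e3 : N.prod ρ = ((Measure.infinitePi fun _ : W d => signLaw θ).prod ρ).map
        (Prod.map (fun (e : W d → Bool) (u : NR d) => e u) id) := by
      rw [← Measure.map_prod_map _ _ hr measurable_id, ← e2, Measure.map_id]
    have e4 : N.prod ρ = (Lam d θ μy).map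
        (fun ω => ((fun u : NR d => (ω u).1), (fun i => (ω i).2))) := by
      rw [e3, ← e1, Measure.map_map (hr.prodMap measurable_id) measurable_unzip]
      rfl
    have hm : Measurable (fun (ω : W d → Bool × ℝ) =>
        ((fun u : NR d => (ω u).1 : NR d → Bool), (fun i => (ω i).2 : W d → ℝ))) := by fun_prop
    have e5 : (signLaw 0).prod (N.prod ρ) = ((signLaw 0).prod (Lam d θ μy)).map
        (Prod.map id (fun ω => ((fun u : NR d => (ω u).1), (fun i => (ω i).2)))) := by
      rw [← Measure.map_prod_map _ _ measurable_id hm, ← e4, Measure.map_id]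
    rw [e5, Measure.map_map hFm (measurable_id.prodMap hm)]
    congr 1
    funext q v
    simp only [Function.comp_apply, Prod.map, id, hF, fld]
    congr 2
    apply xE_congr
    intro u hu
    exact (hext (fun u => (q.2 u).1) u hu).symm
  rw [L1, L2]

/-! ### gauge fixed messages -/

/-- gauge fixed messages -/
noncomputable def G (θ : ℝ) : ℕ → W d → (W d → Bool × ℝ) → ℝ
  | 0, w, ω => (ω w).2
  | n + 1, w, ω => (ω w).2 + ∑ i : Fin d, if w.head? = some i then 0 else
      sg (ω (W.nb i w)).1 * phi θ (G θ n (W.nb i w) ω)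

/-- gauge fixed outgoing message -/
noncomputable def om (θ : ℝ) (n : ℕ) (w : W d) (ω : W d → Bool × ℝ) : ℝ :=
  sg (ω w).1 * phi θ (G θ n w ω)

lemma G_succ (θ : ℝ) (n : ℕ) (w : W d) (ω : W d → Bool × ℝ) :
    G θ (n + 1) w ω = (ω w).2 + ∑ i : Fin d, if w.head? = some i then 0 else
      om θ n (W.nb i w) ω := rfl

lemma phi_sg_mul {θ : ℝ} (h0 : 0 ≤ θ) (h1 : θ < 1) (b : Bool) (h : ℝ) :
    phi θ (sg b * h) = sg b * phi θ h := by
  cases b
  · simp only [sg, Bool.false_eq_true, if_false]
    rw [show (-1 : ℝ) * h = -h by ring, Scal.phi_neg h0 h1]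
    ring
  · simp [sg]

theorem msg_fld {θ : ℝ} (h0 : 0 ≤ θ) (h1 : θ < 1) (q : Bool × (W d → Bool × ℝ)) (n : ℕ)
    (w : W d) : msg θ (fld q) n w = sg (xE q.1 (fun u => (q.2 u).1) w) * G θ n w q.2 := by
  induction n generalizing w with
  | zero => rfl
  | succ n ih =>
    have e1 : msg θ (fld q) (n + 1) w = fld q w +
      ∑ i : Fin d, if w.head? = some i then 0 else phi θ (msg θ (fld q) n (W.nb i w)) := rfl
    rw [e1, G_succ, mul_add, Finset.mul_sum]
    congr 1
    refine Finset.sum_congr rfl fun i _ => ?_
    split_ifs with hi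
    · simp
    · rw [ih, phi_sg_mul h0 h1, xE_nb _ _ hi, sg_beq, om]
      ring

lemma measurable_G {θ : ℝ} (h0 : 0 ≤ θ) (h1 : θ < 1) (n : ℕ) (w : W d) :
    Measurable (G θ n w) := by
  induction n generalizing w with
  | zero => exact (measurable_snd.comp (measurable_pi_apply w))
  | succ n ih =>
    have : G θ (n + 1) w = fun ω => (ω w).2 + ∑ i : Fin d, if w.head? = some i then 0 else
      sg (ω (W.nb i w)).1 * phi θ (G θ n (W.nb i w) ω) := rfl
    rw [this]
    apply Measurable.add (measurable_snd.comp (measurable_pi_apply w))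
    apply Finset.measurable_sum
    intro i _
    split_ifs
    · exact measurable_const
    · exact (measurable_sg.comp (measurable_fst.comp (measurable_pi_apply _))).mul
        ((Scal.continuous_phi h0 h1).measurable.comp (ih _))

lemma measurable_om {θ : ℝ} (h0 : 0 ≤ θ) (h1 : θ < 1) (n : ℕ) (w : W d) :
    Measurable (om θ n w) :=
  (measurable_sg.comp (measurable_fst.comp (measurable_pi_apply _))).mul
    ((Scal.continuous_phi h0 h1).measurable.comp (measurable_G h0 h1 n w))

/-! ### locality -/

/-- the subtree at `v` -/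
def Sub (v : W d) : Set (W d) := {u | v.1 <:+ u.1}

/-- the strict subtree at `v` -/
def SSub (v : W d) : Set (W d) := Sub v \ {v}

lemma self_mem_Sub (v : W d) : v ∈ Sub v := List.suffix_rfl

lemma Sub_nb_subset {w : W d} {i : Fin d} (h : w.head? ≠ some i) : Sub (W.nb i w) ⊆ SSub w := by
  intro u hu
  have h1 : (W.nb i w).1 <:+ u.1 := hu
  rw [W.nb_of_ne h] at h1
  refine ⟨(List.suffix_cons i w.1).trans h1, ?_⟩
  intro h2
  rw [mem_singleton_iff] at h2
  subst h2
  have := h1.length_le
  simp at this

lemma disjoint_Sub_of_ne {u v : W d} (hl : u.len = v.len) (h : u ≠ v) : Disjoint (Sub u) (Sub v) := by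
  rw [Set.disjoint_left]
  intro w hu hv
  apply h
  apply Subtype.ext
  have h1 : u.1 <:+ w.1 := hu
  have h2 : v.1 <:+ w.1 := hv
  exact (List.suffix_of_suffix_length_le h1 h2 (le_of_eq hl)).eq_of_length hl

lemma disjoint_Sub_nb {w : W d} {i j : Fin d} (hi : w.head? ≠ some i) (hj : w.head? ≠ some j)
    (hij : i ≠ j) : Disjoint (Sub (W.nb i w)) (Sub (W.nb j w)) := by
  apply disjoint_Sub_of_ne
  · rw [W.len_nb_of_ne hi, W.len_nb_of_ne hj]
  · intro h
    have h1 := W.head?_nb_of_ne hi
    rw [h, W.head?_nb_of_ne hj] at h1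
    exact hij (Option.some.inj h1).symm

lemma dependsOn_G (θ : ℝ) (n : ℕ) (w : W d) : DependsOn (G θ n w) (Sub w) := by
  induction n generalizing w with
  | zero =>
    intro ω ω' h
    show (ω w).2 = (ω' w).2
    rw [h w (self_mem_Sub w)]
  | succ n ih =>
    intro ω ω' h
    rw [G_succ, G_succ, h w (self_mem_Sub w)]
    congr 1
    refine Finset.sum_congr rfl fun i _ => ?_
    split_ifs with hi
    · rfl
    · have hsub : Sub (W.nb i w) ⊆ Sub w := (Sub_nb_subset hi).trans sdiff_subset
      rw [om, om, ih (W.nb i w) (fun u hu => h u (hsub hu)), h _ (hsub (self_mem_Sub _))]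

lemma dependsOn_om (θ : ℝ) (n : ℕ) (w : W d) : DependsOn (om θ n w) (Sub w) := by
  intro ω ω' h
  rw [om, om, dependsOn_G θ n w h, h w (self_mem_Sub w)]

end gauge

end Crest.Agent.TI.Conc
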