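import Crest.Agent.TIConcA

/-!
Row 160 (S0241), piece CONC, part B: laws of the gauge fixed messages, weighted path laws.
Owner: helper8.
-/

set_option autoImplicit false

namespace Crest.Agent.TI.Conc

open MeasureTheory Set Filter Topology ProbabilityTheory
open scoped ENNReal
open Crest.Agent.TI Crest.Agent.TI.Scal

variable {d : ℕ} {θ : ℝ} {μy : Measure ℝ}

/-- resampling the edge sign of `c`. -/
theorem resample (h0 : 0 ≤ θ) (h1 : θ < 1) [IsProbabilityMeasure μy] (c : W d)
    (F : Bool → (W d → Bool × ℝ) → ℝ≥0∞) (hF : ∀ b, Measurable (F b))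
    (hind : ∀ b ω e, F b (Function.update ω c (e, (ω c).2)) = F b ω) :
    ∫⁻ ω, F (ω c).1 ω ∂(Lam d θ μy) =
      ∫⁻ ω, (ENNReal.ofReal ((1 + θ) / 2) * F true ω + ENNReal.ofReal ((1 - θ) / 2) * F false ω)
        ∂(Lam d θ μy) := by
  have hs : IsProbabilityMeasure (signLaw θ) := isProb_signLaw (by linarith) h1.le
  have hE := isProb_lamE h0 h1.le μy
  have hL := isProb_Lam (d := d) h0 h1.le μy
  have hF1 : Measurable (fun ω : W d → Bool × ℝ => F (ω c).1 ω) := by
    have : (fun ω : W d → Bool × ℝ => F (ω c).1 ω) =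
        fun ω => if (ω c).1 = true then F true ω else F false ω := by
      funext ω
      cases h : (ω c).1 <;> simp
    rw [this]
    apply Measurable.ite _ (hF true) (hF false)
    exact measurableSet_eq_fun (measurable_fst.comp (measurable_pi_apply c)) measurable_const
  have hF2 : Measurable (fun ω : W d → Bool × ℝ =>
      ENNReal.ofReal ((1 + θ) / 2) * F true ω + ENNReal.ofReal ((1 - θ) / 2) * F false ω) :=
    ((hF true).const_mul _).add ((hF false).const_mul _)
  rw [Lam, iid_lintegral_update (fun _ => lamE θ μy) c _ hF1,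
    iid_lintegral_update (fun _ => lamE θ μy) c _ hF2]
  refine lintegral_congr fun ω => ?_
  have hup : ∀ b e y, F b (Function.update ω c (e, y)) = F b (Function.update ω c (true, y)) := by
    intro b e y
    have := hind b (Function.update ω c (true, y)) e
    rw [Function.update_self, Function.update_idem] at this
    exact this
  have hU : Measurable (fun a : Bool × ℝ => Function.update ω c a) := by
    rw [measurable_pi_iff]
    intro i
    by_cases hi : i = c
    · subst hi
      simp only [Function.update_self]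
      exact measurable_id
    · simp only [Function.update_of_ne hi]
      exact measurable_const
  have l1 : ∫⁻ a, F (Function.update ω c a c).1 (Function.update ω c a) ∂(lamE θ μy) =
      ∫⁻ y, (ENNReal.ofReal ((1 + θ) / 2) * F true (Function.update ω c (true, y)) +
        ENNReal.ofReal ((1 - θ) / 2) * F false (Function.update ω c (true, y))) ∂μy := by
    have hmm : Measurable (fun a : Bool × ℝ =>
        F (Function.update ω c a c).1 (Function.update ω c a)) := hF1.comp hU
    rw [lamE, lintegral_prod_symm _ hmm.aemeasurable]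
    refine lintegral_congr fun y => ?_
    rw [lintegral_signLaw]
    simp only [Function.update_self]
    rw [hup false false y]
  have l2 : ∫⁻ a, (ENNReal.ofReal ((1 + θ) / 2) * F true (Function.update ω c a) +
        ENNReal.ofReal ((1 - θ) / 2) * F false (Function.update ω c a)) ∂(lamE θ μy) =
      ∫⁻ y, (ENNReal.ofReal ((1 + θ) / 2) * F true (Function.update ω c (true, y)) +
        ENNReal.ofReal ((1 - θ) / 2) * F false (Function.update ω c (true, y))) ∂μy := by
    have hmm : Measurable (fun a : Bool × ℝ =>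
        (ENNReal.ofReal ((1 + θ) / 2) * F true (Function.update ω c a) +
        ENNReal.ofReal ((1 - θ) / 2) * F false (Function.update ω c a))) := hF2.comp hU
    rw [lamE, lintegral_prod_symm _ hmm.aemeasurable]
    refine lintegral_congr fun y => ?_
    have : ∀ x : Bool, ENNReal.ofReal ((1 + θ) / 2) * F true (Function.update ω c (x, y)) +
        ENNReal.ofReal ((1 - θ) / 2) * F false (Function.update ω c (x, y)) =
        ENNReal.ofReal ((1 + θ) / 2) * F true (Function.update ω c (true, y)) +
        ENNReal.ofReal ((1 - θ) / 2) * F false (Function.update ω c (true, y)) := by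
      intro x
      rw [hup true x y, hup false x y]
    simp_rw [this]
    rw [lintegral_const, measure_univ, mul_one]
  rw [l1, l2]

/-- functions that do not use the edge sign of `c`. -/
def NoSign {α : Type*} (c : W d) (f : (W d → Bool × ℝ) → α) : Prop :=
  ∀ ω e, f (Function.update ω c (e, (ω c).2)) = f ω

theorem noSign_of_dependsOn {α : Type*} {c : W d} {s : Set (W d)}
    {f : (W d → Bool × ℝ) → α} (h : DependsOn f s) (hc : c ∉ s) : NoSign c f := by
  intro ω e
  apply h
  intro i hi
  have : i ≠ c := fun hic => hc (hic ▸ hi)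
  rw [Function.update_of_ne this]

theorem noSign_G (n : ℕ) (c : W d) : NoSign c (G θ n c) := by
  intro ω e
  cases n with
  | zero => simp [G]
  | succ n =>
    rw [G_succ, G_succ, Function.update_self]
    congr 1
    refine Finset.sum_congr rfl fun i _ => ?_
    split_ifs with hi
    · rfl
    · have hne : c ∉ Sub (W.nb i c) := fun h => (Sub_nb_subset hi h).2 rfl
      exact noSign_of_dependsOn (dependsOn_om θ n (W.nb i c)) hne ω e

theorem lintegral_edgeLaw (h0 : 0 ≤ θ) (h1 : θ < 1) (ν : Measure ℝ) {f : ℝ → ℝ≥0∞}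
    (hf : Measurable f) : ∫⁻ x, f x ∂(edgeLaw θ ν) =
      ENNReal.ofReal ((1 + θ) / 2) * ∫⁻ x, f (phi θ x) ∂ν +
        ENNReal.ofReal ((1 - θ) / 2) * ∫⁻ x, f (- phi θ x) ∂ν := by
  have hm := (Scal.continuous_phi h0 h1).measurable
  have hmn : Measurable (fun h => - phi θ h) := hm.neg
  unfold edgeLaw
  rw [lintegral_add_measure, lintegral_smul_measure, lintegral_smul_measure,
    lintegral_map hf hm, lintegral_map hf hmn]
  simp

lemma lint_map_wd {Ω : Type*} [MeasurableSpace Ω] (P : Measure Ω) {Q : Ω → ℝ≥0∞}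
    (hQ : Measurable Q) {T : Ω → ℝ} (hT : Measurable T) {f : ℝ → ℝ≥0∞} (hf : Measurable f) :
    ∫⁻ x, f x ∂((P.withDensity Q).map T) = ∫⁻ ω, Q ω * f (T ω) ∂P := by
  rw [lintegral_map hf hT]
  exact lintegral_withDensity_eq_lintegral_mul _ hQ (hf.comp hT)

/-- (B2) weighted law of an outgoing message. -/
theorem map_om (h0 : 0 ≤ θ) (h1 : θ < 1) [IsProbabilityMeasure μy] (n : ℕ) (c : W d)
    {Q : (W d → Bool × ℝ) → ℝ≥0∞} (hQ : Measurable Q) (hQs : NoSign c Q) :
    ((Lam d θ μy).withDensity Q).map (om θ n c) =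
      edgeLaw θ (((Lam d θ μy).withDensity Q).map (G θ n c)) := by
  have hG := measurable_G h0 h1 n c
  have hphi := (Scal.continuous_phi h0 h1).measurable
  have hmn : Measurable (fun h => - phi θ h) := hphi.neg
  refine Measure.ext_of_lintegral _ fun f hf => ?_
  rw [lint_map_wd _ hQ (measurable_om h0 h1 n c) hf, lintegral_edgeLaw h0 h1 _ hf,
    lint_map_wd _ hQ hG (f := fun x => f (phi θ x)) (hf.comp hphi),
    lint_map_wd _ hQ hG (f := fun x => f (- phi θ x)) (hf.comp hmn)]
  have key := resample h0 h1 (μy := μy) c (fun b ω => Q ω * f (sg b * phi θ (G θ n c ω)))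
    (fun b => hQ.mul (hf.comp ((hphi.comp hG).const_mul _)))
    (fun b ω e => by
      show Q _ * f (sg b * phi θ (G θ n c _)) = _
      rw [hQs ω e, noSign_G n c ω e])
  have e1 : ∫⁻ ω, Q ω * f (om θ n c ω) ∂(Lam d θ μy) =
      ∫⁻ ω, (fun b ω => Q ω * f (sg b * phi θ (G θ n c ω))) (ω c).1 ω ∂(Lam d θ μy) := rfl
  have m1 : Measurable (fun ω => Q ω * f (phi θ (G θ n c ω))) :=
    hQ.mul ((hf.comp hphi).comp hG)
  have m2 : Measurable (fun ω => Q ω * f (- phi θ (G θ n c ω))) :=
    hQ.mul ((hf.comp hmn).comp hG)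
  rw [e1, key, ← lintegral_const_mul _ m1, ← lintegral_const_mul _ m2,
    ← lintegral_add_left (m1.const_mul _)]
  refine lintegral_congr fun ω => ?_
  simp [sg]

/-- (B3) weighted law of an independent sum. -/
theorem map_add_weighted {Ω : Type*} [MeasurableSpace Ω] (P : Measure Ω) [IsProbabilityMeasure P]
    {A T : Ω → ℝ} {Q : Ω → ℝ≥0∞} (hA : Measurable A) (hT : Measurable T) (hQ : Measurable Q)
    (hind : IndepFun A (fun ω => (T ω, Q ω)) P) :
    (P.withDensity Q).map (fun ω => A ω + T ω) = (P.map A) ∗ ((P.withDensity Q).map T) := by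
  have hpair : Measurable (fun ω => (T ω, Q ω)) := hT.prodMk hQ
  have hAprob : IsProbabilityMeasure (P.map A) := Measure.isProbabilityMeasure_map hA.aemeasurable
  refine Measure.ext_of_lintegral _ fun f hf => ?_
  have hAT : Measurable (fun ω => A ω + T ω) := hA.add hT
  rw [Measure.conv_comm, Measure.lintegral_conv hf]
  rw [lint_map_wd _ hQ hAT hf, lint_map_wd _ hQ hT (by fun_prop)]
  have h := hind.map_prod_eq_prod_map_map hA.aemeasurable hpair.aemeasurable
  have hF : Measurable (fun p : ℝ × (ℝ × ℝ≥0∞) => p.2.2 * f (p.1 + p.2.1)) := by fun_prop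
  have e1 : ∫⁻ ω, Q ω * f (A ω + T ω) ∂P =
      ∫⁻ p, p.2.2 * f (p.1 + p.2.1) ∂(P.map (fun ω => (A ω, (T ω, Q ω)))) := by
    rw [lintegral_map hF (hA.prodMk hpair)]
  rw [e1, h, lintegral_prod_symm _ hF.aemeasurable, lintegral_map (by fun_prop) hpair]
  refine lintegral_congr fun ω => ?_
  simp only
  rw [lintegral_const_mul _ (by fun_prop)]
  congr 1
  refine lintegral_congr fun a => ?_
  rw [add_comm]

theorem map_add_indep {Ω : Type*} [MeasurableSpace Ω] (P : Measure Ω) [IsProbabilityMeasure P]
    {A T : Ω → ℝ} (hA : Measurable A) (hT : Measurable T) (hind : IndepFun A T P) :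
    P.map (fun ω => A ω + T ω) = (P.map A) ∗ (P.map T) := by
  have h := map_add_weighted P (Q := fun _ => 1) hA hT measurable_const
    (hind.comp (φ := id) (ψ := fun t => (t, (1 : ℝ≥0∞))) measurable_id (by fun_prop))
  have e : P.withDensity (fun _ => (1 : ℝ≥0∞)) = P := withDensity_one
  rw [e] at h
  exact h

/-- own field plus the messages of the children in directions `I` -/
noncomputable def AI (θ : ℝ) (n : ℕ) (w : W d) (I : Finset (Fin d)) (ω : W d → Bool × ℝ) : ℝ :=
  (ω w).2 + ∑ i ∈ I, om θ n (W.nb i w) ω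

lemma measurable_AI (h0 : 0 ≤ θ) (h1 : θ < 1) (n : ℕ) (w : W d) (I : Finset (Fin d)) :
    Measurable (AI θ n w I) := by
  unfold AI
  exact (measurable_snd.comp (measurable_pi_apply w)).add
    (Finset.measurable_sum _ fun i _ => measurable_om h0 h1 n _)

lemma G_succ_eq_AI (n : ℕ) (w : W d) (ω : W d → Bool × ℝ) :
    G θ (n + 1) w ω = AI θ n w (Finset.univ.filter fun i => w.head? ≠ some i) ω := by
  rw [G_succ, AI, Finset.sum_filter]
  congr 1
  refine Finset.sum_congr rfl fun i _ => ?_
  simp only [ne_eq, ite_not]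

lemma dependsOn_AI (n : ℕ) (w : W d) (I : Finset (Fin d)) (hI : ∀ i ∈ I, w.head? ≠ some i)
    (j : Fin d) (hj : w.head? ≠ some j) (hjI : j ∉ I) :
    DependsOn (AI θ n w I) (Sub (W.nb j w))ᶜ := by
  intro ω ω' h
  have hw : w ∈ (Sub (W.nb j w))ᶜ := fun h => (Sub_nb_subset hj h).2 rfl
  rw [AI, AI, h w hw]
  congr 1
  refine Finset.sum_congr rfl fun i hi => ?_
  apply dependsOn_om θ n (W.nb i w)
  intro u hu
  apply h
  have hij : i ≠ j := fun hij => hjI (hij ▸ hi)
  exact fun h2 => Set.disjoint_left.1 (disjoint_Sub_nb (hI i hi) hj hij) hu h2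

lemma G_zero_law (h0 : 0 ≤ θ) (h1 : θ < 1) [IsProbabilityMeasure μy] (w : W d) :
    (Lam d θ μy).map (fun ω => (ω w).2) = μy := by
  have hs : IsProbabilityMeasure (signLaw θ) := isProb_signLaw (by linarith) h1.le
  have hE := isProb_lamE h0 h1.le μy
  have e1 : (Lam d θ μy).map (fun ω => ω w) = lamE θ μy := Measure.infinitePi_map_eval _ w
  have e2 : (fun ω : W d → Bool × ℝ => (ω w).2) = Prod.snd ∘ (fun ω => ω w) := rfl
  rw [e2, ← Measure.map_map measurable_snd (measurable_pi_apply w), e1, lamE,
    Measure.map_snd_prod, measure_univ, one_smul]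

/-- (B4) law of partial sums -/
theorem map_AI (h0 : 0 ≤ θ) (h1 : θ < 1) [IsProbabilityMeasure μy] (n : ℕ) (w : W d)
    (μ : Measure ℝ) (hG : ∀ v : W d, v ≠ W.root → (Lam d θ μy).map (G θ n v) = μ)
    (I : Finset (Fin d)) (hI : ∀ i ∈ I, w.head? ≠ some i) :
    (Lam d θ μy).map (AI θ n w I) = stepLaw θ μy μ I.card := by
  classical
  have hL := isProb_Lam (d := d) h0 h1.le μy
  have hE := isProb_lamE h0 h1.le μy
  induction I using Finset.induction_on with
  | empty =>
    have : AI θ n w ∅ = fun ω => (ω w).2 := by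
      funext ω; simp [AI]
    rw [this, G_zero_law h0 h1]
    rfl
  | insert j I hj ih =>
    have hI' : ∀ i ∈ I, w.head? ≠ some i := fun i hi => hI i (Finset.mem_insert_of_mem hi)
    have hjw : w.head? ≠ some j := hI j (Finset.mem_insert_self _ _)
    have e1 : AI θ n w (insert j I) = fun ω => AI θ n w I ω + om θ n (W.nb j w) ω := by
      funext ω
      rw [AI, AI, Finset.sum_insert hj]
      ring
    have hind : IndepFun (AI θ n w I) (om θ n (W.nb j w)) (Lam d θ μy) :=
      indepFun_of_dependsOn (lamE θ μy) (A := (Sub (W.nb j w))ᶜ) (B := Sub (W.nb j w))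
        disjoint_compl_left (measurable_AI h0 h1 n w I) (measurable_om h0 h1 n _)
        (dependsOn_AI n w I hI' j hjw hj) (dependsOn_om θ n _)
    rw [e1, map_add_indep _ (measurable_AI h0 h1 n w I) (measurable_om h0 h1 n _) hind, ih hI',
      Finset.card_insert_of_notMem hj]
    have e2 := map_om h0 h1 (μy := μy) n (W.nb j w) (Q := fun _ => 1) measurable_const
      (fun _ _ => rfl)
    have e : (Lam d θ μy).withDensity (fun _ => (1 : ℝ≥0∞)) = Lam d θ μy := withDensity_one
    rw [e] at e2
    have hne : W.nb j w ≠ W.root := by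
      intro h
      have := W.len_nb_of_ne hjw
      rw [h, W.len_root] at this
      omega
    rw [e2, hG _ hne]
    rfl

lemma card_children_of_ne {w : W d} (hw : w ≠ W.root) :
    (Finset.univ.filter fun i : Fin d => w.head? ≠ some i).card = d - 1 := by
  classical
  obtain ⟨i, hi⟩ := W.exists_head hw
  have : (Finset.univ.filter fun j : Fin d => w.head? ≠ some j) = Finset.univ.erase i := by
    ext j
    simp only [Finset.mem_filter, Finset.mem_univ, true_and, Finset.mem_erase, and_true, hi]
    constructor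
    · intro h h2; exact h (by rw [h2])
    · intro h h2; exact h (Option.some.inj h2).symm
  rw [this]
  simp

lemma card_children_root :
    (Finset.univ.filter fun i : Fin d => (W.root : W d).head? ≠ some i).card = d := by
  have : (Finset.univ.filter fun i : Fin d => (W.root : W d).head? ≠ some i) = Finset.univ := by
    ext j
    simp [W.head?, W.root]
  rw [this]
  simp

/-- (B5) law of the messages -/
theorem map_G (h0 : 0 ≤ θ) (h1 : θ < 1) [IsProbabilityMeasure μy] (n : ℕ) {v : W d}
    (hv : v ≠ W.root) : (Lam d θ μy).map (G θ n v) = msgLaw θ μy (d - 1) n := by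
  induction n generalizing v with
  | zero => exact G_zero_law h0 h1 v
  | succ n ih =>
    have e : G θ (n + 1) v = AI θ n v (Finset.univ.filter fun i => v.head? ≠ some i) := by
      funext ω; exact G_succ_eq_AI n v ω
    rw [e, map_AI h0 h1 n v _ (fun v hv => ih hv) _ (by simp), card_children_of_ne hv]
    rfl

theorem map_G_root (h0 : 0 ≤ θ) (h1 : θ < 1) [IsProbabilityMeasure μy] (n : ℕ) :
    (Lam d θ μy).map (G θ (n + 1) W.root) = stepLaw θ μy (msgLaw θ μy (d - 1) n) d := by
  have e : G θ (n + 1) (W.root : W d) =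
      AI θ n W.root (Finset.univ.filter fun i => (W.root : W d).head? ≠ some i) := by
    funext ω; exact G_succ_eq_AI n _ ω
  rw [e, map_AI h0 h1 n _ _ (fun v hv => map_G h0 h1 n hv) _ (by simp), card_children_root]

/-! ### weighted path laws -/

/-- path weight: `n` is the depth used at `u` -/
noncomputable def wt (θ : ℝ) (n : ℕ) (u : W d) (j : ℕ) (ω : W d → Bool × ℝ) : ℝ :=
  ∏ i ∈ Finset.range j, phid θ (G θ (n + i) (W.par^[i] u) ω) ^ 2

lemma wt_succ (n : ℕ) (u : W d) (j : ℕ) (ω : W d → Bool × ℝ) :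
    wt θ n u (j + 1) ω = wt θ n u j ω * phid θ (G θ (n + j) (W.par^[j] u) ω) ^ 2 := by
  rw [wt, Finset.prod_range_succ]; rfl

lemma wt_nonneg (n : ℕ) (u : W d) (j : ℕ) (ω : W d → Bool × ℝ) : 0 ≤ wt θ n u j ω :=
  Finset.prod_nonneg fun _ _ => sq_nonneg _

lemma measurable_wt (h0 : 0 ≤ θ) (h1 : θ < 1) (n : ℕ) (u : W d) (j : ℕ) :
    Measurable (wt θ n u j) := by
  unfold wt
  apply Finset.measurable_prod
  intro i _
  exact ((Scal.continuous_phid h0 h1).measurable.comp (measurable_G h0 h1 _ _)).pow_const 2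

lemma len_par_iter (u : W d) (j : ℕ) (hj : j ≤ u.len) : (W.par^[j] u).len + j = u.len := by
  induction j with
  | zero => rfl
  | succ j ih =>
    have h2 := ih (by omega)
    rw [Function.iterate_succ_apply']
    have hne : W.par^[j] u ≠ W.root := by
      intro h
      rw [h, W.len_root] at h2
      omega
    have := W.len_par hne
    omega

lemma par_iter_ne_root {u : W d} {j : ℕ} (hj : j < u.len) : W.par^[j] u ≠ W.root := by
  intro h
  have := len_par_iter u j hj.le
  rw [h, W.len_root] at this
  omega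

/-- the path weight only uses the strict subtree. -/
lemma dependsOn_wt (n : ℕ) (u : W d) (j : ℕ) (hj : j ≤ u.len) :
    DependsOn (wt θ n u j) (SSub (W.par^[j] u)) := by
  induction j with
  | zero => intro ω ω' _; simp [wt]
  | succ j ih =>
    have hne : W.par^[j] u ≠ W.root := par_iter_ne_root hj
    obtain ⟨i, hi⟩ := W.exists_head hne
    have hpe : W.par^[j + 1] u = (W.par^[j] u).par := Function.iterate_succ_apply' _ _ _
    have hnb : W.nb i (W.par^[j] u).par = W.par^[j] u := nb_par hi
    have hnh : (W.par^[j] u).par.head? ≠ some i := by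
      intro h
      have e1 := W.len_nb_of_eq h
      rw [hnb] at e1
      have e2 := W.len_par hne
      omega
    have hsub : Sub (W.par^[j] u) ⊆ SSub (W.par^[j + 1] u) := by
      rw [hpe]
      have := Sub_nb_subset hnh
      rwa [hnb] at this
    intro ω ω' h
    rw [wt_succ, wt_succ, ih (by omega) (fun v hv => h v (hsub hv.1)),
      dependsOn_G θ (n + j) (W.par^[j] u) (fun v hv => h v (hsub hv))]

/-- weighted law of the message at the `j`-th ancestor -/
noncomputable def rho (μy : Measure ℝ) (θ : ℝ) (n : ℕ) (u : W d) (j : ℕ) : Measure ℝ :=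
  ((Lam d θ μy).withDensity fun ω => ENNReal.ofReal (wt θ n u j ω)).map
    (G θ (n + j) (W.par^[j] u))

lemma rho_zero (h0 : 0 ≤ θ) (h1 : θ < 1) [IsProbabilityMeasure μy] (n : ℕ) {u : W d}
    (hu : u ≠ W.root) : rho μy θ n u 0 = msgLaw θ μy (d - 1) n := by
  unfold rho
  have : (fun ω : W d → Bool × ℝ => ENNReal.ofReal (wt θ n u 0 ω)) = fun _ => 1 := by
    funext ω; simp [wt]
  rw [this]
  have e : (Lam d θ μy).withDensity (fun _ => (1 : ℝ≥0∞)) = Lam d θ μy := withDensity_one
  rw [e]
  exact map_G h0 h1 n hu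

/-- the intermediate law -/
lemma rho_withDensity (h0 : 0 ≤ θ) (h1 : θ < 1) (n : ℕ) (u : W d) (j : ℕ) :
    (rho μy θ n u j).withDensity (fun h => ENNReal.ofReal (phid θ h ^ 2)) =
      ((Lam d θ μy).withDensity fun ω => ENNReal.ofReal (wt θ n u (j + 1) ω)).map
        (G θ (n + j) (W.par^[j] u)) := by
  have hG := measurable_G (d := d) h0 h1 (n + j) (W.par^[j] u)
  have hp : Measurable (fun h => ENNReal.ofReal (phid θ h ^ 2)) :=
    (((Scal.continuous_phid h0 h1).measurable).pow_const 2).ennreal_ofReal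
  have hw := fun j => (measurable_wt h0 h1 n u j).ennreal_ofReal
  refine Measure.ext_of_lintegral _ fun f hf => ?_
  rw [lintegral_withDensity_eq_lintegral_mul _ hp hf, rho,
    lint_map_wd _ (hw j) hG (f := _) (hp.mul hf), lint_map_wd _ (hw (j + 1)) hG hf]
  refine lintegral_congr fun ω => ?_
  simp only [Pi.mul_apply]
  rw [wt_succ, ENNReal.ofReal_mul (wt_nonneg _ _ _ _)]
  ring

lemma rho_succ (h0 : 0 ≤ θ) (h1 : θ < 1) [IsProbabilityMeasure μy] (n : ℕ) {u : W d} {j : ℕ}
    (hj : j + 1 < u.len) :
    rho μy θ n u (j + 1) = stepLaw θ μy (msgLaw θ μy (d - 1) (n + j)) (d - 2) ∗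
      edgeLaw θ ((rho μy θ n u j).withDensity (fun h => ENNReal.ofReal (phid θ h ^ 2))) := by
  classical
  have hL := isProb_Lam (d := d) h0 h1.le μy
  have hE := isProb_lamE h0 h1.le μy
  rw [rho_withDensity h0 h1]
  set c := W.par^[j] u with hc
  have hne : c ≠ W.root := par_iter_ne_root (by omega)
  have hpne : W.par^[j + 1] u ≠ W.root := par_iter_ne_root hj
  obtain ⟨i, hi⟩ := W.exists_head hne
  have hpe : W.par^[j + 1] u = c.par := Function.iterate_succ_apply' _ _ _
  have hnb : W.nb i c.par = c := nb_par hi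
  have hnh : c.par.head? ≠ some i := by
    intro h
    have e1 := W.len_nb_of_eq h
    rw [hnb] at e1
    have e2 := W.len_par hne
    omega
  set I : Finset (Fin d) := (Finset.univ.filter fun k => c.par.head? ≠ some k).erase i with hI
  have hIm : ∀ k ∈ I, c.par.head? ≠ some k := by
    intro k hk
    have := (Finset.mem_erase.1 hk).2
    simpa using this
  have hiI : i ∉ I := Finset.notMem_erase _ _
  have hcard : I.card = d - 2 := by
    rw [hI, Finset.card_erase_of_mem (by simpa using hnh), card_children_of_ne (by rwa [← hpe])]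
    omega
  set Q : (W d → Bool × ℝ) → ℝ≥0∞ := fun ω => ENNReal.ofReal (wt θ n u (j + 1) ω) with hQ
  have hQm : Measurable Q := (measurable_wt h0 h1 n u (j + 1)).ennreal_ofReal
  have hGsum : G θ (n + (j + 1)) c.par = fun ω => AI θ (n + j) c.par I ω + om θ (n + j) c ω := by
    funext ω
    rw [← add_assoc, G_succ_eq_AI, AI, AI, hI, ← Finset.add_sum_erase _ _
      (show i ∈ Finset.univ.filter fun k => c.par.head? ≠ some k by simpa using hnh), hnb]
    ring
  -- locality of the weight
  have hwdep : DependsOn Q (Sub c) := by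
    intro ω ω' h
    show ENNReal.ofReal _ = ENNReal.ofReal _
    rw [wt_succ, wt_succ, dependsOn_wt n u j (by omega) (fun v hv => h v hv.1),
      dependsOn_G θ (n + j) _ h]
  have hQs : NoSign c Q := by
    intro ω e
    show ENNReal.ofReal _ = ENNReal.ofReal _
    rw [wt_succ, wt_succ]
    have h2 : NoSign c (wt θ n u j) :=
      noSign_of_dependsOn (dependsOn_wt n u j (by omega)) (fun h => h.2 rfl)
    rw [h2 ω e, noSign_G (n + j) c ω e]
  have hpair : DependsOn (fun ω => (om θ (n + j) c ω, Q ω)) (Sub c) := by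
    intro ω ω' h
    simp only
    rw [dependsOn_om θ (n + j) c h, hwdep h]
  have hAd : DependsOn (AI θ (n + j) c.par I) (Sub c)ᶜ := by
    have := dependsOn_AI (θ := θ) (n + j) c.par I hIm i hnh hiI
    rwa [hnb] at this
  have hind : IndepFun (AI θ (n + j) c.par I) (fun ω => (om θ (n + j) c ω, Q ω)) (Lam d θ μy) :=
    indepFun_of_dependsOn (lamE θ μy) disjoint_compl_left (measurable_AI h0 h1 _ _ _)
      ((measurable_om h0 h1 _ _).prodMk hQm) hAd hpair
  have hfin := map_add_weighted (Lam d θ μy) (measurable_AI h0 h1 (n + j) c.par I)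
    (measurable_om h0 h1 (n + j) c) hQm hind
  rw [rho, hpe, hGsum, hfin, map_AI h0 h1 (n + j) c.par _ (fun v hv => map_G h0 h1 _ hv) I hIm,
    hcard, map_om h0 h1 (n + j) c hQm hQs]

end Crest.Agent.TI.Conc
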