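import Crest.Agent.TIConcB

/-!
Row 160 (S0241), piece CONC, part C: mass bounds for path weights (finite volume), infinite volume
messages in gauge coordinates.  Owner: helper8.
-/

set_option autoImplicit false

namespace Crest.Agent.TI.Conc

open MeasureTheory Set Filter Topology ProbabilityTheory
open scoped ENNReal
open Crest.Agent.TI Crest.Agent.TI.Scal

variable {d : ℕ} {θ : ℝ} {μy : Measure ℝ}

lemma phid_sq_le_sq (h0 : 0 ≤ θ) (h1 : θ < 1) (h : ℝ) : phid θ h ^ 2 ≤ θ ^ 2 := by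
  have a1 := Scal.phid_le h0 h1 h
  have a2 := Scal.phid_nonneg h0 h1 h
  nlinarith

lemma wt_le (h0 : 0 ≤ θ) (h1 : θ < 1) (n : ℕ) (u : W d) (j : ℕ) (ω : W d → Bool × ℝ) :
    wt θ n u j ω ≤ (θ ^ 2) ^ j := by
  unfold wt
  calc ∏ i ∈ Finset.range j, phid θ (G θ (n + i) (W.par^[i] u) ω) ^ 2
      ≤ ∏ _i ∈ Finset.range j, θ ^ 2 :=
        Finset.prod_le_prod (fun _ _ => sq_nonneg _) (fun _ _ => phid_sq_le_sq h0 h1 _)
    _ = _ := by simp

lemma wt_le_one (h0 : 0 ≤ θ) (h1 : θ < 1) (n : ℕ) (u : W d) (j : ℕ) (ω : W d → Bool × ℝ) :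
    wt θ n u j ω ≤ 1 :=
  (wt_le h0 h1 n u j ω).trans (pow_le_one₀ (by positivity) (by nlinarith))

/-- integral of the path weight -/
noncomputable def Mk (μy : Measure ℝ) (θ : ℝ) (n : ℕ) (u : W d) (k : ℕ) : ℝ :=
  ∫ ω, wt θ n u k ω ∂(Lam d θ μy)

lemma integrable_wt (h0 : 0 ≤ θ) (h1 : θ < 1) [IsProbabilityMeasure μy] (n : ℕ) (u : W d)
    (k : ℕ) : Integrable (wt θ n u k) (Lam d θ μy) := by
  have hL := isProb_Lam (d := d) h0 h1.le μy
  refine Integrable.of_bound (measurable_wt h0 h1 n u k).aestronglyMeasurable 1 ?_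
  filter_upwards with ω
  rw [Real.norm_eq_abs, abs_of_nonneg (wt_nonneg _ _ _ _)]
  exact wt_le_one h0 h1 n u k ω

lemma mass_rho_wd (h0 : 0 ≤ θ) (h1 : θ < 1) [IsProbabilityMeasure μy] (n : ℕ) (u : W d)
    (j : ℕ) : (((rho μy θ n u j).withDensity (fun h => ENNReal.ofReal (phid θ h ^ 2))) univ).toReal =
      Mk μy θ n u (j + 1) := by
  have hG := measurable_G (d := d) h0 h1 (n + j) (W.par^[j] u)
  rw [rho_withDensity h0 h1, Measure.map_apply hG MeasurableSet.univ, preimage_univ,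
    withDensity_apply _ MeasurableSet.univ, Measure.restrict_univ, Mk,
    integral_eq_lintegral_of_nonneg_ae]
  · filter_upwards with ω using wt_nonneg _ _ _ _
  · exact (measurable_wt h0 h1 n u (j + 1)).aestronglyMeasurable

lemma rho_props (h0 : 0 ≤ θ) (h1 : θ < 1) [IsProbabilityMeasure μy] (hcy : Cons μy)
    (hby : BddSupp μy) (n : ℕ) {u : W d} {j : ℕ} (hj : j < u.len) :
    IsFiniteMeasure (rho μy θ n u j) ∧ Cons (rho μy θ n u j) ∧ BddSupp (rho μy θ n u j) := by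
  induction j with
  | zero =>
    have hne : u ≠ W.root := by
      rintro rfl; simp [W.len_root] at hj
    rw [rho_zero h0 h1 n hne]
    obtain ⟨i1, i2, i3⟩ := msgLaw_props h0 h1 hcy hby (d - 1) n
    exact ⟨inferInstance, i2, i3⟩
  | succ j ih =>
    obtain ⟨i1, i2, i3⟩ := ih (by omega)
    obtain ⟨m1, m2, m3⟩ := msgLaw_props h0 h1 hcy hby (d - 1) (n + j)
    obtain ⟨s1, s2, s3⟩ := stepLaw_props h0 h1 hcy hby m2 m3 (d - 2)
    have w1 : IsFiniteMeasure ((rho μy θ n u j).withDensity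
        (fun h => ENNReal.ofReal (phid θ h ^ 2))) :=
      isFinite_withDensity ⟨1, fun x => phid_sq_le_one h0 h1 x⟩
    have w2 : Cons ((rho μy θ n u j).withDensity (fun h => ENNReal.ofReal (phid θ h ^ 2))) :=
      i2.withDensity (LB.phid_sq h0 h1).1 (fun _ => sq_nonneg _)
        (fun x => by rw [phid_neg]) ⟨1, fun x => phid_sq_le_one h0 h1 x⟩
    have w3 : BddSupp ((rho μy θ n u j).withDensity (fun h => ENNReal.ofReal (phid θ h ^ 2))) :=
      i3.withDensity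
    rw [rho_succ h0 h1 n hj]
    exact ⟨inferInstance, s2.conv s3 (w2.edge h0 h1 w3) (w3.edge h0 h1), s3.conv (w3.edge h0 h1)⟩

lemma Mk_zero (h0 : 0 ≤ θ) (h1 : θ < 1) [IsProbabilityMeasure μy] (n : ℕ) (u : W d) :
    Mk μy θ n u 0 = 1 := by
  have hL := isProb_Lam (d := d) h0 h1.le μy
  simp [Mk, wt]

lemma Mk_one (h0 : 0 ≤ θ) (h1 : θ < 1) [IsProbabilityMeasure μy] (hcy : Cons μy)
    (hby : BddSupp μy) (n : ℕ) {u : W d} (hu : 0 < u.len) :
    Mk μy θ n u 1 ≤ θ ^ 2 * (1 - (1 - θ ^ 2) * xx (msgLaw θ μy (d - 1) n)) := by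
  have hne : u ≠ W.root := by
    rintro rfl; simp [W.len_root] at hu
  obtain ⟨m1, m2, m3⟩ := msgLaw_props h0 h1 hcy hby (d - 1) n
  rw [← mass_rho_wd h0 h1 n u 0, rho_zero h0 h1 n hne, withDensity_univ_toReal
    (LB.phid_sq h0 h1).1 (fun _ => sq_nonneg _) ⟨1, fun x => phid_sq_le_one h0 h1 x⟩]
  have i1 := LB.tanh_sq.integrable m3
  have e : ∫ h, (θ ^ 2 * (1 - (1 - θ ^ 2) * Real.tanh h ^ 2)) ∂(msgLaw θ μy (d - 1) n) =
      θ ^ 2 * (1 - (1 - θ ^ 2) * xx (msgLaw θ μy (d - 1) n)) := by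
    rw [integral_const_mul, integral_sub (integrable_const _) (i1.const_mul _),
      integral_const_mul, integral_const]
    simp [xx]
  rw [← e]
  apply integral_mono ((LB.phid_sq h0 h1).integrable m3)
  · exact ((integrable_const _).sub (i1.const_mul _)).const_mul _
  · intro x
    exact Scal.phid_sq_le h0 h1 x

lemma Mk_succ (h0 : 0 ≤ θ) (h1 : θ < 1) [IsProbabilityMeasure μy] (hcy : Cons μy)
    (hby : BddSupp μy) (n : ℕ) {u : W d} {j : ℕ} (hj : j + 1 < u.len) :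
    Mk μy θ n u (j + 2) ≤
      θ ^ 2 * (1 - (1 - θ ^ 2) * xx (stepLaw θ μy (msgLaw θ μy (d - 1) (n + j)) (d - 2))) *
        Mk μy θ n u (j + 1) := by
  obtain ⟨i1, i2, i3⟩ := rho_props h0 h1 hcy hby n (show j < u.len by omega)
  obtain ⟨m1, m2, m3⟩ := msgLaw_props h0 h1 hcy hby (d - 1) (n + j)
  obtain ⟨s1, s2, s3⟩ := stepLaw_props h0 h1 hcy hby m2 m3 (d - 2)
  have w1 : IsFiniteMeasure ((rho μy θ n u j).withDensity
      (fun h => ENNReal.ofReal (phid θ h ^ 2))) :=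
    isFinite_withDensity ⟨1, fun x => phid_sq_le_one h0 h1 x⟩
  have w2 : Cons ((rho μy θ n u j).withDensity (fun h => ENNReal.ofReal (phid θ h ^ 2))) :=
    i2.withDensity (LB.phid_sq h0 h1).1 (fun _ => sq_nonneg _)
      (fun x => by rw [phid_neg]) ⟨1, fun x => phid_sq_le_one h0 h1 x⟩
  have w3 : BddSupp ((rho μy θ n u j).withDensity (fun h => ENNReal.ofReal (phid θ h ^ 2))) :=
    i3.withDensity
  have h := dampLaw_univ_le h0 h1 (μs := stepLaw θ μy (msgLaw θ μy (d - 1) (n + j)) (d - 2))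
    (ρ := (rho μy θ n u j).withDensity (fun h => ENNReal.ofReal (phid θ h ^ 2))) s2 s3 w2 w3
  have e : dampLaw θ (stepLaw θ μy (msgLaw θ μy (d - 1) (n + j)) (d - 2))
      ((rho μy θ n u j).withDensity (fun h => ENNReal.ofReal (phid θ h ^ 2))) =
      (rho μy θ n u (j + 1)).withDensity (fun h => ENNReal.ofReal (phid θ h ^ 2)) := by
    rw [dampLaw, rho_succ h0 h1 n hj]
  rw [e, mass_rho_wd h0 h1, mass_rho_wd h0 h1] at h
  exact h

lemma Mk_nonneg (n : ℕ) (u : W d) (k : ℕ) : 0 ≤ Mk μy θ n u k :=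
  integral_nonneg fun _ => wt_nonneg _ _ _ _

/-- (C1) general bound on path weights in finite volume. -/
theorem path_bound (h0 : 0 ≤ θ) (h1 : θ < 1) [IsProbabilityMeasure μy] (hcy : Cons μy)
    (hby : BddSupp μy) (n : ℕ) (u : W d) (t : ℝ) (ht0 : t ≤ xx (msgLaw θ μy (d - 1) n))
    (k : ℕ) (hk : k ≤ u.len)
    (ht : ∀ j, j + 1 < k → t ≤ xx (stepLaw θ μy (msgLaw θ μy (d - 1) (n + j)) (d - 2))) :
    Mk μy θ n u k ≤ (θ ^ 2 * (1 - (1 - θ ^ 2) * t)) ^ k := by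
  have hθ : 0 ≤ 1 - θ ^ 2 := by nlinarith
  obtain ⟨m1, m2, m3⟩ := msgLaw_props h0 h1 hcy hby (d - 1) n
  have ht1 : t ≤ 1 := ht0.trans (xx_le_one m3)
  have hpos : 0 ≤ θ ^ 2 * (1 - (1 - θ ^ 2) * t) := by
    apply mul_nonneg (sq_nonneg θ)
    nlinarith [sq_nonneg θ]
  rcases k with _ | k
  · rw [Mk_zero h0 h1]; simp
  · induction k with
    | zero =>
      refine (Mk_one h0 h1 hcy hby n (by omega)).trans ?_
      rw [zero_add, pow_one]
      apply mul_le_mul_of_nonneg_left _ (sq_nonneg θ)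
      nlinarith [mul_le_mul_of_nonneg_left ht0 hθ]
    | succ k ih =>
      have ih' := ih (by omega) (fun j hj => ht j (by omega))
      refine (Mk_succ h0 h1 hcy hby n (by omega)).trans ?_
      rw [pow_succ' (θ ^ 2 * (1 - (1 - θ ^ 2) * t)) (k + 1)]
      apply mul_le_mul _ ih' (Mk_nonneg _ _ _) hpos
      apply mul_le_mul_of_nonneg_left _ (sq_nonneg θ)
      have := mul_le_mul_of_nonneg_left (ht k (by omega)) hθ
      linarith

/-- (C2) = Cn7 in gauge coordinates. -/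
theorem path_bound_own (h0 : 0 ≤ θ) (h1 : θ < 1) [IsProbabilityMeasure μy] (hcy : Cons μy)
    (hby : BddSupp μy) (n : ℕ) (u : W d) (k : ℕ) (hk : k ≤ u.len) :
    Mk μy θ n u k ≤ (θ ^ 2 * (1 - (1 - θ ^ 2) * xx μy)) ^ k := by
  apply path_bound h0 h1 hcy hby n u _ _ k hk
  · intro j _
    obtain ⟨m1, m2, m3⟩ := msgLaw_props h0 h1 hcy hby (d - 1) (n + j)
    exact xx_self_le_step h0 h1 hcy hby m2 m3 _
  · cases n with
    | zero => exact le_rfl
    | succ n =>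
      obtain ⟨m1, m2, m3⟩ := msgLaw_props h0 h1 hcy hby (d - 1) n
      exact xx_self_le_step h0 h1 hcy hby m2 m3 _

/-! ### transfer to the field -/

lemma ae_Lam_of_ae_prod [IsProbabilityMeasure μy] (h0 : 0 ≤ θ) (h1 : θ < 1)
    {P : (W d → Bool × ℝ) → Prop}
    (h : ∀ᵐ q ∂((signLaw 0).prod (Lam d θ μy)), P q.2) : ∀ᵐ ω ∂(Lam d θ μy), P ω := by
  have hL := isProb_Lam (d := d) h0 h1.le μy
  have h2 := Measure.ae_ae_of_ae_prod h
  obtain ⟨s, hs⟩ := h2.exists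
  exact hs

/-- all gauge fixed messages converge -/
def GoodG (θ : ℝ) (ω : W d → Bool × ℝ) : Prop :=
  ∀ w : W d, ∃ l, Tendsto (fun n => G θ n w ω) atTop (𝓝 l)

/-- infinite volume gauge fixed message -/
noncomputable def GI (θ : ℝ) (w : W d) (ω : W d → Bool × ℝ) : ℝ :=
  limsup (fun n => G θ n w ω) atTop

lemma GoodG.tendsto {ω : W d → Bool × ℝ} (h : GoodG θ ω) (w : W d) :
    Tendsto (fun n => G θ n w ω) atTop (𝓝 (GI θ w ω)) := by
  obtain ⟨l, hl⟩ := h w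
  have : GI θ w ω = l := hl.limsup_eq
  rw [this]
  exact hl

lemma Good.tendsto_msg {y : W d → ℝ} (h : Good θ y) (w : W d) :
    Tendsto (fun n => msg θ y n w) atTop (𝓝 (msgI θ y w)) := by
  obtain ⟨l, hl⟩ := h W.root w
  have e : y ∘ W.tr W.root = y := by
    funext v
    simp
  rw [e] at hl
  have : msgI θ y w = l := hl.limsup_eq
  rw [this]
  exact hl

lemma goodG_of_good (h0 : 0 ≤ θ) (h1 : θ < 1) {q : Bool × (W d → Bool × ℝ)}
    (h : Good θ (fld q)) : GoodG θ q.2 := by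
  intro w
  have h2 := Good.tendsto_msg h w
  refine ⟨sg (xE q.1 (fun u => (q.2 u).1) w) * msgI θ (fld q) w, ?_⟩
  have h3 := h2.const_mul (sg (xE q.1 (fun u => (q.2 u).1) w))
  refine h3.congr fun n => ?_
  rw [msg_fld h0 h1, ← mul_assoc, sg_sq, one_mul]

lemma msgI_fld (h0 : 0 ≤ θ) (h1 : θ < 1) {q : Bool × (W d → Bool × ℝ)}
    (h : Good θ (fld q)) (w : W d) :
    msgI θ (fld q) w = sg (xE q.1 (fun u => (q.2 u).1) w) * GI θ w q.2 := by
  have h2 := Good.tendsto_msg h w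
  have h3 := ((goodG_of_good h0 h1 h).tendsto w).const_mul
    (sg (xE q.1 (fun u => (q.2 u).1) w))
  refine tendsto_nhds_unique h2 (h3.congr fun n => ?_)
  rw [msg_fld h0 h1]

lemma ae_good_fld (h0 : 0 ≤ θ) (h1 : θ < 1) [IsProbabilityMeasure μy]
    (hG : ∀ᵐ y ∂(fieldLaw d θ μy), Good θ y) :
    ∀ᵐ q ∂((signLaw 0).prod (Lam d θ μy)), Good θ (fld q) := by
  rw [fieldLaw_eq h0 h1.le] at hG
  exact ae_of_ae_map measurable_fld.aemeasurable hG

lemma ae_goodG (h0 : 0 ≤ θ) (h1 : θ < 1) [IsProbabilityMeasure μy]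
    (hG : ∀ᵐ y ∂(fieldLaw d θ μy), Good θ y) : ∀ᵐ ω ∂(Lam d θ μy), GoodG θ ω := by
  apply ae_Lam_of_ae_prod h0 h1
  filter_upwards [ae_good_fld h0 h1 hG] with q hq
  exact goodG_of_good h0 h1 hq

lemma measurable_GI (h0 : 0 ≤ θ) (h1 : θ < 1) (w : W d) : Measurable (GI θ w) :=
  Measurable.limsup fun n => measurable_G h0 h1 n w

lemma dependsOn_GI (w : W d) : DependsOn (GI θ w) (Sub w) := by
  intro ω ω' h
  unfold GI
  congr 1
  funext n
  exact dependsOn_G θ n w h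

end Crest.Agent.TI.Conc
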