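import Crest.Agent.TIConcC

/-!
Row 160 (S0241), piece CONC, part D: infinite volume path weights, block sums over the sphere,
Hoeffding.  Owner: helper8.
-/

set_option autoImplicit false

namespace Crest.Agent.TI.Conc

open MeasureTheory Set Filter Topology ProbabilityTheory
open scoped ENNReal
open Crest.Agent.TI Crest.Agent.TI.Scal

variable {d : ℕ} {θ : ℝ} {μy : Measure ℝ}

/-! ### the limit of the second moments -/

lemma xx_msgLaw_eq (h0 : 0 ≤ θ) (h1 : θ < 1) [IsProbabilityMeasure μy] (n : ℕ) {v : W d}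
    (hv : v ≠ W.root) :
    xx (msgLaw θ μy (d - 1) n) = ∫ ω, Real.tanh (G θ n v ω) ^ 2 ∂(Lam d θ μy) := by
  rw [← map_G h0 h1 n hv, xx, integral_map (measurable_G h0 h1 n v).aemeasurable
    LB.tanh_sq.1.aestronglyMeasurable]

/-- second moment of the infinite volume message -/
noncomputable def Xi (μy : Measure ℝ) (θ : ℝ) (v : W d) : ℝ :=
  ∫ ω, Real.tanh (GI θ v ω) ^ 2 ∂(Lam d θ μy)

theorem tendsto_integral_G (h0 : 0 ≤ θ) (h1 : θ < 1) [IsProbabilityMeasure μy]
    (hG : ∀ᵐ ω ∂(Lam d θ μy), GoodG θ ω) (v : W d) :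
    Tendsto (fun n => ∫ ω, Real.tanh (G θ n v ω) ^ 2 ∂(Lam d θ μy)) atTop (𝓝 (Xi μy θ v)) := by
  have hL := isProb_Lam (d := d) h0 h1.le μy
  apply tendsto_integral_of_dominated_convergence (fun _ => (1 : ℝ))
  · intro n
    exact (LB.tanh_sq.1.comp (measurable_G h0 h1 n v)).aestronglyMeasurable
  · exact integrable_const _
  · intro n
    filter_upwards with ω
    rw [Real.norm_eq_abs, abs_of_nonneg (sq_nonneg _)]
    exact tanh_sq_le_one _
  · filter_upwards [hG] with ω hω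
    exact ((continuous_tanh.tendsto _).comp (hω.tendsto v)).pow 2

theorem tendsto_xx (h0 : 0 ≤ θ) (h1 : θ < 1) [IsProbabilityMeasure μy]
    (hG : ∀ᵐ ω ∂(Lam d θ μy), GoodG θ ω) {v : W d} (hv : v ≠ W.root) :
    Tendsto (fun n => xx (msgLaw θ μy (d - 1) n)) atTop (𝓝 (Xi μy θ v)) := by
  have := tendsto_integral_G h0 h1 hG v
  refine this.congr fun n => ?_
  rw [xx_msgLaw_eq h0 h1 n hv]

/-! ### infinite volume path weights -/

noncomputable def wtI (θ : ℝ) (u : W d) (k : ℕ) (ω : W d → Bool × ℝ) : ℝ :=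
  ∏ i ∈ Finset.range k, phid θ (GI θ (W.par^[i] u) ω) ^ 2

lemma wtI_nonneg (u : W d) (k : ℕ) (ω : W d → Bool × ℝ) : 0 ≤ wtI θ u k ω :=
  Finset.prod_nonneg fun _ _ => sq_nonneg _

lemma wtI_le (h0 : 0 ≤ θ) (h1 : θ < 1) (u : W d) (k : ℕ) (ω : W d → Bool × ℝ) :
    wtI θ u k ω ≤ (θ ^ 2) ^ k := by
  unfold wtI
  calc ∏ i ∈ Finset.range k, phid θ (GI θ (W.par^[i] u) ω) ^ 2
      ≤ ∏ _i ∈ Finset.range k, θ ^ 2 :=
        Finset.prod_le_prod (fun _ _ => sq_nonneg _) (fun _ _ => phid_sq_le_sq h0 h1 _)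
    _ = _ := by simp

lemma wtI_le_one (h0 : 0 ≤ θ) (h1 : θ < 1) (u : W d) (k : ℕ) (ω : W d → Bool × ℝ) :
    wtI θ u k ω ≤ 1 :=
  (wtI_le h0 h1 u k ω).trans (pow_le_one₀ (by positivity) (by nlinarith))

lemma measurable_wtI (h0 : 0 ≤ θ) (h1 : θ < 1) (u : W d) (k : ℕ) :
    Measurable (wtI θ u k) := by
  unfold wtI
  apply Finset.measurable_prod
  intro i _
  exact ((Scal.continuous_phid h0 h1).measurable.comp (measurable_GI h0 h1 _)).pow_const 2

lemma integrable_wtI (h0 : 0 ≤ θ) (h1 : θ < 1) [IsProbabilityMeasure μy] (u : W d)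
    (k : ℕ) : Integrable (wtI θ u k) (Lam d θ μy) := by
  have hL := isProb_Lam (d := d) h0 h1.le μy
  refine Integrable.of_bound (measurable_wtI h0 h1 u k).aestronglyMeasurable 1 ?_
  filter_upwards with ω
  rw [Real.norm_eq_abs, abs_of_nonneg (wtI_nonneg _ _ _)]
  exact wtI_le_one h0 h1 u k ω

lemma par_iter_succ (u : W d) (j : ℕ) : W.par^[j + 1] u = (W.par^[j] u).par :=
  Function.iterate_succ_apply' _ _ _

lemma Sub_subset_SSub_par {c : W d} (hne : c ≠ W.root) : Sub c ⊆ SSub c.par := by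
  obtain ⟨i, hi⟩ := W.exists_head hne
  have hnb : W.nb i c.par = c := nb_par hi
  have hnh : c.par.head? ≠ some i := by
    intro h
    have e1 := W.len_nb_of_eq h
    rw [hnb] at e1
    have e2 := W.len_par hne
    omega
  have := Sub_nb_subset hnh
  rwa [hnb] at this

lemma Sub_par_iter {u : W d} {j : ℕ} (hj : j ≤ u.len) : Sub u ⊆ Sub (W.par^[j] u) := by
  induction j with
  | zero => exact subset_rfl
  | succ j ih =>
    rw [par_iter_succ]
    exact (ih (by omega)).trans ((Sub_subset_SSub_par (par_iter_ne_root (by omega))).trans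
      sdiff_subset)

lemma dependsOn_wtI (u : W d) (k : ℕ) (hk : k ≤ u.len) :
    DependsOn (wtI θ u k) (Sub (W.par^[k] u)) := by
  intro ω ω' h
  unfold wtI
  refine Finset.prod_congr rfl fun i hi => ?_
  have hi' := Finset.mem_range.1 hi
  have e : W.par^[k] u = W.par^[k - i] (W.par^[i] u) := by
    rw [← Function.iterate_add_apply]
    congr 1
    omega
  have hlen := len_par_iter u i (by omega)
  have hsub : Sub (W.par^[i] u) ⊆ Sub (W.par^[k] u) := by
    rw [e]
    exact Sub_par_iter (by omega)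
  rw [dependsOn_GI (W.par^[i] u) (fun v hv => h v (hsub hv))]

/-- (D2) expectation of infinite volume path weights. -/
theorem integral_wtI_le (h0 : 0 ≤ θ) (h1 : θ < 1) (hd : 3 ≤ d) [IsProbabilityMeasure μy]
    (hcy : Cons μy) (hby : BddSupp μy) (hG : ∀ᵐ ω ∂(Lam d θ μy), GoodG θ ω) {X : ℝ}
    (hX : Tendsto (fun n => xx (msgLaw θ μy (d - 1) n)) atTop (𝓝 X)) (u : W d) (k : ℕ)
    (hk : k ≤ u.len) :
    ∫ ω, wtI θ u k ω ∂(Lam d θ μy) ≤ (θ ^ 2 * (1 - (1 - θ ^ 2) * (θ ^ 2 * X))) ^ k := by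
  have hL := isProb_Lam (d := d) h0 h1.le μy
  have hconv : Tendsto (fun n => Mk μy θ n u k) atTop (𝓝 (∫ ω, wtI θ u k ω ∂(Lam d θ μy))) := by
    apply tendsto_integral_of_dominated_convergence (fun _ => (1 : ℝ))
    · intro n
      exact (measurable_wt h0 h1 n u k).aestronglyMeasurable
    · exact integrable_const _
    · intro n
      filter_upwards with ω
      rw [Real.norm_eq_abs, abs_of_nonneg (wt_nonneg _ _ _ _)]
      exact wt_le_one h0 h1 n u k ω
    · filter_upwards [hG] with ω hω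
      unfold wt wtI
      apply tendsto_finsetProd
      intro i _
      have h2 := (hω.tendsto (W.par^[i] u)).comp (tendsto_add_atTop_nat i)
      exact (((Scal.continuous_phid h0 h1).tendsto _).comp h2).pow 2
  -- for every ε the bound holds eventually
  have hbound : ∀ ε > 0, ∫ ω, wtI θ u k ω ∂(Lam d θ μy) ≤
      (θ ^ 2 * (1 - (1 - θ ^ 2) * (θ ^ 2 * (X - ε)))) ^ k := by
    intro ε hε
    have hev : ∀ᶠ n in atTop, X - ε < xx (msgLaw θ μy (d - 1) n) :=
      hX.eventually_const_lt (by linarith)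
    obtain ⟨N, hN⟩ := eventually_atTop.1 hev
    apply le_of_tendsto hconv
    filter_upwards [eventually_ge_atTop (N + 1)] with n hn
    apply path_bound h0 h1 hcy hby n u _ _ k hk
    · intro j _
      obtain ⟨m1, m2, m3⟩ := msgLaw_props h0 h1 hcy hby (d - 1) (n + j)
      have := sq_mul_xx_le_step h0 h1 hcy hby m2 m3 (m := d - 2) (by omega)
      refine le_trans ?_ this
      exact mul_le_mul_of_nonneg_left (hN (n + j) (by omega)).le (sq_nonneg θ)
    · obtain ⟨n', rfl⟩ : ∃ n', n = n' + 1 := ⟨n - 1, by omega⟩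
      obtain ⟨m1, m2, m3⟩ := msgLaw_props h0 h1 hcy hby (d - 1) n'
      have := sq_mul_xx_le_step h0 h1 hcy hby m2 m3 (m := d - 1) (by omega)
      refine le_trans ?_ this
      exact mul_le_mul_of_nonneg_left (hN n' (by omega)).le (sq_nonneg θ)
  have hcont : Tendsto (fun ε : ℝ => (θ ^ 2 * (1 - (1 - θ ^ 2) * (θ ^ 2 * (X - ε)))) ^ k)
      (𝓝[>] 0) (𝓝 ((θ ^ 2 * (1 - (1 - θ ^ 2) * (θ ^ 2 * (X - 0)))) ^ k)) := by
    apply Tendsto.mono_left _ nhdsWithin_le_nhds
    apply Continuous.tendsto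
    fun_prop
  rw [sub_zero] at hcont
  refine ge_of_tendsto hcont ?_
  filter_upwards [self_mem_nhdsWithin] with ε hε
  exact hbound ε hε

/-! ### blocks -/

/-- descendants at distance `k` of a vertex of the sphere of radius `m` -/
def Dd (m k : ℕ) (v : W d) : Finset (W d) :=
  (W.sphere d (m + k)).filter (fun u => W.par^[k] u = v)

lemma card_Dd_le {m : ℕ} (hm : 1 ≤ m) (k : ℕ) (v : W d) : (Dd m k v).card ≤ (d - 1) ^ k := by
  induction k with
  | zero =>
    have : Dd m 0 v ⊆ {v} := by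
      intro u hu
      simp only [Dd, Finset.mem_filter, Function.iterate_zero, id] at hu
      exact Finset.mem_singleton.2 hu.2
    simpa using Finset.card_le_card this
  | succ k ih =>
    have e1 : (Dd m (k + 1) v).card =
        ∑ w ∈ W.sphere d (m + k), ∑ i : Fin d, if w.head? = some i then 0 else
          if W.par^[k] w = v then 1 else 0 := by
      rw [Dd, Finset.card_filter, ← add_assoc, sum_sphere_succ]
      refine Finset.sum_congr rfl fun w _ => Finset.sum_congr rfl fun i _ => ?_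
      split_ifs with h1 h2 h3 h3
      · rfl
      · rfl
      · exfalso
        apply h3
        rw [Function.iterate_succ_apply, W.par_nb h1] at h2
        exact h2
      · exfalso
        apply h2
        rw [Function.iterate_succ_apply, W.par_nb h1]
        exact h3
      · rfl
    have e2 : ∀ w ∈ W.sphere d (m + k), (∑ i : Fin d, if w.head? = some i then 0 else
          if W.par^[k] w = v then 1 else 0) = if W.par^[k] w = v then d - 1 else 0 := by
      intro w hw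
      have hlen := W.mem_sphere.1 hw
      have hne : w ≠ W.root := by
        rintro rfl
        rw [W.len_root] at hlen
        omega
      by_cases h : W.par^[k] w = v
      · simp only [h, if_true]
        have := card_children_of_ne hne
        rw [Finset.card_filter] at this
        rw [← this]
        refine Finset.sum_congr rfl fun i _ => ?_
        simp only [ne_eq, ite_not]
      · simp [h]
    rw [e1, Finset.sum_congr rfl e2, ← Finset.sum_filter, Finset.sum_const, smul_eq_mul, pow_succ]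
    exact Nat.mul_le_mul_right _ ih

lemma card_sphere_ge {m : ℕ} : (d - 1) ^ m ≤ (W.sphere d m).card := by
  induction m with
  | zero => simp [W.sphere]
  | succ m ih =>
    have e1 : (W.sphere d (m + 1)).card =
        ∑ w ∈ W.sphere d m, ∑ i : Fin d, if w.head? = some i then 0 else 1 := by
      rw [Finset.card_eq_sum_ones, sum_sphere_succ]
    have e2 : ∀ w ∈ W.sphere d m, d - 1 ≤ ∑ i : Fin d, if w.head? = some i then 0 else 1 := by
      intro w _
      have e3 : (∑ i : Fin d, if w.head? = some i then 0 else 1) =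
          (Finset.univ.filter fun i : Fin d => w.head? ≠ some i).card := by
        rw [Finset.card_filter]
        refine Finset.sum_congr rfl fun i _ => ?_
        simp only [ne_eq, ite_not]
      rw [e3]
      by_cases hw : w = W.root
      · subst hw
        rw [card_children_root]
        omega
      · rw [card_children_of_ne hw]
    rw [e1, pow_succ]
    calc (d - 1) ^ m * (d - 1) ≤ (W.sphere d m).card * (d - 1) := Nat.mul_le_mul_right _ ih
      _ = ∑ _w ∈ W.sphere d m, (d - 1) := by simp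
      _ ≤ _ := Finset.sum_le_sum e2

/-- block sums -/
noncomputable def Fv (θ : ℝ) (m k : ℕ) (v : W d) (ω : W d → Bool × ℝ) : ℝ :=
  ∑ u ∈ Dd m k v, wtI θ u k ω

lemma Fv_nonneg (m k : ℕ) (v : W d) (ω : W d → Bool × ℝ) : 0 ≤ Fv θ m k v ω :=
  Finset.sum_nonneg fun _ _ => wtI_nonneg _ _ _

lemma Fv_le_one (h0 : 0 ≤ θ) (h1 : θ < 1) (hbθ : ((d - 1 : ℕ) : ℝ) * θ ^ 2 ≤ 1) {m : ℕ}
    (hm : 1 ≤ m) (k : ℕ) (v : W d) (ω : W d → Bool × ℝ) : Fv θ m k v ω ≤ 1 := by
  calc Fv θ m k v ω ≤ ∑ _u ∈ Dd m k v, (θ ^ 2) ^ k :=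
        Finset.sum_le_sum fun u _ => wtI_le h0 h1 u k ω
    _ = (Dd m k v).card * (θ ^ 2) ^ k := by simp
    _ ≤ ((d - 1 : ℕ) : ℝ) ^ k * (θ ^ 2) ^ k := by
        apply mul_le_mul_of_nonneg_right _ (by positivity)
        exact_mod_cast card_Dd_le hm k v
    _ = (((d - 1 : ℕ) : ℝ) * θ ^ 2) ^ k := by rw [mul_pow]
    _ ≤ 1 := pow_le_one₀ (by positivity) hbθ

lemma measurable_Fv (h0 : 0 ≤ θ) (h1 : θ < 1) (m k : ℕ) (v : W d) : Measurable (Fv θ m k v) :=
  Finset.measurable_sum _ fun u _ => measurable_wtI h0 h1 u k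

lemma dependsOn_Fv (m k : ℕ) (v : W d) : DependsOn (Fv θ m k v) (Sub v) := by
  intro ω ω' h
  unfold Fv
  refine Finset.sum_congr rfl fun u hu => ?_
  simp only [Dd, Finset.mem_filter] at hu
  have hlen := W.mem_sphere.1 hu.1
  apply dependsOn_wtI u k (by omega)
  rw [hu.2]
  exact h

lemma integral_Fv_le (h0 : 0 ≤ θ) (h1 : θ < 1) (hd : 3 ≤ d) [IsProbabilityMeasure μy]
    (hcy : Cons μy) (hby : BddSupp μy) (hG : ∀ᵐ ω ∂(Lam d θ μy), GoodG θ ω) {X : ℝ}
    (hX : Tendsto (fun n => xx (msgLaw θ μy (d - 1) n)) atTop (𝓝 X)) {m : ℕ} (hm : 1 ≤ m) (k : ℕ)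
    (v : W d) :
    ∫ ω, Fv θ m k v ω ∂(Lam d θ μy) ≤
      (((d - 1 : ℕ) : ℝ) * θ ^ 2 * (1 - (1 - θ ^ 2) * (θ ^ 2 * X))) ^ k := by
  have hX1 : X ≤ 1 := by
    apply le_of_tendsto hX
    filter_upwards with n
    obtain ⟨m1, m2, m3⟩ := msgLaw_props h0 h1 hcy hby (d - 1) n
    exact xx_le_one m3
  have hX0 : 0 ≤ X := by
    apply ge_of_tendsto hX
    filter_upwards with n
    exact xx_nonneg _
  have hpos : 0 ≤ θ ^ 2 * (1 - (1 - θ ^ 2) * (θ ^ 2 * X)) := by
    apply mul_nonneg (sq_nonneg θ)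
    have h2 : θ ^ 2 ≤ 1 := by nlinarith
    have h3 : (1 - θ ^ 2) * (θ ^ 2 * X) ≤ 1 * (1 * 1) := by
      apply mul_le_mul (by nlinarith [sq_nonneg θ]) _ (by positivity) (by norm_num)
      exact mul_le_mul h2 hX1 hX0 (by norm_num)
    linarith
  unfold Fv
  rw [integral_finsetSum _ fun u _ => integrable_wtI h0 h1 u k]
  calc ∑ u ∈ Dd m k v, ∫ ω, wtI θ u k ω ∂(Lam d θ μy)
      ≤ ∑ _u ∈ Dd m k v, (θ ^ 2 * (1 - (1 - θ ^ 2) * (θ ^ 2 * X))) ^ k := by
        apply Finset.sum_le_sum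
        intro u hu
        simp only [Dd, Finset.mem_filter] at hu
        have hlen := W.mem_sphere.1 hu.1
        exact integral_wtI_le h0 h1 hd hcy hby hG hX u k (by omega)
    _ = (Dd m k v).card * (θ ^ 2 * (1 - (1 - θ ^ 2) * (θ ^ 2 * X))) ^ k := by simp
    _ ≤ ((d - 1 : ℕ) : ℝ) ^ k * (θ ^ 2 * (1 - (1 - θ ^ 2) * (θ ^ 2 * X))) ^ k := by
        apply mul_le_mul_of_nonneg_right _ (by positivity)
        exact_mod_cast card_Dd_le hm k v
    _ = _ := by rw [← mul_pow]; congr 1; ring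

/-- (D6) Hoeffding for the block sums. -/
theorem hoeffding_Fv (h0 : 0 ≤ θ) (h1 : θ < 1) (hd : 3 ≤ d) [IsProbabilityMeasure μy]
    (hbθ : ((d - 1 : ℕ) : ℝ) * θ ^ 2 ≤ 1) {m : ℕ} (hm : 1 ≤ m) (k : ℕ) {Q t : ℝ} (ht : 0 ≤ t)
    (hQ : ∀ v : W d, ∫ ω, Fv θ m k v ω ∂(Lam d θ μy) ≤ Q) :
    (Lam d θ μy).real {ω | (W.sphere d m).card * (Q + t) ≤ ∑ v ∈ W.sphere d m, Fv θ m k v ω} ≤
      Real.exp (-(2 * (W.sphere d m).card * t ^ 2)) := by
  classical
  have hE := isProb_lamE h0 h1.le μy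
  have hL := isProb_Lam (d := d) h0 h1.le μy
  set S := W.sphere d m with hS
  -- independence
  have hdisj : Pairwise (Function.onFun Disjoint (fun v : S => Sub (v : W d))) := by
    intro u v huv
    apply disjoint_Sub_of_ne
    · rw [W.mem_sphere.1 u.2, W.mem_sphere.1 v.2]
    · exact fun h => huv (Subtype.ext h)
  have hind0 : iIndepFun (fun (v : S) ω => Fv θ m k (v : W d) ω) (Lam d θ μy) :=
    iIndepFun_of_dependsOn (lamE θ μy) (fun v : S => Sub (v : W d)) hdisj
      (fun (v : S) ω => Fv θ m k (v : W d) ω) (fun v => measurable_Fv h0 h1 m k _)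
      (fun v => dependsOn_Fv m k _)
  have hind : iIndepFun (fun (v : S) ω => Fv θ m k (v : W d) ω -
      ∫ ω, Fv θ m k (v : W d) ω ∂(Lam d θ μy)) (Lam d θ μy) :=
    hind0.comp (fun v x => x - ∫ ω, Fv θ m k (v : W d) ω ∂(Lam d θ μy))
      (fun v => measurable_id.sub_const _)
  have hsub : ∀ v ∈ (Finset.univ : Finset S), HasSubgaussianMGF (fun ω => Fv θ m k (v : W d) ω -
      ∫ ω, Fv θ m k (v : W d) ω ∂(Lam d θ μy)) ((‖(1 : ℝ) - 0‖₊ / 2) ^ 2) (Lam d θ μy) := by
    intro v _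
    apply hasSubgaussianMGF_of_mem_Icc (measurable_Fv h0 h1 m k _).aemeasurable
    filter_upwards with ω
    exact ⟨Fv_nonneg _ _ _ _, Fv_le_one h0 h1 hbθ hm k _ ω⟩
  have hmain := HasSubgaussianMGF.measure_sum_ge_le_of_iIndepFun hind hsub
    (ε := S.card * t) (by positivity)
  have hsum : ∀ ω, ∑ v : S, (Fv θ m k (v : W d) ω - ∫ ω, Fv θ m k (v : W d) ω ∂(Lam d θ μy)) =
      ∑ v ∈ S, Fv θ m k v ω - ∑ v ∈ S, ∫ ω, Fv θ m k v ω ∂(Lam d θ μy) := by
    intro ω
    rw [Finset.sum_sub_distrib, Finset.sum_coe_sort S (fun v => Fv θ m k v ω),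
      Finset.sum_coe_sort S (fun v => ∫ ω, Fv θ m k v ω ∂(Lam d θ μy))]
  have hQs : ∑ v ∈ S, ∫ ω, Fv θ m k v ω ∂(Lam d θ μy) ≤ S.card * Q := by
    calc _ ≤ ∑ _v ∈ S, Q := Finset.sum_le_sum fun v _ => hQ v
      _ = _ := by simp
  have hincl : {ω | (S.card : ℝ) * (Q + t) ≤ ∑ v ∈ S, Fv θ m k v ω} ⊆
      {ω | (S.card : ℝ) * t ≤ ∑ v : S, (Fv θ m k (v : W d) ω -
        ∫ ω, Fv θ m k (v : W d) ω ∂(Lam d θ μy))} := by
    intro ω hω
    have hω' : (S.card : ℝ) * (Q + t) ≤ ∑ v ∈ S, Fv θ m k v ω := hω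
    show (S.card : ℝ) * t ≤ _
    rw [hsum]
    linarith
  refine (measureReal_mono hincl).trans (hmain.trans (le_of_eq ?_))
  congr 1
  have hcard : 0 < S.card :=
    lt_of_lt_of_le (pow_pos (by omega) m) (card_sphere_ge (d := d) (m := m))
  simp only [sub_zero, nnnorm_one, Finset.sum_const, Finset.card_univ, Fintype.card_coe,
    nsmul_eq_mul]
  push_cast
  have : (S.card : ℝ) ≠ 0 := by positivity
  field_simp

end Crest.Agent.TI.Conc
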