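import Crest.Agent.TIEndC
import Crest.Agent.TIConc

/-!
Row 160 (S0241), piece P7: if the magnetisations of the two replicas agree at the end of every
round, the configuration is a function of the clocks and the innovations.  Owner: helper8.
-/

set_option autoImplicit false

namespace Crest.Agent.TI.End

open MeasureTheory ProbabilityTheory unitInterval Set Filter Topology
open scoped ENNReal

section meas

lemma measurable_artanh : Measurable Real.artanh := by
  unfold Real.artanh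
  fun_prop

lemma measurable_ell : Measurable (fun q : I × I => ell q.1 q.2) := by
  unfold ell
  refine measurable_artanh.comp ?_
  have h2 : Measurable (fun q : I × I => (q.2 : ℝ)) := measurable_subtype_coe.comp measurable_snd
  exact (measurable_amp.comp measurable_fst).mul (measurable_const.sub (h2.const_mul 2))

lemma measurable_sg : Measurable sg := measurable_from_top

variable {V : Type*}

lemma measurable_Zc (b : V × ℕ) : Measurable (fun q : Cl V × Om V => Zc q.1 q.2 b) := by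
  unfold Zc
  refine measurable_QK.comp (Measurable.prodMk ?_ (by fun_prop))
  refine Measurable.mul ?_ ?_
  · exact measurable_amp.comp (by fun_prop)
  · exact measurable_sg.comp (by fun_prop)

lemma measurable_Zc' : Measurable (fun q : Cl V × Om V => Zc q.1 q.2) :=
  measurable_pi_iff.2 fun b => measurable_Zc b

/-- joint measurability of the field, with the time a measurable function. -/
lemma measurable_fieldAt {Ω : Type*} [MeasurableSpace Ω] {c z : Ω → V × ℕ → I} {r : Ω → ℝ}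
    (hc : Measurable c) (hz : Measurable z) (hr : Measurable r) (k : ℕ) :
    Measurable (fun ω => fieldAt (c ω) (z ω) k (r ω)) := by
  rw [measurable_pi_iff]
  intro v
  unfold fieldAt
  have hcb : ∀ b : V × ℕ, Measurable fun ω => c ω b := fun b => (measurable_pi_apply b).comp hc
  have hzb : ∀ b : V × ℕ, Measurable fun ω => z ω b := fun b => (measurable_pi_apply b).comp hz
  have he : ∀ b : V × ℕ, Measurable fun ω => ell (c ω b) (z ω b) := fun b =>
    measurable_ell.comp ((hcb b).prodMk (hzb b))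
  refine Measurable.add (Finset.measurable_fun_sum _ fun j _ => he (v, j)) ?_
  refine Measurable.ite ?_ (he (v, k)) measurable_const
  exact measurableSet_lt (measurable_subtype_coe.comp (hcb (v, k))) hr

end meas

section main

variable {d : ℕ} {θ : ℝ}

lemma measurable_mR (h0 : 0 ≤ θ) (h1 : θ < 1) : Measurable (mR θ : (W d → ℝ) → ℝ) := by
  have h := Scal.continuous_tanh.measurable.comp (Conc.measurable_msgI (d := d) h0 h1 W.root)
  exact h

lemma measurable_comp_tr (v : W d) : Measurable (fun y : W d → ℝ => y ∘ W.tr v) := by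
  rw [measurable_pi_iff]
  intro w
  exact measurable_pi_apply _

lemma measurable_drift (h0 : 0 ≤ θ) (h1 : θ < 1) {Ω : Type*} [MeasurableSpace Ω]
    {c z : Ω → W d × ℕ → I} (hc : Measurable c) (hz : Measurable z) (b : W d × ℕ) :
    Measurable (fun ω => drift θ (c ω) (z ω) b) := by
  have h2 : Measurable fun ω => fieldAt (c ω) (z ω) b.2 (c ω b : ℝ) :=
    measurable_fieldAt hc hz (measurable_subtype_coe.comp ((measurable_pi_apply b).comp hc)) b.2
  exact (measurable_mR h0 h1).comp ((measurable_comp_tr b.1).comp h2)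

lemma measurable_HK : Measurable (fun q : ℝ × I => HK q.1 q.2) := by
  unfold HK hK
  refine continuous_projIcc.measurable.comp ?_
  have h1 : Measurable (fun q : ℝ × I => clamp q.1) := continuous_clamp.measurable.comp measurable_fst
  have h2 : Measurable (fun q : ℝ × I => (q.2 : ℝ)) := measurable_subtype_coe.comp measurable_snd
  exact h2.add ((h1.mul h2).mul (measurable_const.sub h2))

lemma measurable_WWm (h0 : 0 ≤ θ) (h1 : θ < 1) : Measurable (WWm (d := d) θ) := by
  unfold WWm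
  refine measurable_fst.prodMk ?_
  rw [measurable_pi_iff]
  intro b
  unfold innov
  refine measurable_HK.comp (Measurable.prodMk ?_ (measurable_Zc b))
  refine Measurable.mul (measurable_amp.comp (by fun_prop)) ?_
  exact measurable_drift h0 h1 measurable_fst measurable_Zc' b

lemma measurable_yF (k : ℕ) (r : ℝ) :
    Measurable (fun q : Cl (W d) × Om (W d) => yF k r q.1 q.2) :=
  measurable_fieldAt measurable_fst measurable_Zc' measurable_const k

lemma abs_tanh_le (x : ℝ) : |Real.tanh x| ≤ 1 := by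
  rw [abs_le]
  constructor
  · exact (Real.neg_one_lt_tanh x).le
  · exact (Real.tanh_lt_one x).le

lemma abs_sg (b : Bool) : |sg b| = 1 := by unfold sg; split_ifs <;> simp

/-- the measurable structure on configurations and noise -/
@[reducible] def mOm (d : ℕ) : MeasurableSpace (Om (W d)) := inferInstance

/-- the spin at `v` and its estimate at the end of round `k` -/
noncomputable def gK (θ : ℝ) (v : W d) (k : ℕ) (c : Cl (W d)) (p : Om (W d)) : ℝ≥0∞ :=
  ENNReal.ofReal ((sg (p.1 v) - mR θ (yF k (1 / 2) c p ∘ W.tr v)) ^ 2)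

/-- the spin at `v` and the statistic of round `k` -/
noncomputable def gT (v : W d) (k : ℕ) (c : Cl (W d)) (p : Om (W d)) : ℝ≥0∞ :=
  ENNReal.ofReal ((sg (p.1 v) - TT v k (Zc c p)) ^ 2)

lemma measurable_sgv (v : W d) : Measurable fun q : Cl (W d) × Om (W d) => sg (q.2.1 v) :=
  measurable_sg.comp (by fun_prop)

lemma measurable_mRv (h0 : 0 ≤ θ) (h1 : θ < 1) (v : W d) (k : ℕ) :
    Measurable fun q : Cl (W d) × Om (W d) => mR θ (yF k (1 / 2) q.1 q.2 ∘ W.tr v) :=
  (measurable_mR h0 h1).comp ((measurable_comp_tr v).comp (measurable_yF k (1 / 2)))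

lemma measurable_TTv (v : W d) (k : ℕ) :
    Measurable fun q : Cl (W d) × Om (W d) => TT v k (Zc q.1 q.2) :=
  (TT_meas (fun q : Cl (W d) × Om (W d) => Zc q.1 q.2) v k fun j _ => measurable_Zc (v, j)).measurable

lemma measurable_gK (h0 : 0 ≤ θ) (h1 : θ < 1) (v : W d) (k : ℕ) :
    Measurable fun q : Cl (W d) × Om (W d) => gK θ v k q.1 q.2 :=
  (((measurable_sgv v).sub (measurable_mRv h0 h1 v k)).pow_const 2).ennreal_ofReal

lemma measurable_gT (v : W d) (k : ℕ) :
    Measurable fun q : Cl (W d) × Om (W d) => gT v k q.1 q.2 :=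
  (((measurable_sgv v).sub (measurable_TTv v k)).pow_const 2).ennreal_ofReal

/-- law of large numbers. -/
lemma gT_le (ν : Measure (W d → Bool)) [IsProbabilityMeasure ν] (v : W d) {k : ℕ} (hk : 0 < k) :
    ∫⁻ q, gT v k q.1 q.2 ∂(Pt ν) ≤ ENNReal.ofReal (2304 / k) := by
  have hG := measurable_gT v k
  unfold Pt
  rw [lintegral_prod _ hG.aemeasurable]
  have e1 : ∀ c : Cl (W d), ∫⁻ p, gT v k c p ∂(ν.prod (μI (W d × ℕ))) =
      ∫⁻ x, ∫⁻ w, gT v k c (x, w) ∂(μI (W d × ℕ)) ∂ν := by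
    intro c
    have h2 : Measurable fun p : Om (W d) => gT v k c p := Measurable.of_uncurry_left hG
    exact lintegral_prod (fun p : (W d → Bool) × (W d × ℕ → I) => gT v k c p) h2.aemeasurable
  simp only [e1]
  have h3' : Measurable fun q : (Cl (W d) × (W d → Bool)) × (W d × ℕ → I) =>
      (q.1.1, (q.1.2, q.2)) := by fun_prop
  have h3 : Measurable fun q : (Cl (W d) × (W d → Bool)) × (W d × ℕ → I) =>
      gT v k q.1.1 (q.1.2, q.2) := by
    have := hG.comp h3'
    exact this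
  rw [lintegral_lintegral_swap (Measurable.lintegral_prod_right' h3).aemeasurable]
  have e2 : ∀ x : W d → Bool, ∫⁻ c, ∫⁻ w, gT v k c (x, w)
      ∂(μI (W d × ℕ)) ∂(μI (W d × ℕ)) ≤ ENNReal.ofReal (2304 / k) := by
    intro x
    have h4' : Measurable fun q : (W d × ℕ → I) × (W d × ℕ → I) => (q.1, (x, q.2)) := by
      fun_prop
    have h4 : Measurable fun q : (W d × ℕ → I) × (W d × ℕ → I) => gT v k q.1 (x, q.2) := by
      have := hG.comp h4'
      exact this
    have h5 := lln_fixed x v hk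
    refine le_trans (le_of_eq ?_) h5
    exact (lintegral_prod (fun q : (W d × ℕ → I) × (W d × ℕ → I) => gT v k q.1 (x, q.2))
      h4.aemeasurable).symm
  calc _ ≤ ∫⁻ _ : W d → Bool, ENNReal.ofReal (2304 / k) ∂ν := lintegral_mono e2
    _ = ENNReal.ofReal (2304 / k) := by simp

/-- minimality for fixed clocks. -/
theorem recover1 (ν : Measure (W d → Bool)) [IsProbabilityMeasure ν]
    (v : W d) {k : ℕ} (hk : 0 < k) (c : Cl (W d)) (m : MeasurableSpace (Om (W d)))
    (hm : m ≤ mOm d) (hZ : (∀ j < k, Measurable[m] fun p => Zc c p (v, j)))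
    (hM : (ν.prod (μI (W d × ℕ)))[fun p => sg (p.1 v) | m] =ᵐ[ν.prod (μI (W d × ℕ))]
        fun p => mR θ (yF k (1 / 2) c p ∘ W.tr v))
    (hX : Measurable[mOm d] fun p : Om (W d) => sg (p.1 v))
    (hMm : Measurable[mOm d] fun p : Om (W d) => mR θ (yF k (1 / 2) c p ∘ W.tr v)) :
    ∫⁻ p, gK θ v k c p ∂(ν.prod (μI (W d × ℕ))) ≤ ∫⁻ p, gT v k c p ∂(ν.prod (μI (W d × ℕ))) := by
  exact l2min' (m0 := mOm d) hm (ν.prod (μI (W d × ℕ))) (fun p => sg (p.1 v))
    (fun p => mR θ (yF k (1 / 2) c p ∘ W.tr v)) (fun p => TT v k (Zc c p)) hX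
    (fun p => (abs_sg _).le) hMm (fun p => abs_tanh_le _) hM
    (TT_meas (fun p => Zc c p) v k hZ) 48 (fun p => abs_TT_le v hk _)

/-- the spins are recovered from the observations at the end of round `k`. -/
theorem recover (h0 : 0 ≤ θ) (h1 : θ < 1) (ν : Measure (W d → Bool)) [IsProbabilityMeasure ν]
    (v : W d) {k : ℕ} (hk : 0 < k)
    (hP2 : ∀ᵐ c ∂(μI (W d × ℕ)), ∃ m : MeasurableSpace (Om (W d)),
      m ≤ mOm d ∧
      (∀ j < k, Measurable[m] fun p => Zc c p (v, j)) ∧
      (ν.prod (μI (W d × ℕ)))[fun p => sg (p.1 v) | m] =ᵐ[ν.prod (μI (W d × ℕ))]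
        fun p => mR θ (yF k (1 / 2) c p ∘ W.tr v)) :
    ∫⁻ q, gK θ v k q.1 q.2 ∂(Pt ν) ≤ ENNReal.ofReal (2304 / k) := by
  refine le_trans ?_ (gT_le ν v hk)
  unfold Pt
  rw [lintegral_prod _ (measurable_gK h0 h1 v k).aemeasurable,
    lintegral_prod _ (measurable_gT v k).aemeasurable]
  have hX : Measurable fun p : Om (W d) => sg (p.1 v) := measurable_sg.comp (by fun_prop)
  have hMm : ∀ c : Cl (W d), Measurable fun p : Om (W d) => mR θ (yF k (1 / 2) c p ∘ W.tr v) := by
    intro c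
    exact Measurable.of_uncurry_left (f := fun (c : Cl (W d)) (p : Om (W d)) =>
      mR θ (yF k (1 / 2) c p ∘ W.tr v)) (measurable_mRv h0 h1 v k)
  refine lintegral_mono_ae ?_
  filter_upwards [hP2] with c ⟨m, hm, hZ, hM⟩
  exact recover1 ν v hk c m hm hZ hM hX (hMm c)

/-- difference of the estimates of the two replicas -/
noncomputable def gR (θ : ℝ) (q : (W d → ℝ) × (W d → ℝ)) : ℝ≥0∞ :=
  ENNReal.ofReal ((mR θ q.1 - mR θ q.2) ^ 2)

lemma measurable_gR (h0 : 0 ≤ θ) (h1 : θ < 1) :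
    Measurable (gR θ : (W d → ℝ) × (W d → ℝ) → ℝ≥0∞) := by
  have hmR := measurable_mR (d := d) h0 h1
  exact (((hmR.comp measurable_fst).sub (hmR.comp measurable_snd)).pow_const 2).ennreal_ofReal

lemma tri (s1 s2 M1 M2 : ℝ) : ENNReal.ofReal ((s1 - s2) ^ 2) ≤
    3 * ((ENNReal.ofReal ((s1 - M1) ^ 2) + ENNReal.ofReal ((s2 - M2) ^ 2)) +
      ENNReal.ofReal ((M1 - M2) ^ 2)) := by
  rw [show (3 : ℝ≥0∞) = ENNReal.ofReal 3 by norm_num,
    ← ENNReal.ofReal_add (sq_nonneg _) (sq_nonneg _),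
    ← ENNReal.ofReal_add (by positivity) (sq_nonneg _),
    ← ENNReal.ofReal_mul (by norm_num)]
  apply ENNReal.ofReal_le_ofReal
  nlinarith [sq_nonneg ((s1 - M1) + (s2 - M2)), sq_nonneg ((s1 - M1) - (M1 - M2)),
    sq_nonneg ((s2 - M2) + (M1 - M2))]

lemma measurable_yy (k : ℕ) :
    Measurable fun a : (Cl (W d) × (W d × ℕ → I)) × (Om (W d) × Om (W d)) =>
      (yF k (1 / 2) a.1.1 a.2.1, yF k (1 / 2) a.1.1 a.2.2) := by
  have h2 : Measurable fun a : (Cl (W d) × (W d × ℕ → I)) × (Om (W d) × Om (W d)) =>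
      (a.1.1, a.2.1) := by fun_prop
  have h3 : Measurable fun a : (Cl (W d) × (W d × ℕ → I)) × (Om (W d) × Om (W d)) =>
      (a.1.1, a.2.2) := by fun_prop
  have h4 := (measurable_yF (d := d) k (1 / 2)).comp h2
  have h5 := (measurable_yF (d := d) k (1 / 2)).comp h3
  exact h4.prodMk h5

/-- the two replicas have the same spin at `v`. -/
theorem hspin (h0 : 0 ≤ θ) (h1 : θ < 1) (ν : Measure (W d → Bool)) [IsProbabilityMeasure ν]
    [IsFiniteMeasure (Pt ν)] (v : W d)
    (hP2 : ∀ (k : ℕ), ∀ᵐ c ∂(μI (W d × ℕ)), ∃ m : MeasurableSpace (Om (W d)),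
      m ≤ mOm d ∧
      (∀ j < k, Measurable[m] fun p => Zc c p (v, j)) ∧
      (ν.prod (μI (W d × ℕ)))[fun p => sg (p.1 v) | m] =ᵐ[ν.prod (μI (W d × ℕ))]
        fun p => mR θ (yF k (1 / 2) c p ∘ W.tr v))
    (htr : ∀ (k : ℕ), (rhoP θ ν k (1 / 2)).map
      (fun q => (q.1 ∘ W.tr v, q.2 ∘ W.tr v)) = rhoP θ ν k (1 / 2))
    (hR : ∀ k : ℕ, ∫⁻ q, gR θ q ∂(rhoP θ ν k (1 / 2)) = 0) :
    ∀ᵐ a ∂(pairM θ ν), a.2.1.1 v = a.2.2.1 v := by
  have hpr : IsProbabilityMeasure (Pt ν) := by unfold Pt; infer_instance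
  have hW := measurable_WWm (d := d) h0 h1
  have hY : Measurable (Prod.snd : Cl (W d) × Om (W d) → Om (W d)) := measurable_snd
  have hp1 : Measurable fun z : (Cl (W d) × (W d × ℕ → I)) × Om (W d) => (z.1.1, z.2) := by
    fun_prop
  have hf : ∀ k, Measurable fun z : (Cl (W d) × (W d × ℕ → I)) × Om (W d) =>
      gK θ v k z.1.1 z.2 := by
    intro k
    have := (measurable_gK h0 h1 v k).comp hp1
    exact this
  have hfst : ∀ k, 0 < k → ∫⁻ a, gK θ v k a.1.1 a.2.1 ∂(pairM θ ν) ≤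
      ENNReal.ofReal (2304 / k) := by
    intro k hk
    refine le_trans (le_of_eq ?_) (recover h0 h1 ν v hk (hP2 k))
    exact integral_fst (Pt ν) (WWm θ) Prod.snd hW hY (fun z => gK θ v k z.1.1 z.2) (hf k)
  have hsnd : ∀ k, 0 < k → ∫⁻ a, gK θ v k a.1.1 a.2.2 ∂(pairM θ ν) ≤
      ENNReal.ofReal (2304 / k) := by
    intro k hk
    refine le_trans (le_of_eq ?_) (recover h0 h1 ν v hk (hP2 k))
    exact integral_snd (Pt ν) (WWm θ) Prod.snd hW hY (fun z => gK θ v k z.1.1 z.2) (hf k)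
  have ht : Measurable fun q : (W d → ℝ) × (W d → ℝ) => (q.1 ∘ W.tr v, q.2 ∘ W.tr v) :=
    ((measurable_comp_tr v).comp measurable_fst).prodMk
      ((measurable_comp_tr v).comp measurable_snd)
  have h3 : Measurable fun q : (W d → ℝ) × (W d → ℝ) => gR θ (q.1 ∘ W.tr v, q.2 ∘ W.tr v) :=
    (measurable_gR h0 h1).comp ht
  have hmid : ∀ k, ∫⁻ a, gR θ (yF k (1 / 2) a.1.1 a.2.1 ∘ W.tr v, yF k (1 / 2) a.1.1 a.2.2 ∘ W.tr v)
      ∂(pairM θ ν) = 0 := by
    intro k
    have h2 := hR k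
    rw [← htr k, lintegral_map (measurable_gR h0 h1) ht] at h2
    rw [rhoP, lintegral_map h3 (measurable_yy k)] at h2
    exact h2
  -- triangle inequality
  have htri : ∀ k : ℕ, 0 < k → ∫⁻ a, ENNReal.ofReal ((sg (a.2.1.1 v) - sg (a.2.2.1 v)) ^ 2)
      ∂(pairM θ ν) ≤ 3 * (ENNReal.ofReal (2304 / k) + ENNReal.ofReal (2304 / k)) := by
    intro k hk
    have m1' : Measurable fun a : (Cl (W d) × (W d × ℕ → I)) × (Om (W d) × Om (W d)) =>
        (a.1, a.2.1) := by fun_prop
    have m2' : Measurable fun a : (Cl (W d) × (W d × ℕ → I)) × (Om (W d) × Om (W d)) =>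
        (a.1, a.2.2) := by fun_prop
    have m1 : Measurable fun a : (Cl (W d) × (W d × ℕ → I)) × (Om (W d) × Om (W d)) =>
        gK θ v k a.1.1 a.2.1 := by
      have := (hf k).comp m1'
      exact this
    have m2 : Measurable fun a : (Cl (W d) × (W d × ℕ → I)) × (Om (W d) × Om (W d)) =>
        gK θ v k a.1.1 a.2.2 := by
      have := (hf k).comp m2'
      exact this
    calc ∫⁻ a, ENNReal.ofReal ((sg (a.2.1.1 v) - sg (a.2.2.1 v)) ^ 2) ∂(pairM θ ν)
        ≤ ∫⁻ a, 3 * ((gK θ v k a.1.1 a.2.1 + gK θ v k a.1.1 a.2.2) +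
            gR θ (yF k (1 / 2) a.1.1 a.2.1 ∘ W.tr v, yF k (1 / 2) a.1.1 a.2.2 ∘ W.tr v))
            ∂(pairM θ ν) := lintegral_mono fun a => tri _ _ _ _
      _ = 3 * ((∫⁻ a, gK θ v k a.1.1 a.2.1 ∂(pairM θ ν) +
          ∫⁻ a, gK θ v k a.1.1 a.2.2 ∂(pairM θ ν)) +
          ∫⁻ a, gR θ (yF k (1 / 2) a.1.1 a.2.1 ∘ W.tr v, yF k (1 / 2) a.1.1 a.2.2 ∘ W.tr v)
            ∂(pairM θ ν)) := by
          have m12 : Measurable fun a : (Cl (W d) × (W d × ℕ → I)) × (Om (W d) × Om (W d)) =>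
              gK θ v k a.1.1 a.2.1 + gK θ v k a.1.1 a.2.2 := m1.add m2
          rw [lintegral_const_mul' _ _ (by norm_num), lintegral_add_left m12,
            lintegral_add_left m1]
      _ ≤ 3 * (ENNReal.ofReal (2304 / k) + ENNReal.ofReal (2304 / k)) := by
          rw [hmid k, add_zero]
          gcongr
          · exact hfst k hk
          · exact hsnd k hk
  have hzero : ∫⁻ a, ENNReal.ofReal ((sg (a.2.1.1 v) - sg (a.2.2.1 v)) ^ 2)
      ∂(pairM θ ν) = 0 := by
    refine le_antisymm ?_ bot_le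
    have hlim : Tendsto (fun k : ℕ => 3 * (ENNReal.ofReal (2304 / (k : ℝ)) +
        ENNReal.ofReal (2304 / (k : ℝ)))) atTop (𝓝 (3 * (ENNReal.ofReal 0 + ENNReal.ofReal 0))) := by
      have h1 : Tendsto (fun k : ℕ => ENNReal.ofReal (2304 / (k : ℝ))) atTop
          (𝓝 (ENNReal.ofReal 0)) :=
        ENNReal.tendsto_ofReal (tendsto_const_div_atTop_nhds_zero_nat 2304)
      exact ENNReal.Tendsto.const_mul (h1.add h1) (Or.inr (by norm_num))
    have hlim' : Tendsto (fun k : ℕ => 3 * (ENNReal.ofReal (2304 / (k : ℝ)) +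
        ENNReal.ofReal (2304 / (k : ℝ)))) atTop (𝓝 0) := by simpa using hlim
    refine ge_of_tendsto hlim' ?_
    filter_upwards [eventually_gt_atTop 0] with k hk
    exact htri k hk
  have hm0 : Measurable fun a : (Cl (W d) × (W d × ℕ → I)) × (Om (W d) × Om (W d)) =>
      ENNReal.ofReal ((sg (a.2.1.1 v) - sg (a.2.2.1 v)) ^ 2) := by
    have h2 : Measurable fun a : (Cl (W d) × (W d × ℕ → I)) × (Om (W d) × Om (W d)) =>
        sg (a.2.1.1 v) := measurable_sg.comp (by fun_prop)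
    have h3 : Measurable fun a : (Cl (W d) × (W d × ℕ → I)) × (Om (W d) × Om (W d)) =>
        sg (a.2.2.1 v) := measurable_sg.comp (by fun_prop)
    exact ((h2.sub h3).pow_const 2).ennreal_ofReal
  rw [lintegral_eq_zero_iff hm0] at hzero
  filter_upwards [hzero] with a ha
  simp only [Pi.zero_apply, ENNReal.ofReal_eq_zero] at ha
  have h5 : sg (a.2.1.1 v) = sg (a.2.2.1 v) := by
    nlinarith [sq_nonneg (sg (a.2.1.1 v) - sg (a.2.2.1 v))]
  have h6 : ∀ b b' : Bool, sg b = sg b' → b = b' := by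
    intro b b'
    cases b <;> cases b' <;> simp [sg] <;> norm_num
  exact h6 _ _ h5

/-- P7: the configuration is a function of the clocks and the innovations. -/
theorem main (h0 : 0 ≤ θ) (h1 : θ < 1) (ν : Measure (W d → Bool)) [IsProbabilityMeasure ν]
    [IsFiniteMeasure (Pt ν)]
    (hP2 : ∀ (v : W d) (k : ℕ), ∀ᵐ c ∂(μI (W d × ℕ)), ∃ m : MeasurableSpace (Om (W d)),
      m ≤ mOm d ∧
      (∀ j < k, Measurable[m] fun p => Zc c p (v, j)) ∧
      (ν.prod (μI (W d × ℕ)))[fun p => sg (p.1 v) | m] =ᵐ[ν.prod (μI (W d × ℕ))]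
        fun p => mR θ (yF k (1 / 2) c p ∘ W.tr v))
    (htr : ∀ (k : ℕ) (v : W d), (rhoP θ ν k (1 / 2)).map
      (fun q => (q.1 ∘ W.tr v, q.2 ∘ W.tr v)) = rhoP θ ν k (1 / 2))
    (hR : ∀ k : ℕ, ∫⁻ q, ENNReal.ofReal ((mR θ q.1 - mR θ q.2) ^ 2) ∂(rhoP θ ν k (1 / 2)) = 0) :
    ∃ F : Cl (W d) × (W d × ℕ → I) → (W d → Bool), Measurable F ∧
      ∀ᵐ q ∂(Pt ν), F (WWm θ q) = q.2.1 := by
  have hpr : IsProbabilityMeasure (Pt ν) := by unfold Pt; infer_instance
  have hW := measurable_WWm (d := d) h0 h1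
  have hY : Measurable (Prod.snd : Cl (W d) × Om (W d) → Om (W d)) := measurable_snd
  have hX : Measurable (Prod.fst : Om (W d) → (W d → Bool)) := measurable_fst
  have hall : ∀ᵐ a ∂(pairM θ ν), a.2.1.1 = a.2.2.1 := by
    filter_upwards [ae_all_iff.2 fun v => hspin h0 h1 ν v (hP2 v) (fun k => htr k v) hR] with a ha
    exact funext ha
  refine ⟨FF (kap θ ν) Prod.fst, measurable_FF _ hX, ?_⟩
  have h := fiber (Pt ν) (WWm θ) Prod.snd hY Prod.fst hX hall
  exact ae_of_ae_map (hW.prodMk hY).aemeasurable h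

end main

end Crest.Agent.TI.End
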