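import Crest.Agent.TIPairDefs
import Crest.Agent.TIBlock

/-!
Row 160 (S0241), piece P7, part A: if two conditionally independent replicas have the same spins,
the spins are a function of the conditioning; mean of the channel; law of large numbers for the
observations.  Owner: helper8.
-/

set_option autoImplicit false

namespace Crest.Agent.TI.End

open MeasureTheory ProbabilityTheory unitInterval Set Filter Topology
open scoped ENNReal

section fiber

variable {Ω A B V : Type*} [MeasurableSpace Ω] [MeasurableSpace A] [MeasurableSpace B]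
  [StandardBorelSpace B] [Nonempty B] [Countable V]

/-- the function of the conditioning -/
noncomputable def FF (κ : Kernel A B) (X : B → V → Bool) (a : A) (v : V) : Bool :=
  @decide (1 / 2 < (κ a {b | X b v = true}).toReal) (Classical.dec _)

omit [StandardBorelSpace B] [Nonempty B] [Countable V] in
lemma measurable_FF (κ : Kernel A B) {X : B → V → Bool} (hX : Measurable X) :
    Measurable (FF κ X) := by
  rw [measurable_pi_iff]
  intro v
  have hs : MeasurableSet {b | X b v = true} :=
    ((measurable_pi_apply v).comp hX) (measurableSet_singleton true)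
  have h1 : Measurable fun a => (κ a {b | X b v = true}).toReal :=
    (κ.measurable_coe hs).ennreal_toReal
  have h2 : MeasurableSet {a | 1 / 2 < (κ a {b | X b v = true}).toReal} :=
    measurableSet_lt measurable_const h1
  refine measurable_to_bool ?_
  convert h2 using 1
  ext a
  simp [FF]

omit [StandardBorelSpace B] [Nonempty B] [Countable V] in
lemma FF_eq (κ : Kernel A B) [IsMarkovKernel κ] {X : B → V → Bool} (a : A) (b₁ : B)
    (h : ∀ᵐ b ∂(κ a), X b₁ = X b) : FF κ X a = X b₁ := by
  funext v
  by_cases hv : X b₁ v = true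
  · have h1 : ∀ᵐ b ∂(κ a), b ∈ {b | X b v = true} := by
      filter_upwards [h] with b hb
      show X b v = true
      rw [← hb]; exact hv
    have h2 : κ a {b | X b v = true} = 1 := by
      rw [← measure_univ (μ := κ a)]
      exact measure_congr (eventuallyEq_univ.2 h1)
    simp only [FF, h2, hv]
    norm_num
  · have h1 : ∀ᵐ b ∂(κ a), b ∉ {b | X b v = true} := by
      filter_upwards [h] with b hb
      show ¬ (X b v = true)
      rw [← hb]; exact hv
    have h2 : κ a {b | X b v = true} = 0 := measure_eq_zero_iff_ae_notMem.2 h1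
    have hv' : X b₁ v = false := by simpa using hv
    simp only [FF, h2, hv']
    norm_num

/-- replicas with the same spins: the spins are a function of the conditioning. -/
theorem fiber (P : Measure Ω) [IsProbabilityMeasure P] (Wf : Ω → A)
    (Y : Ω → B) (hY : Measurable Y) (X : B → V → Bool) (hX : Measurable X)
    (h : ∀ᵐ a ∂((P.map Wf) ⊗ₘ (condDistrib Y Wf P ×ₖ condDistrib Y Wf P)), X a.2.1 = X a.2.2) :
    ∀ᵐ q ∂(P.map (fun q => (Wf q, Y q))), FF (condDistrib Y Wf P) X q.1 = X q.2 := by
  set κ := condDistrib Y Wf P with hκ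
  have h1 := Measure.ae_ae_of_ae_compProd h
  have h2 : ∀ᵐ w ∂(P.map Wf), ∀ᵐ b ∂(κ w), FF κ X w = X b := by
    filter_upwards [h1] with w hw
    rw [Kernel.prod_apply] at hw
    have h3 := Measure.ae_ae_of_ae_prod hw
    obtain ⟨b₁, hb₁⟩ := h3.exists
    have h4 : ∀ᵐ b ∂(κ w), X b₁ = X b := hb₁
    have h5 := FF_eq κ w b₁ h4
    filter_upwards [h4] with b hb
    rw [h5, hb]
  have h3 : ∀ᵐ q ∂((P.map Wf) ⊗ₘ κ), FF κ X q.1 = X q.2 := by
    refine Measure.ae_compProd_of_ae_ae ?_ h2
    have e : {q : A × B | FF κ X q.1 = X q.2} = ⋂ v, {q | FF κ X q.1 v = X q.2 v} := by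
      ext q
      simp only [mem_ofPred_eq, mem_iInter]
      exact funext_iff
    rw [e]
    refine MeasurableSet.iInter fun v => ?_
    have m1 : Measurable fun q : A × B => FF κ X q.1 v :=
      ((measurable_pi_apply v).comp (measurable_FF κ hX)).comp measurable_fst
    have m2 : Measurable fun q : A × B => X q.2 v :=
      ((measurable_pi_apply v).comp hX).comp measurable_snd
    exact (m1.prodMk m2) (MeasurableSet.of_discrete (s := {p : Bool × Bool | p.1 = p.2}))
  rwa [hκ, compProd_map_condDistrib hY.aemeasurable] at h3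

/-- replica version of an expectation: first replica. -/
theorem integral_fst (P : Measure Ω) [IsProbabilityMeasure P] (Wf : Ω → A)
    (Y : Ω → B) (hW : Measurable Wf) (hY : Measurable Y) (f : A × B → ℝ≥0∞) (hf : Measurable f) :
    ∫⁻ a, f (a.1, a.2.1) ∂((P.map Wf) ⊗ₘ (condDistrib Y Wf P ×ₖ condDistrib Y Wf P)) =
      ∫⁻ q, f (Wf q, Y q) ∂P := by
  have hm : Measurable (fun q => (Wf q, Y q)) := hW.prodMk hY
  have h1 : ∫⁻ q, f (Wf q, Y q) ∂P = ∫⁻ z, f z ∂((P.map Wf) ⊗ₘ condDistrib Y Wf P) := by
    rw [compProd_map_condDistrib hY.aemeasurable, lintegral_map hf hm]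
  rw [h1, Measure.lintegral_compProd hf, Measure.lintegral_compProd]
  · refine lintegral_congr fun w => ?_
    rw [Kernel.prod_apply, lintegral_prod]
    · refine lintegral_congr fun b => ?_
      simp
    · exact (hf.comp (by fun_prop : Measurable fun b : B × B => (w, b.1))).aemeasurable
  · exact hf.comp (by fun_prop)

theorem integral_snd (P : Measure Ω) [IsProbabilityMeasure P] (Wf : Ω → A)
    (Y : Ω → B) (hW : Measurable Wf) (hY : Measurable Y) (f : A × B → ℝ≥0∞) (hf : Measurable f) :
    ∫⁻ a, f (a.1, a.2.2) ∂((P.map Wf) ⊗ₘ (condDistrib Y Wf P ×ₖ condDistrib Y Wf P)) =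
      ∫⁻ q, f (Wf q, Y q) ∂P := by
  have hm : Measurable (fun q => (Wf q, Y q)) := hW.prodMk hY
  have h1 : ∫⁻ q, f (Wf q, Y q) ∂P = ∫⁻ z, f z ∂((P.map Wf) ⊗ₘ condDistrib Y Wf P) := by
    rw [compProd_map_condDistrib hY.aemeasurable, lintegral_map hf hm]
  rw [h1, Measure.lintegral_compProd hf, Measure.lintegral_compProd]
  · refine lintegral_congr fun w => ?_
    rw [Kernel.prod_apply, lintegral_prod]
    · simp
    · exact (hf.comp (by fun_prop : Measurable fun b : B × B => (w, b.2))).aemeasurable
  · exact hf.comp (by fun_prop)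

end fiber

end Crest.Agent.TI.End
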