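import Crest.Agent.TIEndA

/-!
Row 160 (S0241), piece P7, part B: mean of the channel, law of large numbers.  Owner: helper8.
-/

set_option autoImplicit false

namespace Crest.Agent.TI.End

open MeasureTheory ProbabilityTheory unitInterval Set Filter Topology
open scoped ENNReal

section channel

lemma clamp_mem (κ : ℝ) : -(1 / 4) ≤ clamp κ ∧ clamp κ ≤ 1 / 4 := abs_le.1 (clamp_abs_le κ)

lemma continuous_clamp : Continuous clamp := by
  unfold clamp
  exact continuous_const.max (continuous_id.min continuous_const)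

lemma measurable_QK : Measurable (fun q : ℝ × I => QK q.1 q.2) := by
  unfold QK fK
  refine continuous_projIcc.measurable.comp ?_
  have h1 : Measurable (fun q : ℝ × I => clamp q.1) := continuous_clamp.measurable.comp measurable_fst
  have h2 : Measurable (fun q : ℝ × I => (q.2 : ℝ)) := measurable_subtype_coe.comp measurable_snd
  refine Measurable.div (h2.const_mul 2) ?_
  refine (h1.const_add 1).add ?_
  refine Measurable.sqrt ?_
  exact ((h1.const_add 1).pow_const 2).sub ((h1.const_mul 4).mul h2)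

lemma fK_hK {κ z : ℝ} (hκ : |κ| ≤ 1 / 4) (hz : z ∈ Icc (0 : ℝ) 1) : fK κ (hK κ z) = z := by
  obtain ⟨k0, k1⟩ := abs_le.1 hκ
  obtain ⟨z0, z1⟩ := hz
  have h1 : (1 + κ) ^ 2 - 4 * κ * hK κ z = (1 + κ * (1 - 2 * z)) ^ 2 := by
    unfold hK; ring
  have h2 : 0 ≤ 1 + κ * (1 - 2 * z) := by nlinarith
  unfold fK
  rw [h1, Real.sqrt_sq h2]
  have h4 : 0 < 1 + κ + (1 + κ * (1 - 2 * z)) := by nlinarith
  rw [div_eq_iff h4.ne']
  unfold hK
  ring

lemma fK_den_pos {κ : ℝ} (hκ : |κ| ≤ 1 / 4) (u : ℝ) :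
    0 < (1 + κ) + Real.sqrt ((1 + κ) ^ 2 - 4 * κ * u) := by
  have := (abs_le.1 hκ).1
  have h := Real.sqrt_nonneg ((1 + κ) ^ 2 - 4 * κ * u)
  linarith

lemma continuous_fK {κ : ℝ} (hκ : |κ| ≤ 1 / 4) : Continuous (fK κ) := by
  unfold fK
  refine Continuous.div (by fun_prop) (by fun_prop) fun u => (fK_den_pos hκ u).ne'

lemma fK_mem {κ u : ℝ} (hκ : |κ| ≤ 1 / 4) (hu : u ∈ Icc (0 : ℝ) 1) : fK κ u ∈ Icc (0 : ℝ) 1 := by
  obtain ⟨k0, k1⟩ := abs_le.1 hκ
  obtain ⟨u0, u1⟩ := hu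
  have hd := fK_den_pos hκ u
  constructor
  · exact div_nonneg (by linarith) hd.le
  · rw [fK, div_le_one hd]
    by_cases h : 2 * u - (1 + κ) ≤ 0
    · have := Real.sqrt_nonneg ((1 + κ) ^ 2 - 4 * κ * u)
      linarith
    · have h' : 2 * u - (1 + κ) ≤ Real.sqrt ((1 + κ) ^ 2 - 4 * κ * u) := by
        apply Real.le_sqrt_of_sq_le
        nlinarith
      linarith

lemma integral_I (g : ℝ → ℝ) : ∫ u : I, g (u : ℝ) = ∫ x in (0 : ℝ)..1, g x := by
  rw [intervalIntegral.integral_of_le zero_le_one, ← integral_Icc_eq_integral_Ioc]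
  exact integral_subtype_comap measurableSet_Icc g

lemma integral_fK {κ : ℝ} (hκ : |κ| ≤ 1 / 4) : ∫ x in (0 : ℝ)..1, fK κ x = 1 / 2 - κ / 6 := by
  have hd : ∀ x ∈ uIcc (0 : ℝ) 1, HasDerivAt (hK κ) (1 + κ * (1 - 2 * x)) x := by
    intro x _
    unfold hK
    have h1 : HasDerivAt (fun z : ℝ => z + κ * z * (1 - z)) (1 + ((κ * 1) * (1 - x) +
        (κ * x) * (0 - 1))) x :=
      (hasDerivAt_id x).add (((hasDerivAt_id x).const_mul κ).mul
        ((hasDerivAt_const x (1 : ℝ)).sub (hasDerivAt_id x)))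
    convert h1 using 1
    ring
  have h1 := intervalIntegral.integral_comp_mul_deriv (a := 0) (b := 1) (f := hK κ)
    (f' := fun x => 1 + κ * (1 - 2 * x)) (g := fK κ) hd (by fun_prop) (continuous_fK hκ)
  have e0 : hK κ 0 = 0 := by simp [hK]
  have e1 : hK κ 1 = 1 := by simp [hK]
  rw [e0, e1] at h1
  rw [← h1]
  have h2 : ∫ x in (0 : ℝ)..1, (fK κ ∘ hK κ) x * (1 + κ * (1 - 2 * x)) =
      ∫ x in (0 : ℝ)..1, x * (1 + κ * (1 - 2 * x)) := by
    refine intervalIntegral.integral_congr fun x hx => ?_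
    rw [uIcc_of_le zero_le_one] at hx
    simp only [Function.comp_apply, fK_hK hκ hx]
  rw [h2]
  have h3 : ∀ x ∈ uIcc (0 : ℝ) 1, HasDerivAt (fun x : ℝ => x ^ 2 / 2 + κ * (x ^ 2 / 2 - 2 * x ^ 3 / 3))
      (x * (1 + κ * (1 - 2 * x))) x := by
    intro x _
    have a1 : HasDerivAt (fun x : ℝ => x ^ 2 / 2) ((2 : ℕ) * x ^ (2 - 1) / 2) x :=
      (hasDerivAt_pow 2 x).div_const 2
    have a2 : HasDerivAt (fun x : ℝ => 2 * x ^ 3 / 3) (2 * ((3 : ℕ) * x ^ (3 - 1)) / 3) x :=
      ((hasDerivAt_pow 3 x).const_mul 2).div_const 3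
    have a3 := a1.add ((a1.sub a2).const_mul κ)
    have e : x * (1 + κ * (1 - 2 * x)) = (2 : ℕ) * x ^ (2 - 1) / 2 +
        κ * ((2 : ℕ) * x ^ (2 - 1) / 2 - 2 * ((3 : ℕ) * x ^ (3 - 1)) / 3) := by
      push_cast
      simp only [Nat.add_one_sub_one, pow_one, Nat.reduceSub]
      ring
    rw [e]
    exact a3
  rw [intervalIntegral.integral_eq_sub_of_hasDerivAt h3 (by
    apply Continuous.intervalIntegrable; fun_prop)]
  ring

/-- mean of the statistic under the channel with parameter `κ`. -/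
theorem integral_QK {κ : ℝ} (hκ : |κ| ≤ 1 / 4) : ∫ u : I, (1 - 2 * (QK κ u : ℝ)) = κ / 3 := by
  have h1 : ∀ u : I, (QK κ u : ℝ) = fK κ u := by
    intro u
    unfold QK
    rw [clamp_of_abs_le hκ, projIcc_of_mem zero_le_one (fK_mem hκ u.2)]
  simp only [h1]
  rw [integral_I (fun x => 1 - 2 * fK κ x), intervalIntegral.integral_sub
    (by simp) (((continuous_fK hκ).const_mul 2).intervalIntegrable _ _),
    intervalIntegral.integral_const_mul, integral_fK hκ]
  simp
  ring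

lemma measurable_amp : Measurable amp := by
  unfold amp
  exact Measurable.ite (measurableSet_lt measurable_subtype_coe measurable_const)
    (measurable_subtype_coe.div_const 2) measurable_const

lemma integral_amp : ∫ c : I, amp c = 1 / 16 := by
  have h1 : ∫ c : I, amp c = ∫ x in (0 : ℝ)..1, (if x < 1 / 2 then x / 2 else 0) :=
    integral_I (fun x => if x < 1 / 2 then x / 2 else 0)
  rw [h1, intervalIntegral.integral_of_le zero_le_one]
  have h2 : (fun x : ℝ => if x < 1 / 2 then x / 2 else 0) = (Iio (1 / 2)).indicator (fun x => x / 2) := by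
    funext x
    simp [indicator]
  rw [h2, setIntegral_indicator measurableSet_Iio]
  have h3 : Ioc (0 : ℝ) 1 ∩ Iio (1 / 2) = Ioo 0 (1 / 2) := by
    ext x
    simp only [mem_inter_iff, mem_Ioc, mem_Iio, mem_Ioo]
    constructor
    · rintro ⟨⟨a, b⟩, c⟩; exact ⟨a, c⟩
    · rintro ⟨a, c⟩; exact ⟨⟨a, by linarith⟩, c⟩
  rw [h3, ← integral_Ioc_eq_integral_Ioo, ← intervalIntegral.integral_of_le (by norm_num)]
  have h4 : ∫ x in (0 : ℝ)..(1 / 2), x / 2 = (∫ x in (0 : ℝ)..(1 / 2), x) / 2 := by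
    rw [intervalIntegral.integral_div]
  rw [h4, integral_id]
  norm_num

end channel

end Crest.Agent.TI.End
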