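import Crest.Agent.TIEndB

/-!
Row 160 (S0241), piece P7, part C: law of large numbers for the observations, L² minimality.
Owner: helper8.
-/

set_option autoImplicit false

namespace Crest.Agent.TI.End

open MeasureTheory ProbabilityTheory unitInterval Set Filter Topology
open scoped ENNReal

section lln

variable {V : Type*}

/-- the statistic of one observation, given that the spin is `s` -/
noncomputable def stt (s : ℝ) (q : I × I) : ℝ := 1 - 2 * (QK (amp q.1 * s) q.2 : ℝ)

lemma measurable_stt (s : ℝ) : Measurable (stt s) := by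
  unfold stt
  refine measurable_const.sub (Measurable.const_mul ?_ 2)
  refine measurable_subtype_coe.comp (measurable_QK.comp (Measurable.prodMk ?_ measurable_snd))
  exact (measurable_amp.comp measurable_fst).mul_const s

lemma abs_stt_le (s : ℝ) (q : I × I) : |stt s q| ≤ 1 := by
  have h0 := (QK (amp q.1 * s) q.2).2.1
  have h1 := (QK (amp q.1 * s) q.2).2.2
  unfold stt
  rw [abs_le]
  constructor <;> linarith

lemma integral_stt {s : ℝ} (hs : |s| ≤ 1) :
    ∫ q, stt s q ∂((volume : Measure I).prod volume) = s / 48 := by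
  rw [integral_prod]
  · have h1 : ∀ c : I, ∫ w : I, stt s (c, w) = amp c * s / 3 := by
      intro c
      have h2 : |amp c * s| ≤ 1 / 4 := by
        rw [abs_mul, abs_of_nonneg (amp_nonneg c)]
        calc amp c * |s| ≤ amp c * 1 := mul_le_mul_of_nonneg_left hs (amp_nonneg c)
          _ ≤ 1 / 4 := by rw [mul_one]; exact amp_le c
      exact integral_QK h2
    simp only [h1]
    rw [integral_div, integral_mul_const, integral_amp]
    ring
  · exact Integrable.of_bound (measurable_stt s).aestronglyMeasurable 1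
      (Eventually.of_forall fun q => by simpa using abs_stt_le s q)

lemma measurable_Xj (s : ℝ) (v : V) (j : ℕ) :
    Measurable (fun ω : V × ℕ → I × I => stt s (ω (v, j))) :=
  (measurable_stt s).comp (measurable_pi_apply _)

/-- second moment of the centred sum -/
lemma lln_pairs {s : ℝ} (hs : |s| ≤ 1) (v : V) (k : ℕ) :
    ∫ ω : V × ℕ → I × I, (∑ j ∈ Finset.range k, stt s (ω (v, j)) - (k : ℝ) * (s / 48)) ^ 2
      ∂(Measure.infinitePi fun _ : V × ℕ => (volume : Measure I).prod (volume : Measure I)) ≤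
      (k : ℝ) := by
  set Q : Measure (V × ℕ → I × I) :=
    Measure.infinitePi fun _ : V × ℕ => (volume : Measure I).prod (volume : Measure I) with hQ
  set X : ℕ → (V × ℕ → I × I) → ℝ := fun j ω => stt s (ω (v, j)) with hX
  have hXm : ∀ j, Measurable (X j) := fun j => measurable_Xj s v j
  have hXb : ∀ j ω, |X j ω| ≤ 1 := fun j ω => abs_stt_le s _
  have hL : ∀ j, MemLp (X j) 2 Q := fun j =>
    MemLp.of_bound (hXm j).aestronglyMeasurable 1
      (Eventually.of_forall fun ω => by simpa using hXb j ω)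
  have hI : ∀ j, Integrable (X j) Q := fun j => (hL j).integrable (by norm_num)
  have hmean : ∀ j, ∫ ω, X j ω ∂Q = s / 48 := by
    intro j
    have h1 : Q.map (fun ω => ω (v, j)) = (volume : Measure I).prod volume := by
      rw [hQ]; exact Measure.infinitePi_map_eval _ _
    rw [← integral_stt hs, ← h1, integral_map (measurable_pi_apply _).aemeasurable
      (measurable_stt s).aestronglyMeasurable]
  have hind : iIndepFun (fun (b : V × ℕ) (ω : V × ℕ → I × I) => stt s (ω b)) Q :=
    iIndepFun_infinitePi (X := fun _ => stt s) fun _ => measurable_stt s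
  have hpair : Set.Pairwise (↑(Finset.range k) : Set ℕ) fun i j => X i ⟂ᵢ[Q] X j := by
    intro i _ j _ hij
    exact hind.indepFun (i := (v, i)) (j := (v, j)) (by
      intro h; exact hij (Prod.mk.inj h).2)
  have hvar := IndepFun.variance_sum (μ := Q) (s := Finset.range k) (fun i _ => hL i) hpair
  have hv1 : ∀ j, variance (X j) Q ≤ 1 := by
    intro j
    refine (variance_le_expectation_sq (hXm j).aestronglyMeasurable).trans ?_
    have : ∫ ω, (X j ^ 2) ω ∂Q ≤ ∫ _, (1 : ℝ) ∂Q := by
      refine integral_mono (hL j).integrable_sq (integrable_const _) fun ω => ?_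
      show (X j ω) ^ 2 ≤ 1
      have := hXb j ω
      rw [← sq_abs]
      nlinarith [abs_nonneg (X j ω)]
    simpa using this
  have hsum : variance (∑ i ∈ Finset.range k, X i) Q ≤ k := by
    rw [hvar]
    calc ∑ i ∈ Finset.range k, variance (X i) Q ≤ ∑ i ∈ Finset.range k, (1 : ℝ) :=
          Finset.sum_le_sum fun i _ => hv1 i
      _ = k := by simp
  have hSm : Measurable (∑ i ∈ Finset.range k, X i) := by
    have h := Finset.measurable_fun_sum (Finset.range k) fun i _ => hXm i
    convert h using 1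
    funext ω
    simp
  rw [variance_eq_integral hSm.aemeasurable] at hsum
  have hmeanS : ∫ ω, (∑ i ∈ Finset.range k, X i) ω ∂Q = k * (s / 48) := by
    simp only [Finset.sum_apply]
    rw [integral_finsetSum _ fun i _ => hI i]
    simp [hmean]
  rw [hmeanS] at hsum
  simpa only [Finset.sum_apply] using hsum

/-- the statistic of the observations at `v` -/
noncomputable def TT (v : V) (k : ℕ) (z : V × ℕ → I) : ℝ :=
  48 / k * ∑ j ∈ Finset.range k, (1 - 2 * (z (v, j) : ℝ))

lemma lln_fixed (x : V → Bool) (v : V) {k : ℕ} (hk : 0 < k) :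
    ∫⁻ q, ENNReal.ofReal ((sg (x v) - TT v k (Zc q.1 (x, q.2))) ^ 2)
      ∂((μI (V × ℕ)).prod (μI (V × ℕ))) ≤ ENNReal.ofReal (2304 / k) := by
  have hk' : (0 : ℝ) < k := by exact_mod_cast hk
  have hs : |sg (x v)| ≤ 1 := by
    unfold sg; split_ifs <;> simp
  set s := sg (x v) with hsdef
  have hunz := map_unzip (ι := V × ℕ) (volume : Measure I) (volume : Measure I)
  have e1 : ∀ q : (V × ℕ → I) × (V × ℕ → I), (s - TT v k (Zc q.1 (x, q.2))) ^ 2 =
      (48 / k) ^ 2 * (∑ j ∈ Finset.range k, stt s (q.1 (v, j), q.2 (v, j)) - k * (s / 48)) ^ 2 := by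
    intro q
    have e2 : TT v k (Zc q.1 (x, q.2)) =
        48 / k * ∑ j ∈ Finset.range k, stt s (q.1 (v, j), q.2 (v, j)) := rfl
    rw [e2]
    field_simp
    ring
  simp only [e1]
  have hmeas : Measurable fun q : (V × ℕ → I) × (V × ℕ → I) => ENNReal.ofReal ((48 / k) ^ 2 *
      (∑ j ∈ Finset.range k, stt s (q.1 (v, j), q.2 (v, j)) - k * (s / 48)) ^ 2) := by
    refine Measurable.ennreal_ofReal (Measurable.const_mul (Measurable.pow_const
      (Measurable.sub_const (Finset.measurable_fun_sum _ fun j _ => ?_) _) 2) _)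
    exact (measurable_stt s).comp (by fun_prop)
  have e3 : (μI (V × ℕ)).prod (μI (V × ℕ)) = (Measure.infinitePi fun _ : V × ℕ =>
      (volume : Measure I).prod volume).map (fun ω => ((fun i => (ω i).1 : V × ℕ → I),
        (fun i => (ω i).2 : V × ℕ → I))) := hunz.symm
  rw [e3, lintegral_map hmeas measurable_unzip]
  have h4 : ∀ ω : V × ℕ → I × I, (∑ j ∈ Finset.range k, stt s ((ω (v, j)).1, (ω (v, j)).2) -
      k * (s / 48)) = (∑ j ∈ Finset.range k, stt s (ω (v, j)) - k * (s / 48)) := fun ω => rfl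
  simp only [h4]
  have hb : ∀ ω : V × ℕ → I × I, |∑ j ∈ Finset.range k, stt s (ω (v, j)) - k * (s / 48)| ≤ 2 * k := by
    intro ω
    have h5 : |∑ j ∈ Finset.range k, stt s (ω (v, j))| ≤ k := by
      calc |∑ j ∈ Finset.range k, stt s (ω (v, j))| ≤ ∑ j ∈ Finset.range k, |stt s (ω (v, j))| :=
            Finset.abs_sum_le_sum_abs _ _
        _ ≤ ∑ j ∈ Finset.range k, (1 : ℝ) := Finset.sum_le_sum fun j _ => abs_stt_le s _
        _ = k := by simp
    have h6 : |k * (s / 48)| ≤ k := by
      rw [abs_mul, abs_of_nonneg hk'.le, abs_div, abs_of_nonneg (by norm_num : (0 : ℝ) ≤ 48)]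
      have : |s| / 48 ≤ 1 := by linarith [abs_nonneg s]
      nlinarith
    calc _ ≤ |∑ j ∈ Finset.range k, stt s (ω (v, j))| + |k * (s / 48)| := abs_sub _ _
      _ ≤ 2 * k := by linarith
  have hm2 : Measurable fun ω : V × ℕ → I × I =>
      (∑ j ∈ Finset.range k, stt s (ω (v, j)) - k * (s / 48)) ^ 2 :=
    ((Finset.measurable_fun_sum _ fun j _ => measurable_Xj s v j).sub_const _).pow_const 2
  have hint : Integrable (fun ω : V × ℕ → I × I => (48 / k) ^ 2 *
      (∑ j ∈ Finset.range k, stt s (ω (v, j)) - k * (s / 48)) ^ 2)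
      (Measure.infinitePi fun _ : V × ℕ => (volume : Measure I).prod volume) := by
    refine Integrable.of_bound (hm2.const_mul _).aestronglyMeasurable
      ((48 / k) ^ 2 * (2 * k) ^ 2) (Eventually.of_forall fun ω => ?_)
    rw [Real.norm_eq_abs, abs_mul, abs_of_nonneg (by positivity : (0:ℝ) ≤ (48 / k) ^ 2), abs_pow]
    exact mul_le_mul_of_nonneg_left (pow_le_pow_left₀ (abs_nonneg _) (hb ω) 2) (by positivity)
  rw [← ofReal_integral_eq_lintegral_ofReal hint (Eventually.of_forall fun ω => by positivity)]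
  apply ENNReal.ofReal_le_ofReal
  rw [integral_const_mul]
  have h7 := lln_pairs hs v k
  calc (48 / (k : ℝ)) ^ 2 * _ ≤ (48 / (k : ℝ)) ^ 2 * k :=
        mul_le_mul_of_nonneg_left h7 (by positivity)
    _ = 2304 / k := by field_simp; norm_num

end lln

section l2

variable {Ω : Type*} {m m0 : MeasurableSpace Ω}

/-- the conditional expectation minimises the L² distance. -/
theorem l2min (hm : m ≤ m0) (P : Measure Ω) [IsProbabilityMeasure P] (X M T : Ω → ℝ)
    (hXm : Measurable X) (hXb : ∀ ω, |X ω| ≤ 1) (hM : P[X|m] =ᵐ[P] M)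
    (hT : StronglyMeasurable[m] T) (K : ℝ) (hTb : ∀ ω, |T ω| ≤ K) :
    ∫ ω, (X ω - M ω) ^ 2 ∂P ≤ ∫ ω, (X ω - T ω) ^ 2 ∂P := by
  set M' := P[X|m] with hM'
  have hXi : Integrable X P := Integrable.of_bound hXm.aestronglyMeasurable 1
    (Eventually.of_forall fun ω => by simpa using hXb ω)
  have hM'm : StronglyMeasurable[m] M' := stronglyMeasurable_condExp
  have hM'b : ∀ᵐ ω ∂P, |M' ω| ≤ 1 :=
    ae_bdd_abs_condExp_of_ae_bdd_abs (m := m) (R := (1 : ℝ)) (f := X) (μ := P)
      (Eventually.of_forall fun ω => hXb ω)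
  have hK : 0 ≤ K ∨ IsEmpty Ω := by
    by_cases h : IsEmpty Ω
    · right; exact h
    · left
      rw [not_isEmpty_iff] at h
      exact (abs_nonneg _).trans (hTb h.some)
  have e0 : ∫ ω, (X ω - M ω) ^ 2 ∂P = ∫ ω, (X ω - M' ω) ^ 2 ∂P := by
    refine integral_congr_ae ?_
    filter_upwards [hM] with ω hω
    rw [hω]
  have hXT : Integrable (fun ω => (X ω - T ω) ^ 2) P := by
    refine Integrable.of_bound ((hXm.stronglyMeasurable.sub (hT.mono hm)).pow 2).aestronglyMeasurable
      ((1 + K) ^ 2) (Eventually.of_forall fun ω => ?_)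
    rw [Real.norm_eq_abs, abs_pow]
    exact pow_le_pow_left₀ (abs_nonneg _) ((abs_sub _ _).trans (add_le_add (hXb ω) (hTb ω))) 2
  have hXM : Integrable (fun ω => (X ω - M' ω) ^ 2) P := by
    refine Integrable.of_bound ((hXm.stronglyMeasurable.sub (hM'm.mono hm)).pow 2).aestronglyMeasurable
      ((1 + 1) ^ 2) (hM'b.mono fun ω hω => ?_)
    rw [Real.norm_eq_abs, abs_pow]
    exact pow_le_pow_left₀ (abs_nonneg _) ((abs_sub _ _).trans (add_le_add (hXb ω) hω)) 2
  have hMT : Integrable (fun ω => (M' ω - T ω) ^ 2) P := by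
    refine Integrable.of_bound (((hM'm.mono hm).sub (hT.mono hm)).pow 2).aestronglyMeasurable
      ((1 + K) ^ 2) (hM'b.mono fun ω hω => ?_)
    rw [Real.norm_eq_abs, abs_pow]
    exact pow_le_pow_left₀ (abs_nonneg _) ((abs_sub _ _).trans (add_le_add hω (hTb ω))) 2
  have hXg : Integrable (X * (M' - T)) P := by
    refine Integrable.of_bound ((hXm.stronglyMeasurable.mul
      ((hM'm.mono hm).sub (hT.mono hm)))).aestronglyMeasurable
      (1 * (1 + K)) (hM'b.mono fun ω hω => ?_)
    rw [Real.norm_eq_abs, Pi.mul_apply, Pi.sub_apply, abs_mul]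
    exact mul_le_mul (hXb ω) ((abs_sub _ _).trans (add_le_add hω (hTb ω))) (abs_nonneg _) (by norm_num)
  have hMg : Integrable (M' * (M' - T)) P := by
    refine Integrable.of_bound (((hM'm.mono hm).mul
      ((hM'm.mono hm).sub (hT.mono hm)))).aestronglyMeasurable
      (1 * (1 + K)) (hM'b.mono fun ω hω => ?_)
    rw [Real.norm_eq_abs, Pi.mul_apply, Pi.sub_apply, abs_mul]
    exact mul_le_mul hω ((abs_sub _ _).trans (add_le_add hω (hTb ω))) (abs_nonneg _) (by norm_num)
  have horth : ∫ ω, (X * (M' - T)) ω ∂P = ∫ ω, (M' * (M' - T)) ω ∂P := by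
    rw [← integral_condExp hm]
    exact integral_congr_ae (condExp_mul_of_stronglyMeasurable_right (hM'm.sub hT) hXg hXi)
  rw [e0]
  have e1 : ∫ ω, (X ω - T ω) ^ 2 ∂P = ∫ ω, (X ω - M' ω) ^ 2 ∂P +
      2 * (∫ ω, (X * (M' - T)) ω ∂P - ∫ ω, (M' * (M' - T)) ω ∂P) + ∫ ω, (M' ω - T ω) ^ 2 ∂P := by
    have i1 : Integrable (fun ω => 2 * ((X * (M' - T)) ω - (M' * (M' - T)) ω)) P :=
      (hXg.sub hMg).const_mul 2
    have i2 : Integrable (fun ω => (X ω - M' ω) ^ 2 +
        2 * ((X * (M' - T)) ω - (M' * (M' - T)) ω)) P := hXM.add i1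
    rw [← integral_sub hXg hMg, ← integral_const_mul, ← integral_add hXM i1,
      ← integral_add i2 hMT]
    refine integral_congr_ae (Eventually.of_forall fun ω => ?_)
    simp only [Pi.mul_apply, Pi.sub_apply]
    ring
  rw [e1, horth, sub_self, mul_zero, add_zero]
  have : 0 ≤ ∫ ω, (M' ω - T ω) ^ 2 ∂P := integral_nonneg fun ω => sq_nonneg _
  linarith

/-- the same with extended integrals. -/
theorem l2min' (hm : m ≤ m0) (P : Measure Ω) [IsProbabilityMeasure P] (X M T : Ω → ℝ)
    (hXm : Measurable X) (hXb : ∀ ω, |X ω| ≤ 1) (hMm : Measurable M) (hMb : ∀ ω, |M ω| ≤ 1)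
    (hM : P[X|m] =ᵐ[P] M)
    (hT : StronglyMeasurable[m] T) (K : ℝ) (hTb : ∀ ω, |T ω| ≤ K) :
    ∫⁻ ω, ENNReal.ofReal ((X ω - M ω) ^ 2) ∂P ≤ ∫⁻ ω, ENNReal.ofReal ((X ω - T ω) ^ 2) ∂P := by
  have i1 : Integrable (fun ω => (X ω - M ω) ^ 2) P := by
    refine Integrable.of_bound ((hXm.sub hMm).pow_const 2).aestronglyMeasurable ((1 + 1) ^ 2)
      (Eventually.of_forall fun p => ?_)
    rw [Real.norm_eq_abs, abs_pow]
    exact pow_le_pow_left₀ (abs_nonneg _) ((abs_sub _ _).trans (add_le_add (hXb _) (hMb _))) 2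
  have i2 : Integrable (fun ω => (X ω - T ω) ^ 2) P := by
    refine Integrable.of_bound ((hXm.stronglyMeasurable.sub (hT.mono hm)).pow 2).aestronglyMeasurable
      ((1 + K) ^ 2) (Eventually.of_forall fun ω => ?_)
    rw [Real.norm_eq_abs, abs_pow]
    exact pow_le_pow_left₀ (abs_nonneg _) ((abs_sub _ _).trans (add_le_add (hXb ω) (hTb ω))) 2
  rw [← ofReal_integral_eq_lintegral_ofReal i1 (Eventually.of_forall fun p => sq_nonneg _),
    ← ofReal_integral_eq_lintegral_ofReal i2 (Eventually.of_forall fun p => sq_nonneg _)]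
  exact ENNReal.ofReal_le_ofReal (l2min hm P X M T hXm hXb hM hT K hTb)

/-- measurability of the statistic. -/
lemma TT_meas {V : Type*} (Z : Ω → V × ℕ → I) (v : V) (k : ℕ)
    (h : ∀ j < k, Measurable[m] fun p => Z p (v, j)) :
    StronglyMeasurable[m] fun p => TT v k (Z p) := by
  refine (Measurable.stronglyMeasurable ?_)
  unfold TT
  refine Measurable.const_mul (Finset.measurable_fun_sum _ fun j hj => ?_) _
  exact measurable_const.sub ((measurable_subtype_coe.comp
    (h j (Finset.mem_range.1 hj))).const_mul 2)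

lemma abs_TT_le {V : Type*} (v : V) {k : ℕ} (hk : 0 < k) (z : V × ℕ → I) : |TT v k z| ≤ 48 := by
  have hk' : (0 : ℝ) < k := by exact_mod_cast hk
  unfold TT
  rw [abs_mul, abs_of_nonneg (by positivity : (0 : ℝ) ≤ 48 / k)]
  have h5 : |∑ j ∈ Finset.range k, (1 - 2 * (z (v, j) : ℝ))| ≤ k := by
    calc |∑ j ∈ Finset.range k, (1 - 2 * (z (v, j) : ℝ))|
        ≤ ∑ j ∈ Finset.range k, |1 - 2 * (z (v, j) : ℝ)| := Finset.abs_sum_le_sum_abs _ _
      _ ≤ ∑ j ∈ Finset.range k, (1 : ℝ) := by
        refine Finset.sum_le_sum fun j _ => ?_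
        have a0 := (z (v, j)).2.1
        have a1 := (z (v, j)).2.2
        rw [abs_le]; constructor <;> linarith
      _ = k := by simp
  calc 48 / (k : ℝ) * _ ≤ 48 / k * k := mul_le_mul_of_nonneg_left h5 (by positivity)
    _ = 48 := by field_simp

end l2

end Crest.Agent.TI.End
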