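import Crest.Agent.TITree
import Crest.Agent.TIEnergyDefs
import Crest.Agent.TIClock
import Crest.Agent.TIMu
import Crest.Agent.TIConc
import Crest.Agent.TINuC

/-!
Row 160 (S0241), piece (P4), deterministic part: truncated fields, finite volume updates.
-/

set_option autoImplicit false

namespace Crest.Agent.TI.Energy

open MeasureTheory unitInterval Set Filter Topology
open Crest.Agent.TI.TreeB

variable {d : ℕ} {θ : ℝ}

/-! ### fields of finite support -/

lemma phi_zero (θ : ℝ) : phi θ 0 = 0 := by simp [phi]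

lemma msg_zero (θ : ℝ) (n : ℕ) : ∀ w : W d, msg θ (fun _ => 0) n w = 0 := by
  induction n with
  | zero => intro w; rfl
  | succ n ih =>
    intro w
    change (0 : ℝ) + ∑ i : Fin d, (if w.head? = some i then 0 else
      phi θ (msg θ (fun _ => 0) n (W.nb i w))) = 0
    rw [zero_add]
    refine Finset.sum_eq_zero fun i _ => ?_
    split_ifs
    · rfl
    · rw [ih, phi_zero]

lemma msg_succ (θ : ℝ) (y : W d → ℝ) (n : ℕ) (w : W d) :
    msg θ y (n + 1) w = y w + ∑ i : Fin d, if w.head? = some i then 0 else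
      phi θ (msg θ y n (W.nb i w)) := rfl

lemma suffix_len {w w' : W d} (h : w.1 <:+ w'.1) : w.len ≤ w'.len := h.length_le

lemma msg_supp_zero {z : W d → ℝ} {N : ℕ} (hz : ∀ w, N < w.len → z w = 0) (n : ℕ) {w : W d}
    (hw : N < w.len) : msg θ z n w = 0 := by
  rw [msg_congr θ (y' := fun _ => 0) n w (fun w' h => hz w' (lt_of_lt_of_le hw (suffix_len h)))]
  exact msg_zero θ n w

lemma msg_stab {z : W d → ℝ} {N : ℕ} (hz : ∀ w, N < w.len → z w = 0) :
    ∀ (n : ℕ) (w : W d), N ≤ w.len + n → ∀ m, n ≤ m → msg θ z m w = msg θ z n w := by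
  intro n
  induction n with
  | zero =>
    intro w hw m _
    cases m with
    | zero => rfl
    | succ m =>
      rw [msg_succ]
      change _ = z w
      rw [add_eq_left]
      refine Finset.sum_eq_zero fun i _ => ?_
      split_ifs with h
      · rfl
      · rw [msg_supp_zero hz m (by rw [W.len_nb_of_ne h]; omega), phi_zero]
  | succ n ih =>
    intro w hw m hm
    obtain ⟨m, rfl⟩ : ∃ m', m = m' + 1 := ⟨m - 1, by omega⟩
    rw [msg_succ, msg_succ]
    congr 1
    refine Finset.sum_congr rfl fun i _ => ?_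
    split_ifs with h
    · rfl
    · rw [ih (W.nb i w) (by rw [W.len_nb_of_ne h]; omega) m (by omega)]

lemma msgI_supp {z : W d → ℝ} {N : ℕ} (hz : ∀ w, N < w.len → z w = 0) {n : ℕ} {w : W d}
    (hw : N ≤ w.len + n) : msgI θ z w = msg θ z n w := by
  have h : Tendsto (fun m => msg θ z m w) atTop (𝓝 (msg θ z n w)) := by
    refine tendsto_const_nhds.congr' ?_
    filter_upwards [eventually_ge_atTop n] with m hm
    exact (msg_stab hz n w hw m hm).symm
  exact h.limsup_eq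

lemma len_le_tr (v w : W d) : w.len ≤ v.len + (W.tr v w).len := by
  have h := len_tr_le (W.inv v) (W.tr v w)
  rwa [W.tr_inv_tr, W.len_inv] at h

lemma good_supp {z : W d → ℝ} {N : ℕ} (hz : ∀ w, N < w.len → z w = 0) : Good θ z := by
  intro v w
  have hz' : ∀ w, N + v.len < w.len → (z ∘ W.tr v) w = 0 := by
    intro w hw
    refine hz _ ?_
    have := len_le_tr v w
    omega
  refine ⟨msg θ (z ∘ W.tr v) (N + v.len) w, ?_⟩
  refine tendsto_const_nhds.congr' ?_
  filter_upwards [eventually_ge_atTop (N + v.len)] with m hm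
  exact (msg_stab hz' (N + v.len) w (by omega) m hm).symm

/-! ### truncation -/

/-- the truncated field -/
def trunc (N : ℕ) (y : W d → ℝ) (w : W d) : ℝ := if w.len ≤ N then y w else 0

lemma trunc_supp (N : ℕ) (y : W d → ℝ) : ∀ w, N < w.len → trunc N y w = 0 := by
  intro w hw
  unfold trunc
  rw [if_neg (by omega)]

lemma msg_trunc (θ : ℝ) (N : ℕ) (y : W d → ℝ) : ∀ (n : ℕ) (w : W d), w.len + n ≤ N →
    msg θ (trunc N y) n w = msg θ y n w := by
  intro n
  induction n with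
  | zero =>
    intro w hw
    change trunc N y w = y w
    unfold trunc
    rw [if_pos (by omega)]
  | succ n ih =>
    intro w hw
    rw [msg_succ, msg_succ]
    congr 1
    · unfold trunc
      rw [if_pos (by omega)]
    · refine Finset.sum_congr rfl fun i _ => ?_
      split_ifs with h
      · rfl
      · rw [ih (W.nb i w) (by rw [W.len_nb_of_ne h]; omega)]

lemma msgI_trunc (θ : ℝ) (N : ℕ) (y : W d → ℝ) {w : W d} (hw : w.len ≤ N) :
    msgI θ (trunc N y) w = msg θ y (N - w.len) w := by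
  rw [msgI_supp (trunc_supp N y) (n := N - w.len) (by omega), msg_trunc θ N y _ _ (by omega)]

/-- finite volume magnetisation -/
noncomputable def mN (θ : ℝ) (N : ℕ) (y : W d → ℝ) : ℝ := Real.tanh (msg θ y N W.root)

lemma mN_eq (θ : ℝ) (N : ℕ) (y : W d → ℝ) : mN θ N y = mR θ (trunc N y) := by
  unfold mN mR
  rw [msgI_trunc θ N y (by rw [W.len_root]; omega), W.len_root, Nat.sub_zero]

lemma abs_mN_le (θ : ℝ) (N : ℕ) (y : W d → ℝ) : |mN θ N y| ≤ 1 := (Real.abs_tanh_lt_one _).le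

lemma mN_congr (θ : ℝ) (N : ℕ) {y y' : W d → ℝ} (h : ∀ w : W d, w.len ≤ N → y w = y' w) :
    mN θ N y = mN θ N y' := by
  rw [mN_eq, mN_eq]
  congr 1
  funext w
  unfold trunc
  split_ifs with h1
  · exact h w h1
  · rfl

lemma tendsto_mN {y : W d → ℝ} (hy : Good θ y) :
    Tendsto (fun N => mN θ N y) atTop (𝓝 (mR θ y)) :=
  (Scal.continuous_tanh.tendsto _).comp (tendsto_msgI hy W.root)

/-! ### updates -/

/-- adding `δ` to the field at `u` -/
def upd (y : W d → ℝ) (u : W d) (δ : ℝ) (w : W d) : ℝ := if w = u then y w + δ else y w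

lemma upd_self (y : W d → ℝ) (u : W d) (δ : ℝ) : upd y u δ u = y u + δ := by simp [upd]

lemma upd_ne (y : W d → ℝ) (u : W d) (δ : ℝ) {w : W d} (h : w ≠ u) : upd y u δ w = y w := by
  simp [upd, h]

lemma trunc_upd (N : ℕ) (y : W d → ℝ) {u : W d} (hu : u.len ≤ N) (δ : ℝ) :
    trunc N (upd y u δ) = upd (trunc N y) u δ := by
  funext w
  by_cases h : w = u
  · subst h
    rw [upd_self]
    unfold trunc
    rw [if_pos hu, if_pos hu, upd_self]
  · rw [upd_ne _ _ _ h]
    unfold trunc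
    rw [upd_ne _ _ _ h]

lemma mN_upd_out (θ : ℝ) (N : ℕ) (y : W d → ℝ) {u : W d} (hu : N < u.len) (δ : ℝ) :
    mN θ N (upd y u δ) = mN θ N y := by
  refine mN_congr θ N fun w hw => upd_ne _ _ _ ?_
  rintro rfl
  omega

/-- the product of the derivatives along the path, finite volume -/
noncomputable def cN (θ : ℝ) (N : ℕ) (y : W d → ℝ) (u : W d) : ℝ :=
  ∏ j ∈ Finset.range u.len, phid θ (msg θ y (N - (u.len - j)) (W.par^[j] u))

lemma cpr_trunc (θ : ℝ) (N : ℕ) (y : W d → ℝ) {u : W d} (hu : u.len ≤ N) :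
    cpr θ (trunc N y) u = cN θ N y u := by
  unfold cpr cN
  refine Finset.prod_congr rfl fun j hj => ?_
  have := Finset.mem_range.1 hj
  rw [msgI_trunc θ N y (by rw [len_par_iter]; omega), len_par_iter]

lemma mN_upd (h0 : 0 ≤ θ) (h1 : θ < 1) (N : ℕ) (y : W d → ℝ) {u : W d} (hu : u.len ≤ N) (δ : ℝ) :
    mN θ N (upd y u δ) - mN θ N y = (1 - mN θ N y ^ 2) * cN θ N y u * Real.tanh δ /
      (1 + mR θ (trunc N y ∘ W.tr u) * Real.tanh δ) := by
  rw [mN_eq θ N y, mN_eq θ N (upd y u δ), trunc_upd N y hu,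
    TreeB.update h0 h1 (good_supp (trunc_supp N y)) (good_supp (N := N) ?_) u δ (upd_self _ _ _)
      (fun w hw => upd_ne _ _ _ hw)]
  · unfold covR
    rw [cpr_trunc θ N y hu]
  · intro w hw
    rw [upd_ne _ _ _ (by rintro rfl; omega)]
    exact trunc_supp N y w hw

lemma jump_bound {m t : ℝ} (hm : |m| ≤ 1) (ht : |t| ≤ 1 / 4) : |t / (1 + m * t)| ≤ 1 / 3 ∧
    |t / (1 + m * t)| ≤ 4 / 3 * |t| := by
  have h1 : |m * t| ≤ 1 / 4 := by
    rw [abs_mul]
    calc |m| * |t| ≤ 1 * (1 / 4) := mul_le_mul hm ht (abs_nonneg _) zero_le_one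
      _ = 1 / 4 := by ring
  have h2 := (abs_le.1 h1).1
  have h3 : (3 / 4 : ℝ) ≤ 1 + m * t := by linarith
  have h4 : 0 < 1 + m * t := by linarith
  have h5 : |t / (1 + m * t)| ≤ 4 / 3 * |t| := by
    rw [abs_div, abs_of_pos h4, div_le_iff₀ h4]
    nlinarith [abs_nonneg t]
  exact ⟨by linarith, h5⟩

lemma phid_nonneg (h0 : 0 ≤ θ) (h1 : θ < 1) (h : ℝ) : 0 ≤ phid θ h := by
  rw [phid_eq h0 h1]
  exact mul_nonneg h0 (Real.exp_pos _).le

lemma cN_nonneg (h0 : 0 ≤ θ) (h1 : θ < 1) (N : ℕ) (y : W d → ℝ) (u : W d) : 0 ≤ cN θ N y u :=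
  Finset.prod_nonneg fun _ _ => phid_nonneg h0 h1 _

lemma one_sub_sq_mem {m : ℝ} (hm : |m| ≤ 1) : 0 ≤ 1 - m ^ 2 ∧ 1 - m ^ 2 ≤ 1 := by
  have h2 : m ^ 2 ≤ 1 := by rw [← sq_abs]; exact pow_le_one₀ (abs_nonneg _) hm
  exact ⟨by linarith, by linarith [sq_nonneg m]⟩

lemma abs_mN_upd_le (h0 : 0 ≤ θ) (h1 : θ < 1) (N : ℕ) (y : W d → ℝ) {u : W d} (hu : u.len ≤ N)
    {δ : ℝ} (hδ : |Real.tanh δ| ≤ 1 / 4) : |mN θ N (upd y u δ) - mN θ N y| ≤ cN θ N y u := by
  rw [mN_upd h0 h1 N y hu δ, mul_div_assoc]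
  have h2 := (jump_bound (m := mR θ (trunc N y ∘ W.tr u)) (Real.abs_tanh_lt_one _).le hδ).1
  have h3 := one_sub_sq_mem (abs_mN_le θ N y)
  have h4 := cN_nonneg h0 h1 N y u
  rw [abs_mul, abs_mul, abs_of_nonneg h3.1, abs_of_nonneg h4]
  calc (1 - mN θ N y ^ 2) * cN θ N y u * |Real.tanh δ / (1 + mR θ (trunc N y ∘ W.tr u) * Real.tanh δ)|
      ≤ 1 * cN θ N y u * 1 := by
        refine mul_le_mul (mul_le_mul_of_nonneg_right h3.2 h4) (by linarith) (abs_nonneg _) (by linarith)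
    _ = cN θ N y u := by ring

/-! ### the updated field is good -/

lemma conv_upd {y y' : W d → ℝ} {u : W d} (h0 : 0 ≤ θ) (h1 : θ < 1) (hy : Good θ y)
    (hne : ∀ w, w ≠ u → y' w = y w) :
    ∀ (k : ℕ) (w : W d), u.len < w.len + k → ∃ l, Tendsto (fun n => msg θ y' n w) atTop (𝓝 l) := by
  intro k
  induction k with
  | zero =>
    intro w hw
    refine ⟨msgI θ y w, ?_⟩
    refine (tendsto_msgI hy w).congr fun n => ?_
    refine (msg_congr θ n w fun w' h => hne w' ?_).symm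
    rintro rfl
    have := suffix_len h
    omega
  | succ k ih =>
    intro w hw
    have h2 : ∀ i : Fin d, ∃ l, Tendsto (fun n => if w.head? = some i then (0 : ℝ) else
        phi θ (msg θ y' n (W.nb i w))) atTop (𝓝 l) := by
      intro i
      by_cases h : w.head? = some i
      · refine ⟨0, ?_⟩
        simp only [h, if_true]
        exact tendsto_const_nhds
      · obtain ⟨l, hl⟩ := ih (W.nb i w) (by rw [W.len_nb_of_ne h]; omega)
        refine ⟨phi θ l, ?_⟩
        simp only [h, if_false]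
        exact ((Scal.continuous_phi h0 h1).tendsto _).comp hl
    choose l hl using h2
    refine ⟨y' w + ∑ i, l i, ?_⟩
    rw [← tendsto_add_atTop_iff_nat 1]
    simp only [msg_succ]
    exact tendsto_const_nhds.add (tendsto_finsetSum _ fun i _ => hl i)

lemma good_of_ne {y y' : W d → ℝ} {u : W d} (h0 : 0 ≤ θ) (h1 : θ < 1) (hy : Good θ y)
    (hne : ∀ w, w ≠ u → y' w = y w) : Good θ y' := by
  intro v w
  refine conv_upd (u := W.tr (W.inv v) u) h0 h1 (good_tr hy v) ?_ ((W.tr (W.inv v) u).len + 1) w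
    (by omega)
  intro w' hw'
  refine hne _ fun h => hw' ?_
  rw [← h, W.tr_inv_tr]

lemma good_upd {y : W d → ℝ} (h0 : 0 ≤ θ) (h1 : θ < 1) (hy : Good θ y) (u : W d) (δ : ℝ) :
    Good θ (upd y u δ) := good_of_ne h0 h1 hy fun _ hw => upd_ne _ _ _ hw

lemma mR_upd {y : W d → ℝ} (h0 : 0 ≤ θ) (h1 : θ < 1) (hy : Good θ y) (u : W d) (δ : ℝ) :
    mR θ (upd y u δ) - mR θ y =
      covR θ y u * (Real.tanh δ / (1 + mR θ (y ∘ W.tr u) * Real.tanh δ)) := by
  rw [TreeB.update h0 h1 hy (good_upd h0 h1 hy u δ) u δ (upd_self _ _ _)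
    (fun w hw => upd_ne _ _ _ hw), mul_div_assoc]

end Crest.Agent.TI.Energy
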