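import Crest.Agent.TIEnergyA
import Crest.Agent.TILawC

/-!
Row 160 (S0241), piece (P4), finite volume energy identity.
-/

set_option autoImplicit false

namespace Crest.Agent.TI.Energy

open MeasureTheory unitInterval Set Filter Topology

section general

variable {V : Type*}

/-- posterior mean given the observations in `J` of sites in `F` -/
noncomputable def PM (ν : Measure (V → Bool)) (c : Cl V) (F : Finset V) (v : V) (K : ℕ)
    (J : Set (V × ℕ)) (p : Om V) : ℝ := tiltR ν F v (fJ c J K (Zc c p))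

variable (ν : Measure (V → Bool)) [IsProbabilityMeasure ν]

lemma measurable_PM (c : Cl V) (F : Finset V) (v : V) (K : ℕ) (J : Set (V × ℕ)) :
    Measurable (PM ν c F v K J) :=
  (measurable_tiltR ν F v).comp ((measurable_fJ c J K).comp (measurable_Zc1 c))

lemma abs_PM_le (c : Cl V) (F : Finset V) (v : V) (K : ℕ) (J : Set (V × ℕ)) (p : Om V) :
    |PM ν c F v K J p| ≤ 1 := abs_tiltR_le ν F v _

lemma integrable_PM_mul (c : Cl V) (F : Finset V) (v : V) (K : ℕ) (J J' : Set (V × ℕ)) :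
    Integrable (fun p => PM ν c F v K J p * PM ν c F v K J' p) (PPn ν) := by
  refine Integrable.of_bound (C := 1)
    ((measurable_PM ν c F v K J).mul (measurable_PM ν c F v K J')).aestronglyMeasurable
    (Eventually.of_forall fun p => ?_)
  rw [Real.norm_eq_abs, abs_mul]
  exact mul_le_one₀ (abs_PM_le ν c F v K J p) (abs_nonneg _) (abs_PM_le ν c F v K J' p)

lemma bayes_PM (c : Cl V) (F : Finset V) (v : V) (K : ℕ) {J J' : Set (V × ℕ)} (h : J ⊆ J') :
    ∫ p, sg (p.1 v) * PM ν c F v K J p ∂(PPn ν) =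
      ∫ p, PM ν c F v K J' p * PM ν c F v K J p ∂(PPn ν) := by
  refine bayes ν c J' K F v (fun z => tiltR ν F v (fJ c J K z))
    ((measurable_tiltR ν F v).comp (measurable_fJ c J K)) (Cg := 1) (fun z => abs_tiltR_le ν F v _) ?_
  intro z z' hz
  refine tiltR_congr ν F v fun u hu => ?_
  refine fJ_congr c J K F (fun j hj => hz j ?_) hu
  have := mem_Jfin.1 hj
  exact mem_Jfin.2 ⟨this.1, h this.2⟩

lemma cross_PM (c : Cl V) (F : Finset V) (v : V) (K : ℕ) {J J' : Set (V × ℕ)} (h : J ⊆ J') :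
    ∫ p, PM ν c F v K J' p * PM ν c F v K J p ∂(PPn ν) =
      ∫ p, PM ν c F v K J p ^ 2 ∂(PPn ν) := by
  rw [← bayes_PM ν c F v K h, bayes_PM ν c F v K (subset_refl J)]
  refine integral_congr_ae (Eventually.of_forall fun p => ?_)
  simp only
  ring

lemma sq_PM (c : Cl V) (F : Finset V) (v : V) (K : ℕ) {J J' : Set (V × ℕ)} (h : J ⊆ J') :
    ∫ p, (PM ν c F v K J' p - PM ν c F v K J p) ^ 2 ∂(PPn ν) =
      ∫ p, PM ν c F v K J' p ^ 2 ∂(PPn ν) - ∫ p, PM ν c F v K J p ^ 2 ∂(PPn ν) := by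
  have i1 := integrable_PM_mul ν c F v K J' J'
  have i2 := integrable_PM_mul ν c F v K J' J
  have i3 := integrable_PM_mul ν c F v K J J
  have e : ∀ p, (PM ν c F v K J' p - PM ν c F v K J p) ^ 2 =
      PM ν c F v K J' p * PM ν c F v K J' p - 2 * (PM ν c F v K J' p * PM ν c F v K J p) +
        PM ν c F v K J p * PM ν c F v K J p := fun p => by ring
  have i4 : Integrable (fun p => PM ν c F v K J' p * PM ν c F v K J' p -
      2 * (PM ν c F v K J' p * PM ν c F v K J p)) (PPn ν) := i1.sub (i2.const_mul 2)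
  simp only [e]
  rw [integral_add i4 i3, integral_sub i1 (i2.const_mul 2),
    integral_const_mul, cross_PM ν c F v K h]
  have e1 : ∀ J₁ : Set (V × ℕ), ∫ p, PM ν c F v K J₁ p * PM ν c F v K J₁ p ∂(PPn ν) =
      ∫ p, PM ν c F v K J₁ p ^ 2 ∂(PPn ν) := fun J₁ =>
    integral_congr_ae (Eventually.of_forall fun p => by simp only; ring)
  rw [e1, e1]
  ring

/-- observations before `(k, s)` and the observations in round `k` of the sites in `A` -/
def JA (c : Cl V) (k : ℕ) (s : ℝ) (A : Finset V) : Set (V × ℕ) :=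
  {a | Bef c k s a ∨ (a.2 = k ∧ a.1 ∈ A)}

lemma JA_mono (c : Cl V) (k : ℕ) (s : ℝ) {A B : Finset V} (h : A ⊆ B) :
    JA c k s A ⊆ JA c k s B := by
  rintro a (ha | ⟨h1, h2⟩)
  · exact Or.inl ha
  · exact Or.inr ⟨h1, h h2⟩

theorem sorted_energy [DecidableEq V] (c : Cl V) (F : Finset V) (v : V) (K : ℕ) (k : ℕ) (s : ℝ)
    (A : Finset V) (hinj : ∀ u ∈ A, ∀ w ∈ A, c (u, k) = c (w, k) → u = w) :
    ∫ p, PM ν c F v K (JA c k s A) p ^ 2 ∂(PPn ν) -
      ∫ p, PM ν c F v K (JA c k s ∅) p ^ 2 ∂(PPn ν) =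
    ∑ u ∈ A, ∫ p, (PM ν c F v K (JA c k s (insert u (A.filter fun w => c (w, k) < c (u, k)))) p -
      PM ν c F v K (JA c k s (A.filter fun w => c (w, k) < c (u, k))) p) ^ 2 ∂(PPn ν) := by
  induction A using Finset.induction_on_max_value (fun u : V => c (u, k)) with
  | empty => simp
  | insert a A ha hmax ih =>
    have hlt : ∀ x ∈ A, c (x, k) < c (a, k) := by
      intro x hx
      refine lt_of_le_of_ne (hmax x hx) fun h => ha ?_
      have := hinj x (Finset.mem_insert_of_mem hx) a (Finset.mem_insert_self a A) h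
      exact this ▸ hx
    have ih' := ih (fun u hu w hw h => hinj u (Finset.mem_insert_of_mem hu) w
      (Finset.mem_insert_of_mem hw) h)
    rw [Finset.sum_insert ha]
    have e1 : (insert a A).filter (fun w => c (w, k) < c (a, k)) = A := by
      ext x
      simp only [Finset.mem_filter, Finset.mem_insert]
      constructor
      · rintro ⟨rfl | h, h2⟩
        · exact absurd h2 (lt_irrefl _)
        · exact h
      · intro h
        exact ⟨Or.inr h, hlt x h⟩
    have e2 : ∀ u ∈ A, (insert a A).filter (fun w => c (w, k) < c (u, k)) =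
        A.filter (fun w => c (w, k) < c (u, k)) := by
      intro u hu
      ext x
      simp only [Finset.mem_filter, Finset.mem_insert]
      constructor
      · rintro ⟨rfl | h, h2⟩
        · exact absurd (h2.trans (hlt u hu)) (lt_irrefl _)
        · exact ⟨h, h2⟩
      · rintro ⟨h, h2⟩
        exact ⟨Or.inr h, h2⟩
    have e3 : ∑ u ∈ A, ∫ p, (PM ν c F v K (JA c k s (insert u
          ((insert a A).filter fun w => c (w, k) < c (u, k)))) p -
        PM ν c F v K (JA c k s ((insert a A).filter fun w => c (w, k) < c (u, k))) p) ^ 2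
          ∂(PPn ν) = ∑ u ∈ A, ∫ p, (PM ν c F v K (JA c k s (insert u
            (A.filter fun w => c (w, k) < c (u, k)))) p -
        PM ν c F v K (JA c k s (A.filter fun w => c (w, k) < c (u, k))) p) ^ 2 ∂(PPn ν) :=
      Finset.sum_congr rfl fun u hu => by rw [e2 u hu]
    rw [e1, e3, ← ih', sq_PM ν c F v K (JA_mono c k s (Finset.subset_insert a A))]
    ring

lemma fJ_JA (c : Cl V) (k : ℕ) (s : ℝ) (A : Finset V) (z : V × ℕ → I) (v : V) :
    fJ c (JA c k s A) (k + 1) z v = ∑ j ∈ Finset.range k, ell (c (v, j)) (z (v, j)) +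
      (open Classical in if ((c (v, k) : ℝ) < s ∨ v ∈ A) then ell (c (v, k)) (z (v, k)) else 0) := by
  classical
  unfold fJ
  rw [Finset.sum_range_succ]
  congr 1
  · refine Finset.sum_congr rfl fun j hj => ?_
    rw [if_pos]
    exact Or.inl (Or.inl (Finset.mem_range.1 hj))
  · have : (v, k) ∈ JA c k s A ↔ ((c (v, k) : ℝ) < s ∨ v ∈ A) := by
      unfold JA Bef
      simp
    simp only [this]

end general

/-! ### words -/

section words

variable {d : ℕ} {θ : ℝ}

lemma tilt_ball (h0 : 0 ≤ θ) (h1 : θ ≤ 1) (N : ℕ) (y : W d → ℝ) :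
    tiltR (nu d θ) (W.ball d N) W.root y = mN θ N y := by
  have := isProb_nu d h1
  unfold tiltR tnum mN
  rw [bp_root h0 h1 N y]
  have h2 := tden_pos (nu d θ) (W.ball d N) y
  unfold tden at h2 ⊢
  rw [mul_div_assoc, div_self h2.ne', mul_one]

lemma PM_eq (h0 : 0 ≤ θ) (h1 : θ ≤ 1) (N : ℕ) (c : Cl (W d)) (K : ℕ) (J : Set (W d × ℕ))
    (p : Om (W d)) (y : W d → ℝ) (hy : ∀ w : W d, w.len ≤ N → fJ c J K (Zc c p) w = y w) :
    PM (nu d θ) c (W.ball d N) W.root K J p = mN θ N y := by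
  unfold PM
  rw [tilt_ball h0 h1]
  exact mN_congr θ N hy

/-- the field just after the observation `(u, k)` -/
noncomputable def yA (k : ℕ) (u : W d) (c : Cl (W d)) (p : Om (W d)) : W d → ℝ :=
  upd (yF k (c (u, k)) c p) u (ell (c (u, k)) (Zc c p (u, k)))

/-- the finite volume increment -/
noncomputable def DN (θ : ℝ) (N k : ℕ) (u : W d) (c : Cl (W d)) (p : Om (W d)) : ℝ :=
  mN θ N (yA k u c p) - mN θ N (yF k (c (u, k)) c p)

lemma abs_DN_le_two (θ : ℝ) (N k : ℕ) (u : W d) (c : Cl (W d)) (p : Om (W d)) :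
    |DN θ N k u c p| ≤ 2 := by
  unfold DN
  have h1 := abs_mN_le θ N (yA k u c p)
  have h2 := abs_mN_le θ N (yF k (c (u, k)) c p)
  have := abs_sub (mN θ N (yA k u c p)) (mN θ N (yF k (c (u, k)) c p))
  linarith

/-- finite volume energy identity, clock by clock -/
theorem energy_fin (h0 : 0 ≤ θ) (h1 : θ ≤ 1) (N k : ℕ) {s t : ℝ} (hst : s ≤ t) (c : Cl (W d))
    (hinj : ∀ a b : W d × ℕ, a.2 = b.2 → c a = c b → a = b) :
    ∫ p, mN θ N (yF k t c p) ^ 2 ∂(PPn (nu d θ)) - ∫ p, mN θ N (yF k s c p) ^ 2 ∂(PPn (nu d θ)) =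
      ∑ u ∈ W.ball d N, ∫ p, (if s ≤ (c (u, k) : ℝ) ∧ (c (u, k) : ℝ) < t then
        DN θ N k u c p ^ 2 else 0) ∂(PPn (nu d θ)) := by
  classical
  have := isProb_nu d h1
  set A : Finset (W d) := (W.ball d N).filter (fun u => s ≤ (c (u, k) : ℝ) ∧ (c (u, k) : ℝ) < t)
    with hA
  have key := sorted_energy (nu d θ) c (W.ball d N) W.root (k + 1) k s A (fun u _ w _ h => by
    have := hinj (u, k) (w, k) rfl h
    exact congrArg Prod.fst this)
  have e1 : ∀ p, PM (nu d θ) c (W.ball d N) W.root (k + 1) (JA c k s ∅) p = mN θ N (yF k s c p) := by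
    intro p
    refine PM_eq h0 h1 N c _ _ p _ fun w _ => ?_
    rw [fJ_JA]
    simp only [Finset.notMem_empty, or_false]
    rfl
  have e2 : ∀ p, PM (nu d θ) c (W.ball d N) W.root (k + 1) (JA c k s A) p = mN θ N (yF k t c p) := by
    intro p
    refine PM_eq h0 h1 N c _ _ p _ fun w hw => ?_
    rw [fJ_JA]
    have : ((c (w, k) : ℝ) < s ∨ w ∈ A) ↔ ((c (w, k) : ℝ) < t) := by
      rw [hA, Finset.mem_filter, W.mem_ball]
      constructor
      · rintro (h | ⟨_, _, h⟩)
        · exact lt_of_lt_of_le h hst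
        · exact h
      · intro h
        by_cases h2 : (c (w, k) : ℝ) < s
        · exact Or.inl h2
        · exact Or.inr ⟨hw, not_lt.1 h2, h⟩
    simp only [this]
    rfl
  have hmem : ∀ u ∈ A, ∀ w : W d, w.len ≤ N →
      (((c (w, k) : ℝ) < s ∨ w ∈ A.filter (fun w => c (w, k) < c (u, k))) ↔
        ((c (w, k) : ℝ) < c (u, k))) := by
    intro u hu w hw
    have hu' := (Finset.mem_filter.1 hu).2
    rw [Finset.mem_filter, hA, Finset.mem_filter, W.mem_ball]
    constructor
    · rintro (h | ⟨_, h⟩)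
      · exact lt_of_lt_of_le h hu'.1
      · exact h
    · intro h
      by_cases h2 : (c (w, k) : ℝ) < s
      · exact Or.inl h2
      · exact Or.inr ⟨⟨hw, not_lt.1 h2, h.trans hu'.2⟩, h⟩
  have e3 : ∀ u ∈ A, ∀ p, PM (nu d θ) c (W.ball d N) W.root (k + 1)
      (JA c k s (A.filter (fun w => c (w, k) < c (u, k)))) p =
      mN θ N (yF k (c (u, k)) c p) := by
    intro u hu p
    refine PM_eq h0 h1 N c _ _ p _ fun w hw => ?_
    rw [fJ_JA]
    simp only [hmem u hu w hw]
    rfl
  have e4 : ∀ u ∈ A, ∀ p, PM (nu d θ) c (W.ball d N) W.root (k + 1)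
      (JA c k s (insert u (A.filter (fun w => c (w, k) < c (u, k))))) p =
      mN θ N (yA k u c p) := by
    intro u hu p
    refine PM_eq h0 h1 N c _ _ p _ fun w hw => ?_
    rw [fJ_JA]
    unfold yA
    by_cases hwu : w = u
    · subst hwu
      rw [upd_self]
      have h5 : ¬ ((c (w, k) : ℝ) < c (w, k)) := lt_irrefl _
      unfold yF fieldAt
      rw [if_pos (Or.inr (Finset.mem_insert_self _ _)), if_neg h5, add_zero]
    · rw [upd_ne _ _ _ hwu]
      have : ((c (w, k) : ℝ) < s ∨ w ∈ insert u (A.filter (fun w => c (w, k) < c (u, k)))) ↔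
          ((c (w, k) : ℝ) < c (u, k)) := by
        rw [Finset.mem_insert]
        simp only [hwu, false_or]
        exact hmem u hu w hw
      simp only [this]
      rfl
  simp only [e1, e2] at key
  rw [key, hA, Finset.sum_filter]
  refine Finset.sum_congr rfl fun u hu => ?_
  split_ifs with hc
  · have huA : u ∈ A := Finset.mem_filter.2 ⟨hu, hc⟩
    refine integral_congr_ae (Eventually.of_forall fun p => ?_)
    simp only
    have h3 := e3 u huA p
    have h4 := e4 u huA p
    rw [hA] at h3 h4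
    rw [h3, h4]
    rfl
  · simp

end words

end Crest.Agent.TI.Energy
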