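import Crest.Agent.TIClock
import Crest.Agent.TIEnergyDefs
import Crest.Agent.TIFinalC

/-!
Row 160 (S0241), piece (P5a).  The evolution inequality for the replica distance.
-/

set_option autoImplicit false

namespace Crest.Agent.TI.Evol

open MeasureTheory ProbabilityTheory unitInterval Set Filter Topology
open Crest.Agent.TI.Pair Crest.Agent.TI.Clock Crest.Agent.TI.Energy
open scoped ENNReal

/-! ### Hilbert space lemmas -/

section hilbert

variable {H : Type*} [NormedAddCommGroup H] [InnerProductSpace ℝ H] {ι : Type*}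

open scoped InnerProductSpace

lemma norm_sum_sq {x : ι → H} (hxx : ∀ u v, u ≠ v → ⟪x u, x v⟫_ℝ = 0) (F : Finset ι) :
    ‖∑ u ∈ F, x u‖ ^ 2 = ∑ u ∈ F, ‖x u‖ ^ 2 := by
  classical
  rw [← real_inner_self_eq_norm_sq, sum_inner]
  refine Finset.sum_congr rfl fun u hu => ?_
  rw [inner_sum, Finset.sum_eq_single u]
  · rw [real_inner_self_eq_norm_sq]
  · intro v _ hvu
    exact hxx u v (Ne.symm hvu)
  · intro h; exact absurd hu h

/-- orthogonal increments and an energy identity give an expansion -/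
lemma hasSum_of_energy {mt ms : H} {x : ι → H} (h1 : ⟪mt, ms⟫_ℝ = ‖ms‖ ^ 2)
    (hxx : ∀ u v, u ≠ v → ⟪x u, x v⟫_ℝ = 0) (hmx : ∀ u, ⟪ms, x u⟫_ℝ = 0)
    (hmtx : ∀ u, ⟪mt, x u⟫_ℝ = ‖x u‖ ^ 2)
    (hE : HasSum (fun u => ‖x u‖ ^ 2) (‖mt‖ ^ 2 - ‖ms‖ ^ 2)) : HasSum x (mt - ms) := by
  have key : ∀ F : Finset ι, ‖∑ u ∈ F, x u - (mt - ms)‖ ^ 2 =
      (‖mt‖ ^ 2 - ‖ms‖ ^ 2) - ∑ u ∈ F, ‖x u‖ ^ 2 := by
    intro F
    rw [norm_sub_sq_real, norm_sum_sq hxx F, norm_sub_sq_real mt ms, h1, sum_inner]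
    have e1 : ∀ u ∈ F, ⟪x u, mt - ms⟫_ℝ = ‖x u‖ ^ 2 := by
      intro u _
      rw [inner_sub_right, real_inner_comm, hmtx, real_inner_comm, hmx, sub_zero]
    rw [Finset.sum_congr rfl e1]
    ring
  unfold HasSum
  rw [tendsto_iff_norm_sub_tendsto_zero]
  have h2 : Tendsto (fun F : Finset ι => ‖∑ u ∈ F, x u - (mt - ms)‖ ^ 2)
      (SummationFilter.unconditional ι).filter (𝓝 0) := by
    simp_rw [key]
    have := (tendsto_const_nhds (x := ‖mt‖ ^ 2 - ‖ms‖ ^ 2)).sub hE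
    simpa using this
  have h3 := (Real.continuous_sqrt.tendsto 0).comp h2
  simp only [Function.comp_def, Real.sqrt_zero] at h3
  refine h3.congr fun F => ?_
  exact Real.sqrt_sq (norm_nonneg _)

/-- Pythagoras for an orthogonal expansion -/
lemma hasSum_norm_sq {dt ds : H} {x : ι → H} (hxx : ∀ u v, u ≠ v → ⟪x u, x v⟫_ℝ = 0)
    (hmx : ∀ u, ⟪ds, x u⟫_ℝ = 0) (hE : HasSum x (dt - ds)) :
    HasSum (fun u => ‖x u‖ ^ 2) (‖dt‖ ^ 2 - ‖ds‖ ^ 2) := by
  have h1 : Tendsto (fun F : Finset ι => ‖∑ u ∈ F, x u‖ ^ 2)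
      (SummationFilter.unconditional ι).filter (𝓝 (‖dt - ds‖ ^ 2)) := (hE.norm).pow 2
  have h2 : HasSum (fun u => ‖x u‖ ^ 2) (‖dt - ds‖ ^ 2) := by
    unfold HasSum
    refine h1.congr fun F => ?_
    exact norm_sum_sq hxx F
  have h3 : ⟪ds, dt - ds⟫_ℝ = 0 := by
    have h4 : Tendsto (fun F : Finset ι => ⟪ds, ∑ u ∈ F, x u⟫_ℝ)
        (SummationFilter.unconditional ι).filter (𝓝 ⟪ds, dt - ds⟫_ℝ) :=
      (Continuous.tendsto (by fun_prop : Continuous fun z : H => ⟪ds, z⟫_ℝ) _).comp hE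
    have h5 : (fun F : Finset ι => ⟪ds, ∑ u ∈ F, x u⟫_ℝ) = fun _ => 0 := by
      funext F
      rw [inner_sum]
      exact Finset.sum_eq_zero fun u _ => hmx u
    rw [h5] at h4
    exact (tendsto_nhds_unique h4 tendsto_const_nhds)
  have h6 : ‖dt‖ ^ 2 - ‖ds‖ ^ 2 = ‖dt - ds‖ ^ 2 := by
    have h7 : dt = ds + (dt - ds) := by abel
    conv_lhs => rw [h7]
    rw [norm_add_sq_real, h3]
    ring
  rw [h6]
  exact h2

end hilbert

/-! ### `L²` of a probability measure -/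

section l2

variable {T : Type*} [MeasurableSpace T] {μ : Measure T}

open scoped InnerProductSpace

lemma inner_toLp {f g : T → ℝ} (hf : MemLp f 2 μ) (hg : MemLp g 2 μ) :
    ⟪hf.toLp f, hg.toLp g⟫_ℝ = ∫ x, f x * g x ∂μ := by
  rw [L2.inner_def]
  refine integral_congr_ae ?_
  filter_upwards [hf.coeFn_toLp, hg.coeFn_toLp] with x h1 h2
  rw [h1, h2]
  simp [mul_comm]

lemma norm_toLp_sq {f : T → ℝ} (hf : MemLp f 2 μ) : ‖hf.toLp f‖ ^ 2 = ∫ x, f x ^ 2 ∂μ := by
  rw [← real_inner_self_eq_norm_sq, inner_toLp]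
  simp_rw [sq]

lemma memLp_bdd [IsFiniteMeasure μ] {f : T → ℝ} (hf : Measurable f) {C : ℝ} (hC : ∀ x, |f x| ≤ C) :
    MemLp f 2 μ :=
  MemLp.of_bound hf.aestronglyMeasurable C (Eventually.of_forall fun x => hC x)

end l2

/-! ### pointwise bounds -/

section bounds

variable {d : ℕ} {θ : ℝ}

lemma abs_mR_le (θ : ℝ) (y : W d → ℝ) : |mR θ y| ≤ 1 := (Real.abs_tanh_lt_one _).le

lemma abs_covR_le (h0 : 0 ≤ θ) (h1 : θ < 1) (y : W d → ℝ) (u : W d) : |covR θ y u| ≤ 1 := by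
  have e1 : 0 ≤ cpr θ y u := Finset.prod_nonneg fun _ _ => Scal.phid_nonneg h0 h1 _
  have e2 : cpr θ y u ≤ 1 := by
    unfold cpr
    refine Finset.prod_le_one (fun _ _ => Scal.phid_nonneg h0 h1 _) fun _ _ => ?_
    exact (Scal.phid_le h0 h1 _).trans h1.le
  have e3 : mR θ y ^ 2 ≤ 1 := by
    rw [← sq_abs]
    exact pow_le_one₀ (abs_nonneg _) (abs_mR_le θ y)
  unfold covR
  rw [abs_of_nonneg (mul_nonneg (by linarith) e1)]
  have e4 : 1 - mR θ y ^ 2 ≤ 1 := by linarith [sq_nonneg (mR θ y)]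
  calc (1 - mR θ y ^ 2) * cpr θ y u ≤ 1 * 1 := mul_le_mul e4 e2 e1 (by norm_num)
    _ = 1 := by ring

lemma abs_xi_le (h0 : 0 ≤ θ) (h1 : θ < 1) (k : ℕ) (s t : ℝ) (u : W d) (c : Cl (W d))
    (p : Om (W d)) : |xi θ k s t u c p| ≤ 1 := by
  unfold xi
  split_ifs
  · rw [abs_mul]
    have e1 := abs_covR_le h0 h1 (yF k (c (u, k)) c p) u
    have e2 := abs_Jb_le_third θ c p (u, k)
    calc _ ≤ (1 : ℝ) * 1 := mul_le_mul e1 (by linarith) (abs_nonneg _) (by norm_num)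
      _ = 1 := by ring
  · simp

/-- the jumps of two replicas with a common innovation -/
lemma abs_Jb_sub_le (θ : ℝ) (c : Cl (W d)) (p p' : Om (W d)) (b : W d × ℕ)
    (h : innov θ c p b = innov θ c p' b) :
    |Jb θ c p b - Jb θ c p' b| ≤ c b * |drift θ c (Zc c p) b - drift θ c (Zc c p') b| := by
  set a := amp (c b) with ha
  set D := drift θ c (Zc c p) b with hD
  set D' := drift θ c (Zc c p') b with hD'
  have ha0 : 0 ≤ a := amp_nonneg _
  have ha4 : a ≤ 1 / 4 := amp_le _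
  have hZ : Zc c p b = QK (a * D) (innov θ c p b) := by
    unfold innov
    rw [QK_HK]
  have hZ' : Zc c p' b = QK (a * D') (innov θ c p b) := by
    rw [h]
    unfold innov
    rw [QK_HK]
  have hq : |(Zc c p b : ℝ) - Zc c p' b| ≤ a * |D - D'| / 3 := by
    rw [hZ, hZ']
    refine (abs_QK_sub_le _ _ _).trans ?_
    have h3 := abs_clamp_sub_le (a * D) (a * D')
    rw [← mul_sub, abs_mul, abs_of_nonneg ha0] at h3
    linarith
  have hd1 := jump_den θ c p b
  have hd2 := jump_den θ c p' b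
  have hg1 := abs_one_sub (Zc c p b)
  have hg2 := abs_one_sub (Zc c p' b)
  have h2a := two_amp_le (c b)
  rw [← ha] at hd1 hd2 h2a
  rw [← hD] at hd1
  rw [← hD'] at hd2
  unfold Jb
  rw [← ha, ← hD, ← hD']
  set g := 1 - 2 * (Zc c p b : ℝ) with hg
  set g' := 1 - 2 * (Zc c p' b : ℝ) with hg'
  have hgg : |g - g'| ≤ 2 / 3 * (a * |D - D'|) := by
    have : g - g' = -2 * ((Zc c p b : ℝ) - Zc c p' b) := by rw [hg, hg']; ring
    rw [this, abs_mul]
    norm_num
    linarith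
  have hdd : a * g / (1 + a * g * D) - a * g' / (1 + a * g' * D') =
      a * ((g - g') - a * (g * g') * (D - D')) / ((1 + a * g * D) * (1 + a * g' * D')) := by
    rw [div_sub_div _ _ (by linarith) (by linarith)]
    congr 1
    ring
  rw [hdd, abs_div, abs_mul, abs_of_nonneg ha0]
  have hden : 9 / 16 ≤ |(1 + a * g * D) * (1 + a * g' * D')| := by
    rw [abs_of_nonneg (by nlinarith)]
    nlinarith
  rw [div_le_iff₀ (by linarith)]
  have hnum : |(g - g') - a * (g * g') * (D - D')| ≤ 5 / 3 * (a * |D - D'|) := by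
    have h5 : |a * (g * g') * (D - D')| ≤ a * |D - D'| := by
      rw [abs_mul, abs_mul, abs_of_nonneg ha0, abs_mul]
      have h6 : |g| * |g'| ≤ 1 := by
        calc |g| * |g'| ≤ 1 * 1 := mul_le_mul hg1 hg2 (abs_nonneg _) (by norm_num)
          _ = 1 := by ring
      calc a * (|g| * |g'|) * |D - D'| ≤ a * 1 * |D - D'| := by gcongr
        _ = _ := by ring
    calc _ ≤ |g - g'| + |a * (g * g') * (D - D')| := abs_sub _ _
      _ ≤ _ := by linarith
  have hc0 : (0 : ℝ) ≤ c b := (c b).2.1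
  have hDD := abs_nonneg (D - D')
  calc a * |(g - g') - a * (g * g') * (D - D')| ≤ a * (5 / 3 * (a * |D - D'|)) := by gcongr
    _ ≤ a * (5 / 3 * (1 / 4 * |D - D'|)) := by gcongr
    _ ≤ (c b : ℝ) * |D - D'| * (9 / 16) := by
        have : a * |D - D'| ≤ (c b : ℝ) / 2 * |D - D'| := by
          refine mul_le_mul_of_nonneg_right ?_ hDD
          linarith
        nlinarith
    _ ≤ _ := by
        have : 0 ≤ (c b : ℝ) * |D - D'| := mul_nonneg hc0 hDD
        exact mul_le_mul_of_nonneg_left hden this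

end bounds

/-! ### the two replicas -/

section pair

variable {d : ℕ} {θ : ℝ}

/-- the integrand of `SS` -/
noncomputable def phiS (θ : ℝ) (u : W d) (q : (W d → ℝ) × (W d → ℝ)) : ℝ≥0∞ :=
  ENNReal.ofReal ((covR θ q.1 u - covR θ q.2 u) ^ 2 +
    covR θ q.2 u ^ 2 * (mR θ (q.1 ∘ W.tr u) - mR θ (q.2 ∘ W.tr u)) ^ 2)

lemma measurable_phiS (θ : ℝ) (u : W d) : Measurable (phiS θ u) := by
  unfold phiS
  have f1 : Measurable (fun q : (W d → ℝ) × (W d → ℝ) => q.1) := measurable_fst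
  have f2 : Measurable (fun q : (W d → ℝ) × (W d → ℝ) => q.2) := measurable_snd
  have c1 := (measurable_covR (d := d) θ u).comp f1
  have c2 := (measurable_covR (d := d) θ u).comp f2
  have m1 := ((measurable_mR (d := d) θ).comp (measurable_comp_tr (X := ℝ) u)).comp f1
  have m2 := ((measurable_mR (d := d) θ).comp (measurable_comp_tr (X := ℝ) u)).comp f2
  have h := ((c1.sub c2).pow_const 2).add ((c2.pow_const 2).mul ((m1.sub m2).pow_const 2))
  exact h.ennreal_ofReal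

/-- pointwise bound on the difference of the increments -/
lemma xi_sub_sq_le (h0 : 0 ≤ θ) (h1 : θ < 1) (k : ℕ) (s t : ℝ) (u : W d) (c : Cl (W d))
    (p p' : Om (W d)) (h : innov θ c p (u, k) = innov θ c p' (u, k)) :
    ENNReal.ofReal ((xi θ k s t u c p - xi θ k s t u c p') ^ 2) ≤
      2 * (if s ≤ (c (u, k) : ℝ) ∧ (c (u, k) : ℝ) < t then
        ENNReal.ofReal ((c (u, k) : ℝ) ^ 2) *
          phiS θ u (yF k (c (u, k)) c p, yF k (c (u, k)) c p') else 0) := by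
  unfold xi
  split_ifs with hc
  · unfold phiS
    rw [← ENNReal.ofReal_mul (sq_nonneg _), show (2 : ℝ≥0∞) = ENNReal.ofReal 2 by norm_num,
      ← ENNReal.ofReal_mul (by norm_num)]
    refine ENNReal.ofReal_le_ofReal ?_
    set y := yF k (c (u, k)) c p
    set y' := yF k (c (u, k)) c p'
    have hj := abs_Jb_sub_le θ c p p' (u, k) h
    have hJ := abs_Jb_le_clock θ c p (u, k)
    have hD : drift θ c (Zc c p) (u, k) = mR θ (y ∘ W.tr u) := rfl
    have hD' : drift θ c (Zc c p') (u, k) = mR θ (y' ∘ W.tr u) := rfl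
    rw [hD, hD'] at hj
    set J := Jb θ c p (u, k)
    set J' := Jb θ c p' (u, k)
    set C := covR θ y u
    set C' := covR θ y' u
    set M := mR θ (y ∘ W.tr u)
    set M' := mR θ (y' ∘ W.tr u)
    have hc0 : (0 : ℝ) ≤ c (u, k) := (c (u, k)).2.1
    have e1 : J ^ 2 ≤ (c (u, k) : ℝ) ^ 2 := by
      rw [← sq_abs J]; exact pow_le_pow_left₀ (abs_nonneg _) hJ 2
    have e2 : (J - J') ^ 2 ≤ (c (u, k) : ℝ) ^ 2 * (M - M') ^ 2 := by
      rw [← sq_abs (J - J'), ← sq_abs (M - M'), ← mul_pow]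
      exact pow_le_pow_left₀ (abs_nonneg _) hj 2
    have e3 : (C * J - C' * J') ^ 2 ≤ 2 * ((C - C') ^ 2 * J ^ 2) + 2 * (C' ^ 2 * (J - J') ^ 2) := by
      have : C * J - C' * J' = (C - C') * J + C' * (J - J') := by ring
      rw [this]
      nlinarith [sq_nonneg ((C - C') * J - C' * (J - J'))]
    have e4 : (C - C') ^ 2 * J ^ 2 ≤ (C - C') ^ 2 * (c (u, k) : ℝ) ^ 2 :=
      mul_le_mul_of_nonneg_left e1 (sq_nonneg _)
    have e5 : C' ^ 2 * (J - J') ^ 2 ≤ C' ^ 2 * ((c (u, k) : ℝ) ^ 2 * (M - M') ^ 2) :=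
      mul_le_mul_of_nonneg_left e2 (sq_nonneg _)
    nlinarith
  · simp

variable [IsProbabilityMeasure (nu d θ)]

/-- both replicas have the same innovations -/
lemma innov_common (θ : ℝ) [IsProbabilityMeasure (nu d θ)] :
    ∀ᵐ a ∂(pairM θ (nu d θ)), innov θ a.1.1 a.2.1 = innov θ a.1.1 a.2.2 := by
  have m0 : Measurable (fun q : (Cl (W d) × (W d × ℕ → I)) × Om (W d) => innov θ q.1.1 q.2) := by
    have f1 : Measurable (fun q : (Cl (W d) × (W d × ℕ → I)) × Om (W d) => (q.1.1, q.2)) :=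
      (measurable_fst.comp measurable_fst).prodMk measurable_snd
    have h := (measurable_innov (d := d) θ).comp f1
    simp only [Function.comp_def] at h
    exact h
  have mWX : Measurable (fun q : Cl (W d) × Om (W d) => (WWm θ q, q.2)) :=
    (measurable_WWm θ).prodMk measurable_snd
  have hbase : ∀ᵐ q ∂((Pt (nu d θ)).map (fun q => (WWm θ q, q.2))),
      innov θ q.1.1 q.2 = q.1.2 := by
    have f2 : Measurable (fun q : (Cl (W d) × (W d × ℕ → I)) × Om (W d) => q.1.2) :=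
      measurable_snd.comp measurable_fst
    rw [ae_map_iff mWX.aemeasurable (measurableSet_eq_fun m0 f2)]
    exact Eventually.of_forall fun q => rfl
  have p1 : Measurable (fun a : (Cl (W d) × (W d × ℕ → I)) × (Om (W d) × Om (W d)) =>
      (a.1, a.2.1)) := measurable_fst.prodMk (measurable_fst.comp measurable_snd)
  have p2 : Measurable (fun a : (Cl (W d) × (W d × ℕ → I)) × (Om (W d) × Om (W d)) =>
      (a.1, a.2.2)) := measurable_fst.prodMk (measurable_snd.comp measurable_snd)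
  have e1 := map_prM_fst (Pt (nu d θ)) Prod.snd (WWm θ) measurable_snd
  have e2 := map_prM_snd (Pt (nu d θ)) Prod.snd (WWm θ) measurable_snd
  have hb1 := hbase
  have hb2 := hbase
  rw [← e1] at hb1
  rw [← e2] at hb2
  have f1 := ae_of_ae_map p1.aemeasurable hb1
  have f2 := ae_of_ae_map p2.aemeasurable hb2
  have hp : pairM θ (nu d θ) = prM (Pt (nu d θ)) Prod.snd (WWm θ) := rfl
  rw [hp]
  filter_upwards [f1, f2] with a h1 h2
  rw [h1, h2]

/-- projections on the replicas -/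
lemma mp_pi1 : MeasurePreserving (fun a : (Cl (W d) × (W d × ℕ → I)) × (Om (W d) × Om (W d)) =>
    (a.1.1, a.2.1)) (pairM θ (nu d θ)) (Pt (nu d θ)) := by
  have p1 : Measurable (fun a : (Cl (W d) × (W d × ℕ → I)) × (Om (W d) × Om (W d)) =>
      (a.1, a.2.1)) := measurable_fst.prodMk (measurable_fst.comp measurable_snd)
  have p3 : Measurable (fun q : (Cl (W d) × (W d × ℕ → I)) × Om (W d) => (q.1.1, q.2)) :=
    (measurable_fst.comp measurable_fst).prodMk measurable_snd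
  have mWX : Measurable (fun q : Cl (W d) × Om (W d) => (WWm θ q, q.2)) :=
    (measurable_WWm θ).prodMk measurable_snd
  refine ⟨p3.comp p1, ?_⟩
  have e1 := map_prM_fst (Pt (nu d θ)) Prod.snd (WWm θ) measurable_snd
  have e2 := congrArg (fun μ => μ.map (fun q : (Cl (W d) × (W d × ℕ → I)) × Om (W d) =>
    (q.1.1, q.2))) e1
  beta_reduce at e2
  rw [Measure.map_map p3 p1, Measure.map_map p3 mWX] at e2
  have e3 : ((fun q : (Cl (W d) × (W d × ℕ → I)) × Om (W d) => (q.1.1, q.2)) ∘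
      fun q : Cl (W d) × Om (W d) => (WWm θ q, q.2)) = id := by
    funext q; rfl
  rw [e3, Measure.map_id] at e2
  exact e2

lemma mp_pi2 : MeasurePreserving (fun a : (Cl (W d) × (W d × ℕ → I)) × (Om (W d) × Om (W d)) =>
    (a.1.1, a.2.2)) (pairM θ (nu d θ)) (Pt (nu d θ)) := by
  have p1 : Measurable (fun a : (Cl (W d) × (W d × ℕ → I)) × (Om (W d) × Om (W d)) =>
      (a.1, a.2.2)) := measurable_fst.prodMk (measurable_snd.comp measurable_snd)
  have p3 : Measurable (fun q : (Cl (W d) × (W d × ℕ → I)) × Om (W d) => (q.1.1, q.2)) :=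
    (measurable_fst.comp measurable_fst).prodMk measurable_snd
  have mWX : Measurable (fun q : Cl (W d) × Om (W d) => (WWm θ q, q.2)) :=
    (measurable_WWm θ).prodMk measurable_snd
  refine ⟨p3.comp p1, ?_⟩
  have e1 := map_prM_snd (Pt (nu d θ)) Prod.snd (WWm θ) measurable_snd
  have e2 := congrArg (fun μ => μ.map (fun q : (Cl (W d) × (W d × ℕ → I)) × Om (W d) =>
    (q.1.1, q.2))) e1
  beta_reduce at e2
  rw [Measure.map_map p3 p1, Measure.map_map p3 mWX] at e2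
  have e3 : ((fun q : (Cl (W d) × (W d × ℕ → I)) × Om (W d) => (q.1.1, q.2)) ∘
      fun q : Cl (W d) × Om (W d) => (WWm θ q, q.2)) = id := by
    funext q; rfl
  rw [e3, Measure.map_id] at e2
  exact e2

instance isProb_pairM : IsProbabilityMeasure (pairM θ (nu d θ)) :=
  isProb_prM (Pt (nu d θ)) Prod.snd (WWm θ) (measurable_WWm θ)

/-- one replica martingale relations and energy identity -/
structure Mart (d : ℕ) (θ : ℝ) (k : ℕ) (s t : ℝ) : Prop where
  mm : ∫ q, mR θ (yF k t q.1 q.2) * mR θ (yF k s q.1 q.2) ∂(Pt (nu d θ)) =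
    ∫ q, mR θ (yF k s q.1 q.2) ^ 2 ∂(Pt (nu d θ))
  xx : ∀ u v : W d, u ≠ v → ∫ q, xi θ k s t u q.1 q.2 * xi θ k s t v q.1 q.2 ∂(Pt (nu d θ)) = 0
  mx : ∀ u : W d, ∫ q, mR θ (yF k s q.1 q.2) * xi θ k s t u q.1 q.2 ∂(Pt (nu d θ)) = 0
  mtx : ∀ u : W d, ∫ q, mR θ (yF k t q.1 q.2) * xi θ k s t u q.1 q.2 ∂(Pt (nu d θ)) =
    ∫ q, xi θ k s t u q.1 q.2 ^ 2 ∂(Pt (nu d θ))
  energy : HasSum (fun u : W d => ∫ q, xi θ k s t u q.1 q.2 ^ 2 ∂(Pt (nu d θ)))
    (∫ q, mR θ (yF k t q.1 q.2) ^ 2 ∂(Pt (nu d θ)) - ∫ q, mR θ (yF k s q.1 q.2) ^ 2 ∂(Pt (nu d θ)))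

/-- two replica orthogonality relations -/
structure PMart (d : ℕ) (θ : ℝ) [IsProbabilityMeasure (nu d θ)] (k : ℕ) (s t : ℝ) : Prop where
  xx : ∀ u v : W d, u ≠ v →
    ∫ a, xi θ k s t u a.1.1 a.2.1 * xi θ k s t v a.1.1 a.2.2 ∂(pairM θ (nu d θ)) = 0
  xm : ∀ u : W d, ∫ a, xi θ k s t u a.1.1 a.2.1 * mR θ (yF k s a.1.1 a.2.2) ∂(pairM θ (nu d θ)) = 0
  mx : ∀ u : W d, ∫ a, mR θ (yF k s a.1.1 a.2.1) * xi θ k s t u a.1.1 a.2.2 ∂(pairM θ (nu d θ)) = 0

open scoped InnerProductSpace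

/-- the replica distance increases by the sum of the squared differences of the increments -/
theorem hasSum_RR (h0 : 0 ≤ θ) (h1 : θ < 1) {k : ℕ} {s t : ℝ} (hM : Mart d θ k s t)
    (hP : PMart d θ k s t) :
    HasSum (fun u : W d => ∫ a, (xi θ k s t u a.1.1 a.2.1 - xi θ k s t u a.1.1 a.2.2) ^ 2
      ∂(pairM θ (nu d θ))) (RR θ (rhoP θ (nu d θ) k t) - RR θ (rhoP θ (nu d θ) k s)) := by
  -- abbreviations
  set Q := pairM θ (nu d θ) with hQ
  have mpi1 := mp_pi1 (d := d) (θ := θ)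
  have mpi2 := mp_pi2 (d := d) (θ := θ)
  have mm : ∀ r, Measurable (fun q : Cl (W d) × Om (W d) => mR θ (yF k r q.1 q.2)) := fun r =>
    (measurable_mR θ).comp (measurable_yF k r)
  have mxi : ∀ u, Measurable (fun q : Cl (W d) × Om (W d) => xi θ k s t u q.1 q.2) := fun u =>
    measurable_xi θ k s t u
  have L : ∀ {f : Cl (W d) × Om (W d) → ℝ}, Measurable f → (∀ q, |f q| ≤ 1) →
      MemLp (fun a : (Cl (W d) × (W d × ℕ → I)) × (Om (W d) × Om (W d)) => f (a.1.1, a.2.1)) 2 Q :=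
    fun hf hb => memLp_bdd (hf.comp mpi1.measurable) (C := 1) fun a => hb _
  have R : ∀ {f : Cl (W d) × Om (W d) → ℝ}, Measurable f → (∀ q, |f q| ≤ 1) →
      MemLp (fun a : (Cl (W d) × (W d × ℕ → I)) × (Om (W d) × Om (W d)) => f (a.1.1, a.2.2)) 2 Q :=
    fun hf hb => memLp_bdd (hf.comp mpi2.measurable) (C := 1) fun a => hb _
  have I1 : ∀ {f : Cl (W d) × Om (W d) → ℝ}, Measurable f →
      ∫ a, f (a.1.1, a.2.1) ∂Q = ∫ q, f q ∂(Pt (nu d θ)) := fun hf => by
    rw [← mpi1.map_eq, integral_map mpi1.measurable.aemeasurable hf.aestronglyMeasurable]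
  have I2 : ∀ {f : Cl (W d) × Om (W d) → ℝ}, Measurable f →
      ∫ a, f (a.1.1, a.2.2) ∂Q = ∫ q, f q ∂(Pt (nu d θ)) := fun hf => by
    rw [← mpi2.map_eq, integral_map mpi2.measurable.aemeasurable hf.aestronglyMeasurable]
  have bm : ∀ r (q : Cl (W d) × Om (W d)), |mR θ (yF k r q.1 q.2)| ≤ 1 := fun r q => abs_mR_le θ _
  have bx : ∀ u (q : Cl (W d) × Om (W d)), |xi θ k s t u q.1 q.2| ≤ 1 := fun u q =>
    abs_xi_le h0 h1 k s t u _ _
  -- first replica
  have S1 : HasSum (fun u => (L (mxi u) (bx u)).toLp _)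
      ((L (mm t) (bm t)).toLp _ - (L (mm s) (bm s)).toLp _) := by
    refine hasSum_of_energy ?_ ?_ ?_ ?_ ?_
    · rw [inner_toLp, norm_toLp_sq, I1 (f := fun q => mR θ (yF k t q.1 q.2) * mR θ (yF k s q.1 q.2))
        ((mm t).mul (mm s)), I1 (f := fun q => mR θ (yF k s q.1 q.2) ^ 2) ((mm s).pow_const 2)]
      exact hM.mm
    · intro u v huv
      rw [inner_toLp, I1 (f := fun q => xi θ k s t u q.1 q.2 * xi θ k s t v q.1 q.2)
        ((mxi u).mul (mxi v))]
      exact hM.xx u v huv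
    · intro u
      rw [inner_toLp, I1 (f := fun q => mR θ (yF k s q.1 q.2) * xi θ k s t u q.1 q.2)
        ((mm s).mul (mxi u))]
      exact hM.mx u
    · intro u
      rw [inner_toLp, norm_toLp_sq, I1 (f := fun q => mR θ (yF k t q.1 q.2) * xi θ k s t u q.1 q.2)
        ((mm t).mul (mxi u)), I1 (f := fun q => xi θ k s t u q.1 q.2 ^ 2) ((mxi u).pow_const 2)]
      exact hM.mtx u
    · simp only [norm_toLp_sq]
      rw [I1 (f := fun q => mR θ (yF k t q.1 q.2) ^ 2) ((mm t).pow_const 2),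
        I1 (f := fun q => mR θ (yF k s q.1 q.2) ^ 2) ((mm s).pow_const 2)]
      have e : (fun u : W d => ∫ a, xi θ k s t u a.1.1 a.2.1 ^ 2 ∂Q) =
          fun u : W d => ∫ q, xi θ k s t u q.1 q.2 ^ 2 ∂(Pt (nu d θ)) :=
        funext fun u => I1 (f := fun q => xi θ k s t u q.1 q.2 ^ 2) ((mxi u).pow_const 2)
      rw [e]
      exact hM.energy
  -- second replica
  have S2 : HasSum (fun u => (R (mxi u) (bx u)).toLp _)
      ((R (mm t) (bm t)).toLp _ - (R (mm s) (bm s)).toLp _) := by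
    refine hasSum_of_energy ?_ ?_ ?_ ?_ ?_
    · rw [inner_toLp, norm_toLp_sq, I2 (f := fun q => mR θ (yF k t q.1 q.2) * mR θ (yF k s q.1 q.2))
        ((mm t).mul (mm s)), I2 (f := fun q => mR θ (yF k s q.1 q.2) ^ 2) ((mm s).pow_const 2)]
      exact hM.mm
    · intro u v huv
      rw [inner_toLp, I2 (f := fun q => xi θ k s t u q.1 q.2 * xi θ k s t v q.1 q.2)
        ((mxi u).mul (mxi v))]
      exact hM.xx u v huv
    · intro u
      rw [inner_toLp, I2 (f := fun q => mR θ (yF k s q.1 q.2) * xi θ k s t u q.1 q.2)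
        ((mm s).mul (mxi u))]
      exact hM.mx u
    · intro u
      rw [inner_toLp, norm_toLp_sq, I2 (f := fun q => mR θ (yF k t q.1 q.2) * xi θ k s t u q.1 q.2)
        ((mm t).mul (mxi u)), I2 (f := fun q => xi θ k s t u q.1 q.2 ^ 2) ((mxi u).pow_const 2)]
      exact hM.mtx u
    · simp only [norm_toLp_sq]
      rw [I2 (f := fun q => mR θ (yF k t q.1 q.2) ^ 2) ((mm t).pow_const 2),
        I2 (f := fun q => mR θ (yF k s q.1 q.2) ^ 2) ((mm s).pow_const 2)]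
      have e : (fun u : W d => ∫ a, xi θ k s t u a.1.1 a.2.2 ^ 2 ∂Q) =
          fun u : W d => ∫ q, xi θ k s t u q.1 q.2 ^ 2 ∂(Pt (nu d θ)) :=
        funext fun u => I2 (f := fun q => xi θ k s t u q.1 q.2 ^ 2) ((mxi u).pow_const 2)
      rw [e]
      exact hM.energy
  -- difference
  set X1 := fun u => (L (mxi u) (bx u)).toLp _ with hX1
  set X2 := fun u => (R (mxi u) (bx u)).toLp _ with hX2
  set T1 := (L (mm t) (bm t)).toLp _ with hT1
  set T2 := (R (mm t) (bm t)).toLp _ with hT2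
  set M1 := (L (mm s) (bm s)).toLp _ with hM1
  set M2 := (R (mm s) (bm s)).toLp _ with hM2
  have S3 : HasSum (fun u => X1 u - X2 u) ((T1 - T2) - (M1 - M2)) := by
    have := S1.sub S2
    have e : T1 - M1 - (T2 - M2) = (T1 - T2) - (M1 - M2) := by abel
    rw [e] at this
    exact this
  have x11 : ∀ u v, u ≠ v → ⟪X1 u, X1 v⟫_ℝ = 0 := fun u v huv => by
    rw [hX1, inner_toLp, I1 (f := fun q => xi θ k s t u q.1 q.2 * xi θ k s t v q.1 q.2)
        ((mxi u).mul (mxi v))]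
    exact hM.xx u v huv
  have x22 : ∀ u v, u ≠ v → ⟪X2 u, X2 v⟫_ℝ = 0 := fun u v huv => by
    rw [hX2, inner_toLp, I2 (f := fun q => xi θ k s t u q.1 q.2 * xi θ k s t v q.1 q.2)
        ((mxi u).mul (mxi v))]
    exact hM.xx u v huv
  have x12 : ∀ u v, u ≠ v → ⟪X1 u, X2 v⟫_ℝ = 0 := fun u v huv => by
    rw [hX1, hX2, inner_toLp]
    exact hP.xx u v huv
  have m11 : ∀ u, ⟪M1, X1 u⟫_ℝ = 0 := fun u => by
    rw [hX1, hM1, inner_toLp, I1 (f := fun q => mR θ (yF k s q.1 q.2) * xi θ k s t u q.1 q.2)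
        ((mm s).mul (mxi u))]
    exact hM.mx u
  have m22 : ∀ u, ⟪M2, X2 u⟫_ℝ = 0 := fun u => by
    rw [hX2, hM2, inner_toLp, I2 (f := fun q => mR θ (yF k s q.1 q.2) * xi θ k s t u q.1 q.2)
        ((mm s).mul (mxi u))]
    exact hM.mx u
  have m12 : ∀ u, ⟪M1, X2 u⟫_ℝ = 0 := fun u => by
    rw [hX2, hM1, inner_toLp]
    exact hP.mx u
  have m21 : ∀ u, ⟪M2, X1 u⟫_ℝ = 0 := fun u => by
    rw [real_inner_comm, hX1, hM2, inner_toLp]
    exact hP.xm u
  have S4 := hasSum_norm_sq (x := fun u => X1 u - X2 u) (dt := T1 - T2) (ds := M1 - M2) (by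
      intro u v huv
      rw [inner_sub_left, inner_sub_right, inner_sub_right, x11 u v huv, x22 u v huv,
        x12 u v huv, real_inner_comm, x12 v u (Ne.symm huv)]
      ring) (by
      intro u
      rw [inner_sub_left, inner_sub_right, inner_sub_right, m11, m12, m21, m22]
      ring) S3
  -- translate
  have n1 : ∀ u, ‖X1 u - X2 u‖ ^ 2 =
      ∫ a, (xi θ k s t u a.1.1 a.2.1 - xi θ k s t u a.1.1 a.2.2) ^ 2 ∂Q := by
    intro u
    rw [hX1, hX2]
    simp only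
    rw [← MemLp.toLp_sub, norm_toLp_sq]
    rfl
  have n2 : ∀ r, ‖(L (mm r) (bm r)).toLp _ - (R (mm r) (bm r)).toLp _‖ ^ 2 =
      RR θ (rhoP θ (nu d θ) k r) := by
    intro r
    rw [← MemLp.toLp_sub, norm_toLp_sq]
    unfold RR
    have hm : Measurable (fun q : (W d → ℝ) × (W d → ℝ) => (mR θ q.1 - mR θ q.2) ^ 2) :=
      (((measurable_mR θ).comp measurable_fst).sub
        ((measurable_mR θ).comp measurable_snd)).pow_const 2
    have h2 : rhoP θ (nu d θ) k r = Q.map (yy k r) := rfl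
    rw [h2, integral_map (measurable_yy k r).aemeasurable hm.aestronglyMeasurable]
    rfl
  simp only [n1] at S4
  rw [hT1, hT2, n2 t, hM1, hM2, n2 s] at S4
  exact S4

/-- superadditivity of the upper integral -/
lemma tsum_lintegral_le {ι α : Type*} [MeasurableSpace α] (μ : Measure α) (f : ι → α → ℝ≥0∞) :
    ∑' u, ∫⁻ a, f u a ∂μ ≤ ∫⁻ a, ∑' u, f u a ∂μ := by
  classical
  rw [ENNReal.tsum_eq_iSup_sum]
  refine iSup_le fun F => ?_
  refine le_trans ?_ (lintegral_mono fun a => ENNReal.sum_le_tsum F)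
  induction F using Finset.induction with
  | empty => simp
  | insert u F hu ih =>
    simp only [Finset.sum_insert hu]
    refine le_trans (add_le_add le_rfl ih) ?_
    exact le_lintegral_add _ _

/-- (P5a): the evolution inequality -/
theorem evol (h0 : 0 ≤ θ) (h1 : θ < 1)
    (hlaw : (Pt (nu d θ)).map (WWm θ) = (μI (W d × ℕ)).prod (μI (W d × ℕ)))
    (hgood : ∀ᵐ c ∂(μI (W d × ℕ)), GoodC θ (nu d θ) c) {k : ℕ} {s t : ℝ} (hs : 0 ≤ s)
    (hst : s ≤ t) (ht : t ≤ 1 / 2) (hM : Mart d θ k s t) (hP : PMart d θ k s t) :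
    ENNReal.ofReal (RR θ (rhoP θ (nu d θ) k t)) ≤ ENNReal.ofReal (RR θ (rhoP θ (nu d θ) k s)) +
      ENNReal.ofReal 4 * ∫⁻ r in Ico s t, ENNReal.ofReal (r ^ 2) * SS θ (rhoP θ (nu d θ) k r) := by
  have hS := hasSum_RR h0 h1 hM hP
  have hnn : ∀ u : W d, 0 ≤ ∫ a, (xi θ k s t u a.1.1 a.2.1 - xi θ k s t u a.1.1 a.2.2) ^ 2
      ∂(pairM θ (nu d θ)) := fun u => integral_nonneg fun a => sq_nonneg _
  have e1 : RR θ (rhoP θ (nu d θ) k t) = RR θ (rhoP θ (nu d θ) k s) +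
      ∑' u : W d, ∫ a, (xi θ k s t u a.1.1 a.2.1 - xi θ k s t u a.1.1 a.2.2) ^ 2
        ∂(pairM θ (nu d θ)) := by rw [hS.tsum_eq]; ring
  rw [e1, ENNReal.ofReal_add (RR_nonneg _ _) (tsum_nonneg hnn),
    ENNReal.ofReal_tsum_of_nonneg hnn hS.summable]
  refine add_le_add le_rfl ?_
  have mxi : ∀ u, Measurable (fun q : Cl (W d) × Om (W d) => xi θ k s t u q.1 q.2) := fun u =>
    measurable_xi θ k s t u
  have e2 : ∀ u : W d, ENNReal.ofReal (∫ a, (xi θ k s t u a.1.1 a.2.1 - xi θ k s t u a.1.1 a.2.2) ^ 2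
      ∂(pairM θ (nu d θ))) ≤
      ENNReal.ofReal 4 * ∫⁻ r in Ico s t, ENNReal.ofReal (r ^ 2) *
        ∫⁻ q, phiS θ u q ∂(rhoP θ (nu d θ) k r) := by
    intro u
    have hm : Measurable (fun a : (Cl (W d) × (W d × ℕ → I)) × (Om (W d) × Om (W d)) =>
        (xi θ k s t u a.1.1 a.2.1 - xi θ k s t u a.1.1 a.2.2) ^ 2) :=
      (((mxi u).comp (mp_pi1 (θ := θ)).measurable).sub
        ((mxi u).comp (mp_pi2 (θ := θ)).measurable)).pow_const 2
    rw [ofReal_integral_eq_lintegral_ofReal]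
    · refine (lintegral_mono_ae (g := fun a => 2 * (if s ≤ (a.1.1 (u, k) : ℝ) ∧
        (a.1.1 (u, k) : ℝ) < t then ENNReal.ofReal ((a.1.1 (u, k) : ℝ) ^ 2) *
          phiS θ u (yF k (a.1.1 (u, k)) a.1.1 a.2.1, yF k (a.1.1 (u, k)) a.1.1 a.2.2) else 0))
          ?_).trans ?_
      · filter_upwards [innov_common (d := d) θ] with a ha
        exact xi_sub_sq_le h0 h1 k s t u a.1.1 a.2.1 a.2.2 (congrFun ha (u, k))
      · rw [lintegral_const_mul' _ _ (by norm_num)]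
        have hc := clock_ineq hlaw hgood u k hs ht (fun r => ENNReal.ofReal (r ^ 2))
          (by fun_prop) (phiS θ u) (measurable_phiS θ u)
        calc _ ≤ 2 * (2 * ∫⁻ r in Ico s t, ENNReal.ofReal (r ^ 2) *
              ∫⁻ q, phiS θ u q ∂(rhoP θ (nu d θ) k r)) := mul_le_mul_right hc _
          _ = _ := by
            rw [← mul_assoc]
            norm_num
    · refine Integrable.of_bound hm.aestronglyMeasurable 4 (Eventually.of_forall fun a => ?_)
      rw [Real.norm_eq_abs, abs_of_nonneg (sq_nonneg _)]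
      have b1 := abs_xi_le h0 h1 k s t u a.1.1 a.2.1
      have b2 := abs_xi_le h0 h1 k s t u a.1.1 a.2.2
      have b3 := abs_sub (xi θ k s t u a.1.1 a.2.1) (xi θ k s t u a.1.1 a.2.2)
      rw [← sq_abs]
      nlinarith [abs_nonneg (xi θ k s t u a.1.1 a.2.1 - xi θ k s t u a.1.1 a.2.2)]
    · exact Eventually.of_forall fun a => sq_nonneg _
  refine (ENNReal.tsum_le_tsum e2).trans ?_
  rw [ENNReal.tsum_mul_left]
  refine mul_le_mul_right ?_ _
  refine (tsum_lintegral_le _ _).trans ?_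
  refine lintegral_mono fun r => ?_
  rw [ENNReal.tsum_mul_left]
  rfl

end pair

end Crest.Agent.TI.Evol
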