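import Mathlib

/-!
Row 160 (S0241).  Pure analysis for the final argument: tails, Gronwall.
-/

set_option autoImplicit false

namespace Crest.Agent.TI

open MeasureTheory Set Filter Topology

/-- geometric tail -/
noncomputable def TG (q : ℝ) (K : ℕ) : ℝ := ∑' k : ℕ, ((K : ℝ) + k + 1) ^ 2 * q ^ ((K + k) / 4)

/-- doubly exponential tail -/
noncomputable def TE (b : ℝ) (K : ℕ) : ℝ :=
  ∑' k : ℕ, ((K : ℝ) + k + 1) ^ 2 * Real.exp (-(Real.sqrt b) ^ ((K + k) / 4))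

lemma sum_telescope (K m : ℕ) :
    ∑ j ∈ Finset.range m, (1 : ℝ) / (((K : ℝ) + j + 1) * ((K : ℝ) + j + 2)) ≤ 1 := by
  have h : ∑ j ∈ Finset.range m, (1 : ℝ) / (((K : ℝ) + j + 1) * ((K : ℝ) + j + 2)) =
      1 / ((K : ℝ) + 1) - 1 / ((K : ℝ) + m + 1) := by
    induction m with
    | zero => simp
    | succ m ih =>
      rw [Finset.sum_range_succ, ih]
      have h1 : ((K : ℝ) + m + 1) ≠ 0 := by positivity
      have h2 : ((K : ℝ) + m + 2) ≠ 0 := by positivity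
      have h3 : ((K : ℝ) + 1) ≠ 0 := by positivity
      push_cast
      have h4 : ((K : ℝ) + (m + 1) + 1) ≠ 0 := by positivity
      field_simp
      ring
  rw [h]
  have h1 : (1 : ℝ) / ((K : ℝ) + 1) ≤ 1 := by
    rw [div_le_one (by positivity)]
    linarith [(Nat.cast_nonneg K : (0 : ℝ) ≤ K)]
  have h2 : (0 : ℝ) ≤ 1 / ((K : ℝ) + m + 1) := by positivity
  linarith

lemma tsum_le_of_term {f : ℕ → ℝ} (K : ℕ) (c : ℝ) (hf : ∀ n, 0 ≤ f n) (hc : 0 ≤ c)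
    (h : ∀ n : ℕ, K ≤ n → f n * (((n : ℝ) + 1) * ((n : ℝ) + 2)) ≤ c) :
    ∑' j : ℕ, f (K + j) ≤ c := by
  refine Real.tsum_le_of_sum_range_le (fun j => hf _) fun m => ?_
  calc ∑ j ∈ Finset.range m, f (K + j)
      ≤ ∑ j ∈ Finset.range m, c * ((1 : ℝ) / (((K : ℝ) + j + 1) * ((K : ℝ) + j + 2))) := by
        refine Finset.sum_le_sum fun j _ => ?_
        have h1 := h (K + j) (by omega)
        push_cast at h1
        have h2 : 0 < ((K : ℝ) + j + 1) * ((K : ℝ) + j + 2) := by positivity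
        rw [mul_one_div, le_div_iff₀ h2]
        exact h1
    _ = c * ∑ j ∈ Finset.range m, ((1 : ℝ) / (((K : ℝ) + j + 1) * ((K : ℝ) + j + 2))) := by
        rw [Finset.mul_sum]
    _ ≤ c * 1 := mul_le_mul_of_nonneg_left (sum_telescope K m) hc
    _ = c := mul_one c

/-- geometric tail bound -/
theorem TG_le : ∃ A : ℝ, 1 ≤ A ∧ ∀ q : ℝ, 0 < q → q < 1 → ∀ K : ℕ,
    A * (1 - q) ^ (-(7 / 6 : ℝ)) ≤ K → TG q K ≤ 1 := by
  -- eventually the terms are small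
  have hlim : Tendsto (fun x : ℝ => (x ^ 7 + 2) ^ 5 * 3 * Real.exp (-(x / 4))) atTop (𝓝 0) := by
    have h1 : ∀ n : ℕ, Tendsto (fun x : ℝ => x ^ n * Real.exp (-(x / 4))) atTop (𝓝 0) := by
      intro n
      have h2 := Real.tendsto_pow_mul_exp_neg_atTop_nhds_zero n
      have h3 : Tendsto (fun x : ℝ => x / 4) atTop atTop :=
        tendsto_id.atTop_div_const (by norm_num)
      have h4 := (h2.comp h3).const_mul ((4 : ℝ) ^ n)
      rw [mul_zero] at h4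
      refine h4.congr fun x => ?_
      simp only [Function.comp_apply]
      rw [div_pow]
      field_simp
    have e : (fun x : ℝ => (x ^ 7 + 2) ^ 5 * 3 * Real.exp (-(x / 4))) = fun x =>
        3 * (x ^ 35 * Real.exp (-(x / 4))) + 30 * (x ^ 28 * Real.exp (-(x / 4))) +
        120 * (x ^ 21 * Real.exp (-(x / 4))) + 240 * (x ^ 14 * Real.exp (-(x / 4))) +
        240 * (x ^ 7 * Real.exp (-(x / 4))) + 96 * (x ^ 0 * Real.exp (-(x / 4))) := by
      funext x; ring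
    rw [e]
    have h5 := ((((((h1 35).const_mul 3).add ((h1 28).const_mul 30)).add
      ((h1 21).const_mul 120)).add ((h1 14).const_mul 240)).add
      ((h1 7).const_mul 240)).add ((h1 0).const_mul 96)
    simpa using h5
  have hev : ∀ᶠ x : ℝ in atTop, (x ^ 7 + 2) ^ 5 * 3 * Real.exp (-(x / 4)) ≤ 1 :=
    hlim.eventually_le_const (by norm_num)
  obtain ⟨X, hX⟩ := Filter.eventually_atTop.1 hev
  refine ⟨max 1 ((max X 1) ^ 7), le_max_left _ _, fun q hq0 hq1 K hK => ?_⟩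
  set A := max (1 : ℝ) ((max X 1) ^ 7) with hA
  have hA1 : (1 : ℝ) ≤ A := le_max_left _ _
  set δ := 1 - q with hδ
  have hδ0 : 0 < δ := by linarith
  have hδ1 : δ ≤ 1 := by linarith
  have hpow1 : 1 ≤ δ ^ (-(7 / 6 : ℝ)) :=
    Real.one_le_rpow_of_pos_of_le_one_of_nonpos hδ0 hδ1 (by norm_num)
  unfold TG
  have e : ∀ k : ℕ, ((K : ℝ) + k + 1) ^ 2 * q ^ ((K + k) / 4) =
      (fun n : ℕ => ((n : ℝ) + 1) ^ 2 * q ^ (n / 4)) (K + k) := by
    intro k; simp only; push_cast; ring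
  simp_rw [e]
  refine tsum_le_of_term (f := fun n : ℕ => ((n : ℝ) + 1) ^ 2 * q ^ (n / 4)) K 1
    (fun n => by positivity) (by norm_num) fun n hn => ?_
  have hnK : (K : ℝ) ≤ n := by exact_mod_cast hn
  have hAn : A * δ ^ (-(7 / 6 : ℝ)) ≤ n := hK.trans hnK
  have hnA : A ≤ n := le_trans (by nlinarith) hAn
  have hn0 : (0 : ℝ) < n := by linarith
  -- x = n^(1/7)
  set x := (n : ℝ) ^ (1 / 7 : ℝ) with hx
  have hx0 : 0 < x := Real.rpow_pos_of_pos hn0 _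
  have hx7 : x ^ 7 = n := by
    rw [hx, ← Real.rpow_natCast, ← Real.rpow_mul hn0.le]; norm_num
  have hxX : X ≤ x := by
    have h1 : (max X 1) ^ 7 ≤ x ^ 7 := by rw [hx7]; exact (le_max_right _ _).trans hnA
    have h2 : max X 1 ≤ x := le_of_pow_le_pow_left₀ (by norm_num) hx0.le h1
    exact (le_max_left _ _).trans h2
  have hδn : x ≤ δ * n := by
    -- δ ≥ n^(-6/7)
    have h1 : δ ^ (-(7 / 6 : ℝ)) ≤ n := by
      refine le_trans ?_ hAn
      nlinarith [Real.rpow_pos_of_pos hδ0 (-(7 / 6 : ℝ))]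
    have h2 : (n : ℝ) ^ (-(6 / 7 : ℝ)) ≤ δ := by
      have h3 := Real.rpow_le_rpow_of_nonpos (Real.rpow_pos_of_pos hδ0 (-(7 / 6 : ℝ))) h1
        (by norm_num : (-(6 / 7 : ℝ)) ≤ 0)
      rw [← Real.rpow_mul hδ0.le] at h3
      norm_num at h3
      exact h3
    calc x = (n : ℝ) ^ (-(6 / 7 : ℝ)) * n := by
          rw [hx]
          nth_rewrite 3 [← Real.rpow_one (n : ℝ)]
          rw [← Real.rpow_add hn0]; norm_num
      _ ≤ δ * n := mul_le_mul_of_nonneg_right h2 hn0.le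
  have hq : q ^ (n / 4) ≤ 3 * Real.exp (-(x / 4)) := by
    have h1 : q ≤ Real.exp (-δ) := by
      have := Real.add_one_le_exp (-δ)
      linarith
    have h2 : q ^ (n / 4) ≤ Real.exp (-δ) ^ (n / 4) := pow_le_pow_left₀ hq0.le h1 _
    refine h2.trans ?_
    rw [← Real.exp_nat_mul]
    have h3 : (n : ℝ) ≤ 4 * ((n / 4 : ℕ) : ℝ) + 3 := by
      have : n ≤ 4 * (n / 4) + 3 := by omega
      exact_mod_cast this
    have h4 : ((n / 4 : ℕ) : ℝ) * -δ ≤ 1 + -(x / 4) := by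
      nlinarith
    refine (Real.exp_le_exp.2 h4).trans ?_
    rw [Real.exp_add]
    have : Real.exp 1 ≤ 3 := by
      have := Real.exp_one_lt_d9
      linarith
    nlinarith [Real.exp_pos (-(x / 4))]
  have hfin := hX x hxX
  rw [hx7] at hfin
  have h5 : ((n : ℝ) + 1) ^ 2 * q ^ (n / 4) * (((n : ℝ) + 1) * ((n : ℝ) + 2)) ≤
      ((n : ℝ) + 1) ^ 2 * (3 * Real.exp (-(x / 4))) * (((n : ℝ) + 1) * ((n : ℝ) + 2)) := by
    gcongr
  refine h5.trans (le_trans ?_ hfin)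
  have h6 : ((n : ℝ) + 1) ^ 2 * (((n : ℝ) + 1) * ((n : ℝ) + 2)) ≤ ((n : ℝ) + 2) ^ 5 := by
    have h7 : (1 : ℝ) ≤ (n : ℝ) + 2 := by linarith
    have h8 : ((n : ℝ) + 1) ≤ (n : ℝ) + 2 := by linarith
    calc ((n : ℝ) + 1) ^ 2 * (((n : ℝ) + 1) * ((n : ℝ) + 2))
        ≤ ((n : ℝ) + 2) ^ 2 * (((n : ℝ) + 2) * ((n : ℝ) + 2)) := by gcongr
      _ = ((n : ℝ) + 2) ^ 4 * 1 := by ring
      _ ≤ ((n : ℝ) + 2) ^ 4 * ((n : ℝ) + 2) := by gcongr
      _ = ((n : ℝ) + 2) ^ 5 := by ring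
  calc ((n : ℝ) + 1) ^ 2 * (3 * Real.exp (-(x / 4))) * (((n : ℝ) + 1) * ((n : ℝ) + 2))
      = (((n : ℝ) + 1) ^ 2 * (((n : ℝ) + 1) * ((n : ℝ) + 2))) * (3 * Real.exp (-(x / 4))) := by ring
    _ ≤ ((n : ℝ) + 2) ^ 5 * (3 * Real.exp (-(x / 4))) := by gcongr
    _ = _ := by ring

/-- doubly exponential tail bound -/
theorem TE_le (b : ℝ) (hb : 2 ≤ b) : ∃ A : ℝ, 1 ≤ A ∧ ∀ L : ℝ, 1 ≤ L → ∀ K : ℕ,
    A * L ^ (1 / 16 : ℝ) ≤ K → TE b K ≤ Real.exp (-(4 * L)) := by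
  have hs2 : 1 < Real.sqrt 2 := by
    rw [show (1 : ℝ) = Real.sqrt 1 by simp]; exact Real.sqrt_lt_sqrt (by norm_num) (by norm_num)
  -- `√2 ^ m` dominates
  have hev : ∀ᶠ m : ℕ in atTop, 4 * (4 * (m : ℝ) + 3) ^ 16 + ((4 * (m : ℝ) + 3) + 2) * 5 ≤
      Real.sqrt 2 ^ m := by
    have h1 : ∀ k : ℕ, Tendsto (fun m : ℕ => (m : ℝ) ^ k / Real.sqrt 2 ^ m) atTop (𝓝 0) := fun k =>
      tendsto_pow_const_div_const_pow_of_one_lt k hs2
    have h16 := (h1 16).const_mul (4 * 7 ^ 16 + 60 : ℝ)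
    rw [mul_zero] at h16
    have h2 : ∀ᶠ m : ℕ in atTop, (4 * 7 ^ 16 + 60 : ℝ) * ((m : ℝ) ^ 16 / Real.sqrt 2 ^ m) ≤ 1 :=
      h16.eventually_le_const (by norm_num)
    filter_upwards [h2, eventually_ge_atTop 1] with m hm hm1
    have hm1' : (1 : ℝ) ≤ m := by exact_mod_cast hm1
    have hpos : 0 < Real.sqrt 2 ^ m := by positivity
    rw [← mul_div_assoc, div_le_one hpos] at hm
    refine le_trans ?_ hm
    have h3 : 4 * (m : ℝ) + 3 ≤ 7 * m := by linarith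
    have h4 : (4 * (m : ℝ) + 3) ^ 16 ≤ (7 * m) ^ 16 := by gcongr
    have h5 : (m : ℝ) ≤ (m : ℝ) ^ 16 := by
      calc (m : ℝ) = (m : ℝ) ^ 1 := (pow_one _).symm
        _ ≤ (m : ℝ) ^ 16 := pow_le_pow_right₀ hm1' (by norm_num)
    have h6 : ((4 * (m : ℝ) + 3) + 2) * 5 ≤ 60 * (m : ℝ) ^ 16 := by nlinarith
    calc 4 * (4 * (m : ℝ) + 3) ^ 16 + ((4 * (m : ℝ) + 3) + 2) * 5
        ≤ 4 * (7 * m) ^ 16 + 60 * (m : ℝ) ^ 16 := by linarith
      _ = (4 * 7 ^ 16 + 60 : ℝ) * (m : ℝ) ^ 16 := by ring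
  obtain ⟨M, hM⟩ := Filter.eventually_atTop.1 hev
  refine ⟨4 * M + 4, by linarith [(Nat.cast_nonneg M : (0 : ℝ) ≤ M)], fun L hL K hK => ?_⟩
  have hM0 : (0 : ℝ) ≤ M := Nat.cast_nonneg M
  have hL0 : (0 : ℝ) < L := by linarith
  have hLp : 1 ≤ L ^ (1 / 16 : ℝ) := Real.one_le_rpow hL (by norm_num)
  unfold TE
  have e : ∀ k : ℕ, ((K : ℝ) + k + 1) ^ 2 * Real.exp (-(Real.sqrt b) ^ ((K + k) / 4)) =
      (fun n : ℕ => ((n : ℝ) + 1) ^ 2 * Real.exp (-(Real.sqrt b) ^ (n / 4))) (K + k) := by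
    intro k; simp only; push_cast; ring
  simp_rw [e]
  refine tsum_le_of_term (f := fun n : ℕ => ((n : ℝ) + 1) ^ 2 * Real.exp (-(Real.sqrt b) ^ (n / 4)))
    K _ (fun n => by positivity) (Real.exp_pos _).le fun n hn => ?_
  have hnK : (K : ℝ) ≤ n := by exact_mod_cast hn
  have hn1 : (4 * M + 4 : ℝ) * L ^ (1 / 16 : ℝ) ≤ n := hK.trans hnK
  have hn4 : (4 * M + 4 : ℝ) ≤ n := by nlinarith
  have hLn : L ≤ (n : ℝ) ^ 16 := by
    have h1 : L ^ (1 / 16 : ℝ) ≤ n := by nlinarith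
    have h2 : (L ^ (1 / 16 : ℝ)) ^ 16 ≤ (n : ℝ) ^ 16 := by gcongr
    rwa [← Real.rpow_natCast, ← Real.rpow_mul hL0.le, show (1 / 16 : ℝ) * ((16 : ℕ) : ℝ) = 1 by
      norm_num, Real.rpow_one] at h2
  set m := n / 4 with hm
  have hmM : M ≤ m := by
    have : 4 * M + 4 ≤ n := by exact_mod_cast hn4
    omega
  have h3 : (n : ℝ) ≤ 4 * (m : ℝ) + 3 := by
    have : n ≤ 4 * (n / 4) + 3 := by omega
    exact_mod_cast this
  have h4 := hM m hmM
  have h5 : Real.sqrt 2 ^ m ≤ Real.sqrt b ^ m :=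
    pow_le_pow_left₀ (Real.sqrt_nonneg _) (Real.sqrt_le_sqrt hb) _
  have hn0 : (0 : ℝ) ≤ n := Nat.cast_nonneg n
  have h6 : 4 * L + ((n : ℝ) + 2) * 5 ≤ Real.sqrt b ^ m := by
    have h7 : (n : ℝ) ^ 16 ≤ (4 * (m : ℝ) + 3) ^ 16 := by gcongr
    linarith
  have h8 : Real.exp (-(Real.sqrt b) ^ m) ≤ Real.exp (-(4 * L)) * Real.exp (-(((n : ℝ) + 2) * 5)) := by
    rw [← Real.exp_add]
    exact Real.exp_le_exp.2 (by linarith)
  have h9 : ((n : ℝ) + 1) ^ 2 * (((n : ℝ) + 1) * ((n : ℝ) + 2)) ≤ Real.exp (((n : ℝ) + 2) * 5) := by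
    have h10 : (n : ℝ) + 2 ≤ Real.exp ((n : ℝ) + 2) := by
      have := Real.add_one_le_exp ((n : ℝ) + 2)
      linarith
    have h11 : Real.exp (((n : ℝ) + 2) * 5) = Real.exp ((n : ℝ) + 2) ^ 5 := by
      rw [← Real.exp_nat_mul]; congr 1; push_cast; ring
    rw [h11]
    have h12 : (1 : ℝ) ≤ (n : ℝ) + 2 := by linarith
    have h13 : ((n : ℝ) + 1) ≤ (n : ℝ) + 2 := by linarith
    calc ((n : ℝ) + 1) ^ 2 * (((n : ℝ) + 1) * ((n : ℝ) + 2))
        ≤ ((n : ℝ) + 2) ^ 2 * (((n : ℝ) + 2) * ((n : ℝ) + 2)) := by gcongr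
      _ = ((n : ℝ) + 2) ^ 4 * 1 := by ring
      _ ≤ ((n : ℝ) + 2) ^ 4 * ((n : ℝ) + 2) := by gcongr
      _ = ((n : ℝ) + 2) ^ 5 := by ring
      _ ≤ Real.exp ((n : ℝ) + 2) ^ 5 := by gcongr
  calc ((n : ℝ) + 1) ^ 2 * Real.exp (-(Real.sqrt b) ^ m) * (((n : ℝ) + 1) * ((n : ℝ) + 2))
      = (((n : ℝ) + 1) ^ 2 * (((n : ℝ) + 1) * ((n : ℝ) + 2))) * Real.exp (-(Real.sqrt b) ^ m) := by
        ring
    _ ≤ Real.exp (((n : ℝ) + 2) * 5) *
        (Real.exp (-(4 * L)) * Real.exp (-(((n : ℝ) + 2) * 5))) := by gcongr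
    _ = Real.exp (-(4 * L)) * (Real.exp (((n : ℝ) + 2) * 5) * Real.exp (-(((n : ℝ) + 2) * 5))) := by
        ring
    _ = Real.exp (-(4 * L)) := by rw [← Real.exp_add]; simp

/-- discrete Gronwall -/
theorem gron (n : ℕ) (a c : ℝ) (hac : a ≤ c) (R F G : ℝ → ℝ) (hR : ∀ t ∈ Icc a c, 0 ≤ R t)
    (hF : ContinuousOn F (Icc a c)) (hG : MonotoneOn G (Icc a c))
    (h : ∀ s t, a ≤ s → s ≤ t → t ≤ c → R t ≤ R s + (F t - F s) * R t + (G t - G s))
    (hn : F c - F a ≤ n / 2) :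
    R c ≤ 2 ^ n * (R a + (G c - G a)) := by
  induction n generalizing c with
  | zero =>
    have h1 := h a c le_rfl hac le_rfl
    have h2 := hR c ⟨hac, le_rfl⟩
    simp only [CharP.cast_eq_zero, zero_div] at hn
    have h3 : (F c - F a) * R c ≤ 0 := mul_nonpos_of_nonpos_of_nonneg hn h2
    rw [pow_zero, one_mul]
    linarith
  | succ n ih =>
    have hac' : G a ≤ G c := hG ⟨le_rfl, hac⟩ ⟨hac, le_rfl⟩ hac
    have hRa : 0 ≤ R a := hR a ⟨le_rfl, hac⟩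
    by_cases hcase : F c - F a ≤ n / 2
    · have h1 := ih c hac hR hF hG h hcase
      refine h1.trans ?_
      rw [pow_succ]
      have : 0 ≤ (2 : ℝ) ^ n * (R a + (G c - G a)) := by
        apply mul_nonneg (by positivity); linarith
      linarith
    · push Not at hcase
      -- choose an intermediate point
      have hiv : F a + n / 2 ∈ F '' Icc a c := by
        apply intermediate_value_Icc hac hF
        constructor
        · have : (0 : ℝ) ≤ n / 2 := by positivity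
          linarith
        · linarith
      obtain ⟨e, he, heF⟩ := hiv
      have h1 := ih e he.1 (fun t ht => hR t ⟨ht.1, ht.2.trans he.2⟩)
        (hF.mono (Icc_subset_Icc_right he.2)) (hG.mono (Icc_subset_Icc_right he.2))
        (fun s t hs hst ht => h s t hs hst (ht.trans he.2)) (by rw [heF]; linarith)
      have h2 := h e c he.1 he.2 le_rfl
      have hRc := hR c ⟨hac, le_rfl⟩
      push_cast at hn
      have h3 : (F c - F e) * R c ≤ 1 / 2 * R c := by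
        apply mul_le_mul_of_nonneg_right _ hRc
        rw [heF]; linarith
      have h4 : R c ≤ 2 * R e + 2 * (G c - G e) := by linarith
      have h5 : G a ≤ G e := hG ⟨le_rfl, hac⟩ he he.1
      have h6 : G e ≤ G c := hG he ⟨hac, le_rfl⟩ he.2
      have h7 : (1 : ℝ) ≤ 2 ^ n := one_le_pow₀ (by norm_num)
      calc R c ≤ 2 * (2 ^ n * (R a + (G e - G a))) + 2 * (G c - G e) := by linarith
        _ ≤ 2 * (2 ^ n * (R a + (G e - G a))) + 2 * (2 ^ n * (G c - G e)) := by nlinarith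
        _ = 2 ^ (n + 1) * (R a + (G c - G a)) := by ring

end Crest.Agent.TI
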