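import Crest.Agent.TIFinalA

/-!
Row 160 (S0241).  Pure analysis for the final argument: one round.
-/

set_option autoImplicit false

namespace Crest.Agent.TI

open MeasureTheory Set Filter Topology
open scoped ENNReal

/-- from the evolution inequality to a real inequality -/
lemma ev_real (R : ℝ → ℝ) (S : ℝ → ℝ≥0∞) (K0 ε s t : ℝ) (κ : ℝ → ℝ) (J : ℝ) (hK0 : 0 ≤ K0)
    (hε : 0 ≤ ε) (hst : s ≤ t) (hRt : 0 ≤ R t) (hRs : 0 ≤ R s)
    (hmono : ∀ r ∈ Ico s t, R r ≤ R t) (hκ0 : ∀ r ∈ Ico s t, 0 ≤ κ r)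
    (hκi : IntegrableOn κ (Ico s t)) (hκ : ∫ r in Ico s t, κ r = J)
    (hS : ∀ r ∈ Ico s t, ENNReal.ofReal (r ^ 2) * S r ≤ ENNReal.ofReal (κ r * R r + ε))
    (hev : ENNReal.ofReal (R t) ≤ ENNReal.ofReal (R s) +
      ENNReal.ofReal K0 * ∫⁻ r in Ico s t, ENNReal.ofReal (r ^ 2) * S r) :
    R t ≤ R s + (K0 * J) * R t + K0 * ε * (t - s) := by
  have h1 : ∫⁻ r in Ico s t, ENNReal.ofReal (r ^ 2) * S r ≤
      ∫⁻ r in Ico s t, ENNReal.ofReal (κ r * R t + ε) := by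
    refine setLIntegral_mono' measurableSet_Ico fun r hr => (hS r hr).trans ?_
    refine ENNReal.ofReal_le_ofReal ?_
    have := mul_le_mul_of_nonneg_left (hmono r hr) (hκ0 r hr)
    linarith
  have hint : IntegrableOn (fun r => κ r * R t + ε) (Ico s t) :=
    (hκi.mul_const _).add (integrableOn_const (by simp))
  have h2 : ∫⁻ r in Ico s t, ENNReal.ofReal (κ r * R t + ε) =
      ENNReal.ofReal (∫ r in Ico s t, (κ r * R t + ε)) := by
    rw [ofReal_integral_eq_lintegral_ofReal hint]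
    filter_upwards [ae_restrict_mem measurableSet_Ico] with r hr
    have := mul_nonneg (hκ0 r hr) hRt
    simp only [Pi.zero_apply]
    linarith
  have h3 : ∫ r in Ico s t, (κ r * R t + ε) = J * R t + ε * (t - s) := by
    rw [integral_add (hκi.mul_const _) (integrableOn_const (by simp)), integral_mul_const, hκ]
    simp [hst, mul_comm]
  have hJ : 0 ≤ J := by
    rw [← hκ]; exact setIntegral_nonneg measurableSet_Ico hκ0
  have h4 : ENNReal.ofReal (R t) ≤ ENNReal.ofReal (R s + K0 * (J * R t + ε * (t - s))) := by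
    refine hev.trans ?_
    rw [ENNReal.ofReal_add hRs, ENNReal.ofReal_mul hK0]
    · gcongr
      rw [← h3, ← h2]; exact h1
    · apply mul_nonneg hK0
      have := mul_nonneg hJ hRt
      have := mul_nonneg hε (sub_nonneg.2 hst)
      linarith
  have h5 : 0 ≤ R s + K0 * (J * R t + ε * (t - s)) := by
    have := mul_nonneg hJ hRt
    have := mul_nonneg hε (sub_nonneg.2 hst)
    have : 0 ≤ K0 * (J * R t + ε * (t - s)) := mul_nonneg hK0 (by linarith)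
    linarith
  have h6 := (ENNReal.ofReal_le_ofReal_iff h5).1 h4
  linarith

/-- the limit used at the end -/
lemma lim_bound (a b c : ℝ) (x : ℝ) (hx : ∀ᶠ L : ℝ in atTop, x ≤
    (2 : ℝ) ^ (a * L ^ (7 / 8 : ℝ) + 1) * (Real.exp (-2 * L) * (b + c * L))) : x ≤ 0 := by
  have hlim : Tendsto (fun L : ℝ => (2 : ℝ) ^ (a * L ^ (7 / 8 : ℝ) + 1) *
      (Real.exp (-2 * L) * (b + c * L))) atTop (𝓝 0) := by
    -- bound by `2 exp(-L) |b + c L|`
    have h1 : ∀ᶠ L : ℝ in atTop, a * Real.log 2 * L ^ (7 / 8 : ℝ) ≤ L := by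
      have h2 : Tendsto (fun L : ℝ => a * Real.log 2 * L ^ (-(1 / 8 : ℝ))) atTop (𝓝 0) := by
        have := (tendsto_rpow_neg_atTop (by norm_num : (0 : ℝ) < 1 / 8)).const_mul (a * Real.log 2)
        simpa using this
      have h3 := h2.eventually_le_const (show (0 : ℝ) < 1 by norm_num)
      filter_upwards [h3, eventually_gt_atTop 0] with L hL hL0
      have h4 : L ^ (7 / 8 : ℝ) = L ^ (-(1 / 8 : ℝ)) * L := by
        nth_rewrite 3 [← Real.rpow_one L]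
        rw [← Real.rpow_add hL0]; norm_num
      rw [h4, ← mul_assoc]
      nlinarith
    have hb : Tendsto (fun L : ℝ => 2 * (Real.exp (-L) * (|b| + |c| * L))) atTop (𝓝 0) := by
      have e1 := Real.tendsto_pow_mul_exp_neg_atTop_nhds_zero 0
      have e2 := Real.tendsto_pow_mul_exp_neg_atTop_nhds_zero 1
      have e3 := ((e1.const_mul |b|).add (e2.const_mul |c|)).const_mul 2
      simp only [mul_zero, add_zero] at e3
      refine e3.congr fun L => ?_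
      ring
    refine squeeze_zero_norm' ?_ hb
    filter_upwards [h1, eventually_gt_atTop 0] with L hL hL0
    rw [norm_mul, norm_mul, Real.norm_eq_abs, Real.norm_eq_abs, Real.norm_eq_abs,
      abs_of_pos (Real.rpow_pos_of_pos (by norm_num) _), abs_of_pos (Real.exp_pos _)]
    have h5 : (2 : ℝ) ^ (a * L ^ (7 / 8 : ℝ) + 1) ≤ 2 * Real.exp L := by
      rw [Real.rpow_add (by norm_num), Real.rpow_one, mul_comm]
      refine mul_le_mul_of_nonneg_left ?_ (by norm_num)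
      rw [Real.rpow_def_of_pos (by norm_num)]
      refine Real.exp_le_exp.2 ?_
      calc Real.log 2 * (a * L ^ (7 / 8 : ℝ)) = a * Real.log 2 * L ^ (7 / 8 : ℝ) := by ring
        _ ≤ L := hL
    have h6 : |b + c * L| ≤ |b| + |c| * L := by
      calc |b + c * L| ≤ |b| + |c * L| := abs_add_le _ _
        _ = |b| + |c| * L := by rw [abs_mul, abs_of_pos hL0]
    calc (2 : ℝ) ^ (a * L ^ (7 / 8 : ℝ) + 1) * (Real.exp (-2 * L) * |b + c * L|)
        ≤ (2 * Real.exp L) * (Real.exp (-2 * L) * (|b| + |c| * L)) := by gcongr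
      _ = 2 * ((Real.exp L * Real.exp (-2 * L)) * (|b| + |c| * L)) := by ring
      _ = 2 * (Real.exp (-L) * (|b| + |c| * L)) := by
          rw [← Real.exp_add]; congr 3; ring_nf
  exact ge_of_tendsto hlim hx

theorem round_zero (R : ℝ → ℝ) (S : ℝ → ℝ≥0∞) (q : ℝ → ℝ) (b K0 C c L1 : ℝ) (hb : 2 ≤ b)
    (hK0 : 0 ≤ K0) (hC : 0 < C) (hc : 0 < c)
    (hR0 : ∀ t ∈ Icc (0 : ℝ) (1 / 2), 0 ≤ R t) (hmono : MonotoneOn R (Icc 0 (1 / 2)))
    (hev : ∀ s t : ℝ, 0 < s → s ≤ t → t ≤ 1 / 2 → ENNReal.ofReal (R t) ≤ ENNReal.ofReal (R s) +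
      ENNReal.ofReal K0 * ∫⁻ r in Ico s t, ENNReal.ofReal (r ^ 2) * S r)
    (hinit : ∀ r ∈ Ioc (0 : ℝ) (1 / 2), R r ≤ C * r ^ (3 / 2 : ℝ))
    (hq : ∀ r ∈ Ioc (0 : ℝ) (1 / 2), 0 < q r ∧ q r < 1 ∧ c * r ^ (3 / 2 : ℝ) ≤ 1 - q r)
    (hkey : ∀ r ∈ Ioc (0 : ℝ) (1 / 2), ∀ K : ℕ, ∀ L, L1 ≤ L → S r ≤
      ENNReal.ofReal (C * (((K : ℝ) + 1 + TG (q r) K) * R r + ((K : ℝ) + 1) ^ 2 *
        (min 1 (C * L ^ 2 * r ^ (3 / 2 : ℝ)) * R r + Real.exp (-(4 * L))) + TE b K))) :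
    R (1 / 2) = 0 := by
  obtain ⟨A1, hA1, hTG⟩ := TG_le
  obtain ⟨A2, hA2, hTE⟩ := TE_le b hb
  set A := max (A1 * c ^ (-(7 / 6 : ℝ))) A2 with hA
  have hA1' : 1 ≤ A := hA2.trans (le_max_right _ _)
  set X0 := A + 2 with hX0
  have hX01 : 3 ≤ X0 := by linarith
  set M := C * (2 * X0 + X0 ^ 2 * C ^ (3 / 8 : ℝ)) + 2 * C * X0 ^ 2 with hM
  have hM0 : 0 < M := by positivity
  have hhalf := hR0 (1 / 2) ⟨by norm_num, le_rfl⟩
  refine le_antisymm ?_ hhalf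
  refine lim_bound (32 * (K0 * M)) C (K0 * M) _ ?_
  filter_upwards [eventually_ge_atTop (max 1 L1)] with L hL
  have hL1 : 1 ≤ L := (le_max_left _ _).trans hL
  have hLL1 : L1 ≤ L := (le_max_right _ _).trans hL
  have hL0 : 0 < L := by linarith
  set s0 := Real.exp (-(4 * L / 3)) with hs0
  have hs0p : 0 < s0 := Real.exp_pos _
  have hs0h : s0 ≤ 1 / 2 := by
    have h1 : Real.exp (-(4 * L / 3)) ≤ Real.exp (-1) := Real.exp_le_exp.2 (by linarith)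
    have h2 : Real.exp (-1) ≤ 1 / 2 := by
      rw [Real.exp_neg, ← one_div]
      have : (2 : ℝ) ≤ Real.exp 1 := by
        have := Real.exp_one_gt_d9; linarith
      exact one_div_le_one_div_of_le (by norm_num) this
    exact h1.trans h2
  -- pointwise bound
  have hSr : ∀ r : ℝ, s0 ≤ r → r ≤ 1 / 2 → ENNReal.ofReal (r ^ 2) * S r ≤
      ENNReal.ofReal ((M * L ^ (7 / 8 : ℝ) * r ^ (-(15 / 16) : ℝ)) * R r +
        M * L ^ (1 / 8 : ℝ) * Real.exp (-2 * L)) := by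
    intro r hr1 hr2
    have hr0 : 0 < r := hs0p.trans_le hr1
    have hrI : r ∈ Ioc (0 : ℝ) (1 / 2) := ⟨hr0, hr2⟩
    have hrle1 : r ≤ 1 := by linarith
    obtain ⟨hq0, hq1, hqc⟩ := hq r hrI
    have hRr := hR0 r ⟨hr0.le, hr2⟩
    set K := ⌈A * r ^ (-(7 / 4) : ℝ) * L ^ (1 / 16 : ℝ)⌉₊ with hK
    have hKge : A * r ^ (-(7 / 4) : ℝ) * L ^ (1 / 16 : ℝ) ≤ K := Nat.le_ceil _
    have hrp : 1 ≤ r ^ (-(7 / 4) : ℝ) :=
      Real.one_le_rpow_of_pos_of_le_one_of_nonpos hr0 hrle1 (by norm_num)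
    have hLp : 1 ≤ L ^ (1 / 16 : ℝ) := Real.one_le_rpow hL1 (by norm_num)
    have hprod : 1 ≤ r ^ (-(7 / 4) : ℝ) * L ^ (1 / 16 : ℝ) := by nlinarith
    have hKlt : (K : ℝ) < A * r ^ (-(7 / 4) : ℝ) * L ^ (1 / 16 : ℝ) + 1 :=
      Nat.ceil_lt_add_one (by positivity)
    set X := X0 * (r ^ (-(7 / 4) : ℝ) * L ^ (1 / 16 : ℝ)) with hX
    have hKX : (K : ℝ) + 1 ≤ X := by
      have : X = A * r ^ (-(7 / 4) : ℝ) * L ^ (1 / 16 : ℝ) +
        2 * (r ^ (-(7 / 4) : ℝ) * L ^ (1 / 16 : ℝ)) := by rw [hX, hX0]; ring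
      rw [this]; linarith
    have hX1 : 1 ≤ X := by nlinarith
    have hTG1 : TG (q r) K ≤ 1 := by
      refine hTG (q r) hq0 hq1 K (le_trans ?_ hKge)
      have h1 : (1 - q r) ^ (-(7 / 6 : ℝ)) ≤ (c * r ^ (3 / 2 : ℝ)) ^ (-(7 / 6 : ℝ)) :=
        Real.rpow_le_rpow_of_nonpos (by positivity) hqc (by norm_num)
      have h2 : (c * r ^ (3 / 2 : ℝ)) ^ (-(7 / 6 : ℝ)) = c ^ (-(7 / 6 : ℝ)) * r ^ (-(7 / 4) : ℝ) := by
        rw [Real.mul_rpow hc.le (by positivity), ← Real.rpow_mul hr0.le]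
        norm_num
      calc A1 * (1 - q r) ^ (-(7 / 6 : ℝ)) ≤ A1 * (c ^ (-(7 / 6 : ℝ)) * r ^ (-(7 / 4) : ℝ)) := by
            rw [← h2]; exact mul_le_mul_of_nonneg_left h1 (by linarith)
        _ = (A1 * c ^ (-(7 / 6 : ℝ))) * r ^ (-(7 / 4) : ℝ) := by ring
        _ ≤ A * r ^ (-(7 / 4) : ℝ) := by gcongr; exact le_max_left _ _
        _ = A * r ^ (-(7 / 4) : ℝ) * 1 := (mul_one _).symm
        _ ≤ A * r ^ (-(7 / 4) : ℝ) * L ^ (1 / 16 : ℝ) := by gcongr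
    have hTE1 : TE b K ≤ Real.exp (-(4 * L)) := by
      refine hTE L hL1 K (le_trans ?_ hKge)
      have h1 : A2 ≤ A := le_max_right _ _
      have h3 : A2 * 1 ≤ A * r ^ (-(7 / 4) : ℝ) := mul_le_mul h1 hrp (by norm_num) (by linarith)
      calc A2 * L ^ (1 / 16 : ℝ) = (A2 * 1) * L ^ (1 / 16 : ℝ) := by ring
        _ ≤ (A * r ^ (-(7 / 4) : ℝ)) * L ^ (1 / 16 : ℝ) := by gcongr
    set m := min 1 (C * L ^ 2 * r ^ (3 / 2 : ℝ)) with hm
    have hm0 : 0 ≤ m := le_min (by norm_num) (by positivity)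
    have hmle : m ≤ C ^ (3 / 8 : ℝ) * L ^ (3 / 4 : ℝ) * r ^ (9 / 16 : ℝ) := by
      have h1 : m ≤ (C * L ^ 2 * r ^ (3 / 2 : ℝ)) ^ (3 / 8 : ℝ) := by
        set z := C * L ^ 2 * r ^ (3 / 2 : ℝ) with hz
        have hz0 : 0 < z := by positivity
        by_cases h : z ≤ 1
        · calc m ≤ z := min_le_right _ _
            _ = z ^ (1 : ℝ) := (Real.rpow_one z).symm
            _ ≤ z ^ (3 / 8 : ℝ) := Real.rpow_le_rpow_of_exponent_ge hz0 h (by norm_num)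
        · push Not at h
          calc m ≤ 1 := min_le_left _ _
            _ ≤ z ^ (3 / 8 : ℝ) := Real.one_le_rpow h.le (by norm_num)
      refine h1.trans (le_of_eq ?_)
      rw [Real.mul_rpow (by positivity) (by positivity), Real.mul_rpow hC.le (by positivity),
        ← Real.rpow_mul hr0.le, ← Real.rpow_natCast, ← Real.rpow_mul hL0.le]
      norm_num
    have hE0 := (Real.exp_pos (-(4 * L))).le
    -- total
    have hS1 : S r ≤ ENNReal.ofReal (C * ((2 * X + X ^ 2 * m) * R r +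
        2 * X ^ 2 * Real.exp (-(4 * L)))) := by
      refine (hkey r hrI K L hLL1).trans (ENNReal.ofReal_le_ofReal ?_)
      have hK0' : (0 : ℝ) ≤ (K : ℝ) + 1 := by positivity
      have h1 : ((K : ℝ) + 1) ^ 2 ≤ X ^ 2 := by gcongr
      have h2 : ((K : ℝ) + 1 + TG (q r) K) * R r ≤ (2 * X) * R r :=
        mul_le_mul_of_nonneg_right (by linarith) hRr
      have h3 : ((K : ℝ) + 1) ^ 2 * (m * R r + Real.exp (-(4 * L))) ≤
          X ^ 2 * (m * R r + Real.exp (-(4 * L))) :=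
        mul_le_mul_of_nonneg_right h1 (by positivity)
      have h4 : TE b K ≤ X ^ 2 * Real.exp (-(4 * L)) := by
        refine hTE1.trans ?_
        have : (1 : ℝ) ≤ X ^ 2 := one_le_pow₀ hX1
        nlinarith
      refine mul_le_mul_of_nonneg_left ?_ hC.le
      linarith
    have hr2X : r ^ 2 * X ≤ X0 * (L ^ (7 / 8 : ℝ) * r ^ (-(15 / 16) : ℝ)) := by
      have h1 : r ^ 2 * r ^ (-(7 / 4) : ℝ) ≤ r ^ (-(15 / 16) : ℝ) := by
        rw [← Real.rpow_natCast, ← Real.rpow_add hr0]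
        exact Real.rpow_le_rpow_of_exponent_ge hr0 hrle1 (by norm_num)
      have h2 : L ^ (1 / 16 : ℝ) ≤ L ^ (7 / 8 : ℝ) :=
        Real.rpow_le_rpow_of_exponent_le hL1 (by norm_num)
      calc r ^ 2 * X = X0 * (L ^ (1 / 16 : ℝ) * (r ^ 2 * r ^ (-(7 / 4) : ℝ))) := by rw [hX]; ring
        _ ≤ X0 * (L ^ (7 / 8 : ℝ) * r ^ (-(15 / 16) : ℝ)) := by gcongr
    have hr2X2m : r ^ 2 * (X ^ 2 * m) ≤
        X0 ^ 2 * C ^ (3 / 8 : ℝ) * (L ^ (7 / 8 : ℝ) * r ^ (-(15 / 16) : ℝ)) := by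
      calc r ^ 2 * (X ^ 2 * m) ≤
          r ^ 2 * (X ^ 2 * (C ^ (3 / 8 : ℝ) * L ^ (3 / 4 : ℝ) * r ^ (9 / 16 : ℝ))) := by gcongr
        _ = X0 ^ 2 * C ^ (3 / 8 : ℝ) * ((L ^ (1 / 16 : ℝ) * L ^ (1 / 16 : ℝ) * L ^ (3 / 4 : ℝ)) *
            (r ^ 2 * r ^ (-(7 / 4) : ℝ) * r ^ (-(7 / 4) : ℝ) * r ^ (9 / 16 : ℝ))) := by
            rw [hX]; ring
        _ = X0 ^ 2 * C ^ (3 / 8 : ℝ) * (L ^ (7 / 8 : ℝ) * r ^ (-(15 / 16) : ℝ)) := by
            rw [← Real.rpow_natCast r 2, ← Real.rpow_add hr0, ← Real.rpow_add hr0,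
              ← Real.rpow_add hr0, ← Real.rpow_add hL0, ← Real.rpow_add hL0]
            norm_num
    have hr2X2 : r ^ 2 * X ^ 2 * Real.exp (-(4 * L)) ≤
        X0 ^ 2 * (L ^ (1 / 8 : ℝ) * Real.exp (-2 * L)) := by
      have h1 : r ^ 2 * r ^ (-(7 / 4) : ℝ) * r ^ (-(7 / 4) : ℝ) ≤ Real.exp (2 * L) := by
        rw [← Real.rpow_natCast r 2, ← Real.rpow_add hr0, ← Real.rpow_add hr0]
        calc r ^ (((2 : ℕ) : ℝ) + -(7 / 4) + -(7 / 4)) ≤ s0 ^ (((2 : ℕ) : ℝ) + -(7 / 4) + -(7 / 4)) :=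
              Real.rpow_le_rpow_of_nonpos hs0p hr1 (by norm_num)
          _ = Real.exp (2 * L) := by
              rw [hs0, ← Real.exp_mul]
              congr 1
              push_cast
              ring
      calc r ^ 2 * X ^ 2 * Real.exp (-(4 * L))
          = X0 ^ 2 * ((L ^ (1 / 16 : ℝ) * L ^ (1 / 16 : ℝ)) *
            ((r ^ 2 * r ^ (-(7 / 4) : ℝ) * r ^ (-(7 / 4) : ℝ)) * Real.exp (-(4 * L)))) := by
            rw [hX]; ring
        _ ≤ X0 ^ 2 * ((L ^ (1 / 16 : ℝ) * L ^ (1 / 16 : ℝ)) *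
            (Real.exp (2 * L) * Real.exp (-(4 * L)))) := by gcongr
        _ = X0 ^ 2 * (L ^ (1 / 8 : ℝ) * Real.exp (-2 * L)) := by
            have g1 : L ^ (1 / 16 : ℝ) * L ^ (1 / 16 : ℝ) = L ^ (1 / 8 : ℝ) := by
              rw [← Real.rpow_add hL0]; norm_num
            have g2 : Real.exp (2 * L) * Real.exp (-(4 * L)) = Real.exp (-2 * L) := by
              rw [← Real.exp_add]; congr 1; ring
            rw [g1, g2]
    calc ENNReal.ofReal (r ^ 2) * S r ≤ ENNReal.ofReal (r ^ 2) *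
          ENNReal.ofReal (C * ((2 * X + X ^ 2 * m) * R r + 2 * X ^ 2 * Real.exp (-(4 * L)))) := by
          gcongr
      _ = ENNReal.ofReal (r ^ 2 * (C * ((2 * X + X ^ 2 * m) * R r +
          2 * X ^ 2 * Real.exp (-(4 * L))))) := by
          rw [← ENNReal.ofReal_mul (by positivity : (0 : ℝ) ≤ r ^ 2)]
      _ ≤ _ := by
          refine ENNReal.ofReal_le_ofReal ?_
          have hLr : 0 ≤ L ^ (7 / 8 : ℝ) * r ^ (-(15 / 16) : ℝ) := by positivity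
          have hLe : 0 ≤ L ^ (1 / 8 : ℝ) * Real.exp (-2 * L) := by positivity
          have e1 : r ^ 2 * (C * ((2 * X + X ^ 2 * m) * R r + 2 * X ^ 2 * Real.exp (-(4 * L)))) =
              C * (2 * (r ^ 2 * X) + r ^ 2 * (X ^ 2 * m)) * R r +
                2 * C * (r ^ 2 * X ^ 2 * Real.exp (-(4 * L))) := by ring
          have e2 : C * (2 * (r ^ 2 * X) + r ^ 2 * (X ^ 2 * m)) ≤
              C * (2 * X0 + X0 ^ 2 * C ^ (3 / 8 : ℝ)) * (L ^ (7 / 8 : ℝ) * r ^ (-(15 / 16) : ℝ)) := by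
            rw [mul_assoc]
            refine mul_le_mul_of_nonneg_left ?_ hC.le
            linarith
          have e3 : C * (2 * X0 + X0 ^ 2 * C ^ (3 / 8 : ℝ)) ≤ M := by
            rw [hM]; have : 0 ≤ 2 * C * X0 ^ 2 := by positivity
            linarith
          have e4 : 2 * C * X0 ^ 2 ≤ M := by
            rw [hM]; have : 0 ≤ C * (2 * X0 + X0 ^ 2 * C ^ (3 / 8 : ℝ)) := by positivity
            linarith
          have e5 : C * (2 * (r ^ 2 * X) + r ^ 2 * (X ^ 2 * m)) ≤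
              M * L ^ (7 / 8 : ℝ) * r ^ (-(15 / 16) : ℝ) := by
            refine e2.trans ?_
            rw [mul_assoc M]
            exact mul_le_mul_of_nonneg_right e3 hLr
          have e6 : 2 * C * (r ^ 2 * X ^ 2 * Real.exp (-(4 * L))) ≤
              M * L ^ (1 / 8 : ℝ) * Real.exp (-2 * L) := by
            calc 2 * C * (r ^ 2 * X ^ 2 * Real.exp (-(4 * L))) ≤
                2 * C * (X0 ^ 2 * (L ^ (1 / 8 : ℝ) * Real.exp (-2 * L))) := by gcongr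
              _ = (2 * C * X0 ^ 2) * (L ^ (1 / 8 : ℝ) * Real.exp (-2 * L)) := by ring
              _ ≤ M * (L ^ (1 / 8 : ℝ) * Real.exp (-2 * L)) := by gcongr
              _ = _ := by ring
          rw [e1]
          exact add_le_add (mul_le_mul_of_nonneg_right e5 hRr) e6
  -- integrate
  have hreal : ∀ s t : ℝ, s0 ≤ s → s ≤ t → t ≤ 1 / 2 → R t ≤ R s +
      ((fun x : ℝ => K0 * (M * L ^ (7 / 8 : ℝ) * (16 * x ^ (1 / 16 : ℝ)))) t -
        (fun x : ℝ => K0 * (M * L ^ (7 / 8 : ℝ) * (16 * x ^ (1 / 16 : ℝ)))) s) * R t +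
      ((fun x : ℝ => K0 * (M * L ^ (1 / 8 : ℝ) * Real.exp (-2 * L)) * x) t -
        (fun x : ℝ => K0 * (M * L ^ (1 / 8 : ℝ) * Real.exp (-2 * L)) * x) s) := by
    intro s t hs hst ht
    have hsp : 0 < s := hs0p.trans_le hs
    have hint : IntervalIntegrable (fun x : ℝ => x ^ (-(15 / 16) : ℝ)) volume s t :=
      intervalIntegral.intervalIntegrable_rpow' (by norm_num)
    have hi : IntegrableOn (fun x : ℝ => M * L ^ (7 / 8 : ℝ) * x ^ (-(15 / 16) : ℝ)) (Ico s t) :=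
      ((intervalIntegrable_iff_integrableOn_Ico_of_le hst).1 hint).const_mul _
    have hval : ∫ x in Ico s t, M * L ^ (7 / 8 : ℝ) * x ^ (-(15 / 16) : ℝ) =
        M * L ^ (7 / 8 : ℝ) * (16 * t ^ (1 / 16 : ℝ) - 16 * s ^ (1 / 16 : ℝ)) := by
      rw [integral_const_mul, integral_Ico_eq_integral_Ioo, ← integral_Ioc_eq_integral_Ioo,
        ← intervalIntegral.integral_of_le hst, integral_rpow (Or.inl (by norm_num))]
      norm_num
      left
      ring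
    have h1 := ev_real R S K0 (M * L ^ (1 / 8 : ℝ) * Real.exp (-2 * L)) s t
      (fun x : ℝ => M * L ^ (7 / 8 : ℝ) * x ^ (-(15 / 16) : ℝ)) _ hK0 (by positivity) hst
      (hR0 t ⟨by linarith, ht⟩) (hR0 s ⟨by linarith, by linarith⟩)
      (fun r hr => hmono ⟨by linarith [hr.1], by linarith [hr.2]⟩ ⟨by linarith, ht⟩ hr.2.le)
      (fun r hr => by
        have : 0 < r := hsp.trans_le hr.1
        positivity)
      hi hval (fun r hr => hSr r (hs.trans hr.1) (by linarith [hr.2])) (hev s t hsp hst ht)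
    refine h1.trans (le_of_eq ?_)
    ring
  have hn : K0 * (M * L ^ (7 / 8 : ℝ) * (16 * (1 / 2 : ℝ) ^ (1 / 16 : ℝ))) -
      K0 * (M * L ^ (7 / 8 : ℝ) * (16 * s0 ^ (1 / 16 : ℝ))) ≤
      (⌈32 * (K0 * M) * L ^ (7 / 8 : ℝ)⌉₊ : ℝ) / 2 := by
    have h1 : (1 / 2 : ℝ) ^ (1 / 16 : ℝ) ≤ 1 := Real.rpow_le_one (by norm_num) (by norm_num)
      (by norm_num)
    have h2 : 0 ≤ K0 * (M * L ^ (7 / 8 : ℝ) * (16 * s0 ^ (1 / 16 : ℝ))) := by positivity
    have h3 : 32 * (K0 * M) * L ^ (7 / 8 : ℝ) ≤ ⌈32 * (K0 * M) * L ^ (7 / 8 : ℝ)⌉₊ := Nat.le_ceil _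
    have h4 : K0 * (M * L ^ (7 / 8 : ℝ) * (16 * (1 / 2 : ℝ) ^ (1 / 16 : ℝ))) ≤
        K0 * (M * L ^ (7 / 8 : ℝ) * (16 * 1)) := by gcongr
    linarith
  have hg := gron ⌈32 * (K0 * M) * L ^ (7 / 8 : ℝ)⌉₊ s0 (1 / 2) hs0h R
    (fun x : ℝ => K0 * (M * L ^ (7 / 8 : ℝ) * (16 * x ^ (1 / 16 : ℝ))))
    (fun x : ℝ => K0 * (M * L ^ (1 / 8 : ℝ) * Real.exp (-2 * L)) * x)
    (fun t ht => hR0 t ⟨hs0p.le.trans ht.1, ht.2⟩)
    (by
      refine ContinuousOn.mul continuousOn_const (ContinuousOn.mul continuousOn_const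
        (ContinuousOn.mul continuousOn_const ?_))
      exact ContinuousOn.rpow_const continuousOn_id fun x _ => Or.inr (by norm_num))
    (by
      intro x _ y _ hxy
      have : 0 ≤ K0 * (M * L ^ (1 / 8 : ℝ) * Real.exp (-2 * L)) := by positivity
      exact mul_le_mul_of_nonneg_left hxy this)
    (fun s t hs hst ht => hreal s t hs hst ht) hn
  refine hg.trans ?_
  have hinit0 := hinit s0 ⟨hs0p, hs0h⟩
  have hs32 : s0 ^ (3 / 2 : ℝ) = Real.exp (-2 * L) := by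
    rw [hs0, ← Real.exp_mul]; congr 1; ring
  rw [hs32] at hinit0
  have h2n : (2 : ℝ) ^ ⌈32 * (K0 * M) * L ^ (7 / 8 : ℝ)⌉₊ ≤
      (2 : ℝ) ^ (32 * (K0 * M) * L ^ (7 / 8 : ℝ) + 1) := by
    rw [← Real.rpow_natCast]
    exact Real.rpow_le_rpow_of_exponent_le (by norm_num) (Nat.ceil_lt_add_one (by positivity)).le
  have hGd : K0 * (M * L ^ (1 / 8 : ℝ) * Real.exp (-2 * L)) * (1 / 2) -
      K0 * (M * L ^ (1 / 8 : ℝ) * Real.exp (-2 * L)) * s0 ≤ Real.exp (-2 * L) * (K0 * M * L) := by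
    have h1 : L ^ (1 / 8 : ℝ) ≤ L := by
      calc L ^ (1 / 8 : ℝ) ≤ L ^ (1 : ℝ) := Real.rpow_le_rpow_of_exponent_le hL1 (by norm_num)
        _ = L := Real.rpow_one L
    have h2 : 0 ≤ K0 * (M * L ^ (1 / 8 : ℝ) * Real.exp (-2 * L)) * s0 := by positivity
    have h3 : K0 * (M * L ^ (1 / 8 : ℝ) * Real.exp (-2 * L)) ≤
        K0 * (M * L * Real.exp (-2 * L)) := by gcongr
    have h4 : 0 ≤ K0 * (M * L * Real.exp (-2 * L)) := by positivity
    nlinarith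
  have hRs0 : 0 ≤ R s0 := hR0 s0 ⟨hs0p.le, hs0h⟩
  calc (2 : ℝ) ^ ⌈32 * (K0 * M) * L ^ (7 / 8 : ℝ)⌉₊ * (R s0 +
        (K0 * (M * L ^ (1 / 8 : ℝ) * Real.exp (-2 * L)) * (1 / 2) -
          K0 * (M * L ^ (1 / 8 : ℝ) * Real.exp (-2 * L)) * s0))
      ≤ (2 : ℝ) ^ ⌈32 * (K0 * M) * L ^ (7 / 8 : ℝ)⌉₊ *
        (C * Real.exp (-2 * L) + Real.exp (-2 * L) * (K0 * M * L)) := by
        apply mul_le_mul_of_nonneg_left _ (by positivity)
        linarith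
    _ ≤ (2 : ℝ) ^ (32 * (K0 * M) * L ^ (7 / 8 : ℝ) + 1) *
        (C * Real.exp (-2 * L) + Real.exp (-2 * L) * (K0 * M * L)) := by
        apply mul_le_mul_of_nonneg_right h2n (by positivity)
    _ = _ := by ring

theorem round_succ (R : ℝ → ℝ) (S : ℝ → ℝ≥0∞) (q : ℝ → ℝ) (b K0 C c : ℝ) (hb : 2 ≤ b)
    (hK0 : 0 ≤ K0) (hC : 0 < C) (hc : 0 < c)
    (hR0 : ∀ t ∈ Icc (0 : ℝ) (1 / 2), 0 ≤ R t) (hmono : MonotoneOn R (Icc 0 (1 / 2)))
    (hev : ∀ s t : ℝ, 0 ≤ s → s ≤ t → t ≤ 1 / 2 → ENNReal.ofReal (R t) ≤ ENNReal.ofReal (R s) +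
      ENNReal.ofReal K0 * ∫⁻ r in Ico s t, ENNReal.ofReal (r ^ 2) * S r)
    (hinit : R 0 = 0)
    (hq : ∀ r ∈ Ico (0 : ℝ) (1 / 2), 0 < q r ∧ q r < 1 ∧ c ≤ 1 - q r)
    (hkey : ∀ r ∈ Ico (0 : ℝ) (1 / 2), ∀ K : ℕ, S r ≤
      ENNReal.ofReal (C * (((K : ℝ) + 1 + TG (q r) K) * R r + ((K : ℝ) + 1) ^ 2 * R r + TE b K))) :
    R (1 / 2) = 0 := by
  obtain ⟨A1, hA1, hTG⟩ := TG_le
  obtain ⟨A2, hA2, hTE⟩ := TE_le b hb
  set A := max (A1 * c ^ (-(7 / 6 : ℝ))) A2 with hA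
  have hA1' : 1 ≤ A := hA2.trans (le_max_right _ _)
  set X0 := A + 2 with hX0
  have hX01 : 3 ≤ X0 := by linarith
  set M := C * (2 * X0 + X0 ^ 2) + C with hM
  have hM0 : 0 < M := by positivity
  have hhalf := hR0 (1 / 2) ⟨by norm_num, le_rfl⟩
  refine le_antisymm ?_ hhalf
  refine lim_bound (2 * (K0 * M)) (K0 * M) 0 _ ?_
  filter_upwards [eventually_ge_atTop 1] with L hL1
  have hL0 : 0 < L := by linarith
  have hLp : 1 ≤ L ^ (1 / 16 : ℝ) := Real.one_le_rpow hL1 (by norm_num)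
  set K := ⌈A * L ^ (1 / 16 : ℝ)⌉₊ with hK
  have hKge : A * L ^ (1 / 16 : ℝ) ≤ K := Nat.le_ceil _
  have hKlt : (K : ℝ) < A * L ^ (1 / 16 : ℝ) + 1 := Nat.ceil_lt_add_one (by positivity)
  set X := X0 * L ^ (1 / 16 : ℝ) with hX
  have hKX : (K : ℝ) + 1 ≤ X := by
    have : X = A * L ^ (1 / 16 : ℝ) + 2 * L ^ (1 / 16 : ℝ) := by rw [hX, hX0]; ring
    rw [this]; linarith
  have hX1 : 1 ≤ X := by nlinarith
  have hTE1 : TE b K ≤ Real.exp (-(4 * L)) := by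
    refine hTE L hL1 K (le_trans ?_ hKge)
    gcongr; exact le_max_right _ _
  -- pointwise bound
  have hSr : ∀ r : ℝ, 0 ≤ r → r < 1 / 2 → ENNReal.ofReal (r ^ 2) * S r ≤
      ENNReal.ofReal ((M * L ^ (7 / 8 : ℝ)) * R r + M * Real.exp (-2 * L)) := by
    intro r hr1 hr2
    have hrI : r ∈ Ico (0 : ℝ) (1 / 2) := ⟨hr1, hr2⟩
    obtain ⟨hq0, hq1, hqc⟩ := hq r hrI
    have hRr := hR0 r ⟨hr1, hr2.le⟩
    have hTG1 : TG (q r) K ≤ 1 := by
      refine hTG (q r) hq0 hq1 K (le_trans ?_ hKge)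
      have h1 : (1 - q r) ^ (-(7 / 6 : ℝ)) ≤ c ^ (-(7 / 6 : ℝ)) :=
        Real.rpow_le_rpow_of_nonpos hc hqc (by norm_num)
      calc A1 * (1 - q r) ^ (-(7 / 6 : ℝ)) ≤ A1 * c ^ (-(7 / 6 : ℝ)) :=
            mul_le_mul_of_nonneg_left h1 (by linarith)
        _ ≤ A := le_max_left _ _
        _ = A * 1 := (mul_one _).symm
        _ ≤ A * L ^ (1 / 16 : ℝ) := by gcongr
    have hS1 : S r ≤ ENNReal.ofReal (C * ((2 * X + X ^ 2) * R r + Real.exp (-(4 * L)))) := by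
      refine (hkey r hrI K).trans (ENNReal.ofReal_le_ofReal ?_)
      have hK0' : (0 : ℝ) ≤ (K : ℝ) + 1 := by positivity
      have h1 : ((K : ℝ) + 1) ^ 2 ≤ X ^ 2 := by gcongr
      have h2 : ((K : ℝ) + 1 + TG (q r) K) * R r ≤ (2 * X) * R r :=
        mul_le_mul_of_nonneg_right (by linarith) hRr
      have h3 : ((K : ℝ) + 1) ^ 2 * R r ≤ X ^ 2 * R r :=
        mul_le_mul_of_nonneg_right h1 hRr
      refine mul_le_mul_of_nonneg_left ?_ hC.le
      linarith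
    have hXL : 2 * X + X ^ 2 ≤ (2 * X0 + X0 ^ 2) * L ^ (7 / 8 : ℝ) := by
      have g1 : L ^ (1 / 16 : ℝ) ≤ L ^ (7 / 8 : ℝ) :=
        Real.rpow_le_rpow_of_exponent_le hL1 (by norm_num)
      have g2 : L ^ (1 / 16 : ℝ) * L ^ (1 / 16 : ℝ) ≤ L ^ (7 / 8 : ℝ) := by
        rw [← Real.rpow_add hL0]
        exact Real.rpow_le_rpow_of_exponent_le hL1 (by norm_num)
      calc 2 * X + X ^ 2 = 2 * X0 * L ^ (1 / 16 : ℝ) +
            X0 ^ 2 * (L ^ (1 / 16 : ℝ) * L ^ (1 / 16 : ℝ)) := by rw [hX]; ring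
        _ ≤ 2 * X0 * L ^ (7 / 8 : ℝ) + X0 ^ 2 * L ^ (7 / 8 : ℝ) := by gcongr
        _ = _ := by ring
    have hr21 : r ^ 2 ≤ 1 := by nlinarith
    calc ENNReal.ofReal (r ^ 2) * S r ≤ ENNReal.ofReal (r ^ 2) *
          ENNReal.ofReal (C * ((2 * X + X ^ 2) * R r + Real.exp (-(4 * L)))) := by
          gcongr
      _ = ENNReal.ofReal (r ^ 2 * (C * ((2 * X + X ^ 2) * R r + Real.exp (-(4 * L))))) := by
          rw [← ENNReal.ofReal_mul (by positivity : (0 : ℝ) ≤ r ^ 2)]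
      _ ≤ _ := by
          refine ENNReal.ofReal_le_ofReal ?_
          have hLe : Real.exp (-(4 * L)) ≤ Real.exp (-2 * L) := Real.exp_le_exp.2 (by linarith)
          have hpos : 0 ≤ C * ((2 * X + X ^ 2) * R r + Real.exp (-(4 * L))) := by positivity
          have e3 : C * (2 * X0 + X0 ^ 2) ≤ M := by rw [hM]; linarith
          have e4 : C ≤ M := by
            rw [hM]; have : 0 ≤ C * (2 * X0 + X0 ^ 2) := by positivity
            linarith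
          calc r ^ 2 * (C * ((2 * X + X ^ 2) * R r + Real.exp (-(4 * L)))) ≤
              1 * (C * ((2 * X + X ^ 2) * R r + Real.exp (-(4 * L)))) :=
              mul_le_mul_of_nonneg_right hr21 hpos
            _ = C * (2 * X + X ^ 2) * R r + C * Real.exp (-(4 * L)) := by ring
            _ ≤ C * ((2 * X0 + X0 ^ 2) * L ^ (7 / 8 : ℝ)) * R r + M * Real.exp (-2 * L) := by
                gcongr
            _ = (C * (2 * X0 + X0 ^ 2)) * L ^ (7 / 8 : ℝ) * R r + M * Real.exp (-2 * L) := by ring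
            _ ≤ M * L ^ (7 / 8 : ℝ) * R r + M * Real.exp (-2 * L) := by gcongr
  have hreal : ∀ s t : ℝ, 0 ≤ s → s ≤ t → t ≤ 1 / 2 → R t ≤ R s +
      ((fun x : ℝ => K0 * (M * L ^ (7 / 8 : ℝ)) * x) t -
        (fun x : ℝ => K0 * (M * L ^ (7 / 8 : ℝ)) * x) s) * R t +
      ((fun x : ℝ => K0 * (M * Real.exp (-2 * L)) * x) t -
        (fun x : ℝ => K0 * (M * Real.exp (-2 * L)) * x) s) := by
    intro s t hs hst ht
    have hi : IntegrableOn (fun _ : ℝ => M * L ^ (7 / 8 : ℝ)) (Ico s t) :=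
      integrableOn_const (by simp)
    have hval : ∫ _ in Ico s t, M * L ^ (7 / 8 : ℝ) = M * L ^ (7 / 8 : ℝ) * (t - s) := by
      simp [hst, mul_comm]
    have h1 := ev_real R S K0 (M * Real.exp (-2 * L)) s t
      (fun _ : ℝ => M * L ^ (7 / 8 : ℝ)) _ hK0 (by positivity) hst
      (hR0 t ⟨by linarith, ht⟩) (hR0 s ⟨by linarith, by linarith⟩)
      (fun r hr => hmono ⟨by linarith [hr.1], by linarith [hr.2]⟩ ⟨by linarith, ht⟩ hr.2.le)
      (fun r hr => by positivity)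
      hi hval (fun r hr => hSr r (hs.trans hr.1) (by linarith [hr.2])) (hev s t hs hst ht)
    refine h1.trans (le_of_eq ?_)
    ring
  have hn : K0 * (M * L ^ (7 / 8 : ℝ)) * (1 / 2) - K0 * (M * L ^ (7 / 8 : ℝ)) * 0 ≤
      (⌈2 * (K0 * M) * L ^ (7 / 8 : ℝ)⌉₊ : ℝ) / 2 := by
    have h3 : 2 * (K0 * M) * L ^ (7 / 8 : ℝ) ≤ ⌈2 * (K0 * M) * L ^ (7 / 8 : ℝ)⌉₊ := Nat.le_ceil _
    have h4 : 0 ≤ K0 * M * L ^ (7 / 8 : ℝ) := by positivity
    linarith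
  have hg := gron ⌈2 * (K0 * M) * L ^ (7 / 8 : ℝ)⌉₊ 0 (1 / 2) (by norm_num) R
    (fun x : ℝ => K0 * (M * L ^ (7 / 8 : ℝ)) * x)
    (fun x : ℝ => K0 * (M * Real.exp (-2 * L)) * x)
    (fun t ht => hR0 t ht) (by fun_prop)
    (by
      intro x _ y _ hxy
      have : 0 ≤ K0 * (M * Real.exp (-2 * L)) := by positivity
      exact mul_le_mul_of_nonneg_left hxy this)
    (fun s t hs hst ht => hreal s t hs hst ht) hn
  refine hg.trans ?_
  have h2n : (2 : ℝ) ^ ⌈2 * (K0 * M) * L ^ (7 / 8 : ℝ)⌉₊ ≤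
      (2 : ℝ) ^ (2 * (K0 * M) * L ^ (7 / 8 : ℝ) + 1) := by
    rw [← Real.rpow_natCast]
    exact Real.rpow_le_rpow_of_exponent_le (by norm_num) (Nat.ceil_lt_add_one (by positivity)).le
  rw [hinit]
  calc (2 : ℝ) ^ ⌈2 * (K0 * M) * L ^ (7 / 8 : ℝ)⌉₊ * (0 +
        (K0 * (M * Real.exp (-2 * L)) * (1 / 2) - K0 * (M * Real.exp (-2 * L)) * 0))
      ≤ (2 : ℝ) ^ ⌈2 * (K0 * M) * L ^ (7 / 8 : ℝ)⌉₊ *
        (Real.exp (-2 * L) * (K0 * M + 0 * L)) := by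
        apply mul_le_mul_of_nonneg_left _ (by positivity)
        have : 0 ≤ K0 * (M * Real.exp (-2 * L)) := by positivity
        nlinarith
    _ ≤ (2 : ℝ) ^ (2 * (K0 * M) * L ^ (7 / 8 : ℝ) + 1) *
        (Real.exp (-2 * L) * (K0 * M + 0 * L)) := by
        apply mul_le_mul_of_nonneg_right h2n
        rw [zero_mul, add_zero]
        positivity

end Crest.Agent.TI
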