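import Crest.Agent.TISphere

set_option autoImplicit false
set_option linter.all false

namespace Crest.Agent.TI
namespace Key
open Finset

variable {d : ℕ}

lemma par_iter (j : ℕ) (u : W d) : (W.par^[j] u).1 = u.1.drop j := by
  induction j generalizing u with
  | zero => rfl
  | succ j ih =>
    rw [Function.iterate_succ_apply, ih]
    change List.drop j (u.1.tail) = _
    rw [← List.drop_one, List.drop_drop, add_comm]

lemma len_par_iter (j : ℕ) (u : W d) : (W.par^[j] u).len = u.len - j := by
  unfold W.len; rw [par_iter]; simp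

/-- first `j` letters -/
def tk (j : ℕ) (u : W d) : W d := ⟨u.1.take j, u.2.take j⟩

lemma len_tk (j : ℕ) (u : W d) (h : j ≤ u.len) : (tk j u).len = j := by
  unfold W.len tk
  simp only [List.length_take]
  exact min_eq_left h

lemma foldr_nb_root (l : List (Fin d)) (hl : l.IsChain (· ≠ ·)) :
    (l.foldr W.nb (W.root : W d)).1 = l := by
  have h : W.tr (W.root : W d) (⟨l, hl⟩ : W d) = ⟨l, hl⟩ := W.root_tr _
  have := congrArg Subtype.val h
  exact this

lemma tr_inv_par (j : ℕ) (u : W d) : W.tr (W.inv (W.par^[j] u)) u = tk j u := by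
  apply Subtype.ext
  set z := W.par^[j] u with hz
  have h1 : u.1 = u.1.take j ++ z.1 := by rw [hz, par_iter, List.take_append_drop]
  have h2 : W.tr (W.inv z) u = (u.1.take j).foldr W.nb (z.1.foldr W.nb (W.inv z)) := by
    unfold W.tr
    conv_lhs => rw [h1]
    rw [List.foldr_append]
  have h3 : z.1.foldr W.nb (W.inv z) = W.root := W.tr_inv' z
  rw [h2, h3, foldr_nb_root _ (u.2.take j)]
  rfl

lemma tr_inv_inj {z u z' u' : W d} (h1 : z = z') (h2 : W.tr (W.inv z) u = W.tr (W.inv z') u') : u = u' := by
  subst h1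
  have := congrArg (W.tr z) h2
  rwa [W.tr_tr_inv, W.tr_tr_inv] at this

lemma sum_sphere_inv {M : Type*} [AddCommMonoid M] (k : ℕ) (g : W d → M) :
    ∑ u ∈ W.sphere d k, g (W.inv u) = ∑ u ∈ W.sphere d k, g u := by
  apply Finset.sum_nbij' W.inv W.inv
  · intro u hu
    rw [W.mem_sphere] at hu ⊢
    rw [W.len_inv, hu]
  · intro u hu
    rw [W.mem_sphere] at hu ⊢
    rw [W.len_inv, hu]
  · intro u _; simp
  · intro u _; simp
  · intro u _; rfl

/-- double counting for the hybrid sum -/
lemma sum_hybrid (k j : ℕ) (hj : j ≤ k) (A B : W d → ENNReal) :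
    ∑ u ∈ W.sphere d k, A (W.inv (W.par^[j] u)) * B (W.tr (W.inv (W.par^[j] u)) u) ≤
      (∑ a ∈ W.sphere d (k - j), A a) * ∑ b ∈ W.sphere d j, B b := by
  rw [Finset.sum_mul_sum, ← Finset.sum_product']
  set ψ : W d → W d × W d := fun u => (W.inv (W.par^[j] u), W.tr (W.inv (W.par^[j] u)) u) with hψ
  have hinj : Set.InjOn ψ (W.sphere d k : Set (W d)) := by
    intro u _ u' _ h
    simp only [hψ, Prod.mk.injEq] at h
    have h1 : W.par^[j] u = W.par^[j] u' := by
      have := congrArg W.inv h.1
      simpa using this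
    exact tr_inv_inj h1 h.2
  have : ∑ u ∈ W.sphere d k, A (W.inv (W.par^[j] u)) * B (W.tr (W.inv (W.par^[j] u)) u) =
      ∑ p ∈ (W.sphere d k).image ψ, A p.1 * B p.2 := by
    rw [Finset.sum_image hinj]
  rw [this]
  apply Finset.sum_le_sum_of_subset
  intro p hp
  rw [Finset.mem_image] at hp
  obtain ⟨u, hu, rfl⟩ := hp
  rw [W.mem_sphere] at hu
  rw [Finset.mem_product, W.mem_sphere, W.mem_sphere]
  simp only [hψ]
  rw [W.len_inv, len_par_iter, tr_inv_par, len_tk _ _ (by omega), hu]
  exact ⟨rfl, rfl⟩

lemma sphere_card_le' (hd : 3 ≤ d) (n : ℕ) : ((W.sphere d n).card : ℝ) ≤ 2 * ((d : ℝ) - 1) ^ n :=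
  W.card_sphere_le (by omega) n

/-- middle block -/
noncomputable def blk (j j' : ℕ) (u : W d) : Option (Fin d) × Option (Fin d) × W d :=
  ((W.par^[j] u).head?, (W.par^[j'] u).head?, W.tr (W.inv (W.par^[j' + 1] u)) (W.par^[j + 1] u))

lemma blk_x (j j' : ℕ) (hjj : j ≤ j') (u : W d) :
    (W.tr (W.inv (W.par^[j' + 1] u)) (W.par^[j + 1] u)).1 = (u.1.drop (j + 1)).take (j' - j) := by
  have h1 : W.par^[j' + 1] u = W.par^[j' - j] (W.par^[j + 1] u) := by
    rw [← Function.iterate_add_apply]; congr 1; omega
  rw [h1, tr_inv_par]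
  change (W.par^[j + 1] u).1.take (j' - j) = _
  rw [par_iter]

lemma fiber_card (hd : 3 ≤ d) (k j j' : ℕ) (hjj : j ≤ j') (hk : j' < k)
    (t : Option (Fin d) × Option (Fin d) × W d) [DecidablePred fun u : W d => blk j j' u = t] :
    (((W.sphere d k).filter (fun u => blk j j' u = t)).card : ℝ) ≤
      4 * ((d : ℝ) - 1) ^ (k - 1 - (j' - j)) := by
  have h1 : ((W.sphere d k).filter (fun u => blk j j' u = t)).card ≤
      (W.sphere d j ×ˢ W.sphere d (k - (j' + 1))).card := by
    apply Finset.card_le_card_of_injOn (fun u => (tk j u, W.par^[j' + 1] u))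
    · intro u hu
      simp only [Finset.coe_filter, Set.mem_ofPred_eq, W.mem_sphere] at hu
      simp only [Finset.coe_product, Set.mem_prod, Finset.mem_coe, W.mem_sphere]
      rw [len_tk _ _ (by omega), len_par_iter]
      omega
    · intro u hu u' hu' h
      simp only [Finset.coe_filter, Set.mem_ofPred_eq, W.mem_sphere] at hu hu'
      simp only [Prod.mk.injEq] at h
      have hb : blk j j' u = blk j j' u' := hu.2.trans hu'.2.symm
      simp only [blk, Prod.mk.injEq] at hb
      obtain ⟨hb1, hb2, hb3⟩ := hb
      have e1 : u.1.take j = u'.1.take j := congrArg Subtype.val h.1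
      have e2 : u.1.drop (j' + 1) = u'.1.drop (j' + 1) := by
        have := congrArg Subtype.val h.2
        rwa [par_iter, par_iter] at this
      have e3 : (u.1.drop (j + 1)).take (j' - j) = (u'.1.drop (j + 1)).take (j' - j) := by
        have := congrArg Subtype.val hb3
        rwa [blk_x j j' hjj, blk_x j j' hjj] at this
      have e4 : (u.1.drop j).head? = (u'.1.drop j).head? := by
        have a1 : (W.par^[j] u).head? = (u.1.drop j).head? := by
          unfold W.head?; rw [par_iter]
        have a2 : (W.par^[j] u').head? = (u'.1.drop j).head? := by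
          unfold W.head?; rw [par_iter]
        rw [← a1, ← a2, hb1]
      apply Subtype.ext
      have hl : u.1.length = k := hu.1
      have hl' : u'.1.length = k := hu'.1
      -- compare elementwise
      apply List.ext_getElem?
      intro i
      rcases lt_trichotomy i j with hi | hi | hi
      · have a := congrArg (fun l => l[i]?) e1
        simpa [List.getElem?_take, hi] using a
      · subst hi
        simpa [List.head?_drop] using e4
      · rcases le_or_gt i j' with hi2 | hi2
        · have a := congrArg (fun l => l[i - (j + 1)]?) e3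
          simp only [List.getElem?_take, List.getElem?_drop] at a
          have b1 : i - (j + 1) < j' - j := by omega
          have b2 : j + 1 + (i - (j + 1)) = i := by omega
          simpa [b1, b2] using a
        · have a := congrArg (fun l => l[i - (j' + 1)]?) e2
          simp only [List.getElem?_drop] at a
          have b2 : j' + 1 + (i - (j' + 1)) = i := by omega
          simpa [b2] using a
  have h2 : (((W.sphere d k).filter (fun u => blk j j' u = t)).card : ℝ) ≤
      ((W.sphere d j).card : ℝ) * (W.sphere d (k - (j' + 1))).card := by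
    rw [Finset.card_product] at h1
    exact_mod_cast h1
  refine h2.trans ?_
  have hd' : (3 : ℝ) ≤ d := by exact_mod_cast hd
  calc _ ≤ (2 * ((d : ℝ) - 1) ^ j) * (2 * ((d : ℝ) - 1) ^ (k - (j' + 1))) :=
        mul_le_mul (sphere_card_le' hd _) (sphere_card_le' hd _) (Nat.cast_nonneg _)
          (by have : (0 : ℝ) ≤ (d : ℝ) - 1 := by linarith
              positivity)
    _ = 4 * ((d : ℝ) - 1) ^ (k - 1 - (j' - j)) := by
        have : k - 1 - (j' - j) = j + (k - (j' + 1)) := by omega
        rw [this, pow_add]; ring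

end Key
end Crest.Agent.TI
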