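import Crest.Agent.TIKeyB

set_option autoImplicit false
set_option linter.all false

namespace Crest.Agent.TI
namespace Key
open Finset MeasureTheory KeyBase

variable {d : ℕ} {θ : ℝ} {μy : Measure ℝ} {ρ : Measure ((W d → ℝ) × (W d → ℝ))}

section
variable (h0 : 0 ≤ θ) (h1 : θ < 1)
include h0 h1

lemma bpart (hρ : PairLaw θ μy ρ) (hG : ∀ᵐ y ∂(fieldLaw d θ μy), Good θ y) (k : ℕ) :
    ∑ u ∈ W.sphere d k, ∫⁻ q, ENNReal.ofReal (covR θ q.2 u ^ 2 *
        (mR θ (q.1 ∘ W.tr u) - mR θ (q.2 ∘ W.tr u)) ^ 2) ∂ρ ≤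
      ∫⁻ q, ENNReal.ofReal ((mR θ q.1 - mR θ q.2) ^ 2 * QQ θ q.2 k) ∂ρ := by
  have hG2 := ae_snd hρ hG
  have hstep : ∀ u ∈ W.sphere d k, ∫⁻ q, ENNReal.ofReal (covR θ q.2 u ^ 2 *
        (mR θ (q.1 ∘ W.tr u) - mR θ (q.2 ∘ W.tr u)) ^ 2) ∂ρ ≤
      ∫⁻ q, ENNReal.ofReal ((mR θ q.1 - mR θ q.2) ^ 2 * cpr θ q.2 (W.inv u) ^ 2) ∂ρ := by
    intro u _
    set F : (W d → ℝ) × (W d → ℝ) → ENNReal := fun q =>
      ENNReal.ofReal ((mR θ q.1 - mR θ q.2) ^ 2 * cpr θ q.2 (W.inv u) ^ 2) with hF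
    have mF : Measurable F := by
      apply Measurable.ennreal_ofReal
      exact ((((measurable_mR θ).comp measurable_fst).sub ((measurable_mR θ).comp measurable_snd)).pow_const 2).mul
        (((meas_cpr _).comp measurable_snd).pow_const 2)
    calc _ ≤ ∫⁻ q, F (q.1 ∘ W.tr u, q.2 ∘ W.tr u) ∂ρ := by
          apply lintegral_mono_ae
          filter_upwards [hG2] with q hq
          simp only [hF]
          apply ENNReal.ofReal_le_ofReal
          rw [covR_recenter h0 h1 hq u, mul_comm]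
          apply mul_le_mul_of_nonneg_left _ (sq_nonneg _)
          exact pow_le_pow_left₀ (covR_nonneg h0 h1 _ _) (covR_le h0 h1 _ _) 2
      _ = ∫⁻ q, F q ∂ρ := transl_l hρ u mF
  refine (Finset.sum_le_sum hstep).trans ?_
  rw [sum_sphere_inv (M := ENNReal) k (fun u => ∫⁻ q, ENNReal.ofReal ((mR θ q.1 - mR θ q.2) ^ 2 * cpr θ q.2 u ^ 2) ∂ρ),
    ← lintegral_finsetSum]
  · apply lintegral_mono
    intro q
    simp only
    rw [← ENNReal.ofReal_sum_of_nonneg (fun u _ => by positivity), ← Finset.mul_sum]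
    exact le_rfl
  · intro u _
    apply Measurable.ennreal_ofReal
    exact ((((measurable_mR θ).comp measurable_fst).sub ((measurable_mR θ).comp measurable_snd)).pow_const 2).mul
        (((meas_cpr _).comp measurable_snd).pow_const 2)

lemma far (hρ : PairLaw θ μy ρ) (hG : ∀ᵐ y ∂(fieldLaw d θ μy), Good θ y) (k : ℕ) :
    ∑ u ∈ W.sphere d k, ∫⁻ q, ENNReal.ofReal ((covR θ q.1 u - covR θ q.2 u) ^ 2) ∂ρ ≤
      ∑ j ∈ Finset.range (k + 1), ENNReal.ofReal (4 * ((k : ℝ) + 1)) *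
        ∫⁻ q, ENNReal.ofReal (Fd θ q.1 q.2 ^ 2 * (QQ θ q.1 (k - j) * QQ θ q.2 j)) ∂ρ := by
  have hG1 := ae_fst hρ hG
  have hG2 := ae_snd hρ hG
  set H : ℕ → W d → (W d → ℝ) × (W d → ℝ) → ENNReal := fun j u q =>
    ENNReal.ofReal (Fd θ q.1 q.2 ^ 2) * (ENNReal.ofReal (cpr θ q.1 (W.inv (W.par^[j] u)) ^ 2) *
      ENNReal.ofReal (cpr θ q.2 (W.tr (W.inv (W.par^[j] u)) u) ^ 2)) with hH
  have mH : ∀ j u, Measurable (H j u) := by
    intro j u
    exact (meas_Fd.pow_const 2).ennreal_ofReal.mul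
      ((((meas_cpr _).comp measurable_fst).pow_const 2).ennreal_ofReal.mul
        (((meas_cpr _).comp measurable_snd).pow_const 2).ennreal_ofReal)
  have hstep : ∀ u ∈ W.sphere d k, ∫⁻ q, ENNReal.ofReal ((covR θ q.1 u - covR θ q.2 u) ^ 2) ∂ρ ≤
      ∑ j ∈ Finset.range (k + 1), ENNReal.ofReal (4 * ((k : ℝ) + 1)) * ∫⁻ q, H j u q ∂ρ := by
    intro u hu
    have hu' : u.len = k := W.mem_sphere.1 hu
    calc _ ≤ ∫⁻ q, ∑ j ∈ Finset.range (k + 1), ENNReal.ofReal (4 * ((k : ℝ) + 1)) *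
          H j u (q.1 ∘ W.tr (W.par^[j] u), q.2 ∘ W.tr (W.par^[j] u)) ∂ρ := by
          apply lintegral_mono_ae
          filter_upwards [hG1, hG2] with q hq1 hq2
          have hT := covR_hybrid h0 h1 hq1 hq2 u
          rw [hu'] at hT
          set t : ℕ → ℝ := fun j => 2 * Fd θ (q.1 ∘ W.tr (W.par^[j] u)) (q.2 ∘ W.tr (W.par^[j] u)) *
            cpr θ (q.1 ∘ W.tr (W.par^[j] u)) (W.inv (W.par^[j] u)) *
            cpr θ (q.2 ∘ W.tr (W.par^[j] u)) (W.tr (W.inv (W.par^[j] u)) u) with ht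
          have hsq : (covR θ q.1 u - covR θ q.2 u) ^ 2 ≤ ((k : ℝ) + 1) * ∑ j ∈ Finset.range (k + 1), t j ^ 2 := by
            calc (covR θ q.1 u - covR θ q.2 u) ^ 2 = |covR θ q.1 u - covR θ q.2 u| ^ 2 := (sq_abs _).symm
              _ ≤ (∑ j ∈ Finset.range (k + 1), t j) ^ 2 := pow_le_pow_left₀ (abs_nonneg _) hT 2
              _ ≤ ((Finset.range (k + 1)).card : ℝ) * ∑ j ∈ Finset.range (k + 1), t j ^ 2 :=
                  sq_sum_le_card_mul_sum_sq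
              _ = _ := by rw [Finset.card_range]; push_cast; ring
          refine (ENNReal.ofReal_le_ofReal hsq).trans ?_
          rw [Finset.mul_sum, ENNReal.ofReal_sum_of_nonneg (fun j _ => by positivity)]
          apply Finset.sum_le_sum
          intro j _
          simp only [hH]
          rw [← ENNReal.ofReal_mul (by positivity), ← ENNReal.ofReal_mul (by positivity),
            ← ENNReal.ofReal_mul (by positivity)]
          apply ENNReal.ofReal_le_ofReal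
          apply le_of_eq
          simp only [ht]
          ring
      _ = ∑ j ∈ Finset.range (k + 1), ENNReal.ofReal (4 * ((k : ℝ) + 1)) *
          ∫⁻ q, H j u (q.1 ∘ W.tr (W.par^[j] u), q.2 ∘ W.tr (W.par^[j] u)) ∂ρ := by
          rw [lintegral_finsetSum]
          · apply Finset.sum_congr rfl
            intro j _
            exact lintegral_const_mul _ ((mH j u).comp (meas_trp _))
          · intro j _
            exact ((mH j u).comp (meas_trp _)).const_mul _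
      _ = _ := by
          apply Finset.sum_congr rfl
          intro j _
          rw [transl_l hρ _ (mH j u)]
  refine (Finset.sum_le_sum hstep).trans ?_
  rw [Finset.sum_comm]
  apply Finset.sum_le_sum
  intro j hj
  have hjk : j ≤ k := by rw [Finset.mem_range] at hj; omega
  rw [← Finset.mul_sum]
  gcongr
  rw [← lintegral_finsetSum _ fun u _ => mH j u]
  apply lintegral_mono
  intro q
  simp only [hH]
  rw [← Finset.mul_sum, ENNReal.ofReal_mul (sq_nonneg _)]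
  gcongr
  refine (sum_hybrid k j hjk (fun a => ENNReal.ofReal (cpr θ q.1 a ^ 2))
    (fun b => ENNReal.ofReal (cpr θ q.2 b ^ 2))).trans ?_
  rw [ENNReal.ofReal_mul (QQ_nonneg h0 h1 _ _)]
  unfold QQ
  rw [ENNReal.ofReal_sum_of_nonneg (fun _ _ => sq_nonneg _), ENNReal.ofReal_sum_of_nonneg (fun _ _ => sq_nonneg _)]

/-- final form of the far part -/
lemma far' (hd : 3 ≤ d) (hb : ((d : ℝ) - 1) * θ ^ 2 ≤ 1) (hρ : PairLaw θ μy ρ)
    (hG : ∀ᵐ y ∂(fieldLaw d θ μy), Good θ y)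
    {q0 : ℝ} (hq0 : 0 < q0) (hq1 : q0 < 1)
    (htail : ∀ n : ℕ, (fieldLaw d θ μy).real {y | 4 * q0 ^ (n / 2) < QQ θ y n} ≤
      Real.exp (-(Real.sqrt ((d : ℝ) - 1)) ^ (n / 2)))
    {M : ℝ} (hM : 0 ≤ M) (hFM : ∀ᵐ q ∂ρ, Fd θ q.1 q.2 ^ 2 ≤ M) (k : ℕ) :
    ∑ u ∈ W.sphere d k, ∫⁻ q, ENNReal.ofReal ((covR θ q.1 u - covR θ q.2 u) ^ 2) ∂ρ ≤
      ENNReal.ofReal (32 * ((k : ℝ) + 1) ^ 2 * q0 ^ (k / 4)) * ∫⁻ q, ENNReal.ofReal (Fd θ q.1 q.2 ^ 2) ∂ρ +
        ENNReal.ofReal (16 * M * ((k : ℝ) + 1) ^ 2 * Real.exp (-(Real.sqrt ((d : ℝ) - 1)) ^ (k / 4))) := by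
  have hd' : (3 : ℝ) ≤ d := by exact_mod_cast hd
  haveI := hρ.prob
  refine (far h0 h1 hρ hG k).trans ?_
  have hterm : ∀ j ∈ Finset.range (k + 1), ENNReal.ofReal (4 * ((k : ℝ) + 1)) *
        ∫⁻ q, ENNReal.ofReal (Fd θ q.1 q.2 ^ 2 * (QQ θ q.1 (k - j) * QQ θ q.2 j)) ∂ρ ≤
      ENNReal.ofReal (4 * ((k : ℝ) + 1)) * (ENNReal.ofReal 2 * (ENNReal.ofReal (4 * q0 ^ (k / 4)) *
        ∫⁻ q, ENNReal.ofReal (Fd θ q.1 q.2 ^ 2) ∂ρ +
        ENNReal.ofReal (2 * M * Real.exp (-(Real.sqrt ((d : ℝ) - 1)) ^ (k / 4))))) := by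
    intro j hj
    have hjk : j ≤ k := by rw [Finset.mem_range] at hj; omega
    gcongr
    have hs1 : 1 ≤ Real.sqrt ((d : ℝ) - 1) := by
      rw [Real.one_le_sqrt]; linarith
    have hmono : ∀ n, k / 2 ≤ n → 
        ENNReal.ofReal (4 * q0 ^ (n / 2)) * ∫⁻ q, ENNReal.ofReal (Fd θ q.1 q.2 ^ 2) ∂ρ +
        ENNReal.ofReal (2 * M * Real.exp (-(Real.sqrt ((d : ℝ) - 1)) ^ (n / 2))) ≤
        ENNReal.ofReal (4 * q0 ^ (k / 4)) * ∫⁻ q, ENNReal.ofReal (Fd θ q.1 q.2 ^ 2) ∂ρ +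
        ENNReal.ofReal (2 * M * Real.exp (-(Real.sqrt ((d : ℝ) - 1)) ^ (k / 4))) := by
      intro n hn
      have hn4 : k / 4 ≤ n / 2 := by omega
      have e1 : q0 ^ (n / 2) ≤ q0 ^ (k / 4) := pow_le_pow_of_le_one hq0.le hq1.le hn4
      have e2 : (Real.sqrt ((d : ℝ) - 1)) ^ (k / 4) ≤ (Real.sqrt ((d : ℝ) - 1)) ^ (n / 2) :=
        pow_le_pow_right₀ hs1 hn4
      gcongr
    by_cases hj2 : k / 2 ≤ j
    · refine le_trans ?_ (mul_le_mul_right (hmono j hj2) (ENNReal.ofReal 2))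
      refine le_trans ?_ (mul_le_mul_right (tail h0 h1 hd hb measurable_snd hρ.snd hq0 j (htail j)
        (F := fun q => Fd θ q.1 q.2 ^ 2) (meas_Fd.pow_const 2) (fun q => sq_nonneg _) hM hFM) (ENNReal.ofReal 2))
      have mm : Measurable (fun q : (W d → ℝ) × (W d → ℝ) => ENNReal.ofReal (Fd θ q.1 q.2 ^ 2 * QQ θ q.2 j)) :=
        ((meas_Fd.pow_const 2).mul ((meas_QQ j).comp measurable_snd)).ennreal_ofReal
      have e : ∫⁻ q, ENNReal.ofReal 2 * ENNReal.ofReal (Fd θ q.1 q.2 ^ 2 * QQ θ q.2 j) ∂ρ =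
        ENNReal.ofReal 2 * ∫⁻ q, ENNReal.ofReal (Fd θ q.1 q.2 ^ 2 * QQ θ q.2 j) ∂ρ := lintegral_const_mul _ mm
      rw [← e]
      apply lintegral_mono
      intro q
      simp only
      rw [← ENNReal.ofReal_mul (by norm_num)]
      apply ENNReal.ofReal_le_ofReal
      have a1 := QQ_le h0 h1 hd hb q.1 (k - j)
      have a2 := QQ_nonneg h0 h1 q.2 j
      have a3 : 0 ≤ Fd θ q.1 q.2 ^ 2 := sq_nonneg _
      calc Fd θ q.1 q.2 ^ 2 * (QQ θ q.1 (k - j) * QQ θ q.2 j) ≤ Fd θ q.1 q.2 ^ 2 * (2 * QQ θ q.2 j) := by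
            gcongr
        _ = _ := by ring
    · have hj3 : k / 2 ≤ k - j := by omega
      refine le_trans ?_ (mul_le_mul_right (hmono (k - j) hj3) (ENNReal.ofReal 2))
      refine le_trans ?_ (mul_le_mul_right (tail h0 h1 hd hb measurable_fst hρ.fst hq0 (k - j) (htail (k - j))
        (F := fun q => Fd θ q.1 q.2 ^ 2) (meas_Fd.pow_const 2) (fun q => sq_nonneg _) hM hFM) (ENNReal.ofReal 2))
      have mm : Measurable (fun q : (W d → ℝ) × (W d → ℝ) => ENNReal.ofReal (Fd θ q.1 q.2 ^ 2 * QQ θ q.1 (k - j))) :=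
        ((meas_Fd.pow_const 2).mul ((meas_QQ (k - j)).comp measurable_fst)).ennreal_ofReal
      have e : ∫⁻ q, ENNReal.ofReal 2 * ENNReal.ofReal (Fd θ q.1 q.2 ^ 2 * QQ θ q.1 (k - j)) ∂ρ =
        ENNReal.ofReal 2 * ∫⁻ q, ENNReal.ofReal (Fd θ q.1 q.2 ^ 2 * QQ θ q.1 (k - j)) ∂ρ := lintegral_const_mul _ mm
      rw [← e]
      apply lintegral_mono
      intro q
      simp only
      rw [← ENNReal.ofReal_mul (by norm_num)]
      apply ENNReal.ofReal_le_ofReal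
      have a1 := QQ_le h0 h1 hd hb q.2 j
      have a2 := QQ_nonneg h0 h1 q.1 (k - j)
      have a3 : 0 ≤ Fd θ q.1 q.2 ^ 2 := sq_nonneg _
      calc Fd θ q.1 q.2 ^ 2 * (QQ θ q.1 (k - j) * QQ θ q.2 j) ≤ Fd θ q.1 q.2 ^ 2 * (QQ θ q.1 (k - j) * 2) := by
            gcongr
        _ = _ := by ring
  refine (Finset.sum_le_sum hterm).trans ?_
  rw [Finset.sum_const, Finset.card_range, nsmul_eq_mul]
  have hk : (((k + 1 : ℕ)) : ENNReal) = ENNReal.ofReal ((k : ℝ) + 1) := by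
    rw [← ENNReal.ofReal_natCast]; push_cast; rfl
  have hdist : ∀ a b c x y : ENNReal, a * (b * (c * (x + y))) = a * (b * (c * x)) + a * (b * (c * y)) := by
    intro a b c x y; ring
  rw [hk, hdist]
  have e3 : ENNReal.ofReal ((k : ℝ) + 1) * (ENNReal.ofReal (4 * ((k : ℝ) + 1)) * (ENNReal.ofReal 2 *
      (ENNReal.ofReal (4 * q0 ^ (k / 4)) * ∫⁻ q, ENNReal.ofReal (Fd θ q.1 q.2 ^ 2) ∂ρ))) =
      ENNReal.ofReal (32 * ((k : ℝ) + 1) ^ 2 * q0 ^ (k / 4)) * ∫⁻ q, ENNReal.ofReal (Fd θ q.1 q.2 ^ 2) ∂ρ := by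
    rw [← mul_assoc, ← mul_assoc, ← mul_assoc, ← ENNReal.ofReal_mul (by positivity),
      ← ENNReal.ofReal_mul (by positivity), ← ENNReal.ofReal_mul (by positivity)]
    congr 2
    ring
  have e4 : ENNReal.ofReal ((k : ℝ) + 1) * (ENNReal.ofReal (4 * ((k : ℝ) + 1)) * (ENNReal.ofReal 2 *
      ENNReal.ofReal (2 * M * Real.exp (-(Real.sqrt ((d : ℝ) - 1)) ^ (k / 4))))) =
      ENNReal.ofReal (16 * M * ((k : ℝ) + 1) ^ 2 * Real.exp (-(Real.sqrt ((d : ℝ) - 1)) ^ (k / 4))) := by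
    rw [← ENNReal.ofReal_mul (by norm_num),
      ← ENNReal.ofReal_mul (by positivity), ← ENNReal.ofReal_mul (by positivity)]
    congr 1
    ring
  rw [e3, e4]

end

end Key
end Crest.Agent.TI
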