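import Crest.Agent.TIKeyC

set_option autoImplicit false
set_option linter.all false

namespace Crest.Agent.TI
namespace Key
open Finset MeasureTheory KeyBase

variable {d : ℕ} {θ : ℝ} {μy : Measure ℝ} {ρ : Measure ((W d → ℝ) × (W d → ℝ))}

/-- bounded measurable -/
def Bm {Ω : Type*} [MeasurableSpace Ω] (f : Ω → ℝ) : Prop := Measurable f ∧ ∃ C, ∀ x, |f x| ≤ C

section Bm
variable {Ω : Type*} [MeasurableSpace Ω] {f g : Ω → ℝ}

lemma Bm.int (hf : Bm f) (μ : Measure Ω) [IsProbabilityMeasure μ] : Integrable f μ := by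
  obtain ⟨h1, C, hC⟩ := hf
  exact Integrable.of_bound h1.aestronglyMeasurable C (Filter.Eventually.of_forall fun x => by
    rw [Real.norm_eq_abs]; exact hC x)

lemma Bm.add (hf : Bm f) (hg : Bm g) : Bm (fun ω => f ω + g ω) := by
  obtain ⟨h1, C, hC⟩ := hf
  obtain ⟨h2, D, hD⟩ := hg
  exact ⟨h1.add h2, C + D, fun ω => (abs_add_le _ _).trans (add_le_add (hC ω) (hD ω))⟩

lemma Bm.sub (hf : Bm f) (hg : Bm g) : Bm (fun ω => f ω - g ω) := by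
  obtain ⟨h1, C, hC⟩ := hf
  obtain ⟨h2, D, hD⟩ := hg
  exact ⟨h1.sub h2, C + D, fun ω => (abs_sub _ _).trans (add_le_add (hC ω) (hD ω))⟩

lemma Bm.mul (hf : Bm f) (hg : Bm g) : Bm (fun ω => f ω * g ω) := by
  obtain ⟨h1, C, hC⟩ := hf
  obtain ⟨h2, D, hD⟩ := hg
  refine ⟨h1.mul h2, C * D, fun ω => ?_⟩
  rw [abs_mul]
  exact mul_le_mul (hC ω) (hD ω) (abs_nonneg _) ((abs_nonneg _).trans (hC ω))

lemma Bm.sq (hf : Bm f) : Bm (fun ω => f ω ^ 2) := by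
  simpa only [_root_.sq] using hf.mul hf

lemma Bm.sum {ι : Type*} (s : Finset ι) {f : ι → Ω → ℝ} (hf : ∀ i ∈ s, Bm (f i)) :
    Bm (fun ω => ∑ i ∈ s, f i ω) := by
  classical
  induction s using Finset.induction_on with
  | empty => exact ⟨by simp, 0, by simp⟩
  | insert a s ha ih =>
    simp only [Finset.sum_insert ha]
    exact (hf a (Finset.mem_insert_self _ _)).add (ih fun i hi => hf i (Finset.mem_insert_of_mem hi))

lemma Bm.const (c : ℝ) : Bm (fun _ : Ω => c) := ⟨measurable_const, |c|, fun _ => le_rfl⟩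

lemma Bm.comp (hf : Bm f) {Ω' : Type*} [MeasurableSpace Ω'] {φ : Ω' → Ω} (hφ : Measurable φ) :
    Bm (fun x => f (φ x)) := by
  obtain ⟨h1, C, hC⟩ := hf
  exact ⟨h1.comp hφ, C, fun _ => hC _⟩

lemma Bm.abs (hf : Bm f) : Bm (fun ω => |f ω|) := by
  obtain ⟨h1, C, hC⟩ := hf
  exact ⟨_root_.continuous_abs.measurable.comp h1, C, fun x => by rw [abs_abs]; exact hC x⟩

end Bm

lemma Bm_mR : Bm (fun y : W d → ℝ => mR θ y) := ⟨measurable_mR θ, 1, fun y => mR_abs y⟩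

lemma Bm_dm : Bm (fun q : (W d → ℝ) × (W d → ℝ) => mR θ q.1 - mR θ q.2) :=
  (Bm_mR.comp measurable_fst).sub (Bm_mR.comp measurable_snd)

lemma Bm_dm_tr (v : W d) : Bm (fun q : (W d → ℝ) × (W d → ℝ) =>
      (mR θ (q.1 ∘ W.tr v) - mR θ (q.2 ∘ W.tr v)) ^ 2) := by
  have h := Bm.comp (Bm_dm (d := d) (θ := θ)).sq (meas_trp v)
  exact h

/-- message at a neighbour -/
noncomputable def Tn (θ : ℝ) (i : Fin d) (y : W d → ℝ) : ℝ := Real.tanh (msgI θ y (W.nb i W.root))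

lemma measurable_tanh : Measurable Real.tanh := by
  have : Real.tanh = fun x => Real.sinh x / Real.cosh x := by
    funext x; exact Real.tanh_eq_sinh_div_cosh x
  rw [this]
  exact Real.measurable_sinh.div Real.measurable_cosh

lemma pt1 {C a b t : ℝ} (hC : 0 ≤ C) (h : |t| ≤ C * (|a| + |b|)) : t ^ 2 ≤ 2 * C ^ 2 * (a ^ 2 + b ^ 2) := by
  have h3 : t ^ 2 ≤ (C * (|a| + |b|)) ^ 2 := by
    rw [← sq_abs t]
    exact pow_le_pow_left₀ (abs_nonneg _) h 2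
  refine h3.trans ?_
  have h4 : (|a| + |b|) ^ 2 ≤ 2 * (a ^ 2 + b ^ 2) := by
    have := sq_nonneg (|a| - |b|)
    nlinarith [sq_abs a, sq_abs b]
  calc (C * (|a| + |b|)) ^ 2 = C ^ 2 * (|a| + |b|) ^ 2 := by ring
    _ ≤ C ^ 2 * (2 * (a ^ 2 + b ^ 2)) := mul_le_mul_of_nonneg_left h4 (sq_nonneg _)
    _ = _ := by ring

lemma Bm_Tn (i : Fin d) : Bm (fun y : W d → ℝ => Tn θ i y) :=
  ⟨measurable_tanh.comp (measurable_msgI θ _), 1, fun y => (Real.abs_tanh_lt_one _).le⟩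

/-- the basic quantity -/
noncomputable def RR (θ : ℝ) (ρ : Measure ((W d → ℝ) × (W d → ℝ))) : ℝ :=
  ∫ q, (mR θ q.1 - mR θ q.2) ^ 2 ∂ρ

lemma RR_nonneg : 0 ≤ RR θ ρ := integral_nonneg fun _ => sq_nonneg _

lemma RR_tr (hρ : PairLaw θ μy ρ) (v : W d) :
    ∫ q, (mR θ (q.1 ∘ W.tr v) - mR θ (q.2 ∘ W.tr v)) ^ 2 ∂ρ = RR θ ρ :=
  transl_i hρ v (F := fun q => (mR θ q.1 - mR θ q.2) ^ 2) (Bm_dm.sq).1

/-- L² bound of the neighbouring messages -/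
lemma Tn_bound (hρ : PairLaw θ μy ρ) (hG : ∀ᵐ y ∂(fieldLaw d θ μy), Good θ y) {C : ℝ} (hC : 0 < C)
    (h6 : ∀ y y' : W d → ℝ, Good θ y → Good θ y' →
    ∀ i, |Tn θ i y - Tn θ i y'| ≤
      C * (|mR θ y - mR θ y'| + |mR θ (y ∘ W.tr (W.nb i W.root)) - mR θ (y' ∘ W.tr (W.nb i W.root))|))
    (i : Fin d) : ∫ q, (Tn θ i q.1 - Tn θ i q.2) ^ 2 ∂ρ ≤ 4 * C ^ 2 * RR θ ρ := by
  haveI := hρ.prob
  have hT : Bm (fun q : (W d → ℝ) × (W d → ℝ) => (Tn θ i q.1 - Tn θ i q.2) ^ 2) :=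
    (((Bm_Tn i).comp measurable_fst).sub ((Bm_Tn i).comp measurable_snd)).sq
  have hm2 : Bm (fun q : (W d → ℝ) × (W d → ℝ) =>
      (mR θ (q.1 ∘ W.tr (W.nb i W.root)) - mR θ (q.2 ∘ W.tr (W.nb i W.root))) ^ 2) :=
    Bm_dm_tr _
  have hb : Bm (fun q : (W d → ℝ) × (W d → ℝ) => 2 * C ^ 2 * ((mR θ q.1 - mR θ q.2) ^ 2 +
      (mR θ (q.1 ∘ W.tr (W.nb i W.root)) - mR θ (q.2 ∘ W.tr (W.nb i W.root))) ^ 2)) :=
    (Bm.const _).mul ((Bm_dm.sq).add hm2)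
  calc _ ≤ ∫ q, 2 * C ^ 2 * ((mR θ q.1 - mR θ q.2) ^ 2 +
      (mR θ (q.1 ∘ W.tr (W.nb i W.root)) - mR θ (q.2 ∘ W.tr (W.nb i W.root))) ^ 2) ∂ρ := by
        apply integral_mono_ae (hT.int ρ) (hb.int ρ)
        filter_upwards [ae_fst hρ hG, ae_snd hρ hG] with q h1 h2
        exact pt1 hC.le (h6 q.1 q.2 h1 h2 i)
    _ = 2 * C ^ 2 * (RR θ ρ + RR θ ρ) := by
        have e1 : ∫ q, (mR θ q.1 - mR θ q.2) ^ 2 ∂ρ = RR θ ρ := rfl
        have e2 := RR_tr hρ (W.nb i W.root)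
        rw [integral_const_mul, integral_add ((Bm_dm.sq).int ρ) (hm2.int ρ), e1, e2]
    _ = 4 * C ^ 2 * RR θ ρ := by ring

lemma ofReal_RR (hρ : PairLaw θ μy ρ) :
    ∫⁻ q, ENNReal.ofReal ((mR θ q.1 - mR θ q.2) ^ 2) ∂ρ = ENNReal.ofReal (RR θ ρ) := by
  haveI := hρ.prob
  unfold RR
  rw [ofReal_integral_eq_lintegral_ofReal ((Bm_dm.sq).int ρ) (Filter.Eventually.of_forall fun _ => sq_nonneg _)]

/-- L² bound of `Fd` -/
lemma Fd_bound (hρ : PairLaw θ μy ρ) (hG : ∀ᵐ y ∂(fieldLaw d θ μy), Good θ y) {B : ℝ}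
    (hB : ∀ᵐ y ∂(fieldLaw d θ μy), ∀ v, |y v| ≤ B) {C6 C7 : ℝ} (hC6 : 0 < C6) (hC7 : 0 < C7)
    (h6 : ∀ y y' : W d → ℝ, Good θ y → Good θ y' →
    ∀ i, |Tn θ i y - Tn θ i y'| ≤
      C6 * (|mR θ y - mR θ y'| + |mR θ (y ∘ W.tr (W.nb i W.root)) - mR θ (y' ∘ W.tr (W.nb i W.root))|))
    (h7 : ∀ y y' : W d → ℝ, Good θ y → Good θ y' → (∀ v, |y v| ≤ B) → (∀ v, |y' v| ≤ B) →
      Fd θ y y' ≤ C7 * (|mR θ y - mR θ y'| + ∑ i, |Tn θ i y - Tn θ i y'|)) :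
    ∫⁻ q, ENNReal.ofReal (Fd θ q.1 q.2 ^ 2) ∂ρ ≤
      ENNReal.ofReal (C7 ^ 2 * (2 + 8 * d ^ 2 * C6 ^ 2) * RR θ ρ) := by
  haveI := hρ.prob
  have hT : ∀ i : Fin d, Bm (fun q : (W d → ℝ) × (W d → ℝ) => (Tn θ i q.1 - Tn θ i q.2) ^ 2) := fun i =>
    (((Bm_Tn i).comp measurable_fst).sub ((Bm_Tn i).comp measurable_snd)).sq
  have hb : Bm (fun q : (W d → ℝ) × (W d → ℝ) => C7 ^ 2 * (2 * (mR θ q.1 - mR θ q.2) ^ 2 +
      2 * d * ∑ i : Fin d, (Tn θ i q.1 - Tn θ i q.2) ^ 2)) :=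
    (Bm.const _).mul (((Bm.const _).mul Bm_dm.sq).add ((Bm.const _).mul (Bm.sum _ fun i _ => hT i)))
  calc _ ≤ ∫⁻ q, ENNReal.ofReal (C7 ^ 2 * (2 * (mR θ q.1 - mR θ q.2) ^ 2 +
      2 * d * ∑ i : Fin d, (Tn θ i q.1 - Tn θ i q.2) ^ 2)) ∂ρ := by
        apply lintegral_mono_ae
        filter_upwards [ae_fst hρ hG, ae_snd hρ hG, ae_fst hρ hB, ae_snd hρ hB] with q a1 a2 a3 a4
        apply ENNReal.ofReal_le_ofReal
        have := h7 q.1 q.2 a1 a2 a3 a4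
        have hF0 : 0 ≤ Fd θ q.1 q.2 := by
          unfold Fd
          exact add_nonneg (abs_nonneg _) (Finset.sum_nonneg fun _ _ => abs_nonneg _)
        set a := mR θ q.1 - mR θ q.2
        set S := ∑ i : Fin d, |Tn θ i q.1 - Tn θ i q.2| with hS
        have hS2 : S ^ 2 ≤ d * ∑ i : Fin d, (Tn θ i q.1 - Tn θ i q.2) ^ 2 := by
          have := sq_sum_le_card_mul_sum_sq (s := (Finset.univ : Finset (Fin d)))
            (f := fun i => |Tn θ i q.1 - Tn θ i q.2|)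
          simpa [sq_abs] using this
        calc Fd θ q.1 q.2 ^ 2 ≤ (C7 * (|a| + S)) ^ 2 := pow_le_pow_left₀ hF0 this 2
          _ = C7 ^ 2 * (|a| + S) ^ 2 := by ring
          _ ≤ C7 ^ 2 * (2 * a ^ 2 + 2 * S ^ 2) := by
              apply mul_le_mul_of_nonneg_left _ (sq_nonneg _)
              have := sq_nonneg (|a| - S)
              nlinarith [sq_abs a]
          _ ≤ _ := by
              apply mul_le_mul_of_nonneg_left _ (sq_nonneg _)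
              linarith
    _ = ENNReal.ofReal (∫ q, C7 ^ 2 * (2 * (mR θ q.1 - mR θ q.2) ^ 2 +
      2 * d * ∑ i : Fin d, (Tn θ i q.1 - Tn θ i q.2) ^ 2) ∂ρ) := by
        rw [ofReal_integral_eq_lintegral_ofReal (hb.int ρ) (Filter.Eventually.of_forall fun q => by positivity)]
    _ ≤ _ := by
        apply ENNReal.ofReal_le_ofReal
        rw [integral_const_mul, integral_add (((Bm.const _).mul Bm_dm.sq).int ρ)
          (((Bm.const _).mul (Bm.sum _ fun i _ => hT i)).int ρ), integral_const_mul, integral_const_mul,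
          integral_finsetSum _ fun i _ => (hT i).int ρ]
        have h8 : ∑ i : Fin d, ∫ q, (Tn θ i q.1 - Tn θ i q.2) ^ 2 ∂ρ ≤ ∑ _i : Fin d, 4 * C6 ^ 2 * RR θ ρ :=
          Finset.sum_le_sum fun i _ => Tn_bound hρ hG hC6 h6 i
        rw [Finset.sum_const, Finset.card_univ, Fintype.card_fin, nsmul_eq_mul] at h8
        have h9 : ∫ q, (mR θ q.1 - mR θ q.2) ^ 2 ∂ρ = RR θ ρ := rfl
        rw [h9]
        calc _ ≤ C7 ^ 2 * (2 * RR θ ρ + 2 * d * (d * (4 * C6 ^ 2 * RR θ ρ))) := by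
              gcongr
          _ = _ := by ring

end Key
end Crest.Agent.TI
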