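import Crest.Agent.TIKeyD

set_option autoImplicit false
set_option linter.all false

namespace Crest.Agent.TI
namespace Key
open Finset MeasureTheory KeyBase

variable {d : ℕ} {θ : ℝ} {μy : Measure ℝ} {ρ : Measure ((W d → ℝ) × (W d → ℝ))}

/-- clipped even functional of the neighbouring message -/
noncomputable def Gc (θ Mx : ℝ) (i : Fin d) (y : W d → ℝ) : ℝ :=
  min (GG θ (msgI θ y (W.nb i W.root))) Mx

/-- difference -/
noncomputable def dl (θ Mx : ℝ) : Option (Fin d) → (W d → ℝ) × (W d → ℝ) → ℝ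
  | none, _ => 0
  | some i, q => Gc θ Mx i q.1 - Gc θ Mx i q.2

lemma Bm_Gc (h0 : 0 ≤ θ) (h1 : θ < 1) {Mx : ℝ} (hMx : 0 ≤ Mx) (i : Fin d) :
    Bm (fun y : W d → ℝ => Gc θ Mx i y) := by
  refine ⟨((measurable_GG θ).comp (measurable_msgI θ _)).min measurable_const, Mx, fun y => ?_⟩
  unfold Gc
  rw [abs_of_nonneg (le_min (GG_nonneg h0 h1 _) hMx)]
  exact min_le_right _ _

lemma Bm_dl (h0 : 0 ≤ θ) (h1 : θ < 1) {Mx : ℝ} (hMx : 0 ≤ Mx) (o : Option (Fin d)) :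
    Bm (fun q : (W d → ℝ) × (W d → ℝ) => dl θ Mx o q) := by
  cases o with
  | none => exact Bm.const 0
  | some i => exact ((Bm_Gc h0 h1 hMx i).comp measurable_fst).sub ((Bm_Gc h0 h1 hMx i).comp measurable_snd)

/-- the increments of `log phid` along the path -/
noncomputable def Dl (θ Mx : ℝ) (j : ℕ) (u : W d) (q : (W d → ℝ) × (W d → ℝ)) : ℝ :=
  dl θ Mx ((W.par^[j] u).head?) (q.1 ∘ W.tr (W.par^[j + 1] u), q.2 ∘ W.tr (W.par^[j + 1] u))

lemma Bm_Dl (h0 : 0 ≤ θ) (h1 : θ < 1) {Mx : ℝ} (hMx : 0 ≤ Mx) (j : ℕ) (u : W d) :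
    Bm (fun q : (W d → ℝ) × (W d → ℝ) => Dl θ Mx j u q) := by
  have h := Bm.comp (Bm_dl h0 h1 hMx ((W.par^[j] u).head?)) (meas_trp (W.par^[j + 1] u))
  exact h

/-- the cross term function of a block -/
noncomputable def crs (θ Mx : ℝ) (ρ : Measure ((W d → ℝ) × (W d → ℝ)))
    (t : Option (Fin d) × Option (Fin d) × W d) : ℝ :=
  |∫ q, dl θ Mx t.2.1 q * dl θ Mx t.1 (q.1 ∘ W.tr t.2.2, q.2 ∘ W.tr t.2.2) ∂ρ|

lemma cross (h0 : 0 ≤ θ) (h1 : θ < 1) {Mx : ℝ} (hMx : 0 ≤ Mx) (hρ : PairLaw θ μy ρ) (j j' : ℕ)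
    (u : W d) : |∫ q, Dl θ Mx j u q * Dl θ Mx j' u q ∂ρ| = crs θ Mx ρ (blk j j' u) := by
  unfold crs blk
  simp only
  congr 1
  set x := W.tr (W.inv (W.par^[j' + 1] u)) (W.par^[j + 1] u) with hx
  set v' := W.par^[j' + 1] u with hv'
  have hB1 := Bm_dl h0 h1 hMx ((W.par^[j'] u).head?)
  have hB2 := Bm.comp (Bm_dl h0 h1 hMx ((W.par^[j] u).head?)) (meas_trp x)
  have hF := (hB1.mul hB2).1
  rw [← transl_i hρ v' hF]
  congr 1
  funext q
  unfold Dl
  have e1 : ∀ y : W d → ℝ, (y ∘ W.tr v') ∘ W.tr x = y ∘ W.tr (W.par^[j + 1] u) := by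
    intro y
    funext w
    simp only [Function.comp]
    rw [← W.tr_tr, hx, W.tr_tr_inv]
  rw [e1, e1, ← hv', mul_comm]

lemma cross_sum (hd : 3 ≤ d) (h0 : 0 ≤ θ) (h1 : θ < 1) {Mx : ℝ} (hMx : 0 ≤ Mx) (hρ : PairLaw θ μy ρ)
    (hG : ∀ᵐ y ∂(fieldLaw d θ μy), Good θ y) {Γ : ℝ}
    (hΓ : ∀ i, ∫ q, dl θ Mx (some i) q ^ 2 ∂ρ ≤ Γ) (k j j' : ℕ) (hjj : j ≤ j') (hk : j' < k) :
    ∑ u ∈ W.sphere d k, |∫ q, Dl θ Mx j u q * Dl θ Mx j' u q ∂ρ| ≤
      8 * ((d : ℝ) + 1) ^ 2 * (((j' - j : ℕ) : ℝ) + 1) * ((d : ℝ) - 1) ^ (k - 1 - (j' - j)) *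
        (Real.sqrt ((d : ℝ) - 1)) ^ (j' - j) * Γ := by
  classical
  have hd' : (3 : ℝ) ≤ d := by exact_mod_cast hd
  have hb0 : (0 : ℝ) ≤ (d : ℝ) - 1 := by linarith
  set l := j' - j with hl
  have hΓ0 : 0 ≤ Γ := by
    have i0 : Fin d := ⟨0, by omega⟩
    exact (integral_nonneg fun _ => sq_nonneg _).trans (hΓ i0)
  have e1 : ∑ u ∈ W.sphere d k, |∫ q, Dl θ Mx j u q * Dl θ Mx j' u q ∂ρ| =
      ∑ u ∈ W.sphere d k, crs θ Mx ρ (blk j j' u) :=
    Finset.sum_congr rfl fun u _ => cross h0 h1 hMx hρ j j' u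
  rw [e1, Finset.sum_comp (crs θ Mx ρ) (blk j j')]
  have hcrs : ∀ t, 0 ≤ crs θ Mx ρ t := fun t => abs_nonneg _
  have e2 : ∑ t ∈ (W.sphere d k).image (blk j j'),
      ((W.sphere d k).filter (fun u => blk j j' u = t)).card • crs θ Mx ρ t ≤
      ∑ t ∈ (W.sphere d k).image (blk j j'), (4 * ((d : ℝ) - 1) ^ (k - 1 - l)) * crs θ Mx ρ t := by
    apply Finset.sum_le_sum
    intro t _
    rw [nsmul_eq_mul]
    exact mul_le_mul_of_nonneg_right (fiber_card hd k j j' hjj hk t) (hcrs t)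
  refine e2.trans ?_
  rw [← Finset.mul_sum]
  have hsub : (W.sphere d k).image (blk j j') ⊆
      (Finset.univ : Finset (Option (Fin d))) ×ˢ ((Finset.univ : Finset (Option (Fin d))) ×ˢ W.sphere d l) := by
    intro t ht
    rw [Finset.mem_image] at ht
    obtain ⟨u, hu, rfl⟩ := ht
    rw [W.mem_sphere] at hu
    simp only [Finset.mem_product, Finset.mem_univ, true_and, W.mem_sphere]
    unfold blk W.len
    simp only
    rw [blk_x j j' hjj]
    simp only [List.length_take, List.length_drop]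
    have : u.1.length = k := hu
    omega
  have e3 : ∑ t ∈ (W.sphere d k).image (blk j j'), crs θ Mx ρ t ≤
      ∑ t ∈ (Finset.univ : Finset (Option (Fin d))) ×ˢ ((Finset.univ : Finset (Option (Fin d))) ×ˢ W.sphere d l),
        crs θ Mx ρ t :=
    Finset.sum_le_sum_of_subset_of_nonneg hsub fun t _ _ => hcrs t
  have e4 : ∀ o o' : Option (Fin d), ∑ x ∈ W.sphere d l, crs θ Mx ρ (o, o', x) ≤
      2 * ((l : ℝ) + 1) * (Real.sqrt ((d : ℝ) - 1)) ^ l * Γ := by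
    intro o o'
    have hpos : 0 ≤ 2 * ((l : ℝ) + 1) * (Real.sqrt ((d : ℝ) - 1)) ^ l * Γ := by positivity
    cases o with
    | none => simpa [crs, dl] using hpos
    | some i =>
      cases o' with
      | none => simpa [crs, dl] using hpos
      | some i' =>
        have ht := hρ.temper (Gc θ Mx i') (Gc θ Mx i) (Bm_Gc h0 h1 hMx i').1 (Bm_Gc h0 h1 hMx i).1
          (Bm_Gc h0 h1 hMx i').2 (Bm_Gc h0 h1 hMx i).2
          (by
            filter_upwards [hG] with y hy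
            unfold Gc
            rw [msgI_neg h0 h1 hy, GG_neg])
          (by
            filter_upwards [hG] with y hy
            unfold Gc
            rw [msgI_neg h0 h1 hy, GG_neg])
          l (W.sphere d l) (fun w hw => W.mem_sphere.1 hw)
        refine le_trans (le_of_eq ?_) (ht.trans ?_)
        · rfl
        · have s1 : Real.sqrt (∫ q, (Gc θ Mx i' q.1 - Gc θ Mx i' q.2) ^ 2 ∂ρ) ≤ Real.sqrt Γ :=
            Real.sqrt_le_sqrt (hΓ i')
          have s2 : Real.sqrt (∫ q, (Gc θ Mx i q.1 - Gc θ Mx i q.2) ^ 2 ∂ρ) ≤ Real.sqrt Γ :=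
            Real.sqrt_le_sqrt (hΓ i)
          calc _ ≤ 2 * ((l : ℝ) + 1) * (Real.sqrt ((d : ℝ) - 1)) ^ l * Real.sqrt Γ * Real.sqrt Γ := by
                gcongr
            _ = 2 * ((l : ℝ) + 1) * (Real.sqrt ((d : ℝ) - 1)) ^ l * (Real.sqrt Γ * Real.sqrt Γ) := by ring
            _ = _ := by rw [Real.mul_self_sqrt hΓ0]
  have e5 : ∑ t ∈ (Finset.univ : Finset (Option (Fin d))) ×ˢ ((Finset.univ : Finset (Option (Fin d))) ×ˢ W.sphere d l),
        crs θ Mx ρ t ≤ ((d : ℝ) + 1) ^ 2 * (2 * ((l : ℝ) + 1) * (Real.sqrt ((d : ℝ) - 1)) ^ l * Γ) := by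
    rw [Finset.sum_product]
    calc _ = ∑ o : Option (Fin d), ∑ o' : Option (Fin d), ∑ x ∈ W.sphere d l, crs θ Mx ρ (o, o', x) := by
          apply Finset.sum_congr rfl
          intro o _
          rw [Finset.sum_product]
      _ ≤ ∑ o : Option (Fin d), ∑ o' : Option (Fin d), 2 * ((l : ℝ) + 1) * (Real.sqrt ((d : ℝ) - 1)) ^ l * Γ :=
          Finset.sum_le_sum fun o _ => Finset.sum_le_sum fun o' _ => e4 o o'
      _ = _ := by
          simp only [Finset.sum_const, Finset.card_univ, Fintype.card_option, Fintype.card_fin, nsmul_eq_mul]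
          push_cast
          ring
  calc _ ≤ (4 * ((d : ℝ) - 1) ^ (k - 1 - l)) *
        (((d : ℝ) + 1) ^ 2 * (2 * ((l : ℝ) + 1) * (Real.sqrt ((d : ℝ) - 1)) ^ l * Γ)) :=
        mul_le_mul_of_nonneg_left (e3.trans e5) (by positivity)
    _ = _ := by ring

/-- the geometric weights -/
noncomputable def gw (d : ℕ) (l : ℕ) : ℝ := ((l : ℝ) + 1) * (1 / Real.sqrt ((d : ℝ) - 1)) ^ l

lemma gw_nonneg (l : ℕ) : 0 ≤ gw d l := by unfold gw; positivity

lemma gw_summable (hd : 3 ≤ d) : Summable (gw d) := by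
  have hd' : (3 : ℝ) ≤ d := by exact_mod_cast hd
  have h1 : 1 < Real.sqrt ((d : ℝ) - 1) := by
    rw [Real.lt_sqrt (by norm_num)]; linarith
  have hr : ‖(1 / Real.sqrt ((d : ℝ) - 1))‖ < 1 := by
    rw [Real.norm_eq_abs, abs_of_nonneg (by positivity), div_lt_one (by linarith)]
    exact h1
  have s1 := summable_pow_mul_geometric_of_norm_lt_one 1 hr
  have s2 := summable_geometric_of_norm_lt_one hr
  refine (s1.add s2).congr fun l => ?_
  unfold gw
  simp only [pow_one]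
  ring

lemma gw_row (hd : 3 ≤ d) (k j : ℕ) :
    ∑ j' ∈ Finset.range k, gw d (if j ≤ j' then j' - j else j - j') ≤ 2 * ∑' l, gw d l := by
  classical
  have hs := gw_summable hd
  have h1 : ∑ j' ∈ (Finset.range k).filter (fun j' => j ≤ j'), gw d (j' - j) ≤ ∑' l, gw d l := by
    have e : ∑ j' ∈ (Finset.range k).filter (fun j' => j ≤ j'), gw d (j' - j) =
        ∑ l ∈ ((Finset.range k).filter (fun j' => j ≤ j')).image (fun j' => j' - j), gw d l := by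
      rw [Finset.sum_image]
      intro a ha b hb hab
      simp only [Finset.coe_filter, Set.mem_ofPred_eq] at ha hb
      simp only at hab
      omega
    rw [e]
    exact hs.sum_le_tsum _ fun l _ => gw_nonneg l
  have h2 : ∑ j' ∈ (Finset.range k).filter (fun j' => ¬ j ≤ j'), gw d (j - j') ≤ ∑' l, gw d l := by
    have e : ∑ j' ∈ (Finset.range k).filter (fun j' => ¬ j ≤ j'), gw d (j - j') =
        ∑ l ∈ ((Finset.range k).filter (fun j' => ¬ j ≤ j')).image (fun j' => j - j'), gw d l := by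
      rw [Finset.sum_image]
      intro a ha b hb hab
      simp only [Finset.coe_filter, Set.mem_ofPred_eq] at ha hb
      simp only at hab
      omega
    rw [e]
    exact hs.sum_le_tsum _ fun l _ => gw_nonneg l
  have h3 : ∑ j' ∈ Finset.range k, gw d (if j ≤ j' then j' - j else j - j') =
      ∑ j' ∈ (Finset.range k).filter (fun j' => j ≤ j'), gw d (j' - j) +
        ∑ j' ∈ (Finset.range k).filter (fun j' => ¬ j ≤ j'), gw d (j - j') := by
    rw [← Finset.sum_filter_add_sum_filter_not (Finset.range k) (fun j' => j ≤ j')]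
    congr 1
    · apply Finset.sum_congr rfl
      intro j' hj'
      rw [Finset.mem_filter] at hj'
      rw [if_pos hj'.2]
    · apply Finset.sum_congr rfl
      intro j' hj'
      rw [Finset.mem_filter] at hj'
      rw [if_neg hj'.2]
  rw [h3]
  linarith

lemma cross_bound (hd : 3 ≤ d) (h0 : 0 ≤ θ) (h1 : θ < 1) {Mx : ℝ} (hMx : 0 ≤ Mx) (hρ : PairLaw θ μy ρ)
    (hG : ∀ᵐ y ∂(fieldLaw d θ μy), Good θ y) {Γ : ℝ}
    (hΓ : ∀ i, ∫ q, dl θ Mx (some i) q ^ 2 ∂ρ ≤ Γ) (k j j' : ℕ) (hj : j < k) (hj' : j' < k) :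
    ∑ u ∈ W.sphere d k, |∫ q, Dl θ Mx j u q * Dl θ Mx j' u q ∂ρ| ≤
      8 * ((d : ℝ) + 1) ^ 2 * Γ * ((d : ℝ) - 1) ^ (k - 1) * gw d (if j ≤ j' then j' - j else j - j') := by
  have hd' : (3 : ℝ) ≤ d := by exact_mod_cast hd
  have hb0 : (0 : ℝ) < (d : ℝ) - 1 := by linarith
  have hs0 : Real.sqrt ((d : ℝ) - 1) ≠ 0 := (Real.sqrt_pos.2 hb0).ne'
  have key : ∀ l, l ≤ k - 1 → 8 * ((d : ℝ) + 1) ^ 2 * ((l : ℝ) + 1) * ((d : ℝ) - 1) ^ (k - 1 - l) *
        (Real.sqrt ((d : ℝ) - 1)) ^ l * Γ = 8 * ((d : ℝ) + 1) ^ 2 * Γ * ((d : ℝ) - 1) ^ (k - 1) * gw d l := by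
    intro l hl
    unfold gw
    have e1 : ((d : ℝ) - 1) ^ (k - 1) = ((d : ℝ) - 1) ^ (k - 1 - l) * ((d : ℝ) - 1) ^ l := by
      rw [← pow_add]; congr 1; omega
    have e2 : (Real.sqrt ((d : ℝ) - 1)) ^ l = ((d : ℝ) - 1) ^ l * (1 / Real.sqrt ((d : ℝ) - 1)) ^ l := by
      rw [← mul_pow]
      congr 1
      have := Real.mul_self_sqrt hb0.le
      field_simp
      rw [sq, this]
    rw [e1, e2]
    ring
  split_ifs with hjj
  · rw [← key (j' - j) (by omega)]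
    exact cross_sum hd h0 h1 hMx hρ hG hΓ k j j' hjj hj'
  · rw [← key (j - j') (by omega)]
    have := cross_sum hd h0 h1 hMx hρ hG hΓ k j' j (by omega) hj
    refine le_trans (le_of_eq ?_) this
    apply Finset.sum_congr rfl
    intro u _
    congr 2
    funext q
    ring

/-- second moments of the path sums -/
lemma path_sum (hd : 3 ≤ d) (h0 : 0 ≤ θ) (h1 : θ < 1) {Mx : ℝ} (hMx : 0 ≤ Mx) (hρ : PairLaw θ μy ρ)
    (hG : ∀ᵐ y ∂(fieldLaw d θ μy), Good θ y) {Γ : ℝ}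
    (hΓ : ∀ i, ∫ q, dl θ Mx (some i) q ^ 2 ∂ρ ≤ Γ) (k : ℕ) :
    ∑ u ∈ W.sphere d k, ∫ q, (∑ j ∈ Finset.range k, Dl θ Mx j u q) ^ 2 ∂ρ ≤
      16 * ((d : ℝ) + 1) ^ 2 * (∑' l, gw d l) * Γ * k * ((d : ℝ) - 1) ^ (k - 1) := by
  haveI := hρ.prob
  have hd' : (3 : ℝ) ≤ d := by exact_mod_cast hd
  have hb0 : (0 : ℝ) ≤ (d : ℝ) - 1 := by linarith
  have hΓ0 : 0 ≤ Γ := by
    have i0 : Fin d := ⟨0, by omega⟩
    exact (integral_nonneg fun _ => sq_nonneg _).trans (hΓ i0)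
  have e1 : ∀ u : W d, ∫ q, (∑ j ∈ Finset.range k, Dl θ Mx j u q) ^ 2 ∂ρ =
      ∑ j ∈ Finset.range k, ∑ j' ∈ Finset.range k, ∫ q, Dl θ Mx j u q * Dl θ Mx j' u q ∂ρ := by
    intro u
    have : ∀ q, (∑ j ∈ Finset.range k, Dl θ Mx j u q) ^ 2 =
        ∑ j ∈ Finset.range k, ∑ j' ∈ Finset.range k, Dl θ Mx j u q * Dl θ Mx j' u q := by
      intro q; rw [sq, Finset.sum_mul_sum]
    simp only [this]
    rw [integral_finsetSum _ fun j _ => (Bm.sum _ fun j' _ =>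
      (Bm_Dl h0 h1 hMx j u).mul (Bm_Dl h0 h1 hMx j' u)).int ρ]
    apply Finset.sum_congr rfl
    intro j _
    rw [integral_finsetSum _ fun j' _ => ((Bm_Dl h0 h1 hMx j u).mul (Bm_Dl h0 h1 hMx j' u)).int ρ]
  simp only [e1]
  calc _ ≤ ∑ u ∈ W.sphere d k, ∑ j ∈ Finset.range k, ∑ j' ∈ Finset.range k,
        |∫ q, Dl θ Mx j u q * Dl θ Mx j' u q ∂ρ| :=
        Finset.sum_le_sum fun u _ => Finset.sum_le_sum fun j _ => Finset.sum_le_sum fun j' _ => le_abs_self _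
    _ = ∑ j ∈ Finset.range k, ∑ j' ∈ Finset.range k, ∑ u ∈ W.sphere d k,
        |∫ q, Dl θ Mx j u q * Dl θ Mx j' u q ∂ρ| := by
        rw [Finset.sum_comm]
        apply Finset.sum_congr rfl
        intro j _
        rw [Finset.sum_comm]
    _ ≤ ∑ j ∈ Finset.range k, ∑ j' ∈ Finset.range k, 8 * ((d : ℝ) + 1) ^ 2 * Γ * ((d : ℝ) - 1) ^ (k - 1) *
        gw d (if j ≤ j' then j' - j else j - j') := by
        apply Finset.sum_le_sum
        intro j hj
        apply Finset.sum_le_sum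
        intro j' hj'
        exact cross_bound hd h0 h1 hMx hρ hG hΓ k j j' (Finset.mem_range.1 hj) (Finset.mem_range.1 hj')
    _ ≤ ∑ j ∈ Finset.range k, 8 * ((d : ℝ) + 1) ^ 2 * Γ * ((d : ℝ) - 1) ^ (k - 1) * (2 * ∑' l, gw d l) := by
        apply Finset.sum_le_sum
        intro j _
        rw [← Finset.mul_sum]
        exact mul_le_mul_of_nonneg_left (gw_row hd k j) (by positivity)
    _ = _ := by
        rw [Finset.sum_const, Finset.card_range, nsmul_eq_mul]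
        ring

end Key
end Crest.Agent.TI
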