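import Crest.Agent.TIKeyE

set_option autoImplicit false
set_option linter.all false

namespace Crest.Agent.TI
namespace Key
open Finset MeasureTheory KeyBase

variable {d : ℕ} {θ : ℝ} {μy : Measure ℝ} {ρ : Measure ((W d → ℝ) × (W d → ℝ))}

lemma GG_zero : GG θ 0 = 0 := by simp [GG]

lemma GG_le {B' CG : ℝ} (hCG : 0 < CG) (hGG : ∀ h h' : ℝ, |h| ≤ B' → |h'| ≤ B' →
    |GG θ h - GG θ h'| ≤ CG * |Real.tanh h ^ 2 - Real.tanh h' ^ 2|) {h : ℝ} (hh : |h| ≤ B') :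
    GG θ h ≤ CG := by
  have hB' : 0 ≤ B' := (abs_nonneg _).trans hh
  have h1 := hGG h 0 hh (by simpa using hB')
  rw [GG_zero, sub_zero] at h1
  have h2 : |Real.tanh h ^ 2 - Real.tanh 0 ^ 2| ≤ 1 := by
    rw [Real.tanh_zero]
    have := (Real.abs_tanh_lt_one h).le
    rw [abs_of_nonneg (by simp; positivity)]
    have h3 := abs_le.1 this
    nlinarith [h3.1, h3.2]
  calc GG θ h ≤ |GG θ h| := le_abs_self _
    _ ≤ CG * |Real.tanh h ^ 2 - Real.tanh 0 ^ 2| := h1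
    _ ≤ CG * 1 := mul_le_mul_of_nonneg_left h2 hCG.le
    _ = CG := mul_one _

lemma pt2 {a b : ℝ} (ha : |a| ≤ 1) (hb : |b| ≤ 1) : (a ^ 2 - b ^ 2) ^ 2 ≤ 4 * (a - b) ^ 2 := by
  have h1 : |a + b| ≤ 2 := (abs_add_le _ _).trans (by linarith)
  have h2 : (a + b) ^ 2 ≤ 4 := by
    rw [← sq_abs]; nlinarith [abs_nonneg (a + b)]
  calc (a ^ 2 - b ^ 2) ^ 2 = (a + b) ^ 2 * (a - b) ^ 2 := by ring
    _ ≤ 4 * (a - b) ^ 2 := mul_le_mul_of_nonneg_right h2 (sq_nonneg _)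

lemma pt3 {a b s : ℝ} (ha : |a| ≤ 1) (hb : |b| ≤ 1) (hs : 0 ≤ s) :
    (a ^ 2 - b ^ 2) ^ 2 ≤ 4 * s ^ 2 * (a - b) ^ 2 + ((if s < |a| then 1 else 0) + (if s < |b| then 1 else 0)) := by
  have hle1 : (a ^ 2 - b ^ 2) ^ 2 ≤ 1 := by
    have h1 : a ^ 2 ≤ 1 := by rw [← sq_abs]; nlinarith [abs_nonneg a]
    have h2 : b ^ 2 ≤ 1 := by rw [← sq_abs]; nlinarith [abs_nonneg b]
    nlinarith [sq_nonneg a, sq_nonneg b]
  have h0 : 0 ≤ 4 * s ^ 2 * (a - b) ^ 2 := by positivity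
  by_cases h1 : s < |a|
  · rw [if_pos h1]
    split_ifs <;> linarith
  · by_cases h2 : s < |b|
    · rw [if_neg h1, if_pos h2]; linarith
    · rw [if_neg h1, if_neg h2]
      have h3 : |a + b| ≤ 2 * s := (abs_add_le _ _).trans (by linarith [not_lt.1 h1, not_lt.1 h2])
      have h4 : (a + b) ^ 2 ≤ 4 * s ^ 2 := by
        rw [← sq_abs]; nlinarith [abs_nonneg (a + b)]
      calc (a ^ 2 - b ^ 2) ^ 2 = (a + b) ^ 2 * (a - b) ^ 2 := by ring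
        _ ≤ 4 * s ^ 2 * (a - b) ^ 2 := mul_le_mul_of_nonneg_right h4 (sq_nonneg _)
        _ = _ := by ring

lemma Bm_Tn1 (i : Fin d) : Bm (fun q : (W d → ℝ) × (W d → ℝ) => Tn θ i q.1) := by
  have h := Bm.comp (Bm_Tn (θ := θ) i) (measurable_fst (α := W d → ℝ) (β := W d → ℝ))
  exact h
lemma Bm_Tn2 (i : Fin d) : Bm (fun q : (W d → ℝ) × (W d → ℝ) => Tn θ i q.2) := by
  have h := Bm.comp (Bm_Tn (θ := θ) i) (measurable_snd (α := W d → ℝ) (β := W d → ℝ))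
  exact h

lemma Tn_abs (i : Fin d) (y : W d → ℝ) : |Tn θ i y| ≤ 1 := (Real.abs_tanh_lt_one _).le

lemma gamma_bound (h0 : 0 ≤ θ) (h1 : θ < 1) (hρ : PairLaw θ μy ρ)
    (hG : ∀ᵐ y ∂(fieldLaw d θ μy), Good θ y) {B : ℝ}
    (hB : ∀ᵐ y ∂(fieldLaw d θ μy), ∀ v, |y v| ≤ B) {CG : ℝ} (hCG : 0 < CG)
    (hGG : ∀ h h' : ℝ, |h| ≤ B + d * Real.artanh θ → |h'| ≤ B + d * Real.artanh θ →
      |GG θ h - GG θ h'| ≤ CG * |Real.tanh h ^ 2 - Real.tanh h' ^ 2|) {C6 : ℝ} (hC6 : 0 < C6)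
    (h6 : ∀ y y' : W d → ℝ, Good θ y → Good θ y' →
    ∀ i, |Tn θ i y - Tn θ i y'| ≤
      C6 * (|mR θ y - mR θ y'| + |mR θ (y ∘ W.tr (W.nb i W.root)) - mR θ (y' ∘ W.tr (W.nb i W.root))|))
    {s Ps : ℝ} (hs : 0 ≤ s) (hPs0 : 0 ≤ Ps)
    (hPs : ∀ i, (fieldLaw d θ μy).real {y | s < |Tn θ i y|} ≤ Ps) (i : Fin d) :
    ∫ q, dl θ CG (some i) q ^ 2 ∂ρ ≤ CG ^ 2 * (16 * C6 ^ 2 + 2) * min (RR θ ρ) (s ^ 2 * RR θ ρ + Ps) := by
  haveI := hρ.prob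
  have b1 := Bm_Tn1 (θ := θ) i
  have b2 := Bm_Tn2 (θ := θ) i
  have b3 : Bm (fun q : (W d → ℝ) × (W d → ℝ) => (Tn θ i q.1 ^ 2 - Tn θ i q.2 ^ 2) ^ 2) :=
    (b1.sq.sub b2.sq).sq
  have b4 : Bm (fun q : (W d → ℝ) × (W d → ℝ) => (Tn θ i q.1 - Tn θ i q.2) ^ 2) := (b1.sub b2).sq
  have hRR := RR_nonneg (θ := θ) (ρ := ρ)
  have hTb := Tn_bound hρ hG hC6 h6 i
  -- step 1
  have e1 : ∫ q, dl θ CG (some i) q ^ 2 ∂ρ ≤ CG ^ 2 * ∫ q, (Tn θ i q.1 ^ 2 - Tn θ i q.2 ^ 2) ^ 2 ∂ρ := by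
    rw [← integral_const_mul]
    apply integral_mono_ae ((Bm_dl h0 h1 hCG.le (some i)).sq.int ρ) (((Bm.const _).mul b3).int ρ)
    filter_upwards [ae_fst hρ hG, ae_snd hρ hG, ae_fst hρ hB, ae_snd hρ hB] with q a1 a2 a3 a4
    have c1 := msgI_abs_le h0 h1 a1 a3 (W.nb i W.root)
    have c2 := msgI_abs_le h0 h1 a2 a4 (W.nb i W.root)
    have c3 := hGG _ _ c1 c2
    have c4 : |dl θ CG (some i) q| ≤ CG * |Tn θ i q.1 ^ 2 - Tn θ i q.2 ^ 2| := by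
      change |min (GG θ (msgI θ q.1 (W.nb i W.root))) CG - min (GG θ (msgI θ q.2 (W.nb i W.root))) CG| ≤ _
      rw [min_eq_left (GG_le hCG hGG c1), min_eq_left (GG_le hCG hGG c2)]
      exact c3
    change dl θ CG (some i) q ^ 2 ≤ CG ^ 2 * (Tn θ i q.1 ^ 2 - Tn θ i q.2 ^ 2) ^ 2
    rw [← sq_abs (dl θ CG (some i) q), ← sq_abs (Tn θ i q.1 ^ 2 - Tn θ i q.2 ^ 2), ← mul_pow]
    exact pow_le_pow_left₀ (abs_nonneg _) c4 2
  have e2 : ∫ q, (Tn θ i q.1 ^ 2 - Tn θ i q.2 ^ 2) ^ 2 ∂ρ ≤ 16 * C6 ^ 2 * RR θ ρ := by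
    calc _ ≤ ∫ q, 4 * (Tn θ i q.1 - Tn θ i q.2) ^ 2 ∂ρ := by
          apply integral_mono (b3.int ρ) (((Bm.const _).mul b4).int ρ)
          intro q
          exact pt2 (Tn_abs i _) (Tn_abs i _)
      _ = 4 * ∫ q, (Tn θ i q.1 - Tn θ i q.2) ^ 2 ∂ρ := integral_const_mul _ _
      _ ≤ 4 * (4 * C6 ^ 2 * RR θ ρ) := mul_le_mul_of_nonneg_left hTb (by norm_num)
      _ = _ := by ring
  have m1 : MeasurableSet {y : W d → ℝ | s < |Tn θ i y|} :=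
    measurableSet_lt measurable_const ((Bm_Tn i).abs).1
  have i1 : ∫ q : (W d → ℝ) × (W d → ℝ), (if s < |Tn θ i q.1| then (1 : ℝ) else 0) ∂ρ ≤ Ps := by
    have : ∫ q : (W d → ℝ) × (W d → ℝ), (if s < |Tn θ i q.1| then (1 : ℝ) else 0) ∂ρ =
        ρ.real (Prod.fst ⁻¹' {y : W d → ℝ | s < |Tn θ i y|}) := by
      rw [← integral_indicator_one (measurable_fst m1)]
      congr 1
    rw [this, measureReal_def, ← Measure.map_apply measurable_fst m1, hρ.fst]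
    exact hPs i
  have i2 : ∫ q : (W d → ℝ) × (W d → ℝ), (if s < |Tn θ i q.2| then (1 : ℝ) else 0) ∂ρ ≤ Ps := by
    have : ∫ q : (W d → ℝ) × (W d → ℝ), (if s < |Tn θ i q.2| then (1 : ℝ) else 0) ∂ρ =
        ρ.real (Prod.snd ⁻¹' {y : W d → ℝ | s < |Tn θ i y|}) := by
      rw [← integral_indicator_one (measurable_snd m1)]
      congr 1
    rw [this, measureReal_def, ← Measure.map_apply measurable_snd m1, hρ.snd]
    exact hPs i
  have bi : Bm (fun y : W d → ℝ => if s < |Tn θ i y| then (1 : ℝ) else 0) := by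
    refine ⟨Measurable.ite m1 measurable_const measurable_const, 1, fun y => ?_⟩
    by_cases h : s < |Tn θ i y|
    · simp [h]
    · simp [h]
  have bi1 : Bm (fun q : (W d → ℝ) × (W d → ℝ) => if s < |Tn θ i q.1| then (1 : ℝ) else 0) := by
    have h := Bm.comp bi (measurable_fst (α := W d → ℝ) (β := W d → ℝ))
    exact h
  have bi2 : Bm (fun q : (W d → ℝ) × (W d → ℝ) => if s < |Tn θ i q.2| then (1 : ℝ) else 0) := by
    have h := Bm.comp bi (measurable_snd (α := W d → ℝ) (β := W d → ℝ))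
    exact h
  have e3 : ∫ q, (Tn θ i q.1 ^ 2 - Tn θ i q.2 ^ 2) ^ 2 ∂ρ ≤ 16 * C6 ^ 2 * s ^ 2 * RR θ ρ + 2 * Ps := by
    calc _ ≤ ∫ q : (W d → ℝ) × (W d → ℝ), (4 * s ^ 2 * (Tn θ i q.1 - Tn θ i q.2) ^ 2 +
          ((if s < |Tn θ i q.1| then (1 : ℝ) else 0) + (if s < |Tn θ i q.2| then (1 : ℝ) else 0))) ∂ρ := by
          apply integral_mono (b3.int ρ) ((((Bm.const _).mul b4).add (bi1.add bi2)).int ρ)
          intro q
          exact pt3 (Tn_abs i _) (Tn_abs i _) hs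
      _ = 4 * s ^ 2 * ∫ q, (Tn θ i q.1 - Tn θ i q.2) ^ 2 ∂ρ +
          (∫ q : (W d → ℝ) × (W d → ℝ), (if s < |Tn θ i q.1| then (1 : ℝ) else 0) ∂ρ +
            ∫ q : (W d → ℝ) × (W d → ℝ), (if s < |Tn θ i q.2| then (1 : ℝ) else 0) ∂ρ) := by
          rw [integral_add (((Bm.const _).mul b4).int ρ) ((bi1.add bi2).int ρ), integral_const_mul,
            integral_add (bi1.int ρ) (bi2.int ρ)]
      _ ≤ 4 * s ^ 2 * (4 * C6 ^ 2 * RR θ ρ) + (Ps + Ps) :=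
          add_le_add (mul_le_mul_of_nonneg_left hTb (by positivity)) (add_le_add i1 i2)
      _ = _ := by ring
  refine e1.trans ?_
  rw [mul_assoc]
  apply mul_le_mul_of_nonneg_left _ (sq_nonneg _)
  rcases min_cases (RR θ ρ) (s ^ 2 * RR θ ρ + Ps) with ⟨h, _⟩ | ⟨h, _⟩
  · rw [h]
    nlinarith [e2, hRR]
  · rw [h]
    have : 0 ≤ s ^ 2 * RR θ ρ := by positivity
    nlinarith [e3, mul_nonneg (sq_nonneg C6) hPs0]

/-- the increments are the increments of the path -/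
lemma Dl_eq (h0 : 0 ≤ θ) (h1 : θ < 1) {B CG : ℝ} (hCG : 0 < CG)
    (hGG : ∀ h h' : ℝ, |h| ≤ B + d * Real.artanh θ → |h'| ≤ B + d * Real.artanh θ →
      |GG θ h - GG θ h'| ≤ CG * |Real.tanh h ^ 2 - Real.tanh h' ^ 2|)
    {y y' : W d → ℝ} (hy : Good θ y) (hy' : Good θ y') (hB : ∀ v, |y v| ≤ B) (hB' : ∀ v, |y' v| ≤ B)
    (u : W d) (j : ℕ) (hj : j < u.len) :
    Dl θ CG j u (y, y') = GG θ (msgI θ y (W.par^[j] u)) - GG θ (msgI θ y' (W.par^[j] u)) := by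
  set w := W.par^[j] u with hw
  have hlen : w.len = u.len - j := len_par_iter j u
  have hne : w ≠ W.root := by
    intro h
    rw [h] at hlen
    simp [W.len_root] at hlen
    omega
  obtain ⟨i, hi⟩ := W.exists_head hne
  have hpar : W.par^[j + 1] u = w.par := by rw [Function.iterate_succ_apply']
  have hnb : W.nb i w.par = w := by rw [← W.nb_eq_par hi, W.nb_nb]
  have htr : W.tr w.par (W.nb i W.root) = w := by rw [W.tr_nb, W.tr_root, hnb]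
  have hlr : (W.nb i (W.root : W d)).len = 1 := by
    rw [W.len_nb_of_ne (by simp [W.head?, W.root]), W.len_root]
  have hrne : (W.nb i (W.root : W d)) ≠ W.root := by
    intro h
    rw [h, W.len_root] at hlr
    exact absurd hlr (by norm_num)
  have hmsg : ∀ z : W d → ℝ, msgI θ (z ∘ W.tr w.par) (W.nb i W.root) = msgI θ z w := by
    intro z
    rw [msgI_tr θ z w.par (W.nb i W.root) hrne (by rw [htr, hlr]; exact (W.len_par hne).symm), htr]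
  unfold Dl
  rw [← hw, hi, hpar]
  simp only [dl, Gc]
  rw [hmsg, hmsg, min_eq_left (GG_le hCG hGG (msgI_abs_le h0 h1 hy hB w)),
    min_eq_left (GG_le hCG hGG (msgI_abs_le h0 h1 hy' hB' w))]

lemma pt4 {m m' c c' t S : ℝ} (hm : |m| ≤ 1) (hm' : |m'| ≤ 1) (hc0 : 0 ≤ c) (hct : c ≤ t)
    (hcc : |c - c'| ≤ t * |S|) :
    ((1 - m ^ 2) * c - (1 - m' ^ 2) * c') ^ 2 ≤ t ^ 2 * (8 * (m - m') ^ 2 + 2 * S ^ 2) := by
  have ht : 0 ≤ t := hc0.trans hct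
  have h1 : |(1 - m ^ 2) * c - (1 - m' ^ 2) * c'| ≤ t * (2 * |m - m'| + |S|) := by
    have e : (1 - m ^ 2) * c - (1 - m' ^ 2) * c' = -((m + m') * (m - m') * c) + (1 - m' ^ 2) * (c - c') := by ring
    rw [e]
    have a1 : |(m + m') * (m - m') * c| ≤ 2 * |m - m'| * t := by
      rw [abs_mul, abs_mul, abs_of_nonneg hc0]
      have : |m + m'| ≤ 2 := (abs_add_le _ _).trans (by linarith)
      gcongr
    have a2 : |(1 - m' ^ 2) * (c - c')| ≤ t * |S| := by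
      rw [abs_mul]
      have h3 : |1 - m' ^ 2| ≤ 1 := by
        have h4 : m' ^ 2 ≤ 1 := by rw [← sq_abs]; nlinarith [abs_nonneg m']
        rw [abs_of_nonneg (by linarith)]
        nlinarith [sq_nonneg m']
      calc |1 - m' ^ 2| * |c - c'| ≤ 1 * (t * |S|) := mul_le_mul h3 hcc (abs_nonneg _) (by norm_num)
        _ = _ := one_mul _
    calc _ ≤ |-((m + m') * (m - m') * c)| + |(1 - m' ^ 2) * (c - c')| := abs_add_le _ _
      _ ≤ 2 * |m - m'| * t + t * |S| := by rw [abs_neg]; exact add_le_add a1 a2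
      _ = _ := by ring
  rw [← sq_abs]
  calc _ ≤ (t * (2 * |m - m'| + |S|)) ^ 2 := pow_le_pow_left₀ (abs_nonneg _) h1 2
    _ = t ^ 2 * (2 * |m - m'| + |S|) ^ 2 := by ring
    _ ≤ t ^ 2 * (8 * (m - m') ^ 2 + 2 * S ^ 2) := by
        apply mul_le_mul_of_nonneg_left _ (sq_nonneg _)
        have := sq_nonneg (2 * |m - m'| - |S|)
        nlinarith [sq_abs (m - m'), sq_abs S]

lemma near_k (hd : 3 ≤ d) (h0 : 0 ≤ θ) (h1 : θ < 1) (hb : ((d : ℝ) - 1) * θ ^ 2 ≤ 1)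
    (hρ : PairLaw θ μy ρ)
    (hG : ∀ᵐ y ∂(fieldLaw d θ μy), Good θ y) {B : ℝ}
    (hB : ∀ᵐ y ∂(fieldLaw d θ μy), ∀ v, |y v| ≤ B) {CG : ℝ} (hCG : 0 < CG)
    (hGG : ∀ h h' : ℝ, |h| ≤ B + d * Real.artanh θ → |h'| ≤ B + d * Real.artanh θ →
      |GG θ h - GG θ h'| ≤ CG * |Real.tanh h ^ 2 - Real.tanh h' ^ 2|)
    {Γ : ℝ} (hΓ : ∀ i, ∫ q, dl θ CG (some i) q ^ 2 ∂ρ ≤ Γ) (k : ℕ) :
    ∑ u ∈ W.sphere d k, ∫⁻ q, ENNReal.ofReal ((covR θ q.1 u - covR θ q.2 u) ^ 2) ∂ρ ≤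
      ENNReal.ofReal (16 * RR θ ρ + 32 * ((d : ℝ) + 1) ^ 2 * (∑' l, gw d l) * k * Γ) := by
  haveI := hρ.prob
  have hd' : (3 : ℝ) ≤ d := by exact_mod_cast hd
  have hb0 : (0 : ℝ) ≤ (d : ℝ) - 1 := by linarith
  have hΓ0 : 0 ≤ Γ := by
    have i0 : Fin d := ⟨0, by omega⟩
    exact (integral_nonneg fun _ => sq_nonneg _).trans (hΓ i0)
  have hgw0 : 0 ≤ ∑' l, gw d l := tsum_nonneg fun l => gw_nonneg l
  have bD : ∀ u : W d, Bm (fun q : (W d → ℝ) × (W d → ℝ) => (∑ j ∈ Finset.range k, Dl θ CG j u q) ^ 2) :=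
    fun u => (Bm.sum _ fun j _ => Bm_Dl h0 h1 hCG.le j u).sq
  have bF : ∀ u : W d, Bm (fun q : (W d → ℝ) × (W d → ℝ) => (θ ^ k) ^ 2 * (8 * (mR θ q.1 - mR θ q.2) ^ 2 +
      2 * (∑ j ∈ Finset.range k, Dl θ CG j u q) ^ 2)) := fun u =>
    (Bm.const _).mul (((Bm.const _).mul Bm_dm.sq).add ((Bm.const _).mul (bD u)))
  have hRRd : ∫ q, (mR θ q.1 - mR θ q.2) ^ 2 ∂ρ = RR θ ρ := rfl
  have hstep : ∀ u ∈ W.sphere d k, ∫⁻ q, ENNReal.ofReal ((covR θ q.1 u - covR θ q.2 u) ^ 2) ∂ρ ≤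
      ENNReal.ofReal ((θ ^ k) ^ 2 * (8 * RR θ ρ + 2 * ∫ q, (∑ j ∈ Finset.range k, Dl θ CG j u q) ^ 2 ∂ρ)) := by
    intro u hu
    have hu' : u.len = k := W.mem_sphere.1 hu
    calc _ ≤ ∫⁻ q, ENNReal.ofReal ((θ ^ k) ^ 2 * (8 * (mR θ q.1 - mR θ q.2) ^ 2 +
          2 * (∑ j ∈ Finset.range k, Dl θ CG j u q) ^ 2)) ∂ρ := by
          apply lintegral_mono_ae
          filter_upwards [ae_fst hρ hG, ae_snd hρ hG, ae_fst hρ hB, ae_snd hρ hB] with q a1 a2 a3 a4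
          apply ENNReal.ofReal_le_ofReal
          have c1 : cpr θ q.1 u ≤ θ ^ k := by rw [← hu']; exact cpr_le h0 h1 _ _
          have c2 : |cpr θ q.1 u - cpr θ q.2 u| ≤ θ ^ k * |∑ j ∈ Finset.range k, Dl θ CG j u q| := by
            have := prod_phid h0 h1 k (fun j => msgI θ q.1 (W.par^[j] u)) (fun j => msgI θ q.2 (W.par^[j] u))
            unfold cpr
            rw [hu']
            refine this.trans (le_of_eq ?_)
            congr 2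
            apply Finset.sum_congr rfl
            intro j hj
            rw [Finset.mem_range] at hj
            exact (Dl_eq h0 h1 hCG hGG a1 a2 a3 a4 u j (by omega)).symm
          exact pt4 (mR_abs _) (mR_abs _) (cpr_nonneg h0 h1 _ _) c1 c2
      _ = ENNReal.ofReal (∫ q, (θ ^ k) ^ 2 * (8 * (mR θ q.1 - mR θ q.2) ^ 2 +
          2 * (∑ j ∈ Finset.range k, Dl θ CG j u q) ^ 2) ∂ρ) := by
          rw [ofReal_integral_eq_lintegral_ofReal ((bF u).int ρ) (Filter.Eventually.of_forall fun q => by positivity)]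
      _ = _ := by
          rw [integral_const_mul, integral_add (((Bm.const _).mul Bm_dm.sq).int ρ) (((Bm.const _).mul (bD u)).int ρ),
            integral_const_mul, integral_const_mul, hRRd]
  refine (Finset.sum_le_sum hstep).trans ?_
  have hnn : ∀ u : W d, 0 ≤ ∫ q, (∑ j ∈ Finset.range k, Dl θ CG j u q) ^ 2 ∂ρ := fun u =>
    integral_nonneg fun _ => sq_nonneg _
  have hRR := RR_nonneg (θ := θ) (ρ := ρ)
  rw [← ENNReal.ofReal_sum_of_nonneg (fun u _ => by have := hnn u; positivity)]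
  apply ENNReal.ofReal_le_ofReal
  rw [← Finset.mul_sum, Finset.sum_add_distrib, Finset.sum_const, nsmul_eq_mul, ← Finset.mul_sum]
  have hps := path_sum hd h0 h1 hCG.le hρ hG hΓ k
  have hbk : (θ ^ k) ^ 2 * ((d : ℝ) - 1) ^ k ≤ 1 := by
    calc (θ ^ k) ^ 2 * ((d : ℝ) - 1) ^ k = (((d : ℝ) - 1) * θ ^ 2) ^ k := by
          rw [mul_pow, ← pow_mul, ← pow_mul]; ring
      _ ≤ 1 := pow_le_one₀ (mul_nonneg hb0 (sq_nonneg _)) hb
  have hbk1 : (θ ^ k) ^ 2 * ((d : ℝ) - 1) ^ (k - 1) ≤ 1 := by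
    refine le_trans ?_ hbk
    apply mul_le_mul_of_nonneg_left _ (by positivity)
    exact pow_le_pow_right₀ (by linarith) (by omega)
  have hcard := sphere_card_le' hd k
  have t1 : (θ ^ k) ^ 2 * (((W.sphere d k).card : ℝ) * (8 * RR θ ρ)) ≤ 16 * RR θ ρ := by
    calc _ ≤ (θ ^ k) ^ 2 * ((2 * ((d : ℝ) - 1) ^ k) * (8 * RR θ ρ)) := by gcongr
      _ = 16 * RR θ ρ * ((θ ^ k) ^ 2 * ((d : ℝ) - 1) ^ k) := by ring
      _ ≤ 16 * RR θ ρ * 1 := by gcongr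
      _ = _ := mul_one _
  have t2 : (θ ^ k) ^ 2 * (2 * ∑ u ∈ W.sphere d k, ∫ q, (∑ j ∈ Finset.range k, Dl θ CG j u q) ^ 2 ∂ρ) ≤
      32 * ((d : ℝ) + 1) ^ 2 * (∑' l, gw d l) * k * Γ := by
    calc _ ≤ (θ ^ k) ^ 2 * (2 * (16 * ((d : ℝ) + 1) ^ 2 * (∑' l, gw d l) * Γ * k * ((d : ℝ) - 1) ^ (k - 1))) := by
          gcongr
      _ = (32 * ((d : ℝ) + 1) ^ 2 * (∑' l, gw d l) * k * Γ) * ((θ ^ k) ^ 2 * ((d : ℝ) - 1) ^ (k - 1)) := by ring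
      _ ≤ (32 * ((d : ℝ) + 1) ^ 2 * (∑' l, gw d l) * k * Γ) * 1 := by gcongr
      _ = _ := mul_one _
  rw [mul_add]
  exact add_le_add t1 t2

end Key
end Crest.Agent.TI
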