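import Crest.Agent.TILawA

/-!
Row 160 (S0241).  One observation step and the law of the innovations (general index set, abstract
drift).
-/

set_option autoImplicit false

namespace Crest.Agent.TI.Law

open MeasureTheory unitInterval Set Filter Topology ProbabilityTheory Crest.Agent.TI
open scoped ENNReal

section

variable {V : Type*}

lemma eq_of_comap {α β γ : Type*} [MeasurableSpace β] [MeasurableSpace γ]
    [MeasurableSingletonClass γ] {f : α → β} {H : α → γ}
    (hH : Measurable[MeasurableSpace.comap f inferInstance] H) {a a' : α} (h : f a = f a') :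
    H a = H a' := by
  have h1 : MeasurableSet[MeasurableSpace.comap f inferInstance] (H ⁻¹' {H a}) :=
    hH (measurableSet_singleton _)
  obtain ⟨A, _, hA⟩ := h1
  have h2 : a ∈ f ⁻¹' A := by rw [hA]; rfl
  have h3 : a' ∈ f ⁻¹' A := by
    change f a' ∈ A
    rw [← h]; exact h2
  rw [hA] at h3
  exact h3.symm

lemma sA_update [DecidableEq (V × ℕ)] {γ : Type*} [MeasurableSpace γ] [MeasurableSingletonClass γ]
    {c : Cl V} {J : Set (V × ℕ)} {b : V × ℕ} (hb : b ∉ J) {H : Om V → γ}
    (hH : Measurable[sA c J] H) (x : V → Bool) (w : V × ℕ → I) (u : I) :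
    H (x, Function.update w b u) = H (x, w) := by
  refine eq_of_comap (f := fun (p : Om V) (j : J) => Zc c p j) hH ?_
  funext j
  have hj : (j : V × ℕ) ≠ b := fun h => hb (h ▸ j.2)
  simp only [Zc]
  rw [Function.update_of_ne hj]

lemma integral_resample {ι : Type*} [DecidableEq ι] (g : (ι → I) → ℝ) (hg : Measurable g) {C : ℝ}
    (hC : ∀ w, |g w| ≤ C) (i : ι) :
    ∫ w, g w ∂(μI ι) = ∫ w, (∫ u : I, g (Function.update w i u)) ∂(μI ι) := by
  have hu := FIID.measurable_update' i
  have e1 := integral_map (μ := (μI ι).prod (volume : Measure I)) hu.aemeasurable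
    (f := g) hg.aestronglyMeasurable
  rw [FIID.map_update i] at e1
  rw [e1]
  have hi : Integrable (fun p : (ι → I) × I => g (Function.update p.1 i p.2))
      ((μI ι).prod (volume : Measure I)) := by
    refine Integrable.of_bound (C := C) (hg.comp hu).aestronglyMeasurable
      (Eventually.of_forall fun p => ?_)
    rw [Real.norm_eq_abs]; exact hC _
  rw [integral_prod _ hi]

variable (ν : Measure (V → Bool)) [IsProbabilityMeasure ν]

lemma abs_int_le {α : Type*} [MeasurableSpace α] (μ : Measure α) [IsProbabilityMeasure μ]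
    {f : α → ℝ} {C : ℝ} (hC : ∀ a, |f a| ≤ C) : |∫ a, f a ∂μ| ≤ C := by
  have := norm_integral_le_of_norm_le_const (μ := μ) (f := f) (C := C)
    (Eventually.of_forall fun a => by rw [Real.norm_eq_abs]; exact hC a)
  simpa using this

/-- one observation -/
theorem step (c : Cl V) (b : V × ℕ) {J : Set (V × ℕ)} (hb : b ∉ J) (D : Om V → ℝ)
    (hDs : Measurable[sA c J] D) (hD1 : ∀ p, |D p| ≤ 1)
    (hmean : ∀ f : Om V → ℝ, Measurable[sA c J] f → (∃ C, ∀ p, |f p| ≤ C) →
      ∫ p, f p * sg (p.1 b.1) ∂(PPn ν) = ∫ p, f p * D p ∂(PPn ν))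
    (H : Om V → ℝ) (hH : Measurable[sA c J] H) {CH : ℝ} (hCH : ∀ p, |H p| ≤ CH)
    (j : ℝ → I → ℝ) (hj : Measurable (Function.uncurry j)) {Cj : ℝ} (hCj : ∀ x z, |j x z| ≤ Cj) :
    ∫ p, H p * j (D p) (Zc c p b) ∂(PPn ν) =
      ∫ p, H p * (∫ u : I, j (D p) (QK (amp (c b) * D p) u)) ∂(PPn ν) := by
  classical
  have hle : sA c J ≤ (inferInstance : MeasurableSpace (Om V)) := sA_le c J
  have hDm : Measurable D := hDs.mono hle le_rfl
  have hHm : Measurable H := hH.mono hle le_rfl
  have hCH0 : 0 ≤ CH := (abs_nonneg _).trans (hCH ((fun _ => true), fun _ => 0))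
  have hCj0 : 0 ≤ Cj := (abs_nonneg _).trans (hCj 0 0)
  set A : ℝ := amp (c b) with hA
  have hA0 : 0 ≤ A := amp_nonneg _
  have hA1 : A ≤ 1 / 4 := amp_le _
  set α : ℝ → ℝ := fun x => ∫ z : I, j x z with hα
  set γ : ℝ → ℝ := fun x => ∫ z : I, (1 - 2 * (z : ℝ)) * j x z with hγ
  have hαm : Measurable α := (hj.stronglyMeasurable.integral_prod_right
    (ν := (volume : Measure I))).measurable
  have hγm : Measurable γ := by
    have h1 : Measurable (fun p : ℝ × I => (1 - 2 * (p.2 : ℝ)) * j p.1 p.2) := by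
      refine Measurable.mul (by fun_prop) hj
    exact (h1.stronglyMeasurable.integral_prod_right (ν := (volume : Measure I))).measurable
  have hαb : ∀ x, |α x| ≤ Cj := fun x => abs_int_le _ (hCj x)
  have hγb : ∀ x, |γ x| ≤ Cj := fun x => abs_int_le _ fun z => by
    rw [abs_mul]
    have h1 := abs_one_sub_two z
    have h2 := hCj x z
    nlinarith [abs_nonneg (1 - 2 * (z : ℝ)), abs_nonneg (j x z)]
  have hjx : ∀ x, Measurable (j x) := fun x => hj.of_uncurry_left
  -- the integral of the observation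
  have hobs : ∀ (x κ : ℝ), |κ| ≤ 1 / 4 → ∫ u : I, j x (QK κ u) = α x + κ * γ x := by
    intro x κ hκ
    rw [integral_QK κ (j x) (hjx x)]
    have e : ∀ z : I, densK κ z * j x z = j x z + κ * ((1 - 2 * (z : ℝ)) * j x z) := by
      intro z
      unfold densK
      rw [clamp_of_abs_le hκ]; ring
    have i1 : Integrable (fun z : I => j x z) (volume : Measure I) :=
      Integrable.of_bound (C := Cj) (hjx x).aestronglyMeasurable
        (Eventually.of_forall fun z => by rw [Real.norm_eq_abs]; exact hCj x z)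
    have i2 : Integrable (fun z : I => κ * ((1 - 2 * (z : ℝ)) * j x z)) (volume : Measure I) := by
      refine Integrable.const_mul ?_ _
      refine Integrable.of_bound (C := Cj) ?_ (Eventually.of_forall fun z => ?_)
      · exact (Measurable.mul (by fun_prop) (hjx x)).aestronglyMeasurable
      · rw [Real.norm_eq_abs, abs_mul]
        have h1 := abs_one_sub_two z
        have h2 := hCj x z
        nlinarith [abs_nonneg (1 - 2 * (z : ℝ)), abs_nonneg (j x z)]
    rw [integral_congr_ae (Eventually.of_forall e), integral_add i1 i2, integral_const_mul]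
  have hXm : Measurable (fun p : Om V => sg (p.1 b.1)) :=
    measurable_sgA.comp ((measurable_pi_apply b.1).comp measurable_fst)
  have hZm : Measurable (fun p : Om V => Zc c p b) := (measurable_pi_apply b).comp (measurable_Zc1 c)
  -- resampling
  have e1 : ∫ p, H p * j (D p) (Zc c p b) ∂(PPn ν) =
      ∫ p, H p * (α (D p) + (A * sg (p.1 b.1)) * γ (D p)) ∂(PPn ν) := by
    have hm1 : Measurable (fun p : Om V => H p * j (D p) (Zc c p b)) :=
      hHm.mul (hj.comp (hDm.prodMk hZm))
    have hb1 : ∀ p : Om V, |H p * j (D p) (Zc c p b)| ≤ CH * Cj := fun p => by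
      rw [abs_mul]; exact mul_le_mul (hCH _) (hCj _ _) (abs_nonneg _) hCH0
    have hm2 : Measurable (fun p : Om V => H p * (α (D p) + (A * sg (p.1 b.1)) * γ (D p))) :=
      hHm.mul ((hαm.comp hDm).add ((hXm.const_mul A).mul (hγm.comp hDm)))
    have hb2 : ∀ p : Om V, |H p * (α (D p) + (A * sg (p.1 b.1)) * γ (D p))| ≤ CH * (Cj + Cj) :=
      fun p => by
      rw [abs_mul]
      refine mul_le_mul (hCH _) ?_ (abs_nonneg _) hCH0
      refine (abs_add_le _ _).trans (add_le_add (hαb _) ?_)
      rw [abs_mul, abs_mul, abs_sg', mul_one, abs_of_nonneg hA0]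
      have := hγb (D p)
      nlinarith [abs_nonneg (γ (D p))]
    unfold PPn
    have i1 : Integrable (fun p : Om V => H p * j (D p) (Zc c p b)) (ν.prod (μI (V × ℕ))) :=
      Integrable.of_bound (C := CH * Cj) hm1.aestronglyMeasurable
        (Eventually.of_forall fun p => by rw [Real.norm_eq_abs]; exact hb1 p)
    have i2 : Integrable (fun p : Om V => H p * (α (D p) + (A * sg (p.1 b.1)) * γ (D p)))
        (ν.prod (μI (V × ℕ))) :=
      Integrable.of_bound (C := CH * (Cj + Cj)) hm2.aestronglyMeasurable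
        (Eventually.of_forall fun p => by rw [Real.norm_eq_abs]; exact hb2 p)
    rw [integral_prod _ i1, integral_prod _ i2]
    refine integral_congr_ae (Eventually.of_forall fun x => ?_)
    simp only
    have hmx : Measurable (fun w : V × ℕ → I => H (x, w) * j (D (x, w)) (Zc c (x, w) b)) :=
      hm1.comp (measurable_const.prodMk measurable_id)
    rw [integral_resample _ hmx (fun w => hb1 (x, w)) b]
    refine integral_congr_ae (Eventually.of_forall fun w => ?_)
    simp only
    have e2 : ∀ u : I, H (x, Function.update w b u) *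
        j (D (x, Function.update w b u)) (Zc c (x, Function.update w b u) b) =
        H (x, w) * j (D (x, w)) (QK (A * sg (x b.1)) u) := by
      intro u
      rw [sA_update hb hH, sA_update hb hDs]
      have : Zc c (x, Function.update w b u) b = QK (A * sg (x b.1)) u := by
        simp only [Zc]
        rw [Function.update_self]
      rw [this]
    rw [integral_congr_ae (Eventually.of_forall e2), integral_const_mul,
      hobs _ _ (abs_amp_mul_le (c b) (abs_sg' _).le)]
  -- the mean property
  have hf2 : Measurable[sA c J] (fun p : Om V => H p * (A * γ (D p))) :=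
    hH.mul ((hγm.comp hDs).const_mul A)
  have hbf2 : ∀ p : Om V, |H p * (A * γ (D p))| ≤ CH * Cj := fun p => by
    rw [abs_mul, abs_mul, abs_of_nonneg hA0]
    refine mul_le_mul (hCH _) ?_ (mul_nonneg hA0 (abs_nonneg _)) hCH0
    have := hγb (D p)
    nlinarith [abs_nonneg (γ (D p))]
  have key := hmean _ hf2 ⟨_, hbf2⟩
  have i3 : Integrable (fun p : Om V => H p * α (D p)) (PPn ν) := by
    refine Integrable.of_bound (C := CH * Cj) (hHm.mul (hαm.comp hDm)).aestronglyMeasurable
      (Eventually.of_forall fun p => ?_)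
    rw [Real.norm_eq_abs, abs_mul]
    exact mul_le_mul (hCH _) (hαb _) (abs_nonneg _) hCH0
  have i4 : Integrable (fun p : Om V => H p * (A * γ (D p)) * sg (p.1 b.1)) (PPn ν) := by
    refine Integrable.of_bound (C := CH * Cj) ((hf2.mono hle le_rfl).mul hXm).aestronglyMeasurable
      (Eventually.of_forall fun p => ?_)
    rw [Real.norm_eq_abs, abs_mul, abs_sg', mul_one]
    exact hbf2 p
  have i5 : Integrable (fun p : Om V => H p * (A * γ (D p)) * D p) (PPn ν) := by
    refine Integrable.of_bound (C := CH * Cj) ((hf2.mono hle le_rfl).mul hDm).aestronglyMeasurable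
      (Eventually.of_forall fun p => ?_)
    rw [Real.norm_eq_abs, abs_mul]
    have h1 := hbf2 p
    have h2 := hD1 p
    nlinarith [abs_nonneg (H p * (A * γ (D p))), abs_nonneg (D p)]
  have e3 : ∀ p : Om V, H p * (α (D p) + (A * sg (p.1 b.1)) * γ (D p)) =
      H p * α (D p) + H p * (A * γ (D p)) * sg (p.1 b.1) := fun p => by ring
  have e4 : ∀ p : Om V, H p * (∫ u : I, j (D p) (QK (A * D p) u)) =
      H p * α (D p) + H p * (A * γ (D p)) * D p := fun p => by
    rw [hobs _ _ (abs_amp_mul_le (c b) (hD1 p))]; ring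
  rw [e1, integral_congr_ae (Eventually.of_forall e3), integral_add i3 i4, key,
    ← integral_add i3 i5]
  exact (integral_congr_ae (Eventually.of_forall e4)).symm

/-! ### order of observations -/

lemma not_bef_self (c : Cl V) (b : V × ℕ) : ¬ Bef c b.2 (c b) b := by
  rintro (h | ⟨_, h⟩)
  · exact lt_irrefl _ h
  · exact lt_irrefl _ h

lemma bef_trans {c : Cl V} {k : ℕ} {r : ℝ} {a b : V × ℕ} (h : Bef c k r a) (hb : ¬ Bef c k r b) :
    Bef c b.2 (c b) a := by
  unfold Bef at *
  push Not at hb
  obtain ⟨h1, h2⟩ := hb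
  rcases h with h | ⟨h, h'⟩
  · exact Or.inl (lt_of_lt_of_le h h1)
  · rcases h1.lt_or_eq with h3 | h3
    · exact Or.inl (h ▸ h3)
    · exact Or.inr ⟨h.trans h3, lt_of_lt_of_le h' (h2 h3.symm)⟩

lemma bef_trans' {c : Cl V} {a a' b : V × ℕ} (h : Bef c a'.2 (c a') a)
    (h' : Bef c b.2 (c b) a') : Bef c b.2 (c b) a := by
  unfold Bef at *
  rcases h with h | ⟨h, h1⟩ <;> rcases h' with h' | ⟨h', h2⟩
  · exact Or.inl (h.trans h')
  · exact Or.inl (h' ▸ h)
  · exact Or.inl (h ▸ h')
  · exact Or.inr ⟨h.trans h', h1.trans h2⟩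

/-! ### innovations -/

variable (c : Cl V) (D : V × ℕ → Om V → ℝ)

/-- innovations for an abstract drift -/
noncomputable def inn (c : Cl V) (D : V × ℕ → Om V → ℝ) (b : V × ℕ) (p : Om V) : I :=
  HK (amp (c b) * D b p) (Zc c p b)

lemma measurable_inn_sA {J : Set (V × ℕ)} {b : V × ℕ} (hb : b ∈ J)
    (hDs : Measurable[sA c J] (D b)) : Measurable[sA c J] (inn c D b) := by
  have h1 : Measurable[sA c J] (fun p => amp (c b) * D b p) := hDs.const_mul _
  have h2 : Measurable[sA c J] (fun p : Om V => Zc c p b) := measurable_coord hb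
  exact continuous_HK.measurable.comp (h1.prodMk h2)

/-- one innovation is uniform and independent of the past -/
theorem inn_step (b : V × ℕ) (hDs : Measurable[sA c {a | Bef c b.2 (c b) a}] (D b))
    (hD1 : ∀ p, |D b p| ≤ 1)
    (hmean : ∀ f : Om V → ℝ, Measurable[sA c {a | Bef c b.2 (c b) a}] f → (∃ C, ∀ p, |f p| ≤ C) →
      ∫ p, f p * sg (p.1 b.1) ∂(PPn ν) = ∫ p, f p * D b p ∂(PPn ν))
    (E : Set (Om V)) (hE : MeasurableSet[sA c {a | Bef c b.2 (c b) a}] E) (B : Set I)
    (hB : MeasurableSet B) :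
    (PPn ν) (E ∩ {p | inn c D b p ∈ B}) = (PPn ν) E * volume B := by
  have hE0 : MeasurableSet E := (sA_le _ _) E hE
  have hDm : Measurable (D b) := hDs.mono (sA_le _ _) le_rfl
  have hZm : Measurable (fun p : Om V => Zc c p b) := (measurable_pi_apply b).comp (measurable_Zc1 c)
  have hinn : Measurable (inn c D b) := by
    unfold inn
    exact measurable_HK' (hDm.const_mul _) hZm
  have hind : Measurable[sA c {a | Bef c b.2 (c b) a}] (fun p : Om V => (E.indicator 1 p : ℝ)) :=
    (measurable_const : Measurable[sA c {a | Bef c b.2 (c b) a}] (fun _ : Om V => (1 : ℝ))).indicator hE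
  have hind1 : ∀ p : Om V, |(E.indicator 1 p : ℝ)| ≤ 1 := fun p => by
    by_cases h : p ∈ E
    · simp [h]
    · simp [h]
  have hjm : Measurable (Function.uncurry (fun (x : ℝ) (z : I) =>
      (B.indicator 1 (HK (amp (c b) * x) z) : ℝ))) := by
    refine (measurable_one.indicator hB).comp ?_
    exact measurable_HK' (measurable_fst.const_mul _) measurable_snd
  have hj1 : ∀ (x : ℝ) (z : I), |(B.indicator 1 (HK (amp (c b) * x) z) : ℝ)| ≤ 1 := fun x z => by
    by_cases h : HK (amp (c b) * x) z ∈ B
    · simp [h]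
    · simp [h]
  have key := step ν c b (not_bef_self c b) (D b) hDs hD1 hmean (fun p => E.indicator 1 p) hind
    hind1 _ hjm hj1
  have e1 : ∀ p : Om V, (E.indicator 1 p : ℝ) * B.indicator 1 (HK (amp (c b) * D b p) (Zc c p b)) =
      (E ∩ {p | inn c D b p ∈ B}).indicator 1 p := by
    intro p
    by_cases h1 : p ∈ E
    · by_cases h2 : HK (amp (c b) * D b p) (Zc c p b) ∈ B
      · have : p ∈ E ∩ {p | inn c D b p ∈ B} := ⟨h1, h2⟩
        rw [indicator_of_mem h1, indicator_of_mem h2, indicator_of_mem this]; simp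
      · have : p ∉ E ∩ {p | inn c D b p ∈ B} := fun h => h2 h.2
        rw [indicator_of_mem h1, indicator_of_notMem h2, indicator_of_notMem this]; simp
    · have : p ∉ E ∩ {p | inn c D b p ∈ B} := fun h => h1 h.1
      rw [indicator_of_notMem h1, indicator_of_notMem this]; simp
  have e2 : ∀ p : Om V, (E.indicator 1 p : ℝ) *
      (∫ u : I, (B.indicator 1 (HK (amp (c b) * D b p) (QK (amp (c b) * D b p) u)) : ℝ)) =
      E.indicator 1 p * (volume B).toReal := by
    intro p
    congr 1
    simp only [HK_QK]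
    rw [integral_indicator_one hB]
    rfl
  have hEB : MeasurableSet (E ∩ {p | inn c D b p ∈ B}) := hE0.inter (hinn hB)
  rw [integral_congr_ae (Eventually.of_forall e1), integral_congr_ae (Eventually.of_forall e2),
    integral_indicator_one hEB, integral_mul_const, integral_indicator_one hE0] at key
  rw [← ENNReal.toReal_eq_toReal_iff' (measure_ne_top _ _)
    (ENNReal.mul_ne_top (measure_ne_top _ _) (measure_ne_top _ _)), ENNReal.toReal_mul]
  exact key

/-- independence of the future innovations from the past -/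
theorem inn_indep
    (hDs : ∀ b, Measurable[sA c {a | Bef c b.2 (c b) a}] (D b))
    (hD1 : ∀ b p, |D b p| ≤ 1)
    (hmean : ∀ b, ∀ f : Om V → ℝ, Measurable[sA c {a | Bef c b.2 (c b) a}] f →
      (∃ C, ∀ p, |f p| ≤ C) →
      ∫ p, f p * sg (p.1 b.1) ∂(PPn ν) = ∫ p, f p * D b p ∂(PPn ν))
    (hinj : ∀ a b : V × ℕ, a.2 = b.2 → c a = c b → a = b) (k : ℕ) (r : ℝ)
    (E : Set (Om V)) (hE : MeasurableSet[sA c {a | Bef c k r a}] E)
    (s : Finset (V × ℕ)) (hs : ∀ b ∈ s, ¬ Bef c k r b) (t : V × ℕ → Set I)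
    (ht : ∀ b, MeasurableSet (t b)) :
    (PPn ν) (E ∩ {p | ∀ b ∈ s, inn c D b p ∈ t b}) = (PPn ν) E * ∏ b ∈ s, volume (t b) := by
  classical
  induction s using Finset.induction_on_max_value (fun b : V × ℕ => toLex (b.2, c b)) with
  | empty => simp
  | insert a s ha hmax ih =>
    have hprec : ∀ x ∈ s, Bef c a.2 (c a) x := by
      intro x hx
      have h1 := hmax x hx
      rw [Prod.Lex.toLex_le_toLex] at h1
      rcases h1 with h1 | ⟨h1, h2⟩
      · exact Or.inl h1
      · refine Or.inr ⟨h1, ?_⟩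
        have h2' : (c x : I) < c a := lt_of_le_of_ne h2 (by
          intro h3
          have := hinj x a h1 h3
          exact ha (this ▸ hx))
        exact h2'
    have h1 : E ∩ {p | ∀ b ∈ insert a s, inn c D b p ∈ t b} =
        (E ∩ {p | ∀ b ∈ s, inn c D b p ∈ t b}) ∩ {p | inn c D a p ∈ t a} := by
      ext p
      simp only [Finset.mem_insert, mem_inter_iff, Set.mem_ofPred_eq]
      constructor
      · rintro ⟨h0, h⟩
        exact ⟨⟨h0, fun b hb => h b (Or.inr hb)⟩, h a (Or.inl rfl)⟩
      · rintro ⟨⟨h0, h1⟩, h2⟩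
        refine ⟨h0, ?_⟩
        rintro b (rfl | hb)
        · exact h2
        · exact h1 b hb
    have h2 : MeasurableSet[sA c {x | Bef c a.2 (c a) x}]
        (E ∩ {p | ∀ b ∈ s, inn c D b p ∈ t b}) := by
      refine MeasurableSet.inter ?_ ?_
      · refine (sA_mono c ?_) E hE
        intro x hx
        exact bef_trans hx (hs a (Finset.mem_insert_self a s))
      · have : {p | ∀ b ∈ s, inn c D b p ∈ t b} = ⋂ b ∈ s, (inn c D b) ⁻¹' (t b) := by
          ext p; simp
        rw [this]
        refine MeasurableSet.biInter s.countable_toSet fun b hb => ?_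
        refine measurable_inn_sA c D (J := {x | Bef c a.2 (c a) x}) (hprec b hb) ?_ (ht b)
        exact (hDs b).mono (sA_mono c fun x hx => bef_trans' hx (hprec b hb)) le_rfl
    rw [h1, inn_step ν c D a (hDs a) (hD1 a) (hmean a) _ h2 (t a) (ht a),
      ih (fun b hb => hs b (Finset.mem_insert_of_mem hb)), Finset.prod_insert ha]
    ring

/-- the innovations are independent and uniform -/
theorem inn_law
    (hDs : ∀ b, Measurable[sA c {a | Bef c b.2 (c b) a}] (D b))
    (hD1 : ∀ b p, |D b p| ≤ 1)
    (hmean : ∀ b, ∀ f : Om V → ℝ, Measurable[sA c {a | Bef c b.2 (c b) a}] f →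
      (∃ C, ∀ p, |f p| ≤ C) →
      ∫ p, f p * sg (p.1 b.1) ∂(PPn ν) = ∫ p, f p * D b p ∂(PPn ν))
    (hinj : ∀ a b : V × ℕ, a.2 = b.2 → c a = c b → a = b) :
    (PPn ν).map (fun p b => inn c D b p) = μI (V × ℕ) := by
  have hmeas : Measurable (fun (p : Om V) (b : V × ℕ) => inn c D b p) :=
    measurable_pi_iff.2 fun b => by
      unfold inn
      exact measurable_HK' (((hDs b).mono (sA_le _ _) le_rfl).const_mul _)
        ((measurable_pi_apply b).comp (measurable_Zc1 c))
  change _ = FIID.μI (V × ℕ)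
  unfold FIID.μI
  refine Measure.eq_infinitePi _ fun s t ht => ?_
  rw [Measure.map_apply hmeas (.pi s.countable_toSet fun _ _ => ht _)]
  have hset : (fun (p : Om V) (b : V × ℕ) => inn c D b p) ⁻¹' ((s : Set (V × ℕ)).pi t) =
      univ ∩ {p | ∀ b ∈ s, inn c D b p ∈ t b} := by
    ext p
    simp only [mem_preimage, Set.mem_pi, Finset.mem_coe, univ_inter]
    rfl
  rw [hset, inn_indep ν c D hDs hD1 hmean hinj 0 0 univ MeasurableSet.univ s ?_ t ht]
  · simp
  · rintro b _ (h | ⟨_, h⟩)
    · exact absurd h (Nat.not_lt_zero _)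
    · exact absurd (c b).2.1 (not_le.2 h)

end

end Crest.Agent.TI.Law
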