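import Crest.Agent.TINu
import Crest.Agent.TIScalarA

/-!
Row 160 (S0241).  Gauge coordinates: half edge signs and gauge fixed fields; law of the gauge
fixed messages; independence of disjoint parts.
-/

set_option autoImplicit false

namespace Crest.Agent.TI

open MeasureTheory unitInterval Set Filter Topology
open scoped ENNReal

variable {d : ℕ}

/-- labels: half edge signs and gauge fixed fields -/
abbrev Lb (d : ℕ) := (W d × Fin d → Bool) × (W d → ℝ)

/-- the law of the labels -/
noncomputable def lbLaw (d : ℕ) (θ : ℝ) (μy : Measure ℝ) : Measure (Lb d) :=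
  (epsLaw d θ).prod (Measure.infinitePi fun _ : W d => μy)

lemma isProb_lbLaw (d : ℕ) {θ : ℝ} (h1 : θ ≤ 1) (μy : Measure ℝ) [IsProbabilityMeasure μy] :
    IsProbabilityMeasure (lbLaw d θ μy) := by
  have := isProb_epsLaw d h1
  unfold lbLaw; infer_instance

/-- gauge fixed messages -/
noncomputable def gm (θ : ℝ) (ω : Lb d) : ℕ → W d → ℝ
  | 0, w => ω.2 w
  | n + 1, w => ω.2 w + ∑ i : Fin d, if w.head? = some i then 0 else
      sg (ω.1 (w, i)) * sg (ω.1 (W.nb i w, i)) * phi θ (gm θ ω n (W.nb i w))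

/-- the contribution of the child in direction `i` -/
noncomputable def edgeMsg (θ : ℝ) (ω : Lb d) (n : ℕ) (w : W d) (i : Fin d) : ℝ :=
  sg (ω.1 (w, i)) * sg (ω.1 (W.nb i w, i)) * phi θ (gm θ ω n (W.nb i w))

lemma gm_succ (θ : ℝ) (ω : Lb d) (n : ℕ) (w : W d) :
    gm θ ω (n + 1) w = ω.2 w + ∑ i : Fin d, if w.head? = some i then 0 else edgeMsg θ ω n w i :=
  rfl

lemma phi_sg {θ : ℝ} (h0 : 0 ≤ θ) (h1 : θ < 1) (b : Bool) (h : ℝ) :
    phi θ (sg b * h) = sg b * phi θ h := by
  cases b
  · simp only [sg, Bool.false_eq_true, if_false]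
    rw [neg_one_mul, Scal.phi_neg h0 h1, neg_one_mul]
  · simp [sg]

/-- the field of a label -/
noncomputable def fieldOf (q : Bool × Lb d) (v : W d) : ℝ := sg (sp q.1 q.2.1 v) * q.2.2 v

theorem msg_gm {θ : ℝ} (h0 : 0 ≤ θ) (h1 : θ < 1) (q : Bool × Lb d) (n : ℕ) (w : W d) :
    msg θ (fieldOf q) n w = sg (sp q.1 q.2.1 w) * gm θ q.2 n w := by
  induction n generalizing w with
  | zero => rfl
  | succ n ih =>
    have e1 : msg θ (fieldOf q) (n + 1) w = fieldOf q w +
      ∑ i : Fin d, if w.head? = some i then 0 else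
        phi θ (msg θ (fieldOf q) n (W.nb i w)) := rfl
    rw [e1, gm_succ, mul_add, Finset.mul_sum]
    congr 1
    refine Finset.sum_congr rfl fun i _ => ?_
    split_ifs with h
    · simp
    · rw [ih, phi_sg h0 h1, sp_nb, sg_beq, sg_beq]
      unfold edgeMsg
      ring

lemma measurable_gm {θ : ℝ} (h0 : 0 ≤ θ) (h1 : θ < 1) (n : ℕ) (w : W d) :
    Measurable (fun ω : Lb d => gm θ ω n w) := by
  induction n generalizing w with
  | zero => exact (measurable_pi_apply w).comp measurable_snd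
  | succ n ih =>
    have hs : ∀ a : W d × Fin d, Measurable (fun ω : Lb d => sg (ω.1 a)) := fun a =>
      measurable_sg.comp ((measurable_pi_apply a).comp measurable_fst)
    simp only [gm]
    refine ((measurable_pi_apply w).comp measurable_snd).add
      (Finset.measurable_fun_sum _ fun i _ => ?_)
    split_ifs with h
    · exact measurable_const
    · exact ((hs _).mul (hs _)).mul ((Scal.continuous_phi h0 h1).measurable.comp (ih _))

lemma measurable_edgeMsg {θ : ℝ} (h0 : 0 ≤ θ) (h1 : θ < 1) (n : ℕ) (w : W d) (i : Fin d) :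
    Measurable (fun ω : Lb d => edgeMsg θ ω n w i) := by
  have hs : ∀ a : W d × Fin d, Measurable (fun ω : Lb d => sg (ω.1 a)) := fun a =>
    measurable_sg.comp ((measurable_pi_apply a).comp measurable_fst)
  exact ((hs _).mul (hs _)).mul ((Scal.continuous_phi h0 h1).measurable.comp (measurable_gm h0 h1 n _))

/-! ### dependence on parts of the labels -/

/-- `f` depends only on the half edges in `A1` and the fields in `A2` -/
def DepOn {γ : Type*} (A1 : Set (W d × Fin d)) (A2 : Set (W d)) (f : Lb d → γ) : Prop :=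
  ∀ ω ω' : Lb d, (∀ a ∈ A1, ω.1 a = ω'.1 a) → (∀ v ∈ A2, ω.2 v = ω'.2 v) → f ω = f ω'

lemma DepOn.mono {γ : Type*} {A1 B1 : Set (W d × Fin d)} {A2 B2 : Set (W d)} {f : Lb d → γ}
    (h : DepOn A1 A2 f) (h1 : A1 ⊆ B1) (h2 : A2 ⊆ B2) : DepOn B1 B2 f :=
  fun ω ω' e1 e2 => h ω ω' (fun a ha => e1 a (h1 ha)) fun v hv => e2 v (h2 hv)

lemma DepOn.comp {γ δ : Type*} {A1 : Set (W d × Fin d)} {A2 : Set (W d)} {f : Lb d → γ}
    (h : DepOn A1 A2 f) (F : γ → δ) : DepOn A1 A2 (fun ω => F (f ω)) :=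
  fun ω ω' e1 e2 => congrArg F (h ω ω' e1 e2)

/-- descendants -/
def Below (w : W d) : Set (W d) := {u | w.1 <:+ u.1}

/-- half edges strictly below the edge above `w` -/
def HBelow (w : W d) : Set (W d × Fin d) := {a | w.1 <:+ a.1.1 ∧ ¬ (a.1 = w ∧ w.head? = some a.2)}

lemma suffix_nb {w : W d} {i : Fin d} (h : w.head? ≠ some i) : w.1 <:+ (W.nb i w).1 := by
  rw [W.nb_of_ne h]; exact List.suffix_cons _ _

lemma not_nb_suffix {w : W d} {i : Fin d} (h : w.head? ≠ some i) : ¬ ((W.nb i w).1 <:+ w.1) := by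
  intro h2
  have h3 := h2.length_le
  rw [W.nb_of_ne h, List.length_cons] at h3
  omega

lemma hBelow_nb {w : W d} {i : Fin d} (h : w.head? ≠ some i) :
    HBelow (W.nb i w) ⊆ HBelow w := by
  rintro a ⟨h1, h2⟩
  refine ⟨(suffix_nb h).trans h1, ?_⟩
  rintro ⟨h3, h4⟩
  rw [h3] at h1
  exact not_nb_suffix h h1

lemma below_nb {w : W d} {i : Fin d} (h : w.head? ≠ some i) : Below (W.nb i w) ⊆ Below w :=
  fun _ hu => (suffix_nb h).trans hu

theorem gm_dep (θ : ℝ) (n : ℕ) (w : W d) :
    DepOn (HBelow w) (Below w) (fun ω => gm θ ω n w) := by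
  induction n generalizing w with
  | zero => exact fun ω ω' _ h2 => h2 w List.suffix_rfl
  | succ n ih =>
    intro ω ω' h1 h2
    simp only [gm]
    rw [h2 w List.suffix_rfl]
    congr 1
    refine Finset.sum_congr rfl fun i _ => ?_
    split_ifs with h
    · rfl
    · have e0 : gm θ ω n (W.nb i w) = gm θ ω' n (W.nb i w) :=
        ih (W.nb i w) ω ω' (fun a ha => h1 a (hBelow_nb h ha)) fun v hv => h2 v (below_nb h hv)
      rw [e0, h1 (w, i) ⟨List.suffix_rfl, fun h3 => h h3.2⟩,
        h1 (W.nb i w, i) ⟨suffix_nb h, fun h3 => ?_⟩]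
      have h4 := congrArg W.len h3.1
      rw [W.len_nb_of_ne h] at h4
      omega

/-- half edges used by the message from the child in direction `i` -/
def HEdge (w : W d) (i : Fin d) : Set (W d × Fin d) :=
  {a | a = (w, i) ∨ (W.nb i w).1 <:+ a.1.1}

theorem edgeMsg_dep (θ : ℝ) (n : ℕ) (w : W d) (i : Fin d) :
    DepOn (HEdge w i) (Below (W.nb i w)) (fun ω => edgeMsg θ ω n w i) := by
  intro ω ω' h1 h2
  unfold edgeMsg
  beta_reduce
  have e0 : gm θ ω n (W.nb i w) = gm θ ω' n (W.nb i w) :=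
    gm_dep θ n (W.nb i w) ω ω' (fun a ha => h1 a (Or.inr ha.1)) h2
  rw [e0, h1 (w, i) (Or.inl rfl), h1 (W.nb i w, i) (Or.inr List.suffix_rfl)]

open Classical in
/-- glue two labels -/
noncomputable def glueL (A1 : Set (W d × Fin d)) (A2 : Set (W d)) (z : Lb d × Lb d) : Lb d :=
  (fun a => if a ∈ A1 then z.1.1 a else z.2.1 a, fun v => if v ∈ A2 then z.1.2 v else z.2.2 v)

lemma measurable_ite_pi {ι X : Type*} [MeasurableSpace X] (A : Set ι) [DecidablePred (· ∈ A)] :
    Measurable (fun (p : (ι → X) × (ι → X)) i => if i ∈ A then p.1 i else p.2 i) := by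
  rw [measurable_pi_iff]
  intro i
  by_cases h : i ∈ A
  · simp only [h, if_true]; fun_prop
  · simp only [h, if_false]; fun_prop

lemma measurable_glueL (A1 : Set (W d × Fin d)) (A2 : Set (W d)) : Measurable (glueL A1 A2) := by
  classical
  unfold glueL
  refine Measurable.prodMk ?_ ?_
  · exact (measurable_ite_pi A1).comp (by fun_prop : Measurable (fun z : Lb d × Lb d =>
      (z.1.1, z.2.1)))
  · exact (measurable_ite_pi A2).comp (by fun_prop : Measurable (fun z : Lb d × Lb d =>
      (z.1.2, z.2.2)))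

theorem glueL_law {θ : ℝ} (h1 : θ ≤ 1) (μy : Measure ℝ) [IsProbabilityMeasure μy]
    (A1 : Set (W d × Fin d)) (A2 : Set (W d)) :
    ((lbLaw d θ μy).prod (lbLaw d θ μy)).map (glueL A1 A2) = lbLaw d θ μy := by
  classical
  have := isProb_signSqrt h1
  have := isProb_epsLaw d h1
  unfold lbLaw
  exact glue_prod (epsLaw d θ) (Measure.infinitePi fun _ : W d => μy)
    (fun p i => if i ∈ A1 then p.1 i else p.2 i) (fun p i => if i ∈ A2 then p.1 i else p.2 i)
    (measurable_ite_pi A1) (measurable_ite_pi A2)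
    (iid_glue (fun _ : W d × Fin d => signLaw (Real.sqrt θ)) A1)
    (iid_glue (fun _ : W d => μy) A2)

/-- functions of disjoint parts of the labels are independent -/
theorem law_pair {θ : ℝ} (h1 : θ ≤ 1) (μy : Measure ℝ) [IsProbabilityMeasure μy]
    {γ γ' : Type*} [MeasurableSpace γ] [MeasurableSpace γ']
    {A1 B1 : Set (W d × Fin d)} {A2 B2 : Set (W d)} (hd1 : Disjoint A1 B1) (hd2 : Disjoint A2 B2)
    {f : Lb d → γ} {g : Lb d → γ'} (hf : Measurable f) (hg : Measurable g)
    (hfd : DepOn A1 A2 f) (hgd : DepOn B1 B2 g) :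
    (lbLaw d θ μy).map (fun ω => (f ω, g ω)) =
      ((lbLaw d θ μy).map f).prod ((lbLaw d θ μy).map g) := by
  have := isProb_lbLaw d h1 μy
  refine law_pair_of_glue (lbLaw d θ μy) (glueL A1 A2) (measurable_glueL A1 A2)
    (glueL_law h1 μy A1 A2) f g hf hg (fun z => ?_) (fun z => ?_)
  · refine hfd _ _ (fun a ha => ?_) fun v hv => ?_
    · simp only [glueL, ha, if_true]
    · simp only [glueL, hv, if_true]
  · refine hgd _ _ (fun a ha => ?_) fun v hv => ?_
    · have : a ∉ A1 := fun h => Set.disjoint_left.1 hd1 h ha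
      simp only [glueL, this, if_false]
    · have : v ∉ A2 := fun h => Set.disjoint_left.1 hd2 h hv
      simp only [glueL, this, if_false]

/-- expectations of products of functions of disjoint parts -/
theorem lintegral_mul_dep {θ : ℝ} (h1 : θ ≤ 1) (μy : Measure ℝ) [IsProbabilityMeasure μy]
    {A1 B1 : Set (W d × Fin d)} {A2 B2 : Set (W d)} (hd1 : Disjoint A1 B1) (hd2 : Disjoint A2 B2)
    {f g : Lb d → ℝ≥0∞} (hf : Measurable f) (hg : Measurable g)
    (hfd : DepOn A1 A2 f) (hgd : DepOn B1 B2 g) :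
    ∫⁻ ω, f ω * g ω ∂(lbLaw d θ μy) =
      (∫⁻ ω, f ω ∂(lbLaw d θ μy)) * ∫⁻ ω, g ω ∂(lbLaw d θ μy) := by
  have := isProb_lbLaw d h1 μy
  have h := law_pair h1 μy hd1 hd2 hf hg hfd hgd
  have e1 : ∫⁻ ω, f ω * g ω ∂(lbLaw d θ μy) =
      ∫⁻ z, z.1 * z.2 ∂((lbLaw d θ μy).map (fun ω => (f ω, g ω))) := by
    rw [lintegral_map (by fun_prop) (hf.prodMk hg)]
  have := Measure.isProbabilityMeasure_map (μ := lbLaw d θ μy) hf.aemeasurable
  have := Measure.isProbabilityMeasure_map (μ := lbLaw d θ μy) hg.aemeasurable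
  rw [e1, h]
  have e2 := lintegral_prod_mul (μ := (lbLaw d θ μy).map f) (ν := (lbLaw d θ μy).map g)
    (f := fun x => x) (g := fun x => x) measurable_id.aemeasurable measurable_id.aemeasurable
  rw [e2, lintegral_map (f := fun x => x) measurable_id hf,
    lintegral_map (f := fun x => x) measurable_id hg]

theorem lintegral_prod_dep {θ : ℝ} (h1 : θ ≤ 1) (μy : Measure ℝ) [IsProbabilityMeasure μy]
    {κ : Type*} (T : Finset κ) (A1 : κ → Set (W d × Fin d)) (A2 : κ → Set (W d))
    (hd1 : ∀ k ∈ T, ∀ l ∈ T, k ≠ l → Disjoint (A1 k) (A1 l))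
    (hd2 : ∀ k ∈ T, ∀ l ∈ T, k ≠ l → Disjoint (A2 k) (A2 l))
    (f : κ → Lb d → ℝ≥0∞) (hf : ∀ k, Measurable (f k)) (hfd : ∀ k ∈ T, DepOn (A1 k) (A2 k) (f k)) :
    ∫⁻ ω, ∏ k ∈ T, f k ω ∂(lbLaw d θ μy) = ∏ k ∈ T, ∫⁻ ω, f k ω ∂(lbLaw d θ μy) := by
  classical
  have hP := isProb_lbLaw d h1 μy
  induction T using Finset.induction_on with
  | empty => simp
  | insert k T hk ih =>
    have hd1' : ∀ l ∈ T, ∀ l' ∈ T, l ≠ l' → Disjoint (A1 l) (A1 l') := fun l hl l' hl' =>
      hd1 l (Finset.mem_insert_of_mem hl) l' (Finset.mem_insert_of_mem hl')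
    have hd2' : ∀ l ∈ T, ∀ l' ∈ T, l ≠ l' → Disjoint (A2 l) (A2 l') := fun l hl l' hl' =>
      hd2 l (Finset.mem_insert_of_mem hl) l' (Finset.mem_insert_of_mem hl')
    have hfd' : ∀ l ∈ T, DepOn (A1 l) (A2 l) (f l) := fun l hl => hfd l (Finset.mem_insert_of_mem hl)
    rw [Finset.prod_insert hk, ← ih hd1' hd2' hfd']
    simp_rw [Finset.prod_insert hk]
    refine lintegral_mul_dep (A1 := A1 k) (A2 := A2 k) (B1 := ⋃ l ∈ T, A1 l)
      (B2 := ⋃ l ∈ T, A2 l) h1 μy ?_ ?_ (hf k) (Finset.measurable_fun_prod _ fun l _ => hf l)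
      (hfd k (Finset.mem_insert_self _ _)) ?_
    · rw [Set.disjoint_iUnion₂_right]
      exact fun l hl => hd1 k (Finset.mem_insert_self _ _) l (Finset.mem_insert_of_mem hl)
        (fun h => hk (h ▸ hl))
    · rw [Set.disjoint_iUnion₂_right]
      exact fun l hl => hd2 k (Finset.mem_insert_self _ _) l (Finset.mem_insert_of_mem hl)
        (fun h => hk (h ▸ hl))
    · intro ω ω' e1 e2
      refine Finset.prod_congr rfl fun l hl => ?_
      exact hfd' l hl ω ω' (fun a ha => e1 a (Set.mem_biUnion hl ha))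
        fun v hv => e2 v (Set.mem_biUnion hl hv)

/-! ### the field law in gauge coordinates -/

lemma measurable_fieldOf : Measurable (fieldOf (d := d)) := by
  rw [measurable_pi_iff]
  intro v
  have h1 : Measurable (fun q : Bool × Lb d => sg (sp q.1 q.2.1 v)) :=
    measurable_sg.comp ((measurable_sp_at v).comp
      (measurable_fst.prodMk (measurable_fst.comp measurable_snd)))
  exact h1.mul ((measurable_pi_apply v).comp (measurable_snd.comp measurable_snd))

lemma fieldOf_not (s : Bool) (ω : Lb d) : fieldOf (!s, ω) = - fieldOf (s, ω) := by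
  funext v
  simp only [fieldOf, Pi.neg_apply]
  rw [sp_not, sg_not]
  ring

theorem fieldLaw_eq {θ : ℝ} (h1 : θ ≤ 1) (μy : Measure ℝ) [IsProbabilityMeasure μy] :
    fieldLaw d θ μy = ((signLaw 0).prod (lbLaw d θ μy)).map fieldOf := by
  have i1 := isProb_epsLaw d h1
  have i2 := isProb_nu d h1
  have hsm : ∀ v : W d, Measurable (fun x : W d → Bool => sg (x v)) := fun v =>
    measurable_sg.comp (measurable_pi_apply v)
  have hm1 : Measurable (fun (q : (W d → Bool) × (W d → ℝ)) v => sg (q.1 v) * q.2 v) := by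
    rw [measurable_pi_iff]
    intro v
    exact ((hsm v).comp measurable_fst).mul ((measurable_pi_apply v).comp measurable_snd)
  unfold fieldLaw lbLaw
  rw [nu_def]
  refine Measure.ext_of_lintegral _ fun F hF => ?_
  have hFm : Measurable (fun q : (W d → Bool) × (W d → ℝ) => F (fun v => sg (q.1 v) * q.2 v)) :=
    hF.comp hm1
  rw [lintegral_map hF hm1, lintegral_map hF measurable_fieldOf, lintegral_prod _ hFm.aemeasurable,
    lintegral_map hFm.lintegral_prod_right' measurable_sp]
  have hG : Measurable (fun q : Bool × Lb d => F (fieldOf q)) := hF.comp measurable_fieldOf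
  rw [lintegral_prod _ hG.aemeasurable]
  have hH : Measurable (fun a : Bool × (W d × Fin d → Bool) =>
      ∫⁻ y, F (fun v => sg (sp a.1 a.2 v) * y v) ∂(Measure.infinitePi fun _ : W d => μy)) :=
    hFm.lintegral_prod_right'.comp measurable_sp
  rw [lintegral_prod _ hH.aemeasurable]
  refine lintegral_congr fun s => ?_
  have hK : Measurable (fun ω : Lb d => F (fieldOf (s, ω))) :=
    hG.comp (measurable_const.prodMk measurable_id)
  rw [lintegral_prod _ hK.aemeasurable]
  rfl

theorem isProb_fieldLaw (d : ℕ) {θ : ℝ} (h1 : θ ≤ 1) (μy : Measure ℝ) [IsProbabilityMeasure μy] :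
    IsProbabilityMeasure (fieldLaw d θ μy) := by
  have := isProb_lbLaw d h1 μy
  rw [fieldLaw_eq h1 μy]
  exact Measure.isProbabilityMeasure_map measurable_fieldOf.aemeasurable

/-- even functionals of the field -/
theorem lintegral_fieldLaw_even {θ : ℝ} (h1 : θ ≤ 1) (μy : Measure ℝ) [IsProbabilityMeasure μy]
    (F : (W d → ℝ) → ℝ≥0∞) (hF : Measurable F) (he : ∀ y, F (-y) = F y) :
    ∫⁻ y, F y ∂(fieldLaw d θ μy) = ∫⁻ ω, F (fieldOf (true, ω)) ∂(lbLaw d θ μy) := by
  have := isProb_lbLaw d h1 μy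
  rw [fieldLaw_eq h1 μy, lintegral_map hF measurable_fieldOf]
  have hG : Measurable (fun q : Bool × Lb d => F (fieldOf q)) := hF.comp measurable_fieldOf
  rw [lintegral_prod _ hG.aemeasurable, lintegral_signLaw]
  have e1 : ∀ ω : Lb d, F (fieldOf (false, ω)) = F (fieldOf (true, ω)) := fun ω => by
    rw [show (false : Bool) = !true from rfl, fieldOf_not, he]
  simp only [e1]
  rw [← add_mul, ← ENNReal.ofReal_add (by norm_num) (by norm_num)]
  norm_num

theorem integral_fieldLaw_even {θ : ℝ} (h1 : θ ≤ 1) (μy : Measure ℝ) [IsProbabilityMeasure μy]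
    (F : (W d → ℝ) → ℝ) (hF : Measurable F) (hFi : Integrable F (fieldLaw d θ μy))
    (he : ∀ y, F (-y) = F y) :
    ∫ y, F y ∂(fieldLaw d θ μy) = ∫ ω, F (fieldOf (true, ω)) ∂(lbLaw d θ μy) := by
  have := isProb_lbLaw d h1 μy
  rw [fieldLaw_eq h1 μy] at hFi ⊢
  rw [integral_map measurable_fieldOf.aemeasurable hF.aestronglyMeasurable]
  have hI : Integrable (fun q : Bool × Lb d => F (fieldOf q)) ((signLaw 0).prod (lbLaw d θ μy)) :=
    hFi.comp_measurable measurable_fieldOf
  rw [integral_prod _ hI, integral_signLaw (by norm_num) (by norm_num)]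
  have e1 : ∀ ω : Lb d, F (fieldOf (false, ω)) = F (fieldOf (true, ω)) := fun ω => by
    rw [show (false : Bool) = !true from rfl, fieldOf_not, he]
  simp only [e1]
  ring

/-- translation invariance of the field law -/
theorem fieldLaw_tr {θ : ℝ} (h1 : θ ≤ 1) (μy : Measure ℝ) [IsProbabilityMeasure μy] (v : W d) :
    (fieldLaw d θ μy).map (fun y => y ∘ W.tr v) = fieldLaw d θ μy := by
  have i2 := isProb_nu d h1
  have hsm : ∀ v : W d, Measurable (fun x : W d → Bool => sg (x v)) := fun v =>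
    measurable_sg.comp (measurable_pi_apply v)
  have hm1 : Measurable (fun (q : (W d → Bool) × (W d → ℝ)) v => sg (q.1 v) * q.2 v) := by
    rw [measurable_pi_iff]
    intro v
    exact ((hsm v).comp measurable_fst).mul ((measurable_pi_apply v).comp measurable_snd)
  have hc : Measurable (fun y : W d → ℝ => y ∘ W.tr v) := by
    rw [measurable_pi_iff]; intro w; exact measurable_pi_apply _
  have hc1 : Measurable (fun y : W d → Bool => y ∘ W.tr v) := by
    rw [measurable_pi_iff]; intro w; exact measurable_pi_apply _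
  unfold fieldLaw
  rw [Measure.map_map hc hm1]
  have e1 : ((fun y : W d → ℝ => y ∘ W.tr v) ∘
      fun (q : (W d → Bool) × (W d → ℝ)) v => sg (q.1 v) * q.2 v) =
      (fun (q : (W d → Bool) × (W d → ℝ)) v => sg (q.1 v) * q.2 v) ∘
        (Prod.map (fun x : W d → Bool => x ∘ W.tr v) (fun y : W d → ℝ => y ∘ W.tr v)) := rfl
  rw [e1, ← Measure.map_map hm1 (hc1.prodMap hc)]
  rw [← Measure.map_prod_map _ _ hc1 hc, nu_tr θ h1 v]
  congr 2
  exact iid_map_inj μy (W.tr v) (W.trE v).injective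

/-- flip invariance of the field law -/
theorem fieldLaw_neg {θ : ℝ} (h1 : θ ≤ 1) (μy : Measure ℝ) [IsProbabilityMeasure μy] :
    (fieldLaw d θ μy).map (fun y => -y) = fieldLaw d θ μy := by
  have i2 := isProb_nu d h1
  have hsm : ∀ v : W d, Measurable (fun x : W d → Bool => sg (x v)) := fun v =>
    measurable_sg.comp (measurable_pi_apply v)
  have hm1 : Measurable (fun (q : (W d → Bool) × (W d → ℝ)) v => sg (q.1 v) * q.2 v) := by
    rw [measurable_pi_iff]
    intro v
    exact ((hsm v).comp measurable_fst).mul ((measurable_pi_apply v).comp measurable_snd)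
  have hc : Measurable (fun y : W d → ℝ => -y) := measurable_neg
  have hc1 : Measurable (fun (x : W d → Bool) (v : W d) => !(x v)) := by
    rw [measurable_pi_iff]; intro w
    exact (measurable_of_countable (fun b : Bool => !b)).comp (measurable_pi_apply w)
  unfold fieldLaw
  rw [Measure.map_map hc hm1]
  have e1 : ((fun y : W d → ℝ => -y) ∘
      fun (q : (W d → Bool) × (W d → ℝ)) v => sg (q.1 v) * q.2 v) =
      (fun (q : (W d → Bool) × (W d → ℝ)) v => sg (q.1 v) * q.2 v) ∘
        (Prod.map (fun (x : W d → Bool) (v : W d) => !(x v)) id) := by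
    funext q v
    simp only [Function.comp_apply, Pi.neg_apply, Prod.map_fst, Prod.map_snd, id_eq]
    rw [sg_not]; ring
  rw [e1, ← Measure.map_map hm1 (hc1.prodMap measurable_id)]
  rw [← Measure.map_prod_map _ _ hc1 measurable_id, nu_flip θ h1, Measure.map_id]

end Crest.Agent.TI
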