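import Crest.Agent.TIClock
import Crest.Agent.TILawC

/-!
Row 160 (S0241).  Piece P3: the replica pair given clocks and innovations.  Conditional
expectations given the innovations, orthogonality.
-/

set_option autoImplicit false

namespace Crest.Agent.TI.P3

open MeasureTheory ProbabilityTheory unitInterval Set Filter Topology
open scoped ENNReal
open Crest.Agent.TI Crest.Agent.TI.Pair Crest.Agent.TI.Clock

variable {d : ℕ}

/-! ### hypotheses delivered by P1 -/

/-- one step: the law of the observation given the past -/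
def StepStmt (θ : ℝ) (ν : Measure (W d → Bool)) : Prop :=
  ∀ (c : Cl (W d)) (b : W d × ℕ) (H : Om (W d) → ℝ),
    Measurable[sA c {a | Bef c b.2 (c b) a}] H → (∃ C, ∀ p, |H p| ≤ C) →
    ∀ j : ℝ → I → ℝ, Measurable (Function.uncurry j) → (∃ C, ∀ D z, |j D z| ≤ C) →
    ∫ p, H p * j (drift θ c (Zc c p) b) (Zc c p b) ∂(PPn ν) =
      ∫ p, H p * (∫ u, j (drift θ c (Zc c p) b)
        (QK (amp (c b) * drift θ c (Zc c p) b) u)) ∂(PPn ν)

/-- independence of the future innovations from the past observations -/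
def IndepStmt (θ : ℝ) (ν : Measure (W d → Bool)) : Prop :=
  ∀ (c : Cl (W d)), (∀ a b : W d × ℕ, a.2 = b.2 → c a = c b → a = b) →
    ∀ (k : ℕ) (r : ℝ) (E : Set (Om (W d))), MeasurableSet[sA c {a | Bef c k r a}] E →
    ∀ (s : Finset (W d × ℕ)) (t : W d × ℕ → Set I), (∀ b ∈ s, ¬ Bef c k r b) →
    (∀ b, MeasurableSet (t b)) →
    PPn ν (E ∩ {p | ∀ b ∈ s, innov θ c p b ∈ t b}) = PPn ν E * ∏ b ∈ s, volume (t b)

/-! ### measurability with respect to the past -/

lemma Bef_trans {c : Cl (W d)} {k : ℕ} {r : ℝ} {b : W d × ℕ} (h : Bef c k r b) :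
    {a | Bef c b.2 (c b) a} ⊆ {a | Bef c k r a} := by
  rintro a (ha | ⟨ha1, ha2⟩)
  · rcases h with h | ⟨h1, h2⟩
    · exact Or.inl (ha.trans h)
    · exact Or.inl (h1 ▸ ha)
  · rcases h with h | ⟨h1, h2⟩
    · exact Or.inl (ha1 ▸ h)
    · exact Or.inr ⟨ha1.trans h1, ha2.trans h2⟩

lemma meas_field_sA (c : Cl (W d)) (k : ℕ) (r : ℝ) {J : Set (W d × ℕ)}
    (hJ : {a | Bef c k r a} ⊆ J) :
    Measurable[sA c J] (fun p : Om (W d) => fieldAt c (Zc c p) k r) := by
  have h := measurable_fJ_sA c hJ (k + 1)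
  have e : (fun p : Om (W d) => fieldAt c (Zc c p) k r) =
      fun p => fJ c {a | Bef c k r a} (k + 1) (Zc c p) := by
    funext p; exact fieldAt_eq_fJ c (Zc c p) k r
  rw [e]; exact h

lemma meas_mR_sA (θ : ℝ) (c : Cl (W d)) (k : ℕ) (r : ℝ) (v : W d) {J : Set (W d × ℕ)}
    (hJ : {a | Bef c k r a} ⊆ J) :
    Measurable[sA c J] (fun p : Om (W d) => mR θ (fieldAt c (Zc c p) k r ∘ W.tr v)) :=
  (measurable_mR θ).comp ((measurable_comp_tr v).comp (meas_field_sA c k r hJ))

lemma meas_drift_sA (θ : ℝ) (c : Cl (W d)) (b : W d × ℕ) {J : Set (W d × ℕ)}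
    (hJ : {a | Bef c b.2 (c b) a} ⊆ J) :
    Measurable[sA c J] (fun p : Om (W d) => drift θ c (Zc c p) b) :=
  meas_mR_sA θ c b.2 (c b) b.1 hJ

lemma meas_innov_sA (θ : ℝ) (c : Cl (W d)) (b : W d × ℕ) {J : Set (W d × ℕ)}
    (hJ : {a | Bef c b.2 (c b) a} ⊆ J) (hb : b ∈ J) :
    Measurable[sA c J] (fun p : Om (W d) => innov θ c p b) := by
  have h1 := meas_drift_sA θ c b hJ
  have h2 : Measurable[sA c J] (fun p : Om (W d) => Zc c p b) := measurable_coord hb
  have h3 : Measurable (fun q : ℝ × I => HK (amp (c b) * q.1) q.2) :=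
    meas_HK (measurable_fst.const_mul _) measurable_snd
  exact h3.comp (h1.prodMk h2)

/-! ### sigma-algebras of innovations -/

/-- sigma-algebra generated by all innovations -/
@[instance_reducible] noncomputable def sUall (θ : ℝ) (c : Cl (W d)) :
    MeasurableSpace (Om (W d)) :=
  MeasurableSpace.comap (fun p : Om (W d) => innov θ c p) MeasurableSpace.pi

lemma sU_le_sA (θ : ℝ) (c : Cl (W d)) (k : ℕ) (r : ℝ) :
    sU θ c {a | Bef c k r a} ≤ sA c {a | Bef c k r a} := by
  rw [sU, ← measurable_iff_comap_le, @measurable_pi_iff]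
  intro a
  exact meas_innov_sA θ c a (Bef_trans a.2) a.2

lemma sUall_le (θ : ℝ) (c : Cl (W d)) :
    sUall θ c ≤ (inferInstance : MeasurableSpace (Om (W d))) := by
  rw [sUall, ← measurable_iff_comap_le]
  exact measurable_innov_c θ c

lemma sU_le_sUall (θ : ℝ) (c : Cl (W d)) (A : Set (W d × ℕ)) : sU θ c A ≤ sUall θ c := by
  rw [sU, ← measurable_iff_comap_le, @measurable_pi_iff]
  intro a
  have h : Measurable[sUall θ c] (fun p : Om (W d) => innov θ c p) := comap_measurable _
  exact (measurable_pi_apply (a : W d × ℕ)).comp h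

lemma sU_le (θ : ℝ) (c : Cl (W d)) (A : Set (W d × ℕ)) :
    sU θ c A ≤ (inferInstance : MeasurableSpace (Om (W d))) :=
  (sU_le_sUall θ c A).trans (sUall_le θ c)

section indep

variable {θ : ℝ} {ν : Measure (W d → Bool)} [IsProbabilityMeasure ν]

/-- the future innovations are independent of the past observations -/
theorem indep_future (hI : IndepStmt θ ν) (c : Cl (W d))
    (hc : ∀ a b : W d × ℕ, a.2 = b.2 → c a = c b → a = b) (k : ℕ) (r : ℝ) :
    Indep (sA c {a | Bef c k r a}) (sU θ c {a | ¬ Bef c k r a}) (PPn ν) := by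
  classical
  set A : Set (W d × ℕ) := {a | ¬ Bef c k r a} with hA
  set f : Om (W d) → (A → I) := fun p a => innov θ c p a with hf
  set P1 : Set (Set (Om (W d))) := {E | MeasurableSet[sA c {a | Bef c k r a}] E} with hP1
  set C : Set (Set (A → I)) := squareCylinders (fun _ : A => {s : Set I | MeasurableSet s}) with hC
  set P2 : Set (Set (Om (W d))) := {s | ∃ t ∈ C, f ⁻¹' t = s} with hP2
  have hCpi : IsPiSystem C :=
    isPiSystem_squareCylinders (fun _ => MeasurableSpace.isPiSystem_measurableSet) (by simp)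
  have hgen2 : sU θ c A = MeasurableSpace.generateFrom P2 := by
    have h1 : (MeasurableSpace.pi : MeasurableSpace (A → I)) = MeasurableSpace.generateFrom C :=
      generateFrom_squareCylinders.symm
    rw [sU, h1, MeasurableSpace.comap_generateFrom]
    rfl
  refine IndepSets.indep (p1 := P1) (p2 := P2) (sA_le c _) (sU_le θ c A) ?_ (hCpi.comap f) ?_
    hgen2 ?_
  · intro s hs t ht _
    exact @MeasurableSet.inter _ (sA c {a | Bef c k r a}) _ _ hs ht
  · exact (@MeasurableSpace.generateFrom_measurableSet _ (sA c {a | Bef c k r a})).symm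
  · rw [IndepSets_iff]
    rintro E _ hE ⟨_, ⟨s, t, ht, rfl⟩, rfl⟩
    -- rewrite the cylinder
    set s' : Finset (W d × ℕ) := s.map (Function.Embedding.subtype _) with hs'
    set t' : W d × ℕ → Set I := fun b => if hb : b ∈ A then t ⟨b, hb⟩ else univ with ht'
    have htm : ∀ a, MeasurableSet (t a) := fun a => ht a (mem_univ a)
    have ht'm : ∀ b, MeasurableSet (t' b) := by
      intro b
      simp only [ht']
      split_ifs with hb
      · exact htm _
      · exact MeasurableSet.univ
    have e1 : f ⁻¹' ((s : Set A).pi t) = {p | ∀ b ∈ s', innov θ c p b ∈ t' b} := by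
      ext p
      simp only [Set.mem_preimage, Set.mem_pi, Finset.mem_coe, Set.mem_ofPred_eq, hs',
        Finset.mem_map, Function.Embedding.coe_subtype, forall_exists_index, and_imp]
      constructor
      · rintro h b a ha rfl
        have h2 := h a ha
        simp only [ht', a.2, dif_pos]
        exact h2
      · intro h a ha
        have h2 := h a a ha rfl
        simp only [ht', a.2, dif_pos] at h2
        exact h2
    have hs'A : ∀ b ∈ s', ¬ Bef c k r b := by
      intro b hb
      simp only [hs', Finset.mem_map, Function.Embedding.coe_subtype] at hb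
      obtain ⟨a, -, rfl⟩ := hb
      exact a.2
    rw [e1]
    have h1 := hI c hc k r E hE s' t' hs'A ht'm
    have h2 := hI c hc k r univ MeasurableSet.univ s' t' hs'A ht'm
    rw [univ_inter, measure_univ, one_mul] at h2
    rw [h1, h2]

/-- integral over an event of the future -/
lemma setIntegral_future (hI : IndepStmt θ ν) (c : Cl (W d))
    (hc : ∀ a b : W d × ℕ, a.2 = b.2 → c a = c b → a = b) (k : ℕ) (r : ℝ)
    (F : Om (W d) → ℝ) (hF : Measurable[sA c {a | Bef c k r a}] F) (hFi : Integrable F (PPn ν))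
    (A2 : Set (Om (W d))) (hA2 : MeasurableSet[sU θ c {a | ¬ Bef c k r a}] A2) :
    ∫ p in A2, F p ∂(PPn ν) = (PPn ν).real A2 * ∫ p, F p ∂(PPn ν) := by
  have h1 := condExp_indep_eq (μ := PPn ν) (sA_le c {a | Bef c k r a})
    (sU_le θ c {a | ¬ Bef c k r a}) hF.stronglyMeasurable (indep_future hI c hc k r)
  rw [← setIntegral_condExp (sU_le θ c _) hFi hA2,
    setIntegral_congr_ae (g := fun _ => ∫ p, F p ∂(PPn ν)) (sU_le θ c _ _ hA2)
      (by filter_upwards [h1] with p hp _ using hp)]
  rw [setIntegral_const, smul_eq_mul]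

/-- conditioning on all innovations is the same as conditioning on the past innovations -/
theorem condExp_past (hI : IndepStmt θ ν) (c : Cl (W d))
    (hc : ∀ a b : W d × ℕ, a.2 = b.2 → c a = c b → a = b) (k : ℕ) (r : ℝ)
    (G : Om (W d) → ℝ) (hG : Measurable[sA c {a | Bef c k r a}] G) (hGi : Integrable G (PPn ν)) :
    (PPn ν)[G | sUall θ c] =ᵐ[PPn ν] (PPn ν)[G | sU θ c {a | Bef c k r a}] := by
  classical
  symm
  set g := (PPn ν)[G | sU θ c {a | Bef c k r a}] with hg
  have hgm : StronglyMeasurable[sU θ c {a | Bef c k r a}] g := stronglyMeasurable_condExp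
  have hgi : Integrable g (PPn ν) := integrable_condExp
  have hgA : Measurable[sA c {a | Bef c k r a}] g :=
    hgm.measurable.mono (sU_le_sA θ c k r) le_rfl
  refine ae_eq_condExp_of_forall_setIntegral_eq (sUall_le θ c) hGi
    (fun s _ _ => hgi.integrableOn) ?_ (hgm.mono (sU_le_sUall θ c _)).aestronglyMeasurable
  -- the generating pi-system
  set f : Om (W d) → (W d × ℕ → I) := fun p => innov θ c p with hf
  set C : Set (Set (W d × ℕ → I)) :=
    squareCylinders (fun _ : W d × ℕ => {s : Set I | MeasurableSet s}) with hC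
  set P2 : Set (Set (Om (W d))) := {s | ∃ t ∈ C, f ⁻¹' t = s} with hP2
  have hCpi : IsPiSystem C :=
    isPiSystem_squareCylinders (fun _ => MeasurableSpace.isPiSystem_measurableSet) (by simp)
  have hgen : sUall θ c = MeasurableSpace.generateFrom P2 := by
    have h1 : (MeasurableSpace.pi : MeasurableSpace (W d × ℕ → I)) =
      MeasurableSpace.generateFrom C := generateFrom_squareCylinders.symm
    rw [sUall, h1, MeasurableSpace.comap_generateFrom]
    rfl
  have hmain : ∀ s, MeasurableSet[sUall θ c] s →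
      ∫ x in s, g x ∂(PPn ν) = ∫ x in s, G x ∂(PPn ν) := by
    refine MeasurableSpace.induction_on_inter hgen (hCpi.comap f) ?_ ?_ ?_ ?_
    · simp
    · rintro _ ⟨_, ⟨s, t, ht, rfl⟩, rfl⟩
      have htm : ∀ a, MeasurableSet (t a) := fun a => ht a (mem_univ a)
      -- split the cylinder
      set A1 : Set (Om (W d)) := {p | ∀ b ∈ s.filter (fun b => Bef c k r b),
        innov θ c p b ∈ t b} with hA1
      set A2 : Set (Om (W d)) := {p | ∀ b ∈ s.filter (fun b => ¬ Bef c k r b),
        innov θ c p b ∈ t b} with hA2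
      have e1 : f ⁻¹' ((s : Set (W d × ℕ)).pi t) = A1 ∩ A2 := by
        ext p
        simp only [Set.mem_preimage, Set.mem_pi, Finset.mem_coe, hA1, hA2, Set.mem_inter_iff,
          Set.mem_ofPred_eq, Finset.mem_filter, hf]
        constructor
        · intro h
          exact ⟨fun b hb => h b hb.1, fun b hb => h b hb.1⟩
        · rintro ⟨h1, h2⟩ b hb
          by_cases hB : Bef c k r b
          · exact h1 b ⟨hb, hB⟩
          · exact h2 b ⟨hb, hB⟩
      have mU : ∀ (A : Set (W d × ℕ)) (b : W d × ℕ), b ∈ A →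
          Measurable[sU θ c A] (fun p : Om (W d) => innov θ c p b) := by
        intro A b hb
        have h : Measurable[sU θ c A] (fun (p : Om (W d)) (a : A) => innov θ c p a) :=
          comap_measurable _
        exact (measurable_pi_apply (⟨b, hb⟩ : A)).comp h
      have hA1m : MeasurableSet[sU θ c {a | Bef c k r a}] A1 := by
        have : A1 = ⋂ b ∈ s.filter (fun b => Bef c k r b),
            (fun p : Om (W d) => innov θ c p b) ⁻¹' (t b) := by
          ext p; simp [hA1]
        rw [this]
        refine Finset.measurableSet_biInter _ fun b hb => ?_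
        exact mU _ b (Finset.mem_filter.1 hb).2 (htm b)
      have hA2m : MeasurableSet[sU θ c {a | ¬ Bef c k r a}] A2 := by
        have : A2 = ⋂ b ∈ s.filter (fun b => ¬ Bef c k r b),
            (fun p : Om (W d) => innov θ c p b) ⁻¹' (t b) := by
          ext p; simp [hA2]
        rw [this]
        refine Finset.measurableSet_biInter _ fun b hb => ?_
        exact mU _ b (Finset.mem_filter.1 hb).2 (htm b)
      have hA1A : MeasurableSet[sA c {a | Bef c k r a}] A1 := sU_le_sA θ c k r _ hA1m
      have hA1' : MeasurableSet A1 := sA_le c _ _ hA1A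
      have hA2' : MeasurableSet A2 := sU_le θ c _ _ hA2m
      have key : ∀ F : Om (W d) → ℝ, Measurable[sA c {a | Bef c k r a}] F →
          Integrable F (PPn ν) → ∫ x in A1 ∩ A2, F x ∂(PPn ν) =
            (PPn ν).real A2 * ∫ x in A1, F x ∂(PPn ν) := by
        intro F hF hFi
        have h1 : ∫ x in A1 ∩ A2, F x ∂(PPn ν) = ∫ x in A2, A1.indicator F x ∂(PPn ν) := by
          rw [setIntegral_indicator hA1', inter_comm]
        rw [h1, setIntegral_future hI c hc k r _ (hF.indicator hA1A) (hFi.indicator hA1') A2 hA2m,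
          integral_indicator hA1']
      rw [e1, key g hgA hgi, key G hG hGi, hg, setIntegral_condExp (sU_le θ c _) hGi hA1m]
    · intro t ht h
      have htm : MeasurableSet t := by
        have : MeasurableSet[sUall θ c] t := by rw [hgen]; rwa [← hgen]
        exact sUall_le θ c _ this
      have e1 := integral_add_compl htm hgi
      have e2 := integral_add_compl htm hGi
      have e3 : ∫ x, g x ∂(PPn ν) = ∫ x, G x ∂(PPn ν) := integral_condExp (sU_le θ c _)
      linarith
    · intro s hd hs h
      have hsm : ∀ i, MeasurableSet (s i) := fun i => sUall_le θ c _ (hs i)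
      rw [integral_iUnion hsm hd hgi.integrableOn, integral_iUnion hsm hd hGi.integrableOn]
      exact tsum_congr h
  exact fun s hs _ => hmain s hs

end indep

section stepA

variable {θ : ℝ} {ν : Measure (W d → Bool)} [IsProbabilityMeasure ν]

lemma measurable_WWm (θ : ℝ) : Measurable (WWm (d := d) θ) := by
  unfold WWm
  exact measurable_fst.prodMk (measurable_innov θ)

/-- law of clocks and innovations -/
theorem law_WWm (hL : ∀ c : Cl (W d), (∀ a b : W d × ℕ, a.2 = b.2 → c a = c b → a = b) →
      (PPn ν).map (innov θ c) = μI (W d × ℕ)) :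
    (Pt ν).map (WWm θ) = (μI (W d × ℕ)).prod (μI (W d × ℕ)) := by
  refine (Measure.prod_eq fun s t hs ht => ?_).symm
  rw [Measure.map_apply (measurable_WWm θ) (hs.prod ht)]
  unfold Pt
  rw [Measure.prod_apply (measurable_WWm θ (hs.prod ht))]
  have e2 : ∀ᵐ c ∂(μI (W d × ℕ)), (PPn ν) (Prod.mk c ⁻¹' (WWm θ ⁻¹' (s ×ˢ t))) =
      s.indicator (fun _ => μI (W d × ℕ) t) c := by
    filter_upwards [Law.ae_inj_clock] with c hc
    have h := hL c hc
    by_cases hs' : c ∈ s
    · rw [indicator_of_mem hs', ← h, Measure.map_apply (measurable_innov_c θ c) ht]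
      congr 1
      ext p
      simp only [Set.mem_preimage, WWm, Set.mem_prod]
      exact ⟨fun h => h.2, fun h => ⟨hs', h⟩⟩
    · rw [indicator_of_notMem hs']
      have : Prod.mk c ⁻¹' (WWm θ ⁻¹' (s ×ˢ t)) = (∅ : Set (Om (W d))) := by
        ext p
        simp only [Set.mem_preimage, WWm, Set.mem_prod]
        exact ⟨fun h => hs' h.1, fun h => h.elim⟩
      rw [this, measure_empty]
  have e3 := lintegral_congr_ae e2
  change ∫⁻ c, (PPn ν) (Prod.mk c ⁻¹' (WWm θ ⁻¹' (s ×ˢ t))) ∂(μI (W d × ℕ)) = _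
  rw [e3, lintegral_indicator hs, setLIntegral_const, mul_comm]

/-- disintegration for almost every clock configuration -/
theorem stepA (hlaw : (Pt ν).map (WWm θ) = (μI (W d × ℕ)).prod (μI (W d × ℕ))) :
    ∀ᵐ c ∂(μI (W d × ℕ)), (PPn ν).map (fun p => (innov θ c p, p)) =
      (μI (W d × ℕ)) ⊗ₘ (Kernel.sectR (kap θ ν) c) := by
  set F : Cl (W d) × Om (W d) → (W d × ℕ → I) × Om (W d) :=
    fun q => (innov θ q.1 q.2, q.2) with hF
  have hFm : Measurable F := (measurable_innov θ).prodMk measurable_snd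
  set κ1 : Kernel (Cl (W d)) ((W d × ℕ → I) × Om (W d)) :=
    (Kernel.id ×ₖ Kernel.const _ (PPn ν)).map F with hκ1
  set κ2 : Kernel (Cl (W d)) ((W d × ℕ → I) × Om (W d)) :=
    (Kernel.const _ (μI (W d × ℕ))) ⊗ₖ (kap θ ν) with hκ2
  have a1 : ∀ c, κ1 c = (PPn ν).map (fun p => (innov θ c p, p)) := by
    intro c
    rw [hκ1, Kernel.map_apply _ hFm, Kernel.prod_apply, Kernel.id_apply, Kernel.const_apply,
      Measure.dirac_prod, Measure.map_map hFm measurable_prodMk_left]
    rfl
  have a2 : ∀ c, κ2 c = (μI (W d × ℕ)) ⊗ₘ (Kernel.sectR (kap θ ν) c) := by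
    intro c
    rw [hκ2, Kernel.compProd_apply_eq_compProd_sectR, Kernel.const_apply]
  have i1 : IsMarkovKernel κ1 := Kernel.IsMarkovKernel.map _ hFm
  have hG : Measurable (fun q : Cl (W d) × Om (W d) => (q.1, F q)) := measurable_fst.prodMk hFm
  have e1 : (μI (W d × ℕ)) ⊗ₘ κ1 = (Pt ν).map (fun q => (q.1, F q)) := by
    ext s hs
    rw [Measure.compProd_apply hs, Measure.map_apply hG hs]
    unfold Pt
    rw [Measure.prod_apply (hG hs)]
    refine lintegral_congr fun c => ?_
    have hm : Measurable (fun p : Om (W d) => (innov θ c p, p)) :=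
      (measurable_innov_c θ c).prodMk measurable_id
    rw [a1, Measure.map_apply hm (measurable_prodMk_left hs)]
    rfl
  have e2 : (μI (W d × ℕ)) ⊗ₘ κ2 = (Pt ν).map (fun q => (q.1, F q)) := by
    rw [hκ2, ← Measure.compProd_assoc', Measure.compProd_const, ← hlaw]
    unfold kap
    rw [compProd_map_condDistrib measurable_snd.aemeasurable, Measure.map_map]
    · rfl
    · fun_prop
    · exact (measurable_WWm θ).prodMk measurable_snd
  filter_upwards [Kernel.ae_eq_of_compProd_eq (e1.trans e2.symm)] with c hc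
  rw [← a1, ← a2, hc]

/-- almost every clock configuration is good -/
theorem goodC_ae (hI : IndepStmt θ ν)
    (hL : ∀ c : Cl (W d), (∀ a b : W d × ℕ, a.2 = b.2 → c a = c b → a = b) →
      (PPn ν).map (innov θ c) = μI (W d × ℕ)) :
    ∀ᵐ c ∂(μI (W d × ℕ)), GoodC θ ν c := by
  filter_upwards [Law.ae_inj_clock, stepA (law_WWm hL)] with c hc hA
  refine ⟨hL c hc, fun k r G hG hGb => ?_⟩
  obtain ⟨C, hC⟩ := hGb
  have hGm : Measurable G := hG.mono (sA_le c _) le_rfl
  have hGi : Integrable G (PPn ν) :=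
    Integrable.of_bound (C := C) hGm.aestronglyMeasurable
      (Eventually.of_forall fun p => by rw [Real.norm_eq_abs]; exact hC p)
  have h1 : condDistrib id (innov θ c) (PPn ν) =ᵐ[(PPn ν).map (innov θ c)]
      Kernel.sectR (kap θ ν) c :=
    condDistrib_ae_eq_of_measure_eq_compProd_of_measurable (measurable_innov_c θ c) measurable_id
      (by rw [hL c hc]; exact hA)
  have h2 := condExp_ae_eq_integral_condDistrib_id (measurable_innov_c θ c) hGi
  have h3 : ∀ᵐ p ∂(PPn ν), condDistrib id (innov θ c) (PPn ν) (innov θ c p) =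
      Kernel.sectR (kap θ ν) c (innov θ c p) :=
    ae_of_ae_map (measurable_innov_c θ c).aemeasurable h1
  have h4 := condExp_past hI c hc k r G hG hGi
  filter_upwards [h2, h3, h4] with p hp2 hp3 hp4
  rw [← hp4]
  have hp2' : (PPn ν)[G | sUall θ c] p = ∫ y, G y ∂(condDistrib id (innov θ c) (PPn ν) (innov θ c p)) := hp2
  rw [hp2', hp3, Kernel.sectR_apply]

end stepA

/-! ### the Ising measure -/

section ising

variable {θ : ℝ}

lemma indep_nu (h0 : 0 ≤ θ) (h1 : θ < 1) : IndepStmt θ (nu d θ) := by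
  intro c hc k r E hE s t hs ht
  exact Law.innov_indep h0 h1 c hc k r E hE s hs t ht

/-- law of clocks and innovations -/
theorem law_nu (h0 : 0 ≤ θ) (h1 : θ < 1) :
    (Pt (nu d θ)).map (WWm θ) = (μI (W d × ℕ)).prod (μI (W d × ℕ)) := by
  have := isProb_nu d h1.le
  exact law_WWm fun c hc => Law.innov_law h0 h1 c hc

theorem goodC_nu (h0 : 0 ≤ θ) (h1 : θ < 1) :
    have := isProb_nu d h1.le
    ∀ᵐ c ∂(μI (W d × ℕ)), GoodC θ (nu d θ) c := by
  intro hP
  exact goodC_ae (indep_nu h0 h1) fun c hc => Law.innov_law h0 h1 c hc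

end ising

end Crest.Agent.TI.P3
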