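import Mathlib

/-!
Row 160 (S0241).  General facts about the replica pair: two conditionally independent copies.
-/

set_option autoImplicit false

namespace Crest.Agent.TI.Pair

open MeasureTheory ProbabilityTheory Set Filter Topology
open scoped ENNReal

lemma int_mul_bdd {T : Type*} [MeasurableSpace T] {Q : Measure T} [IsFiniteMeasure Q]
    {f g : T → ℝ} (hf : Measurable f) (hg : Measurable g) (hfb : ∃ C, ∀ t, |f t| ≤ C)
    (hgb : ∃ C, ∀ t, |g t| ≤ C) : Integrable (fun t => f t * g t) Q := by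
  obtain ⟨D1, hD1⟩ := hfb
  obtain ⟨D2, hD2⟩ := hgb
  refine Integrable.of_bound (hf.mul hg).aestronglyMeasurable (D1 * D2)
    (Filter.Eventually.of_forall fun q => ?_)
  rw [Real.norm_eq_abs, abs_mul]
  exact mul_le_mul (hD1 _) (hD2 _) (abs_nonneg _) ((abs_nonneg _).trans (hD1 q))

section general

variable {A B Ω : Type*} [MeasurableSpace A] [MeasurableSpace B] [MeasurableSpace Ω]
  [StandardBorelSpace Ω] [Nonempty Ω]

/-- two conditionally independent copies of `X` given `W` -/
noncomputable def prM (P : Measure A) [IsFiniteMeasure P] (X : A → Ω) (W : A → B) :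
    Measure (B × (Ω × Ω)) :=
  (P.map W) ⊗ₘ (condDistrib X W P ×ₖ condDistrib X W P)

/-- integrate over the copy -/
noncomputable def bar (P : Measure A) [IsFiniteMeasure P] (X : A → Ω) (W : A → B)
    (F : B × Ω → ℝ) (b : B) : ℝ := ∫ x, F (b, x) ∂(condDistrib X W P b)

variable (P : Measure A) [IsProbabilityMeasure P] (X : A → Ω) (W : A → B)

lemma isProb_prM (hW : Measurable W) : IsProbabilityMeasure (prM P X W) := by
  have := Measure.isProbabilityMeasure_map (μ := P) hW.aemeasurable
  unfold prM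
  infer_instance

lemma map_prM_fst (hX : Measurable X) :
    (prM P X W).map (fun a => (a.1, a.2.1)) = P.map (fun a => (W a, X a)) := by
  rw [← compProd_map_condDistrib hX.aemeasurable]
  have h : (fun a : B × (Ω × Ω) => (a.1, a.2.1)) = Prod.map id Prod.fst := by
    funext a; rfl
  rw [h]
  unfold prM
  rw [← Measure.compProd_map measurable_fst]
  congr 1
  rw [← Kernel.fst_eq, Kernel.fst_prod]

lemma map_prM_snd (hX : Measurable X) :
    (prM P X W).map (fun a => (a.1, a.2.2)) = P.map (fun a => (W a, X a)) := by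
  rw [← compProd_map_condDistrib hX.aemeasurable]
  have h : (fun a : B × (Ω × Ω) => (a.1, a.2.2)) = Prod.map id Prod.snd := by
    funext a; rfl
  rw [h]
  unfold prM
  rw [← Measure.compProd_map measurable_snd]
  congr 1
  rw [← Kernel.snd_eq, Kernel.snd_prod]

lemma measurable_bar {F : B × Ω → ℝ} (hF : Measurable F) : Measurable (bar P X W F) :=
  hF.stronglyMeasurable.integral_condDistrib.measurable

lemma bar_bdd {F : B × Ω → ℝ} {C : ℝ} (hC : ∀ q, |F q| ≤ C) (b : B) : |bar P X W F b| ≤ C := by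
  unfold bar
  have h := norm_integral_le_of_norm_le_const (μ := condDistrib X W P b) (f := fun x => F (b, x))
    (C := C) (Filter.Eventually.of_forall fun x => by rw [Real.norm_eq_abs]; exact hC _)
  simpa using h

lemma integral_bar (hX : Measurable X) (hW : Measurable W) {H : B → ℝ} {F : B × Ω → ℝ}
    (hH : Measurable H) (hF : Measurable F) (hHb : ∃ C, ∀ q, |H q| ≤ C)
    (hFb : ∃ C, ∀ q, |F q| ≤ C) :
    ∫ a, H (W a) * F (W a, X a) ∂P = ∫ a, H (W a) * bar P X W F (W a) ∂P := by
  have i1 := Measure.isProbabilityMeasure_map (μ := P) hW.aemeasurable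
  obtain ⟨C1, hC1⟩ := hHb
  obtain ⟨C2, hC2⟩ := hFb
  have hm : Measurable (fun q : B × Ω => H q.1 * F q) := (hH.comp measurable_fst).mul hF
  have h1 : ∫ a, H (W a) * F (W a, X a) ∂P =
      ∫ q, H q.1 * F q ∂(P.map (fun a => (W a, X a))) := by
    rw [integral_map (hW.prodMk hX).aemeasurable hm.aestronglyMeasurable]
  have hint : Integrable (fun q : B × Ω => H q.1 * F q) ((P.map W) ⊗ₘ condDistrib X W P) := by
    refine Integrable.of_bound hm.aestronglyMeasurable (C1 * C2)
      (Filter.Eventually.of_forall fun q => ?_)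
    rw [Real.norm_eq_abs, abs_mul]
    exact mul_le_mul (hC1 _) (hC2 _) (abs_nonneg _) ((abs_nonneg _).trans (hC1 q.1))
  rw [h1, ← compProd_map_condDistrib hX.aemeasurable, Measure.integral_compProd hint,
    integral_map hW.aemeasurable]
  · refine integral_congr_ae (Filter.Eventually.of_forall fun a => ?_)
    simp only [bar]
    rw [integral_const_mul]
  · have : Measurable (fun b => H b * bar P X W F b) := hH.mul (measurable_bar P X W hF)
    refine this.aestronglyMeasurable.congr (Filter.Eventually.of_forall fun b => ?_)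
    simp only [bar]
    rw [integral_const_mul]

lemma integral_prM (hW : Measurable W) {F G : B × Ω → ℝ}
    (hF : Measurable F) (hG : Measurable G) (hFb : ∃ C, ∀ q, |F q| ≤ C)
    (hGb : ∃ C, ∀ q, |G q| ≤ C) :
    ∫ a, F (a.1, a.2.1) * G (a.1, a.2.2) ∂(prM P X W) =
      ∫ a, bar P X W F (W a) * bar P X W G (W a) ∂P := by
  have i1 := Measure.isProbabilityMeasure_map (μ := P) hW.aemeasurable
  obtain ⟨C1, hC1⟩ := hFb
  obtain ⟨C2, hC2⟩ := hGb
  have hm : Measurable (fun a : B × (Ω × Ω) => F (a.1, a.2.1) * G (a.1, a.2.2)) :=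
    (hF.comp (measurable_fst.prodMk (measurable_fst.comp measurable_snd))).mul
      (hG.comp (measurable_fst.prodMk (measurable_snd.comp measurable_snd)))
  have hint : Integrable (fun a : B × (Ω × Ω) => F (a.1, a.2.1) * G (a.1, a.2.2))
      ((P.map W) ⊗ₘ (condDistrib X W P ×ₖ condDistrib X W P)) := by
    refine Integrable.of_bound hm.aestronglyMeasurable (C1 * C2)
      (Filter.Eventually.of_forall fun q => ?_)
    rw [Real.norm_eq_abs, abs_mul]
    exact mul_le_mul (hC1 _) (hC2 _) (abs_nonneg _) ((abs_nonneg _).trans (hC1 (q.1, q.2.1)))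
  have hin : ∀ b, ∫ q : Ω × Ω, F (b, q.1) * G (b, q.2)
      ∂((condDistrib X W P ×ₖ condDistrib X W P) b) = bar P X W F b * bar P X W G b := by
    intro b
    rw [Kernel.prod_apply]
    exact integral_prod_mul (fun x => F (b, x)) (fun x => G (b, x))
  unfold prM
  rw [Measure.integral_compProd hint]
  simp only [hin]
  rw [integral_map hW.aemeasurable]
  exact ((measurable_bar P X W hF).mul (measurable_bar P X W hG)).aestronglyMeasurable

/-- differences between the two copies and between a copy and its conditional mean -/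
theorem integral_diff (hX : Measurable X) (hW : Measurable W) {F G : B × Ω → ℝ}
    (hF : Measurable F) (hG : Measurable G) (hFb : ∃ C, ∀ q, |F q| ≤ C)
    (hGb : ∃ C, ∀ q, |G q| ≤ C) :
    ∫ a, (F (a.1, a.2.1) - F (a.1, a.2.2)) * (G (a.1, a.2.1) - G (a.1, a.2.2)) ∂(prM P X W) =
      2 * ∫ a, (F (W a, X a) - bar P X W F (W a)) * (G (W a, X a) - bar P X W G (W a)) ∂P := by
  have i1 := Measure.isProbabilityMeasure_map (μ := P) hW.aemeasurable
  have i2 := isProb_prM P X W hW
  have e0 := integral_prM P X W hW hF hG hFb hGb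
  have e0' := integral_prM P X W hW hG hF hGb hFb
  obtain ⟨C1, hC1⟩ := hFb
  obtain ⟨C2, hC2⟩ := hGb
  have hbF := measurable_bar P X W hF
  have hbG := measurable_bar P X W hG
  have e1 := integral_bar P X W hX hW hbF hG ⟨C1, bar_bdd P X W hC1⟩ ⟨C2, hC2⟩
  have e2 := integral_bar P X W hX hW hbG hF ⟨C2, bar_bdd P X W hC2⟩ ⟨C1, hC1⟩
  have hFG : Measurable (fun q : B × Ω => F q * G q) := hF.mul hG
  have m1 : Measurable (fun a : B × (Ω × Ω) => (a.1, a.2.1)) :=
    measurable_fst.prodMk (measurable_fst.comp measurable_snd)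
  have m2 : Measurable (fun a : B × (Ω × Ω) => (a.1, a.2.2)) :=
    measurable_fst.prodMk (measurable_snd.comp measurable_snd)
  have mWX := hW.prodMk hX
  have e3 : ∫ a, F (a.1, a.2.1) * G (a.1, a.2.1) ∂(prM P X W) =
      ∫ a, F (W a, X a) * G (W a, X a) ∂P := by
    have h := integral_map (μ := prM P X W) m1.aemeasurable
      (f := fun q : B × Ω => F q * G q) hFG.aestronglyMeasurable
    rw [map_prM_fst P X W hX, integral_map mWX.aemeasurable hFG.aestronglyMeasurable] at h
    exact h.symm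
  have e4 : ∫ a, F (a.1, a.2.2) * G (a.1, a.2.2) ∂(prM P X W) =
      ∫ a, F (W a, X a) * G (W a, X a) ∂P := by
    have h := integral_map (μ := prM P X W) m2.aemeasurable
      (f := fun q : B × Ω => F q * G q) hFG.aestronglyMeasurable
    rw [map_prM_snd P X W hX, integral_map mWX.aemeasurable hFG.aestronglyMeasurable] at h
    exact h.symm
  have hL : ∀ a : B × (Ω × Ω),
      (F (a.1, a.2.1) - F (a.1, a.2.2)) * (G (a.1, a.2.1) - G (a.1, a.2.2)) =
      (F (a.1, a.2.1) * G (a.1, a.2.1) + F (a.1, a.2.2) * G (a.1, a.2.2)) -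
      (F (a.1, a.2.1) * G (a.1, a.2.2) + G (a.1, a.2.1) * F (a.1, a.2.2)) := fun a => by ring
  have hR : ∀ a : A, (F (W a, X a) - bar P X W F (W a)) * (G (W a, X a) - bar P X W G (W a)) =
      (F (W a, X a) * G (W a, X a) + bar P X W F (W a) * bar P X W G (W a)) -
      (bar P X W F (W a) * G (W a, X a) + bar P X W G (W a) * F (W a, X a)) := fun a => by ring
  simp_rw [hL, hR]
  have hb1 : ∃ C, ∀ a : A, |bar P X W F (W a)| ≤ C := ⟨C1, fun a => bar_bdd P X W hC1 _⟩
  have hb2 : ∃ C, ∀ a : A, |bar P X W G (W a)| ≤ C := ⟨C2, fun a => bar_bdd P X W hC2 _⟩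
  rw [integral_sub, integral_add, integral_add, integral_sub, integral_add, integral_add,
    e0, e0', e1, e2, e3, e4]
  · have : ∫ a, bar P X W G (W a) * bar P X W F (W a) ∂P =
        ∫ a, bar P X W F (W a) * bar P X W G (W a) ∂P := by
      simp_rw [mul_comm]
    rw [this]
    ring
  · exact int_mul_bdd (hbF.comp hW) (hG.comp mWX) hb1 ⟨C2, fun _ => hC2 _⟩
  · exact int_mul_bdd (hbG.comp hW) (hF.comp mWX) hb2 ⟨C1, fun _ => hC1 _⟩
  · exact int_mul_bdd (hF.comp mWX) (hG.comp mWX) ⟨C1, fun _ => hC1 _⟩ ⟨C2, fun _ => hC2 _⟩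
  · exact int_mul_bdd (hbF.comp hW) (hbG.comp hW) hb1 hb2
  · exact (int_mul_bdd (hF.comp mWX) (hG.comp mWX) ⟨C1, fun _ => hC1 _⟩ ⟨C2, fun _ => hC2 _⟩).add
      (int_mul_bdd (hbF.comp hW) (hbG.comp hW) hb1 hb2)
  · exact (int_mul_bdd (hbF.comp hW) (hG.comp mWX) hb1 ⟨C2, fun _ => hC2 _⟩).add
      (int_mul_bdd (hbG.comp hW) (hF.comp mWX) hb2 ⟨C1, fun _ => hC1 _⟩)
  · exact int_mul_bdd (hF.comp m1) (hG.comp m2) ⟨C1, fun _ => hC1 _⟩ ⟨C2, fun _ => hC2 _⟩
  · exact int_mul_bdd (hG.comp m1) (hF.comp m2) ⟨C2, fun _ => hC2 _⟩ ⟨C1, fun _ => hC1 _⟩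
  · exact int_mul_bdd (hF.comp m1) (hG.comp m1) ⟨C1, fun _ => hC1 _⟩ ⟨C2, fun _ => hC2 _⟩
  · exact int_mul_bdd (hF.comp m2) (hG.comp m2) ⟨C1, fun _ => hC1 _⟩ ⟨C2, fun _ => hC2 _⟩
  · exact (int_mul_bdd (hF.comp m1) (hG.comp m1) ⟨C1, fun _ => hC1 _⟩ ⟨C2, fun _ => hC2 _⟩).add
      (int_mul_bdd (hF.comp m2) (hG.comp m2) ⟨C1, fun _ => hC1 _⟩ ⟨C2, fun _ => hC2 _⟩)
  · exact (int_mul_bdd (hF.comp m1) (hG.comp m2) ⟨C1, fun _ => hC1 _⟩ ⟨C2, fun _ => hC2 _⟩).add
      (int_mul_bdd (hG.comp m1) (hF.comp m2) ⟨C2, fun _ => hC2 _⟩ ⟨C1, fun _ => hC1 _⟩)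

/-! ### symmetries -/

section sym

variable (S : A → A) (τ : B ≃ᵐ B) (σ : Ω → Ω)

lemma map_joint_sym (hX : Measurable X) (hW : Measurable W) (hS : MeasurePreserving S P P)
    (hσ : Measurable σ) (h1 : ∀ᵐ a ∂P, W (S a) = τ (W a)) (h2 : ∀ᵐ a ∂P, X (S a) = σ (X a)) :
    (P.map (fun a => (W a, X a))).map (fun q => (τ q.1, σ q.2)) = P.map (fun a => (W a, X a)) := by
  have mWX := hW.prodMk hX
  have m1 : Measurable (fun q : B × Ω => (τ q.1, σ q.2)) :=
    (τ.measurable.comp measurable_fst).prodMk (hσ.comp measurable_snd)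
  rw [Measure.map_map m1 mWX]
  have h3 : P.map (fun a => (W a, X a)) = P.map ((fun a => (W a, X a)) ∘ S) := by
    rw [← Measure.map_map mWX hS.measurable, hS.map_eq]
  rw [h3]
  refine Measure.map_congr ?_
  filter_upwards [h1, h2] with a ha1 ha2
  simp only [Function.comp_apply, ha1, ha2]

lemma map_W_sym (hW : Measurable W) (hS : MeasurePreserving S P P)
    (h1 : ∀ᵐ a ∂P, W (S a) = τ (W a)) : (P.map W).map τ = P.map W := by
  rw [Measure.map_map τ.measurable hW]
  have h3 : P.map W = P.map (W ∘ S) := by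
    rw [← Measure.map_map hW hS.measurable, hS.map_eq]
  rw [h3]
  refine Measure.map_congr ?_
  filter_upwards [h1] with a ha1
  simp only [Function.comp_apply, ha1]

/-- equivariance of the conditional law -/
theorem condDistrib_sym (hX : Measurable X) (hW : Measurable W) (hS : MeasurePreserving S P P)
    (hσ : Measurable σ) (h1 : ∀ᵐ a ∂P, W (S a) = τ (W a)) (h2 : ∀ᵐ a ∂P, X (S a) = σ (X a)) :
    ∀ᵐ b ∂(P.map W), (condDistrib X W P b).map σ = condDistrib X W P (τ b) := by
  have i1 := Measure.isProbabilityMeasure_map (μ := P) hW.aemeasurable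
  have hjoint := map_joint_sym P X W S τ σ hX hW hS hσ h1 h2
  have hWs := map_W_sym P W S τ hW hS h1
  set κ := condDistrib X W P with hκ
  set κ' : Kernel B Ω := (κ.map σ).comap τ.symm τ.symm.measurable with hκ'
  have i3 : IsMarkovKernel (κ.map σ) := Kernel.IsMarkovKernel.map κ hσ
  have i2 : IsMarkovKernel κ' := by rw [hκ']; infer_instance
  have key : P.map (fun x => (W x, X x)) = P.map W ⊗ₘ κ' := by
    refine Measure.ext_of_lintegral _ fun f hf => ?_
    have m1 : Measurable (fun q : B × Ω => (τ q.1, σ q.2)) :=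
      (τ.measurable.comp measurable_fst).prodMk (hσ.comp measurable_snd)
    conv_lhs => rw [← hjoint]
    rw [lintegral_map hf m1, ← compProd_map_condDistrib hX.aemeasurable,
      Measure.lintegral_compProd (f := fun q : B × Ω => f (τ q.1, σ q.2)) (hf.comp m1),
      Measure.lintegral_compProd hf]
    conv_rhs => rw [← hWs]
    rw [lintegral_map (hf.lintegral_kernel_prod_right') τ.measurable]
    refine lintegral_congr fun b => ?_
    have hm : Measurable (fun x : Ω => f (τ b, x)) := hf.comp measurable_prodMk_left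
    rw [hκ', Kernel.comap_apply, τ.symm_apply_apply, Kernel.map_apply _ hσ,
      lintegral_map hm hσ]
  have h4 := condDistrib_ae_eq_of_measure_eq_compProd W hX.aemeasurable key
  have h5 : ∀ᵐ b ∂((P.map W).map τ), κ b = κ' b := by rw [hWs]; exact h4
  have h6 := ae_of_ae_map τ.measurable.aemeasurable h5
  filter_upwards [h6] with b hb
  rw [hb, hκ', Kernel.comap_apply, τ.symm_apply_apply, Kernel.map_apply _ hσ]

/-- the pair is invariant -/
theorem prM_sym (hX : Measurable X) (hW : Measurable W) (hS : MeasurePreserving S P P)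
    (hσ : Measurable σ) (h1 : ∀ᵐ a ∂P, W (S a) = τ (W a)) (h2 : ∀ᵐ a ∂P, X (S a) = σ (X a)) :
    (prM P X W).map (fun a => (τ a.1, (σ a.2.1, σ a.2.2))) = prM P X W := by
  have i1 := Measure.isProbabilityMeasure_map (μ := P) hW.aemeasurable
  have hWs := map_W_sym P W S τ hW hS h1
  have hc := condDistrib_sym P X W S τ σ hX hW hS hσ h1 h2
  have m1 : Measurable (fun a : B × (Ω × Ω) => (τ a.1, (σ a.2.1, σ a.2.2))) :=
    (τ.measurable.comp measurable_fst).prodMk
      ((hσ.comp (measurable_fst.comp measurable_snd)).prodMk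
        (hσ.comp (measurable_snd.comp measurable_snd)))
  refine Measure.ext_of_lintegral _ fun f hf => ?_
  rw [lintegral_map hf m1]
  unfold prM
  rw [Measure.lintegral_compProd
    (f := fun a : B × (Ω × Ω) => f (τ a.1, (σ a.2.1, σ a.2.2))) (hf.comp m1),
    Measure.lintegral_compProd hf]
  conv_rhs => rw [← hWs]
  rw [lintegral_map (hf.lintegral_kernel_prod_right') τ.measurable]
  refine lintegral_congr_ae ?_
  filter_upwards [hc] with b hb
  rw [Kernel.prod_apply, Kernel.prod_apply, ← hb]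
  have hp : MeasurePreserving (Prod.map σ σ) ((condDistrib X W P b).prod (condDistrib X W P b))
      (((condDistrib X W P b).map σ).prod ((condDistrib X W P b).map σ)) :=
    (hσ.measurePreserving _).prod (hσ.measurePreserving _)
  have hm : Measurable (fun q : Ω × Ω => f (τ b, q)) := hf.comp measurable_prodMk_left
  rw [← hp.map_eq, lintegral_map hm hp.measurable]
  rfl

/-- equivariance of the conditional mean -/
theorem bar_sym (hX : Measurable X) (hW : Measurable W) (hS : MeasurePreserving S P P)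
    (hσ : Measurable σ) (h1 : ∀ᵐ a ∂P, W (S a) = τ (W a)) (h2 : ∀ᵐ a ∂P, X (S a) = σ (X a))
    {F : B × Ω → ℝ} (hF : Measurable F) :
    ∀ᵐ a ∂P, bar P X W F (W (S a)) = bar P X W (fun q => F (τ q.1, σ q.2)) (W a) := by
  have hc := ae_of_ae_map hW.aemeasurable (condDistrib_sym P X W S τ σ hX hW hS hσ h1 h2)
  filter_upwards [hc, h1] with a ha ha1
  unfold bar
  have hm : Measurable (fun x : Ω => F (τ (W a), x)) := hF.comp measurable_prodMk_left
  rw [ha1, ← ha, integral_map hσ.aemeasurable hm.aestronglyMeasurable]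

/-- the conditional mean of almost surely equal functions -/
theorem bar_congr (hX : Measurable X) (hW : Measurable W) {F G : B × Ω → ℝ}
    (h : ∀ᵐ a ∂P, F (W a, X a) = G (W a, X a)) (hF : Measurable F) (hG : Measurable G) :
    ∀ᵐ a ∂P, bar P X W F (W a) = bar P X W G (W a) := by
  have i1 := Measure.isProbabilityMeasure_map (μ := P) hW.aemeasurable
  have h1 : ∀ᵐ q ∂(P.map (fun a => (W a, X a))), F q = G q := by
    rw [ae_map_iff (hW.prodMk hX).aemeasurable (measurableSet_eq_fun hF hG)]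
    exact h
  rw [← compProd_map_condDistrib hX.aemeasurable] at h1
  have h2 := Measure.ae_ae_of_ae_compProd h1
  have h3 := ae_of_ae_map hW.aemeasurable h2
  filter_upwards [h3] with a ha
  unfold bar
  exact integral_congr_ae ha

end sym

end general

end Crest.Agent.TI.Pair
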